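import Mathlib

/-!
# Row 246, block AC-EXIST, part 1 (helper348): abstract minimax by discrete gradient descent

`H` real Hilbert space, `E : H → ℝ` with Lipschitz gradient `G`.  The map `T u = u - L⁻¹ • G u`
decreases `E`; iterating it on a family of odd continuous maps gives a Palais-Smale sequence at the
minimax level, without deformation lemma and without flow.
-/

set_option autoImplicit false

open Filter Topology

noncomputable section
namespace Crest.Agent.R246.Ac348

variable {H : Type*} [NormedAddCommGroup H] [InnerProductSpace ℝ H]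

/-- `E` has gradient `G`, which is `L`-Lipschitz -/
structure LipGrad (E : H → ℝ) (G : H → H) (L : ℝ) : Prop where
  pos : 0 < L
  grad : ∀ u, HasFDerivAt E (innerSL ℝ (G u)) u
  lip : ∀ u v, ‖G u - G v‖ ≤ L * ‖u - v‖

namespace LipGrad

variable {E : H → ℝ} {G : H → H} {L : ℝ}

theorem continuous_grad (h : LipGrad E G L) : Continuous G := by
  have : LipschitzWith (Real.toNNReal L) G := by
    refine LipschitzWith.of_dist_le_mul fun u v => ?_
    rw [dist_eq_norm, dist_eq_norm, Real.coe_toNNReal _ h.pos.le]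
    exact h.lip u v
  exact this.continuous

theorem continuous (h : LipGrad E G L) : Continuous E :=
  continuous_iff_continuousAt.2 fun u => (h.grad u).continuousAt

/-- descent lemma -/
theorem le_quad (h : LipGrad E G L) (u v : H) :
    E (u + v) ≤ E u + inner ℝ (G u) v + L / 2 * ‖v‖ ^ 2 := by
  set ψ : ℝ → ℝ := fun t => E (u + t • v) - t * inner ℝ (G u) v - L / 2 * t ^ 2 * ‖v‖ ^ 2 with hψ
  have hd : ∀ t, HasDerivAt ψ (inner ℝ (G (u + t • v)) v - inner ℝ (G u) v - L * t * ‖v‖ ^ 2) t := by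
    intro t
    have h1 : HasDerivAt (fun t : ℝ => u + t • v) v t := by
      simpa using ((hasDerivAt_id t).smul_const v).const_add u
    have h2 := (h.grad (u + t • v)).comp_hasDerivAt t h1
    have h3 : HasDerivAt (fun t : ℝ => t * inner ℝ (G u) v) (inner ℝ (G u) v) t := by
      simpa using (hasDerivAt_id t).mul_const (inner ℝ (G u) v)
    have h4 : HasDerivAt (fun t : ℝ => L / 2 * t ^ 2 * ‖v‖ ^ 2) (L * t * ‖v‖ ^ 2) t := by
      have := ((hasDerivAt_pow 2 t).const_mul (L / 2)).mul_const (‖v‖ ^ 2)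
      refine this.congr_deriv ?_
      push_cast
      ring
    exact (h2.sub h3).sub h4
  have hanti : AntitoneOn ψ (Set.Icc 0 1) := by
    refine antitoneOn_of_deriv_nonpos (convex_Icc 0 1)
      (fun t _ => (hd t).continuousAt.continuousWithinAt)
      (fun t _ => (hd t).differentiableAt.differentiableWithinAt) fun t ht => ?_
    rw [interior_Icc] at ht
    rw [(hd t).deriv]
    have h1 : inner ℝ (G (u + t • v)) v - inner ℝ (G u) v = inner ℝ (G (u + t • v) - G u) v := by
      rw [inner_sub_left]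
    have h2 : inner ℝ (G (u + t • v) - G u) v ≤ L * t * ‖v‖ ^ 2 := by
      calc inner ℝ (G (u + t • v) - G u) v ≤ ‖G (u + t • v) - G u‖ * ‖v‖ := real_inner_le_norm _ _
        _ ≤ (L * ‖u + t • v - u‖) * ‖v‖ := by gcongr; exact h.lip _ _
        _ = L * t * ‖v‖ ^ 2 := by
            rw [add_sub_cancel_left, norm_smul, Real.norm_eq_abs, abs_of_pos ht.1]; ring
    linarith
  have h01 := hanti (Set.left_mem_Icc.2 zero_le_one) (Set.right_mem_Icc.2 zero_le_one) zero_le_one
  simp only [hψ, zero_smul, one_smul, add_zero] at h01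
  linarith

/-- the descent step -/
def step (G : H → H) (L : ℝ) (u : H) : H := u - L⁻¹ • G u

theorem E_step_le (h : LipGrad E G L) (u : H) :
    E (step G L u) ≤ E u - (2 * L)⁻¹ * ‖G u‖ ^ 2 := by
  have h1 := h.le_quad u (-(L⁻¹ • G u))
  have hL := h.pos
  have e : step G L u = u + -(L⁻¹ • G u) := by rw [step, sub_eq_add_neg]
  rw [e]
  refine h1.trans (le_of_eq ?_)
  rw [inner_neg_right, inner_smul_right, norm_neg, norm_smul, Real.norm_eq_abs,
    abs_of_pos (inv_pos.2 hL), real_inner_self_eq_norm_sq]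
  field_simp
  ring

theorem continuous_step (h : LipGrad E G L) : Continuous (step G L) :=
  continuous_id.sub (h.continuous_grad.const_smul _)

/-- iterates: the energy decreases and the gradients are summable -/
theorem sum_grad_le (h : LipGrad E G L) (u : H) (n : ℕ) :
    (2 * L)⁻¹ * ∑ j ∈ Finset.range n, ‖G ((step G L)^[j] u)‖ ^ 2 ≤ E u - E ((step G L)^[n] u) := by
  induction n with
  | zero => simp
  | succ n ih =>
    rw [Finset.sum_range_succ, mul_add, Function.iterate_succ_apply']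
    have h1 := h.E_step_le ((step G L)^[n] u)
    linarith

theorem antitone_iter (h : LipGrad E G L) (u : H) : Antitone fun n : ℕ => E ((step G L)^[n] u) := by
  refine antitone_nat_of_succ_le fun n => ?_
  show E ((step G L)^[n + 1] u) ≤ E ((step G L)^[n] u)
  rw [Function.iterate_succ_apply']
  have h1 := h.E_step_le ((step G L)^[n] u)
  have h2 : 0 ≤ (2 * L)⁻¹ * ‖G ((step G L)^[n] u)‖ ^ 2 := by
    have := h.pos; positivity
  linarith

end LipGrad

open LipGrad

/-- maximum of `E ∘ γ` over the parameter space -/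
def maxE {P : Type*} (E : H → ℝ) (γ : P → H) : ℝ := ⨆ p, E (γ p)

/-- the minimax level of a class of families -/
def level {P : Type*} (E : H → ℝ) (Γ : Set (P → H)) : ℝ := sInf ((fun γ => maxE E γ) '' Γ)

/-- **Minimax principle.**  `Γ` a nonempty class of continuous maps `P → H`, `P` compact nonempty,
stable under the descent step; `E` bounded below.  Then there is a Palais-Smale sequence at the
minimax level. -/
theorem exists_ps {P : Type*} [TopologicalSpace P] [CompactSpace P] [Nonempty P]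
    {E : H → ℝ} {G : H → H} {L : ℝ} (h : LipGrad E G L) {b : ℝ} (hb : ∀ u, b ≤ E u)
    (Γ : Set (P → H)) (hne : Γ.Nonempty) (hcont : ∀ γ ∈ Γ, Continuous γ)
    (hstep : ∀ γ ∈ Γ, (fun p => step G L (γ p)) ∈ Γ) {δ : ℝ} (hδ : 0 < δ) :
    ∃ u : H, level E Γ ≤ E u ∧ E u ≤ level E Γ + δ ∧ ‖G u‖ ≤ δ := by
  have hbdd : BddBelow ((fun γ : P → H => maxE E γ) '' Γ) := by
    refine ⟨b, ?_⟩
    rintro _ ⟨γ, hγ, rfl⟩
    obtain ⟨p⟩ := ‹Nonempty P›
    have hc : Continuous fun p => E (γ p) := h.continuous.comp (hcont γ hγ)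
    exact (hb (γ p)).trans (le_ciSup (isCompact_range hc).bddAbove p)
  set η : ℝ := min δ (δ ^ 2) with hη
  have hη0 : 0 < η := by positivity
  obtain ⟨_, ⟨γ, hγ, rfl⟩, hlt⟩ := exists_lt_of_csInf_lt (hne.image _)
    (show sInf ((fun γ : P → H => maxE E γ) '' Γ) < level E Γ + η by
      rw [level]; linarith)
  -- iterate
  have hit : ∀ n : ℕ, (fun p => (step G L)^[n] (γ p)) ∈ Γ := by
    intro n
    induction n with
    | zero => simpa using hγ
    | succ n ih =>
      have := hstep _ ih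
      simpa only [Function.iterate_succ_apply'] using this
  obtain ⟨n, hn⟩ := exists_nat_gt (2 * L)
  have hLpos := h.pos
  have hn0 : (0 : ℝ) < n := lt_trans (by positivity) hn
  have hcn : Continuous fun p => E ((step G L)^[n] (γ p)) := h.continuous.comp (hcont _ (hit n))
  obtain ⟨p, hp⟩ : ∃ p, maxE E (fun p => (step G L)^[n] (γ p)) ≤ E ((step G L)^[n] (γ p)) := by
    obtain ⟨p, -, hp⟩ := isCompact_univ.exists_isMaxOn (Set.univ_nonempty (α := P))
      hcn.continuousOn
    refine ⟨p, ciSup_le fun q => ?_⟩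
    exact hp (Set.mem_univ q)
  have hlev : level E Γ ≤ E ((step G L)^[n] (γ p)) := (csInf_le hbdd ⟨_, hit n, rfl⟩).trans hp
  have hup : E (γ p) < level E Γ + η := by
    refine lt_of_le_of_lt ?_ hlt
    exact le_ciSup (f := fun p => E (γ p)) (isCompact_range (h.continuous.comp (hcont γ hγ))).bddAbove p
  have hsum := h.sum_grad_le (γ p) n
  have hsum2 : (2 * L)⁻¹ * ∑ j ∈ Finset.range n, ‖G ((step G L)^[j] (γ p))‖ ^ 2 ≤ δ ^ 2 := by
    have : η ≤ δ ^ 2 := min_le_right _ _
    linarith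
  -- pigeonhole
  obtain ⟨j, hj, hjle⟩ : ∃ j ∈ Finset.range n, ‖G ((step G L)^[j] (γ p))‖ ^ 2 ≤ δ ^ 2 := by
    by_contra hcon
    push Not at hcon
    have hne' : (Finset.range n).Nonempty := by
      rw [Finset.nonempty_range_iff]
      rintro rfl
      simp at hn0
    have h1 : ∑ j ∈ Finset.range n, δ ^ 2 < ∑ j ∈ Finset.range n, ‖G ((step G L)^[j] (γ p))‖ ^ 2 :=
      Finset.sum_lt_sum_of_nonempty hne' hcon
    rw [Finset.sum_const, Finset.card_range, nsmul_eq_mul] at h1
    have h2 : (2 * L)⁻¹ * (n * δ ^ 2) < δ ^ 2 := by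
      refine lt_of_lt_of_le ?_ hsum2
      gcongr
    rw [inv_mul_lt_iff₀ (by positivity)] at h2
    have h3 : (0 : ℝ) < δ ^ 2 := by positivity
    nlinarith
  have hjn : j ≤ n := (Finset.mem_range.1 hj).le
  refine ⟨(step G L)^[j] (γ p), hlev.trans (h.antitone_iter (γ p) hjn), ?_, ?_⟩
  · have h1 := h.antitone_iter (γ p) (Nat.zero_le j)
    simp only [Function.iterate_zero, id] at h1
    have h2 : η ≤ δ := min_le_left _ _
    linarith
  · exact le_of_sq_le_sq hjle hδ.le

/-- Palais-Smale sequence -/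
theorem exists_ps_seq {P : Type*} [TopologicalSpace P] [CompactSpace P] [Nonempty P]
    {E : H → ℝ} {G : H → H} {L : ℝ} (h : LipGrad E G L) {b : ℝ} (hb : ∀ u, b ≤ E u)
    (Γ : Set (P → H)) (hne : Γ.Nonempty) (hcont : ∀ γ ∈ Γ, Continuous γ)
    (hstep : ∀ γ ∈ Γ, (fun p => step G L (γ p)) ∈ Γ) :
    ∃ u : ℕ → H, Tendsto (fun n => E (u n)) atTop (𝓝 (level E Γ)) ∧
      Tendsto (fun n => G (u n)) atTop (𝓝 0) := by
  choose u hu1 hu2 hu3 using fun n : ℕ => exists_ps h hb Γ hne hcont hstep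
    (δ := 1 / ((n : ℝ) + 1)) (by positivity)
  have h0 : Tendsto (fun n : ℕ => 1 / ((n : ℝ) + 1)) atTop (𝓝 0) :=
    tendsto_one_div_add_atTop_nhds_zero_nat
  refine ⟨u, ?_, ?_⟩
  · refine tendsto_of_tendsto_of_tendsto_of_le_of_le tendsto_const_nhds
      (g := fun _ => level E Γ) (h := fun n : ℕ => level E Γ + 1 / ((n : ℝ) + 1)) ?_ hu1 hu2
    simpa using h0.const_add (level E Γ)
  · rw [tendsto_zero_iff_norm_tendsto_zero]
    exact squeeze_zero (fun n => norm_nonneg _) hu3 h0

/-- **Critical point at the minimax level** for a gradient of the form `κ u + B u` with `B` compact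
(on bounded sets) and `E` coercive. -/
theorem exists_crit {P : Type*} [TopologicalSpace P] [CompactSpace P] [Nonempty P]
    {E : H → ℝ} {G : H → H} {L : ℝ} (h : LipGrad E G L) {b : ℝ} (hb : ∀ u, b ≤ E u)
    (hcoer : ∀ C : ℝ, ∃ R : ℝ, ∀ u, E u ≤ C → ‖u‖ ≤ R)
    {κ : ℝ} (hκ : κ ≠ 0) {B : H → H} (hGB : ∀ u, G u = κ • u + B u)
    (hB : ∀ (u : ℕ → H) (R : ℝ), (∀ n, ‖u n‖ ≤ R) → ∃ (w : H) (φ : ℕ → ℕ), StrictMono φ ∧
      Tendsto (fun n => B (u (φ n))) atTop (𝓝 w))
    (Γ : Set (P → H)) (hne : Γ.Nonempty) (hcont : ∀ γ ∈ Γ, Continuous γ)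
    (hstep : ∀ γ ∈ Γ, (fun p => step G L (γ p)) ∈ Γ) :
    ∃ u : H, G u = 0 ∧ E u = level E Γ := by
  obtain ⟨u, hu1, hu2⟩ := exists_ps_seq h hb Γ hne hcont hstep
  obtain ⟨C, hC⟩ := hu1.bddAbove_range
  obtain ⟨R, hR⟩ := hcoer C
  obtain ⟨w, φ, hφ, hw⟩ := hB u R fun n => hR _ (hC ⟨n, rfl⟩)
  have hlim : Tendsto (fun n => u (φ n)) atTop (𝓝 (κ⁻¹ • (0 - w))) := by
    have h1 : (fun n => u (φ n)) = fun n => κ⁻¹ • (G (u (φ n)) - B (u (φ n))) := by
      funext n
      rw [hGB, add_sub_cancel_right, smul_smul, inv_mul_cancel₀ hκ, one_smul]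
    rw [h1]
    exact ((hu2.comp hφ.tendsto_atTop).sub hw).const_smul _
  refine ⟨_, tendsto_nhds_unique ((h.continuous_grad.tendsto _).comp hlim)
    (hu2.comp hφ.tendsto_atTop), tendsto_nhds_unique ((h.continuous.tendsto _).comp hlim)
    (hu1.comp hφ.tendsto_atTop)⟩

/-- odd families -/
def oddFam (P : Type*) [TopologicalSpace P] [Neg P] (H : Type*) [NormedAddCommGroup H] :
    Set (P → H) := {γ | Continuous γ ∧ ∀ p, γ (-p) = -γ p}

theorem step_odd {G : H → H} (hG : ∀ u, G (-u) = -G u) (L : ℝ) (u : H) :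
    step G L (-u) = -step G L u := by
  simp only [step, hG, smul_neg]
  abel

theorem oddFam_step {P : Type*} [TopologicalSpace P] [Neg P] {E : H → ℝ} {G : H → H} {L : ℝ}
    (h : LipGrad E G L) (hG : ∀ u, G (-u) = -G u) (γ : P → H) (hγ : γ ∈ oddFam P H) :
    (fun p => step G L (γ p)) ∈ oddFam P H :=
  ⟨h.continuous_step.comp hγ.1, fun p => by
    show step G L (γ (-p)) = -step G L (γ p)
    rw [hγ.2, step_odd hG]⟩

end Crest.Agent.R246.Ac348
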