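import Mathlib.Analysis.InnerProductSpace.Calculus
import Mathlib.Analysis.InnerProductSpace.Dual
import Mathlib.Analysis.Calculus.BumpFunction.Convolution
import Mathlib.Analysis.Calculus.BumpFunction.InnerProduct
import Mathlib.Analysis.SpecialFunctions.Trigonometric.InverseDeriv
import Mathlib.Analysis.SpecialFunctions.Trigonometric.DerivHyp
import Mathlib.MeasureTheory.Constructions.HaarToSphere
import Mathlib.Analysis.Calculus.ContDiff.Convolution

/-!
# R246, block D1 (x1): smoothing one member of the Lie family (helper657)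

`exists_smooth_approx` : for `φ` positively 1-homogeneous and 1-Lipschitz, the function
`tanh ((arcsin φ - θ)/ε)` on the unit sphere is uniformly approximated by smooth 0-homogeneous `w`
with `|w| < 1` and Allen-Cahn energy `≤ ∫ (1/ε) sech⁴ ((arcsin φ - θ)/ε) + δ`.
-/

set_option autoImplicit false
set_option linter.unusedSectionVars false

noncomputable section
open MeasureTheory Set Filter Topology Metric
open scoped RealInnerProductSpace ContDiff Convolution NNReal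

namespace Crest.Agent.R246.Moll657

/-! ### one-variable preliminaries -/

theorem hasDerivAt_tanh (x : ℝ) : HasDerivAt Real.tanh (1 - Real.tanh x ^ 2) x := by
  have h1 : HasDerivAt (fun x => Real.sinh x / Real.cosh x)
      ((Real.cosh x * Real.cosh x - Real.sinh x * Real.sinh x) / Real.cosh x ^ 2) x :=
    (Real.hasDerivAt_sinh x).div (Real.hasDerivAt_cosh x) (Real.cosh_pos x).ne'
  have h2 : (fun x => Real.sinh x / Real.cosh x) = Real.tanh := by
    funext y; rw [Real.tanh_eq_sinh_div_cosh]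
  rw [h2] at h1
  convert h1 using 1
  rw [Real.tanh_eq_sinh_div_cosh]
  have := (Real.cosh_pos x).ne'
  field_simp

theorem contDiff_tanh : ContDiff ℝ ∞ Real.tanh := by
  have h2 : (fun x => Real.sinh x / Real.cosh x) = Real.tanh := by
    funext y; rw [Real.tanh_eq_sinh_div_cosh]
  rw [← h2]
  exact Real.contDiff_sinh.div Real.contDiff_cosh fun x => (Real.cosh_pos x).ne'

theorem continuous_tanh : Continuous Real.tanh := contDiff_tanh.continuous

/-- the profile `s ↦ tanh ((arcsin s - θ)/ε)` -/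
def prof (ε θ s : ℝ) : ℝ := Real.tanh ((Real.arcsin s - θ) / ε)

theorem continuous_prof (ε θ : ℝ) : Continuous (prof ε θ) := by
  unfold prof
  exact continuous_tanh.comp ((Real.continuous_arcsin.sub continuous_const).div_const _)

theorem prof_lt_one (ε θ s : ℝ) : prof ε θ s < 1 := Real.tanh_lt_one _

theorem neg_one_lt_prof (ε θ s : ℝ) : -1 < prof ε θ s := Real.neg_one_lt_tanh _

theorem abs_prof_lt_one (ε θ s : ℝ) : |prof ε θ s| < 1 :=
  abs_lt.2 ⟨neg_one_lt_prof ε θ s, prof_lt_one ε θ s⟩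

theorem hasDerivAt_prof (ε θ : ℝ) {s : ℝ} (hs : |s| < 1) :
    HasDerivAt (prof ε θ) ((1 - prof ε θ s ^ 2) * (1 / Real.sqrt (1 - s ^ 2) / ε)) s := by
  have h := abs_lt.1 hs
  have h1 := (Real.hasDerivAt_arcsin h.1.ne' h.2.ne)
  have h2 := (h1.sub_const θ).div_const ε
  exact (hasDerivAt_tanh _).comp s h2

theorem contDiffAt_prof (ε θ : ℝ) {s : ℝ} (hs : |s| < 1) : ContDiffAt ℝ ∞ (prof ε θ) s := by
  have h := abs_lt.1 hs
  have h1 : ContDiffAt ℝ ∞ Real.arcsin s := Real.contDiffAt_arcsin h.1.ne' h.2.ne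
  have h2 : ContDiffAt ℝ ∞ (fun s => (Real.arcsin s - θ) / ε) s :=
    (h1.sub contDiffAt_const).div_const _
  exact contDiff_tanh.contDiffAt.comp s h2

/-! ### energy -/

variable {E : Type*} [NormedAddCommGroup E] [InnerProductSpace ℝ E] [FiniteDimensional ℝ E]
  [MeasurableSpace E] [BorelSpace E]

/-- Allen-Cahn energy density of a (0-homogeneous) function at a point of the sphere -/
def acDen (ε : ℝ) (w : E → ℝ) (y : E) : ℝ :=
  ε / 2 * ‖fderiv ℝ w y‖ ^ 2 + (1 - w y ^ 2) ^ 2 / (2 * ε)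

/-- Allen-Cahn energy of a 0-homogeneous function on the unit sphere -/
def AcE (ε : ℝ) (w : E → ℝ) : ℝ :=
  ∫ y : sphere (0 : E) 1, acDen ε w y ∂(volume : Measure E).toSphere

/-! ### mollification of a 1-homogeneous 1-Lipschitz function -/

/-- the bump of radius `δ` -/
def bump (δ : ℝ) (hδ : 0 < δ) : ContDiffBump (0 : E) := ⟨δ / 2, δ, half_pos hδ, half_lt_self hδ⟩

/-- mollified function -/
def mol (δ : ℝ) (hδ : 0 < δ) (φ : E → ℝ) : E → ℝ :=
  (bump (E := E) δ hδ).normed volume ⋆[ContinuousLinearMap.lsmul ℝ ℝ, volume] φ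

section Mol

variable {δ : ℝ} (hδ : 0 < δ) {φ : E → ℝ}

theorem mol_apply (x : E) :
    mol δ hδ φ x = ∫ h, (bump (E := E) δ hδ).normed volume h * φ (x - h) := by
  simp only [mol, convolution, ContinuousLinearMap.lsmul_apply, smul_eq_mul]

theorem integrable_mol (hφ : Continuous φ) (x : E) :
    Integrable fun h => (bump (E := E) δ hδ).normed volume h * φ (x - h) := by
  refine Continuous.integrable_of_hasCompactSupport ?_ ?_
  · exact ((bump (E := E) δ hδ).continuous_normed).mul (hφ.comp (by fun_prop))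
  · exact ((bump (E := E) δ hδ).hasCompactSupport_normed).mul_right

theorem contDiff_mol (hφ : Continuous φ) : ContDiff ℝ ∞ (mol δ hδ φ) := by
  exact HasCompactSupport.contDiff_convolution_left _ ((bump (E := E) δ hδ).hasCompactSupport_normed)
    ((bump (E := E) δ hδ).contDiff_normed) hφ.locallyIntegrable

/-- the basic comparison: if `|φ (x-h) - a φ (x'-h) - b| ≤ c` for `‖h‖ < δ` then the same holds for
the mollifications -/
theorem mol_compare (hφ : Continuous φ) {x x' : E} {a c : ℝ}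
    (H : ∀ h : E, ‖h‖ < δ → |φ (x - h) - a * φ (x' - h)| ≤ c) :
    |mol δ hδ φ x - a * mol δ hδ φ x'| ≤ c := by
  set ρ := (bump (E := E) δ hδ).normed volume with hρ
  have hc : 0 ≤ c := (abs_nonneg _).trans (H 0 (by simpa using hδ))
  have hi : Integrable ρ := (bump (E := E) δ hδ).integrable_normed
  have h1 : mol δ hδ φ x - a * mol δ hδ φ x' = ∫ h, ρ h * (φ (x - h) - a * φ (x' - h)) := by
    rw [mol_apply, mol_apply, ← integral_const_mul, ← integral_sub (integrable_mol hδ hφ x)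
      ((integrable_mol hδ hφ x').const_mul a)]
    refine integral_congr_ae (Eventually.of_forall fun h => ?_)
    simp only
    ring
  have h2 : ∀ h, ‖ρ h * (φ (x - h) - a * φ (x' - h))‖ ≤ ρ h * c := by
    intro h
    have hn : 0 ≤ ρ h := (bump (E := E) δ hδ).nonneg_normed h
    rw [Real.norm_eq_abs, abs_mul, abs_of_nonneg hn]
    by_cases hh : ‖h‖ < δ
    · exact mul_le_mul_of_nonneg_left (H h hh) hn
    · have h0 : ρ h = 0 := by
        have h3 : h ∉ Function.support ρ := by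
          rw [hρ, ContDiffBump.support_normed_eq]
          simpa [bump] using hh
        simpa using h3
      rw [h0, zero_mul, zero_mul]
  rw [h1]
  calc |∫ h, ρ h * (φ (x - h) - a * φ (x' - h))|
      ≤ ∫ h, ρ h * c := norm_integral_le_of_norm_le (hi.mul_const c) (Eventually.of_forall h2)
    _ = c := by
      rw [integral_mul_const, (bump (E := E) δ hδ).integral_normed, one_mul]

theorem mol_lip (hφ : LipschitzWith 1 φ) : LipschitzWith 1 (mol δ hδ φ) := by
  refine LipschitzWith.of_dist_le_mul fun x x' => ?_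
  rw [Real.dist_eq, dist_eq_norm, NNReal.coe_one, one_mul]
  have h := mol_compare hδ (a := 1) hφ.continuous (x := x) (x' := x') (c := ‖x - x'‖) (fun h _ => by
    have := hφ.dist_le_mul (x - h) (x' - h)
    rw [Real.dist_eq, dist_eq_norm, NNReal.coe_one, one_mul] at this
    rw [one_mul]
    simpa using this)
  simpa using h

theorem mol_sub_le (hφ : LipschitzWith 1 φ) (x : E) : |mol δ hδ φ x - φ x| ≤ δ := by
  have h1 := (bump (E := E) δ hδ).dist_normed_convolution_le (μ := (volume : Measure E)) (g := φ)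
    (x₀ := x) (ε := δ) hφ.continuous.aestronglyMeasurable (fun y hy => by
      have := hφ.dist_le_mul y x
      rw [NNReal.coe_one, one_mul] at this
      exact this.trans (mem_ball.1 hy).le)
  rwa [Real.dist_eq] at h1

/-- radial derivative of the mollification of a 1-homogeneous function -/
theorem mol_radial (hφ : LipschitzWith 1 φ) (hom : ∀ t : ℝ, 0 ≤ t → ∀ x, φ (t • x) = t * φ x)
    {s : ℝ} (hs : -1 ≤ s) (y : E) :
    |mol δ hδ φ ((1 + s) • y) - (1 + s) * mol δ hδ φ y| ≤ |s| * δ := by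
  refine mol_compare hδ hφ.continuous fun h hh => ?_
  have h1 := hφ.dist_le_mul ((1 + s) • y - h) ((1 + s) • (y - h))
  rw [Real.dist_eq, dist_eq_norm, NNReal.coe_one, one_mul, hom (1 + s) (by linarith)] at h1
  refine h1.trans ?_
  have h2 : (1 + s) • y - h - (1 + s) • (y - h) = s • h := by
    rw [smul_sub, add_smul 1 s h, one_smul]; abel
  rw [h2, norm_smul, Real.norm_eq_abs]
  exact mul_le_mul_of_nonneg_left hh.le (abs_nonneg s)

theorem mol_radial_deriv (hφ : LipschitzWith 1 φ)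
    (hom : ∀ t : ℝ, 0 ≤ t → ∀ x, φ (t • x) = t * φ x) (y : E) :
    |fderiv ℝ (mol δ hδ φ) y y - mol δ hδ φ y| ≤ δ := by
  have hd : HasFDerivAt (mol δ hδ φ) (fderiv ℝ (mol δ hδ φ) y) y :=
    ((contDiff_mol hδ hφ.continuous).differentiable (by simp) y).hasFDerivAt
  -- the function of one variable
  have h1 : HasDerivAt (fun s : ℝ => (1 + s) • y) y 0 := by
    have h2 : HasDerivAt (fun s : ℝ => 1 + s) 1 (0 : ℝ) := (hasDerivAt_id (0 : ℝ)).const_add 1
    simpa using h2.smul_const y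
  have h3 : HasDerivAt (fun s : ℝ => mol δ hδ φ ((1 + s) • y)) (fderiv ℝ (mol δ hδ φ) y y) 0 := by
    have h4 : HasFDerivAt (mol δ hδ φ) (fderiv ℝ (mol δ hδ φ) y) ((1 + (0 : ℝ)) • y) := by
      simpa using hd
    exact h4.comp_hasDerivAt (0 : ℝ) h1
  have h5 : HasDerivAt (fun s : ℝ => (1 + s) * mol δ hδ φ y) (mol δ hδ φ y) 0 := by
    have h2 : HasDerivAt (fun s : ℝ => 1 + s) 1 (0 : ℝ) := (hasDerivAt_id (0 : ℝ)).const_add 1
    simpa using h2.mul_const (mol δ hδ φ y)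
  have h6 := h3.sub h5
  have h7 := h6.le_of_lip' (C := δ) hδ.le (by
    have h8 : ∀ᶠ s : ℝ in 𝓝 0, -1 ≤ s := by
      filter_upwards [Ioi_mem_nhds (show (-1 : ℝ) < 0 by norm_num)] with s hs using hs.le
    filter_upwards [h8] with s hs
    have h9 := mol_radial hδ hφ hom hs y
    simpa [mul_comm] using h9)
  simpa using h7

end Mol

/-! ### 0-homogeneous extension -/

/-- radial projection to the unit sphere -/
def rp (x : E) : E := ‖x‖⁻¹ • x

theorem rp_smul {t : ℝ} (ht : 0 < t) (x : E) : rp (t • x) = rp x := by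
  unfold rp
  rw [norm_smul, Real.norm_eq_abs, abs_of_pos ht, smul_smul, mul_inv]
  congr 1
  field_simp

theorem norm_rp {x : E} (hx : x ≠ 0) : ‖rp x‖ = 1 := by
  unfold rp
  rw [norm_smul, norm_inv, norm_norm, inv_mul_cancel₀ (norm_ne_zero_iff.2 hx)]

theorem rp_of_norm_one {y : E} (hy : ‖y‖ = 1) : rp y = y := by simp [rp, hy]

theorem contDiffOn_rp : ContDiffOn ℝ ∞ (rp : E → E) {0}ᶜ := by
  intro x hx
  have h1 : ContDiffAt ℝ ∞ (fun x : E => ‖x‖⁻¹) x :=
    (contDiffAt_norm ℝ hx).inv (norm_ne_zero_iff.2 hx)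
  exact (h1.smul contDiffAt_id).contDiffWithinAt

theorem hasFDerivAt_norm_of {y : E} (hy : ‖y‖ = 1) :
    HasFDerivAt (fun x : E => ‖x‖) (innerSL ℝ y) y := by
  have h3 : HasStrictFDerivAt (fun x : E => ‖x‖ ^ 2) (2 • (innerSL ℝ y)) y :=
    hasStrictFDerivAt_norm_sq y
  have h4 : HasFDerivAt (fun x : E => Real.sqrt (‖x‖ ^ 2))
      ((1 / (2 * Real.sqrt (‖y‖ ^ 2))) • (2 • (innerSL ℝ y))) y :=
    h3.hasFDerivAt.sqrt (by rw [hy]; norm_num)
  have h5 : (fun x : E => Real.sqrt (‖x‖ ^ 2)) = fun x => ‖x‖ := by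
    funext x; exact Real.sqrt_sq (norm_nonneg x)
  rw [h5, Real.sqrt_sq (norm_nonneg y), hy] at h4
  have h6 : (1 / (2 * (1 : ℝ))) • (2 • (innerSL ℝ y)) = innerSL ℝ y := by
    rw [two_nsmul, ← two_smul ℝ, smul_smul]
    norm_num
  rw [h6] at h4
  exact h4

theorem hasFDerivAt_rp {y : E} (hy : ‖y‖ = 1) :
    HasFDerivAt (rp : E → E) (ContinuousLinearMap.id ℝ E - (innerSL ℝ y).smulRight y) y := by
  have h1 : HasFDerivAt (fun x : E => ‖x‖⁻¹) (-(innerSL ℝ y)) y := by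
    have h2 := (hasDerivAt_inv (x := ‖y‖) (by rw [hy]; norm_num)).comp_hasFDerivAt y
      (hasFDerivAt_norm_of hy)
    have h3 : (-(‖y‖ ^ 2)⁻¹) • (innerSL ℝ y) = -(innerSL ℝ y) := by
      rw [hy]; simp
    rw [h3] at h2
    exact h2
  have h4 := h1.smul (hasFDerivAt_id y)
  have h5 : (fun x : E => ‖x‖⁻¹ • id x) = rp := rfl
  have h6 : ‖y‖⁻¹ • ContinuousLinearMap.id ℝ E + (-(innerSL ℝ y)).smulRight (id y) =
      ContinuousLinearMap.id ℝ E - (innerSL ℝ y).smulRight y := by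
    ext v
    simp [hy, sub_eq_add_neg]
  rw [← h6]
  exact h4

/-- derivative of the 0-homogeneous extension at a point of the sphere -/
theorem hasFDerivAt_comp_rp {f : E → ℝ} {y : E} (hy : ‖y‖ = 1) {A : E →L[ℝ] ℝ}
    (hf : HasFDerivAt f A y) :
    HasFDerivAt (fun x => f (rp x)) (A - (A y) • innerSL ℝ y) y := by
  have h1 : HasFDerivAt f A (rp y) := by rw [rp_of_norm_one hy]; exact hf
  have h2 := h1.comp y (hasFDerivAt_rp hy)
  have h3 : A.comp (ContinuousLinearMap.id ℝ E - (innerSL ℝ y).smulRight y) =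
      A - (A y) • innerSL ℝ y := by
    ext v
    simp [mul_comm]
  rw [h3] at h2
  exact h2

theorem norm_sq_tang {y : E} (hy : ‖y‖ = 1) (A : E →L[ℝ] ℝ) :
    ‖A - (A y) • innerSL ℝ y‖ ^ 2 = ‖A‖ ^ 2 - (A y) ^ 2 := by
  obtain ⟨a, rfl⟩ := (InnerProductSpace.toDual ℝ E).surjective A
  have h1 : (InnerProductSpace.toDual ℝ E a) - ((InnerProductSpace.toDual ℝ E a) y) • innerSL ℝ y =
      InnerProductSpace.toDual ℝ E (a - ⟪a, y⟫ • y) := by
    ext v
    simp [inner_smul_left]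
  rw [h1, LinearIsometryEquiv.norm_map, LinearIsometryEquiv.norm_map, norm_sub_sq_real,
    inner_smul_right, norm_smul, hy, InnerProductSpace.toDual_apply_apply, mul_one,
    Real.norm_eq_abs, sq_abs]
  ring

/-! ### the approximating function -/

section Approx

variable {φ : E → ℝ}

/-- the scaled 0-homogeneous mollification -/
def psi (δ : ℝ) (hδ : 0 < δ) (φ : E → ℝ) (x : E) : ℝ := (1 + 2 * δ)⁻¹ * mol δ hδ φ (rp x)

theorem phi_zero (hom : ∀ t : ℝ, 0 ≤ t → ∀ x, φ (t • x) = t * φ x) : φ 0 = 0 := by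
  have := hom 0 le_rfl 0
  simpa using this

theorem abs_phi_le (hφ : LipschitzWith 1 φ) (hom : ∀ t : ℝ, 0 ≤ t → ∀ x, φ (t • x) = t * φ x)
    (x : E) : |φ x| ≤ ‖x‖ := by
  have h1 := hφ.dist_le_mul x 0
  rw [Real.dist_eq, dist_eq_norm, phi_zero hom, NNReal.coe_one, one_mul] at h1
  simpa using h1

theorem abs_mol_le (hφ : LipschitzWith 1 φ) (hom : ∀ t : ℝ, 0 ≤ t → ∀ x, φ (t • x) = t * φ x)
    {δ : ℝ} (hδ : 0 < δ) {y : E} (hy : ‖y‖ = 1) : |mol δ hδ φ y| ≤ 1 + δ := by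
  have h1 := mol_sub_le hδ hφ y
  have h2 := abs_phi_le hφ hom y
  rw [hy] at h2
  rw [abs_le] at h1 h2 ⊢
  constructor <;> linarith [h1.1, h1.2, h2.1, h2.2]

theorem psi_smul {δ : ℝ} (hδ : 0 < δ) {t : ℝ} (ht : 0 < t) (x : E) :
    psi δ hδ φ (t • x) = psi δ hδ φ x := by
  unfold psi; rw [rp_smul ht]

theorem contDiffOn_psi (hφ : LipschitzWith 1 φ) {δ : ℝ} (hδ : 0 < δ) :
    ContDiffOn ℝ ∞ (psi δ hδ φ) {0}ᶜ := by
  have h1 : ContDiffOn ℝ ∞ (fun x => mol δ hδ φ (rp x)) {0}ᶜ :=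
    (contDiff_mol hδ hφ.continuous).comp_contDiffOn contDiffOn_rp
  exact contDiffOn_const.mul h1

theorem abs_psi_lt (hφ : LipschitzWith 1 φ) (hom : ∀ t : ℝ, 0 ≤ t → ∀ x, φ (t • x) = t * φ x)
    {δ : ℝ} (hδ : 0 < δ) (x : E) : |psi δ hδ φ x| < 1 := by
  have hp : 0 < 1 + 2 * δ := by positivity
  have key : ∀ y : E, ‖y‖ ≤ 1 → |mol δ hδ φ y| ≤ 1 + δ := by
    intro y hy
    have h1 := mol_sub_le hδ hφ y
    have h2 := (abs_phi_le hφ hom y).trans hy
    rw [abs_le] at h1 h2 ⊢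
    constructor <;> linarith [h1.1, h1.2, h2.1, h2.2]
  have hrp : ‖rp x‖ ≤ 1 := by
    by_cases hx : x = 0
    · subst hx; simp [rp]
    · exact (norm_rp hx).le
  have h1 := key (rp x) hrp
  unfold psi
  rw [abs_mul, abs_of_pos (inv_pos.2 hp), inv_mul_lt_iff₀ hp]
  linarith

theorem psi_sub_le (hφ : LipschitzWith 1 φ) (hom : ∀ t : ℝ, 0 ≤ t → ∀ x, φ (t • x) = t * φ x)
    {δ : ℝ} (hδ : 0 < δ) {y : E} (hy : ‖y‖ = 1) : |psi δ hδ φ y - φ y| ≤ 3 * δ := by
  have hp : 0 < 1 + 2 * δ := by positivity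
  have h1 := mol_sub_le hδ hφ y
  have h2 := abs_mol_le hφ hom hδ hy
  have h3 : psi δ hδ φ y - φ y = (mol δ hδ φ y - φ y) - (2 * δ) * ((1 + 2 * δ)⁻¹ * mol δ hδ φ y) := by
    unfold psi
    rw [rp_of_norm_one hy]
    field_simp
    ring
  have h4 : |(1 + 2 * δ)⁻¹ * mol δ hδ φ y| ≤ 1 := by
    rw [abs_mul, abs_of_pos (inv_pos.2 hp), inv_mul_le_iff₀ hp]
    linarith
  rw [h3]
  rw [abs_le] at h1 h4 ⊢
  constructor <;> nlinarith [h1.1, h1.2, h4.1, h4.2]

/-- the eikonal bound for the regularisation -/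
theorem norm_sq_fderiv_psi (hφ : LipschitzWith 1 φ)
    (hom : ∀ t : ℝ, 0 ≤ t → ∀ x, φ (t • x) = t * φ x)
    {δ : ℝ} (hδ : 0 < δ) {y : E} (hy : ‖y‖ = 1) :
    ‖fderiv ℝ (psi δ hδ φ) y‖ ^ 2 ≤ 1 - psi δ hδ φ y ^ 2 := by
  have hp : 0 < 1 + 2 * δ := by positivity
  set f := mol δ hδ φ with hf
  set A := fderiv ℝ f y with hA
  have hd : HasFDerivAt f A y :=
    ((contDiff_mol hδ hφ.continuous).differentiable (by simp) y).hasFDerivAt
  have h1 := (hasFDerivAt_comp_rp hy hd).const_mul ((1 + 2 * δ)⁻¹)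
  have h2 : fderiv ℝ (psi δ hδ φ) y = (1 + 2 * δ)⁻¹ • (A - (A y) • innerSL ℝ y) := h1.fderiv
  have h3 : ‖A‖ ≤ 1 := by
    have := norm_fderiv_le_of_lipschitz (𝕜 := ℝ) (x₀ := y) (mol_lip hδ hφ)
    simpa using this
  have h4 := mol_radial_deriv hδ hφ hom y
  have h5 := abs_mol_le hφ hom hδ hy
  have h6 : psi δ hδ φ y = (1 + 2 * δ)⁻¹ * f y := by
    unfold psi; rw [rp_of_norm_one hy]
  rw [h2, h6, norm_smul, mul_pow, norm_sq_tang hy, Real.norm_eq_abs, sq_abs, mul_pow]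
  have h7 : ((1 + 2 * δ)⁻¹) ^ 2 * (1 + 2 * δ) ^ 2 = 1 := by
    rw [← mul_pow, inv_mul_cancel₀ hp.ne', one_pow]
  have h8 : ‖A‖ ^ 2 - (A y) ^ 2 + (f y) ^ 2 ≤ (1 + 2 * δ) ^ 2 := by
    have h9 : ‖A‖ ^ 2 ≤ 1 := by nlinarith [norm_nonneg A]
    have h10 : (f y) ^ 2 - (A y) ^ 2 ≤ 2 * δ * (1 + δ) := by
      -- `|A y - f y| ≤ δ`, `|f y| ≤ 1 + δ`
      have h11 := abs_le.1 h4
      have h12 := abs_le.1 h5
      rcases le_or_gt (f y) 0 with hneg | hpos
      · by_cases h13 : A y ≤ 0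
        · nlinarith [h11.1, h11.2, h12.1, h12.2]
        · push Not at h13
          nlinarith [h11.1, h11.2, h12.1, h12.2]
      · by_cases h13 : 0 ≤ A y
        · nlinarith [h11.1, h11.2, h12.1, h12.2]
        · push Not at h13
          nlinarith [h11.1, h11.2, h12.1, h12.2]
    nlinarith
  have h9 : 0 ≤ ((1 + 2 * δ)⁻¹) ^ 2 := by positivity
  nlinarith [mul_le_mul_of_nonneg_left h8 h9]

end Approx

/-! ### the main theorem -/

/-- the smooth approximation -/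
def wap (ε θ δ : ℝ) (hδ : 0 < δ) (φ : E → ℝ) (x : E) : ℝ := prof ε θ (psi δ hδ φ x)

theorem contDiffOn_wap {φ : E → ℝ} (hφ : LipschitzWith 1 φ)
    (hom : ∀ t : ℝ, 0 ≤ t → ∀ x, φ (t • x) = t * φ x) (ε θ : ℝ) {δ : ℝ} (hδ : 0 < δ) :
    ContDiffOn ℝ ∞ (wap ε θ δ hδ φ) {0}ᶜ := by
  intro x hx
  exact (contDiffAt_prof ε θ (abs_psi_lt hφ hom hδ x)).comp_contDiffWithinAt x
    (contDiffOn_psi hφ hδ x hx)

theorem acDen_wap_le {φ : E → ℝ} (hφ : LipschitzWith 1 φ)
    (hom : ∀ t : ℝ, 0 ≤ t → ∀ x, φ (t • x) = t * φ x) {ε : ℝ} (hε : 0 < ε) (θ : ℝ) {δ : ℝ}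
    (hδ : 0 < δ) {y : E} (hy : ‖y‖ = 1) :
    acDen ε (wap ε θ δ hδ φ) y ≤ (1 - prof ε θ (psi δ hδ φ y) ^ 2) ^ 2 / ε := by
  have hy0 : y ∈ ({0}ᶜ : Set E) := by
    rw [mem_compl_iff, mem_singleton_iff]
    rintro rfl
    simp at hy
  have h1 : HasFDerivAt (psi δ hδ φ) (fderiv ℝ (psi δ hδ φ) y) y :=
    (((contDiffOn_psi hφ hδ).contDiffAt (isOpen_compl_singleton.mem_nhds hy0)).differentiableAt
      (by simp)).hasFDerivAt
  have hs := abs_psi_lt hφ hom hδ y
  have h2 := (hasDerivAt_prof ε θ hs).comp_hasFDerivAt y h1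
  have h3 : fderiv ℝ (wap ε θ δ hδ φ) y =
      ((1 - prof ε θ (psi δ hδ φ y) ^ 2) * (1 / Real.sqrt (1 - psi δ hδ φ y ^ 2) / ε)) •
        fderiv ℝ (psi δ hδ φ) y := h2.fderiv
  have h4 := norm_sq_fderiv_psi hφ hom hδ hy
  set p := prof ε θ (psi δ hδ φ y) with hp
  set q := psi δ hδ φ y with hq
  have hq1 : 0 < 1 - q ^ 2 := by
    have := abs_lt.1 hs
    nlinarith [this.1, this.2]
  have hsq : Real.sqrt (1 - q ^ 2) ^ 2 = 1 - q ^ 2 := Real.sq_sqrt hq1.le
  have hspos : 0 < Real.sqrt (1 - q ^ 2) := Real.sqrt_pos.2 hq1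
  unfold acDen
  have h5 : wap ε θ δ hδ φ y = p := rfl
  rw [h3, norm_smul, mul_pow, Real.norm_eq_abs, sq_abs, h5]
  have h6 : ((1 - p ^ 2) * (1 / Real.sqrt (1 - q ^ 2) / ε)) ^ 2 =
      (1 - p ^ 2) ^ 2 / ((1 - q ^ 2) * ε ^ 2) := by
    have h61 : ((1 - p ^ 2) * (1 / Real.sqrt (1 - q ^ 2) / ε)) ^ 2 =
      (1 - p ^ 2) ^ 2 / (Real.sqrt (1 - q ^ 2) ^ 2 * ε ^ 2) := by field_simp
    rw [h61, hsq]
  rw [h6]
  have h7 : (1 - p ^ 2) ^ 2 / ((1 - q ^ 2) * ε ^ 2) * ‖fderiv ℝ (psi δ hδ φ) y‖ ^ 2 ≤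
      (1 - p ^ 2) ^ 2 / ε ^ 2 := by
    calc (1 - p ^ 2) ^ 2 / ((1 - q ^ 2) * ε ^ 2) * ‖fderiv ℝ (psi δ hδ φ) y‖ ^ 2
        ≤ (1 - p ^ 2) ^ 2 / ((1 - q ^ 2) * ε ^ 2) * (1 - q ^ 2) :=
          mul_le_mul_of_nonneg_left h4 (by positivity)
      _ = (1 - p ^ 2) ^ 2 / ε ^ 2 := by field_simp
  calc ε / 2 * ((1 - p ^ 2) ^ 2 / ((1 - q ^ 2) * ε ^ 2) * ‖fderiv ℝ (psi δ hδ φ) y‖ ^ 2) +
        (1 - p ^ 2) ^ 2 / (2 * ε)
      ≤ ε / 2 * ((1 - p ^ 2) ^ 2 / ε ^ 2) + (1 - p ^ 2) ^ 2 / (2 * ε) := by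
        have := mul_le_mul_of_nonneg_left h7 (show 0 ≤ ε / 2 by positivity)
        linarith
    _ = (1 - p ^ 2) ^ 2 / ε := by field_simp; ring

/-- **(x1)** smooth approximation of a member of the family, with energy control -/
theorem exists_smooth_approx {φ : E → ℝ} (hφ : LipschitzWith 1 φ)
    (hom : ∀ t : ℝ, 0 ≤ t → ∀ x, φ (t • x) = t * φ x) {ε : ℝ} (hε : 0 < ε) (θ : ℝ) {η : ℝ}
    (hη : 0 < η) :
    ∃ w : E → ℝ, (∀ t : ℝ, 0 < t → ∀ x, w (t • x) = w x) ∧ ContDiffOn ℝ ∞ w {0}ᶜ ∧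
      (∀ x, |w x| < 1) ∧
      (∀ y : E, ‖y‖ = 1 → |w y - Real.tanh ((Real.arcsin (φ y) - θ) / ε)| ≤ η) ∧
      AcE ε w ≤ (∫ y : sphere (0 : E) 1,
        (1 - Real.tanh ((Real.arcsin (φ y) - θ) / ε) ^ 2) ^ 2 / ε ∂(volume : Measure E).toSphere)
          + η := by
  set σ : Measure (sphere (0 : E) 1) := (volume : Measure E).toSphere with hσ
  set M : ℝ := σ.real univ with hM
  have hM0 : 0 ≤ M := measureReal_nonneg
  -- uniform continuity on [-2,2]
  have huc1 : UniformContinuousOn (prof ε θ) (Icc (-2) 2) :=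
    isCompact_Icc.uniformContinuousOn_of_continuous (continuous_prof ε θ).continuousOn
  set F : ℝ → ℝ := fun s => (1 - prof ε θ s ^ 2) ^ 2 / ε with hF
  have hFc : Continuous F := by
    have := continuous_prof ε θ
    simp only [hF]
    fun_prop
  have huc2 : UniformContinuousOn F (Icc (-2) 2) :=
    isCompact_Icc.uniformContinuousOn_of_continuous hFc.continuousOn
  obtain ⟨δ1, hδ1, H1⟩ := Metric.uniformContinuousOn_iff.1 huc1 η hη
  obtain ⟨δ2, hδ2, H2⟩ := Metric.uniformContinuousOn_iff.1 huc2 (η / (M + 1)) (by positivity)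
  set δ : ℝ := min δ1 δ2 / 4 with hδd
  have hmin : 0 < min δ1 δ2 := lt_min hδ1 hδ2
  have hδ : 0 < δ := by positivity
  have h3δ1 : 3 * δ < δ1 := by
    have := min_le_left δ1 δ2
    rw [hδd]; linarith
  have h3δ2 : 3 * δ < δ2 := by
    have := min_le_right δ1 δ2
    rw [hδd]; linarith
  have hψI : ∀ y : E, psi δ hδ φ y ∈ Icc (-2 : ℝ) 2 := by
    intro y
    have := abs_lt.1 (abs_psi_lt hφ hom hδ y)
    constructor <;> linarith [this.1, this.2]
  have hφI : ∀ y : E, ‖y‖ = 1 → φ y ∈ Icc (-2 : ℝ) 2 := by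
    intro y hy
    have h := abs_phi_le hφ hom y
    rw [hy] at h
    have := abs_le.1 h
    constructor <;> linarith [this.1, this.2]
  refine ⟨wap ε θ δ hδ φ, fun t ht x => ?_, contDiffOn_wap hφ hom ε θ hδ, fun x => ?_,
    fun y hy => ?_, ?_⟩
  · unfold wap; rw [psi_smul hδ ht]
  · exact abs_prof_lt_one _ _ _
  · have h1 := psi_sub_le hφ hom hδ hy
    have h2 := H1 _ (hψI y) _ (hφI y hy) (by rw [Real.dist_eq]; linarith)
    rw [Real.dist_eq] at h2
    exact h2.le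
  · have hcφ : Continuous fun y : sphere (0 : E) 1 => F (φ y) :=
      hFc.comp (hφ.continuous.comp continuous_subtype_val)
    have hint : Integrable (fun y : sphere (0 : E) 1 => F (φ y) + η / (M + 1)) σ :=
      (hcφ.add continuous_const).integrable_of_hasCompactSupport
        (HasCompactSupport.of_compactSpace _)
    have h1 : AcE ε (wap ε θ δ hδ φ) ≤ ∫ y : sphere (0 : E) 1, (F (φ y) + η / (M + 1)) ∂σ := by
      unfold AcE
      refine integral_mono_of_nonneg ?_ hint ?_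
      · refine Eventually.of_forall fun y => ?_
        show 0 ≤ acDen ε (wap ε θ δ hδ φ) y
        unfold acDen; positivity
      · refine Eventually.of_forall fun y => ?_
        have hy : ‖(y : E)‖ = 1 := by simp
        show acDen ε (wap ε θ δ hδ φ) y ≤ F (φ y) + η / (M + 1)
        refine (acDen_wap_le hφ hom hε θ hδ hy).trans ?_
        have h3 := psi_sub_le hφ hom hδ hy
        have h2 := H2 _ (hψI y) _ (hφI y hy) (by rw [Real.dist_eq]; linarith)
        rw [Real.dist_eq] at h2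
        have h4 := (abs_lt.1 h2).2
        show F (psi δ hδ φ y) ≤ F (φ y) + η / (M + 1)
        linarith
    refine h1.trans ?_
    rw [integral_add (hcφ.integrable_of_hasCompactSupport (HasCompactSupport.of_compactSpace _))
      (integrable_const _), integral_const, smul_eq_mul]
    have h5 : M * (η / (M + 1)) ≤ η := by
      rw [mul_div_assoc', div_le_iff₀ (by positivity)]
      nlinarith
    have h6 : (∫ y : sphere (0 : E) 1, F (φ y) ∂σ) = ∫ y : sphere (0 : E) 1,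
        (1 - Real.tanh ((Real.arcsin (φ y) - θ) / ε) ^ 2) ^ 2 / ε ∂σ := rfl
    rw [h6]
    linarith

end Crest.Agent.R246.Moll657
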