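import Crest.Agent.R246.D2Energy_782
import Crest.Agent.R246.Moll_657
import Mathlib.Analysis.SpecialFunctions.Artanh

/-!
# R246, block D0/D2 (y2): the substitution `R = ε artanh u` (helper657)

`smHom0_artanh`, `acEq_artanh` : if `u` is smooth 0-homogeneous with `|u| < 1` and
`Δ_S u = -(2/ε²) u (1-u²)` then `R = ε artanh u` is smooth 0-homogeneous, `tanh (R/ε) = u` and
`Δ_S R = (2/ε) tanh(R/ε) (|∇_S R|² - 1)`; the energy is the integral of `eden ε R`.
-/

set_option autoImplicit false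
set_option linter.unusedSectionVars false

open Filter Topology Metric Set MeasureTheory
open scoped ContDiff
open Crest.GeometryTopology.CoordMetric Crest.GeometryTopology.AffineMaximal
open Crest.Agent.R236.Jet Crest.Agent.R246.D2x782 Crest.Agent.R202.SphDiv
open Crest.Agent.R246.Moll657 (AcE acDen)

noncomputable section

namespace Crest.Agent.R246.Artanh657

variable {n : ℕ}

local notation "EE" => EuclideanSpace ℝ (Fin n)

/-! ### chain rule for `slap`, `sgsq` -/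

/-- Hessian of a composition -/
theorem hess_comp {f f' : ℝ → ℝ} {f'' : ℝ} {u : EE → ℝ} {x : EE} (hu : ContDiffAt ℝ ∞ u x)
    (hf : ∀ᶠ s in 𝓝 (u x), HasDerivAt f (f' s) s) (hf' : HasDerivAt f' f'' (u x)) (i j : Fin n) :
    hessianMat (fun y => f (u y)) x i j =
      f' (u x) * hessianMat u x i j + f'' * pderiv i u x * pderiv j u x := by
  have hc : ContinuousAt u x := hu.continuousAt
  have e1 : (fun y => pderiv j (fun y => f (u y)) y) =ᶠ[𝓝 x]
      fun y => f' (u y) * pderiv j u y := by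
    filter_upwards [hc.eventually hf, sm_ev hu] with y h1 h2
    exact pderiv_comp h1 h2 j
  show pderiv i (fun y => pderiv j (fun y => f (u y)) y) x = _
  rw [pderiv_congr e1, pderiv_mul (f := fun y => f' (u y)) (g := fun y => pderiv j u y)
    (hf'.differentiableAt.comp x (sm_diff hu)) (sm_diff (sm_pderiv hu j)),
    pderiv_comp hf' (sm_diff hu)]
  show f' (u x) * hessianMat u x i j + pderiv j u x * (f'' * pderiv i u x) = _
  ring

theorem gsq_comp {f : ℝ → ℝ} {f' : ℝ} {u : EE → ℝ} {x : EE} (hu : ContDiffAt ℝ ∞ u x)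
    (hf : HasDerivAt f f' (u x)) : gsq (fun y => f (u y)) x = f' ^ 2 * gsq u x := by
  unfold gsq
  rw [Finset.mul_sum]
  refine Finset.sum_congr rfl fun j _ => ?_
  rw [pderiv_comp hf (sm_diff hu)]
  ring

theorem sgsq_comp {f : ℝ → ℝ} {f' : ℝ} {u : EE → ℝ} {x : EE} (hu : ContDiffAt ℝ ∞ u x)
    (hf : HasDerivAt f f' (u x)) : sgsq (fun y => f (u y)) x = f' ^ 2 * sgsq u x := by
  unfold sgsq
  rw [gsq_comp hu hf]; ring

theorem slap_comp {f f' : ℝ → ℝ} {f'' : ℝ} {u : EE → ℝ} {x : EE} (hu : ContDiffAt ℝ ∞ u x)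
    (hf : ∀ᶠ s in 𝓝 (u x), HasDerivAt f (f' s) s) (hf' : HasDerivAt f' f'' (u x)) :
    slap (fun y => f (u y)) x = f' (u x) * slap u x + f'' * sgsq u x := by
  unfold slap sgsq lapl gsq
  rw [Finset.sum_congr rfl fun i _ => hess_comp hu hf hf' i i, Finset.sum_add_distrib,
    ← Finset.mul_sum]
  have h1 : ∑ i, f'' * pderiv i u x * pderiv i u x = f'' * ∑ i, pderiv i u x * pderiv i u x := by
    rw [Finset.mul_sum]
    exact Finset.sum_congr rfl fun i _ => by ring
  rw [h1]; ring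

/-! ### artanh -/

theorem artanh_eventually {s : ℝ} (hs : |s| < 1) :
    Real.artanh =ᶠ[𝓝 s] fun s => 1 / 2 * (Real.log (1 + s) - Real.log (1 - s)) := by
  have h1 : ∀ᶠ t in 𝓝 s, |t| < 1 := continuous_abs.continuousAt.eventually_lt_const hs
  filter_upwards [h1] with t ht
  have h := abs_lt.1 ht
  rw [Real.artanh_eq_half_log ⟨h.1.le, h.2.le⟩, Real.log_div (by linarith [h.1]) (by linarith [h.2])]

theorem hasDerivAt_artanh {s : ℝ} (hs : |s| < 1) : HasDerivAt Real.artanh (1 / (1 - s ^ 2)) s := by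
  have h := abs_lt.1 hs
  have h1 : HasDerivAt (fun s => 1 / 2 * (Real.log (1 + s) - Real.log (1 - s)))
      (1 / 2 * ((0 + 1) / (1 + s) - (0 - 1) / (1 - s))) s := by
    refine HasDerivAt.const_mul _ (HasDerivAt.sub ?_ ?_)
    · exact ((hasDerivAt_const s (1 : ℝ)).add (hasDerivAt_id s)).log (by simp; linarith [h.1])
    · exact ((hasDerivAt_const s (1 : ℝ)).sub (hasDerivAt_id s)).log (by simp; linarith [h.2])
  have h2 := h1.congr_of_eventuallyEq (artanh_eventually hs)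
  refine h2.congr_deriv ?_
  have h3 : (1 + s) ≠ 0 := by linarith [h.1]
  have h4 : (1 - s) ≠ 0 := by linarith [h.2]
  have h5 : (1 - s ^ 2) = (1 + s) * (1 - s) := by ring
  rw [h5]
  field_simp
  ring

theorem contDiffAt_artanh {s : ℝ} (hs : |s| < 1) : ContDiffAt ℝ ∞ Real.artanh s := by
  have h := abs_lt.1 hs
  have h1 : ContDiffAt ℝ ∞ (fun s => 1 / 2 * (Real.log (1 + s) - Real.log (1 - s))) s := by
    refine contDiffAt_const.mul (ContDiffAt.sub ?_ ?_)
    · exact (contDiffAt_const.add contDiffAt_id).log (by simp; linarith [h.1])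
    · exact (contDiffAt_const.sub contDiffAt_id).log (by simp; linarith [h.2])
  exact h1.congr_of_eventuallyEq (artanh_eventually hs)

/-! ### `R = ε artanh u` -/

/-- the Allen–Cahn equation on the sphere for `u` -/
def ACu (ε : ℝ) (u : EuclideanSpace ℝ (Fin n) → ℝ) : Prop :=
  ∀ x : EuclideanSpace ℝ (Fin n), x ≠ 0 → slap u x = -(2 / ε ^ 2) * u x * (1 - u x ^ 2)

/-- `ε artanh u` -/
def Ru (ε : ℝ) (u : EuclideanSpace ℝ (Fin n) → ℝ) (x : EuclideanSpace ℝ (Fin n)) : ℝ :=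
  ε * Real.artanh (u x)

section

variable {ε : ℝ} {u : EuclideanSpace ℝ (Fin n) → ℝ}

theorem smHom0_artanh (h : SmHom0 u) (h1 : ∀ x : EE, x ≠ 0 → |u x| < 1) : SmHom0 (Ru ε u) where
  smooth x hx := contDiffAt_const.mul ((contDiffAt_artanh (h1 x hx)).comp x (h.smooth x hx))
  hom t x ht := by unfold Ru; rw [h.hom t x ht]

theorem tanh_Ru (hε : 0 < ε) {x : EE} (h1 : |u x| < 1) : Real.tanh (Ru ε u x / ε) = u x := by
  unfold Ru
  rw [mul_div_cancel_left₀ _ hε.ne']
  exact Real.tanh_artanh (abs_lt.1 h1)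

theorem hasDerivAt_f {s : ℝ} (hs : |s| < 1) :
    HasDerivAt (fun s => ε * Real.artanh s) (ε * (1 / (1 - s ^ 2))) s :=
  (hasDerivAt_artanh hs).const_mul ε

theorem hasDerivAt_f' {s : ℝ} (hs : |s| < 1) :
    HasDerivAt (fun s => ε * (1 / (1 - s ^ 2))) (ε * (2 * s / (1 - s ^ 2) ^ 2)) s := by
  have h := abs_lt.1 hs
  have h4 : (1 - s ^ 2) ≠ 0 := by nlinarith [h.1, h.2]
  have h1 : HasDerivAt (fun s : ℝ => 1 - s ^ 2) (0 - (2 : ℕ) * s ^ (2 - 1)) s :=
    (hasDerivAt_const s (1 : ℝ)).sub (hasDerivAt_pow 2 s)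
  have h2 : HasDerivAt (fun s : ℝ => ε * (1 / (1 - s ^ 2)))
      (ε * ((0 * (1 - s ^ 2) - 1 * (0 - (2 : ℕ) * s ^ (2 - 1))) / (1 - s ^ 2) ^ 2)) s :=
    ((hasDerivAt_const s (1 : ℝ)).div h1 h4).const_mul ε
  refine h2.congr_deriv ?_
  norm_num

theorem sgsq_Ru (h : SmHom0 u) {x : EE} (hx : x ≠ 0) (h1 : |u x| < 1) :
    sgsq (Ru ε u) x = ε ^ 2 / (1 - u x ^ 2) ^ 2 * sgsq u x := by
  have h2 := sgsq_comp (f := fun s => ε * Real.artanh s) (h.smooth x hx) (hasDerivAt_f h1)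
  show sgsq (fun y => ε * Real.artanh (u y)) x = _
  have h4 := abs_lt.1 h1
  have h5 : (1 - u x ^ 2) ≠ 0 := by nlinarith [h4.1, h4.2]
  rw [h2]
  field_simp

theorem acEq_artanh (hε : 0 < ε) (h : SmHom0 u) (h1 : ∀ x : EE, x ≠ 0 → |u x| < 1)
    (hu : ACu ε u) : ACeq ε (Ru ε u) := by
  intro x hx
  have hc : ContinuousAt u x := (h.smooth x hx).continuousAt
  have hev : ∀ᶠ s in 𝓝 (u x), HasDerivAt (fun s => ε * Real.artanh s) (ε * (1 / (1 - s ^ 2))) s := by
    have h2 : ∀ᶠ t in 𝓝 (u x), |t| < 1 := continuous_abs.continuousAt.eventually_lt_const (h1 x hx)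
    filter_upwards [h2] with t ht using hasDerivAt_f ht
  have h2 := slap_comp (h.smooth x hx) hev (hasDerivAt_f' (h1 x hx))
  have h3 : slap (Ru ε u) x = _ := h2
  have h4 := abs_lt.1 (h1 x hx)
  have h5 : (1 - u x ^ 2) ≠ 0 := by nlinarith [h4.1, h4.2]
  rw [h3, tanh_Ru hε (h1 x hx), sgsq_Ru h hx (h1 x hx), hu x hx]
  field_simp
  ring

/-- the energy density in terms of `R` -/
theorem acDen_eq_eden (hε : 0 < ε) (h : SmHom0 u) {y : EE} (hy : ‖y‖ = 1) (h1 : |u y| < 1) :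
    acDen ε u y = eden ε (Ru ε u) y := by
  have hy0 : y ≠ 0 := by rintro rfl; simp at hy
  have h4 := abs_lt.1 h1
  have h5 : (1 - u y ^ 2) ≠ 0 := by nlinarith [h4.1, h4.2]
  have h6 : ‖fderiv ℝ u y‖ ^ 2 = gsq u y := by
    set A := fderiv ℝ u y with hA
    obtain ⟨a, ha⟩ := (InnerProductSpace.toDual ℝ EE).surjective A
    have h7 : ‖A‖ = ‖a‖ := by rw [← ha, LinearIsometryEquiv.norm_map]
    have h8 : ∀ i, pderiv i u y = a i := by
      intro i
      unfold pderiv
      rw [← hA, ← ha, InnerProductSpace.toDual_apply_apply, EuclideanSpace.inner_single_right]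
      simp
    rw [h7, EuclideanSpace.real_norm_sq_eq]
    unfold gsq
    exact Finset.sum_congr rfl fun i _ => by rw [h8 i, sq]
  have h7 : sgsq u y = gsq u y := by
    unfold sgsq; rw [nsq_eq, hy]; ring
  unfold acDen eden
  rw [tanh_Ru hε h1, sgsq_Ru h hy0 h1, h6, h7]
  field_simp
  ring

/-- the energy in terms of `R` -/
theorem acE_eq (hε : 0 < ε) (h : SmHom0 u) (h1 : ∀ x : EE, x ≠ 0 → |u x| < 1) :
    AcE ε u = ∫ z : Sph n, eden ε (Ru ε u) z ∂(sig n) := by
  unfold AcE sig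
  refine integral_congr_ae (Eventually.of_forall fun y => ?_)
  have hy : ‖(y : EE)‖ = 1 := by simp
  have hy0 : (y : EE) ≠ 0 := by
    intro h0
    rw [h0, norm_zero] at hy
    exact zero_ne_one hy
  exact acDen_eq_eden hε h hy (h1 _ hy0)

end

/-! ### the converse: `u = tanh (R/ε)` -/

section

variable {ε : ℝ} {R : EuclideanSpace ℝ (Fin n) → ℝ}

theorem smHom0_tanh (h : SmHom0 R) : SmHom0 (fun x => Real.tanh (R x / ε)) where
  smooth x hx := tanh_contDiff.contDiffAt.comp x ((h.smooth x hx).div_const ε)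
  hom t x ht := by rw [h.hom t x ht]

theorem acU_tanh (hε : 0 < ε) (h : SmHom0 R) (hR : ACeq ε R) :
    ACu ε (fun x => Real.tanh (R x / ε)) := by
  intro x hx
  have h0 : ∀ s : ℝ, HasDerivAt (fun s => Real.tanh (s / ε)) ((1 - Real.tanh (s / ε) ^ 2) / ε) s := by
    intro s
    have := (D2x782.hasDerivAt_tanh (s / ε)).comp s ((hasDerivAt_id s).div_const ε)
    refine this.congr_deriv ?_
    ring
  have h0' : ∀ s : ℝ, HasDerivAt (fun s => (1 - Real.tanh (s / ε) ^ 2) / ε)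
      (-(2 * Real.tanh (s / ε) * ((1 - Real.tanh (s / ε) ^ 2) / ε)) / ε) s := by
    intro s
    have h1 := (((h0 s).pow 2).const_sub 1).div_const ε
    refine h1.congr_deriv ?_
    norm_num
  have h2 := slap_comp (f := fun s => Real.tanh (s / ε)) (h.smooth x hx)
    (Eventually.of_forall h0) (h0' (R x))
  rw [h2, hR x hx]
  field_simp
  ring

end

end Crest.Agent.R246.Artanh657
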