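import Mathlib.Analysis.Calculus.Rademacher
import Mathlib.Analysis.Calculus.Gradient.Basic
import Mathlib.MeasureTheory.Integral.IntervalIntegral.AbsolutelyContinuousFun
import Mathlib.MeasureTheory.Measure.Haar.InnerProductSpace
import Mathlib.Analysis.Calculus.FDeriv.Measurable
import Mathlib.MeasureTheory.Function.SpecialFunctions.Inner

/-!
R246, helper105.  Calculus of Lipschitz functions in weak form; Caccioppoli inequality for
signed distance functions.
-/

set_option autoImplicit false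
set_option linter.unusedSectionVars false

namespace Crest.Agent.R246.Flat105

open MeasureTheory Filter Topology Metric Set
open scoped NNReal Gradient RealInnerProductSpace

variable {E : Type*} [NormedAddCommGroup E] [InnerProductSpace ℝ E] [FiniteDimensional ℝ E]
  [MeasurableSpace E] [BorelSpace E]

/-- compactly supported nonnegative Lipschitz test functions -/
structure Test (V : Set E) (ζ : E → ℝ) : Prop where
  lip : ∃ C : ℝ≥0, LipschitzWith C ζ
  cpt : HasCompactSupport ζ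
  sub : tsupport ζ ⊆ V
  nonneg : ∀ x, 0 ≤ ζ x

/-- `1`-Lipschitz eikonal functions, superharmonic where positive and subharmonic where
negative. -/
structure DistFun (U : Set E) (φ : E → ℝ) : Prop where
  lip : LipschitzWith 1 φ
  eik : ∀ᵐ x, x ∈ U → ‖∇ φ x‖ = 1
  sup : ∀ ζ, Test (U ∩ {x | 0 < φ x}) ζ → 0 ≤ ∫ x, ⟪∇ φ x, ∇ ζ x⟫
  sub : ∀ ζ, Test (U ∩ {x | φ x < 0}) ζ → ∫ x, ⟪∇ φ x, ∇ ζ x⟫ ≤ 0

theorem inner_grad {f : E → ℝ} (x v : E) : ⟪∇ f x, v⟫ = fderiv ℝ f x v := by
  rw [gradient, InnerProductSpace.toDual_symm_apply]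

theorem norm_grad (f : E → ℝ) (x : E) : ‖∇ f x‖ = ‖fderiv ℝ f x‖ := by
  rw [gradient, LinearIsometryEquiv.norm_map]

theorem norm_grad_le {f : E → ℝ} {C : ℝ≥0} (hf : LipschitzWith C f) (x : E) : ‖∇ f x‖ ≤ C := by
  rw [norm_grad]; exact norm_fderiv_le_of_lipschitz ℝ hf

theorem meas_grad (f : E → ℝ) : Measurable (fun x => ∇ f x) := by
  have h := measurable_fderiv ℝ f
  exact (InnerProductSpace.toDual ℝ E).symm.continuous.measurable.comp h

theorem grad_zero_of_notMem {f : E → ℝ} {x : E} (hx : x ∉ tsupport f) : ∇ f x = 0 := by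
  have h : f =ᶠ[𝓝 x] fun _ => 0 := notMem_tsupport_iff_eventuallyEq.mp hx
  rw [h.gradient_eq, gradient_fun_const]

theorem grad_of_hasFDerivAt {f : E → ℝ} {x g : E}
    (h : HasFDerivAt f (innerSL ℝ g) x) : ∇ f x = g := by
  apply ext_inner_right ℝ
  intro v
  rw [inner_grad, h.fderiv, innerSL_apply_apply]

theorem grad_sub {f g : E → ℝ} {x : E} (hf : DifferentiableAt ℝ f x)
    (hg : DifferentiableAt ℝ g x) : ∇ (fun y => f y - g y) x = ∇ f x - ∇ g x := by
  apply ext_inner_right ℝ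
  intro v
  rw [inner_sub_left, inner_grad, inner_grad, inner_grad, fderiv_fun_sub hf hg]
  rfl

theorem grad_mul {f g : E → ℝ} {x : E} (hf : DifferentiableAt ℝ f x)
    (hg : DifferentiableAt ℝ g x) : ∇ (fun y => f y * g y) x = f x • ∇ g x + g x • ∇ f x := by
  apply ext_inner_right ℝ
  intro v
  rw [inner_add_left, inner_smul_left, inner_smul_left, inner_grad, inner_grad, inner_grad,
    fderiv_fun_mul hf hg]
  simp

theorem grad_inner (e x : E) : ∇ (fun y => ⟪e, y⟫) x = e := by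
  apply grad_of_hasFDerivAt
  exact (innerSL ℝ e).hasFDerivAt

theorem lip_inner (e : E) : LipschitzWith ‖e‖₊ (fun y : E => ⟪e, y⟫) := by
  apply LipschitzWith.of_dist_le_mul
  intro x y
  rw [Real.dist_eq, ← inner_sub_right, dist_eq_norm]
  exact abs_real_inner_le_norm _ _

/-- integration by parts -/
theorem ibp {f g : E → ℝ} {C D : ℝ≥0} (hf : LipschitzWith C f) (hg : LipschitzWith D g)
    (hgc : HasCompactSupport g) (v : E) :
    ∫ x, ⟪∇ f x, v⟫ * g x = -∫ x, ⟪∇ g x, v⟫ * f x := by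
  have h := hf.integral_lineDeriv_mul_eq (μ := volume) hg hgc v
  have h1 : ∫ x, ⟪∇ f x, v⟫ * g x = ∫ x, lineDeriv ℝ f x v * g x := by
    apply integral_congr_ae
    filter_upwards [hf.ae_differentiableAt] with x hx
    rw [hx.lineDeriv_eq_fderiv, inner_grad]
  have h2 : ∫ x, lineDeriv ℝ g x (-v) * f x = -∫ x, ⟪∇ g x, v⟫ * f x := by
    rw [← integral_neg]
    apply integral_congr_ae
    filter_upwards [hg.ae_differentiableAt] with x hx
    rw [hx.lineDeriv_eq_fderiv, inner_grad, map_neg]; ring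
  rw [h1, h, h2]

theorem integral_inner_grad_const {g : E → ℝ} {D : ℝ≥0} (hg : LipschitzWith D g)
    (hgc : HasCompactSupport g) (v : E) : ∫ x, ⟪∇ g x, v⟫ = 0 := by
  have h := ibp (f := fun _ : E => (1 : ℝ)) (C := 0) (LipschitzWith.const 1) hg hgc v
  have h1 : ∀ x : E, ∇ (fun _ : E => (1 : ℝ)) x = 0 := fun x => by
    rw [gradient, fderiv_const_apply, map_zero]
  simp only [h1, inner_zero_left, zero_mul, integral_zero, mul_one] at h
  linarith

theorem integrable_of_bdd_supp {f : E → ℝ} (hm : AEStronglyMeasurable f volume) {C : ℝ}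
    (hb : ∀ x, |f x| ≤ C) {K : Set E} (hK : IsCompact K) (h0 : ∀ x, x ∉ K → f x = 0) :
    Integrable f := by
  have h1 : IntegrableOn f K := by
    refine Measure.integrableOn_of_bounded (M := C) hK.measure_lt_top.ne hm ?_
    exact Filter.Eventually.of_forall fun x => hb x
  rw [← integrableOn_univ]
  exact (integrableOn_iff_integrable_of_support_subset (s := K) (fun x hx => by
    by_contra h; exact hx (h0 x h))).mp h1 |>.integrableOn

/-- product of bounded Lipschitz functions -/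
theorem lip_mul {f g : E → ℝ} {C D : ℝ≥0} (hf : LipschitzWith C f) (hg : LipschitzWith D g)
    {A B : ℝ≥0} (hA : ∀ x, |f x| ≤ A) (hB : ∀ x, |g x| ≤ B) :
    LipschitzWith (A * D + B * C) (fun x => f x * g x) := by
  apply LipschitzWith.of_dist_le_mul
  intro x y
  have h1 := hf.dist_le_mul x y
  have h2 := hg.dist_le_mul x y
  rw [Real.dist_eq] at *
  have h3 : f x * g x - f y * g y = f x * (g x - g y) + (f x - f y) * g y := by ring
  calc |f x * g x - f y * g y| = |f x * (g x - g y) + (f x - f y) * g y| := by rw [h3]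
    _ ≤ |f x * (g x - g y)| + |(f x - f y) * g y| := abs_add_le _ _
    _ = |f x| * |g x - g y| + |f x - f y| * |g y| := by rw [abs_mul, abs_mul]
    _ ≤ A * (D * dist x y) + (C * dist x y) * B := by
        gcongr
        · exact hA x
        · exact hB y
    _ = _ := by push_cast; ring

/-- clamp -/
noncomputable def clamp (t : ℝ) (s : ℝ) : ℝ := max (-t) (min t s)

theorem lip_clamp (t : ℝ) : LipschitzWith 1 (clamp t) :=
  (LipschitzWith.id.const_min t).const_max (-t)

theorem abs_clamp_le {t : ℝ} (ht : 0 ≤ t) (s : ℝ) : |clamp t s| ≤ t := by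
  unfold clamp
  rw [abs_le]
  constructor
  · exact le_max_left _ _
  · apply max_le (by linarith) (min_le_left _ _)

theorem clamp_eq {t s : ℝ} (h : |s| ≤ t) : clamp t s = s := by
  unfold clamp
  rw [abs_le] at h
  rw [min_eq_right h.2, max_eq_right h.1]

theorem tsupport_mul_left_subset' {f g : E → ℝ} : tsupport (fun x => f x * g x) ⊆ tsupport f :=
  closure_mono fun x hx => by
    simp only [Function.mem_support] at hx ⊢
    exact left_ne_zero_of_mul hx

/-- **Caccioppoli inequality.** -/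
theorem caccioppoli {φ : E → ℝ} (hφ : LipschitzWith 1 φ) {V : Set E}
    (hsup : ∀ ζ, Test V ζ → 0 ≤ ∫ x, ⟪∇ φ x, ∇ ζ x⟫) {e : E} {δ : ℝ} (hδ : 0 < δ) {η : E → ℝ}
    {L B : ℝ≥0} (hη : LipschitzWith L η) (hηB : ∀ x, |η x| ≤ B) (hηc : HasCompactSupport η)
    (hηV : tsupport η ⊆ V) (hflat : ∀ x ∈ tsupport η, |φ x - ⟪e, x⟫| ≤ δ) :
    ∫ x, η x ^ 2 * ‖∇ φ x - e‖ ^ 2 ≤ 36 * δ ^ 2 * ∫ x, ‖∇ η x‖ ^ 2 := by
  -- the truncated difference
  set v : E → ℝ := fun x => φ x - ⟪e, x⟫ with hv
  have hvL : LipschitzWith (1 + ‖e‖₊) v := hφ.sub (lip_inner e)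
  set w : E → ℝ := fun x => 2 * δ - clamp (2 * δ) (v x) with hw
  have hwL : LipschitzWith (1 + ‖e‖₊) w := by
    have h1 : LipschitzWith (0 + 1 * (1 + ‖e‖₊)) w :=
      (LipschitzWith.const (2 * δ)).sub ((lip_clamp (2 * δ)).comp hvL)
    simpa using h1
  have hwB : ∀ x, |w x| ≤ (4 * δ).toNNReal := fun x => by
    have h1 := abs_le.mp (abs_clamp_le (t := 2 * δ) (by linarith) (v x))
    rw [Real.coe_toNNReal _ (by linarith), abs_le]
    constructor <;> simp only [hw] <;> linarith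
  have hw0 : ∀ x, 0 ≤ w x := fun x => by
    have h1 := abs_le.mp (abs_clamp_le (t := 2 * δ) (by linarith) (v x))
    simp only [hw]; linarith
  -- the test function
  set ζ : E → ℝ := fun x => (η x * η x) * w x with hζ
  have hηη : LipschitzWith (B * L + B * L) (fun x => η x * η x) := lip_mul hη hη hηB hηB
  have hηηB : ∀ x, |η x * η x| ≤ (B * B : ℝ≥0) := fun x => by
    rw [abs_mul]; push_cast
    exact mul_le_mul (hηB x) (hηB x) (abs_nonneg _) B.2
  obtain ⟨Z, hζL⟩ : ∃ Z : ℝ≥0, LipschitzWith Z ζ := ⟨_, lip_mul hηη hwL hηηB hwB⟩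
  have hζt : tsupport ζ ⊆ tsupport η :=
    (tsupport_mul_left_subset' (f := fun x => η x * η x) (g := w)).trans
      (tsupport_mul_left_subset' (f := η) (g := η))
  have hζc : HasCompactSupport ζ := hηc.mono' (subset_tsupport _ |>.trans hζt)
  have hT : Test V ζ := ⟨⟨_, hζL⟩, hζc, hζt.trans hηV, fun x =>
    mul_nonneg (mul_self_nonneg _) (hw0 x)⟩
  have h1 := hsup ζ hT
  have h2 := integral_inner_grad_const hζL hζc e
  -- measurability and integrability
  have mφ := meas_grad φ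
  have mη := meas_grad η
  have mζ := meas_grad ζ
  have hK : IsCompact (tsupport η) := hηc
  have hgφ : ∀ x, ‖∇ φ x‖ ≤ 1 := fun x => by simpa using norm_grad_le hφ x
  have hgη : ∀ x, ‖∇ η x‖ ≤ L := fun x => norm_grad_le hη x
  have hgη0 : ∀ x, x ∉ tsupport η → ∇ η x = 0 := fun x hx => grad_zero_of_notMem hx
  have hη0 : ∀ x, x ∉ tsupport η → η x = 0 := fun x hx => image_eq_zero_of_notMem_tsupport hx
  have hgζ0 : ∀ x, x ∉ tsupport η → ∇ ζ x = 0 := fun x hx =>
    grad_zero_of_notMem fun h => hx (hζt h)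
  have hgv : ∀ x, ‖∇ φ x - e‖ ≤ 1 + ‖e‖ := fun x => (norm_sub_le _ _).trans (by
    gcongr; exact hgφ x)
  have i1 : Integrable (fun x => ⟪∇ φ x, ∇ ζ x⟫) := by
    refine integrable_of_bdd_supp (mφ.inner mζ).aestronglyMeasurable (C := 1 * Z) (fun x => ?_)
      hK (fun x hx => by rw [hgζ0 x hx, inner_zero_right])
    exact (abs_real_inner_le_norm _ _).trans (mul_le_mul (hgφ x) (norm_grad_le hζL x)
      (norm_nonneg _) (by norm_num))
  have i2 : Integrable (fun x => ⟪∇ ζ x, e⟫) := by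
    refine integrable_of_bdd_supp (mζ.inner measurable_const).aestronglyMeasurable
      (C := Z * ‖e‖) (fun x => ?_) hK (fun x hx => by rw [hgζ0 x hx, inner_zero_left])
    exact (abs_real_inner_le_norm _ _).trans (mul_le_mul_of_nonneg_right (norm_grad_le hζL x)
      (norm_nonneg _))
  have i3 : Integrable (fun x => η x ^ 2 * ‖∇ φ x - e‖ ^ 2) := by
    refine integrable_of_bdd_supp ?_ (C := B ^ 2 * (1 + ‖e‖) ^ 2) (fun x => ?_) hK
      (fun x hx => by rw [hη0 x hx]; ring)
    · exact ((hη.continuous.measurable.pow_const 2).mul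
        ((mφ.sub measurable_const).norm.pow_const 2)).aestronglyMeasurable
    · rw [abs_mul, abs_pow, abs_pow, abs_norm]
      gcongr
      · exact hηB x
      · exact hgv x
  have i4 : Integrable (fun x => ‖∇ η x‖ ^ 2) := by
    refine integrable_of_bdd_supp (mη.norm.pow_const 2).aestronglyMeasurable (C := L ^ 2)
      (fun x => ?_) hK (fun x hx => by rw [hgη0 x hx, norm_zero]; ring)
    rw [abs_pow, abs_norm]
    gcongr
    exact hgη x
  -- pointwise inequality
  have hpt : ∀ᵐ x, ⟪∇ φ x, ∇ ζ x⟫ - ⟪∇ ζ x, e⟫ ≤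
      18 * δ ^ 2 * ‖∇ η x‖ ^ 2 - (1 / 2) * (η x ^ 2 * ‖∇ φ x - e‖ ^ 2) := by
    filter_upwards [hφ.ae_differentiableAt, hη.ae_differentiableAt] with x dφ dη
    by_cases hx : x ∈ tsupport η
    · have hfl := hflat x hx
      have dinner : DifferentiableAt ℝ (fun y : E => ⟪e, y⟫) x :=
        ((innerSL ℝ e).hasFDerivAt (x := x)).differentiableAt
      have dv : DifferentiableAt ℝ v x := dφ.sub dinner
      have hw' : w =ᶠ[𝓝 x] fun y => 2 * δ - v y := by
        have hc : Continuous v := hvL.continuous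
        have h3 : ∀ᶠ y in 𝓝 x, |v y| < 2 * δ :=
          (hc.abs.tendsto x).eventually_lt_const (by
            have : |v x| ≤ δ := hfl
            linarith)
        filter_upwards [h3] with y hy
        simp only [hw, clamp_eq hy.le]
      have dw : DifferentiableAt ℝ w x :=
        ((differentiableAt_const _).sub dv).congr_of_eventuallyEq hw'
      have gv : ∇ v x = ∇ φ x - e := by rw [hv, grad_sub dφ dinner, grad_inner]
      have gw : ∇ w x = -(∇ φ x - e) := by
        rw [hw'.gradient_eq, grad_sub (differentiableAt_const _) dv, gv, gradient_fun_const, zero_sub]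
      have gζ : ∇ ζ x = (η x * η x) • (-(∇ φ x - e)) + w x • (η x • ∇ η x + η x • ∇ η x) := by
        have d2 : DifferentiableAt ℝ (fun y => η y * η y) x := dη.fun_mul dη
        rw [hζ, grad_mul d2 dw, gw, grad_mul dη dη]
      have hsum : ⟪∇ φ x, ∇ ζ x⟫ - ⟪∇ ζ x, e⟫ = ⟪∇ φ x - e, ∇ ζ x⟫ := by
        rw [inner_sub_left, real_inner_comm e]
      rw [hsum, gζ]
      set p := ∇ φ x - e with hp
      have hexp : ⟪p, (η x * η x) • (-p) + w x • (η x • ∇ η x + η x • ∇ η x)⟫ =
          -(η x ^ 2 * ‖p‖ ^ 2) + 2 * (w x * η x) * ⟪p, ∇ η x⟫ := by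
        rw [inner_add_right, inner_smul_right, inner_neg_right, inner_smul_right, inner_add_right,
          inner_smul_right, real_inner_self_eq_norm_sq]
        ring
      rw [hexp]
      have hwx : |w x| ≤ 3 * δ := by
        have h4 : w x = 2 * δ - v x := hw'.self_of_nhds
        have h5 : |v x| ≤ δ := hfl
        rw [abs_le] at h5
        rw [h4, abs_le]
        constructor <;> linarith
      have hcs : |⟪p, ∇ η x⟫| ≤ ‖p‖ * ‖∇ η x‖ := abs_real_inner_le_norm _ _
      have h6 : 2 * (w x * η x) * ⟪p, ∇ η x⟫ ≤ 2 * (3 * δ * |η x|) * (‖p‖ * ‖∇ η x‖) := by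
        calc 2 * (w x * η x) * ⟪p, ∇ η x⟫ ≤ |2 * (w x * η x) * ⟪p, ∇ η x⟫| := le_abs_self _
          _ = 2 * (|w x| * |η x|) * |⟪p, ∇ η x⟫| := by
              rw [abs_mul, abs_mul, abs_mul, abs_two]
          _ ≤ _ := by gcongr
      have h7 : 2 * (3 * δ * |η x|) * (‖p‖ * ‖∇ η x‖) ≤
          (1 / 2) * (η x ^ 2 * ‖p‖ ^ 2) + 18 * δ ^ 2 * ‖∇ η x‖ ^ 2 := by
        have h8 := sq_nonneg (|η x| * ‖p‖ - 6 * δ * ‖∇ η x‖)
        have h9 : |η x| ^ 2 = η x ^ 2 := sq_abs _
        nlinarith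
      linarith
    · rw [hgζ0 x hx, hgη0 x hx, hη0 x hx]
      simp
  have h3 : ∫ x, (⟪∇ φ x, ∇ ζ x⟫ - ⟪∇ ζ x, e⟫) ≤
      ∫ x, (18 * δ ^ 2 * ‖∇ η x‖ ^ 2 - (1 / 2) * (η x ^ 2 * ‖∇ φ x - e‖ ^ 2)) :=
    integral_mono_ae (i1.sub i2) ((i4.const_mul _).sub (i3.const_mul _)) hpt
  rw [integral_sub i1 i2, integral_sub (i4.const_mul _) (i3.const_mul _), integral_const_mul,
    integral_const_mul, h2] at h3
  linarith

end Crest.Agent.R246.Flat105
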