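import Crest.Agent.R246.GSt_873
import Crest.Agent.R246.Flat1_105
import Mathlib.Analysis.Normed.Lp.SmoothApprox
import Mathlib.MeasureTheory.Function.StronglyMeasurable.Inner

/-!
# Block G, leaf G2: `ClassD` and `VAR` are closed under pointwise limits

Proof: weak convergence of the gradients of 1-Lipschitz functions (`tendsto_pair`, along any
filter); `‖∇R‖ = 1` a.e. comes from the one-sided bound `Δ|φ| ≤ 2 μ` (`VAR` with `ζ = 0`) tested
with `η = ζ (|R| - |φ_i| + δ)`.
-/

set_option autoImplicit false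
set_option linter.unusedSectionVars false
noncomputable section
open MeasureTheory Set Filter Topology Metric
open scoped RealInnerProductSpace Gradient NNReal ENNReal ContDiff

namespace Crest.Agent.R246.G2x386

open Crest.Agent.R246.G873
open Crest.Agent.R246.Flat105

variable {E : Type*} [NormedAddCommGroup E] [InnerProductSpace ℝ E] [FiniteDimensional ℝ E]
  [MeasurableSpace E] [BorelSpace E]

/-! ### locally uniform convergence -/

theorem lip_lim {l : Filter ℝ} [l.NeBot] {f : ℝ → E → ℝ} {R : E → ℝ}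
    (hf : ∀ᶠ i in l, LipschitzWith 1 (f i)) (hR : ∀ x, Tendsto (fun i => f i x) l (𝓝 (R x))) :
    LipschitzWith 1 R := by
  refine LipschitzWith.of_dist_le_mul fun x y => ?_
  have h1 : Tendsto (fun i => dist (f i x) (f i y)) l (𝓝 (dist (R x) (R y))) :=
    (hR x).dist (hR y)
  refine le_of_tendsto h1 ?_
  filter_upwards [hf] with i hi
  exact hi.dist_le_mul x y

theorem unif {l : Filter ℝ} [l.NeBot] {f : ℝ → E → ℝ} {R : E → ℝ}
    (hf : ∀ᶠ i in l, LipschitzWith 1 (f i)) (hR : ∀ x, Tendsto (fun i => f i x) l (𝓝 (R x)))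
    {K : Set E} (hK : IsCompact K) {δ : ℝ} (hδ : 0 < δ) :
    ∀ᶠ i in l, ∀ x ∈ K, |f i x - R x| ≤ δ := by
  have hRl := lip_lim hf hR
  obtain ⟨t, -, tfin, ht⟩ := hK.finite_cover_balls (e := δ / 3) (by positivity)
  have h1 : ∀ᶠ i in l, ∀ y ∈ t, |f i y - R y| < δ / 3 := by
    rw [Filter.eventually_all_finite tfin]
    intro y _
    have := Metric.tendsto_nhds.1 (hR y) (δ / 3) (by positivity)
    filter_upwards [this] with i hi
    rwa [Real.dist_eq] at hi
  filter_upwards [hf, h1] with i hi h2 x hx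
  obtain ⟨y, hy⟩ := mem_iUnion.1 (ht hx)
  obtain ⟨hyt, hy2⟩ := mem_iUnion.1 hy
  rw [mem_ball] at hy2
  have h3 := h2 y hyt
  have h4 := hi.dist_le_mul x y
  have h5 := hRl.dist_le_mul x y
  rw [Real.dist_eq, NNReal.coe_one, one_mul] at h4 h5
  rw [abs_lt] at h3
  rw [abs_le] at h4 h5 ⊢
  constructor <;> linarith [h3.1, h3.2, h4.1, h4.2, h5.1, h5.2]

/-! ### weak convergence of gradients -/

theorem integrable_gradpair {g : E → ℝ} {D : ℝ≥0} (hg : LipschitzWith D g)
    (hgc : HasCompactSupport g) (v : E) : Integrable (fun x => ⟪∇ g x, v⟫) := by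
  refine integrable_of_bdd_supp (C := D * ‖v‖) ?_ ?_ hgc ?_
  · exact ((meas_grad g).inner measurable_const).aestronglyMeasurable
  · intro x
    refine (abs_real_inner_le_norm _ _).trans ?_
    gcongr
    exact norm_grad_le hg x
  · intro x hx
    rw [grad_zero_of_notMem hx, inner_zero_left]

/-- a measurable function, bounded by `C ‖∇ g‖` type expressions times a continuous function -/
theorem integrable_gradpair_mul {g : E → ℝ} {D : ℝ≥0} (hg : LipschitzWith D g)
    (hgc : HasCompactSupport g) (v : E) {h : E → ℝ} (hh : Continuous h) :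
    Integrable (fun x => ⟪∇ g x, v⟫ * h x) := by
  obtain ⟨B, hB⟩ := hgc.exists_bound_of_continuousOn (f := h) hh.continuousOn
  refine integrable_of_bdd_supp (C := D * ‖v‖ * max B 0) ?_ ?_ hgc ?_
  · exact (((meas_grad g).inner measurable_const).mul hh.measurable).aestronglyMeasurable
  · intro x
    by_cases hx : x ∈ tsupport g
    · rw [abs_mul]
      have e1 : |⟪∇ g x, v⟫| ≤ D * ‖v‖ := by
        refine (abs_real_inner_le_norm _ _).trans ?_
        gcongr
        exact norm_grad_le hg x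
      have e2 : |h x| ≤ max B 0 := (by simpa using hB x hx : |h x| ≤ B).trans (le_max_left _ _)
      exact mul_le_mul e1 e2 (abs_nonneg _) (by positivity)
    · rw [grad_zero_of_notMem hx, inner_zero_left, zero_mul, abs_zero]
      positivity
  · intro x hx
    rw [grad_zero_of_notMem hx, inner_zero_left, zero_mul]

theorem tendsto_pair_lip {l : Filter ℝ} [l.NeBot] {f : ℝ → E → ℝ} {R : E → ℝ}
    (hf : ∀ᶠ i in l, LipschitzWith 1 (f i)) (hR : ∀ x, Tendsto (fun i => f i x) l (𝓝 (R x)))
    {g : E → ℝ} {D : ℝ≥0} (hg : LipschitzWith D g) (hgc : HasCompactSupport g) (v : E) :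
    Tendsto (fun i => ∫ x, ⟪∇ (f i) x, v⟫ * g x) l (𝓝 (∫ x, ⟪∇ R x, v⟫ * g x)) := by
  have hRl := lip_lim hf hR
  have hI := integrable_gradpair hg hgc v
  rw [Metric.tendsto_nhds]
  intro ε hε
  set C : ℝ := ∫ x, |⟪∇ g x, v⟫| with hC
  have hC0 : 0 ≤ C := integral_nonneg fun x => abs_nonneg _
  have hδ : 0 < ε / (C + 1) := by positivity
  filter_upwards [hf, unif hf hR hgc hδ] with i hi h2
  rw [Real.dist_eq, ibp hi hg hgc v, ibp hRl hg hgc v]
  have j1 := integrable_gradpair_mul hg hgc v hRl.continuous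
  have j2 := integrable_gradpair_mul hg hgc v hi.continuous
  rw [neg_sub_neg, ← integral_sub j1 j2]
  have h3 : |∫ x, (⟪∇ g x, v⟫ * R x - ⟪∇ g x, v⟫ * f i x)|
      ≤ ∫ x, |⟪∇ g x, v⟫| * (ε / (C + 1)) := by
    refine (abs_integral_le_integral_abs).trans ?_
    refine integral_mono (j1.sub j2).abs (hI.abs.mul_const _) ?_
    intro x
    simp only
    rw [← mul_sub, abs_mul]
    by_cases hx : x ∈ tsupport g
    · have := h2 x hx
      rw [abs_sub_comm] at this
      gcongr
    · rw [grad_zero_of_notMem hx, inner_zero_left, abs_zero, zero_mul, zero_mul]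
  refine h3.trans_lt ?_
  rw [integral_mul_const, ← hC, ← mul_div_assoc, div_lt_iff₀ (by positivity)]
  nlinarith

theorem integrable_grad_inner {f : E → ℝ} (hf : LipschitzWith 1 f) {G : E → E}
    (hG : Integrable G) : Integrable (fun x => ⟪∇ f x, G x⟫) := by
  have hm : AEStronglyMeasurable (fun x => ∇ f x) (volume : Measure E) :=
    (meas_grad f).aestronglyMeasurable
  refine hG.norm.mono' (AEStronglyMeasurable.inner hm hG.aestronglyMeasurable) ?_
  refine Eventually.of_forall fun x => ?_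
  refine (norm_inner_le_norm _ _).trans ?_
  have := norm_grad_le hf x
  rw [NNReal.coe_one] at this
  exact mul_le_of_le_one_left (norm_nonneg _) this

theorem abs_pair_sub_le {f : E → ℝ} (hf : LipschitzWith 1 f) {G G' : E → E}
    (hG : Integrable G) (hG' : Integrable G') :
    |(∫ x, ⟪∇ f x, G x⟫) - ∫ x, ⟪∇ f x, G' x⟫| ≤ ∫ x, ‖G x - G' x‖ := by
  rw [← integral_sub (integrable_grad_inner hf hG) (integrable_grad_inner hf hG')]
  refine (abs_integral_le_integral_abs).trans ?_
  refine integral_mono ((integrable_grad_inner hf hG).sub (integrable_grad_inner hf hG')).abs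
    (hG.sub hG').norm ?_
  intro x
  simp only
  rw [← inner_sub_right]
  refine (abs_real_inner_le_norm _ _).trans ?_
  have := norm_grad_le hf x
  rw [NNReal.coe_one] at this
  exact mul_le_of_le_one_left (norm_nonneg _) this

/-- weak convergence against smooth fields -/
theorem tendsto_pair_smooth {l : Filter ℝ} [l.NeBot] {f : ℝ → E → ℝ} {R : E → ℝ}
    (hf : ∀ᶠ i in l, LipschitzWith 1 (f i)) (hR : ∀ x, Tendsto (fun i => f i x) l (𝓝 (R x)))
    {G : E → E} (hG : ContDiff ℝ ∞ G) (hGc : HasCompactSupport G) :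
    Tendsto (fun i => ∫ x, ⟪∇ (f i) x, G x⟫) l (𝓝 (∫ x, ⟪∇ R x, G x⟫)) := by
  have hRl := lip_lim hf hR
  set b := stdOrthonormalBasis ℝ E with hb
  obtain ⟨D, hD⟩ := ContDiff.lipschitzWith_of_hasCompactSupport hGc hG (by simp)
  have hg : ∀ j, LipschitzWith (‖b j‖₊ * D) (fun x => ⟪b j, G x⟫) := fun j =>
    (lip_inner (b j)).comp hD
  have hgc : ∀ j, HasCompactSupport (fun x => ⟪b j, G x⟫) := fun j => by
    refine hGc.mono' ?_
    intro x hx
    apply subset_tsupport G
    intro h0
    apply hx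
    simp [h0]
  have key : ∀ {h : E → ℝ}, LipschitzWith 1 h →
      ∫ x, ⟪∇ h x, G x⟫ = ∑ j, ∫ x, ⟪∇ h x, b j⟫ * ⟪b j, G x⟫ := by
    intro h hh
    rw [← integral_finsetSum]
    · congr 1
      ext x
      exact (b.sum_inner_mul_inner _ _).symm
    · intro j _
      have : Integrable (fun x => ⟪∇ h x, ⟪b j, G x⟫ • b j⟫) := by
        apply integrable_grad_inner hh
        exact (((hg j).continuous.integrable_of_hasCompactSupport (hgc j)).smul_const (b j))
      refine this.congr (Eventually.of_forall fun x => ?_)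
      simp only [inner_smul_right]
      ring
  rw [key hRl]
  have h1 : Tendsto (fun i => ∑ j, ∫ x, ⟪∇ (f i) x, b j⟫ * ⟪b j, G x⟫) l
      (𝓝 (∑ j, ∫ x, ⟪∇ R x, b j⟫ * ⟪b j, G x⟫)) := by
    apply tendsto_finsetSum
    intro j _
    exact tendsto_pair_lip hf hR (hg j) (hgc j) (b j)
  refine h1.congr' ?_
  filter_upwards [hf] with i hi
  rw [key hi]

/-- **Weak convergence of gradients** of `1`-Lipschitz functions, along any filter. -/
theorem tendsto_pair {l : Filter ℝ} [l.NeBot] {f : ℝ → E → ℝ} {R : E → ℝ}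
    (hf : ∀ᶠ i in l, LipschitzWith 1 (f i)) (hR : ∀ x, Tendsto (fun i => f i x) l (𝓝 (R x)))
    {G : E → E} (hG : Integrable G) :
    Tendsto (fun i => ∫ x, ⟪∇ (f i) x, G x⟫) l (𝓝 (∫ x, ⟪∇ R x, G x⟫)) := by
  have hRl := lip_lim hf hR
  rw [Metric.tendsto_nhds]
  intro ε hε
  obtain ⟨G', hG'c, hG's, hG'⟩ := (memLp_one_iff_integrable.2 hG).exist_eLpNorm_sub_le
    ENNReal.one_ne_top le_rfl (ε := ε / 4) (by positivity)
  have hG'i : Integrable G' := hG's.continuous.integrable_of_hasCompactSupport hG'c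
  have hd : ∫ x, ‖G x - G' x‖ ≤ ε / 4 := by
    have h0 := integral_norm_eq_lintegral_enorm (hG.sub hG'i).aestronglyMeasurable
    simp only [Pi.sub_apply] at h0
    rw [h0]
    rw [eLpNorm_one_eq_lintegral_enorm] at hG'
    have := ENNReal.toReal_mono ENNReal.ofReal_ne_top hG'
    rwa [ENNReal.toReal_ofReal (by positivity)] at this
  have h1 := Metric.tendsto_nhds.1 (tendsto_pair_smooth hf hR hG's hG'c) (ε / 4) (by positivity)
  filter_upwards [hf, h1] with i hi h2
  rw [Real.dist_eq] at h2 ⊢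
  have h3 := (abs_pair_sub_le hi hG hG'i).trans hd
  have h4 := (abs_pair_sub_le hRl hG hG'i).trans hd
  rw [abs_lt] at h2 ⊢
  rw [abs_le] at h3 h4
  constructor <;> linarith [h2.1, h2.2, h3.1, h3.2, h4.1, h4.2]

/-! ### the absolute value -/

theorem lip_abs {f : E → ℝ} {C : ℝ≥0} (hf : LipschitzWith C f) :
    LipschitzWith C (fun x => |f x|) := by
  apply LipschitzWith.of_dist_le_mul
  intro x y
  refine le_trans ?_ (hf.dist_le_mul x y)
  rw [Real.dist_eq, Real.dist_eq]
  exact abs_abs_sub_abs_le_abs_sub _ _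

theorem norm_grad_abs_of_ne {f : E → ℝ} (hf : Continuous f) {x : E} (hx : f x ≠ 0) :
    ‖∇ (fun y => |f y|) x‖ = ‖∇ f x‖ := by
  rcases lt_or_gt_of_ne hx with h | h
  · have h1 : (fun y => |f y|) =ᶠ[𝓝 x] fun y => - f y := by
      filter_upwards [hf.continuousAt.eventually (gt_mem_nhds h)] with y hy
      exact abs_of_neg hy
    rw [h1.gradient_eq, norm_grad, norm_grad, fderiv_fun_neg, norm_neg]
  · have h1 : (fun y => |f y|) =ᶠ[𝓝 x] f := by
      filter_upwards [hf.continuousAt.eventually (lt_mem_nhds h)] with y hy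
      exact abs_of_pos hy
    rw [h1.gradient_eq]

theorem grad_abs_of_eq_zero {f : E → ℝ} {x : E} (hx : f x = 0) :
    ∇ (fun y => |f y|) x = 0 := by
  have h1 : IsLocalMin (fun y => |f y|) x := by
    refine Eventually.of_forall fun y => ?_
    simp [hx]
  rw [gradient, h1.fderiv_eq_zero, map_zero]

/-- If `‖∇ f‖ = 1` a.e. then `‖∇ |f|‖ = 1` a.e. -/
theorem ae_norm_grad_abs {f : E → ℝ} (hf : LipschitzWith 1 f)
    (h : ∀ᵐ x ∂(volume : Measure E), ‖∇ f x‖ = 1) :
    ∀ᵐ x ∂(volume : Measure E), ‖∇ (fun y => |f y|) x‖ = 1 := by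
  filter_upwards [h, (lip_abs hf).ae_differentiableAt (μ := volume)] with x h1 h2
  by_cases hx : f x = 0
  · exfalso
    have h3 : IsLocalMin (fun y => |f y|) x := by
      refine Eventually.of_forall fun y => ?_
      simp [hx]
    have h4 : HasFDerivAt (fun y => |f y|) (0 : E →L[ℝ] ℝ) x := by
      have := h2.hasFDerivAt
      rwa [h3.fderiv_eq_zero] at this
    have h5 : HasFDerivAt f (0 : E →L[ℝ] ℝ) x := by
      rw [hasFDerivAt_iff_isLittleO] at h4 ⊢
      simp only [hx, abs_zero, sub_zero, _root_.zero_apply] at h4 ⊢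
      exact Asymptotics.isLittleO_abs_left.1 h4
    rw [norm_grad, h5.fderiv, norm_zero] at h1
    exact zero_ne_one h1
  · rw [norm_grad_abs_of_ne hf.continuous hx, h1]

/-- If `‖∇ |f|‖ = 1` at `x` then `‖∇ f‖ = 1` at `x`. -/
theorem norm_grad_of_abs {f : E → ℝ} (hf : Continuous f) {x : E}
    (h : ‖∇ (fun y => |f y|) x‖ = 1) : ‖∇ f x‖ = 1 := by
  by_cases hx : f x = 0
  · rw [grad_abs_of_eq_zero hx, norm_zero] at h
    exact absurd h zero_ne_one
  · rwa [norm_grad_abs_of_ne hf hx] at h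

theorem integrable_grad {g : E → ℝ} {D : ℝ≥0} (hg : LipschitzWith D g)
    (hgc : HasCompactSupport g) : Integrable (fun x => ∇ g x) := by
  have hm : AEStronglyMeasurable (fun x => ∇ g x) (volume : Measure E) :=
    (meas_grad g).aestronglyMeasurable
  rw [← integrable_norm_iff hm]
  refine integrable_of_bdd_supp (C := D) hm.norm ?_ hgc ?_
  · intro x
    rw [abs_norm]
    exact norm_grad_le hg x
  · intro x hx
    rw [grad_zero_of_notMem hx, norm_zero]

theorem integrable_smul_grad {g : E → ℝ} (hg : LipschitzWith 1 g) {ζ : E → ℝ}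
    (hζ : Continuous ζ) (hζc : HasCompactSupport ζ) : Integrable (fun x => ζ x • ∇ g x) := by
  have hm : AEStronglyMeasurable (fun x => ∇ g x) (volume : Measure E) :=
    (meas_grad g).aestronglyMeasurable
  refine (hζ.integrable_of_hasCompactSupport hζc).norm.mono'
    (hζ.aestronglyMeasurable.smul hm) ?_
  refine Eventually.of_forall fun x => ?_
  rw [norm_smul]
  have := norm_grad_le hg x
  rw [NNReal.coe_one] at this
  exact mul_le_of_le_one_right (norm_nonneg _) this

/-- the key estimate -/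
theorem key_est {φ R : E → ℝ} (hφ : LipschitzWith 1 φ) (hR : LipschitzWith 1 R)
    {μ : Measure E} [IsFiniteMeasureOnCompacts μ] {U : Set E} (hv : VAR φ μ U)
    (hg : ∀ᵐ x ∂(volume : Measure E), ‖∇ φ x‖ = 1) {ζ : E → ℝ} {D : ℝ≥0}
    (hζ : LipschitzWith D ζ) (hζc : HasCompactSupport ζ) (hζ0 : ∀ x, 0 ≤ ζ x)
    (hU : tsupport ζ ⊆ U) {δ : ℝ} (hδ : 0 ≤ δ) (hd : ∀ x ∈ tsupport ζ, |φ x - R x| ≤ δ) :
    ∫ x, ζ x ≤ (∫ x, ⟪∇ (fun y => |φ y|) x, ζ x • ∇ (fun y => |R y|) x⟫)
      + δ * (2 * (∫ x, ‖∇ ζ x‖) + 4 * ∫ x, ζ x ∂μ) := by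
  set p : E → ℝ := fun y => |φ y| with hp
  set q : E → ℝ := fun y => |R y| with hq
  have hpL : LipschitzWith 1 p := lip_abs hφ
  have hqL : LipschitzWith 1 q := lip_abs hR
  have hpq : ∀ x ∈ tsupport ζ, |q x - p x| ≤ δ := by
    intro x hx
    refine le_trans ?_ (hd x hx)
    rw [abs_sub_comm (φ x)]
    exact abs_abs_sub_abs_le_abs_sub _ _
  set η : E → ℝ := fun x => ζ x * (q x - p x + δ) with hη
  have hz : ∀ x, x ∉ tsupport ζ → ζ x = 0 := fun x hx => by
    by_contra h
    exact hx (subset_tsupport ζ h)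
  -- `η` is Lipschitz
  have hηL : ∃ L, LipschitzWith L η := by
    obtain ⟨A, hA⟩ := hζ.continuous.bounded_above_of_compact_support hζc
    have h1 : LipschitzWith (A.toNNReal * (1 * (1 + 1)) + δ.toNNReal * D)
        (fun x => ζ x * clamp δ (q x - p x)) := by
      refine lip_mul hζ ((lip_clamp δ).comp (hqL.sub hpL)) ?_ ?_
      · intro x
        exact (hA x).trans (Real.le_coe_toNNReal A)
      · intro x
        exact (abs_clamp_le hδ _).trans (Real.le_coe_toNNReal δ)
    have h2 : LipschitzWith (δ.toNNReal * D) (fun x => δ * ζ x) := by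
      apply LipschitzWith.of_dist_le_mul
      intro x y
      have := hζ.dist_le_mul x y
      rw [Real.dist_eq] at this ⊢
      rw [← mul_sub, abs_mul, abs_of_nonneg hδ, NNReal.coe_mul, Real.coe_toNNReal _ hδ, mul_assoc]
      gcongr
    have h3 := h1.add h2
    have h4 : (fun x => ζ x * clamp δ (q x - p x) + δ * ζ x) = η := by
      funext x
      simp only [hη]
      by_cases hx : x ∈ tsupport ζ
      · rw [clamp_eq (hpq x hx)]; ring
      · rw [hz x hx]; ring
    rw [h4] at h3
    exact ⟨_, h3⟩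
  obtain ⟨L, hL⟩ := hηL
  have hηs : tsupport η ⊆ tsupport ζ := tsupport_mul_left_subset'
  have hηc : HasCompactSupport η := hζc.mul_right
  have hη0 : ∀ x, 0 ≤ η x := by
    intro x
    by_cases hx : x ∈ tsupport ζ
    · have := (abs_le.1 (hpq x hx)).1
      exact mul_nonneg (hζ0 x) (by linarith)
    · simp [hη, hz x hx]
  have hη1 : ∀ x, η x ≤ 2 * δ * ζ x := by
    intro x
    by_cases hx : x ∈ tsupport ζ
    · have := (abs_le.1 (hpq x hx)).2
      have h0 := hζ0 x
      simp only [hη]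
      nlinarith
    · simp [hη, hz x hx]
  -- the variational inequality
  have h1 := hv (fun _ => 0) η ⟨0, LipschitzWith.const 0⟩ ⟨L, hL⟩ HasCompactSupport.zero hηc
    (fun x => by simpa using hη0 x) (hηs.trans hU)
  have e0 : ∀ x, gi φ (fun _ => 0) x = 0 := by
    intro x; unfold gi gradient; simp
  simp only [e0, integral_zero, zero_sub] at h1
  have h2 : ∫ x, η x ∂μ ≤ 2 * δ * ∫ x, ζ x ∂μ := by
    rw [← integral_const_mul]
    exact integral_mono (hL.continuous.integrable_of_hasCompactSupport hηc)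
      ((hζ.continuous.integrable_of_hasCompactSupport hζc).const_mul _) hη1
  -- pointwise
  have hn := ae_norm_grad_abs hφ hg
  have i1 : Integrable (fun x => ⟪∇ p x, ζ x • ∇ q x⟫) :=
    integrable_grad_inner hpL (integrable_smul_grad hqL hζ.continuous hζc)
  have i2 : Integrable ζ := hζ.continuous.integrable_of_hasCompactSupport hζc
  have i3 : Integrable (fun x => ‖∇ ζ x‖) := (integrable_grad hζ hζc).norm
  have h3 : ∫ x, gi p η x ≤ ∫ x, (⟪∇ p x, ζ x • ∇ q x⟫ - ζ x + 2 * δ * ‖∇ ζ x‖) := by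
    refine integral_mono_ae ?_ ((i1.sub i2).add (i3.const_mul _)) ?_
    · exact integrable_grad_inner hpL (integrable_grad hL hηc)
    · filter_upwards [hn, hpL.ae_differentiableAt (μ := volume),
        hqL.ae_differentiableAt (μ := volume), hζ.ae_differentiableAt (μ := volume)]
        with x hx1 hx2 hx3 hx4
      have g1 : ∇ η x = ζ x • (∇ q x - ∇ p x) + (q x - p x + δ) • ∇ ζ x := by
        have d1 : DifferentiableAt ℝ (fun y => q y - p y + δ) x :=
          (hx3.fun_sub hx2).add_const δ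
        rw [hη, grad_mul hx4 d1]
        congr 2
        rw [gradient, fderiv_add_const, ← gradient, grad_sub hx3 hx2]
      unfold gi
      rw [g1, inner_add_right, inner_smul_right, inner_sub_right, inner_smul_right,
        inner_smul_right, real_inner_self_eq_norm_sq, hx1]
      have g2 : (q x - p x + δ) * ⟪∇ p x, ∇ ζ x⟫ ≤ 2 * δ * ‖∇ ζ x‖ := by
        by_cases hx : x ∈ tsupport ζ
        · have h5 := abs_le.1 (hpq x hx)
          have h6 : ⟪∇ p x, ∇ ζ x⟫ ≤ ‖∇ ζ x‖ := by
            refine (real_inner_le_norm _ _).trans ?_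
            rw [hx1, one_mul]
          have h7 : (q x - p x + δ) * ⟪∇ p x, ∇ ζ x⟫ ≤ (q x - p x + δ) * ‖∇ ζ x‖ :=
            mul_le_mul_of_nonneg_left h6 (by linarith [h5.1])
          have h8 : (q x - p x + δ) * ‖∇ ζ x‖ ≤ 2 * δ * ‖∇ ζ x‖ :=
            mul_le_mul_of_nonneg_right (by linarith [h5.2]) (norm_nonneg _)
          exact h7.trans h8
        · rw [grad_zero_of_notMem hx, inner_zero_right, mul_zero, norm_zero, mul_zero]
      linarith
  have h4 : ∫ x, (⟪∇ p x, ζ x • ∇ q x⟫ - ζ x + 2 * δ * ‖∇ ζ x‖)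
      = (∫ x, ⟪∇ p x, ζ x • ∇ q x⟫) - (∫ x, ζ x) + 2 * δ * ∫ x, ‖∇ ζ x‖ := by
    have i4 : Integrable (fun x => ⟪∇ p x, ζ x • ∇ q x⟫ - ζ x) := i1.sub i2
    rw [integral_add i4 (i3.const_mul _), integral_sub i1 i2, integral_const_mul]
  rw [h4] at h3
  have h5 : -∫ x, gi p η x ≤ 4 * δ * ∫ x, ζ x ∂μ := by linarith
  linarith

/-- cone-shaped cut-off functions -/
def cut (n : ℕ) (x : E) : ℝ := max ((n : ℝ) + 1 - ‖x‖) 0

theorem lip_cut (n : ℕ) : LipschitzWith 1 (cut n : E → ℝ) := by
  apply LipschitzWith.of_dist_le_mul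
  intro x y
  rw [Real.dist_eq, NNReal.coe_one, one_mul, dist_eq_norm]
  unfold cut
  refine (abs_max_sub_max_le_abs _ _ _).trans ?_
  rw [sub_sub_sub_cancel_left, abs_sub_comm]
  exact abs_norm_sub_norm_le _ _

theorem cut_nonneg (n : ℕ) (x : E) : 0 ≤ cut n x := le_max_right _ _

theorem cs_cut (n : ℕ) : HasCompactSupport (cut n : E → ℝ) := by
  refine HasCompactSupport.of_support_subset_isCompact (isCompact_closedBall 0 ((n : ℝ) + 1)) ?_
  intro x hx
  rw [mem_closedBall_zero_iff]
  by_contra h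
  push Not at h
  apply hx
  unfold cut
  exact max_eq_right (by linarith)

theorem cut_pos {n : ℕ} {x : E} (h : ‖x‖ < n + 1) : 0 < cut n x :=
  lt_max_of_lt_left (by linarith)

/-- **G2**: `ClassD` and `VAR` are closed under pointwise limits. -/
theorem stG2 (E : Type) [NormedAddCommGroup E] [InnerProductSpace ℝ E] [FiniteDimensional ℝ E]
    [MeasurableSpace E] [BorelSpace E] : StG2 E := by
  intro l _ φ R μ ν U hfin hν hcD hR hU hV hw
  have hL : ∀ᶠ i in l, LipschitzWith 1 (φ i) := hcD.mono fun i h => h.lip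
  have hRL := lip_lim hL hR
  have hLa : ∀ᶠ i in l, LipschitzWith 1 (fun y => |φ i y|) := hL.mono fun i h => lip_abs h
  have hRa : ∀ x, Tendsto (fun i => |φ i x|) l (𝓝 |R x|) := fun x => (hR x).abs
  have wk : ∀ ζ : E → ℝ, Lip ζ → HasCompactSupport ζ →
      Tendsto (fun i => ∫ x, gi (φ i) ζ x) l (𝓝 (∫ x, gi R ζ x)) :=
    fun ζ ⟨C, hC⟩ hc => tendsto_pair hL hR (integrable_grad hC hc)
  have wka : ∀ ζ : E → ℝ, Lip ζ → HasCompactSupport ζ →
      Tendsto (fun i => ∫ x, gi (fun y => |φ i y|) ζ x) l (𝓝 (∫ x, gi (fun y => |R y|) ζ x)) :=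
    fun ζ ⟨C, hC⟩ hc => tendsto_pair hLa hRa (integrable_grad hC hc)
  refine ⟨⟨hRL, ?_, ?_, ?_⟩, ?_⟩
  · -- `‖∇ R‖ = 1`
    have hqL : LipschitzWith 1 (fun y => |R y|) := lip_abs hRL
    have main : ∀ n : ℕ, ∀ᵐ x ∂(volume : Measure E),
        cut n x * (1 - ‖∇ (fun y => |R y|) x‖ ^ 2) = 0 := by
      intro n
      set ζ : E → ℝ := cut n with hζdef
      have hζ : LipschitzWith 1 ζ := lip_cut n
      have hζc : HasCompactSupport ζ := cs_cut n
      have hζ0 : ∀ x, 0 ≤ ζ x := cut_nonneg n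
      have i2 : Integrable ζ := hζ.continuous.integrable_of_hasCompactSupport hζc
      have i1 : Integrable (fun x => ⟪∇ (fun y => |R y|) x, ζ x • ∇ (fun y => |R y|) x⟫) :=
        integrable_grad_inner hqL (integrable_smul_grad hqL hζ.continuous hζc)
      have hle : ∫ x, ζ x ≤ ∫ x, ⟪∇ (fun y => |R y|) x, ζ x • ∇ (fun y => |R y|) x⟫ := by
        set C : ℝ := 2 * (∫ x, ‖∇ ζ x‖) + 4 * ((∫ x, ζ x ∂ν) + 1) with hC
        have hC0 : 0 ≤ C := by
          have e1 : 0 ≤ ∫ x, ‖∇ ζ x‖ := integral_nonneg fun x => norm_nonneg _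
          have e2 : 0 ≤ ∫ x, ζ x ∂ν := integral_nonneg hζ0
          positivity
        have key : ∀ δ : ℝ, 0 < δ →
            ∫ x, ζ x ≤ (∫ x, ⟪∇ (fun y => |R y|) x, ζ x • ∇ (fun y => |R y|) x⟫) + δ * C := by
          intro δ hδ
          have t1 := (tendsto_pair hLa hRa
            (integrable_smul_grad hqL hζ.continuous hζc)).add_const (δ * C)
          refine ge_of_tendsto t1 ?_
          have t2 : ∀ᶠ i in l, ∫ x, ζ x ∂(μ i) < (∫ x, ζ x ∂ν) + 1 :=
            (hw ζ hζ.continuous hζc).eventually (gt_mem_nhds (lt_add_one _))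
          filter_upwards [hcD, hV, hU _ hζc, unif hL hR hζc hδ, t2] with i h1 h2 h3 h4 h5
          have := hfin i
          have h6 := key_est h1.lip hRL h2 (by
            filter_upwards [h1.grad] with x hx
            rwa [norm_grad]) hζ hζc hζ0 h3 hδ.le h4
          refine h6.trans ?_
          rw [hC]
          gcongr
        by_contra hcon
        push Not at hcon
        set a := ∫ x, ζ x
        set b := ∫ x, ⟪∇ (fun y => |R y|) x, ζ x • ∇ (fun y => |R y|) x⟫
        have h7 := key ((a - b) / (2 * (C + 1))) (by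
          apply div_pos (by linarith) (by positivity))
        have h8 : (a - b) / (2 * (C + 1)) * C ≤ (a - b) / 2 := by
          rw [div_mul_eq_mul_div, div_le_div_iff₀ (by positivity) (by norm_num)]
          nlinarith
        linarith
      have e1 : ∀ x, ζ x * (1 - ‖∇ (fun y => |R y|) x‖ ^ 2)
          = ζ x - ⟪∇ (fun y => |R y|) x, ζ x • ∇ (fun y => |R y|) x⟫ := by
        intro x
        rw [inner_smul_right, real_inner_self_eq_norm_sq]; ring
      have h0 : ∀ x, 0 ≤ ζ x * (1 - ‖∇ (fun y => |R y|) x‖ ^ 2) := by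
        intro x
        have h1 := norm_grad_le hqL x
        rw [NNReal.coe_one] at h1
        have h2 : ‖∇ (fun y => |R y|) x‖ ^ 2 ≤ 1 := by
          have := norm_nonneg (∇ (fun y => |R y|) x)
          nlinarith
        exact mul_nonneg (hζ0 x) (by linarith)
      have hi : Integrable (fun x => ζ x * (1 - ‖∇ (fun y => |R y|) x‖ ^ 2)) := by
        simp_rw [e1]
        exact i2.sub i1
      have hz : ∫ x, ζ x * (1 - ‖∇ (fun y => |R y|) x‖ ^ 2) = 0 := by
        apply le_antisymm
        · simp_rw [e1]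
          rw [integral_sub i2 i1]
          linarith
        · exact integral_nonneg h0
      have := (integral_eq_zero_iff_of_nonneg h0 hi).1 hz
      filter_upwards [this] with x hx using hx
    rw [← ae_all_iff] at main
    filter_upwards [main] with x hx
    rw [← norm_grad]
    apply norm_grad_of_abs hRL.continuous
    obtain ⟨n, hn⟩ := exists_nat_gt ‖x‖
    have h1 : 0 < cut n x := cut_pos (by linarith)
    have h2 := (mul_eq_zero.1 (hx n)).resolve_left h1.ne'
    have h3 : ‖∇ (fun y => |R y|) x‖ ^ 2 = 1 := by linarith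
    have h4 := norm_nonneg (∇ (fun y => |R y|) x)
    exact (pow_eq_one_iff_of_nonneg h4 (by norm_num)).1 h3
  · intro ζ hζ hζc hζ0 hζs
    obtain ⟨c, hc0, hc⟩ := hζc.exists_forall_le' (f := R) hRL.continuous.continuousOn
      (a := 0) (fun b hb => hζs hb)
    refine ge_of_tendsto (wk ζ hζ hζc) ?_
    filter_upwards [hcD, unif hL hR hζc (half_pos hc0)] with i h1 h2
    refine h1.sup ζ hζ hζc hζ0 ?_
    intro x hx
    have h3 := (abs_le.1 (h2 x hx)).1
    have h4 := hc x hx
    show 0 < φ i x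
    linarith
  · intro ζ hζ hζc hζ0 hζs
    obtain ⟨c, hc0, hc⟩ := hζc.exists_forall_le' (f := fun x => - R x)
      hRL.continuous.neg.continuousOn (a := 0) (fun b hb => by
        have : R b < 0 := hζs hb
        simpa using this)
    refine le_of_tendsto (wk ζ hζ hζc) ?_
    filter_upwards [hcD, unif hL hR hζc (half_pos hc0)] with i h1 h2
    refine h1.sub ζ hζ hζc hζ0 ?_
    intro x hx
    have h3 := (abs_le.1 (h2 x hx)).2
    have h4 := hc x hx
    show φ i x < 0
    linarith
  · intro ζ η hζ hη hζc hηc hle _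
    have t1 := (wk ζ hζ hζc).sub (wka η hη hηc)
    have t2 := (hw η (by obtain ⟨C, hC⟩ := hη; exact hC.continuous) hηc).const_mul 2
    refine le_of_tendsto_of_tendsto t1 t2 ?_
    filter_upwards [hV, hU _ hηc] with i h1 h2
    exact h1 ζ η hζ hη hζc hηc hle h2

end Crest.Agent.R246.G2x386
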