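import Crest.Agent.R246.VbVar_872
import Mathlib.Analysis.InnerProductSpace.Adjoint

/-!
# Row 246, block G, leaf G3 (helper688): the link inequality `StG3`

`R` is `p`-invariant, `ρ = R ∘ j` on `p^⊥`.  Transfer `VAR R μ univ` to `VAR ρ μ' univ`, `μ'` the
push-forward of `exp(-⟪x,p⟫²)/√π μ` under the orthogonal projection, and apply 872's `VB_of_VAR`.
-/

set_option autoImplicit false
set_option linter.unusedSectionVars false
noncomputable section
open MeasureTheory Set Filter Topology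
open scoped RealInnerProductSpace
open Crest.Agent.R246.H990
open Crest.Agent.R246.G873 (gi Lip VAR ClassD StG3)
open Crest.Agent.R246.Vb872

namespace Crest.Agent.R246.G3x688

variable {E E' : Type*} [NormedAddCommGroup E] [InnerProductSpace ℝ E] [FiniteDimensional ℝ E]
  [MeasurableSpace E] [BorelSpace E] [NormedAddCommGroup E'] [InnerProductSpace ℝ E']
  [FiniteDimensional ℝ E'] [MeasurableSpace E'] [BorelSpace E']

/-! ### the splitting `E = j E' ⊕ ℝ p` -/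

/-- `(y, t) ↦ j y + t p` -/
def Ph (j : E' →ₗᵢ[ℝ] E) (p : E) (q : E' × ℝ) : E := j q.1 + q.2 • p

/-- the projection `E → E'` -/
def Pr (j : E' →ₗᵢ[ℝ] E) : E →L[ℝ] E' := ContinuousLinearMap.adjoint j.toContinuousLinearMap

lemma Pr_inner (j : E' →ₗᵢ[ℝ] E) (x : E) (z : E') : ⟪Pr j x, z⟫ = ⟪x, j z⟫ :=
  ContinuousLinearMap.adjoint_inner_left _ _ _

lemma Pr_Ph {j : E' →ₗᵢ[ℝ] E} {p : E} (hj : ∀ y, ⟪j y, p⟫ = 0) (q : E' × ℝ) :
    Pr j (Ph j p q) = q.1 := by
  refine ext_inner_right ℝ fun z => ?_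
  have h : ⟪p, j z⟫ = 0 := by rw [real_inner_comm]; exact hj z
  rw [Pr_inner, Ph, inner_add_left, real_inner_smul_left, j.inner_map_map, h]
  ring

lemma inner_Ph {j : E' →ₗᵢ[ℝ] E} {p : E} (hp : ‖p‖ = 1) (hj : ∀ y, ⟪j y, p⟫ = 0) (q : E' × ℝ) :
    ⟪Ph j p q, p⟫ = q.2 := by
  rw [Ph, inner_add_left, hj, real_inner_smul_left, real_inner_self_eq_norm_sq, hp]
  ring

lemma norm_Ph_sq {j : E' →ₗᵢ[ℝ] E} {p : E} (hp : ‖p‖ = 1) (hj : ∀ y, ⟪j y, p⟫ = 0)
    (q : E' × ℝ) : ‖Ph j p q‖ ^ 2 = ‖q.1‖ ^ 2 + q.2 ^ 2 := by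
  rw [Ph, @norm_add_sq_real, real_inner_smul_right, hj, norm_smul, hp, j.norm_map]
  simp

lemma exists_split (hfin : Module.finrank ℝ E' + 1 = Module.finrank ℝ E) {p : E}
    {j : E' →ₗᵢ[ℝ] E} (hp : ‖p‖ = 1) (hj : ∀ y, ⟪j y, p⟫ = 0) :
    ∃ Le : WithLp 2 (E' × ℝ) ≃ₗᵢ[ℝ] E, ∀ q : E' × ℝ, Le (WithLp.toLp 2 q) = Ph j p q := by
  let L : WithLp 2 (E' × ℝ) →ₗ[ℝ] E :=
    { toFun := fun q => j q.fst + q.snd • p
      map_add' := by
        intro a b
        simp only [WithLp.add_fst, WithLp.add_snd, map_add, add_smul]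
        abel
      map_smul' := by
        intro c a
        simp only [WithLp.smul_fst, WithLp.smul_snd, map_smul, smul_eq_mul, mul_smul,
          RingHom.id_apply, smul_add] }
  have hL : ∀ a, ‖L a‖ = ‖a‖ := by
    intro a
    have h1 : ‖L a‖ ^ 2 = ‖a‖ ^ 2 := by
      have h2 : L a = Ph j p (a.fst, a.snd) := rfl
      rw [h2, norm_Ph_sq hp hj, WithLp.prod_norm_sq_eq_of_L2]
      simp
    exact (sq_eq_sq₀ (norm_nonneg _) (norm_nonneg _)).1 h1
  let Li : WithLp 2 (E' × ℝ) →ₗᵢ[ℝ] E := ⟨L, hL⟩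
  have hdim : Module.finrank ℝ (WithLp 2 (E' × ℝ)) = Module.finrank ℝ E := by
    rw [← hfin, (WithLp.linearEquiv 2 ℝ (E' × ℝ)).finrank_eq,
      Module.finrank_prod, Module.finrank_self]
  exact ⟨Li.toLinearIsometryEquiv hdim, fun q => rfl⟩

lemma mp_Ph (hfin : Module.finrank ℝ E' + 1 = Module.finrank ℝ E) {p : E}
    {j : E' →ₗᵢ[ℝ] E} (hp : ‖p‖ = 1) (hj : ∀ y, ⟪j y, p⟫ = 0) :
    MeasurePreserving (Ph j p) (volume : Measure (E' × ℝ)) volume := by
  obtain ⟨Le, hLe⟩ := exists_split hfin hp hj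
  have h1 : MeasurePreserving Le volume volume := Le.measurePreserving
  have h2 := WithLp.volume_preserving_toLp (U := E') (V := ℝ)
  have h3 : Ph j p = Le ∘ (WithLp.toLp 2) := funext fun q => (hLe q).symm
  rw [h3]
  exact h1.comp h2

lemma me_Ph {p : E}
    {j : E' →ₗᵢ[ℝ] E} (hp : ‖p‖ = 1) (hj : ∀ y, ⟪j y, p⟫ = 0) :
    MeasurableEmbedding (Ph j p) := by
  refine Continuous.measurableEmbedding ?_ ?_
  · unfold Ph
    exact (j.continuous.comp continuous_fst).add (continuous_snd.smul continuous_const)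
  · intro a b hab
    have h1 := Pr_Ph hj a
    have h2 := inner_Ph hp hj a
    rw [hab, Pr_Ph hj b] at h1
    rw [hab, inner_Ph hp hj b] at h2
    exact Prod.ext h1.symm h2.symm

lemma surj_Ph (hfin : Module.finrank ℝ E' + 1 = Module.finrank ℝ E) {p : E}
    {j : E' →ₗᵢ[ℝ] E} (hp : ‖p‖ = 1) (hj : ∀ y, ⟪j y, p⟫ = 0) (x : E) :
    Ph j p (Pr j x, ⟪x, p⟫) = x := by
  obtain ⟨Le, hLe⟩ := exists_split hfin hp hj
  obtain ⟨a, ha⟩ := Le.surjective x
  have h1 : Ph j p (WithLp.ofLp a) = x := by rw [← hLe]; exact ha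
  have h2 := Pr_Ph hj (WithLp.ofLp a)
  have h3 := inner_Ph hp hj (WithLp.ofLp a)
  rw [h1] at h2 h3
  rw [h2, h3]
  exact h1

lemma norm_sq_split (hfin : Module.finrank ℝ E' + 1 = Module.finrank ℝ E) {p : E}
    {j : E' →ₗᵢ[ℝ] E} (hp : ‖p‖ = 1) (hj : ∀ y, ⟪j y, p⟫ = 0) (x : E) :
    ‖x‖ ^ 2 = ‖Pr j x‖ ^ 2 + ⟪x, p⟫ ^ 2 := by
  have h := norm_Ph_sq hp hj (Pr j x, ⟪x, p⟫)
  rwa [surj_Ph hfin hp hj] at h

lemma norm_Pr_le (hfin : Module.finrank ℝ E' + 1 = Module.finrank ℝ E) {p : E}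
    {j : E' →ₗᵢ[ℝ] E} (hp : ‖p‖ = 1) (hj : ∀ y, ⟪j y, p⟫ = 0) (x : E) : ‖Pr j x‖ ≤ ‖x‖ := by
  have h := norm_sq_split hfin hp hj x
  have : ‖Pr j x‖ ^ 2 ≤ ‖x‖ ^ 2 := by nlinarith [sq_nonneg ⟪x, p⟫]
  exact (sq_le_sq₀ (norm_nonneg _) (norm_nonneg _)).1 this

/-! ### derivatives of `p`-invariant functions -/

lemma hasFDerivAt_Ph_fst (j : E' →ₗᵢ[ℝ] E) (p : E) (y : E') (t : ℝ) :
    HasFDerivAt (fun z : E' => Ph j p (z, t)) j.toContinuousLinearMap y := by
  have h : HasFDerivAt (fun z : E' => j z) j.toContinuousLinearMap y :=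
    j.toContinuousLinearMap.hasFDerivAt
  exact h.add_const (t • p)

lemma fderiv_comp_j {f : E → ℝ} {j : E' →ₗᵢ[ℝ] E} {p : E}
    (hinv : ∀ x (t : ℝ), f (x + t • p) = f x) {y : E'} {t : ℝ}
    (hd : DifferentiableAt ℝ f (Ph j p (y, t))) :
    HasFDerivAt (fun z : E' => f (j z))
      ((fderiv ℝ f (Ph j p (y, t))).comp j.toContinuousLinearMap) y := by
  have h := hd.hasFDerivAt.comp y (hasFDerivAt_Ph_fst j p y t)
  have e : (f ∘ fun z : E' => Ph j p (z, t)) = fun z : E' => f (j z) := by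
    funext z
    exact hinv (j z) t
  rwa [e] at h

lemma fderiv_p {f : E → ℝ} {p : E} (hinv : ∀ x (t : ℝ), f (x + t • p) = f x) {x : E}
    (hd : DifferentiableAt ℝ f x) : fderiv ℝ f x p = 0 := by
  have h1 : HasDerivAt (fun t : ℝ => x + t • p) p 0 := by
    simpa using ((hasDerivAt_id (0 : ℝ)).smul_const p).const_add x
  have h2 : HasFDerivAt f (fderiv ℝ f x) (x + (0 : ℝ) • p) := by
    rw [zero_smul, add_zero]; exact hd.hasFDerivAt
  have h3 := h2.comp_hasDerivAt (0 : ℝ) h1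
  have e : (f ∘ fun t : ℝ => x + t • p) = fun _ => f x := funext fun t => hinv x t
  rw [e] at h3
  exact h3.unique (hasDerivAt_const _ _)

lemma gradient_comp_j (hfin : Module.finrank ℝ E' + 1 = Module.finrank ℝ E) {f : E → ℝ}
    {j : E' →ₗᵢ[ℝ] E} {p : E} (hp : ‖p‖ = 1) (hj : ∀ y, ⟪j y, p⟫ = 0)
    (hinv : ∀ x (t : ℝ), f (x + t • p) = f x) {y : E'} {t : ℝ}
    (hd : DifferentiableAt ℝ f (Ph j p (y, t))) :
    gradient f (Ph j p (y, t)) = j (gradient (fun z : E' => f (j z)) y) := by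
  refine ext_inner_right ℝ fun v => ?_
  have hf1 : ∀ v, ⟪gradient f (Ph j p (y, t)), v⟫ = fderiv ℝ f (Ph j p (y, t)) v := fun v => by
    unfold gradient; exact InnerProductSpace.toDual_symm_apply
  have hf2 : ∀ a, ⟪gradient (fun z : E' => f (j z)) y, a⟫ = fderiv ℝ (fun z : E' => f (j z)) y a :=
    fun a => by unfold gradient; exact InnerProductSpace.toDual_symm_apply
  rw [hf1]
  have hv : v = j (Pr j v) + ⟪v, p⟫ • p := (surj_Ph hfin hp hj v).symm
  rw [hv, map_add, map_smul, fderiv_p hinv hd, inner_add_right, real_inner_smul_right, hj,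
    j.inner_map_map, hf2, (fderiv_comp_j hinv hd).fderiv]
  simp

lemma norm_gradient_comp_j (hfin : Module.finrank ℝ E' + 1 = Module.finrank ℝ E) {f : E → ℝ}
    {j : E' →ₗᵢ[ℝ] E} {p : E} (hp : ‖p‖ = 1) (hj : ∀ y, ⟪j y, p⟫ = 0)
    (hinv : ∀ x (t : ℝ), f (x + t • p) = f x) {y : E'} {t : ℝ}
    (hd : DifferentiableAt ℝ f (Ph j p (y, t))) :
    ‖fderiv ℝ (fun z : E' => f (j z)) y‖ = ‖fderiv ℝ f (Ph j p (y, t))‖ := by
  rw [← norm_gradient', ← norm_gradient', gradient_comp_j hfin hp hj hinv hd, j.norm_map]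

/-! ### product test functions -/

/-- `u(Px) g(⟪x,p⟫)` -/
def Un (j : E' →ₗᵢ[ℝ] E) (p : E) (u : E' → ℝ) (g : ℝ → ℝ) (x : E) : ℝ := u (Pr j x) * g ⟪x, p⟫

lemma Un_Ph {j : E' →ₗᵢ[ℝ] E} {p : E} (hp : ‖p‖ = 1) (hj : ∀ y, ⟪j y, p⟫ = 0) (u : E' → ℝ)
    (g : ℝ → ℝ) (q : E' × ℝ) : Un j p u g (Ph j p q) = u q.1 * g q.2 := by
  unfold Un
  rw [Pr_Ph hj, inner_Ph hp hj]

lemma lip_Un (hfin : Module.finrank ℝ E' + 1 = Module.finrank ℝ E) {p : E}
    {j : E' →ₗᵢ[ℝ] E} (hp : ‖p‖ = 1) (hj : ∀ y, ⟪j y, p⟫ = 0) {u : E' → ℝ} {g : ℝ → ℝ}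
    {K L : NNReal} (hu : LipschitzWith K u) (hg : LipschitzWith L g) {B C : ℝ}
    (hB : ∀ y, |u y| ≤ B) (hC : ∀ t, |g t| ≤ C) :
    LipschitzWith (Real.toNNReal (K * C + B * L)) (Un j p u g) := by
  have hB0 : 0 ≤ B := (abs_nonneg _).trans (hB 0)
  have hC0 : 0 ≤ C := (abs_nonneg _).trans (hC 0)
  refine LipschitzWith.of_dist_le_mul fun x y => ?_
  rw [Real.coe_toNNReal _ (by positivity), Real.dist_eq, dist_eq_norm]
  unfold Un
  have e : u (Pr j x) * g ⟪x, p⟫ - u (Pr j y) * g ⟪y, p⟫ =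
      (u (Pr j x) - u (Pr j y)) * g ⟪x, p⟫ + u (Pr j y) * (g ⟪x, p⟫ - g ⟪y, p⟫) := by ring
  have h1 : |u (Pr j x) - u (Pr j y)| ≤ K * ‖x - y‖ := by
    have h := hu.dist_le_mul (Pr j x) (Pr j y)
    rw [Real.dist_eq, dist_eq_norm, ← map_sub] at h
    exact h.trans (mul_le_mul_of_nonneg_left (norm_Pr_le hfin hp hj _) K.coe_nonneg)
  have h2 : |g ⟪x, p⟫ - g ⟪y, p⟫| ≤ L * ‖x - y‖ := by
    have h := hg.dist_le_mul ⟪x, p⟫ ⟪y, p⟫
    rw [Real.dist_eq, Real.dist_eq, ← inner_sub_left] at h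
    refine h.trans (mul_le_mul_of_nonneg_left ?_ L.coe_nonneg)
    have := abs_real_inner_le_norm (x - y) p
    rwa [hp, mul_one] at this
  rw [e]
  calc |(u (Pr j x) - u (Pr j y)) * g ⟪x, p⟫ + u (Pr j y) * (g ⟪x, p⟫ - g ⟪y, p⟫)|
      ≤ |(u (Pr j x) - u (Pr j y)) * g ⟪x, p⟫| + |u (Pr j y) * (g ⟪x, p⟫ - g ⟪y, p⟫)| :=
        abs_add_le _ _
    _ = |u (Pr j x) - u (Pr j y)| * |g ⟪x, p⟫| + |u (Pr j y)| * |g ⟪x, p⟫ - g ⟪y, p⟫| := by
        rw [abs_mul, abs_mul]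
    _ ≤ (K * ‖x - y‖) * C + B * (L * ‖x - y‖) := by
        gcongr
        · exact hC _
        · exact hB _
    _ = (K * C + B * L) * ‖x - y‖ := by ring

lemma hcs_Un (hfin : Module.finrank ℝ E' + 1 = Module.finrank ℝ E) {p : E}
    {j : E' →ₗᵢ[ℝ] E} (hp : ‖p‖ = 1) (hj : ∀ y, ⟪j y, p⟫ = 0) {u : E' → ℝ} {g : ℝ → ℝ}
    (hu : HasCompactSupport u) {T : ℝ} (hg : ∀ t, T < |t| → g t = 0) :
    HasCompactSupport (Un j p u g) := by
  obtain ⟨r, hr⟩ := hu.isCompact.isBounded.subset_closedBall (0 : E')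
  refine HasCompactSupport.of_support_subset_isCompact
    (isCompact_closedBall (0 : E) (|r| + |T|)) fun x hx => ?_
  have h1 : u (Pr j x) ≠ 0 := left_ne_zero_of_mul hx
  have h2 : g ⟪x, p⟫ ≠ 0 := right_ne_zero_of_mul hx
  have h3 : ‖Pr j x‖ ≤ r := mem_closedBall_zero_iff.1 (hr (subset_tsupport _ h1))
  have h4 : |⟪x, p⟫| ≤ T := by
    by_contra hc
    exact h2 (hg _ (lt_of_not_ge hc))
  rw [mem_closedBall_zero_iff]
  have h5 := norm_sq_split hfin hp hj x
  have h3' : ‖Pr j x‖ ≤ |r| := h3.trans (le_abs_self _)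
  have h4' : |⟪x, p⟫| ≤ |T| := h4.trans (le_abs_self _)
  have h6 : ‖x‖ ^ 2 ≤ (|r| + |T|) ^ 2 := by
    rw [h5, ← sq_abs ⟪x, p⟫]
    have ha := norm_nonneg (Pr j x)
    have hb := abs_nonneg ⟪x, p⟫
    nlinarith [mul_nonneg (abs_nonneg r) (abs_nonneg T)]
  exact (sq_le_sq₀ (norm_nonneg _) (by positivity)).1 h6

lemma integral_gi_Un (hfin : Module.finrank ℝ E' + 1 = Module.finrank ℝ E) {p : E}
    {j : E' →ₗᵢ[ℝ] E} (hp : ‖p‖ = 1) (hj : ∀ y, ⟪j y, p⟫ = 0) {f : E → ℝ}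
    (hf : LipschitzWith 1 f) (hinv : ∀ x (t : ℝ), f (x + t • p) = f x)
    {u : E' → ℝ} {g : ℝ → ℝ} {K M : NNReal} (hu : LipschitzWith K u)
    (hU : LipschitzWith M (Un j p u g)) :
    ∫ x, gi f (Un j p u g) x = (∫ y, gi (fun z => f (j z)) u y) * ∫ t, g t := by
  rw [← (mp_Ph hfin hp hj).integral_comp (me_Ph hp hj), ← integral_prod_mul]
  have h1 : ∀ᵐ q ∂(volume : Measure (E' × ℝ)), DifferentiableAt ℝ f (Ph j p q) :=
    (mp_Ph hfin hp hj).quasiMeasurePreserving.ae hf.ae_differentiableAt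
  have h2 : ∀ᵐ q ∂(volume : Measure (E' × ℝ)), DifferentiableAt ℝ (Un j p u g) (Ph j p q) :=
    (mp_Ph hfin hp hj).quasiMeasurePreserving.ae hU.ae_differentiableAt
  have h3 : ∀ᵐ q ∂(volume : Measure (E' × ℝ)), DifferentiableAt ℝ u q.1 :=
    Measure.quasiMeasurePreserving_fst.ae hu.ae_differentiableAt
  refine integral_congr_ae ?_
  filter_upwards [h1, h2, h3] with q hq1 hq2 hq3
  obtain ⟨y, t⟩ := q
  simp only at hq3
  rw [gi_eq, gi_eq, gradient_comp_j hfin hp hj hinv hq1]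
  have a1 := hq2.hasFDerivAt.comp y (hasFDerivAt_Ph_fst j p y t)
  have e : (Un j p u g ∘ fun z : E' => Ph j p (z, t)) = fun z : E' => u z * g t := by
    funext z
    exact Un_Ph hp hj u g (z, t)
  rw [e] at a1
  have a2 : HasFDerivAt (fun z : E' => u z * g t) (g t • fderiv ℝ u y) y :=
    hq3.hasFDerivAt.mul_const _
  have a3 := a1.unique a2
  have a4 := congrArg (fun F : E' →L[ℝ] ℝ => F (gradient (fun z : E' => f (j z)) y)) a3
  simp only [ContinuousLinearMap.comp_apply, _root_.smul_apply, smul_eq_mul] at a4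
  simp only
  rw [mul_comm]
  exact a4

/-! ### the one dimensional cut-offs -/

/-- `exp(-t²)` cut off at `|t| = k + 1` -/
def gk (k : ℕ) (t : ℝ) : ℝ := cl ((k : ℝ) + 1 - |t|) * Real.exp (-t ^ 2)

lemma gk_nonneg (k : ℕ) (t : ℝ) : 0 ≤ gk k t := mul_nonneg (cl_nonneg _) (Real.exp_pos _).le

lemma gk_le (k : ℕ) (t : ℝ) : gk k t ≤ Real.exp (-t ^ 2) := by
  unfold gk
  have h1 := cl_le_one ((k : ℝ) + 1 - |t|)
  have h2 := Real.exp_pos (-t ^ 2)
  nlinarith

lemma gk_le_one (k : ℕ) (t : ℝ) : |gk k t| ≤ 1 := by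
  rw [abs_of_nonneg (gk_nonneg k t)]
  refine (gk_le k t).trans ?_
  rw [Real.exp_le_one_iff]
  nlinarith [sq_nonneg t]

lemma gk_zero {k : ℕ} {t : ℝ} (h : (k : ℝ) + 1 < |t|) : gk k t = 0 := by
  unfold gk; rw [cl_zero (by linarith), zero_mul]

lemma lip_gk (k : ℕ) : ∃ L : NNReal, LipschitzWith L (gk k) := by
  have hk : (0 : ℝ) ≤ k := Nat.cast_nonneg k
  refine ⟨_, lip_mul_of_zero (S := {t : ℝ | |t| ≤ (k : ℝ) + 1}) (L := 1) (M := 2 * ((k : ℝ) + 1))
    zero_le_one (by positivity) ?_ ?_ ?_ ?_ ?_⟩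
  · intro t ht
    have : (k : ℝ) + 1 < |t| := lt_of_not_ge ht
    exact cl_zero (by linarith)
  · intro t; rw [abs_of_nonneg (cl_nonneg _)]; exact cl_le_one _
  · intro t
    rw [abs_of_pos (Real.exp_pos _), Real.exp_le_one_iff]
    nlinarith [sq_nonneg t]
  · intro s t
    refine (cl_lip _ _).trans ?_
    have e : (k : ℝ) + 1 - |s| - ((k : ℝ) + 1 - |t|) = -(|s| - |t|) := by ring
    rw [e, abs_neg, one_mul, Real.norm_eq_abs]
    exact abs_abs_sub_abs_le_abs_sub s t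
  · intro s hs t ht
    have hs' : |s| ≤ (k : ℝ) + 1 := hs
    have ht' : |t| ≤ (k : ℝ) + 1 := ht
    refine (exp_sub_le (by nlinarith [sq_nonneg s]) (by nlinarith [sq_nonneg t])).trans ?_
    have e : -s ^ 2 - -t ^ 2 = -((s - t) * (s + t)) := by ring
    rw [e, abs_neg, abs_mul, Real.norm_eq_abs, mul_comm]
    have := abs_add_le s t
    gcongr
    linarith

lemma tendsto_gk : Tendsto (fun k : ℕ => ∫ t, gk k t) atTop (𝓝 (Real.sqrt Real.pi)) := by
  have hI : ∫ t : ℝ, Real.exp (-t ^ 2) = Real.sqrt Real.pi := by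
    have := integral_gaussian 1
    simpa using this
  have hint : Integrable fun t : ℝ => Real.exp (-t ^ 2) := by
    have := integrable_exp_neg_mul_sq (b := 1) one_pos
    simpa using this
  rw [← hI]
  refine tendsto_integral_of_dominated_convergence (fun t => Real.exp (-t ^ 2)) (fun k => ?_) hint
    (fun k => ?_) ?_
  · obtain ⟨L, hL⟩ := lip_gk k
    exact hL.continuous.aestronglyMeasurable
  · refine Eventually.of_forall fun t => ?_
    rw [Real.norm_eq_abs, abs_of_nonneg (gk_nonneg k t)]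
    exact gk_le k t
  · refine Eventually.of_forall fun t => ?_
    apply tendsto_const_nhds.congr'
    obtain ⟨N, hN⟩ := exists_nat_gt |t|
    filter_upwards [eventually_ge_atTop N] with k hk
    have hk' : (N : ℝ) ≤ k := by exact_mod_cast hk
    unfold gk
    rw [cl_one (by linarith), one_mul]

/-! ### the projected measure -/

/-- Gaussian density in the direction `p` -/
def gd1 (p x : E) : ℝ := (Real.sqrt Real.pi)⁻¹ * Real.exp (-⟪x, p⟫ ^ 2)

lemma gd1_nonneg (p x : E) : 0 ≤ gd1 p x := by unfold gd1; positivity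

lemma continuous_gd1 (p : E) : Continuous (gd1 p) := by
  unfold gd1
  exact continuous_const.mul (Real.continuous_exp.comp
    ((continuous_id.inner continuous_const).pow 2).neg)

/-- push-forward of `gd1 p μ` under the projection -/
def mup (j : E' →ₗᵢ[ℝ] E) (p : E) (μ : Measure E) : Measure E' :=
  (μ.withDensity fun x => ENNReal.ofReal (gd1 p x)).map (Pr j)

lemma lintegral_mup {j : E' →ₗᵢ[ℝ] E} {p : E} (μ : Measure E) {f : E' → ENNReal}
    (hf : Measurable f) :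
    ∫⁻ y, f y ∂(mup j p μ) = ∫⁻ x, ENNReal.ofReal (gd1 p x) * f (Pr j x) ∂μ := by
  unfold mup
  rw [lintegral_map hf (Pr j).continuous.measurable]
  exact lintegral_withDensity_eq_lintegral_mul _ (continuous_gd1 p).measurable.ennreal_ofReal
      (hf.comp (Pr j).continuous.measurable)

lemma integral_mup {j : E' →ₗᵢ[ℝ] E} {p : E} (μ : Measure E) {f : E' → ℝ} (hf : Continuous f) :
    ∫ y, f y ∂(mup j p μ) = ∫ x, gd1 p x * f (Pr j x) ∂μ := by
  unfold mup
  rw [integral_map (Pr j).continuous.measurable.aemeasurable hf.aestronglyMeasurable,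
    integral_withDensity_eq_integral_toReal_smul
      (continuous_gd1 p).measurable.ennreal_ofReal
      (Eventually.of_forall fun x => ENNReal.ofReal_lt_top)]
  refine integral_congr_ae (Eventually.of_forall fun x => ?_)
  simp only [smul_eq_mul]
  rw [ENNReal.toReal_ofReal (gd1_nonneg p x)]

lemma gd1_le (hfin : Module.finrank ℝ E' + 1 = Module.finrank ℝ E) {p : E}
    {j : E' →ₗᵢ[ℝ] E} (hp : ‖p‖ = 1) (hj : ∀ y, ⟪j y, p⟫ = 0) {r : ℝ} {x : E}
    (hx : ‖Pr j x‖ ≤ r) :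
    gd1 p x ≤ (Real.sqrt Real.pi)⁻¹ * Real.exp (r ^ 2) * Real.exp (-‖x‖ ^ 2) := by
  unfold gd1
  rw [mul_assoc, ← Real.exp_add]
  have h := norm_sq_split hfin hp hj x
  have h0 := norm_nonneg (Pr j x)
  gcongr
  nlinarith

lemma finite_mup (hfin : Module.finrank ℝ E' + 1 = Module.finrank ℝ E) {p : E}
    {j : E' →ₗᵢ[ℝ] E} (hp : ‖p‖ = 1) (hj : ∀ y, ⟪j y, p⟫ = 0) {μ : Measure E} {A : ℝ}
    (hmass : ∫⁻ x, ENNReal.ofReal (Real.exp (-‖x‖ ^ 2)) ∂μ ≤ ENNReal.ofReal A) :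
    IsFiniteMeasureOnCompacts (mup j p μ) := by
  refine ⟨fun K hK => ?_⟩
  obtain ⟨r, hr⟩ := hK.isBounded.subset_closedBall (0 : E')
  have hKm : MeasurableSet K := hK.measurableSet
  have h1 : mup j p μ K = ∫⁻ y, K.indicator (fun _ => (1 : ENNReal)) y ∂(mup j p μ) := by
    rw [lintegral_indicator hKm]; simp
  rw [h1, lintegral_mup μ (measurable_const.indicator hKm)]
  set c : ℝ := (Real.sqrt Real.pi)⁻¹ * Real.exp (r ^ 2) with hc
  have hc0 : 0 ≤ c := by positivity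
  have h2 : ∀ x : E, ENNReal.ofReal (gd1 p x) * K.indicator (fun _ => (1 : ENNReal)) (Pr j x) ≤
      ENNReal.ofReal c * ENNReal.ofReal (Real.exp (-‖x‖ ^ 2)) := by
    intro x
    by_cases hx : Pr j x ∈ K
    · rw [indicator_of_mem hx, mul_one, ← ENNReal.ofReal_mul hc0]
      exact ENNReal.ofReal_le_ofReal
        (gd1_le hfin hp hj (mem_closedBall_zero_iff.1 (hr hx)))
    · rw [indicator_of_notMem hx, mul_zero]; exact zero_le
  refine (lintegral_mono h2).trans_lt ?_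
  rw [lintegral_const_mul' _ _ ENNReal.ofReal_ne_top]
  exact ENNReal.mul_lt_top ENNReal.ofReal_lt_top (hmass.trans_lt ENNReal.ofReal_lt_top)

lemma mass_mup (hfin : Module.finrank ℝ E' + 1 = Module.finrank ℝ E) {p : E}
    {j : E' →ₗᵢ[ℝ] E} (hp : ‖p‖ = 1) (hj : ∀ y, ⟪j y, p⟫ = 0) {μ : Measure E} {A : ℝ}
    (hmass : ∫⁻ x, ENNReal.ofReal (Real.exp (-‖x‖ ^ 2)) ∂μ ≤ ENNReal.ofReal A) :
    ∫⁻ y, ENNReal.ofReal (Real.exp (-‖y‖ ^ 2)) ∂(mup j p μ) ≤
      ENNReal.ofReal (A / Real.sqrt Real.pi) := by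
  have hs : 0 < Real.sqrt Real.pi := Real.sqrt_pos.2 Real.pi_pos
  rw [lintegral_mup μ (by fun_prop)]
  have h1 : ∀ x : E, ENNReal.ofReal (gd1 p x) * ENNReal.ofReal (Real.exp (-‖Pr j x‖ ^ 2)) =
      ENNReal.ofReal (Real.sqrt Real.pi)⁻¹ * ENNReal.ofReal (Real.exp (-‖x‖ ^ 2)) := by
    intro x
    rw [← ENNReal.ofReal_mul (gd1_nonneg p x), ← ENNReal.ofReal_mul (by positivity)]
    congr 1
    unfold gd1
    rw [mul_assoc, ← Real.exp_add, norm_sq_split hfin hp hj x]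
    congr 2
    ring
  simp_rw [h1]
  rw [lintegral_const_mul' _ _ ENNReal.ofReal_ne_top, div_eq_inv_mul,
    ENNReal.ofReal_mul (by positivity)]
  gcongr

/-! ### the theorem -/

theorem stG3 (E E' : Type) [NormedAddCommGroup E] [InnerProductSpace ℝ E] [FiniteDimensional ℝ E]
    [MeasurableSpace E] [BorelSpace E] [NormedAddCommGroup E'] [InnerProductSpace ℝ E']
    [FiniteDimensional ℝ E'] [MeasurableSpace E'] [BorelSpace E'] : StG3 E E' := by
  intro hfin h3 p j R μ A hp hj hμ hhom hD hinv hvar hconc hA0 hmass hlt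
  have hs : 0 < Real.sqrt Real.pi := Real.sqrt_pos.2 Real.pi_pos
  have hnt : Nontrivial E' := by
    apply Module.nontrivial_of_finrank_pos (R := ℝ); omega
  have hρlip : LipschitzWith 1 fun y : E' => R (j y) := by
    have := hD.lip.comp j.lipschitz
    rwa [mul_one] at this
  have habs : LipschitzWith 1 fun x : E => |R x| := by
    refine LipschitzWith.of_dist_le_mul fun x y => ?_
    rw [NNReal.coe_one, one_mul, Real.dist_eq]
    have h1 := abs_abs_sub_abs_le_abs_sub (R x) (R y)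
    have h2 := hD.lip.dist_le_mul x y
    rw [NNReal.coe_one, one_mul, Real.dist_eq] at h2
    exact h1.trans h2
  have habsinv : ∀ x (t : ℝ), |R (x + t • p)| = |R x| := fun x t => by rw [hinv]
  have hnull : NullCone fun y : E' => R (j y) := by
    refine ⟨fun t ht y => ?_, hρlip, ?_, ?_⟩
    · rw [map_smul]; exact hhom t ht (j y)
    · have h1 : ∀ᵐ q ∂(volume : Measure (E' × ℝ)), ‖fderiv ℝ R (Ph j p q)‖ = 1 :=
        (mp_Ph hfin hp hj).quasiMeasurePreserving.ae hD.grad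
      have h2 := Measure.ae_ae_of_ae_prod h1
      filter_upwards [h2] with y hy
      obtain ⟨t, ht⟩ := hy.exists
      have hd : DifferentiableAt ℝ R (Ph j p (y, t)) := by
        by_contra hc
        rw [fderiv_zero_of_not_differentiableAt hc, norm_zero] at ht
        exact zero_ne_one ht
      rw [norm_gradient_comp_j hfin hp hj hinv hd]
      exact ht
    · have hc : ContinuousOn (fun y : E' => |R (j y)|) (Metric.sphere 0 1) :=
        (hρlip.continuous.abs).continuousOn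
      obtain ⟨y0, hy0, hmax⟩ := (isCompact_sphere (0 : E') 1).exists_isMaxOn
        (NormedSpace.sphere_nonempty.2 zero_le_one) hc
      refine ⟨|R (j y0)|, abs_nonneg _, hlt y0 (mem_sphere_zero_iff_norm.1 hy0), fun y => ?_⟩
      by_cases hy : y = 0
      · have : R (j y) = 0 := by
          have := hhom 0 le_rfl (j y)
          rw [zero_smul, zero_mul] at this
          rw [hy, map_zero]; exact this
        rw [this, abs_zero]; positivity
      · have hy' : 0 < ‖y‖ := norm_pos_iff.2 hy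
        have h1 : ‖(‖y‖⁻¹ • y)‖ = 1 := by
          rw [norm_smul, norm_inv, norm_norm, inv_mul_cancel₀ hy'.ne']
        have h2 : |R (j (‖y‖⁻¹ • y))| ≤ |R (j y0)| := hmax (mem_sphere_zero_iff_norm.2 h1)
        rw [map_smul, hhom _ (inv_nonneg.2 hy'.le), abs_mul, abs_of_pos (inv_pos.2 hy'),
          inv_mul_le_iff₀ hy'] at h2
        linarith
  refine ⟨hnull, ?_⟩
  have e : A / (Real.sqrt Real.pi * cV E') = (A / Real.sqrt Real.pi) / cV E' := by
    rw [div_div]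
  rw [e]
  have := finite_mup hfin hp hj hmass
  have hRP : ∀ x, R (j (Pr j x)) = R x := by
    intro x
    have h1 := surj_Ph hfin hp hj x
    have h2 := hinv (j (Pr j x)) ⟪x, p⟫
    unfold Ph at h1
    simp only at h1
    rw [h1] at h2
    exact h2.symm
  have hconc' : mup j p μ {y | R (j y) ≠ 0} = 0 := by
    have hm : MeasurableSet {y : E' | R (j y) ≠ 0} :=
      (isOpen_ne_fun hρlip.continuous continuous_const).measurableSet
    unfold mup
    rw [Measure.map_apply (Pr j).continuous.measurable hm]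
    have hset : (Pr j) ⁻¹' {y : E' | R (j y) ≠ 0} = {x | R x ≠ 0} := by
      ext x
      simp only [mem_preimage, mem_ofPred_eq, hRP]
    rw [hset]
    exact withDensity_absolutelyContinuous μ _ hconc
  refine VB_of_VAR (by omega) hnull (μ := mup j p μ) ?_ hconc' (by positivity)
    (mass_mup hfin hp hj hmass)
  intro ζ η hζl hηl hζc hηc hle _
  obtain ⟨K, hK⟩ := hζl
  obtain ⟨L, hL⟩ := hηl
  obtain ⟨B, hB⟩ := hηc.exists_bound_of_continuous hL.continuous
  have hB' : ∀ y, |η y| ≤ B := hB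
  have hBζ : ∀ y, |ζ y| ≤ B := fun y => (hle y).trans ((le_abs_self _).trans (hB' y))
  have hη0 : ∀ y, 0 ≤ η y := fun y => (abs_nonneg _).trans (hle y)
  have hB0 : 0 ≤ B := (abs_nonneg _).trans (hB' 0)
  -- integrability of the right-hand side
  obtain ⟨r, hr⟩ := hηc.isCompact.isBounded.subset_closedBall (0 : E')
  have hGint : Integrable (fun x : E => Real.exp (-‖x‖ ^ 2)) μ := by
    refine ⟨by fun_prop, ?_⟩
    rw [hasFiniteIntegral_iff_ofReal (Eventually.of_forall fun x => (Real.exp_pos _).le)]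
    exact hmass.trans_lt ENNReal.ofReal_lt_top
  have hRint : Integrable (fun x : E => gd1 p x * η (Pr j x)) μ := by
    refine (hGint.const_mul (B * ((Real.sqrt Real.pi)⁻¹ * Real.exp (r ^ 2)))).mono'
      ((continuous_gd1 p).mul (hL.continuous.comp (Pr j).continuous)).aestronglyMeasurable
      (Eventually.of_forall fun x => ?_)
    rw [Real.norm_eq_abs, abs_mul, abs_of_nonneg (gd1_nonneg p x)]
    by_cases hx : Pr j x ∈ tsupport η
    · have h1 := gd1_le hfin hp hj (mem_closedBall_zero_iff.1 (hr hx))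
      calc gd1 p x * |η (Pr j x)| ≤
            ((Real.sqrt Real.pi)⁻¹ * Real.exp (r ^ 2) * Real.exp (-‖x‖ ^ 2)) * B := by
            gcongr
            exact hB' _
        _ = B * ((Real.sqrt Real.pi)⁻¹ * Real.exp (r ^ 2)) * Real.exp (-‖x‖ ^ 2) := by ring
    · rw [image_eq_zero_of_notMem_tsupport hx, abs_zero, mul_zero]
      positivity
  -- the inequality for every cut-off
  have hk : ∀ k : ℕ, ((∫ y, gi (fun y : E' => R (j y)) ζ y) -
      ∫ y, gi (fun y : E' => |R (j y)|) η y) * (∫ t, gk k t) ≤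
      Real.sqrt Real.pi * (2 * ∫ y, η y ∂(mup j p μ)) := by
    intro k
    obtain ⟨L', hL'⟩ := lip_gk k
    have hU1 := lip_Un hfin hp hj hK hL' hBζ (gk_le_one k)
    have hU2 := lip_Un hfin hp hj hL hL' hB' (gk_le_one k)
    have hζc' : HasCompactSupport ζ := hζc
    have hV := hvar (Un j p ζ (gk k)) (Un j p η (gk k)) ⟨_, hU1⟩ ⟨_, hU2⟩
      (hcs_Un hfin hp hj hζc fun t ht => gk_zero ht) (hcs_Un hfin hp hj hηc fun t ht => gk_zero ht)
      (fun x => by
        unfold Un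
        rw [abs_mul, abs_of_nonneg (gk_nonneg _ _)]
        exact mul_le_mul_of_nonneg_right (hle _) (gk_nonneg _ _)) (subset_univ _)
    rw [integral_gi_Un hfin hp hj hD.lip hinv hK hU1,
      integral_gi_Un (f := fun y => |R y|) hfin hp hj habs habsinv hL hU2, ← sub_mul] at hV
    refine hV.trans ?_
    rw [integral_mup μ hL.continuous]
    have h1 : ∫ x, Un j p η (gk k) x ∂μ ≤ ∫ x, Real.sqrt Real.pi * (gd1 p x * η (Pr j x)) ∂μ := by
      refine integral_mono_of_nonneg (Eventually.of_forall fun x => ?_)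
        (hRint.const_mul _) (Eventually.of_forall fun x => ?_)
      · exact mul_nonneg (hη0 _) (gk_nonneg _ _)
      · simp only
        unfold Un gd1
        have h2 := gk_le k ⟪x, p⟫
        have h3 := hη0 (Pr j x)
        calc η (Pr j x) * gk k ⟪x, p⟫ ≤ η (Pr j x) * Real.exp (-⟪x, p⟫ ^ 2) := by gcongr
          _ = Real.sqrt Real.pi * ((Real.sqrt Real.pi)⁻¹ * Real.exp (-⟪x, p⟫ ^ 2) *
              η (Pr j x)) := by
              field_simp
    rw [integral_const_mul] at h1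
    linarith
  have hlim := tendsto_gk.const_mul ((∫ y, gi (fun y : E' => R (j y)) ζ y) -
      ∫ y, gi (fun y : E' => |R (j y)|) η y)
  have hfinal := le_of_tendsto' hlim hk
  rw [mul_comm] at hfinal
  exact le_of_mul_le_mul_left hfinal hs

end Crest.Agent.R246.G3x688
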