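import Crest.Agent.R246.GL_873
import Mathlib.Analysis.Calculus.FDeriv.Mul
import Mathlib.Analysis.InnerProductSpace.Trace

/-!
Row 246, block G, leaf L1 (helper782): a functional varifold with a measure homogeneous of degree `n - 1`,
`n ≥ 3`, which is stationary away from the origin is stationary.
-/

set_option autoImplicit false
set_option linter.unusedSectionVars false
noncomputable section
open MeasureTheory Set Filter Topology
open scoped RealInnerProductSpace Gradient ContDiff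

namespace Crest.Agent.R246.L1x782

open Crest.Agent.R246.G873

variable {E : Type*} [NormedAddCommGroup E] [InnerProductSpace ℝ E] [FiniteDimensional ℝ E]
  [MeasurableSpace E] [BorelSpace E]

theorem abs_S_tp_weight (P : PGV E) (v w : E → E) (hv : Continuous v) (hw : Continuous w)
    (hcv : HasCompactSupport v) (hcw : HasCompactSupport w) {s : ℝ} (hs : 0 < s) :
    |P.S (fun x => tp (v x) (w x))|
      ≤ (1 / 2) * (s ^ 2 * (∫ x, ‖v x‖ ^ 2 ∂P.μ) + (s⁻¹) ^ 2 * ∫ x, ‖w x‖ ^ 2 ∂P.μ) := by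
  have hcv' : HasCompactSupport (fun x => s • v x) := hcv.smul_left (f := fun _ => s)
  have hcw' : HasCompactSupport (fun x => s⁻¹ • w x) := hcw.smul_left (f := fun _ => s⁻¹)
  have h1 := P.abs_S_tp_le' (fun x => s • v x) (fun x => s⁻¹ • w x) (hv.const_smul s)
    (hw.const_smul s⁻¹) hcv' hcw'
  have h2 : (fun x => tp (s • v x) (s⁻¹ • w x)) = fun x => tp (v x) (w x) := by
    funext x
    rw [tp_smul_left, tp_smul_right, smul_smul, mul_inv_cancel₀ hs.ne', one_smul]
  rw [h2] at h1
  have h3 : ∀ x, ‖s • v x‖ ^ 2 = s ^ 2 * ‖v x‖ ^ 2 := by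
    intro x; rw [norm_smul, mul_pow, Real.norm_eq_abs, sq_abs]
  have h4 : ∀ x, ‖s⁻¹ • w x‖ ^ 2 = (s⁻¹) ^ 2 * ‖w x‖ ^ 2 := by
    intro x; rw [norm_smul, mul_pow, Real.norm_eq_abs, sq_abs]
  simp only [h3, h4, integral_const_mul] at h1
  exact h1

/-- bound of `S F` for fields supported where a cut-off is one -/
theorem abs_S_le (P : PGV E) (F : E → E →L[ℝ] E) (hF : Continuous F) (hc : HasCompactSupport F)
    (χ : E → ℝ) (hχ : Continuous χ) (hcχ : HasCompactSupport χ) (hχ1 : ∀ x, F x ≠ 0 → χ x = 1)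
    {N : ℝ} (hN : ∀ x, ‖F x‖ ≤ N) {s : ℝ} (hs : 0 < s) :
    |P.S F| ≤ Module.finrank ℝ E * ((1 / 2) * ((s ^ 2 + (s⁻¹) ^ 2 * N ^ 2) * ∫ x, χ x ^ 2 ∂P.μ)) := by
  have := P.fin
  set b := stdOrthonormalBasis ℝ E
  have hdec := field_decomp F χ hχ1
  have hv : ∀ a, Continuous (fun x => χ x • b a) := fun a => hχ.smul continuous_const
  have hw : ∀ a, Continuous (fun x => F x (b a)) := fun a => hF.clm_apply continuous_const
  have hcv : ∀ a, HasCompactSupport (fun x => χ x • b a) := fun a => hcχ.smul_right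
  have hcw : ∀ a, HasCompactSupport (fun x => F x (b a)) := by
    intro a
    refine hc.mono' ?_
    intro x hx
    apply subset_tsupport F
    intro h0
    apply hx
    simp [h0]
  have hc2 : HasCompactSupport (fun x => χ x ^ 2) :=
    hcχ.comp_left (g := fun t : ℝ => t ^ 2) (by simp)
  have hb : ∀ a, |P.S (fun x => tp (χ x • b a) (F x (b a)))| ≤
      (1 / 2) * ((s ^ 2 + (s⁻¹) ^ 2 * N ^ 2) * ∫ x, χ x ^ 2 ∂P.μ) := by
    intro a
    have h1 := abs_S_tp_weight P _ _ (hv a) (hw a) (hcv a) (hcw a) hs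
    have h2 : ∀ x, ‖χ x • b a‖ ^ 2 = χ x ^ 2 := by
      intro x
      rw [norm_smul, b.norm_eq_one a, mul_one, Real.norm_eq_abs, sq_abs]
    simp only [h2] at h1
    have h3 : ∫ x, ‖F x (b a)‖ ^ 2 ∂P.μ ≤ N ^ 2 * ∫ x, χ x ^ 2 ∂P.μ := by
      rw [← integral_const_mul]
      apply integral_mono
      · have hcn : Continuous (fun x => ‖F x (b a)‖ ^ 2) := (hw a).norm.pow 2
        have hcc : HasCompactSupport (fun x => ‖F x (b a)‖ ^ 2) :=
          (hcw a).norm.comp_left (g := fun t : ℝ => t ^ 2) (by simp)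
        exact hcn.integrable_of_hasCompactSupport hcc
      · have hcn : Continuous (fun x => χ x ^ 2) := hχ.pow 2
        exact (hcn.integrable_of_hasCompactSupport hc2).const_mul _
      · intro x
        show ‖F x (b a)‖ ^ 2 ≤ N ^ 2 * χ x ^ 2
        by_cases h0 : F x = 0
        · rw [h0]
          have : (0 : ℝ) ≤ N ^ 2 * χ x ^ 2 := by positivity
          simpa using this
        · rw [hχ1 x h0, one_pow, mul_one]
          have h4 : ‖F x (b a)‖ ≤ N := by
            refine ((F x).le_opNorm _).trans ?_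
            rw [b.norm_eq_one a, mul_one]
            exact hN x
          exact pow_le_pow_left₀ (norm_nonneg _) h4 2
    have h5 : (0 : ℝ) ≤ (s⁻¹) ^ 2 := by positivity
    have h6 := mul_le_mul_of_nonneg_left h3 h5
    nlinarith
  rw [hdec, P.S_sum _ _ (fun a _ => continuous_tp (hv a) (hw a))
    (fun a _ => hasCompactSupport_tp_left (hcv a))]
  refine (Finset.abs_sum_le_sum_abs _ _).trans ((Finset.sum_le_sum fun a _ => hb a).trans ?_)
  rw [Finset.sum_const, Finset.card_univ, Fintype.card_fin, nsmul_eq_mul]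

theorem abs_trace_le (A : E →L[ℝ] E) :
    |LinearMap.trace ℝ E (A : E →ₗ[ℝ] E)| ≤ Module.finrank ℝ E * ‖A‖ := by
  rw [LinearMap.trace_eq_sum_inner _ (stdOrthonormalBasis ℝ E)]
  refine (Finset.abs_sum_le_sum_abs _ _).trans ?_
  have h1 : ∀ i ∈ (Finset.univ : Finset (Fin (Module.finrank ℝ E))),
      |⟪stdOrthonormalBasis ℝ E i, (A : E →ₗ[ℝ] E) (stdOrthonormalBasis ℝ E i)⟫| ≤ ‖A‖ := by
    intro i _
    refine (abs_real_inner_le_norm _ _).trans ?_
    rw [(stdOrthonormalBasis ℝ E).norm_eq_one i, one_mul]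
    refine (A.le_opNorm _).trans ?_
    rw [(stdOrthonormalBasis ℝ E).norm_eq_one i, mul_one]
  refine (Finset.sum_le_sum h1).trans ?_
  rw [Finset.sum_const, Finset.card_univ, Fintype.card_fin, nsmul_eq_mul]

theorem dv_add {X Y : E → E} {x : E} (hX : DifferentiableAt ℝ X x) (hY : DifferentiableAt ℝ Y x) :
    dv (fun y => X y + Y y) x = dv X x + dv Y x := by
  unfold dv
  rw [fderiv_fun_add hX hY]
  simp

theorem continuous_dv {X : E → E} (hX : ContDiff ℝ 1 X) : Continuous (dv X) := by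
  unfold dv
  have h1 : Continuous (fderiv ℝ X) := hX.continuous_fderiv one_ne_zero
  have h2 : Continuous fun A : E →L[ℝ] E => LinearMap.trace ℝ E (A : E →ₗ[ℝ] E) := by
    let L : (E →L[ℝ] E) →ₗ[ℝ] ℝ :=
      { toFun := fun A => LinearMap.trace ℝ E (A : E →ₗ[ℝ] E)
        map_add' := fun A B => by simp
        map_smul' := fun c A => by simp }
    exact L.continuous_of_finiteDimensional
  exact h2.comp h1

theorem hasCompactSupport_dv {X : E → E} (hc : HasCompactSupport X) : HasCompactSupport (dv X) := by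
  have h1 : HasCompactSupport (fderiv ℝ X) := hc.fderiv ℝ
  exact h1.comp_left (g := fun A : E →L[ℝ] E => LinearMap.trace ℝ E (A : E →ₗ[ℝ] E)) (by simp)

/-- LEAF L1 -/
theorem stL1 (E : Type) [NormedAddCommGroup E] [InnerProductSpace ℝ E] [FiniteDimensional ℝ E]
    [MeasurableSpace E] [BorelSpace E] : StL1 E := by
  intro hn G hhom hstat X hX hcX _
  have hfin := G.fin
  set P := G.toPGV with hP
  have hPS : P.S = G.S := rfl
  have hPμ : P.μ = G.μ := rfl
  set n := Module.finrank ℝ E with hndef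
  let b : ContDiffBump (0 : E) := ⟨1, 2, one_pos, one_lt_two⟩
  let c : ContDiffBump (0 : E) := ⟨2, 3, two_pos, by norm_num⟩
  have hbs : ContDiff ℝ 1 (b : E → ℝ) := b.contDiff
  obtain ⟨M1, hM1⟩ := hcX.exists_bound_of_continuous hX.continuous
  obtain ⟨M2, hM2⟩ := (hcX.fderiv ℝ).exists_bound_of_continuous (hX.continuous_fderiv one_ne_zero)
  obtain ⟨B, hB⟩ := (b.hasCompactSupport.fderiv ℝ).exists_bound_of_continuous
    (hbs.continuous_fderiv one_ne_zero)
  have hM10 : 0 ≤ M1 := (norm_nonneg _).trans (hM1 0)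
  have hM20 : 0 ≤ M2 := (norm_nonneg _).trans (hM2 0)
  have hB0 : 0 ≤ B := (norm_nonneg _).trans (hB 0)
  set K := M2 + B * M1 with hK
  have hK0 : 0 ≤ K := by positivity
  set I1 := ∫ x, c x ∂G.μ with hI1
  set I2 := ∫ x, (c x) ^ 2 ∂G.μ with hI2
  have hI10 : 0 ≤ I1 := integral_nonneg fun x => c.nonneg
  have hI20 : 0 ≤ I2 := integral_nonneg fun x => by positivity
  set C := n * K * I1 + n * (1 / 2) * (1 + K ^ 2) * I2 with hC
  have hC0 : 0 ≤ C := by positivity
  have key : ∀ δ : ℝ, 0 < δ → δ ≤ 1 → |(∫ x, dv X x ∂G.μ) - G.S (fderiv ℝ X)| ≤ C * δ := by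
    intro δ hδ hδ1
    have hδi : 1 ≤ δ⁻¹ := (one_le_inv₀ hδ).2 hδ1
    set bδ : E → ℝ := fun x => b (δ⁻¹ • x) with hbδ
    set cδ : E → ℝ := fun x => c (δ⁻¹ • x) with hcδ
    have hbδs : ContDiff ℝ 1 bδ := hbs.comp (contDiff_const_smul δ⁻¹)
    have hcδc : Continuous cδ := c.continuous.comp (continuous_const_smul δ⁻¹)
    have hcδcs : HasCompactSupport cδ := by
      have := hasCompactSupport_zoom (f := (c : E → ℝ)) c.hasCompactSupport 0 hδ.ne'
      simpa using this
    set Y : E → E := fun x => bδ x • X x with hY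
    have hYs : ContDiff ℝ 1 Y := hbδs.smul hX
    have hYc : HasCompactSupport Y := hcX.smul_left
    set Z : E → E := fun x => X x - Y x with hZ
    have hZs : ContDiff ℝ 1 Z := hX.sub hYs
    have hZc : HasCompactSupport Z := hcX.sub hYc
    have hZt : tsupport Z ⊆ {0}ᶜ := by
      intro x hx h0
      rw [mem_singleton_iff] at h0
      subst h0
      apply (notMem_tsupport_iff_eventuallyEq.2 _) hx
      filter_upwards [Metric.ball_mem_nhds (0 : E) hδ] with y hy
      have h1 : δ⁻¹ • y ∈ Metric.closedBall (0 : E) 1 := by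
        rw [mem_closedBall_zero_iff, norm_smul, norm_inv, Real.norm_eq_abs, abs_of_pos hδ]
        rw [mem_ball_zero_iff] at hy
        rw [inv_mul_le_iff₀ hδ, mul_one]
        exact hy.le
      have h2 : bδ y = 1 := b.one_of_mem_closedBall h1
      show X y - bδ y • X y = 0
      rw [h2, one_smul, sub_self]
    have hst := hstat Z hZs hZc hZt
    have hXZ : X = fun x => Z x + Y x := by funext x; simp [hZ]
    have hdvX : ∫ x, dv X x ∂G.μ = (∫ x, dv Z x ∂G.μ) + ∫ x, dv Y x ∂G.μ := by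
      rw [← integral_add]
      · refine integral_congr_ae (Eventually.of_forall fun x => ?_)
        show dv X x = dv Z x + dv Y x
        conv_lhs => rw [hXZ]
        exact dv_add (hZs.differentiable one_ne_zero x) (hYs.differentiable one_ne_zero x)
      · exact (continuous_dv hZs).integrable_of_hasCompactSupport (hasCompactSupport_dv hZc)
      · exact (continuous_dv hYs).integrable_of_hasCompactSupport (hasCompactSupport_dv hYc)
    have hSX : G.S (fderiv ℝ X) = G.S (fderiv ℝ Z) + G.S (fderiv ℝ Y) := by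
      rw [← G.S_add _ _ (hZs.continuous_fderiv one_ne_zero) (hZc.fderiv ℝ)
        (hYs.continuous_fderiv one_ne_zero) (hYc.fderiv ℝ)]
      congr 1
      funext x
      conv_lhs => rw [hXZ]
      exact fderiv_fun_add (hZs.differentiable one_ne_zero x) (hYs.differentiable one_ne_zero x)
    -- bound of `DY`
    have hYd : ∀ x, ‖fderiv ℝ Y x‖ ≤ δ⁻¹ * K := by
      intro x
      have e1 : fderiv ℝ Y x = bδ x • fderiv ℝ X x + (fderiv ℝ bδ x).smulRight (X x) :=
        fderiv_fun_smul (hbδs.differentiable one_ne_zero x) (hX.differentiable one_ne_zero x)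
      have e2 : ‖fderiv ℝ bδ x‖ ≤ δ⁻¹ * B := by
        have h1 : fderiv ℝ bδ x = δ⁻¹ • fderiv ℝ b (δ⁻¹ • x) := fderiv_comp_smul δ⁻¹ 
        rw [h1, norm_smul, Real.norm_of_nonneg (by positivity)]
        exact mul_le_mul_of_nonneg_left (hB _) (by positivity)
      have e3 : ‖bδ x‖ ≤ 1 := by
        rw [Real.norm_of_nonneg b.nonneg]; exact b.le_one
      rw [e1]
      calc ‖bδ x • fderiv ℝ X x + (fderiv ℝ bδ x).smulRight (X x)‖
          ≤ ‖bδ x‖ * ‖fderiv ℝ X x‖ + ‖fderiv ℝ bδ x‖ * ‖X x‖ := by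
            refine (norm_add_le _ _).trans ?_
            rw [norm_smul, ContinuousLinearMap.norm_smulRight_apply]
        _ ≤ 1 * M2 + (δ⁻¹ * B) * M1 := by
            have := hM2 x
            have := hM1 x
            gcongr
        _ ≤ δ⁻¹ * K := by
            rw [hK, one_mul]
            nlinarith
    have hYz : ∀ x, fderiv ℝ Y x ≠ 0 → cδ x = 1 := by
      intro x hx
      by_contra hne
      apply hx
      have h1 : 2 < ‖δ⁻¹ • x‖ := by
        by_contra hle
        push Not at hle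
        exact hne (c.one_of_mem_closedBall (mem_closedBall_zero_iff.2 hle))
      have h2 : ∀ᶠ y in 𝓝 x, 2 < ‖δ⁻¹ • y‖ :=
        (continuous_const_smul δ⁻¹).norm.continuousAt.eventually (lt_mem_nhds h1)
      have h3 : Y =ᶠ[𝓝 x] fun _ => 0 := by
        filter_upwards [h2] with y hy
        have : bδ y = 0 := b.zero_of_le_dist (by rw [dist_zero_right]; exact hy.le)
        show bδ y • X y = 0
        rw [this, zero_smul]
      rw [h3.fderiv_eq]
      simp
    have hh1 : ∫ x, cδ x ∂G.μ = δ ^ (n - 1) * I1 := hhom δ hδ c c.continuous c.hasCompactSupport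
    have hh2 : ∫ x, (cδ x) ^ 2 ∂G.μ = δ ^ (n - 1) * I2 :=
      hhom δ hδ (fun x => (c x) ^ 2) (c.continuous.pow 2)
        (c.hasCompactSupport.comp_left (g := fun t : ℝ => t ^ 2) (by simp))
    have hpow : δ⁻¹ * δ ^ (n - 1) ≤ δ := by
      have h1 : n - 1 = (n - 2) + 1 := by omega
      have h2 : n - 2 = (n - 3) + 1 := by omega
      rw [h1, pow_succ, mul_comm (δ ^ (n - 2)) δ, ← mul_assoc, inv_mul_cancel₀ hδ.ne', one_mul, h2,
        pow_succ]
      have := pow_le_one₀ (n := n - 3) hδ.le hδ1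
      nlinarith
    -- the divergence term
    have hA : |∫ x, dv Y x ∂G.μ| ≤ (n * K * I1) * δ := by
      have h1 : ∀ x, |dv Y x| ≤ n * (δ⁻¹ * K) * cδ x := by
        intro x
        by_cases h0 : fderiv ℝ Y x = 0
        · have : dv Y x = 0 := by unfold dv; rw [h0]; simp
          rw [this, abs_zero]
          have : 0 ≤ cδ x := c.nonneg
          positivity
        · rw [hYz x h0, mul_one]
          refine (abs_trace_le _).trans ?_
          exact mul_le_mul_of_nonneg_left (hYd x) (by positivity)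
      calc |∫ x, dv Y x ∂G.μ| ≤ ∫ x, |dv Y x| ∂G.μ := abs_integral_le_integral_abs
        _ ≤ ∫ x, n * (δ⁻¹ * K) * cδ x ∂G.μ := by
            apply integral_mono
            · exact ((continuous_dv hYs).abs).integrable_of_hasCompactSupport
                ((hasCompactSupport_dv hYc).comp_left (g := fun t : ℝ => |t|) (by simp))
            · exact (hcδc.integrable_of_hasCompactSupport hcδcs).const_mul _
            · exact h1
        _ = (n * K * I1) * (δ⁻¹ * δ ^ (n - 1)) := by
            rw [integral_const_mul, hh1]; ring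
        _ ≤ (n * K * I1) * δ := mul_le_mul_of_nonneg_left hpow (by positivity)
    -- the `S` term
    have hSb : |G.S (fderiv ℝ Y)| ≤ (n * (1 / 2) * (1 + K ^ 2) * I2) * δ := by
      have hs : 0 < Real.sqrt δ⁻¹ := Real.sqrt_pos.2 (inv_pos.2 hδ)
      have h1 := abs_S_le P (fderiv ℝ Y) (hYs.continuous_fderiv one_ne_zero) (hYc.fderiv ℝ) cδ
        hcδc hcδcs hYz hYd hs
      rw [inv_pow, Real.sq_sqrt (inv_nonneg.2 hδ.le), inv_inv, hPS, hPμ, hh2] at h1
      have h2 : δ⁻¹ + δ * (δ⁻¹ * K) ^ 2 = δ⁻¹ * (1 + K ^ 2) := by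
        field_simp
      rw [h2] at h1
      calc |G.S (fderiv ℝ Y)| ≤ n * (1 / 2 * (δ⁻¹ * (1 + K ^ 2) * (δ ^ (n - 1) * I2))) := h1
        _ = (n * (1 / 2) * (1 + K ^ 2) * I2) * (δ⁻¹ * δ ^ (n - 1)) := by ring
        _ ≤ (n * (1 / 2) * (1 + K ^ 2) * I2) * δ := mul_le_mul_of_nonneg_left hpow (by positivity)
    rw [hdvX, hSX, hst]
    have h3 : G.S (fderiv ℝ Z) + ∫ x, dv Y x ∂G.μ - (G.S (fderiv ℝ Z) + G.S (fderiv ℝ Y)) =
        (∫ x, dv Y x ∂G.μ) - G.S (fderiv ℝ Y) := by ring
    rw [h3]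
    calc |(∫ x, dv Y x ∂G.μ) - G.S (fderiv ℝ Y)|
        ≤ |∫ x, dv Y x ∂G.μ| + |G.S (fderiv ℝ Y)| := abs_sub _ _
      _ ≤ (n * K * I1) * δ + (n * (1 / 2) * (1 + K ^ 2) * I2) * δ := add_le_add hA hSb
      _ = C * δ := by rw [hC]; ring
  -- conclusion
  have h0 : |(∫ x, dv X x ∂G.μ) - G.S (fderiv ℝ X)| ≤ 0 := by
    apply le_of_forall_pos_le_add
    intro ε hε
    rw [zero_add]
    set δ := min 1 (ε / (C + 1)) with hδ
    have hδ0 : 0 < δ := lt_min one_pos (by positivity)
    refine (key δ hδ0 (min_le_left _ _)).trans ?_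
    calc C * δ ≤ (C + 1) * (ε / (C + 1)) := by
          have := min_le_right 1 (ε / (C + 1))
          have h2 : δ ≤ ε / (C + 1) := this
          gcongr
          linarith
      _ = ε := by field_simp
  have h1 := abs_nonpos_iff.1 h0
  linarith

end Crest.Agent.R246.L1x782
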