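import Crest.Agent.R246.GL_873
import Mathlib.MeasureTheory.Measure.Haar.NormedSpace
import Mathlib.MeasureTheory.Measure.Lebesgue.EqHaar

/-!
# Block G, leaf L2 (helper196): scaling of `ClassD` and `VAR` under `x ↦ p + r x`
-/

set_option autoImplicit false
set_option linter.unusedSectionVars false
noncomputable section
open MeasureTheory Set Filter Topology
open scoped RealInnerProductSpace Gradient
open Crest.Agent.R246.G873

namespace Crest.Agent.R246.L2x196

variable {E : Type*} [NormedAddCommGroup E] [InnerProductSpace ℝ E] [FiniteDimensional ℝ E]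
  [MeasurableSpace E] [BorelSpace E]

/-- the affine change of variables -/
lemma fderiv_aff (f : E → ℝ) (c : ℝ) (p : E) (r : ℝ) (x : E) :
    fderiv ℝ (fun x => c * f (p + r • x)) x = (c * r) • fderiv ℝ f (p + r • x) := by
  have h1 : fderiv ℝ (fun x => f (p + r • x)) x = r • fderiv ℝ f (p + r • x) := by
    have := fderiv_comp_smul (𝕜 := ℝ) (f := fun y : E => f (p + y)) (x := x) r
    rw [show (fun x => f (p + r • x)) = fun x => (fun y : E => f (p + y)) (r • x) from rfl, this,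
      fderiv_comp_add_left]
  have h2 : fderiv ℝ (fun x => c * f (p + r • x)) x = c • fderiv ℝ (fun x => f (p + r • x)) x := by
    have := fderiv_const_smul_field (𝕜 := ℝ) (R := ℝ) (f := fun x : E => f (p + r • x)) c
    have h3 := congrFun this x
    exact h3
  rw [h2, h1, smul_smul]

lemma gradient_aff (f : E → ℝ) (c : ℝ) (p : E) (r : ℝ) (x : E) :
    gradient (fun x => c * f (p + r • x)) x = (c * r) • gradient f (p + r • x) := by
  unfold gradient
  rw [fderiv_aff]
  simp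

/-- `Z = ζ ∘ T⁻¹`. -/
def pull (ζ : E → ℝ) (p : E) (r : ℝ) (y : E) : ℝ := ζ (r⁻¹ • (y - p))

lemma pull_apply (ζ : E → ℝ) (p : E) {r : ℝ} (hr : r ≠ 0) (x : E) :
    pull ζ p r (p + r • x) = ζ x := by
  unfold pull
  rw [add_sub_cancel_left, smul_smul, inv_mul_cancel₀ hr, one_smul]

lemma gi_aff (φ ζ : E → ℝ) (p : E) {r : ℝ} (hr : r ≠ 0) (x : E) :
    gi (fun x => r⁻¹ * φ (p + r • x)) ζ x = r * gi φ (pull ζ p r) (p + r • x) := by
  have h1 : ζ = fun x => (1 : ℝ) * pull ζ p r (p + r • x) := by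
    funext x; rw [pull_apply ζ p hr, one_mul]
  have h2 : gradient ζ x = r • gradient (pull ζ p r) (p + r • x) := by
    conv_lhs => rw [h1]
    rw [gradient_aff, one_mul]
  unfold gi
  rw [gradient_aff, h2, inv_mul_cancel₀ hr, one_smul, inner_smul_right]

lemma integral_aff (f : E → ℝ) (p : E) (r : ℝ) :
    ∫ x, f (p + r • x) = |(r ^ Module.finrank ℝ E)⁻¹| * ∫ x, f x := by
  have h1 := Measure.integral_comp_smul (volume : Measure E) (fun y : E => f (p + y)) r
  rw [h1, integral_add_left_eq_self (fun x => f x) p, smul_eq_mul]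

lemma integral_gi_aff (φ ζ : E → ℝ) (p : E) {r : ℝ} (hr : r ≠ 0) :
    ∫ x, gi (fun x => r⁻¹ * φ (p + r • x)) ζ x
      = r * (|(r ^ Module.finrank ℝ E)⁻¹| * ∫ x, gi φ (pull ζ p r) x) := by
  simp only [gi_aff φ ζ p hr]
  rw [integral_const_mul, integral_aff (gi φ (pull ζ p r)) p r]

lemma pull_lip {ζ : E → ℝ} (h : Lip ζ) (p : E) (r : ℝ) : Lip (pull ζ p r) := by
  obtain ⟨C, hC⟩ := h
  refine ⟨C * ‖r⁻¹‖₊, ?_⟩
  have h1 : LipschitzWith ‖r⁻¹‖₊ (fun y : E => r⁻¹ • (y - p)) := by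
    refine LipschitzWith.of_dist_le_mul fun x y => ?_
    rw [dist_smul₀, dist_sub_right]
    rfl
  exact hC.comp h1

lemma pull_cs {ζ : E → ℝ} (h : HasCompactSupport ζ) (p : E) {r : ℝ} (hr : r ≠ 0) :
    HasCompactSupport (pull ζ p r) := hasCompactSupport_zoom h p hr

lemma tsupport_pull (ζ : E → ℝ) (p : E) {r : ℝ} (hr : r ≠ 0) :
    tsupport (pull ζ p r) ⊆ (fun y => r⁻¹ • (y - p)) ⁻¹' tsupport ζ := by
  apply closure_minimal _
  · exact (isClosed_tsupport ζ).preimage (by fun_prop)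
  · intro y hy
    exact subset_tsupport ζ hy

lemma zoom_inv (p : E) {r : ℝ} (hr : r ≠ 0) (y : E) : p + r • (r⁻¹ • (y - p)) = y := by
  rw [smul_smul, mul_inv_cancel₀ hr, one_smul, add_sub_cancel]

lemma classD_aff {φ : E → ℝ} (h : ClassD φ) (p : E) {r : ℝ} (hr : 0 < r) :
    ClassD (fun x => r⁻¹ * φ (p + r • x)) := by
  have hr' : r ≠ 0 := hr.ne'
  refine ⟨?_, ?_, ?_, ?_⟩
  · refine LipschitzWith.of_dist_le_mul fun x y => ?_
    rw [Real.dist_eq, ← mul_sub, abs_mul, abs_of_pos (inv_pos.2 hr), NNReal.coe_one, one_mul]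
    have h1 := h.lip.dist_le_mul (p + r • x) (p + r • y)
    rw [Real.dist_eq, NNReal.coe_one, one_mul, dist_add_left, dist_smul₀, Real.norm_eq_abs,
      abs_of_pos hr] at h1
    calc r⁻¹ * |φ (p + r • x) - φ (p + r • y)| ≤ r⁻¹ * (r * dist x y) := by gcongr
      _ = dist x y := by field_simp
  · have h1 : volume {x : E | ¬ ‖fderiv ℝ φ x‖ = 1} = 0 := ae_iff.1 h.grad
    rw [ae_iff]
    have h2 : {x : E | ¬ ‖fderiv ℝ (fun x => r⁻¹ * φ (p + r • x)) x‖ = 1}
        = (r • ·) ⁻¹' ((fun y => p + y) ⁻¹' {x : E | ¬ ‖fderiv ℝ φ x‖ = 1}) := by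
      ext x
      simp only [mem_ofPred_eq, mem_preimage]
      rw [fderiv_aff, inv_mul_cancel₀ hr', one_smul]
    rw [h2, Measure.addHaar_preimage_smul _ hr', measure_preimage_add, h1, mul_zero]
  · intro ζ hζ hc h0 hs
    rw [integral_gi_aff φ ζ p hr']
    have := h.sup (pull ζ p r) (pull_lip hζ p r) (pull_cs hc p hr') (fun x => h0 _) (by
      intro y hy
      have h1 := hs (tsupport_pull ζ p hr' hy)
      simp only [mem_ofPred_eq, zoom_inv p hr'] at h1
      exact (mul_pos_iff_of_pos_left (inv_pos.2 hr)).1 h1)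
    positivity
  · intro ζ hζ hc h0 hs
    rw [integral_gi_aff φ ζ p hr']
    have := h.sub (pull ζ p r) (pull_lip hζ p r) (pull_cs hc p hr') (fun x => h0 _) (by
      intro y hy
      have h1 := hs (tsupport_pull ζ p hr' hy)
      simp only [mem_ofPred_eq, zoom_inv p hr'] at h1
      show φ y < 0
      by_contra h2
      exact absurd h1 (not_lt.2 (mul_nonneg (inv_pos.2 hr).le (not_lt.1 h2))))
    have h3 : r * |(r ^ Module.finrank ℝ E)⁻¹| * ∫ x, gi φ (pull ζ p r) x ≤ 0 :=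
      mul_nonpos_of_nonneg_of_nonpos (by positivity) this
    linarith [h3, mul_assoc r |(r ^ Module.finrank ℝ E)⁻¹| (∫ x, gi φ (pull ζ p r) x)]

theorem stL2 (E : Type) [NormedAddCommGroup E] [InnerProductSpace ℝ E] [FiniteDimensional ℝ E]
    [MeasurableSpace E] [BorelSpace E] : StL2 E := by
  intro hn G φ p r hr hφ
  have hr' : r ≠ 0 := hr.ne'
  refine ⟨classD_aff hφ p hr, fun U hV ζ η hζ hη hcζ hcη hle hs => ?_⟩
  have h1 := hV (pull ζ p r) (pull η p r) (pull_lip hζ p r) (pull_lip hη p r)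
    (pull_cs hcζ p hr') (pull_cs hcη p hr') (fun x => hle _) (by
      intro y hy
      have h1 := hs (tsupport_pull η p hr' hy)
      simpa only [mem_ofPred_eq, zoom_inv p hr'] using h1)
  have h2 : (fun y => |r⁻¹ * φ (p + r • y)|) = fun y => r⁻¹ * |φ (p + r • y)| := by
    funext y; rw [abs_mul, abs_of_pos (inv_pos.2 hr)]
  rw [h2, integral_gi_aff φ ζ p hr', integral_gi_aff (fun y => |φ y|) η p hr', dil_integral]
  have h3 : r * |(r ^ Module.finrank ℝ E)⁻¹| = (r ^ d1 E)⁻¹ := by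
    rw [abs_of_pos (by positivity)]
    have : Module.finrank ℝ E = d1 E + 1 := by unfold d1; omega
    rw [this, pow_succ]
    field_simp
  have h4 : (∫ x, η (r⁻¹ • (x - p)) ∂G.μ) = ∫ x, pull η p r x ∂G.μ := rfl
  rw [h4, ← mul_assoc, ← mul_assoc, h3, ← mul_sub]
  calc (r ^ d1 E)⁻¹ * ((∫ x, gi φ (pull ζ p r) x) - ∫ x, gi (fun y => |φ y|) (pull η p r) x)
      ≤ (r ^ d1 E)⁻¹ * (2 * ∫ x, pull η p r x ∂G.μ) := by
        apply mul_le_mul_of_nonneg_left h1 (by positivity)
    _ = 2 * ((r ^ d1 E)⁻¹ * ∫ x, pull η p r x ∂G.μ) := by ring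

end Crest.Agent.R246.L2x196
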