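import Crest.Agent.R246.GL_873
import Mathlib.Analysis.SpecialFunctions.Complex.LogBounds
import Mathlib.Analysis.SpecialFunctions.Exp

/-!
# L3: Gaussian mass against the profiles `hk k`
-/

set_option autoImplicit false
noncomputable section
open MeasureTheory Set Filter Topology
open scoped RealInnerProductSpace
open Crest.Agent.R246.G873

namespace Crest.Agent.R246.L3x638

lemma hk_nonneg (k : ℕ) (s : ℝ) : 0 ≤ hk k s := pow_nonneg (le_max_right _ _) _

lemma hk_zero {k : ℕ} (hk2 : 1 ≤ k) {s : ℝ} (hs : (k : ℝ) ≤ s) : hk k s = 0 := by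
  have hk0 : (0 : ℝ) < k := by exact_mod_cast hk2
  have : 1 - s / (k : ℝ) ≤ 0 := by
    rw [sub_nonpos, one_le_div hk0]; exact hs
  unfold hk
  rw [max_eq_right this, zero_pow (by omega)]

lemma hk_le_exp {k : ℕ} (hk2 : 1 ≤ k) (s : ℝ) : hk k s ≤ Real.exp (-s) := by
  have hk0 : (0 : ℝ) < k := by exact_mod_cast hk2
  by_cases h : 0 ≤ 1 - s / (k : ℝ)
  · unfold hk
    rw [max_eq_left h]
    have h1 : 1 - s / (k : ℝ) ≤ Real.exp (-(s / k)) := Real.one_sub_le_exp_neg _
    have h2 : Real.exp (-s) = Real.exp (-(s / k)) ^ k := by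
      rw [← Real.exp_nat_mul]
      congr 1
      field_simp
    rw [h2]
    exact pow_le_pow_left₀ h h1 k
  · push Not at h
    unfold hk
    rw [max_eq_right h.le, zero_pow (by omega)]
    exact (Real.exp_pos _).le

lemma hk_tendsto (s : ℝ) : Tendsto (fun k : ℕ => hk k s) atTop (𝓝 (Real.exp (-s))) := by
  have h1 := Real.tendsto_one_add_div_pow_exp (-s)
  refine h1.congr' ?_
  have h2 : ∀ᶠ k : ℕ in atTop, s ≤ (k : ℝ) :=
    tendsto_natCast_atTop_atTop.eventually_ge_atTop s
  filter_upwards [h2, eventually_gt_atTop 0] with k hk1 hk2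
  have hk0 : (0 : ℝ) < k := by exact_mod_cast hk2
  have h3 : 0 ≤ 1 - s / (k : ℝ) := by
    rw [sub_nonneg, div_le_one hk0]; exact hk1
  unfold hk
  rw [max_eq_left h3, neg_div, ← sub_eq_add_neg]

variable {E : Type} [NormedAddCommGroup E] [InnerProductSpace ℝ E] [FiniteDimensional ℝ E]
    [MeasurableSpace E] [BorelSpace E]

lemma hk_continuous (k : ℕ) : Continuous fun x : E => hk k (‖x‖ ^ 2) := by
  unfold hk; fun_prop

lemma hk_compact {k : ℕ} (hk2 : 1 ≤ k) : HasCompactSupport fun x : E => hk k (‖x‖ ^ 2) := by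
  refine HasCompactSupport.intro (isCompact_closedBall (0 : E) (Real.sqrt k)) ?_
  intro x hx
  rw [mem_closedBall_zero_iff, not_le] at hx
  apply hk_zero hk2
  have h1 : Real.sqrt k ^ 2 ≤ ‖x‖ ^ 2 := by gcongr
  rwa [Real.sq_sqrt (Nat.cast_nonneg k)] at h1

lemma hk_integrable {μ : Measure E} [IsFiniteMeasureOnCompacts μ] {k : ℕ} (hk2 : 1 ≤ k) :
    Integrable (fun x : E => hk k (‖x‖ ^ 2)) μ :=
  (hk_continuous k).integrable_of_hasCompactSupport (hk_compact hk2)

theorem stL3 : StL3 E := by
  intro μ hμ A hA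
  constructor
  · intro h
    have h1 : ∀ x : E, ENNReal.ofReal (Real.exp (-‖x‖ ^ 2))
        = liminf (fun k : ℕ => ENNReal.ofReal (hk k (‖x‖ ^ 2))) atTop := by
      intro x
      have h2 := (ENNReal.continuous_ofReal.tendsto _).comp (hk_tendsto (‖x‖ ^ 2))
      exact h2.liminf_eq.symm
    simp only [h1]
    refine (lintegral_liminf_le fun k => ?_).trans ?_
    · exact ((hk_continuous k).measurable).ennreal_ofReal
    · refine liminf_le_of_frequently_le' ?_
      apply Eventually.frequently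
      filter_upwards [eventually_ge_atTop 2] with k hk2
      rw [← ofReal_integral_eq_lintegral_ofReal (hk_integrable (by omega))
        (Eventually.of_forall fun x => hk_nonneg k _)]
      exact ENNReal.ofReal_le_ofReal (h k hk2)
  · intro h k hk2
    have h1 : ENNReal.ofReal (∫ x, hk k (‖x‖ ^ 2) ∂μ) ≤ ENNReal.ofReal A := by
      rw [ofReal_integral_eq_lintegral_ofReal (hk_integrable (by omega))
        (Eventually.of_forall fun x => hk_nonneg k _)]
      refine le_trans (lintegral_mono fun x => ?_) h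
      exact ENNReal.ofReal_le_ofReal (hk_le_exp (by omega) _)
    exact (ENNReal.ofReal_le_ofReal_iff hA).1 h1

end Crest.Agent.R246.L3x638
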