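import Crest.Agent.R246.GL_873

/-!
# L6: first moments vanish for stationary homogeneous varifolds
-/

set_option autoImplicit false
noncomputable section
open MeasureTheory Set Filter Topology
open scoped RealInnerProductSpace
open Crest.Agent.R246.G873

namespace Crest.Agent.R246.L6x638

section gen
variable {E : Type*} [NormedAddCommGroup E] [InnerProductSpace ℝ E] [FiniteDimensional ℝ E]
    [MeasurableSpace E] [BorelSpace E]

/-- Cauchy-Schwarz, degenerate case. -/
lemma S_tp_eq_zero (P : PGV E) (w u : E → E) (hw : Continuous w) (hu : Continuous u)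
    (hcw : HasCompactSupport w) (hcu : HasCompactSupport u)
    (h0 : P.S (fun x => tp (w x) (w x)) = 0) : P.S (fun x => tp (w x) (u x)) = 0 := by
  set b := P.S (fun x => tp (w x) (u x)) with hb
  set c := P.S (fun x => tp (u x) (u x)) with hc
  have key : ∀ t : ℝ, 0 ≤ 2 * (t * b) + c := by
    intro t
    have hcw' : HasCompactSupport (fun x => t • w x) := by
      exact hcw.smul_left (f := fun _ => t)
    have h1 := P.S_tp_add (fun x => t • w x) u (hw.const_smul t) hu hcw' hcu
    have h2 := P.S_nonneg (fun x => t • w x + u x) ((hw.const_smul t).add hu) (hcw'.add hcu)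
    have h3 : (fun x => tp (t • w x) (t • w x)) = fun x => (t * t) • tp (w x) (w x) := by
      ext x : 1; rw [tp_smul_left, tp_smul_right, smul_smul]
    have h4 : (fun x => tp (t • w x) (u x)) = fun x => t • tp (w x) (u x) := by
      ext x : 1; rw [tp_smul_left]
    rw [h3, h4, P.S_smul _ _ (continuous_tp hw hw) (hasCompactSupport_tp_left hcw),
      P.S_smul _ _ (continuous_tp hw hu) (hasCompactSupport_tp_left hcw), h0, mul_zero] at h1
    rw [h1] at h2
    linarith
  by_contra hne
  have h1 := key (-(c + 1) / (2 * b))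
  have h2 : 2 * (-(c + 1) / (2 * b) * b) = -(c + 1) := by field_simp
  rw [h2] at h1
  linarith

/-- constant density ratio kills the radial defect. -/
lemma Qd_eq_zero {G : GV E} (hn : 1 ≤ Module.finrank ℝ E) (hG : G.StatOn univ)
    (hhom : ∀ t : ℝ, 0 < t → ∀ f : E → ℝ, Continuous f → HasCompactSupport f →
      ∫ x, f (t⁻¹ • x) ∂G.μ = t ^ (Module.finrank ℝ E - 1) * ∫ x, f x ∂G.μ)
    {h h1 : ℝ → ℝ} {K : ℝ} (P : Prof h h1 K) {r : ℝ} (hr : 0 < r) : Qd G h1 0 r = 0 := by
  have hD := hasDerivAt_DR hn hG P 0 hr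
  have hconst : ∀ s : ℝ, 0 < s → DR G.μ h 0 s = ∫ x, rad h (0 : E) 1 x ∂G.μ := by
    intro s hs
    have h2 := hhom s hs (rad h (0 : E) 1) (rad_continuous P.cont 0 1)
      (rad_compact P.zero 0 one_pos)
    have h3 : ∀ x : E, rad h (0 : E) 1 (s⁻¹ • x) = rad h 0 s x := by
      intro x
      unfold rad
      congr 1
      rw [sub_zero, sub_zero, norm_smul, norm_inv, Real.norm_eq_abs, abs_of_pos hs, mul_pow]
      field_simp
    simp only [h3] at h2
    unfold DR d1
    rw [h2]
    field_simp
  have hev : DR G.μ h (0 : E) =ᶠ[𝓝 r] fun _ => ∫ x, rad h (0 : E) 1 x ∂G.μ := by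
    filter_upwards [Ioi_mem_nhds hr] with s hs
    exact hconst s hs
  have hD0 : HasDerivAt (DR G.μ h (0 : E)) 0 r :=
    (hasDerivAt_const r _).congr_of_eventuallyEq hev
  have h4 := hD.unique hD0
  have h5 : (r ^ (d1 E + 1))⁻¹ ≠ 0 := by positivity
  exact (mul_eq_zero.1 h4).resolve_left h5

end gen

variable {E : Type} [NormedAddCommGroup E] [InnerProductSpace ℝ E] [FiniteDimensional ℝ E]
    [MeasurableSpace E] [BorelSpace E]

/-- general profile version -/
lemma moment_profile {G : GV E} (hn : 1 ≤ Module.finrank ℝ E) (hG : G.StatOn univ)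
    (hhom : ∀ t : ℝ, 0 < t → ∀ f : E → ℝ, Continuous f → HasCompactSupport f →
      ∫ x, f (t⁻¹ • x) ∂G.μ = t ^ (Module.finrank ℝ E - 1) * ∫ x, f x ∂G.μ)
    {h h1 : ℝ → ℝ} {K : ℝ} (P : Prof h h1 K) (a : E) {r : ℝ} (hr : 0 < r) :
    ∫ x, (2 * h1 (‖x‖ ^ 2 / r ^ 2) / r ^ 2) * ⟪a, x⟫ ∂G.μ = 0 := by
  have := G.fin
  have hQ := Qd_eq_zero hn hG hhom P hr
  set c : E → ℝ := fun x => -(2 * h1 (‖x‖ ^ 2 / r ^ 2) / r ^ 2) with hcdef
  have hcc : Continuous c := by
    have h2 : Continuous fun x : E => h1 (‖x‖ ^ 2 / r ^ 2) := P.hc.comp (by fun_prop)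
    exact ((h2.const_mul 2).div_const _).neg
  have hc0 : ∀ x, 0 ≤ c x := by
    intro x
    have := P.np (‖x‖ ^ 2 / r ^ 2)
    simp only [hcdef]
    rw [neg_nonneg]
    apply div_nonpos_of_nonpos_of_nonneg _ (by positivity)
    linarith
  have hcs : HasCompactSupport c := by
    refine (rad_compact P.zero1 (0 : E) hr).mono' ?_
    intro x hx
    apply subset_tsupport
    intro h0
    apply hx
    unfold rad at h0
    rw [sub_zero] at h0
    simp [hcdef, h0]
  have hsc : Continuous fun x => Real.sqrt (c x) := Real.continuous_sqrt.comp hcc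
  have hscs : HasCompactSupport fun x => Real.sqrt (c x) := by
    refine hcs.mono' ?_
    intro x hx
    apply subset_tsupport
    intro h0
    apply hx
    simp [h0]
  set w : E → E := fun x => Real.sqrt (c x) • x with hwdef
  set u : E → E := fun x => Real.sqrt (c x) • a with hudef
  have hww : (fun x => tp (w x) (w x)) = fun x => (-1 : ℝ) • mfield h1 0 r x := by
    ext x : 1
    simp only [hwdef, mfield, sub_zero]
    rw [tp_smul_left, tp_smul_right, smul_smul, smul_smul, Real.mul_self_sqrt (hc0 x)]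
    simp only [hcdef]
    congr 1
    ring
  have hS0 : G.toPGV.S (fun x => tp (w x) (w x)) = 0 := by
    rw [hww]
    show G.S (fun x => (-1 : ℝ) • mfield h1 0 r x) = 0
    rw [G.S_smul (-1) _ (mfield_continuous P.hc 0 r) (mfield_compact P.zero1 0 hr)]
    unfold Qd at hQ
    linarith
  have hS1 := S_tp_eq_zero G.toPGV w u (hsc.smul continuous_id) (hsc.smul continuous_const)
    hscs.smul_right hscs.smul_right hS0
  -- the field
  have hfd : ∀ x, HasFDerivAt (fun x => rad h (0 : E) r x • a) ((-1 : ℝ) • tp (w x) (u x)) x := by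
    intro x
    have e1 := (hasFDerivAt_rad P (0 : E) r x).smul_const a
    refine e1.congr_fderiv ?_
    simp only [hwdef, hudef, sub_zero]
    rw [tp_smul_left, tp_smul_right, smul_smul, smul_smul, mul_assoc,
      Real.mul_self_sqrt (hc0 x)]
    simp only [hcdef]
    ext y
    simp [tp_apply, smul_smul]
  have hX : ContDiff ℝ 1 (fun x => rad h (0 : E) r x • a) :=
    (rad_contDiff P 0 r).smul contDiff_const
  have hXc : HasCompactSupport (fun x => rad h (0 : E) r x • a) :=
    (rad_compact P.zero (0 : E) hr).smul_right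
  have hst := hG _ hX hXc (subset_univ _)
  have hfd' : fderiv ℝ (fun x => rad h (0 : E) r x • a) = fun x => (-1 : ℝ) • tp (w x) (u x) := by
    ext x : 1
    exact (hfd x).fderiv
  have hwc : Continuous w := hsc.smul continuous_id
  have huc : Continuous u := hsc.smul continuous_const
  have hwcs : HasCompactSupport w := hscs.smul_right
  rw [hfd', G.S_smul _ _ (continuous_tp hwc huc) (hasCompactSupport_tp_left hwcs)] at hst
  have hS1' : G.S (fun x => tp (w x) (u x)) = 0 := hS1
  rw [hS1', mul_zero] at hst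
  rw [← hst]
  refine integral_congr_ae (Eventually.of_forall fun x => ?_)
  unfold dv
  rw [hfd']
  simp only [ContinuousLinearMap.toLinearMap_smul, map_smul, trace_tp, smul_eq_mul]
  simp only [hwdef, hudef, inner_smul_left, inner_smul_right]
  simp only [conj_trivial]
  rw [← mul_assoc (√(c x)), Real.mul_self_sqrt (hc0 x)]
  simp only [hcdef]
  rw [real_inner_comm]
  ring

theorem stL6 : StL6 E := by
  intro G hG hhom a ρ hρ
  rcases Nat.eq_zero_or_pos (Module.finrank ℝ E) with h0 | hn
  · have : Subsingleton E := Module.finrank_zero_iff.1 h0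
    have hz : ∀ x : E, ⟪a, x⟫ = 0 := by
      intro x
      rw [Subsingleton.elim x 0, inner_zero_right]
    simp [hz]
  · have hs2 : (0 : ℝ) < Real.sqrt 2 := by positivity
    have hr : 0 < ρ / Real.sqrt 2 := by positivity
    have h1 := moment_profile hn hG hhom (prof_hk 2 le_rfl) a hr
    have h2 : ∀ x : E, (2 * -(max (1 - ‖x‖ ^ 2 / (ρ / Real.sqrt 2) ^ 2 / ((2 : ℕ) : ℝ)) 0 ^ (2 - 1))
        / (ρ / Real.sqrt 2) ^ 2) * ⟪a, x⟫
        = (-4 / ρ ^ 2) * (max (1 - ‖x‖ ^ 2 / ρ ^ 2) 0 * ⟪a, x⟫) := by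
      intro x
      have e1 : (ρ / Real.sqrt 2) ^ 2 = ρ ^ 2 / 2 := by
        rw [div_pow, Real.sq_sqrt (by norm_num)]
      rw [e1]
      have e2 : ‖x‖ ^ 2 / (ρ ^ 2 / 2) / ((2 : ℕ) : ℝ) = ‖x‖ ^ 2 / ρ ^ 2 := by
        push_cast
        field_simp
      rw [e2]
      field_simp
      norm_num
      ring
    simp only [h2] at h1
    rw [integral_const_mul] at h1
    have h3 : (-4 / ρ ^ 2 : ℝ) ≠ 0 := by
      apply div_ne_zero (by norm_num) (by positivity)
    exact (mul_eq_zero.1 h1).resolve_left h3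

end Crest.Agent.R246.L6x638
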