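import Crest.Agent.R246.Bl_873
import Crest.Agent.R246.G2_386
import Crest.Agent.R246.G3_688
import Crest.Agent.R246.L1_782
import Crest.Agent.R246.L2_196
import Crest.Agent.R246.L3_638
import Crest.Agent.R246.L6_638

/-!
# Block G: assembly of `StG`
-/

set_option autoImplicit false
set_option linter.unusedSectionVars false
set_option linter.unusedVariables false
noncomputable section
open MeasureTheory Set Filter Topology
open scoped RealInnerProductSpace ContDiff
open Crest.Agent.R246.H990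

namespace Crest.Agent.R246.G873

variable {E : Type} [NormedAddCommGroup E] [InnerProductSpace ℝ E] [FiniteDimensional ℝ E]
  [MeasurableSpace E] [BorelSpace E]

/-- the blow-up is invariant along `p`. -/
lemma BU.inv {φ R : E → ℝ} {G V : GV E} {A : ℝ} {p : E} {U : Ultrafilter ℝ}
    (hb : BU φ G p U R V) (hL : LimObj φ G A) (hU : (U : Filter ℝ) ≤ 𝓝[>] (0 : ℝ))
    (hφp : φ p = 0) (x : E) (t : ℝ) : R (x + t • p) = R x := by
  have hpos : ∀ᶠ i in (U : Filter ℝ), 0 < i := hU self_mem_nhdsWithin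
  have hU0 : Tendsto (fun i : ℝ => i) (U : Filter ℝ) (𝓝 0) :=
    (tendsto_id.mono_left hU).mono_right nhdsWithin_le_nhds
  have hpos1 : ∀ᶠ i in (U : Filter ℝ), 0 < 1 + i * t := by
    have : Tendsto (fun i : ℝ => 1 + i * t) (U : Filter ℝ) (𝓝 (1 + 0 * t)) :=
      (hU0.mul_const t).const_add 1
    rw [zero_mul, add_zero] at this
    exact this.eventually (lt_mem_nhds one_pos)
  have h1 := (hb.lim (x + t • p)).sub (hb.lim x)
  have h2 : Tendsto (fun i : ℝ => 2 * (i * (|t| * ‖x‖))) (U : Filter ℝ) (𝓝 (2 * (0 * (|t| * ‖x‖)))) :=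
    (hU0.mul_const _).const_mul 2
  rw [zero_mul, mul_zero] at h2
  have h3 : Tendsto (fun i => i⁻¹ * φ (p + i • (x + t • p)) - i⁻¹ * φ (p + i • x))
      (U : Filter ℝ) (𝓝 0) := by
    apply squeeze_zero_norm' _ h2
    filter_upwards [hpos, hpos1] with i hi hi1
    have e1 : p + i • (x + t • p) = (1 + i * t) • (p + (i / (1 + i * t)) • x) := by
      rw [smul_add (1 + i * t), smul_smul, mul_div_cancel₀ _ hi1.ne', add_smul, one_smul, smul_add,
        smul_smul]
      abel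
    rw [e1, hL.hom _ hi1.le, ← mul_sub, Real.norm_eq_abs, abs_mul, abs_of_pos (inv_pos.2 hi),
      inv_mul_le_iff₀ hi]
    have e2 : (1 + i * t) * φ (p + (i / (1 + i * t)) • x) - φ (p + i • x)
        = (1 + i * t) * (φ (p + (i / (1 + i * t)) • x) - φ (p + i • x))
          + i * t * φ (p + i • x) := by ring
    rw [e2]
    refine (abs_add_le _ _).trans ?_
    have e3 : |(1 + i * t) * (φ (p + (i / (1 + i * t)) • x) - φ (p + i • x))|
        ≤ i * (i * (|t| * ‖x‖)) := by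
      rw [abs_mul, abs_of_pos hi1]
      have h4 := hL.cD.lip.dist_le_mul (p + (i / (1 + i * t)) • x) (p + i • x)
      rw [dist_add_left, Real.dist_eq, NNReal.coe_one, one_mul, dist_eq_norm, ← sub_smul,
        norm_smul, Real.norm_eq_abs] at h4
      calc (1 + i * t) * |φ (p + (i / (1 + i * t)) • x) - φ (p + i • x)|
          ≤ (1 + i * t) * (|i / (1 + i * t) - i| * ‖x‖) := by gcongr
        _ = |(1 + i * t) * (i / (1 + i * t) - i)| * ‖x‖ := by
            rw [abs_mul, abs_of_pos hi1]; ring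
        _ = |-(i * (i * t))| * ‖x‖ := by
            congr 2
            field_simp
            ring
        _ = i * (i * (|t| * ‖x‖)) := by
            rw [abs_neg, abs_mul, abs_mul, abs_of_pos hi]; ring
    have e4 : |i * t * φ (p + i • x)| ≤ i * (i * (|t| * ‖x‖)) := by
      have h4 := hL.cD.lip.dist_le_mul (p + i • x) p
      rw [Real.dist_eq, NNReal.coe_one, one_mul, dist_eq_norm, hφp, sub_zero,
        add_sub_cancel_left, norm_smul, Real.norm_eq_abs, abs_of_pos hi] at h4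
      rw [abs_mul, abs_mul, abs_of_pos hi]
      calc i * |t| * |φ (p + i • x)| ≤ i * |t| * (i * ‖x‖) := by gcongr
        _ = i * (i * (|t| * ‖x‖)) := by ring
    linarith
  have := tendsto_nhds_unique h1 h3
  linarith

lemma BU.DR_lim {φ R : E → ℝ} {G V : GV E} {p : E} {U : Ultrafilter ℝ}
    (hb : BU φ G p U R V) (hU : (U : Filter ℝ) ≤ 𝓝[>] (0 : ℝ)) {h h1 : ℝ → ℝ} {K : ℝ}
    (P : Prof h h1 K) {s : ℝ} (hs : 0 < s) :
    Tendsto (fun i => DR G.μ h p (i * s)) (U : Filter ℝ) (𝓝 (DR V.μ h 0 s)) := by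
  have hpos : ∀ᶠ i in (U : Filter ℝ), 0 < i := hU self_mem_nhdsWithin
  have h1 := (hb.limμ (rad h 0 s) (rad_continuous P.cont _ _) (rad_compact P.zero _ hs)).const_mul
    ((s ^ d1 E)⁻¹)
  refine h1.congr' ?_
  filter_upwards [hpos] with i hi
  rw [bu_pos G p hi, ← DR_dil G h p hi hs]
  rfl

/-- everything about a blow-up that the link lemmas need -/
theorem BU.cone {φ R : E → ℝ} {G V : GV E} {A : ℝ} {p : E} {U : Ultrafilter ℝ}
    (hn : 3 ≤ Module.finrank ℝ E) (hb : BU φ G p U R V) (hL : LimObj φ G A) (hA : 0 ≤ A)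
    (hst : G.StatOn univ) (hU : (U : Filter ℝ) ≤ 𝓝[>] (0 : ℝ)) :
    HomM V.μ ∧ (∀ t : ℝ, 0 ≤ t → ∀ x, R (t • x) = t * R x) ∧
      ∫⁻ x, ENNReal.ofReal (Real.exp (-‖x‖ ^ 2)) ∂V.μ ≤ ENNReal.ofReal A := by
  have hpos : ∀ᶠ i in (U : Filter ℝ), 0 < i := hU self_mem_nhdsWithin
  have hVfin := V.fin
  have hGfin := G.fin
  have hhom : HomM V.μ := by
    apply stL4 E (by omega) V hb.stat
    intro r s hr hs
    have P := prof_hk' 2 le_rfl
    -- the limit of the density ratio at `0+`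
    have hmono := DR_mono (by omega) hst P p
    have hbdd : BddBelow (DR G.μ (hk 2) p '' Ioi 0) := by
      refine ⟨0, ?_⟩
      rintro _ ⟨r, hr, rfl⟩
      have hr' : (0 : ℝ) < r := hr
      exact mul_nonneg (by positivity) (integral_nonneg fun x => P.nonneg _)
    have hT := hmono.tendsto_nhdsGT hbdd
    have key : ∀ s : ℝ, 0 < s → dens V.μ 2 0 s = sInf (DR G.μ (hk 2) p '' Ioi 0) := by
      intro s hs
      refine tendsto_nhds_unique (hb.DR_lim hU P hs) (hT.comp ?_)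
      have h1 : Tendsto (fun i : ℝ => i * s) (𝓝[>] 0) (𝓝[>] 0) := by
        apply tendsto_nhdsWithin_of_tendsto_nhds_of_eventually_within
        · have : Tendsto (fun i : ℝ => i * s) (𝓝 0) (𝓝 (0 * s)) := tendsto_id.mul_const s
          rw [zero_mul] at this
          exact this.mono_left nhdsWithin_le_nhds
        · filter_upwards [self_mem_nhdsWithin] with i hi
          exact mul_pos hi hs
      exact h1.mono_left hU
    rw [key r hr, key s hs]
  refine ⟨hhom, stL5 E (by omega) R V.μ V.fin hb.cD hb.var hb.conc hhom hb.R0, ?_⟩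
  refine (L3x638.stL3 V.μ V.fin A hA).1 ?_
  intro k hk2
  have P := prof_hk' k hk2
  have hmass := (L3x638.stL3 G.μ G.fin A hA).2 hL.mass k hk2
  have h1 := hb.DR_lim hU P one_pos
  have h2 : DR V.μ (hk k) 0 1 = ∫ x, hk k (‖x‖ ^ 2) ∂V.μ := by
    unfold DR rad; simp
  rw [h2] at h1
  refine le_of_tendsto h1 ?_
  filter_upwards [hpos] with i hi
  rw [mul_one]
  exact (DR_le_inf (by omega) hst hL.homμ P p hi).trans hmass

/-- an isometric embedding onto the hyperplane orthogonal to a unit vector -/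
lemma exists_link_emb {E' : Type} [NormedAddCommGroup E'] [InnerProductSpace ℝ E']
    [FiniteDimensional ℝ E'] (h : Module.finrank ℝ E' + 1 = Module.finrank ℝ E) {p : E}
    (hp : p ≠ 0) : ∃ j : E' →ₗᵢ[ℝ] E, ∀ y, ⟪j y, p⟫ = 0 := by
  have hfr : Module.finrank ℝ (ℝ ∙ p)ᗮ = Module.finrank ℝ E' := by
    have h1 := Submodule.finrank_add_finrank_orthogonal (ℝ ∙ p)
    have h2 := finrank_span_singleton (K := ℝ) hp
    omega
  let e : E' ≃ₗᵢ[ℝ] (ℝ ∙ p)ᗮ := (stdOrthonormalBasis ℝ E').equiv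
    (stdOrthonormalBasis ℝ (ℝ ∙ p)ᗮ) (finCongr hfr.symm)
  refine ⟨(ℝ ∙ p)ᗮ.subtypeₗᵢ.comp e.toLinearIsometry, fun y => ?_⟩
  have := (e y).2
  rw [Submodule.mem_orthogonal_singleton_iff_inner_left] at this
  exact this

/-- **Block G, final theorem.** -/
theorem stG (E E' : Type) [NormedAddCommGroup E] [InnerProductSpace ℝ E] [FiniteDimensional ℝ E]
    [MeasurableSpace E] [BorelSpace E] [NormedAddCommGroup E'] [InnerProductSpace ℝ E']
    [FiniteDimensional ℝ E'] [MeasurableSpace E'] [BorelSpace E'] : StG E E' := by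
  intro hdim hdim' φ G A hA hL hA2 hlink p hp hφp
  have hGfin := G.fin
  have hn4 : 4 ≤ Module.finrank ℝ E := by omega
  have hst : G.StatOn univ := L1x782.stL1 E (by omega) G hL.homμ hL.stat
  have hdens : ∀ k : ℕ, 2 ≤ k → MonotoneOn (dens G.μ k p) (Ioi 0) ∧
        ∀ r : ℝ, 0 < r → dens G.μ k p r ≤ ∫ x, hk k (‖x‖ ^ 2) ∂G.μ := by
    intro k hk2
    have P := prof_hk' k hk2
    exact ⟨DR_mono (by omega) hst P p, fun r hr => DR_le_inf (by omega) hst hL.homμ P p hr⟩
  refine ⟨?_, hdens⟩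
  -- every blow-up is a half space function
  have hlin : ∀ (U : Ultrafilter ℝ), (U : Filter ℝ) ≤ 𝓝[>] (0 : ℝ) →
      ∃ R V, BU φ G p U R V ∧ ∃ e : E, ‖e‖ = 1 ∧ ∀ x, R x = ⟪e, x⟫ := by
    intro U hU
    obtain ⟨R, V, hb⟩ := exists_BU (G2x386.stG2 E) (L2x196.stL2 E) (by omega) hL hst hp hφp
      (fun r hr => (hdens 2 le_rfl).2 r hr) hU
    refine ⟨R, V, hb, ?_⟩
    obtain ⟨hhom, hR1, hmass⟩ := hb.cone (by omega) hL hA hst hU
    have hp' : 0 < ‖p‖ := norm_pos_iff.2 hp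
    set p0 : E := ‖p‖⁻¹ • p with hp0
    have hp0n : ‖p0‖ = 1 := by
      rw [hp0, norm_smul, norm_inv, norm_norm, inv_mul_cancel₀ hp'.ne']
    have hp0z : p0 ≠ 0 := by
      intro h; rw [h, norm_zero] at hp0n; exact zero_ne_one hp0n
    obtain ⟨j, hj⟩ := exists_link_emb (E' := E') hdim hp0z
    by_cases hcase : ∀ y, ‖y‖ = 1 → |R (j y)| < 1
    · exfalso
      have hinv : ∀ x (t : ℝ), R (x + t • p0) = R x := by
        intro x t
        rw [hp0, smul_smul]
        exact hb.inv hL hU hφp x _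
      obtain ⟨hN, hV⟩ := G3x688.stG3 E E' hdim hdim' p0 j R V.μ A hp0n hj V.fin hR1 hb.cD hinv
        hb.var hb.conc hA hmass hcase
      have h1 := hlink _ hN _ hV
      by_cases h0 : Real.sqrt Real.pi * cV E' = 0
      · rw [h0, mul_zero] at h1; linarith
      · rw [div_mul_cancel₀ _ h0] at h1
        exact lt_irrefl _ h1
    · push Not at hcase
      obtain ⟨y, hy1, hy2⟩ := hcase
      have hjy : ‖j y‖ = 1 := by rw [j.norm_map, hy1]
      have hle : |R (j y)| ≤ 1 := by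
        have := hb.cD.lip.dist_le_mul (j y) 0
        rw [Real.dist_eq, hb.R0, sub_zero, dist_zero_right, hjy, NNReal.coe_one, one_mul] at this
        exact this
      refine G4b386.stG4 E (by omega) R V.μ (j y) V.fin hR1 hb.cD hb.var hb.conc hjy
        (le_antisymm hle hy2) (fun ρ hρ => L6x638.stL6 V hb.stat hhom (j y) ρ hρ) ?_
      refine lt_of_le_of_lt hmass ?_
      rw [ENNReal.ofReal_lt_ofReal_iff (by positivity)]
      exact hA2
  -- contradiction argument
  intro δ hδ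
  by_contra hcon
  push Not at hcon
  set B : Set ℝ := {r | ∀ e : E, ‖e‖ = 1 → ∃ x, ‖x - p‖ ≤ 2 * r ∧ δ * r < |φ x - ⟪e, x - p⟫|}
    with hB
  have hfreq : (𝓝[>] (0 : ℝ) ⊓ 𝓟 B).NeBot := by
    rw [← frequently_mem_iff_neBot, frequently_iff]
    intro S hS
    obtain ⟨ε, hε, hsub⟩ := mem_nhdsGT_iff_exists_Ioo_subset.1 hS
    obtain ⟨r, hr0, hr1, hr2⟩ := hcon ε hε
    exact ⟨r, hsub ⟨hr0, hr1⟩, hr2⟩
  set U : Ultrafilter ℝ := Ultrafilter.of (𝓝[>] (0 : ℝ) ⊓ 𝓟 B) with hUdef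
  have hUle : (U : Filter ℝ) ≤ 𝓝[>] (0 : ℝ) ⊓ 𝓟 B := Ultrafilter.of_le _
  have hU : (U : Filter ℝ) ≤ 𝓝[>] (0 : ℝ) := hUle.trans inf_le_left
  have hUB : ∀ᶠ i in (U : Filter ℝ), i ∈ B := hUle.trans inf_le_right (mem_principal_self B)
  have hpos : ∀ᶠ i in (U : Filter ℝ), 0 < i := hU self_mem_nhdsWithin
  obtain ⟨R, V, hb, e, he, hRe⟩ := hlin U hU
  have hun := unif_of_pointwise (l := (U : Filter ℝ))
    (φ := fun i x => i⁻¹ * φ (p + i • x)) (R := R)
    (by filter_upwards [hpos] with i hi using lip_blow hL.cD.lip p hi) hb.cD.lip hb.lim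
    (isCompact_closedBall (0 : E) 2) hδ
  obtain ⟨i, hi1, hi2, hi3⟩ := (hun.and (hUB.and hpos)).exists
  obtain ⟨x, hx1, hx2⟩ := hi2 e he
  have hx3 : i⁻¹ • (x - p) ∈ Metric.closedBall (0 : E) 2 := by
    rw [Metric.mem_closedBall, dist_zero_right, norm_smul, norm_inv, Real.norm_eq_abs,
      abs_of_pos hi3, inv_mul_le_iff₀ hi3]
    linarith
  have h1 := hi1 _ hx3
  rw [hRe, smul_smul, mul_inv_cancel₀ hi3.ne', one_smul, add_sub_cancel, inner_smul_right,
    ← mul_sub, abs_mul, abs_of_pos (inv_pos.2 hi3), inv_mul_le_iff₀ hi3] at h1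
  linarith

end Crest.Agent.R246.G873
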