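import Crest.Agent.R246.L5_873

/-!
# Blow-ups at a point of the limit object, assembly of `StG`
-/

set_option autoImplicit false
set_option linter.unusedSectionVars false
set_option linter.unusedVariables false
noncomputable section
open MeasureTheory Set Filter Topology
open scoped RealInnerProductSpace ContDiff
open Crest.Agent.R246.H990

namespace Crest.Agent.R246.G873

variable {E : Type} [NormedAddCommGroup E] [InnerProductSpace ℝ E] [FiniteDimensional ℝ E]
  [MeasurableSpace E] [BorelSpace E]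

/-! ### density ratios of blow-ups -/

lemma DR_dil (G : GV E) (h : ℝ → ℝ) (p : E) {r : ℝ} (hr : 0 < r) {s : ℝ} (hs : 0 < s) :
    DR (G.dil p r hr).μ h 0 s = DR G.μ h p (r * s) := by
  unfold DR
  rw [dil_integral]
  have : ∀ x : E, rad h 0 s (r⁻¹ • (x - p)) = rad h p (r * s) x := by
    intro x
    unfold rad
    rw [sub_zero, norm_smul, norm_inv, Real.norm_eq_abs, abs_of_pos hr, mul_pow, mul_pow]
    congr 1
    field_simp
  simp only [this]
  rw [mul_pow, mul_inv, ← mul_assoc]
  ring

/-- the family of blow-ups, indexed by `ℝ` -/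
def bu (G : GV E) (p : E) (i : ℝ) : GV E := if h : 0 < i then G.dil p i h else G

lemma bu_pos (G : GV E) (p : E) {i : ℝ} (h : 0 < i) : bu G p i = G.dil p i h := by
  simp [bu, h]

lemma bu_pos_univ {G : GV E} (hG : G.StatOn univ) (p : E) (i : ℝ) : (bu G p i).StatOn univ := by
  by_cases h : 0 < i
  · rw [bu_pos G p h]
    have := StatOn.dil hG p h
    simpa using this
  · simpa [bu, h] using hG

/-- bounded density implies locally bounded masses -/
lemma locBdd_bu {G : GV E} {M : ℝ} {p : E} (hM : ∀ r : ℝ, 0 < r → dens G.μ 2 p r ≤ M)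
    {U : Ultrafilter ℝ} (hU : (U : Filter ℝ) ≤ 𝓝[>] (0 : ℝ)) :
    LocBdd U (fun i => (bu G p i).toPGV) := by
  intro K hK
  obtain ⟨ρ, hρ⟩ := hK.isBounded.subset_closedBall (0 : E)
  set s := max ρ 1
  have hs : 0 < s := lt_of_lt_of_le one_pos (le_max_right _ _)
  refine ⟨4 * (s ^ d1 E * M), ?_⟩
  have hpos : ∀ᶠ i in (U : Filter ℝ), 0 < i := hU self_mem_nhdsWithin
  filter_upwards [hpos] with i hi
  rw [bu_pos G p hi]
  have := (G.dil p i hi).fin
  show ((G.dil p i hi).μ K).toReal ≤ _
  have h1 : DR (G.dil p i hi).μ (hk 2) 0 s ≤ M := by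
    rw [DR_dil G _ p hi hs]
    exact hM _ (by positivity)
  have P := prof_hk' 2 le_rfl
  have h2 : ∫ x, rad (hk 2) 0 s x ∂(G.dil p i hi).μ ≤ s ^ d1 E * M := by
    unfold DR at h1
    rwa [inv_mul_le_iff₀ (by positivity)] at h1
  have hint : Integrable (rad (hk 2) (0 : E) s) (G.dil p i hi).μ :=
    (rad_continuous P.cont _ _).integrable_of_hasCompactSupport (rad_compact P.zero _ hs)
  have h3 : (1 / 4 : ℝ) * ((G.dil p i hi).μ K).toReal
      ≤ ∫ x, rad (hk 2) 0 s x ∂(G.dil p i hi).μ := by
    have hKm : (G.dil p i hi).μ K < ⊤ := hK.measure_lt_top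
    have h4 : ∫ x in K, (1 / 4 : ℝ) ∂(G.dil p i hi).μ
        ≤ ∫ x in K, rad (hk 2) 0 s x ∂(G.dil p i hi).μ := by
      apply setIntegral_mono_on (integrableOn_const hKm.ne) hint.integrableOn hK.measurableSet
      intro x hx
      have hx' := hρ hx
      rw [Metric.mem_closedBall, dist_zero_right] at hx'
      unfold rad hk
      rw [sub_zero]
      have e1 : ‖x‖ ^ 2 / s ^ 2 ≤ 1 := by
        rw [div_le_one (by positivity)]
        have : ‖x‖ ≤ s := hx'.trans (le_max_left _ _)
        gcongr
      have e2 : (1 / 2 : ℝ) ≤ max (1 - ‖x‖ ^ 2 / s ^ 2 / ((2 : ℕ) : ℝ)) 0 := by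
        apply le_max_of_le_left
        push_cast
        linarith
      calc (1 / 4 : ℝ) = (1 / 2) ^ 2 := by norm_num
        _ ≤ _ := by gcongr
    rw [setIntegral_const, smul_eq_mul, measureReal_def] at h4
    have h5 : ∫ x in K, rad (hk 2) 0 s x ∂(G.dil p i hi).μ
        ≤ ∫ x, rad (hk 2) 0 s x ∂(G.dil p i hi).μ :=
      setIntegral_le_integral hint (Eventually.of_forall fun x => P.nonneg _)
    linarith
  linarith

/-- locally uniform convergence of `1`-Lipschitz functions -/
lemma unif_of_pointwise {l : Filter ℝ} {φ : ℝ → E → ℝ} {R : E → ℝ}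
    (hφ : ∀ᶠ i in l, LipschitzWith 1 (φ i)) (hR : LipschitzWith 1 R)
    (h : ∀ x, Tendsto (fun i => φ i x) l (𝓝 (R x))) {K : Set E} (hK : IsCompact K) {ε : ℝ}
    (hε : 0 < ε) : ∀ᶠ i in l, ∀ x ∈ K, |φ i x - R x| ≤ ε := by
  obtain ⟨t, htf, ht⟩ := Metric.totallyBounded_iff.1 hK.totallyBounded (ε / 3) (by positivity)
  have h1 : ∀ᶠ i in l, ∀ y ∈ t, |φ i y - R y| < ε / 3 := by
    rw [eventually_all_finite htf]
    intro y _
    have := (h y).eventually (Metric.ball_mem_nhds (R y) (by positivity : 0 < ε / 3))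
    filter_upwards [this] with i hi
    rwa [Real.dist_eq] at hi
  filter_upwards [h1, hφ] with i hi hL x hx
  obtain ⟨y, hy, hxy⟩ := mem_iUnion₂.1 (ht hx)
  rw [Metric.mem_ball] at hxy
  have e1 := hL.dist_le_mul x y
  have e2 := hR.dist_le_mul x y
  rw [Real.dist_eq] at e1 e2
  simp only [NNReal.coe_one, one_mul] at e1 e2
  have e3 := hi y hy
  rw [abs_le] at *
  rw [abs_lt] at e3
  constructor <;> linarith

/-- data of a blow-up along an ultrafilter -/
structure BU (φ : E → ℝ) (G : GV E) (p : E) (U : Ultrafilter ℝ) (R : E → ℝ) (V : GV E) :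
    Prop where
  lim : ∀ x, Tendsto (fun i => i⁻¹ * φ (p + i • x)) (U : Filter ℝ) (𝓝 (R x))
  limμ : ∀ f : E → ℝ, Continuous f → HasCompactSupport f →
    Tendsto (fun i => ∫ x, f x ∂(bu G p i).μ) (U : Filter ℝ) (𝓝 (∫ x, f x ∂V.μ))
  cD : ClassD R
  var : VAR R V.μ univ
  stat : V.StatOn univ
  R0 : R 0 = 0
  conc : V.μ {x | R x ≠ 0} = 0

lemma lip_blow {φ : E → ℝ} (hφ : LipschitzWith 1 φ) (p : E) {i : ℝ} (hi : 0 < i) :
    LipschitzWith 1 (fun x => i⁻¹ * φ (p + i • x)) := by
  apply LipschitzWith.of_dist_le_mul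
  intro x y
  have h1 := hφ.dist_le_mul (p + i • x) (p + i • y)
  rw [dist_add_left, dist_smul₀, Real.norm_eq_abs, abs_of_pos hi] at h1
  rw [Real.dist_eq] at *
  simp only [NNReal.coe_one, one_mul] at *
  rw [← mul_sub, abs_mul, abs_of_pos (inv_pos.2 hi), inv_mul_le_iff₀ hi]
  exact h1

/-- existence of blow-ups -/
theorem exists_BU (h2 : StG2 E) (l2 : StL2 E) (hn : 1 ≤ Module.finrank ℝ E) {φ : E → ℝ}
    {G : GV E} {A : ℝ} (hL : LimObj φ G A) (hst : G.StatOn univ) {p : E} (hp : p ≠ 0)
    (hφp : φ p = 0) {M : ℝ} (hM : ∀ r : ℝ, 0 < r → dens G.μ 2 p r ≤ M) {U : Ultrafilter ℝ}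
    (hU : (U : Filter ℝ) ≤ 𝓝[>] (0 : ℝ)) : ∃ R V, BU φ G p U R V := by
  have hpos : ∀ᶠ i in (U : Filter ℝ), 0 < i := hU self_mem_nhdsWithin
  have hU0 : Tendsto (fun i : ℝ => i) (U : Filter ℝ) (𝓝 0) :=
    (tendsto_id.mono_left hU).mono_right nhdsWithin_le_nhds
  obtain ⟨V, hV1, hV2⟩ := exists_ultralimit U (fun i => (bu G p i).toPGV) (locBdd_bu hM hU) (by
    intro f hf hc
    have : ∀ i, (bu G p i).toPGV.S (fun x => f x • ContinuousLinearMap.id ℝ E)
        - ∫ x, f x ∂(bu G p i).toPGV.μ = 0 := by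
      intro i
      rw [sub_eq_zero]
      exact (bu G p i).S_one f hf hc
    simp only [this]
    exact tendsto_const_nhds)
  have hV1' : ∀ f : E → ℝ, Continuous f → HasCompactSupport f →
    Tendsto (fun i => ∫ x, f x ∂(bu G p i).μ) (U : Filter ℝ) (𝓝 (∫ x, f x ∂V.μ)) := hV1
  set R : E → ℝ := fun x => ul U (fun i => i⁻¹ * φ (p + i • x)) with hR
  have hlim : ∀ x, Tendsto (fun i => i⁻¹ * φ (p + i • x)) (U : Filter ℝ) (𝓝 (R x)) := by
    intro x
    apply tendsto_ul
    refine ⟨‖x‖, ?_⟩
    filter_upwards [hpos] with i hi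
    have h1 := (lip_blow hL.cD.lip p hi).dist_le_mul x 0
    simpa [Real.dist_eq, hφp] using h1
  have hcl := h2 (U : Filter ℝ) (fun i x => i⁻¹ * φ (p + i • x)) R (fun i => (bu G p i).μ) V.μ
    (fun i => {x | p + i • x ∈ ({0}ᶜ : Set E)}) (fun i => (bu G p i).fin) V.fin
    (by
      filter_upwards [hpos] with i hi
      exact (l2 hn G φ p i hi hL.cD).1) hlim
    (by
      intro K hK
      obtain ⟨ρ, hρ⟩ := hK.isBounded.subset_closedBall (0 : E)
      have hp' : 0 < ‖p‖ := norm_pos_iff.2 hp
      have h3 : ∀ᶠ i in (U : Filter ℝ), i * max ρ 1 < ‖p‖ := by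
        have : Tendsto (fun i : ℝ => i * max ρ 1) (U : Filter ℝ) (𝓝 (0 * max ρ 1)) :=
          hU0.mul_const _
        rw [zero_mul] at this
        exact this.eventually (gt_mem_nhds hp')
      filter_upwards [h3, hpos] with i hi hi0 x hx
      simp only [mem_ofPred_eq, mem_compl_iff, mem_singleton_iff]
      intro h0
      have h4 : ‖p‖ = i * ‖x‖ := by
        have : p = -(i • x) := eq_neg_of_add_eq_zero_left h0
        rw [this, norm_neg, norm_smul, Real.norm_eq_abs, abs_of_pos hi0]
      have h5 := hρ hx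
      rw [Metric.mem_closedBall, dist_zero_right] at h5
      have h6 : i * ‖x‖ ≤ i * max ρ 1 := by
        gcongr
        exact h5.trans (le_max_left _ _)
      linarith)
    (by
      filter_upwards [hpos] with i hi
      have := (l2 hn G φ p i hi hL.cD).2 _ hL.var
      rw [bu_pos G p hi]
      exact this) hV1'
  refine ⟨R, V, hlim, hV1', hcl.1, hcl.2, ?_, ?_, ?_⟩
  · -- stationarity
    intro X hX hc hsub
    have hXc : Continuous (dv X) := by
      have h1 : Continuous (fun x => (fderiv ℝ X x : E →L[ℝ] E)) :=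
        hX.continuous_fderiv one_ne_zero
      have h2 : Continuous fun T : E →L[ℝ] E => LinearMap.trace ℝ E (T : E →ₗ[ℝ] E) := by
        have : (fun T : E →L[ℝ] E => LinearMap.trace ℝ E (T : E →ₗ[ℝ] E))
            = fun T : E →L[ℝ] E => ∑ i, ⟪stdOrthonormalBasis ℝ E i,
                T (stdOrthonormalBasis ℝ E i)⟫ := by
          ext T
          rw [LinearMap.trace_eq_sum_inner _ (stdOrthonormalBasis ℝ E)]
          rfl
        rw [this]
        fun_prop
      exact h2.comp h1
    have hXcs : HasCompactSupport (dv X) := by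
      refine (hc.fderiv ℝ).mono' ?_
      intro x hx
      apply subset_tsupport
      intro h0
      apply hx
      simp [dv, h0]
    have h1 := hV1' (dv X) hXc hXcs
    have h2 := hV2 (fderiv ℝ X) (hX.continuous_fderiv one_ne_zero) (hc.fderiv ℝ)
    refine tendsto_nhds_unique h1 (h2.congr fun i => ?_)
    exact (bu_pos_univ hst p i X hX hc hsub).symm
  · have h1 := hlim 0
    simp only [smul_zero, add_zero, hφp, mul_zero] at h1
    exact tendsto_nhds_unique h1 tendsto_const_nhds
  · -- concentration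
    have hVfin := V.fin
    have key : ∀ k : ℕ, V.μ ({x | R x ≠ 0} ∩ Metric.closedBall 0 k) = 0 := by
      intro k
      obtain ⟨χ, hχ, hcχ, hχ1, hχ0, hχle⟩ := exists_cutoff (isCompact_closedBall (0 : E) (k : ℝ))
      have hRc : Continuous R := hcl.1.lip.continuous
      have hfc : Continuous (fun x => χ x * |R x|) := hχ.mul hRc.abs
      have hfs : HasCompactSupport (fun x => χ x * |R x|) := hcχ.mul_right
      have hlim2 := hV1' _ hfc hfs
      have hz : ∫ x, χ x * |R x| ∂V.μ = 0 := by
        -- bound by `ε * C`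
        obtain ⟨C, hC⟩ := locBdd_bu hM hU _ hcχ.isCompact
        have h3 : ∀ ε : ℝ, 0 < ε → ∫ x, χ x * |R x| ∂V.μ ≤ ε * C := by
          intro ε hε
          refine le_of_tendsto hlim2 ?_
          have hun := unif_of_pointwise (l := (U : Filter ℝ))
            (φ := fun i x => i⁻¹ * φ (p + i • x)) (R := R)
            (by filter_upwards [hpos] with i hi using lip_blow hL.cD.lip p hi) hcl.1.lip hlim
            hcχ.isCompact hε
          filter_upwards [hun, hpos, hC] with i hi hi0 hCi
          have hfin := (bu G p i).fin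
          have hae : ∀ᵐ x ∂(bu G p i).μ, φ (p + i • x) = 0 := by
            rw [bu_pos G p hi0, ae_iff]
            apply dil_null
            refine measure_mono_null ?_ hL.conc
            intro x hx
            simp only [mem_preimage, mem_ofPred_eq] at hx
            rw [smul_smul, mul_inv_cancel₀ hi0.ne', one_smul, add_sub_cancel] at hx
            exact hx
          have h4 : ∫ x, χ x * |R x| ∂(bu G p i).μ
              ≤ ∫ x in tsupport χ, ε ∂(bu G p i).μ := by
            rw [← integral_indicator hcχ.isCompact.measurableSet]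
            apply integral_mono_ae (hfc.integrable_of_hasCompactSupport hfs)
            · apply IntegrableOn.integrable_indicator _ hcχ.isCompact.measurableSet
              exact integrableOn_const hcχ.isCompact.measure_lt_top.ne
            · filter_upwards [hae] with x hx
              by_cases hxs : x ∈ tsupport χ
              · rw [indicator_of_mem hxs]
                have h5 := hi x hxs
                rw [hx, mul_zero, zero_sub, abs_neg] at h5
                calc χ x * |R x| ≤ 1 * ε := by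
                      apply mul_le_mul (hχle x) h5 (abs_nonneg _) zero_le_one
                  _ = ε := one_mul _
              · rw [indicator_of_notMem hxs, image_eq_zero_of_notMem_tsupport hxs, zero_mul]
          refine h4.trans ?_
          rw [setIntegral_const, smul_eq_mul, measureReal_def, mul_comm]
          exact mul_le_mul_of_nonneg_left hCi hε.le
        have h6 : 0 ≤ ∫ x, χ x * |R x| ∂V.μ :=
          integral_nonneg fun x => mul_nonneg (hχ0 x) (abs_nonneg _)
        refine le_antisymm ?_ h6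
        have h7 : Tendsto (fun ε : ℝ => ε * C) (𝓝[>] 0) (𝓝 (0 * C)) :=
          ((tendsto_id.mul_const C).mono_left nhdsWithin_le_nhds)
        rw [zero_mul] at h7
        refine ge_of_tendsto h7 ?_
        filter_upwards [self_mem_nhdsWithin] with ε hε using h3 ε hε
      have h8 : (fun x => χ x * |R x|) =ᵐ[V.μ] 0 :=
        (integral_eq_zero_iff_of_nonneg (fun x => mul_nonneg (hχ0 x) (abs_nonneg _))
          (hfc.integrable_of_hasCompactSupport hfs)).1 hz
      apply measure_mono_null _ (ae_iff.1 h8)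
      rintro x ⟨hx1, hx2⟩
      simp only [mem_ofPred_eq, Pi.zero_apply]
      rw [hχ1 x hx2, one_mul]
      exact abs_ne_zero.2 hx1
    have hun : {x | R x ≠ 0} ⊆ ⋃ k : ℕ, ({x | R x ≠ 0} ∩ Metric.closedBall 0 k) := by
      intro x hx
      obtain ⟨k, hk⟩ := exists_nat_ge ‖x‖
      exact mem_iUnion.2 ⟨k, hx, by simpa using hk⟩
    exact measure_mono_null hun (measure_iUnion_null key)

end Crest.Agent.R246.G873
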