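import Crest.Agent.R246.SM2_436
import Mathlib.Analysis.Calculus.InverseFunctionTheorem.ContDiff
import Mathlib.Analysis.SpecialFunctions.Trigonometric.InverseDeriv
import Mathlib.Analysis.SpecialFunctions.Trigonometric.ArctanDeriv

/-! # Row 246: second order expansion of the boosted function near `M'` (helper797, leaf N2 of 200) -/

set_option autoImplicit false
set_option linter.unusedSectionVars false
set_option maxHeartbeats 400000
noncomputable section
open MeasureTheory Set Filter Topology Metric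
open scoped RealInnerProductSpace ContDiff

namespace Crest.Agent.R246.BoostExp797

open H990 SM436

/-- quadratic vanishing along `{0} × F` -/
theorem quad_vanish {E F G : Type*} [NormedAddCommGroup E] [NormedSpace ℝ E] [NormedAddCommGroup F]
    [NormedSpace ℝ F] [NormedAddCommGroup G] [NormedSpace ℝ G] {f : E × F → G} {y0 : F}
    (hf : ContDiffAt ℝ 2 f (0, y0)) (h0 : ∀ᶠ y in 𝓝 y0, f (0, y) = 0)
    (h1 : ∀ᶠ y in 𝓝 y0, fderiv ℝ f (0, y) = 0) :
    ∃ ρ C : ℝ, 0 < ρ ∧ 0 ≤ C ∧ ∀ z y, ‖z‖ < ρ → ‖y - y0‖ < ρ → ‖f (z, y)‖ ≤ C * ‖z‖ ^ 2 := by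
  have hf1 : ContDiffAt ℝ 1 (fderiv ℝ f) (0, y0) := hf.fderiv_right (m := 1) (by norm_num)
  obtain ⟨K, t, ht, hK⟩ := hf1.exists_lipschitzOnWith
  have hd : ∀ᶠ p in 𝓝 ((0 : E), y0), DifferentiableAt ℝ f p :=
    (hf.eventually (by simp)).mono fun p hp => hp.differentiableAt (by norm_num)
  obtain ⟨ρ1, hρ1, H1⟩ := Metric.mem_nhds_iff.1 (Filter.inter_mem ht hd)
  obtain ⟨ρ2, hρ2, H2⟩ := Metric.mem_nhds_iff.1 (h0.and h1)
  refine ⟨min ρ1 ρ2, K, lt_min hρ1 hρ2, K.2, fun z y hz hy => ?_⟩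
  have hz1 : ‖z‖ < ρ1 := lt_of_lt_of_le hz (min_le_left _ _)
  have hy1 : ‖y - y0‖ < ρ1 := lt_of_lt_of_le hy (min_le_left _ _)
  have hy2 : y ∈ ball y0 ρ2 := by
    rw [mem_ball, dist_eq_norm]; exact lt_of_lt_of_le hy (min_le_right _ _)
  obtain ⟨e0, e1⟩ := H2 hy2
  have hmem : ∀ z' : E, ‖z'‖ ≤ ‖z‖ → (z', y) ∈ ball ((0 : E), y0) ρ1 := by
    intro z' hz'
    rw [mem_ball, Prod.dist_eq, max_lt_iff, dist_zero_right, dist_eq_norm]
    exact ⟨hz'.trans_lt hz1, hy1⟩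
  have hder : ∀ z' ∈ closedBall (0 : E) ‖z‖, HasFDerivWithinAt (fun w : E => f (w, y))
      ((fderiv ℝ f (z', y)).comp (ContinuousLinearMap.inl ℝ E F)) (closedBall (0 : E) ‖z‖) z' := by
    intro z' hz'
    rw [mem_closedBall, dist_zero_right] at hz'
    have h3 : DifferentiableAt ℝ f (z', y) := (H1 (hmem z' hz')).2
    have h4 : HasFDerivAt (fun w : E => (w, y)) (ContinuousLinearMap.inl ℝ E F) z' :=
      hasFDerivAt_prodMk_left z' y
    exact (h3.hasFDerivAt.comp z' h4).hasFDerivWithinAt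
  have hbd : ∀ z' ∈ closedBall (0 : E) ‖z‖,
      ‖(fderiv ℝ f (z', y)).comp (ContinuousLinearMap.inl ℝ E F)‖ ≤ K * ‖z‖ := by
    intro z' hz'
    rw [mem_closedBall, dist_zero_right] at hz'
    have h3 : ‖fderiv ℝ f (z', y)‖ ≤ K * ‖z‖ := by
      have h5 := hK.norm_sub_le (H1 (hmem z' hz')).1 (H1 (hmem 0 (by simp))).1
      rw [e1, sub_zero] at h5
      refine h5.trans (mul_le_mul_of_nonneg_left ?_ K.2)
      rw [Prod.norm_def]
      simp only [Prod.fst_sub, Prod.snd_sub, sub_zero, sub_self, norm_zero]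
      rw [max_eq_left (norm_nonneg _)]
      exact hz'
    refine (ContinuousLinearMap.opNorm_comp_le _ _).trans ?_
    calc ‖fderiv ℝ f (z', y)‖ * ‖ContinuousLinearMap.inl ℝ E F‖ ≤ (K * ‖z‖) * 1 :=
          mul_le_mul h3 (ContinuousLinearMap.norm_inl_le_one ℝ E F) (norm_nonneg _) (by positivity)
      _ = K * ‖z‖ := mul_one _
  have h6 := (convex_closedBall (0 : E) ‖z‖).norm_image_sub_le_of_norm_hasFDerivWithin_le
    (𝕜 := ℝ) hder hbd (x := 0) (y := z) (by simp) (by simp)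
  rw [e0, sub_zero, sub_zero] at h6
  calc ‖f (z, y)‖ ≤ K * ‖z‖ * ‖z‖ := h6
    _ = K * ‖z‖ ^ 2 := by ring

variable {E : Type*} [NormedAddCommGroup E] [InnerProductSpace ℝ E]

theorem contDiffAt_gam {z : E} (hz : ‖z‖ < 1) : ContDiffAt ℝ ∞ (gam : E → ℝ) z := by
  have h1 : ContDiffAt ℝ ∞ (fun z : E => 1 - ‖z‖ ^ 2) z :=
    contDiffAt_const.sub (contDiff_norm_sq ℝ).contDiffAt
  have h2 := one_sub_pos hz
  have h3 : ContDiffAt ℝ ∞ (fun z : E => Real.sqrt (1 - ‖z‖ ^ 2)) z := h1.sqrt h2.ne'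
  exact contDiffAt_const.div h3 (Real.sqrt_pos.2 h2).ne'

theorem contDiffAt_kap {z : E} (hz : ‖z‖ < 1) : ContDiffAt ℝ ∞ (kap : E → ℝ) z := by
  have h1 := contDiffAt_gam hz
  have h2 := gam_pos hz
  exact (h1.pow 2).div (contDiffAt_const.add h1) (by positivity)

theorem gam_zero : gam (0 : E) = 1 := by simp [gam]

/-- the scalar coefficient of the boost -/
def cc (φ : E → ℝ) (p : E × E) : ℝ := kap p.1 * ⟪p.1, p.2⟫ + gam p.1 * φ p.2

theorem contDiffAt_cc {φ : E → ℝ} {p : E × E} (hz : ‖p.1‖ < 1) (hφ : ContDiffAt ℝ ∞ φ p.2) :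
    ContDiffAt ℝ ∞ (cc φ) p := by
  have h1 : ContDiffAt ℝ ∞ (fun p : E × E => kap p.1) p := (contDiffAt_kap hz).comp p contDiffAt_fst
  have h2 : ContDiffAt ℝ ∞ (fun p : E × E => gam p.1) p := (contDiffAt_gam hz).comp p contDiffAt_fst
  have h3 : ContDiffAt ℝ ∞ (fun p : E × E => φ p.2) p := hφ.comp p contDiffAt_snd
  have h4 : ContDiffAt ℝ ∞ (fun p : E × E => ⟪p.1, p.2⟫) p := contDiffAt_fst.inner ℝ contDiffAt_snd
  exact (h1.mul h4).add (h2.mul h3)

/-- the graph map in both variables -/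
def Th (φ : E → ℝ) (p : E × E) : E × E := (p.1, bT φ p.1 p.2)

theorem Th_eq (φ : E → ℝ) : Th φ = fun p : E × E => (p.1, p.2 + cc φ p • p.1) := rfl

theorem contDiffAt_Th {φ : E → ℝ} {p : E × E} (hz : ‖p.1‖ < 1) (hφ : ContDiffAt ℝ ∞ φ p.2) :
    ContDiffAt ℝ ∞ (Th φ) p := by
  rw [Th_eq]
  exact contDiffAt_fst.prodMk (contDiffAt_snd.add ((contDiffAt_cc hz hφ).smul contDiffAt_fst))

/-- the derivative of `Th` at `(0, y)` as an equivalence -/
def Le (c : ℝ) : (E × E) ≃L[ℝ] (E × E) :=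
  ContinuousLinearEquiv.equivOfInverse
    ((ContinuousLinearMap.fst ℝ E E).prod
      (ContinuousLinearMap.snd ℝ E E + c • ContinuousLinearMap.fst ℝ E E))
    ((ContinuousLinearMap.fst ℝ E E).prod
      (ContinuousLinearMap.snd ℝ E E - c • ContinuousLinearMap.fst ℝ E E))
    (fun p => by ext <;> simp) (fun p => by ext <;> simp)

theorem hasFDerivAt_Th {φ : E → ℝ} {y : E} (hφ : ContDiffAt ℝ ∞ φ y) :
    HasFDerivAt (Th φ) (Le (E := E) (φ y) : E × E →L[ℝ] E × E) (0, y) := by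
  have h1 : HasFDerivAt (cc φ) (fderiv ℝ (cc φ) (0, y)) ((0 : E), y) :=
    ((contDiffAt_cc (p := ((0 : E), y)) (by simp) hφ).differentiableAt (by simp)).hasFDerivAt
  have hc : cc φ ((0 : E), y) = φ y := by simp [cc, gam_zero]
  have h2 := h1.smul (hasFDerivAt_fst (𝕜 := ℝ) (p := ((0 : E), y)))
  have h3 := (hasFDerivAt_fst (𝕜 := ℝ) (p := ((0 : E), y))).prodMk
    ((hasFDerivAt_snd (𝕜 := ℝ) (p := ((0 : E), y))).add h2)
  rw [Th_eq]
  refine h3.congr_fderiv ?_
  ext p <;> simp [Le, hc]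

variable [FiniteDimensional ℝ E]

/-- the inverse graph map is smooth -/
theorem contDiffAt_bS {φ : E → ℝ} (hl : LipschitzWith 1 φ) {y : E} (hφ : ContDiffAt ℝ ∞ φ y) :
    ContDiffAt ℝ ∞ (fun p : E × E => bS φ p.1 p.2) (0, y) := by
  have h1 := contDiffAt_Th (p := ((0 : E), y)) (by simp) hφ
  have h2 := hasFDerivAt_Th hφ
  have h3 := h1.to_localInverse h2 (by simp)
  have h4 : Th φ ((0 : E), y) = (0, y) := by simp [Th, bT, LX]
  rw [h4] at h3
  have h5 : ∀ᶠ p in 𝓝 ((0 : E), y), (fun q : E × E => (q.1, bS φ q.1 q.2)) (Th φ p) = p := by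
    have hop : ∀ᶠ p : E × E in 𝓝 ((0 : E), y), ‖p.1‖ < 1 := by
      have : Continuous fun p : E × E => ‖p.1‖ := by fun_prop
      exact this.continuousAt.eventually_lt continuousAt_const (by simp)
    filter_upwards [hop] with p hp
    simp only [Th]
    rw [bS_bT hl hp]
  have h6 := (h1.hasStrictFDerivAt' h2 (by simp)).localInverse_unique
    (g := fun q : E × E => (q.1, bS φ q.1 q.2)) h5
  rw [h4] at h6
  have h7 : ContDiffAt ℝ ∞ (fun q : E × E => (q.1, bS φ q.1 q.2)) (0, y) :=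
    h3.congr_of_eventuallyEq h6
  exact contDiffAt_snd.comp ((0 : E), y) h7

theorem bS_zero {φ : E → ℝ} (hl : LipschitzWith 1 φ) (y : E) : bS φ 0 y = y := by
  have h : bT φ (0 : E) y = y := by simp [bT, LX]
  have := bS_bT hl (z := (0 : E)) (by simp) y
  rwa [h] at this

theorem boost_zero {φ : E → ℝ} (hl : LipschitzWith 1 φ) (y : E) : boost φ 0 y = φ y := by
  rw [boost_of_lt (by simp), bS_zero hl]
  simp [LB, gam_zero]

/-- the boosted function is jointly smooth -/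
theorem contDiffAt_boost {φ : E → ℝ} (hl : LipschitzWith 1 φ) {y : E} (hφ : ContDiffAt ℝ ∞ φ y) :
    ContDiffAt ℝ ∞ (fun p : E × E => boost φ p.1 p.2) (0, y) := by
  have hS := contDiffAt_bS hl hφ
  have h1 : ContDiffAt ℝ ∞ (fun p : E × E => φ (bS φ p.1 p.2)) (0, y) := by
    have h2 : ContDiffAt ℝ ∞ φ (bS φ ((0 : E), y).1 ((0 : E), y).2) := by
      simp only [bS_zero hl]; exact hφ
    exact h2.comp ((0 : E), y) hS
  have h3 : ContDiffAt ℝ ∞ (fun p : E × E => gam p.1) ((0 : E), y) :=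
    (contDiffAt_gam (by simp)).comp ((0 : E), y) contDiffAt_fst
  have h4 : ContDiffAt ℝ ∞ (fun p : E × E => gam p.1 * (φ (bS φ p.1 p.2) + ⟪p.1, bS φ p.1 p.2⟫))
      ((0 : E), y) := h3.mul (h1.add (contDiffAt_fst.inner ℝ hS))
  refine h4.congr_of_eventuallyEq ?_
  have hop : ∀ᶠ p : E × E in 𝓝 ((0 : E), y), ‖p.1‖ < 1 := by
    have : Continuous fun p : E × E => ‖p.1‖ := by fun_prop
    exact this.continuousAt.eventually_lt continuousAt_const (by simp)
  filter_upwards [hop] with p hp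
  rw [boost_of_lt hp]; rfl

/-- derivative of the boost in the direction of the parameter: `⟪ζ, ft φ y⟫` -/
theorem fderiv_boost {φ : E → ℝ} (hl : LipschitzWith 1 φ) {y : E} (hφ : ContDiffAt ℝ ∞ φ y)
    (ζ v : E) : fderiv ℝ (fun p : E × E => boost φ p.1 p.2) (0, y) (ζ, v)
      = ⟪ζ, ft φ y⟫ + ⟪gradient φ y, v⟫ := by
  set B : E × E → ℝ := fun p => boost φ p.1 p.2 with hB
  have hBd : HasFDerivAt B (fderiv ℝ B (0, y)) ((0 : E), y) :=
    ((contDiffAt_boost hl hφ).differentiableAt (by simp)).hasFDerivAt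
  have hφd : HasFDerivAt φ (fderiv ℝ φ y) y := (hφ.differentiableAt (by simp)).hasFDerivAt
  -- the function `p ↦ LB p.1 p.2 (φ p.2) = B (Th φ p)`
  have h4 : Th φ ((0 : E), y) = (0, y) := by simp [Th, bT, LX]
  have h1 : HasFDerivAt (fun p => B (Th φ p)) ((fderiv ℝ B (0, y)).comp
      (Le (E := E) (φ y) : E × E →L[ℝ] E × E)) ((0 : E), y) := by
    have h5 : HasFDerivAt B (fderiv ℝ B (0, y)) (Th φ ((0 : E), y)) := by rw [h4]; exact hBd
    exact h5.comp ((0 : E), y) (hasFDerivAt_Th hφ)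
  have h2 : (fun p => B (Th φ p)) =ᶠ[𝓝 ((0 : E), y)] fun p : E × E => gam p.1 * (φ p.2 + ⟪p.1, p.2⟫) := by
    have hop : ∀ᶠ p : E × E in 𝓝 ((0 : E), y), ‖p.1‖ < 1 := by
      have : Continuous fun p : E × E => ‖p.1‖ := by fun_prop
      exact this.continuousAt.eventually_lt continuousAt_const (by simp)
    filter_upwards [hop] with p hp
    exact boost_bT hl hp p.2
  have hg : HasFDerivAt (gam : E → ℝ) (0 : E →L[ℝ] ℝ) (0 : E) := by
    -- `gam = 1/√(1-‖z‖²)` has zero derivative at `0`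
    have hn : HasFDerivAt (fun z : E => 1 - ‖z‖ ^ 2) (0 : E →L[ℝ] ℝ) (0 : E) := by
      have h6 := (hasStrictFDerivAt_norm_sq (0 : E)).hasFDerivAt
      have h7 := h6.const_sub 1
      refine h7.congr_fderiv ?_
      ext v; simp
    have h8 := (hasDerivAt_inv (x := Real.sqrt (1 - ‖(0 : E)‖ ^ 2)) (by simp)).comp_hasFDerivAt
      (0 : E) (hn.sqrt (by simp))
    have h9 : (gam : E → ℝ) = (fun y => y⁻¹) ∘ fun z => Real.sqrt (1 - ‖z‖ ^ 2) := by
      funext z; simp [gam]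
    rw [h9]
    refine h8.congr_fderiv ?_
    simp
  have hg2 : HasFDerivAt (fun p : E × E => gam p.1) (0 : E × E →L[ℝ] ℝ) ((0 : E), y) := by
    have := HasFDerivAt.comp ((0 : E), y) (f := fun p : E × E => p.1) (g := (gam : E → ℝ)) hg
      (hasFDerivAt_fst (𝕜 := ℝ) (p := ((0 : E), y)))
    refine this.congr_fderiv ?_
    simp
  have h3 : HasFDerivAt (fun p : E × E => φ p.2 + ⟪p.1, p.2⟫)
      ((fderiv ℝ φ y).comp (ContinuousLinearMap.snd ℝ E E) +
        (fderivInnerCLM ℝ ((0 : E), y)).comp ((ContinuousLinearMap.fst ℝ E E).prod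
          (ContinuousLinearMap.snd ℝ E E))) ((0 : E), y) := by
    have ha : HasFDerivAt (fun p : E × E => φ p.2) ((fderiv ℝ φ y).comp
        (ContinuousLinearMap.snd ℝ E E)) ((0 : E), y) :=
      HasFDerivAt.comp ((0 : E), y) (f := fun p : E × E => p.2) (g := φ) hφd
        (hasFDerivAt_snd (𝕜 := ℝ) (p := ((0 : E), y)))
    exact ha.add ((hasFDerivAt_fst (𝕜 := ℝ) (p := ((0 : E), y))).inner ℝ
      (hasFDerivAt_snd (𝕜 := ℝ) (p := ((0 : E), y))))
  have h5 := (hg2.mul h3).congr_of_eventuallyEq h2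
  have h6 := h1.unique h5
  have h7 := congrArg (fun L : E × E →L[ℝ] ℝ => L (ζ, v - φ y • ζ)) h6
  simp only [ContinuousLinearMap.comp_apply] at h7
  have h8 : (Le (E := E) (φ y) : E × E →L[ℝ] E × E) (ζ, v - φ y • ζ) = (ζ, v) := by
    simp [Le]
  rw [h8] at h7
  rw [h7]
  simp only [add_apply, ContinuousLinearMap.comp_apply, ContinuousLinearMap.prod_apply,
    ContinuousLinearMap.coe_fst', ContinuousLinearMap.coe_snd', fderivInnerCLM_apply, gam_zero,
    smul_zero, add_zero, one_smul, inner_zero_left, map_sub, map_smul, smul_eq_mul]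
  rw [ft, inner_sub_right, inner_smul_right, ← SM436.inner_gradient, ← SM436.inner_gradient,
    real_inner_comm ζ (gradient φ y)]
  ring

end Crest.Agent.R246.BoostExp797
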