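import Crest.Agent.R246.BoostExp0_797

/-! # Row 246: second order expansion of the boosted function near `M'` (helper797, leaf N2 of 200) -/

set_option autoImplicit false
set_option linter.unusedSectionVars false
set_option maxHeartbeats 400000
noncomputable section
open MeasureTheory Set Filter Topology Metric
open scoped RealInnerProductSpace ContDiff

namespace Crest.Agent.R246.BoostExp797

open H990 SM436

variable {E : Type*} [NormedAddCommGroup E] [InnerProductSpace ℝ E] [FiniteDimensional ℝ E]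

/-- the error of the first order expansion -/
def H (φ : E → ℝ) (z x : E) : ℝ :=
  Real.arcsin (boost φ z x * ‖x‖⁻¹) - Real.arctan (ta φ x) - ⟪z, pp φ x⟫

/-- the same, jointly in both variables -/
def HH (φ : E → ℝ) (p : E × E) : ℝ := H φ p.1 p.2

variable {φ : E → ℝ} {b : ℝ}

theorem cd_rr (hT : Tube φ b) {y : E} (hy : y ∈ TT φ b) : ContDiffAt ℝ ∞ (rr φ) y := by
  have hne : ‖y‖ ^ 2 - φ y ^ 2 ≠ 0 := by
    rw [← hT.rr_sq]; exact pow_ne_zero _ hy.1.ne'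
  exact (((contDiff_norm_sq ℝ).contDiffAt).sub ((hT.good hy).contDiffAt.pow 2)).sqrt hne

theorem cd_ft (hT : Tube φ b) {y : E} (hy : y ∈ TT φ b) : ContDiffAt ℝ ∞ (ft φ) y :=
  contDiffAt_id.sub ((hT.good hy).contDiffAt.smul (hT.good hy).contDiffAt_gradient)

theorem cd_pp (hT : Tube φ b) {y : E} (hy : y ∈ TT φ b) : ContDiffAt ℝ ∞ (pp φ) y :=
  ((cd_rr hT hy).inv hy.1.ne').smul (cd_ft hT hy)

theorem cd_ta (hT : Tube φ b) {y : E} (hy : y ∈ TT φ b) : ContDiffAt ℝ ∞ (ta φ) y :=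
  (hT.good hy).contDiffAt.div (cd_rr hT hy) hy.1.ne'

theorem abs_div_lt (hT : Tube φ b) {y : E} (hy : y ≠ 0) : |φ y * ‖y‖⁻¹| < 1 := by
  have h1 := norm_pos_iff.2 hy
  rw [abs_mul, abs_inv, abs_norm, ← div_eq_mul_inv, div_lt_one h1]
  exact hT.lt y hy

theorem contDiffAt_HH (hT : Tube φ b) {y : E} (hy : y ∈ TT φ b) :
    ContDiffAt ℝ ∞ (HH φ) (0, y) := by
  have hy0 := hT.ne_zero hy
  have h1 := contDiffAt_boost hT.lip (hT.good hy).contDiffAt
  have h2 : ContDiffAt ℝ ∞ (fun p : E × E => ‖p.2‖⁻¹) (0, y) := by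
    have h3 : ContDiffAt ℝ ∞ (fun x : E => ‖x‖⁻¹) y :=
      (contDiffAt_norm ℝ hy0).inv (norm_ne_zero_iff.2 hy0)
    exact ContDiffAt.comp ((0 : E), y) (f := fun p : E × E => p.2) (g := fun x : E => ‖x‖⁻¹) h3
      contDiffAt_snd
  have h3 := abs_lt.1 (abs_div_lt hT hy0)
  have h4 : ContDiffAt ℝ ∞ (fun p : E × E => Real.arcsin (boost φ p.1 p.2 * ‖p.2‖⁻¹)) (0, y) := by
    have h5 : ContDiffAt ℝ ∞ Real.arcsin
        ((fun p : E × E => boost φ p.1 p.2 * ‖p.2‖⁻¹) ((0 : E), y)) := by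
      simp only [boost_zero hT.lip]
      exact Real.contDiffAt_arcsin h3.1.ne' h3.2.ne
    exact ContDiffAt.comp ((0 : E), y) (f := fun p : E × E => boost φ p.1 p.2 * ‖p.2‖⁻¹)
      (g := Real.arcsin) h5 (h1.mul h2)
  have h5 : ContDiffAt ℝ ∞ (fun p : E × E => Real.arctan (ta φ p.2)) (0, y) := by
    have h6 : ContDiffAt ℝ ∞ (fun x => Real.arctan (ta φ x)) y := (cd_ta hT hy).arctan
    exact ContDiffAt.comp ((0 : E), y) (f := fun p : E × E => p.2)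
      (g := fun x : E => Real.arctan (ta φ x)) h6 contDiffAt_snd
  have h6 : ContDiffAt ℝ ∞ (fun p : E × E => ⟪p.1, pp φ p.2⟫) (0, y) := by
    have h7 : ContDiffAt ℝ ∞ (fun p : E × E => pp φ p.2) ((0 : E), y) :=
      ContDiffAt.comp ((0 : E), y) (f := fun p : E × E => p.2) (g := pp φ) (cd_pp hT hy)
        contDiffAt_snd
    exact contDiffAt_fst.inner ℝ h7
  exact (h4.sub h5).sub h6

theorem HH_zero (hT : Tube φ b) {y : E} (hy : y ≠ 0) : HH φ (0, y) = 0 := by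
  have h1 := norm_pos_iff.2 hy
  have h2 := hT.rr_pos hy
  have h3 := hT.rr_sq y
  simp only [HH, H, boost_zero hT.lip, inner_zero_left, sub_zero]
  rw [Real.arctan_eq_arcsin]
  have h4 : 1 + ta φ y ^ 2 = (‖y‖ / rr φ y) ^ 2 := by
    rw [ta]
    field_simp
    linarith
  rw [h4, Real.sqrt_sq (by positivity), ta, div_div_div_cancel_right₀ h2.ne', div_eq_mul_inv,
    sub_self]

theorem HH_zero_ev (hT : Tube φ b) {y : E} (hy : y ∈ TT φ b) :
    ∀ᶠ y' in 𝓝 y, HH φ (0, y') = 0 := by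
  filter_upwards [isOpen_ne.mem_nhds (hT.ne_zero hy)] with y' hy'
  exact HH_zero hT hy'

theorem fderiv_HH (hT : Tube φ b) {y : E} (hy : y ∈ TT φ b) : fderiv ℝ (HH φ) (0, y) = 0 := by
  have hy0 := hT.ne_zero hy
  have hH : HasFDerivAt (HH φ) (fderiv ℝ (HH φ) (0, y)) ((0 : E), y) :=
    ((contDiffAt_HH hT hy).differentiableAt (by simp)).hasFDerivAt
  -- direction `(0, v)`
  have hv : ∀ v : E, fderiv ℝ (HH φ) (0, y) (0, v) = 0 := by
    intro v
    have h1 : HasFDerivAt (fun w : E => HH φ (0, w)) ((fderiv ℝ (HH φ) (0, y)).comp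
        (ContinuousLinearMap.inr ℝ E E)) y := hH.comp y (hasFDerivAt_prodMk_right (0 : E) y)
    have h2 : HasFDerivAt (fun w : E => HH φ (0, w)) (0 : E →L[ℝ] ℝ) y :=
      (hasFDerivAt_const (0 : ℝ) y).congr_of_eventuallyEq (HH_zero_ev hT hy)
    have h3 := congrArg (fun L : E →L[ℝ] ℝ => L v) (h1.unique h2)
    simpa using h3
  -- direction `(ζ, 0)`
  have hz : ∀ ζ : E, fderiv ℝ (HH φ) (0, y) (ζ, 0) = 0 := by
    intro ζ
    have h1 : HasFDerivAt (fun w : E => HH φ (w, y)) ((fderiv ℝ (HH φ) (0, y)).comp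
        (ContinuousLinearMap.inl ℝ E E)) 0 := 
      HasFDerivAt.comp (0 : E) (f := fun w : E => (w, y)) (g := HH φ) hH
        (hasFDerivAt_prodMk_left (0 : E) y)
    have hB : HasFDerivAt (fun w : E => boost φ w y)
        ((fderiv ℝ (fun p : E × E => boost φ p.1 p.2) (0, y)).comp
          (ContinuousLinearMap.inl ℝ E E)) 0 :=
by
      have h0 : HasFDerivAt (fun p : E × E => boost φ p.1 p.2)
          (fderiv ℝ (fun p : E × E => boost φ p.1 p.2) (0, y)) ((0 : E), y) :=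
        ((contDiffAt_boost hT.lip (hT.good hy).contDiffAt).differentiableAt (by simp)).hasFDerivAt
      have h1 : HasFDerivAt (fun w : E => (w, y)) (ContinuousLinearMap.inl ℝ E E) (0 : E) :=
        hasFDerivAt_prodMk_left (0 : E) y
      exact HasFDerivAt.comp (0 : E) (f := fun w : E => (w, y))
        (g := fun p : E × E => boost φ p.1 p.2) h0 h1
    have h3 := abs_lt.1 (abs_div_lt hT hy0)
    have ha : HasDerivAt Real.arcsin (1 / Real.sqrt (1 - (φ y * ‖y‖⁻¹) ^ 2))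
        (boost φ 0 y * ‖y‖⁻¹) := by
      rw [boost_zero hT.lip]
      exact Real.hasDerivAt_arcsin h3.1.ne' h3.2.ne
    have h4 := ha.comp_hasFDerivAt (0 : E) (hB.mul_const (‖y‖⁻¹))
    have h5 : HasFDerivAt (fun w : E => ⟪w, pp φ y⟫) (innerSL ℝ (pp φ y)) (0 : E) := by
      have := (innerSL ℝ (pp φ y)).hasFDerivAt (x := (0 : E))
      refine this.congr_of_eventuallyEq (Eventually.of_forall fun w => ?_)
      simp [real_inner_comm]
    have h6 := (h4.sub_const (Real.arctan (ta φ y))).sub h5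
    have h7 := congrArg (fun L : E →L[ℝ] ℝ => L ζ) (h1.unique h6)
    simp only [ContinuousLinearMap.comp_apply, ContinuousLinearMap.inl_apply,
      sub_apply, smul_apply, smul_eq_mul,
      innerSL_apply_apply] at h7
    rw [h7, fderiv_boost hT.lip (hT.good hy).contDiffAt, inner_zero_right, add_zero]
    have h8 := norm_pos_iff.2 hy0
    have h9 := hT.rr_pos hy0
    have h10 : 1 - (φ y * ‖y‖⁻¹) ^ 2 = (rr φ y / ‖y‖) ^ 2 := by
      rw [div_pow, hT.rr_sq]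
      field_simp
    rw [h10, Real.sqrt_sq (by positivity), pp, real_inner_smul_left, real_inner_comm]
    field_simp
    ring
  refine ContinuousLinearMap.ext fun p => ?_
  have h1 : p = (p.1, 0) + (0, p.2) := by simp
  rw [h1, map_add, hz, hv]
  simp

theorem fderiv_HH_ev (hT : Tube φ b) {y : E} (hy : y ∈ TT φ b) :
    ∀ᶠ y' in 𝓝 y, fderiv ℝ (HH φ) (0, y') = 0 := by
  filter_upwards [hT.isOpen_TT.mem_nhds hy] with y' hy'
  exact fderiv_HH hT hy'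

/-- the derivative of `HH` in the second variable -/
def PP (φ : E → ℝ) (p : E × E) : E →L[ℝ] ℝ :=
  (fderiv ℝ (HH φ) p).comp (ContinuousLinearMap.inr ℝ E E)

theorem contDiffAt_fderiv_HH (hT : Tube φ b) {y : E} (hy : y ∈ TT φ b) :
    ContDiffAt ℝ ∞ (fderiv ℝ (HH φ)) (0, y) :=
  (contDiffAt_HH hT hy).fderiv_right (m := ∞) (by simp)

theorem contDiffAt_PP (hT : Tube φ b) {y : E} (hy : y ∈ TT φ b) :
    ContDiffAt ℝ ∞ (PP φ) (0, y) :=
  (contDiffAt_fderiv_HH hT hy).clm_comp contDiffAt_const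

theorem fderiv_PP (hT : Tube φ b) {y : E} (hy : y ∈ TT φ b) : fderiv ℝ (PP φ) (0, y) = 0 := by
  have hs : IsSymmSndFDerivAt ℝ (HH φ) ((0 : E), y) :=
    (contDiffAt_HH hT hy).isSymmSndFDerivAt (by
      rw [minSmoothness_of_isRCLikeNormedField]
      exact (WithTop.coe_le_coe.2 le_top : ((2 : ℕ∞) : WithTop ℕ∞) ≤ ((⊤ : ℕ∞) : WithTop ℕ∞)))
  have h2 : HasFDerivAt (fderiv ℝ (HH φ)) (fderiv ℝ (fderiv ℝ (HH φ)) (0, y)) ((0 : E), y) :=
    ((contDiffAt_fderiv_HH hT hy).differentiableAt (by simp)).hasFDerivAt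
  -- direction `(0, v)`
  have hv : ∀ v : E, fderiv ℝ (fderiv ℝ (HH φ)) (0, y) (0, v) = 0 := by
    intro v
    have h3 : HasFDerivAt (fun w : E => fderiv ℝ (HH φ) (0, w))
        ((fderiv ℝ (fderiv ℝ (HH φ)) (0, y)).comp (ContinuousLinearMap.inr ℝ E E)) y :=
by
      have h0 : HasFDerivAt (fun w : E => ((0 : E), w)) (ContinuousLinearMap.inr ℝ E E) y :=
        hasFDerivAt_prodMk_right (0 : E) y
      exact HasFDerivAt.comp y (f := fun w : E => ((0 : E), w)) (g := fderiv ℝ (HH φ)) h2 h0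
    have h4 : HasFDerivAt (fun w : E => fderiv ℝ (HH φ) (0, w)) (0 : E →L[ℝ] (E × E →L[ℝ] ℝ)) y :=
      (hasFDerivAt_const (0 : E × E →L[ℝ] ℝ) y).congr_of_eventuallyEq (fderiv_HH_ev hT hy)
    have h5 := congrArg (fun L : E →L[ℝ] (E × E →L[ℝ] ℝ) => L v) (h3.unique h4)
    simpa using h5
  have h3 : HasFDerivAt (PP φ) (((ContinuousLinearMap.compL ℝ E (E × E) ℝ).flip
      (ContinuousLinearMap.inr ℝ E E)).comp (fderiv ℝ (fderiv ℝ (HH φ)) (0, y))) ((0 : E), y) :=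
    ((ContinuousLinearMap.compL ℝ E (E × E) ℝ).flip
      (ContinuousLinearMap.inr ℝ E E)).hasFDerivAt.comp ((0 : E), y) h2
  rw [h3.fderiv]
  refine ContinuousLinearMap.ext fun q => ContinuousLinearMap.ext fun v => ?_
  simp only [ContinuousLinearMap.comp_apply, ContinuousLinearMap.flip_apply,
    ContinuousLinearMap.compL_apply, ContinuousLinearMap.inr_apply, zero_apply]
  rw [hs q (0, v), hv]
  rfl

theorem fderiv_H {z y : E} (h : DifferentiableAt ℝ (HH φ) (z, y)) :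
    fderiv ℝ (H φ z) y = PP φ (z, y) := by
  have h0 : HasFDerivAt (fun w : E => (z, w)) (ContinuousLinearMap.inr ℝ E E) y :=
    hasFDerivAt_prodMk_right z y
  have h1 := HasFDerivAt.comp y (f := fun w : E => (z, w)) (g := HH φ) h.hasFDerivAt h0
  exact h1.fderiv

/-- local version of the expansion -/
theorem local_expand (hT : Tube φ b) {y0 : E} (hy0 : y0 ∈ TT φ b) :
    ∃ ρ C : ℝ, 0 < ρ ∧ 0 ≤ C ∧ ∀ z : E, ‖z‖ < ρ → ∀ y : E, ‖y - y0‖ < ρ →
      ContDiffAt ℝ 3 (boost φ z) y ∧ |boost φ z y| < ‖y‖ ∧ |H φ z y| ≤ C * ‖z‖ ^ 2 ∧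
        ‖fderiv ℝ (H φ z) y‖ ≤ C * ‖z‖ ^ 2 := by
  have hle : (2 : WithTop ℕ∞) ≤ ∞ :=
    (WithTop.coe_le_coe.2 le_top : ((2 : ℕ∞) : WithTop ℕ∞) ≤ ((⊤ : ℕ∞) : WithTop ℕ∞))
  have hH2 : ContDiffAt ℝ 2 (HH φ) (0, y0) := (contDiffAt_HH hT hy0).of_le hle
  have hP2 : ContDiffAt ℝ 2 (PP φ) (0, y0) := (contDiffAt_PP hT hy0).of_le hle
  obtain ⟨ρ1, C1, hρ1, hC1, H1⟩ := quad_vanish hH2 (HH_zero_ev hT hy0) (fderiv_HH_ev hT hy0)
  have hP0 : ∀ᶠ y in 𝓝 y0, PP φ (0, y) = 0 := by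
    filter_upwards [fderiv_HH_ev hT hy0] with y hy
    simp [PP, hy]
  have hP1 : ∀ᶠ y in 𝓝 y0, fderiv ℝ (PP φ) (0, y) = 0 := by
    filter_upwards [hT.isOpen_TT.mem_nhds hy0] with y hy
    exact fderiv_PP hT hy
  obtain ⟨ρ2, C2, hρ2, hC2, H2⟩ := quad_vanish hP2 hP0 hP1
  have hd : ∀ᶠ p in 𝓝 ((0 : E), y0), DifferentiableAt ℝ (HH φ) p :=
    (hH2.eventually (by simp)).mono
      fun p hp => hp.differentiableAt (by norm_num)
  have hcb : ContDiffAt ℝ 3 (fun p : E × E => boost φ p.1 p.2) ((0 : E), y0) :=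
    (contDiffAt_boost hT.lip (hT.good hy0).contDiffAt).of_le
      (WithTop.coe_le_coe.2 le_top : ((3 : ℕ∞) : WithTop ℕ∞) ≤ ((⊤ : ℕ∞) : WithTop ℕ∞))
  have hb3 : ∀ᶠ p in 𝓝 ((0 : E), y0), ContDiffAt ℝ 3 (fun p : E × E => boost φ p.1 p.2) p :=
    hcb.eventually (by norm_num)
  have hb4 : ∀ᶠ p : E × E in 𝓝 ((0 : E), y0), |boost φ p.1 p.2| < ‖p.2‖ := by
    refine hcb.continuousAt.abs.eventually_lt (continuous_snd.norm.continuousAt) ?_
    simp only [boost_zero hT.lip]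
    exact hT.lt y0 (hT.ne_zero hy0)
  obtain ⟨ρ3, hρ3, H3⟩ := Metric.mem_nhds_iff.1 (hd.and (hb3.and hb4))
  refine ⟨min ρ1 (min ρ2 ρ3), max C1 C2, lt_min hρ1 (lt_min hρ2 hρ3), le_max_of_le_left hC1,
    fun z hz y hy => ?_⟩
  simp only [lt_min_iff] at hz hy
  have hmem : (z, y) ∈ ball ((0 : E), y0) ρ3 := by
    rw [mem_ball, Prod.dist_eq, max_lt_iff, dist_zero_right, dist_eq_norm]
    exact ⟨hz.2.2, hy.2.2⟩
  obtain ⟨e1, e2, e3⟩ := H3 hmem
  have hz2 : 0 ≤ ‖z‖ ^ 2 := by positivity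
  refine ⟨?_, e3, ?_, ?_⟩
  · exact ContDiffAt.comp y (f := fun w : E => (z, w)) (g := fun p : E × E => boost φ p.1 p.2) e2
      (contDiffAt_const.prodMk contDiffAt_id)
  · have h1 := H1 z y hz.1 hy.1
    rw [Real.norm_eq_abs] at h1
    exact h1.trans (mul_le_mul_of_nonneg_right (le_max_left _ _) hz2)
  · rw [fderiv_H e1]
    exact (H2 z y hz.2.1 hy.2.1).trans (mul_le_mul_of_nonneg_right (le_max_right _ _) hz2)

/-- **second order expansion of the boosted function near `M'`** -/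
theorem boost_expand (hT : Tube φ b) {c : ℝ} (hc : c < b) :
    ∃ d0 C : ℝ, 0 < d0 ∧ d0 < 1 ∧ 0 ≤ C ∧ ∀ z : E, ‖z‖ ≤ d0 → ∀ y : E, ‖y‖ = 1 → |ta φ y| ≤ c →
      ContDiffAt ℝ 3 (boost φ z) y ∧ |boost φ z y| < 1 ∧ |H φ z y| ≤ C * ‖z‖ ^ 2 ∧
        ‖fderiv ℝ (H φ z) y‖ ≤ C * ‖z‖ ^ 2 := by
  set K : Set E := {y | ‖y‖ = 1 ∧ |ta φ y| ≤ c} with hKd
  have hne : ∀ {y : E}, ‖y‖ = 1 → y ≠ 0 := by
    rintro y h rfl; simp at h
  have hKT : K ⊆ TT φ b := by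
    rintro y ⟨h1, h2⟩
    have h3 := hT.rr_pos (hne h1)
    refine ⟨h3, ?_⟩
    rw [ta, abs_div, abs_of_pos h3, div_le_iff₀ h3] at h2
    exact h2.trans_lt (mul_lt_mul_of_pos_right hc h3)
  have hKc : IsCompact K := by
    have h1 : K = sphere (0 : E) 1 ∩ {y | |φ y| ≤ c * rr φ y} := by
      ext y
      simp only [hKd, mem_ofPred_eq, mem_inter_iff, mem_sphere_zero_iff_norm]
      refine and_congr_right fun h => ?_
      have h3 := hT.rr_pos (hne h)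
      rw [ta, abs_div, abs_of_pos h3, div_le_iff₀ h3]
    rw [h1]
    exact (isCompact_sphere _ _).inter_right
      (isClosed_le hT.lip.continuous.abs (continuous_const.mul hT.continuous_rr))
  have key : ∃ d0 C : ℝ, 0 < d0 ∧ d0 < 1 ∧ 0 ≤ C ∧ ∀ z : E, ‖z‖ ≤ d0 → ∀ y ∈ K,
      ContDiffAt ℝ 3 (boost φ z) y ∧ |boost φ z y| < ‖y‖ ∧ |H φ z y| ≤ C * ‖z‖ ^ 2 ∧
        ‖fderiv ℝ (H φ z) y‖ ≤ C * ‖z‖ ^ 2 := by
    refine hKc.induction_on (p := fun S => ∃ d0 C : ℝ, 0 < d0 ∧ d0 < 1 ∧ 0 ≤ C ∧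
      ∀ z : E, ‖z‖ ≤ d0 → ∀ y ∈ S, ContDiffAt ℝ 3 (boost φ z) y ∧ |boost φ z y| < ‖y‖ ∧
        |H φ z y| ≤ C * ‖z‖ ^ 2 ∧ ‖fderiv ℝ (H φ z) y‖ ≤ C * ‖z‖ ^ 2) ?_ ?_ ?_ ?_
    · exact ⟨1 / 2, 0, by norm_num, by norm_num, le_rfl, fun z _ y hy => absurd hy (by simp)⟩
    · rintro S T hST ⟨d0, C, h1, h2, h3, h4⟩
      exact ⟨d0, C, h1, h2, h3, fun z hz y hy => h4 z hz y (hST hy)⟩
    · rintro S T ⟨d0, C, h1, h2, h3, h4⟩ ⟨d0', C', h1', h2', h3', h4'⟩
      refine ⟨min d0 d0', max C C', lt_min h1 h1', (min_le_left _ _).trans_lt h2,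
        le_max_of_le_left h3, fun z hz y hy => ?_⟩
      have hz2 : 0 ≤ ‖z‖ ^ 2 := by positivity
      rcases hy with hy | hy
      · obtain ⟨a1, a2, a3, a4⟩ := h4 z (hz.trans (min_le_left _ _)) y hy
        exact ⟨a1, a2, a3.trans (mul_le_mul_of_nonneg_right (le_max_left _ _) hz2),
          a4.trans (mul_le_mul_of_nonneg_right (le_max_left _ _) hz2)⟩
      · obtain ⟨a1, a2, a3, a4⟩ := h4' z (hz.trans (min_le_right _ _)) y hy
        exact ⟨a1, a2, a3.trans (mul_le_mul_of_nonneg_right (le_max_right _ _) hz2),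
          a4.trans (mul_le_mul_of_nonneg_right (le_max_right _ _) hz2)⟩
    · intro y0 hy0
      obtain ⟨ρ, C, hρ, hC, h⟩ := local_expand hT (hKT hy0)
      refine ⟨ball y0 ρ, mem_nhdsWithin_of_mem_nhds (ball_mem_nhds y0 hρ), min (ρ / 2) (1 / 2), C,
        lt_min (by positivity) (by norm_num), (min_le_right _ _).trans_lt (by norm_num), hC,
        fun z hz y hy => ?_⟩
      rw [mem_ball, dist_eq_norm] at hy
      exact h z (hz.trans_lt ((min_le_left _ _).trans_lt (by linarith))) y hy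
  obtain ⟨d0, C, h1, h2, h3, h4⟩ := key
  refine ⟨d0, C, h1, h2, h3, fun z hz y hy hyc => ?_⟩
  obtain ⟨a1, a2, a3, a4⟩ := h4 z hz y ⟨hy, hyc⟩
  exact ⟨a1, by rwa [hy] at a2, a3, a4⟩

end Crest.Agent.R246.BoostExp797
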