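import Crest.Agent.R246.Cone_990
import Mathlib.LinearAlgebra.Transvection.Basic
import Mathlib.Analysis.Calculus.FDeriv.OfCompLeft
import Mathlib.Analysis.Calculus.FDeriv.Measurable
import Mathlib.Analysis.InnerProductSpace.Dual

/-!
# Boosts preserve null cones; Jacobian; invariance of `∇φ·∇ψ dx`
-/

set_option autoImplicit false
set_option linter.unusedSectionVars false
set_option linter.unusedSimpArgs false
noncomputable section
open MeasureTheory Set Filter Topology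
open scoped RealInnerProductSpace

namespace Crest.Agent.R246.H990

variable {E : Type*} [NormedAddCommGroup E] [InnerProductSpace ℝ E]

/-- the covector `κ⟨z,·⟩ + γ A`. -/
def covA (z : E) (A : E →L[ℝ] ℝ) : E →L[ℝ] ℝ := kap z • innerSL ℝ z + gam z • A

/-- derivative of `bT φ z` where `φ` has derivative `A`. -/
def LXc (z : E) (A : E →L[ℝ] ℝ) : E →L[ℝ] E :=
  ContinuousLinearMap.id ℝ E + (covA z A).smulRight z

/-- derivative of the time part. -/
def LBc (z : E) (A : E →L[ℝ] ℝ) : E →L[ℝ] ℝ := gam z • (A + innerSL ℝ z)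

lemma LXc_apply (z : E) (A : E →L[ℝ] ℝ) (v : E) : LXc z A v = LX z v (A v) := by
  simp [LXc, LX, covA, innerSL_apply_apply]

lemma LBc_apply (z : E) (A : E →L[ℝ] ℝ) (v : E) : LBc z A v = LB z v (A v) := by
  simp [LBc, LB, innerSL_apply_apply, mul_add]

lemma hasFDerivAt_bT {φ : E → ℝ} {A : E →L[ℝ] ℝ} {x : E} (z : E) (h : HasFDerivAt φ A x) :
    HasFDerivAt (bT φ z) (LXc z A) x := by
  have h1 : HasFDerivAt (fun y => kap z * ⟪z, y⟫ + gam z * φ y) (covA z A) x := by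
    have ha : HasFDerivAt (fun y => ⟪z, y⟫) (innerSL ℝ z) x := (innerSL ℝ z).hasFDerivAt
    exact (ha.const_mul (kap z)).add (h.const_mul (gam z))
  exact (hasFDerivAt_id x).add (h1.smul_const z)

lemma hasFDerivAt_LB {φ : E → ℝ} {A : E →L[ℝ] ℝ} {x : E} (z : E) (h : HasFDerivAt φ A x) :
    HasFDerivAt (fun y => LB z y (φ y)) (LBc z A) x := by
  have ha : HasFDerivAt (fun y => ⟪z, y⟫) (innerSL ℝ z) x := (innerSL ℝ z).hasFDerivAt
  exact (h.add ha).const_mul (gam z)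

lemma LXc_norm_ge {z : E} (hz : ‖z‖ < 1) {A : E →L[ℝ] ℝ} (hA : ‖A‖ ≤ 1) (v : E) :
    ‖v‖ ≤ bC z * ‖LXc z A v‖ := by
  have hlip : LipschitzWith 1 (A : E → ℝ) := by
    have := A.lipschitz
    refine this.weaken ?_
    exact_mod_cast hA
  have := le_bT_sub hlip hz v 0
  simpa [bT, LXc_apply, LX] using this

/-- determinant of the derivative of the boost. -/
lemma det_LXc [FiniteDimensional ℝ E] {z : E} (hz : ‖z‖ < 1) (A : E →L[ℝ] ℝ) :
    (LXc z A).det = gam z * (1 + A z) := by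
  have h1 : ((LXc z A : E →L[ℝ] E) : E →ₗ[ℝ] E)
      = LinearMap.transvection ((covA z A : E →L[ℝ] ℝ) : E →ₗ[ℝ] ℝ) z := by
    ext v
    simp [LXc, LinearMap.transvection]
  rw [ContinuousLinearMap.det, h1, LinearMap.transvection.det]
  have h2 := one_add_kap hz
  simp only [covA, ContinuousLinearMap.coe_coe, add_apply,
    smul_apply, innerSL_apply_apply, real_inner_self_eq_norm_sq, smul_eq_mul]
  rw [← add_assoc, h2]; ring

lemma det_LXc_pos [FiniteDimensional ℝ E] {z : E} (hz : ‖z‖ < 1) {A : E →L[ℝ] ℝ}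
    (hA : ‖A‖ ≤ 1) : 0 < (LXc z A).det := by
  rw [det_LXc hz]
  have h1 : |A z| ≤ ‖z‖ := by
    have := A.le_opNorm z
    rw [Real.norm_eq_abs] at this
    calc |A z| ≤ ‖A‖ * ‖z‖ := this
      _ ≤ 1 * ‖z‖ := by gcongr
      _ = ‖z‖ := one_mul _
  have h2 := (abs_le.1 h1).1
  have := gam_pos hz
  apply mul_pos this
  linarith

/-- the derivative as a continuous linear equivalence -/
def LXe [FiniteDimensional ℝ E] {z : E} (hz : ‖z‖ < 1) {A : E →L[ℝ] ℝ} (hA : ‖A‖ ≤ 1) :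
    E ≃L[ℝ] E :=
  (LinearEquiv.ofInjectiveEndo ((LXc z A : E →L[ℝ] E) : E →ₗ[ℝ] E) (by
    rw [← LinearMap.ker_eq_bot, LinearMap.ker_eq_bot']
    intro v hv
    have := LXc_norm_ge hz hA v
    have hv' : LXc z A v = 0 := hv
    rw [hv', norm_zero, mul_zero] at this
    exact norm_le_zero_iff.1 this)).toContinuousLinearEquiv

lemma LXe_coe [FiniteDimensional ℝ E] {z : E} (hz : ‖z‖ < 1) {A : E →L[ℝ] ℝ} (hA : ‖A‖ ≤ 1) :
    ((LXe hz hA : E ≃L[ℝ] E) : E →L[ℝ] E) = LXc z A := by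
  ext v
  rfl

lemma LXe_apply [FiniteDimensional ℝ E] {z : E} (hz : ‖z‖ < 1) {A : E →L[ℝ] ℝ} (hA : ‖A‖ ≤ 1)
    (v : E) : LXe hz hA v = LXc z A v := rfl

lemma fderiv_norm_le {φ : E → ℝ} (h : LipschitzWith 1 φ) (x : E) : ‖fderiv ℝ φ x‖ ≤ 1 := by
  simpa using norm_fderiv_le_of_lipschitz ℝ h (x₀ := x)

/-- derivative of the inverse map -/
lemma hasFDerivAt_bS [FiniteDimensional ℝ E] {φ : E → ℝ} (h : LipschitzWith 1 φ) {z : E}
    (hz : ‖z‖ < 1) {A : E →L[ℝ] ℝ} (hA : ‖A‖ ≤ 1) {x : E} (hx : HasFDerivAt φ A x) :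
    HasFDerivAt (bS φ z) ((LXe hz hA).symm : E →L[ℝ] E) (bT φ z x) := by
  have h1 : HasFDerivAt (bT φ z) ((LXe hz hA : E ≃L[ℝ] E) : E →L[ℝ] E) (bS φ z (bT φ z x)) := by
    rw [bS_bT h hz, LXe_coe]
    exact hasFDerivAt_bT z hx
  exact HasFDerivAt.of_local_left_inverse (bS_lipschitz h hz).continuous.continuousAt h1
    (Eventually.of_forall fun y => bT_bS h hz y)

/-- derivative of the boosted function -/
lemma hasFDerivAt_boost [FiniteDimensional ℝ E] {φ : E → ℝ} (h : LipschitzWith 1 φ) {z : E}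
    (hz : ‖z‖ < 1) {A : E →L[ℝ] ℝ} (hA : ‖A‖ ≤ 1) {x : E} (hx : HasFDerivAt φ A x) :
    HasFDerivAt (boost φ z) ((LBc z A).comp ((LXe hz hA).symm : E →L[ℝ] E)) (bT φ z x) := by
  have h1 := hasFDerivAt_bS h hz hA hx
  have h2 : HasFDerivAt (fun y => LB z y (φ y)) (LBc z A) (bS φ z (bT φ z x)) := by
    rw [bS_bT h hz]; exact hasFDerivAt_LB z hx
  have h3 := h2.comp (bT φ z x) h1
  refine h3.congr_of_eventuallyEq ?_
  filter_upwards with y
  simp only [Function.comp]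
  exact boost_of_lt hz y

/-- vector of a covector -/
def cv [CompleteSpace E] (A : E →L[ℝ] ℝ) : E := (InnerProductSpace.toDual ℝ E).symm A

lemma cv_inner [CompleteSpace E] (A : E →L[ℝ] ℝ) (v : E) : ⟪cv A, v⟫ = A v := by
  simp [cv]

lemma cv_norm [CompleteSpace E] (A : E →L[ℝ] ℝ) : ‖cv A‖ = ‖A‖ := by
  simp [cv]

/-- the time component of the boosted null vector `(p,1)`. -/
def bJ (z p : E) : ℝ := LB z p 1

lemma bJ_eq (z p : E) : bJ z p = gam z * (1 + ⟪z, p⟫) := rfl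

lemma bJ_pos {z p : E} (hz : ‖z‖ < 1) (hp : ‖p‖ ≤ 1) : 0 < bJ z p := by
  rw [bJ_eq]
  have h1 : |⟪z, p⟫| ≤ ‖z‖ := by
    calc |⟪z, p⟫| ≤ ‖z‖ * ‖p‖ := abs_real_inner_le_norm z p
      _ ≤ ‖z‖ * 1 := by gcongr
      _ = ‖z‖ := mul_one _
  have h2 := (abs_le.1 h1).1
  exact mul_pos (gam_pos hz) (by linarith)

lemma det_eq_bJ [FiniteDimensional ℝ E] [CompleteSpace E] {z : E} (hz : ‖z‖ < 1)
    (A : E →L[ℝ] ℝ) : (LXc z A).det = bJ z (cv A) := by
  rw [det_LXc hz, bJ_eq, real_inner_comm, cv_inner]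

/-- the boosted derivative acts as the inner product with `LX z p 1 / J`. -/
lemma boost_fderiv_inner [FiniteDimensional ℝ E] [CompleteSpace E] {z : E}
    (hz : ‖z‖ < 1) {A : E →L[ℝ] ℝ} (hA : ‖A‖ ≤ 1) (u : E) :
    (bJ z (cv A)) * ((LBc z A).comp ((LXe hz hA).symm : E →L[ℝ] E)) u
      = ⟪LX z (cv A) 1, u⟫ := by
  set v := (LXe hz hA).symm u with hv
  have hu : u = LX z v (A v) := by
    rw [← LXc_apply, ← LXe_apply hz hA, hv, ContinuousLinearEquiv.apply_symm_apply]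
  have h1 := form_inv hz (cv A) v 1 (A v)
  rw [cv_inner, one_mul, sub_self] at h1
  simp only [ContinuousLinearMap.comp_apply, ContinuousLinearEquiv.coe_coe]
  rw [← hv, LBc_apply, hu]
  unfold bJ
  linarith

/-- if `‖A‖ = 1` then the boosted derivative also has norm one. -/
lemma boost_fderiv_norm [FiniteDimensional ℝ E] [CompleteSpace E] {z : E}
    (hz : ‖z‖ < 1) {A : E →L[ℝ] ℝ} (hA : ‖A‖ ≤ 1) (hA1 : ‖A‖ = 1) :
    ‖((LBc z A).comp ((LXe hz hA).symm : E →L[ℝ] E))‖ = 1 := by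
  set D := ((LBc z A).comp ((LXe hz hA).symm : E →L[ℝ] E)) with hD
  have hp : ‖cv A‖ ≤ 1 := by rw [cv_norm]; exact hA
  have hJ := bJ_pos hz hp
  have h1 : cv D = (bJ z (cv A))⁻¹ • LX z (cv A) 1 := by
    apply ext_inner_right ℝ
    intro u
    rw [cv_inner, inner_smul_left, ← boost_fderiv_inner hz hA u]
    simp only [starRingEnd_apply, star_trivial]
    rw [← mul_assoc, inv_mul_cancel₀ hJ.ne', one_mul]
  have h2 := form_inv_self hz (cv A) 1
  rw [cv_norm, hA1] at h2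
  have h3 : ‖LX z (cv A) 1‖ ^ 2 = bJ z (cv A) ^ 2 := by
    unfold bJ; linarith
  have h4 : ‖LX z (cv A) 1‖ = bJ z (cv A) := by
    exact (pow_left_inj₀ (norm_nonneg _) hJ.le (by norm_num)).1 h3
  rw [← cv_norm D, h1, norm_smul, h4, norm_inv, Real.norm_eq_abs, abs_of_pos hJ,
    inv_mul_cancel₀ hJ.ne']

section Measure

variable [FiniteDimensional ℝ E] [MeasurableSpace E] [BorelSpace E]

/-- Lipschitz images of null sets are null. -/
lemma null_image {f : E → E} {K : NNReal} (hf : LipschitzWith K f) {s : Set E}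
    (hs : (volume : Measure E) s = 0) : (volume : Measure E) (f '' s) = 0 := by
  have h1 : (μH[Module.finrank ℝ E] : Measure E) s = 0 :=
    (Measure.absolutelyContinuous_isAddHaarMeasure
      (μH[Module.finrank ℝ E] : Measure E) (volume : Measure E)) hs
  have h2 : (μH[Module.finrank ℝ E] : Measure E) (f '' s) = 0 := by
    have := hf.hausdorffMeasure_image_le (d := (Module.finrank ℝ E : ℝ)) (by positivity) s
    rw [h1, mul_zero] at this
    exact le_antisymm this bot_le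
  exact (Measure.absolutelyContinuous_isAddHaarMeasure
      (volume : Measure E) (μH[Module.finrank ℝ E] : Measure E)) h2

/-- a.e. properties are transported by the boost map -/
lemma ae_of_ae_bT {φ : E → ℝ} (h : LipschitzWith 1 φ) {z : E} (hz : ‖z‖ < 1)
    {P : E → Prop} (hP : ∀ᵐ x ∂(volume : Measure E), P (bT φ z x)) :
    ∀ᵐ y ∂(volume : Measure E), P y := by
  rw [ae_iff] at hP ⊢
  refine measure_mono_null ?_ (null_image (bT_lipschitz h hz) hP)
  intro y hy
  exact ⟨bS φ z y, by simpa [bT_bS h hz] using hy, bT_bS h hz y⟩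

/-- a.e. properties are pulled back by the boost map -/
lemma ae_bT_of_ae {φ : E → ℝ} (h : LipschitzWith 1 φ) {z : E} (hz : ‖z‖ < 1)
    {P : E → Prop} (hP : ∀ᵐ y ∂(volume : Measure E), P y) :
    ∀ᵐ x ∂(volume : Measure E), P (bT φ z x) := by
  rw [ae_iff] at hP ⊢
  refine measure_mono_null ?_ (null_image (bS_lipschitz h hz) hP)
  intro x hx
  exact ⟨bT φ z x, hx, bS_bT h hz x⟩

lemma NullCone.zero {φ : E → ℝ} (h : NullCone φ) : φ 0 = 0 := by
  have := h.hom 0 le_rfl 0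
  simpa using this

lemma bT_smul {φ : E → ℝ} (h : NullCone φ) (z : E) {t : ℝ} (ht : 0 ≤ t) (x : E) :
    bT φ z (t • x) = t • bT φ z x := by
  unfold bT
  rw [h.hom t ht x, LX_smul]

lemma bS_smul {φ : E → ℝ} (h : NullCone φ) {z : E} (hz : ‖z‖ < 1) {t : ℝ} (ht : 0 ≤ t) (y : E) :
    bS φ z (t • y) = t • bS φ z y := by
  apply bT_injective h.lip hz
  rw [bT_bS h.lip hz, bT_smul h z ht, bT_bS h.lip hz]

/-- **Boosts preserve the class of null cones.** -/
theorem NullCone.boost {φ : E → ℝ} (h : NullCone φ) {z : E} (hz : ‖z‖ < 1) :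
    NullCone (boost φ z) where
  hom := by
    intro t ht y
    rw [boost_of_lt hz, boost_of_lt hz, bS_smul h hz ht, h.hom t ht, LB_smul]
  lip := boost_lipschitz h.lip hz
  grad := by
    refine ae_of_ae_bT h.lip hz ?_
    filter_upwards [h.grad] with x hx
    have hd : DifferentiableAt ℝ φ x := by
      by_contra hc
      rw [fderiv_zero_of_not_differentiableAt hc, norm_zero] at hx
      exact zero_ne_one hx
    have hA := fderiv_norm_le h.lip x
    rw [(hasFDerivAt_boost h.lip hz hA hd.hasFDerivAt).fderiv]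
    exact boost_fderiv_norm hz hA hx
  bd := by
    obtain ⟨c, hc0, hc1, hc⟩ := h.bd
    have hC := bC_pos hz
    have hbC1 : 1 ≤ bC z := by
      have h1 := kap_nonneg hz
      have h2 := gam_pos hz
      unfold bC; linarith
    set q : ℝ := (1 - c ^ 2) / bC z ^ 2 with hq
    have hc2 : 0 < 1 - c ^ 2 := by nlinarith
    have hq0 : 0 < q := by positivity
    have hq1 : q ≤ 1 := by
      rw [hq, div_le_one (by positivity)]
      nlinarith
    refine ⟨Real.sqrt (1 - q), Real.sqrt_nonneg _, ?_, ?_⟩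
    · rw [Real.sqrt_lt' one_pos]; linarith
    · intro y
      obtain ⟨x, rfl⟩ := bT_surjective h.lip hz y
      have h1 := boost_form h.lip hz x
      have h2 : ‖bT φ z x‖ ≤ bC z * ‖x‖ := by
        have := bT_sub_le h.lip hz x 0
        have h0 : bT φ z 0 = 0 := by simp [bT, LX, h.zero]
        simpa [h0] using this
      have h3 : φ x ^ 2 ≤ c ^ 2 * ‖x‖ ^ 2 := by
        rw [← sq_abs (φ x), ← mul_pow]
        exact pow_le_pow_left₀ (abs_nonneg _) (hc x) 2
      have h4 : ‖bT φ z x‖ ^ 2 ≤ bC z ^ 2 * ‖x‖ ^ 2 := by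
        rw [← mul_pow]
        exact pow_le_pow_left₀ (norm_nonneg _) h2 2
      have h5 : q * ‖bT φ z x‖ ^ 2 ≤ (1 - c ^ 2) * ‖x‖ ^ 2 := by
        rw [hq, div_mul_eq_mul_div, div_le_iff₀ (by positivity)]
        calc (1 - c ^ 2) * ‖bT φ z x‖ ^ 2 ≤ (1 - c ^ 2) * (bC z ^ 2 * ‖x‖ ^ 2) := by gcongr
          _ = (1 - c ^ 2) * ‖x‖ ^ 2 * bC z ^ 2 := by ring
      have h6 : Crest.Agent.R246.H990.boost φ z (bT φ z x) ^ 2
          ≤ (Real.sqrt (1 - q) * ‖bT φ z x‖) ^ 2 := by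
        rw [mul_pow, Real.sq_sqrt (by linarith)]
        nlinarith
      exact abs_le_of_sq_le_sq h6 (by positivity)

end Measure

end Crest.Agent.R246.H990
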