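import Mathlib

/-!
# R246-F (helper852): Lemma MS, definitions and statements of the leaves

Flat setting: `E` a finite dimensional real inner product space of dimension `d+1`, `a` a unit vector,
`r` (the "distance function" `ε artanh u` of an Allen--Cahn solution) and the weight `h` are globally
`C^1`, all other hypotheses are on `ball 0 2`.
-/

set_option autoImplicit false

namespace Crest.Agent.R246.MS852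

open MeasureTheory Metric Set InnerProductSpace
open scoped RealInnerProductSpace Gradient

/-- radial profile `max(0,1-t)^2` -/
noncomputable def psi (t : ℝ) : ℝ := (max 0 (1 - t)) ^ 2

/-- derivative of `psi` -/
noncomputable def dpsi (t : ℝ) : ℝ := -2 * max 0 (1 - t)

/-- `∫_{ℝ^d} psi(|y|²) dy` -/
noncomputable def cpsi (d : ℕ) : ℝ := ∫ y : EuclideanSpace ℝ (Fin d), psi (‖y‖ ^ 2)

section
variable {E : Type*} [NormedAddCommGroup E] [InnerProductSpace ℝ E]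

/-- `sech^4 (r/ε)` -/
noncomputable def S4 (ε : ℝ) (r : E → ℝ) (x : E) : ℝ := 1 / Real.cosh (r x / ε) ^ 4

variable [CompleteSpace E]

/-- energy density `(1/2ε) sech^4(r/ε) (h + |∇r|²)` -/
noncomputable def q (ε : ℝ) (h r : E → ℝ) (x : E) : ℝ :=
  S4 ε r x / (2 * ε) * (h x + ‖∇ r x‖ ^ 2)

/-- defect density `(1/ε) sech^4(r/ε) ((h - |∇r|²)/2 + |∇r|² - (∂_a r)²)` -/
noncomputable def kap (a : E) (ε : ℝ) (h r : E → ℝ) (x : E) : ℝ :=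
  S4 ε r x / ε * ((h x - ‖∇ r x‖ ^ 2) / 2 + (‖∇ r x‖ ^ 2 - (fderiv ℝ r x a) ^ 2))

end

section
variable {E : Type*} [NormedAddCommGroup E] [InnerProductSpace ℝ E] [FiniteDimensional ℝ E]
  [MeasurableSpace E] [BorelSpace E]

/-- the hypotheses of Lemma MS -/
structure Hyp (a : E) (ε η : ℝ) (h r : E → ℝ) : Prop where
  ha : ‖a‖ = 1
  hε : 0 < ε
  hεη : ε ≤ η ^ 3
  hη0 : 0 < η
  hη : η ≤ 1 / 100
  cr : ContDiff ℝ 1 r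
  ch : ContDiff ℝ 1 h
  near : ∀ x ∈ ball (0 : E) 2, |h x - 1| ≤ η
  dh : ∀ x ∈ ball (0 : E) 2, ‖fderiv ℝ h x‖ ≤ η
  modica : ∀ x ∈ ball (0 : E) 2, ‖∇ r x‖ ^ 2 ≤ h x
  flat : ∀ x ∈ ball (0 : E) 2, |r x - ⟪a, x⟫_ℝ| ≤ η
  weak : ∀ φ : E → ℝ, ContDiff ℝ 1 φ → tsupport φ ⊆ ball (0 : E) 2 →
    ∫ x, fderiv ℝ φ x (∇ r x) =
      ∫ x, 2 / ε * Real.tanh (r x / ε) * (h x - ‖∇ r x‖ ^ 2) * φ x
  stat : ∀ (φ : E → ℝ) (v : E), ContDiff ℝ 1 φ → tsupport φ ⊆ ball (0 : E) 2 →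
    ∫ x, (q ε h r x * fderiv ℝ φ x v - S4 ε r x / ε * fderiv ℝ r x v * fderiv ℝ φ x (∇ r x)) =
      - ∫ x, S4 ε r x / (2 * ε) * fderiv ℝ h x v * φ x

/-- weighted energy at `p`, scale `ρ` -/
noncomputable def J (ε : ℝ) (h r : E → ℝ) (p : E) (ρ : ℝ) : ℝ :=
  ∫ x in ball (0 : E) 2, q ε h r x * psi (‖x - p‖ ^ 2 / ρ ^ 2)

/-- energy of a set -/
noncomputable def En (ε : ℝ) (h r : E → ℝ) (A : Set E) : ℝ := ∫ x in A, q ε h r x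

/-- defect of a set -/
noncomputable def Kp (a : E) (ε : ℝ) (h r : E → ℝ) (A : Set E) : ℝ := ∫ x in A, kap a ε h r x

/-- energy growth -/
def Growth (ε : ℝ) (h r : E → ℝ) (d : ℕ) (G : ℝ) : Prop :=
  ∀ p ∈ ball (0 : E) (4 / 5), ∀ ρ : ℝ, 0 < ρ → ρ ≤ 1 / 20 → En ε h r (closedBall p ρ) ≤ G * ρ ^ d

/-- good points -/
def Good (a : E) (ε : ℝ) (h r : E → ℝ) (d : ℕ) (lam : ℝ) (x : E) : Prop :=
  x ∈ ball (0 : E) (3 / 5) ∧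
    ∀ ρ : ℝ, 0 < ρ → ρ ≤ 1 / 100 → Kp a ε h r (closedBall x ρ) ≤ lam * ρ ^ d

/-- the hypotheses of Lemma L5 (quantitative affine closeness) on `ball 0 L` -/
structure HypL5 (a : E) (L τ : ℝ) (R : E → ℝ) : Prop where
  ha : ‖a‖ = 1
  hτ : 0 < τ
  hτ1 : τ ≤ 1
  cR : ContDiff ℝ 1 R
  lip : ∀ x ∈ ball (0 : E) L, ‖∇ R x‖ ^ 2 ≤ 1 + τ
  tilt : ∫ x in ball (0 : E) L, (‖∇ R x‖ ^ 2 - (fderiv ℝ R x a) ^ 2) ≤ τ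
  unit : ∫ x in ball (0 : E) L, |1 - ‖∇ R x‖ ^ 2| ≤ τ
  weak : ∀ φ : E → ℝ, ContDiff ℝ 1 φ → tsupport φ ⊆ ball (0 : E) L → ∀ M : ℝ,
    (∀ x, |φ x| ≤ M) → |∫ x, fderiv ℝ φ x (∇ R x)| ≤ τ * M

end

section
variable (E : Type*) [NormedAddCommGroup E] [InnerProductSpace ℝ E] [FiniteDimensional ℝ E]
  [MeasurableSpace E] [BorelSpace E] (d : ℕ)

/-- LEMMA MS in dimension `d + 1` -/
def StMS : Prop :=
  Module.finrank ℝ E = d + 1 →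
  ∀ δ0 : ℝ, 0 < δ0 → ∃ η0 > 0, ∃ ρ1 > 0, ρ1 < 1 ∧
    ∀ (a : E) (ε η : ℝ) (h r : E → ℝ), η ≤ η0 → Hyp a ε η h r →
      J ε h r 0 1 ≤ (2 - δ0) * (4 / 3 * cpsi d) →
      J ε h r 0 ρ1 ≤ (1 + δ0) * (4 / 3 * cpsi d) * ρ1 ^ d

/-- LEAF 1: monotonicity (field `X = psi(|x-p|²/ρ²)(x-p)`) -/
def StMono : Prop :=
  Module.finrank ℝ E = d + 1 →
  ∀ (a : E) (ε η : ℝ) (h r : E → ℝ), Hyp a ε η h r →
  ∀ (p : E) (ρ ρ' : ℝ), 0 < ρ → ρ ≤ ρ' → closedBall p ρ' ⊆ ball (0 : E) 2 →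
    J ε h r p ρ / ρ ^ d ≤ (1 + 5 * η) * (J ε h r p ρ' / ρ' ^ d)

/-- LEAF 1b: growth, from `StMono` -/
def StGrowth : Prop :=
  Module.finrank ℝ E = d + 1 →
  ∀ (a : E) (ε η : ℝ) (h r : E → ℝ), Hyp a ε η h r →
  ∀ M : ℝ, En ε h r (ball 0 (9 / 10)) ≤ M → Growth ε h r d (3 * 20 ^ d * M)

/-- LEAF 2: defect bound (field `X = φ(x) x_N a`, `φ = c psi(|x|²/0.81)`) -/
def StDefect : Prop :=
  ∃ C > 0, ∀ (a : E) (ε η : ℝ) (h r : E → ℝ), Hyp a ε η h r →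
    ∀ M : ℝ, En ε h r (ball 0 (9 / 10)) ≤ M →
      Kp a ε h r (ball 0 (4 / 5)) ≤ C * (M + 1) * η

/-- LEAF 3: tail bound (test function `φ = c psi(|x|²/0.81) s sech⁴ s`, `s = r/ε`, in `weak`:
`4 ∫ s tanh(s) z q = (1/ε) ∫ z sech⁴ |∇r|² + ∫ ⟨∇r,∇z⟩ s sech⁴`) -/
def StTail : Prop :=
  ∃ C > 0, ∀ (a : E) (ε η : ℝ) (h r : E → ℝ), Hyp a ε η h r →
    ∀ M : ℝ, En ε h r (ball 0 (9 / 10)) ≤ M → ∀ S : ℝ, 1 ≤ S →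
      En ε h r (ball 0 (4 / 5) ∩ {x | S ≤ |r x / ε|}) ≤ C * (M + 1) / S

/-- LEAF 4: Vitali -/
def StVit : Prop :=
  ∀ Q K : E → ℝ, Continuous Q → Continuous K → (∀ x ∈ ball (0 : E) 1, 0 ≤ Q x) →
    (∀ x ∈ ball (0 : E) 1, 0 ≤ K x) → ∀ G lam : ℝ, 0 ≤ G → 0 < lam →
    (∀ p ∈ ball (0 : E) (4 / 5), ∀ ρ : ℝ, 0 < ρ → ρ ≤ 1 / 20 →
      ∫ x in closedBall p ρ, Q x ≤ G * ρ ^ d) →
    ∃ B : Set E, MeasurableSet B ∧ B ⊆ ball 0 (4 / 5) ∧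
      (∀ x ∈ ball (0 : E) (3 / 5), x ∉ B → ∀ ρ : ℝ, 0 < ρ → ρ ≤ 1 / 100 →
        ∫ y in closedBall x ρ, K y ≤ lam * ρ ^ d) ∧
      ∫ x in B, Q x ≤ 5 ^ d * G / lam * ∫ x in ball (0 : E) (4 / 5), K x

/-- LEAF 5: Lemma L5 (mollification; see doc 1063) -/
def StL5 : Prop :=
  ∀ L ω : ℝ, 4 ≤ L → 0 < ω → ∃ τ > 0, ∀ (a : E) (R : E → ℝ), HypL5 a L τ R →
    ∃ s : ℝ, (s = 1 ∨ s = -1) ∧ ∀ z ∈ ball (0 : E) (L / 2), |R z - R 0 - s * ⟪a, z⟫_ℝ| ≤ ω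

/-- LEAF 6: at good points, from `StL5` by rescaling `R z = r (x0 + ε z) / ε` -/
def StAff : Prop :=
  Module.finrank ℝ E = d + 1 →
  ∀ S L ω : ℝ, 1 ≤ S → 4 ≤ L → 0 < ω → ∃ lam0 > 0, ∃ η0 > 0,
    ∀ (a : E) (ε η : ℝ) (h r : E → ℝ), η ≤ η0 → Hyp a ε η h r →
    ∀ x0 : E, Good a ε h r d lam0 x0 → |r x0 / ε| ≤ S → L * ε ≤ 1 / 100 ∧
      ∃ s : ℝ, (s = 1 ∨ s = -1) ∧ ∀ z ∈ ball (0 : E) (L / 2),
        |r (x0 + ε • z) / ε - r x0 / ε - s * ⟪a, z⟫_ℝ| ≤ ω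

/-- LEAF 6a: lower density at good points, from `StAff` -/
def StLow : Prop :=
  Module.finrank ℝ E = d + 1 →
  ∀ S ω : ℝ, 1 ≤ S → 0 < ω → ∃ L2 ≥ 4, ∃ lam0 > 0, ∃ η0 > 0,
    ∀ (a : E) (ε η : ℝ) (h r : E → ℝ), η ≤ η0 → Hyp a ε η h r →
    ∀ x0 : E, Good a ε h r d lam0 x0 → |r x0 / ε| ≤ S → L2 * ε ≤ 1 / 100 ∧
      (1 - ω) * (4 / 3 * cpsi d) * (L2 * ε) ^ d ≤ J ε h r x0 (L2 * ε)

/-- LEAF 6b: vertical integral at good points, from `StAff` -/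
def StVert : Prop :=
  Module.finrank ℝ E = d + 1 →
  ∀ S ω Λ : ℝ, 1 ≤ S → 0 < ω → 4 ≤ Λ → ∃ lam0 > 0, ∃ η0 > 0,
    ∀ (a : E) (ε η : ℝ) (h r : E → ℝ), η ≤ η0 → Hyp a ε η h r →
    ∀ x0 : E, Good a ε h r d lam0 x0 → |r x0 / ε| ≤ S → Λ * ε ≤ 1 / 100 ∧
      ∫ t in Icc (-(Λ * ε)) (Λ * ε), q ε h r (x0 + t • a) ≤ (1 + ω) * (4 / 3)

/-- LEAF 7: slab inequality for two good points on a vertical line
(fields `X = χ_i(x_N) psi(|Px-Px_i|²/ρ²) P(x-x_i)`, `D/4 ≤ ρ ≤ K D`) -/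
def StSlab : Prop :=
  Module.finrank ℝ E = d + 1 →
  ∃ C > 0, ∀ (a : E) (ε η : ℝ) (h r : E → ℝ), Hyp a ε η h r →
    ∀ G lam K D : ℝ, 1 ≤ G → Growth ε h r d G → 0 < lam → lam ≤ 1 → 1 ≤ K → 0 < D →
      3 * K * D ≤ 1 / 100 →
    ∀ x1 : E, x1 ∈ ball (0 : E) (1 / 2) → Good a ε h r d lam x1 → Good a ε h r d lam (x1 + D • a) →
      J ε h r x1 (D / 4) / (D / 4) ^ d + J ε h r (x1 + D • a) (D / 4) / (D / 4) ^ d ≤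
        J ε h r x1 (K * D) / (K * D) ^ d + C * G * (K ^ 2 * (Real.sqrt lam + η) + 1 / K ^ 2)

/-- LEAF 8: slicing along `a` -/
def StSlice : Prop :=
  Module.finrank ℝ E = d + 1 →
  ∀ a : E, ‖a‖ = 1 → ∃ ι : EuclideanSpace ℝ (Fin d) →ₗᵢ[ℝ] E, (∀ y, ⟪a, ι y⟫_ℝ = 0) ∧
    MeasurePreserving (fun p : ℝ × EuclideanSpace ℝ (Fin d) => p.1 • a + ι p.2)
      (volume.prod volume) volume

end

end Crest.Agent.R246.MS852
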