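import Crest.Agent.R246.GSt_873
import Crest.Agent.R246.MSDefs_852
import Mathlib.MeasureTheory.Integral.RieszMarkovKakutani.Real
import Mathlib.Analysis.SpecialFunctions.Gaussian.FourierTransform

/-!
# R246, bridge G → H, part 1 (helper549): profiles and homogeneous measures

For the weight measure `μ` of a limit object (homogeneous of degree `d = dim E - 1`):
`∫ g(‖x‖) dμ = Θ ∫_{ℝ^d} g(‖y‖) dy`, `Θ = μ(B₁)/ω_d`; the density ratios with the profile
`psi (t) = max(0, 1 - t)²` of Lemma MS.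
-/

set_option autoImplicit false
set_option linter.unusedSectionVars false
set_option linter.unusedVariables false
noncomputable section
open MeasureTheory Set Filter Topology
open scoped RealInnerProductSpace ENNReal
open Crest.Agent.R246.G873 Crest.Agent.R246.MS852

namespace Crest.Agent.R246.Br549

variable {E : Type} [NormedAddCommGroup E] [InnerProductSpace ℝ E] [FiniteDimensional ℝ E]
  [MeasurableSpace E] [BorelSpace E]

/-- homogeneity of degree `d` in functional form -/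
def HomM (μ : Measure E) (d : ℕ) : Prop :=
  ∀ t : ℝ, 0 < t → ∀ f : E → ℝ, Continuous f → HasCompactSupport f →
    ∫ x, f (t⁻¹ • x) ∂μ = t ^ d * ∫ x, f x ∂μ

theorem HomM.map {μ : Measure E} [IsFiniteMeasureOnCompacts μ] {d : ℕ} (h : HomM μ d) {t : ℝ}
    (ht : 0 < t) : μ.map (fun x => t⁻¹ • x) = ENNReal.ofReal (t ^ d) • μ := by
  have ht' : t⁻¹ ≠ 0 := inv_ne_zero ht.ne'
  let e : E ≃ₜ E := Homeomorph.smulOfNeZero t⁻¹ ht'
  have he : (fun x : E => t⁻¹ • x) = e := rfl
  have hm : Measurable (fun x : E => t⁻¹ • x) := measurable_const_smul _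
  have : IsFiniteMeasureOnCompacts (μ.map (fun x => t⁻¹ • x)) := by
    refine ⟨fun K hK => ?_⟩
    rw [Measure.map_apply hm hK.measurableSet, he]
    exact (e.isCompact_preimage.2 hK).measure_lt_top
  have : IsFiniteMeasureOnCompacts (ENNReal.ofReal (t ^ d) • μ) :=
    IsFiniteMeasureOnCompacts.smul _ ENNReal.ofReal_ne_top
  apply Measure.ext_of_integral_eq_on_compactlySupported
  intro f
  have h1 : ∫ x, f x ∂(μ.map (fun x => t⁻¹ • x)) = ∫ x, f (t⁻¹ • x) ∂μ :=
    integral_map hm.aemeasurable (map_continuous f).aestronglyMeasurable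
  rw [h1, integral_smul_measure, ENNReal.toReal_ofReal (by positivity), smul_eq_mul]
  exact h t ht f (map_continuous f) f.hasCompactSupport

theorem HomM.ball {μ : Measure E} [IsFiniteMeasureOnCompacts μ] {d : ℕ} (h : HomM μ d) {t : ℝ}
    (ht : 0 < t) : μ (Metric.ball 0 t) = ENNReal.ofReal (t ^ d) * μ (Metric.ball 0 1) := by
  have h1 := congrArg (fun ν : Measure E => ν (Metric.ball 0 1)) (h.map ht)
  simp only [Measure.smul_apply, smul_eq_mul] at h1
  rw [← h1, Measure.map_apply (measurable_const_smul _) Metric.isOpen_ball.measurableSet]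
  congr 1
  ext x
  simp only [Metric.mem_ball, dist_zero_right, mem_preimage, norm_smul, norm_inv, Real.norm_eq_abs,
    abs_of_pos ht]
  rw [inv_mul_lt_iff₀ ht, mul_one]

/-- the density at infinity -/
def Thinf (μ : Measure E) (d : ℕ) : ℝ≥0∞ :=
  μ (Metric.ball 0 1) / volume (Metric.ball (0 : EuclideanSpace ℝ (Fin d)) 1)

theorem vol_ball_pos (d : ℕ) : 0 < volume (Metric.ball (0 : EuclideanSpace ℝ (Fin d)) 1) :=
  Metric.measure_ball_pos _ _ one_pos

theorem vol_ball_ne_top (d : ℕ) :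
    volume (Metric.ball (0 : EuclideanSpace ℝ (Fin d)) 1) ≠ ∞ := measure_ball_lt_top.ne

theorem Thinf_ne_top (μ : Measure E) [IsFiniteMeasureOnCompacts μ] (d : ℕ) :
    Thinf μ d ≠ ∞ :=
  (ENNReal.div_lt_top measure_ball_lt_top.ne (vol_ball_pos d).ne').ne

/-- radial push-forward -/
theorem HomM.map_norm {μ : Measure E} [IsFiniteMeasureOnCompacts μ] {d : ℕ} (h : HomM μ d)
    (hd : 1 ≤ d) : μ.map (fun x => ‖x‖) =
      Thinf μ d • (volume : Measure (EuclideanSpace ℝ (Fin d))).map (fun y => ‖y‖) := by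
  have key : ∀ s : ℝ, μ.map (fun x => ‖x‖) (Iio s) =
      (Thinf μ d • (volume : Measure (EuclideanSpace ℝ (Fin d))).map (fun y => ‖y‖)) (Iio s) := by
    intro s
    rw [Measure.smul_apply, smul_eq_mul, Measure.map_apply measurable_norm measurableSet_Iio,
      Measure.map_apply measurable_norm measurableSet_Iio]
    have e1 : (fun x : E => ‖x‖) ⁻¹' Iio s = Metric.ball 0 s := by
      ext x; simp
    have e2 : (fun x : EuclideanSpace ℝ (Fin d) => ‖x‖) ⁻¹' Iio s = Metric.ball 0 s := by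
      ext x; simp
    rw [e1, e2]
    rcases le_or_gt s 0 with hs | hs
    · rw [Metric.ball_eq_empty.2 hs, Metric.ball_eq_empty.2 hs]; simp
    · rw [h.ball hs]
      have h3 := Measure.addHaar_ball_of_pos (volume : Measure (EuclideanSpace ℝ (Fin d))) 0 hs
      rw [finrank_euclideanSpace_fin] at h3
      rw [h3, Thinf, ENNReal.div_eq_inv_mul]
      have hv := vol_ball_pos d
      have hv' := vol_ball_ne_top d
      calc ENNReal.ofReal (s ^ d) * μ (Metric.ball 0 1)
          = ENNReal.ofReal (s ^ d) * μ (Metric.ball 0 1) *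
            ((volume (Metric.ball (0 : EuclideanSpace ℝ (Fin d)) 1))⁻¹ *
              volume (Metric.ball (0 : EuclideanSpace ℝ (Fin d)) 1)) := by
            rw [ENNReal.inv_mul_cancel hv.ne' hv', mul_one]
        _ = _ := by ring
  apply Measure.ext_of_generateFrom_of_iUnion (range Iio) (fun n : ℕ => Iio (n : ℝ))
  · exact BorelSpace.measurable_eq.trans (borel_eq_generateFrom_Iio ℝ)
  · exact isPiSystem_Iio
  · rw [eq_univ_iff_forall]
    intro x
    obtain ⟨n, hn⟩ := exists_nat_gt x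
    exact mem_iUnion.2 ⟨n, hn⟩
  · intro n; exact mem_range_self _
  · intro n
    rw [Measure.map_apply measurable_norm measurableSet_Iio]
    have e1 : (fun x : E => ‖x‖) ⁻¹' Iio (n : ℝ) = Metric.ball 0 n := by
      ext x; simp
    rw [e1]
    exact measure_ball_lt_top.ne
  · rintro _ ⟨s, rfl⟩
    exact key s

theorem HomM.integral_radial {μ : Measure E} [IsFiniteMeasureOnCompacts μ] {d : ℕ} (h : HomM μ d)
    (hd : 1 ≤ d) {g : ℝ → ℝ} (hg : Measurable g) :
    ∫ x, g ‖x‖ ∂μ = (Thinf μ d).toReal * ∫ y : EuclideanSpace ℝ (Fin d), g ‖y‖ := by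
  have h1 : ∫ x, g ‖x‖ ∂μ = ∫ t, g t ∂(μ.map (fun x => ‖x‖)) :=
    (integral_map measurable_norm.aemeasurable hg.aestronglyMeasurable).symm
  rw [h1, h.map_norm hd, integral_smul_measure, smul_eq_mul,
    integral_map measurable_norm.aemeasurable hg.aestronglyMeasurable]

theorem HomM.lintegral_radial {μ : Measure E} [IsFiniteMeasureOnCompacts μ] {d : ℕ} (h : HomM μ d)
    (hd : 1 ≤ d) {g : ℝ → ℝ≥0∞} (hg : Measurable g) :
    ∫⁻ x, g ‖x‖ ∂μ = Thinf μ d * ∫⁻ y : EuclideanSpace ℝ (Fin d), g ‖y‖ := by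
  have h1 : ∫⁻ x, g ‖x‖ ∂μ = ∫⁻ t, g t ∂(μ.map (fun x => ‖x‖)) :=
    (lintegral_map hg measurable_norm).symm
  rw [h1, h.map_norm hd, lintegral_smul_measure, smul_eq_mul, lintegral_map hg measurable_norm]

/-- the Gaussian mass on `ℝ^d` -/
theorem gauss (d : ℕ) : ∫⁻ y : EuclideanSpace ℝ (Fin d), ENNReal.ofReal (Real.exp (-‖y‖ ^ 2)) =
    ENNReal.ofReal (Real.pi ^ ((d : ℝ) / 2)) := by
  have h := GaussianFourier.integral_rexp_neg_mul_sq_norm (V := EuclideanSpace ℝ (Fin d))
    (b := 1) one_pos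
  rw [finrank_euclideanSpace_fin, div_one] at h
  rw [← h, ofReal_integral_eq_lintegral_ofReal]
  · simp
  · have h2 := GaussianFourier.integrable_cexp_neg_mul_sq_norm_add (V := EuclideanSpace ℝ (Fin d))
      (b := 1) (by simp) 0 0
    have h3 := h2.re
    refine h3.congr (Eventually.of_forall fun x => ?_)
    have : (-1 * (‖x‖ : ℂ) ^ 2 + 0 * (⟪(0 : EuclideanSpace ℝ (Fin d)), x⟫ : ℂ)) =
        ((-1 * ‖x‖ ^ 2 : ℝ) : ℂ) := by push_cast; ring
    simp only [this]
    rw [← Complex.ofReal_exp]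
    change (Complex.ofReal _).re = _
    rw [Complex.ofReal_re]
    congr 1
  · exact Eventually.of_forall fun x => (Real.exp_pos _).le

/-- the mass bound gives the density bound at infinity -/
theorem Thinf_lt_two {μ : Measure E} [IsFiniteMeasureOnCompacts μ] {d : ℕ} (h : HomM μ d)
    (hd : 1 ≤ d) {A : ℝ}
    (hm : ∫⁻ x, ENNReal.ofReal (Real.exp (-‖x‖ ^ 2)) ∂μ ≤ ENNReal.ofReal A)
    (hA : A < 2 * Real.pi ^ ((d : ℝ) / 2)) : (Thinf μ d).toReal < 2 := by
  have h1 := h.lintegral_radial hd (g := fun t => ENNReal.ofReal (Real.exp (-t ^ 2)))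
    (by fun_prop)
  rw [gauss] at h1
  rw [h1] at hm
  have hpi : 0 < Real.pi ^ ((d : ℝ) / 2) := Real.rpow_pos_of_pos Real.pi_pos _
  have h2 : Thinf μ d * ENNReal.ofReal (Real.pi ^ ((d : ℝ) / 2)) <
      2 * ENNReal.ofReal (Real.pi ^ ((d : ℝ) / 2)) := by
    refine hm.trans_lt ?_
    have : (2 : ℝ≥0∞) = ENNReal.ofReal 2 := by simp
    rw [this, ← ENNReal.ofReal_mul (by norm_num)]
    exact (ENNReal.ofReal_lt_ofReal_iff (by positivity)).2 hA
  have h3 : Thinf μ d < 2 := by
    by_contra hcon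
    rw [not_lt] at hcon
    exact absurd h2 (not_lt.2 (by gcongr))
  have h4 := (ENNReal.toReal_lt_toReal (Thinf_ne_top μ d) (by norm_num)).2 h3
  simpa using h4

/-! ### the profile -/

theorem psi_nonneg (t : ℝ) : 0 ≤ psi t := sq_nonneg _

theorem psi_le_one {t : ℝ} (ht : 0 ≤ t) : psi t ≤ 1 := by
  unfold psi
  have : max 0 (1 - t) ≤ 1 := max_le zero_le_one (by linarith)
  have h0 : 0 ≤ max 0 (1 - t) := le_max_left _ _
  nlinarith

theorem psi_zero : psi 0 = 1 := by simp [psi]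

theorem psi_eq_zero {t : ℝ} (ht : 1 ≤ t) : psi t = 0 := by
  unfold psi
  rw [max_eq_left (by linarith)]; simp

theorem continuous_psi : Continuous psi := by unfold psi; fun_prop

theorem psi_hk (t : ℝ) : psi t = hk 2 (2 * t) := by
  unfold psi hk
  rw [max_comm]
  congr 2
  push_cast
  ring

/-- the function `x ↦ psi(‖x-p‖²/s²)` -/
def pf (p : E) (s : ℝ) (x : E) : ℝ := psi (‖x - p‖ ^ 2 / s ^ 2)

theorem pf_nonneg (p : E) (s : ℝ) (x : E) : 0 ≤ pf p s x := psi_nonneg _

theorem pf_le_one (p : E) (s : ℝ) (x : E) : pf p s x ≤ 1 := psi_le_one (by positivity)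

theorem pf_zero {p : E} {s : ℝ} (hs : 0 < s) {x : E} (hx : s ≤ ‖x - p‖) : pf p s x = 0 := by
  apply psi_eq_zero
  rw [le_div_iff₀ (by positivity), one_mul]
  exact pow_le_pow_left₀ hs.le hx 2

theorem continuous_pf (p : E) (s : ℝ) : Continuous (pf p s) :=
  continuous_psi.comp (by fun_prop)

theorem support_pf {p : E} {s : ℝ} (hs : 0 < s) : Function.support (pf p s) ⊆ Metric.ball p s := by
  intro x hx
  rw [Metric.mem_ball, dist_eq_norm]
  by_contra h
  exact hx (pf_zero hs (not_lt.1 h))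

theorem tsupport_pf {p : E} {s : ℝ} (hs : 0 < s) : tsupport (pf p s) ⊆ Metric.closedBall p s :=
  closure_minimal ((support_pf hs).trans Metric.ball_subset_closedBall) Metric.isClosed_closedBall

theorem cpt_pf (p : E) {s : ℝ} (hs : 0 < s) : HasCompactSupport (pf p s) :=
  (isCompact_closedBall p s).of_isClosed_subset (isClosed_tsupport _) (tsupport_pf hs)

/-- mass with profile -/
def Dp (μ : Measure E) (p : E) (s : ℝ) : ℝ := ∫ x, pf p s x ∂μ

theorem Dp_eq_dens (μ : Measure E) (p : E) {r : ℝ} (hr : 0 < r) :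
    Dp μ p (Real.sqrt 2 * r) = r ^ (Module.finrank ℝ E - 1) * dens μ 2 p r := by
  unfold Dp dens
  rw [← mul_assoc, mul_inv_cancel₀ (by positivity), one_mul]
  refine integral_congr_ae (Eventually.of_forall fun x => ?_)
  simp only [pf]
  rw [psi_hk, mul_pow, Real.sq_sqrt (by norm_num : (0 : ℝ) ≤ 2)]
  congr 1
  field_simp

theorem Dp_mono_ratio {μ : Measure E} {p : E} (h : MonotoneOn (dens μ 2 p) (Ioi 0)) {s s' : ℝ}
    (hs : 0 < s) (hss : s ≤ s') :
    Dp μ p s / s ^ (Module.finrank ℝ E - 1) ≤ Dp μ p s' / s' ^ (Module.finrank ℝ E - 1) := by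
  have h2 : (0 : ℝ) < Real.sqrt 2 := by positivity
  have key : ∀ t : ℝ, 0 < t → Dp μ p t / t ^ (Module.finrank ℝ E - 1) =
      dens μ 2 p (t / Real.sqrt 2) / Real.sqrt 2 ^ (Module.finrank ℝ E - 1) := by
    intro t ht
    have h3 := Dp_eq_dens μ p (r := t / Real.sqrt 2) (by positivity)
    rw [mul_div_cancel₀ _ h2.ne'] at h3
    rw [h3, div_pow]
    field_simp
  rw [key s hs, key s' (hs.trans_le hss)]
  gcongr
  exact h (mem_Ioi.2 (by positivity)) (mem_Ioi.2 (div_pos (hs.trans_le hss) h2)) (by gcongr)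

theorem Dp_zero {μ : Measure E} [IsFiniteMeasureOnCompacts μ] {d : ℕ} (h : HomM μ d)
    (hd : 1 ≤ d) : Dp μ 0 1 = (Thinf μ d).toReal * cpsi d := by
  have h1 := h.integral_radial hd (g := fun t => psi (t ^ 2))
    (continuous_psi.measurable.comp (by fun_prop))
  unfold Dp cpsi
  rw [← h1]
  simp [pf]

/-- the bound by the density at infinity -/
theorem Dp_le {μ : Measure E} [IsFiniteMeasureOnCompacts μ] {d : ℕ}
    (hd : 1 ≤ d) (hE : Module.finrank ℝ E = d + 1) (h : HomM μ d) {p : E}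
    (hdens : ∀ r : ℝ, 0 < r → dens μ 2 p r ≤ ∫ x, hk 2 (‖x‖ ^ 2) ∂μ) {s : ℝ} (hs : 0 < s) :
    Dp μ p s ≤ (Thinf μ d).toReal * cpsi d * s ^ d := by
  have h2 : (0 : ℝ) < Real.sqrt 2 := by positivity
  have hE' : Module.finrank ℝ E - 1 = d := by omega
  have h3 := Dp_eq_dens μ p (r := s / Real.sqrt 2) (by positivity)
  rw [mul_div_cancel₀ _ h2.ne', hE'] at h3
  rw [h3]
  have h4 : ∫ x, hk 2 (‖x‖ ^ 2) ∂μ = Real.sqrt 2 ^ d * ((Thinf μ d).toReal * cpsi d) := by
    rw [← Dp_zero h hd]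
    have h5 := h (Real.sqrt 2) h2 (pf 0 1) (continuous_pf 0 1) (cpt_pf 0 one_pos)
    unfold Dp
    rw [← h5]
    refine integral_congr_ae (Eventually.of_forall fun x => ?_)
    simp only [pf]
    rw [psi_hk, sub_zero, norm_smul, mul_pow, norm_inv, inv_pow, Real.norm_eq_abs, abs_of_pos h2,
      Real.sq_sqrt (by norm_num : (0 : ℝ) ≤ 2)]
    congr 1
    ring
  calc (s / Real.sqrt 2) ^ d * dens μ 2 p (s / Real.sqrt 2)
      ≤ (s / Real.sqrt 2) ^ d * (Real.sqrt 2 ^ d * ((Thinf μ d).toReal * cpsi d)) := by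
        rw [← h4]
        gcongr
        exact hdens _ (by positivity)
    _ = _ := by rw [div_pow]; field_simp

theorem cpsi_pos (d : ℕ) : 0 < cpsi d := by
  unfold cpsi
  have hc : Continuous fun y : EuclideanSpace ℝ (Fin d) => psi (‖y‖ ^ 2) :=
    continuous_psi.comp (by fun_prop)
  have hs : HasCompactSupport fun y : EuclideanSpace ℝ (Fin d) => psi (‖y‖ ^ 2) := by
    apply HasCompactSupport.of_support_subset_isCompact
      (isCompact_closedBall (0 : EuclideanSpace ℝ (Fin d)) 1)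
    intro x hx
    rw [Metric.mem_closedBall, dist_zero_right]
    by_contra h
    rw [not_le] at h
    exact hx (psi_eq_zero (by nlinarith))
  apply (integral_pos_iff_support_of_nonneg (fun y => psi_nonneg _)
    (hc.integrable_of_hasCompactSupport hs)).2
  refine (hc.isOpen_support).measure_pos volume ⟨0, ?_⟩
  simp [psi]

end Crest.Agent.R246.Br549
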