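import Crest.Agent.R246.D2Modica_782
import Crest.Agent.R202.SphDiv

/-!
Row 246, block D2 (helper782): integration by parts on the unit sphere for `0`-homogeneous functions, and
the exact (localised) energy identity for Allen–Cahn solutions `u = tanh (R/ε)`.
-/

set_option autoImplicit false

open MeasureTheory Filter Topology Metric Set
open scoped ContDiff
open Crest.GeometryTopology.CoordMetric Crest.GeometryTopology.AffineMaximal
open Crest.Agent.R236.Jet Crest.Agent.R202.SphDiv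

noncomputable section

namespace Crest.Agent.R246.D2x782

variable {n : ℕ}

local notation "EE" => EuclideanSpace ℝ (Fin n)

/-- `|x|² ⟨∇ζ, ∇R⟩`: the spherical scalar product of gradients -/
def sdot (ζ R : EuclideanSpace ℝ (Fin n) → ℝ) (x : EuclideanSpace ℝ (Fin n)) : ℝ :=
  nsq x * ∑ j, pderiv j ζ x * pderiv j R x

theorem sph_ne (z : Sph n) : (z : EE) ≠ 0 := by
  intro h
  have h1 : ‖(z : EE)‖ = 1 := by simp
  rw [h, norm_zero] at h1
  exact zero_ne_one h1

theorem nsq_sph (z : Sph n) : nsq (z : EE) = 1 := by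
  rw [nsq_eq]; simp

theorem smul_sph_ne {ρ : ℝ} (hρ : 0 < ρ) (z : Sph n) : ρ • (z : EE) ≠ 0 :=
  smul_ne_zero hρ.ne' (sph_ne z)

/-- a function continuous away from `0` restricts to a continuous function on the sphere -/
theorem continuous_sph {f : EE → ℝ} (hf : ∀ x : EE, x ≠ 0 → ContinuousAt f x) :
    Continuous fun z : Sph n => f (z : EE) :=
  continuous_iff_continuousAt.2 fun z =>
    (hf z (sph_ne z)).comp (continuous_subtype_val.continuousAt (x := z))

theorem integrable_sph {f : EE → ℝ} (hf : ∀ x : EE, x ≠ 0 → ContinuousAt f x) :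
    Integrable (fun z : Sph n => f (z : EE)) (sig n) :=
  (continuous_sph hf).integrable_of_hasCompactSupport (HasCompactSupport.of_compactSpace _)

/-- INTEGRATION BY PARTS ON THE SPHERE -/
theorem sphere_ibp (hn : 0 < n) {R ζ : EE → ℝ} (h : SmHom0 R)
    (hζ : ∀ x : EE, x ≠ 0 → ContDiffAt ℝ 1 ζ x) :
    ∫ z : Sph n, (ζ z * slap R z + sdot ζ R z) ∂(sig n) = 0 := by
  set X : Fin n → EE → ℝ := fun i x => ζ x * pderiv i R x with hX
  have hXC : ∀ i, ContDiffOn ℝ 1 (X i) {0}ᶜ := by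
    intro i x hx
    exact ((hζ x hx).mul ((h.sp hx i).of_le (by exact_mod_cast le_top))).contDiffWithinAt
  have h1 := flux_deriv hn X hXC (r := 1) one_pos
  have h2 : (fun ρ : ℝ => ρ ^ (n - 1) * ∫ z : Sph n, ∑ i, X i (ρ • (z : EE)) * (z : EE) i
      ∂(sig n)) =ᶠ[𝓝 1] fun _ => 0 := by
    filter_upwards [Ioi_mem_nhds (zero_lt_one (α := ℝ))] with ρ hρ
    have hρ' : (0 : ℝ) < ρ := hρ
    have h3 : ∀ z : Sph n, ∑ i, X i (ρ • (z : EE)) * (z : EE) i = 0 := by
      intro z
      have h4 := h.euler (smul_sph_ne hρ' z)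
      have h5 : ∑ i, X i (ρ • (z : EE)) * (z : EE) i =
          ζ (ρ • (z : EE)) * (ρ⁻¹ * ∑ i, (ρ • (z : EE)) i * pderiv i R (ρ • (z : EE))) := by
        rw [Finset.mul_sum, Finset.mul_sum]
        refine Finset.sum_congr rfl fun i _ => ?_
        simp only [hX, PiLp.smul_apply, smul_eq_mul]
        field_simp
      rw [h5, h4]; simp
    simp only [h3, integral_zero, mul_zero]
  have h6 : ∫ z : Sph n, dv X ((1 : ℝ) • (z : EE)) ∂(sig n) = 0 := by
    have h7 := (h1.congr_of_eventuallyEq h2.symm).unique (hasDerivAt_const (1 : ℝ) (0 : ℝ))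
    simpa using h7
  rw [← h6]
  refine integral_congr_ae (Eventually.of_forall fun z => ?_)
  show ζ z * slap R z + sdot ζ R z = dv X ((1 : ℝ) • (z : EE))
  rw [one_smul]
  unfold slap sdot dv lapl
  rw [nsq_sph, one_mul, one_mul, Finset.mul_sum, ← Finset.sum_add_distrib]
  refine Finset.sum_congr rfl fun i _ => ?_
  simp only [hX]
  rw [pderiv_mul ((hζ z (sph_ne z)).differentiableAt one_ne_zero) (sm_diff (h.sp (sph_ne z) i))]
  show _ = ζ z * hessianMat R z i i + _
  ring

theorem integral_slap (hn : 0 < n) {R : EE → ℝ} (h : SmHom0 R) :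
    ∫ z : Sph n, slap R z ∂(sig n) = 0 := by
  have h1 := sphere_ibp hn h (ζ := fun _ => 1) (fun x _ => contDiffAt_const)
  rw [← h1]
  refine integral_congr_ae (Eventually.of_forall fun z => ?_)
  show slap R z = 1 * slap R z + sdot (fun _ => 1) R z
  unfold sdot
  simp [pderiv_const]

/-- the equation of `R = ε artanh u` for an Allen–Cahn solution `u` on the sphere -/
def ACeq (ε : ℝ) (R : EuclideanSpace ℝ (Fin n) → ℝ) : Prop :=
  ∀ x : EuclideanSpace ℝ (Fin n), x ≠ 0 →
    slap R x = 2 / ε * Real.tanh (R x / ε) * (sgsq R x - 1)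

/-- the energy density of `u = tanh (R/ε)` -/
def eden (ε : ℝ) (R : EuclideanSpace ℝ (Fin n) → ℝ) (x : EuclideanSpace ℝ (Fin n)) : ℝ :=
  1 / (2 * ε) * (1 - Real.tanh (R x / ε) ^ 2) ^ 2 * (1 + sgsq R x)

/-- the energy defect density `(1-g)(1-|t|)³(3+|t|)/(6ε)` -/
def dden (ε : ℝ) (R : EuclideanSpace ℝ (Fin n) → ℝ) (x : EuclideanSpace ℝ (Fin n)) : ℝ :=
  1 / ε * (1 - sgsq R x) *
    ((1 - |Real.tanh (R x / ε)|) ^ 3 * (3 + |Real.tanh (R x / ε)|) / 6)

theorem hasDerivAt_tanh (s : ℝ) : HasDerivAt Real.tanh (1 - Real.tanh s ^ 2) s := by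
  have hc := (Real.cosh_pos s).ne'
  have h1 : HasDerivAt (fun s => Real.sinh s / Real.cosh s)
      ((Real.cosh s * Real.cosh s - Real.sinh s * Real.sinh s) / Real.cosh s ^ 2) s :=
    (Real.hasDerivAt_sinh s).div (Real.hasDerivAt_cosh s) hc
  have h2 : Real.tanh = fun s => Real.sinh s / Real.cosh s := by
    funext s; exact Real.tanh_eq_sinh_div_cosh s
  rw [h2]
  convert h1 using 1
  field_simp

theorem tanh_sq_lt_one (s : ℝ) : Real.tanh s ^ 2 < 1 := by
  rw [Real.tanh_eq_sinh_div_cosh, div_pow, div_lt_one (pow_pos (Real.cosh_pos s) 2)]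
  have := Real.cosh_sq s
  linarith

theorem abs_tanh_lt_one (s : ℝ) : |Real.tanh s| < 1 := by
  rw [← sq_lt_one_iff_abs_lt_one]; exact tanh_sq_lt_one s

theorem tanh_contDiff : ContDiff ℝ ∞ Real.tanh := by
  have h2 : Real.tanh = fun s => Real.sinh s / Real.cosh s := by
    funext s; exact Real.tanh_eq_sinh_div_cosh s
  rw [h2]
  exact Real.contDiff_sinh.div Real.contDiff_cosh fun x => (Real.cosh_pos x).ne'

/-- MODICA's bound for Allen–Cahn solutions -/
theorem modica (hn : 3 ≤ n) {ε : ℝ} (hε : 0 < ε) {R : EE → ℝ} (h : SmHom0 R) (hR : ACeq ε R)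
    {x : EE} (hx : x ≠ 0) : sgsq R x < 1 := by
  refine modica_general hn h (β := fun t => 2 / ε * Real.tanh (t / ε))
    (β' := fun t => 2 / ε * ((1 - Real.tanh (t / ε) ^ 2) * (1 / ε))) ?_ ?_ hR hx
  · intro t
    have h1 : HasDerivAt (fun t : ℝ => t / ε) (1 / ε) t := (hasDerivAt_id t).div_const ε
    exact ((hasDerivAt_tanh (t / ε)).comp t h1).const_mul (2 / ε)
  · intro t
    have := tanh_sq_lt_one (t / ε)
    have h1 : 0 ≤ 1 - Real.tanh (t / ε) ^ 2 := by linarith
    positivity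

/-- LOCALISED ENERGY IDENTITY:
`∫ ζ e = (2/3) ∫ ζ |Δ_S R| + ∫ ζ (defect) - ∫ (t - t³/3) ⟨∇ζ, ∇R⟩`. -/
theorem energy_identity_loc (hn : 3 ≤ n) {ε : ℝ} (hε : 0 < ε) {R ζ : EE → ℝ} (h : SmHom0 R)
    (hR : ACeq ε R) (hζ : ∀ x : EE, x ≠ 0 → ContDiffAt ℝ 1 ζ x) :
    ∫ z : Sph n, ζ z * eden ε R z ∂(sig n) =
      2 / 3 * (∫ z : Sph n, ζ z * |slap R z| ∂(sig n)) + (∫ z : Sph n, ζ z * dden ε R z ∂(sig n))
        - ∫ z : Sph n, (Real.tanh (R z / ε) - Real.tanh (R z / ε) ^ 3 / 3) * sdot ζ R z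
          ∂(sig n) := by
  have hn0 : 0 < n := by omega
  set t : EE → ℝ := fun x => Real.tanh (R x / ε) with ht
  set A : EE → ℝ := fun x => t x - t x ^ 3 / 3 with hA
  have htC : ∀ x : EE, x ≠ 0 → ContDiffAt ℝ ∞ t x := fun x hx =>
    tanh_contDiff.contDiffAt.comp x ((h.smooth x hx).div_const ε)
  have hAC : ∀ x : EE, x ≠ 0 → ContDiffAt ℝ ∞ A x := fun x hx =>
    (htC x hx).sub (((htC x hx).pow 3).div_const 3)
  have hAd : ∀ x : EE, x ≠ 0 → ∀ j, pderiv j A x = 1 / ε * (1 - t x ^ 2) ^ 2 * pderiv j R x := by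
    intro x hx j
    have h1 : HasDerivAt (fun s : ℝ => Real.tanh (s / ε) - Real.tanh (s / ε) ^ 3 / 3)
        (1 / ε * (1 - Real.tanh (R x / ε) ^ 2) ^ 2) (R x) := by
      have h2 : HasDerivAt (fun t : ℝ => t / ε) (1 / ε) (R x) := (hasDerivAt_id _).div_const ε
      have h3 : HasDerivAt (fun s : ℝ => Real.tanh (s / ε))
        ((1 - Real.tanh (R x / ε) ^ 2) * (1 / ε)) (R x) :=
        HasDerivAt.comp (h₂ := Real.tanh) (h := fun t : ℝ => t / ε) (R x)
          (hasDerivAt_tanh (R x / ε)) h2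
      have h4 := h3.fun_sub ((h3.fun_pow 3).div_const 3)
      refine h4.congr_deriv ?_
      push_cast
      ring
    exact pderiv_comp (φ := fun s : ℝ => Real.tanh (s / ε) - Real.tanh (s / ε) ^ 3 / 3) h1
      (sm_diff (h.smooth x hx)) j
  have hibp := sphere_ibp hn0 h (ζ := fun x => ζ x * A x)
    (fun x hx => (hζ x hx).mul ((hAC x hx).of_le (by exact_mod_cast le_top)))
  -- pointwise form
  have hpt : ∀ z : Sph n, ζ z * A z * slap R z + sdot (fun x => ζ x * A x) R z =
      ζ z * eden ε R z - 2 / 3 * (ζ z * |slap R z|) - ζ z * dden ε R z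
        + A z * sdot ζ R z := by
    intro z
    have hz := sph_ne z
    have hg := modica hn hε h hR hz
    have hsd : sdot (fun x => ζ x * A x) R z =
        A z * sdot ζ R z + ζ z * (1 / ε * (1 - t z ^ 2) ^ 2) * sgsq R z := by
      unfold sdot sgsq gsq
      rw [nsq_sph, one_mul, one_mul, one_mul, Finset.mul_sum, Finset.mul_sum,
        ← Finset.sum_add_distrib]
      refine Finset.sum_congr rfl fun j _ => ?_
      rw [pderiv_mul ((hζ z hz).differentiableAt one_ne_zero) (sm_diff (hAC z hz)), hAd z hz j]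
      ring
    have habs : |slap R z| = 2 / ε * |t z| * (1 - sgsq R z) := by
      rw [hR z hz, abs_mul, abs_mul, abs_of_pos (by positivity : 0 < 2 / ε),
        abs_of_neg (by linarith : sgsq R z - 1 < 0)]
      ring
    rw [hsd, habs, hR z hz]
    simp only [eden, dden, hA, ht]
    set τ := Real.tanh (R z / ε)
    have h2 : |τ| ^ 2 = τ ^ 2 := sq_abs τ
    have h4 : |τ| ^ 4 = τ ^ 4 := by rw [show |τ| ^ 4 = (|τ| ^ 2) ^ 2 by ring, h2]; ring
    have e1 : (1 - |τ|) ^ 3 * (3 + |τ|) / 6 = 1 / 2 - 4 / 3 * |τ| + τ ^ 2 - τ ^ 4 / 6 := by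
      rw [← h2, ← h4]; ring
    rw [e1]
    field_simp
    ring
  -- continuity and integrability
  have hζc : ∀ x : EE, x ≠ 0 → ContinuousAt ζ x := fun x hx => (hζ x hx).continuousAt
  have htc : ∀ x : EE, x ≠ 0 → ContinuousAt t x := fun x hx => (htC x hx).continuousAt
  have hAc : ∀ x : EE, x ≠ 0 → ContinuousAt A x := fun x hx => (hAC x hx).continuousAt
  have hsl : ∀ x : EE, x ≠ 0 → ContinuousAt (slap R) x := fun x hx =>
    (h.smooth_slap hx).continuousAt
  have hsg : ∀ x : EE, x ≠ 0 → ContinuousAt (sgsq R) x := fun x hx =>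
    (h.smooth_sgsq hx).continuousAt
  have hnc : ∀ x : EE, ContinuousAt (nsq (n := n)) x := fun x => (smooth_nsq x).continuousAt
  have hζp : ∀ x : EE, x ≠ 0 → ∀ j, ContinuousAt (fun y => pderiv j ζ y) x := by
    intro x hx j
    have h1 : ContDiffAt ℝ 0 (fderiv ℝ ζ) x := (hζ x hx).fderiv_right (by norm_num)
    exact (h1.clm_apply contDiffAt_const).continuousAt
  have hsd : ∀ x : EE, x ≠ 0 → ContinuousAt (sdot ζ R) x := by
    intro x hx
    refine (hnc x).mul ?_
    exact tendsto_finsetSum _ fun j _ => (hζp x hx j).mul (h.sp hx j).continuousAt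
  have i1 : Integrable (fun z : Sph n => ζ z * eden ε R z) (sig n) := by
    refine integrable_sph (f := fun x => ζ x * eden ε R x) fun x hx => (hζc x hx).mul ?_
    exact (continuousAt_const.mul ((continuousAt_const.sub ((htc x hx).pow 2)).pow 2)).mul
      (continuousAt_const.add (hsg x hx))
  have i2 : Integrable (fun z : Sph n => ζ z * |slap R z|) (sig n) :=
    integrable_sph (f := fun x => ζ x * |slap R x|) fun x hx => (hζc x hx).mul (hsl x hx).abs
  have i3 : Integrable (fun z : Sph n => ζ z * dden ε R z) (sig n) := by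
    refine integrable_sph (f := fun x => ζ x * dden ε R x) fun x hx => (hζc x hx).mul ?_
    refine (continuousAt_const.mul (continuousAt_const.sub (hsg x hx))).mul ?_
    exact (((continuousAt_const.sub (htc x hx).abs).pow 3).mul
      (continuousAt_const.add (htc x hx).abs)).div_const 6
  have i4 : Integrable (fun z : Sph n => A z * sdot ζ R z) (sig n) :=
    integrable_sph (f := fun x => A x * sdot ζ R x) fun x hx => (hAc x hx).mul (hsd x hx)
  have hfin : ∫ z : Sph n, (ζ z * eden ε R z - 2 / 3 * (ζ z * |slap R z|) - ζ z * dden ε R z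
        + A z * sdot ζ R z) ∂(sig n) = 0 := by
    rw [← hibp]
    exact integral_congr_ae (Eventually.of_forall fun z => (hpt z).symm)
  have j2 : Integrable (fun z : Sph n => 2 / 3 * (ζ z * |slap R z|)) (sig n) := i2.const_mul _
  have j3 : Integrable (fun z : Sph n => ζ z * eden ε R z - 2 / 3 * (ζ z * |slap R z|)) (sig n) :=
    i1.sub j2
  have j4 : Integrable (fun z : Sph n => ζ z * eden ε R z - 2 / 3 * (ζ z * |slap R z|)
      - ζ z * dden ε R z) (sig n) := j3.sub i3
  have e1 := integral_add j4 i4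
  have e2 := integral_sub j3 i3
  have e3 := integral_sub i1 j2
  have e4 : ∫ z : Sph n, 2 / 3 * (ζ z * |slap R z|) ∂(sig n) =
      2 / 3 * ∫ z : Sph n, ζ z * |slap R z| ∂(sig n) := integral_const_mul _ _
  have e5 : ∫ z : Sph n, A z * sdot ζ R z ∂(sig n) =
      ∫ z : Sph n, (Real.tanh (R z / ε) - Real.tanh (R z / ε) ^ 3 / 3) * sdot ζ R z ∂(sig n) := rfl
  rw [e1, e2, e3, e4] at hfin
  rw [← e5]
  linarith

theorem dden_nonneg (hn : 3 ≤ n) {ε : ℝ} (hε : 0 < ε) {R : EE → ℝ} (h : SmHom0 R)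
    (hR : ACeq ε R) {x : EE} (hx : x ≠ 0) : 0 ≤ dden ε R x := by
  have h1 := modica hn hε h hR hx
  have h2 := abs_tanh_lt_one (R x / ε)
  have h3 : 0 ≤ 1 - |Real.tanh (R x / ε)| := by linarith
  have h4 : 0 ≤ 1 - sgsq R x := by linarith
  unfold dden
  positivity

/-- GLOBAL ENERGY IDENTITY -/
theorem energy_identity (hn : 3 ≤ n) {ε : ℝ} (hε : 0 < ε) {R : EE → ℝ} (h : SmHom0 R)
    (hR : ACeq ε R) :
    ∫ z : Sph n, eden ε R z ∂(sig n) =
      2 / 3 * (∫ z : Sph n, |slap R z| ∂(sig n)) + ∫ z : Sph n, dden ε R z ∂(sig n) := by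
  have h1 := energy_identity_loc hn hε h hR (ζ := fun _ => 1) fun x _ => contDiffAt_const
  have h2 : ∀ z : Sph n, sdot (fun _ => 1) R z = 0 := by
    intro z; unfold sdot; simp [pderiv_const]
  simpa [h2] using h1

/-- `∫ |Δ_S R| ≤ (3/2) E_ε` -/
theorem integral_abs_slap_le (hn : 3 ≤ n) {ε : ℝ} (hε : 0 < ε) {R : EE → ℝ} (h : SmHom0 R)
    (hR : ACeq ε R) :
    ∫ z : Sph n, |slap R z| ∂(sig n) ≤ 3 / 2 * ∫ z : Sph n, eden ε R z ∂(sig n) := by
  have h1 := energy_identity hn hε h hR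
  have h2 : 0 ≤ ∫ z : Sph n, dden ε R z ∂(sig n) :=
    integral_nonneg fun z => dden_nonneg hn hε h hR (sph_ne z)
  linarith

/-- `∫_{R>0} (-Δ_S R) = (1/2) ∫ |Δ_S R|` -/
theorem integral_pos_part (hn : 3 ≤ n) {ε : ℝ} (hε : 0 < ε) {R : EE → ℝ} (h : SmHom0 R)
    (hR : ACeq ε R) :
    ∫ z : Sph n, (if 0 < R z then - slap R z else 0) ∂(sig n) =
      1 / 2 * ∫ z : Sph n, |slap R z| ∂(sig n) := by
  have hn0 : 0 < n := by omega
  have hsl : ∀ x : EE, x ≠ 0 → ContinuousAt (slap R) x := fun x hx =>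
    (h.smooth_slap hx).continuousAt
  have hpt : ∀ z : Sph n, (if 0 < R z then - slap R z else 0) =
      1 / 2 * |slap R z| - 1 / 2 * slap R z := by
    intro z
    have hg := modica hn hε h hR (sph_ne z)
    have h2e : 0 < 2 / ε := by positivity
    split_ifs with hz
    · have ht : 0 < Real.tanh (R z / ε) := by
        rw [Real.tanh_eq_sinh_div_cosh]
        exact div_pos (Real.sinh_pos_iff.2 (div_pos hz hε)) (Real.cosh_pos _)
      have hneg : slap R z ≤ 0 := by
        rw [hR z (sph_ne z)]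
        have : 0 < 2 / ε * Real.tanh (R z / ε) := mul_pos h2e ht
        nlinarith
      rw [abs_of_nonpos hneg]; ring
    · have ht : Real.tanh (R z / ε) ≤ 0 := by
        rw [Real.tanh_eq_sinh_div_cosh]
        refine div_nonpos_of_nonpos_of_nonneg (Real.sinh_nonpos_iff.2 ?_) (Real.cosh_pos _).le
        exact div_nonpos_of_nonpos_of_nonneg (not_lt.1 hz) hε.le
      have hpos : 0 ≤ slap R z := by
        rw [hR z (sph_ne z)]
        have : 2 / ε * Real.tanh (R z / ε) ≤ 0 := mul_nonpos_of_nonneg_of_nonpos h2e.le ht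
        nlinarith
      rw [abs_of_nonneg hpos]; ring
  have i1 : Integrable (fun z : Sph n => |slap R z|) (sig n) :=
    integrable_sph (f := fun x => |slap R x|) fun x hx => (hsl x hx).abs
  have i2 : Integrable (fun z : Sph n => slap R z) (sig n) :=
    integrable_sph (f := fun x => slap R x) hsl
  rw [integral_congr_ae (Eventually.of_forall hpt), integral_sub (i1.const_mul _) (i2.const_mul _),
    integral_const_mul, integral_const_mul, integral_slap hn0 h]
  ring

end Crest.Agent.R246.D2x782
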