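import Crest.Agent.R246.LimDef_538
import Crest.Agent.R246.MSDefs_852
import Crest.Agent.R246.D2Energy_782

/-!
Row 246, block F (helper782): the PROVIDER of the hypotheses `MS852.Hyp` of Lemma MS from a flat weighted
Allen–Cahn solution `Lim538.ACSol`, rescaled to the unit scale, with the transformation of the energies.
-/

set_option autoImplicit false

open MeasureTheory Filter Topology Metric Set
open scoped ContDiff RealInnerProductSpace Gradient
open Crest.GeometryTopology.CoordMetric Crest.GeometryTopology.AffineMaximal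
open Crest.Agent.R236.Jet Crest.Agent.R246.D2x782 Crest.Agent.R246.Lim538

noncomputable section

namespace Crest.Agent.R246.MSP782

variable {n : ℕ}

local notation "EE" => EuclideanSpace ℝ (Fin n)

/-! ### gradients -/

theorem grad_apply (f : EuclideanSpace ℝ (Fin n) → ℝ) (x : EuclideanSpace ℝ (Fin n)) (i : Fin n) :
    (∇ f x) i = pderiv i f x := by
  have h1 : ⟪∇ f x, EuclideanSpace.single i (1 : ℝ)⟫ = fderiv ℝ f x (EuclideanSpace.single i 1) := by
    unfold gradient
    exact InnerProductSpace.toDual_symm_apply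
  rw [EuclideanSpace.inner_single_right] at h1
  simpa [pderiv] using h1

theorem norm_grad_sq (f : EuclideanSpace ℝ (Fin n) → ℝ) (x : EuclideanSpace ℝ (Fin n)) :
    ‖∇ f x‖ ^ 2 = gsq f x := by
  rw [EuclideanSpace.real_norm_sq_eq, gsq]
  exact Finset.sum_congr rfl fun i _ => by rw [grad_apply, sq]

theorem fderiv_grad (φ r : EuclideanSpace ℝ (Fin n) → ℝ) (x : EuclideanSpace ℝ (Fin n)) :
    fderiv ℝ φ x (∇ r x) = dot φ r x := by
  rw [fderiv_eq_sum, dot]
  exact Finset.sum_congr rfl fun i _ => by rw [grad_apply]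

theorem S4_eq (ε : ℝ) (r : EuclideanSpace ℝ (Fin n) → ℝ) (x : EuclideanSpace ℝ (Fin n)) :
    MS852.S4 ε r x = (1 - Real.tanh (r x / ε) ^ 2) ^ 2 := by
  unfold MS852.S4
  have hc := (Real.cosh_pos (r x / ε)).ne'
  have h1 := Real.cosh_sq (r x / ε)
  rw [Real.tanh_eq_sinh_div_cosh]
  have h2 : 1 - (Real.sinh (r x / ε) / Real.cosh (r x / ε)) ^ 2 =
      1 / Real.cosh (r x / ε) ^ 2 := by
    field_simp
    linarith
  rw [h2]
  field_simp

theorem q_eq (ε : ℝ) (h r : EuclideanSpace ℝ (Fin n) → ℝ) (x : EuclideanSpace ℝ (Fin n)) :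
    MS852.q ε h r x = qq h r ε x := by
  unfold MS852.q qq
  rw [S4_eq, norm_grad_sq]
  ring

/-! ### weak form and stationarity of smooth solutions -/

variable {U : Set (EuclideanSpace ℝ (Fin n))} {h r φ : EuclideanSpace ℝ (Fin n) → ℝ} {ε : ℝ}

theorem cdOn_pderiv (hU : IsOpen U) (hr : ContDiffOn ℝ ∞ r U) (i : Fin n) :
    ContDiffOn ℝ ∞ (fun x => pderiv i r x) U := fun x hx =>
  (sm_pderiv (hr.contDiffAt (hU.mem_nhds hx)) i).contDiffWithinAt

/-- weak form -/
theorem weak_ac (H : ACSol U h r ε) (hφ : Cut U φ) :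
    ∫ x, dot φ r x = ∫ x, 2 / ε * Real.tanh (r x / ε) * (h x - gsq r x) * φ x := by
  have hU := H.isOpen
  have h1 : ∀ x, dot φ r x = ∑ i, pderiv i r x * pderiv i φ x := fun x =>
    Finset.sum_congr rfl fun i _ => mul_comm _ _
  have h2 : ∀ i, ContDiffOn ℝ 1 (fun x => pderiv i r x) U := fun i =>
    (cdOn_pderiv hU H.smooth_r i).of_le (by simp)
  have hint : ∀ i, Integrable (fun x => pderiv i r x * pderiv i φ x) := fun i =>
    integrable_mul_of_tsupport hU (h2 i).continuousOn (hφ.cont_pd i) (hφ.cs_pd i)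
      ((Cut.tsupport_pd i).trans hφ.sub)
  have hint2 : ∀ i, Integrable (fun x => pderiv i (fun y => pderiv i r y) x * φ x) := fun i =>
    integrable_mul_of_tsupport hU
      ((cdOn_pderiv hU (cdOn_pderiv hU H.smooth_r i) i).continuousOn) hφ.cd.continuous hφ.cs hφ.sub
  rw [integral_congr_ae (Eventually.of_forall h1), integral_finset_sum _ fun i _ => hint i]
  rw [Finset.sum_congr rfl fun i _ => ibp hU (h2 i) hφ i, Finset.sum_neg_distrib,
    ← integral_finset_sum _ fun i _ => hint2 i, ← integral_neg]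
  refine integral_congr_ae (Eventually.of_forall fun x => ?_)
  show -(∑ i, pderiv i (fun y => pderiv i r y) x * φ x) = _
  by_cases hx : x ∈ U
  · have h3 := H.pde x hx
    have h4 : ∑ i, pderiv i (fun y => pderiv i r y) x * φ x = lapl r x * φ x := by
      rw [← Finset.sum_mul]; rfl
    rw [h4, h3]; ring
  · simp [hφ.zero_out hx]

/-- the potential density `sech⁴(r/ε)/ε` -/
def ww (ε : ℝ) (r : EuclideanSpace ℝ (Fin n) → ℝ) (x : EuclideanSpace ℝ (Fin n)) : ℝ :=
  1 / ε * (1 - Real.tanh (r x / ε) ^ 2) ^ 2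

theorem cd_ww (hr : ContDiffOn ℝ ∞ r U) : ContDiffOn ℝ ∞ (ww ε r) U := by
  unfold ww
  have h1 : ContDiffOn ℝ ∞ (fun x => Real.tanh (r x / ε)) U :=
    tanh_contDiff.comp_contDiffOn (hr.div_const ε)
  exact contDiffOn_const.mul ((contDiffOn_const.sub (h1.pow 2)).pow 2)

theorem pderiv_ww {x : EE} (hr : DifferentiableAt ℝ r x) (i : Fin n) :
    pderiv i (ww ε r) x = -(4 / ε) * Real.tanh (r x / ε) * ww ε r x * pderiv i r x := by
  have h1 : HasDerivAt (fun s : ℝ => s / ε) (1 / ε) (r x) := (hasDerivAt_id _).div_const ε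
  have h2 : HasDerivAt (fun s : ℝ => Real.tanh (s / ε))
      ((1 - Real.tanh (r x / ε) ^ 2) * (1 / ε)) (r x) :=
    HasDerivAt.comp (h₂ := Real.tanh) (r x) (D2x782.hasDerivAt_tanh (r x / ε)) h1
  have h3 := (((h2.pow 2).const_sub 1).pow 2).const_mul (1 / ε)
  have h4 := pderiv_comp h3 hr i
  have h5 : (fun y : EE => 1 / ε * ((1 - Real.tanh (r y / ε) ^ 2) ^ 2)) = ww ε r := rfl
  simp only [Pi.pow_apply] at h4
  have h6 : pderiv i (ww ε r) x = _ := h4
  rw [h6, ww]
  push_cast
  ring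

theorem qq_eq (h r : EuclideanSpace ℝ (Fin n) → ℝ) (ε : ℝ) (x : EuclideanSpace ℝ (Fin n)) :
    qq h r ε x = ww ε r x * (1 / 2 * (h x + gsq r x)) := by
  unfold qq ww; ring

theorem cd_gsq (hU : IsOpen U) (hr : ContDiffOn ℝ ∞ r U) : ContDiffOn ℝ ∞ (gsq r) U := by
  unfold gsq
  exact ContDiffOn.sum fun i _ => (cdOn_pderiv hU hr i).mul (cdOn_pderiv hU hr i)

theorem cd_qq (hU : IsOpen U) (hh : ContDiffOn ℝ ∞ h U) (hr : ContDiffOn ℝ ∞ r U) :
    ContDiffOn ℝ ∞ (qq h r ε) U := by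
  have : qq h r ε = fun x => ww ε r x * (1 / 2 * (h x + gsq r x)) := funext fun x => qq_eq h r ε x
  rw [this]
  exact (cd_ww hr).mul (contDiffOn_const.mul (hh.add (cd_gsq hU hr)))

theorem pderiv_gsq' {x : EE} (hr : ContDiffAt ℝ ∞ r x) (i : Fin n) :
    pderiv i (gsq r) x = 2 * ∑ j, pderiv j r x * hessianMat r x i j := by
  unfold gsq
  rw [pderiv_sum (f := fun j (y : EE) => pderiv j r y * pderiv j r y)
    (fun j _ => (sm_diff (sm_pderiv hr j)).mul (sm_diff (sm_pderiv hr j))), Finset.mul_sum]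
  refine Finset.sum_congr rfl fun j _ => ?_
  rw [pderiv_mul (sm_diff (sm_pderiv hr j)) (sm_diff (sm_pderiv hr j))]
  show _ = 2 * (pderiv j r x * pderiv i (fun y => pderiv j r y) x)
  ring

/-- stationarity, coordinate directions -/
theorem stat_ac_coord (H : ACSol U h r ε) (hφ : Cut U φ) (i : Fin n) :
    ∫ x, (qq h r ε x * pderiv i φ x - ww ε r x * pderiv i r x * dot φ r x) =
      - ∫ x, ww ε r x / 2 * pderiv i h x * φ x := by
  classical
  have hU := H.isOpen
  set F : Fin n → EE → ℝ := fun j x =>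
    (if j = i then (1 : ℝ) else 0) * qq h r ε x - ww ε r x * pderiv i r x * pderiv j r x with hF
  have hqq : ContDiffOn ℝ ∞ (qq h r ε) U := cd_qq hU H.smooth_h H.smooth_r
  have hww : ContDiffOn ℝ ∞ (ww ε r) U := cd_ww H.smooth_r
  have hpd : ∀ i, ContDiffOn ℝ ∞ (fun x => pderiv i r x) U := fun i => cdOn_pderiv hU H.smooth_r i
  have hFs : ∀ j, ContDiffOn ℝ ∞ (F j) U := fun j =>
    (contDiffOn_const.mul hqq).sub ((hww.mul (hpd i)).mul (hpd j))
  have hF1 : ∀ j, ContDiffOn ℝ 1 (F j) U := fun j => (hFs j).of_le (by simp)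
  have h1 : ∀ x, qq h r ε x * pderiv i φ x - ww ε r x * pderiv i r x * dot φ r x =
      ∑ j, F j x * pderiv j φ x := by
    intro x
    simp only [hF, sub_mul, Finset.sum_sub_distrib]
    congr 1
    · simp
    · rw [dot, Finset.mul_sum]
      exact Finset.sum_congr rfl fun j _ => by ring
  have hint : ∀ j, Integrable (fun x => F j x * pderiv j φ x) := fun j =>
    integrable_mul_of_tsupport hU (hF1 j).continuousOn (hφ.cont_pd j) (hφ.cs_pd j)
      ((Cut.tsupport_pd j).trans hφ.sub)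
  have hint2 : ∀ j, Integrable (fun x => pderiv j (F j) x * φ x) := fun j =>
    integrable_mul_of_tsupport hU ((cdOn_pderiv hU (hFs j) j).continuousOn) hφ.cd.continuous
      hφ.cs hφ.sub
  rw [integral_congr_ae (Eventually.of_forall h1), integral_finset_sum _ fun j _ => hint j]
  rw [Finset.sum_congr rfl fun j _ => ibp hU (hF1 j) hφ j, Finset.sum_neg_distrib,
    ← integral_finset_sum _ fun j _ => hint2 j]
  congr 1
  refine integral_congr_ae (Eventually.of_forall fun x => ?_)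
  show ∑ j, pderiv j (F j) x * φ x = _
  by_cases hx : x ∈ U
  · have hrx : ContDiffAt ℝ ∞ r x := H.smooth_r.contDiffAt (hU.mem_nhds hx)
    have hhx : ContDiffAt ℝ ∞ h x := H.smooth_h.contDiffAt (hU.mem_nhds hx)
    have hqx : ContDiffAt ℝ ∞ (qq h r ε) x := hqq.contDiffAt (hU.mem_nhds hx)
    have hwx : ContDiffAt ℝ ∞ (ww ε r) x := hww.contDiffAt (hU.mem_nhds hx)
    have hgx : ContDiffAt ℝ ∞ (gsq r) x := (cd_gsq hU H.smooth_r).contDiffAt (hU.mem_nhds hx)
    have e1 : ∀ j, pderiv j (F j) x = (if j = i then (1 : ℝ) else 0) * pderiv j (qq h r ε) x -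
        (ww ε r x * pderiv i r x * hessianMat r x j j +
          pderiv j r x * (ww ε r x * hessianMat r x j i +
            pderiv i r x * pderiv j (ww ε r) x)) := by
      intro j
      have d1 : DifferentiableAt ℝ (fun y => (if j = i then (1 : ℝ) else 0) * qq h r ε y) x :=
        (sm_diff hqx).const_mul _
      have d2 : DifferentiableAt ℝ (fun y => ww ε r y * pderiv i r y) x :=
        (sm_diff hwx).mul (sm_diff (sm_pderiv hrx i))
      have d3 : DifferentiableAt ℝ (fun y => ww ε r y * pderiv i r y * pderiv j r y) x :=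
        d2.mul (sm_diff (sm_pderiv hrx j))
      show pderiv j (fun y => (if j = i then (1 : ℝ) else 0) * qq h r ε y -
        ww ε r y * pderiv i r y * pderiv j r y) x = _
      rw [pderiv_sub (f := fun y => (if j = i then (1 : ℝ) else 0) * qq h r ε y) d1 d3,
        pderiv_cmul (sm_diff hqx),
        pderiv_mul (f := fun y => ww ε r y * pderiv i r y) (g := fun y => pderiv j r y)
          d2 (sm_diff (sm_pderiv hrx j)),
        pderiv_mul (g := fun y => pderiv i r y) (sm_diff hwx) (sm_diff (sm_pderiv hrx i))]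
      rfl
    have e2 : pderiv i (qq h r ε) x = ww ε r x * (1 / 2 * (pderiv i h x +
        2 * ∑ j, pderiv j r x * hessianMat r x i j)) +
        (1 / 2 * (h x + gsq r x)) * pderiv i (ww ε r) x := by
      have : qq h r ε = fun x => ww ε r x * (1 / 2 * (h x + gsq r x)) :=
        funext fun x => qq_eq h r ε x
      have d1 : DifferentiableAt ℝ (fun y => h y + gsq r y) x := (sm_diff hhx).add (sm_diff hgx)
      rw [this, pderiv_mul (g := fun x => 1 / 2 * (h x + gsq r x)) (sm_diff hwx) (d1.const_mul _),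
        pderiv_cmul d1, pderiv_add (sm_diff hhx) (sm_diff hgx), pderiv_gsq' hrx]
    have e3 : ∑ j, pderiv j (F j) x = ww ε r x / 2 * pderiv i h x := by
      rw [Finset.sum_congr rfl fun j _ => e1 j, Finset.sum_sub_distrib]
      have s1 : ∑ j, (if j = i then (1 : ℝ) else 0) * pderiv j (qq h r ε) x =
          pderiv i (qq h r ε) x := by simp
      have s2 : ∑ j, (ww ε r x * pderiv i r x * hessianMat r x j j +
          pderiv j r x * (ww ε r x * hessianMat r x j i +
            pderiv i r x * pderiv j (ww ε r) x)) =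
          ww ε r x * pderiv i r x * lapl r x + ww ε r x * (∑ j, pderiv j r x * hessianMat r x i j) +
          pderiv i r x * (-(4 / ε) * Real.tanh (r x / ε) * ww ε r x) * gsq r x := by
        unfold lapl gsq
        rw [Finset.mul_sum, Finset.mul_sum, Finset.mul_sum, ← Finset.sum_add_distrib,
          ← Finset.sum_add_distrib]
        refine Finset.sum_congr rfl fun j _ => ?_
        rw [pderiv_ww (sm_diff hrx) j, hess_symm hrx j i]
        ring
      rw [s1, s2, e2, H.pde x hx, pderiv_ww (sm_diff hrx) i]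
      ring
    rw [← Finset.sum_mul, e3]
  · simp [hφ.zero_out hx]

/-- stationarity -/
theorem stat_ac (H : ACSol U h r ε) (hφ : Cut U φ) (v : EE) :
    ∫ x, (qq h r ε x * fderiv ℝ φ x v - ww ε r x * fderiv ℝ r x v * dot φ r x) =
      - ∫ x, ww ε r x / 2 * fderiv ℝ h x v * φ x := by
  have hU := H.isOpen
  have hqq : ContDiffOn ℝ ∞ (qq h r ε) U := cd_qq hU H.smooth_h H.smooth_r
  have hww : ContDiffOn ℝ ∞ (ww ε r) U := cd_ww H.smooth_r
  have hpd : ∀ i, ContDiffOn ℝ ∞ (fun x => pderiv i r x) U := fun i => cdOn_pderiv hU H.smooth_r i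
  have hph : ∀ i, ContDiffOn ℝ ∞ (fun x => pderiv i h x) U := fun i => cdOn_pderiv hU H.smooth_h i
  have i1 : ∀ i, Integrable (fun x => qq h r ε x * pderiv i φ x) := fun i =>
    integrable_mul_of_tsupport hU hqq.continuousOn (hφ.cont_pd i) (hφ.cs_pd i)
      ((Cut.tsupport_pd i).trans hφ.sub)
  have i2 : ∀ i, Integrable (fun x => ww ε r x * pderiv i r x * dot φ r x) := by
    intro i
    have e : (fun x => ww ε r x * pderiv i r x * dot φ r x) =
        fun x => ∑ j, (ww ε r x * pderiv i r x * pderiv j r x) * pderiv j φ x := by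
      funext x
      rw [dot, Finset.mul_sum]
      exact Finset.sum_congr rfl fun j _ => by ring
    rw [e]
    exact integrable_finset_sum _ fun j _ => integrable_mul_of_tsupport hU
      (((hww.mul (hpd i)).mul (hpd j)).continuousOn) (hφ.cont_pd j) (hφ.cs_pd j)
      ((Cut.tsupport_pd j).trans hφ.sub)
  have i3 : ∀ i, Integrable (fun x => ww ε r x / 2 * pderiv i h x * φ x) := fun i =>
    integrable_mul_of_tsupport hU ((hww.continuousOn.div_const 2).mul (hph i).continuousOn)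
      hφ.cd.continuous hφ.cs hφ.sub
  have h1 : ∀ x, qq h r ε x * fderiv ℝ φ x v - ww ε r x * fderiv ℝ r x v * dot φ r x =
      ∑ i, v i * (qq h r ε x * pderiv i φ x - ww ε r x * pderiv i r x * dot φ r x) := by
    intro x
    rw [fderiv_eq_sum, fderiv_eq_sum, Finset.mul_sum, Finset.mul_sum, Finset.sum_mul,
      ← Finset.sum_sub_distrib]
    exact Finset.sum_congr rfl fun i _ => by ring
  have h2 : ∀ x, ww ε r x / 2 * fderiv ℝ h x v * φ x =
      ∑ i, v i * (ww ε r x / 2 * pderiv i h x * φ x) := by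
    intro x
    rw [fderiv_eq_sum, Finset.mul_sum, Finset.sum_mul]
    exact Finset.sum_congr rfl fun i _ => by ring
  rw [integral_congr_ae (Eventually.of_forall h1), integral_congr_ae (Eventually.of_forall h2),
    integral_finset_sum (f := fun i x => v i * (qq h r ε x * pderiv i φ x -
      ww ε r x * pderiv i r x * dot φ r x)) _ fun i _ => ((i1 i).sub (i2 i)).const_mul (v i),
    integral_finset_sum (f := fun i x => v i * (ww ε r x / 2 * pderiv i h x * φ x)) _
      fun i _ => (i3 i).const_mul (v i), ← Finset.sum_neg_distrib]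
  refine Finset.sum_congr rfl fun i _ => ?_
  rw [integral_const_mul, integral_const_mul, stat_ac_coord H hφ i]
  ring

/-! ### rescaling -/

theorem pderiv_affine {f : EuclideanSpace ℝ (Fin n) → ℝ} {p x : EuclideanSpace ℝ (Fin n)} {ρ : ℝ}
    (hf : DifferentiableAt ℝ f (p + ρ • x)) (i : Fin n) :
    pderiv i (fun y => f (p + ρ • y)) x = ρ * pderiv i f (p + ρ • x) := by
  have h1 : HasFDerivAt (fun y : EE => p + ρ • y) (ρ • ContinuousLinearMap.id ℝ EE) x :=
    ((hasFDerivAt_id x).const_smul ρ).const_add p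
  have h2 := hf.hasFDerivAt.comp x h1
  have h3 : (fun y => f (p + ρ • y)) = f ∘ fun y => p + ρ • y := rfl
  unfold pderiv
  rw [h3, h2.fderiv]
  simp

theorem cont_affine (p : EE) (ρ : ℝ) : Continuous fun x : EE => p + ρ • x := by fun_prop

theorem cd_affine (p : EE) (ρ : ℝ) : ContDiff ℝ ∞ fun x : EE => p + ρ • x := by fun_prop

theorem gsq_affine {p x : EE} {ρ : ℝ} (hρ : 0 < ρ)
    (hr : DifferentiableAt ℝ r (p + ρ • x)) :
    gsq (fun y => r (p + ρ • y) / ρ) x = gsq r (p + ρ • x) := by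
  unfold gsq
  refine Finset.sum_congr rfl fun j _ => ?_
  have h1 : DifferentiableAt ℝ (fun y : EE => r (p + ρ • y)) x :=
    DifferentiableAt.comp (g := r) x hr ((cd_affine p ρ).differentiable (by simp) x)
  have h2 : pderiv j (fun y => r (p + ρ • y) / ρ) x = pderiv j r (p + ρ • x) := by
    have h3 : (fun y => r (p + ρ • y) / ρ) = fun y => ρ⁻¹ * r (p + ρ • y) := by
      funext y; rw [div_eq_inv_mul]
    rw [h3, pderiv_cmul h1, pderiv_affine hr]
    field_simp
  rw [h2]

theorem pderiv_div_affine {p x : EE} {ρ : ℝ} (hρ : 0 < ρ)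
    (hr : DifferentiableAt ℝ r (p + ρ • x)) (j : Fin n) :
    pderiv j (fun y => r (p + ρ • y) / ρ) x = pderiv j r (p + ρ • x) := by
  have h1 : DifferentiableAt ℝ (fun y : EE => r (p + ρ • y)) x :=
    DifferentiableAt.comp (g := r) x hr ((cd_affine p ρ).differentiable (by simp) x)
  have h3 : (fun y => r (p + ρ • y) / ρ) = fun y => ρ⁻¹ * r (p + ρ • y) := by
    funext y; rw [div_eq_inv_mul]
  rw [h3, pderiv_cmul h1, pderiv_affine hr]
  field_simp

/-- rescaling of a flat weighted Allen–Cahn solution -/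
theorem rescale (H : ACSol U h r ε) (p : EE) {ρ : ℝ} (hρ : 0 < ρ) :
    ACSol ((fun x : EE => p + ρ • x) ⁻¹' U) (fun x => h (p + ρ • x)) (fun x => r (p + ρ • x) / ρ)
      (ε / ρ) := by
  have hU := H.isOpen
  have hV : IsOpen ((fun x : EE => p + ρ • x) ⁻¹' U) := hU.preimage (cont_affine p ρ)
  have hra : ∀ x : EE, p + ρ • x ∈ U → ContDiffAt ℝ ∞ r (p + ρ • x) := fun x hx =>
    H.smooth_r.contDiffAt (hU.mem_nhds hx)
  have hsm : ∀ {f : EE → ℝ}, ContDiffOn ℝ ∞ f U →
      ContDiffOn ℝ ∞ (fun x => f (p + ρ • x)) ((fun x : EE => p + ρ • x) ⁻¹' U) := fun hf =>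
    hf.comp (cd_affine p ρ).contDiffOn fun x hx => hx
  refine ⟨hV, div_pos H.eps_pos hρ, hsm H.smooth_h, (hsm H.smooth_r).div_const ρ, ?_, ?_⟩
  · intro x hx
    have h1 : ∀ j, pderiv j (fun y => pderiv j (fun z => r (p + ρ • z) / ρ) y) x =
        ρ * pderiv j (fun y => pderiv j r y) (p + ρ • x) := by
      intro j
      have h2 : (fun y => pderiv j (fun z => r (p + ρ • z) / ρ) y) =ᶠ[𝓝 x]
          fun y => pderiv j r (p + ρ • y) := by
        filter_upwards [hV.mem_nhds hx] with y hy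
        exact pderiv_div_affine hρ (sm_diff (hra y hy)) j
      rw [pderiv_congr h2, pderiv_affine (f := fun y => pderiv j r y)
        (sm_diff (sm_pderiv (hra x hx) j))]
    have h3 : lapl (fun x => r (p + ρ • x) / ρ) x = ρ * lapl r (p + ρ • x) := by
      unfold lapl
      rw [Finset.mul_sum]
      exact Finset.sum_congr rfl fun j _ => h1 j
    rw [h3, H.pde _ hx, gsq_affine hρ (sm_diff (hra x hx))]
    have h4 : r (p + ρ • x) / ρ / (ε / ρ) = r (p + ρ • x) / ε := by field_simp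
    rw [h4]
    have := H.eps_pos
    field_simp
  · intro x hx
    rw [gsq_affine hρ (sm_diff (hra x hx))]
    exact H.modica _ hx

/-! ### the provider -/

theorem exists_bump (hU : IsOpen U) {p : EE} {R : ℝ} (hR : 0 < R) (hsub : closedBall p R ⊆ U) :
    ∃ χ : EE → ℝ, ContDiff ℝ ∞ χ ∧ (∀ x ∈ closedBall p R, χ x = 1) ∧ tsupport χ ⊆ U := by
  obtain ⟨δ, hδ, hδU⟩ := (isCompact_closedBall p R).exists_cthickening_subset_open hU hsub
  rw [cthickening_closedBall hδ.le hR.le] at hδU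
  let f : ContDiffBump p := ⟨R, R + δ, hR, by linarith⟩
  refine ⟨f, f.contDiff, fun x hx => f.one_of_mem_closedBall hx, ?_⟩
  rw [f.tsupport_eq]
  show closedBall p (R + δ) ⊆ U
  rwa [add_comm]

theorem cd_cut {f χ : EE → ℝ} (hU : IsOpen U) (hf : ContDiffOn ℝ ∞ f U) (hχ : ContDiff ℝ ∞ χ)
    (hs : tsupport χ ⊆ U) : ContDiff ℝ ∞ fun x => χ x * f x := by
  rw [contDiff_iff_contDiffAt]
  intro x
  by_cases hx : x ∈ tsupport χ
  · exact hχ.contDiffAt.mul (hf.contDiffAt (hU.mem_nhds (hs hx)))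
  · have h0 : (fun x => χ x * f x) =ᶠ[𝓝 x] fun _ => 0 := by
      filter_upwards [(isClosed_tsupport χ).isOpen_compl.mem_nhds hx] with y hy
      rw [image_eq_zero_of_notMem_tsupport hy, zero_mul]
    exact contDiffAt_const.congr_of_eventuallyEq h0

/-- PROVIDER at unit scale: a flat weighted Allen–Cahn solution near `closedBall 0 2` gives `Hyp`. -/
theorem provider_unit (H : ACSol U h r ε) (hsub : closedBall (0 : EE) 2 ⊆ U) {a : EE}
    (ha : ‖a‖ = 1) {η : ℝ} (hη0 : 0 < η) (hη : η ≤ 1 / 100) (hεη : ε ≤ η ^ 3)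
    (near : ∀ x ∈ ball (0 : EE) 2, |h x - 1| ≤ η)
    (dh : ∀ x ∈ ball (0 : EE) 2, ‖fderiv ℝ h x‖ ≤ η)
    (flat : ∀ x ∈ ball (0 : EE) 2, |r x - ⟪a, x⟫| ≤ η) :
    ∃ h' r' : EE → ℝ, MS852.Hyp a ε η h' r' ∧ (∀ x ∈ closedBall (0 : EE) 2, h' x = h x) ∧
      (∀ x ∈ closedBall (0 : EE) 2, r' x = r x) ∧
      (∀ x ∈ ball (0 : EE) 2, MS852.q ε h' r' x = qq h r ε x) := by
  have hU := H.isOpen
  obtain ⟨χ, hχ, hχ1, hχs⟩ := exists_bump hU two_pos hsub
  have hloc : ∀ (f : EE → ℝ) (x : EE), x ∈ ball (0 : EE) 2 →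
      (fun y => χ y * f y) =ᶠ[𝓝 x] f := by
    intro f x hx
    filter_upwards [isOpen_ball.mem_nhds hx] with y hy
    rw [hχ1 y (ball_subset_closedBall hy), one_mul]
  have hgr : ∀ (f : EE → ℝ) (x : EE), x ∈ ball (0 : EE) 2 →
      ∇ (fun y => χ y * f y) x = ∇ f x := by
    intro f x hx
    unfold gradient
    rw [(hloc f x hx).fderiv_eq]
  have hfd : ∀ (f : EE → ℝ) (x : EE), x ∈ ball (0 : EE) 2 →
      fderiv ℝ (fun y => χ y * f y) x = fderiv ℝ f x := fun f x hx => (hloc f x hx).fderiv_eq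
  have hval : ∀ (f : EE → ℝ) (x : EE), x ∈ closedBall (0 : EE) 2 → χ x * f x = f x := by
    intro f x hx
    rw [hχ1 x hx, one_mul]
  have hq : ∀ x ∈ ball (0 : EE) 2,
      MS852.q ε (fun y => χ y * h y) (fun y => χ y * r y) x = qq h r ε x := by
    intro x hx
    rw [← q_eq]
    unfold MS852.q MS852.S4
    rw [hgr r x hx]
    simp only [hval r x (ball_subset_closedBall hx), hval h x (ball_subset_closedBall hx)]
  have hcut : ∀ φ : EE → ℝ, ContDiff ℝ 1 φ → tsupport φ ⊆ ball (0 : EE) 2 → Cut U φ := by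
    intro φ h1 h2
    have h3 : tsupport φ ⊆ closedBall (0 : EE) 2 := h2.trans ball_subset_closedBall
    exact ⟨h1, (isCompact_closedBall (0 : EE) 2).of_isClosed_subset (isClosed_tsupport φ) h3,
      h3.trans hsub⟩
  refine ⟨fun y => χ y * h y, fun y => χ y * r y, ?_, fun x hx => hval h x hx,
    fun x hx => hval r x hx, hq⟩
  refine ⟨ha, H.eps_pos, hεη, hη0, hη, (cd_cut hU H.smooth_r hχ hχs).of_le (by simp),
    (cd_cut hU H.smooth_h hχ hχs).of_le (by simp), ?_, ?_, ?_, ?_, ?_, ?_⟩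
  · intro x hx
    rw [hval h x (ball_subset_closedBall hx)]
    exact near x hx
  · intro x hx
    rw [hfd h x hx]
    exact dh x hx
  · intro x hx
    rw [hgr r x hx, hval h x (ball_subset_closedBall hx), norm_grad_sq]
    exact H.modica x (hsub (ball_subset_closedBall hx))
  · intro x hx
    rw [hval r x (ball_subset_closedBall hx)]
    exact flat x hx
  · intro φ hφ hs
    have h1 := weak_ac H (hcut φ hφ hs)
    have hz : ∀ x, x ∉ ball (0 : EE) 2 → φ x = 0 ∧ fderiv ℝ φ x = 0 := by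
      intro x hx
      have hx' : x ∉ tsupport φ := fun h' => hx (hs h')
      refine ⟨image_eq_zero_of_notMem_tsupport hx', ?_⟩
      have h0 : φ =ᶠ[𝓝 x] fun _ => 0 := by
        filter_upwards [(isClosed_tsupport φ).isOpen_compl.mem_nhds hx'] with y hy
        rw [image_eq_zero_of_notMem_tsupport hy]
      rw [h0.fderiv_eq]; simp
    have e1 : ∀ x, fderiv ℝ φ x (∇ (fun y => χ y * r y) x) = dot φ r x := by
      intro x
      by_cases hx : x ∈ ball (0 : EE) 2
      · rw [hgr r x hx, fderiv_grad]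
      · have h2 : dot φ r x = fderiv ℝ φ x (∇ r x) := (fderiv_grad φ r x).symm
        rw [h2, (hz x hx).2]; simp
    have e2 : ∀ x, 2 / ε * Real.tanh (χ x * r x / ε) *
        (χ x * h x - ‖∇ (fun y => χ y * r y) x‖ ^ 2) * φ x =
        2 / ε * Real.tanh (r x / ε) * (h x - gsq r x) * φ x := by
      intro x
      by_cases hx : x ∈ ball (0 : EE) 2
      · rw [hgr r x hx, norm_grad_sq, hval h x (ball_subset_closedBall hx),
          hval r x (ball_subset_closedBall hx)]
      · rw [(hz x hx).1]; simp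
    rw [integral_congr_ae (Eventually.of_forall e1), h1,
      integral_congr_ae (Eventually.of_forall e2)]
  · intro φ v hφ hs
    have h1 := stat_ac H (hcut φ hφ hs) v
    have hz : ∀ x, x ∉ ball (0 : EE) 2 → φ x = 0 ∧ fderiv ℝ φ x = 0 := by
      intro x hx
      have hx' : x ∉ tsupport φ := fun h' => hx (hs h')
      refine ⟨image_eq_zero_of_notMem_tsupport hx', ?_⟩
      have h0 : φ =ᶠ[𝓝 x] fun _ => 0 := by
        filter_upwards [(isClosed_tsupport φ).isOpen_compl.mem_nhds hx'] with y hy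
        rw [image_eq_zero_of_notMem_tsupport hy]
      rw [h0.fderiv_eq]; simp
    have hS : ∀ x, x ∈ ball (0 : EE) 2 → MS852.S4 ε (fun y => χ y * r y) x / ε = ww ε r x := by
      intro x hx
      have : MS852.S4 ε (fun y => χ y * r y) x = MS852.S4 ε r x := by
        unfold MS852.S4
        simp only [hval r x (ball_subset_closedBall hx)]
      rw [this, S4_eq, ww]; ring
    have e1 : ∀ x, (MS852.q ε (fun y => χ y * h y) (fun y => χ y * r y) x * fderiv ℝ φ x v -
        MS852.S4 ε (fun y => χ y * r y) x / ε * fderiv ℝ (fun y => χ y * r y) x v *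
          fderiv ℝ φ x (∇ (fun y => χ y * r y) x)) =
        qq h r ε x * fderiv ℝ φ x v - ww ε r x * fderiv ℝ r x v * dot φ r x := by
      intro x
      by_cases hx : x ∈ ball (0 : EE) 2
      · rw [hq x hx, hS x hx, hfd r x hx, hgr r x hx, fderiv_grad]
      · have h2 : dot φ r x = fderiv ℝ φ x (∇ r x) := (fderiv_grad φ r x).symm
        rw [h2, (hz x hx).2]; simp
    have e2 : ∀ x, MS852.S4 ε (fun y => χ y * r y) x / (2 * ε) *
        fderiv ℝ (fun y => χ y * h y) x v * φ x = ww ε r x / 2 * fderiv ℝ h x v * φ x := by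
      intro x
      by_cases hx : x ∈ ball (0 : EE) 2
      · rw [hfd h x hx, ← hS x hx]; ring
      · rw [(hz x hx).1]; simp
    rw [integral_congr_ae (Eventually.of_forall e1), h1,
      integral_congr_ae (Eventually.of_forall e2)]

theorem qq_rescale {p x : EE} {ρ : ℝ} (hρ : 0 < ρ) (hr : DifferentiableAt ℝ r (p + ρ • x)) :
    qq (fun x => h (p + ρ • x)) (fun x => r (p + ρ • x) / ρ) (ε / ρ) x =
      ρ * qq h r ε (p + ρ • x) := by
  unfold qq
  rw [gsq_affine hρ hr]
  have h4 : r (p + ρ • x) / ρ / (ε / ρ) = r (p + ρ • x) / ε := by field_simp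
  rw [h4]
  by_cases hε : ε = 0
  · subst hε; simp
  field_simp

/-- change of variables for integrals over balls -/
theorem integral_ball_rescale (f : EuclideanSpace ℝ (Fin n) → ℝ) (p : EuclideanSpace ℝ (Fin n))
    {ρ : ℝ} (hρ : 0 < ρ) (R : ℝ) :
    ρ ^ n * ∫ x in ball (0 : EE) R, f (p + ρ • x) = ∫ y in ball p (ρ * R), f y := by
  rw [← integral_indicator measurableSet_ball, ← integral_indicator measurableSet_ball]
  have h1 : ∀ x : EE, (ball (0 : EE) R).indicator (fun x => f (p + ρ • x)) x =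
      (ball p (ρ * R)).indicator f (p + ρ • x) := by
    intro x
    have h2 : x ∈ ball (0 : EE) R ↔ p + ρ • x ∈ ball p (ρ * R) := by
      rw [mem_ball_zero_iff, mem_ball, dist_eq_norm, add_sub_cancel_left, norm_smul,
        Real.norm_eq_abs, abs_of_pos hρ, mul_lt_mul_iff_right₀ hρ]
    by_cases hx : x ∈ ball (0 : EE) R
    · rw [indicator_of_mem hx, indicator_of_mem (h2.1 hx)]
    · rw [indicator_of_notMem hx, indicator_of_notMem (fun h' => hx (h2.2 h'))]
  rw [integral_congr_ae (Eventually.of_forall h1)]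
  rw [Measure.integral_comp_smul volume (fun y => (ball p (ρ * R)).indicator f (p + y)) ρ,
    integral_add_left_eq_self (fun y => (ball p (ρ * R)).indicator f y) p,
    finrank_euclideanSpace_fin, smul_eq_mul, abs_of_pos (by positivity)]
  field_simp

/-- THE PROVIDER: from a flat weighted Allen–Cahn solution near `closedBall p (2ρ)` to the
hypotheses of Lemma MS at unit scale, with the transformation of the weighted energies. -/
theorem provider (H : ACSol U h r ε) {d : ℕ} (hnd : n = d + 1) {p : EE} {ρ : ℝ} (hρ : 0 < ρ)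
    (hsub : closedBall p (2 * ρ) ⊆ U) {a : EE}
    (ha : ‖a‖ = 1) {η : ℝ} (hη0 : 0 < η) (hη : η ≤ 1 / 100) (hεη : ε / ρ ≤ η ^ 3)
    (near : ∀ y ∈ ball p (2 * ρ), |h y - 1| ≤ η)
    (dh : ∀ y ∈ ball p (2 * ρ), ρ * ‖fderiv ℝ h y‖ ≤ η)
    (flat : ∀ y ∈ ball p (2 * ρ), |r y - ⟪a, y - p⟫| ≤ η * ρ) :
    ∃ h' r' : EE → ℝ, MS852.Hyp a (ε / ρ) η h' r' ∧
      (∀ x ∈ closedBall (0 : EE) 2, h' x = h (p + ρ • x)) ∧
      (∀ x ∈ closedBall (0 : EE) 2, r' x = r (p + ρ • x) / ρ) ∧
      (∀ x ∈ ball (0 : EE) 2, MS852.q (ε / ρ) h' r' x = ρ * qq h r ε (p + ρ • x)) ∧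
      (∀ (p' : EE) (t : ℝ), MS852.J (ε / ρ) h' r' p' t * ρ ^ d =
        ∫ y in ball p (2 * ρ), qq h r ε y * MS852.psi (‖y - (p + ρ • p')‖ ^ 2 / (ρ * t) ^ 2)) := by
  have hU := H.isOpen
  have H' := rescale H p hρ
  have hmem : ∀ x : EE, x ∈ ball (0 : EE) 2 ↔ p + ρ • x ∈ ball p (2 * ρ) := by
    intro x
    rw [mem_ball_zero_iff, mem_ball, dist_eq_norm, add_sub_cancel_left, norm_smul,
      Real.norm_eq_abs, abs_of_pos hρ, mul_comm 2 ρ, mul_lt_mul_iff_right₀ hρ]
  have hmem' : ∀ x : EE, x ∈ closedBall (0 : EE) 2 ↔ p + ρ • x ∈ closedBall p (2 * ρ) := by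
    intro x
    rw [mem_closedBall_zero_iff, mem_closedBall, dist_eq_norm, add_sub_cancel_left, norm_smul,
      Real.norm_eq_abs, abs_of_pos hρ, mul_comm 2 ρ, mul_le_mul_iff_right₀ hρ]
  have hsub' : closedBall (0 : EE) 2 ⊆ (fun x : EE => p + ρ • x) ⁻¹' U := fun x hx =>
    hsub ((hmem' x).1 hx)
  have hdiff : ∀ {f : EE → ℝ}, ContDiffOn ℝ ∞ f U → ∀ x ∈ ball (0 : EE) 2,
      DifferentiableAt ℝ f (p + ρ • x) := fun hf x hx =>
    sm_diff (hf.contDiffAt (hU.mem_nhds (hsub (ball_subset_closedBall ((hmem x).1 hx)))))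
  obtain ⟨h', r', h1, h2, h3, h4⟩ := provider_unit H' hsub' ha hη0 hη hεη
    (fun x hx => near _ ((hmem x).1 hx))
    (fun x hx => by
      have hd := hdiff H.smooth_h x hx
      have e1 : HasFDerivAt (fun y : EE => p + ρ • y) (ρ • ContinuousLinearMap.id ℝ EE) x :=
        ((hasFDerivAt_id x).const_smul ρ).const_add p
      have e2 := hd.hasFDerivAt.comp x e1
      have e3 : (fun y => h (p + ρ • y)) = h ∘ fun y => p + ρ • y := rfl
      rw [e3, e2.fderiv, ContinuousLinearMap.comp_smul, ContinuousLinearMap.comp_id, norm_smul,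
        Real.norm_eq_abs, abs_of_pos hρ]
      exact dh _ ((hmem x).1 hx))
    (fun x hx => by
      have e1 := flat _ ((hmem x).1 hx)
      rw [add_sub_cancel_left, inner_smul_right] at e1
      have e2 : r (p + ρ • x) / ρ - ⟪a, x⟫ = (r (p + ρ • x) - ρ * ⟪a, x⟫) / ρ := by field_simp
      rw [e2, abs_div, abs_of_pos hρ, div_le_iff₀ hρ]
      exact e1)
  have hq : ∀ x ∈ ball (0 : EE) 2, MS852.q (ε / ρ) h' r' x = ρ * qq h r ε (p + ρ • x) := by
    intro x hx
    rw [h4 x hx, qq_rescale hρ (hdiff H.smooth_r x hx)]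
  refine ⟨h', r', h1, h2, h3, hq, fun p' t => ?_⟩
  unfold MS852.J
  have e1 : ∫ x in ball (0 : EE) 2, MS852.q (ε / ρ) h' r' x * MS852.psi (‖x - p'‖ ^ 2 / t ^ 2) =
      ∫ x in ball (0 : EE) 2, (fun y => ρ * (qq h r ε y *
        MS852.psi (‖y - (p + ρ • p')‖ ^ 2 / (ρ * t) ^ 2))) (p + ρ • x) := by
    refine setIntegral_congr_fun measurableSet_ball fun x hx => ?_
    show MS852.q (ε / ρ) h' r' x * MS852.psi (‖x - p'‖ ^ 2 / t ^ 2) = ρ * (qq h r ε (p + ρ • x) *
      MS852.psi (‖p + ρ • x - (p + ρ • p')‖ ^ 2 / (ρ * t) ^ 2))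
    rw [hq x hx, add_sub_add_left_eq_sub, ← smul_sub, norm_smul, Real.norm_eq_abs, abs_of_pos hρ,
      mul_pow, mul_pow, mul_div_mul_left _ _ (by positivity : ρ ^ 2 ≠ 0)]
    ring
  have e2 := integral_ball_rescale (fun y => ρ * (qq h r ε y *
        MS852.psi (‖y - (p + ρ • p')‖ ^ 2 / (ρ * t) ^ 2))) p hρ 2
  rw [e1]
  have e3 : ρ ^ n = ρ * ρ ^ d := by rw [hnd, pow_succ']
  rw [e3, mul_assoc, mul_comm ρ 2, integral_const_mul (μ := volume.restrict (ball p (2 * ρ)))]
    at e2
  have e4 := mul_left_cancel₀ hρ.ne' e2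
  rw [← e4, mul_comm]

/-! ### Allen–Cahn solutions on the sphere are flat weighted solutions -/

/-- the weight `1/|x|²` -/
def hw (x : EuclideanSpace ℝ (Fin n)) : ℝ := (nsq x)⁻¹

theorem cd_hw : ContDiffOn ℝ ∞ (hw (n := n)) {0}ᶜ := fun x hx =>
  ((smooth_nsq x).inv (nsq_pos hx).ne').contDiffWithinAt

/-- an Allen–Cahn solution on the sphere is a flat weighted solution on `ℝⁿ ∖ {0}` -/
theorem acsol_of_sphere (hn : 3 ≤ n) (hε : 0 < ε) (hr : SmHom0 r) (hR : ACeq ε r) :
    ACSol ({0}ᶜ : Set (EuclideanSpace ℝ (Fin n))) hw r ε := by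
  refine ⟨isOpen_compl_singleton, hε, cd_hw, fun x hx => (hr.smooth x hx).contDiffWithinAt, ?_, ?_⟩
  · intro x hx
    have h1 := hR x hx
    have h2 := nsq_pos (x := x) hx
    unfold slap sgsq at h1
    unfold hw
    have h3 : lapl r x = (nsq x)⁻¹ * (nsq x * lapl r x) := by field_simp
    rw [h3, h1]
    field_simp
    ring
  · intro x hx
    have h1 := (modica hn hε hr hR hx).le
    have h2 := nsq_pos (x := x) hx
    unfold sgsq at h1
    unfold hw
    rw [inv_eq_one_div, le_div_iff₀ h2]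
    linarith

end Crest.Agent.R246.MSP782
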