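import Crest.Agent.R246.Br1_549
import Crest.Agent.R246.MSProv_782

/-!
# R246, bridge G → H, part 2 (helper549): Lemma MS gives density one at planar points
-/

set_option autoImplicit false
set_option linter.unusedSectionVars false
set_option linter.unusedVariables false
noncomputable section
open MeasureTheory Set Filter Topology Metric
open scoped RealInnerProductSpace ENNReal ContDiff
open Crest.Agent.R246.G873 Crest.Agent.R246.MS852 Crest.Agent.R246.Lim538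

namespace Crest.Agent.R246.Br549

variable {n : ℕ}

/-- the weight `‖x‖⁻²` -/
def hw (n : ℕ) (x : EuclideanSpace ℝ (Fin n)) : ℝ := (‖x‖ ^ 2)⁻¹

theorem hw_eq : (MSP782.hw : EuclideanSpace ℝ (Fin n) → ℝ) = hw n := by
  funext x
  unfold MSP782.hw hw
  rw [D2x782.nsq_eq]

/-- Allen–Cahn data converging to `(φ, μ)` along the filter `F`. -/
structure ACData {ι : Type} (F : Filter ι) (φ : EuclideanSpace ℝ (Fin n) → ℝ)
    (μ : Measure (EuclideanSpace ℝ (Fin n))) (ε : ι → ℝ)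
    (R : ι → EuclideanSpace ℝ (Fin n) → ℝ) : Prop where
  sol : ∀ k, ACSol ({0}ᶜ : Set (EuclideanSpace ℝ (Fin n))) MSP782.hw (R k) (ε k)
  hom : ∀ k (t : ℝ), 0 < t → ∀ x, R k (t • x) = R k x
  eps : Tendsto ε F (𝓝 0)
  conv : ∀ δ : ℝ, 0 < δ → ∀ᶠ k in F, ∀ x : EuclideanSpace ℝ (Fin n), ‖x‖ = 1 →
    |R k x - Real.arcsin (φ x)| ≤ δ
  energy : ∀ f : EuclideanSpace ℝ (Fin n) → ℝ, Continuous f → HasCompactSupport f →
    tsupport f ⊆ {0}ᶜ →
    Tendsto (fun k => 3 / 4 * ∫ x, f x * (‖x‖ * qq MSP782.hw (R k) (ε k) x)) F (𝓝 (∫ x, f x ∂μ))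

section geom

local notation "EE" => EuclideanSpace ℝ (Fin n)

theorem norm_near {p x : EE} (hp : ‖p‖ = 1) {l : ℝ} (hx : ‖x - p‖ ≤ l) :
    1 - l ≤ ‖x‖ ∧ ‖x‖ ≤ 1 + l := by
  constructor
  · have := norm_sub_norm_le p (p - x)
    rw [sub_sub_cancel, norm_sub_rev] at this
    linarith
  · have := norm_add_le (x - p) p
    rw [sub_add_cancel] at this
    linarith

theorem hw_near {p x : EE} (hp : ‖p‖ = 1) {l : ℝ} (hl0 : 0 < l) (hl : l ≤ 1 / 10)
    (hx : ‖x - p‖ ≤ 2 * l) : |hw n x - 1| ≤ 10 * l := by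
  obtain ⟨h1, h2⟩ := norm_near hp hx
  have h3 : 0 < ‖x‖ := by linarith
  have h4 : 0 < ‖x‖ ^ 2 := by positivity
  have e : hw n x - 1 = (1 - ‖x‖ ^ 2) / ‖x‖ ^ 2 := by unfold hw; field_simp
  rw [e, abs_div, abs_of_pos h4, div_le_iff₀ h4]
  have h5 : |1 - ‖x‖ ^ 2| ≤ 5 * l := abs_le.2 ⟨by nlinarith, by nlinarith⟩
  have h6 : (16 : ℝ) / 25 ≤ ‖x‖ ^ 2 := by nlinarith
  nlinarith

theorem hw_fderiv {x : EE} (hx : x ≠ 0) : ‖fderiv ℝ (hw n) x‖ = 2 * (‖x‖ ^ 3)⁻¹ := by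
  have h0 : ‖x‖ ^ 2 ≠ 0 := by positivity
  have e2 : (2 • innerSL ℝ x : EE →L[ℝ] ℝ) = (2 : ℝ) • innerSL ℝ x := by
    ext v; simp [two_smul]
  have h1 : HasFDerivAt (fun y : EE => ‖y‖ ^ 2) ((2 : ℝ) • innerSL ℝ x) x := by
    rw [← e2]; exact (hasStrictFDerivAt_norm_sq x).hasFDerivAt
  have h2 := (hasDerivAt_inv h0).comp_hasFDerivAt x h1
  have h3 : fderiv ℝ (hw n) x = (-((‖x‖ ^ 2) ^ 2)⁻¹) • ((2 : ℝ) • innerSL ℝ x) := h2.fderiv
  have hx0 : 0 < ‖x‖ := norm_pos_iff.2 hx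
  rw [h3, norm_smul, norm_smul, innerSL_apply_norm, norm_neg, norm_inv, Real.norm_eq_abs,
    Real.norm_eq_abs, abs_of_pos (by positivity : (0 : ℝ) < (‖x‖ ^ 2) ^ 2),
    abs_of_pos (by norm_num : (0 : ℝ) < 2)]
  field_simp

theorem hw_fderiv_near {p x : EE} (hp : ‖p‖ = 1) {l : ℝ} (hl0 : 0 < l) (hl : l ≤ 1 / 10)
    (hx : ‖x - p‖ ≤ 2 * l) : l * ‖fderiv ℝ (hw n) x‖ ≤ 10 * l := by
  obtain ⟨h1, h2⟩ := norm_near hp hx
  have h3 : (4 : ℝ) / 5 ≤ ‖x‖ := by linarith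
  have h4 : x ≠ 0 := by
    intro h
    rw [h, norm_zero] at h3
    norm_num at h3
  rw [hw_fderiv h4]
  have h5 : (‖x‖ ^ 3)⁻¹ ≤ 5 := by
    rw [inv_le_iff_one_le_mul₀ (by positivity)]
    nlinarith [pow_le_pow_left₀ (by norm_num) h3 3]
  nlinarith

theorem arcsin_near {t : ℝ} (ht : |t| ≤ 1 / 2) : |Real.arcsin t - t| ≤ 4 * |t| ^ 3 := by
  obtain ⟨ht1, ht2⟩ := abs_le.1 ht
  set y := Real.arcsin t with hy
  have hs : Real.sin y = t := Real.sin_arcsin (by linarith) (by linarith)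
  have hpi := Real.pi_le_four
  have hpi0 := Real.pi_pos
  have hpi3 : Real.pi < 3.15 := Real.pi_lt_d2
  -- |y| ≤ (π/2) |t|
  have hb : |y| ≤ Real.pi / 2 * |t| := by
    have h1 := Real.mul_abs_le_abs_sin (x := y) (by
      exact abs_le.2 ⟨Real.neg_pi_div_two_le_arcsin t, Real.arcsin_le_pi_div_two t⟩)
    rw [hs] at h1
    calc |y| = Real.pi / 2 * (2 / Real.pi * |y|) := by field_simp
      _ ≤ _ := by gcongr
  have hy1 : |y| ≤ 1 := by
    calc |y| ≤ Real.pi / 2 * |t| := hb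
      _ ≤ (3.15 / 2) * (1 / 2) := by gcongr
      _ ≤ 1 := by norm_num
  have h2 := Real.sin_bound hy1
  rw [hs] at h2
  have h3 : |y - t| ≤ |t - (y - y ^ 3 / 6)| + |y ^ 3 / 6| := by
    calc |y - t| = |-(t - (y - y ^ 3 / 6)) + y ^ 3 / 6| := by congr 1; ring
      _ ≤ |-(t - (y - y ^ 3 / 6))| + |y ^ 3 / 6| := abs_add_le _ _
      _ = _ := by rw [abs_neg]
  have h4 : |y ^ 3 / 6| = |y| ^ 3 / 6 := by
    rw [abs_div, abs_pow]; norm_num
  have h5 : |y| ^ 5 ≤ |y| ^ 3 := pow_le_pow_of_le_one (abs_nonneg _) hy1 (by norm_num)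
  have h6 : |y| ^ 3 ≤ (Real.pi / 2 * |t|) ^ 3 := pow_le_pow_left₀ (abs_nonneg _) hb 3
  have h7 : (Real.pi / 2 * |t|) ^ 3 ≤ 4 * |t| ^ 3 := by
    rw [mul_pow]
    gcongr
    calc (Real.pi / 2) ^ 3 ≤ (3.15 / 2) ^ 3 := by gcongr
      _ ≤ 4 := by norm_num
  have h8 : 0 ≤ |y| ^ 3 := by positivity
  linarith

/-- closeness of the cone function and the angle function near a zero -/
theorem angle_near {φ : EE → ℝ} (hlip : LipschitzWith 1 φ)
    (hhom : ∀ t : ℝ, 0 ≤ t → ∀ x, φ (t • x) = t * φ x) {p x : EE} (hp : ‖p‖ = 1) (hp0 : φ p = 0)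
    {l : ℝ} (hl0 : 0 < l) (hl : l ≤ 1 / 10) (hx : ‖x - p‖ ≤ 2 * l) :
    |Real.arcsin (φ (‖x‖⁻¹ • x)) - φ x| ≤ 12 * l * l := by
  obtain ⟨h1, h2⟩ := norm_near hp hx
  have h3 : 0 < ‖x‖ := by linarith
  have h4 : |φ x| ≤ 2 * l := by
    have := hlip.dist_le_mul x p
    rw [hp0, Real.dist_eq, sub_zero, dist_eq_norm] at this
    simp only [NNReal.coe_one, one_mul] at this
    linarith
  rw [hhom _ (inv_nonneg.2 h3.le)]
  set t := ‖x‖⁻¹ * φ x with ht
  have h5 : ‖x‖⁻¹ ≤ 5 / 4 := by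
    rw [inv_le_iff_one_le_mul₀ h3]; nlinarith
  have h5' : |‖x‖⁻¹ - 1| ≤ 5 / 2 * l := by
    have e : ‖x‖⁻¹ - 1 = ‖x‖⁻¹ * (1 - ‖x‖) := by field_simp
    rw [e, abs_mul, abs_of_pos (inv_pos.2 h3)]
    have : |1 - ‖x‖| ≤ 2 * l := abs_le.2 ⟨by linarith, by linarith⟩
    calc ‖x‖⁻¹ * |1 - ‖x‖| ≤ 5 / 4 * (2 * l) := by gcongr
      _ = _ := by ring
  have h6 : |t| ≤ 5 / 2 * l := by
    rw [ht, abs_mul, abs_of_pos (inv_pos.2 h3)]
    calc ‖x‖⁻¹ * |φ x| ≤ 5 / 4 * (2 * l) := by gcongr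
      _ = _ := by ring
  have h7 := arcsin_near (t := t) (by linarith)
  have h8 : |t - φ x| ≤ 5 * l * l := by
    have e : t - φ x = (‖x‖⁻¹ - 1) * φ x := by rw [ht]; ring
    rw [e, abs_mul]
    calc |‖x‖⁻¹ - 1| * |φ x| ≤ (5 / 2 * l) * (2 * l) := by gcongr
      _ = _ := by ring
  have h9 : 4 * |t| ^ 3 ≤ 7 * l * l := by
    have : |t| ^ 3 ≤ (5 / 2 * l) ^ 3 := pow_le_pow_left₀ (abs_nonneg _) h6 3
    nlinarith [mul_pos hl0 hl0]
  calc |Real.arcsin t - φ x| = |(Real.arcsin t - t) + (t - φ x)| := by congr 1; ring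
    _ ≤ |Real.arcsin t - t| + |t - φ x| := abs_add_le _ _
    _ ≤ _ := by linarith

end geom

section main

local notation "EE" => EuclideanSpace ℝ (Fin n)

variable {ι : Type} {F : Filter ι} [F.NeBot] {φ : EuclideanSpace ℝ (Fin n) → ℝ}
  {μ : Measure (EuclideanSpace ℝ (Fin n))} {ε : ι → ℝ} {R : ι → EuclideanSpace ℝ (Fin n) → ℝ}

/-- the angle functions are eventually flat -/
theorem ACData.flat (D : ACData F φ μ ε R) (hlip : LipschitzWith 1 φ)
    (hhom : ∀ t : ℝ, 0 ≤ t → ∀ x, φ (t • x) = t * φ x) {p e : EE} (hp : ‖p‖ = 1) (hp0 : φ p = 0)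
    {l δ : ℝ} (hl0 : 0 < l) (hl : l ≤ 1 / 10) (hδ : 0 < δ)
    (hflat : ∀ x, ‖x - p‖ ≤ 2 * l → |φ x - ⟪e, x - p⟫| ≤ δ * l) :
    ∀ᶠ k in F, ∀ x ∈ ball p (2 * l), |R k x - ⟪e, x - p⟫| ≤ (2 * δ + 12 * l) * l := by
  filter_upwards [D.conv (δ * l) (by positivity)] with k hk x hx
  rw [mem_ball, dist_eq_norm] at hx
  obtain ⟨h1, h2⟩ := norm_near hp hx.le
  have h3 : 0 < ‖x‖ := by linarith
  have h4 := hk (‖x‖⁻¹ • x) (by rw [norm_smul, norm_inv, norm_norm, inv_mul_cancel₀ h3.ne'])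
  rw [D.hom k _ (inv_pos.2 h3)] at h4
  have h5 := angle_near hlip hhom hp hp0 hl0 hl hx.le
  have h6 := hflat x hx.le
  calc |R k x - ⟪e, x - p⟫| = |(R k x - Real.arcsin (φ (‖x‖⁻¹ • x))) +
        (Real.arcsin (φ (‖x‖⁻¹ • x)) - φ x) + (φ x - ⟪e, x - p⟫)| := by congr 1; ring
    _ ≤ |R k x - Real.arcsin (φ (‖x‖⁻¹ • x))| + |Real.arcsin (φ (‖x‖⁻¹ • x)) - φ x| +
        |φ x - ⟪e, x - p⟫| := abs_add_three _ _ _
    _ ≤ δ * l + 12 * l * l + δ * l := by gcongr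
    _ = _ := by ring

/-- truncated weighted profile -/
theorem pf_div_cont {p : EE} (hp : ‖p‖ = 1) {s : ℝ} (hs0 : 0 < s) (hs : s ≤ 1 / 2) :
    Continuous (fun x : EE => pf p s x / ‖x‖) ∧ HasCompactSupport (fun x : EE => pf p s x / ‖x‖) ∧
      tsupport (fun x : EE => pf p s x / ‖x‖) ⊆ {0}ᶜ := by
  have hsupp : Function.support (fun x : EE => pf p s x / ‖x‖) ⊆ closedBall p s := by
    intro x hx
    have : pf p s x ≠ 0 := by
      intro h
      apply hx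
      simp only [h, zero_div]
    exact ball_subset_closedBall (support_pf hs0 this)
  have hts : tsupport (fun x : EE => pf p s x / ‖x‖) ⊆ closedBall p s :=
    closure_minimal hsupp isClosed_closedBall
  have hne : ∀ x ∈ closedBall p s, x ≠ 0 := by
    intro x hx h0
    rw [h0, mem_closedBall, dist_zero_left, hp] at hx
    linarith
  refine ⟨?_, (isCompact_closedBall p s).of_isClosed_subset (isClosed_tsupport _) hts, ?_⟩
  · rw [continuous_iff_continuousAt]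
    intro x
    by_cases hx : x = 0
    · have h0 : (fun x : EE => pf p s x / ‖x‖) =ᶠ[𝓝 x] fun _ => 0 := by
        have h1 : {y : EE | s < ‖y - p‖} ∈ 𝓝 x := by
          apply (isOpen_lt continuous_const (by fun_prop)).mem_nhds
          show s < ‖x - p‖
          rw [hx, zero_sub, norm_neg, hp]
          linarith
        filter_upwards [h1] with y hy
        have hy' : s < ‖y - p‖ := hy
        rw [pf_zero hs0 hy'.le, zero_div]
      exact (continuousAt_congr h0).2 continuousAt_const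
    · exact (continuous_pf p s).continuousAt.div continuous_norm.continuousAt (norm_ne_zero_iff.2 hx)
  · intro x hx
    exact hne x (hts hx)

set_option maxHeartbeats 1600000 in
/-- **Density one at a planar point** (via Lemma MS). -/
theorem dens_one [IsFiniteMeasureOnCompacts μ] {d : ℕ} (hn : n = d + 1) (hd : 1 ≤ d)
    (hMS : StMS EE d) (D : ACData F φ μ ε R) (hlip : LipschitzWith 1 φ)
    (hhom : ∀ t : ℝ, 0 ≤ t → ∀ x, φ (t • x) = t * φ x) {p : EE} (hp : ‖p‖ = 1) (hp0 : φ p = 0)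
    (hplane : ∀ δ : ℝ, 0 < δ → ∃ r₀ > 0, ∀ r : ℝ, 0 < r → r < r₀ → ∃ e : EE, ‖e‖ = 1 ∧
        ∀ x, ‖x - p‖ ≤ 2 * r → |φ x - ⟪e, x - p⟫| ≤ δ * r)
    {Θ : ℝ} (hΘ0 : 0 ≤ Θ) (hΘ : Θ < 2)
    (hup : ∀ s : ℝ, 0 < s → Dp μ p s ≤ Θ * cpsi d * s ^ d)
    {κ : ℝ} (hκ : 0 < κ) :
    ∃ s : ℝ, 0 < s ∧ s ≤ κ ∧ Dp μ p s ≤ (1 + κ) * cpsi d * s ^ d := by
  have hfin : Module.finrank ℝ EE = d + 1 := by rw [finrank_euclideanSpace_fin, hn]
  have hc := cpsi_pos d
  -- constants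
  set δ0 : ℝ := min ((2 - Θ) / 4) (κ / 2) with hδ0
  have hδ0pos : 0 < δ0 := lt_min (by linarith) (by linarith)
  have hδ01 : δ0 ≤ (2 - Θ) / 4 := min_le_left _ _
  have hδ02 : δ0 ≤ κ / 2 := min_le_right _ _
  obtain ⟨η0, hη0, ρ1, hρ1, hρ11, hms⟩ := hMS hfin δ0 hδ0pos
  set η : ℝ := min η0 (1 / 100) with hη
  have hηpos : 0 < η := lt_min hη0 (by norm_num)
  have hη1 : η ≤ η0 := min_le_left _ _
  have hη2 : η ≤ 1 / 100 := min_le_right _ _
  obtain ⟨r₀, hr₀, hpl⟩ := hplane (η / 4) (by positivity)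
  -- the scale
  obtain ⟨l, hl0, hlr, hlη, hl10, hlκ, hl2⟩ : ∃ l : ℝ, 0 < l ∧ l < r₀ ∧ l ≤ η / 24 ∧
      l ≤ 1 / 10 ∧ l ≤ κ / 10 ∧ l ≤ (2 - Θ) / 40 := by
    refine ⟨min (r₀ / 2) (min (η / 24) (min (1 / 10) (min (κ / 10) ((2 - Θ) / 40)))), ?_, ?_, ?_,
      ?_, ?_, ?_⟩
    · refine lt_min (by linarith) (lt_min (by linarith) (lt_min (by norm_num) (lt_min (by linarith)
        (by linarith))))
    · exact (min_le_left _ _).trans_lt (by linarith)
    · exact (min_le_right _ _).trans (min_le_left _ _)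
    · exact (min_le_right _ _).trans ((min_le_right _ _).trans (min_le_left _ _))
    · exact (min_le_right _ _).trans ((min_le_right _ _).trans ((min_le_right _ _).trans
        (min_le_left _ _)))
    · exact (min_le_right _ _).trans ((min_le_right _ _).trans ((min_le_right _ _).trans
        (min_le_right _ _)))
  obtain ⟨e, he, hfl⟩ := hpl l hl0 hlr
  have hflat := D.flat hlip hhom hp hp0 hl0 hl10 (by positivity : (0 : ℝ) < η / 4) hfl
  have heps : ∀ᶠ k in F, ε k / l ≤ η ^ 3 := by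
    have h1 : Tendsto (fun k => ε k / l) F (𝓝 (0 / l)) := D.eps.div_const l
    rw [zero_div] at h1
    exact (h1.eventually (gt_mem_nhds (by positivity : (0 : ℝ) < η ^ 3))).mono fun k hk => hk.le
  have hsub : closedBall p (2 * l) ⊆ ({0}ᶜ : Set EE) := by
    intro x hx h0
    rw [mem_singleton_iff] at h0
    rw [h0, mem_closedBall, dist_zero_left, hp] at hx
    linarith
  -- the scaled energies
  set Jk : ι → ℝ → ℝ := fun k t => ∫ y, qq MSP782.hw (R k) (ε k) y * pf p (l * t) y with hJk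
  have hJlim : ∀ t : ℝ, 0 < t → t ≤ 1 →
      Tendsto (fun k => 3 / 4 * Jk k t) F (𝓝 (∫ x, pf p (l * t) x / ‖x‖ ∂μ)) := by
    intro t ht ht1
    have hlt : l * t ≤ 1 / 2 := by nlinarith
    obtain ⟨h1, h2, h3⟩ := pf_div_cont (n := n) hp (by positivity : 0 < l * t) hlt
    have h4 := D.energy _ h1 h2 h3
    refine h4.congr fun k => ?_
    congr 1
    refine integral_congr_ae ?_
    filter_upwards with x
    by_cases hx : x = 0
    · have : pf p (l * t) x = 0 := by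
        apply pf_zero (by positivity)
        rw [hx, zero_sub, norm_neg, hp]
        linarith
      simp only [this]
      ring
    · have : ‖x‖ ≠ 0 := norm_ne_zero_iff.2 hx
      field_simp
  -- bounds of the limit
  have hbnd : ∀ t : ℝ, 0 < t → t ≤ 1 →
      Dp μ p (l * t) ≤ (1 + l) * ∫ x, pf p (l * t) x / ‖x‖ ∂μ ∧
      (1 - l) * ∫ x, pf p (l * t) x / ‖x‖ ∂μ ≤ Dp μ p (l * t) := by
    intro t ht ht1
    have hlt : l * t ≤ 1 / 2 := by nlinarith
    have hlt' : l * t ≤ l := by nlinarith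
    obtain ⟨h1, h2, h3⟩ := pf_div_cont (n := n) hp (by positivity : 0 < l * t) hlt
    have i1 : Integrable (fun x : EE => pf p (l * t) x / ‖x‖) μ :=
      h1.integrable_of_hasCompactSupport h2
    have i2 : Integrable (pf p (l * t)) μ :=
      (continuous_pf p (l * t)).integrable_of_hasCompactSupport (cpt_pf p (by positivity))
    have hpt : ∀ x : EE, pf p (l * t) x ≤ (1 + l) * (pf p (l * t) x / ‖x‖) ∧
        (1 - l) * (pf p (l * t) x / ‖x‖) ≤ pf p (l * t) x := by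
      intro x
      by_cases hx : ‖x - p‖ ≤ l
      · obtain ⟨h4, h5⟩ := norm_near hp hx
        have h6 : 0 < ‖x‖ := by linarith
        have h7 := pf_nonneg p (l * t) x
        constructor
        · rw [← mul_div_assoc, le_div_iff₀ h6]
          nlinarith
        · rw [← mul_div_assoc, div_le_iff₀ h6]
          nlinarith
      · rw [not_le] at hx
        have : pf p (l * t) x = 0 := pf_zero (by positivity) (hlt'.trans hx.le)
        simp [this]
    constructor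
    · rw [← integral_const_mul]
      exact integral_mono i2 (i1.const_mul _) fun x => (hpt x).1
    · rw [← integral_const_mul]
      exact integral_mono (i1.const_mul _) i2 fun x => (hpt x).2
  -- eventually the hypothesis of MS holds
  have hone : ∫ x, pf p (l * 1) x / ‖x‖ ∂μ < (2 - δ0) * cpsi d * l ^ d := by
    have h1 := (hbnd 1 one_pos le_rfl).2
    have h2 := hup l hl0
    rw [mul_one] at h1 ⊢
    have h3 : (1 - l) * ∫ x, pf p l x / ‖x‖ ∂μ < (1 - l) * ((2 - δ0) * cpsi d * l ^ d) := by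
      refine (h1.trans h2).trans_lt ?_
      have h4 : Θ < (1 - l) * (2 - δ0) := by nlinarith
      have h5 : 0 < cpsi d * l ^ d := by positivity
      nlinarith
    exact lt_of_mul_lt_mul_left h3 (by linarith)
  have hev : ∀ᶠ k in F, 3 / 4 * Jk k 1 < (2 - δ0) * cpsi d * l ^ d :=
    (hJlim 1 one_pos le_rfl).eventually (gt_mem_nhds hone)
  have hconc : ∀ᶠ k in F, 3 / 4 * Jk k ρ1 ≤ (1 + δ0) * cpsi d * ρ1 ^ d * l ^ d := by
    filter_upwards [hflat, heps, hev] with k hk1 hk2 hk3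
    obtain ⟨h', r', hHyp, -, -, -, hJ⟩ := MSP782.provider (D.sol k) hn hl0 hsub he hηpos hη2 hk2
      (fun y hy => by
        rw [hw_eq]
        rw [mem_ball, dist_eq_norm] at hy
        exact (hw_near hp hl0 hl10 hy.le).trans (by linarith))
      (fun y hy => by
        rw [hw_eq]
        rw [mem_ball, dist_eq_norm] at hy
        exact (hw_fderiv_near hp hl0 hl10 hy.le).trans (by linarith))
      (fun y hy => (hk1 y hy).trans (by
        apply mul_le_mul_of_nonneg_right _ hl0.le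
        linarith))
    have hJ' : ∀ t : ℝ, 0 < t → t ≤ 1 → J (ε k / l) h' r' 0 t * l ^ d = Jk k t := by
      intro t ht ht1
      rw [hJ 0 t, hJk]
      simp only [smul_zero, add_zero]
      rw [setIntegral_eq_integral_of_forall_compl_eq_zero]
      · rfl
      · intro y hy
        have : pf p (l * t) y = 0 := by
          apply pf_zero (by positivity)
          rw [mem_ball, dist_eq_norm, not_lt] at hy
          nlinarith
        unfold pf at this
        rw [this, mul_zero]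
    have hld : 0 < l ^ d := by positivity
    have h1 : J (ε k / l) h' r' 0 1 ≤ (2 - δ0) * (4 / 3 * cpsi d) := by
      have h2 := hJ' 1 one_pos le_rfl
      have h3 : J (ε k / l) h' r' 0 1 * l ^ d ≤ (2 - δ0) * (4 / 3 * cpsi d) * l ^ d := by
        rw [h2]; linarith
      exact le_of_mul_le_mul_right h3 hld
    have h4 := hms e (ε k / l) η h' r' hη1 hHyp h1
    have h5 := hJ' ρ1 hρ1 hρ11.le
    have h6 : Jk k ρ1 ≤ (1 + δ0) * (4 / 3 * cpsi d) * ρ1 ^ d * l ^ d := by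
      rw [← h5]
      exact mul_le_mul_of_nonneg_right h4 hld.le
    linarith
  have hfinal : ∫ x, pf p (l * ρ1) x / ‖x‖ ∂μ ≤ (1 + δ0) * cpsi d * ρ1 ^ d * l ^ d :=
    le_of_tendsto (hJlim ρ1 hρ1 hρ11.le) hconc
  refine ⟨l * ρ1, by positivity, by nlinarith, ?_⟩
  refine (hbnd ρ1 hρ1 hρ11.le).1.trans ?_
  have h1 : (1 + l) * ∫ x, pf p (l * ρ1) x / ‖x‖ ∂μ ≤
      (1 + l) * ((1 + δ0) * cpsi d * ρ1 ^ d * l ^ d) := by gcongr
  refine h1.trans ?_
  rw [mul_pow]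
  have h2 : (1 + l) * (1 + δ0) ≤ 1 + κ ∨ 1 ≤ κ := by
    rcases le_or_gt 1 κ with h | h
    · right; exact h
    · left; nlinarith
  have h5 : 0 < cpsi d * (l ^ d * ρ1 ^ d) := by positivity
  have h3 : (1 + l) * (1 + δ0) ≤ 1 + κ := by
    rcases h2 with h | h
    · exact h
    · have : δ0 ≤ 1 / 2 := by linarith
      nlinarith
  nlinarith

end main

end Crest.Agent.R246.Br549
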