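import Mathlib.Analysis.InnerProductSpace.Basic
import Mathlib.Analysis.SpecialFunctions.Pow.Real
import Mathlib.Analysis.SpecialFunctions.Pow.Continuity
import Mathlib.Analysis.SpecificLimits.Basic

/-!
R246, helper105.  Iteration of an improvement-of-flatness step: from one step at all scales to a
pointwise `C^{1,α}` expansion with Hölder continuous slopes.
-/

set_option autoImplicit false
set_option linter.unusedSectionVars false

namespace Crest.Agent.R246.Iter105

open Filter Topology Metric Set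
open scoped RealInnerProductSpace

variable {E : Type*} [NormedAddCommGroup E] [InnerProductSpace ℝ E]

/-- `φ` is `η`-flat in the ball of radius `ρ` around `p`, in direction `e`. -/
def Flat (φ : E → ℝ) (p : E) (ρ : ℝ) (e : E) (η : ℝ) : Prop :=
  ∀ x, ‖x - p‖ ≤ ρ → |φ x - ⟪e, x - p⟫| ≤ η * ρ

/-- One step of improvement of flatness, at all centres in `S` and all scales `≤ R`. -/
def OneStep (φ : E → ℝ) (S : Set E) (R θ α C η₀ : ℝ) : Prop :=
  ∀ p ∈ S, ∀ ρ, 0 < ρ → ρ ≤ R → ∀ e : E, ‖e‖ = 1 → ∀ η, 0 < η → η ≤ η₀ → Flat φ p ρ e η →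
    ∃ e' : E, ‖e'‖ = 1 ∧ ‖e' - e‖ ≤ C * η ∧ Flat φ p (θ * ρ) e' (θ ^ α * η)

/-- the constant -/
noncomputable def cst (θ α C : ℝ) : ℝ := (1 + C / (1 - θ ^ α)) * θ⁻¹ ^ (1 + α)

section

variable {φ : E → ℝ} {S : Set E} {R θ α C η₀ : ℝ}

theorem rpow_lt_one' (hθ0 : 0 < θ) (hθ1 : θ < 1) (hα : 0 < α) : θ ^ α < 1 :=
  Real.rpow_lt_one hθ0.le hθ1 hα

theorem cst_pos (hθ0 : 0 < θ) (hθ1 : θ < 1) (hα : 0 < α) (hC : 0 ≤ C) : 0 < cst θ α C := by
  have h1 := rpow_lt_one' hθ0 hθ1 hα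
  have h2 : 0 < 1 - θ ^ α := by linarith
  unfold cst
  have h3 : 0 < θ⁻¹ ^ (1 + α) := Real.rpow_pos_of_pos (inv_pos.mpr hθ0) _
  have h4 : 0 ≤ C / (1 - θ ^ α) := div_nonneg hC h2.le
  positivity

/-- **Iteration at one point.** -/
theorem expand_at [CompleteSpace E] (h : OneStep φ S R θ α C η₀) (hR : 0 < R) (hθ0 : 0 < θ)
    (hθ1 : θ < 1) (hα : 0 < α) (hC : 0 ≤ C) {p : E} (hp : p ∈ S) {e : E} (he : ‖e‖ = 1) {η : ℝ}
    (hη : 0 < η) (hηη : η ≤ η₀) (hflat : Flat φ p R e η) :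
    ∃ e' : E, ‖e'‖ = 1 ∧ ‖e' - e‖ ≤ C / (1 - θ ^ α) * η ∧
      ∀ x, ‖x - p‖ ≤ R → |φ x - ⟪e', x - p⟫| ≤ cst θ α C * η * R * (‖x - p‖ / R) ^ (1 + α) := by
  set β := θ ^ α with hβ
  have hβ0 : 0 < β := Real.rpow_pos_of_pos hθ0 _
  have hβ1 : β < 1 := rpow_lt_one' hθ0 hθ1 hα
  have hβ1' : 0 < 1 - β := by linarith
  -- the sequence of slopes
  let P : ℕ → E → Prop := fun k e => ‖e‖ = 1 ∧ Flat φ p (θ ^ k * R) e (β ^ k * η)
  have hstep : ∀ k (e : {e : E // P k e}), ∃ e' : E, P (k + 1) e' ∧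
      ‖e' - e.1‖ ≤ C * (β ^ k * η) := by
    intro k e
    have h1 : θ ^ k * R ≤ R := by
      have : θ ^ k ≤ 1 := pow_le_one₀ hθ0.le hθ1.le
      nlinarith
    have h2 : β ^ k * η ≤ η₀ := by
      have : β ^ k ≤ 1 := pow_le_one₀ hβ0.le hβ1.le
      nlinarith
    obtain ⟨e', h3, h4, h5⟩ := h p hp (θ ^ k * R) (by positivity) h1 e.1 e.2.1 (β ^ k * η)
      (by positivity) h2 e.2.2
    refine ⟨e', ⟨h3, ?_⟩, h4⟩
    have h6 : θ ^ (k + 1) * R = θ * (θ ^ k * R) := by ring
    have h7 : β ^ (k + 1) * η = θ ^ α * (β ^ k * η) := by rw [← hβ]; ring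
    rw [h6, h7]
    exact h5
  choose f hf using hstep
  let g : (k : ℕ) → {e : E // P k e} := fun k => Nat.rec ⟨e, he, by simpa using hflat⟩
    (fun k ih => ⟨f k ih, (hf k ih).1⟩) k
  let u : ℕ → E := fun k => (g k).1
  have hu0 : u 0 = e := rfl
  have hu : ∀ k, ‖u k‖ = 1 ∧ Flat φ p (θ ^ k * R) (u k) (β ^ k * η) := fun k => (g k).2
  have hud : ∀ k, dist (u k) (u (k + 1)) ≤ (C * η) * β ^ k := by
    intro k
    rw [dist_comm, dist_eq_norm]
    have : ‖u (k + 1) - u k‖ ≤ C * (β ^ k * η) := (hf k (g k)).2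
    linarith
  have hcs := cauchySeq_of_le_geometric β (C * η) hβ1 hud
  obtain ⟨e', he'⟩ := cauchySeq_tendsto_of_complete hcs
  have hdist : ∀ k, ‖e' - u k‖ ≤ C / (1 - β) * η * β ^ k := by
    intro k
    have h1 := dist_le_of_le_geometric_of_tendsto β (C * η) hβ1 hud he' k
    rw [dist_comm, dist_eq_norm] at h1
    calc _ ≤ _ := h1
      _ = _ := by field_simp
  refine ⟨e', ?_, ?_, ?_⟩
  · have h1 : Tendsto (fun k => ‖u k‖) atTop (𝓝 ‖e'‖) := he'.norm
    have h2 : (fun k => ‖u k‖) = fun _ => (1 : ℝ) := funext fun k => (hu k).1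
    rw [h2] at h1
    exact (tendsto_nhds_unique h1 tendsto_const_nhds)
  · have h1 := hdist 0
    rw [hu0, pow_zero, mul_one] at h1
    exact h1
  · intro x hx
    rcases eq_or_lt_of_le (norm_nonneg (x - p)) with h0 | h0
    · have hxp : x - p = 0 := norm_eq_zero.mp h0.symm
      have hφp : φ x = 0 := by
        -- from flatness at all scales
        have h1 : ∀ k, |φ x| ≤ η * R * θ ^ k := by
          intro k
          have h2 := (hu k).2 x (by rw [hxp, norm_zero]; positivity)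
          rw [hxp, inner_zero_right, sub_zero] at h2
          refine h2.trans ?_
          have h3 : β ^ k ≤ 1 := pow_le_one₀ hβ0.le hβ1.le
          have h4 : 0 ≤ η * (θ ^ k * R) := by positivity
          nlinarith
        have h2 : Tendsto (fun k : ℕ => η * R * θ ^ k) atTop (𝓝 (η * R * 0)) :=
          (tendsto_pow_atTop_nhds_zero_of_lt_one hθ0.le hθ1).const_mul _
        rw [mul_zero] at h2
        have h3 : |φ x| ≤ 0 := ge_of_tendsto' h2 h1
        exact abs_nonpos_iff.mp h3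
      rw [hφp, hxp, inner_zero_right, sub_zero, abs_zero, norm_zero, zero_div]
      have := cst_pos hθ0 hθ1 hα hC
      positivity
    · set t := ‖x - p‖ / R with ht
      have ht0 : 0 < t := div_pos h0 hR
      have ht1 : t ≤ 1 := (div_le_one hR).mpr hx
      obtain ⟨k, hk1, hk2⟩ := exists_nat_pow_near_of_lt_one ht0 ht1 hθ0 hθ1
      -- hk1 : θ ^ (k+1) < t, hk2 : t ≤ θ ^ k
      have hxk : ‖x - p‖ ≤ θ ^ k * R := by
        have : ‖x - p‖ = t * R := by rw [ht]; field_simp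
        rw [this]
        gcongr
      have h1 := (hu k).2 x hxk
      have h2 : |⟪u k, x - p⟫ - ⟪e', x - p⟫| ≤ C / (1 - β) * η * β ^ k * (θ ^ k * R) := by
        rw [← inner_sub_left]
        calc |⟪u k - e', x - p⟫| ≤ ‖u k - e'‖ * ‖x - p‖ := abs_real_inner_le_norm _ _
          _ ≤ (C / (1 - β) * η * β ^ k) * (θ ^ k * R) := by
              gcongr
              rw [norm_sub_rev]
              exact hdist k
      have h3 : |φ x - ⟪e', x - p⟫| ≤ (1 + C / (1 - β)) * (η * R) * (β ^ k * θ ^ k) := by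
        calc |φ x - ⟪e', x - p⟫| = |(φ x - ⟪u k, x - p⟫) + (⟪u k, x - p⟫ - ⟪e', x - p⟫)| := by
              congr 1; ring
          _ ≤ |φ x - ⟪u k, x - p⟫| + |⟪u k, x - p⟫ - ⟪e', x - p⟫| := abs_add_le _ _
          _ ≤ β ^ k * η * (θ ^ k * R) + C / (1 - β) * η * β ^ k * (θ ^ k * R) := add_le_add h1 h2
          _ = _ := by ring
      have h4 : β ^ k * θ ^ k ≤ θ⁻¹ ^ (1 + α) * t ^ (1 + α) := by
        rw [← Real.mul_rpow (inv_nonneg.mpr hθ0.le) ht0.le]
        have h5 : θ ^ k ≤ θ⁻¹ * t := by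
          rw [pow_succ] at hk1
          have : θ⁻¹ * (θ ^ k * θ) = θ ^ k := by field_simp
          rw [← this]
          gcongr
        have h6 : β ^ k * θ ^ k = (θ ^ k) ^ (1 + α) := by
          rw [Real.rpow_add (pow_pos hθ0 k), Real.rpow_one, hβ, ← Real.rpow_natCast (θ ^ α) k,
            ← Real.rpow_mul hθ0.le, mul_comm α, Real.rpow_mul hθ0.le, Real.rpow_natCast]
          ring
        rw [h6]
        exact Real.rpow_le_rpow (pow_nonneg hθ0.le k) h5 (by linarith)
      have h7 : 0 ≤ (1 + C / (1 - β)) * (η * R) := by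
        have : 0 ≤ C / (1 - β) := div_nonneg hC hβ1'.le
        positivity
      calc |φ x - ⟪e', x - p⟫| ≤ (1 + C / (1 - β)) * (η * R) * (β ^ k * θ ^ k) := h3
        _ ≤ (1 + C / (1 - β)) * (η * R) * (θ⁻¹ ^ (1 + α) * t ^ (1 + α)) :=
            mul_le_mul_of_nonneg_left h4 h7
        _ = _ := by unfold cst; rw [← hβ]; ring

/-- comparison of slopes -/
theorem slope_close {K η : ℝ} (hR : 0 < R) (hα : 0 < α) (hK : 0 ≤ K) (hη : 0 ≤ η) {p q a b : E}
    (ha : ∀ x, ‖x - p‖ ≤ R → |φ x - ⟪a, x - p⟫| ≤ K * η * R * (‖x - p‖ / R) ^ (1 + α))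
    (hb : ∀ x, ‖x - q‖ ≤ R → |φ x - ⟪b, x - q⟫| ≤ K * η * R * (‖x - q‖ / R) ^ (1 + α))
    (hpq : ‖p - q‖ ≤ R / 2) :
    ‖a - b‖ ≤ 4 * K * η * (2 * (‖p - q‖ / R)) ^ α := by
  rcases eq_or_lt_of_le (norm_nonneg (p - q)) with h0 | h0
  · -- `p = q`
    have hpq' : p = q := sub_eq_zero.mp (norm_eq_zero.mp h0.symm)
    subst hpq'
    rw [sub_self, norm_zero, zero_div, mul_zero, Real.zero_rpow hα.ne', mul_zero]
    -- use small balls
    by_contra hne
    push Not at hne
    have hab : 0 < ‖a - b‖ := hne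
    -- for small `s`, `x = p + s u`
    have key : ∀ s : ℝ, 0 < s → s ≤ R → ‖a - b‖ ≤ 2 * K * η * (s / R) ^ α := by
      intro s hs hsR
      set v := (s / ‖a - b‖) • (a - b) with hv
      have hvn : ‖v‖ = s := by
        rw [hv, norm_smul, Real.norm_eq_abs, abs_of_pos (by positivity)]
        field_simp
      have h1 := ha (p + v) (by rw [add_sub_cancel_left, hvn]; exact hsR)
      have h2 := hb (p + v) (by rw [add_sub_cancel_left, hvn]; exact hsR)
      rw [add_sub_cancel_left, hvn] at h1 h2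
      have h3 : ⟪a, v⟫ - ⟪b, v⟫ = s * ‖a - b‖ := by
        rw [← inner_sub_left, hv, inner_smul_right, real_inner_self_eq_norm_sq]
        field_simp
      have h4 : s * ‖a - b‖ ≤ 2 * (K * η * R * (s / R) ^ (1 + α)) := by
        rw [← h3]
        have := abs_le.mp h1
        have := abs_le.mp h2
        linarith [(abs_le.mp h1).1, (abs_le.mp h2).2]
      have h5 : (s / R) ^ (1 + α) = (s / R) * (s / R) ^ α := by
        rw [Real.rpow_add (by positivity), Real.rpow_one]
      rw [h5] at h4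
      have h6 : 2 * (K * η * R * ((s / R) * (s / R) ^ α)) = s * (2 * K * η * (s / R) ^ α) := by
        field_simp
      rw [h6] at h4
      exact le_of_mul_le_mul_left h4 hs
    have h1 : Tendsto (fun s : ℝ => 2 * K * η * (s / R) ^ α) (𝓝[>] 0)
        (𝓝 (2 * K * η * (0 / R) ^ α)) := by
      apply Tendsto.mono_left _ nhdsWithin_le_nhds
      apply Tendsto.const_mul
      have : Continuous fun s : ℝ => (s / R) ^ α :=
        (continuous_id.div_const R).rpow_const fun _ => Or.inr hα.le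
      exact this.tendsto 0
    rw [zero_div, Real.zero_rpow hα.ne', mul_zero] at h1
    have h2 : ‖a - b‖ ≤ 0 := by
      refine ge_of_tendsto h1 ?_
      filter_upwards [Ioc_mem_nhdsGT hR] with s hs
      exact key s hs.1 hs.2
    linarith
  · set d := ‖p - q‖ with hd
    rcases eq_or_lt_of_le (norm_nonneg (a - b)) with hab | hab
    · rw [← hab]
      positivity
    set v := (d / ‖a - b‖) • (a - b) with hv
    have hvn : ‖v‖ = d := by
      rw [hv, norm_smul, Real.norm_eq_abs, abs_of_pos (by positivity)]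
      field_simp
    have hbd : ∀ w : E, ‖w‖ ≤ d →
        |⟪a, q + w - p⟫ - ⟪b, w⟫| ≤ 2 * (K * η * R * (2 * (d / R)) ^ (1 + α)) := by
      intro w hw
      have h1p : ‖q + w - p‖ ≤ 2 * d := by
        calc ‖q + w - p‖ = ‖w - (p - q)‖ := by congr 1; abel
          _ ≤ ‖w‖ + ‖p - q‖ := norm_sub_le _ _
          _ ≤ 2 * d := by rw [← hd]; linarith
      have h1 := ha (q + w) (h1p.trans (by linarith))
      have h2 := hb (q + w) (by rw [add_sub_cancel_left]; linarith)
      rw [add_sub_cancel_left] at h2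
      have h3 : (‖q + w - p‖ / R) ^ (1 + α) ≤ (2 * (d / R)) ^ (1 + α) := by
        apply Real.rpow_le_rpow (by positivity) _ (by linarith)
        rw [← mul_div_assoc]
        gcongr
      have h4 : (‖w‖ / R) ^ (1 + α) ≤ (2 * (d / R)) ^ (1 + α) := by
        apply Real.rpow_le_rpow (by positivity) _ (by linarith)
        rw [← mul_div_assoc]
        gcongr
        linarith
      have h5 : 0 ≤ K * η * R := by positivity
      calc |⟪a, q + w - p⟫ - ⟪b, w⟫| =
            |(φ (q + w) - ⟪b, w⟫) - (φ (q + w) - ⟪a, q + w - p⟫)| := by congr 1; ring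
        _ ≤ |φ (q + w) - ⟪b, w⟫| + |φ (q + w) - ⟪a, q + w - p⟫| := abs_sub _ _
        _ ≤ K * η * R * (2 * (d / R)) ^ (1 + α) + K * η * R * (2 * (d / R)) ^ (1 + α) := by
            refine add_le_add (h2.trans ?_) (h1.trans ?_)
            · exact mul_le_mul_of_nonneg_left h4 h5
            · exact mul_le_mul_of_nonneg_left h3 h5
        _ = _ := by ring
    have h1 := hbd v hvn.le
    have h2 := hbd (-v) (by rw [norm_neg]; exact hvn.le)
    have h3 : (⟪a, q + v - p⟫ - ⟪b, v⟫) - (⟪a, q + -v - p⟫ - ⟪b, -v⟫) = 2 * (d * ‖a - b‖) := by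
      have e1 : ⟪a, q + v - p⟫ = ⟪a, q - p⟫ + ⟪a, v⟫ := by rw [← inner_add_right]; congr 1; abel
      have e2 : ⟪a, q + -v - p⟫ = ⟪a, q - p⟫ - ⟪a, v⟫ := by rw [← inner_sub_right]; congr 1; abel
      have e3 : ⟪a, v⟫ - ⟪b, v⟫ = d * ‖a - b‖ := by
        rw [← inner_sub_left, hv, inner_smul_right, real_inner_self_eq_norm_sq]
        field_simp
      rw [e1, e2, inner_neg_right]
      linarith
    have h4 : 2 * (d * ‖a - b‖) ≤ 4 * (K * η * R * (2 * (d / R)) ^ (1 + α)) := by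
      rw [← h3]
      have := (abs_le.mp h1).2
      have := (abs_le.mp h2).1
      linarith
    have h5 : (2 * (d / R)) ^ (1 + α) = (2 * (d / R)) * (2 * (d / R)) ^ α := by
      rw [Real.rpow_add (by positivity), Real.rpow_one]
    rw [h5] at h4
    have h6 : 4 * (K * η * R * ((2 * (d / R)) * (2 * (d / R)) ^ α)) =
        2 * (d * (4 * K * η * (2 * (d / R)) ^ α)) := by
      field_simp
    rw [h6] at h4
    have h7 := le_of_mul_le_mul_left h4 (by norm_num : (0 : ℝ) < 2)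
    exact le_of_mul_le_mul_left h7 h0

end

end Crest.Agent.R246.Iter105
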