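import Crest.Agent.R246.Br2_549
import Crest.Agent.R246.Iter_105

/-!
# R246, bridge G → H, part 3 (helper549): the input of H1 (flatness + density ratio, local)
-/

set_option autoImplicit false
set_option linter.unusedSectionVars false
set_option linter.unusedVariables false
noncomputable section
open MeasureTheory Set Filter Topology Metric
open scoped RealInnerProductSpace ENNReal ContDiff
open Crest.Agent.R246.G873 Crest.Agent.R246.MS852 Crest.Agent.R246.Lim538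
open Crest.Agent.R246.Iter105

namespace Crest.Agent.R246.Br549

section general

variable {E : Type} [NormedAddCommGroup E] [InnerProductSpace ℝ E] [FiniteDimensional ℝ E]
  [MeasurableSpace E] [BorelSpace E]

theorem Dp_scale {μ : Measure E} {d : ℕ} (h : HomM μ d) {t s : ℝ} (ht : 0 < t) (hs : 0 < s)
    (p : E) : Dp μ (t • p) (t * s) = t ^ d * Dp μ p s := by
  unfold Dp
  rw [← h t ht _ (continuous_pf p s) (cpt_pf p hs)]
  refine integral_congr_ae (Eventually.of_forall fun x => ?_)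
  simp only [pf]
  congr 1
  have e : t⁻¹ • x - p = t⁻¹ • (x - t • p) := by
    rw [smul_sub, smul_smul, inv_mul_cancel₀ ht.ne', one_smul]
  rw [e, norm_smul, norm_inv, Real.norm_eq_abs, abs_of_pos ht]
  field_simp

theorem continuous_Dp {μ : Measure E} [IsFiniteMeasureOnCompacts μ] {s : ℝ} (hs : 0 < s) :
    Continuous (fun p => Dp μ p s) := by
  rw [continuous_iff_continuousAt]
  intro p₀
  unfold Dp
  apply continuousAt_of_dominated (bound := (closedBall p₀ (s + 1)).indicator fun _ => (1 : ℝ))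
  · exact Eventually.of_forall fun p => (continuous_pf p s).aestronglyMeasurable
  · filter_upwards [ball_mem_nhds p₀ one_pos] with p hp
    refine Eventually.of_forall fun x => ?_
    rw [Real.norm_eq_abs, abs_of_nonneg (pf_nonneg p s x)]
    by_cases hx : x ∈ closedBall p₀ (s + 1)
    · rw [indicator_of_mem hx]; exact pf_le_one p s x
    · rw [indicator_of_notMem hx]
      apply le_of_eq
      apply pf_zero hs
      rw [mem_closedBall, not_le] at hx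
      rw [mem_ball] at hp
      have := dist_triangle x p p₀
      rw [← dist_eq_norm]
      linarith
  · rw [integrable_indicator_iff isClosed_closedBall.measurableSet]
    exact (integrableOn_const (hs := (isCompact_closedBall p₀ (s + 1)).measure_lt_top.ne))
  · refine Eventually.of_forall fun x => ?_
    have : Continuous fun p => pf p s x := by
      unfold pf
      exact continuous_psi.comp (by fun_prop)
    exact this.continuousAt

end general

section main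

variable {n : ℕ} {ι : Type} {F : Filter ι} [F.NeBot] {φ : EuclideanSpace ℝ (Fin n) → ℝ}
  {μ : Measure (EuclideanSpace ℝ (Fin n))} {ε : ι → ℝ} {R : ι → EuclideanSpace ℝ (Fin n) → ℝ}

local notation "EE" => EuclideanSpace ℝ (Fin n)

/-- what H1 consumes at `p₀` -/
def H1In (φ : EuclideanSpace ℝ (Fin n) → ℝ) (μ : Measure (EuclideanSpace ℝ (Fin n))) (d : ℕ)
    (κ η r : ℝ) (p₀ : EuclideanSpace ℝ (Fin n)) : Prop :=
  (∃ e : EuclideanSpace ℝ (Fin n), ‖e‖ = 1 ∧ Flat φ p₀ r e η) ∧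
  ∀ p : EuclideanSpace ℝ (Fin n), φ p = 0 → ‖p - p₀‖ ≤ r → ∀ s : ℝ, 0 < s → s ≤ 2 * r →
    Dp μ p s ≤ (1 + κ) * cpsi d * s ^ d

theorem bridge_unit [IsFiniteMeasureOnCompacts μ] {d : ℕ} (hn : n = d + 1) (hd : 1 ≤ d)
    (hMS : StMS EE d) (D : ACData F φ μ ε R) (hlip : LipschitzWith 1 φ)
    (hhom : ∀ t : ℝ, 0 ≤ t → ∀ x, φ (t • x) = t * φ x) {p₀ : EE} (hp : ‖p₀‖ = 1) (hp0 : φ p₀ = 0)
    (hplane : ∀ δ : ℝ, 0 < δ → ∃ r₀ > 0, ∀ r : ℝ, 0 < r → r < r₀ → ∃ e : EE, ‖e‖ = 1 ∧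
        ∀ x, ‖x - p₀‖ ≤ 2 * r → |φ x - ⟪e, x - p₀⟫| ≤ δ * r)
    {Θ : ℝ} (hΘ0 : 0 ≤ Θ) (hΘ : Θ < 2)
    (hup : ∀ s : ℝ, 0 < s → Dp μ p₀ s ≤ Θ * cpsi d * s ^ d)
    (hmono : ∀ p : EE, p ≠ 0 → φ p = 0 → ∀ s s' : ℝ, 0 < s → s ≤ s' →
      Dp μ p s / s ^ d ≤ Dp μ p s' / s' ^ d)
    {κ η r₁ : ℝ} (hκ : 0 < κ) (hη : 0 < η) (hr₁ : 0 < r₁) :
    ∃ r : ℝ, 0 < r ∧ r ≤ r₁ ∧ H1In φ μ d κ η r p₀ := by
  have hc := cpsi_pos d
  obtain ⟨s₀, hs₀, -, hs₁⟩ := dens_one hn hd hMS D hlip hhom hp hp0 hplane hΘ0 hΘ hup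
    (half_pos hκ)
  obtain ⟨r₀, hr₀, hpl⟩ := hplane η hη
  have hlt : Dp μ p₀ s₀ < (1 + κ) * cpsi d * s₀ ^ d := by
    refine hs₁.trans_lt ?_
    have : 0 < cpsi d * s₀ ^ d := by positivity
    nlinarith
  have hev : ∀ᶠ p in 𝓝 p₀, Dp μ p s₀ < (1 + κ) * cpsi d * s₀ ^ d :=
    ((continuous_Dp hs₀).continuousAt (x := p₀)).eventually (gt_mem_nhds hlt)
  obtain ⟨ρ, hρ, hball⟩ := Metric.eventually_nhds_iff_ball.1 hev
  set r : ℝ := min (min (r₀ / 2) (s₀ / 2)) (min (min (ρ / 2) (1 / 2)) r₁) with hr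
  have hr0 : 0 < r := by positivity
  have h1 : r ≤ r₀ / 2 := (min_le_left _ _).trans (min_le_left _ _)
  have h2 : r ≤ s₀ / 2 := (min_le_left _ _).trans (min_le_right _ _)
  have h3 : r ≤ ρ / 2 := (min_le_right _ _).trans ((min_le_left _ _).trans (min_le_left _ _))
  have h4 : r ≤ 1 / 2 := (min_le_right _ _).trans ((min_le_left _ _).trans (min_le_right _ _))
  have h5 : r ≤ r₁ := (min_le_right _ _).trans (min_le_right _ _)
  refine ⟨r, hr0, h5, ?_, ?_⟩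
  · obtain ⟨e, he, hfl⟩ := hpl r hr0 (by linarith)
    exact ⟨e, he, fun x hx => hfl x (by linarith)⟩
  · intro p hp' hpd s hs hsr
    have hpne : p ≠ 0 := by
      intro h0
      rw [h0, zero_sub, norm_neg, hp] at hpd
      linarith
    have h6 := hmono p hpne hp' s s₀ hs (by linarith)
    have h7 := hball p (by rw [mem_ball, dist_eq_norm]; linarith)
    rw [div_le_iff₀ (by positivity)] at h6
    refine h6.trans ?_
    have h8 : Dp μ p s₀ / s₀ ^ d ≤ (1 + κ) * cpsi d := by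
      rw [div_le_iff₀ (by positivity)]
      exact h7.le
    gcongr

/-- **BRIDGE G → H.** At every nonzero zero of `φ` and for all `κ, η > 0` the hypotheses of H1
hold at some arbitrarily small scale. -/
theorem bridge {G : GV (EuclideanSpace ℝ (Fin n))} {A : ℝ} {d : ℕ} (hn : n = d + 1) (hd : 1 ≤ d)
    (hMS : StMS EE d) (L : LimObj φ G A) (hA : A < 2 * Real.pi ^ ((d : ℝ) / 2))
    (D : ACData F φ G.μ ε R)
    (hG : ∀ p : EE, p ≠ 0 → φ p = 0 →
      (∀ δ : ℝ, 0 < δ → ∃ r₀ > 0, ∀ r : ℝ, 0 < r → r < r₀ → ∃ e : EE, ‖e‖ = 1 ∧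
        ∀ x, ‖x - p‖ ≤ 2 * r → |φ x - ⟪e, x - p⟫| ≤ δ * r) ∧
      (∀ k : ℕ, 2 ≤ k → MonotoneOn (dens G.μ k p) (Ioi 0) ∧
        ∀ r : ℝ, 0 < r → dens G.μ k p r ≤ ∫ x, hk k (‖x‖ ^ 2) ∂G.μ))
    {p₀ : EE} (hp₀ : p₀ ≠ 0) (hp0 : φ p₀ = 0) {κ η r₁ : ℝ} (hκ : 0 < κ) (hη : 0 < η)
    (hr₁ : 0 < r₁) :
    ∃ r : ℝ, 0 < r ∧ r ≤ r₁ ∧ H1In φ G.μ d κ η r p₀ := by
  have := G.fin
  have hfin : Module.finrank ℝ EE = d + 1 := by rw [finrank_euclideanSpace_fin, hn]
  have hHom : HomM G.μ d := by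
    intro t ht f hf hfs
    have := L.homμ t ht f hf hfs
    rwa [hfin, Nat.add_sub_cancel] at this
  have hΘ := Thinf_lt_two hHom hd L.mass hA
  have hlip := L.cD.lip
  have hmono : ∀ p : EE, p ≠ 0 → φ p = 0 → ∀ s s' : ℝ, 0 < s → s ≤ s' →
      Dp G.μ p s / s ^ d ≤ Dp G.μ p s' / s' ^ d := by
    intro p hp hp1 s s' hs hss
    have := Dp_mono_ratio ((hG p hp hp1).2 2 le_rfl).1 hs hss
    rwa [hfin, Nat.add_sub_cancel] at this
  -- scale to a unit point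
  set t : ℝ := ‖p₀‖ with ht
  have ht0 : 0 < t := norm_pos_iff.2 hp₀
  set q : EE := t⁻¹ • p₀ with hq
  have hq1 : ‖q‖ = 1 := by rw [hq, norm_smul, norm_inv, norm_norm, inv_mul_cancel₀ ht0.ne']
  have hqz : φ q = 0 := by rw [hq, hhom' L, hp0, mul_zero]
  have hq0 : q ≠ 0 := by
    intro h; rw [h, norm_zero] at hq1; norm_num at hq1
  have htq : t • q = p₀ := by rw [hq, smul_smul, mul_inv_cancel₀ ht0.ne', one_smul]
  obtain ⟨r, hr, hrr, ⟨e, he, hfl⟩, hT⟩ := bridge_unit hn hd hMS D hlip L.hom hq1 hqz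
    (hG q hq0 hqz).1 ENNReal.toReal_nonneg hΘ
    (fun s hs => Dp_le hd hfin hHom ((hG q hq0 hqz).2 2 le_rfl).2 hs) hmono hκ hη
    (by positivity : 0 < r₁ / t)
  refine ⟨t * r, by positivity, ?_, ⟨e, he, ?_⟩, ?_⟩
  · rw [le_div_iff₀ ht0] at hrr
    linarith
  · intro x hx
    have h1 : ‖t⁻¹ • x - q‖ ≤ r := by
      have e1 : t⁻¹ • x - q = t⁻¹ • (x - p₀) := by rw [hq, smul_sub]
      rw [e1, norm_smul, norm_inv, Real.norm_eq_abs, abs_of_pos ht0, inv_mul_le_iff₀ ht0]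
      exact hx
    have h2 := hfl (t⁻¹ • x) h1
    have e1 : t⁻¹ • x - q = t⁻¹ • (x - p₀) := by rw [hq, smul_sub]
    rw [e1, L.hom _ (by positivity), real_inner_smul_right, ← mul_sub, abs_mul,
      abs_of_pos (by positivity : 0 < t⁻¹)] at h2
    calc |φ x - ⟪e, x - p₀⟫| = t * (t⁻¹ * |φ x - ⟪e, x - p₀⟫|) := by field_simp
      _ ≤ t * (η * r) := by gcongr
      _ = _ := by ring
  · intro p hp hpd s hs hsr
    have h1 : φ (t⁻¹ • p) = 0 := by rw [L.hom _ (by positivity), hp, mul_zero]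
    have h2 : ‖t⁻¹ • p - q‖ ≤ r := by
      have e1 : t⁻¹ • p - q = t⁻¹ • (p - p₀) := by rw [hq, smul_sub]
      rw [e1, norm_smul, norm_inv, Real.norm_eq_abs, abs_of_pos ht0, inv_mul_le_iff₀ ht0]
      exact hpd
    have h3 := hT (t⁻¹ • p) h1 h2 (t⁻¹ * s) (by positivity) (by
      rw [inv_mul_le_iff₀ ht0]; linarith)
    have h4 := Dp_scale hHom ht0 (by positivity : 0 < t⁻¹ * s) (t⁻¹ • p)
    rw [smul_smul, mul_inv_cancel₀ ht0.ne', one_smul, ← mul_assoc, mul_inv_cancel₀ ht0.ne',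
      one_mul] at h4
    rw [h4]
    calc t ^ d * Dp G.μ (t⁻¹ • p) (t⁻¹ * s) ≤ t ^ d * ((1 + κ) * cpsi d * (t⁻¹ * s) ^ d) := by
          gcongr
      _ = _ := by rw [mul_pow, inv_pow]; field_simp
where
  hhom' (L : LimObj φ G A) {t : ℝ} {x : EuclideanSpace ℝ (Fin n)} (ht : 0 ≤ t := by positivity) :
      φ (t • x) = t * φ x := L.hom t ht x

end main

end Crest.Agent.R246.Br549
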