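import Crest.Agent.R246.Brg_657
import Crest.Agent.R246.Artanh_657

/-!
# R246, block D0 (R6), second part: gradient, Laplacian and energy of the extension (helper657)

* `norm_sq_fderiv_ext` : `‖∇ ext u‖² = Σ_a (u' a)²` on the sphere;
* `slap_ext` : `Δ_S u = Σ_a u'' a`;
* `acU_ext`, `acE_ext`.
-/

set_option autoImplicit false
set_option linter.unusedSectionVars false

noncomputable section
open MeasureTheory Set Filter Topology Metric
open scoped RealInnerProductSpace ContDiff
open Crest.GeometryTopology.CoordMetric Crest.GeometryTopology.AffineMaximal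
open Crest.Agent.R236.Jet Crest.Agent.R246.D2x782
open Crest.Agent.R246.Zon797 (EE SS Pr HasRot rotV rotE rotS nrm two_sum_Pr sum_mul_coord)
open Crest.Agent.R246.Moll657 (AcE acDen)
open Crest.Agent.R246.Artanh657 (ACu)

namespace Crest.Agent.R246.Brg657

variable {d : ℕ}

theorem fderiv_Aa (f : EE d → ℝ) (x : EE d) (a : Pr d) :
    fderiv ℝ f x (Aa a x) = x a.1.1 * pderiv a.1.2 f x - x a.1.2 * pderiv a.1.1 f x := by
  unfold Aa pderiv
  rw [map_sub, map_smul, map_smul, smul_eq_mul, smul_eq_mul]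

theorem fderiv_self (f : EE d → ℝ) (x : EE d) : fderiv ℝ f x x = ∑ i, x i * pderiv i f x := by
  rw [fderiv_eq_sum]
  exact Finset.sum_congr rfl fun i _ => mul_comm _ _

theorem norm_sq_fderiv (f : EE d → ℝ) (x : EE d) : ‖fderiv ℝ f x‖ ^ 2 = gsq f x := by
  set A := fderiv ℝ f x with hA
  obtain ⟨a, ha⟩ := (InnerProductSpace.toDual ℝ (EE d)).surjective A
  have h7 : ‖A‖ = ‖a‖ := by rw [← ha, LinearIsometryEquiv.norm_map]
  have h8 : ∀ i, pderiv i f x = a i := by
    intro i
    unfold pderiv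
    rw [← hA, ← ha, InnerProductSpace.toDual_apply_apply, EuclideanSpace.inner_single_right]
    simp
  rw [h7, EuclideanSpace.real_norm_sq_eq]
  unfold gsq
  exact Finset.sum_congr rfl fun i _ => by rw [h8 i, sq]

/-- Lagrange's identity -/
theorem lagrange (x g : Fin d → ℝ) :
    ∑ a : Pr d, (x a.1.1 * g a.1.2 - x a.1.2 * g a.1.1) ^ 2 =
      (∑ i, x i * x i) * (∑ i, g i * g i) - (∑ i, x i * g i) ^ 2 := by
  have h := two_sum_Pr (d := d) (fun i j => (x i * g j - x j * g i) ^ 2) (fun i j => by ring)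
  have h0 : ∑ i : Fin d, (x i * g i - x i * g i) ^ 2 = 0 := Finset.sum_eq_zero fun i _ => by ring
  have h2 : ∑ i, ∑ j, (x i * g j - x j * g i) ^ 2
      = 2 * ((∑ i, x i * x i) * (∑ i, g i * g i)) - 2 * (∑ i, x i * g i) ^ 2 := by
    have e1 : (∑ i, x i * x i) * (∑ i, g i * g i) = ∑ i, ∑ j, x i * x i * (g j * g j) :=
      Finset.sum_mul_sum _ _ _ _
    have e2 : (∑ i, x i * g i) ^ 2 = ∑ i, ∑ j, x i * g i * (x j * g j) := by
      rw [sq]; exact Finset.sum_mul_sum _ _ _ _
    have e3 : (∑ i, x i * x i) * (∑ i, g i * g i) = ∑ i, ∑ j, x j * x j * (g i * g i) := by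
      rw [e1, Finset.sum_comm]
    have e4 : 2 * ((∑ i, x i * x i) * (∑ i, g i * g i)) =
        ∑ i, ∑ j, (x i * x i * (g j * g j) + x j * x j * (g i * g i)) := by
      rw [two_mul]
      nth_rw 1 [e1]
      rw [e3, ← Finset.sum_add_distrib]
      exact Finset.sum_congr rfl fun i _ => by rw [← Finset.sum_add_distrib]
    rw [e4, e2, Finset.mul_sum, ← Finset.sum_sub_distrib]
    refine Finset.sum_congr rfl fun i _ => ?_
    rw [Finset.mul_sum, ← Finset.sum_sub_distrib]
    exact Finset.sum_congr rfl fun j _ => by ring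
  rw [h0, h2, sub_zero] at h
  linarith

section

variable {u : C(SS d, ℝ)} {u' : Pr d → C(SS d, ℝ)}

/-- Euler's identity for the extension -/
theorem fderiv_ext_self (h : ∀ a, HasRot a u (u' a)) {x : EE d} (hx : x ≠ 0) :
    fderiv ℝ (ext u) x x = 0 := by
  rw [fderiv_ext h hx, Dext_apply]
  rw [Finset.sum_eq_zero fun a _ => by ring, mul_zero]

/-- the rotation derivatives are the components of the gradient -/
theorem hasRot_val (h : ∀ a, HasRot a u (u' a)) (a : Pr d) (x : SS d) :
    u' a x = fderiv ℝ (ext u) x (Aa a x) :=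
  hasRot_eq a (fun z => (ext_coe u z).symm) (hasFDerivAt_ext h (coe_ne x)).differentiableAt (h a)

/-- `‖∇ u‖² = Σ_a (u' a)²` -/
theorem norm_sq_fderiv_ext (h : ∀ a, HasRot a u (u' a)) (x : SS d) :
    ‖fderiv ℝ (ext u) x‖ ^ 2 = ∑ a : Pr d, (u' a x) ^ 2 := by
  have h1 : ∀ a : Pr d, u' a x = (x : EE d) a.1.1 * pderiv a.1.2 (ext u) x -
      (x : EE d) a.1.2 * pderiv a.1.1 (ext u) x := fun a => by
    rw [hasRot_val h a x, fderiv_Aa]
  rw [Finset.sum_congr rfl fun a _ => by rw [h1 a],
    lagrange (fun i => (x : EE d) i) (fun i => pderiv i (ext u) x)]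
  have h2 : ∑ i, (x : EE d) i * pderiv i (ext u) x = 0 := by
    rw [← fderiv_self, fderiv_ext_self h (coe_ne x)]
  have h3 : ∑ i, (x : EE d) i * (x : EE d) i = 1 := by
    rw [sum_mul_coord, real_inner_self_eq_norm_sq, nrm]; norm_num
  rw [h2, h3, norm_sq_fderiv]
  unfold gsq
  ring

/-- energy in rotation form -/
theorem acE_ext (h : ∀ a, HasRot a u (u' a)) (ε : ℝ) :
    AcE ε (ext u) = ∫ x : SS d, (ε / 2 * ∑ a : Pr d, (u' a x) ^ 2 + (1 - u x ^ 2) ^ 2 / (2 * ε))
      ∂(volume : Measure (EE d)).toSphere := by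
  unfold AcE
  refine integral_congr_ae (Eventually.of_forall fun x => ?_)
  show acDen ε (ext u) x = _
  unfold acDen
  rw [norm_sq_fderiv_ext h x, ext_coe]

/-! ### Laplacian -/

/-- the extension of the rotation derivative is the rotation derivative of the extension -/
theorem ext_rot_eq (h : ∀ a, HasRot a u (u' a)) (a : Pr d) {x : EE d} (hx : x ≠ 0) :
    ext (u' a) x = fderiv ℝ (ext u) x (Aa a x) := by
  have hn : 0 < ‖x‖ := norm_pos_iff.2 hx
  set y : SS d := toS x hx with hy
  have hyc : (y : EE d) = ‖x‖⁻¹ • x := rfl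
  have h1 : ext (u' a) x = fderiv ℝ (ext u) y (Aa a y) := by
    rw [ext_of_ne (u' a) hx]; exact hasRot_val h a y
  have h2 : ∀ v, fderiv ℝ (ext u) y v = ‖x‖ * fderiv ℝ (ext u) x v := by
    intro v
    rw [fderiv_ext h hx, fderiv_ext h (coe_ne y), Dext_apply, Dext_apply, nrm y]
    have h3 : ∀ b : Pr d, ext (u' b) (y : EE d) = ext (u' b) x := fun b => by
      rw [hyc, ext_smul _ (inv_pos.2 hn)]
    rw [Finset.sum_congr rfl fun b _ => by rw [h3 b]]
    simp only [hyc, PiLp.smul_apply, smul_eq_mul]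
    rw [Finset.mul_sum, Finset.mul_sum, Finset.mul_sum]
    refine Finset.sum_congr rfl fun b _ => ?_
    field_simp
  have h4 : Aa a (y : EE d) = ‖x‖⁻¹ • Aa a x := by
    rw [hyc]
    unfold Aa
    simp only [PiLp.smul_apply, smul_eq_mul, smul_sub, smul_smul]
  rw [h1, h2, h4, map_smul, smul_eq_mul]
  field_simp

variable {u'' : Pr d → C(SS d, ℝ)}

/-- **(Br4)** the spherical Laplacian is the sum of the squares of the rotation fields -/
theorem slap_ext (hs : SmHom0 (ext u)) (h : ∀ a, HasRot a u (u' a))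
    (h2 : ∀ a, HasRot a (u' a) (u'' a)) (x : SS d) : slap (ext u) x = ∑ a : Pr d, u'' a x := by
  set w := ext u with hw
  have hx := coe_ne x
  -- values of the second rotation derivatives
  have h3 : ∀ a : Pr d, u'' a x =
      (x : EE d) a.1.1 * ((x : EE d) a.1.1 * hessianMat w x a.1.2 a.1.2 - pderiv a.1.1 w x
        - (x : EE d) a.1.2 * hessianMat w x a.1.2 a.1.1) -
      (x : EE d) a.1.2 * (pderiv a.1.2 w x + (x : EE d) a.1.1 * hessianMat w x a.1.1 a.1.2
        - (x : EE d) a.1.2 * hessianMat w x a.1.1 a.1.1) := by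
    intro a
    set i := a.1.1 with hi
    set j := a.1.2 with hj
    have hij : i ≠ j := a.ne
    -- `ext (u' a)` near `x`
    have e1 : ext (u' a) =ᶠ[𝓝 (x : EE d)] fun z => z i * pderiv j w z - z j * pderiv i w z := by
      filter_upwards [isOpen_ne.mem_nhds hx] with z hz
      rw [ext_rot_eq h a hz, fderiv_Aa]
    have hsm : ∀ k, ContDiffAt ℝ ∞ (fun z => pderiv k w z) x := fun k => hs.sp hx k
    have hd : ∀ k, DifferentiableAt ℝ (fun z => pderiv k w z) (x : EE d) := fun k => sm_diff (hsm k)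
    have hc : ∀ k, DifferentiableAt ℝ (fun z : EE d => z k) (x : EE d) := fun k =>
      sm_diff (smooth_coord k _)
    have e2 : ∀ k l m : Fin d, pderiv k (fun z => z l * pderiv m w z) (x : EE d) =
        (x : EE d) l * hessianMat w x k m + (if l = k then pderiv m w x else 0) := by
      intro k l m
      rw [pderiv_mul (f := fun z : EE d => z l) (g := fun z => pderiv m w z) (hc l) (hd m),
        pderiv_coord]
      unfold hessianMat
      split_ifs <;> simp
    have e3 : ∀ k, pderiv k (ext (u' a)) (x : EE d) =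
        ((x : EE d) i * hessianMat w x k j + (if i = k then pderiv j w x else 0)) -
        ((x : EE d) j * hessianMat w x k i + (if j = k then pderiv i w x else 0)) := by
      intro k
      rw [pderiv_congr e1 k]
      have := pderiv_sub (f := fun z : EE d => z i * pderiv j w z)
        (g := fun z : EE d => z j * pderiv i w z) (x := (x : EE d))
        ((hc i).mul (hd j)) ((hc j).mul (hd i)) k
      rw [this, e2, e2]
    have e4 : DifferentiableAt ℝ (ext (u' a)) (x : EE d) := by
      have : DifferentiableAt ℝ (fun z : EE d => z i * pderiv j w z - z j * pderiv i w z) (x : EE d) :=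
        ((hc i).mul (hd j)).sub ((hc j).mul (hd i))
      exact this.congr_of_eventuallyEq e1
    have e5 := hasRot_eq a (fun z => (ext_coe (u' a) z).symm) e4 (h2 a)
    rw [e5, fderiv_Aa, e3, e3]
    simp only [← hi, ← hj, hij, hij.symm, if_true, if_false]
    ring
  -- the sum
  have h4 := two_sum_Pr (d := d) (fun i j =>
      (x : EE d) i * (x : EE d) i * hessianMat w x j j + (x : EE d) j * (x : EE d) j * hessianMat w x i i
      - (x : EE d) i * (x : EE d) j * hessianMat w x i j - (x : EE d) i * (x : EE d) j * hessianMat w x j i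
      - (x : EE d) i * pderiv i w x - (x : EE d) j * pderiv j w x) (fun i j => by ring)
  have h5 : ∑ a : Pr d, u'' a x = ∑ a : Pr d,
      ((x : EE d) a.1.1 * (x : EE d) a.1.1 * hessianMat w x a.1.2 a.1.2
      + (x : EE d) a.1.2 * (x : EE d) a.1.2 * hessianMat w x a.1.1 a.1.1
      - (x : EE d) a.1.1 * (x : EE d) a.1.2 * hessianMat w x a.1.1 a.1.2
      - (x : EE d) a.1.1 * (x : EE d) a.1.2 * hessianMat w x a.1.2 a.1.1
      - (x : EE d) a.1.1 * pderiv a.1.1 w x - (x : EE d) a.1.2 * pderiv a.1.2 w x) :=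
    Finset.sum_congr rfl fun a _ => by rw [h3 a]; ring
  rw [← h5] at h4
  have hxx : ∑ i, (x : EE d) i * (x : EE d) i = 1 := by
    rw [sum_mul_coord, real_inner_self_eq_norm_sq, nrm]; norm_num
  have heul : ∑ i, (x : EE d) i * pderiv i w x = 0 := hs.euler hx
  have hrad : ∀ j, ∑ i, (x : EE d) i * hessianMat w x j i = - pderiv j w x := fun j =>
    hs.hess_radial hx j
  have s1 : ∑ i, ∑ j, (x : EE d) i * (x : EE d) i * hessianMat w x j j = lapl w x := by
    simp only [← Finset.mul_sum]
    rw [← Finset.sum_mul, hxx, one_mul]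
    rfl
  have s2 : ∑ i, ∑ j, (x : EE d) j * (x : EE d) j * hessianMat w x i i = lapl w x := by
    simp only [← Finset.sum_mul]
    rw [hxx]
    simp only [one_mul]
    rfl
  have s3 : ∑ i, ∑ j, (x : EE d) i * (x : EE d) j * hessianMat w x i j = 0 := by
    have : ∀ i, ∑ j, (x : EE d) i * (x : EE d) j * hessianMat w x i j =
        - ((x : EE d) i * pderiv i w x) := fun i => by
      have e : ∑ j, (x : EE d) i * (x : EE d) j * hessianMat w x i j =
          (x : EE d) i * ∑ j, (x : EE d) j * hessianMat w x i j := by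
        rw [Finset.mul_sum]; exact Finset.sum_congr rfl fun j _ => by ring
      rw [e, hrad i]; ring
    rw [Finset.sum_congr rfl fun i _ => this i, Finset.sum_neg_distrib, heul, neg_zero]
  have s4 : ∑ i, ∑ j, (x : EE d) i * (x : EE d) j * hessianMat w x j i = 0 := by
    rw [Finset.sum_comm]
    rw [← s3]
    exact Finset.sum_congr rfl fun i _ => Finset.sum_congr rfl fun j _ => by ring
  have s5 : ∑ i : Fin d, ∑ _j : Fin d, (x : EE d) i * pderiv i w x = 0 := by
    rw [Finset.sum_comm]
    exact Finset.sum_eq_zero fun j _ => heul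
  have s6 : ∑ _i : Fin d, ∑ j : Fin d, (x : EE d) j * pderiv j w x = 0 :=
    Finset.sum_eq_zero fun i _ => heul
  have hdiag : ∑ i, ((x : EE d) i * (x : EE d) i * hessianMat w x i i
      + (x : EE d) i * (x : EE d) i * hessianMat w x i i
      - (x : EE d) i * (x : EE d) i * hessianMat w x i i
      - (x : EE d) i * (x : EE d) i * hessianMat w x i i
      - (x : EE d) i * pderiv i w x - (x : EE d) i * pderiv i w x) = 0 := by
    have : ∀ i, ((x : EE d) i * (x : EE d) i * hessianMat w x i i
      + (x : EE d) i * (x : EE d) i * hessianMat w x i i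
      - (x : EE d) i * (x : EE d) i * hessianMat w x i i
      - (x : EE d) i * (x : EE d) i * hessianMat w x i i
      - (x : EE d) i * pderiv i w x - (x : EE d) i * pderiv i w x) =
      -2 * ((x : EE d) i * pderiv i w x) := fun i => by ring
    rw [Finset.sum_congr rfl fun i _ => this i, ← Finset.mul_sum, heul, mul_zero]
  have htot : ∑ i, ∑ j, ((x : EE d) i * (x : EE d) i * hessianMat w x j j
      + (x : EE d) j * (x : EE d) j * hessianMat w x i i
      - (x : EE d) i * (x : EE d) j * hessianMat w x i j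
      - (x : EE d) i * (x : EE d) j * hessianMat w x j i
      - (x : EE d) i * pderiv i w x - (x : EE d) j * pderiv j w x) = 2 * lapl w x := by
    simp only [Finset.sum_sub_distrib, Finset.sum_add_distrib]
    rw [s1, s2, s3, s4, s5, s6]
    ring
  rw [htot, hdiag] at h4
  have h6 : slap w x = lapl w x := by
    unfold slap; rw [nsq_eq, nrm x]; ring
  rw [h6]
  linarith

end

/-! ### homogeneity of `slap`, the Allen–Cahn equation -/

theorem smHom0_ext {u : C(SS d, ℝ)} (h : ContDiffOn ℝ ∞ (ext u) {0}ᶜ) : SmHom0 (ext u) where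
  smooth x hx := h.contDiffAt (isOpen_compl_singleton.mem_nhds hx)
  hom t x ht := ext_smul u ht x

theorem smHom0_of_rotSm {u : C(SS d, ℝ)} (h : ∀ k, RotSm k u) : SmHom0 (ext u) :=
  smHom0_ext (contDiffOn_ext_infty h)

theorem slap_smul {R : EE d → ℝ} (h : SmHom0 R) {x : EE d} (hx : x ≠ 0) {t : ℝ} (ht : 0 < t) :
    slap R (t • x) = slap R x := by
  have htx : t • x ≠ 0 := smul_ne_zero ht.ne' hx
  have key : ∀ i : Fin d, hessianMat R (t • x) i i = (t ^ 2)⁻¹ * hessianMat R x i i := by
    intro i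
    have hd : DifferentiableAt ℝ (fun y => pderiv i R y) (t • x) := sm_diff (h.sp htx i)
    have h1 : HasFDerivAt (fun y : EE d => pderiv i R (t • y))
        ((fderiv ℝ (fun y => pderiv i R y) (t • x)).comp (t • ContinuousLinearMap.id ℝ (EE d))) x :=
      hd.hasFDerivAt.comp x ((t • ContinuousLinearMap.id ℝ (EE d)).hasFDerivAt (x := x))
    have h2 : (fun y : EE d => pderiv i R (t • y)) =ᶠ[𝓝 x] fun y => t⁻¹ * pderiv i R y := by
      filter_upwards [isOpen_ne.mem_nhds hx] with y hy using h.pderiv_smul hy ht i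
    have h3 : HasFDerivAt (fun y : EE d => t⁻¹ * pderiv i R y)
        (t⁻¹ • fderiv ℝ (fun y => pderiv i R y) x) x :=
      (sm_diff (h.sp hx i)).hasFDerivAt.const_mul t⁻¹
    have h4 := (h1.congr_of_eventuallyEq h2.symm).unique h3
    have h5 := congrArg (fun L : EE d →L[ℝ] ℝ => L (EuclideanSpace.single i 1)) h4
    simp only [ContinuousLinearMap.comp_apply, smul_apply, ContinuousLinearMap.id_apply,
      map_smul, smul_eq_mul] at h5
    have h6 : t * hessianMat R (t • x) i i = t⁻¹ * hessianMat R x i i := h5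
    have ht' := ht.ne'
    field_simp at h6 ⊢
    linarith
  unfold slap lapl
  rw [nsq_eq, nsq_eq, norm_smul, Real.norm_eq_abs, abs_of_pos ht,
    Finset.sum_congr rfl fun i _ => key i, ← Finset.mul_sum]
  field_simp

/-- the Allen–Cahn equation for the extension, from the equation on the sphere -/
theorem acU_ext {ε : ℝ} (hε : 0 < ε) {u : C(SS d, ℝ)} {u' u'' : Pr d → C(SS d, ℝ)}
    (hs : SmHom0 (ext u)) (h : ∀ a, HasRot a u (u' a)) (h2 : ∀ a, HasRot a (u' a) (u'' a))
    (heq : ∀ x : SS d, ε ^ 2 * ∑ a : Pr d, u'' a x = -2 * u x * (1 - u x ^ 2)) :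
    ACu ε (ext u) := by
  intro x hx
  have hn : 0 < ‖x‖ := norm_pos_iff.2 hx
  have h1 := slap_smul hs hx (inv_pos.2 hn)
  have h3 := slap_ext hs h h2 (toS x hx)
  have h4 : ((toS x hx : SS d) : EE d) = ‖x‖⁻¹ • x := rfl
  rw [h4, h1] at h3
  rw [h3, ext_of_ne u hx]
  have h5 := heq (toS x hx)
  have hε' := hε.ne'
  field_simp
  linarith

theorem abs_ext_lt {u : C(SS d, ℝ)} (h : ∀ x, |u x| < 1) (x : EE d) : |ext u x| < 1 := by
  unfold ext
  split_ifs with hx
  · simp
  · exact h _

end Crest.Agent.R246.Brg657
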