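import Crest.Agent.R246.Boost_990

/-!
# Continuity of the closed family `(z, y) ↦ boost φ z y`, `‖z‖ ≤ 1`
-/

set_option autoImplicit false
set_option linter.unusedSectionVars false
set_option linter.unusedSimpArgs false
noncomputable section
open MeasureTheory Set Filter Topology
open scoped RealInnerProductSpace

namespace Crest.Agent.R246.H990

variable {E : Type*} [NormedAddCommGroup E] [InnerProductSpace ℝ E]
variable [FiniteDimensional ℝ E] [MeasurableSpace E] [BorelSpace E]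

lemma NullCone.abs_le {φ : E → ℝ} (h : NullCone φ) (x : E) : |φ x| ≤ ‖x‖ := by
  have := lip_abs h.lip x 0
  simpa [h.zero] using this

/-- the inverse relation: `φ (bS y) = γ (boost - ⟪z,y⟫)` -/
lemma phi_bS {φ : E → ℝ} (h : LipschitzWith 1 φ) {z : E} (hz : ‖z‖ < 1) (y : E) :
    φ (bS φ z y) = gam z * (boost φ z y - ⟪z, y⟫) := by
  have h1 := LB_neg_LX hz (bS φ z y) (φ (bS φ z y))
  have h2 : LX z (bS φ z y) (φ (bS φ z y)) = y := bT_bS h hz y
  rw [h2, ← boost_of_lt hz] at h1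
  rw [← h1]
  simp [LB, gam_neg, inner_neg_left, sub_eq_add_neg]

lemma bS_eq {φ : E → ℝ} (h : LipschitzWith 1 φ) {z : E} (hz : ‖z‖ < 1) (y : E) :
    bS φ z y = LX (-z) y (boost φ z y) := by
  have h1 := LX_neg_LX hz (bS φ z y) (φ (bS φ z y))
  have h2 : LX z (bS φ z y) (φ (bS φ z y)) = y := bT_bS h hz y
  rw [h2, ← boost_of_lt hz] at h1
  exact h1.symm

lemma inv_gam {z : E} (hz : ‖z‖ < 1) : 1 / gam z = Real.sqrt (1 - ‖z‖ ^ 2) := by
  unfold gam; rw [one_div_one_div]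

/-- quantitative boundary behaviour of the family -/
theorem boost_near {φ : E → ℝ} (h : NullCone φ) :
    ∃ C : ℝ, 0 ≤ C ∧ ∀ z : E, ‖z‖ ≤ 1 → ∀ y : E,
      |boost φ z y - ⟪z, y⟫| ≤ C * ‖y‖ * Real.sqrt (1 - ‖z‖ ^ 2) := by
  obtain ⟨c, hc0, hc1, hc⟩ := h.bd
  have hc2 : 0 < 1 - c ^ 2 := by nlinarith
  refine ⟨c / Real.sqrt (1 - c ^ 2), by positivity, ?_⟩
  intro z hz y
  rcases lt_or_eq_of_le hz with hz | hz
  · have hg := gam_pos hz
    set x := bS φ z y with hx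
    have h1 : φ x = gam z * (boost φ z y - ⟪z, y⟫) := phi_bS h.lip hz y
    have h2 := boost_form h.lip hz x
    rw [hx, bT_bS h.lip hz, ← hx] at h2
    have h3 : φ x ^ 2 ≤ c ^ 2 * ‖x‖ ^ 2 := by
      rw [← sq_abs (φ x), ← mul_pow]
      exact pow_le_pow_left₀ (abs_nonneg _) (hc x) 2
    have h4 : (1 - c ^ 2) * ‖x‖ ^ 2 ≤ ‖y‖ ^ 2 := by nlinarith [sq_nonneg (boost φ z y)]
    have h5 : Real.sqrt (1 - c ^ 2) * ‖x‖ ≤ ‖y‖ := by
      apply le_of_sq_le_sq _ (norm_nonneg _)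
      rw [mul_pow, Real.sq_sqrt hc2.le]; exact h4
    have hs := Real.sqrt_pos.2 hc2
    have h6 : ‖x‖ ≤ ‖y‖ / Real.sqrt (1 - c ^ 2) := by
      rw [le_div_iff₀ hs]; linarith
    have h7 : boost φ z y - ⟪z, y⟫ = φ x * (1 / gam z) := by
      rw [h1]; field_simp
    rw [h7, abs_mul, inv_gam hz, abs_of_nonneg (Real.sqrt_nonneg _)]
    gcongr
    calc |φ x| ≤ c * ‖x‖ := hc x
      _ ≤ c * (‖y‖ / Real.sqrt (1 - c ^ 2)) := by gcongr
      _ = c / Real.sqrt (1 - c ^ 2) * ‖y‖ := by ring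
  · rw [boost_of_not_lt (by rw [hz]; exact lt_irrefl _)]
    simp only [sub_self, abs_zero]
    positivity

lemma boost_abs_le {φ : E → ℝ} (h : NullCone φ) {z : E} (hz : ‖z‖ ≤ 1) (y : E) :
    |boost φ z y| ≤ ‖y‖ := by
  rcases lt_or_eq_of_le hz with hz | hz
  · exact (h.boost hz).abs_le y
  · rw [boost_of_not_lt (by rw [hz]; exact lt_irrefl _)]
    calc |⟪z, y⟫| ≤ ‖z‖ * ‖y‖ := abs_real_inner_le_norm z y
      _ = ‖y‖ := by rw [hz, one_mul]

/-- auxiliary function whose zero in `b` is `boost φ z y` -/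
def auxF (φ : E → ℝ) (z y : E) (b : ℝ) : ℝ := gam z * (b - ⟪z, y⟫) - φ (LX (-z) y b)

lemma auxF_boost {φ : E → ℝ} (h : LipschitzWith 1 φ) {z : E} (hz : ‖z‖ < 1) (y : E) :
    auxF φ z y (boost φ z y) = 0 := by
  unfold auxF
  rw [← bS_eq h hz, phi_bS h hz, sub_self]

lemma auxF_mono {φ : E → ℝ} (h : LipschitzWith 1 φ) {z : E} (hz : ‖z‖ < 1) (y : E) (b c : ℝ) :
    gam z * (1 - ‖z‖) * |b - c| ≤ |auxF φ z y b - auxF φ z y c| := by
  have hg := gam_pos hz
  have h1 := lip_abs h (LX (-z) y b) (LX (-z) y c)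
  have h2 : LX (-z) y b - LX (-z) y c = (gam z * (b - c)) • (-z) := by
    simp only [LX, gam_neg, kap_neg]
    module
  rw [h2, norm_smul, norm_neg, Real.norm_eq_abs, abs_mul, abs_of_pos hg] at h1
  have h3 : auxF φ z y b - auxF φ z y c
      = gam z * (b - c) - (φ (LX (-z) y b) - φ (LX (-z) y c)) := by
    unfold auxF; ring
  rw [h3]
  have h4 : |gam z * (b - c)| = gam z * |b - c| := by rw [abs_mul, abs_of_pos hg]
  have h5 := abs_sub_abs_le_abs_sub (gam z * (b - c)) (φ (LX (-z) y b) - φ (LX (-z) y c))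
  rw [h4] at h5
  have : gam z * (1 - ‖z‖) * |b - c| = gam z * |b - c| - gam z * |b - c| * ‖z‖ := by ring
  rw [this]
  linarith

lemma auxF_diff {φ : E → ℝ} (h : LipschitzWith 1 φ) (z z0 y y0 : E) (b : ℝ) :
    |auxF φ z0 y0 b - auxF φ z y b| ≤
      (|gam z0 * ⟪z0, y0⟫ - gam z * ⟪z, y⟫|
        + ‖(y0 + (kap z0 * ⟪z0, y0⟫) • z0) - (y + (kap z * ⟪z, y⟫) • z)‖)
      + |b| * (|gam z0 - gam z| + ‖gam z0 • z0 - gam z • z‖) := by
  have h1 := lip_abs h (LX (-z0) y0 b) (LX (-z) y b)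
  have h2 : LX (-z0) y0 b - LX (-z) y b =
      ((y0 + (kap z0 * ⟪z0, y0⟫) • z0) - (y + (kap z * ⟪z, y⟫) • z))
      - b • (gam z0 • z0 - gam z • z) := by
    simp only [LX, gam_neg, kap_neg, inner_neg_left]
    module
  have h3 : ‖LX (-z0) y0 b - LX (-z) y b‖ ≤
      ‖(y0 + (kap z0 * ⟪z0, y0⟫) • z0) - (y + (kap z * ⟪z, y⟫) • z)‖
      + |b| * ‖gam z0 • z0 - gam z • z‖ := by
    rw [h2]
    refine (norm_sub_le _ _).trans ?_
    rw [norm_smul, Real.norm_eq_abs]
  have h4 : auxF φ z0 y0 b - auxF φ z y b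
      = (gam z0 - gam z) * b - (gam z0 * ⟪z0, y0⟫ - gam z * ⟪z, y⟫)
        - (φ (LX (-z0) y0 b) - φ (LX (-z) y b)) := by
    unfold auxF; ring
  rw [h4]
  calc |(gam z0 - gam z) * b - (gam z0 * ⟪z0, y0⟫ - gam z * ⟪z, y⟫)
        - (φ (LX (-z0) y0 b) - φ (LX (-z) y b))|
      ≤ |(gam z0 - gam z) * b| + |gam z0 * ⟪z0, y0⟫ - gam z * ⟪z, y⟫|
        + |φ (LX (-z0) y0 b) - φ (LX (-z) y b)| := by
        refine (abs_sub _ _).trans ?_
        gcongr
        exact abs_sub _ _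
    _ ≤ _ := by
        rw [abs_mul]
        nlinarith [h1, h3, abs_nonneg b]

lemma continuousAt_gam {z0 : E} (hz : ‖z0‖ < 1) : ContinuousAt (gam : E → ℝ) z0 := by
  unfold gam
  have : Real.sqrt (1 - ‖z0‖ ^ 2) ≠ 0 := (Real.sqrt_pos.2 (one_sub_pos hz)).ne'
  fun_prop (disch := assumption)

lemma continuousAt_kap {z0 : E} (hz : ‖z0‖ < 1) : ContinuousAt (kap : E → ℝ) z0 := by
  unfold kap
  have h1 := continuousAt_gam hz
  have h2 : 1 + gam z0 ≠ 0 := by have := gam_pos hz; positivity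
  exact ((h1.pow 2).div (continuousAt_const.add h1) h2)

/-- **Joint continuity of the closed family.** -/
theorem continuousOn_boost {φ : E → ℝ} (h : NullCone φ) :
    ContinuousOn (fun p : E × E => boost φ p.1 p.2) (Metric.closedBall (0 : E) 1 ×ˢ univ) := by
  rintro ⟨z0, y0⟩ ⟨hz0, -⟩
  rw [mem_closedBall_zero_iff] at hz0
  rcases lt_or_eq_of_le hz0 with hz | hz
  · apply ContinuousAt.continuousWithinAt
    have hg := gam_pos hz
    set s : ℝ := gam z0 * (1 - ‖z0‖) with hs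
    have hspos : 0 < s := mul_pos hg (by linarith)
    set R : E × E → ℝ := fun p =>
      (|gam z0 * ⟪z0, y0⟫ - gam p.1 * ⟪p.1, p.2⟫|
        + ‖(y0 + (kap z0 * ⟪z0, y0⟫) • z0) - (p.2 + (kap p.1 * ⟪p.1, p.2⟫) • p.1)‖)
      + ‖p.2‖ * (|gam z0 - gam p.1| + ‖gam z0 • z0 - gam p.1 • p.1‖) with hR
    have hcg : ContinuousAt (fun p : E × E => gam p.1) (z0, y0) :=
      ContinuousAt.comp (f := Prod.fst) (g := (gam : E → ℝ)) (continuousAt_gam hz) continuousAt_fst
    have hck : ContinuousAt (fun p : E × E => kap p.1) (z0, y0) :=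
      ContinuousAt.comp (f := Prod.fst) (g := (kap : E → ℝ)) (continuousAt_kap hz) continuousAt_fst
    have hRc : ContinuousAt R (z0, y0) := by
      have hi : ContinuousAt (fun p : E × E => ⟪p.1, p.2⟫) (z0, y0) := by fun_prop
      have h1 : ContinuousAt (fun p : E × E => gam p.1 * ⟪p.1, p.2⟫) (z0, y0) := hcg.mul hi
      have h2 : ContinuousAt (fun p : E × E => (kap p.1 * ⟪p.1, p.2⟫) • p.1) (z0, y0) :=
        (hck.mul hi).smul continuousAt_fst
      have h3 : ContinuousAt (fun p : E × E => gam p.1 • p.1) (z0, y0) :=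
        hcg.smul continuousAt_fst
      exact ((continuousAt_const.sub h1).abs.add
        (continuousAt_const.sub (continuousAt_snd.add h2)).norm).add
        (continuousAt_snd.norm.mul ((continuousAt_const.sub hcg).abs.add
          (continuousAt_const.sub h3).norm))
    have hR0 : R (z0, y0) = 0 := by simp [hR]
    have hRt : Tendsto R (𝓝 (z0, y0)) (𝓝 0) := by
      have := hRc.tendsto
      rwa [hR0] at this
    have hbd : ∀ᶠ p : E × E in 𝓝 (z0, y0),
        ‖boost φ p.1 p.2 - boost φ z0 y0‖ ≤ R p / s := by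
      have hopen : ∀ᶠ p : E × E in 𝓝 (z0, y0), ‖p.1‖ < 1 := by
        have : ContinuousAt (fun p : E × E => ‖p.1‖) (z0, y0) := by fun_prop
        exact this.eventually (gt_mem_nhds hz)
      filter_upwards [hopen] with p hp
      rw [Real.norm_eq_abs, le_div_iff₀ hspos, mul_comm]
      have e1 := auxF_mono h.lip hz y0 (boost φ p.1 p.2) (boost φ z0 y0)
      rw [auxF_boost h.lip hz, sub_zero] at e1
      have e2 := auxF_diff h.lip p.1 z0 p.2 y0 (boost φ p.1 p.2)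
      rw [auxF_boost h.lip hp, sub_zero] at e2
      have e3 := boost_abs_le h hp.le p.2
      refine e1.trans (e2.trans ?_)
      simp only [hR]
      gcongr
    have hfin : Tendsto (fun p : E × E => boost φ p.1 p.2 - boost φ z0 y0) (𝓝 (z0, y0)) (𝓝 0) := by
      refine squeeze_zero_norm' hbd ?_
      simpa using hRt.div_const s
    have := hfin.add_const (boost φ z0 y0)
    simpa [ContinuousAt] using this
  · obtain ⟨C, hC0, hC⟩ := boost_near h
    have hval : boost φ z0 y0 = ⟪z0, y0⟫ :=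
      boost_of_not_lt (by rw [hz]; exact lt_irrefl _) y0
    have ht1 : Tendsto (fun p : E × E => C * ‖p.2‖ * Real.sqrt (1 - ‖p.1‖ ^ 2))
        (𝓝[Metric.closedBall (0 : E) 1 ×ˢ univ] (z0, y0)) (𝓝 0) := by
      have hc : ContinuousAt (fun p : E × E => C * ‖p.2‖ * Real.sqrt (1 - ‖p.1‖ ^ 2)) (z0, y0) := by
        fun_prop
      have h0 : C * ‖y0‖ * Real.sqrt (1 - ‖z0‖ ^ 2) = 0 := by rw [hz]; simp
      have := hc.tendsto
      simp only [h0] at this
      exact this.mono_left nhdsWithin_le_nhds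
    have ht2 : Tendsto (fun p : E × E => boost φ p.1 p.2 - ⟪p.1, p.2⟫)
        (𝓝[Metric.closedBall (0 : E) 1 ×ˢ univ] (z0, y0)) (𝓝 0) := by
      refine squeeze_zero_norm' ?_ ht1
      filter_upwards [self_mem_nhdsWithin] with p hp
      exact hC p.1 (by simpa using hp.1) p.2
    have ht3 : Tendsto (fun p : E × E => ⟪p.1, p.2⟫)
        (𝓝[Metric.closedBall (0 : E) 1 ×ˢ univ] (z0, y0)) (𝓝 ⟪z0, y0⟫) := by
      have : ContinuousAt (fun p : E × E => ⟪p.1, p.2⟫) (z0, y0) := by fun_prop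
      exact this.tendsto.mono_left nhdsWithin_le_nhds
    have ht4 := ht2.add ht3
    simp only [sub_add_cancel, zero_add] at ht4
    simpa [ContinuousWithinAt, hval] using ht4

/-- oddness on the boundary -/
lemma boost_neg_of_norm_eq_one (φ : E → ℝ) {a : E} (ha : ‖a‖ = 1) (y : E) :
    boost φ (-a) y = -boost φ a y := by
  rw [boost_of_not_lt (by rw [norm_neg, ha]; exact lt_irrefl _),
    boost_of_not_lt (by rw [ha]; exact lt_irrefl _), inner_neg_left]

end Crest.Agent.R246.H990
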