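import Crest.Agent.R246.Psi3_348
import Crest.Agent.R246.Moll_657
import Crest.Agent.R246.Cont_990

/-!
# Strict bound `|u| < 1`, the family of one null cone, bridge to `Moll_657`
-/

set_option autoImplicit false
set_option linter.unusedSectionVars false
set_option linter.unusedSimpArgs false
noncomputable section
open MeasureTheory Set Filter Topology Metric
open scoped RealInnerProductSpace ContDiff

namespace Crest.Agent.R246.Psi348

open Fam348

variable {E : Type*} [NormedAddCommGroup E] [InnerProductSpace ℝ E]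
variable [FiniteDimensional ℝ E] [MeasurableSpace E] [BorelSpace E]
variable {ε lam : ℝ} {G : C(sphere (0 : E) 1, ℝ) →L[ℝ] C(sphere (0 : E) 1, ℝ)}

/-- One-sided strict bound. -/
lemma lt_one_of_fixed (hG : Res ε lam G) (hlam : 4 ≤ lam)
    {c : ℝ} (hc : 0 < c) (hpos : ∀ f : C(sphere (0 : E) 1, ℝ), (∀ y, 0 ≤ f y) → ∀ y,
      c * ∫ z : sphere (0 : E) 1, f z ∂(sg E) ≤ G f y)
    {u : C(sphere (0 : E) 1, ℝ)} (hu : ∀ y, |u y| ≤ 1) (hfix : Psi lam G u = u)
    (hne : ∃ y, u y ≠ 1) (y : sphere (0 : E) 1) : u y < 1 := by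
  set f : C(sphere (0 : E) 1, ℝ) := lam • (1 : C(sphere (0 : E) 1, ℝ)) - psiF lam u with hf
  have hfy : ∀ z, f z = (1 - u z) * (lam - 2 * u z - 2 * (u z * u z)) := by
    intro z
    rw [hf, ContinuousMap.sub_apply, ContinuousMap.smul_apply, ContinuousMap.one_apply,
      psiF_apply, smul_eq_mul, mul_one]
    ring
  have hf0 : ∀ z, 0 ≤ f z := by
    intro z
    have := (abs_le.1 (psiF_abs_le hlam hu z)).2
    rw [hf, ContinuousMap.sub_apply, ContinuousMap.smul_apply, ContinuousMap.one_apply,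
      smul_eq_mul, mul_one]
    linarith
  have hGf : G f y = 1 - u y := by
    have h1 : G (lam • (1 : C(sphere (0 : E) 1, ℝ))) y = 1 := by
      rw [map_smul, ContinuousMap.smul_apply, hG.one, smul_eq_mul,
        mul_inv_cancel₀ (by linarith : lam ≠ 0)]
    rw [hf, map_sub, ContinuousMap.sub_apply, h1]
    have h2 : G (psiF lam u) = u := hfix
    rw [h2]
  have hint : 0 < ∫ z : sphere (0 : E) 1, f z ∂(sg E) := by
    obtain ⟨y0, hy0⟩ := hne
    have h3 : f y0 ≠ 0 := by
      rw [hfy]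
      have h1 := abs_le.1 (hu y0)
      have h4 : u y0 < 1 := lt_of_le_of_ne h1.2 hy0
      have h5 : 0 < lam - 2 * u y0 - 2 * (u y0 * u y0) := by nlinarith
      exact mul_ne_zero (by linarith : (1 - u y0) ≠ 0) h5.ne'
    have h6 : 0 ≤ ∫ z : sphere (0 : E) 1, f z ∂(sg E) := integral_nonneg hf0
    refine lt_of_le_of_ne h6 fun h7 => h3 ?_
    have h8 := (integral_eq_zero_iff_of_nonneg (μ := sg E) hf0 (integrable_cont f.continuous)).1
      h7.symm
    have h9 : (fun z => f z) = fun _ => 0 :=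
      Measure.eq_of_ae_eq h8 f.continuous continuous_const
    exact congrFun h9 y0
  have h10 := hpos f hf0 y
  rw [hGf] at h10
  have h11 := mul_pos hc hint
  linarith

/-- **Strict bound** for fixed points of positive energy. -/
theorem abs_lt_one_of_fixed (hG : Res ε lam G) (hlam : 4 ≤ lam)
    {c : ℝ} (hc : 0 < c) (hpos : ∀ f : C(sphere (0 : E) 1, ℝ), (∀ y, 0 ≤ f y) → ∀ y,
      c * ∫ z : sphere (0 : E) 1, f z ∂(sg E) ≤ G f y)
    {u : C(sphere (0 : E) 1, ℝ)} (hu : ∀ y, |u y| ≤ 1) (hfix : Psi lam G u = u)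
    (hEn : 0 < En ε u) (y : sphere (0 : E) 1) : |u y| < 1 := by
  have key : ∀ v : C(sphere (0 : E) 1, ℝ), 0 < En ε v → ∃ y, v y ≠ 1 := by
    intro v hv
    by_contra hcon
    rw [not_exists] at hcon
    have h1 : ∀ y, v y = 1 := fun y => not_not.1 (hcon y)
    have h2 : En ε v = 0 := by
      unfold En
      have h3 : AcE ε (ext v) = AcE ε (fun _ : E => (1 : ℝ)) := by
        unfold AcE
        congr 1
        funext y
        have h4 : ext v =ᶠ[𝓝 (y : E)] fun _ => (1 : ℝ) := by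
          filter_upwards [isOpen_compl.mem_nhds (coe_ne_zero y)] with x hx
          rw [ext_of_ne v hx]; exact h1 _
        rw [h4.fderiv_eq, h4.eq_of_nhds]
      rw [h3, AcE_const (by norm_num)]
    linarith
  have hneg : En ε (-u) = En ε u := by
    unfold En
    have : ext (-u) = fun x => - ext u x := by
      have := ext_smulc (-1) u
      rw [neg_one_smul] at this
      rw [this]; funext x; simp
    rw [this, AcE_neg]
  have h1 := lt_one_of_fixed hG hlam hc hpos hu hfix (key u hEn) y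
  have h2 := lt_one_of_fixed hG hlam hc hpos (u := -u) (fun y => by
    rw [ContinuousMap.neg_apply, abs_neg]; exact hu y) (by rw [Psi_neg, hfix])
    (key (-u) (by rw [hneg]; exact hEn)) y
  rw [ContinuousMap.neg_apply] at h2
  rw [abs_lt]
  constructor <;> linarith

lemma AcE_eq_657 (ε : ℝ) (w : E → ℝ) : AcE ε w = Moll657.AcE ε w := rfl

/-- Bridge: (x1) of helper657 in the form used here. -/
lemma mollSt {φ : E → ℝ} (hφ : LipschitzWith 1 φ)
    (hom : ∀ t : ℝ, 0 ≤ t → ∀ x, φ (t • x) = t * φ x) (hε : 0 < ε) (θ : ℝ) :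
    MollSt ε θ φ := by
  intro δ hδ
  obtain ⟨w, h1, h2, h3, h4, h5⟩ := Moll657.exists_smooth_approx hφ hom hε θ hδ
  refine ⟨w, ⟨h1, h2, fun x => (h3 x).le⟩, h4, ?_⟩
  rw [AcE_eq_657]
  have : PrE ε θ φ = ∫ y : sphere (0 : E) 1,
      (1 - Real.tanh ((Real.arcsin (φ y) - θ) / ε) ^ 2) ^ 2 / ε ∂(volume : Measure E).toSphere := by
    unfold PrE
    congr 1
    funext y
    ring
  rw [this]
  exact h5

/-- The family of a null cone: only the profile energy bound (990's B5) is needed. -/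
theorem family_of_nullCone {φ : E → ℝ} (hφ : H990.NullCone φ) (hε : 0 < ε) {A : ℝ} (hA0 : 0 ≤ A)
    (hA : ∀ z : E, ‖z‖ < 1 → ∀ θ, PrE ε θ (H990.boost φ z) ≤ A) :
    ∃ U : C(sphere (0 : E × ℝ × ℝ) 1, C(sphere (0 : E) 1, ℝ)),
      (∀ p, U (-p) = - U p) ∧ (∀ p x, |U p x| ≤ 1) ∧
      ∀ p, ∀ δ > 0, ∃ w : E → ℝ, Adm w ∧ (∀ y : sphere (0 : E) 1, |w y - U p y| ≤ δ) ∧
        AcE ε w ≤ A + δ := by
  have hc : ContinuousOn (fun p : E × E => H990.boost φ p.1 p.2)
      (closedBall 0 1 ×ˢ sphere 0 1) :=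
    (H990.continuousOn_boost hφ).mono (prod_mono_right (subset_univ _))
  have hodd : ∀ a y : E, ‖a‖ = 1 → ‖y‖ = 1 → H990.boost φ (-a) y = - H990.boost φ a y :=
    fun a y ha _ => H990.boost_neg_of_norm_eq_one φ ha y
  refine exists_family_energy hε hA0 hc hodd hA ?_
  intro z hz θ
  rcases hz.lt_or_eq with h | h
  · have hN := hφ.boost h
    exact mollSt hN.lip hN.hom hε θ
  · -- `boost φ z y = ⟪z, y⟫`
    have hb : H990.boost φ z = fun y => ⟪z, y⟫ := by
      funext y
      exact H990.boost_of_not_lt (by rw [h]; exact lt_irrefl _) y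
    rw [hb]
    refine mollSt ?_ ?_ hε θ
    · refine LipschitzWith.of_dist_le_mul fun x y => ?_
      rw [Real.dist_eq, ← inner_sub_right, NNReal.coe_one, one_mul, dist_eq_norm]
      exact (abs_real_inner_le_norm _ _).trans (by rw [h, one_mul])
    · intro t _ x
      rw [inner_smul_right]

end Crest.Agent.R246.Psi348
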