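import Crest.Agent.R246.Brg2_657
import Crest.Agent.R246.Psi4_348

/-!
# R246, block D0: adapter between the rotation form of the resolvent (`ZRes`) and `Psi348.Res`
(helper657)
-/

set_option autoImplicit false
set_option linter.unusedSectionVars false

noncomputable section
open MeasureTheory Set Filter Topology Metric
open scoped RealInnerProductSpace ContDiff
open Crest.Agent.R246.D2x782 (SmHom0)
open Crest.Agent.R246.Zon797 (EE SS Pr HasRot rotV rotE rotS nrm integrable_cm)
open Crest.Agent.R246.Artanh657 (ACu)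

namespace Crest.Agent.R246.Brg657

variable {d : ℕ}

/-- the resolvent `(lam - Δ_S)⁻¹` in rotation form -/
structure ZRes (lam : ℝ) (G : C(SS d, ℝ) →L[ℝ] C(SS d, ℝ))
    (G1 : Pr d → (C(SS d, ℝ) →L[ℝ] C(SS d, ℝ))) : Prop where
  pos : ∀ f : C(SS d, ℝ), (∀ y, 0 ≤ f y) → ∀ y, 0 ≤ G f y
  one : ∀ y, G 1 y = lam⁻¹
  rot : ∀ a f, HasRot a (G f) (G1 a f)
  weak : ∀ (f φ : C(SS d, ℝ)) (φ' : Pr d → C(SS d, ℝ)), (∀ a, HasRot a φ (φ' a)) →
    (∑ a : Pr d, ∫ y, G1 a f y * φ' a y ∂(volume : Measure (EE d)).toSphere) +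
      lam * ∫ y, G f y * φ y ∂(volume : Measure (EE d)).toSphere =
      ∫ y, f y * φ y ∂(volume : Measure (EE d)).toSphere
  comm : ∀ a f f', HasRot a f f' → G1 a f = G f'

/-! ### the two extensions agree -/

theorem ext_eq (u : C(SS d, ℝ)) : Psi348.ext u = ext u := by
  funext x
  by_cases hx : x = 0
  · subst hx
    rw [Psi348.ext_zero]
    simp [ext]
  · rw [Psi348.ext_of_ne u hx, ext_of_ne u hx]
    rfl

theorem ext_add (u v : C(SS d, ℝ)) (x : EE d) : ext (u + v) x = ext u x + ext v x := by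
  unfold ext
  split_ifs <;> simp

theorem ext_sub' (u v : C(SS d, ℝ)) (x : EE d) : ext (u - v) x = ext u x - ext v x := by
  unfold ext
  split_ifs <;> simp

/-! ### gradients -/

theorem inner_gradient_ext {u v : C(SS d, ℝ)} {u' v' : Pr d → C(SS d, ℝ)}
    (hu : ∀ a, HasRot a u (u' a)) (hv : ∀ a, HasRot a v (v' a)) (x : SS d) :
    ⟪gradient (ext u) (x : EE d), gradient (ext v) (x : EE d)⟫ = ∑ a : Pr d, u' a x * v' a x := by
  have hx := coe_ne x
  have du := (hasFDerivAt_ext hu hx).differentiableAt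
  have dv := (hasFDerivAt_ext hv hx).differentiableAt
  have hadd : ∀ a, HasRot a (u + v) ((fun a => u' a + v' a) a) := fun a => (hu a).add (hv a)
  have hsub : ∀ a, HasRot a (u - v) ((fun a => u' a - v' a) a) := fun a => (hu a).sub (hv a)
  have h1 := norm_sq_fderiv_ext hadd x
  have h2 := norm_sq_fderiv_ext hsub x
  have e1 : fderiv ℝ (ext (u + v)) (x : EE d) = fderiv ℝ (ext u) x + fderiv ℝ (ext v) x := by
    have : ext (u + v) = fun z => ext u z + ext v z := funext fun z => ext_add u v z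
    rw [this]
    exact fderiv_add du dv
  have e2 : fderiv ℝ (ext (u - v)) (x : EE d) = fderiv ℝ (ext u) x - fderiv ℝ (ext v) x := by
    have : ext (u - v) = fun z => ext u z - ext v z := funext fun z => ext_sub' u v z
    rw [this]
    exact fderiv_sub du dv
  set gu := gradient (ext u) (x : EE d) with hgu
  set gv := gradient (ext v) (x : EE d) with hgv
  have e3 : ‖fderiv ℝ (ext (u + v)) (x : EE d)‖ = ‖gu + gv‖ := by
    rw [e1, hgu, hgv]
    unfold gradient
    rw [← map_add, LinearIsometryEquiv.norm_map]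
  have e4 : ‖fderiv ℝ (ext (u - v)) (x : EE d)‖ = ‖gu - gv‖ := by
    rw [e2, hgu, hgv]
    unfold gradient
    rw [← map_sub, LinearIsometryEquiv.norm_map]
  rw [e3, norm_add_sq_real] at h1
  rw [e4, norm_sub_sq_real] at h2
  have h3 : 4 * ⟪gu, gv⟫ = ∑ a : Pr d, (((fun a => u' a + v' a) a : C(SS d, ℝ)) x) ^ 2 -
      ∑ a : Pr d, (((fun a => u' a - v' a) a : C(SS d, ℝ)) x) ^ 2 := by
    rw [← h1, ← h2]; ring
  have h4 : ∑ a : Pr d, (((fun a => u' a + v' a) a : C(SS d, ℝ)) x) ^ 2 -
      ∑ a : Pr d, (((fun a => u' a - v' a) a : C(SS d, ℝ)) x) ^ 2 = 4 * ∑ a : Pr d, u' a x * v' a x := by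
    rw [← Finset.sum_sub_distrib, Finset.mul_sum]
    refine Finset.sum_congr rfl fun a _ => ?_
    simp only [ContinuousMap.add_apply, ContinuousMap.sub_apply]
    ring
  linarith

/-- rotation derivatives of a `C¹` function -/
theorem exists_rot_of_c1 {h : C(SS d, ℝ)} (hc : ContDiffOn ℝ 1 (ext h) {0}ᶜ) (a : Pr d) :
    ∃ v, HasRot a h v := by
  have hop : IsOpen ({0}ᶜ : Set (EE d)) := isOpen_compl_singleton
  have h1 : ContinuousOn (fderiv ℝ (ext h)) {0}ᶜ := hc.continuousOn_fderiv_of_isOpen hop le_rfl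
  have hA : Continuous fun x : EE d => Aa a x := by unfold Aa; fun_prop
  have h2 : ContinuousOn (fun x : EE d => fderiv ℝ (ext h) x (Aa a x)) {0}ᶜ :=
    h1.clm_apply hA.continuousOn
  refine ⟨res _ h2, hasRot_of_fderiv a (fun x => (ext_coe h x).symm) (fun x => ?_) fun x => rfl⟩
  exact (hc.contDiffAt (hop.mem_nhds (coe_ne x))).differentiableAt one_ne_zero

theorem c1_of_rot {u : C(SS d, ℝ)} {u' : Pr d → C(SS d, ℝ)} (h : ∀ a, HasRot a u (u' a)) :
    ContDiffOn ℝ 1 (ext u) {0}ᶜ := by
  have := contDiffOn_ext_succ (k := 0) h fun a => by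
    exact_mod_cast contDiffOn_zero.2 (continuousOn_ext (u' a))
  exact_mod_cast this

/-! ### the adapter -/

section

variable {ε lam : ℝ} {G : C(SS d, ℝ) →L[ℝ] C(SS d, ℝ)}
  {G1 : Pr d → (C(SS d, ℝ) →L[ℝ] C(SS d, ℝ))}

theorem rot_smul (h : ZRes (lam / ε ^ 2) G G1) (a : Pr d) (f : C(SS d, ℝ)) :
    HasRot a (((ε ^ 2)⁻¹ • G) f) ((ε ^ 2)⁻¹ • G1 a f) := (h.rot a f).smul _

theorem res_of_zres (hε : 0 < ε) (h : ZRes (lam / ε ^ 2) G G1) :
    Psi348.Res ε lam ((ε ^ 2)⁻¹ • G) where
  pos f hf y := by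
    rw [smul_apply, ContinuousMap.smul_apply, smul_eq_mul]
    exact mul_nonneg (by positivity) (h.pos f hf y)
  one y := by
    rw [smul_apply, ContinuousMap.smul_apply, smul_eq_mul, h.one y]
    by_cases hl : lam = 0
    · simp [hl]
    · field_simp
  c1 f := by
    rw [ext_eq]
    exact c1_of_rot fun a => rot_smul h a f
  grad := by
    refine ⟨2 * ∑ a : Pr d, ‖(ε ^ 2)⁻¹ • G1 a‖, by positivity, fun f y => ?_⟩
    rw [ext_eq, fderiv_ext (fun a => rot_smul h a f) (coe_ne y)]
    have h1 := norm_Dext_sub_le (fun a => (ε ^ 2)⁻¹ • G1 a f) (fun _ => (0 : C(SS d, ℝ)))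
      (coe_ne y)
    have h2 : Dext (fun _ : Pr d => (0 : C(SS d, ℝ))) (y : EE d) = 0 := by
      ext v
      rw [Dext_apply]
      have : ∀ x : EE d, ext (0 : C(SS d, ℝ)) x = 0 := fun x => by unfold ext; split_ifs <;> simp
      simp [this]
    rw [h2, sub_zero, nrm y, inv_one, mul_one] at h1
    refine h1.trans ?_
    rw [mul_assoc, Finset.sum_mul]
    refine mul_le_mul_of_nonneg_left (Finset.sum_le_sum fun a _ => ?_) zero_le_two
    rw [sub_zero]
    exact ((ε ^ 2)⁻¹ • G1 a).le_opNorm f
  weak f k hk := by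
    rw [ext_eq] at hk
    choose k' hk' using fun a => exists_rot_of_c1 hk a
    have h1 : ∀ y : SS d, ⟪gradient (Psi348.ext (((ε ^ 2)⁻¹ • G) f)) (y : EE d),
        gradient (Psi348.ext k) (y : EE d)⟫ = ∑ a : Pr d, ((ε ^ 2)⁻¹ • G1 a f) y * k' a y := by
      intro y
      rw [ext_eq, ext_eq]
      exact inner_gradient_ext (fun a => rot_smul h a f) hk' y
    have h2 := h.weak f k k' hk'
    have h3 : ∀ y : SS d, ε ^ 2 * ⟪gradient (Psi348.ext (((ε ^ 2)⁻¹ • G) f)) (y : EE d),
        gradient (Psi348.ext k) (y : EE d)⟫ + lam * ((ε ^ 2)⁻¹ • G) f y * k y =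
        (∑ a : Pr d, G1 a f y * k' a y) + lam / ε ^ 2 * (G f y * k y) := by
      intro y
      rw [h1 y, Finset.mul_sum, smul_apply]
      simp only [ContinuousMap.smul_apply, smul_eq_mul]
      congr 1
      · refine Finset.sum_congr rfl fun a _ => ?_
        field_simp
      · ring
    rw [← h2]
    show ∫ y : SS d, (ε ^ 2 * ⟪gradient (Psi348.ext (((ε ^ 2)⁻¹ • G) f)) (y : EE d),
        gradient (Psi348.ext k) (y : EE d)⟫ + lam * ((ε ^ 2)⁻¹ • G) f y * k y)
        ∂(volume : Measure (EE d)).toSphere = _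
    rw [integral_congr_ae (Eventually.of_forall h3)]
    have i1 : ∀ a ∈ (Finset.univ : Finset (Pr d)),
        Integrable (fun y => G1 a f y * k' a y) (volume : Measure (EE d)).toSphere := fun a _ =>
      integrable_cm (G1 a f * k' a)
    have i2 : Integrable (fun y => G f y * k y) (volume : Measure (EE d)).toSphere :=
      integrable_cm (G f * k)
    rw [integral_add (integrable_finsetSum _ i1) (i2.const_mul _), integral_finsetSum _ i1,
      integral_const_mul]

/-- positivity improving -/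
theorem gpos_of_zres (hε : 0 < ε) {c : ℝ} (hc : 0 < c)
    (hg : ∀ f : C(SS d, ℝ), (∀ y, 0 ≤ f y) → ∀ y,
      c * ∫ z, f z ∂(volume : Measure (EE d)).toSphere ≤ G f y) :
    ∃ c' : ℝ, 0 < c' ∧ ∀ f : C(SS d, ℝ), (∀ y, 0 ≤ f y) → ∀ y,
      c' * ∫ z, f z ∂(Psi348.sg (EE d)) ≤ ((ε ^ 2)⁻¹ • G) f y := by
  refine ⟨(ε ^ 2)⁻¹ * c, by positivity, fun f hf y => ?_⟩
  rw [smul_apply, ContinuousMap.smul_apply, smul_eq_mul, mul_assoc]
  exact mul_le_mul_of_nonneg_left (hg f hf y) (by positivity)

theorem RotSm.sub {k : ℕ} {u v : C(SS d, ℝ)} (hu : RotSm k u) (hv : RotSm k v) :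
    RotSm k (u - v) := by
  have h1 := hu.add (hv.smul (-1))
  have h2 : u + (-1 : ℝ) • v = u - v := by rw [neg_one_smul, sub_eq_add_neg]
  rwa [h2] at h1

theorem RotSm.sum {ι : Type*} {k : ℕ} (s : Finset ι) {u : ι → C(SS d, ℝ)}
    (h : ∀ i, RotSm k (u i)) : RotSm k (∑ i ∈ s, u i) := by
  classical
  induction s using Finset.induction_on with
  | empty =>
    have h0 : ∀ k, RotSm k (0 : C(SS d, ℝ)) := by
      intro k
      induction k with
      | zero => trivial
      | succ k ih => exact fun a => ⟨0, HasRot.zero a, ih⟩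
    simpa using h0 k
  | insert i s hi ih =>
    rw [Finset.sum_insert hi]
    exact (h i).add ih

theorem RotSm.psiF {k : ℕ} {u : C(SS d, ℝ)} (lam : ℝ) (hu : RotSm k u) :
    RotSm k (Psi348.psiF lam u) :=
  (hu.smul (lam + 2)).sub ((hu.mul (hu.mul hu)).smul 2)

/-- fixed points of the semi-implicit map are smooth solutions of the Allen–Cahn equation -/
theorem fixed_smooth (hε : 0 < ε) (h : ZRes (lam / ε ^ 2) G G1) {u : C(SS d, ℝ)}
    (hu : Psi348.Psi lam ((ε ^ 2)⁻¹ • G) u = u) :
    (∀ k, RotSm k u) ∧ SmHom0 (Psi348.ext u) ∧ ACu ε (Psi348.ext u) := by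
  have hreg := contDiffOn_of_fixed (G := fun f => ((ε ^ 2)⁻¹ • G) f) (F := Psi348.psiF lam)
    (fun f a => ⟨_, rot_smul h a f⟩) (fun f f' a hf => by
      have := rot_smul h a f
      rw [h.comm a f f' hf] at this
      exact this) (fun k v hv => hv.psiF lam) (u := u) hu.symm
  refine ⟨hreg.1, ?_, ?_⟩
  · rw [ext_eq]; exact smHom0_ext hreg.2
  · rw [ext_eq]
    -- rotation derivatives of order two
    choose u' hu' using hreg.1 3
    have h2 : ∀ a, ∃ v, HasRot a (u' a) v ∧ RotSm 1 v := fun a => (hu' a).2 a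
    choose u'' hu'' using h2
    set f := Psi348.psiF lam u with hf
    have hGf : G f = (ε ^ 2) • u := by
      have h3 : ((ε ^ 2)⁻¹ • G) f = u := hu
      rw [smul_apply] at h3
      rw [← h3, smul_smul, mul_inv_cancel₀ (by positivity), one_smul]
    have hG1 : ∀ a, G1 a f = (ε ^ 2) • u' a := by
      intro a
      have h3 := h.rot a f
      rw [hGf] at h3
      exact h3.unique ((hu' a).1.smul _)
    -- the defect
    set D : C(SS d, ℝ) := lam • u - (ε ^ 2) • (∑ a : Pr d, u'' a) - f with hD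
    have hDs : RotSm 1 D := by
      have e1 : RotSm 1 (∑ a : Pr d, u'' a) := RotSm.sum _ fun a => (hu'' a).2
      exact (((hreg.1 1).smul lam).sub (e1.smul _)).sub ((hreg.1 1).psiF lam)
    choose D' hD' using hDs
    have hw := h.weak f D D' fun a => (hD' a).1
    have hib : ∀ a : Pr d, ∫ y, G1 a f y * D' a y ∂(volume : Measure (EE d)).toSphere =
        - ∫ y, (ε ^ 2 * u'' a y) * D y ∂(volume : Measure (EE d)).toSphere := by
      intro a
      have h3 := HasRot.ibp ((hu'' a).1.smul (ε ^ 2)) (hD' a).1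
      have h4 : (∫ y, ((ε ^ 2) • u' a) y * D' a y ∂(volume : Measure (EE d)).toSphere) =
          - ∫ y, ((ε ^ 2) • u'' a) y * D y ∂(volume : Measure (EE d)).toSphere := by
        linarith
      rw [hG1 a, h4]
      rfl
    have hzero : ∫ y, D y * D y ∂(volume : Measure (EE d)).toSphere = 0 := by
      have i1 : ∀ a ∈ (Finset.univ : Finset (Pr d)),
          Integrable (fun y => (ε ^ 2 * u'' a y) * D y) (volume : Measure (EE d)).toSphere :=
        fun a _ => integrable_cm (((ε ^ 2) • u'' a) * D)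
      have i2 : Integrable (fun y => u y * D y) (volume : Measure (EE d)).toSphere :=
        integrable_cm (u * D)
      have i3 : Integrable (fun y => f y * D y) (volume : Measure (EE d)).toSphere :=
        integrable_cm (f * D)
      have e1 : ∀ y : SS d, D y * D y = lam * (u y * D y) - (∑ a : Pr d, (ε ^ 2 * u'' a y) * D y)
          - f y * D y := by
        intro y
        have e2 : D y = lam * u y - ε ^ 2 * (∑ a : Pr d, u'' a y) - f y := by
          rw [hD]
          simp only [ContinuousMap.sub_apply, ContinuousMap.smul_apply, smul_eq_mul,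
            ContinuousMap.sum_apply]
        have e3 : (∑ a : Pr d, (ε ^ 2 * u'' a y) * D y) = ε ^ 2 * (∑ a : Pr d, u'' a y) * D y := by
          rw [Finset.mul_sum, Finset.sum_mul]
        rw [e3]
        nth_rw 1 [e2]
        ring
      have hI1 : Integrable (fun y => lam * (u y * D y)) (volume : Measure (EE d)).toSphere :=
        i2.const_mul lam
      have hI2 : Integrable (fun y => ∑ a : Pr d, (ε ^ 2 * u'' a y) * D y)
          (volume : Measure (EE d)).toSphere := integrable_finsetSum _ i1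
      have hI3 : Integrable (fun y => lam * (u y * D y) - ∑ a : Pr d, (ε ^ 2 * u'' a y) * D y)
          (volume : Measure (EE d)).toSphere := hI1.sub hI2
      rw [integral_congr_ae (Eventually.of_forall e1), integral_sub hI3 i3,
        integral_sub hI1 hI2, integral_const_mul, integral_finsetSum _ i1]
      rw [Finset.sum_congr rfl fun a _ => hib a, Finset.sum_neg_distrib] at hw
      have e4 : ∫ y, G f y * D y ∂(volume : Measure (EE d)).toSphere =
          ε ^ 2 * ∫ y, u y * D y ∂(volume : Measure (EE d)).toSphere := by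
        rw [hGf, ← integral_const_mul]
        refine integral_congr_ae (Eventually.of_forall fun y => ?_)
        simp only [ContinuousMap.smul_apply, smul_eq_mul]
        ring
      rw [e4] at hw
      have e5 : lam / ε ^ 2 * (ε ^ 2 * ∫ y, u y * D y ∂(volume : Measure (EE d)).toSphere) =
          lam * ∫ y, u y * D y ∂(volume : Measure (EE d)).toSphere := by
        field_simp
      rw [e5] at hw
      linarith
    have hDz : ∀ y, D y = 0 := by
      have h8 := (integral_eq_zero_iff_of_nonneg (μ := (volume : Measure (EE d)).toSphere)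
        (fun y => mul_self_nonneg (D y)) (integrable_cm (D * D))).1 hzero
      have h9 : (fun y => D y * D y) = fun _ => 0 :=
        Measure.eq_of_ae_eq h8 (D.continuous.mul D.continuous) continuous_const
      intro y
      exact mul_self_eq_zero.1 (congrFun h9 y)
    refine acU_ext hε (smHom0_ext hreg.2) (fun a => (hu' a).1) (fun a => (hu'' a).1) fun x => ?_
    have h3 := hDz x
    rw [hD] at h3
    simp only [ContinuousMap.sub_apply, ContinuousMap.smul_apply, smul_eq_mul,
      ContinuousMap.sum_apply] at h3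
    rw [hf, Psi348.psiF_apply] at h3
    linarith

end

end Crest.Agent.R246.Brg657
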