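import Crest.Agent.R246.Zon1_797
import Crest.Agent.R246.Moll_657
import Mathlib.Analysis.Calculus.UniformLimitsDeriv
import Mathlib.Analysis.SpecialFunctions.SmoothTransition

/-!
# R246, block D0 (R6): the bridge between rotation derivatives and smooth 0-homogeneous functions
(helper657)

`ext u` = 0-homogeneous extension of `u : C(SS d, ℝ)`.

* `hasRot_of_fderiv` : rotation derivatives of restrictions;
* `hasFDerivAt_ext` : if `u` has all rotation derivatives `u' a` then `ext u` is `C¹` on `{0}ᶜ` with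
  derivative `Dext u'`;
* `RotSm`, `contDiffOn_ext` : higher regularity.
-/

set_option autoImplicit false
set_option linter.unusedSectionVars false

noncomputable section
open MeasureTheory Set Filter Topology Metric
open scoped RealInnerProductSpace ContDiff Convolution
open Crest.Agent.R246.Zon797

namespace Crest.Agent.R246.Brg657

variable {d : ℕ}

/-! ### 0-homogeneous extension -/

/-- radial projection to the sphere as a point of `SS d` -/
def toS (x : EE d) (hx : x ≠ 0) : SS d :=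
  ⟨‖x‖⁻¹ • x, by
    rw [mem_sphere_zero_iff_norm, norm_smul, norm_inv, norm_norm,
      inv_mul_cancel₀ (norm_ne_zero_iff.2 hx)]⟩

/-- 0-homogeneous extension -/
def ext (u : C(SS d, ℝ)) (x : EE d) : ℝ := if h : x = 0 then 0 else u (toS x h)

theorem ext_of_ne (u : C(SS d, ℝ)) {x : EE d} (hx : x ≠ 0) : ext u x = u (toS x hx) := by
  unfold ext; rw [dif_neg hx]

theorem toS_coe (x : SS d) (hx : (x : EE d) ≠ 0) : toS (x : EE d) hx = x := by
  apply Subtype.ext
  show ‖(x : EE d)‖⁻¹ • (x : EE d) = x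
  rw [nrm x, inv_one, one_smul]

theorem coe_ne (x : SS d) : (x : EE d) ≠ 0 := by
  intro h
  have := nrm x
  rw [h, norm_zero] at this
  exact zero_ne_one this

@[simp] theorem ext_coe (u : C(SS d, ℝ)) (x : SS d) : ext u x = u x := by
  rw [ext_of_ne u (coe_ne x), toS_coe]

theorem toS_smul {t : ℝ} (ht : 0 < t) {x : EE d} (hx : x ≠ 0) (htx : t • x ≠ 0) :
    toS (t • x) htx = toS x hx := by
  apply Subtype.ext
  show ‖t • x‖⁻¹ • (t • x) = ‖x‖⁻¹ • x
  rw [norm_smul, Real.norm_eq_abs, abs_of_pos ht, smul_smul, mul_inv]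
  congr 1
  field_simp

theorem ext_smul (u : C(SS d, ℝ)) {t : ℝ} (ht : 0 < t) (x : EE d) : ext u (t • x) = ext u x := by
  by_cases hx : x = 0
  · subst hx; rw [smul_zero]
  · have htx : t • x ≠ 0 := smul_ne_zero ht.ne' hx
    rw [ext_of_ne u hx, ext_of_ne u htx, toS_smul ht hx htx]

theorem abs_ext_le (u : C(SS d, ℝ)) (x : EE d) : |ext u x| ≤ ‖u‖ := by
  unfold ext
  split_ifs with h
  · simp
  · exact u.norm_coe_le_norm _

theorem ext_sub_le (u v : C(SS d, ℝ)) (x : EE d) : |ext u x - ext v x| ≤ ‖u - v‖ := by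
  unfold ext
  split_ifs with h
  · simp
  · exact (u - v).norm_coe_le_norm _

theorem continuousAt_toS {x : EE d} (hx : x ≠ 0) (w : C(SS d, ℝ)) :
    ContinuousAt (ext w) x := by
  have hop : IsOpen {x : EE d | x ≠ 0} := isOpen_ne
  have h1 : ContinuousOn (ext w) {x : EE d | x ≠ 0} := by
    rw [continuousOn_iff_continuous_domRestrict]
    have h2 : (({x : EE d | x ≠ 0} : Set (EE d)).domRestrict (ext w)) =
        fun y : ({x : EE d | x ≠ 0} : Set (EE d)) => w (toS y y.2) := by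
      funext y
      exact ext_of_ne w y.2
    rw [h2]
    refine w.continuous.comp ?_
    refine Continuous.subtype_mk ?_ _
    refine Continuous.smul (Continuous.inv₀ (continuous_norm.comp continuous_subtype_val) ?_)
      continuous_subtype_val
    intro y
    exact norm_ne_zero_iff.2 y.2
  exact h1.continuousAt (hop.mem_nhds hx)

theorem continuousOn_ext (w : C(SS d, ℝ)) : ContinuousOn (ext w) {0}ᶜ := fun x hx =>
  (continuousAt_toS (by simpa using hx) w).continuousWithinAt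

theorem measurable_ext (w : C(SS d, ℝ)) : Measurable (ext w) :=
  (continuousOn_ext w).measurable_of_countable_compl (by simp)

theorem locallyIntegrable_ext (w : C(SS d, ℝ)) : LocallyIntegrable (ext w) volume :=
  (locallyIntegrable_const ‖w‖).mono (measurable_ext w).aestronglyMeasurable
    (Eventually.of_forall fun x => by
      rw [Real.norm_eq_abs, norm_norm]; exact abs_ext_le w x)

/-- restriction of a function continuous on `{0}ᶜ` to the sphere -/
def res (f : EE d → ℝ) (hf : ContinuousOn f {0}ᶜ) : C(SS d, ℝ) :=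
  ⟨fun x => f x, hf.comp_continuous continuous_subtype_val fun x => coe_ne x⟩

@[simp] theorem res_apply (f : EE d → ℝ) (hf : ContinuousOn f {0}ᶜ) (x : SS d) :
    res f hf x = f x := rfl

/-! ### infinitesimal rotations -/

/-- the rotation field `A_a x = x_i e_j - x_j e_i` -/
def Aa (a : Pr d) (x : EE d) : EE d :=
  x a.1.1 • EuclideanSpace.single a.1.2 (1 : ℝ) - x a.1.2 • EuclideanSpace.single a.1.1 (1 : ℝ)

theorem hasDerivAt_rotV (a : Pr d) (x : EE d) :
    HasDerivAt (fun θ : ℝ => rotV a.1.1 a.1.2 θ x) (Aa a x) 0 := by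
  have h0 : HasDerivAt (fun θ : ℝ => (fun k : Fin d => if k = a.1.1 then
      Real.cos θ * x a.1.1 - Real.sin θ * x a.1.2
      else if k = a.1.2 then Real.sin θ * x a.1.1 + Real.cos θ * x a.1.2 else x k))
      (fun k => if k = a.1.1 then - x a.1.2 else if k = a.1.2 then x a.1.1 else 0) 0 := by
    rw [hasDerivAt_pi]
    intro k
    have hc : HasDerivAt Real.cos 0 0 := by simpa using Real.hasDerivAt_cos 0
    have hs : HasDerivAt Real.sin 1 0 := by simpa using Real.hasDerivAt_sin 0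
    by_cases hk : k = a.1.1
    · simp only [hk, if_true]
      have := (hc.mul_const (x a.1.1)).sub (hs.mul_const (x a.1.2))
      refine this.congr_deriv ?_
      ring
    · by_cases hk2 : k = a.1.2
      · simp only [hk2, Ne.symm a.ne, if_false, if_true]
        have := (hs.mul_const (x a.1.1)).add (hc.mul_const (x a.1.2))
        refine this.congr_deriv ?_
        ring
      · simp only [hk, hk2, if_false]
        exact hasDerivAt_const _ _
  have h1 := ((PiLp.continuousLinearEquiv 2 ℝ (fun _ : Fin d => ℝ)).symm.toContinuousLinearMap.hasFDerivAt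
    (x := (fun k : Fin d => if k = a.1.1 then
      Real.cos 0 * x a.1.1 - Real.sin 0 * x a.1.2
      else if k = a.1.2 then Real.sin 0 * x a.1.1 + Real.cos 0 * x a.1.2 else x k))).comp_hasDerivAt
      (0 : ℝ) h0
  refine (h1.congr_deriv ?_)
  ext k
  have h2 : ((PiLp.continuousLinearEquiv 2 ℝ (fun _ : Fin d => ℝ)).symm.toContinuousLinearMap
    (fun k => if k = a.1.1 then - x a.1.2 else if k = a.1.2 then x a.1.1 else 0)) k =
    if k = a.1.1 then - x a.1.2 else if k = a.1.2 then x a.1.1 else 0 := rfl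
  rw [h2]
  unfold Aa
  simp only [PiLp.sub_apply, PiLp.smul_apply, PiLp.single_apply, smul_eq_mul]
  by_cases hk : k = a.1.1
  · simp [hk, a.ne]
  · by_cases hk2 : k = a.1.2
    · simp [hk2, Ne.symm a.ne]
    · simp [hk, hk2]

/-- rotation derivatives of restrictions of differentiable functions -/
theorem hasRot_of_fderiv {f : EE d → ℝ} {u v : C(SS d, ℝ)} (a : Pr d)
    (hu : ∀ x : SS d, u x = f x) (hf : ∀ x : SS d, DifferentiableAt ℝ f x)
    (hv : ∀ x : SS d, v x = fderiv ℝ f x (Aa a x)) : HasRot a u v := by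
  intro x
  have h1 : HasFDerivAt f (fderiv ℝ f x) (rotV a.1.1 a.1.2 0 (x : EE d)) := by
    rw [rotV_zero]; exact (hf x).hasFDerivAt
  have h2 := h1.comp_hasDerivAt (0 : ℝ) (hasDerivAt_rotV a x)
  rw [hv x]
  refine h2.congr_of_eventuallyEq (Eventually.of_forall fun θ => ?_)
  show u (rotS a θ x) = f (rotV a.1.1 a.1.2 θ x)
  rw [hu]
  rfl

/-- value of a rotation derivative of a restriction -/
theorem hasRot_eq {f : EE d → ℝ} {u v : C(SS d, ℝ)} (a : Pr d)
    (hu : ∀ x : SS d, u x = f x) {x : SS d} (hf : DifferentiableAt ℝ f x)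
    (h : HasRot a u v) : v x = fderiv ℝ f x (Aa a x) := by
  have h1 : HasFDerivAt f (fderiv ℝ f x) (rotV a.1.1 a.1.2 0 (x : EE d)) := by
    rw [rotV_zero]; exact hf.hasFDerivAt
  have h2 := h1.comp_hasDerivAt (0 : ℝ) (hasDerivAt_rotV a x)
  refine (h x).unique (h2.congr_of_eventuallyEq (Eventually.of_forall fun θ => ?_))
  show u (rotS a θ x) = f (rotV a.1.1 a.1.2 θ x)
  rw [hu]
  rfl

/-- reconstruction of a vector from its rotation components -/
theorem sum_Aa (x v : EE d) :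
    ∑ a : Pr d, (x a.1.1 * v a.1.2 - x a.1.2 * v a.1.1) • Aa a x =
      (‖x‖ ^ 2) • v - (inner ℝ x v) • x := by
  ext k
  have h1 : (∑ a : Pr d, (x a.1.1 * v a.1.2 - x a.1.2 * v a.1.1) • Aa a x) k =
      ∑ a : Pr d, (x a.1.1 * v a.1.2 - x a.1.2 * v a.1.1) *
        (x a.1.1 * (if k = a.1.2 then 1 else 0) - x a.1.2 * (if k = a.1.1 then 1 else 0)) := by
    have h2 : (∑ a : Pr d, (x a.1.1 * v a.1.2 - x a.1.2 * v a.1.1) • Aa a x) k =
      ∑ a : Pr d, ((x a.1.1 * v a.1.2 - x a.1.2 * v a.1.1) • Aa a x) k := by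
      simp
    rw [h2]
    refine Finset.sum_congr rfl fun a _ => ?_
    unfold Aa
    simp only [PiLp.sub_apply, PiLp.smul_apply, PiLp.single_apply, smul_eq_mul]
  rw [h1]
  have h3 := two_sum_Pr (d := d) (fun i j => (x i * v j - x j * v i) *
    (x i * (if k = j then 1 else 0) - x j * (if k = i then 1 else 0))) (fun i j => by ring)
  have h4 : ∑ i : Fin d, (x i * v i - x i * v i) *
      (x i * (if k = i then 1 else 0) - x i * (if k = i then 1 else 0)) = 0 :=
    Finset.sum_eq_zero fun i _ => by ring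
  have e1 : ∑ i : Fin d, ∑ j : Fin d, (x i * v j - x j * v i) *
      (x i * (if k = j then 1 else 0)) = (∑ i, x i * x i) * v k - (∑ i, x i * v i) * x k := by
    rw [Finset.sum_mul, Finset.sum_mul, ← Finset.sum_sub_distrib]
    refine Finset.sum_congr rfl fun i _ => ?_
    have : ∀ j : Fin d, (x i * v j - x j * v i) * (x i * (if k = j then 1 else 0)) =
        if k = j then (x i * v j - x j * v i) * x i else 0 := fun j => by
      split_ifs <;> ring
    rw [Finset.sum_congr rfl fun j _ => this j, Finset.sum_ite_eq]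
    simp only [Finset.mem_univ, if_true]
    ring
  have e2 : ∑ i : Fin d, ∑ j : Fin d, (x i * v j - x j * v i) *
      (x j * (if k = i then 1 else 0)) = (∑ i, x i * v i) * x k - (∑ i, x i * x i) * v k := by
    rw [Finset.sum_comm, Finset.sum_mul, Finset.sum_mul, ← Finset.sum_sub_distrib]
    refine Finset.sum_congr rfl fun j _ => ?_
    have : ∀ i : Fin d, (x i * v j - x j * v i) * (x j * (if k = i then 1 else 0)) =
        if k = i then (x i * v j - x j * v i) * x j else 0 := fun i => by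
      split_ifs <;> ring
    rw [Finset.sum_congr rfl fun i _ => this i, Finset.sum_ite_eq]
    simp only [Finset.mem_univ, if_true]
    ring
  have e3 : ∑ i : Fin d, ∑ j : Fin d, (x i * v j - x j * v i) *
      (x i * (if k = j then 1 else 0) - x j * (if k = i then 1 else 0)) =
      2 * ((∑ i, x i * x i) * v k - (∑ i, x i * v i) * x k) := by
    have : ∀ i j : Fin d, (x i * v j - x j * v i) *
      (x i * (if k = j then 1 else 0) - x j * (if k = i then 1 else 0)) =
      (x i * v j - x j * v i) * (x i * (if k = j then 1 else 0)) -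
      (x i * v j - x j * v i) * (x j * (if k = i then 1 else 0)) := fun i j => by ring
    simp only [this, Finset.sum_sub_distrib]
    rw [e1, e2]; ring
  rw [h4, e3, sub_zero] at h3
  have h5 : ∑ i, x i * x i = ‖x‖ ^ 2 := by rw [sum_mul_coord, real_inner_self_eq_norm_sq]
  have h6 : ∑ i, x i * v i = inner ℝ x v := sum_mul_coord x v
  rw [h5, h6] at h3
  have h7 : ((‖x‖ ^ 2) • v - (inner ℝ x v) • x) k = ‖x‖ ^ 2 * v k - inner ℝ x v * x k := by
    simp
  rw [h7]
  linarith

/-! ### the derivative of the extension -/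

/-- candidate derivative of `ext u` -/
def Dext (u' : Pr d → C(SS d, ℝ)) (x : EE d) : EE d →L[ℝ] ℝ :=
  (‖x‖ ^ 2)⁻¹ • ∑ a : Pr d, ext (u' a) x •
    (x a.1.1 • (EuclideanSpace.proj a.1.2 : EE d →L[ℝ] ℝ) -
      x a.1.2 • (EuclideanSpace.proj a.1.1 : EE d →L[ℝ] ℝ))

theorem Dext_apply (u' : Pr d → C(SS d, ℝ)) (x v : EE d) :
    Dext u' x v = (‖x‖ ^ 2)⁻¹ * ∑ a : Pr d, ext (u' a) x * (x a.1.1 * v a.1.2 - x a.1.2 * v a.1.1) := by
  simp [Dext]

/-- derivative of the extension of the restriction of a smooth function -/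
theorem hasFDerivAt_ext_smooth {f : EE d → ℝ} {u : C(SS d, ℝ)} {u' : Pr d → C(SS d, ℝ)}
    (hu : ∀ x : SS d, u x = f x) (hf : ∀ x : SS d, DifferentiableAt ℝ f x)
    (h : ∀ a, HasRot a u (u' a)) {x : EE d} (hx : x ≠ 0) :
    HasFDerivAt (ext u) (Dext u' x) x := by
  have hn : 0 < ‖x‖ := norm_pos_iff.2 hx
  set y : SS d := toS x hx with hy
  have hyc : (y : EE d) = ‖x‖⁻¹ • x := rfl
  -- at the point `y`
  have h1 : HasFDerivAt (fun z => f (Moll657.rp z))
      (fderiv ℝ f y - (fderiv ℝ f y y) • innerSL ℝ (y : EE d)) y :=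
    Moll657.hasFDerivAt_comp_rp (nrm y) (hf y).hasFDerivAt
  have h2 : ∀ z : EE d, z ≠ 0 → ext u z = f (Moll657.rp z) := by
    intro z hz
    rw [ext_of_ne u hz, hu]
    rfl
  have h3 : HasFDerivAt (ext u) (fderiv ℝ f y - (fderiv ℝ f y y) • innerSL ℝ (y : EE d)) y := by
    refine h1.congr_of_eventuallyEq ?_
    filter_upwards [isOpen_ne.mem_nhds (coe_ne y)] with z hz using h2 z hz
  -- homogeneity
  have h4 : HasFDerivAt (fun z : EE d => ‖x‖⁻¹ • z) (‖x‖⁻¹ • ContinuousLinearMap.id ℝ (EE d)) x :=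
    (‖x‖⁻¹ • ContinuousLinearMap.id ℝ (EE d)).hasFDerivAt
  have h5 : HasFDerivAt (ext u) (fderiv ℝ f y - (fderiv ℝ f y y) • innerSL ℝ (y : EE d))
      (‖x‖⁻¹ • x) := h3
  have h6 := h5.comp x h4
  have h7 : (ext u ∘ fun z : EE d => ‖x‖⁻¹ • z) = ext u := by
    funext z
    exact ext_smul u (inv_pos.2 hn) z
  rw [h7] at h6
  have h8 : (fderiv ℝ f y - (fderiv ℝ f y y) • innerSL ℝ (y : EE d)).comp
      (‖x‖⁻¹ • ContinuousLinearMap.id ℝ (EE d)) = Dext u' x := by
    ext v
    rw [Dext_apply]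
    have h9 : ∀ a, ext (u' a) x = fderiv ℝ f y (Aa a y) := fun a => by
      rw [ext_of_ne (u' a) hx]
      exact hasRot_eq a hu (hf y) (h a)
    have h10 : ∑ a : Pr d, ext (u' a) x * (x a.1.1 * v a.1.2 - x a.1.2 * v a.1.1) =
        ‖x‖ * fderiv ℝ f y (∑ a : Pr d, ((y : EE d) a.1.1 * v a.1.2 - (y : EE d) a.1.2 * v a.1.1) •
          Aa a (y : EE d)) := by
      rw [map_sum, Finset.mul_sum]
      refine Finset.sum_congr rfl fun a _ => ?_
      rw [h9 a, map_smul, smul_eq_mul, hyc]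
      simp only [PiLp.smul_apply, smul_eq_mul]
      field_simp
    rw [h10, sum_Aa, nrm y, one_pow, one_smul]
    simp only [ContinuousLinearMap.comp_apply, sub_apply,
      smul_apply, ContinuousLinearMap.id_apply, innerSL_apply_apply, smul_eq_mul,
      map_sub, map_smul]
    field_simp
  rw [h8] at h6
  exact h6

/-! ### mollification -/

/-- radial bump -/
def ker (δ : ℝ) (x : EE d) : ℝ := expNegInvGlue (δ ^ 2 - ‖x‖ ^ 2)

theorem ker_nonneg (δ : ℝ) (x : EE d) : 0 ≤ ker δ x := expNegInvGlue.nonneg _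

theorem contDiff_ker (δ : ℝ) : ContDiff ℝ ∞ (ker (d := d) δ) :=
  expNegInvGlue.contDiff.comp (contDiff_const.sub (contDiff_norm_sq ℝ))

theorem ker_zero {δ : ℝ} (hδ : 0 < δ) {x : EE d} (hx : δ ≤ ‖x‖) : ker δ x = 0 := by
  refine expNegInvGlue.zero_of_nonpos ?_
  nlinarith [norm_nonneg x]

theorem hasCompactSupport_ker {δ : ℝ} (hδ : 0 < δ) : HasCompactSupport (ker (d := d) δ) := by
  refine HasCompactSupport.intro (isCompact_closedBall (0 : EE d) δ) fun x hx => ?_
  refine ker_zero hδ ?_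
  simp only [mem_closedBall, dist_zero_right, not_le] at hx
  exact hx.le

theorem integrable_ker {δ : ℝ} (hδ : 0 < δ) : Integrable (ker (d := d) δ) :=
  (contDiff_ker δ).continuous.integrable_of_hasCompactSupport (hasCompactSupport_ker hδ)

/-- total mass -/
def mas (d : ℕ) (δ : ℝ) : ℝ := ∫ x : EE d, ker δ x

theorem mas_pos {δ : ℝ} (hδ : 0 < δ) : 0 < mas d δ := by
  refine (contDiff_ker δ).continuous.integral_pos_of_hasCompactSupport_nonneg_nonzero
    (hasCompactSupport_ker hδ) (fun x => ker_nonneg δ x) (x := 0) ?_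
  refine (expNegInvGlue.pos_of_pos ?_).ne'
  have := pow_pos hδ 2
  simpa using this

/-- mollification of `ext u` -/
def mm (δ : ℝ) (u : C(SS d, ℝ)) (x : EE d) : ℝ := (mas d δ)⁻¹ * ∫ t : EE d, ker δ t * ext u (x - t)

theorem contDiff_mm {δ : ℝ} (hδ : 0 < δ) (u : C(SS d, ℝ)) : ContDiff ℝ ∞ (mm δ u) := by
  have h1 : ContDiff ℝ ∞ (ker (d := d) δ ⋆[ContinuousLinearMap.lsmul ℝ ℝ, volume] ext u) :=
    HasCompactSupport.contDiff_convolution_left _ (hasCompactSupport_ker hδ) (contDiff_ker δ)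
      (locallyIntegrable_ext u)
  have h2 : mm δ u = fun x => (mas d δ)⁻¹ *
      (ker (d := d) δ ⋆[ContinuousLinearMap.lsmul ℝ ℝ, volume] ext u) x := by
    funext x
    simp only [mm, convolution, ContinuousLinearMap.lsmul_apply, smul_eq_mul]
  rw [h2]
  exact contDiff_const.mul h1

theorem integrable_mm {δ : ℝ} (hδ : 0 < δ) (u : C(SS d, ℝ)) (x : EE d) :
    Integrable fun t : EE d => ker δ t * ext u (x - t) := by
  refine (integrable_ker hδ).mul_bdd (c := ‖u‖) ?_ ?_
  · exact ((measurable_ext u).comp (measurable_const.sub measurable_id)).aestronglyMeasurable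
  · exact Eventually.of_forall fun t => abs_ext_le u _

theorem norm_rotE (a : Pr d) (θ : ℝ) (x : EE d) : ‖rotE a θ x‖ = ‖x‖ :=
  (rotE a θ).norm_map x

/-- rotation equivariance -/
theorem mm_rot {δ : ℝ} (u : C(SS d, ℝ)) (a : Pr d) (θ : ℝ) (x : EE d) :
    mm δ u (rotE a θ x) = (mas d δ)⁻¹ * ∫ t : EE d, ker δ t * ext u (rotE a θ (x - t)) := by
  unfold mm
  congr 1
  have h1 := (rotE a θ).measurePreserving.integral_comp
    (rotE a θ).toHomeomorph.measurableEmbedding
    (fun t : EE d => ker δ t * ext u (rotE a θ x - t))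
  rw [← h1]
  refine integral_congr_ae (Eventually.of_forall fun t => ?_)
  show ker δ (rotE a θ t) * ext u (rotE a θ x - rotE a θ t) = ker δ t * ext u (rotE a θ (x - t))
  rw [map_sub]
  unfold ker
  rw [norm_rotE]

/-- rotation derivative of the extension -/
theorem hasDerivAt_ext_rot {a : Pr d} {u v : C(SS d, ℝ)} (h : HasRot a u v) (x : EE d) (θ : ℝ) :
    HasDerivAt (fun τ : ℝ => ext u (rotE a τ x)) (ext v (rotE a θ x)) θ := by
  by_cases hx : x = 0
  · subst hx
    have h1 : (fun τ : ℝ => ext u (rotE a τ (0 : EE d))) = fun _ => 0 := by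
      funext τ; rw [map_zero]; simp [ext]
    rw [h1, map_zero]
    simpa [ext] using hasDerivAt_const θ (0 : ℝ)
  · have hne : ∀ τ, rotE a τ x ≠ 0 := fun τ h0 => by
      have := norm_rotE a τ x
      rw [h0, norm_zero] at this
      exact hx (norm_eq_zero.1 this.symm)
    have h1 : ∀ (w : C(SS d, ℝ)) (τ : ℝ), ext w (rotE a τ x) = w (rotS a τ (toS x hx)) := by
      intro w τ
      rw [ext_of_ne w (hne τ)]
      congr 1
      apply Subtype.ext
      show ‖rotE a τ x‖⁻¹ • rotE a τ x = rotV a.1.1 a.1.2 τ (‖x‖⁻¹ • x)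
      rw [norm_rotE, ← rotE_apply, map_smul]
    rw [h1 v θ]
    refine (h.at (toS x hx) θ).congr_of_eventuallyEq (Eventually.of_forall fun τ => ?_)
    exact h1 u τ

theorem hasRot_mm {δ : ℝ} (hδ : 0 < δ) {a : Pr d} {u v : C(SS d, ℝ)} (h : HasRot a u v)
    {p q : C(SS d, ℝ)} (hp : ∀ x : SS d, p x = mm δ u x) (hq : ∀ x : SS d, q x = mm δ v x) :
    HasRot a p q := by
  intro x
  have h1 : (fun θ : ℝ => p (rotS a θ x)) = fun θ => (mas d δ)⁻¹ *
      ∫ t : EE d, ker δ t * ext u (rotE a θ ((x : EE d) - t)) := by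
    funext θ
    rw [hp, ← mm_rot]
    rfl
  rw [h1, hq x]
  have key := hasDerivAt_integral_of_dominated_loc_of_deriv_le (μ := (volume : Measure (EE d)))
    (𝕜 := ℝ) (F := fun (θ : ℝ) (t : EE d) => ker δ t * ext u (rotE a θ ((x : EE d) - t)))
    (F' := fun (θ : ℝ) (t : EE d) => ker δ t * ext v (rotE a θ ((x : EE d) - t))) (x₀ := (0 : ℝ))
    (s := univ) (bound := fun t => ker δ t * ‖v‖) univ_mem ?_ ?_ ?_ ?_ ?_ ?_
  · have h2 := key.2.const_mul ((mas d δ)⁻¹)
    refine h2.congr_deriv ?_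
    unfold mm
    congr 1
    refine integral_congr_ae (Eventually.of_forall fun t => ?_)
    show ker δ t * ext v (rotE a 0 ((x : EE d) - t)) = ker δ t * ext v ((x : EE d) - t)
    rw [rotE_apply, rotV_zero]
  · refine Eventually.of_forall fun θ => ?_
    refine ((contDiff_ker δ).continuous.measurable.mul ((measurable_ext u).comp
      ((rotE a θ).continuous.measurable.comp (measurable_const.sub measurable_id)))).aestronglyMeasurable
  · refine (integrable_ker hδ).mul_bdd (c := ‖u‖) ?_ ?_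
    · exact ((measurable_ext u).comp ((rotE a 0).continuous.measurable.comp
        (measurable_const.sub measurable_id))).aestronglyMeasurable
    · exact Eventually.of_forall fun t => abs_ext_le u _
  · refine ((contDiff_ker δ).continuous.measurable.mul ((measurable_ext v).comp
      ((rotE a 0).continuous.measurable.comp (measurable_const.sub measurable_id)))).aestronglyMeasurable
  · refine Eventually.of_forall fun t θ _ => ?_
    rw [norm_mul, Real.norm_eq_abs, abs_of_nonneg (ker_nonneg δ t)]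
    exact mul_le_mul_of_nonneg_left (abs_ext_le v _) (ker_nonneg δ t)
  · exact (integrable_ker hδ).mul_const _
  · refine Eventually.of_forall fun t θ _ => ?_
    exact (hasDerivAt_ext_rot h _ θ).const_mul _

/-- uniform convergence on the sphere -/
theorem mm_close (u : C(SS d, ℝ)) {ε : ℝ} (hε : 0 < ε) :
    ∃ δ0 : ℝ, 0 < δ0 ∧ ∀ δ : ℝ, 0 < δ → δ ≤ δ0 → ∀ x : SS d, |mm δ u x - u x| ≤ ε := by
  -- uniform continuity on the annulus
  set K : Set (EE d) := closedBall 0 2 ∩ (ball 0 (1 / 2))ᶜ with hK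
  have hKc : IsCompact K := (isCompact_closedBall _ _).inter_right isOpen_ball.isClosed_compl
  have hK0 : K ⊆ {0}ᶜ := by
    rintro x ⟨-, hx⟩ h0
    rw [mem_singleton_iff] at h0
    subst h0
    exact hx (by simp)
  have huc : UniformContinuousOn (ext u) K :=
    hKc.uniformContinuousOn_of_continuous ((continuousOn_ext u).mono hK0)
  obtain ⟨η, hη, H⟩ := Metric.uniformContinuousOn_iff.1 huc ε hε
  refine ⟨min (η / 2) (1 / 2), by positivity, fun δ hδ hδ0 x => ?_⟩
  have hδη : δ < η := lt_of_le_of_lt (hδ0.trans (min_le_left _ _)) (half_lt_self hη)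
  have hδ2 : δ ≤ 1 / 2 := hδ0.trans (min_le_right _ _)
  have hm := mas_pos (d := d) hδ
  have h1 : mm δ u x - u x = (mas d δ)⁻¹ * ∫ t : EE d, ker δ t * (ext u ((x : EE d) - t) - u x) := by
    have h2 : ∫ t : EE d, ker δ t * (ext u ((x : EE d) - t) - u x) =
        (∫ t : EE d, ker δ t * ext u ((x : EE d) - t)) - (mas d δ) * u x := by
      rw [mas, ← integral_mul_const, ← integral_sub (integrable_mm hδ u _)
        ((integrable_ker hδ).mul_const _)]
      refine integral_congr_ae (Eventually.of_forall fun t => ?_)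
      simp only
      ring
    rw [h2, mm]
    field_simp
  rw [h1, abs_mul, abs_of_pos (inv_pos.2 hm)]
  have h3 : |∫ t : EE d, ker δ t * (ext u ((x : EE d) - t) - u x)| ≤ ∫ t : EE d, ker δ t * ε := by
    rw [← Real.norm_eq_abs]
    refine norm_integral_le_of_norm_le ((integrable_ker hδ).mul_const _)
      (Eventually.of_forall fun t => ?_)
    rw [norm_mul, Real.norm_eq_abs, abs_of_nonneg (ker_nonneg δ t)]
    by_cases ht : δ ≤ ‖t‖
    · rw [ker_zero hδ ht]; simp
    · push Not at ht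
      refine mul_le_mul_of_nonneg_left ?_ (ker_nonneg δ t)
      have hxn := nrm x
      have e1 : (x : EE d) ∈ K := by
        refine ⟨by simp [hxn], ?_⟩
        simp only [mem_compl_iff, mem_ball, dist_zero_right, hxn, not_lt]
        norm_num
      have e2 : (x : EE d) - t ∈ K := by
        have h5 := norm_sub_norm_le (x : EE d) t
        have h6 := norm_sub_le (x : EE d) t
        rw [hxn] at h5 h6
        refine ⟨?_, ?_⟩
        · simp only [mem_closedBall, dist_zero_right]; linarith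
        · simp only [mem_compl_iff, mem_ball, dist_zero_right, not_lt]; linarith
      have e3 := H _ e2 _ e1 (by rw [dist_eq_norm]; simpa using ht.trans hδη)
      rw [Real.dist_eq, ext_coe] at e3
      exact e3.le
  calc (mas d δ)⁻¹ * |∫ t : EE d, ker δ t * (ext u ((x : EE d) - t) - u x)|
      ≤ (mas d δ)⁻¹ * ∫ t : EE d, ker δ t * ε := mul_le_mul_of_nonneg_left h3 (inv_pos.2 hm).le
    _ = ε := by rw [integral_mul_const]; exact inv_mul_cancel_left₀ hm.ne' ε

/-- the mollification as a continuous function on the sphere -/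
def mmS (δ : ℝ) (hδ : 0 < δ) (u : C(SS d, ℝ)) : C(SS d, ℝ) :=
  ⟨fun x => mm δ u x, (contDiff_mm hδ u).continuous.comp continuous_subtype_val⟩

@[simp] theorem mmS_apply (δ : ℝ) (hδ : 0 < δ) (u : C(SS d, ℝ)) (x : SS d) :
    mmS δ hδ u x = mm δ u x := rfl

theorem tendsto_mmS (u : C(SS d, ℝ)) :
    Tendsto (fun n : ℕ => mmS (1 / ((n : ℝ) + 1)) (by positivity) u) atTop (𝓝 u) := by
  rw [Metric.tendsto_atTop]
  intro ε hε
  obtain ⟨δ0, hδ0, H⟩ := mm_close u (half_pos hε)
  obtain ⟨N, hN⟩ := exists_nat_gt (1 / δ0)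
  refine ⟨N, fun n hn => ?_⟩
  have h1 : 1 / ((n : ℝ) + 1) ≤ δ0 := by
    have h2 : (N : ℝ) ≤ n := by exact_mod_cast hn
    rw [div_le_iff₀ (by positivity)]
    rw [div_lt_iff₀ hδ0] at hN
    nlinarith
  have h3 : dist (mmS (1 / ((n : ℝ) + 1)) (by positivity) u) u ≤ ε / 2 := by
    rw [ContinuousMap.dist_le (by positivity)]
    intro x
    rw [Real.dist_eq]
    exact H _ (by positivity) h1 x
  linarith

/-! ### the bridge theorem -/

theorem norm_Dext_sub_le (u' v' : Pr d → C(SS d, ℝ)) {x : EE d} (hx : x ≠ 0) :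
    ‖Dext u' x - Dext v' x‖ ≤ 2 * ‖x‖⁻¹ * ∑ a : Pr d, ‖u' a - v' a‖ := by
  have hn : 0 < ‖x‖ := norm_pos_iff.2 hx
  refine ContinuousLinearMap.opNorm_le_bound _ (by positivity) fun v => ?_
  have h1 : (Dext u' x - Dext v' x) v = (‖x‖ ^ 2)⁻¹ * ∑ a : Pr d, (ext (u' a) x - ext (v' a) x) *
      (x a.1.1 * v a.1.2 - x a.1.2 * v a.1.1) := by
    rw [sub_apply, Dext_apply, Dext_apply, ← mul_sub, ← Finset.sum_sub_distrib]
    congr 1
    exact Finset.sum_congr rfl fun a _ => by ring
  rw [h1, norm_mul, norm_inv, norm_pow, norm_norm]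
  have h2 : ‖∑ a : Pr d, (ext (u' a) x - ext (v' a) x) *
      (x a.1.1 * v a.1.2 - x a.1.2 * v a.1.1)‖ ≤ ∑ a : Pr d, ‖u' a - v' a‖ * (2 * (‖x‖ * ‖v‖)) := by
    refine (norm_sum_le _ _).trans (Finset.sum_le_sum fun a _ => ?_)
    rw [norm_mul]
    refine mul_le_mul (ext_sub_le _ _ _) ?_ (norm_nonneg _) (norm_nonneg _)
    have c1 : ∀ (i : Fin d) (z : EE d), |z i| ≤ ‖z‖ := fun i z => PiLp.norm_apply_le z i
    rw [Real.norm_eq_abs]
    calc |x a.1.1 * v a.1.2 - x a.1.2 * v a.1.1|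
        ≤ |x a.1.1 * v a.1.2| + |x a.1.2 * v a.1.1| := abs_sub _ _
      _ ≤ ‖x‖ * ‖v‖ + ‖x‖ * ‖v‖ := by
          rw [abs_mul, abs_mul]
          exact add_le_add
            (mul_le_mul (c1 _ _) (c1 _ _) (abs_nonneg _) (norm_nonneg _))
            (mul_le_mul (c1 _ _) (c1 _ _) (abs_nonneg _) (norm_nonneg _))
      _ = 2 * (‖x‖ * ‖v‖) := by ring
  calc (‖x‖ ^ 2)⁻¹ * ‖∑ a : Pr d, (ext (u' a) x - ext (v' a) x) *
        (x a.1.1 * v a.1.2 - x a.1.2 * v a.1.1)‖
      ≤ (‖x‖ ^ 2)⁻¹ * ∑ a : Pr d, ‖u' a - v' a‖ * (2 * (‖x‖ * ‖v‖)) :=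
        mul_le_mul_of_nonneg_left h2 (by positivity)
    _ = 2 * ‖x‖⁻¹ * (∑ a : Pr d, ‖u' a - v' a‖) * ‖v‖ := by
        rw [← Finset.sum_mul]
        field_simp

/-- **(Br2)** rotation derivatives give the full derivative of the 0-homogeneous extension -/
theorem hasFDerivAt_ext {u : C(SS d, ℝ)} {u' : Pr d → C(SS d, ℝ)} (h : ∀ a, HasRot a u (u' a))
    {x : EE d} (hx : x ≠ 0) : HasFDerivAt (ext u) (Dext u' x) x := by
  have hn : 0 < ‖x‖ := norm_pos_iff.2 hx
  set r : ℝ := ‖x‖ / 2 with hr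
  have hr0 : 0 < r := half_pos hn
  set δ : ℕ → ℝ := fun n => 1 / ((n : ℝ) + 1) with hδ
  have hδ0 : ∀ n, 0 < δ n := fun n => by simp only [hδ]; positivity
  have hsb : ∀ y ∈ ball x r, y ≠ 0 ∧ r ≤ ‖y‖ := by
    intro y hy
    rw [mem_ball, dist_eq_norm] at hy
    have h1 := norm_sub_norm_le x y
    rw [norm_sub_rev] at h1
    have h2 : r ≤ ‖y‖ := by rw [hr] at hy ⊢; linarith
    exact ⟨fun h0 => by rw [h0, norm_zero] at h2; linarith, h2⟩
  refine hasFDerivAt_of_tendstoUniformlyOn (l := atTop) (s := ball x r)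
    (f := fun n : ℕ => ext (mmS (δ n) (hδ0 n) u))
    (f' := fun n : ℕ => Dext fun a => mmS (δ n) (hδ0 n) (u' a)) (g' := Dext u')
    isOpen_ball ?_ ?_ ?_ (mem_ball_self hr0)
  · rw [Metric.tendstoUniformlyOn_iff]
    intro ε hε
    have h1 : Tendsto (fun n : ℕ => 2 * r⁻¹ * ∑ a : Pr d, ‖u' a - mmS (δ n) (hδ0 n) (u' a)‖) atTop
        (𝓝 (2 * r⁻¹ * ∑ _a : Pr d, (0 : ℝ))) := by
      refine Tendsto.const_mul _ (tendsto_finsetSum _ fun a _ => ?_)
      have h2 : Tendsto (fun n : ℕ => u' a - mmS (δ n) (hδ0 n) (u' a)) atTop (𝓝 (u' a - u' a)) :=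
        tendsto_const_nhds.sub (tendsto_mmS (u' a))
      rw [sub_self] at h2
      simpa using h2.norm
    simp only [Finset.sum_const_zero, mul_zero] at h1
    filter_upwards [h1.eventually (gt_mem_nhds hε)] with n hn' y hy
    obtain ⟨hy0, hyr⟩ := hsb y hy
    rw [dist_eq_norm]
    refine lt_of_le_of_lt (norm_Dext_sub_le _ _ hy0) (lt_of_le_of_lt ?_ hn')
    have h3 : ‖y‖⁻¹ ≤ r⁻¹ := inv_anti₀ hr0 hyr
    have h4 : 0 ≤ ∑ a : Pr d, ‖u' a - mmS (δ n) (hδ0 n) (u' a)‖ :=
      Finset.sum_nonneg fun _ _ => norm_nonneg _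
    exact mul_le_mul_of_nonneg_right (by linarith) h4
  · intro n y hy
    exact hasFDerivAt_ext_smooth (f := mm (δ n) u) (fun z => rfl)
      (fun z => ((contDiff_mm (hδ0 n) u).differentiable (by simp)) _)
      (fun a => hasRot_mm (hδ0 n) (h a) (fun z => rfl) (fun z => rfl)) (hsb y hy).1
  · intro y hy
    rw [Metric.tendsto_atTop]
    intro ε hε
    obtain ⟨N, hN⟩ := Metric.tendsto_atTop.1 (tendsto_mmS u) ε hε
    refine ⟨N, fun n hn' => lt_of_le_of_lt ?_ (hN n hn')⟩
    rw [Real.dist_eq, dist_eq_norm]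
    exact ext_sub_le _ _ _

theorem fderiv_ext {u : C(SS d, ℝ)} {u' : Pr d → C(SS d, ℝ)} (h : ∀ a, HasRot a u (u' a))
    {x : EE d} (hx : x ≠ 0) : fderiv ℝ (ext u) x = Dext u' x := (hasFDerivAt_ext h hx).fderiv

theorem contDiffOn_Dext {k : ℕ∞} {u' : Pr d → C(SS d, ℝ)}
    (h : ∀ a, ContDiffOn ℝ k (ext (u' a)) {0}ᶜ) : ContDiffOn ℝ k (Dext u') {0}ᶜ := by
  have h1 : ContDiffOn ℝ k (fun x : EE d => (‖x‖ ^ 2)⁻¹) {0}ᶜ := by
    refine ContDiffOn.inv (contDiff_norm_sq ℝ).contDiffOn fun x hx => ?_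
    exact pow_ne_zero 2 (norm_ne_zero_iff.2 hx)
  have hc : ∀ i : Fin d, ContDiffOn ℝ k (fun x : EE d => x i) {0}ᶜ := fun i =>
    (EuclideanSpace.proj i : EE d →L[ℝ] ℝ).contDiff.contDiffOn
  have h2 : ∀ a : Pr d, ContDiffOn ℝ k (fun x : EE d => ext (u' a) x •
      (x a.1.1 • (EuclideanSpace.proj a.1.2 : EE d →L[ℝ] ℝ) -
      x a.1.2 • (EuclideanSpace.proj a.1.1 : EE d →L[ℝ] ℝ))) {0}ᶜ := fun a =>
    (h a).smul (((hc _).smul contDiffOn_const).sub ((hc _).smul contDiffOn_const))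
  exact h1.smul (ContDiffOn.sum fun a _ => h2 a)

/-- **(Br3)** one more derivative -/
theorem contDiffOn_ext_succ {k : ℕ} {u : C(SS d, ℝ)} {u' : Pr d → C(SS d, ℝ)}
    (h : ∀ a, HasRot a u (u' a)) (hk : ∀ a, ContDiffOn ℝ k (ext (u' a)) {0}ᶜ) :
    ContDiffOn ℝ (k + 1 : ℕ) (ext u) {0}ᶜ := by
  have hop : IsOpen ({0}ᶜ : Set (EE d)) := isOpen_compl_singleton
  have h1 : ContDiffOn ℝ ((k : ℕ∞) + 1 : ℕ∞) (ext u) {0}ᶜ := by
    have := (contDiffOn_succ_iff_fderiv_of_isOpen (n := (k : ℕ∞)) (f := ext u) hop).2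
      ⟨fun x hx => (hasFDerivAt_ext h hx).differentiableAt.differentiableWithinAt, by simp, ?_⟩
    · exact_mod_cast this
    · have h2 : ContDiffOn ℝ (k : ℕ∞) (Dext u') {0}ᶜ := contDiffOn_Dext hk
      exact h2.congr fun x hx => fderiv_ext h hx
  exact_mod_cast h1

/-- rotation regularity of order `k` -/
def RotSm : ℕ → C(SS d, ℝ) → Prop
  | 0, _ => True
  | k + 1, u => ∀ a, ∃ v, HasRot a u v ∧ RotSm k v

theorem contDiffOn_ext {k : ℕ} {u : C(SS d, ℝ)} (h : RotSm k u) :
    ContDiffOn ℝ k (ext u) {0}ᶜ := by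
  induction k generalizing u with
  | zero => exact_mod_cast (contDiffOn_zero.2 (continuousOn_ext u))
  | succ k ih =>
    choose v hv using h
    exact contDiffOn_ext_succ (fun a => (hv a).1) fun a => ih (hv a).2

theorem RotSm.mono {k : ℕ} {u : C(SS d, ℝ)} (h : RotSm (k + 1) u) : RotSm k u := by
  induction k generalizing u with
  | zero => trivial
  | succ k ih =>
    intro a
    obtain ⟨v, hv, hv2⟩ := h a
    exact ⟨v, hv, ih hv2⟩

theorem RotSm.add {k : ℕ} {u v : C(SS d, ℝ)} (hu : RotSm k u) (hv : RotSm k v) :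
    RotSm k (u + v) := by
  induction k generalizing u v with
  | zero => trivial
  | succ k ih =>
    intro a
    obtain ⟨u', hu', hu2⟩ := hu a
    obtain ⟨v', hv', hv2⟩ := hv a
    exact ⟨u' + v', hu'.add hv', ih hu2 hv2⟩

theorem RotSm.smul {k : ℕ} {u : C(SS d, ℝ)} (c : ℝ) (hu : RotSm k u) : RotSm k (c • u) := by
  induction k generalizing u with
  | zero => trivial
  | succ k ih =>
    intro a
    obtain ⟨u', hu', hu2⟩ := hu a
    exact ⟨c • u', hu'.smul c, ih hu2⟩

theorem RotSm.mul {k : ℕ} {u v : C(SS d, ℝ)} (hu : RotSm k u) (hv : RotSm k v) :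
    RotSm k (u * v) := by
  induction k generalizing u v with
  | zero => trivial
  | succ k ih =>
    intro a
    obtain ⟨u', hu', hu2⟩ := hu a
    obtain ⟨v', hv', hv2⟩ := hv a
    exact ⟨u' * v + u * v', hu'.mul hv', (ih hu2 hv.mono).add (ih hu.mono hv2)⟩

/-- smoothness from regularity of all orders -/
theorem contDiffOn_ext_infty {u : C(SS d, ℝ)} (h : ∀ k, RotSm k u) :
    ContDiffOn ℝ ∞ (ext u) {0}ᶜ := by
  rw [contDiffOn_infty]
  exact fun k => contDiffOn_ext (h k)

/-- an operator `G` which produces one rotation derivative and commutes with rotation derivatives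
gains one order -/
theorem RotSm.gain {G : C(SS d, ℝ) → C(SS d, ℝ)} (h1 : ∀ f a, ∃ v, HasRot a (G f) v)
    (h2 : ∀ f f' a, HasRot a f f' → HasRot a (G f) (G f')) {k : ℕ} {f : C(SS d, ℝ)}
    (hf : RotSm k f) : RotSm (k + 1) (G f) := by
  induction k generalizing f with
  | zero =>
    intro a
    obtain ⟨v, hv⟩ := h1 f a
    exact ⟨v, hv, trivial⟩
  | succ k ih =>
    intro a
    obtain ⟨f', hf', hf2⟩ := hf a
    exact ⟨G f', h2 f f' a hf', ih hf2⟩

/-- bootstrapping: a solution of `u = G (F u)` is smooth, if `F` preserves all regularity classes -/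
theorem contDiffOn_of_fixed {G F : C(SS d, ℝ) → C(SS d, ℝ)} (h1 : ∀ f a, ∃ v, HasRot a (G f) v)
    (h2 : ∀ f f' a, HasRot a f f' → HasRot a (G f) (G f'))
    (hF : ∀ k (u : C(SS d, ℝ)), RotSm k u → RotSm k (F u)) {u : C(SS d, ℝ)} (hu : u = G (F u)) :
    (∀ k, RotSm k u) ∧ ContDiffOn ℝ ∞ (ext u) {0}ᶜ := by
  have h : ∀ k, RotSm k u := by
    intro k
    induction k with
    | zero => trivial
    | succ k ih => rw [hu]; exact RotSm.gain h1 h2 (hF k u ih)
  exact ⟨h, contDiffOn_ext_infty h⟩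

end Crest.Agent.R246.Brg657
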