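import Mathlib

/-!
# Row 246, part C (helper378): polar coordinates on the sphere `S^{m+1}` around a pole
-/

set_option autoImplicit false

open MeasureTheory MeasureTheory.Measure Set Filter Topology Metric
open scoped ENNReal

noncomputable section

namespace Crest.Agent.R246.C378

abbrev En (D : ℕ) : Type := EuclideanSpace ℝ (Fin D)

abbrev S1 (D : ℕ) : Type := sphere (0 : EuclideanSpace ℝ (Fin D)) 1

/-- surface measure of the unit sphere of `ℝ^D` -/
abbrev muS (D : ℕ) : Measure (S1 D) := (volume : Measure (EuclideanSpace ℝ (Fin D))).toSphere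

theorem lintegral_volumeIoiPow (n : ℕ) {h : ℝ → ℝ≥0∞} (hh : Measurable h) :
    ∫⁻ r : Ioi (0 : ℝ), h r ∂(volumeIoiPow n)
      = ∫⁻ r in Ioi (0 : ℝ), ENNReal.ofReal (r ^ n) * h r := by
  simp only [Measure.volumeIoiPow]
  have h1 : Measurable fun r : Ioi (0 : ℝ) => ENNReal.ofReal ((r : ℝ) ^ n) := by fun_prop
  have h2 : Measurable fun r : Ioi (0 : ℝ) => h r := hh.comp measurable_subtype_coe
  rw [lintegral_withDensity_eq_lintegral_mul _ h1 h2,
    ← lintegral_subtype_comap measurableSet_Ioi (fun r => ENNReal.ofReal (r ^ n) * h r)]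
  rfl

/-- polar coordinates for nonnegative functions -/
theorem lintegral_polar {D : ℕ} [NeZero D] {g : En D → ℝ≥0∞} (hg : Measurable g) :
    ∫⁻ x, g x = ∫⁻ r in Ioi (0 : ℝ), ENNReal.ofReal (r ^ (D - 1)) *
      ∫⁻ ω : S1 D, g (r • (ω : En D)) ∂(muS D) := by
  have hmp := (volume : Measure (En D)).measurePreserving_homeomorphUnitSphereProd
  rw [finrank_euclideanSpace_fin] at hmp
  have e1 : ∫⁻ x, g x = ∫⁻ p : S1 D × Ioi (0 : ℝ), g (p.2.1 • p.1.1)
      ∂((muS D).prod (volumeIoiPow (D - 1))) := by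
    calc ∫⁻ x, g x = ∫⁻ x : ({(0)}ᶜ : Set (En D)), g x.1 ∂(volume.comap
            ((↑) : ({(0)}ᶜ : Set (En D)) → En D)) := by
          rw [lintegral_subtype_comap (measurableSet_singleton _).compl fun x ↦ g x,
            restrict_compl_singleton]
      _ = _ := by
          rw [← hmp.lintegral_comp_emb (Homeomorph.measurableEmbedding _)]
          refine lintegral_congr_ae (Filter.Eventually.of_forall fun x => ?_)
          dsimp only
          congr 1
          have hx : ‖x.1‖ ≠ 0 := norm_ne_zero_iff.2 x.2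
          simp [homeomorphUnitSphereProd, smul_smul, hx]
  have hm : Measurable fun p : S1 D × Ioi (0 : ℝ) => g (p.2.1 • p.1.1) :=
    hg.comp (by fun_prop)
  rw [e1, lintegral_prod_symm' _ hm]
  have hm2 : Measurable fun p : ℝ × S1 D => g (p.1 • (p.2 : En D)) := hg.comp (by fun_prop)
  exact lintegral_volumeIoiPow (D - 1) (h := fun r => ∫⁻ ω : S1 D, g (r • (ω : En D)) ∂(muS D))
    hm2.lintegral_prod_right'

/-- the Gaussian moment -/
def gE (k : ℕ) : ℝ≥0∞ := ∫⁻ R in Ioi (0 : ℝ), ENNReal.ofReal (R ^ k * Real.exp (-(1 / 2) * R ^ 2))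

theorem gmom_integrable (k : ℕ) :
    IntegrableOn (fun r : ℝ => r ^ k * Real.exp (-(1 / 2) * r ^ 2)) (Ioi 0) := by
  have := integrableOn_rpow_mul_exp_neg_mul_sq (b := 1 / 2) (by norm_num) (s := (k : ℝ))
    (by have : (0 : ℝ) ≤ k := Nat.cast_nonneg k; linarith)
  simpa using this

theorem gE_ne_top (k : ℕ) : gE k ≠ ⊤ := by
  unfold gE
  rw [← ofReal_integral_eq_lintegral_ofReal (gmom_integrable k)]
  · exact ENNReal.ofReal_ne_top
  · filter_upwards [self_mem_ae_restrict measurableSet_Ioi] with r hr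
    have hr' : (0 : ℝ) < r := hr
    positivity

theorem gE_ne_zero (k : ℕ) : gE k ≠ 0 := by
  unfold gE
  intro h
  rw [lintegral_eq_zero_iff (by fun_prop)] at h
  have h2 := (ae_restrict_iff' measurableSet_Ioi).1 h
  have h3 : (volume : Measure ℝ) (Ioi 0) = 0 := by
    refine measure_mono_null ?_ h2
    intro r hr
    have hr' : (0 : ℝ) < r := hr
    simp only [mem_compl_iff, Pi.zero_apply]
    intro hc
    have h4 := hc hr
    rw [ENNReal.ofReal_eq_zero] at h4
    have : 0 < r ^ k * Real.exp (-(1 / 2) * r ^ 2) := by positivity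
    linarith
  simp at h3

/-- the Gaussian extension -/
def gext {D : ℕ} (f : En D → ℝ≥0∞) (x : En D) : ℝ≥0∞ :=
  f (‖x‖⁻¹ • x) * ENNReal.ofReal (Real.exp (-(1 / 2) * ‖x‖ ^ 2))

theorem measurable_gext {D : ℕ} {f : En D → ℝ≥0∞} (hf : Measurable f) : Measurable (gext f) := by
  unfold gext
  exact (hf.comp (by fun_prop)).mul (by fun_prop)

theorem gext_smul {D : ℕ} (f : En D → ℝ≥0∞) {r : ℝ} (hr : 0 < r) {z : En D} (hz : ‖z‖ = 1) :
    gext f (r • z) = ENNReal.ofReal (Real.exp (-(1 / 2) * r ^ 2)) * f z := by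
  have hn : ‖r • z‖ = r := by
    rw [norm_smul, Real.norm_eq_abs, abs_of_pos hr, hz, mul_one]
  unfold gext
  rw [hn, smul_smul, inv_mul_cancel₀ hr.ne', one_smul, mul_comm]

theorem lintegral_gext {D : ℕ} [NeZero D] {f : En D → ℝ≥0∞} (hf : Measurable f) :
    ∫⁻ x, gext f x = gE (D - 1) * ∫⁻ ω : S1 D, f (ω : En D) ∂(muS D) := by
  rw [lintegral_polar (measurable_gext hf)]
  have h1 : ∀ r ∈ Ioi (0 : ℝ), ENNReal.ofReal (r ^ (D - 1)) *
      ∫⁻ ω : S1 D, gext f (r • (ω : En D)) ∂(muS D)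
      = ENNReal.ofReal (r ^ (D - 1) * Real.exp (-(1 / 2) * r ^ 2)) *
        ∫⁻ ω : S1 D, f (ω : En D) ∂(muS D) := by
    intro r hr
    have hr' : (0 : ℝ) < r := hr
    have h2 : ∀ ω : S1 D, gext f (r • (ω : En D))
        = ENNReal.ofReal (Real.exp (-(1 / 2) * r ^ 2)) * f (ω : En D) := fun ω =>
      gext_smul f hr' (by simp)
    have hfm : Measurable fun ω : S1 D => f (ω : En D) := hf.comp measurable_subtype_coe
    simp only [h2]
    rw [lintegral_const_mul _ hfm, ← mul_assoc, ← ENNReal.ofReal_mul (by positivity)]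
  rw [setLIntegral_congr_fun measurableSet_Ioi h1, lintegral_mul_const, gE]
  fun_prop

/-- prepend a coordinate -/
def mk1 {m : ℕ} (a : ℝ) (y : En (m + 1)) : En (m + 2) :=
  WithLp.toLp 2 (Fin.cons a (fun i => y i) : Fin (m + 2) → ℝ)

def mk1E (m : ℕ) : ℝ × En (m + 1) ≃ᵐ En (m + 2) :=
  ((MeasurableEquiv.refl ℝ).prodCongr (MeasurableEquiv.toLp 2 (Fin (m + 1) → ℝ)).symm).trans
    ((MeasurableEquiv.piFinSuccAbove (fun _ : Fin (m + 2) => ℝ) 0).symm.trans
      (MeasurableEquiv.toLp 2 (Fin (m + 2) → ℝ)))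

theorem mk1E_apply {m : ℕ} (a : ℝ) (y : En (m + 1)) : mk1E m (a, y) = mk1 a y := by
  ext i
  refine Fin.cases ?_ (fun i => ?_) i
  · simp [mk1E, mk1, MeasurableEquiv.piFinSuccAbove, Fin.insertNthEquiv, MeasurableEquiv.prodCongr]
  · simp [mk1E, mk1, MeasurableEquiv.piFinSuccAbove, Fin.insertNthEquiv, MeasurableEquiv.prodCongr]

theorem measurePreserving_mk1E {m : ℕ} : MeasurePreserving (mk1E m) volume volume := by
  have h1 : MeasurePreserving ((MeasurableEquiv.refl ℝ).prodCongr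
      (MeasurableEquiv.toLp 2 (Fin (m + 1) → ℝ)).symm)
      (volume : Measure (ℝ × EuclideanSpace ℝ (Fin (m + 1)))) volume :=
    (MeasurePreserving.id volume).prod (PiLp.volume_preserving_ofLp (Fin (m + 1)))
  have h3 : MeasurePreserving (MeasurableEquiv.piFinSuccAbove (fun _ : Fin (m + 2) => ℝ) 0).symm
      (volume : Measure (ℝ × (Fin (m + 1) → ℝ))) volume :=
    (volume_preserving_piFinSuccAbove (fun _ : Fin (m + 2) => ℝ) 0).symm
  have h4 : MeasurePreserving (MeasurableEquiv.toLp 2 (Fin (m + 2) → ℝ)) volume volume :=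
    PiLp.volume_preserving_toLp (Fin (m + 2))
  exact (h4.comp h3).comp h1

theorem continuous_mk1 {m : ℕ} : Continuous fun t : ℝ × En (m + 1) => mk1 t.1 t.2 := by
  unfold mk1
  refine (PiLp.continuous_toLp 2 _).comp ?_
  refine continuous_pi fun i => ?_
  refine Fin.cases ?_ (fun j => ?_) i
  · simpa using continuous_fst
  · have : Continuous fun t : ℝ × En (m + 1) => t.2 j :=
      (EuclideanSpace.proj j : En (m + 1) →L[ℝ] ℝ).continuous.comp continuous_snd
    simpa using this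

@[simp] theorem mk1_zero {m : ℕ} (a : ℝ) (y : En (m + 1)) : mk1 a y 0 = a := rfl

@[simp] theorem mk1_succ {m : ℕ} (a : ℝ) (y : En (m + 1)) (i : Fin (m + 1)) :
    mk1 a y i.succ = y i := rfl

theorem smul_mk1 {m : ℕ} (r a : ℝ) (y : En (m + 1)) : r • mk1 a y = mk1 (r * a) (r • y) := by
  ext i
  refine Fin.cases ?_ (fun j => ?_) i <;> simp

theorem mk1_add {m : ℕ} (a b : ℝ) (y z : En (m + 1)) :
    mk1 a y + mk1 b z = mk1 (a + b) (y + z) := by
  ext i
  refine Fin.cases ?_ (fun j => ?_) i <;> simp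

theorem inner_mk1 {m : ℕ} (a b : ℝ) (y z : En (m + 1)) :
    inner ℝ (mk1 a y) (mk1 b z) = a * b + inner ℝ y z := by
  simp only [PiLp.inner_apply, Fin.sum_univ_succ, mk1_zero, mk1_succ]
  simp [mul_comm]

theorem norm_mk1_sq {m : ℕ} (a : ℝ) (y : En (m + 1)) : ‖mk1 a y‖ ^ 2 = a ^ 2 + ‖y‖ ^ 2 := by
  rw [← real_inner_self_eq_norm_sq, inner_mk1, real_inner_self_eq_norm_sq]; ring

/-- product coordinates -/
theorem lintegral_mk1 {m : ℕ} {F : En (m + 2) → ℝ≥0∞} (hF : Measurable F) :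
    ∫⁻ x, F x = ∫⁻ a : ℝ, ∫⁻ y : En (m + 1), F (mk1 a y) := by
  rw [← (measurePreserving_mk1E (m := m)).lintegral_comp_emb (mk1E m).measurableEmbedding F]
  have h0 : ∀ t : ℝ × En (m + 1), F (mk1E m t) = F (mk1 t.1 t.2) := by
    rintro ⟨a, y⟩; rw [mk1E_apply]
  simp only [h0]
  have hm : Measurable fun t : ℝ × En (m + 1) => F (mk1 t.1 t.2) :=
    hF.comp continuous_mk1.measurable
  rw [Measure.volume_eq_prod, lintegral_prod _ hm.aemeasurable]

/-- the point at distance `ρ` from the pole in the direction `ω` -/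
def pt {m : ℕ} (ρ : ℝ) (ω : En (m + 1)) : En (m + 2) := mk1 (Real.cos ρ) (Real.sin ρ • ω)

theorem norm_pt {m : ℕ} (ρ : ℝ) {ω : En (m + 1)} (hω : ‖ω‖ = 1) : ‖pt ρ ω‖ = 1 := by
  have h : ‖pt ρ ω‖ ^ 2 = 1 := by
    unfold pt
    rw [norm_mk1_sq, norm_smul, hω, mul_one, Real.norm_eq_abs, sq_abs, Real.cos_sq_add_sin_sq]
  nlinarith [norm_nonneg (pt ρ ω), sq_nonneg (‖pt ρ ω‖ - 1)]

theorem continuous_pt {m : ℕ} : Continuous fun t : ℝ × En (m + 1) => pt t.1 t.2 := by
  unfold pt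
  have h : Continuous fun t : ℝ × En (m + 1) =>
      ((Real.cos t.1, Real.sin t.1 • t.2) : ℝ × En (m + 1)) := by fun_prop
  exact continuous_mk1.comp h

/-- polar coordinates in the upper half plane -/
theorem lintegral_halfplane {K : ℝ → ℝ → ℝ≥0∞} (hK : Measurable (Function.uncurry K)) :
    ∫⁻ a : ℝ, ∫⁻ s in Ioi (0 : ℝ), K a s
      = ∫⁻ r in Ioi (0 : ℝ), ∫⁻ t in Ioo (0 : ℝ) Real.pi,
        ENNReal.ofReal r * K (r * Real.cos t) (r * Real.sin t) := by
  have hQ : MeasurableSet ((univ : Set ℝ) ×ˢ Ioi (0 : ℝ)) :=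
    MeasurableSet.univ.prod measurableSet_Ioi
  have e0 : ∫⁻ a : ℝ, ∫⁻ s in Ioi (0 : ℝ), K a s
      = ∫⁻ p, ((univ : Set ℝ) ×ˢ Ioi (0 : ℝ)).indicator (Function.uncurry K) p := by
    rw [lintegral_indicator hQ, Measure.volume_eq_prod, ← Measure.prod_restrict,
      Measure.restrict_univ, lintegral_prod _ hK.aemeasurable]
    rfl
  rw [e0, ← lintegral_comp_polarCoord_symm]
  have htar : polarCoord.target = Ioi (0 : ℝ) ×ˢ Ioo (-Real.pi) Real.pi := rfl
  have hsym : ∀ p : ℝ × ℝ, polarCoord.symm p = (p.1 * Real.cos p.2, p.1 * Real.sin p.2) :=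
    fun p => rfl
  rw [htar, Measure.volume_eq_prod, ← Measure.prod_restrict]
  have hmi : Measurable (((univ : Set ℝ) ×ˢ Ioi (0 : ℝ)).indicator (Function.uncurry K)) :=
    hK.indicator hQ
  have hm1 : Measurable fun p : ℝ × ℝ => ENNReal.ofReal p.1 •
      ((univ : Set ℝ) ×ˢ Ioi (0 : ℝ)).indicator (Function.uncurry K) (polarCoord.symm p) := by
    simp only [hsym, smul_eq_mul]
    exact (by fun_prop : Measurable fun p : ℝ × ℝ => ENNReal.ofReal p.1).mul
      (hmi.comp (by fun_prop))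
  rw [lintegral_prod _ hm1.aemeasurable]
  refine setLIntegral_congr_fun measurableSet_Ioi fun r hr => ?_
  have hr0 : (0 : ℝ) < r := hr
  have hpi := Real.pi_pos
  have hsub : Ioo (0 : ℝ) Real.pi ⊆ Ioo (-Real.pi) Real.pi :=
    Ioo_subset_Ioo (by linarith) le_rfl
  have e1 : ∀ t ∈ Ioo (-Real.pi) Real.pi, ENNReal.ofReal r •
      ((univ : Set ℝ) ×ˢ Ioi (0 : ℝ)).indicator (Function.uncurry K) (polarCoord.symm (r, t))
      = (Ioo (0 : ℝ) Real.pi).indicator
        (fun t => ENNReal.ofReal r * K (r * Real.cos t) (r * Real.sin t)) t := by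
    intro t ht
    rw [hsym, smul_eq_mul]
    by_cases h : t ∈ Ioo (0 : ℝ) Real.pi
    · rw [indicator_of_mem h, indicator_of_mem]
      · rfl
      · exact ⟨mem_univ _, mul_pos hr0 (Real.sin_pos_of_pos_of_lt_pi h.1 h.2)⟩
    · rw [indicator_of_notMem h, indicator_of_notMem, mul_zero]
      rintro ⟨-, h2⟩
      have h2' : 0 < r * Real.sin t := h2
      have hs : 0 < Real.sin t := (mul_pos_iff_of_pos_left hr0).1 h2'
      refine h ⟨?_, ht.2⟩
      by_contra hcon
      have := Real.sin_nonpos_of_nonpos_of_neg_pi_le (not_lt.1 hcon) ht.1.le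
      linarith
  dsimp only
  rw [setLIntegral_congr_fun measurableSet_Ioo e1, lintegral_indicator measurableSet_Ioo,
    Measure.restrict_restrict measurableSet_Ioo, inter_eq_left.2 hsub]

/-- the half plane kernel of a function on the sphere -/
def hpK {m : ℕ} (f : En (m + 2) → ℝ≥0∞) (a s : ℝ) : ℝ≥0∞ := ENNReal.ofReal (s ^ m) *
  ∫⁻ ω : S1 (m + 1), gext f (mk1 a (s • (ω : En (m + 1)))) ∂(muS (m + 1))

theorem measurable_hpK {m : ℕ} {f : En (m + 2) → ℝ≥0∞} (hf : Measurable f) :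
    Measurable (Function.uncurry (hpK f)) := by
  have hF := measurable_gext hf
  have h1 : Measurable fun p : (ℝ × ℝ) × S1 (m + 1) =>
      gext f (mk1 p.1.1 (p.1.2 • (p.2 : En (m + 1)))) :=
    hF.comp (continuous_mk1.measurable.comp (by fun_prop :
      Measurable fun p : (ℝ × ℝ) × S1 (m + 1) =>
        ((p.1.1, p.1.2 • (p.2 : En (m + 1))) : ℝ × En (m + 1))))
  exact (by fun_prop : Measurable fun p : ℝ × ℝ => ENNReal.ofReal (p.2 ^ m)).mul
    h1.lintegral_prod_right'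

theorem lintegral_gext_hpK {m : ℕ} {f : En (m + 2) → ℝ≥0∞} (hf : Measurable f) :
    ∫⁻ x, gext f x = ∫⁻ a : ℝ, ∫⁻ s in Ioi (0 : ℝ), hpK f a s := by
  have hF := measurable_gext hf
  have hcm : ∀ a : ℝ, Measurable fun y : En (m + 1) => gext f (mk1 a y) := fun a =>
    hF.comp (continuous_mk1.measurable.comp (by fun_prop :
      Measurable fun y : En (m + 1) => ((a, y) : ℝ × En (m + 1))))
  rw [lintegral_mk1 hF]
  refine lintegral_congr fun a => ?_
  rw [lintegral_polar (g := fun y => gext f (mk1 a y)) (hcm a)]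
  rfl

theorem measurable_ptω {m : ℕ} {f : En (m + 2) → ℝ≥0∞} (hf : Measurable f) (t : ℝ) :
    Measurable fun ω : S1 (m + 1) => f (pt t (ω : En (m + 1))) :=
  hf.comp (continuous_pt.measurable.comp (by fun_prop :
    Measurable fun ω : S1 (m + 1) => ((t, (ω : En (m + 1))) : ℝ × En (m + 1))))

/-- the spherical mean integral -/
def sm {m : ℕ} (f : En (m + 2) → ℝ≥0∞) (t : ℝ) : ℝ≥0∞ :=
  ENNReal.ofReal (Real.sin t ^ m) *
        ∫⁻ ω : S1 (m + 1), f (pt t (ω : En (m + 1))) ∂(muS (m + 1))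

theorem measurable_sm {m : ℕ} {f : En (m + 2) → ℝ≥0∞} (hf : Measurable f) :
    Measurable (sm f) := by
  have h1 : Measurable fun p : ℝ × S1 (m + 1) => f (pt p.1 (p.2 : En (m + 1))) :=
    hf.comp (continuous_pt.measurable.comp (by fun_prop :
      Measurable fun p : ℝ × S1 (m + 1) => ((p.1, (p.2 : En (m + 1))) : ℝ × En (m + 1))))
  exact (by fun_prop : Measurable fun t : ℝ => ENNReal.ofReal (Real.sin t ^ m)).mul
    h1.lintegral_prod_right'

theorem hpK_polar {m : ℕ} {f : En (m + 2) → ℝ≥0∞} (hf : Measurable f) {r t : ℝ} (hr0 : 0 < r)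
    (ht : t ∈ Ioo (0 : ℝ) Real.pi) :
    ENNReal.ofReal r * hpK f (r * Real.cos t) (r * Real.sin t)
      = ENNReal.ofReal (r ^ (m + 1) * Real.exp (-(1 / 2) * r ^ 2)) * sm f t := by
  have hs : 0 < Real.sin t := Real.sin_pos_of_pos_of_lt_pi ht.1 ht.2
  have h2 : ∀ ω : S1 (m + 1), gext f (mk1 (r * Real.cos t) ((r * Real.sin t) •
      (ω : En (m + 1)))) = ENNReal.ofReal (Real.exp (-(1 / 2) * r ^ 2)) *
        f (pt t (ω : En (m + 1))) := by
    intro ω
    have : mk1 (r * Real.cos t) ((r * Real.sin t) • (ω : En (m + 1)))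
        = r • pt t (ω : En (m + 1)) := by
      unfold pt
      rw [smul_mk1, smul_smul]
    rw [this]
    exact gext_smul f hr0 (norm_pt t (by simp))
  unfold hpK sm
  rw [lintegral_congr h2, lintegral_const_mul _ (measurable_ptω hf t)]
  rw [← mul_assoc, ← mul_assoc, ← mul_assoc]
  congr 1
  rw [← ENNReal.ofReal_mul hr0.le, ← ENNReal.ofReal_mul (by positivity),
    ← ENNReal.ofReal_mul (by positivity)]
  congr 1
  ring

/-- **polar coordinates on the sphere**, nonnegative functions -/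
theorem lintegral_pol {m : ℕ} {f : En (m + 2) → ℝ≥0∞} (hf : Measurable f) :
    ∫⁻ z : S1 (m + 2), f (z : En (m + 2)) ∂(muS (m + 2))
      = ∫⁻ t in Ioo (0 : ℝ) Real.pi, ENNReal.ofReal (Real.sin t ^ m) *
        ∫⁻ ω : S1 (m + 1), f (pt t (ω : En (m + 1))) ∂(muS (m + 1)) := by
  have key := lintegral_gext hf
  have hk : m + 2 - 1 = m + 1 := rfl
  rw [hk, lintegral_gext_hpK hf, lintegral_halfplane (measurable_hpK hf)] at key
  have c2 : ∀ r ∈ Ioi (0 : ℝ), (∫⁻ t in Ioo (0 : ℝ) Real.pi,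
        ENNReal.ofReal r * hpK f (r * Real.cos t) (r * Real.sin t))
      = ENNReal.ofReal (r ^ (m + 1) * Real.exp (-(1 / 2) * r ^ 2)) *
        ∫⁻ t in Ioo (0 : ℝ) Real.pi, sm f t := by
    intro r hr
    rw [← lintegral_const_mul _ (measurable_sm hf)]
    exact setLIntegral_congr_fun measurableSet_Ioo fun t ht => hpK_polar hf hr ht
  rw [setLIntegral_congr_fun measurableSet_Ioi c2, lintegral_mul_const _ (by fun_prop)] at key
  have hg := gE_ne_zero (m + 1)
  have hg' := gE_ne_top (m + 1)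
  unfold gE at key hg hg'
  exact ((ENNReal.mul_right_inj hg hg').1 key).symm

end Crest.Agent.R246.C378
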