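import Crest.Agent.R246.C1_378

/-!
# Row 246, part C (helper378): polar coordinates around an arbitrary pole, as a measure
preserving map
-/

set_option autoImplicit false

open MeasureTheory MeasureTheory.Measure Set Filter Topology Metric
open scoped ENNReal NNReal RealInnerProductSpace Pointwise

noncomputable section

namespace Crest.Agent.R246.C378

/-- the measure `sin^m t dt` on `(0,π)` -/
def nuT (m : ℕ) : Measure ℝ :=
  (volume.restrict (Ioo (0 : ℝ) Real.pi)).withDensity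
    fun t => ((Real.toNNReal (Real.sin t ^ m) : ℝ≥0) : ℝ≥0∞)

theorem measurable_dens (m : ℕ) : Measurable fun t : ℝ => Real.toNNReal (Real.sin t ^ m) := by
  fun_prop

theorem lintegral_nuT (m : ℕ) {h : ℝ → ℝ≥0∞} (hh : Measurable h) :
    ∫⁻ t, h t ∂(nuT m)
      = ∫⁻ t in Ioo (0 : ℝ) Real.pi, ENNReal.ofReal (Real.sin t ^ m) * h t := by
  unfold nuT
  rw [lintegral_withDensity_eq_lintegral_mul _ (by fun_prop) hh]
  rfl

theorem integral_nuT (m : ℕ) (h : ℝ → ℝ) :
    ∫ t, h t ∂(nuT m) = ∫ t in Ioo (0 : ℝ) Real.pi, Real.sin t ^ m * h t := by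
  unfold nuT
  rw [integral_withDensity_eq_integral_smul (measurable_dens m)]
  refine setIntegral_congr_fun measurableSet_Ioo fun t ht => ?_
  have hs : 0 < Real.sin t := Real.sin_pos_of_pos_of_lt_pi ht.1 ht.2
  show Real.toNNReal (Real.sin t ^ m) • h t = _
  rw [NNReal.smul_def, Real.coe_toNNReal _ (by positivity), smul_eq_mul]

theorem integrable_nuT (m : ℕ) {h : ℝ → ℝ} :
    Integrable h (nuT m) ↔
      IntegrableOn (fun t => Real.sin t ^ m * h t) (Ioo (0 : ℝ) Real.pi) := by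
  unfold nuT
  rw [integrable_withDensity_iff_integrable_smul (measurable_dens m)]
  refine integrableOn_congr_fun (fun t ht => ?_) measurableSet_Ioo
  have hs : 0 < Real.sin t := Real.sin_pos_of_pos_of_lt_pi ht.1 ht.2
  show Real.toNNReal (Real.sin t ^ m) • h t = _
  rw [NNReal.smul_def, Real.coe_toNNReal _ (by positivity), smul_eq_mul]

theorem ae_nuT_iff (m : ℕ) {p : ℝ → Prop} :
    (∀ᵐ t ∂(nuT m), p t) ↔ ∀ᵐ t ∂(volume : Measure ℝ), t ∈ Ioo (0 : ℝ) Real.pi → p t := by
  unfold nuT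
  rw [ae_withDensity_iff (by fun_prop), ae_restrict_iff' measurableSet_Ioo]
  refine eventually_congr (Eventually.of_forall fun t => ?_)
  constructor
  · intro h ht
    refine h ht ?_
    have hs : 0 < Real.sin t := Real.sin_pos_of_pos_of_lt_pi ht.1 ht.2
    have : 0 < Real.sin t ^ m := by positivity
    simp [this]
  · intro h ht _
    exact h ht

instance isFiniteMeasure_nuT (m : ℕ) : IsFiniteMeasure (nuT m) := by
  refine ⟨?_⟩
  rw [← lintegral_one, lintegral_nuT m measurable_const]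
  have h1 : ∀ t ∈ Ioo (0 : ℝ) Real.pi, ENNReal.ofReal (Real.sin t ^ m) * 1 ≤ 1 := by
    intro t ht
    rw [mul_one, ENNReal.ofReal_le_one]
    exact pow_le_one₀ (Real.sin_pos_of_pos_of_lt_pi ht.1 ht.2).le (Real.sin_le_one t)
  refine (setLIntegral_mono measurable_const h1).trans_lt ?_
  simp

/-- the polar map around the standard pole -/
def ptS {m : ℕ} (p : S1 (m + 1) × ℝ) : S1 (m + 2) :=
  ⟨pt p.2 (p.1 : En (m + 1)), by
    rw [mem_sphere_zero_iff_norm]
    exact norm_pt p.2 (by simp)⟩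

theorem continuous_ptS {m : ℕ} : Continuous (ptS (m := m)) :=
  Continuous.subtype_mk (continuous_pt.comp (by fun_prop :
    Continuous fun p : S1 (m + 1) × ℝ => ((p.2, (p.1 : En (m + 1))) : ℝ × En (m + 1)))) _

theorem mp_ptS (m : ℕ) :
    MeasurePreserving (ptS (m := m)) ((muS (m + 1)).prod (nuT m)) (muS (m + 2)) := by
  refine ⟨continuous_ptS.measurable, ?_⟩
  ext A hA
  rw [Measure.map_apply continuous_ptS.measurable hA]
  have hemb : MeasurableEmbedding ((↑) : S1 (m + 2) → En (m + 2)) :=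
    MeasurableEmbedding.subtype_coe isClosed_sphere.measurableSet
  have hf : Measurable (((↑) '' A : Set (En (m + 2))).indicator (1 : En (m + 2) → ℝ≥0∞)) :=
    measurable_one.indicator (hemb.measurableSet_image.2 hA)
  have h := lintegral_pol hf
  have h0 : ∀ z : S1 (m + 2), ((↑) '' A : Set (En (m + 2))).indicator
      (1 : En (m + 2) → ℝ≥0∞) (z : En (m + 2)) = A.indicator 1 z := by
    intro z
    by_cases hz : z ∈ A
    · rw [indicator_of_mem hz, indicator_of_mem (mem_image_of_mem _ hz)]; rfl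
    · rw [indicator_of_notMem hz, indicator_of_notMem]
      rintro ⟨z', hz', h'⟩
      exact hz (Subtype.ext h' ▸ hz')
  rw [lintegral_congr h0, lintegral_indicator_one hA] at h
  rw [h, Measure.prod_apply_symm (continuous_ptS.measurable hA)]
  have hm : Measurable fun t : ℝ => (muS (m + 1)) ((fun ω => (ω, t)) ⁻¹' (ptS ⁻¹' A)) :=
    measurable_measure_prodMk_right (continuous_ptS.measurable hA)
  rw [lintegral_nuT m hm]
  refine setLIntegral_congr_fun measurableSet_Ioo fun t _ => ?_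
  congr 1
  have h1 : ∀ ω : S1 (m + 1), ((↑) '' A : Set (En (m + 2))).indicator
      (1 : En (m + 2) → ℝ≥0∞) (pt t (ω : En (m + 1)))
      = ((fun ω => (ω, t)) ⁻¹' (ptS ⁻¹' A)).indicator 1 ω := by
    intro ω
    exact h0 (ptS (ω, t))
  rw [lintegral_congr h1, lintegral_indicator_one]
  exact measurable_prodMk_right (continuous_ptS.measurable hA)

/-- action of a linear isometry on the sphere -/
def isoS {n : ℕ} (g : En n ≃ₗᵢ[ℝ] En n) (s : S1 n) : S1 n :=
  ⟨g (s : En n), by simp⟩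

theorem continuous_isoS {n : ℕ} (g : En n ≃ₗᵢ[ℝ] En n) : Continuous (isoS g) := by
  unfold isoS
  exact Continuous.subtype_mk (g.continuous.comp continuous_subtype_val) _

/-- rotations preserve the surface measure -/
theorem mp_isoS {n : ℕ} (g : En n ≃ₗᵢ[ℝ] En n) :
    MeasurePreserving (isoS g) (muS n) (muS n) := by
  refine ⟨(continuous_isoS g).measurable, ?_⟩
  ext s hs
  rw [Measure.map_apply (continuous_isoS g).measurable hs,
    Measure.toSphere_apply' _ ((continuous_isoS g).measurable hs), Measure.toSphere_apply' _ hs]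
  congr 1
  have h1 : (Set.Ioo (0 : ℝ) 1 • ((↑) '' (isoS g ⁻¹' s) : Set (En n)))
      = g ⁻¹' (Set.Ioo (0 : ℝ) 1 • ((↑) '' s : Set (En n))) := by
    ext x
    simp only [Set.mem_smul, Set.mem_preimage, Set.mem_image]
    constructor
    · rintro ⟨r, hr, z, ⟨y, hy, rfl⟩, rfl⟩
      exact ⟨r, hr, _, ⟨isoS g y, hy, rfl⟩, by simp [isoS]⟩
    · rintro ⟨r, hr, z, ⟨y, hy, rfl⟩, hx⟩
      refine ⟨r, hr, _, ⟨isoS g.symm y, ?_, rfl⟩, ?_⟩
      · have : isoS g (isoS g.symm y) = y := by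
          ext1; simp [isoS]
        rw [this]; exact hy
      · apply g.injective
        simp only [isoS, map_smul, LinearIsometryEquiv.apply_symm_apply]
        exact hx
  rw [h1]
  exact g.measurePreserving.measure_preimage_equiv (f := g.toHomeomorph.toMeasurableEquiv) _

/-- the standard pole -/
def pole (m : ℕ) : En (m + 2) := mk1 1 0

theorem norm_pole (m : ℕ) : ‖pole m‖ = 1 := by
  have h : ‖pole m‖ ^ 2 = 1 := by
    unfold pole
    rw [norm_mk1_sq]; simp
  nlinarith [norm_nonneg (pole m), sq_nonneg (‖pole m‖ - 1)]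

theorem exists_rot {m : ℕ} {x : En (m + 2)} (hx : ‖x‖ = 1) :
    ∃ g : En (m + 2) ≃ₗᵢ[ℝ] En (m + 2), g (pole m) = x :=
  ⟨Submodule.reflection (ℝ ∙ (pole m - x))ᗮ,
    Submodule.reflection_sub (by rw [norm_pole, hx])⟩

/-- the polar map around the pole `g e` -/
def polS {m : ℕ} (g : En (m + 2) ≃ₗᵢ[ℝ] En (m + 2)) (p : S1 (m + 1) × ℝ) : S1 (m + 2) :=
  isoS g (ptS p)

theorem continuous_polS {m : ℕ} (g : En (m + 2) ≃ₗᵢ[ℝ] En (m + 2)) : Continuous (polS g) :=
  (continuous_isoS g).comp continuous_ptS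

theorem mp_polS {m : ℕ} (g : En (m + 2) ≃ₗᵢ[ℝ] En (m + 2)) :
    MeasurePreserving (polS g) ((muS (m + 1)).prod (nuT m)) (muS (m + 2)) :=
  (mp_isoS g).comp (mp_ptS m)

theorem pt_eq {m : ℕ} (t : ℝ) (ω : En (m + 1)) :
    pt t ω = Real.cos t • pole m + Real.sin t • mk1 0 ω := by
  unfold pt pole
  rw [smul_mk1, smul_mk1, mk1_add]
  simp

/-- the direction at the pole `g e` -/
def dir {m : ℕ} (g : En (m + 2) ≃ₗᵢ[ℝ] En (m + 2)) (ω : En (m + 1)) : En (m + 2) := g (mk1 0 ω)

theorem coe_polS {m : ℕ} (g : En (m + 2) ≃ₗᵢ[ℝ] En (m + 2)) (p : S1 (m + 1) × ℝ) :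
    (polS g p : En (m + 2))
      = Real.cos p.2 • g (pole m) + Real.sin p.2 • dir g (p.1 : En (m + 1)) := by
  show g (pt p.2 (p.1 : En (m + 1))) = _
  rw [pt_eq, map_add, map_smul, map_smul]
  rfl

theorem norm_dir {m : ℕ} (g : En (m + 2) ≃ₗᵢ[ℝ] En (m + 2)) (ω : En (m + 1)) :
    ‖dir g ω‖ = ‖ω‖ := by
  unfold dir
  rw [g.norm_map]
  have h : ‖mk1 0 ω‖ ^ 2 = ‖ω‖ ^ 2 := by rw [norm_mk1_sq]; ring
  exact (sq_eq_sq₀ (norm_nonneg _) (norm_nonneg _)).1 h

theorem inner_pole_dir {m : ℕ} (g : En (m + 2) ≃ₗᵢ[ℝ] En (m + 2)) (ω : En (m + 1)) :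
    ⟪g (pole m), dir g ω⟫ = 0 := by
  unfold dir pole
  rw [g.inner_map_map, inner_mk1]
  simp

/-- integrals over the sphere in polar coordinates -/
theorem integral_polS {m : ℕ} (g : En (m + 2) ≃ₗᵢ[ℝ] En (m + 2)) {F : S1 (m + 2) → ℝ}
    (hF : AEStronglyMeasurable F (muS (m + 2))) :
    ∫ y, F y ∂(muS (m + 2)) = ∫ p, F (polS g p) ∂((muS (m + 1)).prod (nuT m)) := by
  rw [← (mp_polS g).map_eq] at hF ⊢
  exact integral_map (continuous_polS g).measurable.aemeasurable hF

end Crest.Agent.R246.C378
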