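import Crest.Agent.R246.C2_378

/-!
# Row 246, part C (helper378): zonal representation formula on the sphere `S^{m+1}`

For a flux profile `f` on `[0,π]` and a Lipschitz function `w` on the sphere,
`∫ k⟪x,y⟫ ⟪∇w(y), x - ⟪x,y⟫y⟫ dy = |S^m| (f 0 w(x) - f π w(-x)) + ∫ q⟪x,y⟫ w(y) dy`.
-/

set_option autoImplicit false

open MeasureTheory MeasureTheory.Measure Set Filter Topology Metric
open scoped ENNReal NNReal RealInnerProductSpace

noncomputable section

namespace Crest.Agent.R246.C378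

/-- `w` is Lipschitz on the unit sphere, and `G` is a bounded measurable representative of its
gradient (only the tangential part of `G` matters). -/
structure SLip {n : ℕ} (w : En n → ℝ) (G : En n → En n) : Prop where
  lip : ∃ K : ℝ≥0, LipschitzOnWith K w (sphere 0 1)
  meas : Measurable G
  bdd : ∃ L : ℝ, ∀ᵐ y : S1 n ∂(muS n), ‖G (y : En n)‖ ≤ L
  der : ∀ᵐ y : S1 n ∂(muS n),
    HasFDerivWithinAt w (innerSL ℝ (G (y : En n))) (sphere 0 1) (y : En n)

/-- tangential part -/
def gT {n : ℕ} (G : En n → En n) (y : En n) : En n := G y - ⟪G y, y⟫ • y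

/-- a flux profile `f` on `[0,π]` with kernels `k` (for the gradient) and `q` (for the
function). -/
structure Prof (m : ℕ) (f f' k q : ℝ → ℝ) : Prop where
  ac : AbsolutelyContinuousOnInterval f 0 Real.pi
  der : ∀ t ∈ Ioo (0 : ℝ) Real.pi, HasDerivAt f (f' t) t
  km : Measurable k
  qm : Measurable q
  hk : ∀ t ∈ Ioo (0 : ℝ) Real.pi, k (Real.cos t) * Real.sin t ^ (m + 1) = f t
  hq : ∀ t ∈ Ioo (0 : ℝ) Real.pi, q (Real.cos t) * Real.sin t ^ m = f' t

/-- great circle -/
def cur {n : ℕ} (x v : En n) (t : ℝ) : En n := Real.cos t • x + Real.sin t • v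

/-- its velocity -/
def vel {n : ℕ} (x v : En n) (t : ℝ) : En n := -Real.sin t • x + Real.cos t • v

section cur
variable {n : ℕ} {x v : En n}

theorem norm_cur (hx : ‖x‖ = 1) (hv : ‖v‖ = 1) (hxv : ⟪x, v⟫ = 0) (t : ℝ) :
    ‖cur x v t‖ = 1 := by
  have h : ‖cur x v t‖ ^ 2 = 1 := by
    unfold cur
    rw [norm_add_sq_real, norm_smul, norm_smul, hx, hv, inner_smul_left, inner_smul_right, hxv]
    simp
  nlinarith [norm_nonneg (cur x v t), sq_nonneg (‖cur x v t‖ - 1)]

theorem norm_vel (hx : ‖x‖ = 1) (hv : ‖v‖ = 1) (hxv : ⟪x, v⟫ = 0) (t : ℝ) :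
    ‖vel x v t‖ = 1 := by
  have h : ‖vel x v t‖ ^ 2 = 1 := by
    unfold vel
    rw [norm_add_sq_real, norm_smul, norm_smul, hx, hv, inner_smul_left, inner_smul_right, hxv]
    simp
  nlinarith [norm_nonneg (vel x v t), sq_nonneg (‖vel x v t‖ - 1)]

theorem hasDerivAt_cur (x v : En n) (t : ℝ) : HasDerivAt (cur x v) (vel x v t) t :=
  ((Real.hasDerivAt_cos t).smul_const x).add ((Real.hasDerivAt_sin t).smul_const v)

theorem lipschitz_cur (hx : ‖x‖ = 1) (hv : ‖v‖ = 1) (hxv : ⟪x, v⟫ = 0) :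
    LipschitzWith 1 (cur x v) := by
  refine lipschitzWith_of_nnnorm_deriv_le (fun t => (hasDerivAt_cur x v t).differentiableAt) ?_
  intro t
  rw [(hasDerivAt_cur x v t).deriv, ← NNReal.coe_le_coe]
  simpa using (norm_vel hx hv hxv t).le

theorem inner_cur (hx : ‖x‖ = 1) (hxv : ⟪x, v⟫ = 0) (t : ℝ) :
    ⟪x, cur x v t⟫ = Real.cos t := by
  unfold cur
  rw [inner_add_right, inner_smul_right, inner_smul_right, hxv, real_inner_self_eq_norm_sq, hx]
  ring

theorem sub_cur (x v : En n) (t : ℝ) :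
    x - Real.cos t • cur x v t = -Real.sin t • vel x v t := by
  unfold cur vel
  have h := Real.sin_sq_add_cos_sq t
  have h1 : x = (Real.sin t ^ 2 + Real.cos t ^ 2) • x := by rw [h, one_smul]
  nth_rewrite 1 [h1]
  module

theorem inner_gT_vel (hx : ‖x‖ = 1) (hv : ‖v‖ = 1) (hxv : ⟪x, v⟫ = 0) (t : ℝ)
    (G : En n → En n) : ⟪gT G (cur x v t), vel x v t⟫ = ⟪G (cur x v t), vel x v t⟫ := by
  have h : ⟪cur x v t, vel x v t⟫ = 0 := by
    unfold cur vel
    simp only [inner_add_left, inner_add_right, inner_smul_left, inner_smul_right,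
      real_inner_self_eq_norm_sq, hx, hv, hxv, real_inner_comm x v]
    simp
    ring
  unfold gT
  rw [inner_sub_left, inner_smul_left, h]
  simp

end cur

/-- one-dimensional integration by parts against a Lipschitz function -/
theorem ibp1 {f f' φ D : ℝ → ℝ} (hf : AbsolutelyContinuousOnInterval f 0 Real.pi)
    (hf' : ∀ t ∈ Ioo (0 : ℝ) Real.pi, HasDerivAt f (f' t) t) {K : ℝ≥0}
    (hφ : LipschitzWith K φ)
    (hD : ∀ᵐ t ∂(volume : Measure ℝ), t ∈ Ioo (0 : ℝ) Real.pi → HasDerivAt φ (D t) t) :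
    ∫ t in Ioo (0 : ℝ) Real.pi, f t * D t
      = f Real.pi * φ Real.pi - f 0 * φ 0 - ∫ t in Ioo (0 : ℝ) Real.pi, f' t * φ t := by
  have hφ' : AbsolutelyContinuousOnInterval φ 0 Real.pi :=
    (hφ.lipschitzOnWith).absolutelyContinuousOnInterval
  have h := hf.integral_mul_deriv_eq_deriv_mul hφ'
  rw [intervalIntegral.integral_of_le Real.pi_pos.le,
    intervalIntegral.integral_of_le Real.pi_pos.le, integral_Ioc_eq_integral_Ioo,
    integral_Ioc_eq_integral_Ioo] at h
  have e1 : ∫ t in Ioo (0 : ℝ) Real.pi, f t * D t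
      = ∫ t in Ioo (0 : ℝ) Real.pi, f t * deriv φ t := by
    refine setIntegral_congr_ae measurableSet_Ioo ?_
    filter_upwards [hD] with t ht h'
    rw [(ht h').deriv]
  have e2 : ∫ t in Ioo (0 : ℝ) Real.pi, f' t * φ t
      = ∫ t in Ioo (0 : ℝ) Real.pi, deriv f t * φ t := by
    refine setIntegral_congr_fun measurableSet_Ioo fun t ht => ?_
    show f' t * φ t = deriv f t * φ t
    rw [(hf' t ht).deriv]
  rw [e1, e2, h]

theorem integrableOn_prof {f f' : ℝ → ℝ} (hf : AbsolutelyContinuousOnInterval f 0 Real.pi)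
    (hf' : ∀ t ∈ Ioo (0 : ℝ) Real.pi, HasDerivAt f (f' t) t) :
    IntegrableOn f' (Ioo (0 : ℝ) Real.pi) := by
  have h := hf.intervalIntegrable_deriv
  rw [intervalIntegrable_iff_integrableOn_Ioo_of_le Real.pi_pos.le] at h
  refine h.congr_fun (fun t ht => ?_) measurableSet_Ioo
  exact (hf' t ht).deriv

theorem integrableOn_prof0 {f : ℝ → ℝ} (hf : AbsolutelyContinuousOnInterval f 0 Real.pi) :
    IntegrableOn f (Ioo (0 : ℝ) Real.pi) := by
  have h : IntervalIntegrable f volume 0 Real.pi := hf.continuousOn.intervalIntegrable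
  rwa [intervalIntegrable_iff_integrableOn_Ioo_of_le Real.pi_pos.le] at h

/-- the integrand of the flux side -/
def fluxI {n : ℕ} (k : ℝ → ℝ) (G : En n → En n) (x : En n) (y : En n) : ℝ :=
  k ⟪x, y⟫ * ⟪G y, x - ⟪x, y⟫ • y⟫

theorem measurable_fluxI {n : ℕ} {k : ℝ → ℝ} (hk : Measurable k) {G : En n → En n}
    (hG : Measurable G) : Measurable fun p : En n × En n => fluxI k G p.1 p.2 := by
  unfold fluxI
  have h1 : Measurable fun p : En n × En n => (⟪p.1, p.2⟫ : ℝ) := by fun_prop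
  exact (hk.comp h1).mul ((hG.comp measurable_snd).inner
    (measurable_fst.sub (h1.smul measurable_snd)))

theorem fluxI_cur {n : ℕ} {x v : En n} (hx : ‖x‖ = 1) (hxv : ⟪x, v⟫ = 0) (k : ℝ → ℝ)
    (G : En n → En n) (t : ℝ) :
    fluxI k G x (cur x v t)
      = -(k (Real.cos t) * Real.sin t * ⟪G (cur x v t), vel x v t⟫) := by
  unfold fluxI
  rw [inner_cur hx hxv, sub_cur, inner_smul_right]
  ring

section rep

variable {m : ℕ} {w : En (m + 2) → ℝ} {G : En (m + 2) → En (m + 2)} {f f' k q : ℝ → ℝ}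

theorem coe_polS' (g : En (m + 2) ≃ₗᵢ[ℝ] En (m + 2)) (p : S1 (m + 1) × ℝ) :
    (polS g p : En (m + 2)) = cur (g (pole m)) (dir g (p.1 : En (m + 1))) p.2 := coe_polS g p

theorem norm_gpole (g : En (m + 2) ≃ₗᵢ[ℝ] En (m + 2)) : ‖g (pole m)‖ = 1 := by
  rw [g.norm_map, norm_pole]

theorem norm_dir' (g : En (m + 2) ≃ₗᵢ[ℝ] En (m + 2)) (ω : S1 (m + 1)) :
    ‖dir g (ω : En (m + 1))‖ = 1 := by
  rw [norm_dir]; simp

theorem aesm_w (hw : SLip w G) :
    Measurable fun y : S1 (m + 2) => w (y : En (m + 2)) := by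
  obtain ⟨K, hK⟩ := hw.lip
  have : Continuous fun y : S1 (m + 2) => w (y : En (m + 2)) :=
    hK.continuousOn.comp_continuous continuous_subtype_val fun y => y.2
  exact this.measurable

theorem bdd_w (hw : SLip w G) : ∃ M : ℝ, 0 ≤ M ∧ ∀ y : S1 (m + 2), |w (y : En (m + 2))| ≤ M := by
  obtain ⟨K, hK⟩ := hw.lip
  have : ContinuousOn w (sphere (0 : En (m + 2)) 1) := hK.continuousOn
  obtain ⟨M, hM⟩ := (isCompact_sphere (0 : En (m + 2)) 1).exists_bound_of_continuousOn this
  refine ⟨M, (norm_nonneg _).trans (hM (pole m) (by simp [norm_pole])), fun y => ?_⟩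
  exact hM y y.2

theorem integrable_fluxI (hp : Prof m f f' k q) (hw : SLip w G) {x : En (m + 2)}
    (hx : ‖x‖ = 1) :
    Integrable (fun y : S1 (m + 2) => fluxI k G x (y : En (m + 2))) (muS (m + 2)) := by
  obtain ⟨g, rfl⟩ := exists_rot hx
  obtain ⟨L, hL⟩ := hw.bdd
  have hm : Measurable fun y : S1 (m + 2) => fluxI k G (g (pole m)) (y : En (m + 2)) :=
    (measurable_fluxI hp.km hw.meas).comp (by fun_prop :
      Measurable fun y : S1 (m + 2) => ((g (pole m), (y : En (m + 2))) : En (m + 2) × En (m + 2)))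
  rw [← (mp_polS g).integrable_comp hm.aestronglyMeasurable]
  have hb : Integrable (fun t => |k (Real.cos t) * Real.sin t| * |L|) (nuT m) := by
    refine Integrable.mul_const ?_ _
    rw [integrable_nuT]
    have h0 : IntegrableOn (fun t => |f t|) (Ioo (0 : ℝ) Real.pi) := (integrableOn_prof0 hp.ac).abs
    refine h0.congr_fun (fun t ht => ?_) measurableSet_Ioo
    have hs : 0 < Real.sin t := Real.sin_pos_of_pos_of_lt_pi ht.1 ht.2
    show |f t| = _
    rw [← hp.hk t ht, abs_mul, abs_mul, abs_of_pos hs, abs_of_pos (pow_pos hs _), pow_succ]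
    ring
  refine Integrable.mono' (hb.comp_snd (muS (m + 1)))
    ((hm.comp (continuous_polS g).measurable).aestronglyMeasurable) ?_
  have hL' : ∀ᵐ p ∂((muS (m + 1)).prod (nuT m)), ‖G (polS g p : En (m + 2))‖ ≤ L :=
    (mp_polS g).quasiMeasurePreserving.ae hL
  filter_upwards [hL'] with p hp'
  show |fluxI k G (g (pole m)) (polS g p : En (m + 2))| ≤ _
  rw [coe_polS'] at hp' ⊢
  rw [fluxI_cur (norm_gpole g) (inner_pole_dir g _), abs_neg, abs_mul]
  refine mul_le_mul_of_nonneg_left ?_ (abs_nonneg _)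
  refine (abs_real_inner_le_norm _ _).trans ?_
  rw [norm_vel (norm_gpole g) (norm_dir' g _) (inner_pole_dir g _), mul_one]
  exact hp'.trans (le_abs_self L)

theorem integrable_q (hp : Prof m f f' k q) (hw : SLip w G) {x : En (m + 2)}
    (hx : ‖x‖ = 1) :
    Integrable (fun y : S1 (m + 2) => q ⟪x, (y : En (m + 2))⟫ * w (y : En (m + 2)))
      (muS (m + 2)) := by
  obtain ⟨g, rfl⟩ := exists_rot hx
  obtain ⟨M, hM0, hM⟩ := bdd_w hw
  have hm : Measurable fun y : S1 (m + 2) => q ⟪g (pole m), (y : En (m + 2))⟫ *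
      w (y : En (m + 2)) :=
    (hp.qm.comp (by fun_prop : Measurable fun y : S1 (m + 2) =>
      (⟪g (pole m), (y : En (m + 2))⟫ : ℝ))).mul (aesm_w hw)
  rw [← (mp_polS g).integrable_comp hm.aestronglyMeasurable]
  have hb : Integrable (fun t => |q (Real.cos t)| * M) (nuT m) := by
    refine Integrable.mul_const ?_ _
    rw [integrable_nuT]
    have h0 : IntegrableOn (fun t => |f' t|) (Ioo (0 : ℝ) Real.pi) :=
      (integrableOn_prof hp.ac hp.der).abs
    refine h0.congr_fun (fun t ht => ?_) measurableSet_Ioo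
    have hs : 0 < Real.sin t := Real.sin_pos_of_pos_of_lt_pi ht.1 ht.2
    show |f' t| = _
    rw [← hp.hq t ht, abs_mul, abs_of_pos (pow_pos hs _)]
    ring
  refine Integrable.mono' (hb.comp_snd (muS (m + 1)))
    ((hm.comp (continuous_polS g).measurable).aestronglyMeasurable)
    (Eventually.of_forall fun p => ?_)
  show |q ⟪g (pole m), (polS g p : En (m + 2))⟫ * w (polS g p : En (m + 2))| ≤ _
  have h1 := hM (polS g p)
  rw [abs_mul]
  have h2 : (⟪g (pole m), (polS g p : En (m + 2))⟫ : ℝ) = Real.cos p.2 := by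
    rw [coe_polS', inner_cur (norm_gpole g) (inner_pole_dir g _)]
  rw [h2]
  exact mul_le_mul_of_nonneg_left h1 (abs_nonneg _)

/-- the zonal representation formula at the pole `g e` -/
theorem rep_aux (hp : Prof m f f' k q) (hw : SLip w G) (g : En (m + 2) ≃ₗᵢ[ℝ] En (m + 2)) :
    ∫ y : S1 (m + 2), fluxI k G (g (pole m)) (y : En (m + 2)) ∂(muS (m + 2))
      = (muS (m + 1)).real univ * (f 0 * w (g (pole m)) - f Real.pi * w (-(g (pole m))))
        + ∫ y : S1 (m + 2), q ⟪g (pole m), (y : En (m + 2))⟫ * w (y : En (m + 2))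
          ∂(muS (m + 2)) := by
  have hx := norm_gpole g
  have i1 := integrable_fluxI hp hw hx
  have i2 := integrable_q hp hw hx
  have j1 := (mp_polS g).integrable_comp_of_integrable i1
  have j2 := (mp_polS g).integrable_comp_of_integrable i2
  rw [integral_polS g i1.aestronglyMeasurable, integral_polS g i2.aestronglyMeasurable]
  have hc1 : ((fun y : S1 (m + 2) => fluxI k G (g (pole m)) (y : En (m + 2))) ∘ polS g)
    = fun p : S1 (m + 1) × ℝ => fluxI k G (g (pole m)) (polS g p : En (m + 2)) := rfl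
  have hc2 : ((fun y : S1 (m + 2) => q ⟪g (pole m), (y : En (m + 2))⟫ *
      w (y : En (m + 2))) ∘ polS g)
    = fun p : S1 (m + 1) × ℝ => q ⟪g (pole m), (polS g p : En (m + 2))⟫ *
      w (polS g p : En (m + 2)) := rfl
  rw [hc1] at j1
  rw [hc2] at j2
  rw [integral_prod _ j1, integral_prod _ j2]
  obtain ⟨K, hK⟩ := hw.lip
  -- derivative along almost every great circle
  have hder : ∀ᵐ ω ∂(muS (m + 1)), ∀ᵐ t ∂(nuT m),
      HasFDerivWithinAt w (innerSL ℝ (G (polS g (ω, t) : En (m + 2)))) (sphere 0 1)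
        (polS g (ω, t) : En (m + 2)) :=
    Measure.ae_ae_of_ae_prod ((mp_polS g).quasiMeasurePreserving.ae hw.der)
  have key : ∀ᵐ ω ∂(muS (m + 1)),
      ∫ t, fluxI k G (g (pole m)) (polS g (ω, t) : En (m + 2)) ∂(nuT m)
      = (f 0 * w (g (pole m)) - f Real.pi * w (-(g (pole m))))
        + ∫ t, q ⟪g (pole m), (polS g (ω, t) : En (m + 2))⟫ *
          w (polS g (ω, t) : En (m + 2)) ∂(nuT m) := by
    filter_upwards [hder] with ω hω
    rw [ae_nuT_iff] at hω
    have hv := norm_dir' g ω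
    have hxv := inner_pole_dir g (ω : En (m + 1))
    set x := g (pole m) with hxdef
    set v := dir g (ω : En (m + 1)) with hvdef
    have hpc : ∀ t : ℝ, (polS g (ω, t) : En (m + 2)) = cur x v t := fun t => coe_polS' g (ω, t)
    simp only [hpc] at hω ⊢
    have hsp : ∀ t : ℝ, cur x v t ∈ sphere (0 : En (m + 2)) 1 := fun t => by
      rw [mem_sphere_zero_iff_norm]; exact norm_cur hx hv hxv t
    have hφ : LipschitzWith K fun t => w (cur x v t) := by
      have h1 := hK.comp (lipschitz_cur hx hv hxv).lipschitzOnWith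
        (fun t (_ : t ∈ (univ : Set ℝ)) => hsp t)
      rw [mul_one] at h1
      exact lipschitzOnWith_univ.1 h1
    have hD : ∀ᵐ t ∂(volume : Measure ℝ), t ∈ Ioo (0 : ℝ) Real.pi →
        HasDerivAt (fun t => w (cur x v t)) (⟪G (cur x v t), vel x v t⟫) t := by
      filter_upwards [hω] with t ht h'
      exact (ht h').comp_hasDerivAt t (hasDerivAt_cur x v t) (Eventually.of_forall hsp)
    have h2 := ibp1 hp.ac hp.der hφ hD
    rw [integral_nuT, integral_nuT]
    have e1 : ∫ t in Ioo (0 : ℝ) Real.pi, Real.sin t ^ m * fluxI k G x (cur x v t)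
        = -∫ t in Ioo (0 : ℝ) Real.pi, f t * ⟪G (cur x v t), vel x v t⟫ := by
      rw [← integral_neg]
      refine setIntegral_congr_fun measurableSet_Ioo fun t ht => ?_
      show Real.sin t ^ m * fluxI k G x (cur x v t) = -(f t * ⟪G (cur x v t), vel x v t⟫)
      rw [fluxI_cur hx hxv, ← hp.hk t ht]
      ring
    have e2 : ∫ t in Ioo (0 : ℝ) Real.pi, Real.sin t ^ m *
          (q ⟪x, cur x v t⟫ * w (cur x v t))
        = ∫ t in Ioo (0 : ℝ) Real.pi, f' t * w (cur x v t) := by
      refine setIntegral_congr_fun measurableSet_Ioo fun t ht => ?_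
      show Real.sin t ^ m * (q ⟪x, cur x v t⟫ * w (cur x v t)) = f' t * w (cur x v t)
      rw [inner_cur hx hxv, ← hp.hq t ht]
      ring
    have c0 : cur x v 0 = x := by unfold cur; simp
    have c1 : cur x v Real.pi = -x := by unfold cur; simp
    rw [e1, e2, h2, c0, c1]
    ring
  rw [integral_congr_ae key, integral_add (integrable_const _) j2.integral_prod_left,
    integral_const, smul_eq_mul]

/-- **zonal representation formula** -/
theorem rep (hp : Prof m f f' k q) (hw : SLip w G) {x : En (m + 2)} (hx : ‖x‖ = 1) :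
    ∫ y : S1 (m + 2), fluxI k G x (y : En (m + 2)) ∂(muS (m + 2))
      = (muS (m + 1)).real univ * (f 0 * w x - f Real.pi * w (-x))
        + ∫ y : S1 (m + 2), q ⟪x, (y : En (m + 2))⟫ * w (y : En (m + 2)) ∂(muS (m + 2)) := by
  obtain ⟨g, rfl⟩ := exists_rot hx
  exact rep_aux hp hw g

end rep

end Crest.Agent.R246.C378
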