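import Crest.Agent.R246.C3_378

/-!
# Row 246, part C (helper378): the bilinear bound for the flux kernel
-/

set_option autoImplicit false

open MeasureTheory MeasureTheory.Measure Set Filter Topology Metric
open scoped ENNReal NNReal RealInnerProductSpace

noncomputable section

namespace Crest.Agent.R246.C378

/-- drop the first coordinate -/
def tl {m : ℕ} (z : En (m + 2)) : En (m + 1) := WithLp.toLp 2 (fun i => z i.succ)

theorem mk1_tl {m : ℕ} (z : En (m + 2)) : mk1 (z 0) (tl z) = z := by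
  ext i
  refine Fin.cases ?_ (fun j => ?_) i <;> simp [tl]

theorem inner_dir {m : ℕ} (g : En (m + 2) ≃ₗᵢ[ℝ] En (m + 2)) (e : En (m + 2))
    (ω : En (m + 1)) : ⟪e, dir g ω⟫ = ⟪tl (g.symm e), ω⟫ := by
  unfold dir
  have h1 : ⟪e, g (mk1 0 ω)⟫ = ⟪g.symm e, mk1 0 ω⟫ := by
    rw [← g.inner_map_map (g.symm e), g.apply_symm_apply]
  rw [h1]
  nth_rewrite 1 [← mk1_tl (g.symm e)]
  rw [inner_mk1]
  ring

theorem norm_tl {m : ℕ} (g : En (m + 2) ≃ₗᵢ[ℝ] En (m + 2)) (e : En (m + 2)) :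
    ‖tl (g.symm e)‖ = ‖e - ⟪e, g (pole m)⟫ • g (pole m)‖ := by
  have h0 : (g.symm e) 0 = ⟪e, g (pole m)⟫ := by
    have h1 : ⟪e, g (pole m)⟫ = ⟪g.symm e, pole m⟫ := by
      rw [← g.inner_map_map (g.symm e), g.apply_symm_apply]
    rw [h1]
    nth_rewrite 2 [← mk1_tl (g.symm e)]
    unfold pole
    rw [inner_mk1]
    simp
  have h2 : ‖e‖ ^ 2 = (⟪e, g (pole m)⟫) ^ 2 + ‖tl (g.symm e)‖ ^ 2 := by
    rw [← h0, ← norm_mk1_sq, mk1_tl, g.symm.norm_map]
  have h3 : ‖e - ⟪e, g (pole m)⟫ • g (pole m)‖ ^ 2 = ‖e‖ ^ 2 - (⟪e, g (pole m)⟫) ^ 2 := by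
    rw [norm_sub_sq_real, inner_smul_right, norm_smul, norm_gpole, mul_one, Real.norm_eq_abs,
      sq_abs]
    ring
  have h4 : ‖tl (g.symm e)‖ ^ 2 = ‖e - ⟪e, g (pole m)⟫ • g (pole m)‖ ^ 2 := by
    rw [h3, h2]; ring
  exact (sq_eq_sq₀ (norm_nonneg _) (norm_nonneg _)).1 h4

theorem integral_sin_pow_cos_left (m : ℕ) :
    ∫ t in (0 : ℝ)..(Real.pi / 2), Real.sin t ^ m * |Real.cos t| = 1 / (m + 1) := by
  have hpi := Real.pi_pos
  have h1 : ∫ t in (0 : ℝ)..(Real.pi / 2), Real.sin t ^ m * |Real.cos t|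
      = ∫ t in (0 : ℝ)..(Real.pi / 2), Real.sin t ^ m * Real.cos t := by
    refine intervalIntegral.integral_congr fun t ht => ?_
    rw [uIcc_of_le (by positivity)] at ht
    show Real.sin t ^ m * |Real.cos t| = Real.sin t ^ m * Real.cos t
    rw [abs_of_nonneg (Real.cos_nonneg_of_neg_pi_div_two_le_of_le (by linarith [ht.1]) ht.2)]
  rw [h1]
  have h2 : ∀ t ∈ uIcc (0 : ℝ) (Real.pi / 2), HasDerivAt (fun t => Real.sin t ^ (m + 1) / (m + 1))
      (Real.sin t ^ m * Real.cos t) t := by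
    intro t _
    have h3 := ((Real.hasDerivAt_sin t).pow (m + 1)).div_const ((m : ℝ) + 1)
    refine h3.congr_deriv ?_
    have : (m : ℝ) + 1 ≠ 0 := by positivity
    push_cast
    field_simp
  rw [intervalIntegral.integral_eq_sub_of_hasDerivAt h2
    ((by fun_prop : Continuous fun t : ℝ => Real.sin t ^ m * Real.cos t).intervalIntegrable _ _)]
  simp

theorem integral_sin_pow_cos_right (m : ℕ) :
    ∫ t in (Real.pi / 2)..Real.pi, Real.sin t ^ m * |Real.cos t| = 1 / (m + 1) := by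
  have hpi := Real.pi_pos
  have h1 : ∫ t in (Real.pi / 2)..Real.pi, Real.sin t ^ m * |Real.cos t|
      = ∫ t in (Real.pi / 2)..Real.pi, -(Real.sin t ^ m * Real.cos t) := by
    refine intervalIntegral.integral_congr fun t ht => ?_
    rw [uIcc_of_le (by linarith)] at ht
    show Real.sin t ^ m * |Real.cos t| = -(Real.sin t ^ m * Real.cos t)
    rw [abs_of_nonpos (Real.cos_nonpos_of_pi_div_two_le_of_le ht.1 (by linarith [ht.2]))]
    ring
  rw [h1]
  have h2 : ∀ t ∈ uIcc (Real.pi / 2) Real.pi,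
      HasDerivAt (fun t => -(Real.sin t ^ (m + 1) / (m + 1)))
      (-(Real.sin t ^ m * Real.cos t)) t := by
    intro t _
    have h3 := ((Real.hasDerivAt_sin t).pow (m + 1)).div_const ((m : ℝ) + 1)
    refine h3.neg.congr_deriv ?_
    have : (m : ℝ) + 1 ≠ 0 := by positivity
    push_cast
    field_simp
  rw [intervalIntegral.integral_eq_sub_of_hasDerivAt h2
    ((by fun_prop : Continuous fun t : ℝ => -(Real.sin t ^ m * Real.cos t)).intervalIntegrable
      _ _)]
  simp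

theorem integral_sin_pow_abs_cos (m : ℕ) :
    ∫ t in Ioo (0 : ℝ) Real.pi, Real.sin t ^ m * |Real.cos t| = 2 / (m + 1) := by
  have hpi := Real.pi_pos
  rw [← integral_Ioc_eq_integral_Ioo, ← intervalIntegral.integral_of_le hpi.le,
    ← intervalIntegral.integral_add_adjacent_intervals (b := Real.pi / 2)
      ((by fun_prop : Continuous fun t : ℝ => Real.sin t ^ m * |Real.cos t|).intervalIntegrable
        _ _)
      ((by fun_prop : Continuous fun t : ℝ => Real.sin t ^ m * |Real.cos t|).intervalIntegrable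
        _ _), integral_sin_pow_cos_left, integral_sin_pow_cos_right]
  ring

/-- the mass of the sphere -/
theorem real_muS_univ (m : ℕ) :
    (muS (m + 2)).real univ
      = (muS (m + 1)).real univ * ∫ t in Ioo (0 : ℝ) Real.pi, Real.sin t ^ m := by
  have h := integral_polS (LinearIsometryEquiv.refl ℝ (En (m + 2)))
    (F := fun _ => (1 : ℝ)) aestronglyMeasurable_const
  rw [integral_const, smul_eq_mul, mul_one] at h
  rw [h, integral_prod _ (integrable_const _)]
  have h2 : ∫ _t : ℝ, (1 : ℝ) ∂(nuT m) = ∫ t in Ioo (0 : ℝ) Real.pi, Real.sin t ^ m := by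
    rw [integral_nuT]
    simp
  rw [h2, integral_const, smul_eq_mul]

/-- the first absolute moment -/
theorem absmom {m : ℕ} (e : En (m + 2)) :
    ∫ ω : S1 (m + 2), |⟪e, (ω : En (m + 2))⟫| ∂(muS (m + 2))
      = ‖e‖ * (2 / (m + 1) * (muS (m + 1)).real univ) := by
  rcases eq_or_ne e 0 with rfl | he
  · simp
  have hn : ‖e‖ ≠ 0 := norm_ne_zero_iff.2 he
  obtain ⟨g, hg⟩ := exists_rot (x := ‖e‖⁻¹ • e) (by rw [norm_smul, norm_inv, norm_norm,
    inv_mul_cancel₀ hn])
  have he' : e = ‖e‖ • g (pole m) := by rw [hg, smul_smul, mul_inv_cancel₀ hn, one_smul]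
  have hc : Continuous fun ω : S1 (m + 2) => |⟪e, (ω : En (m + 2))⟫| := by fun_prop
  rw [integral_polS g hc.aestronglyMeasurable]
  have h1 : ∀ p : S1 (m + 1) × ℝ, |⟪e, (polS g p : En (m + 2))⟫| = ‖e‖ * |Real.cos p.2| := by
    intro p
    rw [coe_polS']
    nth_rewrite 1 [he']
    rw [inner_smul_left, inner_cur (norm_gpole g) (inner_pole_dir g _)]
    simp
  simp only [h1]
  rw [integral_fun_snd (f := fun t : ℝ => ‖e‖ * |Real.cos t|), integral_const_mul, integral_nuT,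
    integral_sin_pow_abs_cos, smul_eq_mul]
  ring

theorem lintegral_absmom {m : ℕ} (e : En (m + 2)) :
    ∫⁻ ω : S1 (m + 2), ‖(⟪e, (ω : En (m + 2))⟫ : ℝ)‖ₑ ∂(muS (m + 2))
      = ENNReal.ofReal (‖e‖ * (2 / (m + 1) * (muS (m + 1)).real univ)) := by
  have hc : Continuous fun ω : S1 (m + 2) => |⟪e, (ω : En (m + 2))⟫| := by fun_prop
  have hi : Integrable (fun ω : S1 (m + 2) => |⟪e, (ω : En (m + 2))⟫|) (muS (m + 2)) := by
    refine Integrable.of_bound hc.aestronglyMeasurable ‖e‖ (Eventually.of_forall fun ω => ?_)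
    rw [Real.norm_eq_abs, abs_abs]
    refine (abs_real_inner_le_norm _ _).trans ?_
    simp
  rw [← absmom, ofReal_integral_eq_lintegral_ofReal hi (Eventually.of_forall fun ω =>
    abs_nonneg _)]
  refine lintegral_congr fun ω => ?_
  exact (Real.enorm_eq_ofReal_abs _)

section bil

variable {m : ℕ} {w : En (m + 3) → ℝ} {G : En (m + 3) → En (m + 3)} {f f' k q : ℝ → ℝ}

/-- the inner integral over the pole variable -/
theorem lintegral_pole (hp : Prof (m + 1) f f' k q) {y : En (m + 3)} (hy : ‖y‖ = 1)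
    (G : En (m + 3) → En (m + 3)) :
    ∫⁻ x : S1 (m + 3), ‖fluxI k G (x : En (m + 3)) y‖ₑ ∂(muS (m + 3))
      = ENNReal.ofReal ((∫ t in Ioo (0 : ℝ) Real.pi, |f t|) *
        (2 / (m + 1) * (muS (m + 1)).real univ) * ‖gT G y‖) := by
  obtain ⟨g, rfl⟩ := exists_rot hy
  have hm : Measurable fun x : S1 (m + 3) => ‖fluxI k G (x : En (m + 3)) (g (pole (m + 1)))‖ₑ := by
    have h1 : Measurable fun x : S1 (m + 3) =>
        fluxI k G (x : En (m + 3)) (g (pole (m + 1))) := by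
      unfold fluxI
      have h2 : Measurable fun x : S1 (m + 3) =>
          (⟪(x : En (m + 3)), g (pole (m + 1))⟫ : ℝ) := by fun_prop
      refine (hp.km.comp h2).mul ?_
      fun_prop
    exact h1.enorm
  rw [← (mp_polS g).lintegral_comp hm]
  have h3 : ∀ p : S1 (m + 2) × ℝ,
      ‖fluxI k G (polS g p : En (m + 3)) (g (pole (m + 1)))‖ₑ
        = ‖(⟪tl (g.symm (G (g (pole (m + 1))))), (p.1 : En (m + 2))⟫ : ℝ)‖ₑ *
          ‖k (Real.cos p.2) * Real.sin p.2‖ₑ := by
    intro p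
    rw [coe_polS']
    unfold fluxI
    rw [real_inner_comm, inner_cur (norm_gpole g) (inner_pole_dir g _)]
    have h4 : cur (g (pole (m + 1))) (dir g (p.1 : En (m + 2))) p.2
        - Real.cos p.2 • g (pole (m + 1)) = Real.sin p.2 • dir g (p.1 : En (m + 2)) := by
      unfold cur; module
    rw [h4, inner_smul_right, inner_dir, ← enorm_mul]
    congr 1
    ring
  simp only [h3]
  have hm1 : Measurable fun ω : S1 (m + 2) =>
      ‖(⟪tl (g.symm (G (g (pole (m + 1))))), (ω : En (m + 2))⟫ : ℝ)‖ₑ := by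
    have : Measurable fun ω : S1 (m + 2) =>
      (⟪tl (g.symm (G (g (pole (m + 1))))), (ω : En (m + 2))⟫ : ℝ) := by fun_prop
    exact this.enorm
  have hm2 : Measurable fun t : ℝ => ‖k (Real.cos t) * Real.sin t‖ₑ := by
    have : Measurable fun t : ℝ => k (Real.cos t) * Real.sin t :=
      (hp.km.comp Real.measurable_cos).mul Real.measurable_sin
    exact this.enorm
  rw [lintegral_prod_mul hm1.aemeasurable hm2.aemeasurable, lintegral_absmom, norm_tl,
    lintegral_nuT _ hm2]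
  have h5 : ∫⁻ t in Ioo (0 : ℝ) Real.pi, ENNReal.ofReal (Real.sin t ^ (m + 1)) *
      ‖k (Real.cos t) * Real.sin t‖ₑ = ENNReal.ofReal (∫ t in Ioo (0 : ℝ) Real.pi, |f t|) := by
    rw [ofReal_integral_eq_lintegral_ofReal (integrableOn_prof0 hp.ac).abs
      (Eventually.of_forall fun t => abs_nonneg _)]
    refine setLIntegral_congr_fun measurableSet_Ioo fun t ht => ?_
    have hs : 0 < Real.sin t := Real.sin_pos_of_pos_of_lt_pi ht.1 ht.2
    show ENNReal.ofReal (Real.sin t ^ (m + 1)) * ‖k (Real.cos t) * Real.sin t‖ₑ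
      = ENNReal.ofReal |f t|
    rw [Real.enorm_eq_ofReal_abs, ← ENNReal.ofReal_mul (by positivity), ← hp.hk t ht]
    congr 1
    rw [abs_mul, abs_mul, abs_of_pos hs, abs_of_pos (pow_pos hs _), pow_succ]
    ring
  have h6 : 0 ≤ ∫ t in Ioo (0 : ℝ) Real.pi, |f t| := integral_nonneg fun t => abs_nonneg _
  rw [h5, ← ENNReal.ofReal_mul (by positivity)]
  congr 1
  unfold gT
  ring

theorem norm_gT_le (G : En (m + 3) → En (m + 3)) {y : En (m + 3)} (hy : ‖y‖ = 1) :
    ‖gT G y‖ ≤ ‖G y‖ := by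
  have h3 : ‖gT G y‖ ^ 2 = ‖G y‖ ^ 2 - (⟪G y, y⟫) ^ 2 := by
    unfold gT
    rw [norm_sub_sq_real, inner_smul_right, norm_smul, hy, mul_one, Real.norm_eq_abs, sq_abs]
    ring
  nlinarith [norm_nonneg (gT G y), norm_nonneg (G y), sq_nonneg (⟪G y, y⟫)]

theorem integrable_gT (hw : SLip w G) :
    Integrable (fun y : S1 (m + 3) => ‖gT G (y : En (m + 3))‖) (muS (m + 3)) := by
  obtain ⟨L, hL⟩ := hw.bdd
  have hm : Measurable fun y : S1 (m + 3) => gT G (y : En (m + 3)) := by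
    have h1 : Measurable fun y : S1 (m + 3) => G (y : En (m + 3)) :=
      hw.meas.comp measurable_subtype_coe
    have h2 : Measurable fun y : S1 (m + 3) => (⟪G (y : En (m + 3)), (y : En (m + 3))⟫ : ℝ) :=
      h1.inner measurable_subtype_coe
    have h3 : Measurable fun y : S1 (m + 3) =>
        (⟪G (y : En (m + 3)), (y : En (m + 3))⟫ : ℝ) • (y : En (m + 3)) :=
      Measurable.smul h2 measurable_subtype_coe
    exact h1.sub h3
  refine Integrable.of_bound hm.norm.aestronglyMeasurable L ?_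
  filter_upwards [hL] with y hy
  rw [norm_norm]
  exact (norm_gT_le G (by simp)).trans hy

/-- **bilinear bound** -/
theorem bilin (hp : Prof (m + 1) f f' k q) (hw : SLip w G) {u : S1 (m + 3) → ℝ}
    (hu : ∀ x, |u x| ≤ 1) :
    |∫ x : S1 (m + 3), u x * ∫ y : S1 (m + 3), fluxI k G (x : En (m + 3)) (y : En (m + 3))
        ∂(muS (m + 3)) ∂(muS (m + 3))|
      ≤ (∫ t in Ioo (0 : ℝ) Real.pi, |f t|) * (2 / (m + 1) * (muS (m + 1)).real univ) *
        ∫ y : S1 (m + 3), ‖gT G (y : En (m + 3))‖ ∂(muS (m + 3)) := by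
  set C : ℝ := (∫ t in Ioo (0 : ℝ) Real.pi, |f t|) * (2 / (m + 1) * (muS (m + 1)).real univ)
    with hC
  have h6 : 0 ≤ ∫ t in Ioo (0 : ℝ) Real.pi, |f t| := integral_nonneg fun t => abs_nonneg _
  have hC0 : 0 ≤ C := by rw [hC]; positivity
  have hI0 : 0 ≤ ∫ y : S1 (m + 3), ‖gT G (y : En (m + 3))‖ ∂(muS (m + 3)) :=
    integral_nonneg fun y => norm_nonneg _
  have hmeas : Measurable fun p : S1 (m + 3) × S1 (m + 3) =>
      fluxI k G (p.1 : En (m + 3)) (p.2 : En (m + 3)) :=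
    (measurable_fluxI hp.km hw.meas).comp (by fun_prop :
      Measurable fun p : S1 (m + 3) × S1 (m + 3) =>
        (((p.1 : En (m + 3)), (p.2 : En (m + 3))) : En (m + 3) × En (m + 3)))
  rw [← ENNReal.ofReal_le_ofReal_iff (mul_nonneg hC0 hI0)]
  rw [← Real.enorm_eq_ofReal_abs]
  refine (enorm_integral_le_lintegral_enorm _).trans ?_
  have step1 : ∀ x : S1 (m + 3), ‖u x * ∫ y : S1 (m + 3),
      fluxI k G (x : En (m + 3)) (y : En (m + 3)) ∂(muS (m + 3))‖ₑ
      ≤ ∫⁻ y : S1 (m + 3), ‖fluxI k G (x : En (m + 3)) (y : En (m + 3))‖ₑ ∂(muS (m + 3)) := by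
    intro x
    rw [enorm_mul]
    have h1 : ‖u x‖ₑ ≤ 1 := by
      rw [Real.enorm_eq_ofReal_abs, ENNReal.ofReal_le_one]
      exact hu x
    calc ‖u x‖ₑ * ‖∫ y : S1 (m + 3), fluxI k G (x : En (m + 3)) (y : En (m + 3))
          ∂(muS (m + 3))‖ₑ
        ≤ 1 * ∫⁻ y : S1 (m + 3), ‖fluxI k G (x : En (m + 3)) (y : En (m + 3))‖ₑ
          ∂(muS (m + 3)) := mul_le_mul' h1 (enorm_integral_le_lintegral_enorm _)
      _ = _ := one_mul _
  refine (lintegral_mono step1).trans ?_
  rw [lintegral_lintegral_swap hmeas.enorm.aemeasurable]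
  have step2 : ∀ y : S1 (m + 3),
      ∫⁻ x : S1 (m + 3), ‖fluxI k G (x : En (m + 3)) (y : En (m + 3))‖ₑ ∂(muS (m + 3))
        = ENNReal.ofReal (C * ‖gT G (y : En (m + 3))‖) := fun y => by
    rw [lintegral_pole hp (by simp) G]
  rw [lintegral_congr step2, ← ofReal_integral_eq_lintegral_ofReal
    ((integrable_gT hw).const_mul C) (Eventually.of_forall fun y =>
      mul_nonneg hC0 (norm_nonneg _)), integral_const_mul]

/-- **the kernel inequality, general profile**: the function `w` annihilates the kernel `q`. -/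
theorem kernel_ineq (hp : Prof (m + 1) f f' k q) (h0 : f 0 = 1) (hpi : f Real.pi = 0)
    (hw : SLip w G)
    (hq : ∀ x : En (m + 3), ‖x‖ = 1 →
      ∫ y : S1 (m + 3), q ⟪x, (y : En (m + 3))⟫ * w (y : En (m + 3)) ∂(muS (m + 3)) = 0)
    {u : S1 (m + 3) → ℝ} (hu : ∀ x, |u x| ≤ 1) :
    (muS (m + 2)).real univ * |∫ x : S1 (m + 3), u x * w (x : En (m + 3)) ∂(muS (m + 3))|
      ≤ (∫ t in Ioo (0 : ℝ) Real.pi, |f t|) * (2 / (m + 1) * (muS (m + 1)).real univ) *
        ∫ y : S1 (m + 3), ‖gT G (y : En (m + 3))‖ ∂(muS (m + 3)) := by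
  have h1 : ∀ x : S1 (m + 3), ∫ y : S1 (m + 3), fluxI k G (x : En (m + 3)) (y : En (m + 3))
      ∂(muS (m + 3)) = (muS (m + 2)).real univ * w (x : En (m + 3)) := by
    intro x
    rw [rep hp hw (by simp), hq _ (by simp), h0, hpi]
    ring
  have h2 := bilin hp hw hu
  simp only [h1] at h2
  have h3 : ∫ x : S1 (m + 3), u x * ((muS (m + 2)).real univ * w (x : En (m + 3)))
      ∂(muS (m + 3))
      = (muS (m + 2)).real univ * ∫ x : S1 (m + 3), u x * w (x : En (m + 3)) ∂(muS (m + 3)) := by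
    rw [← integral_const_mul]
    refine integral_congr_ae (Eventually.of_forall fun x => ?_)
    show u x * _ = _ * (u x * _)
    ring
  rw [h3, abs_mul, abs_of_nonneg measureReal_nonneg] at h2
  exact h2

end bil

end Crest.Agent.R246.C378
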