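import Crest.Agent.R246.C4_378

/-!
# Row 246, part C (helper378): the optimal profile and its constants

`κ m = π / (2 J m)`, `1 < κ m` and `κ 1 = π/2`.  Main theorem `balanced_ineq`: if `w` is
Lipschitz on `S^{m+1}` (`m ≥ 1`) and `∫ w = 0`, `∫ w(y) y = 0`, then
`2 κ_m |S^m| ∫ |w| ≤ |S^{m+1}| ∫ |∇_T w|`.
-/

set_option autoImplicit false

open MeasureTheory MeasureTheory.Measure Set Filter Topology Metric
open scoped ENNReal NNReal RealInnerProductSpace

noncomputable section

namespace Crest.Agent.R246.C378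

/-- `A m = ∫_0^π sin^m` -/
def Am (m : ℕ) : ℝ := ∫ t in (0 : ℝ)..Real.pi, Real.sin t ^ m

theorem Am_zero : Am 0 = Real.pi := by simp [Am]

theorem Am_one : Am 1 = 2 := by
  unfold Am; simp only [pow_one]; rw [integral_sin]; norm_num

theorem Am_succ (m : ℕ) : (m + 2 : ℝ) * Am (m + 2) = (m + 1) * Am m := by
  unfold Am
  rw [integral_sin_pow]
  simp
  field_simp

theorem Am_mul (m : ℕ) : (m + 1 : ℝ) * (Am m * Am (m + 1)) = 2 * Real.pi := by
  induction m with
  | zero => rw [Am_zero, Am_one]; push_cast; ring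
  | succ m ih =>
    have h := Am_succ m
    push_cast
    calc ((m : ℝ) + 1 + 1) * (Am (m + 1) * Am (m + 1 + 1))
        = Am (m + 1) * ((m + 2 : ℝ) * Am (m + 2)) := by ring_nf
      _ = (m + 1 : ℝ) * (Am m * Am (m + 1)) := by rw [h]; ring
      _ = _ := ih

theorem Am_pos (m : ℕ) : 0 < Am m := integral_sin_pow_pos m

theorem Am_eq (m : ℕ) : Am m = ∫ t in Ioo (0 : ℝ) Real.pi, Real.sin t ^ m := by
  unfold Am
  rw [intervalIntegral.integral_of_le Real.pi_pos.le, integral_Ioc_eq_integral_Ioo]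

/-- the normalised distribution function -/
def Fm (m : ℕ) (t : ℝ) : ℝ := (∫ s in (0 : ℝ)..t, Real.sin s ^ m) / Am m

theorem hasDerivAt_Fm (m : ℕ) (t : ℝ) : HasDerivAt (Fm m) (Real.sin t ^ m / Am m) t := by
  have h : HasDerivAt (fun t => ∫ s in (0 : ℝ)..t, Real.sin s ^ m) (Real.sin t ^ m) t :=
    intervalIntegral.integral_hasDerivAt_right
      ((by fun_prop : Continuous fun s : ℝ => Real.sin s ^ m).intervalIntegrable _ _)
      ((by fun_prop : Continuous fun s : ℝ => Real.sin s ^ m).stronglyMeasurableAtFilter _ _)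
      (by fun_prop : Continuous fun s : ℝ => Real.sin s ^ m).continuousAt
  exact h.div_const _

theorem Fm_zero (m : ℕ) : Fm m 0 = 0 := by simp [Fm]

theorem Fm_pi (m : ℕ) : Fm m Real.pi = 1 := by
  unfold Fm
  exact div_self (Am_pos m).ne'

theorem Fm_symm (m : ℕ) (t : ℝ) : Fm m (Real.pi - t) = 1 - Fm m t := by
  have h1 : ∫ s in (0 : ℝ)..(Real.pi - t), Real.sin s ^ m
      = ∫ s in t..Real.pi, Real.sin s ^ m := by
    have := intervalIntegral.integral_comp_sub_left (a := t) (b := Real.pi)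
      (fun s => Real.sin s ^ m) Real.pi
    simp only [Real.sin_pi_sub, sub_self] at this
    exact this.symm
  have h2 : (∫ s in (0 : ℝ)..t, Real.sin s ^ m) + ∫ s in t..Real.pi, Real.sin s ^ m = Am m :=
    intervalIntegral.integral_add_adjacent_intervals
      ((by fun_prop : Continuous fun s : ℝ => Real.sin s ^ m).intervalIntegrable _ _)
      ((by fun_prop : Continuous fun s : ℝ => Real.sin s ^ m).intervalIntegrable _ _)
  have h3 := (Am_pos m).ne'
  unfold Fm
  rw [h1, eq_sub_iff_add_eq, ← add_div, add_comm, h2, div_self h3]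

theorem Fm_half (m : ℕ) : Fm m (Real.pi / 2) = 1 / 2 := by
  have h := Fm_symm m (Real.pi / 2)
  have h2 : Real.pi - Real.pi / 2 = Real.pi / 2 := by ring
  rw [h2] at h
  linarith

/-- the flux profile -/
def fm (m : ℕ) (t : ℝ) : ℝ := 1 - Fm m t - 1 / 2 * Real.sin t ^ (m + 1)

/-- its derivative -/
def fm' (m : ℕ) (t : ℝ) : ℝ :=
  Real.sin t ^ m * (-(1 / Am m) - (m + 1) / 2 * Real.cos t)

theorem hasDerivAt_fm (m : ℕ) (t : ℝ) : HasDerivAt (fm m) (fm' m t) t := by
  have h1 := ((hasDerivAt_Fm m t).const_sub 1).sub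
    (((Real.hasDerivAt_sin t).pow (m + 1)).const_mul (1 / 2 : ℝ))
  refine h1.congr_deriv ?_
  unfold fm'
  push_cast
  ring

theorem continuous_fm' (m : ℕ) : Continuous (fm' m) := by
  unfold fm'; fun_prop

theorem continuous_fm (m : ℕ) : Continuous (fm m) :=
  continuous_iff_continuousAt.2 fun t => (hasDerivAt_fm m t).continuousAt

theorem lipschitz_fm (m : ℕ) : LipschitzWith (Real.toNNReal (1 / Am m + (m + 1) / 2)) (fm m) := by
  refine lipschitzWith_of_nnnorm_deriv_le (fun t => (hasDerivAt_fm m t).differentiableAt) ?_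
  intro t
  have hA := Am_pos m
  rw [(hasDerivAt_fm m t).deriv, ← NNReal.coe_le_coe, Real.coe_toNNReal _ (by positivity),
    coe_nnnorm, Real.norm_eq_abs]
  unfold fm'
  rw [abs_mul, abs_pow]
  have h1 : |Real.sin t| ^ m ≤ 1 := pow_le_one₀ (abs_nonneg _) (Real.abs_sin_le_one t)
  have h2 : |(-(1 / Am m) - (m + 1) / 2 * Real.cos t)| ≤ 1 / Am m + (m + 1) / 2 := by
    have h3 := Real.abs_cos_le_one t
    rw [abs_le] at h3 ⊢
    have h4 : (0 : ℝ) ≤ (m + 1) / 2 := by positivity
    have h5 : 0 ≤ 1 / Am m := by positivity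
    constructor <;> nlinarith
  calc |Real.sin t| ^ m * |(-(1 / Am m) - (m + 1) / 2 * Real.cos t)|
      ≤ 1 * (1 / Am m + (m + 1) / 2) := mul_le_mul h1 h2 (abs_nonneg _) zero_le_one
    _ = _ := one_mul _

theorem fm_zero (m : ℕ) : fm m 0 = 1 := by simp [fm, Fm_zero]

theorem fm_pi (m : ℕ) : fm m Real.pi = 0 := by simp [fm, Fm_pi]

theorem fm_half (m : ℕ) : fm m (Real.pi / 2) = 0 := by
  unfold fm
  rw [Fm_half, Real.sin_pi_div_two, one_pow]
  norm_num

theorem fm_symm (m : ℕ) (t : ℝ) : fm m t - fm m (Real.pi - t) = 1 - 2 * Fm m t := by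
  unfold fm
  rw [Fm_symm, Real.sin_pi_sub]
  ring

theorem fm_nonneg (m : ℕ) {t : ℝ} (h0 : 0 ≤ t) (h1 : t ≤ Real.pi / 2) : 0 ≤ fm m t := by
  have hpi := Real.pi_pos
  have hanti : AntitoneOn (fm m) (Icc 0 (Real.pi / 2)) := by
    refine antitoneOn_of_deriv_nonpos (convex_Icc _ _) (continuous_fm m).continuousOn
      (fun t _ => (hasDerivAt_fm m t).differentiableAt.differentiableWithinAt) ?_
    intro t ht
    rw [interior_Icc] at ht
    rw [(hasDerivAt_fm m t).deriv]
    unfold fm'
    have hA := Am_pos m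
    have hs : 0 < Real.sin t := Real.sin_pos_of_pos_of_lt_pi ht.1 (by linarith [ht.2])
    have hc : 0 ≤ Real.cos t :=
      Real.cos_nonneg_of_neg_pi_div_two_le_of_le (by linarith [ht.1]) ht.2.le
    have h5 : 0 ≤ 1 / Am m := by positivity
    have h6 : 0 ≤ (m + 1 : ℝ) / 2 * Real.cos t := by positivity
    have h7 : 0 < Real.sin t ^ m := by positivity
    nlinarith
  have h2 := hanti (show t ∈ Icc 0 (Real.pi / 2) from ⟨h0, h1⟩)
    (show Real.pi / 2 ∈ Icc 0 (Real.pi / 2) from ⟨by positivity, le_rfl⟩) h1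
  rwa [fm_half] at h2

theorem fm_nonpos (m : ℕ) {t : ℝ} (h0 : Real.pi / 2 ≤ t) (h1 : t ≤ Real.pi) : fm m t ≤ 0 := by
  have hpi := Real.pi_pos
  have hA := Am_pos m
  by_cases hc : -(1 / Am m) - (m + 1) / 2 * Real.cos t ≤ 0
  · -- decreasing on `[π/2, t]`
    have hanti : AntitoneOn (fm m) (Icc (Real.pi / 2) t) := by
      refine antitoneOn_of_deriv_nonpos (convex_Icc _ _) (continuous_fm m).continuousOn
        (fun t _ => (hasDerivAt_fm m t).differentiableAt.differentiableWithinAt) ?_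
      intro s hs
      rw [interior_Icc] at hs
      rw [(hasDerivAt_fm m s).deriv]
      unfold fm'
      have hs1 : 0 ≤ Real.sin s :=
        Real.sin_nonneg_of_nonneg_of_le_pi (by linarith [hs.1]) (by linarith [hs.2])
      have hcos : Real.cos t ≤ Real.cos s :=
        Real.cos_le_cos_of_nonneg_of_le_pi (by linarith [hs.1]) h1 hs.2.le
      have h7 : 0 ≤ Real.sin s ^ m := by positivity
      have h8 : -(1 / Am m) - (m + 1) / 2 * Real.cos s ≤ 0 := by
        have : (m + 1 : ℝ) / 2 * Real.cos t ≤ (m + 1) / 2 * Real.cos s :=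
          mul_le_mul_of_nonneg_left hcos (by positivity)
        linarith
      exact mul_nonpos_of_nonneg_of_nonpos h7 h8
    have h2 := hanti (show Real.pi / 2 ∈ Icc (Real.pi / 2) t from ⟨le_rfl, h0⟩)
      (show t ∈ Icc (Real.pi / 2) t from ⟨h0, le_rfl⟩) h0
    rwa [fm_half] at h2
  · -- increasing on `[t, π]`
    have hmono : MonotoneOn (fm m) (Icc t Real.pi) := by
      refine monotoneOn_of_deriv_nonneg (convex_Icc _ _) (continuous_fm m).continuousOn
        (fun t _ => (hasDerivAt_fm m t).differentiableAt.differentiableWithinAt) ?_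
      intro s hs
      rw [interior_Icc] at hs
      rw [(hasDerivAt_fm m s).deriv]
      unfold fm'
      have hs1 : 0 ≤ Real.sin s :=
        Real.sin_nonneg_of_nonneg_of_le_pi (by linarith [hs.1]) (by linarith [hs.2])
      have hcos : Real.cos s ≤ Real.cos t :=
        Real.cos_le_cos_of_nonneg_of_le_pi (by linarith) hs.2.le hs.1.le
      have h7 : 0 ≤ Real.sin s ^ m := by positivity
      have h8 : 0 ≤ -(1 / Am m) - (m + 1) / 2 * Real.cos s := by
        have : (m + 1 : ℝ) / 2 * Real.cos s ≤ (m + 1) / 2 * Real.cos t :=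
          mul_le_mul_of_nonneg_left hcos (by positivity)
        linarith [not_le.1 hc]
      exact mul_nonneg h7 h8
    have h2 := hmono (show t ∈ Icc t Real.pi from ⟨le_rfl, h1⟩)
      (show Real.pi ∈ Icc t Real.pi from ⟨h1, le_rfl⟩) h1
    rwa [fm_pi] at h2

/-- the constant `J m = ∫_0^π |f|` -/
def Jm (m : ℕ) : ℝ := ∫ t in Ioo (0 : ℝ) Real.pi, |fm m t|

theorem Jm_eq (m : ℕ) : Jm m = ∫ t in (0 : ℝ)..(Real.pi / 2), (1 - 2 * Fm m t) := by
  have hpi := Real.pi_pos
  have hc : Continuous fun t => |fm m t| := (continuous_fm m).abs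
  have h1 : Jm m = (∫ t in (0 : ℝ)..(Real.pi / 2), |fm m t|)
      + ∫ t in (Real.pi / 2)..Real.pi, |fm m t| := by
    unfold Jm
    rw [← integral_Ioc_eq_integral_Ioo, ← intervalIntegral.integral_of_le hpi.le,
      intervalIntegral.integral_add_adjacent_intervals (hc.intervalIntegrable _ _)
        (hc.intervalIntegrable _ _)]
  have h2 : ∫ t in (0 : ℝ)..(Real.pi / 2), |fm m t| = ∫ t in (0 : ℝ)..(Real.pi / 2), fm m t := by
    refine intervalIntegral.integral_congr fun t ht => ?_
    rw [uIcc_of_le (by positivity)] at ht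
    exact abs_of_nonneg (fm_nonneg m ht.1 ht.2)
  have h3 : ∫ t in (Real.pi / 2)..Real.pi, |fm m t|
      = ∫ t in (Real.pi / 2)..Real.pi, -fm m t := by
    refine intervalIntegral.integral_congr fun t ht => ?_
    rw [uIcc_of_le (by linarith)] at ht
    exact abs_of_nonpos (fm_nonpos m ht.1 ht.2)
  have h4 : ∫ t in (Real.pi / 2)..Real.pi, -fm m t
      = ∫ t in (0 : ℝ)..(Real.pi / 2), -fm m (Real.pi - t) := by
    have := intervalIntegral.integral_comp_sub_left (a := 0) (b := Real.pi / 2)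
      (fun s => -fm m s) Real.pi
    rw [this]
    congr 1 <;> ring
  have hcf := continuous_fm m
  have hcg : Continuous fun t : ℝ => -fm m (Real.pi - t) :=
    (hcf.comp (by fun_prop : Continuous fun t : ℝ => Real.pi - t)).neg
  rw [h1, h2, h3, h4, ← intervalIntegral.integral_add (hcf.intervalIntegrable _ _)
    (hcg.intervalIntegrable _ _)]
  refine intervalIntegral.integral_congr fun t _ => ?_
  have := fm_symm m t
  show fm m t + -fm m (Real.pi - t) = _
  linarith

theorem Fm_nonneg (m : ℕ) {t : ℝ} (h0 : 0 ≤ t) (h1 : t ≤ Real.pi) : 0 ≤ Fm m t := by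
  unfold Fm
  refine div_nonneg (intervalIntegral.integral_nonneg h0 fun s hs => ?_) (Am_pos m).le
  exact pow_nonneg (Real.sin_nonneg_of_nonneg_of_le_pi hs.1 (hs.2.trans h1)) _

theorem Jm_lt (m : ℕ) : Jm m < Real.pi / 2 := by
  have hpi := Real.pi_pos
  have hcF : Continuous (Fm m) :=
    continuous_iff_continuousAt.2 fun t => (hasDerivAt_Fm m t).continuousAt
  have h1 : Jm m = Real.pi / 2 - 2 * ∫ t in (0 : ℝ)..(Real.pi / 2), Fm m t := by
    rw [Jm_eq, intervalIntegral.integral_sub (intervalIntegrable_const)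
      ((hcF.const_smul (2 : ℝ)).intervalIntegrable _ _ |>.congr (fun t _ => by simp)),
      intervalIntegral.integral_const_mul]
    simp
  have h2 : 0 < ∫ t in (0 : ℝ)..(Real.pi / 2), Fm m t := by
    refine intervalIntegral.integral_pos (by positivity) hcF.continuousOn
      (fun t ht => Fm_nonneg m ht.1.le (by linarith [ht.2])) ⟨Real.pi / 2, ⟨by positivity, le_rfl⟩, ?_⟩
    rw [Fm_half]; norm_num
  linarith

theorem Jm_pos (m : ℕ) : 0 < Jm m := by
  have hpi := Real.pi_pos
  have hcF : Continuous (Fm m) :=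
    continuous_iff_continuousAt.2 fun t => (hasDerivAt_Fm m t).continuousAt
  rw [Jm_eq]
  have hmono : MonotoneOn (Fm m) (Icc 0 Real.pi) := by
    refine monotoneOn_of_deriv_nonneg (convex_Icc _ _) hcF.continuousOn
      (fun t _ => (hasDerivAt_Fm m t).differentiableAt.differentiableWithinAt) ?_
    intro s hs
    rw [interior_Icc] at hs
    rw [(hasDerivAt_Fm m s).deriv]
    exact div_nonneg (pow_nonneg (Real.sin_nonneg_of_nonneg_of_le_pi hs.1.le hs.2.le) _)
      (Am_pos m).le
  refine intervalIntegral.integral_pos (by positivity)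
    ((continuous_const.sub (continuous_const.mul hcF)).continuousOn) (fun t ht => ?_)
    ⟨0, ⟨le_rfl, by positivity⟩, ?_⟩
  · have h := hmono (show t ∈ Icc 0 Real.pi from ⟨ht.1.le, by linarith [ht.2]⟩)
      (show Real.pi / 2 ∈ Icc 0 Real.pi from ⟨by positivity, by linarith⟩) ht.2
    rw [Fm_half] at h
    linarith
  · rw [Fm_zero]; norm_num

theorem Jm_one : Jm 1 = 1 := by
  rw [Jm_eq]
  have h : ∀ t : ℝ, 1 - 2 * Fm 1 t = Real.cos t := by
    intro t
    unfold Fm
    simp only [pow_one]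
    rw [Am_one, integral_sin, Real.cos_zero]
    ring
  simp only [h]
  rw [integral_cos]
  simp

/-- the gain `κ_m` -/
def kapm (m : ℕ) : ℝ := Real.pi / (2 * Jm m)

theorem one_lt_kapm (m : ℕ) : 1 < kapm m := by
  unfold kapm
  rw [one_lt_div (by linarith [Jm_pos m])]
  linarith [Jm_lt m]

theorem kapm_one : kapm 1 = Real.pi / 2 := by
  unfold kapm; rw [Jm_one]; ring

/-- the kernel of the flux -/
def km (m : ℕ) (s : ℝ) : ℝ := fm m (Real.arccos s) / (Real.sqrt (1 - s ^ 2)) ^ (m + 1)

/-- the kernel of the function -/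
def qm (m : ℕ) (s : ℝ) : ℝ := -(1 / Am m) - (m + 1) / 2 * s

theorem prof_fm (m : ℕ) : Prof m (fm m) (fm' m) (km m) (qm m) where
  ac := (lipschitz_fm m).lipschitzOnWith.absolutelyContinuousOnInterval
  der := fun t _ => hasDerivAt_fm m t
  km := by
    unfold km
    exact ((continuous_fm m).measurable.comp Real.measurable_arccos).div (by fun_prop)
  qm := by unfold qm; fun_prop
  hk := by
    intro t ht
    have hs : 0 < Real.sin t := Real.sin_pos_of_pos_of_lt_pi ht.1 ht.2
    unfold km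
    rw [Real.arccos_cos ht.1.le ht.2.le, ← Real.abs_sin_eq_sqrt_one_sub_cos_sq, abs_of_pos hs]
    field_simp
  hq := by
    intro t _
    unfold qm fm'
    ring

theorem inner_integral_smul {n : ℕ} {w : En n → ℝ} (x : En n)
    (hw : Integrable (fun y : S1 n => w (y : En n)) (muS n)) :
    ∫ y : S1 n, ⟪x, (y : En n)⟫ * w (y : En n) ∂(muS n)
      = ⟪x, ∫ y : S1 n, w (y : En n) • (y : En n) ∂(muS n)⟫ := by
  have hi : Integrable (fun y : S1 n => w (y : En n) • (y : En n)) (muS n) := by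
    refine hw.smul_bdd 1 (f := fun y : S1 n => (y : En n))
      continuous_subtype_val.aestronglyMeasurable (Eventually.of_forall fun y => ?_)
    simp
  rw [← integral_inner hi]
  refine integral_congr_ae (Eventually.of_forall fun y => ?_)
  show ⟪x, (y : En n)⟫ * w (y : En n) = ⟪x, w (y : En n) • (y : En n)⟫
  rw [inner_smul_right]
  ring

section main

variable {m : ℕ} {w : En (m + 3) → ℝ} {G : En (m + 3) → En (m + 3)}

theorem integrable_w (hw : SLip w G) :
    Integrable (fun y : S1 (m + 3) => w (y : En (m + 3))) (muS (m + 3)) := by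
  obtain ⟨M, -, hM⟩ := bdd_w hw
  exact Integrable.of_bound (aesm_w hw).aestronglyMeasurable M (Eventually.of_forall hM)

/-- the constant identity -/
theorem const_id (m : ℕ) :
    Jm (m + 1) * (2 / (m + 1) * (muS (m + 1)).real univ)
      = (muS (m + 3)).real univ * (Jm (m + 1) / Real.pi) := by
  have h1 := real_muS_univ m
  have h2 := real_muS_univ (m + 1)
  rw [← Am_eq] at h1 h2
  have h3 := Am_mul m
  have hpi := Real.pi_pos
  rw [h2, h1]
  have h4 : (m + 1 : ℝ) ≠ 0 := by positivity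
  have h5 : (2 : ℝ) / (m + 1) = Am m * Am (m + 1) / Real.pi := by
    rw [div_eq_div_iff h4 hpi.ne']; linarith
  rw [h5]
  ring

theorem muS_pos (n : ℕ) : 0 < (muS (n + 1)).real univ := by
  have h : (muS (n + 1)) univ ≠ 0 := by
    rw [Ne, Measure.measure_univ_eq_zero]
    exact toSphere_ne_zero _
  rw [measureReal_def]
  exact ENNReal.toReal_pos h (measure_ne_top _ _)

/-- **the kernel inequality** for balanced `w`, tested with a bounded function `u` -/
theorem balanced_ineq_u (hw : SLip w G)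
    (h0 : ∫ y : S1 (m + 3), w (y : En (m + 3)) ∂(muS (m + 3)) = 0)
    (h1 : ∫ y : S1 (m + 3), w (y : En (m + 3)) • (y : En (m + 3)) ∂(muS (m + 3)) = 0)
    {u : S1 (m + 3) → ℝ} (hu : ∀ x, |u x| ≤ 1) :
    2 * kapm (m + 1) * (muS (m + 2)).real univ *
        |∫ x : S1 (m + 3), u x * w (x : En (m + 3)) ∂(muS (m + 3))|
      ≤ (muS (m + 3)).real univ *
        ∫ y : S1 (m + 3), ‖gT G (y : En (m + 3))‖ ∂(muS (m + 3)) := by
  have hiw := integrable_w hw
  have hq : ∀ x : En (m + 3), ‖x‖ = 1 →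
      ∫ y : S1 (m + 3), qm (m + 1) ⟪x, (y : En (m + 3))⟫ * w (y : En (m + 3)) ∂(muS (m + 3))
        = 0 := by
    intro x _
    have hix : Integrable (fun y : S1 (m + 3) => ⟪x, (y : En (m + 3))⟫ * w (y : En (m + 3)))
        (muS (m + 3)) := by
      refine hiw.bdd_mul (c := ‖x‖) (by fun_prop) (Eventually.of_forall fun y => ?_)
      refine (abs_real_inner_le_norm _ _).trans ?_
      simp
    have h2 : ∀ y : S1 (m + 3), qm (m + 1) ⟪x, (y : En (m + 3))⟫ * w (y : En (m + 3))
        = -(1 / Am (m + 1)) * w (y : En (m + 3))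
          + (-(((m + 1 : ℕ) : ℝ) + 1) / 2) * (⟪x, (y : En (m + 3))⟫ * w (y : En (m + 3))) := by
      intro y; unfold qm; ring
    simp only [h2]
    rw [integral_add (hiw.const_mul _) (hix.const_mul _), integral_const_mul,
      integral_const_mul, h0, inner_integral_smul x hiw, h1]
    simp
  have h3 := kernel_ineq (prof_fm (m + 1)) (fm_zero _) (fm_pi _) hw hq hu
  have h4 : (∫ t in Ioo (0 : ℝ) Real.pi, |fm (m + 1) t|) = Jm (m + 1) := rfl
  rw [h4, const_id] at h3
  have hJ := Jm_pos (m + 1)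
  have hpi := Real.pi_pos
  have h5 : kapm (m + 1) = Real.pi / (2 * Jm (m + 1)) := rfl
  set I := ∫ y : S1 (m + 3), ‖gT G (y : En (m + 3))‖ ∂(muS (m + 3))
  set X := |∫ x : S1 (m + 3), u x * w (x : En (m + 3)) ∂(muS (m + 3))|
  have h6 : 2 * kapm (m + 1) * (muS (m + 2)).real univ * X
      = (Real.pi / Jm (m + 1)) * ((muS (m + 2)).real univ * X) := by
    rw [h5]; field_simp
  rw [h6]
  calc (Real.pi / Jm (m + 1)) * ((muS (m + 2)).real univ * X)
      ≤ (Real.pi / Jm (m + 1)) * ((muS (m + 3)).real univ * (Jm (m + 1) / Real.pi) * I) :=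
        mul_le_mul_of_nonneg_left h3 (by positivity)
    _ = (muS (m + 3)).real univ * I := by field_simp

/-- **the kernel inequality** for balanced `w` on `S^{m+2}` -/
theorem balanced_ineq (hw : SLip w G)
    (h0 : ∫ y : S1 (m + 3), w (y : En (m + 3)) ∂(muS (m + 3)) = 0)
    (h1 : ∫ y : S1 (m + 3), w (y : En (m + 3)) • (y : En (m + 3)) ∂(muS (m + 3)) = 0) :
    2 * kapm (m + 1) * (muS (m + 2)).real univ *
        ∫ x : S1 (m + 3), |w (x : En (m + 3))| ∂(muS (m + 3))
      ≤ (muS (m + 3)).real univ *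
        ∫ y : S1 (m + 3), ‖gT G (y : En (m + 3))‖ ∂(muS (m + 3)) := by
  have h := balanced_ineq_u hw h0 h1 (u := fun x => (SignType.sign (w (x : En (m + 3))) : ℝ))
    (fun x => by
      rcases lt_trichotomy (w (x : En (m + 3))) 0 with h | h | h <;> simp [h])
  have h2 : ∀ x : S1 (m + 3), (SignType.sign (w (x : En (m + 3))) : ℝ) * w (x : En (m + 3))
      = |w (x : En (m + 3))| := fun x => sign_mul_self _
  simp only [h2] at h
  rwa [abs_of_nonneg (integral_nonneg fun x => abs_nonneg _)] at h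

end main

end Crest.Agent.R246.C378
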