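import Crest.Agent.R246.C5_378

/-!
# Row 246, part C (helper378): the Allen-Cahn lower bound for (almost) balanced functions
-/

set_option autoImplicit false

open MeasureTheory MeasureTheory.Measure Set Filter Topology Metric
open scoped ENNReal NNReal RealInnerProductSpace ContDiff

noncomputable section

namespace Crest.Agent.R246.C378

section err

variable {m : ℕ} {w : En (m + 3) → ℝ} {G : En (m + 3) → En (m + 3)}

/-- the unbalance of `w` -/
def unb (m : ℕ) (w : En (m + 3) → ℝ) : ℝ :=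
  |∫ y : S1 (m + 3), w (y : En (m + 3)) ∂(muS (m + 3))| / Am (m + 1)
    + (m + 2) / 2 * ‖∫ y : S1 (m + 3), w (y : En (m + 3)) • (y : En (m + 3)) ∂(muS (m + 3))‖

theorem unb_nonneg (m : ℕ) (w : En (m + 3) → ℝ) : 0 ≤ unb m w := by
  unfold unb
  have := Am_pos (m + 1)
  positivity

theorem integral_qm (hw : SLip w G) {x : En (m + 3)} :
    ∫ y : S1 (m + 3), qm (m + 1) ⟪x, (y : En (m + 3))⟫ * w (y : En (m + 3)) ∂(muS (m + 3))
      = -((∫ y : S1 (m + 3), w (y : En (m + 3)) ∂(muS (m + 3))) / Am (m + 1)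
        + (m + 2) / 2 * ⟪x, ∫ y : S1 (m + 3), w (y : En (m + 3)) • (y : En (m + 3))
          ∂(muS (m + 3))⟫) := by
  have hiw := integrable_w hw
  have hix : Integrable (fun y : S1 (m + 3) => ⟪x, (y : En (m + 3))⟫ * w (y : En (m + 3)))
      (muS (m + 3)) := by
    refine hiw.bdd_mul (c := ‖x‖) (by fun_prop) (Eventually.of_forall fun y => ?_)
    refine (abs_real_inner_le_norm _ _).trans ?_
    simp
  have h2 : ∀ y : S1 (m + 3), qm (m + 1) ⟪x, (y : En (m + 3))⟫ * w (y : En (m + 3))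
      = -(1 / Am (m + 1)) * w (y : En (m + 3))
        + (-(((m + 1 : ℕ) : ℝ) + 1) / 2) * (⟪x, (y : En (m + 3))⟫ * w (y : En (m + 3))) := by
    intro y; unfold qm; ring
  simp only [h2]
  rw [integral_add (hiw.const_mul _) (hix.const_mul _), integral_const_mul,
    integral_const_mul, inner_integral_smul x hiw]
  push_cast
  ring

/-- **the kernel inequality with error** -/
theorem ineq_err (hw : SLip w G) :
    2 * kapm (m + 1) * (muS (m + 2)).real univ *
        ∫ x : S1 (m + 3), |w (x : En (m + 3))| ∂(muS (m + 3))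
      ≤ (muS (m + 3)).real univ *
        (∫ y : S1 (m + 3), ‖gT G (y : En (m + 3))‖ ∂(muS (m + 3))
          + 2 * kapm (m + 1) * unb m w) := by
  have hiw := integrable_w hw
  have hJ := Jm_pos (m + 1)
  have hpi := Real.pi_pos
  have hp := prof_fm (m + 1)
  set X := ∫ y : S1 (m + 3), w (y : En (m + 3)) ∂(muS (m + 3)) with hX
  set Y := ∫ y : S1 (m + 3), w (y : En (m + 3)) • (y : En (m + 3)) ∂(muS (m + 3)) with hY
  set S0 := (muS (m + 2)).real univ with hS0
  set S := (muS (m + 3)).real univ with hS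
  set I := ∫ y : S1 (m + 3), ‖gT G (y : En (m + 3))‖ ∂(muS (m + 3)) with hI
  -- the error function
  set e : S1 (m + 3) → ℝ := fun x => X / Am (m + 1) + (m + 2) / 2 * ⟪(x : En (m + 3)), Y⟫
    with he
  have hec : Continuous e := by rw [he]; fun_prop
  have heb : ∀ x, |e x| ≤ unb m w := by
    intro x
    have hA := Am_pos (m + 1)
    have h1 : |⟪(x : En (m + 3)), Y⟫| ≤ ‖Y‖ := by
      refine (abs_real_inner_le_norm _ _).trans ?_
      simp
    calc |e x| ≤ |X / Am (m + 1)| + |(m + 2) / 2 * ⟪(x : En (m + 3)), Y⟫| := abs_add_le _ _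
      _ = |X| / Am (m + 1) + (m + 2) / 2 * |⟪(x : En (m + 3)), Y⟫| := by
          rw [abs_div, abs_of_pos hA, abs_mul, abs_of_nonneg (by positivity : (0 : ℝ) ≤
            (m + 2) / 2)]
      _ ≤ |X| / Am (m + 1) + (m + 2) / 2 * ‖Y‖ := by gcongr
  -- the test function
  set u : S1 (m + 3) → ℝ := fun x => (SignType.sign (w (x : En (m + 3))) : ℝ) with hu
  have hub : ∀ x, |u x| ≤ 1 := fun x => by
    rcases lt_trichotomy (w (x : En (m + 3))) 0 with h | h | h <;> simp [hu, h]
  have hum : Measurable u := by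
    have h1 : Measurable fun s : ℝ => (SignType.sign s : ℝ) := by
      have h2 : (fun s : ℝ => (SignType.sign s : ℝ)) = fun s => if 0 < s then 1 else
          if s < 0 then -1 else 0 := by
        funext s
        rcases lt_trichotomy s 0 with h | h | h
        · simp [h, not_lt.2 h.le]
        · simp [h]
        · simp [h]
      rw [h2]
      exact Measurable.ite measurableSet_Ioi measurable_const
        (Measurable.ite measurableSet_Iio measurable_const measurable_const)
    exact h1.comp (aesm_w hw)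
  have h1 : ∀ x : S1 (m + 3), ∫ y : S1 (m + 3), fluxI (km (m + 1)) G (x : En (m + 3))
      (y : En (m + 3)) ∂(muS (m + 3)) = S0 * w (x : En (m + 3)) - e x := by
    intro x
    rw [rep hp hw (by simp), integral_qm hw, fm_zero, fm_pi]
    simp only [he]
    ring
  have h2 := bilin hp hw hub
  simp only [h1] at h2
  have i1 : Integrable (fun x : S1 (m + 3) => |w (x : En (m + 3))|) (muS (m + 3)) := hiw.abs
  have i2 : Integrable (fun x : S1 (m + 3) => u x * e x) (muS (m + 3)) := by
    refine Integrable.of_bound (hum.mul hec.measurable).aestronglyMeasurable (unb m w)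
      (Eventually.of_forall fun x => ?_)
    show |u x * e x| ≤ unb m w
    rw [abs_mul]
    calc |u x| * |e x| ≤ 1 * unb m w := mul_le_mul (hub x) (heb x) (abs_nonneg _) zero_le_one
      _ = _ := one_mul _
  have h3 : ∫ x : S1 (m + 3), u x * (S0 * w (x : En (m + 3)) - e x) ∂(muS (m + 3))
      = S0 * (∫ x : S1 (m + 3), |w (x : En (m + 3))| ∂(muS (m + 3)))
        - ∫ x : S1 (m + 3), u x * e x ∂(muS (m + 3)) := by
    rw [← integral_const_mul, ← integral_sub (i1.const_mul S0) i2]
    refine integral_congr_ae (Eventually.of_forall fun x => ?_)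
    show u x * (S0 * w (x : En (m + 3)) - e x) = S0 * |w (x : En (m + 3))| - u x * e x
    have : u x * w (x : En (m + 3)) = |w (x : En (m + 3))| := sign_mul_self _
    rw [← this]; ring
  have h4 : |∫ x : S1 (m + 3), u x * e x ∂(muS (m + 3))| ≤ S * unb m w := by
    have := norm_integral_le_of_norm_le_const (μ := muS (m + 3)) (f := fun x => u x * e x)
      (C := unb m w) (Eventually.of_forall fun x => by
        show |u x * e x| ≤ unb m w
        rw [abs_mul]
        calc |u x| * |e x| ≤ 1 * unb m w :=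
              mul_le_mul (hub x) (heb x) (abs_nonneg _) zero_le_one
          _ = _ := one_mul _)
    rw [mul_comm]
    exact this
  rw [h3] at h2
  have h5 : (∫ t in Ioo (0 : ℝ) Real.pi, |fm (m + 1) t|) = Jm (m + 1) := rfl
  rw [h5, const_id, ← hS, ← hI] at h2
  set W := ∫ x : S1 (m + 3), |w (x : En (m + 3))| ∂(muS (m + 3)) with hW
  set Z := ∫ x : S1 (m + 3), u x * e x ∂(muS (m + 3)) with hZ
  have h6 : S0 * W ≤ S * (Jm (m + 1) / Real.pi) * I + S * unb m w := by
    have h7 := (abs_le.1 h4)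
    have h8 := le_abs_self (S0 * W - Z)
    linarith [h7.2]
  have h9 : kapm (m + 1) = Real.pi / (2 * Jm (m + 1)) := rfl
  have h10 : 2 * kapm (m + 1) * S0 * W = (Real.pi / Jm (m + 1)) * (S0 * W) := by
    rw [h9]; field_simp
  rw [h10]
  calc (Real.pi / Jm (m + 1)) * (S0 * W)
      ≤ (Real.pi / Jm (m + 1)) * (S * (Jm (m + 1) / Real.pi) * I + S * unb m w) :=
        mul_le_mul_of_nonneg_left h6 (by positivity)
    _ = S * (I + 2 * kapm (m + 1) * unb m w) := by
        rw [h9]; field_simp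

end err

/-- the primitive `u - u^3/3` -/
def Ph (u : ℝ) : ℝ := u - u ^ 3 / 3

theorem continuous_Ph : Continuous Ph := by unfold Ph; fun_prop

theorem Ph_neg (u : ℝ) : Ph (-u) = -Ph u := by unfold Ph; ring

theorem hasDerivAt_Ph (u : ℝ) : HasDerivAt Ph (1 - u ^ 2) u := by
  have h := (hasDerivAt_id u).sub (((hasDerivAt_id u).pow 3).div_const 3)
  refine h.congr_deriv ?_
  simp

theorem Ph_sub_le {a b : ℝ} (ha : |a| ≤ 1) (hb : |b| ≤ 1) : |Ph a - Ph b| ≤ |a - b| := by
  have h1 : Ph a - Ph b = (a - b) * (1 - (a ^ 2 + a * b + b ^ 2) / 3) := by unfold Ph; ring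
  rw [h1, abs_mul]
  have ha' := abs_le.1 ha
  have hb' := abs_le.1 hb
  have h2 : |1 - (a ^ 2 + a * b + b ^ 2) / 3| ≤ 1 := by
    rw [abs_le]
    constructor
    · nlinarith [sq_nonneg (a - b)]
    · nlinarith [sq_nonneg (a + b), sq_nonneg a, sq_nonneg b]
  calc |a - b| * |1 - (a ^ 2 + a * b + b ^ 2) / 3| ≤ |a - b| * 1 :=
        mul_le_mul_of_nonneg_left h2 (abs_nonneg _)
    _ = _ := mul_one _

theorem Ph_abs_ge {a : ℝ} (ha : |a| ≤ 1) : 2 / 3 * a ^ 2 ≤ |Ph a| := by
  have h1 : Ph a = a * (1 - a ^ 2 / 3) := by unfold Ph; ring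
  have h2 : |a| ^ 2 = a ^ 2 := sq_abs a
  have h3 : 0 ≤ |a| := abs_nonneg a
  have h4 : a ^ 2 ≤ |a| := by nlinarith
  have h5 : a ^ 2 ≤ 1 := by nlinarith
  rw [h1, abs_mul, abs_of_nonneg (by linarith : (0 : ℝ) ≤ 1 - a ^ 2 / 3)]
  nlinarith

theorem Ph_abs_le {a : ℝ} (ha : |a| ≤ 1) : |Ph a| ≤ 1 := by
  have := Ph_sub_le ha (show |(0 : ℝ)| ≤ 1 by simp)
  simp only [sub_zero] at this
  have h0 : Ph 0 = 0 := by simp [Ph]
  rw [h0, sub_zero] at this
  exact this.trans ha

theorem SLip.comp_Ph {n : ℕ} {w : En n → ℝ} {G : En n → En n} (hw : SLip w G)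
    (hwm : Measurable w) (hw1 : ∀ y ∈ sphere (0 : En n) 1, |w y| ≤ 1) :
    SLip (fun x => Ph (w x)) (fun x => (1 - w x ^ 2) • G x) where
  lip := by
    obtain ⟨K, hK⟩ := hw.lip
    refine ⟨K, LipschitzOnWith.of_dist_le_mul fun x hx y hy => ?_⟩
    rw [Real.dist_eq]
    have h1 := hK.dist_le_mul x hx y hy
    rw [Real.dist_eq] at h1
    exact (Ph_sub_le (hw1 x hx) (hw1 y hy)).trans h1
  meas := (measurable_const.sub (hwm.pow_const 2)).smul hw.meas
  bdd := by
    obtain ⟨L, hL⟩ := hw.bdd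
    refine ⟨L, ?_⟩
    filter_upwards [hL] with y hy
    have h1 := abs_le.1 (hw1 (y : En n) y.2)
    have h2 : 0 ≤ 1 - w (y : En n) ^ 2 := by nlinarith
    have h3 : 1 - w (y : En n) ^ 2 ≤ 1 := by nlinarith [sq_nonneg (w (y : En n))]
    rw [norm_smul, Real.norm_of_nonneg h2]
    calc (1 - w (y : En n) ^ 2) * ‖G (y : En n)‖ ≤ 1 * ‖G (y : En n)‖ :=
          mul_le_mul_of_nonneg_right h3 (norm_nonneg _)
      _ ≤ L := by rw [one_mul]; exact hy
  der := by
    filter_upwards [hw.der] with y hy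
    have h1 := (hasDerivAt_Ph (w (y : En n))).comp_hasFDerivWithinAt (y : En n) hy
    have h2 : (1 - w (y : En n) ^ 2) • innerSL ℝ (G (y : En n))
        = innerSL ℝ ((1 - w (y : En n) ^ 2) • G (y : En n)) := by
      ext z
      simp
    rw [h2] at h1
    exact h1

theorem gT_smul {n : ℕ} (c : En n → ℝ) (G : En n → En n) (y : En n) :
    gT (fun x => c x • G x) y = c y • gT G y := by
  unfold gT
  rw [inner_smul_left, smul_sub, smul_smul]
  simp

section ac

variable {m : ℕ} {w : En (m + 3) → ℝ} {G : En (m + 3) → En (m + 3)}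

/-- **Allen-Cahn lower bound with error.** -/
theorem ac_lower (hw : SLip w G) (hwm : Measurable w)
    (hw1 : ∀ y ∈ sphere (0 : En (m + 3)) 1, |w y| ≤ 1) {ε Q : ℝ} (hε : 0 < ε)
    (hQ : ∫ y : S1 (m + 3), (ε / 2 * ‖G (y : En (m + 3))‖ ^ 2
      + (1 - w (y : En (m + 3)) ^ 2) ^ 2 / (2 * ε)) ∂(muS (m + 3)) ≤ Q) :
    4 / 3 * kapm (m + 1) * (muS (m + 2)).real univ *
        (1 - Real.sqrt (2 * ε * Q / (muS (m + 3)).real univ))
      ≤ Q + 2 * kapm (m + 1) * unb m (fun x => Ph (w x)) := by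
  have hS0 := muS_pos (m + 1)
  have hS := muS_pos (m + 2)
  have hk := one_lt_kapm (m + 1)
  have hwPh := hw.comp_Ph hwm hw1
  have key := ineq_err hwPh
  set S0 := (muS (m + 2)).real univ with hS0d
  set S := (muS (m + 3)).real univ with hSd
  set κ := kapm (m + 1) with hκ
  set η := unb m (fun x => Ph (w x)) with hη
  have hη0 : 0 ≤ η := unb_nonneg m _
  -- measurability and bounds on the sphere
  have hwS : Measurable fun y : S1 (m + 3) => w (y : En (m + 3)) := aesm_w hw
  have hGS : Measurable fun y : S1 (m + 3) => G (y : En (m + 3)) :=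
    hw.meas.comp measurable_subtype_coe
  have hb : ∀ y : S1 (m + 3), 0 ≤ 1 - w (y : En (m + 3)) ^ 2 ∧ 1 - w (y : En (m + 3)) ^ 2 ≤ 1 := by
    intro y
    have h1 := abs_le.1 (hw1 (y : En (m + 3)) y.2)
    exact ⟨by nlinarith, by nlinarith [sq_nonneg (w (y : En (m + 3)))]⟩
  obtain ⟨L, hL⟩ := hw.bdd
  have iG : Integrable (fun y : S1 (m + 3) => ‖G (y : En (m + 3))‖ ^ 2) (muS (m + 3)) := by
    refine Integrable.of_bound (hGS.norm.pow_const 2).aestronglyMeasurable (L ^ 2) ?_
    filter_upwards [hL] with y hy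
    rw [Real.norm_of_nonneg (by positivity)]
    exact pow_le_pow_left₀ (norm_nonneg _) hy 2
  have iP : Integrable (fun y : S1 (m + 3) => (1 - w (y : En (m + 3)) ^ 2) ^ 2)
      (muS (m + 3)) := by
    refine Integrable.of_bound (((measurable_const.sub (hwS.pow_const 2)).pow_const
      2).aestronglyMeasurable) 1 (Eventually.of_forall fun y => ?_)
    rw [Real.norm_of_nonneg (by positivity)]
    exact pow_le_one₀ (hb y).1 (hb y).2
  have iE : Integrable (fun y : S1 (m + 3) => ε / 2 * ‖G (y : En (m + 3))‖ ^ 2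
      + (1 - w (y : En (m + 3)) ^ 2) ^ 2 / (2 * ε)) (muS (m + 3)) :=
    (iG.const_mul _).add (iP.div_const _)
  -- energy dominates the total variation of `Ph w`
  have step1 : ∫ y : S1 (m + 3), ‖gT (fun x => (1 - w x ^ 2) • G x) (y : En (m + 3))‖
      ∂(muS (m + 3)) ≤ Q := by
    refine le_trans (integral_mono (integrable_gT hwPh) iE fun y => ?_) hQ
    show ‖gT (fun x => (1 - w x ^ 2) • G x) (y : En (m + 3))‖ ≤ ε / 2 *
      ‖G (y : En (m + 3))‖ ^ 2 + (1 - w (y : En (m + 3)) ^ 2) ^ 2 / (2 * ε)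
    rw [gT_smul (fun x => 1 - w x ^ 2), norm_smul, Real.norm_of_nonneg (hb y).1]
    have h1 := norm_gT_le G (y := (y : En (m + 3))) (by simp)
    have h2 := (hb y).1
    set a := ‖G (y : En (m + 3))‖
    set b := 1 - w (y : En (m + 3)) ^ 2
    have h3 : b * ‖gT G (y : En (m + 3))‖ ≤ b * a := mul_le_mul_of_nonneg_left h1 h2
    have h4 : ε / 2 * a ^ 2 + b ^ 2 / (2 * ε) - b * a = (ε * a - b) ^ 2 / (2 * ε) := by
      field_simp; ring
    have h5 : 0 ≤ (ε * a - b) ^ 2 / (2 * ε) := by positivity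
    linarith
  have hQ0 : 0 ≤ Q := le_trans (integral_nonneg fun y => norm_nonneg _) step1
  -- potential
  have hpot : ∫ y : S1 (m + 3), (1 - w (y : En (m + 3)) ^ 2) ^ 2 ∂(muS (m + 3)) ≤ 2 * ε * Q := by
    have h1 : ∫ y : S1 (m + 3), (1 - w (y : En (m + 3)) ^ 2) ^ 2 / (2 * ε) ∂(muS (m + 3))
        ≤ Q := by
      refine le_trans (integral_mono (iP.div_const _) iE fun y => ?_) hQ
      have : 0 ≤ ε / 2 * ‖G (y : En (m + 3))‖ ^ 2 := by positivity
      show (1 - w (y : En (m + 3)) ^ 2) ^ 2 / (2 * ε) ≤ ε / 2 *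
        ‖G (y : En (m + 3))‖ ^ 2 + (1 - w (y : En (m + 3)) ^ 2) ^ 2 / (2 * ε)
      linarith
    rw [integral_div, div_le_iff₀ (by positivity)] at h1
    linarith
  have i1 : Integrable (fun y : S1 (m + 3) => 1 - w (y : En (m + 3)) ^ 2) (muS (m + 3)) := by
    refine Integrable.of_bound ((measurable_const.sub (hwS.pow_const 2)).aestronglyMeasurable) 1
      (Eventually.of_forall fun y => ?_)
    rw [Real.norm_of_nonneg (hb y).1]
    exact (hb y).2
  -- Cauchy-Schwarz
  have hCS : ∫ y : S1 (m + 3), (1 - w (y : En (m + 3)) ^ 2) ∂(muS (m + 3))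
      ≤ S * Real.sqrt (2 * ε * Q / S) := by
    set T := Real.sqrt (2 * ε * Q / S) with hT
    have hT0 : 0 ≤ T := Real.sqrt_nonneg _
    have hT2 : T ^ 2 = 2 * ε * Q / S := Real.sq_sqrt (by positivity)
    set D := ∫ y : S1 (m + 3), (1 - w (y : En (m + 3)) ^ 2) ∂(muS (m + 3)) with hD
    have hD0 : 0 ≤ D := integral_nonneg fun y => (hb y).1
    -- `0 ≤ ∫ (b - D/S)^2`
    have h1 : 0 ≤ ∫ y : S1 (m + 3), ((1 - w (y : En (m + 3)) ^ 2) - D / S) ^ 2
        ∂(muS (m + 3)) := integral_nonneg fun y => sq_nonneg _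
    have h2 : ∫ y : S1 (m + 3), ((1 - w (y : En (m + 3)) ^ 2) - D / S) ^ 2 ∂(muS (m + 3))
        = (∫ y : S1 (m + 3), (1 - w (y : En (m + 3)) ^ 2) ^ 2 ∂(muS (m + 3))) - D ^ 2 / S := by
      have h3 : ∀ y : S1 (m + 3), ((1 - w (y : En (m + 3)) ^ 2) - D / S) ^ 2
          = (1 - w (y : En (m + 3)) ^ 2) ^ 2 + (-(2 * D / S)) * (1 - w (y : En (m + 3)) ^ 2)
            + (D / S) ^ 2 := fun y => by ring
      simp only [h3]
      have j1 : Integrable (fun y : S1 (m + 3) => -(2 * D / S) * (1 - w (y : En (m + 3)) ^ 2))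
          (muS (m + 3)) := i1.const_mul _
      have j2 : Integrable (fun y : S1 (m + 3) => (1 - w (y : En (m + 3)) ^ 2) ^ 2
          + -(2 * D / S) * (1 - w (y : En (m + 3)) ^ 2)) (muS (m + 3)) := iP.add j1
      rw [integral_add j2 (integrable_const _), integral_add iP j1, integral_const_mul,
        integral_const, ← hD, smul_eq_mul, ← hSd]
      field_simp
      ring
    rw [h2] at h1
    have h4 : D ^ 2 ≤ S * (2 * ε * Q) := by
      have : D ^ 2 / S ≤ 2 * ε * Q := by linarith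
      rw [div_le_iff₀ hS] at this
      linarith
    have h5 : D ^ 2 ≤ (S * T) ^ 2 := by
      rw [mul_pow, hT2]
      have : S ^ 2 * (2 * ε * Q / S) = S * (2 * ε * Q) := by field_simp
      linarith
    exact (pow_le_pow_iff_left₀ hD0 (by positivity) two_ne_zero).1 h5
  -- lower bound of the mass of `Ph w`
  have iw2 : Integrable (fun y : S1 (m + 3) => w (y : En (m + 3)) ^ 2) (muS (m + 3)) := by
    refine Integrable.of_bound ((hwS.pow_const 2).aestronglyMeasurable) 1
      (Eventually.of_forall fun y => ?_)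
    rw [Real.norm_of_nonneg (sq_nonneg _)]
    linarith [(hb y).1]
  have hmass : 2 / 3 * (S - S * Real.sqrt (2 * ε * Q / S))
      ≤ ∫ y : S1 (m + 3), |Ph (w (y : En (m + 3)))| ∂(muS (m + 3)) := by
    have h1 : ∫ y : S1 (m + 3), 2 / 3 * w (y : En (m + 3)) ^ 2 ∂(muS (m + 3))
        ≤ ∫ y : S1 (m + 3), |Ph (w (y : En (m + 3)))| ∂(muS (m + 3)) := by
      refine integral_mono (iw2.const_mul _) ?_ fun y => Ph_abs_ge (hw1 _ y.2)
      exact (integrable_w hwPh).abs
    rw [integral_const_mul] at h1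
    have h2 : ∫ y : S1 (m + 3), (1 - w (y : En (m + 3)) ^ 2) ∂(muS (m + 3))
        = S - ∫ y : S1 (m + 3), w (y : En (m + 3)) ^ 2 ∂(muS (m + 3)) := by
      rw [integral_sub (integrable_const _) iw2, integral_const, smul_eq_mul, mul_one]
    rw [h2] at hCS
    linarith
  have h7 : 2 * κ * S0 * (2 / 3 * (S - S * Real.sqrt (2 * ε * Q / S))) ≤ S * (Q + 2 * κ * η) := by
    refine le_trans (mul_le_mul_of_nonneg_left hmass (by positivity)) (key.trans ?_)
    refine mul_le_mul_of_nonneg_left ?_ hS.le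
    linarith
  have h8 : 2 * κ * S0 * (2 / 3 * (S - S * Real.sqrt (2 * ε * Q / S)))
      = S * (4 / 3 * κ * S0 * (1 - Real.sqrt (2 * ε * Q / S))) := by ring
  rw [h8] at h7
  exact le_of_mul_le_mul_left h7 hS

end ac

/-- `C^1` functions off the origin are Lipschitz on the sphere -/
theorem SLip.of_contDiffOn {n : ℕ} {w : En n → ℝ} (hw : ContDiffOn ℝ 1 w {0}ᶜ) :
    SLip w (gradient w) where
  lip := by
    have hloc : LocallyLipschitzOn (sphere (0 : En n) 1) w := by
      intro x hx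
      have hx0 : x ≠ 0 := by
        rintro rfl
        simp at hx
      have h1 : ContDiffAt ℝ 1 w x := hw.contDiffAt (isOpen_compl_singleton.mem_nhds hx0)
      obtain ⟨K, t, ht, hK⟩ := h1.exists_lipschitzOnWith
      exact ⟨K, t, mem_nhdsWithin_of_mem_nhds ht, hK⟩
    exact hloc.exists_lipschitzOnWith_of_compact (isCompact_sphere _ _)
  meas := by
    have h1 : Measurable (fderiv ℝ w) := measurable_fderiv ℝ w
    exact ((InnerProductSpace.toDual ℝ (En n)).symm.continuous.measurable).comp h1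
  bdd := by
    have hc : ContinuousOn (fun x => ‖fderiv ℝ w x‖) (sphere (0 : En n) 1) := by
      have h2 : ContinuousOn (fderiv ℝ w) ({0}ᶜ : Set (En n)) :=
        hw.continuousOn_fderiv_of_isOpen isOpen_compl_singleton le_rfl
      refine (h2.mono ?_).norm
      intro x hx
      rintro rfl
      simp at hx
    obtain ⟨L, hL⟩ := (isCompact_sphere (0 : En n) 1).exists_bound_of_continuousOn hc
    refine ⟨L, Eventually.of_forall fun y => ?_⟩
    have h3 := hL y y.2
    rw [norm_norm] at h3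
    have h4 : ‖gradient w (y : En n)‖ = ‖fderiv ℝ w (y : En n)‖ := by
      unfold gradient
      rw [LinearIsometryEquiv.norm_map]
    rw [h4]; exact h3
  der := by
    refine Eventually.of_forall fun y => ?_
    have hy0 : (y : En n) ≠ 0 := by
      intro h
      have := y.2
      rw [h] at this
      simp at this
    have h1 : DifferentiableAt ℝ w (y : En n) :=
      (hw.contDiffAt (isOpen_compl_singleton.mem_nhds hy0)).differentiableAt one_ne_zero
    have h2 := h1.hasGradientAt.hasFDerivAt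
    exact h2.hasFDerivWithinAt

theorem norm_gradient {n : ℕ} (w : En n → ℝ) (x : En n) : ‖gradient w x‖ = ‖fderiv ℝ w x‖ := by
  unfold gradient
  rw [LinearIsometryEquiv.norm_map]

theorem measurable_of_contDiffOn {n : ℕ} {w : En n → ℝ} (hw : ContDiffOn ℝ 1 w {0}ᶜ) :
    Measurable w := measurable_of_continuousOn_compl_singleton 0 hw.continuousOn

end Crest.Agent.R246.C378
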