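import Crest.Agent.R246.Fam_348
import Mathlib.MeasureTheory.Constructions.HaarToSphere
import Mathlib.MeasureTheory.Integral.DominatedConvergence
import Mathlib.MeasureTheory.Measure.Haar.InnerProductSpace
import Mathlib.Analysis.Calculus.ContDiff.Basic

/-!
# Energy of the members of the odd family
-/

set_option autoImplicit false
set_option linter.unusedSectionVars false
set_option linter.unusedSimpArgs false
noncomputable section
open MeasureTheory Set Filter Topology Metric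
open scoped RealInnerProductSpace ContDiff

namespace Crest.Agent.R246.Fam348

variable {E : Type*} [NormedAddCommGroup E] [InnerProductSpace ℝ E] [FiniteDimensional ℝ E]
  [MeasurableSpace E] [BorelSpace E]

/-- Allen-Cahn energy of (the restriction to the unit sphere of) a `0`-homogeneous function. -/
def AcE (ε : ℝ) (w : E → ℝ) : ℝ :=
  ∫ y : sphere (0 : E) 1, (ε / 2 * ‖fderiv ℝ w y‖ ^ 2 + (1 - w y ^ 2) ^ 2 / (2 * ε))
    ∂(volume : Measure E).toSphere

/-- The profile energy. -/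
def PrE (ε θ : ℝ) (φ : E → ℝ) : ℝ :=
  ∫ y : sphere (0 : E) 1, (1 / ε) * (1 - Real.tanh ((Real.arcsin (φ y) - θ) / ε) ^ 2) ^ 2
    ∂(volume : Measure E).toSphere

/-- `w` is an admissible smooth function: `0`-homogeneous, smooth off the origin, `|w| ≤ 1`. -/
structure Adm (w : E → ℝ) : Prop where
  hom : ∀ t : ℝ, 0 < t → ∀ x, w (t • x) = w x
  smooth : ContDiffOn ℝ ∞ w {0}ᶜ
  bd : ∀ x, |w x| ≤ 1

/-- Statement of the mollification lemma (x1) at one `ε, θ, φ`. -/
def MollSt (ε θ : ℝ) (φ : E → ℝ) : Prop :=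
  ∀ δ > 0, ∃ w : E → ℝ, Adm w ∧
    (∀ y, ‖y‖ = 1 → |w y - Real.tanh ((Real.arcsin (φ y) - θ) / ε)| ≤ δ) ∧
    AcE ε w ≤ PrE ε θ φ + δ

lemma AcE_neg (ε : ℝ) (w : E → ℝ) : AcE ε (fun x => - w x) = AcE ε w := by
  unfold AcE
  congr 1
  funext y
  have : fderiv ℝ (fun x => - w x) (y : E) = - fderiv ℝ w y := fderiv_fun_neg
  rw [this, norm_neg, neg_sq]

lemma AcE_const {ε c : ℝ} (hc : c ^ 2 = 1) : AcE ε (fun _ : E => c) = 0 := by
  unfold AcE
  simp [hc]

lemma Adm.neg {w : E → ℝ} (h : Adm w) : Adm fun x => - w x :=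
  ⟨fun t ht x => by rw [h.hom t ht x], h.smooth.neg, fun x => by rw [abs_neg]; exact h.bd x⟩

lemma Adm.const {c : ℝ} (hc : |c| ≤ 1) : Adm fun _ : E => c :=
  ⟨fun _ _ _ => rfl, contDiffOn_const, fun _ => hc⟩

/-- Continuity of the profile energy in the parameter. -/
lemma continuous_PrE {ε θ : ℝ} {Φ : E → E → ℝ}
    (hc : ContinuousOn (fun p : E × E => Φ p.1 p.2) (closedBall 0 1 ×ˢ sphere 0 1)) :
    Continuous fun z : closedBall (0 : E) 1 => PrE ε θ (Φ z) := by
  unfold PrE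
  have hcont : Continuous fun p : closedBall (0 : E) 1 × sphere (0 : E) 1 =>
      (1 / ε) * (1 - Real.tanh ((Real.arcsin (Φ p.1 p.2) - θ) / ε) ^ 2) ^ 2 := by
    have h1 : Continuous fun p : closedBall (0 : E) 1 × sphere (0 : E) 1 => Φ p.1 p.2 :=
      hc.comp_continuous ((continuous_subtype_val.comp continuous_fst).prodMk
        (continuous_subtype_val.comp continuous_snd)) fun p => ⟨p.1.2, p.2.2⟩
    have h2 := continuous_tanh'.comp (((Real.continuous_arcsin.comp h1).sub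
      (continuous_const (y := θ))).div_const ε)
    exact continuous_const.mul ((continuous_const.sub (h2.pow 2)).pow 2)
  refine continuous_of_dominated (bound := fun _ => |1 / ε|) ?_ ?_ ?_ ?_
  · intro z
    have h5 : Continuous fun y : sphere (0 : E) 1 => (z, y) := Continuous.prodMk_right z
    have h6 := hcont.comp h5
    simp only [Function.comp_def] at h6
    exact h6.aestronglyMeasurable
  · intro z
    refine Filter.Eventually.of_forall fun y => ?_
    rw [Real.norm_eq_abs, abs_mul]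
    have h1 : |Real.tanh ((Real.arcsin (Φ z y) - θ) / ε)| < 1 := tanh_lt_one _
    have h2 : Real.tanh ((Real.arcsin (Φ z y) - θ) / ε) ^ 2 ≤ 1 := by
      rw [sq_le_one_iff_abs_le_one]; exact h1.le
    have h3 : 0 ≤ Real.tanh ((Real.arcsin (Φ z y) - θ) / ε) ^ 2 := sq_nonneg _
    have h4 : |(1 - Real.tanh ((Real.arcsin (Φ z y) - θ) / ε) ^ 2) ^ 2| ≤ 1 := by
      rw [abs_of_nonneg (sq_nonneg _)]
      nlinarith
    calc |1 / ε| * |(1 - Real.tanh ((Real.arcsin (Φ z y) - θ) / ε) ^ 2) ^ 2| ≤ |1 / ε| * 1 :=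
          mul_le_mul_of_nonneg_left h4 (abs_nonneg _)
      _ = |1 / ε| := mul_one _
  · exact integrable_const _
  · refine Filter.Eventually.of_forall fun y => ?_
    have h5 : Continuous fun z : closedBall (0 : E) 1 => (z, y) := Continuous.prodMk_left y
    have h6 := hcont.comp h5
    simp only [Function.comp_def] at h6
    exact h6

/-- An upper bound for `‖z‖ < 1` extends to `‖z‖ ≤ 1`. -/
lemma PrE_le_of_ball {ε θ A : ℝ} {Φ : E → E → ℝ}
    (hc : ContinuousOn (fun p : E × E => Φ p.1 p.2) (closedBall 0 1 ×ˢ sphere 0 1))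
    (hA : ∀ z : E, ‖z‖ < 1 → PrE ε θ (Φ z) ≤ A) (z : E) (hz : ‖z‖ ≤ 1) :
    PrE ε θ (Φ z) ≤ A := by
  have hcP := continuous_PrE (ε := ε) (θ := θ) hc
  -- approximate by `(1 - 1/(n+2)) z`
  have hz' : z ∈ closedBall (0 : E) 1 := by simpa using hz
  let s : ℕ → ℝ := fun n => 1 - 1 / ((n : ℝ) + 2)
  have hs0 : ∀ n, 0 ≤ s n := by
    intro n
    have : 1 / ((n : ℝ) + 2) ≤ 1 := by
      rw [div_le_one (by positivity)]
      have : (0:ℝ) ≤ n := Nat.cast_nonneg n
      linarith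
    simp only [s]; linarith
  have hs1 : ∀ n, s n < 1 := by
    intro n
    have : 0 < 1 / ((n : ℝ) + 2) := by positivity
    simp only [s]; linarith
  have hn : ∀ n, ‖s n • z‖ < 1 := by
    intro n
    rw [norm_smul, Real.norm_eq_abs, abs_of_nonneg (hs0 n)]
    calc s n * ‖z‖ ≤ s n * 1 := mul_le_mul_of_nonneg_left hz (hs0 n)
      _ < 1 := by rw [mul_one]; exact hs1 n
  have hlim : Tendsto s atTop (𝓝 1) := by
    have h1 : Tendsto (fun n : ℕ => 1 / ((n : ℝ) + 2)) atTop (𝓝 0) := by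
      have := tendsto_one_div_add_atTop_nhds_zero_nat (𝕜 := ℝ)
      have h2 := (tendsto_add_atTop_iff_nat 1).2 this
      refine h2.congr fun n => ?_
      push_cast; ring
    simpa [s] using tendsto_const_nhds.sub h1
  let zz : ℕ → closedBall (0 : E) 1 := fun n => ⟨s n • z, by simpa using (hn n).le⟩
  have hzz : Tendsto zz atTop (𝓝 ⟨z, hz'⟩) := by
    rw [tendsto_subtype_rng]
    have := hlim.smul_const z
    simpa using this
  have hlim2 := (hcP.tendsto ⟨z, hz'⟩).comp hzz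
  exact le_of_tendsto' hlim2 fun n => hA _ (hn n)

/-- Full statement for the family: odd, bounded by one, and every member can be approximated
by admissible smooth functions with energy at most `A + δ`. -/
theorem exists_family_energy {Φ : E → E → ℝ} {ε A : ℝ} (hε : 0 < ε) (hA0 : 0 ≤ A)
    (hc : ContinuousOn (fun p : E × E => Φ p.1 p.2) (closedBall 0 1 ×ˢ sphere 0 1))
    (hodd : ∀ a y : E, ‖a‖ = 1 → ‖y‖ = 1 → Φ (-a) y = - Φ a y)
    (hA : ∀ z : E, ‖z‖ < 1 → ∀ θ, PrE ε θ (Φ z) ≤ A)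
    (hm : ∀ z : E, ‖z‖ ≤ 1 → ∀ θ, MollSt ε θ (Φ z)) :
    ∃ U : C(sphere (0 : E × ℝ × ℝ) 1, C(sphere (0 : E) 1, ℝ)),
      (∀ p, U (-p) = - U p) ∧ (∀ p x, |U p x| ≤ 1) ∧
      ∀ p, ∀ δ > 0, ∃ w : E → ℝ, Adm w ∧ (∀ y : sphere (0 : E) 1, |w y - U p y| ≤ δ) ∧
        AcE ε w ≤ A + δ := by
  obtain ⟨U, h1, h2, h3⟩ := exists_family (Φ := Φ) hε hc hodd
  refine ⟨U, h1, h2, fun p δ hδ => ?_⟩
  rcases h3 p with h | h | ⟨z, θ, hz, h⟩ | ⟨z, θ, hz, h⟩
  · refine ⟨fun _ => 1, Adm.const (by simp), fun y => ?_, ?_⟩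
    · rw [h y]; simpa using hδ.le
    · rw [AcE_const (by norm_num)]; linarith
  · refine ⟨fun _ => -1, Adm.const (by simp), fun y => ?_, ?_⟩
    · rw [h y]; simpa using hδ.le
    · rw [AcE_const (by norm_num)]; linarith
  · obtain ⟨w, w1, w2, w3⟩ := hm z hz θ δ hδ
    refine ⟨w, w1, fun y => ?_, ?_⟩
    · rw [h y]; exact w2 y (by simp)
    · have := PrE_le_of_ball (θ := θ) hc (fun z hz => hA z hz θ) z hz
      linarith
  · obtain ⟨w, w1, w2, w3⟩ := hm z hz θ δ hδ
    refine ⟨fun x => - w x, w1.neg, fun y => ?_, ?_⟩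
    · rw [h y]
      have := w2 y (by simp)
      rw [show - w y - - Real.tanh ((Real.arcsin (Φ z y) - θ) / ε) =
        -(w y - Real.tanh ((Real.arcsin (Φ z y) - θ) / ε)) by ring, abs_neg]
      exact this
    · rw [AcE_neg]
      have := PrE_le_of_ball (θ := θ) hc (fun z hz => hA z hz θ) z hz
      linarith

end Crest.Agent.R246.Fam348
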