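import Mathlib.Analysis.SpecialFunctions.Gamma.BohrMollerup
import Mathlib.Analysis.Convex.SpecificFunctions.Deriv
import Mathlib.Analysis.SpecialFunctions.Log.NegMulLog
import Mathlib.MeasureTheory.Constructions.HaarToSphere
import Mathlib.MeasureTheory.Measure.Lebesgue.VolumeOfBalls
import Crest.Prelude.Def_SphereImmersion

/-!
# Module K of R246: numerics of the Clifford constants (helper688)

`Theta m = min_{1 ≤ k < m} cliffordVolume m k / unitSphereArea m`.
-/

set_option autoImplicit false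

open Real Set Filter Topology MeasureTheory
open Crest.GeometryTopology.SphereImmersion

namespace Crest.Agent.R246.ThetaK688

/-! ### concavity of an auxiliary function -/

/-- `P t = -log (t+1) + (t+2)/2 log (t+2) - t/2 log t` -/
noncomputable def PP (t : ℝ) : ℝ := -log (t + 1) + (t + 2) / 2 * log (t + 2) - t / 2 * log t

theorem hasDerivAt_PP {t : ℝ} (ht : 0 < t) :
    HasDerivAt PP (-1 / (t + 1) + (log (t + 2) - log t) / 2) t := by
  have h1 : HasDerivAt (fun t : ℝ => log (t + 1)) (1 / (t + 1)) t :=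
    ((hasDerivAt_id t).add_const 1).log (by simp; linarith)
  have h2 : HasDerivAt (fun t : ℝ => log (t + 2)) (1 / (t + 2)) t :=
    ((hasDerivAt_id t).add_const 2).log (by simp; linarith)
  have h3 : HasDerivAt (fun t : ℝ => log t) (1 / t) t :=
    (hasDerivAt_id t).log (by simpa using ht.ne')
  have h4 : HasDerivAt (fun t : ℝ => (t + 2) / 2) (1 / 2) t :=
    ((hasDerivAt_id t).add_const 2).div_const 2
  have h5 : HasDerivAt (fun t : ℝ => t / 2) (1 / 2) t := (hasDerivAt_id t).div_const 2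
  have h := (h1.neg.add (h4.mul h2)).sub (h5.mul h3)
  refine (h.congr_deriv ?_).congr_of_eventuallyEq ?_
  · field_simp
    ring
  · exact Filter.Eventually.of_forall fun x => by simp [PP]

theorem concaveOn_PP : ConcaveOn ℝ (Ioi 0) PP := by
  refine AntitoneOn.concaveOn_of_deriv (convex_Ioi 0) ?_ ?_ ?_
  · exact fun t ht => (hasDerivAt_PP ht).continuousAt.continuousWithinAt
  · rw [interior_Ioi]
    exact fun t ht => (hasDerivAt_PP ht).differentiableAt.differentiableWithinAt
  · rw [interior_Ioi]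
    have hd : ∀ t ∈ Ioi (0 : ℝ), deriv PP t = -1 / (t + 1) + (log (t + 2) - log t) / 2 :=
      fun t ht => (hasDerivAt_PP ht).deriv
    have hA : AntitoneOn (fun t : ℝ => -1 / (t + 1) + (log (t + 2) - log t) / 2) (Ioi 0) := by
      have hder : ∀ t ∈ Ioi (0 : ℝ), HasDerivAt
          (fun t : ℝ => -1 / (t + 1) + (log (t + 2) - log t) / 2)
          (1 / (t + 1) ^ 2 + (1 / (t + 2) - 1 / t) / 2) t := by
        intro t ht
        have ht' : (0 : ℝ) < t := ht
        have h1 : HasDerivAt (fun t : ℝ => -1 / (t + 1)) (1 / (t + 1) ^ 2) t := by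
          have := ((hasDerivAt_const t (-1 : ℝ)).div ((hasDerivAt_id t).add_const 1)
            (by simp; linarith))
          refine this.congr_deriv ?_
          simp
        have h2 : HasDerivAt (fun t : ℝ => log (t + 2)) (1 / (t + 2)) t :=
          ((hasDerivAt_id t).add_const 2).log (by simp; linarith)
        have h3 : HasDerivAt (fun t : ℝ => log t) (1 / t) t :=
          (hasDerivAt_id t).log (by simpa using ht'.ne')
        exact h1.add ((h2.sub h3).div_const 2)
      refine antitoneOn_of_deriv_nonpos (convex_Ioi 0) ?_ ?_ ?_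
      · exact fun t ht => (hder t ht).continuousAt.continuousWithinAt
      · rw [interior_Ioi]
        exact fun t ht => (hder t ht).differentiableAt.differentiableWithinAt
      · rw [interior_Ioi]
        intro t ht
        rw [(hder t ht).deriv]
        have ht' : (0 : ℝ) < t := ht
        rw [show (1 : ℝ) / (t + 1) ^ 2 + (1 / (t + 2) - 1 / t) / 2 =
          - (1 / ((t + 1) ^ 2 * (t * (t + 2)))) by field_simp; ring]
        have : (0 : ℝ) < (t + 1) ^ 2 * (t * (t + 2)) := by positivity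
        have := one_div_pos.2 this
        linarith
    intro x hx y hy hxy
    rw [hd x hx, hd y hy]
    exact hA hx hy hxy

/-! ### the sequence `log a_j` -/

/-- `a_j = |S^j| j^(j/2)` -/
noncomputable def aa (j : ℕ) : ℝ := unitSphereArea j * (j : ℝ) ^ ((j : ℝ) / 2)

theorem unitSphereArea_pos (j : ℕ) : 0 < unitSphereArea j := by
  unfold unitSphereArea
  have := Real.Gamma_pos_of_pos (show (0 : ℝ) < ((j : ℝ) + 1) / 2 by positivity)
  positivity

theorem aa_pos {j : ℕ} (hj : 1 ≤ j) : 0 < aa j := by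
  have := unitSphereArea_pos j
  have hj' : (0 : ℝ) < j := by exact_mod_cast hj
  unfold aa
  positivity

theorem log_aa {j : ℕ} (hj : 1 ≤ j) :
    log (aa j) = log 2 + ((j : ℝ) + 1) / 2 * log π - log (Gamma (((j : ℝ) + 1) / 2)) +
      (j : ℝ) / 2 * log j := by
  have hj' : (0 : ℝ) < j := by exact_mod_cast hj
  have hG := Real.Gamma_pos_of_pos (show (0 : ℝ) < ((j : ℝ) + 1) / 2 by positivity)
  unfold aa unitSphereArea
  rw [log_mul (by positivity) (by positivity), log_div (by positivity) hG.ne',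
    log_mul (by norm_num) (by positivity), log_rpow pi_pos, log_rpow hj']

/-- second difference -/
noncomputable def DD (j : ℕ) : ℝ := log (aa (j + 2)) - 2 * log (aa (j + 1)) + log (aa j)

theorem two_step {j : ℕ} (hj : 1 ≤ j) :
    log (aa (j + 2)) - log (aa j) = log π + log 2 + PP j := by
  have hj' : (0 : ℝ) < j := by exact_mod_cast hj
  have hG := Real.Gamma_pos_of_pos (show (0 : ℝ) < ((j : ℝ) + 1) / 2 by positivity)
  rw [log_aa (by omega), log_aa hj]
  push_cast
  rw [show ((j : ℝ) + 2 + 1) / 2 = ((j : ℝ) + 1) / 2 + 1 by ring,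
    Real.Gamma_add_one (by positivity), log_mul (by positivity) hG.ne',
    log_div (by positivity) (by norm_num)]
  unfold PP
  ring

theorem DD_antitone {j : ℕ} (hj : 1 ≤ j) : DD (j + 2) ≤ DD j := by
  have hj' : (0 : ℝ) < j := by exact_mod_cast hj
  have h0 := two_step hj
  have h1 := two_step (j := j + 1) (by omega)
  have h2 := two_step (j := j + 2) (by omega)
  have hc := concaveOn_PP.2 (show (j : ℝ) ∈ Ioi (0 : ℝ) from hj')
    (show ((j : ℝ) + 2) ∈ Ioi (0 : ℝ) from by simp only [mem_Ioi]; positivity)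
    (show (0 : ℝ) ≤ 1 / 2 by norm_num) (show (0 : ℝ) ≤ 1 / 2 by norm_num) (by norm_num)
  simp only [smul_eq_mul] at hc
  rw [show (1 : ℝ) / 2 * j + 1 / 2 * (j + 2) = j + 1 by ring] at hc
  push_cast at h0 h1 h2
  simp only [DD]
  have e1 : j + 2 + 2 = j + 4 := rfl
  have e2 : j + 2 + 1 = j + 3 := rfl
  have e3 : j + 1 + 2 = j + 3 := rfl
  rw [e1, e2]
  rw [e1] at h2
  rw [e3] at h1
  linarith

theorem DD_lower {j : ℕ} (hj : 1 ≤ j) : log ((j : ℝ) / (j + 1)) ≤ DD j := by
  have hj' : (0 : ℝ) < j := by exact_mod_cast hj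
  have hG0 := Real.Gamma_pos_of_pos (show (0 : ℝ) < (j : ℝ) / 2 by positivity)
  -- convexity of log Gamma
  have hc := convexOn_log_Gamma.2 (show (j : ℝ) / 2 ∈ Ioi (0 : ℝ) by simp only [mem_Ioi]; positivity)
    (show ((j : ℝ) + 2) / 2 ∈ Ioi (0 : ℝ) by simp only [mem_Ioi]; positivity)
    (show (0 : ℝ) ≤ 1 / 2 by norm_num) (show (0 : ℝ) ≤ 1 / 2 by norm_num) (by norm_num)
  simp only [smul_eq_mul, Function.comp] at hc
  rw [show (1 : ℝ) / 2 * (j / 2) + 1 / 2 * ((j + 2) / 2) = (j + 1) / 2 by ring] at hc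
  have hg : log (Gamma (((j : ℝ) + 2) / 2)) = log ((j : ℝ) / 2) + log (Gamma ((j : ℝ) / 2)) := by
    rw [show ((j : ℝ) + 2) / 2 = (j : ℝ) / 2 + 1 by ring, Real.Gamma_add_one (by positivity),
      log_mul (by positivity) hG0.ne']
  -- convexity of x log x
  have hx := Real.convexOn_mul_log.2 (show (j : ℝ) ∈ Ici (0 : ℝ) from hj'.le)
    (show ((j : ℝ) + 2) ∈ Ici (0 : ℝ) by simp only [mem_Ici]; positivity)
    (show (0 : ℝ) ≤ 1 / 2 by norm_num) (show (0 : ℝ) ≤ 1 / 2 by norm_num) (by norm_num)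
  simp only [smul_eq_mul] at hx
  rw [show (1 : ℝ) / 2 * j + 1 / 2 * (j + 2) = j + 1 by ring] at hx
  have h0 := two_step hj
  have hL1 := log_aa (j := j + 1) (by omega)
  have hL0 := log_aa hj
  push_cast at h0 hL1
  rw [show ((j : ℝ) + 1 + 1) / 2 = ((j : ℝ) + 2) / 2 by ring] at hL1
  have e : DD j = (log (aa (j + 2)) - log (aa j)) - 2 * (log (aa (j + 1)) - log (aa j)) := by
    simp only [DD]; ring
  rw [e, h0, hL1, hL0, log_div hj'.ne' (by positivity)]
  unfold PP
  rw [log_div hj'.ne' (by norm_num)] at hg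
  nlinarith [hc, hg, hx]

theorem DD_nonneg {j : ℕ} (hj : 1 ≤ j) : 0 ≤ DD j := by
  have h1 : ∀ i : ℕ, DD (j + 2 * i) ≤ DD j := by
    intro i
    induction i with
    | zero => simp
    | succ i ih =>
      have := DD_antitone (j := j + 2 * i) (by omega)
      rw [show j + 2 * (i + 1) = j + 2 * i + 2 by ring]
      linarith
  have h2 : Tendsto (fun i : ℕ => log (((j + 2 * i : ℕ) : ℝ) / ((j + 2 * i : ℕ) + 1))) atTop
      (𝓝 0) := by
    have h3 : Tendsto (fun i : ℕ => ((i : ℕ) : ℝ) / ((i : ℕ) + 1)) atTop (𝓝 1) :=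
      tendsto_natCast_div_add_atTop (1 : ℝ)
    have h4 : Tendsto (fun i : ℕ => j + 2 * i) atTop atTop :=
      tendsto_atTop_mono (fun i => by show i ≤ j + 2 * i; omega) tendsto_id
    have h5 := (continuousAt_log (one_ne_zero)).tendsto.comp (h3.comp h4)
    rw [log_one] at h5
    exact h5
  refine le_of_tendsto' h2 fun i => ?_
  exact (DD_lower (by omega)).trans (h1 i)

/-- `a_j` is log-convex: the ratios `a_(j+1) / a_j` increase -/
theorem ratio_mono {i j : ℕ} (hi : 1 ≤ i) (hij : i ≤ j) :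
    log (aa (i + 1)) - log (aa i) ≤ log (aa (j + 1)) - log (aa j) := by
  induction j, hij using Nat.le_induction with
  | base => exact le_rfl
  | succ j hij ih =>
    have := DD_nonneg (j := j) (by omega)
    simp only [DD] at this
    rw [show j + 1 + 1 = j + 2 by ring]
    linarith

/-! ### the ratios `th k l` -/

/-- `th k l = a_k a_l / a_(k+l)` -/
noncomputable def th (k l : ℕ) : ℝ := aa k * aa l / aa (k + l)

theorem th_pos {k l : ℕ} (hk : 1 ≤ k) (hl : 1 ≤ l) : 0 < th k l := by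
  have h1 := aa_pos hk
  have h2 := aa_pos hl
  have h3 := aa_pos (j := k + l) (by omega)
  unfold th
  positivity

theorem th_comm (k l : ℕ) : th k l = th l k := by
  unfold th
  rw [mul_comm, add_comm]

theorem th_succ_le {k l : ℕ} (hk : 1 ≤ k) (hl : 1 ≤ l) : th k (l + 1) ≤ th k l := by
  have h1 := aa_pos hk
  have h2 := aa_pos hl
  have h3 := aa_pos (j := k + l) (by omega)
  have h4 := aa_pos (j := l + 1) (by omega)
  have h5 := aa_pos (j := k + (l + 1)) (by omega)
  have hr := ratio_mono hl (show l ≤ k + l by omega)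
  rw [← log_div h4.ne' h2.ne', ← log_div (aa_pos (by omega)).ne' h3.ne',
    log_le_log_iff (by positivity) (div_pos (aa_pos (by omega)) h3),
    div_le_div_iff₀ h2 h3] at hr
  unfold th
  rw [div_le_div_iff₀ h5 h3]
  have e : k + (l + 1) = k + l + 1 := by ring
  rw [e]
  nlinarith [mul_le_mul_of_nonneg_left hr h1.le]

theorem cliffordVolume_eq {m k : ℕ} (hk : 1 ≤ k) (hkm : k < m) :
    cliffordVolume m k = th k (m - k) * unitSphereArea m := by
  have hk' : (0 : ℝ) < k := by exact_mod_cast hk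
  have hm' : (0 : ℝ) < m := by exact_mod_cast (by omega : 0 < m)
  have hl' : (0 : ℝ) < ((m - k : ℕ) : ℝ) := by exact_mod_cast (by omega : 0 < m - k)
  have hml : ((m : ℝ) - k) = ((m - k : ℕ) : ℝ) := by
    rw [Nat.cast_sub hkm.le]
  have hsum : (k : ℝ) / 2 + ((m - k : ℕ) : ℝ) / 2 = (m : ℝ) / 2 := by
    rw [← hml]; ring
  have ha := unitSphereArea_pos m
  unfold cliffordVolume th aa
  rw [hml, show k + (m - k) = m by omega, Real.div_rpow hk'.le hm'.le,
    Real.div_rpow hl'.le hm'.le, ← hsum, Real.rpow_add hm']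
  have h1 : (0 : ℝ) < (m : ℝ) ^ ((k : ℝ) / 2) := by positivity
  have h2 : (0 : ℝ) < (m : ℝ) ^ (((m - k : ℕ) : ℝ) / 2) := by positivity
  field_simp

/-! ### `Theta` -/

/-- `Theta m = min_{1 ≤ k < m} cliffordVolume m k / |S^m|` (`m ≥ 2`), `Theta 1 = π / 2` -/
noncomputable def Theta (m : ℕ) : ℝ :=
  if h : 2 ≤ m then
    (Finset.Ico 1 m).inf' (Finset.nonempty_Ico.2 (by omega)) (fun k => th k (m - k))
  else π / 2

/-- `W_m` -/
noncomputable def WW (m : ℕ) : ℝ := Theta m * unitSphereArea m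

theorem th_one_one : th 1 1 = π / 2 := by
  unfold th aa unitSphereArea
  have hG1 : Gamma (((1 : ℕ) : ℝ) + 1) = 1 := by norm_num
  have hG32 : Gamma (3 / 2) = √π / 2 := by
    rw [show (3 : ℝ) / 2 = 1 / 2 + 1 by norm_num, Real.Gamma_add_one (by norm_num),
      Real.Gamma_one_half_eq]
    ring
  have hs : π ^ ((3 : ℝ) / 2) = π * √π := by
    rw [show (3 : ℝ) / 2 = 1 + 1 / 2 by norm_num, Real.rpow_add pi_pos, Real.rpow_one,
      Real.sqrt_eq_rpow]
  norm_num
  rw [hG32, hs]
  have : (0 : ℝ) < √π := Real.sqrt_pos.2 pi_pos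
  field_simp

theorem Theta_two : Theta 2 = π / 2 := by
  unfold Theta
  rw [dif_pos le_rfl]
  have : Finset.Ico 1 2 = {1} := rfl
  simp [this, th_one_one]

theorem Theta_one : Theta 1 = π / 2 := by
  unfold Theta
  rw [dif_neg (by norm_num)]

theorem Theta_le {m k : ℕ} (hk : 1 ≤ k) (hkm : k < m) : Theta m ≤ th k (m - k) := by
  unfold Theta
  rw [dif_pos (by omega)]
  exact Finset.inf'_le (fun k => th k (m - k)) (Finset.mem_Ico.2 ⟨hk, hkm⟩)

theorem exists_Theta_eq {m : ℕ} (hm : 2 ≤ m) :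
    ∃ k, 1 ≤ k ∧ k < m ∧ Theta m = th k (m - k) := by
  unfold Theta
  rw [dif_pos hm]
  obtain ⟨k, hk, hk'⟩ := Finset.exists_mem_eq_inf'
    (Finset.nonempty_Ico.2 (show 1 < m by omega)) (fun k => th k (m - k))
  exact ⟨k, (Finset.mem_Ico.1 hk).1, (Finset.mem_Ico.1 hk).2, hk'⟩

theorem Theta_succ_le {m : ℕ} (hm : 1 ≤ m) : Theta (m + 1) ≤ Theta m := by
  rcases Nat.lt_or_ge m 2 with h | h
  · have : m = 1 := by omega
    subst this
    rw [Theta_one, Theta_two]
  · obtain ⟨k, hk, hkm, he⟩ := exists_Theta_eq h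
    rw [he]
    refine (Theta_le (m := m + 1) hk (by omega)).trans ?_
    rw [show m + 1 - k = (m - k) + 1 by omega]
    exact th_succ_le hk (by omega)

theorem Theta_antitone {m n : ℕ} (hm : 1 ≤ m) (hmn : m ≤ n) : Theta n ≤ Theta m := by
  induction n, hmn using Nat.le_induction with
  | base => exact le_rfl
  | succ n hn ih => exact (Theta_succ_le (by omega)).trans ih

theorem Theta_le_pi_div_two {m : ℕ} (hm : 1 ≤ m) : Theta m ≤ π / 2 := by
  have := Theta_antitone le_rfl hm
  rwa [Theta_one] at this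

theorem Theta_lt_two {m : ℕ} (hm : 1 ≤ m) : Theta m < 2 := by
  have := Theta_le_pi_div_two hm
  linarith [pi_lt_four]

theorem Theta_pos {m : ℕ} (hm : 1 ≤ m) : 0 < Theta m := by
  rcases Nat.lt_or_ge m 2 with h | h
  · have : m = 1 := by omega
    subst this
    rw [Theta_one]; positivity
  · obtain ⟨k, hk, hkm, he⟩ := exists_Theta_eq h
    rw [he]
    exact th_pos hk (by omega)

theorem WW_le_cliffordVolume {m k : ℕ} (hk : 1 ≤ k) (hkm : k < m) : WW m ≤ cliffordVolume m k := by
  rw [cliffordVolume_eq hk hkm]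
  exact mul_le_mul_of_nonneg_right (Theta_le hk hkm) (unitSphereArea_pos m).le

theorem exists_WW_eq {m : ℕ} (hm : 2 ≤ m) : ∃ k, 1 ≤ k ∧ k < m ∧ cliffordVolume m k = WW m := by
  obtain ⟨k, hk, hkm, he⟩ := exists_Theta_eq hm
  exact ⟨k, hk, hkm, by rw [cliffordVolume_eq hk hkm, WW, he]⟩

theorem WW_one : WW 1 = π ^ 2 := by
  unfold WW unitSphereArea
  rw [Theta_one]
  norm_num
  ring

theorem WW_two : WW 2 = 2 * π ^ 2 := by
  unfold WW unitSphereArea
  rw [Theta_two]
  have hG32 : Gamma (3 / 2) = √π / 2 := by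
    rw [show (3 : ℝ) / 2 = 1 / 2 + 1 by norm_num, Real.Gamma_add_one (by norm_num),
      Real.Gamma_one_half_eq]
    ring
  have hs : π ^ ((3 : ℝ) / 2) = π * √π := by
    rw [show (3 : ℝ) / 2 = 1 + 1 / 2 by norm_num, Real.rpow_add pi_pos, Real.rpow_one,
      Real.sqrt_eq_rpow]
  norm_num
  rw [hG32, hs]
  have : (0 : ℝ) < √π := Real.sqrt_pos.2 pi_pos
  field_simp

/-! ### the area of the unit sphere -/

theorem toSphere_univ (n : ℕ) :
    (volume : Measure (EuclideanSpace ℝ (Fin (n + 1)))).toSphere univ =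
      ENNReal.ofReal (unitSphereArea n) := by
  rw [Measure.toSphere_apply_univ, EuclideanSpace.volume_ball]
  simp only [finrank_euclideanSpace, Fintype.card_fin, ENNReal.ofReal_one, one_pow, one_mul]
  rw [← ENNReal.ofReal_natCast, ← ENNReal.ofReal_mul (by positivity)]
  congr 1
  unfold unitSphereArea
  push_cast
  rw [Real.Gamma_add_one (by positivity), Real.sqrt_eq_rpow, ← Real.rpow_natCast,
    ← Real.rpow_mul pi_pos.le]
  push_cast
  rw [show (1 : ℝ) / 2 * (n + 1) = (n + 1) / 2 by ring]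
  have := Real.Gamma_pos_of_pos (show (0 : ℝ) < ((n : ℝ) + 1) / 2 by positivity)
  field_simp

end Crest.Agent.R246.ThetaK688
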