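import Crest.Agent.R246.C6_378
import Crest.Agent.R246.Fam2_348
import Crest.Agent.R246.ThetaK_688
import Crest.Agent.Lib.BorsukUlam

/-!
# Row 246, part C (helper378): Borsuk-Ulam and the lower bound for odd families
-/

set_option autoImplicit false

open MeasureTheory MeasureTheory.Measure Set Filter Topology Metric
open scoped ENNReal NNReal RealInnerProductSpace ContDiff
open Crest.Agent.R246.Fam348 (AcE Adm)
open Crest.GeometryTopology.SphereImmersion

noncomputable section

namespace Crest.Agent.R246.C378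

/-- **Borsuk-Ulam**: an odd continuous `(m+3)`-sphere of functions has a balanced member. -/
theorem exists_balanced {n : ℕ} {V : Type*} [NormedAddCommGroup V] [NormedSpace ℝ V]
    [FiniteDimensional ℝ V] (hV : n + 1 < Module.finrank ℝ V)
    (U : C(sphere (0 : V) 1, C(S1 n, ℝ))) (hodd : ∀ p, U (-p) = -U p)
    (hb : ∀ p x, |U p x| ≤ 1) :
    ∃ p, (∫ y : S1 n, Ph (U p y) ∂(muS n) = 0) ∧
      ∫ y : S1 n, Ph (U p y) • (y : En n) ∂(muS n) = 0 := by
  set F : sphere (0 : V) 1 → ℝ × En n := fun p =>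
    (∫ y : S1 n, Ph (U p y) ∂(muS n), ∫ y : S1 n, Ph (U p y) • (y : En n) ∂(muS n)) with hF
  have hcy : ∀ y : S1 n, Continuous fun p : sphere (0 : V) 1 => Ph (U p y) := by
    intro y
    have h1 : Continuous fun p : sphere (0 : V) 1 => U p y :=
      (continuous_eval_const y).comp U.continuous
    exact continuous_Ph.comp h1
  have hcp : ∀ p : sphere (0 : V) 1, Continuous fun y : S1 n => Ph (U p y) := fun p =>
    continuous_Ph.comp (U p).continuous
  have hFc : Continuous F := by
    refine Continuous.prodMk ?_ ?_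
    · refine continuous_of_dominated (bound := fun _ => 1)
        (fun p => (hcp p).aestronglyMeasurable)
        (fun p => Eventually.of_forall fun y => Ph_abs_le (hb p y)) (integrable_const _)
        (Eventually.of_forall hcy)
    · refine continuous_of_dominated (bound := fun _ => 1)
        (fun p => ((hcp p).smul continuous_subtype_val).aestronglyMeasurable)
        (fun p => Eventually.of_forall fun y => ?_) (integrable_const _)
        (Eventually.of_forall fun y => (hcy y).smul continuous_const)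
      rw [norm_smul]
      have h1 := Ph_abs_le (hb p y)
      simpa using h1
  have hFo : ∀ p, F (-p) = -F p := by
    intro p
    have h1 : ∀ y : S1 n, Ph (U (-p) y) = -Ph (U p y) := fun y => by
      rw [hodd]; exact Ph_neg _
    simp only [hF, h1, neg_smul, integral_neg]
    rfl
  have hfr : Module.finrank ℝ (ℝ × En n) < Module.finrank ℝ V := by
    rw [Module.finrank_prod, finrank_euclideanSpace_fin, Module.finrank_self]
    omega
  obtain ⟨p, hp⟩ := Crest.Agent.Lib.BorsukUlam.exists_zero_of_odd_sphere hfr F hFc hFo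
  exact ⟨p, congrArg Prod.fst hp, congrArg Prod.snd hp⟩

theorem muS_real (n : ℕ) : (muS (n + 1)).real univ = unitSphereArea n := by
  rw [measureReal_def]
  have h := Crest.Agent.R246.ThetaK688.toSphere_univ n
  rw [show (muS (n + 1)) univ = ENNReal.ofReal (unitSphereArea n) from h,
    ENNReal.toReal_ofReal (Crest.Agent.R246.ThetaK688.unitSphereArea_pos n).le]

/-- the lower bound for one admissible function with small unbalance -/
theorem adm_lower {m : ℕ} {w : En (m + 3) → ℝ} (hw : Adm w) {ε Q : ℝ} (hε : 0 < ε)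
    (hQ : AcE ε w ≤ Q) :
    4 / 3 * kapm (m + 1) * unitSphereArea (m + 1) *
        (1 - Real.sqrt (2 * ε * Q / unitSphereArea (m + 2)))
      ≤ Q + 2 * kapm (m + 1) * unb m (fun x => Ph (w x)) := by
  have h1 : ContDiffOn ℝ 1 w {0}ᶜ := hw.smooth.of_le (by exact_mod_cast le_top)
  have h2 := ac_lower (SLip.of_contDiffOn h1) (measurable_of_contDiffOn h1)
    (fun y _ => hw.bd y) hε (Q := Q) (by
      simp only [norm_gradient]
      exact hQ)
  rwa [muS_real, muS_real] at h2

/-- closeness controls the unbalance -/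
theorem unb_le {m : ℕ} {w : En (m + 3) → ℝ} {u : C(S1 (m + 3), ℝ)} {δ : ℝ}
    (hwc : Continuous fun y : S1 (m + 3) => w (y : En (m + 3)))
    (hw1 : ∀ y : S1 (m + 3), |w (y : En (m + 3))| ≤ 1)
    (hu1 : ∀ y, |u y| ≤ 1) (hd : ∀ y : S1 (m + 3), |w (y : En (m + 3)) - u y| ≤ δ)
    (h0 : ∫ y : S1 (m + 3), Ph (u y) ∂(muS (m + 3)) = 0)
    (h1 : ∫ y : S1 (m + 3), Ph (u y) • (y : En (m + 3)) ∂(muS (m + 3)) = 0) :
    unb m (fun x => Ph (w x))
      ≤ (1 / Am (m + 1) + (m + 2) / 2) * (unitSphereArea (m + 2) * δ) := by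
  have hA := Am_pos (m + 1)
  have hcw : Continuous fun y : S1 (m + 3) => Ph (w (y : En (m + 3))) := continuous_Ph.comp hwc
  have hcu : Continuous fun y : S1 (m + 3) => Ph (u y) := continuous_Ph.comp u.continuous
  have i1 : Integrable (fun y : S1 (m + 3) => Ph (w (y : En (m + 3)))) (muS (m + 3)) :=
    Integrable.of_bound hcw.aestronglyMeasurable 1 (Eventually.of_forall fun y =>
      Ph_abs_le (hw1 y))
  have i2 : Integrable (fun y : S1 (m + 3) => Ph (u y)) (muS (m + 3)) :=
    Integrable.of_bound hcu.aestronglyMeasurable 1 (Eventually.of_forall fun y =>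
      Ph_abs_le (hu1 y))
  have i3 : Integrable (fun y : S1 (m + 3) => Ph (w (y : En (m + 3))) • (y : En (m + 3)))
      (muS (m + 3)) := by
    refine Integrable.of_bound (hcw.smul continuous_subtype_val).aestronglyMeasurable 1
      (Eventually.of_forall fun y => ?_)
    rw [norm_smul]
    simpa using Ph_abs_le (hw1 y)
  have i4 : Integrable (fun y : S1 (m + 3) => Ph (u y) • (y : En (m + 3))) (muS (m + 3)) := by
    refine Integrable.of_bound (hcu.smul continuous_subtype_val).aestronglyMeasurable 1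
      (Eventually.of_forall fun y => ?_)
    rw [norm_smul]
    simpa using Ph_abs_le (hu1 y)
  have hpt : ∀ y : S1 (m + 3), |Ph (w (y : En (m + 3))) - Ph (u y)| ≤ δ := fun y =>
    (Ph_sub_le (hw1 y) (hu1 y)).trans (hd y)
  have e1 : |∫ y : S1 (m + 3), Ph (w (y : En (m + 3))) ∂(muS (m + 3))|
      ≤ unitSphereArea (m + 2) * δ := by
    have h2 : ∫ y : S1 (m + 3), Ph (w (y : En (m + 3))) ∂(muS (m + 3))
        = ∫ y : S1 (m + 3), (Ph (w (y : En (m + 3))) - Ph (u y)) ∂(muS (m + 3)) := by
      rw [integral_sub i1 i2, h0, sub_zero]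
    rw [h2, ← muS_real, mul_comm, ← Real.norm_eq_abs]
    refine norm_integral_le_of_norm_le_const (Eventually.of_forall fun y => ?_)
    exact hpt y
  have e2 : ‖∫ y : S1 (m + 3), Ph (w (y : En (m + 3))) • (y : En (m + 3)) ∂(muS (m + 3))‖
      ≤ unitSphereArea (m + 2) * δ := by
    have h2 : ∫ y : S1 (m + 3), Ph (w (y : En (m + 3))) • (y : En (m + 3)) ∂(muS (m + 3))
        = ∫ y : S1 (m + 3), (Ph (w (y : En (m + 3))) • (y : En (m + 3))
          - Ph (u y) • (y : En (m + 3))) ∂(muS (m + 3)) := by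
      rw [integral_sub i3 i4, h1, sub_zero]
    rw [h2, ← muS_real, mul_comm]
    refine norm_integral_le_of_norm_le_const (Eventually.of_forall fun y => ?_)
    rw [← sub_smul, norm_smul]
    simpa using hpt y
  unfold unb
  have e3 : |∫ y : S1 (m + 3), Ph (w (y : En (m + 3))) ∂(muS (m + 3))| / Am (m + 1)
      ≤ 1 / Am (m + 1) * (unitSphereArea (m + 2) * δ) := by
    rw [div_eq_mul_one_div, mul_comm]
    exact mul_le_mul_of_nonneg_left e1 (by positivity)
  have e4 : ((m : ℝ) + 2) / 2 * ‖∫ y : S1 (m + 3), Ph (w (y : En (m + 3))) • (y : En (m + 3))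
      ∂(muS (m + 3))‖ ≤ ((m : ℝ) + 2) / 2 * (unitSphereArea (m + 2) * δ) :=
    mul_le_mul_of_nonneg_left e2 (by positivity)
  rw [add_mul]
  exact add_le_add e3 e4

/-- **the min-max lower bound**: an odd family of functions on `S^{m+2}` whose members are
uniform limits of admissible functions of energy `≤ A` (up to `δ`) satisfies the kernel bound. -/
theorem fam_lower {m : ℕ} {V : Type*} [NormedAddCommGroup V] [NormedSpace ℝ V]
    [FiniteDimensional ℝ V] (hV : Module.finrank ℝ V = m + 5)
    (U : C(sphere (0 : V) 1, C(S1 (m + 3), ℝ))) (hodd : ∀ p, U (-p) = -U p)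
    (hb : ∀ p x, |U p x| ≤ 1) {ε A : ℝ} (hε : 0 < ε)
    (hA : ∀ p, ∀ δ > 0, ∃ w : En (m + 3) → ℝ, Adm w ∧ (∀ y : S1 (m + 3), |w y - U p y| ≤ δ) ∧
      AcE ε w ≤ A + δ) :
    4 / 3 * kapm (m + 1) * unitSphereArea (m + 1) *
      (1 - Real.sqrt (2 * ε * A / unitSphereArea (m + 2))) ≤ A := by
  obtain ⟨p, hp0, hp1⟩ := exists_balanced (by omega) U hodd hb
  set C : ℝ := 2 * kapm (m + 1) *
    ((1 / Am (m + 1) + (m + 2) / 2) * unitSphereArea (m + 2)) with hC
  have key : ∀ δ > 0, 4 / 3 * kapm (m + 1) * unitSphereArea (m + 1) *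
      (1 - Real.sqrt (2 * ε * (A + δ) / unitSphereArea (m + 2))) ≤ A + δ + C * δ := by
    intro δ hδ
    obtain ⟨w, w1, w2, w3⟩ := hA p δ hδ
    have h1 := adm_lower w1 hε w3
    have hwc : Continuous fun y : S1 (m + 3) => w (y : En (m + 3)) := by
      refine (w1.smooth.continuousOn).comp_continuous continuous_subtype_val fun y => ?_
      intro h
      have := y.2
      rw [h] at this
      simp at this
    have h2 := unb_le hwc (fun y => w1.bd y) (hb p) w2 hp0 hp1
    have h3 : 2 * kapm (m + 1) * unb m (fun x => Ph (w x)) ≤ C * δ := by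
      have hk := one_lt_kapm (m + 1)
      calc 2 * kapm (m + 1) * unb m (fun x => Ph (w x))
          ≤ 2 * kapm (m + 1) * ((1 / Am (m + 1) + (m + 2) / 2) *
            (unitSphereArea (m + 2) * δ)) := mul_le_mul_of_nonneg_left h2 (by linarith)
        _ = C * δ := by rw [hC]; ring
    linarith
  have hlim1 : Tendsto (fun δ : ℝ => 4 / 3 * kapm (m + 1) * unitSphereArea (m + 1) *
      (1 - Real.sqrt (2 * ε * (A + δ) / unitSphereArea (m + 2)))) (𝓝[>] 0)
      (𝓝 (4 / 3 * kapm (m + 1) * unitSphereArea (m + 1) *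
      (1 - Real.sqrt (2 * ε * (A + 0) / unitSphereArea (m + 2))))) := by
    have hc : Continuous fun δ : ℝ => 4 / 3 * kapm (m + 1) * unitSphereArea (m + 1) *
      (1 - Real.sqrt (2 * ε * (A + δ) / unitSphereArea (m + 2))) := by fun_prop
    exact (hc.tendsto 0).mono_left nhdsWithin_le_nhds
  have hlim2 : Tendsto (fun δ : ℝ => A + δ + C * δ) (𝓝[>] 0) (𝓝 (A + 0 + C * 0)) := by
    have hc : Continuous fun δ : ℝ => A + δ + C * δ := by fun_prop
    exact (hc.tendsto 0).mono_left nhdsWithin_le_nhds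
  have h := le_of_tendsto_of_tendsto hlim1 hlim2 (by
    filter_upwards [self_mem_nhdsWithin] with δ hδ using key δ hδ)
  simpa using h

end Crest.Agent.R246.C378
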