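import Mathlib.Analysis.InnerProductSpace.PiL2
import Mathlib.Analysis.InnerProductSpace.Calculus
import Mathlib.Analysis.Calculus.Gradient.Basic
import Mathlib.Analysis.Calculus.ContDiff.Basic
import Mathlib.Geometry.Manifold.ChartedSpace
import Mathlib.MeasureTheory.Constructions.HaarToSphere
import Mathlib.MeasureTheory.Measure.Haar.InnerProductSpace
import Mathlib.MeasureTheory.Integral.Bochner.Basic
import Mathlib.MeasureTheory.Integral.Bochner.Set
import Mathlib.Topology.MetricSpace.HausdorffDistance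

/-!
Row 246, part J: interface.  `M` is charted on `ℝᵐ`, `F : M → ℝᵐ⁺²` is an immersion into the unit
sphere.  Everything is expressed in the linear cone form: `cone F` is the cone over `F(M)`.
-/

set_option autoImplicit false

open scoped ContDiff Topology
open MeasureTheory

noncomputable section

namespace Crest.Agent.R246.J816

/-- Euclidean space. -/
abbrev Eu (n : ℕ) : Type := EuclideanSpace ℝ (Fin n)

section Defs

variable {m : ℕ} {M : Type*} [TopologicalSpace M] [ChartedSpace (Eu m) M]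

/-- coordinate expression of `F` in the preferred chart at `x`. -/
def loc (F : M → Eu (m + 2)) (x : M) : Eu m → Eu (m + 2) :=
  F ∘ (chartAt (Eu m) x).symm

/-- the centre of the preferred chart at `x`. -/
def ctr (x : M) : Eu m := chartAt (Eu m) x x

/-- the cone over the image of `F`. -/
def cone (F : M → Eu (m + 2)) : Set (Eu (m + 2)) :=
  {q | ∃ ρ : ℝ, 0 ≤ ρ ∧ ∃ x, q = ρ • F x}

/-- `F` is a smooth immersion into the unit sphere. -/
structure Imm (F : M → Eu (m + 2)) : Prop where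
  cont : Continuous F
  norm_one : ∀ x, ‖F x‖ = 1
  smooth : ∀ x : M, ∀ y ∈ (chartAt (Eu m) x).target, ContDiffAt ℝ ∞ (loc F x) y
  inj : ∀ x : M, ∀ y ∈ (chartAt (Eu m) x).target,
    Function.Injective (fderiv ℝ (loc F x) y)

/-- `ν` is a unit normal of the immersed hypersurface of the sphere at `x`. -/
def IsNormal (F : M → Eu (m + 2)) (x : M) (ν : Eu (m + 2)) : Prop :=
  ‖ν‖ = 1 ∧ inner ℝ ν (F x) = 0 ∧ ∀ v, inner ℝ ν (fderiv ℝ (loc F x) (ctr x) v) = 0

/-- minimality in the sphere at `x`, in orthonormal form, in the preferred chart at `x`. -/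
def MinAt (F : M → Eu (m + 2)) (x : M) : Prop :=
  ∃ (ξ : Fin m → Eu m) (b : Eu m),
    Orthonormal ℝ (fun k => fderiv ℝ (loc F x) (ctr x) (ξ k)) ∧
    ∑ k, fderiv ℝ (fderiv ℝ (loc F x)) (ctr x) (ξ k) (ξ k) =
      -(m : ℝ) • F x + fderiv ℝ (loc F x) (ctr x) b

/-- `c` is a (0-homogeneous) two-colouring of the complement of the cone: it changes sign across
every sheet through a point with exactly one preimage. -/
structure Colour (F : M → Eu (m + 2)) (c : Eu (m + 2) → ℝ) : Prop where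
  pm : ∀ q, c q = 1 ∨ c q = -1
  hom : ∀ t : ℝ, 0 < t → ∀ q, c (t • q) = c q
  loc_const : ∀ q, q ∉ cone F → ∀ᶠ q' in 𝓝 q, c q' = c q
  flip : ∀ x, (∀ x', F x' = F x → x' = x) → ∀ ν, IsNormal F x ν →
    ∀ᶠ s in 𝓝[>] (0 : ℝ), c (F x + s • ν) = - c (F x - s • ν)

/-- `μ` dominates the `m`-volume of all orthogonal projections of pieces of the image of `F`. -/
def ProjBound [MeasurableSpace M] (F : M → Eu (m + 2)) (μ : Measure M) : Prop :=
  ∀ π : Eu (m + 2) →L[ℝ] Eu m, ‖π‖ ≤ 1 → ∀ P : Set M, MeasurableSet P →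
    volume (π '' (F '' P)) ≤ μ P

/-- the signed distance to the cone. -/
def sdist (F : M → Eu (m + 2)) (c : Eu (m + 2) → ℝ) (q : Eu (m + 2)) : ℝ :=
  c q * Metric.infDist q (cone F)

end Defs

section Statements

universe u

/-- JA: existence of the two-colouring. -/
def StJA (m : ℕ) : Prop :=
  ∀ (M : Type u) [MetricSpace M] [ChartedSpace (Eu m) M] [CompactSpace M] [Nonempty M]
    (F : M → Eu (m + 2)), Imm F → ∃ c : Eu (m + 2) → ℝ, Colour F c

/-- JB: the distance to a minimal cone is superharmonic off the cone. -/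
def StJB (m : ℕ) : Prop :=
  ∀ (M : Type u) [MetricSpace M] [ChartedSpace (Eu m) M] [CompactSpace M] [Nonempty M]
    (F : M → Eu (m + 2)), Imm F → (∀ x, MinAt F x) →
    ∀ ψ : Eu (m + 2) → ℝ, (∃ K, LipschitzWith K ψ) → HasCompactSupport ψ →
      tsupport ψ ⊆ (cone F)ᶜ → (∀ q, 0 ≤ ψ q) →
      0 ≤ ∫ q, inner ℝ (gradient (fun p => Metric.infDist p (cone F)) q) (gradient ψ q)

/-- JC: the localised Minkowski content bound. -/
def StJC (m : ℕ) : Prop :=
  ∀ (M : Type u) [MetricSpace M] [ChartedSpace (Eu m) M] [CompactSpace M] [Nonempty M]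
    [MeasurableSpace M] [BorelSpace M] (F : M → Eu (m + 2)) (μ : Measure M) [IsFiniteMeasure μ],
    Imm F → ProjBound F μ → ∀ c, Colour F c →
    ∀ ζ : Eu (m + 2) → ℝ, (∀ q, 0 ≤ ζ q) → (∀ q, ζ q ≤ 1) →
      (∀ t : ℝ, 0 < t → ∀ q, ζ (t • q) = ζ q) → ContinuousOn ζ {0}ᶜ →
      ∀ ε > 0, ∀ᶠ δ in 𝓝[>] (0 : ℝ),
        ((m : ℝ) + 2) * ∫ q in {q : Eu (m + 2) | ‖q‖ < 1 ∧ 0 < Metric.infDist q (cone F) ∧
            Metric.infDist q (cone F) < δ * ‖q‖},
          (if 0 < c q then 1 - ζ q else ζ q) ≤ δ * ((μ Set.univ).toReal + ε)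

/-- JD: if the image is not in a great hypersphere, then it meets every open hemisphere, and the
distance to the cone is at most `c₀ ‖q‖` with `c₀ < 1`. -/
def StJD (m : ℕ) : Prop :=
  ∀ (M : Type u) [MetricSpace M] [ChartedSpace (Eu m) M] [CompactSpace M] [ConnectedSpace M]
    (F : M → Eu (m + 2)), Imm F → (∀ x, MinAt F x) →
    (¬ ∃ e : Eu (m + 2), ‖e‖ = 1 ∧ ∀ x, inner ℝ (F x) e = 0) →
    (∀ e : Eu (m + 2), ‖e‖ = 1 → ∃ x, 0 < inner ℝ (F x) e) ∧
    ∃ c₀ : ℝ, c₀ < 1 ∧ ∀ q, Metric.infDist q (cone F) ≤ c₀ * ‖q‖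

end Statements

section Basic

variable {m : ℕ} {M : Type*} [TopologicalSpace M] [ChartedSpace (Eu m) M]

omit [TopologicalSpace M] [ChartedSpace (Eu m) M] in
theorem zero_mem_cone [Nonempty M] (F : M → Eu (m + 2)) : (0 : Eu (m + 2)) ∈ cone F :=
  ⟨0, le_refl _, Classical.arbitrary M, by simp⟩

omit [TopologicalSpace M] [ChartedSpace (Eu m) M] in
theorem mem_cone (F : M → Eu (m + 2)) {ρ : ℝ} (h : 0 ≤ ρ) (x : M) : ρ • F x ∈ cone F :=
  ⟨ρ, h, x, rfl⟩

omit [TopologicalSpace M] [ChartedSpace (Eu m) M] in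
theorem smul_mem_cone {F : M → Eu (m + 2)} {t : ℝ} (ht : 0 ≤ t) {q : Eu (m + 2)}
    (hq : q ∈ cone F) : t • q ∈ cone F := by
  obtain ⟨ρ, hρ, x, rfl⟩ := hq
  exact ⟨t * ρ, mul_nonneg ht hρ, x, by rw [smul_smul]⟩

omit [TopologicalSpace M] [ChartedSpace (Eu m) M] in
theorem smul_mem_cone_iff {F : M → Eu (m + 2)} {t : ℝ} (ht : 0 < t) {q : Eu (m + 2)} :
    t • q ∈ cone F ↔ q ∈ cone F := by
  refine ⟨fun h => ?_, smul_mem_cone ht.le⟩
  have := smul_mem_cone (inv_pos.2 ht).le h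
  rwa [smul_smul, inv_mul_cancel₀ ht.ne', one_smul] at this

/-- the cone is closed. -/
theorem isClosed_cone [CompactSpace M] {F : M → Eu (m + 2)} (hF : Imm F) :
    IsClosed (cone F) := by
  refine isClosed_of_closure_subset fun q hq => ?_
  rw [mem_closure_iff_seq_limit] at hq
  obtain ⟨u, hu, hlim⟩ := hq
  choose ρ hρ x hx using hu
  have hn : ∀ k, ‖u k‖ = ρ k := fun k => by
    rw [hx k, norm_smul, hF.norm_one, mul_one, Real.norm_of_nonneg (hρ k)]
  have hρlim : Filter.Tendsto ρ Filter.atTop (𝓝 ‖q‖) := by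
    have := hlim.norm
    simpa only [hn] using this
  by_cases hq0 : q = 0
  · rw [hq0]
    exact ⟨0, le_refl _, x 0, by simp⟩
  · have hqn : 0 < ‖q‖ := norm_pos_iff.2 hq0
    have h1 : Filter.Tendsto (fun k => (ρ k)⁻¹ • u k) Filter.atTop (𝓝 (‖q‖⁻¹ • q)) :=
      (hρlim.inv₀ hqn.ne').smul hlim
    have h2 : ∀ᶠ k in Filter.atTop, (ρ k)⁻¹ • u k ∈ Set.range F := by
      have h3 : ∀ᶠ k in Filter.atTop, 0 < ρ k := hρlim.eventually (lt_mem_nhds hqn)
      filter_upwards [h3] with k hk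
      refine ⟨x k, ?_⟩
      rw [hx k, smul_smul, inv_mul_cancel₀ hk.ne', one_smul]
    have h4 : ‖q‖⁻¹ • q ∈ Set.range F :=
      (isCompact_range hF.cont).isClosed.mem_of_tendsto h1 h2
    obtain ⟨y, hy⟩ := h4
    refine ⟨‖q‖, norm_nonneg _, y, ?_⟩
    rw [hy, smul_smul, mul_inv_cancel₀ hqn.ne', one_smul]

omit [TopologicalSpace M] [ChartedSpace (Eu m) M] in
theorem cone_nonempty [Nonempty M] (F : M → Eu (m + 2)) : (cone F).Nonempty :=
  ⟨0, zero_mem_cone F⟩

omit [TopologicalSpace M] [ChartedSpace (Eu m) M] in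
/-- the distance to the cone is positively homogeneous. -/
theorem infDist_smul [Nonempty M] (F : M → Eu (m + 2)) {t : ℝ} (ht : 0 < t)
    (q : Eu (m + 2)) :
    Metric.infDist (t • q) (cone F) = t * Metric.infDist q (cone F) := by
  have key : ∀ (s : ℝ), 0 < s → ∀ p : Eu (m + 2),
      Metric.infDist (s • p) (cone F) ≤ s * Metric.infDist p (cone F) := by
    intro s hs p
    rw [← div_le_iff₀' hs]
    refine (Metric.le_infDist (cone_nonempty F)).2 fun y hy => ?_
    rw [div_le_iff₀' hs]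
    have h := Metric.infDist_le_dist_of_mem (x := s • p) (smul_mem_cone hs.le hy)
    rwa [dist_smul₀, Real.norm_of_nonneg hs.le] at h
  refine le_antisymm (key t ht q) ?_
  have h := key t⁻¹ (inv_pos.2 ht) (t • q)
  rw [smul_smul, inv_mul_cancel₀ ht.ne', one_smul] at h
  calc t * Metric.infDist q (cone F) ≤ t * (t⁻¹ * Metric.infDist (t • q) (cone F)) :=
        mul_le_mul_of_nonneg_left h ht.le
    _ = Metric.infDist (t • q) (cone F) := by
        rw [← mul_assoc, mul_inv_cancel₀ ht.ne', one_mul]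

/-- nearest points exist. -/
theorem exists_nearest [CompactSpace M] [Nonempty M] {F : M → Eu (m + 2)} (hF : Imm F)
    (q : Eu (m + 2)) :
    ∃ (ρ : ℝ) (x : M), 0 ≤ ρ ∧ Metric.infDist q (cone F) = ‖q - ρ • F x‖ := by
  obtain ⟨y, ⟨ρ, hρ, x, rfl⟩, h⟩ :=
    (isClosed_cone hF).exists_infDist_eq_dist (cone_nonempty F) q
  exact ⟨ρ, x, hρ, by rw [h, dist_eq_norm]⟩

end Basic

end Crest.Agent.R246.J816
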