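import Crest.Agent.R246.Inv_990
import Crest.Agent.R246.ThetaK_688
import Crest.Agent.R246.J0_816
import Crest.Agent.R246.Fam2_348
import Crest.Agent.R246.D2Energy_782
import Crest.Prelude.Def_CoordMetric
import Crest.Prelude.Def_ChartCurvature
import Crest.Prelude.Def_SphereImmersion

/-!
# Row 246 (Solomon-Yau): typed skeleton (helper656, integration)

Every block output is a `Prop` (`St...`); this file derives `S0380` from them.
-/

set_option autoImplicit false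
open scoped ContDiff Manifold Topology
open Bundle Crest.GeometryTopology.CoordMetric Crest.GeometryTopology.ChartCurvature
  Crest.GeometryTopology.SphereImmersion
open MeasureTheory Filter Metric Set
open Crest.Agent.R246.H990 (NullCone VB)
open Crest.Agent.R246.ThetaK688 (WW Theta)
open Crest.Agent.R246.Fam348 (AcE Adm)
open Crest.Agent.R246.D2x782 (SmHom0 ACeq)

noncomputable section

namespace Crest.Agent.R246.Skel656

/-- the ambient space `ℝ^{m+2}` -/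
abbrev E (m : ℕ) : Type := EuclideanSpace ℝ (Fin (m + 2))

/-! ### the induction statement -/

/-- `T_m`: `V ≥ W_m` on the class `R_m`. -/
def Tm (m : ℕ) : Prop := ∀ φ : E m → ℝ, NullCone φ → ∀ A : ℝ, VB φ A → WW m ≤ A

/-! ### block J -/

universe u

/-- J-final (816, 939, 364, 480): from the hypotheses of S0380 to a null cone. -/
def StJ (m : ℕ) : Prop :=
  ∀ (M : Type u) [MetricSpace M] [ChartedSpace (EuclideanSpace ℝ (Fin m)) M]
    [IsManifold 𝓘(ℝ, EuclideanSpace ℝ (Fin m)) ∞ M] [CompactSpace M] [ConnectedSpace M]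
    [RiemannianBundle (fun x : M => TangentSpace 𝓘(ℝ, EuclideanSpace ℝ (Fin m)) x)]
    [IsContMDiffRiemannianBundle 𝓘(ℝ, EuclideanSpace ℝ (Fin m)) ∞ (EuclideanSpace ℝ (Fin m))
      (fun x : M => TangentSpace 𝓘(ℝ, EuclideanSpace ℝ (Fin m)) x)]
    [IsRiemannianManifold 𝓘(ℝ, EuclideanSpace ℝ (Fin m)) M] [MeasurableSpace M] [BorelSpace M]
    (F : M → EuclideanSpace ℝ (Fin (m + 2)))
    (_ : ContMDiff 𝓘(ℝ, EuclideanSpace ℝ (Fin m)) 𝓘(ℝ, EuclideanSpace ℝ (Fin (m + 2))) ∞ F)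
    (_ : ∀ x, ‖F x‖ = 1) (_ : IsIsometricMap m (m + 2) M F)
    (_ : IsMinimalInSphere m (m + 2) M F) (_ : ¬ IsTotallyGeodesicInSphere m (m + 2) M F),
    Measure.euclideanHausdorffMeasure m (Set.univ : Set M) ≠ ⊤ →
    ∃ φ : E m → ℝ, NullCone φ ∧
      VB φ (Measure.euclideanHausdorffMeasure m (Set.univ : Set M)).toReal

/-- **TOP1** -/
theorem top1 {m : ℕ} (hm : 2 ≤ m) (hT : Tm m) (hJ : StJ.{u} m)
    (M : Type u) [MetricSpace M] [ChartedSpace (EuclideanSpace ℝ (Fin m)) M]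
    [IsManifold 𝓘(ℝ, EuclideanSpace ℝ (Fin m)) ∞ M] [CompactSpace M] [ConnectedSpace M]
    [RiemannianBundle (fun x : M => TangentSpace 𝓘(ℝ, EuclideanSpace ℝ (Fin m)) x)]
    [IsContMDiffRiemannianBundle 𝓘(ℝ, EuclideanSpace ℝ (Fin m)) ∞ (EuclideanSpace ℝ (Fin m))
      (fun x : M => TangentSpace 𝓘(ℝ, EuclideanSpace ℝ (Fin m)) x)]
    [IsRiemannianManifold 𝓘(ℝ, EuclideanSpace ℝ (Fin m)) M] [MeasurableSpace M] [BorelSpace M]
    (F : M → EuclideanSpace ℝ (Fin (m + 2)))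
    (hF : ContMDiff 𝓘(ℝ, EuclideanSpace ℝ (Fin m)) 𝓘(ℝ, EuclideanSpace ℝ (Fin (m + 2))) ∞ F)
    (hS : ∀ x, ‖F x‖ = 1) (hiso : IsIsometricMap m (m + 2) M F)
    (hmin : IsMinimalInSphere m (m + 2) M F) (hntg : ¬ IsTotallyGeodesicInSphere m (m + 2) M F) :
    ∃ k : ℕ, 1 ≤ k ∧ k < m ∧
      ENNReal.ofReal (cliffordVolume m k) ≤
        MeasureTheory.Measure.euclideanHausdorffMeasure m (Set.univ : Set M) := by
  obtain ⟨k, hk, hkm, he⟩ := Crest.Agent.R246.ThetaK688.exists_WW_eq hm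
  refine ⟨k, hk, hkm, ?_⟩
  by_cases htop : Measure.euclideanHausdorffMeasure m (Set.univ : Set M) = ⊤
  · rw [htop]; exact le_top
  · obtain ⟨φ, hφ, hV⟩ := hJ M F hF hS hiso hmin hntg htop
    have h := hT φ hφ _ hV
    rw [he]
    exact ENNReal.ofReal_le_of_le_toReal h

/-! ### block C + base case -/

/-- C-final (378): the kernel lower bound for null cones. `κ m > 1`, `κ 1 = π / 2`. -/
def StC (κ : ℕ → ℝ) : Prop :=
  κ 1 = Real.pi / 2 ∧ (∀ m, 1 ≤ m → 1 < κ m) ∧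
  ∀ m, 1 ≤ m → ∀ φ : E m → ℝ, NullCone φ → ∀ A : ℝ, VB φ A → κ m * unitSphereArea m ≤ A

/-- **TOP2** -/
theorem top2 {κ : ℕ → ℝ} (hC : StC κ) : Tm 1 := by
  intro φ hφ A hA
  have h := hC.2.2 1 le_rfl φ hφ A hA
  rw [hC.1] at h
  unfold WW
  rwa [Crest.Agent.R246.ThetaK688.Theta_one]

/-! ### odd families and Allen-Cahn solutions -/

/-- there is an odd continuous `(m+3)`-sphere of functions, every member being a uniform limit of
admissible smooth functions with energies at most `A` (up to `δ`). -/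
def HasFam (m : ℕ) (ε A : ℝ) : Prop :=
  ∃ (V : Type) (_ : NormedAddCommGroup V) (_ : NormedSpace ℝ V) (_ : FiniteDimensional ℝ V)
    (U : C(sphere (0 : V) 1, C(sphere (0 : E m) 1, ℝ))),
    Module.finrank ℝ V = m + 4 ∧ (∀ p, U (-p) = - U p) ∧ (∀ p x, |U p x| ≤ 1) ∧
    ∀ p, ∀ δ > 0, ∃ w : E m → ℝ, Adm w ∧ (∀ y : sphere (0 : E m) 1, |w y - U p y| ≤ δ) ∧
      AcE ε w ≤ A + δ

/-- B5 + 348 (z): the Lie/de Sitter family of a null cone. -/
def StFam (m : ℕ) : Prop :=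
  ∀ φ : E m → ℝ, NullCone φ → ∀ A : ℝ, VB φ A → ∀ ε : ℝ, 0 < ε → HasFam m ε (4 / 3 * A)

/-- a smooth Allen-Cahn solution `u = tanh (R/ε)`. -/
structure ACsol (m : ℕ) (ε : ℝ) (R : E m → ℝ) : Prop where
  pos : 0 < ε
  sm : SmHom0 R
  eq : ACeq ε R

/-- its energy -/
def En {m : ℕ} (ε : ℝ) (R : E m → ℝ) : ℝ := AcE ε (fun x => Real.tanh (R x / ε))

/-- D0 + C (797, 348, 378): min-max. -/
def StMM (κ : ℕ → ℝ) (m : ℕ) : Prop :=
  ∀ ε A : ℝ, 0 < ε → HasFam m ε A → 0 < 1 - Real.sqrt (2 * ε * A / unitSphereArea (m + 1)) →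
    ∃ R : E m → ℝ, ACsol m ε R ∧ En ε R ≤ A ∧
      4 / 3 * κ m * unitSphereArea m * (1 - Real.sqrt (2 * ε * A / unitSphereArea (m + 1)))
        ≤ En ε R

/-- a sequence of Allen-Cahn solutions with `ε → 0`, `R_k → r` uniformly, energies converging:
`φ = |x| sin r`, `a = lim (3/4) E`. -/
structure Real' (m : ℕ) (ε : ℕ → ℝ) (R : ℕ → E m → ℝ) (φ : E m → ℝ) (a : ℝ) : Prop where
  sol : ∀ k, ACsol m (ε k) (R k)
  eps : Tendsto ε atTop (𝓝 0)
  conv : TendstoUniformlyOn (fun k x => Real.sin (R k x)) φ atTop (sphere (0 : E m) 1)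
  en : Tendsto (fun k => 3 / 4 * En (ε k) (R k)) atTop (𝓝 a)

/-- the class of all limits: (S+), (S-) are super/subharmonicity off the zero set. -/
structure Lim (m : ℕ) (φ : E m → ℝ) : Prop where
  hom : ∀ t : ℝ, 0 ≤ t → ∀ x, φ (t • x) = t * φ x
  lip : LipschitzWith 1 φ
  grad : ∀ᵐ x ∂(volume : Measure (E m)), ‖fderiv ℝ φ x‖ = 1
  supp : ∀ ζ : E m → ℝ, (∃ K, LipschitzWith K ζ) → HasCompactSupport ζ → (∀ x, 0 ≤ ζ x) →
    tsupport ζ ⊆ {x | 0 < φ x} → 0 ≤ ∫ x, inner ℝ (gradient φ x) (gradient ζ x)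
  subm : ∀ ζ : E m → ℝ, (∃ K, LipschitzWith K ζ) → HasCompactSupport ζ → (∀ x, 0 ≤ ζ x) →
    tsupport ζ ⊆ {x | φ x < 0} → ∫ x, inner ℝ (gradient φ x) (gradient ζ x) ≤ 0

/-- E (538, 858, 67, 663): compactness and the flux bound `V(φ) ≤ (3/4) lim E`. -/
def StE (m : ℕ) : Prop :=
  ∀ (ε : ℕ → ℝ) (R : ℕ → E m → ℝ) (C : ℝ), (∀ k, ACsol m (ε k) (R k)) →
    Tendsto ε atTop (𝓝 0) → (∀ k, En (ε k) (R k) ≤ C) → (∀ k, ∃ x, x ≠ 0 ∧ R k x = 0) →
    ∃ (s : ℕ → ℕ) (φ : E m → ℝ) (a : ℝ), StrictMono s ∧ Real' m (ε ∘ s) (R ∘ s) φ a ∧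
      Lim m φ ∧ VB φ a

/-- zeros exist (714 (Z)). -/
def StZ (m : ℕ) : Prop := ∀ (ε : ℝ) (R : E m → ℝ), ACsol m ε R → ∃ x, x ≠ 0 ∧ R x = 0

/-- dichotomy (386 G4 + limit functionals): a limit which is not a null cone is linear, provided
the mass is below two. -/
def StDich (m : ℕ) : Prop :=
  ∀ (ε : ℕ → ℝ) (R : ℕ → E m → ℝ) (φ : E m → ℝ) (a : ℝ), Real' m ε R φ a → Lim m φ →
    a < 2 * unitSphereArea m → NullCone φ ∨ ∃ e : E m, ‖e‖ = 1 ∧ ∀ x, φ x = inner ℝ e x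

/-- flat exclusion (992 GL3, uses 852's MS). -/
def StFlat (m : ℕ) : Prop :=
  ∀ (ε : ℕ → ℝ) (R : ℕ → E m → ℝ) (a : ℝ) (e : E m), ‖e‖ = 1 →
    Real' m ε R (fun x => inner ℝ e x) a → a < 2 * unitSphereArea m → a ≤ unitSphereArea m

/-- the master lemma: families with energies close to `(4/3) a` produce a null cone with `V ≤ a`. -/
theorem master {κ : ℕ → ℝ} {m : ℕ} (hm : 1 ≤ m) (hC : StC κ) (hMM : StMM κ m) (hE : StE m)
    (hZ : StZ m) (hD : StDich m) (hF : StFlat m) {A : ℕ → ℝ} {a : ℝ}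
    (hA : Tendsto A atTop (𝓝 a)) (ha : a < 2 * unitSphereArea m)
    (hfam : ∀ j, ∀ᶠ ε in 𝓝[>] (0 : ℝ), HasFam m ε (4 / 3 * A j)) :
    ∃ (ε : ℕ → ℝ) (R : ℕ → E m → ℝ) (φ : E m → ℝ) (a' : ℝ), a' ≤ a ∧ Real' m ε R φ a' ∧
      Lim m φ ∧ NullCone φ ∧ VB φ a' := by
  have hSm := Crest.Agent.R246.ThetaK688.unitSphereArea_pos m
  have hSm1 := Crest.Agent.R246.ThetaK688.unitSphereArea_pos (m + 1)
  -- choose small ε
  have hlim : ∀ j, Tendsto (fun ε : ℝ => Real.sqrt (2 * ε * (4 / 3 * A j) / unitSphereArea (m + 1)))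
      (𝓝[>] 0) (𝓝 0) := by
    intro j
    have h1 : Continuous fun ε : ℝ =>
        Real.sqrt (2 * ε * (4 / 3 * A j) / unitSphereArea (m + 1)) := by fun_prop
    have h2 := h1.tendsto 0
    simp only [mul_zero, zero_mul, zero_div, Real.sqrt_zero] at h2
    exact h2.mono_left nhdsWithin_le_nhds
  have hex : ∀ j : ℕ, ∃ ε : ℝ, 0 < ε ∧ ε < 1 / ((j : ℝ) + 1) ∧ HasFam m ε (4 / 3 * A j) ∧
      Real.sqrt (2 * ε * (4 / 3 * A j) / unitSphereArea (m + 1)) < 1 / ((j : ℝ) + 2) := by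
    intro j
    have hj : (0 : ℝ) < 1 / ((j : ℝ) + 1) := by positivity
    have hj2 : (0 : ℝ) < 1 / ((j : ℝ) + 2) := by positivity
    have h1 := (hlim j).eventually (gt_mem_nhds hj2)
    have h2 : ∀ᶠ ε in 𝓝[>] (0 : ℝ), ε ∈ Ioo (0 : ℝ) (1 / ((j : ℝ) + 1)) := Ioo_mem_nhdsGT hj
    obtain ⟨ε, h3, h4, h5⟩ := ((hfam j).and (h2.and h1)).exists
    exact ⟨ε, h4.1, h4.2, h3, h5⟩
  choose ε hε0 hε1 hεf hεs using hex
  have hεlim : Tendsto ε atTop (𝓝 0) := by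
    refine squeeze_zero (fun j => (hε0 j).le) (fun j => (hε1 j).le) ?_
    exact tendsto_one_div_add_atTop_nhds_zero_nat
  have hs1 : ∀ j : ℕ, (1 : ℝ) / ((j : ℝ) + 2) < 1 := by
    intro j
    rw [div_lt_one (by positivity)]
    have : (0 : ℝ) ≤ j := Nat.cast_nonneg j
    linarith
  have hR : ∀ j, ∃ R : E m → ℝ, ACsol m (ε j) R ∧ En (ε j) R ≤ 4 / 3 * A j ∧
      4 / 3 * κ m * unitSphereArea m *
        (1 - Real.sqrt (2 * ε j * (4 / 3 * A j) / unitSphereArea (m + 1))) ≤ En (ε j) R :=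
    fun j => hMM (ε j) (4 / 3 * A j) (hε0 j) (hεf j) (by have := hεs j; have := hs1 j; linarith)
  choose R hRs hRu hRl using hR
  obtain ⟨C, hC'⟩ : ∃ C, ∀ j, 4 / 3 * A j ≤ C := by
    obtain ⟨C, hC'⟩ := (hA.const_mul (4 / 3)).bddAbove_range
    exact ⟨C, fun j => hC' ⟨j, rfl⟩⟩
  obtain ⟨s, φ, a', hs, hreal, hl, hV⟩ := hE ε R C hRs hεlim (fun j => (hRu j).trans (hC' j))
    (fun j => hZ _ _ (hRs j))
  have hsat : Tendsto s atTop atTop := hs.tendsto_atTop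
  have ha' : a' ≤ a := by
    refine le_of_tendsto_of_tendsto' hreal.en (hA.comp hsat) fun k => ?_
    have := hRu (s k)
    simp only [Function.comp]
    linarith
  have hlow : κ m * unitSphereArea m ≤ a' := by
    have h1 : Tendsto (fun k : ℕ => κ m * unitSphereArea m * (1 - 1 / ((k : ℝ) + 2))) atTop
        (𝓝 (κ m * unitSphereArea m * (1 - 0))) := by
      refine Tendsto.const_mul _ (tendsto_const_nhds.sub ?_)
      have h := tendsto_one_div_add_atTop_nhds_zero_nat (𝕜 := ℝ)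
      have h2 := (tendsto_add_atTop_iff_nat 1).2 h
      refine h2.congr fun n => ?_
      push_cast; ring
    rw [sub_zero, mul_one] at h1
    refine le_of_tendsto_of_tendsto' (h1.comp hsat) hreal.en fun k => ?_
    have h2 := hRl (s k)
    have h3 := hεs (s k)
    have h4 : 0 ≤ κ m * unitSphereArea m := by
      have := hC.2.1 m hm
      positivity
    simp only [Function.comp]
    have h5 : κ m * unitSphereArea m * (1 - 1 / ((s k : ℝ) + 2)) ≤ κ m * unitSphereArea m *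
        (1 - Real.sqrt (2 * ε (s k) * (4 / 3 * A (s k)) / unitSphereArea (m + 1))) := by
      apply mul_le_mul_of_nonneg_left _ h4
      linarith
    linarith
  rcases hD _ _ φ a' hreal hl (ha'.trans_lt ha) with hN | ⟨e, he, hφe⟩
  · exact ⟨_, _, φ, a', ha', hreal, hl, hN, hV⟩
  · exfalso
    have hreal' : Real' m (ε ∘ s) (R ∘ s) (fun x => inner ℝ e x) a' := by
      have : φ = fun x => inner ℝ e x := funext hφe
      rwa [this] at hreal
    have h1 := hF _ _ a' e he hreal' (ha'.trans_lt ha)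
    have h2 := hC.2.1 m hm
    nlinarith

/-! ### regularity and the smooth minimiser -/

/-- the smooth minimiser, in 436's form (to be replaced by `SmoothMin`). -/
def StReg (SM : ∀ m : ℕ, (E m → ℝ) → Prop) (m : ℕ) : Prop :=
  Tm (m - 1) → ∀ (ε : ℕ → ℝ) (R : ℕ → E m → ℝ) (φ : E m → ℝ) (a : ℝ), Real' m ε R φ a →
    Lim m φ → NullCone φ → VB φ a → (∀ ψ : E m → ℝ, NullCone ψ → ∀ A, VB ψ A → a ≤ A) →
    a < WW m → SM m φ

/-- step 4 (200, 101, 149, 900, 112, 475, 718, 436): a smooth minimiser such that no odd family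
goes below it has `V ≥ W_m`. -/
def StEnd (SM : ∀ m : ℕ, (E m → ℝ) → Prop) (m : ℕ) : Prop :=
  ∀ (φ : E m → ℝ) (a : ℝ), NullCone φ → VB φ a →
    (∀ ψ : E m → ℝ, NullCone ψ → ∀ A, VB ψ A → a ≤ A) → SM m φ →
    (∀ b < a, ¬ ∀ᶠ ε in 𝓝[>] (0 : ℝ), HasFam m ε (4 / 3 * b)) → WW m ≤ a

/-- **TOP3** -/
theorem top3 {κ : ℕ → ℝ} {SM : ∀ m : ℕ, (E m → ℝ) → Prop} {m : ℕ} (hm : 2 ≤ m) (hC : StC κ)
    (hFam : StFam m) (hMM : StMM κ m) (hE : StE m)
    (hZ : StZ m) (hD : StDich m) (hF : StFlat m) (hReg : StReg SM m) (hEnd : StEnd SM m)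
    (hT : Tm (m - 1)) : Tm m := by
  by_contra hcon
  unfold Tm at hcon
  push Not at hcon
  obtain ⟨φ0, hφ0, A0, hA0, hlt0⟩ := hcon
  have hm1 : 1 ≤ m := by omega
  set S : Set ℝ := {A | ∃ φ : E m → ℝ, NullCone φ ∧ VB φ A} with hS
  have hSne : S.Nonempty := ⟨A0, φ0, hφ0, hA0⟩
  have hSb : BddBelow S := ⟨κ m * unitSphereArea m, fun A ⟨φ, h1, h2⟩ => hC.2.2 m hm1 φ h1 A h2⟩
  set V := sInf S with hV
  have hVlt : V < WW m := (csInf_le hSb ⟨φ0, hφ0, hA0⟩).trans_lt hlt0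
  have hSm := Crest.Agent.R246.ThetaK688.unitSphereArea_pos m
  have hWW : WW m < 2 * unitSphereArea m := by
    unfold WW
    exact mul_lt_mul_of_pos_right (Crest.Agent.R246.ThetaK688.Theta_lt_two hm1) hSm
  -- minimising sequence
  have hex : ∀ j : ℕ, ∃ A ∈ S, A < V + 1 / ((j : ℝ) + 1) := fun j =>
    exists_lt_of_csInf_lt hSne (lt_add_of_pos_right _ (by positivity))
  choose A hAS hAlt using hex
  have hAlim : Tendsto A atTop (𝓝 V) := by
    refine tendsto_of_tendsto_of_tendsto_of_le_of_le (tendsto_const_nhds (x := V)) ?_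
      (fun j => csInf_le hSb (hAS j)) (fun j => (hAlt j).le)
    have := (tendsto_one_div_add_atTop_nhds_zero_nat (𝕜 := ℝ)).const_add V
    simpa using this
  have hfam : ∀ j, ∀ᶠ ε in 𝓝[>] (0 : ℝ), HasFam m ε (4 / 3 * A j) := by
    intro j
    obtain ⟨φ, h1, h2⟩ := hAS j
    filter_upwards [self_mem_nhdsWithin] with ε hε
    exact hFam φ h1 _ h2 ε hε
  obtain ⟨ε, R, φ, a', ha', hreal, hl, hN, hVB⟩ :=
    master hm1 hC hMM hE hZ hD hF hAlim (hVlt.trans hWW) hfam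
  have hmin : ∀ ψ : E m → ℝ, NullCone ψ → ∀ A, VB ψ A → V ≤ A := fun ψ h1 A h2 =>
    csInf_le hSb ⟨ψ, h1, h2⟩
  have haV : a' = V := le_antisymm ha' (hmin φ hN _ hVB)
  rw [haV] at hreal hVB
  have hsm := hReg hT ε R φ V hreal hl hN hVB hmin hVlt
  have := hEnd φ V hN hVB hmin hsm (fun b hb hf => by
    obtain ⟨_, _, ψ, b', hb', _, _, hN', hVB'⟩ :=
      master hm1 hC hMM hE hZ hD hF (tendsto_const_nhds (x := b))
        ((hb.trans hVlt).trans hWW) (fun _ => hf)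
    have := hmin ψ hN' b' hVB'
    linarith)
  linarith

/-- **The induction**: all `T_m`. -/
theorem all_Tm {κ : ℕ → ℝ} {SM : ∀ m : ℕ, (E m → ℝ) → Prop} (hC : StC κ)
    (h : ∀ m, 2 ≤ m → StFam m ∧ StMM κ m ∧ StE m ∧ StZ m ∧ StDich m ∧ StFlat m ∧
      StReg SM m ∧ StEnd SM m) : ∀ m, 1 ≤ m → Tm m := by
  intro m hm
  induction m, hm using Nat.le_induction with
  | base => exact top2 hC
  | succ n hn ih =>
    obtain ⟨h1, h2, h3, h4, h5, h6, h7, h8⟩ := h (n + 1) (by omega)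
    exact top3 (by omega) hC h1 h2 h3 h4 h5 h6 h7 h8 (by simpa using ih)

end Crest.Agent.R246.Skel656
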