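import Crest.Agent.R246.C7_378
import Crest.Agent.R246.Skel_656

/-!
# Row 246, part C (helper378): block C in the form of the skeleton
-/

set_option autoImplicit false

open MeasureTheory MeasureTheory.Measure Set Filter Topology Metric
open scoped ENNReal NNReal RealInnerProductSpace ContDiff
open Crest.Agent.R246.Fam348 (AcE Adm)
open Crest.Agent.R246.H990 (NullCone VB)
open Crest.Agent.R246.Skel656
open Crest.GeometryTopology.SphereImmersion

noncomputable section

namespace Crest.Agent.R246.C378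

/-- every odd family satisfies the kernel lower bound -/
theorem hasFam_lower {m : ℕ} (hm : 1 ≤ m) {ε A : ℝ} (hε : 0 < ε) (h : HasFam m ε A) :
    4 / 3 * kapm m * unitSphereArea m * (1 - Real.sqrt (2 * ε * A / unitSphereArea (m + 1)))
      ≤ A := by
  obtain ⟨k, rfl⟩ : ∃ k, m = k + 1 := ⟨m - 1, by omega⟩
  obtain ⟨V, i1, i2, i3, U, hV, hodd, hb, hA⟩ := h
  exact fam_lower (by omega) U hodd hb hε hA

/-- **block C** of the skeleton, from the Lie/de Sitter family. -/
theorem stC (hF : ∀ m, 1 ≤ m → StFam m) : StC kapm := by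
  refine ⟨kapm_one, fun m _ => one_lt_kapm m, fun m hm φ hφ A hA => ?_⟩
  have key : ∀ ε : ℝ, 0 < ε → 4 / 3 * kapm m * unitSphereArea m *
      (1 - Real.sqrt (2 * ε * (4 / 3 * A) / unitSphereArea (m + 1))) ≤ 4 / 3 * A := fun ε hε =>
    hasFam_lower hm hε (hF m hm φ hφ A hA ε hε)
  have hlim : Tendsto (fun ε : ℝ => 4 / 3 * kapm m * unitSphereArea m *
      (1 - Real.sqrt (2 * ε * (4 / 3 * A) / unitSphereArea (m + 1)))) (𝓝[>] 0)
      (𝓝 (4 / 3 * kapm m * unitSphereArea m *
      (1 - Real.sqrt (2 * 0 * (4 / 3 * A) / unitSphereArea (m + 1))))) := by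
    have hc : Continuous fun ε : ℝ => 4 / 3 * kapm m * unitSphereArea m *
      (1 - Real.sqrt (2 * ε * (4 / 3 * A) / unitSphereArea (m + 1))) := by fun_prop
    exact (hc.tendsto 0).mono_left nhdsWithin_le_nhds
  have h := le_of_tendsto hlim (by
    filter_upwards [self_mem_nhdsWithin] with ε hε using key ε hε)
  simp only [mul_zero, zero_mul, zero_div, Real.sqrt_zero, sub_zero, mul_one] at h
  linarith

end Crest.Agent.R246.C378
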