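import Crest.Agent.R246.Slice_990
import Mathlib.MeasureTheory.Measure.HasOuterApproxClosed
import Mathlib.MeasureTheory.Measure.Regular
import Mathlib.Analysis.SpecialFunctions.Trigonometric.DerivHyp

/-!
# Slicing for measurable functions, and the Allen-Cahn energy bound
-/

set_option autoImplicit false
set_option linter.unusedSectionVars false
set_option linter.unusedSimpArgs false
noncomputable section
open MeasureTheory Set Filter Topology Metric Measure
open scoped RealInnerProductSpace ENNReal

namespace Crest.Agent.R246.H990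

variable {E : Type*} [NormedAddCommGroup E] [InnerProductSpace ℝ E]
variable [FiniteDimensional ℝ E] [MeasurableSpace E] [BorelSpace E]

lemma tanh_eq' (x : ℝ) : Real.tanh x = Real.sinh x / Real.cosh x := Real.tanh_eq_sinh_div_cosh x

lemma hasDerivAt_tanh' (x : ℝ) : HasDerivAt Real.tanh (1 - Real.tanh x ^ 2) x := by
  have h := (Real.hasDerivAt_sinh x).div (Real.hasDerivAt_cosh x) (Real.cosh_pos x).ne'
  have e : Real.tanh = fun y => Real.sinh y / Real.cosh y := by funext y; exact tanh_eq' y
  have e2 : 1 - Real.tanh x ^ 2 =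
      (Real.cosh x * Real.cosh x - Real.sinh x * Real.sinh x) / Real.cosh x ^ 2 := by
    rw [tanh_eq']
    have := (Real.cosh_pos x).ne'
    field_simp
  rw [e2, e]
  exact h

lemma continuous_tanh' : Continuous Real.tanh :=
  continuous_iff_continuousAt.2 fun x => (hasDerivAt_tanh' x).continuousAt

lemma tanh_abs_lt (a : ℝ) : |Real.tanh a| < 1 := by
  rw [tanh_eq', abs_div, abs_of_pos (Real.cosh_pos a), div_lt_one (Real.cosh_pos a), abs_lt]
  constructor
  · have := Real.cosh_add_sinh a
    have := Real.exp_pos a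
    linarith
  · have := Real.cosh_sub_sinh a
    have := Real.exp_pos (-a)
    linarith

/-- `∫_a^b (1/ε) (1 - tanh²((s-θ)/ε))² ds ≤ 4/3`. -/
lemma integral_sech4_le (ε : ℝ) (θ a b : ℝ) :
    ∫ s in a..b, (1 / ε) * (1 - Real.tanh ((s - θ) / ε) ^ 2) ^ 2 ≤ 4 / 3 := by
  set P : ℝ → ℝ := fun s => Real.tanh ((s - θ) / ε) - Real.tanh ((s - θ) / ε) ^ 3 / 3 with hP
  have hder : ∀ s ∈ uIcc a b, HasDerivAt P ((1 / ε) * (1 - Real.tanh ((s - θ) / ε) ^ 2) ^ 2) s := by
    intro s _
    have h1 : HasDerivAt (fun s : ℝ => (s - θ) / ε) (1 / ε) s :=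
      ((hasDerivAt_id s).sub_const θ).div_const ε
    have h2 := (hasDerivAt_tanh' ((s - θ) / ε)).comp s h1
    have h3 := h2.sub ((h2.pow 3).div_const 3)
    have e : (1 / ε) * (1 - Real.tanh ((s - θ) / ε) ^ 2) ^ 2 =
        (1 - Real.tanh ((s - θ) / ε) ^ 2) * (1 / ε) -
        (((3 : ℕ) : ℝ) * (Real.tanh ∘ fun s : ℝ => (s - θ) / ε) s ^ (3 - 1) *
          ((1 - Real.tanh ((s - θ) / ε) ^ 2) * (1 / ε))) / 3 := by
      simp only [Function.comp_apply]
      push_cast
      ring
    rw [e]
    exact h3
  have hcont : Continuous fun s : ℝ => (1 / ε) * (1 - Real.tanh ((s - θ) / ε) ^ 2) ^ 2 := by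
    have := continuous_tanh'.comp ((continuous_id.sub continuous_const).div_const (ε) : Continuous
      fun s : ℝ => (s - θ) / ε)
    exact continuous_const.mul ((continuous_const.sub (this.pow 2)).pow 2)
  rw [intervalIntegral.integral_eq_sub_of_hasDerivAt hder (hcont.intervalIntegrable _ _)]
  have hb : ∀ t : ℝ, |t| < 1 → |t - t ^ 3 / 3| ≤ 2 / 3 := by
    intro t ht
    rw [abs_lt] at ht
    rw [abs_le]
    constructor
    · nlinarith [mul_nonneg (sq_nonneg (t + 1)) (by linarith : (0 : ℝ) ≤ 2 - t)]
    · nlinarith [mul_nonneg (sq_nonneg (t - 1)) (by linarith : (0 : ℝ) ≤ 2 + t)]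
  have h1 := abs_le.1 (hb _ (tanh_abs_lt ((b - θ) / ε)))
  have h2 := abs_le.1 (hb _ (tanh_abs_lt ((a - θ) / ε)))
  simp only [hP]
  linarith

lemma VB.nonneg {φ : E → ℝ} {A : ℝ} (hV : VB φ A) : 0 ≤ A := by
  have h := hV (fun _ => 0) ⟨fun _ _ _ => rfl, fun _ => le_rfl, fun _ => zero_le_one,
    ⟨0, fun _ _ _ _ => by simp⟩⟩
  have e : flux φ (fun _ => (0 : ℝ)) = 0 := by
    unfold flux
    simp
  rw [e] at h
  by_contra hA
  push Not at hA
  have := mul_neg_of_neg_of_pos hA (cV_pos E)
  linarith

lemma VB.mono {φ : E → ℝ} {A B : ℝ} (hV : VB φ A) (hAB : A ≤ B) : VB φ B := fun ζ hζ =>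
  (hV ζ hζ).trans (mul_le_mul_of_nonneg_right hAB (cV_pos E).le)

/-- **Allen-Cahn energy of the profiles** (B5). -/
theorem VB.sech4 (hn : 3 ≤ Module.finrank ℝ E) {φ : E → ℝ} (h : NullCone φ) {A : ℝ}
    (hV : VB φ A) {ε : ℝ} (hε : 0 < ε) (θ : ℝ) :
    ∫ q : sphere (0 : E) 1, (1 / ε) * (1 - Real.tanh ((Real.arcsin (φ q) - θ) / ε) ^ 2) ^ 2
      ∂(sig E) ≤ 4 / 3 * A := by
  have hcont : Continuous fun s : ℝ => (1 / ε) * (1 - Real.tanh ((s - θ) / ε) ^ 2) ^ 2 := by
    have := continuous_tanh'.comp ((continuous_id.sub continuous_const).div_const (ε) : Continuous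
      fun s : ℝ => (s - θ) / ε)
    exact continuous_const.mul ((continuous_const.sub (this.pow 2)).pow 2)
  have hnn : ∀ s : ℝ, 0 ≤ (1 / ε) * (1 - Real.tanh ((s - θ) / ε) ^ 2) ^ 2 := fun s => by positivity
  have h1 := hV.slice hn h hcont hnn
  refine h1.trans ?_
  have h2 : ∫ s in (-(Real.pi / 2))..(Real.pi / 2),
      (1 / ε) * (1 - Real.tanh ((s - θ) / ε) ^ 2) ^ 2 * Real.cos s ^ (Module.finrank ℝ E - 2) ≤
      ∫ s in (-(Real.pi / 2))..(Real.pi / 2), (1 / ε) * (1 - Real.tanh ((s - θ) / ε) ^ 2) ^ 2 := by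
    apply intervalIntegral.integral_mono_on (by linarith [Real.pi_pos])
    · exact (hcont.mul (Real.continuous_cos.pow _)).intervalIntegrable _ _
    · exact hcont.intervalIntegrable _ _
    · intro s hs
      have hc : Real.cos s ^ (Module.finrank ℝ E - 2) ≤ 1 :=
        pow_le_one₀ (Real.cos_nonneg_of_mem_Icc hs) (Real.cos_le_one s)
      exact mul_le_of_le_one_right (hnn s) hc
  calc A * _ ≤ A * (4 / 3) := mul_le_mul_of_nonneg_left (h2.trans (integral_sech4_le ε θ _ _))
        hV.nonneg
    _ = 4 / 3 * A := mul_comm _ _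

/-- **Allen-Cahn energy of the boosted profiles** (B5), `‖z‖ ≤ 1`. -/
theorem VB_sech4_boost (hn : 3 ≤ Module.finrank ℝ E) {φ : E → ℝ} (h : NullCone φ) {A : ℝ}
    (hV : VB φ A) {ε : ℝ} (hε : 0 < ε) (θ : ℝ) {z : E} (hz : ‖z‖ ≤ 1) :
    ∫ q : sphere (0 : E) 1, (1 / ε) * (1 - Real.tanh ((Real.arcsin (boost φ z q) - θ) / ε) ^ 2) ^ 2
      ∂(sig E) ≤ 4 / 3 * A := by
  rcases lt_or_eq_of_le hz with hz1 | hz1
  · exact (hV.boost h hz1).sech4 hn (h.boost hz1) hε θ
  · set t : ℕ → ℝ := fun k => 1 - 1 / ((k : ℝ) + 1) with ht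
    have htl : Tendsto t atTop (𝓝 1) := by
      have := (tendsto_one_div_add_atTop_nhds_zero_nat (𝕜 := ℝ)).const_sub 1
      simpa [ht] using this
    have ht0 : ∀ k, 0 ≤ t k := by
      intro k
      have : 1 / ((k : ℝ) + 1) ≤ 1 := by
        rw [div_le_one (by positivity)]
        have := Nat.cast_nonneg (α := ℝ) k
        linarith
      simp only [ht]; linarith
    have ht1 : ∀ k, t k < 1 := by
      intro k
      have : 0 < 1 / ((k : ℝ) + 1) := by positivity
      simp only [ht]; linarith
    have hzk : ∀ k, ‖t k • z‖ < 1 := by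
      intro k
      rw [norm_smul, hz1, mul_one, Real.norm_of_nonneg (ht0 k)]
      exact ht1 k
    have hlim : Tendsto (fun k => ∫ q : sphere (0 : E) 1,
        (1 / ε) * (1 - Real.tanh ((Real.arcsin (boost φ (t k • z) q) - θ) / ε) ^ 2) ^ 2 ∂(sig E))
        atTop (𝓝 (∫ q : sphere (0 : E) 1,
        (1 / ε) * (1 - Real.tanh ((Real.arcsin (boost φ z q) - θ) / ε) ^ 2) ^ 2 ∂(sig E))) := by
      refine tendsto_integral_of_dominated_convergence (fun _ => 1 / ε) ?_ (integrable_const _) ?_ ?_
      · intro k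
        have hc : Continuous fun q : sphere (0 : E) 1 => boost φ (t k • z) q :=
          (boost_lipschitz h.lip (hzk k)).continuous.comp continuous_subtype_val
        have : Continuous fun q : sphere (0 : E) 1 =>
            (1 / ε) * (1 - Real.tanh ((Real.arcsin (boost φ (t k • z) q) - θ) / ε) ^ 2) ^ 2 := by
          have h1 := continuous_tanh'.comp
            (((Real.continuous_arcsin.comp hc).sub continuous_const).div_const (ε) : Continuous
              fun q : sphere (0 : E) 1 => (Real.arcsin (boost φ (t k • z) q) - θ) / ε)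
          exact continuous_const.mul ((continuous_const.sub (h1.pow 2)).pow 2)
        exact this.aestronglyMeasurable
      · intro k
        refine Eventually.of_forall fun q => ?_
        have h1 := abs_lt.1 (tanh_abs_lt ((Real.arcsin (boost φ (t k • z) q) - θ) / ε))
        set T := Real.tanh ((Real.arcsin (boost φ (t k • z) q) - θ) / ε)
        have h2 : T ^ 2 ≤ 1 := by nlinarith
        have h3 : (1 - T ^ 2) ^ 2 ≤ 1 := by nlinarith [sq_nonneg T]
        rw [Real.norm_of_nonneg (by positivity)]
        exact mul_le_of_le_one_right (by positivity) h3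
      · refine Eventually.of_forall fun q => ?_
        have hb : Tendsto (fun k => boost φ (t k • z) q) atTop (𝓝 (boost φ z q)) := by
          have hc := continuousOn_boost h
          have hm : (z, (q : E)) ∈ (closedBall (0 : E) 1) ×ˢ (univ : Set E) :=
            ⟨by rw [mem_closedBall_zero_iff]; exact hz, mem_univ _⟩
          have h1 : Tendsto (fun k => (t k • z, (q : E))) atTop
              (𝓝[(closedBall (0 : E) 1) ×ˢ (univ : Set E)] (z, (q : E))) := by
            rw [tendsto_nhdsWithin_iff]
            constructor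
            · have h2 : Tendsto (fun k => t k • z) atTop (𝓝 ((1 : ℝ) • z)) := htl.smul_const z
              rw [one_smul] at h2
              exact h2.prodMk_nhds tendsto_const_nhds
            · refine Eventually.of_forall fun k => ⟨?_, mem_univ _⟩
              rw [mem_closedBall_zero_iff]
              exact (hzk k).le
          exact (hc _ hm).tendsto.comp h1
        have hF : Continuous fun u : ℝ =>
            (1 / ε) * (1 - Real.tanh ((Real.arcsin u - θ) / ε) ^ 2) ^ 2 := by
          have h1 := continuous_tanh'.comp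
            (((Real.continuous_arcsin).sub continuous_const).div_const (ε) : Continuous
              fun u : ℝ => (Real.arcsin u - θ) / ε)
          exact continuous_const.mul ((continuous_const.sub (h1.pow 2)).pow 2)
        exact (hF.tendsto _).comp hb
    refine le_of_tendsto hlim (Eventually.of_forall fun k => ?_)
    exact (hV.boost h (hzk k)).sech4 hn (h.boost (hzk k)) hε θ

/-! ### Measurable slices -/

/-- a finite measure which is dominated on continuous functions is dominated. -/
lemma measure_le_of_lintegral_le {μ ν : Measure ℝ} [IsFiniteMeasure μ] [IsFiniteMeasure ν]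
    (h : ∀ f : ℝ → ℝ, Continuous f → (∀ s, 0 ≤ f s) → (∀ s, f s ≤ 1) →
      ∫⁻ s, ENNReal.ofReal (f s) ∂μ ≤ ∫⁻ s, ENNReal.ofReal (f s) ∂ν) : μ ≤ ν := by
  have hF : ∀ F : Set ℝ, IsClosed F → μ F ≤ ν F := by
    intro F hFc
    have hd : ∀ k : ℕ, (0 : ℝ) < 1 / ((k : ℝ) + 1) := fun k => by positivity
    have h1 := tendsto_lintegral_thickenedIndicator_of_isClosed μ hFc hd
      tendsto_one_div_add_atTop_nhds_zero_nat
    have h2 := tendsto_lintegral_thickenedIndicator_of_isClosed ν hFc hd
      tendsto_one_div_add_atTop_nhds_zero_nat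
    refine le_of_tendsto_of_tendsto' h1 h2 fun k => ?_
    have h3 := h (fun s => (thickenedIndicator (hd k) F s : ℝ))
      (NNReal.continuous_coe.comp (thickenedIndicator (hd k) F).continuous)
      (fun s => NNReal.coe_nonneg _) (fun s => by
        have := thickenedIndicator_le_one (hd k) F s
        exact_mod_cast this)
    simpa only [ENNReal.ofReal_coe_nnreal] using h3
  refine Measure.le_iff.2 fun B hB => ?_
  rw [hB.measure_eq_iSup_isClosed_of_ne_top (measure_ne_top μ B)]
  refine iSup_le fun F => iSup_le fun hFB => iSup_le fun hFc => ?_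
  exact (hF F hFc).trans (measure_mono hFB)

/-- **Slicing inequality**, measurable version. -/
theorem VB.slice_lintegral (hn : 3 ≤ Module.finrank ℝ E) {φ : E → ℝ} (h : NullCone φ) {A : ℝ}
    (hV : VB φ A) {f : ℝ → ℝ≥0∞} (hf : Measurable f) :
    ∫⁻ q : sphere (0 : E) 1, f (Real.arcsin (φ q)) ∂(sig E) ≤
      ENNReal.ofReal A * ∫⁻ s in Ioc (-(Real.pi / 2)) (Real.pi / 2),
        f s * ENNReal.ofReal (Real.cos s ^ (Module.finrank ℝ E - 2)) := by
  set m := Module.finrank ℝ E - 2 with hm
  set w : ℝ → ℝ≥0∞ := fun s => ENNReal.ofReal (Real.cos s ^ m) with hw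
  have hwm : Measurable w := (Real.measurable_cos.pow_const m).ennreal_ofReal
  have hφm : Measurable fun q : sphere (0 : E) 1 => Real.arcsin (φ q) :=
    (Real.continuous_arcsin.comp (h.lip.continuous.comp continuous_subtype_val)).measurable
  set μ : Measure ℝ := (sig E).map (fun q : sphere (0 : E) 1 => Real.arcsin (φ q)) with hμ
  set ν : Measure ℝ := ENNReal.ofReal A •
    (volume.restrict (Ioc (-(Real.pi / 2)) (Real.pi / 2))).withDensity w with hν
  have hνf0 : IsFiniteMeasure
      ((volume.restrict (Ioc (-(Real.pi / 2)) (Real.pi / 2))).withDensity w) := by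
    refine ⟨?_⟩
    rw [withDensity_apply _ MeasurableSet.univ, Measure.restrict_univ]
    refine lt_of_le_of_lt (lintegral_mono (g := fun _ => 1) fun s => ?_) ?_
    · simp only [hw]
      rw [← ENNReal.ofReal_one]
      apply ENNReal.ofReal_le_ofReal
      exact (le_abs_self _).trans (by
        rw [abs_pow]; exact pow_le_one₀ (abs_nonneg _) (Real.abs_cos_le_one s))
    · rw [lintegral_one, Measure.restrict_apply MeasurableSet.univ, univ_inter, Real.volume_Ioc]
      exact ENNReal.ofReal_lt_top
  have hνf : IsFiniteMeasure ν := by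
    rw [hν]; exact Measure.smul_finite _ ENNReal.ofReal_ne_top
  have hμf : IsFiniteMeasure μ := by
    rw [hμ]; exact Measure.isFiniteMeasure_map _ _
  have hle : μ ≤ ν := by
    refine measure_le_of_lintegral_le fun g hg hg0 hg1 => ?_
    have hgm : Measurable fun s => ENNReal.ofReal (g s) := hg.measurable.ennreal_ofReal
    rw [hμ, lintegral_map hgm hφm, hν, lintegral_smul_measure,
      lintegral_withDensity_eq_lintegral_mul _ hwm hgm]
    have h1 := hV.slice hn h hg hg0
    have hint1 : Integrable (fun q : sphere (0 : E) 1 => g (Real.arcsin (φ q))) (sig E) := by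
      refine Integrable.mono' (integrable_const (1 : ℝ))
        (hg.comp (Real.continuous_arcsin.comp (h.lip.continuous.comp
          continuous_subtype_val))).aestronglyMeasurable (Eventually.of_forall fun q => ?_)
      rw [Real.norm_of_nonneg (hg0 _)]; exact hg1 _
    rw [← ofReal_integral_eq_lintegral_ofReal hint1 (Eventually.of_forall fun q => hg0 _)]
    have h2 : ∫⁻ s in Ioc (-(Real.pi / 2)) (Real.pi / 2), (w * fun s => ENNReal.ofReal (g s)) s =
        ENNReal.ofReal (∫ s in (-(Real.pi / 2))..(Real.pi / 2), g s * Real.cos s ^ m) := by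
      rw [intervalIntegral.integral_of_le (by linarith [Real.pi_pos]),
        ofReal_integral_eq_lintegral_ofReal]
      · refine setLIntegral_congr_fun measurableSet_Ioc fun s hs => ?_
        simp only [hw, Pi.mul_apply]
        rw [mul_comm, ENNReal.ofReal_mul (hg0 s)]
      · exact (hg.mul (Real.continuous_cos.pow m)).integrableOn_Ioc
      · filter_upwards [ae_restrict_mem measurableSet_Ioc] with s hs
        exact mul_nonneg (hg0 s) (pow_nonneg
          (Real.cos_nonneg_of_mem_Icc ⟨hs.1.le, hs.2⟩) m)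
    rw [h2, smul_eq_mul, ← ENNReal.ofReal_mul hV.nonneg]
    exact ENNReal.ofReal_le_ofReal h1
  calc ∫⁻ q : sphere (0 : E) 1, f (Real.arcsin (φ q)) ∂(sig E) = ∫⁻ s, f s ∂μ := by
        rw [hμ, lintegral_map hf hφm]
    _ ≤ ∫⁻ s, f s ∂ν := lintegral_mono' hle le_rfl
    _ = _ := by
        rw [hν, lintegral_smul_measure, lintegral_withDensity_eq_lintegral_mul _ hwm hf, smul_eq_mul]
        congr 1
        refine lintegral_congr fun s => ?_
        rw [Pi.mul_apply, mul_comm]

end Crest.Agent.R246.H990
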