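import Crest.Agent.R246.Psi4_348
import Crest.Agent.R246.Slice2_990
import Crest.Agent.R246.Skel_656

/-!
# `StFam`: the Lie / de Sitter family of a null cone
-/

set_option autoImplicit false
set_option linter.unusedSectionVars false
set_option linter.unusedSimpArgs false
noncomputable section
open MeasureTheory Set Filter Topology Metric
open scoped RealInnerProductSpace ContDiff

namespace Crest.Agent.R246.StFam348

open Fam348 Psi348
open Crest.Agent.R246.H990 (NullCone VB boost)

lemma finrank_V (m : ℕ) : Module.finrank ℝ (Skel656.E m × ℝ × ℝ) = m + 4 := by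
  rw [Module.finrank_prod, Module.finrank_prod, finrank_euclideanSpace_fin, Module.finrank_self]

/-- **StFam** for `m ≥ 1`. -/
theorem stFam {m : ℕ} (hm : 1 ≤ m) : Skel656.StFam m := by
  intro φ hφ A hV ε hε
  have hn : 3 ≤ Module.finrank ℝ (Skel656.E m) := by
    rw [finrank_euclideanSpace_fin]; omega
  have hP : ∀ z : Skel656.E m, ‖z‖ < 1 → ∀ θ, PrE ε θ (boost φ z) ≤ 4 / 3 * A := fun z hz θ =>
    H990.VB_sech4_boost hn hφ hV hε θ hz.le
  have hA0 : 0 ≤ 4 / 3 * A := by
    have h1 := hP 0 (by simp) 0
    refine le_trans ?_ h1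
    unfold PrE
    exact integral_nonneg fun y => by positivity
  obtain ⟨U, h1, h2, h3⟩ := family_of_nullCone hφ hε hA0 hP
  exact ⟨Skel656.E m × ℝ × ℝ, inferInstance, inferInstance, inferInstance, U, finrank_V m, h1, h2, h3⟩

end Crest.Agent.R246.StFam348
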