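import Crest.Agent.R246.C8_378
import Crest.Agent.R246.StFam_348

/-!
# Row 246, part C (helper378): block C unconditionally, and `T_1`
-/

set_option autoImplicit false

namespace Crest.Agent.R246.C378

open Crest.Agent.R246.Skel656

/-- **block C** -/
theorem stC_final : StC kapm := stC fun _ hm => Crest.Agent.R246.StFam348.stFam hm

/-- **the base case `T_1`** : `V ≥ π²` -/
theorem tm_one : Tm 1 := top2 stC_final

end Crest.Agent.R246.C378
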