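import Mathlib.Analysis.InnerProductSpace.PiL2
import Mathlib.Analysis.InnerProductSpace.Calculus
import Mathlib.Analysis.Calculus.Rademacher
import Mathlib.MeasureTheory.Function.Jacobian
import Mathlib.MeasureTheory.Measure.Hausdorff
import Mathlib.Topology.Order.IntermediateValue
import Mathlib.Analysis.Calculus.Gradient.Basic

/-!
# Null cones (class `R_m` in homogeneous form) and Lorentz boosts

`NullCone φ` : `φ : E → ℝ` is positively 1-homogeneous, 1-Lipschitz, `‖∇φ‖ = 1` a.e. and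
`|φ x| ≤ c ‖x‖` with `c < 1`.  (`φ x = ‖x‖ sin r(x/‖x‖)` for `r` in the class `R_m`.)

`bT φ z : E → E` is the horizontal part of the boosted graph, `boost φ z` the boosted function.
-/

set_option autoImplicit false
set_option linter.unusedSectionVars false
set_option linter.unusedSimpArgs false
noncomputable section
open MeasureTheory Set Filter Topology
open scoped RealInnerProductSpace

namespace Crest.Agent.R246.H990

variable {E : Type*} [NormedAddCommGroup E] [InnerProductSpace ℝ E]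

/-! ### Lorentz boosts -/

/-- Lorentz factor. -/
def gam (z : E) : ℝ := 1 / Real.sqrt (1 - ‖z‖ ^ 2)

/-- `κ = γ² / (1+γ)`. -/
def kap (z : E) : ℝ := gam z ^ 2 / (1 + gam z)

lemma one_sub_pos {z : E} (hz : ‖z‖ < 1) : 0 < 1 - ‖z‖ ^ 2 := by
  have := norm_nonneg z
  nlinarith

lemma gam_pos {z : E} (hz : ‖z‖ < 1) : 0 < gam z := by
  have := Real.sqrt_pos.2 (one_sub_pos hz)
  unfold gam; positivity

lemma gam_sq {z : E} (hz : ‖z‖ < 1) : gam z ^ 2 * (1 - ‖z‖ ^ 2) = 1 := by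
  have h := one_sub_pos hz
  unfold gam
  rw [div_pow, Real.sq_sqrt h.le]
  field_simp

lemma one_le_gam {z : E} (hz : ‖z‖ < 1) : 1 ≤ gam z := by
  have h1 := gam_sq hz
  have h2 := gam_pos hz
  have h3 : 0 ≤ ‖z‖ ^ 2 := by positivity
  have h4 : 1 ≤ gam z ^ 2 := by
    have : 0 ≤ gam z ^ 2 * ‖z‖ ^ 2 := by positivity
    nlinarith
  nlinarith

lemma kap_nonneg {z : E} (hz : ‖z‖ < 1) : 0 ≤ kap z := by
  have := gam_pos hz
  unfold kap; positivity

/-- `1 + κ ‖z‖² = γ`. -/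
lemma one_add_kap {z : E} (hz : ‖z‖ < 1) : 1 + kap z * ‖z‖ ^ 2 = gam z := by
  have h1 := gam_sq hz
  have h2 := gam_pos hz
  unfold kap
  field_simp
  nlinarith

/-- `2 κ + κ² ‖z‖² = γ²`. -/
lemma kap_rel {z : E} (hz : ‖z‖ < 1) : 2 * kap z + kap z ^ 2 * ‖z‖ ^ 2 = gam z ^ 2 := by
  have h0 := one_add_kap hz
  have h2 := gam_pos hz
  have h3 : kap z * (1 + gam z) = gam z ^ 2 := by
    unfold kap; field_simp
  have : kap z ^ 2 * ‖z‖ ^ 2 = kap z * (gam z - 1) := by
    rw [← h0]; ring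
  rw [this, ← h3]; ring

/-- horizontal part of the boost by `z` of `(x,b)`. -/
def LX (z : E) (x : E) (b : ℝ) : E := x + (kap z * ⟪z, x⟫ + gam z * b) • z

/-- time part of the boost by `z` of `(x,b)`. -/
def LB (z : E) (x : E) (b : ℝ) : ℝ := gam z * (b + ⟪z, x⟫)

lemma LX_sub (z x y : E) (b c : ℝ) : LX z (x - y) (b - c) = LX z x b - LX z y c := by
  simp only [LX, inner_sub_right, mul_sub]
  module

lemma LB_sub (z x y : E) (b c : ℝ) : LB z (x - y) (b - c) = LB z x b - LB z y c := by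
  simp only [LB, inner_sub_right]; ring

lemma LX_smul (z x : E) (t b : ℝ) : LX z (t • x) (t * b) = t • LX z x b := by
  simp only [LX, inner_smul_right]
  module

lemma LB_smul (z x : E) (t b : ℝ) : LB z (t • x) (t * b) = t * LB z x b := by
  simp only [LB, inner_smul_right]; ring

/-- invariance of the polarised Minkowski form. -/
lemma form_inv {z : E} (hz : ‖z‖ < 1) (x y : E) (b c : ℝ) :
    ⟪LX z x b, LX z y c⟫ - LB z x b * LB z y c = ⟪x, y⟫ - b * c := by
  have h1 := kap_rel hz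
  have h2 := one_add_kap hz
  have h3 := gam_sq hz
  simp only [LX, LB, inner_add_left, inner_add_right, inner_smul_left, inner_smul_right,
    real_inner_self_eq_norm_sq]
  rw [real_inner_comm z x]
  simp only [RCLike.conj_to_real, starRingEnd_apply, star_trivial]
  generalize ⟪z, x⟫ = X
  generalize ⟪z, y⟫ = Y
  generalize ⟪x, y⟫ = P
  generalize kap z = k at *
  generalize gam z = g at *
  generalize ‖z‖ ^ 2 = N at *
  -- 2k + k²N = g², 1 + kN = g, g²(1-N) = 1
  have e1 : (k * X + g * b) * (k * Y + g * c) * N + (k * X + g * b) * Y + (k * Y + g * c) * X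
      - g * (b + X) * (g * (c + Y)) + b * c
      = (2 * k + k ^ 2 * N - g ^ 2) * (X * Y) + g * (1 + k * N - g) * (b * Y + c * X)
        + (1 - g ^ 2 * (1 - N)) * (b * c) := by ring
  have e2 : (2 * k + k ^ 2 * N - g ^ 2) = 0 := by linarith
  have e3 : (1 + k * N - g) = 0 := by linarith
  have e4 : (1 - g ^ 2 * (1 - N)) = 0 := by linarith
  rw [e2, e3, e4] at e1
  linarith

lemma form_inv_self {z : E} (hz : ‖z‖ < 1) (x : E) (b : ℝ) :
    ‖LX z x b‖ ^ 2 - LB z x b ^ 2 = ‖x‖ ^ 2 - b ^ 2 := by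
  have := form_inv hz x x b b
  simp only [real_inner_self_eq_norm_sq] at this
  nlinarith [this]

lemma gam_neg (z : E) : gam (-z) = gam z := by simp [gam]

lemma kap_neg (z : E) : kap (-z) = kap z := by simp [kap, gam_neg]

lemma LX_neg_LX {z : E} (hz : ‖z‖ < 1) (x : E) (b : ℝ) :
    LX (-z) (LX z x b) (LB z x b) = x := by
  have h1 := kap_rel hz
  have h2 := one_add_kap hz
  simp only [LX, LB, inner_neg_left, inner_add_right, inner_smul_right, kap_neg, gam_neg,
    real_inner_self_eq_norm_sq]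
  generalize ⟪z, x⟫ = X
  generalize kap z = k at *
  generalize gam z = g at *
  generalize ‖z‖ ^ 2 = N at *
  have : x + (k * X + g * b) • z + (k * (-X + (k * X + g * b) * -N) + g * (g * (b + X))) • -z
      = x + ((k * X + g * b) - (k * (-X + (k * X + g * b) * -N) + g * (g * (b + X)))) • z := by
    module
  rw [this]
  have e : ((k * X + g * b) - (k * (-X + (k * X + g * b) * -N) + g * (g * (b + X)))) = 0 := by
    have : ((k * X + g * b) - (k * (-X + (k * X + g * b) * -N) + g * (g * (b + X))))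
        = (2 * k + k ^ 2 * N - g ^ 2) * X + g * b * (1 + k * N - g) := by ring
    rw [this, h1, h2]; ring
  rw [e]; simp

lemma LB_neg_LX {z : E} (hz : ‖z‖ < 1) (x : E) (b : ℝ) :
    LB (-z) (LX z x b) (LB z x b) = b := by
  have h1 := one_add_kap hz
  have h3 := gam_sq hz
  simp only [LX, LB, inner_neg_left, inner_add_right, inner_smul_right, gam_neg,
    real_inner_self_eq_norm_sq]
  generalize ⟪z, x⟫ = X
  generalize kap z = k at *
  generalize gam z = g at *
  generalize ‖z‖ ^ 2 = N at *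
  have : g * (g * (b + X) + (-X + (k * X + g * b) * -N))
      = b + (g ^ 2 * (1 - N) - 1) * b + g * (g - (1 + k * N)) * X := by ring
  rw [this, h3, h1]; ring

/-! ### Null cones -/

/-- The class `R_m` in homogeneous form. -/
structure NullCone [FiniteDimensional ℝ E] [MeasurableSpace E] [BorelSpace E]
    (φ : E → ℝ) : Prop where
  hom : ∀ t : ℝ, 0 ≤ t → ∀ x, φ (t • x) = t * φ x
  lip : LipschitzWith 1 φ
  grad : ∀ᵐ x ∂(volume : Measure E), ‖fderiv ℝ φ x‖ = 1
  bd : ∃ c : ℝ, 0 ≤ c ∧ c < 1 ∧ ∀ x, |φ x| ≤ c * ‖x‖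

/-- horizontal part of the boosted graph -/
def bT (φ : E → ℝ) (z x : E) : E := LX z x (φ x)

lemma lip_abs {φ : E → ℝ} (h : LipschitzWith 1 φ) (x y : E) : |φ x - φ y| ≤ ‖x - y‖ := by
  have := h.dist_le_mul x y
  simpa [Real.dist_eq, dist_eq_norm] using this

/-- achronality of the boosted graph -/
lemma LB_le {φ : E → ℝ} (h : LipschitzWith 1 φ) {z : E} (hz : ‖z‖ < 1) (x y : E) :
    |LB z x (φ x) - LB z y (φ y)| ≤ ‖bT φ z x - bT φ z y‖ := by
  have h1 := form_inv_self hz (x - y) (φ x - φ y)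
  rw [LX_sub, LB_sub] at h1
  have h2 := lip_abs h x y
  have h3 : (φ x - φ y) ^ 2 ≤ ‖x - y‖ ^ 2 := by
    rw [← sq_abs (φ x - φ y)]
    exact pow_le_pow_left₀ (abs_nonneg _) h2 2
  apply abs_le_of_sq_le_sq _ (norm_nonneg _)
  unfold bT
  linarith

/-- size of the boost in terms of the image: a crude linear bound -/
lemma norm_LX_le {z : E} (hz : ‖z‖ < 1) (x : E) (b : ℝ) :
    ‖LX z x b‖ ≤ (1 + kap z) * ‖x‖ + gam z * |b| := by
  have hk := kap_nonneg hz
  have hg := gam_pos hz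
  have h1 : |⟪z, x⟫| ≤ ‖x‖ := by
    calc |⟪z, x⟫| ≤ ‖z‖ * ‖x‖ := abs_real_inner_le_norm z x
      _ ≤ 1 * ‖x‖ := by gcongr
      _ = ‖x‖ := one_mul _
  calc ‖LX z x b‖ ≤ ‖x‖ + ‖(kap z * ⟪z, x⟫ + gam z * b) • z‖ := norm_add_le _ _
    _ = ‖x‖ + |kap z * ⟪z, x⟫ + gam z * b| * ‖z‖ := by rw [norm_smul, Real.norm_eq_abs]
    _ ≤ ‖x‖ + (kap z * ‖x‖ + gam z * |b|) * 1 := by
        gcongr
        calc |kap z * ⟪z, x⟫ + gam z * b| ≤ |kap z * ⟪z, x⟫| + |gam z * b| := abs_add_le _ _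
          _ = kap z * |⟪z, x⟫| + gam z * |b| := by
            rw [abs_mul, abs_mul, abs_of_nonneg hk, abs_of_pos hg]
          _ ≤ kap z * ‖x‖ + gam z * |b| := by gcongr
    _ = (1 + kap z) * ‖x‖ + gam z * |b| := by ring

/-- the bi-Lipschitz constant -/
def bC (z : E) : ℝ := 1 + kap z + gam z

lemma bC_pos {z : E} (hz : ‖z‖ < 1) : 0 < bC z := by
  have hk := kap_nonneg hz
  have hg := gam_pos hz
  unfold bC; positivity

lemma bC_neg (z : E) : bC (-z) = bC z := by simp [bC, kap_neg, gam_neg]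

lemma bT_sub_le {φ : E → ℝ} (h : LipschitzWith 1 φ) {z : E} (hz : ‖z‖ < 1) (x y : E) :
    ‖bT φ z x - bT φ z y‖ ≤ bC z * ‖x - y‖ := by
  have h1 := norm_LX_le hz (x - y) (φ x - φ y)
  rw [LX_sub] at h1
  have h2 := lip_abs h x y
  have hg := gam_pos hz
  unfold bT bC
  nlinarith [h1, h2, mul_le_mul_of_nonneg_left h2 hg.le]

lemma le_bT_sub {φ : E → ℝ} (h : LipschitzWith 1 φ) {z : E} (hz : ‖z‖ < 1) (x y : E) :
    ‖x - y‖ ≤ bC z * ‖bT φ z x - bT φ z y‖ := by
  have hz' : ‖-z‖ < 1 := by simpa using hz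
  have h1 := norm_LX_le hz' (LX z (x - y) (φ x - φ y)) (LB z (x - y) (φ x - φ y))
  rw [LX_neg_LX hz, kap_neg, gam_neg] at h1
  have h2 := LB_le h hz x y
  rw [← LB_sub] at h2
  rw [LX_sub] at h1
  have hg := gam_pos hz
  unfold bT at *
  unfold bC
  nlinarith [h1, h2, mul_le_mul_of_nonneg_left h2 hg.le]

lemma bT_injective {φ : E → ℝ} (h : LipschitzWith 1 φ) {z : E} (hz : ‖z‖ < 1) :
    Function.Injective (bT φ z) := by
  intro x y hxy
  have := le_bT_sub h hz x y
  rw [hxy, sub_self, norm_zero, mul_zero] at this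
  exact sub_eq_zero.1 (norm_le_zero_iff.1 this)

lemma bT_lipschitz {φ : E → ℝ} (h : LipschitzWith 1 φ) {z : E} (hz : ‖z‖ < 1) :
    LipschitzWith (Real.toNNReal (bC z)) (bT φ z) := by
  refine LipschitzWith.of_dist_le_mul fun x y => ?_
  rw [dist_eq_norm, dist_eq_norm, Real.coe_toNNReal _ (bC_pos hz).le]
  exact bT_sub_le h hz x y

lemma bT_surjective {φ : E → ℝ} (h : LipschitzWith 1 φ) {z : E} (hz : ‖z‖ < 1) :
    Function.Surjective (bT φ z) := by
  intro y
  -- find t with bT (y + t z) = y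
  set H : ℝ → ℝ := fun t => gam z * t + kap z * ⟪z, y⟫ + gam z * φ (y + t • z) with hH
  have hcont : Continuous H := by
    have := h.continuous
    fun_prop
  have hg := gam_pos hz
  have hzn := norm_nonneg z
  have hb : ∀ t : ℝ, |φ (y + t • z) - φ y| ≤ |t| * ‖z‖ := by
    intro t
    have := lip_abs h (y + t • z) y
    rwa [add_sub_cancel_left, norm_smul, Real.norm_eq_abs] at this
  -- H t ≥ g(1-|z|) t + const for t ≥ 0; similarly for t ≤ 0
  set c0 : ℝ := kap z * ⟪z, y⟫ + gam z * φ y with hc0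
  set s : ℝ := gam z * (1 - ‖z‖) with hs
  have hspos : 0 < s := mul_pos hg (by linarith)
  have hup : ∀ t : ℝ, 0 ≤ t → s * t + c0 ≤ H t := by
    intro t ht
    have h1 := hb t
    rw [abs_of_nonneg ht] at h1
    have h2 := (abs_le.1 h1).1
    simp only [hH, hs, hc0]
    nlinarith [mul_le_mul_of_nonneg_left h2 hg.le]
  have hlo : ∀ t : ℝ, t ≤ 0 → H t ≤ s * t + c0 := by
    intro t ht
    have h1 := hb t
    rw [abs_of_nonpos ht] at h1
    have h2 := (abs_le.1 h1).2
    simp only [hH, hs, hc0]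
    nlinarith [mul_le_mul_of_nonneg_left h2 hg.le]
  set T : ℝ := (|c0| + 1) / s with hT
  have hTpos : 0 < T := by positivity
  have hsT : s * T = |c0| + 1 := by rw [hT]; field_simp
  have hposT : 0 ≤ H T := by
    have := hup T hTpos.le
    have h3 := neg_abs_le c0
    linarith
  have hnegT : H (-T) ≤ 0 := by
    have := hlo (-T) (by linarith)
    have h3 := le_abs_self c0
    have : s * -T = -(|c0| + 1) := by rw [mul_neg, hsT]
    linarith
  obtain ⟨t, -, ht⟩ := intermediate_value_Icc (by linarith : -T ≤ T) hcont.continuousOn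
    (show (0 : ℝ) ∈ Icc (H (-T)) (H T) from ⟨hnegT, hposT⟩)
  refine ⟨y + t • z, ?_⟩
  simp only [bT, LX, inner_add_right, inner_smul_right, real_inner_self_eq_norm_sq]
  have h2 := one_add_kap hz
  have : y + t • z + (kap z * (⟪z, y⟫ + t * ‖z‖ ^ 2) + gam z * φ (y + t • z)) • z
      = y + (t * (1 + kap z * ‖z‖ ^ 2) + kap z * ⟪z, y⟫ + gam z * φ (y + t • z)) • z := by
    module
  rw [this, h2]
  have e : t * gam z + kap z * ⟪z, y⟫ + gam z * φ (y + t • z) = 0 := by
    rw [← ht, hH]; ring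
  rw [e]; simp

/-- the inverse of `bT`. -/
def bS (φ : E → ℝ) (z : E) : E → E := Function.invFun (bT φ z)

lemma bT_bS {φ : E → ℝ} (h : LipschitzWith 1 φ) {z : E} (hz : ‖z‖ < 1) (y : E) :
    bT φ z (bS φ z y) = y := Function.rightInverse_invFun (bT_surjective h hz) y

lemma bS_bT {φ : E → ℝ} (h : LipschitzWith 1 φ) {z : E} (hz : ‖z‖ < 1) (x : E) :
    bS φ z (bT φ z x) = x := Function.leftInverse_invFun (bT_injective h hz) x

lemma bS_sub_le {φ : E → ℝ} (h : LipschitzWith 1 φ) {z : E} (hz : ‖z‖ < 1) (x y : E) :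
    ‖bS φ z x - bS φ z y‖ ≤ bC z * ‖x - y‖ := by
  have := le_bT_sub h hz (bS φ z x) (bS φ z y)
  rwa [bT_bS h hz, bT_bS h hz] at this

lemma bS_lipschitz {φ : E → ℝ} (h : LipschitzWith 1 φ) {z : E} (hz : ‖z‖ < 1) :
    LipschitzWith (Real.toNNReal (bC z)) (bS φ z) := by
  refine LipschitzWith.of_dist_le_mul fun x y => ?_
  rw [dist_eq_norm, dist_eq_norm, Real.coe_toNNReal _ (bC_pos hz).le]
  exact bS_sub_le h hz x y

/-- the boosted function (only meaningful for `‖z‖ < 1`); for `‖z‖ ≥ 1` it is `⟪z, ·⟫`. -/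
def boost (φ : E → ℝ) (z : E) (y : E) : ℝ :=
  if ‖z‖ < 1 then LB z (bS φ z y) (φ (bS φ z y)) else ⟪z, y⟫

lemma boost_of_lt {φ : E → ℝ} {z : E} (hz : ‖z‖ < 1) (y : E) :
    boost φ z y = LB z (bS φ z y) (φ (bS φ z y)) := by simp [boost, hz]

lemma boost_of_not_lt {φ : E → ℝ} {z : E} (hz : ¬ ‖z‖ < 1) (y : E) :
    boost φ z y = ⟪z, y⟫ := by simp [boost, hz]

lemma boost_bT {φ : E → ℝ} (h : LipschitzWith 1 φ) {z : E} (hz : ‖z‖ < 1) (x : E) :
    boost φ z (bT φ z x) = LB z x (φ x) := by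
  rw [boost_of_lt hz, bS_bT h hz]

lemma boost_lipschitz {φ : E → ℝ} (h : LipschitzWith 1 φ) {z : E} (hz : ‖z‖ < 1) :
    LipschitzWith 1 (boost φ z) := by
  refine LipschitzWith.of_dist_le_mul fun x y => ?_
  rw [NNReal.coe_one, one_mul, Real.dist_eq, dist_eq_norm, boost_of_lt hz, boost_of_lt hz]
  have := LB_le h hz (bS φ z x) (bS φ z y)
  rwa [bT_bS h hz, bT_bS h hz] at this

/-- Minkowski form identity along the graph -/
lemma boost_form {φ : E → ℝ} (h : LipschitzWith 1 φ) {z : E} (hz : ‖z‖ < 1) (x : E) :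
    ‖bT φ z x‖ ^ 2 - boost φ z (bT φ z x) ^ 2 = ‖x‖ ^ 2 - φ x ^ 2 := by
  rw [boost_bT h hz]
  exact form_inv_self hz x (φ x)

end Crest.Agent.R246.H990
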