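import Crest.Agent.R236.MPJet

/-!
Row 246, block D2 (helper782): smooth 0-homogeneous functions on `ℝⁿ ∖ {0}` (= smooth functions on the
unit sphere), flat Bochner identity, and MODICA's gradient bound for the Allen–Cahn equation on the sphere.
-/

set_option autoImplicit false

open Filter Topology Metric Set
open scoped ContDiff
open Crest.GeometryTopology.CoordMetric Crest.GeometryTopology.AffineMaximal
open Crest.Agent.R236.Jet

noncomputable section

namespace Crest.Agent.R246.D2x782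

variable {n : ℕ}

local notation "EE" => EuclideanSpace ℝ (Fin n)

/-- smooth functions on the unit sphere, as smooth `0`-homogeneous functions on `ℝⁿ ∖ {0}` -/
structure SmHom0 (R : EuclideanSpace ℝ (Fin n) → ℝ) : Prop where
  smooth : ∀ x : EuclideanSpace ℝ (Fin n), x ≠ 0 → ContDiffAt ℝ ∞ R x
  hom : ∀ (t : ℝ) (x : EuclideanSpace ℝ (Fin n)), 0 < t → R (t • x) = R x

/-- `|x|²` -/
def nsq (x : EuclideanSpace ℝ (Fin n)) : ℝ := ∑ i, x i * x i

/-- `|∇R|²` -/
def gsq (R : EuclideanSpace ℝ (Fin n) → ℝ) (x : EuclideanSpace ℝ (Fin n)) : ℝ :=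
  ∑ j, pderiv j R x * pderiv j R x

/-- `ΔR` -/
def lapl (R : EuclideanSpace ℝ (Fin n) → ℝ) (x : EuclideanSpace ℝ (Fin n)) : ℝ :=
  ∑ i, hessianMat R x i i

/-- `|x|² |∇R|²`: the squared spherical gradient -/
def sgsq (R : EuclideanSpace ℝ (Fin n) → ℝ) (x : EuclideanSpace ℝ (Fin n)) : ℝ :=
  nsq x * gsq R x

/-- `|x|² ΔR`: the spherical Laplacian -/
def slap (R : EuclideanSpace ℝ (Fin n) → ℝ) (x : EuclideanSpace ℝ (Fin n)) : ℝ :=
  nsq x * lapl R x

theorem nsq_eq (x : EE) : nsq x = ‖x‖ ^ 2 := by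
  rw [EuclideanSpace.real_norm_sq_eq, nsq]
  exact Finset.sum_congr rfl fun i _ => (sq _).symm

theorem nsq_pos {x : EE} (hx : x ≠ 0) : 0 < nsq x := by
  rw [nsq_eq]; exact pow_pos (norm_pos_iff.2 hx) 2

theorem gsq_nonneg (R : EE → ℝ) (x : EE) : 0 ≤ gsq R x :=
  Finset.sum_nonneg fun _ _ => mul_self_nonneg _

theorem smooth_coord (k : Fin n) (x : EE) : ContDiffAt ℝ ∞ (fun y : EE => y k) x :=
  (EuclideanSpace.proj k : EE →L[ℝ] ℝ).contDiff.contDiffAt

theorem smooth_nsq (x : EE) : ContDiffAt ℝ ∞ (nsq (n := n)) x := by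
  unfold nsq
  exact ContDiffAt.sum fun i _ => (smooth_coord i x).mul (smooth_coord i x)

theorem ev_ne {x : EE} (hx : x ≠ 0) : ∀ᶠ y in 𝓝 x, y ≠ 0 := isOpen_ne.mem_nhds hx

namespace SmHom0

variable {R : EuclideanSpace ℝ (Fin n) → ℝ}

theorem sp (h : SmHom0 R) {x : EE} (hx : x ≠ 0) (i : Fin n) :
    ContDiffAt ℝ ∞ (fun y => pderiv i R y) x := sm_pderiv (h.smooth x hx) i

theorem spp (h : SmHom0 R) {x : EE} (hx : x ≠ 0) (i j : Fin n) :
    ContDiffAt ℝ ∞ (fun y => hessianMat R y i j) x := sm_pderiv (h.sp hx j) i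

theorem smooth_gsq (h : SmHom0 R) {x : EE} (hx : x ≠ 0) : ContDiffAt ℝ ∞ (gsq R) x := by
  unfold gsq
  exact ContDiffAt.sum fun i _ => (h.sp hx i).mul (h.sp hx i)

theorem smooth_lapl (h : SmHom0 R) {x : EE} (hx : x ≠ 0) : ContDiffAt ℝ ∞ (lapl R) x := by
  unfold lapl
  exact ContDiffAt.sum fun i _ => h.spp hx i i

theorem smooth_sgsq (h : SmHom0 R) {x : EE} (hx : x ≠ 0) : ContDiffAt ℝ ∞ (sgsq R) x :=
  (smooth_nsq x).mul (h.smooth_gsq hx)

theorem smooth_slap (h : SmHom0 R) {x : EE} (hx : x ≠ 0) : ContDiffAt ℝ ∞ (slap R) x :=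
  (smooth_nsq x).mul (h.smooth_lapl hx)

/-- Euler's identity -/
theorem euler (h : SmHom0 R) {x : EE} (hx : x ≠ 0) : ∑ i, x i * pderiv i R x = 0 := by
  have h1 : HasDerivAt (fun t : ℝ => t • x) ((1 : ℝ) • x) 1 := (hasDerivAt_id (1 : ℝ)).smul_const x
  rw [one_smul] at h1
  have h2 : HasFDerivAt R (fderiv ℝ R x) ((1 : ℝ) • x) := by
    rw [one_smul]; exact (sm_diff (h.smooth x hx)).hasFDerivAt
  have h3 : HasDerivAt (fun t : ℝ => R (t • x)) (fderiv ℝ R x x) 1 := h2.comp_hasDerivAt 1 h1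
  have h4 : (fun t : ℝ => R (t • x)) =ᶠ[𝓝 1] fun _ => R x := by
    filter_upwards [Ioi_mem_nhds (zero_lt_one (α := ℝ))] with t ht using h.hom t x ht
  have h5 : fderiv ℝ R x x = 0 := by
    have := h4.deriv_eq
    rw [h3.deriv, deriv_const] at this
    exact this
  rw [fderiv_eq_sum] at h5
  rw [← h5]
  exact Finset.sum_congr rfl fun i _ => mul_comm _ _

/-- the radial column of the Hessian -/
theorem hess_radial (h : SmHom0 R) {x : EE} (hx : x ≠ 0) (j : Fin n) :
    ∑ i, x i * hessianMat R x j i = - pderiv j R x := by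
  have h1 : (fun y : EE => ∑ i, y i * pderiv i R y) =ᶠ[𝓝 x] fun _ => 0 := by
    filter_upwards [ev_ne hx] with y hy using h.euler hy
  have h2 := pderiv_congr h1 j
  rw [pderiv_const, pderiv_sum (f := fun (i : Fin n) (y : EE) => y i * pderiv i R y)
    (fun i _ => ((sm_diff (smooth_coord i x)).mul (sm_diff (h.sp hx i))))] at h2
  have h3 : ∀ i : Fin n, pderiv j (fun y : EE => y i * pderiv i R y) x =
      x i * hessianMat R x j i + (if i = j then pderiv i R x else 0) := by
    intro i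
    rw [pderiv_mul (sm_diff (smooth_coord i x)) (sm_diff (h.sp hx i)), pderiv_coord]
    unfold hessianMat
    split_ifs <;> simp
  rw [Finset.sum_congr rfl fun i _ => h3 i, Finset.sum_add_distrib, Finset.sum_ite_eq' Finset.univ j]
    at h2
  simp only [Finset.mem_univ, if_true] at h2
  linarith

/-- the first derivatives are homogeneous of degree `-1` -/
theorem pderiv_smul (h : SmHom0 R) {x : EE} (hx : x ≠ 0) {t : ℝ} (ht : 0 < t) (i : Fin n) :
    pderiv i R (t • x) = t⁻¹ * pderiv i R x := by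
  have htx : t • x ≠ 0 := smul_ne_zero ht.ne' hx
  have h1 : HasFDerivAt (fun y : EE => R (t • y)) ((fderiv ℝ R (t • x)).comp
      (t • ContinuousLinearMap.id ℝ EE)) x := by
    have h2 : HasFDerivAt (fun y : EE => t • y) (t • ContinuousLinearMap.id ℝ EE) x :=
      (hasFDerivAt_id x).const_smul t
    exact (sm_diff (h.smooth _ htx)).hasFDerivAt.comp x h2
  have h3 : (fun y : EE => R (t • y)) = R := by
    funext y; exact h.hom t y ht
  rw [h3] at h1
  have h4 : pderiv i R x = t * pderiv i R (t • x) := by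
    unfold pderiv
    rw [h1.fderiv]
    simp
  rw [h4]
  field_simp

theorem sgsq_smul (h : SmHom0 R) {x : EE} (hx : x ≠ 0) {t : ℝ} (ht : 0 < t) :
    sgsq R (t • x) = sgsq R x := by
  unfold sgsq gsq
  have h1 : nsq (t • x) = t ^ 2 * nsq x := by
    rw [nsq_eq, nsq_eq, norm_smul, Real.norm_eq_abs, abs_of_pos ht]; ring
  rw [h1, Finset.mul_sum, Finset.mul_sum]
  refine Finset.sum_congr rfl fun i _ => ?_
  rw [h.pderiv_smul hx ht]
  field_simp

/-- the Hessian matrix is symmetric -/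
theorem hsymm (h : SmHom0 R) {x : EE} (hx : x ≠ 0) (i j : Fin n) :
    hessianMat R x i j = hessianMat R x j i := hess_symm (h.smooth x hx) i j

/-- the Laplacian commutes with `∂ⱼ` -/
theorem lap_pderiv (h : SmHom0 R) {x : EE} (hx : x ≠ 0) (j : Fin n) :
    ∑ i, hessianMat (fun y => pderiv j R y) x i i = pderiv j (lapl R) x := by
  have h0 : pderiv j (lapl R) x = ∑ i, pderiv j (fun y => hessianMat R y i i) x := by
    show pderiv j (fun y => ∑ i, hessianMat R y i i) x = _
    exact pderiv_sum (f := fun (i : Fin n) (y : EE) => hessianMat R y i i)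
      (fun i _ => sm_diff (h.spp hx i i)) j
  rw [h0]
  refine Finset.sum_congr rfl fun i _ => ?_
  have h1 : (fun y => pderiv i (fun z => pderiv j R z) y) =ᶠ[𝓝 x]
      fun y => pderiv j (fun z => pderiv i R z) y := by
    filter_upwards [ev_ne hx] with y hy using h.hsymm hy i j
  have h2 : hessianMat (fun y => pderiv j R y) x i i
      = pderiv i (fun y => pderiv j (fun z => pderiv i R z) y) x := pderiv_congr h1 i
  rw [h2]
  exact hess_symm (h.sp hx i) i j

/-- `∂ᵢ |∇R|² = 2 Σⱼ ∂ⱼR ∂ᵢ∂ⱼR` -/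
theorem pderiv_gsq (h : SmHom0 R) {x : EE} (hx : x ≠ 0) (i : Fin n) :
    pderiv i (gsq R) x = 2 * ∑ j, pderiv j R x * hessianMat R x i j := by
  show pderiv i (fun y => ∑ j, pderiv j R y * pderiv j R y) x = _
  rw [pderiv_sum (f := fun (j : Fin n) (y : EE) => pderiv j R y * pderiv j R y)
    (fun j _ => (sm_diff (h.sp hx j)).mul (sm_diff (h.sp hx j))), Finset.mul_sum]
  refine Finset.sum_congr rfl fun j _ => ?_
  rw [pderiv_mul (sm_diff (h.sp hx j)) (sm_diff (h.sp hx j))]
  show pderiv j R x * hessianMat R x i j + pderiv j R x * hessianMat R x i j = _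
  ring

/-- second derivatives of `|∇R|²` -/
theorem hess_gsq (h : SmHom0 R) {x : EE} (hx : x ≠ 0) (i : Fin n) :
    hessianMat (gsq R) x i i = 2 * ∑ j, (hessianMat R x i j ^ 2 +
      pderiv j R x * hessianMat (fun y => pderiv j R y) x i i) := by
  show hessianMat (fun y => ∑ j, pderiv j R y * pderiv j R y) x i i = _
  rw [hess_sum (f := fun (j : Fin n) (y : EE) => pderiv j R y * pderiv j R y)
    (fun j _ => (h.sp hx j).mul (h.sp hx j)), Finset.mul_sum]
  refine Finset.sum_congr rfl fun j _ => ?_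
  rw [hess_mul (h.sp hx j) (h.sp hx j)]
  show _ + _ + hessianMat R x i j * hessianMat R x i j
    + hessianMat R x i j * hessianMat R x i j = _
  ring

/-- FLAT BOCHNER IDENTITY -/
theorem bochner (h : SmHom0 R) {x : EE} (hx : x ≠ 0) :
    lapl (gsq R) x = 2 * (∑ i, ∑ j, hessianMat R x i j ^ 2)
      + 2 * ∑ j, pderiv j R x * pderiv j (lapl R) x := by
  unfold lapl
  rw [Finset.sum_congr rfl fun i _ => h.hess_gsq hx i, ← Finset.mul_sum, ← mul_add]
  congr 1
  simp only [Finset.sum_add_distrib]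
  congr 1
  rw [Finset.sum_comm]
  refine Finset.sum_congr rfl fun j _ => ?_
  rw [← Finset.mul_sum, h.lap_pderiv hx j]
  rfl

theorem pderiv_nsq (x : EE) (i : Fin n) : pderiv i (nsq (n := n)) x = 2 * x i := by
  show pderiv i (fun y : EE => ∑ k, y k * y k) x = _
  rw [pderiv_sum (f := fun (k : Fin n) (y : EE) => y k * y k)
    (fun k _ => (sm_diff (smooth_coord k x)).mul (sm_diff (smooth_coord k x)))]
  have h3 : ∀ k : Fin n, pderiv i (fun y : EE => y k * y k) x =
      if k = i then 2 * x k else 0 := by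
    intro k
    rw [pderiv_mul (sm_diff (smooth_coord k x)) (sm_diff (smooth_coord k x)), pderiv_coord]
    split_ifs <;> ring
  rw [Finset.sum_congr rfl fun k _ => h3 k, Finset.sum_ite_eq' Finset.univ i]
  simp

theorem hess_nsq (x : EE) (i : Fin n) : hessianMat (nsq (n := n)) x i i = 2 := by
  unfold hessianMat
  have h1 : (fun y : EE => pderiv i (nsq (n := n)) y) = fun y => 2 * y i := by
    funext y; exact pderiv_nsq y i
  rw [h1, pderiv_cmul (sm_diff (smooth_coord i x)), pderiv_coord]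
  simp

/-- Laplacian of the spherical energy density -/
theorem lapl_sgsq (h : SmHom0 R) {x : EE} (hx : x ≠ 0) :
    lapl (sgsq R) x = (2 * (n : ℝ) - 8) * gsq R x
      + nsq x * (2 * (∑ i, ∑ j, hessianMat R x i j ^ 2)
        + 2 * ∑ j, pderiv j R x * pderiv j (lapl R) x) := by
  have h1 : ∀ i : Fin n, hessianMat (sgsq R) x i i = nsq x * hessianMat (gsq R) x i i
      + gsq R x * 2 + 4 * (x i * pderiv i (gsq R) x) := by
    intro i
    show hessianMat (fun y => nsq y * gsq R y) x i i = _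
    rw [hess_mul (smooth_nsq x) (h.smooth_gsq hx), hess_nsq, pderiv_nsq]
    ring
  have h2 : ∑ i, x i * pderiv i (gsq R) x = -2 * gsq R x := by
    have h3 : ∀ i : Fin n, x i * pderiv i (gsq R) x =
        ∑ j, 2 * (pderiv j R x * (x i * hessianMat R x j i)) := by
      intro i
      rw [h.pderiv_gsq hx i, Finset.mul_sum, Finset.mul_sum]
      refine Finset.sum_congr rfl fun j _ => ?_
      rw [h.hsymm hx i j]; ring
    rw [Finset.sum_congr rfl fun i _ => h3 i, Finset.sum_comm]
    unfold gsq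
    rw [Finset.mul_sum]
    refine Finset.sum_congr rfl fun j _ => ?_
    rw [← Finset.mul_sum, ← Finset.mul_sum, h.hess_radial hx j]
    ring
  rw [← h.bochner hx]
  have h4 : ∑ i, 4 * (x i * pderiv i (gsq R) x) = 4 * (-2 * gsq R x) := by
    rw [← Finset.mul_sum, h2]
  have h5 : ∑ i, nsq x * hessianMat (gsq R) x i i = nsq x * lapl (gsq R) x := by
    rw [← Finset.mul_sum]; rfl
  have h6 : ∑ _i : Fin n, gsq R x * 2 = (n : ℝ) * (gsq R x * 2) := by
    simp only [Finset.sum_const, Finset.card_univ, Fintype.card_fin, nsmul_eq_mul]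
  have h7 : lapl (sgsq R) x = ∑ i, (nsq x * hessianMat (gsq R) x i i
      + gsq R x * 2 + 4 * (x i * pderiv i (gsq R) x)) := Finset.sum_congr rfl fun i _ => h1 i
  rw [h7, Finset.sum_add_distrib, Finset.sum_add_distrib, h4, h5, h6]
  ring

/-- `|x|² |D²R|² ≥ 2 |∇R|²` -/
theorem hess_lower (h : SmHom0 R) {x : EE} (hx : x ≠ 0) :
    2 * gsq R x ≤ nsq x * ∑ i, ∑ j, hessianMat R x i j ^ 2 := by
  set H := hessianMat R x with hH
  set p : Fin n → ℝ := fun j => pderiv j R x with hp
  have hr : ∀ j, ∑ i, x i * H j i = - p j := fun j => h.hess_radial hx j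
  have hN : 0 < nsq x := nsq_pos hx
  have he : ∑ i, x i * p i = 0 := h.euler hx
  have hs : ∀ i j, H i j = H j i := fun i j => h.hsymm hx i j
  -- expand the square of `|x|² H + x ⊗ p + p ⊗ x`
  have h0 : 0 ≤ ∑ i, ∑ j, (nsq x * H i j + x i * p j + p i * x j) ^ 2 :=
    Finset.sum_nonneg fun i _ => Finset.sum_nonneg fun j _ => sq_nonneg _
  have hexp : ∑ i, ∑ j, (nsq x * H i j + x i * p j + p i * x j) ^ 2
      = nsq x ^ 2 * (∑ i, ∑ j, H i j ^ 2) + 2 * nsq x * gsq R x
        + 4 * nsq x * (∑ i, ∑ j, H i j * (x i * p j)) := by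
    have e1 : ∀ i j, (nsq x * H i j + x i * p j + p i * x j) ^ 2 =
        nsq x ^ 2 * H i j ^ 2 + (x i * x i) * (p j * p j) + (p i * p i) * (x j * x j)
        + 2 * nsq x * (H i j * (x i * p j)) + 2 * nsq x * (H i j * (x j * p i))
        + 2 * ((x i * p i) * (x j * p j)) := fun i j => by ring
    simp only [e1, Finset.sum_add_distrib, ← Finset.mul_sum, ← Finset.sum_mul]
    have e2 : ∑ i, ∑ j, H i j * (x j * p i) = ∑ i, ∑ j, H i j * (x i * p j) := by
      rw [Finset.sum_comm]
      exact Finset.sum_congr rfl fun i _ => Finset.sum_congr rfl fun j _ => by rw [hs j i]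
    rw [e2, he]
    unfold nsq gsq
    simp only [hp]
    ring
  have hc : ∑ i, ∑ j, H i j * (x i * p j) = - gsq R x := by
    rw [Finset.sum_comm]
    have e3 : ∀ j, ∑ i, H i j * (x i * p j) = - (p j * p j) := by
      intro j
      have : ∑ i, H i j * (x i * p j) = p j * ∑ i, x i * H j i := by
        rw [Finset.mul_sum]
        exact Finset.sum_congr rfl fun i _ => by rw [hs i j]; ring
      rw [this, hr j]; ring
    rw [Finset.sum_congr rfl fun j _ => e3 j, Finset.sum_neg_distrib]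
    rfl
  rw [hexp, hc] at h0
  have h1 : 0 ≤ nsq x * (nsq x * (∑ i, ∑ j, H i j ^ 2) - 2 * gsq R x) := by nlinarith
  have h2 := (mul_nonneg_iff_of_pos_left hN).1 h1
  linarith

end SmHom0

/-- MODICA's bound on the sphere, general form: if `|x|² ΔR = β(R) (|x|²|∇R|² - 1)` with `β' ≥ 0` and
`n ≥ 3`, then `|x|²|∇R|² < 1`. -/
theorem modica_general (hn : 3 ≤ n) {R : EE → ℝ} (h : SmHom0 R) {β β' : ℝ → ℝ}
    (hβ : ∀ t, HasDerivAt β (β' t) t) (hβ' : ∀ t, 0 ≤ β' t)
    (heq : ∀ x : EE, x ≠ 0 → slap R x = β (R x) * (sgsq R x - 1)) {x : EE} (hx : x ≠ 0) :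
    sgsq R x < 1 := by
  have : Nonempty (Fin n) := ⟨⟨0, by omega⟩⟩
  have : Nontrivial EE := inferInstance
  -- a maximum point on the sphere
  have hcont : ContinuousOn (sgsq R) (sphere (0 : EE) 1) := by
    intro y hy
    have hy0 : y ≠ 0 := by
      rintro rfl
      simp at hy
    exact (h.smooth_sgsq hy0).continuousAt.continuousWithinAt
  obtain ⟨x0, hx0, hmax⟩ := (isCompact_sphere (0 : EE) 1).exists_isMaxOn
    (NormedSpace.sphere_nonempty.2 zero_le_one) hcont
  have hx00 : x0 ≠ 0 := by rintro rfl; simp at hx0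
  have hx01 : nsq x0 = 1 := by rw [nsq_eq]; simp at hx0; rw [hx0]; norm_num
  have hglob : ∀ y : EE, y ≠ 0 → sgsq R y ≤ sgsq R x0 := by
    intro y hy
    have hy' : 0 < ‖y‖⁻¹ := inv_pos.2 (norm_pos_iff.2 hy)
    rw [← h.sgsq_smul hy hy']
    apply hmax
    simp [norm_smul, norm_ne_zero_iff.2 hy]
  refine lt_of_le_of_lt (hglob x hx) ?_
  by_contra hge
  push Not at hge
  have hlm : IsLocalMax (sgsq R) x0 := by
    filter_upwards [ev_ne hx00] with y hy using hglob y hy
  have hG : sgsq R x0 = gsq R x0 := by unfold sgsq; rw [hx01, one_mul]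
  -- the second derivative test
  have hlap : lapl (sgsq R) x0 ≤ 0 := by
    unfold lapl
    refine Finset.sum_nonpos fun i _ => ?_
    have := quad_nonpos (h.smooth_sgsq hx00) hlm (EuclideanSpace.single i 1)
    simpa [Pi.single_apply] using this
  -- the differentiated equation
  have hdiff : ∑ j, pderiv j R x0 * pderiv j (lapl R) x0 =
      β' (R x0) * (sgsq R x0 - 1) * gsq R x0 := by
    have h1 : ∀ j, 2 * x0 j * lapl R x0 + pderiv j (lapl R) x0 =
        β' (R x0) * pderiv j R x0 * (sgsq R x0 - 1) := by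
      intro j
      have e1 : (fun y => nsq y * lapl R y) =ᶠ[𝓝 x0] fun y => β (R y) * (sgsq R y - 1) := by
        filter_upwards [ev_ne hx00] with y hy using heq y hy
      have e2 := pderiv_congr e1 j
      have hβd : DifferentiableAt ℝ (fun y => β (R y)) x0 :=
        (hβ (R x0)).differentiableAt.comp x0 (sm_diff (h.smooth x0 hx00))
      have hsd : DifferentiableAt ℝ (fun y => sgsq R y) x0 := sm_diff (h.smooth_sgsq hx00)
      rw [pderiv_mul (sm_diff (smooth_nsq x0)) (sm_diff (h.smooth_lapl hx00)),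
        pderiv_mul (f := fun y => β (R y)) (g := fun y => sgsq R y - 1) hβd (hsd.sub_const 1),
        SmHom0.pderiv_nsq, hx01, pderiv_comp (hβ (R x0)) (sm_diff (h.smooth x0 hx00)),
        pderiv_sub hsd (differentiableAt_const (1 : ℝ)), pderiv_const] at e2
      have e3 : pderiv j (fun y => sgsq R y) x0 = 0 := pderiv_eq_zero_of_max hlm j
      rw [e3] at e2
      linarith
    have h2 : ∀ j, pderiv j R x0 * pderiv j (lapl R) x0 =
        β' (R x0) * (sgsq R x0 - 1) * (pderiv j R x0 * pderiv j R x0)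
          - 2 * lapl R x0 * (x0 j * pderiv j R x0) := by
      intro j
      have := h1 j
      have h3 : pderiv j (lapl R) x0 = β' (R x0) * pderiv j R x0 * (sgsq R x0 - 1)
          - 2 * x0 j * lapl R x0 := by linarith
      rw [h3]; ring
    rw [Finset.sum_congr rfl fun j _ => h2 j, Finset.sum_sub_distrib, ← Finset.mul_sum,
      ← Finset.mul_sum, h.euler hx00, mul_zero, sub_zero]
    rfl
  have hlow := h.hess_lower hx00
  rw [h.lapl_sgsq hx00, hdiff, hx01] at hlap
  rw [hx01, one_mul] at hlow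
  have hF : 1 ≤ gsq R x0 := by rw [← hG]; exact hge
  have hn' : (3 : ℝ) ≤ n := by exact_mod_cast hn
  have hb : 0 ≤ β' (R x0) * (sgsq R x0 - 1) * gsq R x0 :=
    mul_nonneg (mul_nonneg (hβ' _) (by linarith)) (by linarith)
  nlinarith

end Crest.Agent.R246.D2x782
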