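import Mathlib

/-! R246, block D3 (helper118): the algebra of the Riccati comparison. -/

set_option autoImplicit false

namespace Crest.Agent.R246.D3x118

set_option maxHeartbeats 1000000 in
/-- the key real inequality -/
theorem key_pos {m δ c κ y B lam X : ℝ} (hm : 2 ≤ m) (hδ : 0 < δ) (hδ1 : δ ≤ 1)
    (hc : 0 < c) (hy : 0 < y) (hX : X = c * y) (hX1 : X < 1) (hB : B = y ^ 2 / m + (m - δ))
    (hlam : lam = (κ * y - c * B) / 2) (hκ0 : 0 ≤ κ) (hκ1 : κ ≤ 1 / 16) (hκ2 : κ ≤ δ / (4 * m))
    (hcs : c ≤ δ / (20 * m ^ 2)) :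
    0 < (m - B) * (1 - X) + lam ^ 2 + (y + lam) ^ 2 / m +
      c * B * (-y + 2 * y * (1 - X) / m) / 2 + κ * y ^ 2 / 2 - κ * B * (1 - X) := by
  have hm0 : 0 < m := by linarith
  have hX0 : 0 < X := by rw [hX]; positivity
  have hm1 : 0 < m - δ := by linarith
  have hB0 : 0 < B := by rw [hB]; positivity
  -- exact rewriting
  have e1 : (m - B) * (1 - X) + lam ^ 2 + (y + lam) ^ 2 / m +
      c * B * (-y + 2 * y * (1 - X) / m) / 2 + κ * y ^ 2 / 2 - κ * B * (1 - X) =
      lam ^ 2 * (1 + 1 / m) + X * B / 2 - X * (m - δ) - X ^ 2 * B / m + δ * (1 - X) +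
      κ * (y ^ 2 * (1 / m + 1 / 2) - B * (1 - X)) := by
    have h2 : (y + lam) ^ 2 / m = y ^ 2 / m + 2 * y * lam / m + lam ^ 2 / m := by ring
    have h3 : 2 * y * lam / m = (κ * y ^ 2 - X * B) / m := by rw [hlam, hX]; ring
    have h4 : c * B * (-y + 2 * y * (1 - X) / m) / 2 = X * B * (-1 + 2 * (1 - X) / m) / 2 := by
      rw [hX]; ring
    rw [h2, h3, h4]
    have h5 : y ^ 2 = m * (B - (m - δ)) := by rw [hB]; field_simp; ring
    rw [h5]
    field_simp
    ring
  rw [e1]
  -- lower bound for lam²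
  have l1 : X ^ 2 * B / m / 4 - κ * X * B / 2 ≤ lam ^ 2 := by
    have h1 : lam ^ 2 = κ ^ 2 * y ^ 2 / 4 - κ * X * B / 2 + c ^ 2 * B ^ 2 / 4 := by
      rw [hlam, hX]; ring
    have h2 : X ^ 2 * B / m ≤ c ^ 2 * B ^ 2 := by
      have h3 : c ^ 2 * B ^ 2 - X ^ 2 * B / m = c ^ 2 * B * (m - δ) := by
        rw [hX]
        have : B ^ 2 = B * (y ^ 2 / m + (m - δ)) := by rw [← hB]; ring
        rw [this]; ring
      have : 0 ≤ c ^ 2 * B * (m - δ) := by positivity
      linarith
    have h4 : 0 ≤ κ ^ 2 * y ^ 2 / 4 := by positivity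
    rw [h1]
    have : X ^ 2 * B / m / 4 ≤ c ^ 2 * B ^ 2 / 4 := by linarith
    linarith
  have l2 : -(κ * m) ≤ κ * (y ^ 2 * (1 / m + 1 / 2) - B * (1 - X)) := by
    have h1 : y ^ 2 * (1 / m + 1 / 2) - B * (1 - X) = -(m - δ) + y ^ 2 / 2 + B * X := by
      rw [hB]; ring
    rw [h1]
    have h2 : 0 ≤ y ^ 2 / 2 := by positivity
    have h3 : 0 ≤ B * X := by positivity
    nlinarith
  -- main bracket
  have hinv : 1 / m ≤ 1 / 2 := by
    rw [div_le_div_iff₀ hm0 (by norm_num)]; linarith
  have hinv0 : 0 < 1 / m := by positivity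
  set i := 1 / m with hi
  have l3 : X * B / 8 ≤ (X ^ 2 * B / m / 4 - κ * X * B / 2) * (1 + i) + X * B / 2
      - X ^ 2 * B / m := by
    have h1 : (X ^ 2 * B / m / 4 - κ * X * B / 2) * (1 + i) + X * B / 2 - X ^ 2 * B / m =
        X * B * ((X * i / 4 - κ / 2) * (1 + i) + 1 / 2 - X * i) := by
      rw [hi]; ring
    rw [h1]
    have h2 : 1 / 8 ≤ (X * i / 4 - κ / 2) * (1 + i) + 1 / 2 - X * i := by
      have h3 : X * i * (1 - (1 + i) / 4) ≤ 5 / 16 := by
        have h6 : 0 ≤ i * (1 - (1 + i) / 4) := mul_nonneg hinv0.le (by linarith)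
        have h4 : X * i * (1 - (1 + i) / 4) ≤ 1 * (i * (1 - (1 + i) / 4)) := by
          rw [mul_assoc]
          exact mul_le_mul_of_nonneg_right hX1.le h6
        have h7 : i * (1 - (1 + i) / 4) ≤ 5 / 16 := by
          have h8 : 0 ≤ (1 / 2 - i) * (5 / 2 - i) := mul_nonneg (by linarith) (by linarith)
          nlinarith [h8]
        linarith
      have h9 : κ / 2 * (1 + i) ≤ 3 / 64 := by
        have : κ / 2 * (1 + i) ≤ (1 / 16) / 2 * (1 + 1 / 2) := by gcongr
        linarith
      have h10 : (X * i / 4 - κ / 2) * (1 + i) + 1 / 2 - X * i =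
          1 / 2 - X * i * (1 - (1 + i) / 4) - κ / 2 * (1 + i) := by ring
      rw [h10]
      linarith
    have h5 : 0 ≤ X * B := by positivity
    calc X * B / 8 = X * B * (1 / 8) := by ring
      _ ≤ _ := mul_le_mul_of_nonneg_left h2 h5
  have l4 : X * B / 8 - X * m + δ * (1 - X) - κ * m ≤
      lam ^ 2 * (1 + i) + X * B / 2 - X * (m - δ) - X ^ 2 * B / m + δ * (1 - X) +
      κ * (y ^ 2 * (i + 1 / 2) - B * (1 - X)) := by
    have h1 : (X ^ 2 * B / m / 4 - κ * X * B / 2) * (1 + i) ≤ lam ^ 2 * (1 + i) :=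
      mul_le_mul_of_nonneg_right l1 (by linarith)
    have h2 : X * (m - δ) ≤ X * m := by
      have : X * (m - δ) = X * m - X * δ := by ring
      have : 0 < X * δ := by positivity
      linarith
    linarith
  refine lt_of_lt_of_le ?_ l4
  have hκm : κ * m ≤ δ / 4 := by
    calc κ * m ≤ δ / (4 * m) * m := by gcongr
      _ = δ / 4 := by field_simp
  by_cases hXs : X ≤ δ / (4 * m)
  · have h1 : X * m ≤ δ / 4 := by
      calc X * m ≤ δ / (4 * m) * m := by gcongr
        _ = δ / 4 := by field_simp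
    have h2 : X ≤ 1 / 8 := by nlinarith
    have h3 : 0 ≤ X * B / 8 := by positivity
    have h4 : δ * X ≤ δ * (1 / 8) := by gcongr
    have h5 : δ * (1 - X) = δ - δ * X := by ring
    rw [h5]
    linarith
  · push Not at hXs
    have h1 : 25 * m ≤ B := by
      have h2 : y ^ 2 / m ≤ B := by rw [hB]; linarith
      have h3 : 25 * m ≤ y ^ 2 / m := by
        rw [le_div_iff₀ hm0]
        -- `y ≥ 5 m`
        have h4 : 5 * m ≤ y := by
          have h5 : δ / (4 * m) < c * y := by rw [← hX]; exact hXs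
          have h6 : δ / (4 * m) < δ / (20 * m ^ 2) * y := by
            refine h5.trans_le ?_
            gcongr
          have h7 : δ / (20 * m ^ 2) * (5 * m) = δ / (4 * m) := by field_simp; norm_num
          by_contra hcon
          push Not at hcon
          have : δ / (20 * m ^ 2) * y ≤ δ / (20 * m ^ 2) * (5 * m) := by gcongr
          linarith
        nlinarith
      linarith
    have h2 : δ / 4 < X * m := by
      calc δ / 4 = δ / (4 * m) * m := by field_simp
        _ < X * m := by gcongr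
    have h3 : X * (25 * m) / 8 ≤ X * B / 8 := by
      have : X * (25 * m) ≤ X * B := by gcongr
      linarith
    have h4 : 0 ≤ δ * (1 - X) := by
      have : 0 < 1 - X := by linarith
      positivity
    have h5 : X * (25 * m) / 8 = 25 / 8 * (X * m) := by ring
    rw [h5] at h3
    linarith

/-- Bessel's inequality for the Frobenius norm, in the shape needed here. -/
theorem frob_lower {n : ℕ} {m : ℝ} (hm : 0 < m) (hn : (n : ℝ) = m + 2) (H : Fin n → Fin n → ℝ)
    (x p : Fin n → ℝ) (hx : ∑ i, x i ^ 2 = 1)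
    (hxp : ∑ i, x i * p i = 0) {F lam T : ℝ} (hF : ∑ i, p i ^ 2 = F) (hF0 : 0 < F)
    (h1 : ∀ j, ∑ i, x i * H j i = -p j) (h2 : ∀ j, ∑ i, p i * H j i = -F * x j + lam * p j)
    (hT : ∑ i, H i i = T) :
    2 * F + lam ^ 2 + (T - lam) ^ 2 / m ≤ ∑ i, ∑ j, H i j ^ 2 := by
  -- the orthogonal projection of `H`
  set q := (T - lam) / m with hq
  let M : Fin n → Fin n → ℝ := fun i j =>
    H i j + (x i * p j + p i * x j) - lam / F * (p i * p j) -
      q * ((if i = j then 1 else 0) - x i * x j - p i * p j / F)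
  have hM : 0 ≤ ∑ i, ∑ j, M i j ^ 2 :=
    Finset.sum_nonneg fun i _ => Finset.sum_nonneg fun j _ => sq_nonneg _
  -- inner products
  have h1' : ∀ i, ∑ j, H i j * x j = -p i := fun i => by
    rw [← h1 i]; exact Finset.sum_congr rfl fun j _ => mul_comm _ _
  have h2' : ∀ i, ∑ j, H i j * p j = -F * x i + lam * p i := fun i => by
    rw [← h2 i]; exact Finset.sum_congr rfl fun j _ => mul_comm _ _
  have hxx : ∑ i, x i * x i = 1 := by rw [← hx]; exact Finset.sum_congr rfl fun i _ => (sq _).symm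
  have hpp : ∑ i, p i * p i = F := by rw [← hF]; exact Finset.sum_congr rfl fun i _ => (sq _).symm
  have hpx : ∑ i, p i * x i = 0 := by
    rw [← hxp]; exact Finset.sum_congr rfl fun j _ => mul_comm _ _
  have sHxp : ∑ i, ∑ j, H i j * (x i * p j) = -F := by
    have : ∀ i, ∑ j, H i j * (x i * p j) = -F * (x i * x i) + lam * (x i * p i) := fun i => by
      have h3 : ∑ j, H i j * (x i * p j) = x i * ∑ j, H i j * p j := by
        rw [Finset.mul_sum]; exact Finset.sum_congr rfl fun j _ => by ring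
      rw [h3, h2' i]; ring
    simp only [this, Finset.sum_add_distrib, ← Finset.mul_sum, hxx, hxp]
    ring
  have sHpx : ∑ i, ∑ j, H i j * (p i * x j) = -F := by
    have : ∀ i, ∑ j, H i j * (p i * x j) = -(p i * p i) := fun i => by
      have h3 : ∑ j, H i j * (p i * x j) = p i * ∑ j, H i j * x j := by
        rw [Finset.mul_sum]; exact Finset.sum_congr rfl fun j _ => by ring
      rw [h3, h1' i]; ring
    simp only [this, Finset.sum_neg_distrib, hpp]
  have sHpp : ∑ i, ∑ j, H i j * (p i * p j) = lam * F := by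
    have : ∀ i, ∑ j, H i j * (p i * p j) = -F * (p i * x i) + lam * (p i * p i) := fun i => by
      have h3 : ∑ j, H i j * (p i * p j) = p i * ∑ j, H i j * p j := by
        rw [Finset.mul_sum]; exact Finset.sum_congr rfl fun j _ => by ring
      rw [h3, h2' i]; ring
    simp only [this, Finset.sum_add_distrib, ← Finset.mul_sum, hpp, hpx]
    ring
  have sHxx : ∑ i, ∑ j, H i j * (x i * x j) = 0 := by
    have : ∀ i, ∑ j, H i j * (x i * x j) = -(x i * p i) := fun i => by
      have h3 : ∑ j, H i j * (x i * x j) = x i * ∑ j, H i j * x j := by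
        rw [Finset.mul_sum]; exact Finset.sum_congr rfl fun j _ => by ring
      rw [h3, h1' i]; ring
    simp only [this, Finset.sum_neg_distrib, hxp, neg_zero]
  have sHd : ∑ i, ∑ j, H i j * (if i = j then 1 else 0) = T := by
    rw [← hT]
    refine Finset.sum_congr rfl fun i _ => ?_
    simp
  -- expand the square by bilinearity
  have key : ∑ i, ∑ j, M i j ^ 2 = (∑ i, ∑ j, H i j ^ 2) - 2 * F - lam ^ 2 - (T - lam) ^ 2 / m := by
    have hprod : ∀ a b : Fin n → ℝ, ∑ i, ∑ j, a i * b j = (∑ i, a i) * ∑ j, b j := fun a b => by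
      rw [Finset.sum_mul_sum]
    have d2 : ∑ i : Fin n, ∑ j : Fin n, (if i = j then (1:ℝ) else 0) = m + 2 := by
      rw [← hn]; simp
    have dx : ∑ i : Fin n, ∑ j : Fin n, (if i = j then (1:ℝ) else 0) * (x i * x j) = 1 :=
      (Finset.sum_congr rfl fun i _ => by simp).trans hxx
    have dp : ∑ i : Fin n, ∑ j : Fin n, (if i = j then (1:ℝ) else 0) * (p i * p j) = F :=
      (Finset.sum_congr rfl fun i _ => by simp).trans hpp
    have dxp : ∑ i : Fin n, ∑ j : Fin n, (if i = j then (1:ℝ) else 0) * (x i * p j) = 0 :=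
      (Finset.sum_congr rfl fun i _ => by simp).trans hxp
    have dpx : ∑ i : Fin n, ∑ j : Fin n, (if i = j then (1:ℝ) else 0) * (p i * x j) = 0 :=
      (Finset.sum_congr rfl fun i _ => by simp).trans hpx
    have hexp : ∀ i j, M i j ^ 2 = H i j ^ 2 + 2 * (H i j * (x i * p j)) + 2 * (H i j * (p i * x j))
        + (2 * (q / F - lam / F)) * (H i j * (p i * p j)) + 2 * q * (H i j * (x i * x j))
        - 2 * q * (H i j * (if i = j then 1 else 0))
        + (x i * x i) * (p j * p j) + (p i * p i) * (x j * x j) + 2 * ((x i * p i) * (x j * p j))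
        + (q / F - lam / F) ^ 2 * ((p i * p i) * (p j * p j))
        + q ^ 2 * ((x i * x i) * (x j * x j)) + q ^ 2 * (if i = j then 1 else 0)
        + 2 * (q / F - lam / F) * ((x i * p i) * (p j * p j))
        + 2 * (q / F - lam / F) * ((p i * p i) * (x j * p j))
        + 2 * q * ((x i * x i) * (x j * p j)) + 2 * q * ((x i * p i) * (x j * x j))
        - 2 * q * ((if i = j then 1 else 0) * (x i * p j))
        - 2 * q * ((if i = j then 1 else 0) * (p i * x j))
        + 2 * (q / F - lam / F) * q * ((x i * p i) * (x j * p j))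
        - 2 * (q / F - lam / F) * q * ((if i = j then 1 else 0) * (p i * p j))
        - 2 * q ^ 2 * ((if i = j then 1 else 0) * (x i * x j)) := by
      intro i j
      have hd : (if i = j then (1:ℝ) else 0) ^ 2 = (if i = j then (1:ℝ) else 0) := by
        split_ifs <;> norm_num
      simp only [M]
      linear_combination q ^ 2 * hd
    simp only [hexp, Finset.sum_add_distrib, Finset.sum_sub_distrib, ← Finset.mul_sum, sHxp, sHpx,
      sHpp, sHxx, sHd, d2, dx, dp, dxp, dpx, hxx, hpp, hxp, ← Finset.sum_mul]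
    have hqm : q * m = T - lam := by rw [hq]; field_simp
    have hsq : (T - lam) ^ 2 / m = q ^ 2 * m := by
      rw [← hqm]; field_simp
    rw [hsq]
    have hT' : T = q * m + lam := by rw [hqm]; ring
    rw [hT']
    field_simp
    ring
  rw [key] at hM
  linarith

/-- the degenerate case `p = 0` -/
theorem frob_lower0 {n : ℕ} {m : ℝ} (hm : 0 < m) (hn : (n : ℝ) = m + 2) (H : Fin n → Fin n → ℝ)
    (x : Fin n → ℝ) (hx : ∑ i, x i ^ 2 = 1) {T : ℝ} (h1 : ∀ j, ∑ i, x i * H j i = 0)
    (hT : ∑ i, H i i = T) : T ^ 2 / (m + 1) ≤ ∑ i, ∑ j, H i j ^ 2 := by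
  set q := T / (m + 1) with hq
  let M : Fin n → Fin n → ℝ := fun i j => H i j - q * ((if i = j then 1 else 0) - x i * x j)
  have hM : 0 ≤ ∑ i, ∑ j, M i j ^ 2 :=
    Finset.sum_nonneg fun i _ => Finset.sum_nonneg fun j _ => sq_nonneg _
  have hxx : ∑ i, x i * x i = 1 := by rw [← hx]; exact Finset.sum_congr rfl fun i _ => (sq _).symm
  have sHxx : ∑ i, ∑ j, H i j * (x i * x j) = 0 := by
    refine Finset.sum_eq_zero fun i _ => ?_
    have h3 : ∑ j, H i j * (x i * x j) = x i * ∑ j, x j * H i j := by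
      rw [Finset.mul_sum]; exact Finset.sum_congr rfl fun j _ => by ring
    rw [h3, h1 i, mul_zero]
  have sHd : ∑ i, ∑ j, H i j * (if i = j then 1 else 0) = T := by
    rw [← hT]
    refine Finset.sum_congr rfl fun i _ => ?_
    simp
  have d2 : ∑ i : Fin n, ∑ j : Fin n, (if i = j then (1:ℝ) else 0) = m + 2 := by
    rw [← hn]; simp
  have dx : ∑ i : Fin n, ∑ j : Fin n, (if i = j then (1:ℝ) else 0) * (x i * x j) = 1 :=
    (Finset.sum_congr rfl fun i _ => by simp).trans hxx
  have key : ∑ i, ∑ j, M i j ^ 2 = (∑ i, ∑ j, H i j ^ 2) - T ^ 2 / (m + 1) := by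
    have hexp : ∀ i j, M i j ^ 2 = H i j ^ 2 - 2 * q * (H i j * (if i = j then 1 else 0))
        + 2 * q * (H i j * (x i * x j)) + q ^ 2 * (if i = j then 1 else 0)
        + q ^ 2 * ((x i * x i) * (x j * x j))
        - 2 * q ^ 2 * ((if i = j then 1 else 0) * (x i * x j)) := by
      intro i j
      have hd : (if i = j then (1:ℝ) else 0) ^ 2 = (if i = j then (1:ℝ) else 0) := by
        split_ifs <;> norm_num
      simp only [M]
      linear_combination q ^ 2 * hd
    simp only [hexp, Finset.sum_add_distrib, Finset.sum_sub_distrib, ← Finset.mul_sum, sHxx, sHd,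
      d2, dx, hxx, ← Finset.sum_mul]
    rw [hq]
    field_simp
    ring
  rw [key] at hM
  linarith

end Crest.Agent.R246.D3x118
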