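import Crest.Agent.R236.MPJet

/-! R246, block D3 (helper118): the Riccati comparison for smooth Allen-Cahn solutions on the
sphere, written for 0-homogeneous functions on `ℝⁿ ∖ 0`, `n = m + 2`. -/

set_option autoImplicit false

open scoped ContDiff Topology
open Crest.GeometryTopology.CoordMetric Crest.GeometryTopology.AffineMaximal Filter
open Crest.Agent.R236.Jet

namespace Crest.Agent.R246.D3x118

noncomputable section

variable {n : ℕ}

local notation "𝔼" n => EuclideanSpace ℝ (Fin n)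

/-- the Laplacian -/
def lap (f : (𝔼 n) → ℝ) (x : 𝔼 n) : ℝ := ∑ i, hessianMat f x i i

/-- the squared norm of the gradient -/
def grad2 (f : (𝔼 n) → ℝ) (x : 𝔼 n) : ℝ := ∑ i, pderiv i f x * pderiv i f x

/-- the squared norm -/
def nsq (x : 𝔼 n) : ℝ := ∑ i, x i * x i

lemma nsq_eq (x : 𝔼 n) : nsq x = ‖x‖ ^ 2 := by
  rw [EuclideanSpace.norm_sq_eq, nsq]
  refine Finset.sum_congr rfl fun i _ => ?_
  rw [Real.norm_eq_abs, sq_abs, sq]

lemma sm_coord (k : Fin n) (x : 𝔼 n) : ContDiffAt ℝ ∞ (fun y : 𝔼 n => y k) x :=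
  (EuclideanSpace.proj k : (𝔼 n) →L[ℝ] ℝ).contDiff.contDiffAt

lemma sm_nsq (x : 𝔼 n) : ContDiffAt ℝ ∞ (nsq (n := n)) x := by
  unfold nsq
  exact ContDiffAt.sum fun i _ => (sm_coord i x).mul (sm_coord i x)

lemma pderiv_nsq (i : Fin n) (x : 𝔼 n) : pderiv i nsq x = 2 * x i := by
  have h : nsq (n := n) = fun y => ∑ k ∈ Finset.univ, (fun k (y : 𝔼 n) => y k * y k) k y := rfl
  rw [h, pderiv_sum (f := fun k (y : 𝔼 n) => y k * y k)
    fun k _ => (sm_diff (sm_coord k x)).mul (sm_diff (sm_coord k x))]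
  have h2 : ∀ k, pderiv i (fun y : 𝔼 n => y k * y k) x = if k = i then 2 * x i else 0 := by
    intro k
    rw [pderiv_mul (sm_diff (sm_coord k x)) (sm_diff (sm_coord k x)), pderiv_coord]
    split_ifs with hk
    · subst hk; ring
    · ring
  simp only [h2]
  simp

lemma hess_nsq (i : Fin n) (x : 𝔼 n) : hessianMat nsq x i i = 2 := by
  unfold hessianMat
  have e : (fun y : 𝔼 n => pderiv i nsq y) = fun y => 2 * y i := by
    funext y; exact pderiv_nsq i y
  rw [e, pderiv_cmul (sm_diff (sm_coord i x)), pderiv_coord]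
  simp

lemma lap_nsq (x : 𝔼 n) : lap nsq x = 2 * n := by
  unfold lap
  simp only [hess_nsq]
  simp [mul_comm]

lemma lap_mul {f g : (𝔼 n) → ℝ} {x : 𝔼 n} (hf : ContDiffAt ℝ ∞ f x) (hg : ContDiffAt ℝ ∞ g x) :
    lap (fun y => f y * g y) x = f x * lap g x + g x * lap f x +
      2 * ∑ i, pderiv i f x * pderiv i g x := by
  unfold lap
  simp only [hess_mul hf hg, Finset.sum_add_distrib, ← Finset.mul_sum]
  have : ∑ i, pderiv i g x * pderiv i f x = ∑ i, pderiv i f x * pderiv i g x :=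
    Finset.sum_congr rfl fun i _ => mul_comm _ _
  rw [this]
  ring

lemma lap_sub {f g : (𝔼 n) → ℝ} {x : 𝔼 n} (hf : ContDiffAt ℝ ∞ f x) (hg : ContDiffAt ℝ ∞ g x) :
    lap (fun y => f y - g y) x = lap f x - lap g x := by
  unfold lap
  simp only [hess_sub hf hg, Finset.sum_sub_distrib]

lemma lap_const (c : ℝ) (x : 𝔼 n) : lap (fun _ : 𝔼 n => c) x = 0 := by
  unfold lap; simp [hess_const]

lemma lap_congr {f g : (𝔼 n) → ℝ} {x : 𝔼 n} (h : f =ᶠ[𝓝 x] g) : lap f x = lap g x := by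
  unfold lap; simp only [hess_congr h]

/-- chain rule for second derivatives -/
lemma hess_comp {φ φ' : ℝ → ℝ} {φ'' : ℝ} {f : (𝔼 n) → ℝ} {x : 𝔼 n}
    (hφ : ∀ᶠ t in 𝓝 (f x), HasDerivAt φ (φ' t) t) (hφ' : HasDerivAt φ' φ'' (f x))
    (hf : ContDiffAt ℝ ∞ f x) (i j : Fin n) :
    hessianMat (fun y => φ (f y)) x i j =
      φ' (f x) * hessianMat f x i j + φ'' * (pderiv i f x * pderiv j f x) := by
  unfold hessianMat
  have e : (fun y => pderiv j (fun y => φ (f y)) y) =ᶠ[𝓝 x]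
      fun y => φ' (f y) * pderiv j f y := by
    filter_upwards [sm_ev hf, hf.continuousAt.eventually hφ] with y h1 h2 using
      pderiv_comp h2 h1 j
  have hd : DifferentiableAt ℝ (fun y => φ' (f y)) x :=
    (hφ'.differentiableAt.comp x (sm_diff hf) : DifferentiableAt ℝ (φ' ∘ f) x)
  rw [pderiv_congr e, pderiv_mul hd (sm_diff (sm_pderiv hf j)), pderiv_comp hφ' (sm_diff hf)]
  ring

lemma lap_comp {φ φ' : ℝ → ℝ} {φ'' : ℝ} {f : (𝔼 n) → ℝ} {x : 𝔼 n}
    (hφ : ∀ᶠ t in 𝓝 (f x), HasDerivAt φ (φ' t) t) (hφ' : HasDerivAt φ' φ'' (f x))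
    (hf : ContDiffAt ℝ ∞ f x) :
    lap (fun y => φ (f y)) x = φ' (f x) * lap f x + φ'' * grad2 f x := by
  unfold lap grad2
  simp only [hess_comp hφ hφ' hf, Finset.sum_add_distrib, ← Finset.mul_sum]

lemma sm_grad2 {f : (𝔼 n) → ℝ} {x : 𝔼 n} (hf : ContDiffAt ℝ ∞ f x) :
    ContDiffAt ℝ ∞ (grad2 f) x := by
  unfold grad2
  exact ContDiffAt.sum fun i _ => (sm_pderiv hf i).mul (sm_pderiv hf i)

lemma sm_hess {f : (𝔼 n) → ℝ} {x : 𝔼 n} (hf : ContDiffAt ℝ ∞ f x) (i j : Fin n) :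
    ContDiffAt ℝ ∞ (fun y => hessianMat f y i j) x :=
  sm_pderiv (sm_pderiv hf j) i

lemma sm_lap {f : (𝔼 n) → ℝ} {x : 𝔼 n} (hf : ContDiffAt ℝ ∞ f x) :
    ContDiffAt ℝ ∞ (lap f) x := by
  unfold lap
  exact ContDiffAt.sum fun i _ => sm_hess hf i i

lemma pderiv_grad2 {f : (𝔼 n) → ℝ} {x : 𝔼 n} (hf : ContDiffAt ℝ ∞ f x) (j : Fin n) :
    pderiv j (grad2 f) x = 2 * ∑ i, pderiv i f x * hessianMat f x j i := by
  have h : grad2 f = fun y => ∑ k ∈ Finset.univ, (fun k y => pderiv k f y * pderiv k f y) k y :=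
    rfl
  rw [h, pderiv_sum (f := fun k y => pderiv k f y * pderiv k f y)
    fun k _ => (sm_diff (sm_pderiv hf k)).mul (sm_diff (sm_pderiv hf k)), Finset.mul_sum]
  refine Finset.sum_congr rfl fun k _ => ?_
  rw [pderiv_mul (sm_diff (sm_pderiv hf k)) (sm_diff (sm_pderiv hf k))]
  unfold hessianMat
  ring

section Hom

/-- smooth away from the origin -/
def Sm0 (f : (𝔼 n) → ℝ) : Prop := ∀ x, x ≠ 0 → ContDiffAt ℝ ∞ f x

lemma ev_ne {x : 𝔼 n} (hx : x ≠ 0) : ∀ᶠ y in 𝓝 x, y ≠ 0 := isOpen_ne.mem_nhds hx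

lemma Sm0.pderiv {f : (𝔼 n) → ℝ} (hf : Sm0 f) (i : Fin n) : Sm0 (fun y => pderiv i f y) :=
  fun x hx => sm_pderiv (hf x hx) i

/-- `Δ` commutes with partial derivatives -/
lemma lap_pderiv {f : (𝔼 n) → ℝ} (hf : Sm0 f) {x : 𝔼 n} (hx : x ≠ 0) (i : Fin n) :
    lap (fun y => Crest.GeometryTopology.CoordMetric.pderiv i f y) x =
      Crest.GeometryTopology.CoordMetric.pderiv i (lap f) x := by
  have h1 : ∀ j, hessianMat (fun y => Crest.GeometryTopology.CoordMetric.pderiv i f y) x j j =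
      hessianMat (fun y => Crest.GeometryTopology.CoordMetric.pderiv j f y) x i j := by
    intro j
    rw [hess_symm (hf.pderiv j x hx) i j]
    unfold hessianMat
    apply pderiv_congr
    filter_upwards [ev_ne hx] with y hy
    exact hess_symm (hf y hy) j i
  have h2 : lap f = fun y => ∑ j ∈ Finset.univ,
      (fun j y => Crest.GeometryTopology.CoordMetric.pderiv j
        (fun z => Crest.GeometryTopology.CoordMetric.pderiv j f z) y) j y := rfl
  rw [h2, pderiv_sum (f := fun j y => Crest.GeometryTopology.CoordMetric.pderiv j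
        (fun z => Crest.GeometryTopology.CoordMetric.pderiv j f z) y)
    fun j _ => sm_diff ((hf.pderiv j).pderiv j x hx)]
  unfold lap
  simp only [h1]
  rfl

/-- flat Bochner formula -/
theorem lap_grad2 {f : (𝔼 n) → ℝ} (hf : Sm0 f) {x : 𝔼 n} (hx : x ≠ 0) :
    lap (grad2 f) x = 2 * ∑ j, ∑ i, hessianMat f x j i ^ 2 +
      2 * ∑ i, pderiv i f x * pderiv i (lap f) x := by
  have h0 : ∀ i j, hessianMat (fun y => pderiv i f y * pderiv i f y) x j j =
      2 * (pderiv i f x * hessianMat (fun y => pderiv i f y) x j j) +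
        2 * hessianMat f x j i ^ 2 := by
    intro i j
    rw [hess_mul (hf.pderiv i x hx) (hf.pderiv i x hx)]
    change _ + _ + hessianMat f x j i * hessianMat f x j i +
      hessianMat f x j i * hessianMat f x j i = _
    ring
  have h1 : ∀ j, hessianMat (grad2 f) x j j =
      ∑ i, (2 * (pderiv i f x * hessianMat (fun y => pderiv i f y) x j j) +
        2 * hessianMat f x j i ^ 2) := by
    intro j
    have h : grad2 f = fun y => ∑ k ∈ Finset.univ, (fun k y => pderiv k f y * pderiv k f y) k y :=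
      rfl
    rw [h, hess_sum (f := fun k y => pderiv k f y * pderiv k f y)
      fun k _ => (hf.pderiv k x hx).mul (hf.pderiv k x hx)]
    exact Finset.sum_congr rfl fun i _ => h0 i j
  have h2 : lap (grad2 f) x = ∑ j, ∑ i, (2 * (pderiv i f x *
      hessianMat (fun y => pderiv i f y) x j j) + 2 * hessianMat f x j i ^ 2) := by
    unfold lap
    exact Finset.sum_congr rfl fun j _ => h1 j
  rw [h2]
  simp only [Finset.sum_add_distrib, ← Finset.mul_sum]
  rw [Finset.sum_comm, add_comm]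
  congr 2
  refine Finset.sum_congr rfl fun i _ => ?_
  rw [← Finset.mul_sum, ← lap_pderiv hf hx i]
  rfl

variable {R : (𝔼 n) → ℝ}

/-- Euler's identity for 0-homogeneous functions -/
lemma euler (hR : Sm0 R) (hhom : ∀ (t : ℝ) (x : 𝔼 n), 0 < t → x ≠ 0 → R (t • x) = R x) {x : 𝔼 n}
    (hx : x ≠ 0) : ∑ i, x i * pderiv i R x = 0 := by
  have h1 : HasDerivAt (fun t : ℝ => R (t • x)) (fderiv ℝ R x x) 1 := by
    have h2 : HasDerivAt (fun t : ℝ => t • x) ((1 : ℝ) • x) 1 := (hasDerivAt_id 1).smul_const x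
    have h3 : HasFDerivAt R (fderiv ℝ R x) ((1 : ℝ) • x) := by
      rw [one_smul]; exact (sm_diff (hR x hx)).hasFDerivAt
    have h4 := h3.comp_hasDerivAt 1 h2
    rwa [one_smul] at h4
  have h2 : HasDerivAt (fun t : ℝ => R (t • x)) 0 1 := by
    refine (hasDerivAt_const (1 : ℝ) (R x)).congr_of_eventuallyEq ?_
    filter_upwards [lt_mem_nhds (zero_lt_one : (0 : ℝ) < 1)] with t ht
    exact hhom t x ht hx
  have h3 := h1.unique h2
  rw [fderiv_eq_sum] at h3
  rw [← h3]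
  exact Finset.sum_congr rfl fun i _ => mul_comm _ _

/-- the derivative of Euler's identity -/
lemma euler2 (hR : Sm0 R) (hhom : ∀ (t : ℝ) (x : 𝔼 n), 0 < t → x ≠ 0 → R (t • x) = R x) {x : 𝔼 n}
    (hx : x ≠ 0) (j : Fin n) : ∑ i, x i * hessianMat R x j i = -pderiv j R x := by
  have h0 : pderiv j (fun y => ∑ k ∈ Finset.univ, (fun k (y : 𝔼 n) => y k * pderiv k R y) k y) x
      = 0 := by
    have : (fun y => ∑ k ∈ Finset.univ, (fun k (y : 𝔼 n) => y k * pderiv k R y) k y) =ᶠ[𝓝 x]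
        fun _ => (0 : ℝ) := by
      filter_upwards [ev_ne hx] with y hy using euler hR hhom hy
    rw [pderiv_congr this, pderiv_const]
  rw [pderiv_sum (f := fun k (y : 𝔼 n) => y k * pderiv k R y)
    fun k _ => (sm_diff (sm_coord k x)).mul (sm_diff (hR.pderiv k x hx))] at h0
  have h1 : ∀ k, pderiv j (fun y : 𝔼 n => y k * pderiv k R y) x =
      x k * hessianMat R x j k + (if k = j then pderiv j R x else 0) := by
    intro k
    rw [pderiv_mul (sm_diff (sm_coord k x)) (sm_diff (hR.pderiv k x hx)), pderiv_coord]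
    split_ifs with hk
    · subst hk; rw [mul_one]; rfl
    · rw [mul_zero]; rfl
  simp only [h1, Finset.sum_add_distrib] at h0
  simp only [Finset.sum_ite_eq', Finset.mem_univ, if_true] at h0
  linarith

/-- `⟨x, ∇|∇R|²⟩ = -2 |∇R|²` -/
lemma euler_grad2 (hR : Sm0 R)
    (hhom : ∀ (t : ℝ) (x : 𝔼 n), 0 < t → x ≠ 0 → R (t • x) = R x) {x : 𝔼 n}
    (hx : x ≠ 0) : ∑ j, x j * pderiv j (grad2 R) x = -2 * grad2 R x := by
  simp only [pderiv_grad2 (hR x hx)]
  have h1 : ∀ j, x j * (2 * ∑ i, pderiv i R x * hessianMat R x j i) =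
      2 * ∑ i, pderiv i R x * (x j * hessianMat R x i j) := by
    intro j
    rw [Finset.mul_sum, Finset.mul_sum, Finset.mul_sum]
    refine Finset.sum_congr rfl fun i _ => ?_
    rw [hess_symm (hR x hx) j i]; ring
  simp only [h1, ← Finset.mul_sum]
  rw [Finset.sum_comm]
  simp only [← Finset.mul_sum, euler2 hR hhom hx]
  unfold grad2
  rw [Finset.mul_sum, Finset.mul_sum]
  refine Finset.sum_congr rfl fun i _ => by ring

end Hom

section OneD

/-- the antiderivative of `1 / (z² / m + m₁)` -/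
def theta (m m₁ : ℝ) (z : ℝ) : ℝ := m / √(m * m₁) * Real.arctan (z / √(m * m₁))

lemma hasDerivAt_theta {m m₁ : ℝ} (hm : 0 < m) (hm₁ : 0 < m₁) (z : ℝ) :
    HasDerivAt (theta m m₁) (m / (m * m₁ + z ^ 2)) z := by
  have hq : 0 < √(m * m₁) := Real.sqrt_pos.2 (by positivity)
  have hq2 : √(m * m₁) ^ 2 = m * m₁ := Real.sq_sqrt (by positivity)
  have h1 : HasDerivAt (fun z : ℝ => z / √(m * m₁)) (1 / √(m * m₁)) z :=
    (hasDerivAt_id z).div_const _
  have h2 := (h1.arctan).const_mul (m / √(m * m₁))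
  refine h2.congr_deriv ?_
  have h3 : m * m₁ + z ^ 2 = √(m * m₁) ^ 2 + z ^ 2 := by rw [hq2]
  rw [h3]
  set q := √(m * m₁)
  have : 0 < q ^ 2 + z ^ 2 := by positivity
  field_simp

lemma hasDerivAt_theta' {m m₁ : ℝ} (hm : 0 < m) (hm₁ : 0 < m₁) (z : ℝ) :
    HasDerivAt (fun z => m / (m * m₁ + z ^ 2)) (-(2 * m * z) / (m * m₁ + z ^ 2) ^ 2) z := by
  have h0 : m * m₁ + z ^ 2 ≠ 0 := by positivity
  have h1 : HasDerivAt (fun z : ℝ => m * m₁ + z ^ 2) (2 * z) z := by
    simpa using (hasDerivAt_pow 2 z).const_add (m * m₁)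
  have h2 := (hasDerivAt_const z m).div h1 h0
  refine h2.congr_deriv ?_
  ring

lemma contDiff_theta (m m₁ : ℝ) : ContDiff ℝ ∞ (theta m m₁) := by
  unfold theta
  exact contDiff_const.mul (Real.contDiff_arctan.comp (contDiff_id.div_const _))

/-- `(ε/2) coth (t/ε)` -/
def cc (ε t : ℝ) : ℝ := ε / 2 * (Real.cosh (t / ε) / Real.sinh (t / ε))

/-- minus the derivative of `cc` -/
def kk (ε t : ℝ) : ℝ := 1 / 2 * (1 / Real.sinh (t / ε) ^ 2)

lemma hasDerivAt_cc {ε t : ℝ} (hε : 0 < ε) (ht : 0 < t) : HasDerivAt (cc ε) (-kk ε t) t := by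
  have hs : 0 < Real.sinh (t / ε) := Real.sinh_pos_iff.2 (by positivity)
  have h0 : HasDerivAt (fun t : ℝ => t / ε) (1 / ε) t := (hasDerivAt_id t).div_const _
  have h1 := (h0.cosh.div h0.sinh hs.ne').const_mul (ε / 2)
  refine h1.congr_deriv ?_
  unfold kk
  have := Real.cosh_sq (t / ε)
  field_simp
  linear_combination -this

lemma hasDerivAt_kk {ε t : ℝ} (hε : 0 < ε) (ht : 0 < t) :
    HasDerivAt (fun t => -kk ε t) (Real.cosh (t / ε) / (ε * Real.sinh (t / ε) ^ 3)) t := by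
  have hs : 0 < Real.sinh (t / ε) := Real.sinh_pos_iff.2 (by positivity)
  have h0 : HasDerivAt (fun t : ℝ => t / ε) (1 / ε) t := (hasDerivAt_id t).div_const _
  have h3 : HasDerivAt (fun t => Real.sinh (t / ε) ^ 2)
      (2 * Real.sinh (t / ε) * (Real.cosh (t / ε) * (1 / ε))) t := by
    have h4 := h0.sinh.fun_pow 2
    refine h4.congr_deriv ?_
    norm_num
  have h2 := ((hasDerivAt_const t (1 : ℝ)).fun_div h3 (by positivity)).const_mul (1 / 2)
  refine h2.fun_neg.congr_deriv ?_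
  field_simp
  ring

end OneD

section Touch

variable {m : ℕ} {R : (𝔼 (m + 2)) → ℝ} {ε δ : ℝ}

/-- `y = -|x|² Δ R` -/
def yy (R : (𝔼 n) → ℝ) (x : 𝔼 n) : ℝ := -(nsq x * lap R x)

lemma sm_yy {R : (𝔼 n) → ℝ} (hR : Sm0 R) : Sm0 (yy R) :=
  fun x hx => ((sm_nsq x).mul (sm_lap (hR x hx))).neg

/-- the Allen-Cahn equation for `R = ε artanh u` -/
def IsAC (ε : ℝ) (R : (𝔼 n) → ℝ) : Prop :=
  ∀ x, x ≠ 0 → ε * (nsq x * lap R x) =
    -2 * Real.tanh (R x / ε) * (1 - nsq x * grad2 R x)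

lemma nsq_pos {x : 𝔼 n} (hx : x ≠ 0) : 0 < nsq x := by
  rw [nsq_eq]; have := norm_pos_iff.2 hx; positivity

lemma phi_eq {R : (𝔼 n) → ℝ} (hε : 0 < ε) (hac : IsAC ε R) {x : 𝔼 n} (hx : x ≠ 0)
    (hRx : 0 < R x) : nsq x * grad2 R x = 1 - cc ε (R x) * yy R x := by
  have h := hac x hx
  have hs : 0 < Real.sinh (R x / ε) := Real.sinh_pos_iff.2 (by positivity)
  have hc : 0 < Real.cosh (R x / ε) := Real.cosh_pos _
  rw [Real.tanh_eq_sinh_div_cosh] at h
  unfold cc yy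
  have h2 : nsq x * lap R x = -2 * (Real.sinh (R x / ε) / Real.cosh (R x / ε)) *
      (1 - nsq x * grad2 R x) / ε := by
    rw [eq_div_iff hε.ne', ← h]; ring
  rw [h2]
  field_simp
  ring

end Touch

end

end Crest.Agent.R246.D3x118
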