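import Crest.Agent.R246.D3Ricc_118
import Crest.Agent.R246.D2Energy_782

/-! R246, block D3.1 (helper118): the pointwise Riccati comparison for smooth Allen-Cahn solutions
on the sphere `S^{m+1} ⊂ ℝ^{m+2}`, `m ≥ 2`, on helper782's interface. -/

set_option autoImplicit false

open scoped ContDiff Topology
open Crest.GeometryTopology.CoordMetric Crest.GeometryTopology.AffineMaximal Filter Metric Set
open Crest.Agent.R236.Jet
open Crest.Agent.R246.D2x782 (SmHom0 ACeq slap sgsq lapl gsq)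

namespace Crest.Agent.R246.D3x118

noncomputable section

local notation "𝔼" n => EuclideanSpace ℝ (Fin n)

/-! ### one-dimensional estimates -/

lemma tanh_nonneg' {t : ℝ} (ht : 0 ≤ t) : 0 ≤ Real.tanh t := by
  rw [Real.tanh_eq_sinh_div_cosh]
  exact div_nonneg (Real.sinh_nonneg_iff.2 ht) (Real.cosh_pos t).le

lemma kk_le {ε t : ℝ} (hε : 0 < ε) (ht : 0 < t) : kk ε t ≤ ε ^ 2 / (2 * t ^ 2) := by
  have hs : 0 < t / ε := div_pos ht hε
  have h1 : t / ε ≤ Real.sinh (t / ε) := Real.self_le_sinh_iff.2 hs.le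
  have h2 : (t / ε) ^ 2 ≤ Real.sinh (t / ε) ^ 2 := pow_le_pow_left₀ hs.le h1 2
  unfold kk
  calc 1 / 2 * (1 / Real.sinh (t / ε) ^ 2) ≤ 1 / 2 * (1 / (t / ε) ^ 2) := by gcongr
    _ = ε ^ 2 / (2 * t ^ 2) := by field_simp

lemma cc_le {ε t : ℝ} (hε : 0 < ε) (ht : ε ≤ t) : cc ε t ≤ ε := by
  have hs : 1 ≤ t / ε := by rwa [one_le_div hε]
  have hs0 : 0 < t / ε := by linarith
  have h1 : t / ε ≤ Real.sinh (t / ε) := Real.self_le_sinh_iff.2 hs0.le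
  have hsh : 0 < Real.sinh (t / ε) := by linarith
  have h2 : Real.cosh (t / ε) - Real.sinh (t / ε) = Real.exp (-(t / ε)) := Real.cosh_sub_sinh _
  have h3 : Real.exp (-(t / ε)) ≤ 1 := Real.exp_le_one_iff.2 (by linarith)
  have h4 : Real.cosh (t / ε) / Real.sinh (t / ε) ≤ 2 := by
    rw [div_le_iff₀ hsh]; linarith
  unfold cc
  calc ε / 2 * (Real.cosh (t / ε) / Real.sinh (t / ε)) ≤ ε / 2 * 2 := by gcongr
    _ = ε := by ring

lemma theta_nonneg {m m₁ z : ℝ} (hm : 0 < m) (hm₁ : 0 < m₁) (hz : 0 ≤ z) :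
    0 ≤ theta m m₁ z := by
  unfold theta
  have hq : 0 < √(m * m₁) := Real.sqrt_pos.2 (by positivity)
  have : 0 ≤ Real.arctan (z / √(m * m₁)) := Real.arctan_nonneg.2 (by positivity)
  positivity

lemma theta_anti {m m₁ m₂ z : ℝ} (hm : 0 < m) (hm₁ : 0 < m₁) (h : m₁ ≤ m₂) (hz : 0 ≤ z) :
    theta m m₂ z ≤ theta m m₁ z := by
  unfold theta
  have hq : 0 < √(m * m₁) := Real.sqrt_pos.2 (by positivity)
  have hq2 : √(m * m₁) ≤ √(m * m₂) := Real.sqrt_le_sqrt (by gcongr)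
  have h0 : 0 ≤ Real.arctan (z / √(m * m₂)) := Real.arctan_nonneg.2 (by positivity)
  have h1 : Real.arctan (z / √(m * m₂)) ≤ Real.arctan (z / √(m * m₁)) :=
    Real.arctan_strictMono.monotone (by gcongr)
  gcongr

lemma theta_eq {m m₁ : ℝ} (hm : 0 < m) (hm₁ : 0 < m₁) (z : ℝ) :
    theta m m₁ z = √(m / m₁) * Real.arctan (z / √(m * m₁)) := by
  unfold theta
  congr 1
  rw [Real.sqrt_div hm.le, Real.sqrt_mul hm.le]
  have h1 : 0 < √m := Real.sqrt_pos.2 hm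
  have h2 : 0 < √m₁ := Real.sqrt_pos.2 hm₁
  rw [div_eq_div_iff (by positivity) (by positivity)]
  have h3 : √m * √m = m := Real.mul_self_sqrt hm.le
  linear_combination (-√m₁) * h3

/-! ### the bridge to `SmHom0`, `ACeq` -/

section Bridge

variable {n : ℕ} {R : (𝔼 n) → ℝ} {ε : ℝ}

lemma slap_eq (R : (𝔼 n) → ℝ) (x : 𝔼 n) : slap R x = nsq x * lap R x := rfl

lemma sgsq_eq (R : (𝔼 n) → ℝ) (x : 𝔼 n) : sgsq R x = nsq x * grad2 R x := rfl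

lemma yy_eq (R : (𝔼 n) → ℝ) (x : 𝔼 n) : yy R x = -slap R x := rfl

lemma isAC (hε : 0 < ε) (h : ACeq ε R) : IsAC ε R := by
  intro x hx
  have h1 := h x hx
  rw [slap_eq, sgsq_eq] at h1
  rw [h1]
  field_simp
  ring

/-- `slap R` is `0`-homogeneous for Allen-Cahn solutions -/
lemma slap_smul (h : SmHom0 R) (hac : ACeq ε R) {x : 𝔼 n} (hx : x ≠ 0) {t : ℝ} (ht : 0 < t) :
    slap R (t • x) = slap R x := by
  rw [hac (t • x) (smul_ne_zero ht.ne' hx), hac x hx, h.hom t x ht, h.sgsq_smul hx ht]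

end Bridge

/-! ### the theorem -/

section Main

variable {m : ℕ} {R : (𝔼 (m + 2)) → ℝ} {ε δ τ : ℝ}

/-- the comparison for `δ ≤ 1` -/
theorem bound_core (hm : 2 ≤ m) (hδ : 0 < δ) (hδ1 : δ ≤ 1) (hτ : 0 < τ) (hε : 0 < ε)
    (h2 : ε ≤ δ / (20 * (m : ℝ) ^ 2)) (h3 : ε ≤ τ * (δ / (2 * m)))
    (hR : SmHom0 R) (hac : ACeq ε R) {x : 𝔼 (m + 2)} (hx : x ≠ 0) (hRx : 0 ≤ R x) :
    R x - τ ≤ theta m (m - δ) (-slap R x) := by
  by_contra hcon
  push Not at hcon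
  have hm0 : (0 : ℝ) < m := by exact_mod_cast (by omega : 0 < m)
  have hm2 : (2 : ℝ) ≤ m := by exact_mod_cast hm
  have hm1 : 0 < (m : ℝ) - δ := by linarith
  have smR : Sm0 R := fun x hx => hR.smooth x hx
  have hsmyy := sm_yy smR
  set Ψ : (𝔼 (m + 2)) → ℝ := fun z => R z - theta m (m - δ) (yy R z) with hΨ
  have hΨc : ∀ z : 𝔼 (m + 2), z ≠ 0 → ContinuousAt Ψ z := fun z hz =>
    (smR z hz).continuousAt.sub ((contDiff_theta _ _).continuous.continuousAt.comp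
      (hsmyy z hz).continuousAt)
  have hΨh : ∀ (t : ℝ) (z : 𝔼 (m + 2)), 0 < t → z ≠ 0 → Ψ (t • z) = Ψ z := by
    intro t z ht hz
    simp only [hΨ]
    rw [hR.hom t z ht, yy_eq, yy_eq, slap_smul hR hac hz ht]
  have hyy0 : ∀ z : 𝔼 (m + 2), z ≠ 0 → 0 ≤ R z → 0 ≤ yy R z := by
    intro z hz hRz
    rw [yy_eq, hac z hz]
    have h4 : sgsq R z < 1 := D2x782.modica (by omega) hε hR hac hz
    have h5 : 0 ≤ Real.tanh (R z / ε) := tanh_nonneg' (div_nonneg hRz hε.le)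
    have h6 : 0 ≤ 2 / ε * Real.tanh (R z / ε) := by positivity
    nlinarith
  -- the compact set
  set K : Set (𝔼 (m + 2)) := sphere 0 1 ∩ {z | 0 ≤ R z} with hK
  have hne : ∀ z ∈ sphere (0 : 𝔼 (m + 2)) 1, z ≠ 0 := by
    intro z hz h0
    rw [h0] at hz
    simp at hz
  have hRc : ContinuousOn R (sphere (0 : 𝔼 (m + 2)) 1) := fun z hz =>
    (smR z (hne z hz)).continuousAt.continuousWithinAt
  have hKc : IsCompact K := by
    have h4 : IsClosed (sphere (0 : 𝔼 (m + 2)) 1 ∩ R ⁻¹' Ici 0) :=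
      hRc.preimage_isClosed_of_isClosed isClosed_sphere isClosed_Ici
    exact (isCompact_sphere (0 : 𝔼 (m + 2)) 1).of_isClosed_subset h4 inter_subset_left
  have hnorm : ∀ z : 𝔼 (m + 2), z ≠ 0 → (‖z‖⁻¹ • z) ∈ sphere (0 : 𝔼 (m + 2)) 1 := by
    intro z hz
    rw [mem_sphere_zero_iff_norm, norm_smul, norm_inv, norm_norm]
    exact inv_mul_cancel₀ (norm_ne_zero_iff.2 hz)
  have hpos : ∀ z : 𝔼 (m + 2), z ≠ 0 → 0 < ‖z‖⁻¹ := fun z hz => inv_pos.2 (norm_pos_iff.2 hz)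
  have hx1K : (‖x‖⁻¹ • x) ∈ K := ⟨hnorm x hx, by
    change 0 ≤ R _
    rwa [hR.hom _ x (hpos x hx)]⟩
  obtain ⟨x0, hx0K, hx0max⟩ := hKc.exists_isMaxOn ⟨_, hx1K⟩
    (f := Ψ) (fun z hz => (hΨc z (hne z hz.1)).continuousWithinAt)
  have hx0ne := hne x0 hx0K.1
  have hval : τ < Ψ x0 := by
    have h4 : Ψ (‖x‖⁻¹ • x) ≤ Ψ x0 := hx0max hx1K
    rw [hΨh _ x (hpos x hx) hx] at h4
    have h5 : τ < Ψ x := by
      simp only [hΨ]
      rw [yy_eq]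
      linarith
    linarith
  have hRτ : τ < R x0 := by
    have h4 := theta_nonneg (z := yy R x0) hm0 hm1 (hyy0 x0 hx0ne hx0K.2)
    have h5 : Ψ x0 = R x0 - theta m (m - δ) (yy R x0) := rfl
    linarith
  have hRx0 : 0 < R x0 := hτ.trans hRτ
  have hlm : IsLocalMax Ψ x0 := by
    have h4 : ∀ᶠ z in 𝓝 x0, z ≠ 0 ∧ 0 < R z :=
      (ev_ne hx0ne).and ((smR x0 hx0ne).continuousAt.eventually (lt_mem_nhds hRx0))
    filter_upwards [h4] with z hz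
    have h5 : (‖z‖⁻¹ • z) ∈ K := ⟨hnorm z hz.1, by
      change 0 ≤ R _
      rw [hR.hom _ z (hpos z hz.1)]
      exact hz.2.le⟩
    have h6 : Ψ (‖z‖⁻¹ • z) ≤ Ψ x0 := hx0max h5
    rwa [hΨh _ z (hpos z hz.1) hz.1] at h6
  have hnx : nsq x0 = 1 := by
    rw [nsq_eq, mem_sphere_zero_iff_norm.1 hx0K.1]; norm_num
  -- smallness
  have hq1 : δ / (2 * (m : ℝ)) ≤ 1 / 4 := by
    rw [div_le_div_iff₀ (by positivity) (by norm_num)]
    linarith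
  have hq0 : 0 < δ / (2 * (m : ℝ)) := by positivity
  have hετ : ε ≤ τ := by nlinarith
  have hk : kk ε (R x0) ≤ (δ / (2 * (m : ℝ))) ^ 2 / 2 := by
    refine (kk_le hε hRx0).trans ?_
    have h4 : ε ^ 2 ≤ (τ * (δ / (2 * m))) ^ 2 := pow_le_pow_left₀ hε.le h3 2
    have h5 : τ ^ 2 ≤ R x0 ^ 2 := pow_le_pow_left₀ hτ.le hRτ.le 2
    calc ε ^ 2 / (2 * R x0 ^ 2) ≤ (τ * (δ / (2 * m))) ^ 2 / (2 * τ ^ 2) := by gcongr
      _ = (δ / (2 * (m : ℝ))) ^ 2 / 2 := by field_simp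
  refine no_touch hm hδ hδ1 hε smR (fun t z ht _ => hR.hom t z ht) (isAC hε hac)
    (fun z hz => D2x782.modica (by omega) hε hR hac hz) hnx hRx0 ?_ ?_ ?_ hlm
  · refine hk.trans ?_
    nlinarith
  · refine hk.trans ?_
    have h4 : δ / (4 * (m : ℝ)) = δ / (2 * m) / 2 := by field_simp; ring
    rw [h4]
    nlinarith
  · exact (cc_le hε (hετ.trans hRτ.le)).trans h2

/-- **D3.1**, the pointwise Riccati comparison at the `ε`-level. -/
theorem riccati (hm : 2 ≤ m) : ∀ τ : ℝ, 0 < τ → ∀ δ : ℝ, 0 < δ → δ < m → ∃ ε0 : ℝ, 0 < ε0 ∧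
    ∀ ε : ℝ, 0 < ε → ε ≤ ε0 → ∀ R : (𝔼 (m + 2)) → ℝ, SmHom0 R → ACeq ε R →
    ∀ x : 𝔼 (m + 2), x ≠ 0 → 0 ≤ R x →
    R x - τ ≤ √(m / (m - δ)) * Real.arctan (-slap R x / √(m * (m - δ))) := by
  intro τ hτ δ hδ hδm
  have hm0 : (0 : ℝ) < m := by exact_mod_cast (by omega : 0 < m)
  set d := min δ 1 with hd
  have hd0 : 0 < d := lt_min hδ one_pos
  have hd1 : d ≤ 1 := min_le_right _ _
  have hdδ : d ≤ δ := min_le_left _ _
  refine ⟨min (d / (20 * (m : ℝ) ^ 2)) (τ * (d / (2 * m))), by positivity, ?_⟩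
  intro ε hε hε0 R hR hac x hx hRx
  have h1 := bound_core hm hd0 hd1 hτ hε (hε0.trans (min_le_left _ _))
    (hε0.trans (min_le_right _ _)) hR hac hx hRx
  have hm1 : 0 < (m : ℝ) - δ := by linarith
  rw [← theta_eq hm0 hm1]
  refine h1.trans (theta_anti hm0 hm1 (by linarith) ?_)
  rw [hac x hx]
  have h4 : sgsq R x < 1 := D2x782.modica (by omega) hε hR hac hx
  have h5 : 0 ≤ Real.tanh (R x / ε) := tanh_nonneg' (div_nonneg hRx hε.le)
  have h6 : 0 ≤ 2 / ε * Real.tanh (R x / ε) := by positivity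
  nlinarith

end Main

/-- the same statement for `ℝⁿ`, `n ≥ 4`, with `m = n - 2` -/
theorem riccati_n {n : ℕ} (hn : 4 ≤ n) : ∀ τ : ℝ, 0 < τ → ∀ δ : ℝ, 0 < δ → δ < (n : ℝ) - 2 →
    ∃ ε0 : ℝ, 0 < ε0 ∧ ∀ ε : ℝ, 0 < ε → ε ≤ ε0 → ∀ R : (𝔼 n) → ℝ, SmHom0 R → ACeq ε R →
    ∀ x : 𝔼 n, x ≠ 0 → 0 ≤ R x →
    R x - τ ≤ √(((n : ℝ) - 2) / ((n : ℝ) - 2 - δ)) *
      Real.arctan (-slap R x / √(((n : ℝ) - 2) * ((n : ℝ) - 2 - δ))) := by
  obtain ⟨m, rfl⟩ : ∃ m, n = m + 2 := ⟨n - 2, by omega⟩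
  have h : ((m + 2 : ℕ) : ℝ) - 2 = m := by push_cast; ring
  rw [h]
  exact riccati (by omega)

end

end Crest.Agent.R246.D3x118
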