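import Crest.Agent.R246.Flat1_105
import Mathlib.Analysis.Normed.Lp.SmoothApprox
import Mathlib.Analysis.Calculus.ContDiff.RCLike
import Mathlib.Analysis.Calculus.BumpFunction.FiniteDimension

/-!
R246, helper67.  D3.2 (limit of the Riccati inequality), part A: weak convergence of gradients of
`1`-Lipschitz functions against `L¹` fields.
-/

set_option autoImplicit false
noncomputable section
open MeasureTheory Set Filter Topology Metric
open scoped RealInnerProductSpace NNReal ContDiff Gradient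

namespace Crest.Agent.R246.D3Lim67
open Crest.Agent.R246.Flat105

variable {E : Type*} [NormedAddCommGroup E] [InnerProductSpace ℝ E] [FiniteDimensional ℝ E]
  [MeasurableSpace E] [BorelSpace E]

theorem abs_inner_grad_le {f : E → ℝ} (hf : LipschitzWith 1 f) (x v : E) :
    |⟪∇ f x, v⟫| ≤ ‖v‖ := by
  have h1 := norm_grad_le hf x
  simp only [NNReal.coe_one] at h1
  calc |⟪∇ f x, v⟫| ≤ ‖∇ f x‖ * ‖v‖ := abs_real_inner_le_norm _ _
    _ ≤ 1 * ‖v‖ := by gcongr
    _ = ‖v‖ := one_mul _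

theorem weak_conv_smooth {f : ℕ → E → ℝ} {g : E → ℝ} (hf : ∀ k, LipschitzWith 1 (f k))
    (hg : LipschitzWith 1 g) (hfg : ∀ x, Tendsto (fun k => f k x) atTop (𝓝 (g x)))
    {w : E → ℝ} (hw : ContDiff ℝ 1 w) (hwc : HasCompactSupport w) (v : E) :
    Tendsto (fun k => ∫ x, ⟪∇ (f k) x, v⟫ * w x) atTop (𝓝 (∫ x, ⟪∇ g x, v⟫ * w x)) := by
  obtain ⟨D, hD⟩ := hw.lipschitzWith_of_hasCompactSupport hwc one_ne_zero
  have e1 : ∀ k, ∫ x, ⟪∇ (f k) x, v⟫ * w x = -∫ x, ⟪∇ w x, v⟫ * f k x :=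
    fun k => ibp (hf k) hD hwc v
  simp_rw [e1, ibp hg hD hwc v]
  apply Tendsto.neg
  obtain ⟨B, hB⟩ : ∃ B, ∀ k, |f k 0| ≤ B := by
    have := (hfg 0).abs.isBoundedUnder_le.bddAbove_range
    obtain ⟨B, hB⟩ := this
    exact ⟨B, fun k => hB ⟨k, rfl⟩⟩
  have hcont : Continuous fun x => ⟪∇ w x, v⟫ := by
    have h1 : Continuous fun x => fderiv ℝ w x v :=
      (hw.continuous_fderiv one_ne_zero).clm_apply continuous_const
    simpa only [inner_grad] using h1
  have hcs : HasCompactSupport fun x => ⟪∇ w x, v⟫ := by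
    refine hwc.mono' fun x hx => ?_
    by_contra hn
    exact hx (by simp only [grad_zero_of_notMem hn, inner_zero_left])
  refine tendsto_integral_of_dominated_convergence (fun x => |⟪∇ w x, v⟫| * (B + ‖x‖)) ?_ ?_ ?_ ?_
  · intro k
    exact (hcont.mul (hf k).continuous).aestronglyMeasurable
  · have hc2 : Continuous fun x => |⟪∇ w x, v⟫| * (B + ‖x‖) :=
      hcont.abs.mul (continuous_const.add continuous_norm)
    refine hc2.integrable_of_hasCompactSupport ?_
    refine hcs.mono fun x hx => ?_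
    simp only [Function.mem_support] at hx ⊢
    intro h0
    exact hx (by rw [h0]; simp)
  · intro k
    refine Eventually.of_forall fun x => ?_
    rw [Real.norm_eq_abs, abs_mul]
    refine mul_le_mul_of_nonneg_left ?_ (abs_nonneg _)
    have h1 := (hf k).dist_le_mul x 0
    rw [Real.dist_eq, dist_zero_right, NNReal.coe_one, one_mul] at h1
    calc |f k x| = |f k 0 + (f k x - f k 0)| := by congr 1; ring
      _ ≤ |f k 0| + |f k x - f k 0| := abs_add_le _ _
      _ ≤ B + ‖x‖ := add_le_add (hB k) h1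
  · exact Eventually.of_forall fun x => (hfg x).const_mul _

theorem integrable_inner_mul {f : E → ℝ} (hf : LipschitzWith 1 f) {w : E → ℝ} (hw : Integrable w)
    (v : E) : Integrable fun x => ⟪∇ f x, v⟫ * w x := by
  have hm : Measurable fun x => ⟪∇ f x, v⟫ := by
    have h1 := measurable_fderiv_apply_const ℝ f v
    simpa only [inner_grad] using h1
  refine (hw.norm.const_mul ‖v‖).mono' (hm.aestronglyMeasurable.mul hw.aestronglyMeasurable) ?_
  refine Eventually.of_forall fun x => ?_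
  rw [norm_mul, Real.norm_eq_abs]
  exact mul_le_mul_of_nonneg_right (abs_inner_grad_le hf x v) (norm_nonneg _)

/-- weak convergence of gradients, scalar form -/
theorem weak_conv {f : ℕ → E → ℝ} {g : E → ℝ} (hf : ∀ k, LipschitzWith 1 (f k))
    (hg : LipschitzWith 1 g) (hfg : ∀ x, Tendsto (fun k => f k x) atTop (𝓝 (g x)))
    {w : E → ℝ} (hw : Integrable w) (v : E) :
    Tendsto (fun k => ∫ x, ⟪∇ (f k) x, v⟫ * w x) atTop (𝓝 (∫ x, ⟪∇ g x, v⟫ * w x)) := by
  rw [Metric.tendsto_atTop]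
  intro η hη
  set δ := η / (4 * (‖v‖ + 1)) with hδ
  have hv : 0 < ‖v‖ + 1 := by positivity
  have hδ0 : 0 < δ := by positivity
  obtain ⟨w', hc, hs, hle⟩ := (memLp_one_iff_integrable.2 hw).exist_eLpNorm_sub_le
    ENNReal.one_ne_top le_rfl hδ0
  have hw' : Integrable w' := hs.continuous.integrable_of_hasCompactSupport hc
  have hsub : ∫ x, ‖w x - w' x‖ ≤ δ := by
    have h1 : eLpNorm (w - w') 1 volume = ENNReal.ofReal (∫ x, ‖(w - w') x‖) := by
      rw [eLpNorm_one_eq_lintegral_enorm, ofReal_integral_norm_eq_lintegral_enorm (hw.sub hw')]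
    rw [h1, ENNReal.ofReal_le_ofReal_iff hδ0.le] at hle
    exact hle
  have key : ∀ h : E → ℝ, LipschitzWith 1 h →
      |(∫ x, ⟪∇ h x, v⟫ * w x) - ∫ x, ⟪∇ h x, v⟫ * w' x| ≤ ‖v‖ * δ := by
    intro h hh
    rw [← integral_sub (integrable_inner_mul hh hw v) (integrable_inner_mul hh hw' v)]
    have h2 : ∀ x, ‖⟪∇ h x, v⟫ * w x - ⟪∇ h x, v⟫ * w' x‖ ≤ ‖v‖ * ‖w x - w' x‖ := by
      intro x
      rw [← mul_sub, norm_mul, Real.norm_eq_abs]
      exact mul_le_mul_of_nonneg_right (abs_inner_grad_le hh x v) (norm_nonneg _)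
    have h3 := norm_integral_le_of_norm_le ((hw.sub hw').norm.const_mul ‖v‖)
      (Eventually.of_forall h2 : ∀ᵐ x ∂volume, ‖⟪∇ h x, v⟫ * w x - ⟪∇ h x, v⟫ * w' x‖ ≤
        ‖v‖ * ‖(w - w') x‖)
    rw [Real.norm_eq_abs] at h3
    refine h3.trans ?_
    rw [integral_const_mul]
    exact mul_le_mul_of_nonneg_left hsub (norm_nonneg _)
  have hconv := weak_conv_smooth hf hg hfg (hs.of_le (by exact_mod_cast le_top)) hc v
  rw [Metric.tendsto_atTop] at hconv
  obtain ⟨N, hN⟩ := hconv (η / 2) (by positivity)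
  refine ⟨N, fun k hk => ?_⟩
  have h1 := key (f k) (hf k)
  have h2 := key g hg
  have h3 := hN k hk
  rw [Real.dist_eq] at h3 ⊢
  have h4 : ‖v‖ * δ ≤ η / 4 := by
    rw [hδ]
    have : ‖v‖ * (η / (4 * (‖v‖ + 1))) = (‖v‖ / (‖v‖ + 1)) * (η / 4) := by
      field_simp
    rw [this]
    have h5 : ‖v‖ / (‖v‖ + 1) ≤ 1 := by
      rw [div_le_one hv]; linarith
    nlinarith
  rw [abs_lt] at h3 ⊢
  rw [abs_le] at h1 h2
  constructor <;> linarith [h1.1, h1.2, h2.1, h2.2, h3.1, h3.2]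

/-- weak convergence of gradients, vector form -/
theorem weak_conv_vec {f : ℕ → E → ℝ} {g : E → ℝ} (hf : ∀ k, LipschitzWith 1 (f k))
    (hg : LipschitzWith 1 g) (hfg : ∀ x, Tendsto (fun k => f k x) atTop (𝓝 (g x)))
    {W : E → E} (hW : Integrable W) :
    Tendsto (fun k => ∫ x, ⟪∇ (f k) x, W x⟫) atTop (𝓝 (∫ x, ⟪∇ g x, W x⟫)) := by
  set b := stdOrthonormalBasis ℝ E
  have hWi : ∀ i, Integrable fun x => ⟪b i, W x⟫ := fun i => (innerSL ℝ (b i)).integrable_comp hW
  have e : ∀ h : E → ℝ, LipschitzWith 1 h →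
      ∫ x, ⟪∇ h x, W x⟫ = ∑ i, ∫ x, ⟪∇ h x, b i⟫ * ⟪b i, W x⟫ := by
    intro h hh
    rw [← integral_finsetSum _ fun i _ => integrable_inner_mul hh (hWi i) (b i)]
    congr 1
    funext x
    exact (b.sum_inner_mul_inner (∇ h x) (W x)).symm
  simp_rw [e _ (hf _), e g hg]
  exact tendsto_finsetSum _ fun i _ => weak_conv hf hg hfg (hWi i) (b i)

end Crest.Agent.R246.D3Lim67
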