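import Crest.Agent.R246.D3LimA_67
import Crest.Agent.R246.Artanh_657

/-!
R246, helper67.  D3.2 (limit of the Riccati inequality), part B: integration by parts away from the
origin, Laplacian of `|x| f(R x)`.
-/

set_option autoImplicit false
noncomputable section
open MeasureTheory Set Filter Topology Metric
open scoped RealInnerProductSpace NNReal ContDiff Gradient
open Crest.GeometryTopology.CoordMetric Crest.GeometryTopology.AffineMaximal
open Crest.Agent.R236.Jet

namespace Crest.Agent.R246.D3Lim67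
open Crest.Agent.R246.Flat105 Crest.Agent.R246.D2x782 Crest.Agent.R246.Artanh657

variable {n : ℕ}

local notation "EE" => EuclideanSpace ℝ (Fin n)

theorem inner_grad_grad (f g : EE → ℝ) (x : EE) :
    ⟪∇ f x, ∇ g x⟫ = ∑ i, pderiv i f x * pderiv i g x := by
  rw [← (EuclideanSpace.basisFun (Fin n) ℝ).sum_inner_mul_inner (∇ f x) (∇ g x)]
  refine Finset.sum_congr rfl fun i _ => ?_
  rw [real_inner_comm (∇ g x), inner_grad, inner_grad, EuclideanSpace.basisFun_apply]
  rfl

theorem ibp_lapl_smooth {ψ ζ : EE → ℝ} {K : ℝ≥0} (hψ : ContDiff ℝ 2 ψ)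
    (hψc : HasCompactSupport ψ) (hζ : LipschitzWith K ζ) (hc : HasCompactSupport ζ) :
    ∫ x, ⟪∇ ψ x, ∇ ζ x⟫ = -∫ x, ζ x * lapl ψ x := by
  have hP : ∀ i : Fin n, ContDiff ℝ 1 (fun x => pderiv i ψ x) := by
    intro i
    have h1 : ContDiff ℝ 1 (fderiv ℝ ψ) := hψ.fderiv_right (by norm_num)
    exact h1.clm_apply contDiff_const
  have hPc : ∀ i : Fin n, HasCompactSupport (fun x => pderiv i ψ x) := by
    intro i
    have h1 := hψc.fderiv (𝕜 := ℝ)
    refine h1.mono fun x hx => ?_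
    simp only [Function.mem_support, pderiv] at hx ⊢
    intro h0
    exact hx (by rw [h0]; rfl)
  have hL : ∀ i : Fin n, ∃ C, LipschitzWith C (fun x => pderiv i ψ x) := fun i =>
    (hP i).lipschitzWith_of_hasCompactSupport (hPc i) one_ne_zero
  have hcont1 : ∀ i : Fin n, Continuous fun x => hessianMat ψ x i i := by
    intro i
    have h1 : Continuous fun x => fderiv ℝ (fun y => pderiv i ψ y) x (EuclideanSpace.single i 1) :=
      ((hP i).continuous_fderiv one_ne_zero).clm_apply continuous_const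
    exact h1
  have hI1 : ∀ i : Fin n, Integrable fun x => ζ x * hessianMat ψ x i i := fun i =>
    (hζ.continuous.mul (hcont1 i)).integrable_of_hasCompactSupport hc.mul_right
  have hI2 : ∀ i : Fin n, Integrable fun x => pderiv i ψ x * pderiv i ζ x := by
    intro i
    have hm : Measurable fun x => pderiv i ζ x := measurable_fderiv_apply_const ℝ ζ _
    have hcpt : IsCompact (tsupport fun x => pderiv i ψ x) := hPc i
    have h2 : Integrable fun x => pderiv i ψ x * (K : ℝ) :=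
      ((hP i).continuous.mul continuous_const).integrable_of_hasCompactSupport (hPc i).mul_right
    refine h2.norm.mono' ((hP i).continuous.aestronglyMeasurable.mul hm.aestronglyMeasurable) ?_
    refine Eventually.of_forall fun x => ?_
    rw [norm_mul, norm_mul]
    refine mul_le_mul_of_nonneg_left ?_ (norm_nonneg _)
    have h3 : ‖fderiv ℝ ζ x‖ ≤ K := norm_fderiv_le_of_lipschitz ℝ hζ
    have h4 := (fderiv ℝ ζ x).le_opNorm (EuclideanSpace.single i (1 : ℝ))
    rw [PiLp.norm_single, norm_one, mul_one] at h4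
    calc ‖pderiv i ζ x‖ ≤ ‖fderiv ℝ ζ x‖ := h4
      _ ≤ K := h3
      _ ≤ ‖(K : ℝ)‖ := le_abs_self _
  have h0 : ∀ i : Fin n, ∫ x, pderiv i ψ x * pderiv i ζ x = -∫ x, ζ x * hessianMat ψ x i i := by
    intro i
    obtain ⟨C, hC⟩ := hL i
    have h1 := ibp hC hζ hc (EuclideanSpace.single i (1 : ℝ))
    simp only [inner_grad] at h1
    have h2 : ∫ x, ζ x * hessianMat ψ x i i =
        ∫ x, fderiv ℝ (fun y => pderiv i ψ y) x (EuclideanSpace.single i 1) * ζ x :=
      integral_congr_ae (Eventually.of_forall fun x => mul_comm _ _)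
    have h3 : ∫ x, pderiv i ψ x * pderiv i ζ x =
        ∫ x, fderiv ℝ ζ x (EuclideanSpace.single i 1) * pderiv i ψ x :=
      integral_congr_ae (Eventually.of_forall fun x => mul_comm _ _)
    rw [h2, h3, h1, neg_neg]
  simp only [inner_grad_grad]
  rw [integral_finsetSum _ fun i _ => hI2 i, Finset.sum_congr rfl fun i _ => h0 i,
    Finset.sum_neg_distrib]
  congr 1
  rw [← integral_finsetSum _ fun i _ => hI1 i]
  refine integral_congr_ae (Eventually.of_forall fun x => ?_)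
  simp only [lapl, Finset.mul_sum]

/-- a compactly supported smooth copy of `φ` near a compact set avoiding `0` -/
theorem exists_copy {φ : EE → ℝ} (hφ : ∀ x : EE, x ≠ 0 → ContDiffAt ℝ ∞ φ x) {S : Set EE}
    (hS : IsCompact S) (h0 : (0 : EE) ∉ S) :
    ∃ ψ : EE → ℝ, ContDiff ℝ ∞ ψ ∧ HasCompactSupport ψ ∧ ∀ x ∈ S, ψ =ᶠ[𝓝 x] φ := by
  obtain ⟨ρ, hρ, hball⟩ : ∃ ρ > 0, ball (0 : EE) ρ ⊆ Sᶜ :=
    Metric.isOpen_iff.1 hS.isClosed.isOpen_compl 0 h0
  obtain ⟨L, hL⟩ := hS.isBounded.subset_ball (0 : EE)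
  let b1 : ContDiffBump (0 : EE) := ⟨ρ / 3, ρ / 2, by positivity, by linarith⟩
  let b2 : ContDiffBump (0 : EE) := ⟨|L| + 1, |L| + 2, by positivity, by linarith⟩
  refine ⟨fun x => b2 x * ((1 - b1 x) * φ x), ?_, ?_, ?_⟩
  · refine b2.contDiff.mul ?_
    rw [contDiff_iff_contDiffAt]
    intro x
    by_cases hx : x = 0
    · subst hx
      have h1 : (fun x => (1 - b1 x) * φ x) =ᶠ[𝓝 0] fun _ => 0 := by
        filter_upwards [b1.eventuallyEq_one] with y hy
        rw [hy]; simp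
      exact contDiffAt_const.congr_of_eventuallyEq h1
    · exact (contDiffAt_const.sub b1.contDiffAt).mul (hφ x hx)
  · exact b2.hasCompactSupport.mul_right
  · intro x hx
    have hxρ : ρ ≤ ‖x‖ := by
      by_contra hlt
      push Not at hlt
      exact hball (mem_ball_zero_iff.2 hlt) hx
    have hxL : ‖x‖ < |L| + 1 := by
      have := mem_ball_zero_iff.1 (hL hx)
      linarith [le_abs_self L]
    have h1 : ∀ᶠ y in 𝓝 x, ρ / 2 < ‖y‖ :=
      continuous_norm.continuousAt.eventually (lt_mem_nhds (by linarith))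
    have h2 : ∀ᶠ y in 𝓝 x, ‖y‖ < |L| + 1 :=
      continuous_norm.continuousAt.eventually (gt_mem_nhds hxL)
    filter_upwards [h1, h2] with y hy1 hy2
    have e1 : b1 y = 0 := b1.zero_of_le_dist (by rw [dist_zero_right]; exact hy1.le)
    have e2 : b2 y = 1 := b2.one_of_mem_closedBall (by
      rw [mem_closedBall_zero_iff]; exact hy2.le)
    rw [e1, e2]; ring

/-- integration by parts away from the origin -/
theorem ibp_lapl {φ ζ : EE → ℝ} {K : ℝ≥0} (hφ : ∀ x : EE, x ≠ 0 → ContDiffAt ℝ ∞ φ x)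
    (hζ : LipschitzWith K ζ) (hc : HasCompactSupport ζ) (h0 : (0 : EE) ∉ tsupport ζ) :
    ∫ x, ⟪∇ φ x, ∇ ζ x⟫ = -∫ x, ζ x * lapl φ x := by
  obtain ⟨ψ, h1, h2, h3⟩ := exists_copy hφ hc.isCompact h0
  have h4 := ibp_lapl_smooth (contDiff_infty.1 h1 2) h2 hζ hc
  have e1 : ∫ x, ⟪∇ φ x, ∇ ζ x⟫ = ∫ x, ⟪∇ ψ x, ∇ ζ x⟫ := by
    refine integral_congr_ae (Eventually.of_forall fun x => ?_)
    by_cases hx : x ∈ tsupport ζ
    · simp only [gradient, (h3 x hx).fderiv_eq]
    · simp only [grad_zero_of_notMem hx, inner_zero_right]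
  have e2 : ∫ x, ζ x * lapl φ x = ∫ x, ζ x * lapl ψ x := by
    refine integral_congr_ae (Eventually.of_forall fun x => ?_)
    by_cases hx : x ∈ tsupport ζ
    · simp only [lapl]
      congr 1
      exact Finset.sum_congr rfl fun i _ => (hess_congr (h3 x hx) i i).symm
    · simp only [image_eq_zero_of_notMem_tsupport hx, zero_mul]
  rw [e1, e2, h4]

/-! ### Laplacian of `|x| f(R x)` -/

theorem smooth_norm {x : EE} (hx : x ≠ 0) : ContDiffAt ℝ ∞ (fun y : EE => ‖y‖) x :=
  contDiffAt_norm ℝ hx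

theorem pderiv_norm {x : EE} (hx : x ≠ 0) (i : Fin n) :
    pderiv i (fun y : EE => ‖y‖) x = x i * ‖x‖⁻¹ := by
  have h1 : (fun y : EE => ‖y‖ * ‖y‖) = nsq := by
    funext y; rw [nsq_eq]; ring
  have h2 := pderiv_mul (sm_diff (smooth_norm hx)) (sm_diff (smooth_norm hx)) i
  rw [h1] at h2
  have h3 : pderiv i (nsq (n := n)) x = 2 * x i := by
    have h4 : pderiv i (fun y : EE => ∑ k, y k * y k) x =
        ∑ k, pderiv i (fun y : EE => y k * y k) x :=
      pderiv_sum (fun k _ => (sm_diff (smooth_coord k x)).mul (sm_diff (smooth_coord k x))) i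
    have h5 : ∀ k : Fin n, pderiv i (fun y : EE => y k * y k) x = if k = i then 2 * x i else 0 := by
      intro k
      rw [pderiv_mul (sm_diff (smooth_coord k x)) (sm_diff (smooth_coord k x)), pderiv_coord]
      split_ifs with h
      · subst h; ring
      · ring
    show pderiv i (fun y : EE => ∑ k, y k * y k) x = _
    rw [h4, Finset.sum_congr rfl fun k _ => h5 k, Finset.sum_ite_eq' Finset.univ i]
    simp
  rw [h3] at h2
  have hn : ‖x‖ ≠ 0 := norm_ne_zero_iff.2 hx
  field_simp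
  linarith

theorem hess_norm {x : EE} (hx : x ≠ 0) (i : Fin n) :
    hessianMat (fun y : EE => ‖y‖) x i i = ‖x‖⁻¹ - x i * x i * (‖x‖⁻¹) ^ 3 := by
  unfold hessianMat
  have e : (fun y : EE => pderiv i (fun z : EE => ‖z‖) y) =ᶠ[𝓝 x] fun y => y i * ‖y‖⁻¹ := by
    filter_upwards [ev_ne hx] with y hy using pderiv_norm hy i
  have hn : ‖x‖ ≠ 0 := norm_ne_zero_iff.2 hx
  have hinv : ContDiffAt ℝ ∞ (fun y : EE => ‖y‖⁻¹) x := (smooth_norm hx).inv hn
  rw [pderiv_congr e, pderiv_mul (sm_diff (smooth_coord i x)) (sm_diff hinv), pderiv_coord,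
    pderiv_comp (φ := fun t => t⁻¹) (hasDerivAt_inv hn) (sm_diff (smooth_norm hx)),
    pderiv_norm hx, if_pos rfl]
  field_simp
  ring

theorem lapl_norm {x : EE} (hx : x ≠ 0) :
    lapl (fun y : EE => ‖y‖) x = ((n : ℝ) - 1) * ‖x‖⁻¹ := by
  have hn : ‖x‖ ≠ 0 := norm_ne_zero_iff.2 hx
  unfold lapl
  rw [Finset.sum_congr rfl fun i _ => hess_norm hx i, Finset.sum_sub_distrib, ← Finset.sum_mul]
  have h1 : ∑ i, x i * x i = ‖x‖ ^ 2 := nsq_eq x
  rw [h1, Finset.sum_const, Finset.card_univ, Fintype.card_fin, nsmul_eq_mul]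
  field_simp

/-- `|x| Δ(|x| f(R)) = (n-1) f(R) + f'(R) slap R + f''(R) sgsq R` -/
theorem lapl_cone {R : EE → ℝ} (h : SmHom0 R) {f f' : ℝ → ℝ} {f'' : ℝ} {x : EE} (hx : x ≠ 0)
    (hsf : ContDiffAt ℝ ∞ f (R x))
    (hf : ∀ᶠ s in 𝓝 (R x), HasDerivAt f (f' s) s) (hf' : HasDerivAt f' f'' (R x)) :
    ‖x‖ * lapl (fun y => ‖y‖ * f (R y)) x =
      ((n : ℝ) - 1) * f (R x) + f' (R x) * slap R x + f'' * sgsq R x := by
  have hn : ‖x‖ ≠ 0 := norm_ne_zero_iff.2 hx
  have hR := h.smooth x hx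
  have hfR : ContDiffAt ℝ ∞ (fun y => f (R y)) x := hsf.comp x hR
  have e1 : lapl (fun y => ‖y‖ * f (R y)) x = ‖x‖ * lapl (fun y => f (R y)) x +
      f (R x) * lapl (fun y : EE => ‖y‖) x +
      2 * ∑ i, pderiv i (fun y : EE => ‖y‖) x * pderiv i (fun y => f (R y)) x := by
    unfold lapl
    rw [Finset.sum_congr rfl fun i _ => hess_mul (smooth_norm hx) hfR i i, Finset.mul_sum,
      Finset.mul_sum, Finset.mul_sum, ← Finset.sum_add_distrib, ← Finset.sum_add_distrib]
    refine Finset.sum_congr rfl fun i _ => ?_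
    ring
  have e2 : ∑ i, pderiv i (fun y : EE => ‖y‖) x * pderiv i (fun y => f (R y)) x = 0 := by
    have h1 : ∀ i, pderiv i (fun y : EE => ‖y‖) x * pderiv i (fun y => f (R y)) x =
        (‖x‖⁻¹ * f' (R x)) * (x i * pderiv i R x) := by
      intro i
      rw [pderiv_norm hx, pderiv_comp hf.self_of_nhds (sm_diff hR)]
      ring
    rw [Finset.sum_congr rfl fun i _ => h1 i, ← Finset.mul_sum, h.euler hx, mul_zero]
  have e3 := slap_comp hR hf hf'
  have e4 : ‖x‖ * (‖x‖ * lapl (fun y => f (R y)) x) = slap (fun y => f (R y)) x := by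
    unfold slap
    rw [nsq_eq]; ring
  rw [e1, e2, lapl_norm hx, mul_zero, add_zero, mul_add, e4, e3]
  field_simp
  ring

/-- the cone function of `R` -/
def phc (R : EuclideanSpace ℝ (Fin n) → ℝ) (x : EuclideanSpace ℝ (Fin n)) : ℝ :=
  ‖x‖ * Real.sin (R x)

theorem smooth_phc {R : EE → ℝ} (h : SmHom0 R) {x : EE} (hx : x ≠ 0) :
    ContDiffAt ℝ ∞ (phc R) x :=
  (smooth_norm hx).mul (Real.contDiff_sin.contDiffAt.comp x (h.smooth x hx))

theorem lapl_phc {R : EE → ℝ} (h : SmHom0 R) {x : EE} (hx : x ≠ 0) :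
    ‖x‖ * lapl (phc R) x = ((n : ℝ) - 1) * Real.sin (R x) + Real.cos (R x) * slap R x -
      Real.sin (R x) * sgsq R x := by
  have h1 := lapl_cone h (f := Real.sin) (f' := Real.cos) (f'' := -Real.sin (R x)) hx
    Real.contDiff_sin.contDiffAt (Eventually.of_forall Real.hasDerivAt_sin)
    (Real.hasDerivAt_cos (R x))
  show ‖x‖ * lapl (fun y => ‖y‖ * Real.sin (R y)) x = _
  rw [h1]; ring

end Crest.Agent.R246.D3Lim67
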