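import Crest.Agent.R246.D2Energy_782
import Mathlib.Geometry.Euclidean.Triangle
import Mathlib.Topology.ContinuousMap.Bounded.ArzelaAscoli

/-!
Row 246, block E2 (a) (helper782): geodesic Lipschitz bound, zeros, Arzelà–Ascoli on the sphere for
Allen–Cahn solutions in the form `R = ε artanh u`.
-/

set_option autoImplicit false

open MeasureTheory Filter Topology Metric Set
open scoped ContDiff RealInnerProductSpace
open Crest.GeometryTopology.CoordMetric Crest.GeometryTopology.AffineMaximal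
open Crest.Agent.R236.Jet Crest.Agent.R202.SphDiv Crest.Agent.R246.D2x782

noncomputable section

namespace Crest.Agent.R246.E2x782

variable {n : ℕ}

local notation "EE" => EuclideanSpace ℝ (Fin n)

/-- `0`-homogeneous and `1`-Lipschitz with respect to the angle (= geodesic distance on the sphere) -/
structure Geo (r : EuclideanSpace ℝ (Fin n) → ℝ) : Prop where
  hom : ∀ (t : ℝ) (x : EuclideanSpace ℝ (Fin n)), 0 < t → r (t • x) = r x
  lip : ∀ x y : EuclideanSpace ℝ (Fin n), x ≠ 0 → y ≠ 0 →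
    |r x - r y| ≤ InnerProductGeometry.angle x y

theorem abs_fderiv_le {R : EE → ℝ} {x v : EE} :
    |fderiv ℝ R x v| ≤ Real.sqrt (gsq R x) * ‖v‖ := by
  rw [fderiv_eq_sum]
  have h1 := Finset.sum_mul_sq_le_sq_mul_sq Finset.univ (fun i => pderiv i R x) (fun i => v i)
  have h2 : ∑ i, pderiv i R x ^ 2 = gsq R x := Finset.sum_congr rfl fun i _ => sq _
  have h3 : ∑ i, v i ^ 2 = ‖v‖ ^ 2 := (EuclideanSpace.real_norm_sq_eq v).symm
  rw [h2, h3] at h1
  rw [← Real.sqrt_sq (norm_nonneg v), ← Real.sqrt_mul (gsq_nonneg R x)]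
  exact Real.abs_le_sqrt h1

/-- a unit vector orthogonal to a given unit vector -/
theorem exists_orth (hn : 2 ≤ n) (x : EE) : ∃ e : EE, ‖e‖ = 1 ∧ ⟪x, e⟫ = 0 := by
  have h1 : (Submodule.span ℝ {x})ᗮ ≠ ⊥ := by
    intro h
    have h2 : Submodule.span ℝ {x} = ⊤ := by
      rwa [Submodule.orthogonal_eq_bot_iff] at h
    have h3 : Module.finrank ℝ (Submodule.span ℝ {x}) ≤ 1 := by
      refine (finrank_span_le_card ({x} : Set EE)).trans ?_
      simp
    rw [h2, finrank_top, finrank_euclideanSpace_fin] at h3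
    omega
  obtain ⟨v, hv, hv0⟩ := Submodule.exists_mem_ne_zero_of_ne_bot h1
  have hv' : ⟪x, v⟫ = 0 := Submodule.mem_orthogonal_singleton_iff_inner_right.1 hv
  refine ⟨‖v‖⁻¹ • v, ?_, ?_⟩
  · rw [norm_smul, norm_inv, norm_norm, inv_mul_cancel₀ (norm_ne_zero_iff.2 hv0)]
  · rw [inner_smul_right, hv', mul_zero]

/-- great circles -/
theorem exists_circle (hn : 2 ≤ n) {x y : EE} (hx : ‖x‖ = 1) (hy : ‖y‖ = 1) :
    ∃ e : EE, ‖e‖ = 1 ∧ ⟪x, e⟫ = 0 ∧
      y = Real.cos (InnerProductGeometry.angle x y) • x +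
        Real.sin (InnerProductGeometry.angle x y) • e := by
  set θ := InnerProductGeometry.angle x y with hθ
  have hc : Real.cos θ = ⟪x, y⟫ := by
    rw [hθ, InnerProductGeometry.cos_angle, hx, hy]; simp
  by_cases hs : Real.sin θ = 0
  · obtain ⟨e, he, hxe⟩ := exists_orth hn x
    refine ⟨e, he, hxe, ?_⟩
    have h1 : ‖y - Real.cos θ • x‖ ^ 2 = 0 := by
      rw [@norm_sub_sq_real, norm_smul, inner_smul_right, hy, hx, real_inner_comm, ← hc,
        Real.norm_eq_abs]
      have := Real.sin_sq_add_cos_sq θ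
      rw [hs] at this
      rw [mul_one, sq_abs]
      nlinarith
    have h2 : y - Real.cos θ • x = 0 := by
      rwa [sq_eq_zero_iff, norm_eq_zero] at h1
    rw [hs, zero_smul, add_zero]
    exact sub_eq_zero.1 h2
  · refine ⟨(Real.sin θ)⁻¹ • (y - Real.cos θ • x), ?_, ?_, ?_⟩
    · have hsp : 0 < Real.sin θ :=
        lt_of_le_of_ne (Real.sin_nonneg_of_nonneg_of_le_pi (InnerProductGeometry.angle_nonneg _ _)
          (InnerProductGeometry.angle_le_pi _ _)) (Ne.symm hs)
      have h1 : ‖y - Real.cos θ • x‖ ^ 2 = Real.sin θ ^ 2 := by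
        rw [@norm_sub_sq_real, norm_smul, inner_smul_right, hy, hx, real_inner_comm, ← hc,
          Real.norm_eq_abs, mul_one, sq_abs]
        have := Real.sin_sq_add_cos_sq θ
        nlinarith
      have h2 : ‖y - Real.cos θ • x‖ = Real.sin θ := by
        rw [← abs_of_nonneg (norm_nonneg (y - Real.cos θ • x)), ← abs_of_pos hsp]
        exact (sq_eq_sq_iff_abs_eq_abs _ _).1 h1
      rw [norm_smul, h2, norm_inv, Real.norm_eq_abs, abs_of_pos hsp, inv_mul_cancel₀ hs]
    · rw [inner_smul_right, inner_sub_right, inner_smul_right, real_inner_self_eq_norm_sq, hx, hc]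
      ring
    · rw [smul_smul, mul_inv_cancel₀ hs, one_smul]
      abel

theorem circle_norm {x e : EE} (hx : ‖x‖ = 1) (he : ‖e‖ = 1) (hxe : ⟪x, e⟫ = 0) (a b : ℝ) :
    ‖a • x + b • e‖ ^ 2 = a ^ 2 + b ^ 2 := by
  rw [@norm_add_sq_real, norm_smul, norm_smul, inner_smul_left, inner_smul_right, hxe, hx, he,
    Real.norm_eq_abs, Real.norm_eq_abs]
  simp

/-- GEODESIC LIPSCHITZ BOUND -/
theorem geo_of_sgsq (hn : 2 ≤ n) {R : EE → ℝ} (h : SmHom0 R)
    (hg : ∀ x : EE, x ≠ 0 → sgsq R x ≤ 1) : Geo R := by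
  have key : ∀ x y : EE, ‖x‖ = 1 → ‖y‖ = 1 → |R x - R y| ≤ InnerProductGeometry.angle x y := by
    intro x y hx hy
    obtain ⟨e, he, hxe, hyc⟩ := exists_circle hn hx hy
    set θ := InnerProductGeometry.angle x y with hθ
    have hθ0 : 0 ≤ θ := InnerProductGeometry.angle_nonneg _ _
    set c : ℝ → EE := fun t => Real.cos t • x + Real.sin t • e with hc
    have hcn : ∀ t, ‖c t‖ = 1 := by
      intro t
      have := circle_norm hx he hxe (Real.cos t) (Real.sin t)
      rw [Real.cos_sq_add_sin_sq] at this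
      exact (pow_eq_one_iff_of_nonneg (norm_nonneg _) two_ne_zero).1 this
    have hc0 : ∀ t, c t ≠ 0 := by
      intro t h0
      have := hcn t
      rw [h0, norm_zero] at this
      exact zero_ne_one this
    have hcd : ∀ t, HasDerivAt c ((-Real.sin t) • x + Real.cos t • e) t := fun t =>
      ((Real.hasDerivAt_cos t).smul_const x).add ((Real.hasDerivAt_sin t).smul_const e)
    have hcv : ∀ t, ‖(-Real.sin t) • x + Real.cos t • e‖ = 1 := by
      intro t
      have := circle_norm hx he hxe (-Real.sin t) (Real.cos t)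
      rw [neg_sq, Real.sin_sq_add_cos_sq] at this
      exact (pow_eq_one_iff_of_nonneg (norm_nonneg _) two_ne_zero).1 this
    have hd : ∀ t, HasDerivAt (fun t => R (c t))
        (fderiv ℝ R (c t) ((-Real.sin t) • x + Real.cos t • e)) t := fun t =>
      (sm_diff (h.smooth _ (hc0 t))).hasFDerivAt.comp_hasDerivAt t (hcd t)
    have hb : ∀ t, ‖fderiv ℝ R (c t) ((-Real.sin t) • x + Real.cos t • e)‖ ≤ 1 := by
      intro t
      rw [Real.norm_eq_abs]
      refine abs_fderiv_le.trans ?_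
      rw [hcv t, mul_one]
      have h1 := hg (c t) (hc0 t)
      have h2 : nsq (c t) = 1 := by rw [nsq_eq, hcn t]; norm_num
      rw [sgsq, h2, one_mul] at h1
      calc Real.sqrt (gsq R (c t)) ≤ Real.sqrt 1 := Real.sqrt_le_sqrt h1
        _ = 1 := Real.sqrt_one
    have h1 := Convex.norm_image_sub_le_of_norm_hasDerivWithin_le (s := Icc (0 : ℝ) θ) (C := 1)
      (f := fun t => R (c t)) (fun t _ => (hd t).hasDerivWithinAt) (fun t _ => hb t)
      (convex_Icc _ _) (left_mem_Icc.2 hθ0) (right_mem_Icc.2 hθ0)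
    have h2 : c 0 = x := by simp [hc]
    have h3 : c θ = y := hyc.symm
    simp only [h2, h3] at h1
    rw [Real.norm_eq_abs, Real.norm_eq_abs, sub_zero, abs_of_nonneg hθ0, one_mul] at h1
    rwa [abs_sub_comm]
  refine ⟨h.hom, fun x y hx hy => ?_⟩
  have hxp : 0 < ‖x‖⁻¹ := inv_pos.2 (norm_pos_iff.2 hx)
  have hyp : 0 < ‖y‖⁻¹ := inv_pos.2 (norm_pos_iff.2 hy)
  have h1 := key (‖x‖⁻¹ • x) (‖y‖⁻¹ • y)
    (by rw [norm_smul, norm_inv, norm_norm, inv_mul_cancel₀ (norm_ne_zero_iff.2 hx)])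
    (by rw [norm_smul, norm_inv, norm_norm, inv_mul_cancel₀ (norm_ne_zero_iff.2 hy)])
  rw [h.hom _ _ hxp, h.hom _ _ hyp, InnerProductGeometry.angle_smul_left_of_pos _ _ hxp,
    InnerProductGeometry.angle_smul_right_of_pos _ _ hyp] at h1
  exact h1

/-- `|r x - r y| ≤ π/2 · ‖x - y‖` on the unit sphere -/
theorem angle_le_dist {x y : EE} (hx : ‖x‖ = 1) (hy : ‖y‖ = 1) :
    InnerProductGeometry.angle x y ≤ Real.pi / 2 * ‖x - y‖ := by
  set θ := InnerProductGeometry.angle x y with hθ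
  have hθ0 : 0 ≤ θ := InnerProductGeometry.angle_nonneg _ _
  have hθ1 : θ ≤ Real.pi := InnerProductGeometry.angle_le_pi _ _
  have hc : Real.cos θ = ⟪x, y⟫ := by
    rw [hθ, InnerProductGeometry.cos_angle, hx, hy]; simp
  have h1 : ‖x - y‖ ^ 2 = (2 * Real.sin (θ / 2)) ^ 2 := by
    rw [@norm_sub_sq_real, hx, hy, ← hc]
    have h2 : Real.cos θ = 1 - 2 * Real.sin (θ / 2) ^ 2 := by
      have := Real.cos_two_mul (θ / 2)
      have h3 := Real.sin_sq_add_cos_sq (θ / 2)
      rw [show 2 * (θ / 2) = θ by ring] at this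
      linarith
    rw [h2]; ring
  have h2 : 0 ≤ Real.sin (θ / 2) :=
    Real.sin_nonneg_of_nonneg_of_le_pi (by linarith) (by linarith)
  have h3 : ‖x - y‖ = 2 * Real.sin (θ / 2) := by
    have := (sq_eq_sq_iff_abs_eq_abs _ _).1 h1
    rwa [abs_of_nonneg (norm_nonneg _), abs_of_nonneg (by positivity)] at this
  have h4 : 2 / Real.pi * (θ / 2) ≤ Real.sin (θ / 2) := Real.mul_le_sin (by linarith) (by linarith)
  rw [h3]
  have hpi := Real.pi_pos
  have h5 : θ = Real.pi / 2 * (2 * (2 / Real.pi * (θ / 2))) := by field_simp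
  calc θ = Real.pi / 2 * (2 * (2 / Real.pi * (θ / 2))) := h5
    _ ≤ Real.pi / 2 * (2 * Real.sin (θ / 2)) := by gcongr

namespace Geo

variable {r : EuclideanSpace ℝ (Fin n) → ℝ}

theorem lip_sphere (h : Geo r) (z w : Sph n) : |r z - r w| ≤ Real.pi / 2 * dist z w := by
  have h1 := h.lip z w (sph_ne z) (sph_ne w)
  refine h1.trans ?_
  have := angle_le_dist (x := (z : EE)) (y := (w : EE)) (by simp) (by simp)
  rwa [Subtype.dist_eq, dist_eq_norm]

theorem continuous_sphere (h : Geo r) : Continuous fun z : Sph n => r z := by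
  have : LipschitzWith (Real.toNNReal (Real.pi / 2)) fun z : Sph n => r z := by
    apply LipschitzWith.of_dist_le_mul
    intro z w
    rw [Real.dist_eq, Real.coe_toNNReal _ (by positivity)]
    exact h.lip_sphere z w
  exact this.continuous

theorem abs_sub_le_pi (h : Geo r) {x y : EE} (hx : x ≠ 0) (hy : y ≠ 0) : |r x - r y| ≤ Real.pi :=
  (h.lip x y hx hy).trans (InnerProductGeometry.angle_le_pi _ _)

/-- `φ = ‖x‖ sin r` is `1`-Lipschitz -/
theorem lipschitz_phi (h : Geo r) : LipschitzWith 1 fun x : EE => ‖x‖ * Real.sin (r x) := by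
  apply LipschitzWith.of_dist_le_mul
  intro x y
  rw [NNReal.coe_one, one_mul, Real.dist_eq, dist_eq_norm]
  by_cases hx : x = 0
  · subst hx
    rw [norm_zero, zero_mul, zero_sub, abs_neg, abs_mul, abs_norm, zero_sub, norm_neg]
    exact mul_le_of_le_one_right (norm_nonneg _) (Real.abs_sin_le_one _)
  by_cases hy : y = 0
  · subst hy
    rw [norm_zero, zero_mul, sub_zero, abs_mul, abs_norm, sub_zero]
    exact mul_le_of_le_one_right (norm_nonneg _) (Real.abs_sin_le_one _)
  have h1 := h.lip x y hx hy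
  set θ := InnerProductGeometry.angle x y with hθ
  have hθ1 : θ ≤ Real.pi := InnerProductGeometry.angle_le_pi _ _
  have h2 : Real.cos θ ≤ Real.cos (r x - r y) := by
    rw [← Real.cos_abs (r x - r y)]
    exact Real.cos_le_cos_of_nonneg_of_le_pi (abs_nonneg _) hθ1 h1
  have h3 : ‖x - y‖ ^ 2 = ‖x‖ ^ 2 + ‖y‖ ^ 2 - 2 * ‖x‖ * ‖y‖ * Real.cos θ := by
    have := InnerProductGeometry.norm_sub_sq_eq_norm_sq_add_norm_sq_sub_two_mul_norm_mul_norm_mul_cos_angle
      x y
    rw [sq, sq, sq, this]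
  apply abs_le_of_sq_le_sq _ (norm_nonneg _)
  rw [h3]
  have h4 := Real.sin_sq_add_cos_sq (r x)
  have h5 := Real.sin_sq_add_cos_sq (r y)
  have h6 := Real.cos_sub (r x) (r y)
  have h7 : 0 ≤ ‖x‖ * ‖y‖ := by positivity
  have h8 : ‖x‖ * ‖y‖ * Real.cos θ ≤ ‖x‖ * ‖y‖ * Real.cos (r x - r y) :=
    mul_le_mul_of_nonneg_left h2 h7
  have h9 : 0 ≤ (‖x‖ * Real.cos (r x) - ‖y‖ * Real.cos (r y)) ^ 2 := sq_nonneg _
  have h10 : (‖x‖ * Real.cos (r x) - ‖y‖ * Real.cos (r y)) ^ 2 +
      (‖x‖ * Real.sin (r x) - ‖y‖ * Real.sin (r y)) ^ 2 =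
      ‖x‖ ^ 2 * (Real.sin (r x) ^ 2 + Real.cos (r x) ^ 2) +
      ‖y‖ ^ 2 * (Real.sin (r y) ^ 2 + Real.cos (r y) ^ 2) -
      2 * (‖x‖ * ‖y‖ * Real.cos (r x - r y)) := by rw [h6]; ring
  rw [h4, h5] at h10
  nlinarith

end Geo

instance : (sig n).IsOpenPosMeasure := by unfold sig; infer_instance

/-- the sphere is connected -/
theorem sph_preconnected (hn : 2 ≤ n) : IsPreconnected (univ : Set (Sph n)) := by
  have h1 : IsPreconnected (sphere (0 : EE) 1) := by
    apply isPreconnected_sphere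
    rw [← Module.finrank_eq_rank, finrank_euclideanSpace_fin]
    exact_mod_cast hn
  exact Subtype.preconnectedSpace h1 |>.isPreconnected_univ

/-- ALLEN–CAHN SOLUTIONS HAVE ZEROS -/
theorem exists_zero (hn : 3 ≤ n) {ε : ℝ} (hε : 0 < ε) {R : EE → ℝ} (h : SmHom0 R)
    (hR : ACeq ε R) : ∃ z : Sph n, R z = 0 := by
  have hg := (geo_of_sgsq (by omega) h fun x hx => (modica hn hε h hR hx).le)
  have hcont : Continuous fun z : Sph n => R z := hg.continuous_sphere
  have hsl : Continuous fun z : Sph n => slap R z :=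
    continuous_sph fun x hx => (h.smooth_slap hx).continuousAt
  have h0 := integral_slap (by omega : 0 < n) h
  have hne : Nonempty (Sph n) := by
    obtain ⟨e, he, -⟩ := exists_orth (by omega : 2 ≤ n) (0 : EE)
    exact ⟨⟨e, by simp [he]⟩⟩
  by_contra hno
  push Not at hno
  -- constant sign
  have hsign : (∀ z : Sph n, 0 < R z) ∨ ∀ z : Sph n, R z < 0 := by
    by_contra hc
    push Not at hc
    obtain ⟨⟨a, ha⟩, b, hb⟩ := hc
    have := (sph_preconnected (by omega : 2 ≤ n)).intermediate_value (mem_univ a) (mem_univ b)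
      hcont.continuousOn
    obtain ⟨z, -, hz⟩ := this ⟨ha, hb⟩
    exact hno z hz
  have hth : ∀ {s : ℝ}, 0 < s → 0 < Real.tanh s := by
    intro s hs
    rw [Real.tanh_eq_sinh_div_cosh]
    exact div_pos (Real.sinh_pos_iff.2 hs) (Real.cosh_pos s)
  rcases hsign with hs | hs
  · have h1 : 0 < ∫ z : Sph n, - slap R z ∂(sig n) := by
      obtain ⟨z0⟩ := hne
      apply (hsl.neg).integral_pos_of_hasCompactSupport_nonneg_nonzero (x := z0)
        (HasCompactSupport.of_compactSpace _)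
      · intro z
        have h2 := modica hn hε h hR (sph_ne z)
        have h3 := hth (div_pos (hs z) hε)
        show 0 ≤ - slap R z
        rw [hR z (sph_ne z)]
        have : 0 ≤ 2 / ε * Real.tanh (R z / ε) * (1 - sgsq R z) := by
          have : 0 ≤ 1 - sgsq R z := by linarith
          positivity
        linarith
      · have h2 := modica hn hε h hR (sph_ne z0)
        have h3 := hth (div_pos (hs z0) hε)
        show - slap R z0 ≠ 0
        rw [hR z0 (sph_ne z0)]
        have : 0 < 2 / ε * Real.tanh (R z0 / ε) * (1 - sgsq R z0) := by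
          have : 0 < 1 - sgsq R z0 := by linarith
          positivity
        intro hcon
        linarith
    rw [integral_neg, h0] at h1
    linarith
  · have h1 : 0 < ∫ z : Sph n, slap R z ∂(sig n) := by
      obtain ⟨z0⟩ := hne
      apply hsl.integral_pos_of_hasCompactSupport_nonneg_nonzero (x := z0)
        (HasCompactSupport.of_compactSpace _)
      · intro z
        have h2 := modica hn hε h hR (sph_ne z)
        have h3 := hth (s := -(R z / ε)) (by
          rw [← neg_div]; exact div_pos (by linarith [hs z]) hε)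
        rw [Real.tanh_neg] at h3
        show 0 ≤ slap R z
        rw [hR z (sph_ne z)]
        have : 0 ≤ 2 / ε * (- Real.tanh (R z / ε)) * (1 - sgsq R z) := by
          have : 0 ≤ 1 - sgsq R z := by linarith
          positivity
        linarith
      · have h2 := modica hn hε h hR (sph_ne z0)
        have h3 := hth (s := -(R z0 / ε)) (by
          rw [← neg_div]; exact div_pos (by linarith [hs z0]) hε)
        rw [Real.tanh_neg] at h3
        show slap R z0 ≠ 0
        rw [hR z0 (sph_ne z0)]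
        have : 0 < 2 / ε * (- Real.tanh (R z0 / ε)) * (1 - sgsq R z0) := by
          have : 0 < 1 - sgsq R z0 := by linarith
          positivity
        intro hcon
        linarith
    rw [h0] at h1
    linarith

/-- all values of an Allen–Cahn solution lie in `[-π, π]` -/
theorem abs_le_pi (hn : 3 ≤ n) {ε : ℝ} (hε : 0 < ε) {R : EE → ℝ} (h : SmHom0 R)
    (hR : ACeq ε R) {x : EE} (hx : x ≠ 0) : |R x| ≤ Real.pi := by
  obtain ⟨z, hz⟩ := exists_zero hn hε h hR
  have hg := (geo_of_sgsq (by omega) h fun x hx => (modica hn hε h hR hx).le)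
  have := hg.abs_sub_le_pi hx (sph_ne z)
  rwa [hz, sub_zero] at this

/-! ### Arzelà–Ascoli -/

/-- the radial projection of a non-zero vector -/
def prj (x : EuclideanSpace ℝ (Fin n)) (hx : x ≠ 0) : Sph n :=
  ⟨‖x‖⁻¹ • x, by
    rw [mem_sphere_zero_iff_norm, norm_smul, norm_inv, norm_norm,
      inv_mul_cancel₀ (norm_ne_zero_iff.2 hx)]⟩

/-- the `0`-homogeneous extension of a function on the sphere -/
def ext0 (g : Sph n → ℝ) (x : EuclideanSpace ℝ (Fin n)) : ℝ :=
  if hx : x ≠ 0 then g (prj x hx) else 0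

theorem ext0_of_ne (g : Sph n → ℝ) {x : EuclideanSpace ℝ (Fin n)} (hx : x ≠ 0) :
    ext0 g x = g (prj x hx) := dif_pos hx

theorem ext0_sph (g : Sph n → ℝ) (z : Sph n) : ext0 g (z : EuclideanSpace ℝ (Fin n)) = g z := by
  rw [ext0_of_ne g (sph_ne z)]
  congr 1
  apply Subtype.ext
  show ‖(z : EE)‖⁻¹ • (z : EE) = z
  have : ‖(z : EE)‖ = 1 := by simp
  rw [this, inv_one, one_smul]

theorem ext0_smul (g : Sph n → ℝ) (t : ℝ) (x : EuclideanSpace ℝ (Fin n)) (ht : 0 < t) :
    ext0 g (t • x) = ext0 g x := by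
  by_cases hx : x = 0
  · subst hx; simp
  rw [ext0_of_ne g hx, ext0_of_ne g (smul_ne_zero ht.ne' hx)]
  congr 1
  apply Subtype.ext
  show ‖t • x‖⁻¹ • t • x = ‖x‖⁻¹ • x
  rw [norm_smul, Real.norm_eq_abs, abs_of_pos ht, smul_smul]
  congr 1
  field_simp

theorem Geo.eq_prj {r : EuclideanSpace ℝ (Fin n) → ℝ}
    (hom : ∀ (t : ℝ) (x : EuclideanSpace ℝ (Fin n)), 0 < t → r (t • x) = r x)
    {x : EuclideanSpace ℝ (Fin n)} (hx : x ≠ 0) : r x = r (prj x hx : EuclideanSpace ℝ (Fin n)) :=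
  (hom _ x (inv_pos.2 (norm_pos_iff.2 hx))).symm

/-- ARZELÀ–ASCOLI for `0`-homogeneous geodesic-Lipschitz functions: a subsequence converges
uniformly on `ℝⁿ ∖ {0}` to such a function. -/
theorem exists_subseq {R : ℕ → EuclideanSpace ℝ (Fin n) → ℝ} (hR : ∀ k, Geo (R k)) {C : ℝ}
    (hC : ∀ k, ∀ z : Sph n, |R k z| ≤ C) :
    ∃ s : ℕ → ℕ, StrictMono s ∧ ∃ r : EuclideanSpace ℝ (Fin n) → ℝ, Geo r ∧
      TendstoUniformlyOn (fun k => R (s k)) r atTop {0}ᶜ := by
  classical
  let F : ℕ → BoundedContinuousFunction (Sph n) ℝ := fun k =>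
    BoundedContinuousFunction.mkOfCompact ⟨fun z : Sph n => R k z, (hR k).continuous_sphere⟩
  have hF : ∀ k z, F k z = R k z := fun k z => rfl
  have hcomp : IsCompact (closure (range F)) := by
    apply BoundedContinuousFunction.arzela_ascoli (Icc (-C) C) isCompact_Icc
    · rintro f z ⟨k, rfl⟩
      exact abs_le.1 (hC k z)
    · intro z
      rw [Metric.equicontinuousAt_iff]
      intro ε hε
      refine ⟨ε / 2, by positivity, fun w hw => ?_⟩
      rintro ⟨f, k, rfl⟩
      show dist (F k z) (F k w) < ε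
      rw [hF, hF, Real.dist_eq]
      have h1 := (hR k).lip_sphere z w
      have h2 : Real.pi / 2 < 2 := by linarith [Real.pi_lt_four]
      have h3 : dist z w = dist w z := dist_comm _ _
      have h4 : 0 ≤ dist w z := dist_nonneg
      calc |R k z - R k w| ≤ Real.pi / 2 * dist z w := h1
        _ ≤ 2 * dist w z := by rw [h3]; nlinarith
        _ < ε := by linarith
  obtain ⟨g, -, s, hs, hg⟩ := hcomp.tendsto_subseq (x := F) fun k => subset_closure ⟨k, rfl⟩
  have hunif : TendstoUniformly (fun k z => F (s k) z) g atTop :=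
    BoundedContinuousFunction.tendsto_iff_tendstoUniformly.1 hg
  have hconv : TendstoUniformlyOn (fun k => R (s k)) (ext0 g) atTop {0}ᶜ := by
    rw [Metric.tendstoUniformlyOn_iff]
    intro ε hε
    filter_upwards [Metric.tendstoUniformly_iff.1 hunif ε hε] with k hk x hx
    rw [ext0_of_ne _ hx, Geo.eq_prj (hR (s k)).hom hx]
    exact hk _
  refine ⟨s, hs, ext0 g, ⟨fun t x ht => ext0_smul _ t x ht, fun x y hx hy => ?_⟩, hconv⟩
  have h1 := (hconv.tendsto_at hx).sub (hconv.tendsto_at hy)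
  exact le_of_tendsto h1.abs (Eventually.of_forall fun k => (hR (s k)).lip x y hx hy)

/-- uniform convergence passes zeros to the limit -/
theorem exists_zero_limit {R : ℕ → EuclideanSpace ℝ (Fin n) → ℝ} {r : EuclideanSpace ℝ (Fin n) → ℝ}
    (hr : Geo r) (hconv : TendstoUniformlyOn R r atTop {0}ᶜ) (hz : ∀ k, ∃ z : Sph n, R k z = 0) :
    ∃ z : Sph n, r z = 0 := by
  choose z hz using hz
  obtain ⟨w, -, s, hs, hw⟩ := isCompact_univ.tendsto_subseq (x := z) fun _ => mem_univ _
  refine ⟨w, ?_⟩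
  have h1 : Tendsto (fun k => r (z (s k))) atTop (𝓝 (r w)) :=
    (hr.continuous_sphere.tendsto w).comp hw
  have h2 : Tendsto (fun k => r (z (s k))) atTop (𝓝 0) := by
    rw [Metric.tendsto_atTop]
    intro ε hε
    obtain ⟨N, hN⟩ := eventually_atTop.1 (Metric.tendstoUniformlyOn_iff.1 hconv ε hε)
    refine ⟨N, fun k hk => ?_⟩
    have := hN (s k) (hk.trans (hs.id_le k)) (z (s k)) (sph_ne _)
    rwa [hz (s k)] at this
  exact tendsto_nhds_unique h1 h2

/-- `‖x‖ sin R_k x → ‖x‖ sin r x`, uniformly on bounded sets -/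
theorem tendsto_phi {R : ℕ → EuclideanSpace ℝ (Fin n) → ℝ} {r : EuclideanSpace ℝ (Fin n) → ℝ}
    (hconv : TendstoUniformlyOn R r atTop {0}ᶜ) (ρ : ℝ) :
    TendstoUniformlyOn (fun k x => ‖x‖ * Real.sin (R k x)) (fun x => ‖x‖ * Real.sin (r x)) atTop
      (closedBall 0 ρ) := by
  rw [Metric.tendstoUniformlyOn_iff]
  intro ε hε
  have hρ : 0 < |ρ| + 1 := by positivity
  filter_upwards [Metric.tendstoUniformlyOn_iff.1 hconv (ε / (|ρ| + 1)) (by positivity)]
    with k hk x hx
  by_cases h0 : x = 0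
  · subst h0; simpa using hε
  have h1 := hk x h0
  rw [Real.dist_eq] at h1 ⊢
  have h2 : |Real.sin (r x) - Real.sin (R k x)| ≤ |r x - R k x| := by
    have := Real.abs_sin_sub_sin_le (r x) (R k x)
    exact this
  have h3 : ‖x‖ ≤ |ρ| := (mem_closedBall_zero_iff.1 hx).trans (le_abs_self _)
  calc |‖x‖ * Real.sin (r x) - ‖x‖ * Real.sin (R k x)|
      = ‖x‖ * |Real.sin (r x) - Real.sin (R k x)| := by
        rw [← mul_sub, abs_mul, abs_norm]
    _ ≤ |ρ| * |r x - R k x| := by gcongr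
    _ ≤ (|ρ| + 1) * |r x - R k x| := by
        have := abs_nonneg (r x - R k x)
        nlinarith
    _ < (|ρ| + 1) * (ε / (|ρ| + 1)) := by gcongr
    _ = ε := by field_simp

/-- COMPACTNESS of Allen–Cahn solutions on the sphere (`C⁰` part): subsequence, uniform limit `r`
with a zero, `φ = ‖x‖ sin r` is `1`-Lipschitz (see `Geo.lipschitz_phi`). -/
theorem ac_subseq (hn : 3 ≤ n) {ε : ℕ → ℝ} (hε : ∀ k, 0 < ε k)
    {R : ℕ → EuclideanSpace ℝ (Fin n) → ℝ} (h : ∀ k, SmHom0 (R k)) (hR : ∀ k, ACeq (ε k) (R k)) :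
    ∃ s : ℕ → ℕ, StrictMono s ∧ ∃ r : EuclideanSpace ℝ (Fin n) → ℝ, Geo r ∧
      TendstoUniformlyOn (fun k => R (s k)) r atTop {0}ᶜ ∧ (∃ z : Sph n, r z = 0) := by
  have hg : ∀ k, Geo (R k) := fun k =>
    geo_of_sgsq (by omega) (h k) fun x hx => (modica hn (hε k) (h k) (hR k) hx).le
  obtain ⟨s, hs, r, hr, hconv⟩ := exists_subseq hg (C := Real.pi)
    fun k z => abs_le_pi hn (hε k) (h k) (hR k) (sph_ne z)
  exact ⟨s, hs, r, hr, hconv, exists_zero_limit hr hconv fun k =>
    exists_zero hn (hε (s k)) (h (s k)) (hR (s k))⟩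

end Crest.Agent.R246.E2x782
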