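import Crest.Agent.R246.D3LimB_67
import Crest.Agent.R246.E2a_782
import Mathlib.Analysis.SpecialFunctions.Trigonometric.Arctan

/-!
R246, helper67.  D3.2 (limit of the Riccati inequality), part C: profile functions, mass bounds and
the bound `r ≤ π/2`.
-/

set_option autoImplicit false
noncomputable section
open MeasureTheory Set Filter Topology Metric
open scoped RealInnerProductSpace NNReal ContDiff Gradient
open Crest.GeometryTopology.CoordMetric Crest.GeometryTopology.AffineMaximal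
open Crest.Agent.R236.Jet

namespace Crest.Agent.R246.D3Lim67
open Crest.Agent.R246.Flat105 Crest.Agent.R246.D2x782 Crest.Agent.R246.Artanh657
open Crest.Agent.R246.E2x782 Crest.Agent.R202.SphDiv

/-! ### truncated Riccati profiles -/

/-- truncated angle -/
def thq (q s : ℝ) : ℝ := min (q * (max s 0 - (1 - q))) (q * (Real.pi / 2))

/-- truncated Riccati profile, tends to `m tan s` as `q → 1`. -/
def Tq (m q s : ℝ) : ℝ := q * m * Real.tan (thq q s)

theorem thq_ge {q : ℝ} (hq0 : 0 < q) (hq1 : q < 1) (s : ℝ) : -(1 / 4) ≤ thq q s := by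
  unfold thq
  refine le_min ?_ ?_
  · have h1 : 0 ≤ max s 0 := le_max_right _ _
    nlinarith [sq_nonneg (q - 1 / 2)]
  · have := Real.pi_pos
    have : 0 < q * (Real.pi / 2) := by positivity
    linarith

theorem thq_le {q : ℝ} (s : ℝ) : thq q s ≤ q * (Real.pi / 2) := min_le_right _ _

theorem thq_mem {q : ℝ} (hq0 : 0 < q) (hq1 : q < 1) (s : ℝ) :
    thq q s ∈ Ioo (-(Real.pi / 2)) (Real.pi / 2) := by
  have h1 := thq_ge hq0 hq1 s
  have h2 := thq_le (q := q) s
  have h3 := Real.pi_gt_three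
  refine ⟨by linarith, ?_⟩
  have : q * (Real.pi / 2) < 1 * (Real.pi / 2) := by
    apply mul_lt_mul_of_pos_right hq1; positivity
  linarith

theorem continuous_thq (q : ℝ) : Continuous (thq q) := by
  unfold thq
  fun_prop

theorem continuous_Tq (m : ℝ) {q : ℝ} (hq0 : 0 < q) (hq1 : q < 1) : Continuous (Tq m q) := by
  unfold Tq
  refine continuous_const.mul ?_
  exact Real.continuousOn_tan_Ioo.comp_continuous (continuous_thq q) fun s => thq_mem hq0 hq1 s

theorem bdd_Tq (m : ℝ) {q : ℝ} (hq0 : 0 < q) (hq1 : q < 1) : ∃ B, ∀ s, |Tq m q s| ≤ B := by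
  have h3 := Real.pi_gt_three
  have hsub : Icc (-(1 / 4)) (q * (Real.pi / 2)) ⊆ Ioo (-(Real.pi / 2)) (Real.pi / 2) := by
    intro t ht
    have : q * (Real.pi / 2) < 1 * (Real.pi / 2) := by
      apply mul_lt_mul_of_pos_right hq1; positivity
    exact ⟨by linarith [ht.1], by linarith [ht.2]⟩
  obtain ⟨B, hB⟩ := (isCompact_Icc (a := -(1 / 4 : ℝ)) (b := q * (Real.pi / 2))).exists_bound_of_continuousOn
    (Real.continuousOn_tan_Ioo.mono hsub)
  refine ⟨|q * m| * B, fun s => ?_⟩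
  unfold Tq
  rw [abs_mul]
  refine mul_le_mul_of_nonneg_left ?_ (abs_nonneg _)
  exact hB _ ⟨thq_ge hq0 hq1 s, thq_le s⟩

theorem Tq_le {m q s y : ℝ} (hm : 0 < m) (hq0 : 0 < q) (hq1 : q < 1) (hs : 0 ≤ s)
    (h : q * (s - (1 - q)) ≤ Real.arctan (y / (q * m))) : Tq m q s ≤ y := by
  have hqm : 0 < q * m := by positivity
  have h1 : thq q s ≤ Real.arctan (y / (q * m)) := by
    refine (min_le_left _ _).trans ?_
    rwa [max_eq_left hs]
  have h2 : Real.tan (thq q s) ≤ Real.tan (Real.arctan (y / (q * m))) := by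
    rcases h1.eq_or_lt with h3 | h3
    · rw [h3]
    · exact (Real.tan_lt_tan_of_lt_of_lt_pi_div_two (thq_mem hq0 hq1 s).1
        (Real.arctan_lt_pi_div_two _) h3).le
  rw [Real.tan_arctan, le_div_iff₀ hqm] at h2
  unfold Tq
  linarith

theorem cos_lower {s ρ y T : ℝ} (hs : 0 ≤ s) (hρ : 0 ≤ ρ) (hsρ : s ≤ Real.pi / 2 + ρ)
    (hy : 0 ≤ y) (hT : T ≤ y) : max (Real.cos s) 0 * T - ρ * y ≤ Real.cos s * y := by
  by_cases hc : 0 ≤ Real.cos s
  · rw [max_eq_left hc]
    nlinarith [mul_nonneg hρ hy, mul_le_mul_of_nonneg_left hT hc]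
  · push Not at hc
    rw [max_eq_right hc.le, zero_mul, zero_sub]
    have h1 : Real.pi / 2 < s := by
      by_contra hcon
      push Not at hcon
      exact hc.not_ge (Real.cos_nonneg_of_mem_Icc ⟨by linarith [Real.pi_pos], hcon⟩)
    have h2 : Real.cos s = -Real.sin (s - Real.pi / 2) := by
      rw [Real.sin_sub_pi_div_two, neg_neg]
    have h3 : Real.sin (s - Real.pi / 2) ≤ s - Real.pi / 2 := Real.sin_le (by linarith)
    have h4 : -ρ ≤ Real.cos s := by rw [h2]; linarith
    nlinarith [mul_le_mul_of_nonneg_right h4 hy]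

/-- the profile of the superharmonicity defect -/
def Aq (m q s : ℝ) : ℝ := max (Real.cos s) 0 * Tq m q s - m * Real.sin s

theorem continuous_Aq (m : ℝ) {q : ℝ} (hq0 : 0 < q) (hq1 : q < 1) : Continuous (Aq m q) := by
  unfold Aq
  exact ((Real.continuous_cos.max continuous_const).mul (continuous_Tq m hq0 hq1)).sub
    (continuous_const.mul Real.continuous_sin)

theorem bdd_Aq (m : ℝ) {q : ℝ} (hq0 : 0 < q) (hq1 : q < 1) : ∃ B, ∀ s, |Aq m q s| ≤ B := by
  obtain ⟨B, hB⟩ := bdd_Tq m hq0 hq1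
  refine ⟨B + |m|, fun s => ?_⟩
  unfold Aq
  have h1 : |max (Real.cos s) 0| ≤ 1 := by
    rw [abs_of_nonneg (le_max_right _ _)]
    exact max_le (Real.cos_le_one s) zero_le_one
  have h2 : |max (Real.cos s) 0 * Tq m q s| ≤ 1 * B := by
    rw [abs_mul]
    exact mul_le_mul h1 (hB s) (abs_nonneg _) zero_le_one
  have h3 : |m * Real.sin s| ≤ |m| * 1 := by
    rw [abs_mul]
    exact mul_le_mul_of_nonneg_left (Real.abs_sin_le_one s) (abs_nonneg _)
  calc |max (Real.cos s) 0 * Tq m q s - m * Real.sin s|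
      ≤ |max (Real.cos s) 0 * Tq m q s| + |m * Real.sin s| := abs_sub _ _
    _ ≤ B + |m| := by linarith

/-! ### Allen–Cahn sequences -/

variable {n : ℕ}

local notation "EE" => EuclideanSpace ℝ (Fin n)

/-- a uniformly convergent sequence of Allen–Cahn solutions with bounded `∫ |Δ_S R|`. -/
structure ACSeq (ε : ℕ → ℝ) (R : ℕ → EuclideanSpace ℝ (Fin n) → ℝ)
    (r : EuclideanSpace ℝ (Fin n) → ℝ) (C : ℝ) : Prop where
  pos : ∀ k, 0 < ε k
  lim : Tendsto ε atTop (𝓝 0)
  sm : ∀ k, SmHom0 (R k)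
  eq : ∀ k, ACeq (ε k) (R k)
  mass : ∀ k, ∫ z : Sph n, |slap (R k) z| ∂(sig n) ≤ C
  geo : Geo r
  conv : TendstoUniformlyOn R r atTop {0}ᶜ

/-- the Riccati inequality along a sequence, one sided, in the form used here. -/
def RicQ (R : ℕ → EuclideanSpace ℝ (Fin n) → ℝ) : Prop :=
  ∀ q : ℝ, 0 < q → q < 1 → ∀ᶠ k in atTop, ∀ x : EuclideanSpace ℝ (Fin n), x ≠ 0 → 0 ≤ R k x →
    q * (R k x - (1 - q)) ≤ Real.arctan (-slap (R k) x / (q * ((n : ℝ) - 2)))

section neg

theorem pderiv_neg' (f : EE → ℝ) (i : Fin n) (x : EE) :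
    pderiv i (fun y => -f y) x = -pderiv i f x := by
  unfold pderiv
  rw [fderiv_fun_neg]; rfl

theorem hess_neg' (f : EE → ℝ) (i j : Fin n) (x : EE) :
    hessianMat (fun y => -f y) x i j = -hessianMat f x i j := by
  unfold hessianMat
  have : (fun y => pderiv j (fun z => -f z) y) = fun y => -pderiv j f y := by
    funext y; exact pderiv_neg' f j y
  rw [this, pderiv_neg']

theorem slap_neg (f : EE → ℝ) (x : EE) : slap (fun y => -f y) x = -slap f x := by
  unfold slap lapl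
  rw [Finset.sum_congr rfl fun i _ => hess_neg' f i i x, Finset.sum_neg_distrib]
  ring

theorem sgsq_neg (f : EE → ℝ) (x : EE) : sgsq (fun y => -f y) x = sgsq f x := by
  unfold sgsq gsq
  congr 1
  refine Finset.sum_congr rfl fun i _ => ?_
  rw [pderiv_neg']; ring

theorem smHom0_neg {R : EE → ℝ} (h : SmHom0 R) : SmHom0 (fun y => -R y) where
  smooth x hx := (h.smooth x hx).neg
  hom t x ht := by rw [h.hom t x ht]

theorem acEq_neg {ε : ℝ} {R : EE → ℝ} (h : ACeq ε R) : ACeq ε (fun y => -R y) := by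
  intro x hx
  rw [slap_neg, sgsq_neg, h x hx, neg_div, Real.tanh_neg]
  ring

theorem geo_neg {r : EE → ℝ} (h : Geo r) : Geo (fun y => -r y) where
  hom t x ht := by rw [h.hom t x ht]
  lip x y hx hy := by
    have := h.lip x y hx hy
    rw [neg_sub_neg, abs_sub_comm]; exact this

theorem ACSeq.neg {ε : ℕ → ℝ} {R : ℕ → EE → ℝ} {r : EE → ℝ} {C : ℝ} (h : ACSeq ε R r C) :
    ACSeq ε (fun k y => -R k y) (fun y => -r y) C where
  pos := h.pos
  lim := h.lim
  sm k := smHom0_neg (h.sm k)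
  eq k := acEq_neg (h.eq k)
  mass k := by
    refine le_trans (le_of_eq ?_) (h.mass k)
    refine integral_congr_ae (Eventually.of_forall fun z => ?_)
    show |slap (fun y => -R k y) z| = |slap (R k) z|
    rw [slap_neg, abs_neg]
  geo := geo_neg h.geo
  conv := by
    have := h.conv
    rw [Metric.tendstoUniformlyOn_iff] at this ⊢
    intro δ hδ
    filter_upwards [this δ hδ] with k hk x hx
    rw [dist_neg_neg]; exact hk x hx

theorem phc_neg (R : EE → ℝ) (x : EE) : phc (fun y => -R y) x = -phc R x := by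
  unfold phc
  rw [Real.sin_neg]; ring

end neg

/-! ### the bound `r ≤ π/2` -/

theorem tendsto_pt {ε : ℕ → ℝ} {R : ℕ → EE → ℝ} {r : EE → ℝ} {C : ℝ} (h : ACSeq ε R r C)
    {x : EE} (hx : x ≠ 0) : Tendsto (fun k => R k x) atTop (𝓝 (r x)) :=
  h.conv.tendsto_at hx

theorem upper_ev {R : ℕ → EE → ℝ} (hRic : RicQ R) {q : ℝ} (hq0 : 0 < q) (hq1 : q < 1) :
    ∀ᶠ k in atTop, ∀ x : EE, x ≠ 0 → R k x ≤ (1 - q) + Real.pi / 2 / q := by
  filter_upwards [hRic q hq0 hq1] with k hk x hx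
  by_cases h0 : 0 ≤ R k x
  · have h1 := hk x hx h0
    have h2 := Real.arctan_lt_pi_div_two (-slap (R k) x / (q * ((n : ℝ) - 2)))
    have h3 : q * (R k x - (1 - q)) ≤ Real.pi / 2 := by linarith
    have h4 : R k x - (1 - q) ≤ Real.pi / 2 / q := by
      rw [le_div_iff₀ hq0]; linarith
    linarith
  · push Not at h0
    have : 0 < Real.pi / 2 / q := by have := Real.pi_pos; positivity
    linarith

/-- a sequence tending to `1` from below -/
def qj (j : ℕ) : ℝ := 1 - 1 / ((j : ℝ) + 2)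

theorem qj_pos (j : ℕ) : 0 < qj j := by
  unfold qj
  have : (1 : ℝ) / ((j : ℝ) + 2) ≤ 1 / 2 := by
    apply one_div_le_one_div_of_le (by norm_num)
    have : (0 : ℝ) ≤ j := Nat.cast_nonneg j
    linarith
  linarith

theorem qj_lt (j : ℕ) : qj j < 1 := by
  unfold qj
  have : (0 : ℝ) < 1 / ((j : ℝ) + 2) := by positivity
  linarith

theorem tendsto_qj : Tendsto qj atTop (𝓝 1) := by
  have h1 : Tendsto (fun j : ℕ => 1 / ((j : ℝ) + 2)) atTop (𝓝 0) := by
    have := tendsto_one_div_add_atTop_nhds_zero_nat (𝕜 := ℝ)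
    have h2 := this.comp (tendsto_add_atTop_nat 1)
    refine h2.congr fun j => ?_
    simp only [Function.comp]
    push_cast
    congr 1
    ring
  have := h1.const_sub (1 : ℝ)
  rw [sub_zero] at this
  exact this

/-- (L1), one-sided -/
theorem le_pi_div_two {ε : ℕ → ℝ} {R : ℕ → EE → ℝ} {r : EE → ℝ} {C : ℝ} (h : ACSeq ε R r C)
    (hRic : RicQ R) {x : EE} (hx : x ≠ 0) : r x ≤ Real.pi / 2 := by
  have h1 : ∀ j, r x ≤ (1 - qj j) + Real.pi / 2 / qj j := by
    intro j
    refine le_of_tendsto (tendsto_pt h hx) ?_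
    filter_upwards [upper_ev hRic (qj_pos j) (qj_lt j)] with k hk using hk x hx
  have h2 : Tendsto (fun j => (1 - qj j) + Real.pi / 2 / qj j) atTop
      (𝓝 ((1 - 1) + Real.pi / 2 / 1)) :=
    (tendsto_const_nhds.sub tendsto_qj).add (tendsto_const_nhds.div tendsto_qj one_ne_zero)
  have h3 := ge_of_tendsto' h2 h1
  linarith [h3]

/-! ### mass bound -/

/-- `∫₀^∞ t^{n-1} e^{-t²} dt` -/
def kap (n : ℕ) : ℝ := ∫ t in Ioi (0 : ℝ), t ^ (n - 1) * Real.exp (-t ^ 2)

theorem kap_nonneg (n : ℕ) : 0 ≤ kap n :=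
  setIntegral_nonneg measurableSet_Ioi fun t ht => by
    have : (0 : ℝ) < t := ht
    positivity

theorem slap_smul {ε : ℝ} {R : EE → ℝ} (h : SmHom0 R) (hR : ACeq ε R) {x : EE} (hx : x ≠ 0)
    {t : ℝ} (ht : 0 < t) : slap R (t • x) = slap R x := by
  rw [hR _ (smul_ne_zero ht.ne' hx), hR x hx, h.hom t x ht, h.sgsq_smul hx ht]

theorem abs_slap_le (hn : 3 ≤ n) {ε : ℝ} (hε : 0 < ε) {R : EE → ℝ} (h : SmHom0 R)
    (hR : ACeq ε R) {x : EE} (hx : x ≠ 0) : |slap R x| ≤ 2 / ε := by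
  have h1 := modica hn hε h hR hx
  have h2 := abs_tanh_lt_one (R x / ε)
  have h3 : 0 ≤ sgsq R x := mul_nonneg (nsq_pos hx).le (gsq_nonneg R x)
  rw [hR x hx, abs_mul, abs_mul, abs_of_pos (by positivity : 0 < 2 / ε)]
  have h4 : |sgsq R x - 1| ≤ 1 := by rw [abs_le]; constructor <;> linarith
  calc 2 / ε * |Real.tanh (R x / ε)| * |sgsq R x - 1| ≤ 2 / ε * 1 * 1 := by gcongr
    _ = 2 / ε := by ring

theorem continuousOn_slap {R : EE → ℝ} (h : SmHom0 R) : ContinuousOn (slap R) {0}ᶜ :=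
  fun _ hx => (h.smooth_slap hx).continuousAt.continuousWithinAt

theorem aesm_of_continuousOn (hn : 0 < n) {f : EE → ℝ} (hf : ContinuousOn f {0}ᶜ) :
    AEStronglyMeasurable f volume := by
  have : Nonempty (Fin n) := ⟨⟨0, hn⟩⟩
  have : Nontrivial EE := inferInstance
  have h1 : AEStronglyMeasurable f (volume.restrict ({0}ᶜ : Set EE)) :=
    hf.aestronglyMeasurable isOpen_compl_singleton.measurableSet
  rwa [restrict_compl_singleton] at h1

theorem integrable_gauss : Integrable fun x : EE => Real.exp (-‖x‖ ^ 2) := by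
  have h := GaussianFourier.integrable_cexp_neg_mul_sq_norm_add_of_euclideanSpace
    (b := 1) (by simp) 0 (0 : EE)
  have h2 := h.norm
  refine h2.congr (Eventually.of_forall fun x => ?_)
  simp only [neg_mul, one_mul, zero_mul, add_zero, Complex.norm_exp]
  norm_cast

theorem integrable_gauss_slap (hn : 3 ≤ n) {ε : ℝ} (hε : 0 < ε) {R : EE → ℝ} (h : SmHom0 R)
    (hR : ACeq ε R) : Integrable fun x : EE => Real.exp (-‖x‖ ^ 2) * |slap R x| := by
  have : Nonempty (Fin n) := ⟨⟨0, by omega⟩⟩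
  have : Nontrivial EE := inferInstance
  refine (integrable_gauss.mul_const (2 / ε)).mono' ?_ ?_
  · refine AEStronglyMeasurable.mul ?_ ?_
    · exact (by fun_prop : Continuous fun x : EE => Real.exp (-‖x‖ ^ 2)).aestronglyMeasurable
    · exact aesm_of_continuousOn (by omega) (continuousOn_slap h).abs
  · have hae : ∀ᵐ x : EE, x ≠ 0 := by
      have := (measure_singleton (μ := (volume : Measure EE)) (0 : EE))
      exact compl_mem_ae_iff.2 this
    filter_upwards [hae] with x hx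
    rw [norm_mul, Real.norm_eq_abs, Real.norm_eq_abs, abs_abs, abs_of_pos (Real.exp_pos _)]
    exact mul_le_mul_of_nonneg_left (abs_slap_le hn hε h hR hx) (Real.exp_pos _).le

theorem integral_gauss_slap (hn : 3 ≤ n) {ε : ℝ} (hε : 0 < ε) {R : EE → ℝ} (h : SmHom0 R)
    (hR : ACeq ε R) : ∫ x : EE, Real.exp (-‖x‖ ^ 2) * |slap R x| =
      kap n * ∫ z : Sph n, |slap R z| ∂(sig n) := by
  rw [polar (by omega) _ (integrable_gauss_slap hn hε h hR), kap, ← integral_mul_const]
  refine setIntegral_congr_fun measurableSet_Ioi fun t ht => ?_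
  have ht' : (0 : ℝ) < t := ht
  have h1 : ∀ z : Sph n, Real.exp (-‖t • (z : EE)‖ ^ 2) * |slap R (t • (z : EE))| =
      Real.exp (-t ^ 2) * |slap R z| := by
    intro z
    rw [slap_smul h hR (sph_ne z) ht', norm_smul, Real.norm_eq_abs, abs_of_pos ht']
    simp
  simp only [h1]
  rw [integral_const_mul]
  ring

end Crest.Agent.R246.D3Lim67
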