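import Crest.Agent.R246.D3LimC_67

/-!
R246, helper67.  D3.2 (limit of the Riccati inequality), part D: the limit cone function is
superharmonic where it is positive (and subharmonic where it is negative), Lipschitz tests.
-/

set_option autoImplicit false
noncomputable section
open MeasureTheory Set Filter Topology Metric
open scoped RealInnerProductSpace NNReal ContDiff Gradient
open Crest.GeometryTopology.CoordMetric Crest.GeometryTopology.AffineMaximal
open Crest.Agent.R236.Jet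

namespace Crest.Agent.R246.D3Lim67
open Crest.Agent.R246.Flat105 Crest.Agent.R246.D2x782 Crest.Agent.R246.Artanh657
open Crest.Agent.R246.E2x782 Crest.Agent.R202.SphDiv

theorem half_le_tanh {s : ℝ} (hs : 1 ≤ s) : 1 / 2 ≤ Real.tanh s := by
  rw [Real.tanh_eq_sinh_div_cosh, div_le_div_iff₀ (by norm_num) (Real.cosh_pos s), Real.sinh_eq,
    Real.cosh_eq]
  have h1 : Real.exp s = Real.exp (2 * s) * Real.exp (-s) := by
    rw [← Real.exp_add]; congr 1; ring
  have h2 : 2 * s + 1 ≤ Real.exp (2 * s) := Real.add_one_le_exp _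
  have h3 : 0 < Real.exp (-s) := Real.exp_pos _
  rw [h1]
  nlinarith

variable {n : ℕ}

local notation "EE" => EuclideanSpace ℝ (Fin n)

/-- pointwise lower bound of `-|x| Δ(|x| sin R)` -/
theorem pointwise_lower (hn : 3 ≤ n) {ε q ρ : ℝ} (hε : 0 < ε) (hq0 : 0 < q) (hq1 : q < 1)
    (hρ : 0 ≤ ρ) {R : EE → ℝ} (h : SmHom0 R) (hR : ACeq ε R) {x : EE} (hx : x ≠ 0)
    (hεR : ε ≤ R x) (hup : R x ≤ Real.pi / 2 + ρ)
    (hric : q * (R x - (1 - q)) ≤ Real.arctan (-slap R x / (q * ((n : ℝ) - 2)))) :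
    Aq ((n : ℝ) - 2) q (R x) - (ρ + ε) * (-slap R x) ≤ -(‖x‖ * lapl (phc R) x) ∧
      0 ≤ -slap R x ∧ Tq ((n : ℝ) - 2) q (R x) ≤ -slap R x := by
  have hm : (0 : ℝ) < (n : ℝ) - 2 := by
    have : (3 : ℝ) ≤ n := by exact_mod_cast hn
    linarith
  have hR0 : 0 ≤ R x := by linarith
  have hT := Tq_le hm hq0 hq1 hR0 hric
  have hg1 := modica hn hε h hR hx
  have ht : 1 / 2 ≤ Real.tanh (R x / ε) := half_le_tanh (by rw [one_le_div hε]; exact hεR)
  have hy : -slap R x = 2 / ε * Real.tanh (R x / ε) * (1 - sgsq R x) := by rw [hR x hx]; ring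
  have h1g : 0 ≤ 1 - sgsq R x := by linarith
  have hy0 : 0 ≤ -slap R x := by
    rw [hy]; positivity
  have hyg : 1 - sgsq R x ≤ ε * (-slap R x) := by
    rw [hy]
    have : ε * (2 / ε * Real.tanh (R x / ε) * (1 - sgsq R x)) =
        2 * Real.tanh (R x / ε) * (1 - sgsq R x) := by field_simp
    rw [this]
    nlinarith
  have hc := cos_lower hR0 hρ hup hy0 hT
  refine ⟨?_, hy0, hT⟩
  rw [lapl_phc h hx]
  have h5 : Real.sin (R x) * (1 - sgsq R x) ≤ ε * (-slap R x) := by
    have h6 := Real.sin_le_one (R x)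
    nlinarith
  unfold Aq
  nlinarith [hc, h5]

theorem continuous_mul_of_notMem {w f : EE → ℝ} (hw : Continuous w) (h0 : (0 : EE) ∉ tsupport w)
    (hf : ContinuousOn f {0}ᶜ) : Continuous fun x => w x * f x :=
  continuous_iff_continuousAt.2 fun x => by
    by_cases hx : x = 0
    · subst hx
      have h1 : (fun x => w x * f x) =ᶠ[𝓝 0] fun _ => 0 := by
        filter_upwards [notMem_tsupport_iff_eventuallyEq.1 h0] with y hy
        rw [hy]; simp
      exact continuousAt_const.congr h1.symm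
    · exact hw.continuousAt.mul (hf.continuousAt (isOpen_compl_singleton.mem_nhds hx))

theorem continuousOn_limit {ε : ℕ → ℝ} {R : ℕ → EE → ℝ} {r : EE → ℝ} {C : ℝ}
    (h : ACSeq ε R r C) : ContinuousOn r {0}ᶜ :=
  h.conv.continuousOn (Frequently.of_forall fun k =>
    fun _ hx => ((h.sm k).smooth _ hx).continuousAt.continuousWithinAt)

theorem abs_limit_le (hn : 3 ≤ n) {ε : ℕ → ℝ} {R : ℕ → EE → ℝ} {r : EE → ℝ} {C : ℝ}
    (h : ACSeq ε R r C) {x : EE} (hx : x ≠ 0) : |r x| ≤ Real.pi :=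
  le_of_tendsto' (tendsto_pt h hx).abs fun k => abs_le_pi hn (h.pos k) (h.sm k) (h.eq k) hx

theorem tendsto_pos_thq {s : ℝ} (hs0 : 0 < s) (hs : s ≤ Real.pi / 2) :
    Tendsto (fun j => thq (qj j) s) atTop (𝓝 s) := by
  unfold thq
  have h1 : Tendsto (fun j => qj j * (max s 0 - (1 - qj j))) atTop (𝓝 (1 * (max s 0 - (1 - 1)))) :=
    tendsto_qj.mul (tendsto_const_nhds.sub (tendsto_const_nhds.sub tendsto_qj))
  have h2 : Tendsto (fun j => qj j * (Real.pi / 2)) atTop (𝓝 (1 * (Real.pi / 2))) :=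
    tendsto_qj.mul tendsto_const_nhds
  have h3 := h1.min h2
  rw [max_eq_left hs0.le] at h3
  have e : min (1 * (s - (1 - 1))) (1 * (Real.pi / 2)) = s := by
    rw [one_mul, one_mul, sub_self, sub_zero]; exact min_eq_left hs
  rw [e] at h3
  simpa only [max_eq_left hs0.le] using h3

theorem tendsto_Tq {m s : ℝ} (hs0 : 0 < s) (hs : s < Real.pi / 2) :
    Tendsto (fun j => Tq m (qj j) s) atTop (𝓝 (m * Real.tan s)) := by
  have hc : Real.cos s ≠ 0 := (Real.cos_pos_of_mem_Ioo ⟨by linarith, hs⟩).ne'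
  have h1 := (Real.continuousAt_tan.2 hc).tendsto.comp (tendsto_pos_thq hs0 hs.le)
  have h2 := (tendsto_qj.mul_const m).mul h1
  rw [one_mul] at h2
  exact h2

theorem tendsto_Aq {m s : ℝ} (hs0 : 0 < s) (hs : s < Real.pi / 2) :
    Tendsto (fun j => Aq m (qj j) s) atTop (𝓝 0) := by
  have hc : 0 < Real.cos s := Real.cos_pos_of_mem_Ioo ⟨by linarith, hs⟩
  have h1 := ((tendsto_Tq (m := m) hs0 hs).const_mul (max (Real.cos s) 0)).sub_const
    (m * Real.sin s)
  have e : max (Real.cos s) 0 * (m * Real.tan s) - m * Real.sin s = 0 := by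
    rw [max_eq_left hc.le, Real.tan_eq_sin_div_cos]
    field_simp
    ring
  rw [e] at h1
  exact h1

theorem Aq_top (m q : ℝ) : Aq m q (Real.pi / 2) = -m := by
  unfold Aq
  rw [Real.cos_pi_div_two, Real.sin_pi_div_two]
  simp

theorem thq_nonneg {q s : ℝ} (hq0 : 0 < q) (hs : 1 - q ≤ s) : 0 ≤ thq q s := by
  unfold thq
  refine le_min ?_ (by have := Real.pi_pos; positivity)
  exact mul_nonneg hq0.le (by linarith [le_max_left s 0])

theorem Tq_nonneg {m q s : ℝ} (hm : 0 ≤ m) (hq0 : 0 < q) (hq1 : q < 1) (hs : 1 - q ≤ s) :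
    0 ≤ Tq m q s := by
  unfold Tq
  refine mul_nonneg (by positivity) ?_
  exact Real.tan_nonneg_of_nonneg_of_le_pi_div_two (thq_nonneg hq0 hs) (thq_mem hq0 hq1 s).2.le

theorem abs_Aq_le {m q s : ℝ} (hm : 0 ≤ m) (hq0 : 0 < q) (hq1 : q < 1) (hs1 : 1 - q ≤ s)
    (hs : s ≤ Real.pi / 2) : |Aq m q s| ≤ m := by
  have hs0 : 0 < s := by linarith
  rcases hs.eq_or_lt with h | h
  · rw [h, Aq_top, abs_neg, abs_of_nonneg hm]
  · have hc : 0 < Real.cos s := Real.cos_pos_of_mem_Ioo ⟨by linarith, h⟩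
    have h1 : 0 ≤ max (Real.cos s) 0 * Tq m q s :=
      mul_nonneg (le_max_right _ _) (Tq_nonneg hm hq0 hq1 hs1)
    have h2 : thq q s ≤ s := by
      refine (min_le_left _ _).trans ?_
      rw [max_eq_left hs0.le]
      nlinarith
    have h3 : Real.tan (thq q s) ≤ Real.tan s := by
      rcases h2.eq_or_lt with h4 | h4
      · rw [h4]
      · exact (Real.tan_lt_tan_of_lt_of_lt_pi_div_two (thq_mem hq0 hq1 s).1 h h4).le
    have h0 : 0 ≤ Real.tan (thq q s) :=
      Real.tan_nonneg_of_nonneg_of_le_pi_div_two (thq_nonneg hq0 hs1) (thq_mem hq0 hq1 s).2.le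
    have h4 : max (Real.cos s) 0 * Tq m q s ≤ m * Real.sin s := by
      rw [max_eq_left hc.le]
      have e : Real.sin s = Real.cos s * Real.tan s := by
        rw [Real.tan_eq_sin_div_cos]; field_simp
      rw [e]
      unfold Tq
      calc Real.cos s * (q * m * Real.tan (thq q s))
          = (Real.cos s * m) * (q * Real.tan (thq q s)) := by ring
        _ ≤ (Real.cos s * m) * (1 * Real.tan s) := by
            apply mul_le_mul_of_nonneg_left _ (by positivity)
            exact mul_le_mul hq1.le h3 h0 zero_le_one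
        _ = m * (Real.cos s * Real.tan s) := by ring
    have h5 : m * Real.sin s ≤ m := by
      have := Real.sin_le_one s
      nlinarith
    unfold Aq
    rw [abs_le]
    constructor <;> linarith

/-- `T_q(π/2) → ∞` -/
theorem tendsto_Tq_top {m : ℝ} (hm : 0 < m) :
    Tendsto (fun j => Tq m (qj j) (Real.pi / 2)) atTop atTop := by
  have hpi := Real.pi_pos
  have h1 : Tendsto (fun j => thq (qj j) (Real.pi / 2)) atTop (𝓝[<] (Real.pi / 2)) := by
    rw [tendsto_nhdsWithin_iff]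
    exact ⟨tendsto_pos_thq (by positivity) le_rfl,
      Eventually.of_forall fun j => (thq_mem (qj_pos j) (qj_lt j) _).2⟩
  have h2 := Real.tendsto_tan_pi_div_two.comp h1
  have h3 : Tendsto (fun j => qj j * m) atTop (𝓝 (1 * m)) := tendsto_qj.mul_const m
  rw [one_mul] at h3
  exact h3.pos_mul_atTop hm h2

/-- the error `ρ_j = (1-q_j) + π/(2 q_j) - π/2` -/
def rj (j : ℕ) : ℝ := (1 - qj j) + Real.pi / 2 / qj j - Real.pi / 2

theorem rj_nonneg (j : ℕ) : 0 ≤ rj j := by
  unfold rj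
  have h1 := qj_lt j
  have h2 := qj_pos j
  have h3 : Real.pi / 2 ≤ Real.pi / 2 / qj j := by
    rw [le_div_iff₀ h2]
    have := Real.pi_pos
    nlinarith
  linarith

theorem tendsto_rj : Tendsto rj atTop (𝓝 0) := by
  have h2 : Tendsto rj atTop (𝓝 ((1 - 1) + Real.pi / 2 / 1 - Real.pi / 2)) :=
    ((tendsto_const_nhds.sub tendsto_qj).add (tendsto_const_nhds.div tendsto_qj one_ne_zero)).sub
      tendsto_const_nhds
  have e : (1 - 1) + Real.pi / 2 / 1 - Real.pi / 2 = 0 := by ring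
  rwa [e] at h2

end Crest.Agent.R246.D3Lim67
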