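import Crest.Agent.R246.D3LimD_67

/-!
R246, helper67.  D3.2 (limit of the Riccati inequality), part E: (S+) and (S-) for the limit cone
function.
-/

set_option autoImplicit false
noncomputable section
open MeasureTheory Set Filter Topology Metric
open scoped RealInnerProductSpace NNReal ContDiff Gradient
open Crest.GeometryTopology.CoordMetric Crest.GeometryTopology.AffineMaximal
open Crest.Agent.R236.Jet

namespace Crest.Agent.R246.D3Lim67
open Crest.Agent.R246.Flat105 Crest.Agent.R246.D2x782 Crest.Agent.R246.Artanh657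
open Crest.Agent.R246.E2x782 Crest.Agent.R202.SphDiv

variable {n : ℕ}

local notation "EE" => EuclideanSpace ℝ (Fin n)

theorem lip_phc_k (hn : 3 ≤ n) {ε : ℕ → ℝ} {R : ℕ → EE → ℝ} {r : EE → ℝ} {C : ℝ}
    (h : ACSeq ε R r C) (k : ℕ) : LipschitzWith 1 (phc (R k)) :=
  (geo_of_sgsq (by omega) (h.sm k) fun _ hx =>
    (modica hn (h.pos k) (h.sm k) (h.eq k) hx).le).lipschitz_phi

theorem lip_phc {ε : ℕ → ℝ} {R : ℕ → EE → ℝ} {r : EE → ℝ} {C : ℝ}
    (h : ACSeq ε R r C) : LipschitzWith 1 (phc r) := h.geo.lipschitz_phi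

theorem tendsto_phc {ε : ℕ → ℝ} {R : ℕ → EE → ℝ} {r : EE → ℝ} {C : ℝ}
    (h : ACSeq ε R r C) (x : EE) : Tendsto (fun k => phc (R k) x) atTop (𝓝 (phc r x)) := by
  unfold phc
  by_cases hx : x = 0
  · subst hx; simp
  · exact ((Real.continuous_sin.tendsto _).comp (tendsto_pt h hx)).const_mul _

theorem phc_zero (r : EE → ℝ) : phc r 0 = 0 := by unfold phc; simp

/-- the data of a test function -/
structure TD (r ζ : EuclideanSpace ℝ (Fin n) → ℝ) : Prop where
  lip : ∃ K, LipschitzWith K ζ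
  cpt : HasCompactSupport ζ
  nonneg : ∀ x, 0 ≤ ζ x
  sub : tsupport ζ ⊆ {x | 0 < phc r x}

/-- the weight `ζ / |x|` -/
def ww (ζ : EuclideanSpace ℝ (Fin n) → ℝ) (x : EuclideanSpace ℝ (Fin n)) : ℝ := ζ x * ‖x‖⁻¹

namespace TD

variable {r ζ : EuclideanSpace ℝ (Fin n) → ℝ}

theorem zero_notMem (h : TD r ζ) : (0 : EE) ∉ tsupport ζ := fun h0 => by
  have := h.sub h0
  simp only [mem_ofPred_eq, phc_zero, lt_self_iff_false] at this

theorem ne_zero (h : TD r ζ) {x : EE} (hx : x ∈ tsupport ζ) : x ≠ 0 := fun h0 =>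
  h.zero_notMem (h0 ▸ hx)

theorem cont (h : TD r ζ) : Continuous ζ := by
  obtain ⟨K, hK⟩ := h.lip
  exact hK.continuous

theorem contOn_inv : ContinuousOn (fun x : EE => ‖x‖⁻¹) {0}ᶜ := fun x hx =>
  (continuous_norm.continuousAt.inv₀ (norm_ne_zero_iff.2 hx)).continuousWithinAt

theorem cont_ww (h : TD r ζ) : Continuous (ww ζ) :=
  continuous_mul_of_notMem h.cont h.zero_notMem contOn_inv

theorem ww_nonneg (h : TD r ζ) (x : EE) : 0 ≤ ww ζ x :=
  mul_nonneg (h.nonneg x) (inv_nonneg.2 (norm_nonneg _))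

theorem tsupport_ww : tsupport (ww ζ) ⊆ tsupport ζ :=
  closure_mono fun _ hx => by
    simp only [Function.mem_support, ww] at hx ⊢
    exact left_ne_zero_of_mul hx

theorem zero_notMem_ww (h : TD r ζ) : (0 : EE) ∉ tsupport (ww ζ) := fun h0 =>
  h.zero_notMem (tsupport_ww h0)

theorem cpt_ww (h : TD r ζ) : HasCompactSupport (ww ζ) := h.cpt.mul_right

theorem ww_eq_zero {x : EE} (hx : x ∉ tsupport ζ) : ww ζ x = 0 := by
  unfold ww
  rw [image_eq_zero_of_notMem_tsupport hx, zero_mul]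

theorem int_ww_mul (h : TD r ζ) {f : EE → ℝ} (hf : ContinuousOn f {0}ᶜ) :
    Integrable fun x => ww ζ x * f x :=
  (continuous_mul_of_notMem h.cont_ww h.zero_notMem_ww hf).integrable_of_hasCompactSupport
    h.cpt_ww.mul_right

theorem int_ww (h : TD r ζ) : Integrable (ww ζ) :=
  h.cont_ww.integrable_of_hasCompactSupport h.cpt_ww

theorem ww_le (h : TD r ζ) : ∃ B, 0 ≤ B ∧ ∀ x : EE, ww ζ x ≤ B * Real.exp (-‖x‖ ^ 2) := by
  have hc : Continuous fun x : EE => ww ζ x * Real.exp (‖x‖ ^ 2) :=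
    h.cont_ww.mul (by fun_prop)
  obtain ⟨B, hB⟩ := hc.bounded_above_of_compact_support h.cpt_ww.mul_right
  refine ⟨B, (norm_nonneg _).trans (hB 0), fun x => ?_⟩
  have h1 := (le_abs_self _).trans (hB x)
  have h2 : Real.exp (‖x‖ ^ 2) * Real.exp (-‖x‖ ^ 2) = 1 := by
    rw [← Real.exp_add]; simp
  have h3 : 0 < Real.exp (-‖x‖ ^ 2) := Real.exp_pos _
  calc ww ζ x = ww ζ x * (Real.exp (‖x‖ ^ 2) * Real.exp (-‖x‖ ^ 2)) := by rw [h2, mul_one]
    _ = (ww ζ x * Real.exp (‖x‖ ^ 2)) * Real.exp (-‖x‖ ^ 2) := by ring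
    _ ≤ B * Real.exp (-‖x‖ ^ 2) := mul_le_mul_of_nonneg_right h1 h3.le

end TD

/-- uniform bound `∫ w |Δ_S R_k| ≤ M` -/
theorem mass_ww (hn : 3 ≤ n) {ε : ℕ → ℝ} {R : ℕ → EE → ℝ} {r ζ : EE → ℝ} {C : ℝ}
    (h : ACSeq ε R r C) (hζ : TD r ζ) :
    ∃ M, 0 ≤ M ∧ ∀ k, ∫ x, ww ζ x * |slap (R k) x| ≤ M := by
  obtain ⟨B, hB0, hB⟩ := hζ.ww_le
  have h0 : ∀ k, 0 ≤ ∫ z : Sph n, |slap (R k) z| ∂(sig n) := fun k =>
    integral_nonneg fun _ => abs_nonneg _
  have hk0 := kap_nonneg n
  refine ⟨B * (kap n * C), mul_nonneg hB0 (mul_nonneg hk0 ((h0 0).trans (h.mass 0))), fun k => ?_⟩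
  have hI := integrable_gauss_slap hn (h.pos k) (h.sm k) (h.eq k)
  calc ∫ x, ww ζ x * |slap (R k) x|
      ≤ ∫ x, B * (Real.exp (-‖x‖ ^ 2) * |slap (R k) x|) := by
        refine integral_mono (hζ.int_ww_mul (continuousOn_slap (h.sm k)).abs) (hI.const_mul B) ?_
        intro x
        show ww ζ x * |slap (R k) x| ≤ B * (Real.exp (-‖x‖ ^ 2) * |slap (R k) x|)
        rw [← mul_assoc]
        exact mul_le_mul_of_nonneg_right (hB x) (abs_nonneg _)
    _ = B * (kap n * ∫ z : Sph n, |slap (R k) z| ∂(sig n)) := by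
        rw [integral_const_mul, integral_gauss_slap hn (h.pos k) (h.sm k) (h.eq k)]
    _ ≤ B * (kap n * C) := by
        exact mul_le_mul_of_nonneg_left (mul_le_mul_of_nonneg_left (h.mass k) hk0) hB0

/-- dominated convergence for `∫ w f(R_k)` -/
theorem tendsto_ww {ε : ℕ → ℝ} {R : ℕ → EE → ℝ} {r ζ : EE → ℝ} {C : ℝ}
    (h : ACSeq ε R r C) (hζ : TD r ζ) {f : ℝ → ℝ} (hf : Continuous f) {B : ℝ}
    (hB : ∀ s, |f s| ≤ B) :
    Tendsto (fun k => ∫ x, ww ζ x * f (R k x)) atTop (𝓝 (∫ x, ww ζ x * f (r x))) := by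
  refine tendsto_integral_of_dominated_convergence (fun x => ww ζ x * B) ?_ ?_ ?_ ?_
  · intro k
    have hc : ContinuousOn (fun x => f (R k x)) {0}ᶜ := fun x hx =>
      (hf.continuousAt.comp ((h.sm k).smooth x hx).continuousAt).continuousWithinAt
    exact (hζ.int_ww_mul hc).aestronglyMeasurable
  · exact hζ.int_ww.mul_const B
  · intro k
    refine Eventually.of_forall fun x => ?_
    rw [norm_mul, Real.norm_eq_abs, Real.norm_eq_abs, abs_of_nonneg (hζ.ww_nonneg x)]
    exact mul_le_mul_of_nonneg_left (hB _) (hζ.ww_nonneg x)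
  · refine Eventually.of_forall fun x => ?_
    by_cases hx : x ∈ tsupport ζ
    · exact ((hf.tendsto _).comp (tendsto_pt h (hζ.ne_zero hx))).const_mul _
    · simp only [TD.ww_eq_zero hx, zero_mul, tendsto_const_nhds]

/-- on the support of the test function `r ≥ τ > 0`. -/
theorem exists_tau (hn : 3 ≤ n) {ε : ℕ → ℝ} {R : ℕ → EE → ℝ} {r ζ : EE → ℝ} {C : ℝ}
    (h : ACSeq ε R r C) (hζ : TD r ζ) : ∃ τ > 0, ∀ x ∈ tsupport ζ, τ ≤ r x := by
  have hc : ContinuousOn r (tsupport ζ) :=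
    (continuousOn_limit h).mono fun x hx => hζ.ne_zero hx
  refine hζ.cpt.isCompact.exists_forall_le' hc fun x hx => ?_
  by_contra hcon
  push Not at hcon
  have h1 := hζ.sub hx
  have h2 := (abs_le.1 (abs_limit_le hn h (hζ.ne_zero hx))).1
  have h3 : Real.sin (r x) ≤ 0 := Real.sin_nonpos_of_nonpos_of_neg_pi_le hcon h2
  simp only [mem_ofPred_eq, phc] at h1
  have h4 := norm_nonneg x
  nlinarith [mul_nonneg h4 (neg_nonneg.2 h3)]

/-- eventually on the support everything is in the good range. -/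
theorem good_ev (hn : 3 ≤ n) {ε : ℕ → ℝ} {R : ℕ → EE → ℝ} {r ζ : EE → ℝ} {C : ℝ}
    (h : ACSeq ε R r C) (hRic : RicQ R) (hζ : TD r ζ) (j : ℕ) :
    ∀ᶠ k in atTop, ∀ x ∈ tsupport ζ,
      Aq ((n : ℝ) - 2) (qj j) (R k x) - (rj j + ε k) * (-slap (R k) x) ≤
        -(‖x‖ * lapl (phc (R k)) x) ∧ 0 ≤ -slap (R k) x ∧
        Tq ((n : ℝ) - 2) (qj j) (R k x) ≤ -slap (R k) x := by
  obtain ⟨τ, hτ, hr⟩ := exists_tau hn h hζ
  have h1 := (Metric.tendstoUniformlyOn_iff.1 h.conv) (τ / 2) (by positivity)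
  have h2 : ∀ᶠ k in atTop, ε k < τ / 2 := h.lim.eventually (gt_mem_nhds (by positivity))
  filter_upwards [h1, h2, hRic (qj j) (qj_pos j) (qj_lt j),
    upper_ev hRic (qj_pos j) (qj_lt j)] with k hk1 hk2 hk3 hk4 x hx
  have hx0 := hζ.ne_zero hx
  have h3 := hk1 x hx0
  rw [Real.dist_eq, abs_lt] at h3
  have h4 := hr x hx
  have h5 : ε k ≤ R k x := by linarith [h3.2]
  have h6 : 0 ≤ R k x := (h.pos k).le.trans h5
  refine pointwise_lower hn (h.pos k) (qj_pos j) (qj_lt j) (rj_nonneg j) (h.sm k) (h.eq k) hx0 h5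
    ?_ (hk3 x hx0 h6)
  have := hk4 x hx0
  unfold rj
  linarith

/-- lower bound of the limit for fixed `j`. -/
theorem lower_j (hn : 3 ≤ n) {ε : ℕ → ℝ} {R : ℕ → EE → ℝ} {r ζ : EE → ℝ} {C : ℝ}
    (h : ACSeq ε R r C) (hRic : RicQ R) (hζ : TD r ζ) {M : ℝ}
    (hM : ∀ k, ∫ x, ww ζ x * |slap (R k) x| ≤ M) (j : ℕ) :
    (∫ x, ww ζ x * Aq ((n : ℝ) - 2) (qj j) (r x)) - rj j * M ≤ ∫ x, ⟪∇ (phc r) x, ∇ ζ x⟫ := by
  obtain ⟨K, hK⟩ := hζ.lip
  obtain ⟨B, hB⟩ := bdd_Aq ((n : ℝ) - 2) (qj_pos j) (qj_lt j)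
  have hcA := continuous_Aq ((n : ℝ) - 2) (qj_pos j) (qj_lt j)
  have hgi : Integrable (fun x => ∇ ζ x) := by
    have hm : AEStronglyMeasurable (fun x => ∇ ζ x) volume := (meas_grad ζ).aestronglyMeasurable
    have hcs : HasCompactSupport (fun x => ∇ ζ x) := hζ.cpt.mono' fun x hx => by
      by_contra hn'
      exact hx (grad_zero_of_notMem hn')
    have h1 : IntegrableOn (fun x => ∇ ζ x) (tsupport ζ) :=
      Measure.integrableOn_of_bounded (M := (K : ℝ)) hζ.cpt.isCompact.measure_lt_top.ne hm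
        (Eventually.of_forall fun x => norm_grad_le hK x)
    refine (integrableOn_iff_integrable_of_support_subset fun x hx => ?_).1 h1
    by_contra hn'
    exact hx (grad_zero_of_notMem hn')
  have hL := weak_conv_vec (lip_phc_k hn h) (lip_phc h) (tendsto_phc h) hgi
  have hR := ((tendsto_ww h hζ hcA hB).sub
    ((h.lim.const_add (rj j)).mul_const M))
  rw [add_zero] at hR
  refine le_of_tendsto_of_tendsto hR hL ?_
  filter_upwards [good_ev hn h hRic hζ j] with k hk
  have hlap : ContinuousOn (fun x => -(‖x‖ * lapl (phc (R k)) x)) {0}ᶜ := by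
    intro x hx
    have h1 : ContinuousAt (fun x => -(((n : ℝ) - 1) * Real.sin (R k x) +
        Real.cos (R k x) * slap (R k) x - Real.sin (R k x) * sgsq (R k) x)) x := by
      have c1 := ((h.sm k).smooth x hx).continuousAt
      have c2 := ((h.sm k).smooth_slap hx).continuousAt
      have c3 := ((h.sm k).smooth_sgsq hx).continuousAt
      have c4 : ContinuousAt (fun x => Real.sin (R k x)) x :=
        Real.continuous_sin.continuousAt.comp c1
      have c5 : ContinuousAt (fun x => Real.cos (R k x)) x :=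
        Real.continuous_cos.continuousAt.comp c1
      exact (((continuousAt_const.mul c4).add (c5.mul c2)).sub (c4.mul c3)).neg
    refine (h1.congr ?_).continuousWithinAt
    filter_upwards [ev_ne hx] with y hy
    rw [lapl_phc (h.sm k) hy]
  have hAc : ContinuousOn (fun x => Aq ((n : ℝ) - 2) (qj j) (R k x)) {0}ᶜ := fun x hx =>
    (hcA.continuousAt.comp ((h.sm k).smooth x hx).continuousAt).continuousWithinAt
  have e1 : ∫ x, ⟪∇ (phc (R k)) x, ∇ ζ x⟫ = ∫ x, ww ζ x * (-(‖x‖ * lapl (phc (R k)) x)) := by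
    rw [ibp_lapl (fun x hx => smooth_phc (h.sm k) hx) hK hζ.cpt hζ.zero_notMem, ← integral_neg]
    refine integral_congr_ae (Eventually.of_forall fun x => ?_)
    by_cases hx : x ∈ tsupport ζ
    · have : ‖x‖ ≠ 0 := norm_ne_zero_iff.2 (hζ.ne_zero hx)
      simp only [ww]
      field_simp
    · simp only [TD.ww_eq_zero hx, image_eq_zero_of_notMem_tsupport hx, zero_mul, neg_zero]
  have i1 := hζ.int_ww_mul hlap
  have i2 := hζ.int_ww_mul hAc
  have i3 := hζ.int_ww_mul (continuousOn_slap (h.sm k)).abs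
  have e2 : (∫ x, ww ζ x * Aq ((n : ℝ) - 2) (qj j) (R k x)) -
      (rj j + ε k) * (∫ x, ww ζ x * |slap (R k) x|) ≤
      ∫ x, ww ζ x * (-(‖x‖ * lapl (phc (R k)) x)) := by
    rw [← integral_const_mul, ← integral_sub i2 (i3.const_mul _)]
    refine integral_mono (i2.sub (i3.const_mul _)) i1 fun x => ?_
    show ww ζ x * Aq ((n : ℝ) - 2) (qj j) (R k x) - (rj j + ε k) * (ww ζ x * |slap (R k) x|) ≤
      ww ζ x * (-(‖x‖ * lapl (phc (R k)) x))
    by_cases hx : x ∈ tsupport ζ
    · obtain ⟨k1, k2, k3⟩ := hk x hx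
      have k4 : |slap (R k) x| = -slap (R k) x := abs_of_nonpos (by linarith)
      rw [k4]
      have := mul_le_mul_of_nonneg_left k1 (hζ.ww_nonneg x)
      linarith
    · simp only [TD.ww_eq_zero hx, zero_mul, mul_zero, sub_zero, le_refl]
  rw [e1]
  refine le_trans ?_ e2
  have h5 : 0 ≤ rj j + ε k := add_nonneg (rj_nonneg j) (h.pos k).le
  have := mul_le_mul_of_nonneg_left (hM k) h5
  linarith

/-- the contact set `{r = π/2}` is a null set (weighted form) -/
theorem contact_null (hn : 3 ≤ n) {ε : ℕ → ℝ} {R : ℕ → EE → ℝ} {r ζ : EE → ℝ} {C : ℝ}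
    (h : ACSeq ε R r C) (hRic : RicQ R) (hζ : TD r ζ) {M : ℝ}
    (hM : ∀ k, ∫ x, ww ζ x * |slap (R k) x| ≤ M) :
    ∫ x, ww ζ x * (if r x = Real.pi / 2 then 1 else 0) ≤ 0 := by
  obtain ⟨τ, hτ, hr⟩ := exists_tau hn h hζ
  set m : ℝ := (n : ℝ) - 2 with hm
  have hm0 : 0 < m := by
    have : (3 : ℝ) ≤ n := by exact_mod_cast hn
    rw [hm]; linarith
  set c : ℕ → ℝ := fun j => Tq m (qj j) (Real.pi / 2) with hc
  have hctop : Tendsto c atTop atTop := tendsto_Tq_top hm0
  have hrc := continuousOn_limit h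
  -- ∫ w T_q(r) ≤ M
  have hT : ∀ j, ∫ x, ww ζ x * Tq m (qj j) (r x) ≤ M := by
    intro j
    obtain ⟨B, hB⟩ := bdd_Tq m (qj_pos j) (qj_lt j)
    have hcT := continuous_Tq m (qj_pos j) (qj_lt j)
    refine le_of_tendsto (tendsto_ww h hζ hcT hB) ?_
    filter_upwards [good_ev hn h hRic hζ j] with k hk
    refine le_trans ?_ (hM k)
    have hTc : ContinuousOn (fun x => Tq m (qj j) (R k x)) {0}ᶜ := fun x hx =>
      (hcT.continuousAt.comp ((h.sm k).smooth x hx).continuousAt).continuousWithinAt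
    refine integral_mono (hζ.int_ww_mul hTc)
      (hζ.int_ww_mul (continuousOn_slap (h.sm k)).abs) fun x => ?_
    show ww ζ x * Tq m (qj j) (R k x) ≤ ww ζ x * |slap (R k) x|
    by_cases hx : x ∈ tsupport ζ
    · obtain ⟨k1, k2, k3⟩ := hk x hx
      have k4 : |slap (R k) x| = -slap (R k) x := abs_of_nonpos (by linarith)
      rw [k4]
      exact mul_le_mul_of_nonneg_left k3 (hζ.ww_nonneg x)
    · simp only [TD.ww_eq_zero hx, zero_mul, le_refl]
  -- the approximants
  set G : ℕ → EE → ℝ := fun j x => ww ζ x * max 0 (min (Tq m (qj j) (r x) / c j) 1) with hG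
  have hlim : Tendsto (fun j => ∫ x, G j x) atTop
      (𝓝 (∫ x, ww ζ x * (if r x = Real.pi / 2 then 1 else 0))) := by
    refine tendsto_integral_of_dominated_convergence (fun x => ww ζ x * 1) ?_ ?_ ?_ ?_
    · intro j
      have hcT := continuous_Tq m (qj_pos j) (qj_lt j)
      have : ContinuousOn (fun x => max 0 (min (Tq m (qj j) (r x) / c j) 1)) {0}ᶜ := by
        have h1 : ContinuousOn (fun x => Tq m (qj j) (r x)) {0}ᶜ := hcT.comp_continuousOn hrc
        exact ((continuous_const.max (continuous_id.min continuous_const)).comp_continuousOn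
          (h1.div_const (c j)))
      exact (hζ.int_ww_mul this).aestronglyMeasurable
    · exact hζ.int_ww.mul_const 1
    · intro j
      refine Eventually.of_forall fun x => ?_
      simp only [hG]
      rw [norm_mul, Real.norm_eq_abs, Real.norm_eq_abs, abs_of_nonneg (hζ.ww_nonneg x),
        abs_of_nonneg (le_max_left _ _)]
      exact mul_le_mul_of_nonneg_left (max_le zero_le_one (min_le_right _ _)) (hζ.ww_nonneg x)
    · refine Eventually.of_forall fun x => ?_
      by_cases hx : x ∈ tsupport ζ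
      · refine Tendsto.const_mul _ ?_
        have hr1 := le_pi_div_two h hRic (hζ.ne_zero hx)
        have hr0 := hτ.trans_le (hr x hx)
        rcases hr1.eq_or_lt with h1 | h1
        · rw [if_pos h1, h1]
          have : ∀ᶠ j in atTop, max 0 (min (Tq m (qj j) (Real.pi / 2) / c j) 1) = 1 := by
            filter_upwards [hctop.eventually_gt_atTop 0] with j hj
            have : Tq m (qj j) (Real.pi / 2) / c j = 1 := div_self hj.ne'
            rw [this]; simp
          exact tendsto_const_nhds.congr' (this.mono fun j hj => hj.symm)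
        · rw [if_neg h1.ne]
          have h2 : Tendsto (fun j => Tq m (qj j) (r x) / c j) atTop (𝓝 0) :=
            (tendsto_Tq (m := m) hr0 h1).div_atTop hctop
          have h3 := (tendsto_const_nhds (x := (0 : ℝ))).max
            (h2.min (tendsto_const_nhds (x := (1 : ℝ))))
          simpa using h3
      · simp only [hG, TD.ww_eq_zero hx, zero_mul, tendsto_const_nhds]
  have hup : Tendsto (fun j => M / c j) atTop (𝓝 0) := tendsto_const_nhds.div_atTop hctop
  refine le_of_tendsto_of_tendsto hlim hup ?_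
  have hq : ∀ᶠ j in atTop, 1 - qj j < τ := by
    have h1 : Tendsto (fun j => 1 - qj j) atTop (𝓝 (1 - 1)) :=
      tendsto_const_nhds.sub tendsto_qj
    rw [sub_self] at h1
    exact h1.eventually (gt_mem_nhds hτ)
  filter_upwards [hq, hctop.eventually_gt_atTop 0] with j hj1 hj2
  have hcT := continuous_Tq m (qj_pos j) (qj_lt j)
  have hTr : ContinuousOn (fun x => Tq m (qj j) (r x)) {0}ᶜ := hcT.comp_continuousOn hrc
  rw [le_div_iff₀ hj2]
  refine le_trans ?_ (hT j)
  rw [← integral_mul_const]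
  have hGc : ContinuousOn (fun x => max 0 (min (Tq m (qj j) (r x) / c j) 1)) {0}ᶜ :=
    (continuous_const.max (continuous_id.min continuous_const)).comp_continuousOn
      (hTr.div_const (c j))
  refine integral_mono ((hζ.int_ww_mul hGc).mul_const _) (hζ.int_ww_mul hTr) fun x => ?_
  show ww ζ x * max 0 (min (Tq m (qj j) (r x) / c j) 1) * c j ≤ ww ζ x * Tq m (qj j) (r x)
  by_cases hx : x ∈ tsupport ζ
  · have h1 : 0 ≤ Tq m (qj j) (r x) :=
      Tq_nonneg hm0.le (qj_pos j) (qj_lt j) (hj1.le.trans (hr x hx))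
    have h2 : max 0 (min (Tq m (qj j) (r x) / c j) 1) ≤ Tq m (qj j) (r x) / c j :=
      max_le (by positivity) (min_le_left _ _)
    have h3 : max 0 (min (Tq m (qj j) (r x) / c j) 1) * c j ≤ Tq m (qj j) (r x) := by
      calc max 0 (min (Tq m (qj j) (r x) / c j) 1) * c j
          ≤ Tq m (qj j) (r x) / c j * c j := mul_le_mul_of_nonneg_right h2 hj2.le
        _ = Tq m (qj j) (r x) := by field_simp
    rw [mul_assoc]
    exact mul_le_mul_of_nonneg_left h3 (hζ.ww_nonneg x)
  · simp only [TD.ww_eq_zero hx, zero_mul, le_refl]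

/-- **(S+)** the limit cone function is superharmonic where it is positive. -/
theorem super_pos (hn : 3 ≤ n) {ε : ℕ → ℝ} {R : ℕ → EE → ℝ} {r ζ : EE → ℝ} {C : ℝ}
    (h : ACSeq ε R r C) (hRic : RicQ R) (hζ : TD r ζ) :
    0 ≤ ∫ x, ⟪∇ (phc r) x, ∇ ζ x⟫ := by
  obtain ⟨M, hM0, hM⟩ := mass_ww hn h hζ
  obtain ⟨τ, hτ, hr⟩ := exists_tau hn h hζ
  set m : ℝ := (n : ℝ) - 2 with hm
  have hm0 : 0 < m := by
    have : (3 : ℝ) ≤ n := by exact_mod_cast hn
    rw [hm]; linarith
  have hnull := contact_null hn h hRic hζ hM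
  have hq : ∀ᶠ j in atTop, 1 - qj j < τ := by
    have h1 : Tendsto (fun j => 1 - qj j) atTop (𝓝 (1 - 1)) :=
      tendsto_const_nhds.sub tendsto_qj
    rw [sub_self] at h1
    exact h1.eventually (gt_mem_nhds hτ)
  have hrc := continuousOn_limit h
  have hlim : Tendsto (fun j => ∫ x, ww ζ x * Aq m (qj j) (r x)) atTop
      (𝓝 (∫ x, ww ζ x * ((if r x = Real.pi / 2 then 1 else 0) * (-m)))) := by
    refine tendsto_integral_filter_of_dominated_convergence (fun x => ww ζ x * m) ?_ ?_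
      (hζ.int_ww.mul_const m) ?_
    · exact Eventually.of_forall fun j => (hζ.int_ww_mul
        ((continuous_Aq m (qj_pos j) (qj_lt j)).comp_continuousOn hrc)).aestronglyMeasurable
    · filter_upwards [hq] with j hj
      refine Eventually.of_forall fun x => ?_
      by_cases hx : x ∈ tsupport ζ
      · rw [norm_mul, Real.norm_eq_abs, Real.norm_eq_abs, abs_of_nonneg (hζ.ww_nonneg x)]
        exact mul_le_mul_of_nonneg_left (abs_Aq_le hm0.le (qj_pos j) (qj_lt j)
          (hj.le.trans (hr x hx)) (le_pi_div_two h hRic (hζ.ne_zero hx))) (hζ.ww_nonneg x)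
      · simp only [TD.ww_eq_zero hx, zero_mul, norm_zero, le_refl]
    · refine Eventually.of_forall fun x => ?_
      by_cases hx : x ∈ tsupport ζ
      · refine Tendsto.const_mul _ ?_
        have hr1 := le_pi_div_two h hRic (hζ.ne_zero hx)
        have hr0 := hτ.trans_le (hr x hx)
        rcases hr1.eq_or_lt with h1 | h1
        · rw [if_pos h1, h1]
          simp only [Aq_top, one_mul, tendsto_const_nhds]
        · rw [if_neg h1.ne, zero_mul]
          exact tendsto_Aq hr0 h1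
      · simp only [TD.ww_eq_zero hx, zero_mul, tendsto_const_nhds]
  have hlim2 := hlim.sub (tendsto_rj.mul_const M)
  rw [zero_mul, sub_zero] at hlim2
  have h1 := le_of_tendsto' hlim2 fun j => lower_j hn h hRic hζ hM j
  refine le_trans ?_ h1
  have e : ∫ x, ww ζ x * ((if r x = Real.pi / 2 then 1 else 0) * (-m)) =
      (∫ x, ww ζ x * (if r x = Real.pi / 2 then 1 else 0)) * (-m) := by
    rw [← integral_mul_const]
    refine integral_congr_ae (Eventually.of_forall fun x => ?_)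
    show ww ζ x * ((if r x = Real.pi / 2 then 1 else 0) * (-m)) =
      ww ζ x * (if r x = Real.pi / 2 then 1 else 0) * (-m)
    ring
  rw [e]
  nlinarith

end Crest.Agent.R246.D3Lim67
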