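import Crest.Agent.R246.D3LimE_67
import Crest.Agent.R246.D3Fin_118

/-!
R246, helper67.  D3.2 (limit of the Riccati inequality), final statements:
`|r| ≤ π/2` and (S+), (S-) for the cone function `phc r x = ‖x‖ sin (r x)` of a limit `r` of
Allen–Cahn solutions with bounded `∫ |Δ_S R|`.
-/

set_option autoImplicit false
noncomputable section
open MeasureTheory Set Filter Topology Metric
open scoped RealInnerProductSpace NNReal ContDiff Gradient
open Crest.GeometryTopology.CoordMetric Crest.GeometryTopology.AffineMaximal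

namespace Crest.Agent.R246.D3Lim67
open Crest.Agent.R246.D2x782 Crest.Agent.R246.E2x782 Crest.Agent.R202.SphDiv

variable {n : ℕ}

local notation "EE" => EuclideanSpace ℝ (Fin n)

/-- 118's pointwise Riccati inequality gives the sequence form. -/
theorem ricQ_of (hn : 4 ≤ n) {ε : ℕ → ℝ} {R : ℕ → EE → ℝ} (hpos : ∀ k, 0 < ε k)
    (hlim : Tendsto ε atTop (𝓝 0)) (hsm : ∀ k, SmHom0 (R k)) (heq : ∀ k, ACeq (ε k) (R k)) :
    RicQ R := by
  intro q hq0 hq1
  set m : ℝ := (n : ℝ) - 2 with hm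
  have hm0 : 0 < m := by
    have : (4 : ℝ) ≤ n := by exact_mod_cast hn
    rw [hm]; linarith
  have hq2 : q ^ 2 < 1 := by nlinarith
  have hq2' : 0 < q ^ 2 := by positivity
  obtain ⟨ε0, hε0, H⟩ := Crest.Agent.R246.D3x118.riccati_n hn (1 - q) (by linarith)
    (m * (1 - q ^ 2)) (mul_pos hm0 (by linarith)) (by nlinarith)
  filter_upwards [hlim.eventually (gt_mem_nhds hε0)] with k hk x hx h0
  have h1 := H (ε k) (hpos k) hk.le (R k) (hsm k) (heq k) x hx h0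
  have e1 : m - m * (1 - q ^ 2) = m * q ^ 2 := by ring
  have e2 : √(m / (m * q ^ 2)) = 1 / q := by
    have : m / (m * q ^ 2) = (1 / q) ^ 2 := by field_simp
    rw [this, Real.sqrt_sq (by positivity)]
  have e3 : √(m * (m * q ^ 2)) = q * m := by
    have : m * (m * q ^ 2) = (q * m) ^ 2 := by ring
    rw [this, Real.sqrt_sq (by positivity)]
  rw [← hm, e1, e2, e3] at h1
  calc q * (R k x - (1 - q)) ≤ q * (1 / q * Real.arctan (-slap (R k) x / (q * m))) :=
        mul_le_mul_of_nonneg_left h1 hq0.le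
    _ = Real.arctan (-slap (R k) x / (q * m)) := by field_simp

theorem ACSeq.ricQ (hn : 4 ≤ n) {ε : ℕ → ℝ} {R : ℕ → EE → ℝ} {r : EE → ℝ} {C : ℝ}
    (h : ACSeq ε R r C) : RicQ R := ricQ_of hn h.pos h.lim h.sm h.eq

/-- **(L1)** `|r| ≤ π/2`. -/
theorem abs_le_pi_div_two (hn : 4 ≤ n) {ε : ℕ → ℝ} {R : ℕ → EE → ℝ} {r : EE → ℝ} {C : ℝ}
    (h : ACSeq ε R r C) {x : EE} (hx : x ≠ 0) : |r x| ≤ Real.pi / 2 := by
  rw [abs_le]
  have h1 := le_pi_div_two h (h.ricQ hn) hx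
  have h2 := le_pi_div_two h.neg (h.neg.ricQ hn) hx
  constructor <;> linarith

/-- **(S+)** -/
theorem supp (hn : 4 ≤ n) {ε : ℕ → ℝ} {R : ℕ → EE → ℝ} {r : EE → ℝ} {C : ℝ}
    (h : ACSeq ε R r C) (ζ : EE → ℝ) (hζ : ∃ K, LipschitzWith K ζ) (hc : HasCompactSupport ζ)
    (h0 : ∀ x, 0 ≤ ζ x) (hs : tsupport ζ ⊆ {x | 0 < ‖x‖ * Real.sin (r x)}) :
    0 ≤ ∫ x, ⟪gradient (fun x => ‖x‖ * Real.sin (r x)) x, gradient ζ x⟫ :=
  super_pos (by omega) h (h.ricQ hn) ⟨hζ, hc, h0, hs⟩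

/-- **(S-)** -/
theorem subm (hn : 4 ≤ n) {ε : ℕ → ℝ} {R : ℕ → EE → ℝ} {r : EE → ℝ} {C : ℝ}
    (h : ACSeq ε R r C) (ζ : EE → ℝ) (hζ : ∃ K, LipschitzWith K ζ) (hc : HasCompactSupport ζ)
    (h0 : ∀ x, 0 ≤ ζ x) (hs : tsupport ζ ⊆ {x | ‖x‖ * Real.sin (r x) < 0}) :
    ∫ x, ⟪gradient (fun x => ‖x‖ * Real.sin (r x)) x, gradient ζ x⟫ ≤ 0 := by
  have h1 : tsupport ζ ⊆ {x | 0 < phc (fun y => -r y) x} := fun x hx => by
    have := hs hx
    rw [mem_ofPred_eq] at this ⊢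
    rw [phc_neg]
    unfold phc
    linarith
  have h2 := super_pos (by omega) h.neg (h.neg.ricQ hn) ⟨hζ, hc, h0, h1⟩
  have e : ∀ x, gradient (phc fun y => -r y) x =
      -gradient (fun x => ‖x‖ * Real.sin (r x)) x := by
    intro x
    have : (phc fun y => -r y) = fun x => -(‖x‖ * Real.sin (r x)) := by
      funext y; exact phc_neg r y
    rw [this]
    unfold gradient
    rw [fderiv_fun_neg, map_neg]
  simp only [e, inner_neg_left] at h2
  rw [integral_neg] at h2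
  linarith

end Crest.Agent.R246.D3Lim67
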