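import Crest.Agent.R246.D3Calc_118
import Crest.Agent.R246.D3Alg_118

/-! R246, block D3 (helper118): the touching-point contradiction for the Riccati comparison. -/

set_option autoImplicit false

open scoped ContDiff Topology
open Crest.GeometryTopology.CoordMetric Crest.GeometryTopology.AffineMaximal Filter
open Crest.Agent.R236.Jet

namespace Crest.Agent.R246.D3x118

noncomputable section

local notation "𝔼" n => EuclideanSpace ℝ (Fin n)

section Touch

variable {m : ℕ} {R : (𝔼 (m + 2)) → ℝ} {ε δ : ℝ}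

set_option maxHeartbeats 2000000 in
/-- the contradiction at a touching point -/
theorem no_touch (hm : 2 ≤ m) (hδ : 0 < δ) (hδ1 : δ ≤ 1) (hε : 0 < ε) (hR : Sm0 R)
    (hhom : ∀ (t : ℝ) (x : 𝔼 (m + 2)), 0 < t → x ≠ 0 → R (t • x) = R x) (hac : IsAC ε R)
    (hmod : ∀ x, x ≠ 0 → nsq x * grad2 R x < 1) {x : 𝔼 (m + 2)} (hx : nsq x = 1)
    (hRx : 0 < R x) (hk1 : kk ε (R x) ≤ 1 / 16) (hk2 : kk ε (R x) ≤ δ / (4 * m))
    (hcs : cc ε (R x) ≤ δ / (20 * (m : ℝ) ^ 2))
    (hmax : IsLocalMax (fun z => R z - theta m (m - δ) (yy R z)) x) : False := by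
  have hx0 : x ≠ 0 := by
    rintro rfl
    rw [nsq_eq] at hx
    simp at hx
  have hm0 : (0 : ℝ) < m := by exact_mod_cast (by omega : 0 < m)
  have hm2 : (2 : ℝ) ≤ m := by exact_mod_cast hm
  have hm1 : 0 < (m : ℝ) - δ := by linarith
  have hs : 0 < Real.sinh (R x / ε) := Real.sinh_pos_iff.2 (by positivity)
  have hch : 0 < Real.cosh (R x / ε) := Real.cosh_pos _
  have smR := hR x hx0
  have smy := sm_yy hR x hx0
  set y := yy R x with hy
  set F := grad2 R x with hF
  set c := cc ε (R x) with hc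
  set κ := kk ε (R x) with hκ
  set B : ℝ := y ^ 2 / m + (m - δ) with hB
  have hB0 : 0 < B := by positivity
  have hc0 : 0 < c := by rw [hc]; unfold cc; positivity
  have hκ0 : 0 ≤ κ := by rw [hκ]; unfold kk; positivity
  have hphi := phi_eq hε hac hx0 hRx
  rw [hx, one_mul] at hphi
  have hmodx := hmod x hx0
  rw [hx, one_mul, ← hF] at hmodx
  have hlapR : lap R x = -y := by rw [hy, yy, hx]; ring
  have hy0 : 0 < y := by
    by_contra hcon
    push Not at hcon
    have : c * y ≤ 0 := mul_nonpos_of_nonneg_of_nonpos hc0.le hcon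
    linarith
  set X := c * y with hX
  have hX0 : 0 < X := by positivity
  have hFX : F = 1 - X := hphi
  -- `θ' (y) = 1 / B`
  have hden : (m : ℝ) * (m - δ) + y ^ 2 = m * B := by rw [hB]; field_simp; ring
  have ht' : (m : ℝ) / (m * (m - δ) + y ^ 2) = 1 / B := by rw [hden]; field_simp
  have ht'' : -(2 * (m : ℝ) * y) / (m * (m - δ) + y ^ 2) ^ 2 = -(2 * y / m) / B ^ 2 := by
    rw [hden]; field_simp
  have smT : ContDiffAt ℝ ∞ (fun z => theta m (m - δ) (yy R z)) x :=
    (contDiff_theta _ _).contDiffAt.comp x smy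
  -- first order
  have g1 : ∀ i, pderiv i (yy R) x = B * pderiv i R x := by
    intro i
    have h1 := pderiv_eq_zero_of_max hmax i
    rw [pderiv_sub (sm_diff smR) (sm_diff smT),
      pderiv_comp (hasDerivAt_theta hm0 hm1 _) (sm_diff smy), ← hy, ht'] at h1
    field_simp at h1
    linarith
  -- second order
  have g2 : -B * y + 2 * y * B / m * F ≤ lap (yy R) x := by
    have h1 : lap (fun z => R z - theta m (m - δ) (yy R z)) x ≤ 0 := by
      unfold lap
      refine Finset.sum_nonpos fun i _ => ?_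
      have h2 := quad_nonpos (smR.sub smT) hmax (EuclideanSpace.single i 1)
      have h3 : ∑ k, ∑ l, hessianMat (fun z => R z - theta m (m - δ) (yy R z)) x k l *
          (EuclideanSpace.single i (1 : ℝ) : 𝔼 (m + 2)) k *
          (EuclideanSpace.single i (1 : ℝ) : 𝔼 (m + 2)) l =
          hessianMat (fun z => R z - theta m (m - δ) (yy R z)) x i i := by
        rw [Finset.sum_eq_single i, Finset.sum_eq_single i]
        · simp
        · intro l _ hl; simp [hl]
        · simp
        · intro k _ hk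
          refine Finset.sum_eq_zero fun l _ => ?_
          simp [hk]
        · simp
      rw [← h3]; exact h2
    rw [lap_sub smR smT, lap_comp (φ' := fun z => (m : ℝ) / (m * (m - δ) + z ^ 2))
      (Eventually.of_forall fun t => hasDerivAt_theta hm0 hm1 t)
      (hasDerivAt_theta' hm0 hm1 _) smy, ← hy, ht', ht'', hlapR] at h1
    have h4 : grad2 (yy R) x = B ^ 2 * F := by
      rw [hF]
      unfold grad2
      rw [Finset.mul_sum]
      refine Finset.sum_congr rfl fun i _ => ?_
      rw [g1 i]; ring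
    rw [h4] at h1
    have h5 : -(2 * y / m) / B ^ 2 * (B ^ 2 * F) = -(2 * y / m) * F := by field_simp
    rw [h5] at h1
    have h6 : lap (yy R) x = B * (1 / B * lap (yy R) x) := by field_simp
    rw [h6]
    have h7 : B * (-y + 2 * y / m * F) ≤ B * (1 / B * lap (yy R) x) :=
      mul_le_mul_of_nonneg_left (by linarith) hB0.le
    refine le_trans (le_of_eq ?_) h7
    ring
  -- the identity `|x|²|∇R|² = 1 - c(R) y` near `x`
  have hev : (fun z => nsq z * grad2 R z) =ᶠ[𝓝 x] fun z => 1 - cc ε (R z) * yy R z := by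
    filter_upwards [ev_ne hx0, smR.continuousAt.eventually (lt_mem_nhds hRx)] with z hz1 hz2
    exact phi_eq hε hac hz1 hz2
  have hcd : ∀ᶠ t in 𝓝 (R x), HasDerivAt (cc ε) (-kk ε t) t := by
    filter_upwards [lt_mem_nhds hRx] with t ht using hasDerivAt_cc hε ht
  have hcd2 := hasDerivAt_kk hε hRx
  have smc : ContDiffAt ℝ ∞ (fun z => cc ε (R z)) x := by
    have h1 : ContDiffAt ℝ ∞ (fun z => R z / ε) x := smR.div_const _
    unfold cc
    exact contDiffAt_const.mul ((Real.contDiff_cosh.contDiffAt.comp x h1).div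
      (Real.contDiff_sinh.contDiffAt.comp x h1) hs.ne')
  have smcy : ContDiffAt ℝ ∞ (fun z => cc ε (R z) * yy R z) x := smc.mul smy
  have smG : ContDiffAt ℝ ∞ (grad2 R) x := sm_grad2 smR
  -- first derivative of the identity
  have g3 : ∀ j, pderiv j (grad2 R) x + 2 * x j * F =
      -((-κ * y + c * B) * pderiv j R x) := by
    intro j
    have h1 := pderiv_congr hev j
    rw [pderiv_mul (sm_diff (sm_nsq x)) (sm_diff smG), pderiv_nsq, hx,
      pderiv_sub (sm_diff (contDiffAt_const)) (sm_diff smcy), pderiv_const,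
      pderiv_mul (sm_diff smc) (sm_diff smy), pderiv_comp (hasDerivAt_cc hε hRx) (sm_diff smR),
      g1 j, ← hκ, ← hc, ← hy, ← hF] at h1
    linarith
  -- second derivative of the identity
  have g4 : lap (grad2 R) x + 2 * ((m : ℝ) + 2) * F - 8 * F =
      -(c * lap (yy R) x + y * (-κ * (-y) +
        Real.cosh (R x / ε) / (ε * Real.sinh (R x / ε) ^ 3) * F) + 2 * (-κ * B * F)) := by
    have h1 := lap_congr hev
    rw [lap_mul (sm_nsq x) smG, hx, lap_nsq, lap_sub contDiffAt_const smcy, lap_const,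
      lap_mul smc smy, lap_comp hcd hcd2 smR, hlapR, ← hκ, ← hc, ← hy, ← hF] at h1
    have h2 : ∑ i, pderiv i nsq x * pderiv i (grad2 R) x = 2 * (-2 * F) := by
      rw [hF, ← euler_grad2 hR hhom hx0, Finset.mul_sum]
      refine Finset.sum_congr rfl fun i _ => ?_
      rw [pderiv_nsq]; ring
    have h3 : ∑ i, pderiv i (fun z => cc ε (R z)) x * pderiv i (yy R) x = -κ * B * F := by
      rw [hF]
      unfold grad2
      rw [Finset.mul_sum]
      refine Finset.sum_congr rfl fun i _ => ?_
      rw [pderiv_comp (hasDerivAt_cc hε hRx) (sm_diff smR), g1 i, ← hκ]; ring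
    rw [h2, h3] at h1
    push_cast at h1
    linarith
  -- Bochner
  have hxp : ∑ i, x i * pderiv i R x = 0 := euler hR hhom hx0
  have g5 : lap (grad2 R) x = 2 * ∑ j, ∑ i, hessianMat R x j i ^ 2 - 2 * B * F := by
    rw [lap_grad2 hR hx0]
    have h1 : ∑ i, pderiv i R x * pderiv i (lap R) x = -(B * F) := by
      have h2 : ∀ i, pderiv i (lap R) x = -(B * pderiv i R x) + 2 * y * x i := by
        intro i
        have h3 := g1 i
        have h4 : pderiv i (yy R) x = -(pderiv i (lap R) x + lap R x * (2 * x i)) := by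
          have h5 : yy R = fun z => (-1) * (nsq z * lap R z) := by
            funext z; unfold yy; ring
          rw [h5, pderiv_cmul (sm_diff ((sm_nsq x).mul (sm_lap smR))),
            pderiv_mul (sm_diff (sm_nsq x)) (sm_diff (sm_lap smR)), pderiv_nsq, hx]
          ring
        rw [h4, hlapR] at h3
        linarith
      simp only [h2]
      have h6 : ∀ i, pderiv i R x * (-(B * pderiv i R x) + 2 * y * x i) =
          -B * (pderiv i R x * pderiv i R x) + 2 * y * (x i * pderiv i R x) := fun i => by ring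
      simp only [h6, Finset.sum_add_distrib, ← Finset.mul_sum, hxp, hF]
      unfold grad2
      ring
    rw [h1]; ring
  -- lower bound of the Hessian
  set lam : ℝ := (κ * y - c * B) / 2 with hlam
  have hxx : ∑ i, x i ^ 2 = 1 := by
    rw [← hx]; unfold nsq
    exact Finset.sum_congr rfl fun i _ => sq _
  have hcc : 0 ≤ y * (Real.cosh (R x / ε) / (ε * Real.sinh (R x / ε) ^ 3) * F) := by
    have : 0 ≤ F := by
      rw [hF]; unfold grad2; exact Finset.sum_nonneg fun i _ => mul_self_nonneg _
    positivity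
  have hcB : c * (-B * y + 2 * y * B / m * F) ≤ c * lap (yy R) x :=
    mul_le_mul_of_nonneg_left g2 hc0.le
  have hF00 : 0 ≤ F := by
    rw [hF]; unfold grad2; exact Finset.sum_nonneg fun i _ => mul_self_nonneg _
  rcases eq_or_lt_of_le hF00 with hFz | hF0
  · -- critical point of `R`
    have hp0 : ∀ i, pderiv i R x = 0 := by
      intro i
      have h1 : ∑ i, pderiv i R x * pderiv i R x = 0 := by
        rw [← hF] at *
        exact hFz.symm
      have h2 := (Finset.sum_eq_zero_iff_of_nonneg fun i _ => mul_self_nonneg _).1 h1 i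
        (Finset.mem_univ i)
      exact mul_self_eq_zero.1 h2
    have g6 := frob_lower0 (n := m + 2) (m := m) hm0 (by push_cast; ring)
      (fun i j => hessianMat R x i j) (fun i => x i) hxx (T := -y)
      (fun j => by have := euler2 hR hhom hx0 j; rw [hp0 j, neg_zero] at this; exact this) hlapR
    have hX1 : X = 1 := by linarith
    rw [← hFz] at hcB hcc g4 g5
    rw [g5] at g4
    have e3 : c * (-B * y + 2 * y * B / m * 0) = -B := by
      have : c * y = 1 := hX1
      linear_combination (-B) * this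
    rw [e3] at hcB
    have hκy : 0 ≤ κ * y ^ 2 := by positivity
    have hH : 2 * ((-y) ^ 2 / ((m : ℝ) + 1)) ≤ B := by
      linarith
    -- but `y` is large
    have hyl : 20 * (m : ℝ) ^ 2 ≤ y := by
      have h1 : 1 ≤ δ / (20 * (m : ℝ) ^ 2) * y := by
        rw [← hX1, hX]; gcongr
      have h2 : δ / (20 * (m : ℝ) ^ 2) * y ≤ 1 / (20 * (m : ℝ) ^ 2) * y := by gcongr
      have h3 : 1 ≤ 1 / (20 * (m : ℝ) ^ 2) * y := h1.trans h2
      rw [div_mul_eq_mul_div, one_mul, le_div_iff₀ (by positivity)] at h3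
      linarith
    have h5 : 2 * ((-y) ^ 2 / ((m : ℝ) + 1)) = y ^ 2 / m + y ^ 2 * (((m : ℝ) - 1) /
        (m * (m + 1))) := by field_simp; ring
    rw [h5, hB] at hH
    have h6 : y ^ 2 * (((m : ℝ) - 1) / (m * (m + 1))) ≤ m := by linarith
    have h7 : 1 / (3 * (m : ℝ)) ≤ ((m : ℝ) - 1) / (m * (m + 1)) := by
      rw [div_le_div_iff₀ (by positivity) (by positivity)]
      nlinarith
    have h8 : y ^ 2 * (1 / (3 * (m : ℝ))) ≤ m := le_trans (by gcongr) h6
    have h9 : (20 * (m : ℝ) ^ 2) ^ 2 * (1 / (3 * (m : ℝ))) ≤ m := le_trans (by gcongr) h8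
    have h10 : (20 * (m : ℝ) ^ 2) ^ 2 * (1 / (3 * (m : ℝ))) = 400 / 3 * (m : ℝ) ^ 3 := by
      field_simp; ring
    rw [h10] at h9
    nlinarith [sq_nonneg ((m : ℝ) - 1), pow_pos hm0 2, pow_pos hm0 3]
  have hpp : ∑ i, pderiv i R x ^ 2 = F := by
    rw [hF]; unfold grad2
    exact Finset.sum_congr rfl fun i _ => sq _
  have g6 := frob_lower (n := m + 2) (m := m) hm0 (by push_cast; ring)
    (fun i j => hessianMat R x i j) (fun i => x i) (fun i => pderiv i R x) hxx hxp hpp hF0
    (lam := lam) (T := -y) (fun j => euler2 hR hhom hx0 j) (fun j => by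
      have h1 := g3 j
      rw [pderiv_grad2 smR j] at h1
      change ∑ i, pderiv i R x * hessianMat R x j i = _
      rw [hlam]
      linarith) hlapR
  -- conclusion
  have key := key_pos (m := (m : ℝ)) (δ := δ) (c := c) (κ := κ) (y := y) (B := B) (lam := lam)
    (X := X) hm2 hδ hδ1 hc0 hy0 rfl (by linarith) rfl rfl hκ0 hk1 hk2 hcs
  have e1 : (-y - lam) ^ 2 / (m : ℝ) = (y + lam) ^ 2 / m := by ring
  rw [e1] at g6
  have e2 : c * B * (-y + 2 * y * (1 - X) / m) = c * (-B * y + 2 * y * B / m * F) := by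
    rw [hFX]; ring
  rw [e2] at key
  rw [g5] at g4
  rw [← hFX] at key
  linarith
end Touch

end

end Crest.Agent.R246.D3x118
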