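import Mathlib.Topology.ContinuousMap.Compact
import Mathlib.Topology.CompactOpen
import Mathlib.Analysis.Normed.Group.BallSphere
import Mathlib.Analysis.Normed.Module.Basic

/-!
# Doubling: a family on the closed unit ball of `W`, odd on the unit sphere, gives an odd family
on the unit sphere of `W × ℝ` (sup norm).
-/

set_option autoImplicit false
noncomputable section
open Set Filter Topology Metric

namespace Crest.Agent.R246.Dbl348

variable {W : Type*} [NormedAddCommGroup W] [NormedSpace ℝ W]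
variable {X : Type*} [TopologicalSpace X]

/-- The doubled function. -/
def dbl (V : W → X → ℝ) (p : W × ℝ) (x : X) : ℝ := if 0 ≤ p.2 then V p.1 x else - V (-p.1) x

lemma norm_fst_one {p : W × ℝ} (hp : ‖p‖ = 1) (h0 : p.2 = 0) : ‖p.1‖ = 1 := by
  obtain ⟨z, t⟩ := p
  simp only at h0
  subst h0
  rw [Prod.norm_def] at hp
  simpa using hp

lemma dbl_neg {V : W → X → ℝ} (hb : ∀ w, ‖w‖ = 1 → ∀ x, V (-w) x = - V w x) {p : W × ℝ}
    (hp : ‖p‖ = 1) (x : X) : dbl V (-p) x = - dbl V p x := by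
  rcases lt_trichotomy p.2 0 with h | h | h
  · have h1 : (0:ℝ) ≤ (-p).2 := by simp; exact h.le
    have h2 : ¬ (0:ℝ) ≤ p.2 := not_le.2 h
    unfold dbl
    rw [if_pos h1, if_neg h2]
    simp
  · have h1 : (0:ℝ) ≤ (-p).2 := by simp [h]
    have h2 : (0:ℝ) ≤ p.2 := by simp [h]
    unfold dbl
    rw [if_pos h1, if_pos h2]
    exact hb _ (norm_fst_one hp h) x
  · have h1 : ¬ (0:ℝ) ≤ (-p).2 := by simp; exact h
    have h2 : (0:ℝ) ≤ p.2 := h.le
    unfold dbl
    rw [if_neg h1, if_pos h2]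
    simp

lemma continuous_dbl {V : W → X → ℝ}
    (hc : ContinuousOn (fun p : W × X => V p.1 p.2) (closedBall 0 1 ×ˢ univ))
    (hb : ∀ w, ‖w‖ = 1 → ∀ x, V (-w) x = - V w x) :
    Continuous fun q : sphere (0 : W × ℝ) 1 × X => dbl V (q.1 : W × ℝ) q.2 := by
  have hp : ∀ q : sphere (0 : W × ℝ) 1 × X, ‖(q.1 : W × ℝ)‖ = 1 := fun q => by simp
  have hp1 : ∀ q : sphere (0 : W × ℝ) 1 × X, ‖(q.1 : W × ℝ).1‖ ≤ 1 := fun q => by
    have := norm_fst_le (q.1 : W × ℝ)
    rw [hp q] at this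
    exact this
  have c1 : Continuous fun q : sphere (0 : W × ℝ) 1 × X => (q.1 : W × ℝ) :=
    continuous_subtype_val.comp continuous_fst
  unfold dbl
  refine Continuous.if_le ?_ ?_ continuous_const c1.snd ?_
  · exact hc.comp_continuous (c1.fst.prodMk continuous_snd) fun q => by
      simp [mem_prod, hp1 q]
  · exact (hc.comp_continuous (c1.fst.neg.prodMk continuous_snd) fun q => by
      simp [mem_prod, hp1 q]).neg
  · intro q h
    have := hb _ (norm_fst_one (hp q) h.symm) q.2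
    rw [this, neg_neg]

/-- **Doubling.** -/
theorem exists_double {V : W → X → ℝ}
    (hc : ContinuousOn (fun p : W × X => V p.1 p.2) (closedBall 0 1 ×ˢ univ))
    (hb : ∀ w, ‖w‖ = 1 → ∀ x, V (-w) x = - V w x) :
    ∃ U : C(sphere (0 : W × ℝ) 1, C(X, ℝ)), (∀ p, U (-p) = - U p) ∧
      ∀ p, ∃ w, ‖w‖ ≤ 1 ∧ ((∀ x, U p x = V w x) ∨ (∀ x, U p x = - V w x)) := by
  refine ⟨ContinuousMap.curry ⟨_, continuous_dbl hc hb⟩, fun p => ?_, fun p => ?_⟩
  · ext x
    exact dbl_neg hb (by simp) x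
  · have hp : ‖(p : W × ℝ)‖ = 1 := by simp
    have h1 : ‖(p : W × ℝ).1‖ ≤ 1 := by
      have := norm_fst_le (p : W × ℝ)
      rw [hp] at this
      exact this
    by_cases h : 0 ≤ (p : W × ℝ).2
    · refine ⟨_, h1, Or.inl fun x => ?_⟩
      show dbl V _ x = _
      unfold dbl
      rw [if_pos h]
    · refine ⟨-(p : W × ℝ).1, by rwa [norm_neg], Or.inr fun x => ?_⟩
      show dbl V _ x = _
      unfold dbl
      rw [if_neg h]

end Crest.Agent.R246.Dbl348
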