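import Crest.Agent.R246.Stress_638
import Crest.Agent.R246.MSProv_782
import Crest.Agent.R246.D3LimB_67

/-!
R246, helper67.  Block DICH, part 1: the conformal identity on the sphere,
`(n-3) ∫ ⟨a,z⟩ e + ∫ ⟨a,z⟩ σ = 0` (`σ = sech⁴(R/ε)/ε`), from the stress identity with `X = χ(|x|²) a`.
-/

set_option autoImplicit false
noncomputable section
open MeasureTheory Set Filter Topology Metric
open scoped RealInnerProductSpace NNReal ContDiff Gradient
open Crest.GeometryTopology.CoordMetric Crest.GeometryTopology.AffineMaximal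
open Crest.Agent.R236.Jet

namespace Crest.Agent.R246.Dich67
open Crest.Agent.R246.D2x782 Crest.Agent.R246.Stress638 Crest.Agent.R246.Lim538
open Crest.Agent.R202.SphDiv Crest.Agent.R246.MSP782 Crest.Agent.R246.D3Lim67

variable {n : ℕ}

local notation "EE" => EuclideanSpace ℝ (Fin n)

/-- a bump function on the line, supported in `[1,3]` -/
def bmp : ContDiffBump (2 : ℝ) := ⟨1 / 2, 1, by norm_num, by norm_num⟩

theorem bmp_zero {t : ℝ} (ht : t ≤ 1) : bmp t = 0 :=
  bmp.zero_of_le_dist (by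
    show (1 : ℝ) ≤ dist t 2
    rw [Real.dist_eq, abs_of_nonpos (by linarith)]; linarith)

theorem bmp_zero' {t : ℝ} (ht : 3 ≤ t) : bmp t = 0 :=
  bmp.zero_of_le_dist (by
    show (1 : ℝ) ≤ dist t 2
    rw [Real.dist_eq, abs_of_nonneg (by linarith)]; linarith)

theorem bmp_smooth : ContDiff ℝ ∞ (fun t : ℝ => bmp t) := bmp.contDiff

theorem bmp_hasDeriv (t : ℝ) : HasDerivAt (fun t : ℝ => bmp t) (deriv (fun t : ℝ => bmp t) t) t :=
  ((bmp_smooth.differentiable (by simp)) t).hasDerivAt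

theorem bmp_deriv_zero {t : ℝ} (ht : t < 1) : deriv (fun t : ℝ => bmp t) t = 0 := by
  have : (fun t : ℝ => bmp t) =ᶠ[𝓝 t] fun _ => 0 := by
    filter_upwards [gt_mem_nhds ht] with s hs using bmp_zero hs.le
  rw [this.deriv_eq, deriv_const]

theorem bmp_deriv_zero' {t : ℝ} (ht : 3 < t) : deriv (fun t : ℝ => bmp t) t = 0 := by
  have : (fun t : ℝ => bmp t) =ᶠ[𝓝 t] fun _ => 0 := by
    filter_upwards [lt_mem_nhds ht] with s hs using bmp_zero' hs.le
  rw [this.deriv_eq, deriv_const]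

/-- the test field -/
def XX (a : EuclideanSpace ℝ (Fin n)) (i : Fin n) (x : EuclideanSpace ℝ (Fin n)) : ℝ :=
  bmp (nsq x) * a i

theorem contDiff_nsq : ContDiff ℝ ∞ (nsq (n := n)) :=
  contDiff_iff_contDiffAt.2 fun x => smooth_nsq x

theorem cut_XX (a : EE) (i : Fin n) : Cut ({0}ᶜ : Set EE) (XX a i) where
  cd := ((bmp_smooth.comp contDiff_nsq).mul contDiff_const).of_le (by exact_mod_cast le_top)
  cs := by
    refine HasCompactSupport.of_support_subset_isCompact (isCompact_closedBall (0 : EE) 2) ?_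
    intro x hx
    rw [mem_closedBall_zero_iff]
    by_contra hcon
    push Not at hcon
    apply hx
    unfold XX
    rw [bmp_zero' (by rw [nsq_eq]; nlinarith), zero_mul]
  sub := by
    have h1 : tsupport (XX a i) ⊆ {x : EE | 1 ≤ nsq x} := by
      apply closure_minimal
      · intro x hx
        by_contra hcon
        simp only [mem_ofPred_eq, not_le] at hcon
        apply hx
        unfold XX
        rw [bmp_zero hcon.le, zero_mul]
      · exact isClosed_le continuous_const contDiff_nsq.continuous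
    intro x hx h0
    have h2 := h1 hx
    rw [mem_singleton_iff.1 h0] at h2
    simp only [mem_ofPred_eq, nsq_eq, norm_zero] at h2
    norm_num at h2

theorem pderiv_nsq (x : EE) (j : Fin n) : pderiv j (nsq (n := n)) x = 2 * x j := by
  have h4 : pderiv j (fun y : EE => ∑ k, y k * y k) x =
      ∑ k, pderiv j (fun y : EE => y k * y k) x :=
    pderiv_sum (fun k _ => (sm_diff (smooth_coord k x)).mul (sm_diff (smooth_coord k x))) j
  have h5 : ∀ k : Fin n, pderiv j (fun y : EE => y k * y k) x = if k = j then 2 * x j else 0 := by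
    intro k
    rw [pderiv_mul (sm_diff (smooth_coord k x)) (sm_diff (smooth_coord k x)), pderiv_coord]
    split_ifs with h
    · subst h; ring
    · ring
  show pderiv j (fun y : EE => ∑ k, y k * y k) x = _
  rw [h4, Finset.sum_congr rfl fun k _ => h5 k, Finset.sum_ite_eq' Finset.univ j]
  simp

theorem pderiv_XX (a : EE) (i j : Fin n) (x : EE) :
    pderiv j (XX a i) x = a i * (deriv (fun t : ℝ => bmp t) (nsq x) * (2 * x j)) := by
  have h1 : XX a i = fun y => a i * bmp (nsq y) := by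
    funext y; unfold XX; ring
  have h2 : DifferentiableAt ℝ (fun y : EE => bmp (nsq y)) x :=
    ((bmp_smooth.comp contDiff_nsq).differentiable (by simp)) x
  rw [h1, pderiv_cmul h2, pderiv_comp (bmp_hasDeriv (nsq x)) (sm_diff (smooth_nsq x)), pderiv_nsq]

theorem inner_eq_sum (a x : EE) : ⟪a, x⟫ = ∑ i, a i * x i := by
  rw [PiLp.inner_apply]
  refine Finset.sum_congr rfl fun i _ => ?_
  simp [mul_comm]

theorem pderiv_hw {x : EE} (hx : x ≠ 0) (i : Fin n) :
    pderiv i hw x = -(2 * x i) * (nsq x)⁻¹ ^ 2 := by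
  have h0 := (nsq_pos hx).ne'
  have h1 := pderiv_comp (φ := fun t : ℝ => t⁻¹) (hasDerivAt_inv h0) (sm_diff (smooth_nsq x)) i
  show pderiv i (fun y => (nsq y)⁻¹) x = _
  rw [h1, pderiv_nsq]
  field_simp

/-- flat form of the conformal identity -/
theorem flat_identity (hn : 3 ≤ n) {ε : ℝ} (hε : 0 < ε) {R : EE → ℝ} (h : SmHom0 R)
    (hR : ACeq ε R) (a : EE) :
    ∫ x, qq hw R ε x * (2 * deriv (fun t : ℝ => bmp t) (nsq x) * ⟪a, x⟫) =
      ∫ x, sg R ε x * (bmp (nsq x) * (nsq x)⁻¹ ^ 2 * ⟪a, x⟫) := by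
  have h1 := stress_identity (acsol_of_sphere hn hε h hR) (cut_XX a)
  have e1 : ∀ x : EE, qq hw R ε x * ∑ i, pderiv i (XX a i) x -
      ∑ i, ∑ j, SS R ε i j x * pderiv j (XX a i) x =
      qq hw R ε x * (2 * deriv (fun t : ℝ => bmp t) (nsq x) * ⟪a, x⟫) := by
    intro x
    have k1 : ∑ i, pderiv i (XX a i) x = 2 * deriv (fun t : ℝ => bmp t) (nsq x) * ⟪a, x⟫ := by
      rw [inner_eq_sum, Finset.mul_sum]
      refine Finset.sum_congr rfl fun i _ => ?_
      rw [pderiv_XX]; ring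
    have k2 : ∑ i, ∑ j, SS R ε i j x * pderiv j (XX a i) x = 0 := by
      by_cases hx : x = 0
      · subst hx
        refine Finset.sum_eq_zero fun i _ => Finset.sum_eq_zero fun j _ => ?_
        rw [pderiv_XX]; simp
      · refine Finset.sum_eq_zero fun i _ => ?_
        have h3 : ∀ j, SS R ε i j x * pderiv j (XX a i) x =
            (sg R ε x * pderiv i R x * a i * deriv (fun t : ℝ => bmp t) (nsq x) * 2) *
              (x j * pderiv j R x) := by
          intro j
          rw [pderiv_XX]; unfold SS; ring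
        rw [Finset.sum_congr rfl fun j _ => h3 j, ← Finset.mul_sum, h.euler hx, mul_zero]
    rw [k1, k2, sub_zero]
  have e2 : ∀ x : EE, 1 / 2 * sg R ε x * ∑ i, pderiv i hw x * XX a i x =
      -(sg R ε x * (bmp (nsq x) * (nsq x)⁻¹ ^ 2 * ⟪a, x⟫)) := by
    intro x
    by_cases hx : x = 0
    · subst hx
      have : bmp (nsq (0 : EE)) = 0 := bmp_zero (by rw [nsq_eq]; simp)
      simp [XX, this]
    · have h3 : ∀ i, pderiv i hw x * XX a i x =
          (-2 * (nsq x)⁻¹ ^ 2 * bmp (nsq x)) * (a i * x i) := by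
        intro i
        rw [pderiv_hw hx]; unfold XX; ring
      rw [Finset.sum_congr rfl fun i _ => h3 i, ← Finset.mul_sum, ← inner_eq_sum]
      ring
  rw [integral_congr_ae (Eventually.of_forall e1), integral_congr_ae (Eventually.of_forall e2),
    integral_neg, neg_neg] at h1
  exact h1

theorem sg_smul {R : EE → ℝ} (h : SmHom0 R) (ε : ℝ) {t : ℝ} (ht : 0 < t) (x : EE) :
    sg R ε (t • x) = sg R ε x := by
  unfold sg; rw [h.hom t x ht]

theorem qq_hw_smul {R : EE → ℝ} (h : SmHom0 R) (ε : ℝ) {t : ℝ} (ht : 0 < t) (z : Sph n) :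
    qq hw R ε (t • (z : EE)) = t⁻¹ ^ 2 * eden ε R z := by
  have hz := sph_ne z
  have h1 := h.sgsq_smul hz ht
  have h2 : nsq (t • (z : EE)) = t ^ 2 := by
    rw [nsq_eq, norm_smul, Real.norm_eq_abs, mul_pow, sq_abs]; simp
  have h3 : gsq R (t • (z : EE)) = t⁻¹ ^ 2 * sgsq R (z : EE) := by
    unfold sgsq at h1 ⊢
    rw [h2] at h1
    rw [← h1]; field_simp
  unfold qq eden hw
  rw [h2, h3, h.hom t z ht]
  field_simp

theorem continuousOn_sg {R : EE → ℝ} (h : SmHom0 R) (ε : ℝ) : ContinuousOn (sg R ε) {0}ᶜ := by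
  intro x hx
  exact ((contDiff_sg1 ε).continuous.continuousAt.comp
    (h.smooth x hx).continuousAt).continuousWithinAt

theorem continuousOn_eden {R : EE → ℝ} (h : SmHom0 R) (ε : ℝ) : ContinuousOn (eden ε R) {0}ᶜ := by
  intro x hx
  have c1 := (h.smooth x hx).continuousAt
  have c3 := (h.smooth_sgsq hx).continuousAt
  have c2 : ContinuousAt (fun x => Real.tanh (R x / ε)) x :=
    tanh_contDiff.continuous.continuousAt.comp (c1.div_const ε)
  exact ((continuousAt_const.mul ((continuousAt_const.sub (c2.pow 2)).pow 2)).mul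
    (continuousAt_const.add c3)).continuousWithinAt

theorem continuousOn_qq {R : EE → ℝ} (h : SmHom0 R) (ε : ℝ) :
    ContinuousOn (qq hw R ε) {0}ᶜ := by
  intro x hx
  have c1 := (h.smooth x hx).continuousAt
  have c3 := (h.smooth_gsq hx).continuousAt
  have c2 : ContinuousAt (fun x => Real.tanh (R x / ε)) x :=
    tanh_contDiff.continuous.continuousAt.comp (c1.div_const ε)
  have c4 : ContinuousAt (hw (n := n)) x := (smooth_nsq x).continuousAt.inv₀ (nsq_pos hx).ne'
  exact ((continuousAt_const.mul ((continuousAt_const.sub (c2.pow 2)).pow 2)).mul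
    (c4.add c3)).continuousWithinAt

/-- integral against a compactly supported function vanishing near the origin -/
theorem integrable_of_annulus {F g : EE → ℝ} (hF : ContinuousOn F {0}ᶜ) (hg : Continuous g)
    (hgc : HasCompactSupport g) (h0 : (0 : EE) ∉ tsupport g) : Integrable fun x => F x * g x := by
  refine integrable_mul_of_tsupport isOpen_compl_singleton hF hg hgc ?_
  intro x hx hx0
  exact h0 (mem_singleton_iff.1 hx0 ▸ hx)

/-- the radial constants -/
def c1 (n : ℕ) : ℝ :=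
  ∫ t in Ioi (0 : ℝ), t ^ (n - 1) * (t⁻¹ * (2 * deriv (fun t : ℝ => bmp t) (t ^ 2)))

def c2 (n : ℕ) : ℝ := ∫ t in Ioi (0 : ℝ), t ^ (n - 1) * (t⁻¹ ^ 3 * bmp (t ^ 2))

theorem tsupp_aux {f : ℝ → ℝ} (hf : ∀ t < 1, f t = 0) (hf' : ∀ t > 3, f t = 0) (g : EE → ℝ) :
    HasCompactSupport (fun x : EE => f (nsq x) * g x) ∧
      (0 : EE) ∉ tsupport (fun x : EE => f (nsq x) * g x) := by
  constructor
  · refine HasCompactSupport.of_support_subset_isCompact (isCompact_closedBall (0 : EE) 2) ?_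
    intro x hx
    rw [mem_closedBall_zero_iff]
    by_contra hcon
    push Not at hcon
    apply hx
    show f (nsq x) * g x = 0
    rw [hf' _ (by rw [nsq_eq]; nlinarith), zero_mul]
  · have h1 : tsupport (fun x : EE => f (nsq x) * g x) ⊆ {x : EE | 1 ≤ nsq x} := by
      apply closure_minimal
      · intro x hx
        by_contra hcon
        simp only [mem_ofPred_eq, not_le] at hcon
        apply hx
        show f (nsq x) * g x = 0
        rw [hf _ hcon, zero_mul]
      · exact isClosed_le continuous_const contDiff_nsq.continuous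
    intro hx
    have h2 := h1 hx
    simp only [mem_ofPred_eq, nsq_eq, norm_zero] at h2
    norm_num at h2

theorem continuous_bmp' : Continuous (deriv fun t : ℝ => bmp t) :=
  (bmp_smooth.continuous_deriv (by simp))

/-- the conformal identity with constants -/
theorem sphere_identity0 (hn : 3 ≤ n) {ε : ℝ} (hε : 0 < ε) {R : EE → ℝ} (h : SmHom0 R)
    (hR : ACeq ε R) (a : EE) :
    c1 n * ∫ z : Sph n, ⟪a, z⟫ * eden ε R z ∂(sig n) =
      c2 n * ∫ z : Sph n, ⟪a, z⟫ * sg R ε z ∂(sig n) := by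
  have hflat := flat_identity hn hε h hR a
  have hci : Continuous fun x : EE => ⟪a, x⟫ := by fun_prop
  have hns : Continuous (nsq (n := n)) := contDiff_nsq.continuous
  -- first integral
  obtain ⟨s1, s2⟩ := tsupp_aux (n := n) (f := deriv fun t : ℝ => bmp t)
    (fun t ht => bmp_deriv_zero ht) (fun t ht => bmp_deriv_zero' ht) (fun x => 2 * ⟪a, x⟫)
  have hi1 : Integrable fun x => qq hw R ε x * (2 * deriv (fun t : ℝ => bmp t) (nsq x) * ⟪a, x⟫) := by
    have := integrable_of_annulus (continuousOn_qq h ε) (g := fun x : EE =>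
      deriv (fun t : ℝ => bmp t) (nsq x) * (2 * ⟪a, x⟫))
      ((continuous_bmp'.comp hns).mul (continuous_const.mul hci)) s1 s2
    refine this.congr (Eventually.of_forall fun x => ?_)
    show qq hw R ε x * (deriv (fun t : ℝ => bmp t) (nsq x) * (2 * ⟪a, x⟫)) = _
    ring
  have e1 := polar (by omega : 0 < n) _ hi1
  obtain ⟨t1, t2⟩ := tsupp_aux (n := n) (f := fun t : ℝ => bmp t)
    (fun t ht => bmp_zero (le_of_lt ht)) (fun t ht => bmp_zero' (le_of_lt ht))
    (fun x => ⟪a, x⟫)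
  have hi2 : Integrable fun x => sg R ε x * (bmp (nsq x) * (nsq x)⁻¹ ^ 2 * ⟪a, x⟫) := by
    have hF : ContinuousOn (fun x => sg R ε x * (nsq x)⁻¹ ^ 2) {0}ᶜ := by
      refine (continuousOn_sg h ε).mul ?_
      exact (ContinuousOn.inv₀ hns.continuousOn fun x hx => (nsq_pos hx).ne').pow 2
    have := integrable_of_annulus hF (g := fun x : EE => bmp (nsq x) * ⟪a, x⟫)
      ((bmp_smooth.continuous.comp hns).mul hci) t1 t2
    refine this.congr (Eventually.of_forall fun x => ?_)
    show sg R ε x * (nsq x)⁻¹ ^ 2 * (bmp (nsq x) * ⟪a, x⟫) = _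
    ring
  have e2 := polar (by omega : 0 < n) _ hi2
  rw [e1, e2] at hflat
  have hns2 : ∀ (t : ℝ) (z : Sph n), nsq (t • (z : EE)) = t ^ 2 := by
    intro t z
    rw [nsq_eq, norm_smul, Real.norm_eq_abs, mul_pow, sq_abs]; simp
  have k1 : ∫ t in Ioi (0 : ℝ), t ^ (n - 1) * ∫ z : Sph n, qq hw R ε (t • (z : EE)) *
      (2 * deriv (fun t : ℝ => bmp t) (nsq (t • (z : EE))) * ⟪a, t • (z : EE)⟫) ∂(sig n) =
      c1 n * ∫ z : Sph n, ⟪a, z⟫ * eden ε R z ∂(sig n) := by
    unfold c1
    rw [← integral_mul_const]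
    refine setIntegral_congr_fun measurableSet_Ioi fun t ht => ?_
    have ht' : (0 : ℝ) < t := ht
    have : ∀ z : Sph n, qq hw R ε (t • (z : EE)) *
        (2 * deriv (fun t : ℝ => bmp t) (nsq (t • (z : EE))) * ⟪a, t • (z : EE)⟫) =
        (t⁻¹ * (2 * deriv (fun t : ℝ => bmp t) (t ^ 2))) * (⟪a, z⟫ * eden ε R z) := by
      intro z
      rw [qq_hw_smul h ε ht', hns2, inner_smul_right]
      field_simp
    simp only [this]
    rw [integral_const_mul]
    ring
  have k2 : ∫ t in Ioi (0 : ℝ), t ^ (n - 1) * ∫ z : Sph n, sg R ε (t • (z : EE)) *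
      (bmp (nsq (t • (z : EE))) * (nsq (t • (z : EE)))⁻¹ ^ 2 * ⟪a, t • (z : EE)⟫) ∂(sig n) =
      c2 n * ∫ z : Sph n, ⟪a, z⟫ * sg R ε z ∂(sig n) := by
    unfold c2
    rw [← integral_mul_const]
    refine setIntegral_congr_fun measurableSet_Ioi fun t ht => ?_
    have ht' : (0 : ℝ) < t := ht
    have : ∀ z : Sph n, sg R ε (t • (z : EE)) *
        (bmp (nsq (t • (z : EE))) * (nsq (t • (z : EE)))⁻¹ ^ 2 * ⟪a, t • (z : EE)⟫) =
        (t⁻¹ ^ 3 * bmp (t ^ 2)) * (⟪a, z⟫ * sg R ε z) := by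
      intro z
      rw [sg_smul h ε ht', hns2, inner_smul_right]
      field_simp
    simp only [this]
    rw [integral_const_mul]
    ring
  rw [← k1, ← k2]
  exact hflat

theorem radial_deriv (k : ℕ) (t : ℝ) : HasDerivAt (fun t : ℝ => t ^ k * bmp (t ^ 2))
    (k * t ^ (k - 1) * bmp (t ^ 2) + t ^ k * (deriv (fun t : ℝ => bmp t) (t ^ 2) * (2 * t))) t := by
  have h1 : HasDerivAt (fun t : ℝ => t ^ 2) (2 * t) t := by
    simpa using hasDerivAt_pow 2 t
  have h2 : HasDerivAt (fun t : ℝ => bmp (t ^ 2))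
      (deriv (fun t : ℝ => bmp t) (t ^ 2) * (2 * t)) t :=
    HasDerivAt.comp (h₂ := fun t : ℝ => bmp t) (h := fun t : ℝ => t ^ 2) t
      (bmp_hasDeriv (t ^ 2)) h1
  exact (hasDerivAt_pow k t).mul h2

theorem cs_radial {f : ℝ → ℝ} (hf' : ∀ t > 3, f t = 0) (g : ℝ → ℝ) :
    HasCompactSupport fun t : ℝ => g t * f (t ^ 2) := by
  refine HasCompactSupport.of_support_subset_isCompact (isCompact_Icc (a := (-2 : ℝ)) (b := 2)) ?_
  intro t ht
  by_contra hcon
  apply ht
  show g t * f (t ^ 2) = 0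
  rw [hf' _ ?_, mul_zero]
  rw [mem_Icc, not_and_or, not_le, not_le] at hcon
  rcases hcon with h | h <;> nlinarith

theorem c1_eq (k : ℕ) : c1 (k + 3) = -(k : ℝ) * c2 (k + 3) := by
  have hcb : Continuous fun t : ℝ => bmp (t ^ 2) := bmp_smooth.continuous.comp (continuous_pow 2)
  have hcd : Continuous fun t : ℝ => deriv (fun t : ℝ => bmp t) (t ^ 2) :=
    continuous_bmp'.comp (continuous_pow 2)
  have hA : Integrable fun t : ℝ => k * t ^ (k - 1) * bmp (t ^ 2) := by
    refine Continuous.integrable_of_hasCompactSupport (by fun_prop) ?_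
    exact cs_radial (f := fun t : ℝ => bmp t) (fun t ht => bmp_zero' (le_of_lt ht)) _
  have hB : Integrable fun t : ℝ => t ^ k * (deriv (fun t : ℝ => bmp t) (t ^ 2) * (2 * t)) := by
    refine Continuous.integrable_of_hasCompactSupport (by fun_prop) ?_
    have := cs_radial (f := deriv fun t : ℝ => bmp t) (fun t ht => bmp_deriv_zero' ht)
      (fun t => t ^ k * (2 * t))
    have e : (fun t : ℝ => t ^ k * (deriv (fun t : ℝ => bmp t) (t ^ 2) * (2 * t))) =
        fun t => t ^ k * (2 * t) * deriv (fun t : ℝ => bmp t) (t ^ 2) := by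
      funext t; ring
    rw [e]; exact this
  have h0 : Tendsto (fun t : ℝ => t ^ k * bmp (t ^ 2)) atTop (𝓝 0) := by
    refine tendsto_const_nhds.congr' ?_
    filter_upwards [eventually_ge_atTop (2 : ℝ)] with t ht
    rw [bmp_zero' (by nlinarith), mul_zero]
  have h1 := integral_Ioi_of_hasDerivAt_of_tendsto (a := (0 : ℝ))
    (f := fun t : ℝ => t ^ k * bmp (t ^ 2))
    (f' := fun t => k * t ^ (k - 1) * bmp (t ^ 2) +
      t ^ k * (deriv (fun t : ℝ => bmp t) (t ^ 2) * (2 * t)))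
    (radial_deriv k 0).continuousAt.continuousWithinAt (fun t _ => radial_deriv k t)
    (hA.add hB).integrableOn h0
  have h2 : bmp ((0 : ℝ) ^ 2) = 0 := bmp_zero (by norm_num)
  rw [h2, mul_zero, sub_zero, integral_add hA.integrableOn hB.integrableOn] at h1
  have e1 : c1 (k + 3) = ∫ t in Ioi (0 : ℝ), t ^ k *
      (deriv (fun t : ℝ => bmp t) (t ^ 2) * (2 * t)) := by
    unfold c1
    refine setIntegral_congr_fun measurableSet_Ioi fun t ht => ?_
    have ht' : (0 : ℝ) < t := ht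
    show t ^ (k + 3 - 1) * (t⁻¹ * (2 * deriv (fun t : ℝ => bmp t) (t ^ 2))) = _
    have : k + 3 - 1 = k + 2 := by omega
    rw [this, pow_add]
    field_simp
  have e2 : (k : ℝ) * c2 (k + 3) = ∫ t in Ioi (0 : ℝ), k * t ^ (k - 1) * bmp (t ^ 2) := by
    unfold c2
    rw [← integral_const_mul]
    refine setIntegral_congr_fun measurableSet_Ioi fun t ht => ?_
    have ht' : (0 : ℝ) < t := ht
    show (k : ℝ) * (t ^ (k + 3 - 1) * (t⁻¹ ^ 3 * bmp (t ^ 2))) = _
    rcases Nat.eq_zero_or_pos k with h | h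
    · subst h; simp
    · obtain ⟨l, rfl⟩ : ∃ l, k = l + 1 := ⟨k - 1, by omega⟩
      have : l + 1 + 3 - 1 = l + 3 := by omega
      rw [this, Nat.add_sub_cancel, pow_add]
      field_simp
  rw [e1, neg_mul, e2]
  linarith

theorem c2_pos (k : ℕ) : 0 < c2 (k + 3) := by
  unfold c2
  have hc : Continuous fun t : ℝ => bmp (t ^ 2) := bmp_smooth.continuous.comp (continuous_pow 2)
  have hpos : ∀ t ∈ Ioi (0 : ℝ), 0 ≤ t ^ (k + 3 - 1) * (t⁻¹ ^ 3 * bmp (t ^ 2)) := by
    intro t ht
    have ht' : (0 : ℝ) < t := ht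
    have := bmp.nonneg (x := t ^ 2)
    positivity
  have hsub : Icc (5 / 4 : ℝ) (3 / 2) ⊆ Ioi 0 := fun t ht => by
    rw [mem_Ioi]; linarith [ht.1]
  have hint : IntegrableOn (fun t : ℝ => t ^ (k + 3 - 1) * (t⁻¹ ^ 3 * bmp (t ^ 2))) (Ioi 0) := by
    have h1 : ∀ t ∈ Ioi (0 : ℝ), t ^ (k + 3 - 1) * (t⁻¹ ^ 3 * bmp (t ^ 2)) =
        (t ^ (k + 3 - 1) * (max t 1)⁻¹ ^ 3) * bmp (t ^ 2) := by
      intro t ht
      by_cases h : 1 ≤ t
      · rw [max_eq_left h]; ring
      · push Not at h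
        have ht' : (0 : ℝ) < t := ht
        rw [bmp_zero (by nlinarith : t ^ 2 ≤ 1)]; ring
    refine IntegrableOn.congr_fun ?_ (fun t ht => (h1 t ht).symm) measurableSet_Ioi
    refine Integrable.integrableOn ?_
    refine Continuous.integrable_of_hasCompactSupport ?_ ?_
    · refine Continuous.mul ?_ hc
      refine (continuous_pow _).mul ?_
      exact ((continuous_id.max continuous_const).inv₀ fun t =>
        (lt_of_lt_of_le one_pos (le_max_right _ _)).ne').pow 3
    · exact cs_radial (f := fun t : ℝ => bmp t) (fun t ht => bmp_zero' (le_of_lt ht)) _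
  have h1 : ∫ t in Icc (5 / 4 : ℝ) (3 / 2), (1 / 27 : ℝ) ≤
      ∫ t in Ioi (0 : ℝ), t ^ (k + 3 - 1) * (t⁻¹ ^ 3 * bmp (t ^ 2)) := by
    calc ∫ t in Icc (5 / 4 : ℝ) (3 / 2), (1 / 27 : ℝ)
        ≤ ∫ t in Icc (5 / 4 : ℝ) (3 / 2), t ^ (k + 3 - 1) * (t⁻¹ ^ 3 * bmp (t ^ 2)) := by
          refine setIntegral_mono_on ?_ (hint.mono_set hsub) measurableSet_Icc fun t ht => ?_
          · exact integrableOn_const (by simp)
          · have ht0 : 0 < t := by linarith [ht.1]
            have hb : bmp (t ^ 2) = 1 := bmp.one_of_mem_closedBall (by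
              rw [mem_closedBall, Real.dist_eq]
              show |t ^ 2 - 2| ≤ 1 / 2
              rw [abs_le]; constructor <;> nlinarith [ht.1, ht.2])
            rw [hb, mul_one]
            have h2 : 1 ≤ t ^ (k + 3 - 1) := one_le_pow₀ (by linarith [ht.1])
            have h3 : (1 / 3 : ℝ) ≤ t⁻¹ := by
              rw [one_div]
              exact inv_anti₀ ht0 (by linarith [ht.2])
            calc (1 / 27 : ℝ) = 1 * (1 / 3) ^ 3 := by norm_num
              _ ≤ t ^ (k + 3 - 1) * t⁻¹ ^ 3 := by gcongr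
      _ ≤ _ := setIntegral_mono_set hint
          ((ae_restrict_iff' measurableSet_Ioi).2 (Eventually.of_forall hpos))
          (Eventually.of_forall hsub)
  refine lt_of_lt_of_le ?_ h1
  rw [setIntegral_const]
  simp
  norm_num

/-- **The conformal identity** on the sphere. -/
theorem conformal_identity (hn : 3 ≤ n) {ε : ℝ} (hε : 0 < ε) {R : EE → ℝ} (h : SmHom0 R)
    (hR : ACeq ε R) (a : EE) :
    ((n : ℝ) - 3) * (∫ z : Sph n, ⟪a, z⟫ * eden ε R z ∂(sig n)) +
      ∫ z : Sph n, ⟪a, z⟫ * sg R ε z ∂(sig n) = 0 := by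
  have h1 := sphere_identity0 hn hε h hR a
  obtain ⟨k, rfl⟩ : ∃ k, n = k + 3 := ⟨n - 3, by omega⟩
  have h2 := c2_pos k
  rw [c1_eq] at h1
  have h3 : c2 (k + 3) * ((k : ℝ) * (∫ z : Sph (k + 3), ⟪a, z⟫ * eden ε R z ∂(sig (k + 3))) +
      ∫ z : Sph (k + 3), ⟪a, z⟫ * sg R ε z ∂(sig (k + 3))) = 0 := by
    rw [mul_add, ← h1]; ring
  rcases mul_eq_zero.1 h3 with h4 | h4
  · exact absurd h4 h2.ne'
  · push_cast
    rw [show (k : ℝ) + 3 - 3 = k by ring]
    exact h4

end Crest.Agent.R246.Dich67
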