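import Crest.Agent.R246.Lim3_538
import Crest.Agent.R246.D2Energy_782

/-!
Row 246, block E (helper538): spherical Allen–Cahn solutions are flat weighted solutions on `{0}ᶜ`;
scaling and translation of flat weighted solutions; `cS → 1`.
-/

set_option autoImplicit false

open Filter Topology Metric Set MeasureTheory
open scoped ContDiff
open Crest.GeometryTopology.CoordMetric Crest.GeometryTopology.AffineMaximal
open Crest.Agent.R236.Jet Crest.Agent.R246.D2x782

noncomputable section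

namespace Crest.Agent.R246.Lim538

variable {n : ℕ} {U : Set (EuclideanSpace ℝ (Fin n))} {h r : EuclideanSpace ℝ (Fin n) → ℝ} {ε : ℝ}

local notation "EE" => EuclideanSpace ℝ (Fin n)

/-- a spherical solution (0-homogeneous) is a flat weighted solution with weight `|x|⁻²` on `{0}ᶜ` -/
theorem acsol_of_smHom0 {R : EE → ℝ} (hR : SmHom0 R) (hε : 0 < ε)
    (hac : ACeq ε R) (hm : ∀ x : EE, x ≠ 0 → sgsq R x ≤ 1) :
    ACSol ({0}ᶜ : Set EE) (fun x => (‖x‖ ^ 2)⁻¹) R ε where
  isOpen := isOpen_compl_singleton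
  eps_pos := hε
  smooth_h := by
    intro x hx
    have hx' : x ≠ 0 := hx
    have : ContDiffAt ℝ ∞ (fun x : EE => ‖x‖ ^ 2) x := contDiffAt_id.norm_sq ℝ
    exact (this.inv (by positivity)).contDiffWithinAt
  smooth_r := fun x hx => (hR.smooth x hx).contDiffWithinAt
  pde := by
    intro x hx
    have hx' : x ≠ 0 := hx
    have h1 := hac x hx'
    have h2 : 0 < ‖x‖ ^ 2 := by positivity
    unfold slap sgsq at h1
    rw [nsq_eq] at h1
    have h3 : lapl R x = (‖x‖ ^ 2)⁻¹ * (‖x‖ ^ 2 * lapl R x) := by field_simp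
    rw [h3, h1]
    field_simp
    ring
  modica := by
    intro x hx
    have hx' : x ≠ 0 := hx
    have h1 := hm x hx'
    unfold sgsq at h1
    rw [nsq_eq] at h1
    have h2 : 0 < ‖x‖ ^ 2 := by positivity
    rw [← one_div, le_div_iff₀ h2]
    linarith

theorem acsol_of_ac (hn : 3 ≤ n) {R : EE → ℝ} (hR : SmHom0 R) (hε : 0 < ε)
    (hac : ACeq ε R) : ACSol ({0}ᶜ : Set EE) (fun x => (‖x‖ ^ 2)⁻¹) R ε :=
  acsol_of_smHom0 hR hε hac fun _ hx => (modica hn hε hR hac hx).le

/-! ### scaling -/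

section scale

variable (p : EuclideanSpace ℝ (Fin n)) {ρ : ℝ}

theorem pderiv_scale {f : EE → ℝ} {x : EE} (hf : DifferentiableAt ℝ f (p + ρ • x)) (i : Fin n) :
    pderiv i (fun y => f (p + ρ • y)) x = ρ * pderiv i f (p + ρ • x) := by
  have h1 : HasFDerivAt (fun y : EE => p + ρ • y) (ρ • ContinuousLinearMap.id ℝ EE) x :=
    ((hasFDerivAt_id x).const_smul ρ).const_add p
  have h2 := hf.hasFDerivAt.comp x h1
  unfold pderiv
  have h3 : fderiv ℝ (fun y => f (p + ρ • y)) x =
      (fderiv ℝ f (p + ρ • x)).comp (ρ • ContinuousLinearMap.id ℝ EE) := h2.fderiv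
  rw [h3]
  simp

theorem continuous_affine (p : EE) (ρ : ℝ) : Continuous fun y : EE => p + ρ • y := by fun_prop

/-- blow-up / translation of a flat weighted solution -/
theorem ACSol.scale (H : ACSol U h r ε) (hρ : 0 < ρ) :
    ACSol ((fun y : EE => p + ρ • y) ⁻¹' U) (fun x => h (p + ρ • x))
      (fun x => ρ⁻¹ * r (p + ρ • x)) (ε / ρ) := by
  have hopen : IsOpen ((fun y : EE => p + ρ • y) ⁻¹' U) := H.isOpen.preimage (continuous_affine p ρ)
  have haff : ContDiff ℝ ∞ fun y : EE => p + ρ • y := by fun_prop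
  have hr' : ∀ x ∈ (fun y : EE => p + ρ • y) ⁻¹' U, ∀ i : Fin n,
      pderiv i (fun x => ρ⁻¹ * r (p + ρ • x)) x = pderiv i r (p + ρ • x) := by
    intro x hx i
    have hs : ContDiffAt ℝ ∞ r (p + ρ • x) := H.smooth_r.contDiffAt (H.isOpen.mem_nhds hx)
    have hd : DifferentiableAt ℝ r (p + ρ • x) := sm_diff hs
    have hd' : DifferentiableAt ℝ (fun y => r (p + ρ • y)) x :=
      hd.comp x (haff.differentiable (by simp) x)
    rw [pderiv_cmul hd', pderiv_scale p hd i, ← mul_assoc, inv_mul_cancel₀ hρ.ne', one_mul]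
  have hg : ∀ x ∈ (fun y : EE => p + ρ • y) ⁻¹' U,
      gsq (fun x => ρ⁻¹ * r (p + ρ • x)) x = gsq r (p + ρ • x) := by
    intro x hx
    unfold gsq
    exact Finset.sum_congr rfl fun i _ => by rw [hr' x hx i]
  have hl : ∀ x ∈ (fun y : EE => p + ρ • y) ⁻¹' U,
      lapl (fun x => ρ⁻¹ * r (p + ρ • x)) x = ρ * lapl r (p + ρ • x) := by
    intro x hx
    unfold lapl hessianMat
    rw [Finset.mul_sum]
    refine Finset.sum_congr rfl fun i _ => ?_
    have e : (fun y => pderiv i (fun x => ρ⁻¹ * r (p + ρ • x)) y) =ᶠ[𝓝 x]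
        fun y => pderiv i r (p + ρ • y) := by
      filter_upwards [hopen.mem_nhds hx] with y hy using hr' y hy i
    rw [pderiv_congr e i]
    have hs : ContDiffAt ℝ ∞ r (p + ρ • x) := H.smooth_r.contDiffAt (H.isOpen.mem_nhds hx)
    exact pderiv_scale p (f := fun y => pderiv i r y) (sm_diff (sm_pderiv hs i)) i
  refine ⟨hopen, div_pos H.eps_pos hρ, ?_, ?_, ?_, ?_⟩
  · exact H.smooth_h.comp haff.contDiffOn (fun _ hx => hx)
  · exact contDiffOn_const.mul (H.smooth_r.comp haff.contDiffOn (fun _ hx => hx))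
  · intro x hx
    have hε := H.eps_pos
    have e1 : ρ⁻¹ * r (p + ρ • x) / (ε / ρ) = r (p + ρ • x) / ε := by field_simp
    rw [hl x hx, hg x hx, H.pde _ hx]
    simp only [e1]
    field_simp
  · intro x hx
    rw [hg x hx]
    exact H.modica _ hx

theorem ACSol.gsq_scale (H : ACSol U h r ε) (hρ : 0 < ρ) {x : EE} (hx : p + ρ • x ∈ U) :
    gsq (fun x => ρ⁻¹ * r (p + ρ • x)) x = gsq r (p + ρ • x) := by
  have haff : ContDiff ℝ ∞ fun y : EE => p + ρ • y := by fun_prop
  unfold gsq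
  refine Finset.sum_congr rfl fun i _ => ?_
  have hs : ContDiffAt ℝ ∞ r (p + ρ • x) := H.smooth_r.contDiffAt (H.isOpen.mem_nhds hx)
  have hd : DifferentiableAt ℝ r (p + ρ • x) := sm_diff hs
  have hd' : DifferentiableAt ℝ (fun y => r (p + ρ • y)) x :=
    hd.comp x (haff.differentiable (by simp) x)
  have e : pderiv i (fun x => ρ⁻¹ * r (p + ρ • x)) x = pderiv i r (p + ρ • x) := by
    rw [pderiv_cmul hd', pderiv_scale p hd i, ← mul_assoc, inv_mul_cancel₀ hρ.ne', one_mul]
  rw [e]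

/-- scaling of the energy density -/
theorem ACSol.qq_scale (H : ACSol U h r ε) (hρ : 0 < ρ) {x : EE} (hx : p + ρ • x ∈ U) :
    qq (fun x => h (p + ρ • x)) (fun x => ρ⁻¹ * r (p + ρ • x)) (ε / ρ) x =
      ρ * qq h r ε (p + ρ • x) := by
  have hε := H.eps_pos
  unfold qq
  have e1 : ρ⁻¹ * r (p + ρ • x) / (ε / ρ) = r (p + ρ • x) / ε := by field_simp
  rw [H.gsq_scale p hρ hx, e1]
  field_simp

end scale

/-! ### `tanh → 1`, `cS → 1` -/

theorem tendsto_tanh : Tendsto Real.tanh atTop (𝓝 1) := by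
  have h : ∀ s : ℝ, Real.tanh s = 1 - 2 / (Real.exp (2 * s) + 1) := by
    intro s
    have h1 : Real.exp (2 * s) = Real.exp s * Real.exp s := by rw [← Real.exp_add]; ring_nf
    have h2 := Real.exp_pos s
    rw [Real.tanh_eq_sinh_div_cosh, Real.sinh_eq, Real.cosh_eq, Real.exp_neg, h1]
    field_simp
    ring
  have h3 : Tendsto (fun s : ℝ => 1 - 2 / (Real.exp (2 * s) + 1)) atTop (𝓝 (1 - 0)) := by
    apply tendsto_const_nhds.sub
    apply Tendsto.div_atTop tendsto_const_nhds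
    apply tendsto_atTop_add_const_right
    exact Real.tendsto_exp_atTop.comp (tendsto_id.const_mul_atTop two_pos)
  rw [sub_zero] at h3
  exact h3.congr fun s => (h s).symm

theorem tendsto_T0 : Tendsto T0 atTop (𝓝 (2 / 3)) := by
  have h := tendsto_tanh.sub ((tendsto_tanh.pow 3).div_const 3)
  have e : (1 : ℝ) - 1 ^ 3 / 3 = 2 / 3 := by norm_num
  rw [e] at h
  exact h

theorem tendsto_cS : Tendsto cS atTop (𝓝 1) := by
  have h := (tendsto_T0.const_mul (3 / 2)).inv₀ (by norm_num)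
  have e : (3 / 2 * (2 / 3) : ℝ)⁻¹ = 1 := by norm_num
  rw [e] at h
  exact h.congr fun s => by rw [cS, one_div]

end Crest.Agent.R246.Lim538
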