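import Crest.Agent.R246.VbVar_872
import Crest.Agent.R246.Lim4_538
import Crest.Agent.R246.Artanh_657
import Crest.Agent.R246.Skel_656

/-!
# Row 246, block E3 (helper872): total mass

`∫ exp(-‖x‖²) (3/4)‖x‖ q dx = (3/4) E cV` (polar coordinates) and the limit version.
-/

set_option autoImplicit false
set_option linter.unusedSectionVars false
noncomputable section
open MeasureTheory Set Filter Topology
open scoped RealInnerProductSpace ENNReal ContDiff
open Crest.Agent.R246.H990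
open Crest.Agent.R246.D2x782
open Crest.Agent.R246.Lim538 (qq ACSol)

namespace Crest.Agent.R246.Vb872

section general

variable {E : Type*} [NormedAddCommGroup E] [InnerProductSpace ℝ E] [FiniteDimensional ℝ E]
  [MeasurableSpace E] [BorelSpace E]

lemma lintegral_radial (n : ℕ) {f : ℝ → ℝ≥0∞} (hf : Measurable f) :
    ∫⁻ t, f t ∂(radial n) = ∫⁻ t in Ioi (0 : ℝ), ENNReal.ofReal (t ^ n) * f t := by
  unfold radial
  rw [lintegral_withDensity_eq_lintegral_mul _ (measurable_dens n) hf]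
  rfl

lemma lintegral_gauss (hn : 2 ≤ Module.finrank ℝ E) :
    ∫⁻ t in Ioi (0 : ℝ), ENNReal.ofReal (t ^ (Module.finrank ℝ E - 1)) *
      ENNReal.ofReal (Real.exp (-t ^ 2) * t⁻¹) = ENNReal.ofReal (cV E) := by
  obtain ⟨m, hm⟩ : ∃ m, Module.finrank ℝ E = m + 2 := ⟨_, (Nat.sub_add_cancel hn).symm⟩
  have e1 : Module.finrank ℝ E - 1 = m + 1 := by omega
  have e2 : Module.finrank ℝ E - 2 = m := by omega
  unfold cV
  rw [e1, e2]
  have hi : IntegrableOn (fun t : ℝ => t ^ m * Real.exp (-t ^ 2)) (Ioi 0) := by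
    have := integrableOn_gauss m one_pos
    simpa using this
  rw [ofReal_integral_eq_lintegral_ofReal hi]
  · refine setLIntegral_congr_fun measurableSet_Ioi fun t ht => ?_
    have ht0 : (0 : ℝ) < t := ht
    rw [← ENNReal.ofReal_mul (by positivity)]
    congr 1
    rw [pow_succ]
    field_simp
  · filter_upwards [ae_restrict_mem measurableSet_Ioi] with t ht
    exact mul_nonneg (pow_nonneg (le_of_lt ht) _) (Real.exp_pos _).le

/-- polar coordinates for a function of homogeneity `-1` against the Gaussian. -/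
theorem lintegral_polar (hn : 2 ≤ Module.finrank ℝ E) {F : E → ℝ≥0∞} (hF : Measurable F)
    (hh : ∀ t : ℝ, 0 < t → ∀ x : E, x ≠ 0 → F (t • x) = ENNReal.ofReal t⁻¹ * F x) :
    ∫⁻ x, ENNReal.ofReal (Real.exp (-‖x‖ ^ 2)) * F x =
      ENNReal.ofReal (cV E) * ∫⁻ q, F (q : E) ∂(sig E) := by
  have hnt : Nontrivial E := by
    apply Module.nontrivial_of_finrank_pos (R := ℝ); omega
  have hmp := measurePreserving_polar (E := E)
  have hFm : Measurable fun x : E => ENNReal.ofReal (Real.exp (-‖x‖ ^ 2)) * F x := by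
    refine Measurable.mul ?_ hF
    exact (Real.measurable_exp.comp (measurable_norm.pow_const 2).neg).ennreal_ofReal
  rw [← hmp.lintegral_comp hFm]
  have hgm : Measurable fun t : ℝ => ENNReal.ofReal (Real.exp (-t ^ 2) * t⁻¹) := by
    apply Measurable.ennreal_ofReal
    exact (Real.measurable_exp.comp (measurable_id.pow_const 2).neg).mul measurable_inv
  have h1 : ∫⁻ p : Metric.sphere (0 : E) 1 × ℝ, ENNReal.ofReal (Real.exp (-‖p.2 • (p.1 : E)‖ ^ 2)) *
      F (p.2 • (p.1 : E)) ∂((sig E).prod (radial (Module.finrank ℝ E - 1))) =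
      ∫⁻ p : Metric.sphere (0 : E) 1 × ℝ, F (p.1 : E) * ENNReal.ofReal (Real.exp (-p.2 ^ 2) * p.2⁻¹)
        ∂((sig E).prod (radial (Module.finrank ℝ E - 1))) := by
    refine lintegral_congr_ae ?_
    filter_upwards [(Measure.quasiMeasurePreserving_snd (μ := sig E)
      (ν := radial (Module.finrank ℝ E - 1))).ae (radial_ae_pos _)] with p hp
    have hq : ‖(p.1 : E)‖ = 1 := mem_sphere_zero_iff_norm.1 p.1.2
    have hq0 : (p.1 : E) ≠ 0 := by
      intro h0; rw [h0, norm_zero] at hq; exact zero_ne_one hq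
    rw [hh p.2 hp _ hq0, norm_smul, hq, mul_one, Real.norm_eq_abs, sq_abs,
      ENNReal.ofReal_mul (Real.exp_pos _).le]
    ring
  have h2 := lintegral_prod_mul (μ := sig E) (ν := radial (Module.finrank ℝ E - 1))
    (f := fun q : Metric.sphere (0 : E) 1 => F (q : E))
    (g := fun t : ℝ => ENNReal.ofReal (Real.exp (-t ^ 2) * t⁻¹))
    (hF.comp measurable_subtype_coe).aemeasurable hgm.aemeasurable
  rw [h1, h2, lintegral_radial _ hgm, lintegral_gauss hn, mul_comm]

/-- the limit of masses: if `∫ f dμ ≤ M` for all continuous compactly supported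
`0 ≤ f ≤ exp(-‖x‖²)` then the Gaussian mass is at most `M`. -/
theorem mass_le_of_tests {μ : Measure E} [IsFiniteMeasureOnCompacts μ] {M : ℝ}
    (h : ∀ f : E → ℝ, Continuous f → HasCompactSupport f → (∀ x, 0 ≤ f x) →
      (∀ x, f x ≤ Real.exp (-‖x‖ ^ 2)) → ∫ x, f x ∂μ ≤ M) :
    ∫⁻ x, ENNReal.ofReal (Real.exp (-‖x‖ ^ 2)) ∂μ ≤ ENNReal.ofReal M := by
  set f : ℕ → E → ℝ := fun j x => cl ((j : ℝ) + 1 - ‖x‖) * Real.exp (-‖x‖ ^ 2) with hf
  have hcl : Continuous cl := by unfold cl; fun_prop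
  have hfc : ∀ j, Continuous (f j) := by
    intro j
    simp only [hf]
    fun_prop
  have hfs : ∀ j, HasCompactSupport (f j) := by
    intro j
    refine HasCompactSupport.intro (isCompact_closedBall (0 : E) ((j : ℝ) + 1)) fun x hx => ?_
    rw [mem_closedBall_zero_iff, not_le] at hx
    simp only [hf]
    rw [cl_zero (by linarith), zero_mul]
  have hf0 : ∀ j x, 0 ≤ f j x := fun j x => mul_nonneg (cl_nonneg _) (Real.exp_pos _).le
  have hf1 : ∀ j x, f j x ≤ Real.exp (-‖x‖ ^ 2) := by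
    intro j x
    have h1 := cl_le_one ((j : ℝ) + 1 - ‖x‖)
    have h2 := Real.exp_pos (-‖x‖ ^ 2)
    simp only [hf]
    nlinarith
  have h1 : ∀ j, ∫⁻ x, ENNReal.ofReal (f j x) ∂μ ≤ ENNReal.ofReal M := by
    intro j
    rw [← ofReal_integral_eq_lintegral_ofReal ((hfc j).integrable_of_hasCompactSupport (hfs j))
      (Eventually.of_forall (hf0 j))]
    exact ENNReal.ofReal_le_ofReal (h _ (hfc j) (hfs j) (hf0 j) (hf1 j))
  have h2 : ∀ x, Tendsto (fun j => ENNReal.ofReal (f j x)) atTop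
      (𝓝 (ENNReal.ofReal (Real.exp (-‖x‖ ^ 2)))) := by
    intro x
    apply tendsto_const_nhds.congr'
    obtain ⟨N, hN⟩ := exists_nat_gt ‖x‖
    filter_upwards [eventually_ge_atTop N] with j hj
    have : (N : ℝ) ≤ j := by exact_mod_cast hj
    simp only [hf]
    rw [cl_one (by linarith), one_mul]
  calc ∫⁻ x, ENNReal.ofReal (Real.exp (-‖x‖ ^ 2)) ∂μ
      = ∫⁻ x, liminf (fun j => ENNReal.ofReal (f j x)) atTop ∂μ := by
        refine lintegral_congr fun x => ?_
        exact (h2 x).liminf_eq.symm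
    _ ≤ liminf (fun j => ∫⁻ x, ENNReal.ofReal (f j x) ∂μ) atTop :=
        lintegral_liminf_le fun j => (hfc j).measurable.ennreal_ofReal
    _ ≤ ENNReal.ofReal M := by
        refine liminf_le_of_le ?_ ?_
        · exact ⟨0, Eventually.of_forall fun _ => zero_le⟩
        · intro b hb
          obtain ⟨j, hj⟩ := hb.exists
          exact hj.trans (h1 j)

end general

/-! ### the Allen-Cahn energy -/

variable {n : ℕ}

local notation "EE" => EuclideanSpace ℝ (Fin n)

/-- the density `(3/4) ‖x‖ q` -/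
def den (R : EuclideanSpace ℝ (Fin n) → ℝ) (ε : ℝ) (x : EuclideanSpace ℝ (Fin n)) : ℝ :=
  3 / 4 * (‖x‖ * qq (fun x => (‖x‖ ^ 2)⁻¹) R ε x)

lemma qq_sph (R : EE → ℝ) (ε : ℝ) {x : EE} (hx : x ≠ 0) :
    qq (fun x => (‖x‖ ^ 2)⁻¹) R ε x = (‖x‖ ^ 2)⁻¹ * eden ε R x := by
  have h2 : 0 < ‖x‖ ^ 2 := by positivity
  unfold qq eden sgsq
  rw [nsq_eq]
  field_simp

lemma den_eq (R : EE → ℝ) (ε : ℝ) {x : EE} (hx : x ≠ 0) :
    den R ε x = 3 / 4 * (‖x‖⁻¹ * eden ε R x) := by
  have h2 : 0 < ‖x‖ := norm_pos_iff.2 hx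
  unfold den
  rw [qq_sph R ε hx]
  field_simp

lemma sgsq_nonneg' (R : EE → ℝ) (x : EE) : 0 ≤ sgsq R x := by
  unfold sgsq
  rw [nsq_eq]
  exact mul_nonneg (sq_nonneg _) (gsq_nonneg R x)

lemma eden_nonneg {ε : ℝ} (hε : 0 < ε) (R : EE → ℝ) (x : EE) : 0 ≤ eden ε R x := by
  unfold eden
  have := sgsq_nonneg' R x
  positivity

lemma den_nonneg {ε : ℝ} (hε : 0 < ε) (R : EE → ℝ) (x : EE) : 0 ≤ den R ε x := by
  by_cases hx : x = 0
  · rw [hx]; unfold den; simp
  · rw [den_eq R ε hx]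
    have := eden_nonneg hε R x
    positivity

lemma eden_smul {ε : ℝ} {R : EE → ℝ} (h : SmHom0 R) {t : ℝ} (ht : 0 < t) {x : EE} (hx : x ≠ 0) :
    eden ε R (t • x) = eden ε R x := by
  unfold eden
  rw [h.sgsq_smul hx ht, h.hom t x ht]

lemma den_smul {ε : ℝ} {R : EE → ℝ} (h : SmHom0 R) {t : ℝ} (ht : 0 < t) {x : EE} (hx : x ≠ 0) :
    den R ε (t • x) = t⁻¹ * den R ε x := by
  rw [den_eq R ε hx, den_eq R ε (smul_ne_zero ht.ne' hx), eden_smul h ht hx, norm_smul,
    Real.norm_eq_abs, abs_of_pos ht, mul_inv]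
  ring

lemma continuousAt_eden {ε : ℝ} {R : EE → ℝ} (h : SmHom0 R) {x : EE} (hx : x ≠ 0) :
    ContinuousAt (eden ε R) x := by
  have h1 : ContinuousAt R x := (h.smooth x hx).continuousAt
  have h2 : ContinuousAt (sgsq R) x := (h.smooth_sgsq hx).continuousAt
  have h3 : ContinuousAt (fun y => Real.tanh (R y / ε)) x :=
    (tanh_contDiff.continuous.continuousAt).comp (h1.div_const ε)
  unfold eden
  exact (continuousAt_const.mul ((continuousAt_const.sub (h3.pow 2)).pow 2)).mul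
    (continuousAt_const.add h2)

lemma continuousOn_den {ε : ℝ} {R : EE → ℝ} (h : SmHom0 R) : ContinuousOn (den R ε) {0}ᶜ := by
  have h1 : ContinuousOn (fun x : EE => 3 / 4 * (‖x‖⁻¹ * eden ε R x)) {0}ᶜ := by
    intro x hx
    have hx' : x ≠ 0 := hx
    have h2 : ContinuousAt (fun x : EE => ‖x‖⁻¹) x :=
      continuous_norm.continuousAt.inv₀ (norm_ne_zero_iff.2 hx')
    exact (continuousAt_const.mul (h2.mul (continuousAt_eden h hx'))).continuousWithinAt
  exact h1.congr fun x hx => den_eq R ε hx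

lemma measurable_den {ε : ℝ} {R : EE → ℝ} (h : SmHom0 R) : Measurable (den R ε) := by
  have h1 : Measurable fun x : EE => ({0}ᶜ : Set EE).indicator (den R ε) x := by
    have := (continuousOn_den (ε := ε) h).measurable_piecewise
      (g := fun _ : EE => (0 : ℝ)) (continuous_const.continuousOn) (measurableSet_singleton (0 : EE)).compl
    have e0 : (fun x : EE => ({0}ᶜ : Set EE).indicator (den R ε) x) =
        ({0}ᶜ : Set EE).piecewise (den R ε) (fun _ => (0 : ℝ)) := by
      funext x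
      by_cases hx : x ∈ ({0}ᶜ : Set EE)
      · rw [indicator_of_mem hx, piecewise_eq_of_mem _ _ _ hx]
      · rw [indicator_of_notMem hx, piecewise_eq_of_notMem _ _ _ hx]
    rw [e0]
    exact this
  have e : (fun x : EE => ({0}ᶜ : Set EE).indicator (den R ε) x) = den R ε := by
    funext x
    by_cases hx : x = 0
    · subst hx; simp [den]
    · rw [indicator_of_mem (by simpa using hx)]
  rwa [e] at h1

/-- **total mass** (`lintegral` form). -/
theorem mass_lintegral (hn : 2 ≤ n) {ε : ℝ} (hε : 0 < ε) {R : EE → ℝ} (h : SmHom0 R) :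
    ∫⁻ x, ENNReal.ofReal (Real.exp (-‖x‖ ^ 2)) * ENNReal.ofReal (den R ε x) =
      ENNReal.ofReal (cV EE * (3 / 4 * ∫ z, eden ε R (z : EE) ∂(sig EE))) := by
  have hfin : Module.finrank ℝ EE = n := by simp
  rw [lintegral_polar (E := EE) (by omega) (measurable_den h).ennreal_ofReal (by
    intro t ht x hx
    rw [den_smul h ht hx, ENNReal.ofReal_mul (inv_pos.2 ht).le]),
    ENNReal.ofReal_mul (cV_pos EE).le]
  congr 1
  have hc : Continuous fun z : Metric.sphere (0 : EE) 1 => eden ε R (z : EE) :=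
    continuous_sph fun x hx => continuousAt_eden h hx
  have hi : Integrable (fun z : Metric.sphere (0 : EE) 1 => 3 / 4 * eden ε R (z : EE)) (sig EE) :=
    (continuous_const.mul hc).integrable_of_hasCompactSupport (HasCompactSupport.of_compactSpace _)
  rw [← integral_const_mul, ofReal_integral_eq_lintegral_ofReal hi
    (Eventually.of_forall fun z => mul_nonneg (by norm_num) (eden_nonneg hε R _))]
  refine lintegral_congr fun q => ?_
  have hq : ‖(q : EE)‖ = 1 := mem_sphere_zero_iff_norm.1 q.2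
  have hq0 : (q : EE) ≠ 0 := by
    intro h0; rw [h0, norm_zero] at hq; exact zero_ne_one hq
  rw [den_eq R ε hq0, hq, inv_one, one_mul]

theorem norm_fderiv_sq_gsq (f : EE → ℝ) (x : EE) : ‖fderiv ℝ f x‖ ^ 2 = gsq f x := by
  set A := fderiv ℝ f x with hA
  obtain ⟨a, ha⟩ := (InnerProductSpace.toDual ℝ EE).surjective A
  have h7 : ‖A‖ = ‖a‖ := by rw [← ha, LinearIsometryEquiv.norm_map]
  have h8 : ∀ i, Crest.GeometryTopology.CoordMetric.pderiv i f x = a i := by
    intro i
    unfold Crest.GeometryTopology.CoordMetric.pderiv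
    rw [← hA, ← ha, InnerProductSpace.toDual_apply_apply, EuclideanSpace.inner_single_right]
    simp
  rw [h7, EuclideanSpace.real_norm_sq_eq]
  unfold gsq
  exact Finset.sum_congr rfl fun i _ => by rw [h8 i, sq]

/-- the skeleton's energy is the integral of `eden`. -/
theorem En_eq {m : ℕ} {ε : ℝ} {R : Skel656.E m → ℝ} (h : Skel656.ACsol m ε R) :
    Skel656.En ε R = ∫ z, eden ε R (z : Skel656.E m) ∂(sig (Skel656.E m)) := by
  unfold Skel656.En Fam348.AcE
  refine integral_congr_ae (Eventually.of_forall fun y => ?_)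
  have hy : ‖(y : Skel656.E m)‖ = 1 := mem_sphere_zero_iff_norm.1 y.2
  have hy0 : (y : Skel656.E m) ≠ 0 := by
    intro h0
    rw [h0, norm_zero] at hy
    exact zero_ne_one hy
  have hε := h.pos
  have h1 : HasDerivAt (fun s : ℝ => Real.tanh (s / ε))
      ((1 - Real.tanh (R y / ε) ^ 2) * (1 / ε)) (R y) := by
    have h2 : HasDerivAt (fun s : ℝ => s / ε) (1 / ε) (R y) := (hasDerivAt_id _).div_const ε
    exact (D2x782.hasDerivAt_tanh (R y / ε)).comp (R y) h2
  have h3 := Artanh657.gsq_comp (h.sm.smooth _ hy0) h1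
  have h4 : sgsq R (y : Skel656.E m) = gsq R (y : Skel656.E m) := by
    unfold sgsq; rw [nsq_eq, hy]; ring
  show ε / 2 * ‖fderiv ℝ (fun x => Real.tanh (R x / ε)) y‖ ^ 2 +
      (1 - Real.tanh (R y / ε) ^ 2) ^ 2 / (2 * ε) = eden ε R y
  rw [norm_fderiv_sq_gsq, h3]
  unfold eden
  rw [h4]
  field_simp
  ring

/-- the measure `(3/4) ‖x‖ q dx`. -/
def mu (R : EuclideanSpace ℝ (Fin n) → ℝ) (ε : ℝ) : Measure (EuclideanSpace ℝ (Fin n)) :=
  volume.withDensity fun x => ENNReal.ofReal (den R ε x)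

lemma measurable_gauss : Measurable fun x : EE => ENNReal.ofReal (Real.exp (-‖x‖ ^ 2)) :=
  (Real.measurable_exp.comp (measurable_norm.pow_const 2).neg).ennreal_ofReal

theorem mass_mu (hn : 2 ≤ n) {ε : ℝ} (hε : 0 < ε) {R : EE → ℝ} (h : SmHom0 R) :
    ∫⁻ x, ENNReal.ofReal (Real.exp (-‖x‖ ^ 2)) ∂(mu R ε) =
      ENNReal.ofReal (cV EE * (3 / 4 * ∫ z, eden ε R (z : EE) ∂(sig EE))) := by
  unfold mu
  rw [lintegral_withDensity_eq_lintegral_mul _ (measurable_den h).ennreal_ofReal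
    measurable_gauss, ← mass_lintegral hn hε h]
  refine lintegral_congr fun x => ?_
  rw [Pi.mul_apply, mul_comm]

/-- `μ_k(B_ρ) ≤ e^{ρ²} cV (3/4) E`. -/
theorem mu_closedBall_le (hn : 2 ≤ n) {ε : ℝ} (hε : 0 < ε) {R : EE → ℝ} (h : SmHom0 R) (ρ : ℝ) :
    mu R ε (Metric.closedBall 0 ρ) ≤
      ENNReal.ofReal (Real.exp (ρ ^ 2) * (cV EE * (3 / 4 * ∫ z, eden ε R (z : EE) ∂(sig EE)))) := by
  rw [ENNReal.ofReal_mul (Real.exp_pos _).le, ← mass_mu hn hε h,
    ← lintegral_const_mul _ measurable_gauss,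
    ← lintegral_indicator_one Metric.isClosed_closedBall.measurableSet]
  refine lintegral_mono fun x => ?_
  by_cases hx : x ∈ Metric.closedBall (0 : EE) ρ
  · rw [indicator_of_mem hx, Pi.one_apply, ← ENNReal.ofReal_mul (Real.exp_pos _).le,
      ← Real.exp_add, ← ENNReal.ofReal_one]
    apply ENNReal.ofReal_le_ofReal
    rw [mem_closedBall_zero_iff] at hx
    rw [Real.one_le_exp_iff]
    nlinarith [norm_nonneg x]
  · rw [indicator_of_notMem hx]; exact zero_le

theorem integral_exp_le (hn : 2 ≤ n) {ε : ℝ} (hε : 0 < ε) {R : EE → ℝ} (h : SmHom0 R) {f : EE → ℝ}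
    (hf : Continuous f) (hf0 : ∀ x, 0 ≤ f x) (hf1 : ∀ x, f x ≤ Real.exp (-‖x‖ ^ 2)) :
    ∫ x, f x ∂(mu R ε) ≤ cV EE * (3 / 4 * ∫ z, eden ε R (z : EE) ∂(sig EE)) := by
  have h0 : 0 ≤ cV EE * (3 / 4 * ∫ z, eden ε R (z : EE) ∂(sig EE)) := by
    have h1 := cV_pos EE
    have h2 : 0 ≤ ∫ z, eden ε R (z : EE) ∂(sig EE) := integral_nonneg fun z => eden_nonneg hε R _
    positivity
  rw [integral_eq_lintegral_of_nonneg_ae (Eventually.of_forall hf0) hf.aestronglyMeasurable]
  apply ENNReal.toReal_le_of_le_ofReal h0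
  rw [← mass_mu hn hε h]
  exact lintegral_mono fun x => ENNReal.ofReal_le_ofReal (hf1 x)

end Crest.Agent.R246.Vb872
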