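import Mathlib.Analysis.SpecialFunctions.Gaussian.GaussianIntegral
import Mathlib.Analysis.SpecialFunctions.Gaussian.FourierTransform
import Mathlib.MeasureTheory.Integral.Gamma
import Mathlib.MeasureTheory.Integral.Pi
import Mathlib.MeasureTheory.Measure.Haar.InnerProductSpace
import Mathlib.MeasureTheory.Measure.Lebesgue.Integral
import Mathlib.Analysis.InnerProductSpace.PiL2

/-!
# The Gaussian first absolute moment

`∫ |⟪a, x⟫| e^{-‖x‖²} dx = π^{(n-1)/2}` for a unit vector `a` of an `n`-dimensional space.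
-/

set_option autoImplicit false
set_option linter.unusedSectionVars false
noncomputable section
open MeasureTheory Set Filter Topology
open scoped RealInnerProductSpace

namespace Crest.Agent.R246.G4g386

lemma integral_abs_mul_exp : ∫ t : ℝ, |t| * Real.exp (-t ^ 2) = 1 := by
  have h1 : ∫ t : ℝ, |t| * Real.exp (-t ^ 2)
      = ∫ t : ℝ, (fun s : ℝ => s * Real.exp (-s ^ 2)) |t| := by
    congr 1; funext t; simp [sq_abs]
  rw [h1, integral_comp_abs (f := fun s : ℝ => s * Real.exp (-s ^ 2))]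
  have h2 := integral_rpow_mul_exp_neg_rpow (p := 2) (q := 1) (by norm_num) (by norm_num)
  have h3 : ∫ x in Ioi (0 : ℝ), x * Real.exp (-x ^ 2)
      = ∫ x in Ioi (0 : ℝ), x ^ (1 : ℝ) * Real.exp (-x ^ (2 : ℝ)) := by
    apply setIntegral_congr_fun measurableSet_Ioi
    intro x _
    simp only [Real.rpow_one]
    norm_cast
  rw [h3, h2]
  norm_num

lemma integral_exp_sq : ∫ t : ℝ, Real.exp (-t ^ 2) = Real.sqrt Real.pi := by
  have := integral_gaussian 1
  simpa using this

variable {E : Type*} [NormedAddCommGroup E] [InnerProductSpace ℝ E] [FiniteDimensional ℝ E]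
  [MeasurableSpace E] [BorelSpace E]

/-- an orthonormal basis whose first vector is `a`. -/
lemma exists_basis {a : E} (ha : ‖a‖ = 1) :
    ∃ (i₀ : Fin (Module.finrank ℝ E)) (b : OrthonormalBasis (Fin (Module.finrank ℝ E)) ℝ E),
      b i₀ = a := by
  have ha0 : a ≠ 0 := by
    rintro rfl; simp at ha
  have : Nontrivial E := ⟨⟨a, 0, ha0⟩⟩
  have hn : 0 < Module.finrank ℝ E := Module.finrank_pos
  refine ⟨⟨0, hn⟩, ?_⟩
  have ho : Orthonormal ℝ (({⟨0, hn⟩} : Set (Fin (Module.finrank ℝ E))).domRestrict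
      (fun _ => a)) := by
    constructor
    · intro i; simpa using ha
    · intro i j hij
      exact absurd (Subsingleton.elim i j) hij
  obtain ⟨b, hb⟩ := ho.exists_orthonormalBasis_extension_of_card_eq (by simp)
  exact ⟨b, hb _ rfl⟩

theorem integral_aux {n : ℕ} {a : E} (i₀ : Fin n) (b : OrthonormalBasis (Fin n) ℝ E)
    (hb : b i₀ = a) :
    ∫ x : E, |⟪a, x⟫| * Real.exp (-‖x‖ ^ 2) = Real.pi ^ (((n : ℝ) - 1) / 2) := by
  have h1 : ∫ x : E, |⟪a, x⟫| * Real.exp (-‖x‖ ^ 2)
      = ∫ y : EuclideanSpace ℝ (Fin n), |y i₀| * Real.exp (-‖y‖ ^ 2) := by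
    rw [← b.measurePreserving_repr_symm.integral_comp
      b.repr.symm.toHomeomorph.measurableEmbedding]
    congr 1
    funext y
    rw [← hb, ← OrthonormalBasis.repr_apply_apply]
    simp
  have h2 : ∫ y : EuclideanSpace ℝ (Fin n), |y i₀| * Real.exp (-‖y‖ ^ 2)
      = ∫ y : Fin n → ℝ, ∏ i, (if i = i₀ then |y i| * Real.exp (-(y i) ^ 2)
          else Real.exp (-(y i) ^ 2)) := by
    rw [← (PiLp.volume_preserving_toLp (Fin n)).integral_comp
      (MeasurableEquiv.toLp 2 (Fin n → ℝ)).measurableEmbedding]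
    congr 1
    funext y
    have e1 : ∀ i, (if i = i₀ then |y i| * Real.exp (-(y i) ^ 2) else Real.exp (-(y i) ^ 2))
        = (if i = i₀ then |y i| else 1) * Real.exp (-(y i) ^ 2) := by
      intro i; split_ifs <;> simp
    simp_rw [e1]
    rw [Finset.prod_mul_distrib, Finset.prod_ite_eq' Finset.univ i₀ (fun i => |y i|),
      if_pos (Finset.mem_univ _), ← Real.exp_sum, Finset.sum_neg_distrib]
    congr 3
    rw [EuclideanSpace.norm_sq_eq]
    simp
  rw [h1, h2]
  rw [integral_fintype_prod_volume_eq_prod (fun (i : Fin n) (t : ℝ) =>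
    if i = i₀ then |t| * Real.exp (-t ^ 2) else Real.exp (-t ^ 2))]
  have e2 : ∀ i : Fin n, ∫ t : ℝ, (if i = i₀ then |t| * Real.exp (-t ^ 2)
      else Real.exp (-t ^ 2)) = if i = i₀ then 1 else Real.sqrt Real.pi := by
    intro i
    by_cases h : i = i₀
    · simp only [h, if_true]; exact integral_abs_mul_exp
    · simp only [h, if_false]; exact integral_exp_sq
  simp_rw [e2]
  rw [Finset.prod_ite, Finset.prod_const_one, one_mul, Finset.prod_const]
  have hcard : (Finset.univ.filter (fun x : Fin n => ¬ x = i₀)).card = n - 1 := by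
    rw [Finset.filter_not, Finset.filter_eq' Finset.univ i₀, if_pos (Finset.mem_univ _),
      ← Finset.compl_eq_univ_sdiff, Finset.card_compl]
    simp
  rw [hcard, Real.sqrt_eq_rpow, ← Real.rpow_natCast, ← Real.rpow_mul Real.pi_pos.le]
  congr 1
  have hn1 : 1 ≤ n := i₀.pos
  rw [Nat.cast_sub hn1]
  push_cast
  ring

theorem integral_abs_inner_mul_exp {a : E} (ha : ‖a‖ = 1) :
    ∫ x : E, |⟪a, x⟫| * Real.exp (-‖x‖ ^ 2)
      = Real.pi ^ (((Module.finrank ℝ E : ℝ) - 1) / 2) := by
  obtain ⟨i₀, b, hb⟩ := exists_basis ha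
  exact integral_aux i₀ b hb

lemma integrable_abs_inner_mul_exp {a : E} (ha : ‖a‖ = 1) :
    Integrable (fun x : E => |⟪a, x⟫| * Real.exp (-‖x‖ ^ 2)) := by
  by_contra h
  have h1 := integral_abs_inner_mul_exp ha
  rw [integral_undef h] at h1
  have := Real.rpow_pos_of_pos Real.pi_pos (((Module.finrank ℝ E : ℝ) - 1) / 2)
  linarith

end Crest.Agent.R246.G4g386
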