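import Crest.Agent.R246.Cont_990

/-!
# Boost invariance of the flux functional
-/

set_option autoImplicit false
set_option linter.unusedSectionVars false
set_option linter.unusedSimpArgs false
noncomputable section
open MeasureTheory Set Filter Topology
open scoped RealInnerProductSpace

namespace Crest.Agent.R246.H990

variable {E : Type*} [NormedAddCommGroup E] [InnerProductSpace ℝ E]
variable [FiniteDimensional ℝ E] [MeasurableSpace E] [BorelSpace E]

/-- Test functions: `0`-homogeneous, values in `[0,1]`, Lipschitz on the unit sphere. -/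
structure Test (ζ : E → ℝ) : Prop where
  hom : ∀ t : ℝ, 0 < t → ∀ x, ζ (t • x) = ζ x
  nonneg : ∀ x, 0 ≤ ζ x
  le_one : ∀ x, ζ x ≤ 1
  lip : ∃ K : NNReal, LipschitzOnWith K ζ (Metric.sphere (0 : E) 1)

lemma normalize_sub_le {a b : E} (ha : a ≠ 0) (hb : b ≠ 0) :
    ‖‖a‖⁻¹ • a - ‖b‖⁻¹ • b‖ ≤ 2 / ‖a‖ * ‖a - b‖ := by
  have ha' : 0 < ‖a‖ := norm_pos_iff.2 ha
  have hb' : 0 < ‖b‖ := norm_pos_iff.2 hb
  have e : ‖a‖⁻¹ • a - ‖b‖⁻¹ • b = ‖a‖⁻¹ • (a - b) + (‖a‖⁻¹ - ‖b‖⁻¹) • b := by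
    module
  rw [e]
  calc ‖‖a‖⁻¹ • (a - b) + (‖a‖⁻¹ - ‖b‖⁻¹) • b‖
      ≤ ‖‖a‖⁻¹ • (a - b)‖ + ‖(‖a‖⁻¹ - ‖b‖⁻¹) • b‖ := norm_add_le _ _
    _ = ‖a‖⁻¹ * ‖a - b‖ + |‖a‖⁻¹ - ‖b‖⁻¹| * ‖b‖ := by
        rw [norm_smul, norm_smul, norm_inv, norm_norm, Real.norm_eq_abs]
    _ ≤ ‖a‖⁻¹ * ‖a - b‖ + ‖a‖⁻¹ * ‖a - b‖ := by
        refine add_le_add le_rfl ?_
        have h1 : ‖a‖⁻¹ - ‖b‖⁻¹ = (‖b‖ - ‖a‖) * (‖a‖⁻¹ * ‖b‖⁻¹) := by
          field_simp
        rw [h1, abs_mul, abs_of_pos (by positivity : 0 < ‖a‖⁻¹ * ‖b‖⁻¹)]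
        have h2 : |‖b‖ - ‖a‖| ≤ ‖a - b‖ := by
          rw [norm_sub_rev]; exact abs_norm_sub_norm_le b a
        calc |‖b‖ - ‖a‖| * (‖a‖⁻¹ * ‖b‖⁻¹) * ‖b‖ = |‖b‖ - ‖a‖| * ‖a‖⁻¹ := by
              field_simp
          _ ≤ ‖a - b‖ * ‖a‖⁻¹ := by gcongr
          _ = ‖a‖⁻¹ * ‖a - b‖ := mul_comm _ _
    _ = 2 / ‖a‖ * ‖a - b‖ := by ring

lemma normalize_mem {a : E} (ha : a ≠ 0) : ‖a‖⁻¹ • a ∈ Metric.sphere (0 : E) 1 := by
  have ha' : ‖a‖ ≠ 0 := norm_ne_zero_iff.2 ha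
  rw [mem_sphere_zero_iff_norm, norm_smul, norm_inv, norm_norm, inv_mul_cancel₀ ha']

lemma Test.normalize {ζ : E → ℝ} (hζ : Test ζ) {a : E} (ha : a ≠ 0) :
    ζ (‖a‖⁻¹ • a) = ζ a := hζ.hom _ (inv_pos.2 (norm_pos_iff.2 ha)) a

lemma Test.sub_le {ζ : E → ℝ} (hζ : Test ζ) : ∃ K : ℝ, 0 ≤ K ∧ ∀ a b : E, a ≠ 0 → b ≠ 0 →
    |ζ a - ζ b| ≤ K / ‖a‖ * ‖a - b‖ := by
  obtain ⟨K, hK⟩ := hζ.lip
  refine ⟨K * 2, by positivity, fun a b ha hb => ?_⟩
  have h1 := hK.dist_le_mul _ (normalize_mem ha) _ (normalize_mem hb)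
  rw [hζ.normalize ha, hζ.normalize hb, Real.dist_eq, dist_eq_norm] at h1
  calc |ζ a - ζ b| ≤ K * ‖‖a‖⁻¹ • a - ‖b‖⁻¹ • b‖ := h1
    _ ≤ K * (2 / ‖a‖ * ‖a - b‖) := by
      gcongr; exact normalize_sub_le ha hb
    _ = K * 2 / ‖a‖ * ‖a - b‖ := by ring

/-- test functions are differentiable almost everywhere. -/
lemma Test.ae_differentiableAt {ζ : E → ℝ} (hζ : Test ζ) :
    ∀ᵐ x ∂(volume : Measure E), x ≠ 0 → DifferentiableAt ℝ ζ x := by
  obtain ⟨K, hK0, hK⟩ := hζ.sub_le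
  have h1 : ∀ k : ℕ, ∀ᵐ x ∂(volume : Measure E), x ∈ {x : E | 1 / ((k : ℝ) + 1) < ‖x‖} →
      DifferentiableWithinAt ℝ ζ {x : E | 1 / ((k : ℝ) + 1) < ‖x‖} x := by
    intro k
    have hl : LipschitzOnWith (Real.toNNReal (K * ((k : ℝ) + 1))) ζ
        {x : E | 1 / ((k : ℝ) + 1) < ‖x‖} := by
      apply LipschitzOnWith.of_dist_le_mul
      intro a ha b hb
      have hk : (0 : ℝ) < 1 / ((k : ℝ) + 1) := by positivity
      have ha0 : 0 < ‖a‖ := hk.trans ha
      have hb0 : 0 < ‖b‖ := hk.trans hb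
      rw [Real.coe_toNNReal _ (by positivity), Real.dist_eq, dist_eq_norm]
      refine (hK a b (norm_pos_iff.1 ha0) (norm_pos_iff.1 hb0)).trans ?_
      gcongr
      rw [div_le_iff₀ ha0]
      have : (1 : ℝ) ≤ ((k : ℝ) + 1) * ‖a‖ := by
        have h3 : 1 / ((k : ℝ) + 1) < ‖a‖ := ha
        rw [div_lt_iff₀ (by positivity)] at h3
        linarith
      calc K = K * 1 := (mul_one K).symm
        _ ≤ K * (((k : ℝ) + 1) * ‖a‖) := by gcongr
        _ = K * ((k : ℝ) + 1) * ‖a‖ := by ring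
    exact hl.ae_differentiableWithinAt_of_mem
  filter_upwards [ae_all_iff.2 h1] with x hx hx0
  have hn : 0 < ‖x‖ := norm_pos_iff.2 hx0
  obtain ⟨k, hk⟩ := exists_nat_one_div_lt hn
  have h2 := hx k hk
  have hopen : IsOpen {x : E | 1 / ((k : ℝ) + 1) < ‖x‖} := isOpen_lt continuous_const continuous_norm
  exact h2.differentiableAt (hopen.mem_nhds hk)

/-- The flux integral. -/
def flux (φ ζ : E → ℝ) : ℝ :=
  ∫ x, Real.exp (-(‖x‖ ^ 2 - φ x ^ 2)) * fderiv ℝ ζ x (gradient φ x)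

lemma gradient_eq_cv (φ : E → ℝ) (x : E) : gradient φ x = cv (fderiv ℝ φ x) := rfl

/-- good points: where `φ` is differentiable -/
def gd (φ : E → ℝ) : Set E := {x | DifferentiableAt ℝ φ x}

lemma gd_measurable (φ : E → ℝ) : MeasurableSet (gd φ) := measurableSet_of_differentiableAt ℝ φ

lemma ae_gd {φ : E → ℝ} (h : LipschitzWith 1 φ) : ∀ᵐ x ∂(volume : Measure E), x ∈ gd φ :=
  h.ae_differentiableAt

/-- change of variables for the boost map -/
theorem integral_bT {φ : E → ℝ} (h : LipschitzWith 1 φ) {z : E} (hz : ‖z‖ < 1) (g : E → ℝ) :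
    ∫ y, g y = ∫ x, bJ z (gradient φ x) * g (bT φ z x) := by
  have hinj : InjOn (bT φ z) (gd φ) := (bT_injective h hz).injOn
  have h1 := integral_image_eq_integral_abs_det_fderiv_smul (volume : Measure E)
    (gd_measurable φ) (f := bT φ z) (f' := fun x => LXc z (fderiv ℝ φ x))
    (fun x hx => (hasFDerivAt_bT z (DifferentiableAt.hasFDerivAt hx)).hasFDerivWithinAt) hinj g
  have hae := ae_gd h
  have h2 : ∫ y in bT φ z '' gd φ, g y = ∫ y, g y := by
    have : (bT φ z '' gd φ : Set E) =ᵐ[volume] (univ : Set E) := by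
      rw [eventuallyEq_univ]
      show ∀ᵐ y ∂volume, y ∈ bT φ z '' gd φ
      refine ae_of_ae_bT h hz ?_
      filter_upwards [hae] with x hx
      exact ⟨x, hx, rfl⟩
    rw [setIntegral_congr_set this, setIntegral_univ]
  have h3 : ∫ x in gd φ, |(LXc z (fderiv ℝ φ x)).det| • g (bT φ z x)
      = ∫ x, |(LXc z (fderiv ℝ φ x)).det| • g (bT φ z x) := by
    have : (gd φ : Set E) =ᵐ[volume] (univ : Set E) := by
      rw [eventuallyEq_univ]; exact hae
    rw [setIntegral_congr_set this, setIntegral_univ]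
  rw [← h2, h1, h3]
  refine integral_congr_ae (Eventually.of_forall fun x => ?_)
  have hA := fderiv_norm_le h x
  simp only
  rw [abs_of_pos (det_LXc_pos hz hA), smul_eq_mul, det_eq_bJ hz, gradient_eq_cv]

/-- gradient of the boosted function -/
lemma gradient_boost {φ : E → ℝ} (h : LipschitzWith 1 φ) {z : E} (hz : ‖z‖ < 1) {x : E}
    (hx : DifferentiableAt ℝ φ x) :
    gradient (boost φ z) (bT φ z x)
      = (bJ z (gradient φ x))⁻¹ • LX z (gradient φ x) 1 := by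
  have hA := fderiv_norm_le h x
  have hp : ‖cv (fderiv ℝ φ x)‖ ≤ 1 := by rw [cv_norm]; exact hA
  have hJ := bJ_pos hz hp
  rw [gradient_eq_cv, (hasFDerivAt_boost h hz hA hx.hasFDerivAt).fderiv, gradient_eq_cv]
  apply ext_inner_right ℝ
  intro u
  rw [cv_inner, inner_smul_left, ← boost_fderiv_inner hz hA u]
  simp only [starRingEnd_apply, star_trivial]
  rw [← mul_assoc, inv_mul_cancel₀ hJ.ne', one_mul]

/-- the flux is boost invariant (test function transported) -/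
theorem flux_boost {φ : E → ℝ} (h : NullCone φ) {z : E} (hz : ‖z‖ < 1) {ζ : E → ℝ}
    (hζ : Test ζ) : flux (boost φ z) ζ = flux φ (ζ ∘ bT φ z) := by
  unfold flux
  rw [integral_bT h.lip hz]
  have hd : ∀ᵐ x ∂(volume : Measure E), bT φ z x ≠ 0 → DifferentiableAt ℝ ζ (bT φ z x) :=
    ae_bT_of_ae h.lip hz hζ.ae_differentiableAt
  have hne : ∀ᵐ x ∂(volume : Measure E), x ∈ gd φ := ae_gd h.lip
  -- the origin is negligible unless E is trivial; treat it through the gradient condition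
  refine integral_congr_ae ?_
  filter_upwards [hd, hne, h.grad] with x hx1 hx2 hx3
  have hA := fderiv_norm_le h.lip x
  have hp : ‖cv (fderiv ℝ φ x)‖ ≤ 1 := by rw [cv_norm]; exact hA
  have hJ : 0 < bJ z (gradient φ x) := bJ_pos hz hp
  have hx0 : x ≠ 0 := by
    rintro rfl
    -- at the origin a 1-homogeneous differentiable φ with |φ| ≤ c|x| has derivative of norm ≤ c < 1
    obtain ⟨c, hc0, hc1, hc⟩ := h.bd
    have : ‖fderiv ℝ φ 0‖ ≤ c := by
      have hdd : HasFDerivAt φ (fderiv ℝ φ 0) 0 := DifferentiableAt.hasFDerivAt hx2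
      refine ContinuousLinearMap.opNorm_le_bound _ hc0 fun v => ?_
      have hl : HasDerivAt (fun t : ℝ => φ (t • v)) (fderiv ℝ φ 0 v) 0 := by
        have h5 : HasDerivAt (fun t : ℝ => t • v) v 0 := by
          simpa using (hasDerivAt_id (0 : ℝ)).smul_const v
        have hdd' : HasFDerivAt φ (fderiv ℝ φ 0) ((0 : ℝ) • v) := by simpa using hdd
        exact hdd'.comp_hasDerivAt (0 : ℝ) h5
      have hr : HasDerivWithinAt (fun t : ℝ => φ (t • v)) (φ v) (Ici 0) 0 := by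
        have h6 : HasDerivWithinAt (fun t : ℝ => t * φ v) (φ v) (Ici 0) 0 := by
          simpa using ((hasDerivAt_id (0 : ℝ)).mul_const (φ v)).hasDerivWithinAt
        refine h6.congr (fun t ht => ?_) (by simp [h.zero])
        exact h.hom t ht v
      have huniq : UniqueDiffWithinAt ℝ (Ici (0 : ℝ)) 0 := uniqueDiffOn_Ici 0 0 self_mem_Ici
      have := huniq.eq_deriv _ hl.hasDerivWithinAt hr
      rw [this, Real.norm_eq_abs]
      exact hc v
    rw [hx3] at this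
    linarith
  have hT0 : bT φ z x ≠ 0 := by
    intro h0
    apply hx0
    apply bT_injective h.lip hz
    rw [h0]
    simp [bT, LX, h.zero]
  have hζd := hx1 hT0
  rw [gradient_boost h.lip hz hx2, boost_form h.lip hz]
  have hcomp : fderiv ℝ (ζ ∘ bT φ z) x = (fderiv ℝ ζ (bT φ z x)).comp (LXc z (fderiv ℝ φ x)) :=
    (hζd.hasFDerivAt.comp x (hasFDerivAt_bT z (DifferentiableAt.hasFDerivAt hx2))).fderiv
  rw [hcomp]
  simp only [ContinuousLinearMap.comp_apply, map_smul, smul_eq_mul]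
  have hself : fderiv ℝ φ x (gradient φ x) = 1 := by
    have : fderiv ℝ φ x (gradient φ x) = ⟪cv (fderiv ℝ φ x), gradient φ x⟫ := (cv_inner _ _).symm
    rw [this, gradient_eq_cv, real_inner_self_eq_norm_sq, cv_norm, hx3, one_pow]
  rw [LXc_apply, hself]
  field_simp

/-- transported test functions are test functions -/
lemma Test.comp_bT {φ : E → ℝ} (h : NullCone φ) {z : E} (hz : ‖z‖ < 1) {ζ : E → ℝ}
    (hζ : Test ζ) : Test (ζ ∘ bT φ z) where
  hom := by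
    intro t ht x
    simp only [Function.comp]
    rw [bT_smul h z ht.le, hζ.hom t ht]
  nonneg := fun x => hζ.nonneg _
  le_one := fun x => hζ.le_one _
  lip := by
    obtain ⟨K, hK0, hK⟩ := hζ.sub_le
    have hC := bC_pos hz
    refine ⟨Real.toNNReal (K * bC z * bC z), ?_⟩
    apply LipschitzOnWith.of_dist_le_mul
    intro a ha b hb
    rw [mem_sphere_zero_iff_norm] at ha hb
    rw [Real.coe_toNNReal _ (by positivity), Real.dist_eq, dist_eq_norm]
    have h0 : bT φ z 0 = 0 := by simp [bT, LX, h.zero]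
    have hlow : ∀ u : E, ‖u‖ = 1 → 1 ≤ bC z * ‖bT φ z u‖ := by
      intro u hu
      have := le_bT_sub h.lip hz u 0
      rwa [h0, sub_zero, sub_zero, hu] at this
    have hne : ∀ u : E, ‖u‖ = 1 → bT φ z u ≠ 0 := by
      intro u hu h1
      have := hlow u hu
      rw [h1, norm_zero, mul_zero] at this
      linarith
    have hpa : 0 < ‖bT φ z a‖ := norm_pos_iff.2 (hne a ha)
    calc |(ζ ∘ bT φ z) a - (ζ ∘ bT φ z) b|
        ≤ K / ‖bT φ z a‖ * ‖bT φ z a - bT φ z b‖ := hK _ _ (hne a ha) (hne b hb)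
      _ ≤ (K * bC z) * (bC z * ‖a - b‖) := by
          gcongr
          · rw [div_le_iff₀ hpa]
            calc K = K * 1 := (mul_one K).symm
              _ ≤ K * (bC z * ‖bT φ z a‖) := by gcongr; exact hlow a ha
              _ = K * bC z * ‖bT φ z a‖ := by ring
          · exact bT_sub_le h.lip hz a b
      _ = K * bC z * bC z * ‖a - b‖ := by ring

/-- normalisation constant `∫₀^∞ t^m e^{-t²} dt`, `m = dim E - 2`. -/
def cV (E : Type*) [NormedAddCommGroup E] [InnerProductSpace ℝ E] : ℝ :=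
  ∫ t in Ioi (0 : ℝ), t ^ (Module.finrank ℝ E - 2) * Real.exp (-t ^ 2)

/-- `V(φ) ≤ A`. -/
def VB (φ : E → ℝ) (A : ℝ) : Prop := ∀ ζ : E → ℝ, Test ζ → flux φ ζ ≤ A * cV E

/-- **Boost invariance of the bound `V ≤ A`.** -/
theorem VB.boost {φ : E → ℝ} (h : NullCone φ) {A : ℝ} (hV : VB φ A) {z : E} (hz : ‖z‖ < 1) :
    VB (boost φ z) A := by
  intro ζ hζ
  rw [flux_boost h hz hζ]
  exact hV _ (hζ.comp_bT h hz)

end Crest.Agent.R246.H990
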