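import Crest.Agent.R246.G0_873
import Crest.Agent.R246.Inv_990

/-!
# Block G: exact statements of the leaves (Props)

`StG2` closure of `ClassD` and `VAR` under limits; `StG3` link inequality in 990's `VB` form;
`StG4` flat link lemma; `StG1` blow-ups (873).
-/

set_option autoImplicit false
noncomputable section
open MeasureTheory Set Filter Topology
open scoped RealInnerProductSpace Gradient
open Crest.Agent.R246.H990

namespace Crest.Agent.R246.G873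

/-- G2: closure under pointwise (hence locally uniform) limits along any filter. -/
def StG2 (E : Type) [NormedAddCommGroup E] [InnerProductSpace ℝ E] [FiniteDimensional ℝ E]
    [MeasurableSpace E] [BorelSpace E] : Prop :=
  ∀ (l : Filter ℝ) [l.NeBot] (φ : ℝ → E → ℝ) (R : E → ℝ) (μ : ℝ → Measure E) (ν : Measure E)
    (U : ℝ → Set E), (∀ i, IsFiniteMeasureOnCompacts (μ i)) → IsFiniteMeasureOnCompacts ν →
    (∀ᶠ i in l, ClassD (φ i)) → (∀ x, Tendsto (fun i => φ i x) l (𝓝 (R x))) →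
    (∀ K, IsCompact K → ∀ᶠ i in l, K ⊆ U i) →
    (∀ᶠ i in l, VAR (φ i) (μ i) (U i)) →
    (∀ f : E → ℝ, Continuous f → HasCompactSupport f →
      Tendsto (fun i => ∫ x, f x ∂(μ i)) l (𝓝 (∫ x, f x ∂ν))) →
    ClassD R ∧ VAR R ν univ

/-- G3: the link of a `p`-invariant cone (`ρ = R ∘ j` on `p^⊥`). -/
def StG3 (E E' : Type) [NormedAddCommGroup E] [InnerProductSpace ℝ E] [FiniteDimensional ℝ E]
    [MeasurableSpace E] [BorelSpace E] [NormedAddCommGroup E'] [InnerProductSpace ℝ E']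
    [FiniteDimensional ℝ E'] [MeasurableSpace E'] [BorelSpace E'] : Prop :=
  ∀ (_ : Module.finrank ℝ E' + 1 = Module.finrank ℝ E) (_ : 3 ≤ Module.finrank ℝ E')
    (p : E) (j : E' →ₗᵢ[ℝ] E) (R : E → ℝ) (μ : Measure E) (A : ℝ),
    ‖p‖ = 1 → (∀ y, ⟪j y, p⟫ = 0) → IsFiniteMeasureOnCompacts μ →
    (∀ t : ℝ, 0 ≤ t → ∀ x, R (t • x) = t * R x) → ClassD R →
    (∀ x (t : ℝ), R (x + t • p) = R x) → VAR R μ univ → μ {x | R x ≠ 0} = 0 →
    0 ≤ A → ∫⁻ x, ENNReal.ofReal (Real.exp (-‖x‖ ^ 2)) ∂μ ≤ ENNReal.ofReal A →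
    (∀ y, ‖y‖ = 1 → |R (j y)| < 1) →
    NullCone (fun y => R (j y)) ∧ VB (fun y => R (j y)) (A / (Real.sqrt Real.pi * cV E'))

/-- G4: flat link lemma. -/
def StG4 (E : Type) [NormedAddCommGroup E] [InnerProductSpace ℝ E] [FiniteDimensional ℝ E]
    [MeasurableSpace E] [BorelSpace E] : Prop :=
  ∀ (_ : 2 ≤ Module.finrank ℝ E) (R : E → ℝ) (μ : Measure E) (a : E),
    IsFiniteMeasureOnCompacts μ → (∀ t : ℝ, 0 ≤ t → ∀ x, R (t • x) = t * R x) → ClassD R →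
    VAR R μ univ → μ {x | R x ≠ 0} = 0 → ‖a‖ = 1 → |R a| = 1 →
    (∀ ρ : ℝ, 0 < ρ → ∫ x, max (1 - ‖x‖ ^ 2 / ρ ^ 2) 0 * ⟪a, x⟫ ∂μ = 0) →
    ∫⁻ x, ENNReal.ofReal (Real.exp (-‖x‖ ^ 2)) ∂μ
      < ENNReal.ofReal (2 * Real.pi ^ (((Module.finrank ℝ E : ℝ) - 1) / 2)) →
    ∃ e : E, ‖e‖ = 1 ∧ ∀ x, R x = ⟪e, x⟫

/-- profiles used for the density ratios -/
def hk (k : ℕ) (s : ℝ) : ℝ := max (1 - s / k) 0 ^ k

/-- density ratio with profile `hk k` at centre `p`, scale `r`. -/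
def dens {E : Type} [NormedAddCommGroup E] [InnerProductSpace ℝ E] [FiniteDimensional ℝ E]
    [MeasurableSpace E] [BorelSpace E] (μ : Measure E) (k : ℕ) (p : E) (r : ℝ) : ℝ :=
  (r ^ (Module.finrank ℝ E - 1))⁻¹ * ∫ x, hk k (‖x - p‖ ^ 2 / r ^ 2) ∂μ

/-- final output of block G at one point. -/
def StG (E E' : Type) [NormedAddCommGroup E] [InnerProductSpace ℝ E] [FiniteDimensional ℝ E]
    [MeasurableSpace E] [BorelSpace E] [NormedAddCommGroup E'] [InnerProductSpace ℝ E']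
    [FiniteDimensional ℝ E'] [MeasurableSpace E'] [BorelSpace E'] : Prop :=
  ∀ (_ : Module.finrank ℝ E' + 1 = Module.finrank ℝ E) (_ : 3 ≤ Module.finrank ℝ E')
    (φ : E → ℝ) (G : GV E) (A : ℝ), 0 ≤ A → LimObj φ G A →
    A < 2 * Real.pi ^ (((Module.finrank ℝ E : ℝ) - 1) / 2) →
    (∀ ρ : E' → ℝ, NullCone ρ → ∀ B, VB ρ B → A < B * (Real.sqrt Real.pi * cV E')) →
    ∀ p : E, p ≠ 0 → φ p = 0 →
      (∀ δ : ℝ, 0 < δ → ∃ r₀ > 0, ∀ r : ℝ, 0 < r → r < r₀ → ∃ e : E, ‖e‖ = 1 ∧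
        ∀ x, ‖x - p‖ ≤ 2 * r → |φ x - ⟪e, x - p⟫| ≤ δ * r) ∧
      (∀ k : ℕ, 2 ≤ k → MonotoneOn (dens G.μ k p) (Ioi 0) ∧
        ∀ r : ℝ, 0 < r → dens G.μ k p r ≤ ∫ x, hk k (‖x‖ ^ 2) ∂G.μ)

end Crest.Agent.R246.G873
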