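import Mathlib.Analysis.InnerProductSpace.PiL2
import Mathlib.Analysis.InnerProductSpace.Calculus
import Mathlib.Analysis.Calculus.Rademacher
import Mathlib.Analysis.Calculus.Gradient.Basic
import Mathlib.Analysis.Calculus.LocalExtr.Basic
import Mathlib.MeasureTheory.Integral.Bochner.Set
import Mathlib.MeasureTheory.Measure.Haar.InnerProductSpace
import Mathlib.MeasureTheory.Function.SpecialFunctions.Inner
import Mathlib.Topology.MetricSpace.HausdorffDistance

/-!
# Row 246: the signed distance lemma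

`φ` is 1-Lipschitz, `‖∇φ‖ = 1` a.e. and (weakly) superharmonic on the open set `{φ > 0} ∩ U`.
Then `φ` is the distance to its zero set there.
-/

set_option autoImplicit false
set_option linter.unusedSectionVars false
noncomputable section
open MeasureTheory Set Filter Topology
open scoped RealInnerProductSpace NNReal

namespace Crest.Agent.R246.SD638

variable {E : Type*} [NormedAddCommGroup E] [InnerProductSpace ℝ E] [FiniteDimensional ℝ E]
  [MeasurableSpace E] [BorelSpace E]

/-- weak superharmonicity on an open set, tested with Lipschitz functions. -/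
def Super (U : Set E) (φ : E → ℝ) : Prop :=
  ∀ ζ : E → ℝ, (∃ K, LipschitzWith K ζ) → HasCompactSupport ζ → tsupport ζ ⊆ U →
    (∀ x, 0 ≤ ζ x) → 0 ≤ ∫ x, ⟪gradient φ x, gradient ζ x⟫

/-- the cone comparison function. -/
def cmp (x₀ : E) (A lam K ρ : ℝ) (y : E) : ℝ :=
  A - lam * ‖y - x₀‖ - K * max 0 (‖y - x₀‖ - ρ)

lemma norm_gradient (f : E → ℝ) (x : E) : ‖gradient f x‖ = ‖fderiv ℝ f x‖ := by
  unfold gradient
  exact LinearIsometryEquiv.norm_map _ _

lemma inner_gradient (f : E → ℝ) (x v : E) : ⟪gradient f x, v⟫ = fderiv ℝ f x v := by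
  unfold gradient
  exact InnerProductSpace.toDual_symm_apply

lemma norm_gradient_le {f : E → ℝ} {K : ℝ≥0} (hf : LipschitzWith K f) (x : E) :
    ‖gradient f x‖ ≤ K := by
  rw [norm_gradient]; exact norm_fderiv_le_of_lipschitz ℝ hf

lemma measurable_gradient (f : E → ℝ) : Measurable (fun x => gradient f x) := by
  unfold gradient
  exact (InnerProductSpace.toDual ℝ E).symm.continuous.measurable.comp (measurable_fderiv ℝ f)

lemma gradient_eq_zero_of_min {f : E → ℝ} {x : E} (h0 : f x = 0) (hf : ∀ y, 0 ≤ f y) :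
    gradient f x = 0 := by
  have h : IsLocalMin f x := Eventually.of_forall fun y => by rw [h0]; exact hf y
  unfold gradient
  rw [h.fderiv_eq_zero]; simp

/-- one ball: the minimum of `φ` over a sphere is as small as possible. -/
theorem exists_sphere_le {φ : E → ℝ} {U : Set E} (hlip : LipschitzWith 1 φ)
    (hgrad : ∀ᵐ x, x ∈ U → ‖fderiv ℝ φ x‖ = 1) (hs : Super U φ) {x₀ : E} {ρ : ℝ} (hρ : 0 < ρ)
    (hball : Metric.closedBall x₀ ρ ⊆ U) (hne : (Metric.sphere x₀ ρ).Nonempty) :
    ∃ y ∈ Metric.sphere x₀ ρ, φ y ≤ φ x₀ - ρ := by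
  by_contra hcon
  push Not at hcon
  -- minimum over the sphere
  obtain ⟨y₀, hy₀, hmin⟩ := (isCompact_sphere x₀ ρ).exists_isMinOn hne hlip.continuous.continuousOn
  set a := φ x₀ with ha
  set η := (φ y₀ - (a - ρ)) / 4 with hη
  have hηpos : 0 < η := by have := hcon y₀ hy₀; rw [hη]; linarith
  have hsph : ∀ y ∈ Metric.sphere x₀ ρ, a - ρ + 4 * η ≤ φ y := by
    intro y hy
    have h1 : φ y₀ ≤ φ y := hmin hy
    have h2 : a - ρ + 4 * η = φ y₀ := by rw [hη]; ring
    linarith
  have hηρ : 4 * η ≤ 2 * ρ := by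
    have h1 : |φ y₀ - φ x₀| ≤ ρ := by
      have := hlip.dist_le_mul y₀ x₀
      rw [Real.dist_eq] at this
      have h2 : dist y₀ x₀ = ρ := hy₀
      rw [h2] at this; simpa using this
    have h2 : φ y₀ = a - ρ + 4 * η := by rw [hη]; ring
    rw [abs_le] at h1
    linarith [h1.2]
  have hηρ' : η < ρ := by linarith
  set lam := 1 - η / ρ with hlam
  have hlam0 : 0 < lam := by
    rw [hlam]; have : η / ρ < 1 := (div_lt_one hρ).2 hηρ'; linarith
  have hlam1 : lam < 1 := by rw [hlam]; have : 0 < η / ρ := by positivity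
                             linarith
  have hlamρ : lam * ρ = ρ - η := by rw [hlam]; field_simp
  set c := cmp x₀ (a + η) lam 1 ρ with hc
  -- Lipschitz
  have hnorm : LipschitzWith 1 (fun y : E => ‖y - x₀‖) := by
    refine LipschitzWith.of_dist_le_mul fun x y => ?_
    rw [Real.dist_eq, dist_eq_norm]
    have := abs_norm_sub_norm_le (x - x₀) (y - x₀)
    simpa using this
  have hmax : LipschitzWith 1 (fun y : E => max 0 (‖y - x₀‖ - ρ)) := by
    refine LipschitzWith.of_dist_le_mul fun x y => ?_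
    rw [Real.dist_eq]
    have h1 := hnorm.dist_le_mul x y
    rw [Real.dist_eq] at h1
    have h2 : |max 0 (‖x - x₀‖ - ρ) - max 0 (‖y - x₀‖ - ρ)| ≤ |‖x - x₀‖ - ‖y - x₀‖| := by
      have := abs_max_sub_max_le_abs (‖x - x₀‖ - ρ) (‖y - x₀‖ - ρ) 0
      rw [max_comm 0, max_comm 0]
      refine this.trans (le_of_eq ?_); congr 1; ring
    linarith
  have hcl : LipschitzWith (2 : ℝ≥0) c := by
    refine LipschitzWith.of_dist_le_mul fun x y => ?_
    have h1 := hnorm.dist_le_mul x y
    have h2 := hmax.dist_le_mul x y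
    rw [Real.dist_eq] at h1 h2 ⊢
    simp only [NNReal.coe_one, one_mul] at h1 h2
    simp only [NNReal.coe_ofNat]
    have e : c x - c y = -(lam * (‖x - x₀‖ - ‖y - x₀‖)) -
        (max 0 (‖x - x₀‖ - ρ) - max 0 (‖y - x₀‖ - ρ)) := by
      simp only [hc, cmp]; ring
    rw [e]
    calc |-(lam * (‖x - x₀‖ - ‖y - x₀‖)) - (max 0 (‖x - x₀‖ - ρ) - max 0 (‖y - x₀‖ - ρ))|
        ≤ |-(lam * (‖x - x₀‖ - ‖y - x₀‖))| + |(max 0 (‖x - x₀‖ - ρ) - max 0 (‖y - x₀‖ - ρ))| :=
          abs_sub _ _
      _ = lam * |‖x - x₀‖ - ‖y - x₀‖| + |(max 0 (‖x - x₀‖ - ρ) - max 0 (‖y - x₀‖ - ρ))| := by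
          rw [abs_neg, abs_mul, abs_of_pos hlam0]
      _ ≤ 2 * dist x y := by nlinarith [abs_nonneg (‖x - x₀‖ - ‖y - x₀‖), dist_nonneg (x := x) (y := y)]
  -- the test function
  set ζ : E → ℝ := fun y => max 0 (c y - φ y) with hζ
  have hζ0 : ∀ y, 0 ≤ ζ y := fun y => le_max_left _ _
  have hdl : LipschitzWith (3 : ℝ≥0) (fun y => c y - φ y) := by
    have := hcl.sub hlip
    have e : (2 : ℝ≥0) + 1 = 3 := by norm_num
    rwa [e] at this
  have hζl : LipschitzWith (3 : ℝ≥0) ζ := by
    refine LipschitzWith.of_dist_le_mul fun x y => ?_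
    have h1 := hdl.dist_le_mul x y
    rw [Real.dist_eq] at h1 ⊢
    have h2 : |ζ x - ζ y| ≤ |(c x - φ x) - (c y - φ y)| := by
      have := abs_max_sub_max_le_abs (c x - φ x) (c y - φ y) 0
      simp only [hζ]
      rw [max_comm 0, max_comm 0]; exact this
    linarith
  -- outside the open ball c < φ
  have hout : ∀ y, ρ ≤ ‖y - x₀‖ → c y - φ y ≤ -η := by
    intro y hy
    have hpos : 0 < ‖y - x₀‖ := by linarith
    -- projection to the sphere
    set w := x₀ + (ρ / ‖y - x₀‖) • (y - x₀) with hw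
    have hws : w ∈ Metric.sphere x₀ ρ := by
      rw [mem_sphere_iff_norm, hw]
      simp only [add_sub_cancel_left, norm_smul, Real.norm_eq_abs, abs_div, abs_norm]
      rw [abs_of_pos hρ]; field_simp
    have hwy : dist y w = ‖y - x₀‖ - ρ := by
      rw [dist_eq_norm, hw]
      have e : y - (x₀ + (ρ / ‖y - x₀‖) • (y - x₀)) = (1 - ρ / ‖y - x₀‖) • (y - x₀) := by
        rw [sub_smul, one_smul]; abel
      rw [e, norm_smul, Real.norm_eq_abs, abs_of_nonneg]
      · field_simp
      · rw [sub_nonneg, div_le_one hpos]; exact hy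
    have h1 := hlip.dist_le_mul y w
    rw [hwy, Real.dist_eq] at h1
    simp only [NNReal.coe_one, one_mul] at h1
    have h2 := hsph w hws
    have h3 := (abs_le.1 h1).1
    have h4 : c y = a + η - lam * ‖y - x₀‖ - 1 * (‖y - x₀‖ - ρ) := by
      simp only [hc, cmp]; rw [max_eq_right (by linarith)]
    rw [h4]
    have h5 : lam * ρ ≤ lam * ‖y - x₀‖ := by nlinarith
    rw [hlamρ] at h5
    linarith
  have hD : ∀ y, 0 < c y - φ y → ‖y - x₀‖ < ρ := by
    intro y hy
    by_contra h
    push Not at h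
    have := hout y h
    linarith
  have hts : tsupport ζ ⊆ Metric.closedBall x₀ ρ := by
    refine closure_minimal ?_ Metric.isClosed_closedBall
    intro y hy
    rw [Function.mem_support] at hy
    rw [mem_closedBall_iff_norm]
    refine (hD y ?_).le
    by_contra h
    push Not at h
    exact hy (max_eq_left h)
  have hcomp : HasCompactSupport ζ :=
    IsCompact.of_isClosed_subset (isCompact_closedBall x₀ ρ) (isClosed_tsupport _) hts
  have key := hs ζ ⟨3, hζl⟩ hcomp (hts.trans hball) hζ0
  -- the integrand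
  set D : Set E := {y | 0 < c y - φ y} with hDdef
  have hDo : IsOpen D := isOpen_lt continuous_const hdl.continuous
  have hx₀D : x₀ ∈ D := by
    have : c x₀ = a + η := by
      simp only [hc, cmp, sub_self, norm_zero, mul_zero, sub_zero, zero_sub]
      rw [max_eq_left (by linarith)]; ring
    simp only [hDdef, mem_ofPred_eq, this]; linarith
  have hDpos : 0 < volume D := hDo.measure_pos volume ⟨x₀, hx₀D⟩
  have hDsub : D ⊆ Metric.closedBall x₀ ρ := fun y hy => by
    rw [mem_closedBall_iff_norm]; exact (hD y hy).le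
  have hDfin : volume D < ⊤ := (measure_mono hDsub).trans_lt (isCompact_closedBall x₀ ρ).measure_lt_top
  have hae : ∀ᵐ y, ⟪gradient φ y, gradient ζ y⟫ ≤ D.indicator (fun _ => lam - 1) y := by
    filter_upwards [hgrad, hlip.ae_differentiableAt (μ := volume),
      hcl.ae_differentiableAt (μ := volume)] with y h1 h2 h3
    by_cases hy : y ∈ D
    · rw [indicator_of_mem hy]
      have hyU : y ∈ U := hball (hDsub hy)
      have hφ1 := h1 hyU
      have hev : ζ =ᶠ[𝓝 y] fun z => c z - φ z := by
        filter_upwards [hDo.mem_nhds hy] with z hz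
        exact max_eq_right (le_of_lt hz)
      have hfd : fderiv ℝ ζ y = fderiv ℝ c y - fderiv ℝ φ y := by
        rw [hev.fderiv_eq]; exact fderiv_sub h3 h2
      have hgc : ‖fderiv ℝ c y‖ ≤ lam := by
        -- near y, c z = a + η - lam ‖z - x₀‖
        have hyb : ‖y - x₀‖ < ρ := hD y hy
        refine norm_fderiv_le_of_lip' ℝ hlam0.le ?_
        have hob : IsOpen {z : E | ‖z - x₀‖ < ρ} := isOpen_lt hnorm.continuous continuous_const
        filter_upwards [hob.mem_nhds hyb] with z hz
        have ez : ∀ z : E, ‖z - x₀‖ < ρ → c z = a + η - lam * ‖z - x₀‖ := by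
          intro z hz
          simp only [hc, cmp]; rw [max_eq_left (by linarith)]; ring
        rw [ez z hz, ez y hyb]
        have e : (a + η - lam * ‖z - x₀‖) - (a + η - lam * ‖y - x₀‖)
            = -(lam * (‖z - x₀‖ - ‖y - x₀‖)) := by ring
        rw [e, Real.norm_eq_abs, abs_neg, abs_mul, abs_of_pos hlam0]
        refine mul_le_mul_of_nonneg_left ?_ hlam0.le
        have := abs_norm_sub_norm_le (z - x₀) (y - x₀)
        simpa using this
      rw [real_inner_comm, inner_gradient, hfd, _root_.sub_apply, ← inner_gradient φ,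
        real_inner_self_eq_norm_sq, norm_gradient, hφ1]
      have h5 : fderiv ℝ c y (gradient φ y) ≤ lam * 1 := by
        refine (le_abs_self _).trans ?_
        rw [← Real.norm_eq_abs]
        refine (ContinuousLinearMap.le_opNorm _ _).trans ?_
        rw [norm_gradient, hφ1]
        exact mul_le_mul_of_nonneg_right hgc zero_le_one
      linarith
    · rw [indicator_of_notMem hy]
      have h0 : ζ y = 0 := by
        simp only [hDdef, mem_ofPred_eq, not_lt] at hy
        exact max_eq_left hy
      rw [gradient_eq_zero_of_min h0 hζ0, inner_zero_right]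
  have hint : Integrable (D.indicator (fun _ : E => lam - 1)) volume :=
    (integrable_indicator_iff hDo.measurableSet).2 (integrableOn_const hDfin.ne)
  have hint2 : Integrable (fun y => ⟪gradient φ y, gradient ζ y⟫) volume := by
    have hm : AEStronglyMeasurable (fun y => ⟪gradient φ y, gradient ζ y⟫) volume :=
      ((measurable_gradient φ).inner (measurable_gradient ζ)).aestronglyMeasurable
    have hz : ∀ y, y ∉ Metric.closedBall x₀ ρ → ⟪gradient φ y, gradient ζ y⟫ = 0 := by
      intro y hy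
      have : ζ y = 0 := by
        by_contra h
        exact hy (hts (subset_tsupport _ h))
      rw [gradient_eq_zero_of_min this hζ0, inner_zero_right]
    refine IntegrableOn.integrable_of_forall_notMem_eq_zero (s := Metric.closedBall x₀ ρ) ?_ hz
    refine Measure.integrableOn_of_bounded (M := 3)
      (isCompact_closedBall x₀ ρ).measure_lt_top.ne hm ?_
    refine ae_of_all _ fun y => ?_
    refine (norm_inner_le_norm _ _).trans ?_
    have h1 := norm_gradient_le hlip y
    have h2 := norm_gradient_le hζl y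
    simp only [NNReal.coe_one, NNReal.coe_ofNat] at h1 h2
    nlinarith [norm_nonneg (gradient φ y), norm_nonneg (gradient ζ y)]
  have hle := integral_mono_ae hint2 hint hae
  rw [integral_indicator hDo.measurableSet, setIntegral_const, smul_eq_mul] at hle
  have hreal : 0 < volume.real D := by
    rw [measureReal_def]; exact ENNReal.toReal_pos hDpos.ne' hDfin.ne
  nlinarith

/-- in positive dimension every sphere is nonempty. -/
lemma sphere_nonempty [Nontrivial E] (x : E) {ρ : ℝ} (hρ : 0 ≤ ρ) :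
    (Metric.sphere x ρ).Nonempty := NormedSpace.sphere_nonempty.2 hρ

/-- **Signed distance lemma** (positive side): a point of `{φ > 0}` has a zero of `φ` at distance
exactly `φ x`. -/
theorem exists_zero [Nontrivial E] {φ : E → ℝ} {U : Set E} (hU : IsOpen U)
    (hlip : LipschitzWith 1 φ)
    (hgrad : ∀ᵐ x, x ∈ U → 0 < φ x → ‖fderiv ℝ φ x‖ = 1)
    (hs : Super (U ∩ {x | 0 < φ x}) φ) {x₀ : E} (h0 : 0 < φ x₀)
    (hball : Metric.closedBall x₀ (φ x₀) ⊆ U) :
    ∃ y, φ y = 0 ∧ dist x₀ y = φ x₀ := by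
  have hlow : ∀ y, φ x₀ - dist x₀ y ≤ φ y := by
    intro y
    have := hlip.dist_le_mul x₀ y
    rw [Real.dist_eq] at this
    simp only [NNReal.coe_one, one_mul] at this
    linarith [(abs_le.1 this).2]
  have hex : ∃ y ∈ Metric.closedBall x₀ (φ x₀), φ y ≤ 0 := by
    by_contra hcon
    push Not at hcon
    have hW : IsOpen (U ∩ {x | 0 < φ x}) :=
      hU.inter (isOpen_lt continuous_const hlip.continuous)
    obtain ⟨y, hy, hle⟩ := exists_sphere_le hlip
      (by filter_upwards [hgrad] with x hx hxW using hx hxW.1 hxW.2) hs h0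
      (fun y hy => ⟨hball hy, hcon y hy⟩) (sphere_nonempty x₀ h0.le)
    have := hcon y (Metric.sphere_subset_closedBall hy)
    linarith
  obtain ⟨y, hy, hle⟩ := hex
  have h1 := hlow y
  have h2 : dist x₀ y ≤ φ x₀ := by rw [dist_comm]; exact hy
  have h3 : φ y = 0 := by linarith
  exact ⟨y, h3, by rw [h3] at h1; linarith⟩

/-- on the positive side `φ` is the distance to the zero set. -/
theorem eq_infDist_of_pos [Nontrivial E] {φ : E → ℝ} {U : Set E} (hU : IsOpen U)
    (hlip : LipschitzWith 1 φ)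
    (hgrad : ∀ᵐ x, x ∈ U → 0 < φ x → ‖fderiv ℝ φ x‖ = 1)
    (hs : Super (U ∩ {x | 0 < φ x}) φ) {x₀ : E} (h0 : 0 < φ x₀)
    (hball : Metric.closedBall x₀ (φ x₀) ⊆ U) :
    φ x₀ = Metric.infDist x₀ {y | φ y = 0} := by
  obtain ⟨y, hy, hd⟩ := exists_zero hU hlip hgrad hs h0 hball
  refine le_antisymm ?_ ?_
  · refine (Metric.le_infDist ⟨y, hy⟩).2 fun z hz => ?_
    have := hlip.dist_le_mul x₀ z
    rw [Real.dist_eq] at this
    simp only [NNReal.coe_one, one_mul] at this
    have hz' : φ z = 0 := hz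
    rw [hz', sub_zero] at this
    exact (le_abs_self _).trans this
  · rw [← hd]; exact Metric.infDist_le_dist_of_mem hy

lemma gradient_neg' (f : E → ℝ) (x : E) : gradient (fun y => - f y) x = - gradient f x := by
  unfold gradient
  rw [fderiv_fun_neg, map_neg]

/-- the class `D(U)`: 1-Lipschitz, unit gradient a.e. on `U`, superharmonic on the positive part,
subharmonic on the negative part. -/
structure ClassD (U : Set E) (φ : E → ℝ) : Prop where
  lip : LipschitzWith 1 φ
  grad : ∀ᵐ x, x ∈ U → ‖fderiv ℝ φ x‖ = 1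
  pos : Super (U ∩ {x | 0 < φ x}) φ
  neg : Super (U ∩ {x | φ x < 0}) (fun x => - φ x)

theorem ClassD.neg_fun {U : Set E} {φ : E → ℝ} (h : ClassD U φ) : ClassD U (fun x => - φ x) where
  lip := by
    refine LipschitzWith.of_dist_le_mul fun x y => ?_
    have := h.lip.dist_le_mul x y
    rwa [Real.dist_eq, neg_sub_neg, abs_sub_comm, ← Real.dist_eq]
  grad := by
    filter_upwards [h.grad] with x hx hxU
    rw [fderiv_fun_neg, norm_neg]; exact hx hxU
  pos := by
    have e : U ∩ {x | 0 < -φ x} = U ∩ {x | φ x < 0} := by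
      ext x; simp
    rw [e]; exact h.neg
  neg := by
    have e : U ∩ {x | -φ x < 0} = U ∩ {x | 0 < φ x} := by
      ext x; simp
    rw [e]; simpa using h.pos

/-- **Signed distance lemma**, local form: if the closed ball of radius `|φ x₀|` is contained in
`U`, then `|φ x₀|` is the distance to the zero set, attained. -/
theorem ClassD.abs_eq_infDist [Nontrivial E] {U : Set E} {φ : E → ℝ} (h : ClassD U φ)
    (hU : IsOpen U) {x₀ : E} (hball : Metric.closedBall x₀ |φ x₀| ⊆ U) :
    |φ x₀| = Metric.infDist x₀ {y | φ y = 0} ∧ ∃ y, φ y = 0 ∧ dist x₀ y = |φ x₀| := by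
  rcases lt_trichotomy (φ x₀) 0 with h0 | h0 | h0
  · have h' := h.neg_fun
    rw [abs_of_neg h0] at hball ⊢
    have hz : {y | -φ y = 0} = {y | φ y = 0} := by ext y; simp
    have hg : ∀ᵐ x, x ∈ U → 0 < -φ x → ‖fderiv ℝ (fun x => -φ x) x‖ = 1 := by
      filter_upwards [h'.grad] with x hx hxU _ using hx hxU
    have h1 := eq_infDist_of_pos hU h'.lip hg h'.pos (x₀ := x₀) (by linarith) hball
    obtain ⟨y, hy, hd⟩ := exists_zero hU h'.lip hg h'.pos (x₀ := x₀) (by linarith) hball
    refine ⟨by rw [hz] at h1; exact h1, y, by linarith, hd⟩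
  · rw [h0, abs_zero]
    refine ⟨?_, x₀, h0, by simp⟩
    exact (Metric.infDist_zero_of_mem (show x₀ ∈ {y | φ y = 0} from h0)).symm
  · rw [abs_of_pos h0] at hball ⊢
    have hg : ∀ᵐ x, x ∈ U → 0 < φ x → ‖fderiv ℝ φ x‖ = 1 := by
      filter_upwards [h.grad] with x hx hxU _ using hx hxU
    exact ⟨eq_infDist_of_pos hU h.lip hg h.pos h0 hball,
      exists_zero hU h.lip hg h.pos h0 hball⟩

/-- global form. -/
theorem ClassD.abs_eq_infDist_univ [Nontrivial E] {φ : E → ℝ} (h : ClassD univ φ) (x : E) :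
    |φ x| = Metric.infDist x {y | φ y = 0} :=
  (h.abs_eq_infDist isOpen_univ (subset_univ _)).1

/-- if the zero set of a (global) class `D` function is invariant under dilations, the function is
positively 1-homogeneous. -/
theorem ClassD.homogeneous [Nontrivial E] {φ : E → ℝ} (h : ClassD univ φ)
    (hz : ∀ t : ℝ, 0 < t → ∀ x, φ x = 0 → φ (t • x) = 0) {t : ℝ} (ht : 0 < t) (x : E) :
    φ (t • x) = t * φ x := by
  have hiff : ∀ t : ℝ, 0 < t → ∀ x, φ (t • x) = 0 ↔ φ x = 0 := by
    intro t ht x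
    refine ⟨fun hx => ?_, hz t ht x⟩
    have := hz t⁻¹ (inv_pos.2 ht) _ hx
    rwa [smul_smul, inv_mul_cancel₀ ht.ne', one_smul] at this
  -- absolute values
  have habs : ∀ t : ℝ, 0 < t → ∀ x, |φ (t • x)| = t * |φ x| := by
    have key : ∀ t : ℝ, 0 < t → ∀ x, |φ (t • x)| ≤ t * |φ x| := by
      intro t ht x
      obtain ⟨y, hy, hd⟩ := (h.abs_eq_infDist isOpen_univ (subset_univ _) (x₀ := x)).2
      rw [h.abs_eq_infDist_univ (t • x), ← hd]
      have h1 : φ (t • y) = 0 := hz t ht y hy
      refine (Metric.infDist_le_dist_of_mem (show t • y ∈ {y | φ y = 0} from h1)).trans ?_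
      rw [dist_smul₀, Real.norm_of_nonneg ht.le]
    intro t ht x
    refine le_antisymm (key t ht x) ?_
    have h2 := key t⁻¹ (inv_pos.2 ht) (t • x)
    rw [smul_smul, inv_mul_cancel₀ ht.ne', one_smul] at h2
    calc t * |φ x| ≤ t * (t⁻¹ * |φ (t • x)|) := mul_le_mul_of_nonneg_left h2 ht.le
      _ = |φ (t • x)| := by rw [← mul_assoc, mul_inv_cancel₀ ht.ne', one_mul]
  -- the sign is constant along rays
  by_cases hx : φ x = 0
  · rw [hx, mul_zero]; exact hz t ht x hx
  have hsign : ∀ s : ℝ, 0 < s → 0 < φ (s • x) * φ x := by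
    by_contra hcon
    push Not at hcon
    obtain ⟨s, hs, hle⟩ := hcon
    have hc : Continuous fun s : ℝ => φ (s • x) * φ x :=
      (h.lip.continuous.comp (continuous_id.smul continuous_const)).mul continuous_const
    have h1 : (0 : ℝ) < φ ((1 : ℝ) • x) * φ x := by
      rw [one_smul]; exact mul_self_pos.2 hx
    have hmem : (0 : ℝ) ∈ (fun s : ℝ => φ (s • x) * φ x) '' (uIcc s 1) := by
      refine intermediate_value_uIcc hc.continuousOn ?_
      rw [mem_uIcc]; left; exact ⟨hle, h1.le⟩
    obtain ⟨r, hr, hr0⟩ := hmem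
    have hrpos : 0 < r := lt_of_lt_of_le (lt_min hs one_pos) (by
      have := hr.1; exact this)
    have hr1 : φ (r • x) = 0 := by
      rcases mul_eq_zero.1 hr0 with h2 | h2
      · exact h2
      · exact absurd h2 hx
    exact hx ((hiff r hrpos x).1 hr1)
  have h1 := hsign t ht
  have h2 := habs t ht x
  rcases lt_or_gt_of_ne hx with h3 | h3
  · have h4 : φ (t • x) < 0 := by nlinarith
    rw [abs_of_neg h4, abs_of_neg h3] at h2
    linarith
  · have h4 : 0 < φ (t • x) := by nlinarith
    rwa [abs_of_pos h4, abs_of_pos h3] at h2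

end Crest.Agent.R246.SD638
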