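import Crest.Agent.R246.G4_386
import Crest.Agent.R246.G4g_386
import Crest.Agent.R246.SD_638
import Crest.Agent.R246.GSt_873

/-!
# Block G, leaf G4: the flat link lemma, in the form `StG4` of helper873
-/

set_option autoImplicit false
set_option linter.unusedSectionVars false
set_option linter.unusedSimpArgs false
noncomputable section
open MeasureTheory Set Filter Topology Metric
open scoped RealInnerProductSpace ContDiff NNReal Gradient

namespace Crest.Agent.R246.G4b386

open Crest.Agent.R246.MV386 Crest.Agent.R246.G4x386 Crest.Agent.R246.G4g386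
open Crest.Agent.R246.G873

variable {E : Type*} [NormedAddCommGroup E] [InnerProductSpace ℝ E] [FiniteDimensional ℝ E]
  [MeasurableSpace E] [BorelSpace E]

/-! ### bridges between the classes -/

lemma lip_of_smooth {ζ : E → ℝ} (h : ContDiff ℝ ∞ ζ) (hc : HasCompactSupport ζ) : Lip ζ :=
  ContDiff.lipschitzWith_of_hasCompactSupport hc h (by simp)

lemma gi_eq (φ ζ : E → ℝ) (x : E) : gi φ ζ x = fderiv ℝ ζ x (gradient φ x) := by
  unfold gi
  rw [real_inner_comm, inner_gradient]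

theorem supW_of_classD {R : E → ℝ} (h : ClassD R) : SupW R {x | 0 < R x} := by
  intro ζ h1 h2 h3 h4
  have h5 := h.sup ζ (lip_of_smooth h1 h2) h2 h4 h3
  simp_rw [gi_eq] at h5
  exact h5

lemma gradient_neg_fun (f : E → ℝ) (x : E) : gradient (fun y => - f y) x = - gradient f x := by
  unfold gradient
  rw [fderiv_fun_neg, map_neg]

theorem classD_neg {R : E → ℝ} (h : ClassD R) : ClassD (fun x => - R x) where
  lip := by
    refine LipschitzWith.of_dist_le_mul fun x y => ?_
    have := h.lip.dist_le_mul x y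
    rwa [Real.dist_eq, neg_sub_neg, abs_sub_comm, ← Real.dist_eq]
  grad := by
    filter_upwards [h.grad] with x hx
    rw [fderiv_fun_neg, norm_neg]; exact hx
  sup := by
    intro ζ h1 h2 h3 h4
    have h5 : tsupport ζ ⊆ {x | R x < 0} := by
      intro x hx
      have := h4 hx
      simpa using this
    have h6 := h.sub ζ h1 h2 h3 h5
    have e : ∀ x, gi (fun x => - R x) ζ x = - gi R ζ x := by
      intro x; unfold gi; rw [gradient_neg_fun, inner_neg_left]
    simp_rw [e]
    rw [integral_neg]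
    linarith
  sub := by
    intro ζ h1 h2 h3 h4
    have h5 : tsupport ζ ⊆ {x | 0 < R x} := by
      intro x hx
      have := h4 hx
      simpa using this
    have h6 := h.sup ζ h1 h2 h3 h5
    have e : ∀ x, gi (fun x => - R x) ζ x = - gi R ζ x := by
      intro x; unfold gi; rw [gradient_neg_fun, inner_neg_left]
    simp_rw [e]
    rw [integral_neg]
    linarith

theorem VAR_neg {R : E → ℝ} {μ : Measure E} {U : Set E} (h : VAR R μ U) :
    VAR (fun x => - R x) μ U := by
  intro ζ η h1 h2 h3 h4 h5 h6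
  have h7 := h (fun x => - ζ x) η (by
    obtain ⟨C, hC⟩ := h1
    refine ⟨C, LipschitzWith.of_dist_le_mul fun x y => ?_⟩
    have := hC.dist_le_mul x y
    rwa [Real.dist_eq, neg_sub_neg, abs_sub_comm, ← Real.dist_eq]) h2 (h3.comp_left neg_zero) h4
    (by simpa using h5) h6
  have e1 : ∀ x, gi (fun x => - R x) ζ x = gi R (fun x => - ζ x) x := by
    intro x; unfold gi; rw [gradient_neg_fun, gradient_neg_fun, inner_neg_left, inner_neg_right]
  have e2 : (fun x => |(- R x)|) = fun x => |R x| := by funext x; rw [abs_neg]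
  simp_rw [e1, e2]
  exact h7

theorem toSD {R : E → ℝ} (h : ClassD R) : SD638.ClassD univ R where
  lip := h.lip
  grad := by filter_upwards [h.grad] with x hx _ using hx
  pos := by
    intro ζ h1 h2 h3 h4
    rw [univ_inter] at h3
    exact h.sup ζ h1 h2 h4 h3
  neg := by
    intro ζ h1 h2 h3 h4
    rw [univ_inter] at h3
    exact (classD_neg h).sup ζ h1 h2 h4 (by
      intro x hx
      have := h3 hx
      simpa using this)

/-! ### no zeros in the opposite half space -/

theorem supW_abs_of_VAR {R : E → ℝ} {μ : Measure E} (hvar : VAR R μ univ) {D : Set E}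
    (hD : MeasurableSet D) (hμ : μ D = 0) : SupW (fun x => |R x|) D := by
  intro ζ h1 h2 h3 h4
  have h5 := hvar (fun _ => 0) ζ ⟨0, LipschitzWith.const 0⟩ (lip_of_smooth h1 h2)
    HasCompactSupport.zero h2 (by simpa using h4) (subset_univ _)
  have e1 : ∀ x, gi R (fun _ => 0) x = 0 := by
    intro x; unfold gi gradient; simp
  have e2 : ∫ x, ζ x ∂μ = 0 := by
    rw [integral_eq_zero_of_ae]
    have h6 : ∀ᵐ x ∂μ, x ∉ D := by
      rw [ae_iff]; simpa using hμ
    filter_upwards [h6] with x hx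
    by_contra hne
    exact hx (h3 (subset_tsupport _ hne))
  simp_rw [e1] at h5
  rw [integral_zero, e2, mul_zero] at h5
  simp_rw [gi_eq] at h5
  linarith

lemma measurableSet_low (a : E) : MeasurableSet {x : E | ⟪a, x⟫ < 0} :=
  (isOpen_lt (by fun_prop) continuous_const).measurableSet

/-- the measure does not charge the lower half space. -/
theorem low_null {R : E → ℝ} {μ : Measure E} (hfin : IsFiniteMeasureOnCompacts μ)
    (hconc : μ {x | R x ≠ 0} = 0) {a : E} (hpos : ∀ x, 0 < ⟪a, x⟫ → R x = ⟪a, x⟫)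
    (hst : ∀ ρ : ℝ, 0 < ρ → ∫ x, max (1 - ‖x‖ ^ 2 / ρ ^ 2) 0 * ⟪a, x⟫ ∂μ = 0) :
    μ {x : E | ⟪a, x⟫ < 0} = 0 := by
  have h1 : ∀ᵐ x ∂μ, ⟪a, x⟫ ≤ 0 := by
    have h2 : ∀ᵐ x ∂μ, ¬ (R x ≠ 0) := by rw [ae_iff]; simpa using hconc
    filter_upwards [h2] with x hx
    by_contra hcon
    push Not at hcon hx
    rw [hpos x hcon] at hx
    exact hcon.ne' hx
  have key : ∀ k : ℕ, ∀ᵐ x ∂μ, ‖x‖ < (k : ℝ) + 1 → ¬ (⟪a, x⟫ < 0) := by
    intro k
    have hk : (0 : ℝ) < (k : ℝ) + 1 := by positivity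
    have h3 := hst ((k : ℝ) + 1) hk
    have hc : Continuous (fun x : E => max (1 - ‖x‖ ^ 2 / ((k : ℝ) + 1) ^ 2) 0 * ⟪a, x⟫) := by
      fun_prop
    have hcs : HasCompactSupport
        (fun x : E => max (1 - ‖x‖ ^ 2 / ((k : ℝ) + 1) ^ 2) 0 * ⟪a, x⟫) := by
      apply HasCompactSupport.of_support_subset_isCompact (isCompact_closedBall (0 : E) ((k : ℝ) + 1))
      intro x hx
      rw [mem_closedBall_zero_iff]
      by_contra hcon
      push Not at hcon
      apply hx
      have : 1 ≤ ‖x‖ ^ 2 / ((k : ℝ) + 1) ^ 2 := by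
        rw [le_div_iff₀ (by positivity)]
        nlinarith
      simp only []
      rw [max_eq_right (by linarith), zero_mul]
    have hint := hc.integrable_of_hasCompactSupport (μ := μ) hcs
    have h4 : 0 ≤ᵐ[μ] fun x => -(max (1 - ‖x‖ ^ 2 / ((k : ℝ) + 1) ^ 2) 0 * ⟪a, x⟫) := by
      filter_upwards [h1] with x hx
      have h5 : 0 ≤ max (1 - ‖x‖ ^ 2 / ((k : ℝ) + 1) ^ 2) 0 := le_max_right _ _
      simp only [Pi.zero_apply]
      nlinarith
    have h6 : ∫ x, -(max (1 - ‖x‖ ^ 2 / ((k : ℝ) + 1) ^ 2) 0 * ⟪a, x⟫) ∂μ = 0 := by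
      rw [integral_neg, h3, neg_zero]
    rw [integral_eq_zero_iff_of_nonneg_ae h4 hint.neg] at h6
    filter_upwards [h6] with x hx hxk hneg
    have h7 : 0 < max (1 - ‖x‖ ^ 2 / ((k : ℝ) + 1) ^ 2) 0 := by
      apply lt_max_of_lt_left
      have : ‖x‖ ^ 2 / ((k : ℝ) + 1) ^ 2 < 1 := by
        rw [div_lt_one (by positivity)]
        have := norm_nonneg x
        nlinarith
      linarith
    simp only [Pi.zero_apply] at hx
    nlinarith
  have hall : ∀ᵐ x ∂μ, ¬ (⟪a, x⟫ < 0) := by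
    filter_upwards [ae_all_iff.2 key] with x hx
    obtain ⟨k, hk⟩ := exists_nat_gt ‖x‖
    exact hx k (hk.trans (by linarith))
  rw [ae_iff] at hall
  simpa using hall

/-! ### the doubled plane has mass at least two -/

/-- truncated Gaussian test function -/
def tg (δ : ℝ) (x : E) : ℝ := max (Real.exp (-‖x‖ ^ 2) - δ) 0

lemma hasFDerivAt_gauss (x : E) :
    HasFDerivAt (fun x : E => Real.exp (-‖x‖ ^ 2))
      ((-(2 * Real.exp (-‖x‖ ^ 2))) • innerSL ℝ x) x := by
  have h1 : HasFDerivAt (fun x : E => -‖x‖ ^ 2) (-(2 • innerSL ℝ x)) x :=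
    (hasStrictFDerivAt_norm_sq x).hasFDerivAt.neg
  refine HasFDerivAt.congr_fderiv h1.exp ?_
  ext v
  simp only [_root_.smul_apply, _root_.neg_apply, innerSL_apply_apply, smul_eq_mul, nsmul_eq_mul]
  push_cast
  ring

lemma lip_gauss : LipschitzWith 2 (fun x : E => Real.exp (-‖x‖ ^ 2)) := by
  apply lipschitzWith_of_nnnorm_fderiv_le (𝕜 := ℝ)
  · intro x
    exact (hasFDerivAt_gauss x).differentiableAt
  · intro x
    rw [(hasFDerivAt_gauss x).fderiv, ← NNReal.coe_le_coe, coe_nnnorm, norm_smul, norm_neg,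
      innerSL_apply_norm]
    have h3 : ‖x‖ * Real.exp (-‖x‖ ^ 2) ≤ 1 := by
      have h4 : ‖x‖ ≤ Real.exp (‖x‖ ^ 2) := by
        have := Real.add_one_le_exp (‖x‖ ^ 2)
        nlinarith [sq_nonneg (‖x‖ - 1)]
      rw [Real.exp_neg]
      rw [← div_eq_mul_inv, div_le_one (Real.exp_pos _)]
      exact h4
    have h5 := Real.exp_pos (-‖x‖ ^ 2)
    rw [Real.norm_eq_abs, abs_of_pos (by positivity)]
    calc 2 * Real.exp (-‖x‖ ^ 2) * ‖x‖ = 2 * (‖x‖ * Real.exp (-‖x‖ ^ 2)) := by ring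
      _ ≤ 2 * 1 := by linarith
      _ = ((2 : ℝ≥0) : ℝ) := by norm_num

lemma lip_tg (δ : ℝ) : LipschitzWith 2 (tg δ : E → ℝ) := by
  refine LipschitzWith.of_dist_le_mul fun x y => ?_
  have h1 := (lip_gauss (E := E)).dist_le_mul x y
  rw [Real.dist_eq] at h1 ⊢
  refine le_trans ?_ h1
  unfold tg
  refine (abs_max_sub_max_le_abs _ _ _).trans ?_
  rw [sub_sub_sub_cancel_right]

lemma tg_nonneg (δ : ℝ) (x : E) : 0 ≤ tg δ x := le_max_right _ _

lemma cs_tg {δ : ℝ} (hδ : 0 < δ) : HasCompactSupport (tg δ : E → ℝ) := by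
  obtain ⟨r, hr0, hr⟩ : ∃ r : ℝ, 0 < r ∧ Real.exp (-r ^ 2) < δ := by
    have h1 : Tendsto (fun r : ℝ => Real.exp (-r ^ 2)) atTop (𝓝 0) :=
      Real.tendsto_exp_atBot.comp (tendsto_neg_atTop_atBot.comp (tendsto_pow_atTop two_ne_zero))
    have h2 := h1.eventually (gt_mem_nhds hδ)
    obtain ⟨r, hr1, hr2⟩ := (h2.and (eventually_gt_atTop 0)).exists
    exact ⟨r, hr2, hr1⟩
  apply HasCompactSupport.of_support_subset_isCompact (isCompact_closedBall (0 : E) r)
  intro x hx
  rw [mem_closedBall_zero_iff]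
  by_contra hcon
  push Not at hcon
  apply hx
  unfold tg
  apply max_eq_right
  have : Real.exp (-‖x‖ ^ 2) ≤ Real.exp (-r ^ 2) := by
    apply Real.exp_le_exp.2
    nlinarith
  linarith

lemma euler {R : E → ℝ} (hom : ∀ t : ℝ, 0 ≤ t → ∀ x, R (t • x) = t * R x) {x : E}
    (hx : DifferentiableAt ℝ R x) : fderiv ℝ R x x = R x := by
  have h1 : HasDerivAt (fun t : ℝ => R (t • x)) (fderiv ℝ R x x) 1 := by
    have h2 : HasDerivAt (fun t : ℝ => t • x) x 1 := by
      simpa using (hasDerivAt_id (1 : ℝ)).smul_const x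
    have h3 : HasFDerivAt R (fderiv ℝ R x) ((1 : ℝ) • x) := by
      rw [one_smul]; exact hx.hasFDerivAt
    exact h3.comp_hasDerivAt 1 h2
  have h4 : HasDerivAt (fun t : ℝ => R (t • x)) (R x) 1 := by
    have h5 : HasDerivAt (fun t : ℝ => t * R x) (R x) 1 := by
      simpa using (hasDerivAt_id (1 : ℝ)).mul_const (R x)
    apply h5.congr_of_eventuallyEq
    filter_upwards [lt_mem_nhds (show (0 : ℝ) < 1 by norm_num)] with t ht
    exact hom t ht.le x
  exact h1.unique h4

lemma gi_tg [Nontrivial E] {R : E → ℝ} (lip : LipschitzWith 1 R)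
    (hom : ∀ t : ℝ, 0 ≤ t → ∀ x, R (t • x) = t * R x) {δ : ℝ} (hδ : 0 < δ) :
    ∀ᵐ x : E, gi R (tg δ) x =
      -(2 * (({x : E | δ < Real.exp (-‖x‖ ^ 2)}.indicator
        (fun x => R x * Real.exp (-‖x‖ ^ 2)) x))) := by
  -- the bad sphere
  have hb : ∀ᵐ x : E, Real.exp (-‖x‖ ^ 2) ≠ δ := by
    rw [ae_iff]
    refine measure_mono_null ?_ (Measure.addHaar_sphere volume (0 : E) (Real.sqrt (-Real.log δ)))
    intro x hx
    simp only [ne_eq, not_not, mem_ofPred_eq] at hx
    rw [mem_sphere_zero_iff_norm, ← hx, Real.log_exp, neg_neg, Real.sqrt_sq (norm_nonneg _)]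
  have hcont : Continuous (fun x : E => Real.exp (-‖x‖ ^ 2)) := lip_gauss.continuous
  filter_upwards [lip.ae_differentiableAt (μ := volume), hb] with x hx hbx
  rw [gi_eq]
  rcases lt_or_gt_of_ne hbx with h | h
  · rw [indicator_of_notMem (by simpa using h.le)]
    have h1 : (tg δ : E → ℝ) =ᶠ[𝓝 x] fun _ => 0 := by
      filter_upwards [(isOpen_lt hcont continuous_const).mem_nhds h] with y hy
      have hy' : Real.exp (-‖y‖ ^ 2) < δ := hy
      unfold tg
      exact max_eq_right (by linarith)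
    rw [h1.fderiv_eq]
    simp
  · rw [indicator_of_mem (by exact h)]
    have h1 : (tg δ : E → ℝ) =ᶠ[𝓝 x] fun y => Real.exp (-‖y‖ ^ 2) - δ := by
      filter_upwards [(isOpen_lt continuous_const hcont).mem_nhds h] with y hy
      have hy' : δ < Real.exp (-‖y‖ ^ 2) := hy
      unfold tg
      exact max_eq_left (by linarith)
    rw [h1.fderiv_eq, ((hasFDerivAt_gauss x).sub_const δ).fderiv]
    simp only [_root_.smul_apply, innerSL_apply_apply, smul_eq_mul]
    rw [real_inner_comm, inner_gradient, euler hom hx]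
    ring

/-- if `R = |⟪a, ·⟫|` then the mass is at least two. -/
theorem mass_ge {R : E → ℝ} {μ : Measure E} (hfin : IsFiniteMeasureOnCompacts μ)
    (hvar : VAR R μ univ) {a : E} (ha : ‖a‖ = 1) (hR : ∀ x, R x = |⟪a, x⟫|)
    (hm : ∫⁻ x, ENNReal.ofReal (Real.exp (-‖x‖ ^ 2)) ∂μ ≠ ⊤) :
    2 * Real.pi ^ (((Module.finrank ℝ E : ℝ) - 1) / 2) ≤
      (∫⁻ x, ENNReal.ofReal (Real.exp (-‖x‖ ^ 2)) ∂μ).toReal := by
  have ha0 : a ≠ 0 := by rintro rfl; simp at ha
  have : Nontrivial E := ⟨⟨a, 0, ha0⟩⟩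
  have lip : LipschitzWith 1 R := by
    refine LipschitzWith.of_dist_le_mul fun x y => ?_
    rw [Real.dist_eq, hR, hR, NNReal.coe_one, one_mul, dist_eq_norm]
    refine (abs_abs_sub_abs_le_abs_sub _ _).trans ?_
    rw [← inner_sub_right]
    calc |⟪a, x - y⟫| ≤ ‖a‖ * ‖x - y‖ := abs_real_inner_le_norm _ _
      _ = ‖x - y‖ := by rw [ha, one_mul]
  have hom : ∀ t : ℝ, 0 ≤ t → ∀ x, R (t • x) = t * R x := by
    intro t ht x
    rw [hR, hR, inner_smul_right, abs_mul, abs_of_nonneg ht]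
  have hRabs : (fun y => |R y|) = R := by
    funext y; rw [hR, abs_abs]
  set M := (∫⁻ x, ENNReal.ofReal (Real.exp (-‖x‖ ^ 2)) ∂μ).toReal with hM
  have key : ∀ δ : ℝ, 0 < δ →
      2 * ∫ x in {x : E | δ < Real.exp (-‖x‖ ^ 2)}, R x * Real.exp (-‖x‖ ^ 2) ≤ M := by
    intro δ hδ
    have h1 := hvar (fun x => - tg δ x) (tg δ) (by
      refine ⟨2, LipschitzWith.of_dist_le_mul fun x y => ?_⟩
      have := (lip_tg (E := E) δ).dist_le_mul x y
      rwa [Real.dist_eq, neg_sub_neg, abs_sub_comm, ← Real.dist_eq]) ⟨2, lip_tg δ⟩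
      ((cs_tg hδ).comp_left neg_zero) (cs_tg hδ)
      (fun x => by rw [abs_neg, abs_of_nonneg (tg_nonneg δ x)]) (subset_univ _)
    rw [hRabs] at h1
    have e1 : ∀ x, gi R (fun x => - tg δ x) x = - gi R (tg δ) x := by
      intro x; unfold gi; rw [gradient_neg_fun, inner_neg_right]
    simp_rw [e1] at h1
    rw [integral_neg, integral_congr_ae (gi_tg lip hom hδ), integral_neg, integral_const_mul,
      integral_indicator (isOpen_lt continuous_const lip_gauss.continuous).measurableSet] at h1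
    have h2 : ∫ x, tg δ x ∂μ ≤ M := by
      rw [integral_eq_lintegral_of_nonneg_ae (Eventually.of_forall (tg_nonneg δ))
        (lip_tg δ).continuous.aestronglyMeasurable, hM]
      apply ENNReal.toReal_mono hm
      apply lintegral_mono
      intro x
      apply ENNReal.ofReal_le_ofReal
      unfold tg
      apply max_le
      · linarith
      · exact (Real.exp_pos _).le
    linarith
  -- limit `δ → 0`
  have hInt : Integrable (fun x : E => R x * Real.exp (-‖x‖ ^ 2)) := by
    simp_rw [hR]; exact integrable_abs_inner_mul_exp ha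
  set S : ℕ → Set E := fun k => {x : E | 1 / ((k : ℝ) + 1) < Real.exp (-‖x‖ ^ 2)} with hS
  have hU : (⋃ k, S k) = univ := by
    rw [eq_univ_iff_forall]
    intro x
    rw [mem_iUnion]
    exact exists_nat_one_div_lt (Real.exp_pos _)
  have hlim := tendsto_setIntegral_of_monotone (μ := (volume : Measure E)) (s := S)
    (f := fun x : E => R x * Real.exp (-‖x‖ ^ 2))
    (fun k => (isOpen_lt continuous_const lip_gauss.continuous).measurableSet) (by
      intro i j hij x hx
      have hx' : 1 / ((i : ℝ) + 1) < Real.exp (-‖x‖ ^ 2) := hx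
      have : 1 / ((j : ℝ) + 1) ≤ 1 / ((i : ℝ) + 1) := by
        apply one_div_le_one_div_of_le (by positivity)
        have : (i : ℝ) ≤ j := by exact_mod_cast hij
        linarith
      exact lt_of_le_of_lt this hx') hInt.integrableOn
  rw [hU, setIntegral_univ] at hlim
  have hval : ∫ x : E, R x * Real.exp (-‖x‖ ^ 2)
      = Real.pi ^ (((Module.finrank ℝ E : ℝ) - 1) / 2) := by
    simp_rw [hR]; exact integral_abs_inner_mul_exp ha
  rw [hval] at hlim
  have h5 := le_of_tendsto' (hlim.const_mul 2) (fun k => key (1 / ((k : ℝ) + 1)) (by positivity))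
  exact h5

/-! ### assembly -/

theorem main_pos (hdim : 2 ≤ Module.finrank ℝ E) {R : E → ℝ} {μ : Measure E} {a : E}
    (hfin : IsFiniteMeasureOnCompacts μ)
    (hom : ∀ t : ℝ, 0 ≤ t → ∀ x, R (t • x) = t * R x) (hD : ClassD R)
    (hvar : VAR R μ univ) (hconc : μ {x | R x ≠ 0} = 0) (ha : ‖a‖ = 1) (h1 : R a = 1)
    (hst : ∀ ρ : ℝ, 0 < ρ → ∫ x, max (1 - ‖x‖ ^ 2 / ρ ^ 2) 0 * ⟪a, x⟫ ∂μ = 0)
    (hmass : ∫⁻ x, ENNReal.ofReal (Real.exp (-‖x‖ ^ 2)) ∂μ
      < ENNReal.ofReal (2 * Real.pi ^ (((Module.finrank ℝ E : ℝ) - 1) / 2))) :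
    ∀ x, R x = ⟪a, x⟫ := by
  have ha0 : a ≠ 0 := by rintro rfl; simp at ha
  have : Nontrivial E := ⟨⟨a, 0, ha0⟩⟩
  have haa : ⟪a, a⟫ = (1 : ℝ) := by rw [real_inner_self_eq_norm_sq, ha]; norm_num
  have hpos : ∀ x, 0 < ⟪a, x⟫ → R x = ⟪a, x⟫ := fun x hx =>
    eq_inner_of_touch hom hD.lip (supW_of_classD hD) ha h1 hx
  have hlow := low_null hfin hconc hpos hst
  have hSup := supW_abs_of_VAR hvar (measurableSet_low a) hlow
  have hlowopen : IsOpen {x : E | ⟪a, x⟫ < 0} := isOpen_lt (by fun_prop) continuous_const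
  have hneg : ∀ x, ⟪a, x⟫ < 0 → R x ≠ 0 := by
    intro y hy hy0
    have hpre : IsPreconnected {x : E | ⟪a, x⟫ < 0} := by
      apply Convex.isPreconnected
      exact convex_halfSpace_lt ⟨fun x y => inner_add_right _ _ _,
        fun c x => by rw [inner_smul_right]; rfl⟩ 0
    have hz : ∀ z, ⟪a, z⟫ < 0 → R z = 0 := fun z hz =>
      eq_zero_of_SupW_abs hD.lip hlowopen hpre hSup hy hy0 hz
    have hne : {x : E | ⟪a, x⟫ < 0}.Nonempty := ⟨y, hy⟩
    have hvol := hlowopen.measure_pos (μ := (volume : Measure E)) hne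
    have h2 : ∃ x, ⟪a, x⟫ < 0 ∧ ‖fderiv ℝ R x‖ = 1 := by
      by_contra hcon
      push Not at hcon
      have h3 : ∀ᵐ x ∂(volume : Measure E), x ∉ {x : E | ⟪a, x⟫ < 0} := by
        filter_upwards [hD.grad] with x hx hx'
        exact hcon x hx' hx
      rw [ae_iff] at h3
      simp only [not_not] at h3
      exact hvol.ne' h3
    obtain ⟨x, hx, hx1⟩ := h2
    have h3 : R =ᶠ[𝓝 x] fun _ => 0 := by
      filter_upwards [hlowopen.mem_nhds hx] with z hz' using hz z hz'
    rw [h3.fderiv_eq] at hx1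
    simp at hx1
  have hsd : ∀ x, |R x| = infDist x {y | R y = 0} := fun x => (toSD hD).abs_eq_infDist_univ x
  rcases eq_or_eq_abs_of_signedDist hD.lip.continuous ha hpos hneg hsd with h | h
  · exact h
  · exfalso
    have h3 := mass_ge hfin hvar ha h (hmass.ne_top)
    have h4 := (ENNReal.toReal_lt_toReal (hmass.ne_top) ENNReal.ofReal_ne_top).2 hmass
    rw [ENNReal.toReal_ofReal (by positivity)] at h4
    linarith

theorem stG4 (F : Type) [NormedAddCommGroup F] [InnerProductSpace ℝ F] [FiniteDimensional ℝ F]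
    [MeasurableSpace F] [BorelSpace F] : StG4 F := by
  intro hdim R μ a hfin hom hD hvar hconc ha hRa hst hmass
  rcases (abs_eq (zero_le_one' ℝ)).1 hRa with h | h
  · exact ⟨a, ha, main_pos hdim hfin hom hD hvar hconc ha h hst hmass⟩
  · refine ⟨-a, by rw [norm_neg]; exact ha, ?_⟩
    have h2 := main_pos (R := fun x => - R x) hdim hfin (fun t ht x => by rw [hom t ht x]; ring)
      (classD_neg hD) (VAR_neg hvar) (by simpa using hconc) ha (by rw [h]; ring) hst hmass
    intro x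
    have := h2 x
    rw [inner_neg_left]
    linarith

end Crest.Agent.R246.G4b386
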