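import Mathlib.Analysis.InnerProductSpace.PiL2
import Mathlib.Analysis.InnerProductSpace.Calculus
import Mathlib.MeasureTheory.Integral.DominatedConvergence
import Mathlib.MeasureTheory.Constructions.BorelSpace.Basic
import Crest.Agent.Lib.BorsukUlam

/-!
R246, part I (II): Hersch balancing lemma.
-/

set_option autoImplicit false

open MeasureTheory Filter Topology
open scoped RealInnerProductSpace

set_option linter.unusedSectionVars false
set_option linter.unusedVariables false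

namespace Crest.Agent.R246.Hersch900

variable {E : Type*} [NormedAddCommGroup E] [InnerProductSpace ℝ E]

/-- the conformal maps of the unit sphere -/
noncomputable def F (v x : E) : E := ((1 - ‖v‖ ^ 2) / ‖x - v‖ ^ 2) • (x - v) - v

omit [InnerProductSpace ℝ E] in
theorem norm_sub_sq_pos {v x : E} (h : x ≠ v) : 0 < ‖x - v‖ ^ 2 := by
  have : 0 < ‖x - v‖ := norm_pos_iff.2 (sub_ne_zero.2 h)
  positivity

/-- `F v` preserves the unit sphere. -/
theorem norm_F_sq {v x : E} (hx : ‖x‖ = 1) (h : x ≠ v) : ‖F v x‖ ^ 2 = 1 := by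
  have h0 : (0:ℝ) < ‖x - v‖ ^ 2 := norm_sub_sq_pos h
  have e : ‖x - v‖ ^ 2 = 1 - 2 * ⟪x, v⟫ + ‖v‖ ^ 2 := by
    rw [norm_sub_sq_real, hx]; ring
  unfold F
  rw [norm_sub_sq_real, norm_smul, real_inner_smul_left, inner_sub_left,
    real_inner_self_eq_norm_sq, mul_pow, Real.norm_eq_abs, sq_abs]
  generalize ‖x - v‖ ^ 2 = d at *
  generalize ⟪x, v⟫ = p at *
  field_simp
  rw [e]
  ring

theorem F_of_norm_one {v x : E} (hv : ‖v‖ = 1) : F v x = -v := by
  unfold F; rw [hv]; simp

theorem norm_F_le {v x : E} (hx : ‖x‖ = 1) (hv : ‖v‖ ≤ 1) : ‖F v x‖ ≤ 1 := by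
  rcases eq_or_lt_of_le hv with h | h
  · rw [F_of_norm_one h, norm_neg, h]
  · have hne : x ≠ v := by rintro rfl; exact absurd hx h.ne
    have := norm_F_sq hx hne
    nlinarith [norm_nonneg (F v x)]

theorem continuousAt_F {v x : E} (h : x ≠ v) : ContinuousAt (fun v => F v x) v := by
  unfold F
  have : ‖x - v‖ ^ 2 ≠ 0 := (norm_sub_sq_pos h).ne'
  fun_prop (disch := assumption)

theorem continuousAt_F_right {v x : E} (h : x ≠ v) : ContinuousAt (fun x => F v x) x := by
  unfold F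
  have : ‖x - v‖ ^ 2 ≠ 0 := (norm_sub_sq_pos h).ne'
  fun_prop (disch := assumption)

section

variable [FiniteDimensional ℝ E]

/-- A continuous map of the closed unit ball equal to a negative multiple of the identity on the
boundary has a zero. -/
theorem exists_zero_of_ball (H : E → E) (hH : ContinuousOn H (Metric.closedBall 0 1))
    (c : ℝ) (hc : 0 < c) (hb : ∀ x, ‖x‖ = 1 → H x = -(c • x)) :
    ∃ x, ‖x‖ < 1 ∧ H x = 0 := by
  classical
  let ρ : E × ℝ → ℝ := fun p => √(‖p.1‖ ^ 2 + p.2 ^ 2)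
  have hρ : Continuous ρ := by fun_prop
  have hρpos : ∀ p : E × ℝ, p ≠ 0 → 0 < ρ p := by
    intro p hp
    refine Real.sqrt_pos.2 ?_
    rcases eq_or_ne p.1 0 with h | h
    · have h2 : p.2 ≠ 0 := fun h2 => hp (Prod.ext h h2)
      positivity
    · have : 0 < ‖p.1‖ := norm_pos_iff.2 h
      positivity
  have hρneg : ∀ p : E × ℝ, ρ (-p) = ρ p := by intro p; simp [ρ]
  have hle : ∀ p : E × ℝ, p ≠ 0 → ‖(ρ p)⁻¹ • p.1‖ ≤ 1 := by
    intro p hp
    have h0 := hρpos p hp
    rw [norm_smul, norm_inv, Real.norm_of_nonneg h0.le, inv_mul_le_iff₀ h0, mul_one]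
    exact Real.le_sqrt_of_sq_le (by nlinarith [sq_nonneg p.2])
  let G : E × ℝ → E := fun p => if 0 ≤ p.2 then H ((ρ p)⁻¹ • p.1) else -H (-((ρ p)⁻¹ • p.1))
  have hG1 : ContinuousOn (fun p : E × ℝ => H ((ρ p)⁻¹ • p.1)) {p | p ≠ 0} := by
    refine hH.comp (f := fun p : E × ℝ => (ρ p)⁻¹ • p.1) ?_ ?_
    · refine ContinuousOn.smul (hρ.continuousOn.inv₀ fun p hp => (hρpos p hp).ne') ?_
      exact continuous_fst.continuousOn
    · intro p hp
      simpa using hle p hp
  have hG2 : ContinuousOn (fun p : E × ℝ => -H (-((ρ p)⁻¹ • p.1))) {p | p ≠ 0} := by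
    refine (hH.comp (f := fun p : E × ℝ => -((ρ p)⁻¹ • p.1)) ?_ ?_).neg
    · refine (ContinuousOn.smul (hρ.continuousOn.inv₀ fun p hp => (hρpos p hp).ne') ?_).neg
      exact continuous_fst.continuousOn
    · intro p hp
      simpa using hle p hp
  have hglue : ∀ p : E × ℝ, p ≠ 0 → p.2 = 0 →
      H ((ρ p)⁻¹ • p.1) = -H (-((ρ p)⁻¹ • p.1)) := by
    intro p hp h2
    have h0 := hρpos p hp
    have h1 : ‖(ρ p)⁻¹ • p.1‖ = 1 := by
      have : ρ p = ‖p.1‖ := by
        simp [ρ, h2]
      rw [norm_smul, norm_inv, Real.norm_of_nonneg h0.le, this]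
      exact inv_mul_cancel₀ (by rw [← this]; exact h0.ne')
    rw [hb _ h1, hb _ (by rw [norm_neg, h1])]
    simp
  have hG : ContinuousOn G {p | p ≠ 0} := by
    intro p hp
    rcases lt_trichotomy p.2 0 with h | h | h
    · refine (hG2 p hp).congr_of_eventuallyEq ?_ ?_
      · have : ∀ᶠ q : E × ℝ in 𝓝 p, q.2 < 0 :=
          continuous_snd.continuousAt.eventually (gt_mem_nhds h)
        filter_upwards [mem_nhdsWithin_of_mem_nhds this] with q hq
        simp [G, not_le.2 hq]
      · simp [G, not_le.2 h]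
    · have e0 : G p = H ((ρ p)⁻¹ • p.1) := by simp [G, h]
      have e1 : G p = -H (-((ρ p)⁻¹ • p.1)) := by rw [e0, hglue p hp h]
      have t1 := hG1 p hp
      have t2 := hG2 p hp
      rw [ContinuousWithinAt] at t1 t2 ⊢
      change Tendsto _ _ (𝓝 (H ((ρ p)⁻¹ • p.1))) at t1
      change Tendsto _ _ (𝓝 (-H (-((ρ p)⁻¹ • p.1)))) at t2
      rw [← e0] at t1
      rw [← e1] at t2
      rw [tendsto_def] at t1 t2 ⊢
      intro s hs
      filter_upwards [t1 s hs, t2 s hs] with q h1 h2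
      change G q ∈ s
      change H ((ρ q)⁻¹ • q.1) ∈ s at h1
      change -H (-((ρ q)⁻¹ • q.1)) ∈ s at h2
      by_cases hq : 0 ≤ q.2
      · simpa [G, hq] using h1
      · simpa [G, hq] using h2
    · refine (hG1 p hp).congr_of_eventuallyEq ?_ ?_
      · have : ∀ᶠ q : E × ℝ in 𝓝 p, 0 < q.2 :=
          continuous_snd.continuousAt.eventually (lt_mem_nhds h)
        filter_upwards [mem_nhdsWithin_of_mem_nhds this] with q hq
        simp [G, hq.le]
      · simp [G, h.le]
  have hodd : ∀ p, p ≠ 0 → G (-p) = -G p := by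
    intro p hp
    simp only [G, hρneg, Prod.fst_neg, Prod.snd_neg, smul_neg, neg_neg, Left.nonneg_neg_iff]
    rcases lt_trichotomy p.2 0 with h | h | h
    · simp [h.le, not_le.2 h]
    · have := hglue p hp h
      simp [h, this]
    · simp [h.le, not_le.2 h]
  obtain ⟨p, hp, h0⟩ := Crest.Agent.Lib.BorsukUlam.exists_zero_of_odd
    (W := E × ℝ) (E := E) (by simp) G hG hodd
  obtain ⟨y, hy, hy0⟩ : ∃ y : E, ‖y‖ ≤ 1 ∧ H y = 0 := by
    simp only [G] at h0
    split_ifs at h0
    · exact ⟨_, hle p hp, h0⟩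
    · exact ⟨_, by rw [norm_neg]; exact hle p hp, neg_eq_zero.1 h0⟩
  refine ⟨y, lt_of_le_of_ne hy fun h1 => ?_, hy0⟩
  rw [hb y h1, neg_eq_zero] at hy0
  have := congrArg norm hy0
  rw [norm_smul, h1] at this
  simp [hc.ne'] at this

variable [MeasurableSpace E] [BorelSpace E]

theorem aestronglyMeasurable_F (v : E) (μ : Measure E) :
    AEStronglyMeasurable (fun x => F v x) μ := by
  unfold F
  refine Measurable.aestronglyMeasurable ?_
  fun_prop

/-- **Hersch's balancing lemma.** -/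
theorem exists_balanced (μ : Measure E) [IsFiniteMeasure μ] (hat : ∀ v : E, μ {v} = 0) (h0 : μ ≠ 0)
    (hS : ∀ᵐ x ∂μ, ‖x‖ = 1) :
    ∃ v : E, ‖v‖ < 1 ∧ ∫ x, F v x ∂μ = 0 := by
  have hne : ∀ v : E, ∀ᵐ x ∂μ, x ≠ v := fun v => by
    simpa [ae_iff] using hat v
  refine exists_zero_of_ball (fun v => ∫ x, F v x ∂μ) ?_ (μ.real Set.univ) ?_ ?_
  · intro v hv
    refine continuousWithinAt_of_dominated (bound := fun _ => 1) ?_ ?_ (integrable_const _) ?_
    · exact Eventually.of_forall fun w => aestronglyMeasurable_F w μ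
    · filter_upwards [self_mem_nhdsWithin] with w hw
      filter_upwards [hS] with x hx
      exact norm_F_le hx (by simpa using hw)
    · filter_upwards [hne v] with x hx
      exact (continuousAt_F hx).continuousWithinAt
  · rw [Measure.real, ENNReal.toReal_pos_iff]
    exact ⟨pos_iff_ne_zero.2 (by simpa using h0), measure_lt_top _ _⟩
  · intro v hv
    simp only [F_of_norm_one hv]
    simp

end

end Crest.Agent.R246.Hersch900
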