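import Mathlib.Analysis.Calculus.ParametricIntegral
import Mathlib.Analysis.Calculus.MeanValue
import Mathlib.Analysis.Calculus.Deriv.MeanValue
import Mathlib.Analysis.SpecialFunctions.Trigonometric.Deriv
import Mathlib.Analysis.Distribution.AEEqOfIntegralContDiff
import Crest.Agent.R246.Hersch_900

/-!
R246, part I (II): conformal area of a minimal hypersurface of the sphere, weak form.
-/

set_option autoImplicit false

open MeasureTheory Filter Topology
open scoped RealInnerProductSpace ContDiff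

set_option linter.unusedSectionVars false
set_option linter.unusedVariables false

namespace Crest.Agent.R246.Hersch900

variable {E : Type*} [NormedAddCommGroup E] [InnerProductSpace ℝ E] [FiniteDimensional ℝ E]
  [MeasurableSpace E] [BorelSpace E]

/-- smooth near the unit sphere -/
def SmS (h : E → ℝ) : Prop := ∀ x, ‖x‖ = 1 → ContDiffAt ℝ ∞ h x

/-- weak minimal hypersurface of the unit sphere: measure `σ`, unit normal `ν`, first variation -/
structure MinSurf (m : ℕ) (σ : Measure E) (ν : E → E) : Prop where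
  fin : IsFiniteMeasure σ
  sph : ∀ᵐ x ∂σ, ‖x‖ = 1
  atom : ∀ x, σ {x} = 0
  meas : AEStronglyMeasurable ν σ
  nu1 : ∀ᵐ x ∂σ, ‖ν x‖ = 1
  nux : ∀ᵐ x ∂σ, ⟪ν x, x⟫ = 0
  fv : ∀ h : E → ℝ, SmS h → ∀ e : E,
    ∫ x, (fderiv ℝ h x e - ⟪x, e⟫ * fderiv ℝ h x x - ⟪ν x, e⟫ * fderiv ℝ h x (ν x)) ∂σ
      = m * ∫ x, ⟪x, e⟫ * h x ∂σ

/-- squared tangential gradient -/
noncomputable def T (ν : E → E) (h : E → ℝ) (x : E) : ℝ :=
  ‖fderiv ℝ h x‖ ^ 2 - (fderiv ℝ h x x) ^ 2 - (fderiv ℝ h x (ν x)) ^ 2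

/-! ### positivity of the conformal factor -/

theorem ch_pos (t y : ℝ) (hy : |y| ≤ 1) : Real.exp (-|t|) ≤ Real.cosh t + Real.sinh t * y := by
  have h1 : Real.cosh t = Real.cosh |t| := (Real.cosh_abs t).symm
  have h2 : |Real.sinh t| = Real.sinh |t| := Real.abs_sinh t
  have h3 : -|Real.sinh t| ≤ Real.sinh t * y := by
    have : |Real.sinh t * y| ≤ |Real.sinh t| := by
      rw [abs_mul]
      exact mul_le_of_le_one_right (abs_nonneg _) hy
    exact (abs_le.1 this).1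
  have h4 : Real.exp (-|t|) = Real.cosh |t| - Real.sinh |t| := (Real.cosh_sub_sinh _).symm
  rw [h4, ← h2, ← h1]
  linarith

theorem ch_pos' (t y : ℝ) (hy : |y| ≤ 1) : 0 < Real.cosh t + Real.sinh t * y :=
  lt_of_lt_of_le (Real.exp_pos _) (ch_pos t y hy)

theorem abs_inner_le_one {x a : E} (hx : ‖x‖ = 1) (ha : ‖a‖ = 1) : |⟪x, a⟫| ≤ 1 := by
  have := abs_real_inner_le_norm x a
  rwa [hx, ha, one_mul] at this

/-! ### the function of `t` -/

/-- `∫ (cosh t + sinh t ⟪x,a⟫)^{-m} dσ` -/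
noncomputable def fA (m : ℕ) (σ : Measure E) (a : E) (t : ℝ) : ℝ :=
  ∫ x, ((Real.cosh t + Real.sinh t * ⟪x, a⟫) ^ m)⁻¹ ∂σ

theorem sms_h (m : ℕ) (a : E) (ha : ‖a‖ = 1) (t : ℝ) :
    SmS (fun x : E => ((Real.cosh t + Real.sinh t * ⟪x, a⟫) ^ m)⁻¹) := by
  intro x hx
  have h0 := ch_pos' t ⟪x, a⟫ (abs_inner_le_one hx ha)
  have h1 : ContDiffAt ℝ ∞ (fun x : E => ⟪x, a⟫) x := contDiffAt_id.inner ℝ contDiffAt_const
  refine ContDiffAt.inv ?_ (pow_ne_zero _ h0.ne')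
  fun_prop

theorem fderiv_h (m : ℕ) (a : E) (ha : ‖a‖ = 1) (t : ℝ) (x : E) (hx : ‖x‖ = 1) (e : E) :
    fderiv ℝ (fun x : E => ((Real.cosh t + Real.sinh t * ⟪x, a⟫) ^ m)⁻¹) x e =
      -(m * Real.sinh t * ⟪e, a⟫ * ((Real.cosh t + Real.sinh t * ⟪x, a⟫) ^ (m + 1))⁻¹) := by
  have h0 := ch_pos' t ⟪x, a⟫ (abs_inner_le_one hx ha)
  set s := Real.cosh t + Real.sinh t * ⟪x, a⟫ with hs
  have h1 : HasFDerivAt (fun x : E => ⟪x, a⟫) (innerSL ℝ a) x := by
    have := (innerSL ℝ a).hasFDerivAt (x := x)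
    refine this.congr_of_eventuallyEq (Eventually.of_forall fun y => ?_)
    simp [real_inner_comm]
  have h2 : HasFDerivAt (fun x : E => Real.cosh t + Real.sinh t * ⟪x, a⟫)
      (Real.sinh t • innerSL ℝ a) x := by
    simpa using (h1.const_mul (Real.sinh t)).const_add (Real.cosh t)
  have h3 : HasDerivAt (fun s : ℝ => (s ^ m)⁻¹) (-(m * s ^ (m - 1)) / (s ^ m) ^ 2) s :=
    (hasDerivAt_pow m s).inv (pow_ne_zero _ h0.ne')
  have h4 := h3.comp_hasFDerivAt x h2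
  have h5 : fderiv ℝ (fun x : E => ((Real.cosh t + Real.sinh t * ⟪x, a⟫) ^ m)⁻¹) x =
      (-(m * s ^ (m - 1)) / (s ^ m) ^ 2) • Real.sinh t • innerSL ℝ a := h4.fderiv
  rw [h5]
  simp only [smul_apply, innerSL_apply_apply, smul_eq_mul]
  rw [real_inner_comm e a]
  rcases Nat.eq_zero_or_pos m with h | h
  · subst h; simp
  · obtain ⟨k, rfl⟩ : ∃ k, m = k + 1 := ⟨m - 1, by omega⟩
    have : s ≠ 0 := h0.ne'
    simp only [Nat.add_sub_cancel]
    field_simp
    try ring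

section deriv

variable {m : ℕ} {σ : Measure E} {ν : E → E}

theorem hasDerivAt_fA (hM : MinSurf m σ ν) (a : E) (ha : ‖a‖ = 1) (t : ℝ) :
    HasDerivAt (fA m σ a) (∫ x, -(m * (Real.sinh t + Real.cosh t * ⟪x, a⟫) *
      ((Real.cosh t + Real.sinh t * ⟪x, a⟫) ^ (m + 1))⁻¹) ∂σ) t := by
  have := hM.fin
  have hm1 : ∀ (t : ℝ) (k : ℕ), AEStronglyMeasurable
      (fun x : E => ((Real.cosh t + Real.sinh t * ⟪x, a⟫) ^ k)⁻¹) σ := fun t k => by
    refine Measurable.aestronglyMeasurable ?_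
    fun_prop
  have hb : ∀ t k, ∀ᵐ x ∂σ, ‖((Real.cosh t + Real.sinh t * ⟪x, a⟫) ^ k)⁻¹‖ ≤
      Real.exp |t| ^ k := by
    intro t k
    filter_upwards [hM.sph] with x hx
    have h0 := ch_pos t ⟪x, a⟫ (abs_inner_le_one hx ha)
    have h1 := ch_pos' t ⟪x, a⟫ (abs_inner_le_one hx ha)
    rw [norm_inv, norm_pow, Real.norm_of_nonneg h1.le, ← inv_pow]
    refine pow_le_pow_left₀ (inv_nonneg.2 h1.le) ?_ _
    rw [inv_le_comm₀ h1 (Real.exp_pos _), ← Real.exp_neg]
    exact h0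
  refine (hasDerivAt_integral_of_dominated_loc_of_deriv_le (F := fun t x =>
    ((Real.cosh t + Real.sinh t * ⟪x, a⟫) ^ m)⁻¹)
    (F' := fun t x => -(m * (Real.sinh t + Real.cosh t * ⟪x, a⟫) *
      ((Real.cosh t + Real.sinh t * ⟪x, a⟫) ^ (m + 1))⁻¹)) (s := Metric.ball t 1)
    (bound := fun _ => m * (2 * Real.exp (|t| + 1)) * Real.exp (|t| + 1) ^ (m + 1))
    (Metric.ball_mem_nhds t one_pos) ?_ ?_ ?_ ?_ (integrable_const (μ := σ) _) ?_).2
  · exact Eventually.of_forall fun s => hm1 s m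
  · exact Integrable.of_bound (hm1 t m) _ (hb t m)
  · refine Measurable.aestronglyMeasurable ?_
    fun_prop
  · filter_upwards [hM.sph] with x hx s hs
    have hst : |s| ≤ |t| + 1 := by
      have : |s - t| < 1 := by simpa [Real.dist_eq] using hs
      have := abs_sub_abs_le_abs_sub s t
      linarith
    have h0 := ch_pos s ⟪x, a⟫ (abs_inner_le_one hx ha)
    have h1 := ch_pos' s ⟪x, a⟫ (abs_inner_le_one hx ha)
    have e1 : ‖((Real.cosh s + Real.sinh s * ⟪x, a⟫) ^ (m + 1))⁻¹‖ ≤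
        Real.exp (|t| + 1) ^ (m + 1) := by
      rw [norm_inv, norm_pow, Real.norm_of_nonneg h1.le, ← inv_pow]
      refine pow_le_pow_left₀ (inv_nonneg.2 h1.le) ?_ _
      rw [inv_le_comm₀ h1 (Real.exp_pos _), ← Real.exp_neg]
      exact le_trans (Real.exp_le_exp.2 (by linarith)) h0
    have e2 : |Real.sinh s + Real.cosh s * ⟪x, a⟫| ≤ 2 * Real.exp (|t| + 1) := by
      have g1 : |Real.sinh s| ≤ Real.exp |s| := by
        rw [Real.abs_sinh]
        have := Real.sinh_eq |s|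
        have := Real.exp_pos (-|s|)
        have := Real.exp_pos |s|
        linarith
      have g2 : |Real.cosh s| ≤ Real.exp |s| := by
        rw [abs_of_pos (Real.cosh_pos s), ← Real.cosh_abs]
        have := Real.cosh_eq |s|
        have : Real.exp (-|s|) ≤ Real.exp |s| := Real.exp_le_exp.2 (by linarith [abs_nonneg s])
        linarith
      have g3 : |Real.cosh s * ⟪x, a⟫| ≤ |Real.cosh s| := by
        rw [abs_mul]
        exact mul_le_of_le_one_right (abs_nonneg _) (abs_inner_le_one hx ha)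
      have g4 : Real.exp |s| ≤ Real.exp (|t| + 1) := Real.exp_le_exp.2 hst
      calc |Real.sinh s + Real.cosh s * ⟪x, a⟫| ≤ |Real.sinh s| + |Real.cosh s * ⟪x, a⟫| :=
            abs_add_le _ _
        _ ≤ _ := by linarith
    rw [norm_neg, norm_mul, norm_mul, Real.norm_natCast, Real.norm_eq_abs (_ + _)]
    gcongr
  · filter_upwards [hM.sph] with x hx s hs
    have h1 := ch_pos' s ⟪x, a⟫ (abs_inner_le_one hx ha)
    have h2 : HasDerivAt (fun s => Real.cosh s + Real.sinh s * ⟪x, a⟫)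
        (Real.sinh s + Real.cosh s * ⟪x, a⟫) s :=
      (Real.hasDerivAt_cosh s).add ((Real.hasDerivAt_sinh s).mul_const _)
    have h3 := (h2.pow m).inv (pow_ne_zero _ h1.ne')
    refine h3.congr_deriv ?_
    change -((m : ℝ) * (Real.cosh s + Real.sinh s * ⟪x, a⟫) ^ (m - 1) *
      (Real.sinh s + Real.cosh s * ⟪x, a⟫)) / ((Real.cosh s + Real.sinh s * ⟪x, a⟫) ^ m) ^ 2 = _
    clear h3 hb hm1 h2
    generalize Real.cosh s + Real.sinh s * ⟪x, a⟫ = z at *
    generalize Real.sinh s + Real.cosh s * ⟪x, a⟫ = w at *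
    rcases Nat.eq_zero_or_pos m with h | h
    · subst h; simp
    · obtain ⟨k, rfl⟩ : ∃ k, m = k + 1 := ⟨m - 1, by omega⟩
      have : z ≠ 0 := h1.ne'
      simp only [Nat.add_sub_cancel, Pi.pow_apply]
      field_simp
      try ring

/-- the derivative in terms of the normal -/
theorem deriv_fA_eq (hM : MinSurf m σ ν) (a : E) (ha : ‖a‖ = 1) (t : ℝ) :
    ∫ x, -(m * (Real.sinh t + Real.cosh t * ⟪x, a⟫) *
      ((Real.cosh t + Real.sinh t * ⟪x, a⟫) ^ (m + 1))⁻¹) ∂σ =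
    -(m * Real.sinh t * ∫ x, ⟪ν x, a⟫ ^ 2 *
      ((Real.cosh t + Real.sinh t * ⟪x, a⟫) ^ (m + 1))⁻¹ ∂σ) := by
  have := hM.fin
  have hfv := hM.fv _ (sms_h m a ha t) a
  have hb : ∀ᵐ x ∂σ, ‖((Real.cosh t + Real.sinh t * ⟪x, a⟫) ^ (m + 1))⁻¹‖ ≤
      Real.exp |t| ^ (m + 1) := by
    filter_upwards [hM.sph] with x hx
    have h0 := ch_pos t ⟪x, a⟫ (abs_inner_le_one hx ha)
    have h1 := ch_pos' t ⟪x, a⟫ (abs_inner_le_one hx ha)
    rw [norm_inv, norm_pow, Real.norm_of_nonneg h1.le, ← inv_pow]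
    refine pow_le_pow_left₀ (inv_nonneg.2 h1.le) ?_ _
    rw [inv_le_comm₀ h1 (Real.exp_pos _), ← Real.exp_neg]
    exact h0
  have hmK : AEStronglyMeasurable
      (fun x : E => ((Real.cosh t + Real.sinh t * ⟪x, a⟫) ^ (m + 1))⁻¹) σ := by
    refine Measurable.aestronglyMeasurable ?_
    fun_prop
  have hiK : Integrable (fun x : E => ((Real.cosh t + Real.sinh t * ⟪x, a⟫) ^ (m + 1))⁻¹) σ :=
    Integrable.of_bound hmK _ hb
  -- bounded times `K` is integrable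
  have hbi : ∀ u : E → ℝ, AEStronglyMeasurable u σ → (∀ᵐ x ∂σ, ‖u x‖ ≤ 1) →
      Integrable (fun x => u x * ((Real.cosh t + Real.sinh t * ⟪x, a⟫) ^ (m + 1))⁻¹) σ :=
    fun u hu hu1 => hiK.bdd_mul hu hu1
  have mν : AEStronglyMeasurable (fun x => ⟪ν x, a⟫ ^ 2) σ := by
    exact (hM.meas.inner aestronglyMeasurable_const).pow 2
  have my : AEStronglyMeasurable (fun x : E => ⟪x, a⟫) σ := by
    refine Measurable.aestronglyMeasurable ?_
    fun_prop
  have bν : ∀ᵐ x ∂σ, ‖⟪ν x, a⟫ ^ 2‖ ≤ 1 := by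
    filter_upwards [hM.nu1] with x hx
    have := abs_inner_le_one hx ha
    rw [norm_pow, Real.norm_eq_abs]
    exact pow_le_one₀ (abs_nonneg _) this
  have byy : ∀ᵐ x ∂σ, ‖⟪x, a⟫‖ ≤ 1 := by
    filter_upwards [hM.sph] with x hx
    exact abs_inner_le_one hx ha
  have iν := hbi _ mν bν
  have iy := hbi _ my byy
  -- rewrite the first variation
  have e1 : ∫ x, (fderiv ℝ (fun x : E => ((Real.cosh t + Real.sinh t * ⟪x, a⟫) ^ m)⁻¹) x a
      - ⟪x, a⟫ * fderiv ℝ (fun x : E => ((Real.cosh t + Real.sinh t * ⟪x, a⟫) ^ m)⁻¹) x x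
      - ⟪ν x, a⟫ * fderiv ℝ (fun x : E => ((Real.cosh t + Real.sinh t * ⟪x, a⟫) ^ m)⁻¹) x (ν x)) ∂σ
      = ∫ x, -(m * Real.sinh t) * ((1 - ⟪x, a⟫ ^ 2 - ⟪ν x, a⟫ ^ 2) *
        ((Real.cosh t + Real.sinh t * ⟪x, a⟫) ^ (m + 1))⁻¹) ∂σ := by
    refine integral_congr_ae ?_
    filter_upwards [hM.sph] with x hx
    rw [fderiv_h m a ha t x hx, fderiv_h m a ha t x hx, fderiv_h m a ha t x hx,
      real_inner_self_eq_norm_sq, ha]
    ring
  rw [e1] at hfv
  have e2 : ∫ x, ⟪x, a⟫ * ((Real.cosh t + Real.sinh t * ⟪x, a⟫) ^ m)⁻¹ ∂σ =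
      ∫ x, (Real.cosh t * ⟪x, a⟫ + Real.sinh t * ⟪x, a⟫ ^ 2) *
        ((Real.cosh t + Real.sinh t * ⟪x, a⟫) ^ (m + 1))⁻¹ ∂σ := by
    refine integral_congr_ae ?_
    filter_upwards [hM.sph] with x hx
    have h1 := (ch_pos' t ⟪x, a⟫ (abs_inner_le_one hx ha)).ne'
    have : Real.cosh t * ⟪x, a⟫ + Real.sinh t * ⟪x, a⟫ ^ 2 =
      ⟪x, a⟫ * (Real.cosh t + Real.sinh t * ⟪x, a⟫) := by ring
    rw [this]
    generalize Real.cosh t + Real.sinh t * ⟪x, a⟫ = z at *
    rw [pow_succ, mul_inv]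
    field_simp
  rw [e2, ← integral_const_mul] at hfv
  have iy2 := hbi (fun x => ⟪x, a⟫ ^ 2) (my.pow 2) (by
    filter_upwards [byy] with x hx
    rw [norm_pow]
    exact pow_le_one₀ (norm_nonneg _) hx)
  have h1 : ∫ x, (m * ((Real.cosh t * ⟪x, a⟫ + Real.sinh t * ⟪x, a⟫ ^ 2) *
        ((Real.cosh t + Real.sinh t * ⟪x, a⟫) ^ (m + 1))⁻¹) -
        -(m * Real.sinh t) * ((1 - ⟪x, a⟫ ^ 2 - ⟪ν x, a⟫ ^ 2) *
        ((Real.cosh t + Real.sinh t * ⟪x, a⟫) ^ (m + 1))⁻¹)) ∂σ = 0 := by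
    rw [integral_sub, ← hfv, sub_self]
    · have := ((iy.const_mul (Real.cosh t)).add (iy2.const_mul (Real.sinh t))).const_mul (m : ℝ)
      refine this.congr (Eventually.of_forall fun x => ?_)
      simp only [Pi.add_apply]
      ring
    · have := ((hiK.sub iy2).sub iν).const_mul (-(m * Real.sinh t))
      refine this.congr (Eventually.of_forall fun x => ?_)
      simp only [Pi.sub_apply]
      ring
  rw [← integral_const_mul, ← integral_neg, ← sub_eq_zero, ← integral_sub]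
  · rw [← neg_eq_zero, ← integral_neg, ← h1]
    refine integral_congr_ae (Eventually.of_forall fun x => ?_)
    simp only
    ring
  · have := ((hiK.const_mul (Real.sinh t)).add (iy.const_mul (Real.cosh t))).const_mul (-(m : ℝ))
    refine this.congr (Eventually.of_forall fun x => ?_)
    simp only [Pi.add_apply]
    ring
  · exact (iν.const_mul _).neg

theorem fA_zero (hM : MinSurf m σ ν) (a : E) : fA m σ a 0 = σ.real Set.univ := by
  have := hM.fin
  simp [fA]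

/-- nonnegativity of the normal integral -/
theorem normal_int_nonneg (hM : MinSurf m σ ν) (a : E) (ha : ‖a‖ = 1) (t : ℝ) :
    0 ≤ ∫ x, ⟪ν x, a⟫ ^ 2 * ((Real.cosh t + Real.sinh t * ⟪x, a⟫) ^ (m + 1))⁻¹ ∂σ := by
  refine integral_nonneg_of_ae ?_
  filter_upwards [hM.sph] with x hx
  have h1 := (ch_pos' t ⟪x, a⟫ (abs_inner_le_one hx ha))
  positivity

theorem antitoneOn_fA (hM : MinSurf m σ ν) (a : E) (ha : ‖a‖ = 1) :
    AntitoneOn (fA m σ a) (Set.Ici 0) := by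
  refine antitoneOn_of_deriv_nonpos (convex_Ici 0) ?_ ?_ ?_
  · exact fun t _ => (hasDerivAt_fA hM a ha t).continuousAt.continuousWithinAt
  · exact fun t _ => (hasDerivAt_fA hM a ha t).differentiableAt.differentiableWithinAt
  · intro t ht
    rw [interior_Ici] at ht
    rw [(hasDerivAt_fA hM a ha t).deriv, deriv_fA_eq hM a ha t]
    have h1 := normal_int_nonneg hM a ha t
    have h2 : 0 ≤ Real.sinh t := Real.sinh_nonneg_iff.2 (le_of_lt ht)
    have h3 : (0 : ℝ) ≤ m * Real.sinh t := by positivity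
    nlinarith [mul_nonneg h3 h1]

/-- **Conformal area** -/
theorem fA_le (hM : MinSurf m σ ν) (a : E) (ha : ‖a‖ = 1) (t : ℝ) (ht : 0 ≤ t) :
    fA m σ a t ≤ σ.real Set.univ := by
  rw [← fA_zero hM a]
  exact antitoneOn_fA hM a ha (Set.mem_Ici.2 le_rfl) ht ht

theorem fA_eq (hM : MinSurf m σ ν) (hm : 1 ≤ m) (a : E) (ha : ‖a‖ = 1) (t : ℝ) (ht : 0 < t)
    (h : fA m σ a t = σ.real Set.univ) : ∀ᵐ x ∂σ, ⟪ν x, a⟫ = 0 := by
  have := hM.fin
  have hanti := antitoneOn_fA hM a ha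
  have hconst : ∀ s ∈ Set.Ioo 0 t, fA m σ a s = σ.real Set.univ := by
    intro s hs
    refine le_antisymm (fA_le hM a ha s hs.1.le) ?_
    rw [← h]
    exact hanti hs.1.le ht.le hs.2.le
  have hd : HasDerivAt (fA m σ a) 0 (t / 2) := by
    have : fA m σ a =ᶠ[𝓝 (t / 2)] fun _ => σ.real Set.univ := by
      filter_upwards [Ioo_mem_nhds (show (0:ℝ) < t / 2 by linarith) (show t / 2 < t by linarith)]
        with s hs
      exact hconst s hs
    exact (hasDerivAt_const _ _).congr_of_eventuallyEq this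
  have h0 := (hasDerivAt_fA hM a ha (t / 2)).unique hd
  rw [deriv_fA_eq hM a ha, neg_eq_zero] at h0
  have hsh : (m : ℝ) * Real.sinh (t / 2) ≠ 0 := by
    have h2 : 0 < Real.sinh (t / 2) := Real.sinh_pos_iff.2 (by linarith)
    have h1 : (0 : ℝ) < m := by exact_mod_cast hm
    positivity
  have h1 := (mul_eq_zero.1 h0).resolve_left hsh
  rw [integral_eq_zero_iff_of_nonneg_ae] at h1
  · filter_upwards [h1, hM.sph] with x hx hx1
    have h2 := (ch_pos' (t / 2) ⟪x, a⟫ (abs_inner_le_one hx1 ha))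
    have h3 : ((Real.cosh (t / 2) + Real.sinh (t / 2) * ⟪x, a⟫) ^ (m + 1))⁻¹ ≠ 0 := by positivity
    simp only [Pi.zero_apply, mul_eq_zero, h3, or_false] at hx
    exact pow_eq_zero_iff (two_ne_zero) |>.1 hx
  · filter_upwards [hM.sph] with x hx
    have h2 := (ch_pos' (t / 2) ⟪x, a⟫ (abs_inner_le_one hx ha))
    simp only [Pi.zero_apply]
    positivity
  · have hmK : AEStronglyMeasurable
        (fun x : E => ((Real.cosh (t / 2) + Real.sinh (t / 2) * ⟪x, a⟫) ^ (m + 1))⁻¹) σ := by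
      refine Measurable.aestronglyMeasurable ?_
      fun_prop
    have hb : ∀ᵐ x ∂σ, ‖((Real.cosh (t / 2) + Real.sinh (t / 2) * ⟪x, a⟫) ^ (m + 1))⁻¹‖ ≤
        Real.exp |t / 2| ^ (m + 1) := by
      filter_upwards [hM.sph] with x hx
      have h0 := ch_pos (t / 2) ⟪x, a⟫ (abs_inner_le_one hx ha)
      have h1 := ch_pos' (t / 2) ⟪x, a⟫ (abs_inner_le_one hx ha)
      rw [norm_inv, norm_pow, Real.norm_of_nonneg h1.le, ← inv_pow]
      refine pow_le_pow_left₀ (inv_nonneg.2 h1.le) ?_ _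
      rw [inv_le_comm₀ h1 (Real.exp_pos _), ← Real.exp_neg]
      exact h0
    refine (Integrable.of_bound hmK _ hb).bdd_mul (c := 1)
      ((hM.meas.inner aestronglyMeasurable_const).pow 2) ?_
    filter_upwards [hM.nu1] with x hx
    have := abs_inner_le_one hx ha
    rw [norm_pow, Real.norm_eq_abs]
    exact pow_le_one₀ (abs_nonneg _) this

end deriv

end Crest.Agent.R246.Hersch900
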