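import Mathlib.Analysis.InnerProductSpace.Dual
import Mathlib.Analysis.Convex.SpecificFunctions.Basic
import Mathlib.Analysis.SpecialFunctions.Arsinh
import Mathlib.MeasureTheory.Function.LocallyIntegrable
import Crest.Agent.R246.Hersch2_900

/-!
R246, part I (II): Hersch's trick for weak minimal hypersurfaces of the sphere:
if `∫ A2 g = 0 ⇒ ∫ A2 g² ≤ ∫ |∇g|²` then `∫ A2 ≤ m σ`, with the equality case.
-/

set_option autoImplicit false

open MeasureTheory Filter Topology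
open scoped RealInnerProductSpace ContDiff

set_option linter.unusedSectionVars false
set_option linter.unusedVariables false

namespace Crest.Agent.R246.Hersch900

variable {E : Type*} [NormedAddCommGroup E] [InnerProductSpace ℝ E]

/-! ### gradient of the coordinates of `F` -/

/-- the gradient of `x ↦ ⟪F v x, b⟫` -/
noncomputable def G (v b x : E) : E :=
  ((1 - ‖v‖ ^ 2) / ‖x - v‖ ^ 2) • (b - (2 * ⟪x - v, b⟫ / ‖x - v‖ ^ 2) • (x - v))

theorem hasFDerivAt_F {v x : E} (h : x ≠ v) (b : E) :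
    HasFDerivAt (fun x => ⟪F v x, b⟫) (innerSL ℝ (G v b x)) x := by
  have h0 : (0:ℝ) < ‖x - v‖ ^ 2 := norm_sub_sq_pos h
  have h1 : HasFDerivAt (fun x : E => ⟪x - v, b⟫) (innerSL ℝ b) x := by
    have := (innerSL ℝ b).hasFDerivAt (x := x)
    have h2 : HasFDerivAt (fun x : E => innerSL ℝ b x - ⟪v, b⟫) (innerSL ℝ b) x :=
      this.sub_const _
    refine h2.congr_of_eventuallyEq (Eventually.of_forall fun y => ?_)
    simp [real_inner_comm, inner_sub_left]
  have h2 : HasFDerivAt (fun x : E => ‖x - v‖ ^ 2) (2 • innerSL ℝ (x - v)) x := by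
    have := (hasStrictFDerivAt_norm_sq (x - v)).hasFDerivAt.comp x
      ((hasFDerivAt_id x).sub_const v)
    exact this
  have h3 : HasFDerivAt (fun x : E => (‖x - v‖ ^ 2)⁻¹)
      ((-((‖x - v‖ ^ 2) ^ 2)⁻¹) • (2 • innerSL ℝ (x - v))) x :=
    (hasDerivAt_inv h0.ne').comp_hasFDerivAt x h2
  have h4 := ((h1.mul h3).const_mul (1 - ‖v‖ ^ 2)).sub_const ⟪v, b⟫
  refine (h4.congr_fderiv ?_).congr_of_eventuallyEq (Eventually.of_forall fun y => ?_)
  · ext e
    simp only [G, map_smul, smul_apply, add_apply, innerSL_apply_apply, smul_eq_mul,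
      nsmul_eq_mul, Nat.cast_ofNat]
    generalize x - v = w at *
    rw [inner_sub_left, real_inner_smul_left]
    generalize ‖w‖ ^ 2 = d at *
    field_simp
    ring
  · simp only [F, inner_sub_left, real_inner_smul_left, Pi.mul_apply]
    ring

theorem norm_refl_sq {w : E} (h0 : (0:ℝ) < ‖w‖ ^ 2) (b : E) :
    ‖b - (2 * ⟪w, b⟫ / ‖w‖ ^ 2) • w‖ ^ 2 = ‖b‖ ^ 2 := by
  rw [norm_sub_sq_real, norm_smul,
    real_inner_smul_right, mul_pow, Real.norm_eq_abs, sq_abs, real_inner_comm w b]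
  generalize ‖w‖ ^ 2 = d at *
  field_simp
  ring

theorem norm_G_sq {v x : E} (h : x ≠ v) (b : E) :
    ‖G v b x‖ ^ 2 = ((1 - ‖v‖ ^ 2) / ‖x - v‖ ^ 2) ^ 2 * ‖b‖ ^ 2 := by
  have h0 : (0:ℝ) < ‖x - v‖ ^ 2 := norm_sub_sq_pos h
  unfold G
  rw [norm_smul, mul_pow, Real.norm_eq_abs, sq_abs, norm_refl_sq h0]

/-- the reflection -/
noncomputable def Rf (v x y : E) : E := y - (2 * ⟪x - v, y⟫ / ‖x - v‖ ^ 2) • (x - v)

theorem norm_Rf_sq {v x : E} (h : x ≠ v) (y : E) : ‖Rf v x y‖ ^ 2 = ‖y‖ ^ 2 :=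
  norm_refl_sq (norm_sub_sq_pos h) y

theorem inner_G {v x : E} (b y : E) :
    ⟪G v b x, y⟫ = ((1 - ‖v‖ ^ 2) / ‖x - v‖ ^ 2) * ⟪b, Rf v x y⟫ := by
  unfold G Rf
  rw [real_inner_smul_left, inner_sub_left, inner_sub_right, real_inner_smul_left,
    real_inner_smul_right, real_inner_comm (x - v) b]
  ring

variable [FiniteDimensional ℝ E] [MeasurableSpace E] [BorelSpace E]

theorem sum_T_F {m : ℕ} (hdim : Module.finrank ℝ E = m + 2) {v x : E} (h : x ≠ v)
    (hx : ‖x‖ = 1) (ν : E → E) (hy : ‖ν x‖ = 1) :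
    ∑ i, T ν (fun x => ⟪F v x, stdOrthonormalBasis ℝ E i⟫) x =
      m * ((1 - ‖v‖ ^ 2) / ‖x - v‖ ^ 2) ^ 2 := by
  unfold T
  simp only [(hasFDerivAt_F h _).fderiv, innerSL_apply_norm, innerSL_apply_apply, norm_G_sq h,
    inner_G, OrthonormalBasis.norm_eq_one]
  rw [Finset.sum_sub_distrib, Finset.sum_sub_distrib]
  simp only [mul_pow, ← Finset.mul_sum]
  have e : ∀ z : E, ∑ i, ⟪stdOrthonormalBasis ℝ E i, z⟫ ^ 2 = ‖z‖ ^ 2 := fun z => by
    rw [← OrthonormalBasis.sum_sq_norm_inner_right (stdOrthonormalBasis ℝ E) z]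
    simp
  rw [e, e, norm_Rf_sq h, norm_Rf_sq h, hx, hy]
  simp [hdim]
  ring


/-! ### integrability -/

section main

variable {m : ℕ} {σ : Measure E} {ν : E → E}

theorem SmS.bound {h : E → ℝ} (hh : SmS h) :
    ∃ C : ℝ, ∀ x, ‖x‖ = 1 → |h x| ≤ C ∧ ‖fderiv ℝ h x‖ ≤ C := by
  have hc : IsCompact (Metric.sphere (0:E) 1) := isCompact_sphere 0 1
  have h1 : ContinuousOn h (Metric.sphere (0:E) 1) := fun x hx =>
    (hh x (by simpa using hx)).continuousAt.continuousWithinAt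
  have h2 : ContinuousOn (fderiv ℝ h) (Metric.sphere (0:E) 1) := fun x hx =>
    ((hh x (by simpa using hx)).fderiv_right (m := 0) (by norm_num)).continuousAt.continuousWithinAt
  obtain ⟨C1, hC1⟩ := hc.exists_bound_of_continuousOn h1
  obtain ⟨C2, hC2⟩ := hc.exists_bound_of_continuousOn h2
  refine ⟨max C1 C2, fun x hx => ⟨?_, ?_⟩⟩
  · exact le_trans (hC1 x (by simpa using hx)) (le_max_left _ _)
  · exact le_trans (hC2 x (by simpa using hx)) (le_max_right _ _)

theorem restrict_sphere (hM : MinSurf m σ ν) : σ.restrict (Metric.sphere (0:E) 1) = σ := by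
  refine Measure.restrict_eq_self_of_ae_mem ?_
  filter_upwards [hM.sph] with x hx
  simpa using hx

theorem SmS.meas {h : E → ℝ} (hh : SmS h) (hM : MinSurf m σ ν) : AEStronglyMeasurable h σ := by
  have h1 : ContinuousOn h (Metric.sphere (0:E) 1) := fun x hx =>
    (hh x (by simpa using hx)).continuousAt.continuousWithinAt
  have := h1.aestronglyMeasurable (μ := σ) Metric.isClosed_sphere.measurableSet
  rwa [restrict_sphere hM] at this

theorem SmS.meas_fderiv {h : E → ℝ} (hh : SmS h) (hM : MinSurf m σ ν) :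
    AEStronglyMeasurable (fderiv ℝ h) σ := by
  have h1 : ContinuousOn (fderiv ℝ h) (Metric.sphere (0:E) 1) := fun x hx =>
    ((hh x (by simpa using hx)).fderiv_right (m := 0) (by norm_num)).continuousAt.continuousWithinAt
  have := h1.aestronglyMeasurable (μ := σ) Metric.isClosed_sphere.measurableSet
  rwa [restrict_sphere hM] at this

theorem SmS.meas_fderiv_apply {h : E → ℝ} (hh : SmS h) (hM : MinSurf m σ ν) {w : E → E}
    (hw : AEStronglyMeasurable w σ) :
    AEStronglyMeasurable (fun x => fderiv ℝ h x (w x)) σ :=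
  (isBoundedBilinearMap_apply (𝕜 := ℝ) (E := E) (F := ℝ)).continuous.comp_aestronglyMeasurable
    ((hh.meas_fderiv hM).prodMk hw)

theorem SmS.integrable {h : E → ℝ} (hh : SmS h) (hM : MinSurf m σ ν) : Integrable h σ := by
  have := hM.fin
  obtain ⟨C, hC⟩ := hh.bound
  refine Integrable.of_bound (hh.meas hM) C ?_
  filter_upwards [hM.sph] with x hx
  exact (hC x hx).1

theorem SmS.integrable_T {h : E → ℝ} (hh : SmS h) (hM : MinSurf m σ ν) :
    Integrable (T ν h) σ := by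
  have := hM.fin
  obtain ⟨C, hC⟩ := hh.bound
  have m1 := hh.meas_fderiv hM
  have m2 := hh.meas_fderiv_apply hM (w := fun x => x) aestronglyMeasurable_id
  have m3 := hh.meas_fderiv_apply hM hM.meas
  have i1 : Integrable (fun x => ‖fderiv ℝ h x‖ ^ 2) σ := by
    refine Integrable.of_bound (m1.norm.pow 2) (C ^ 2) ?_
    filter_upwards [hM.sph] with x hx
    rw [norm_pow, norm_norm]
    exact pow_le_pow_left₀ (norm_nonneg _) (hC x hx).2 2
  have i2 : Integrable (fun x => (fderiv ℝ h x x) ^ 2) σ := by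
    refine Integrable.of_bound (m2.pow 2) (C ^ 2) ?_
    filter_upwards [hM.sph] with x hx
    rw [norm_pow]
    refine pow_le_pow_left₀ (norm_nonneg _) ?_ 2
    refine le_trans ((fderiv ℝ h x).le_opNorm x) ?_
    rw [hx, mul_one]
    exact (hC x hx).2
  have i3 : Integrable (fun x => (fderiv ℝ h x (ν x)) ^ 2) σ := by
    refine Integrable.of_bound (m3.pow 2) (C ^ 2) ?_
    filter_upwards [hM.sph, hM.nu1] with x hx hn
    rw [norm_pow]
    refine pow_le_pow_left₀ (norm_nonneg _) ?_ 2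
    refine le_trans ((fderiv ℝ h x).le_opNorm _) ?_
    rw [hn, mul_one]
    exact (hC x hx).2
  exact (i1.sub i2).sub i3

/-- the bilinear term with a linear function -/
noncomputable def Bl (ν : E → E) (h : E → ℝ) (e x : E) : ℝ :=
  fderiv ℝ h x e - ⟪x, e⟫ * fderiv ℝ h x x - ⟪ν x, e⟫ * fderiv ℝ h x (ν x)

theorem SmS.integrable_Bl {h : E → ℝ} (hh : SmS h) (hM : MinSurf m σ ν) (e : E) :
    Integrable (Bl ν h e) σ := by
  have := hM.fin
  obtain ⟨C, hC⟩ := hh.bound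
  have m1 := hh.meas_fderiv_apply hM (w := fun _ => e) aestronglyMeasurable_const
  have m2 := hh.meas_fderiv_apply hM (w := fun x => x) aestronglyMeasurable_id
  have m3 := hh.meas_fderiv_apply hM hM.meas
  have n2 : AEStronglyMeasurable (fun x : E => ⟪x, e⟫) σ :=
    aestronglyMeasurable_id.inner aestronglyMeasurable_const
  have n3 : AEStronglyMeasurable (fun x : E => ⟪ν x, e⟫) σ :=
    hM.meas.inner aestronglyMeasurable_const
  have i1 : Integrable (fun x => fderiv ℝ h x e) σ := by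
    refine Integrable.of_bound m1 (C * ‖e‖) ?_
    filter_upwards [hM.sph] with x hx
    refine le_trans ((fderiv ℝ h x).le_opNorm e) ?_
    gcongr
    exact (hC x hx).2
  have i2 : Integrable (fun x => ⟪x, e⟫ * fderiv ℝ h x x) σ := by
    refine Integrable.of_bound (n2.mul m2) (‖e‖ * C) ?_
    filter_upwards [hM.sph] with x hx
    rw [norm_mul]
    have a1 : ‖⟪x, e⟫‖ ≤ ‖e‖ := by
      have := norm_inner_le_norm (𝕜 := ℝ) x e
      rwa [hx, one_mul] at this
    have a2 : ‖fderiv ℝ h x x‖ ≤ C := by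
      refine le_trans ((fderiv ℝ h x).le_opNorm x) ?_
      rw [hx, mul_one]
      exact (hC x hx).2
    gcongr
  have i3 : Integrable (fun x => ⟪ν x, e⟫ * fderiv ℝ h x (ν x)) σ := by
    refine Integrable.of_bound (n3.mul m3) (‖e‖ * C) ?_
    filter_upwards [hM.sph, hM.nu1] with x hx hn
    rw [norm_mul]
    have a1 : ‖⟪ν x, e⟫‖ ≤ ‖e‖ := by
      have := norm_inner_le_norm (𝕜 := ℝ) (ν x) e
      rwa [hn, one_mul] at this
    have a2 : ‖fderiv ℝ h x (ν x)‖ ≤ C := by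
      refine le_trans ((fderiv ℝ h x).le_opNorm _) ?_
      rw [hn, mul_one]
      exact (hC x hx).2
    gcongr
  exact (i1.sub i2).sub i3

theorem T_expand (e : E) {h : E → ℝ} {x : E} (hd : DifferentiableAt ℝ h x) (t : ℝ) :
    T ν (fun y => ⟪y, e⟫ + t * h y) x =
      T ν (fun y => ⟪y, e⟫) x + 2 * t * Bl ν h e x + t ^ 2 * T ν h x := by
  have h1 : HasFDerivAt (fun x : E => ⟪x, e⟫) (innerSL ℝ e) x := by
    have := (innerSL ℝ e).hasFDerivAt (x := x)
    refine this.congr_of_eventuallyEq (Eventually.of_forall fun y => ?_)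
    simp [real_inner_comm]
  have h2 : HasFDerivAt (fun y => ⟪y, e⟫ + t * h y) (innerSL ℝ e + t • fderiv ℝ h x) x :=
    h1.add (hd.hasFDerivAt.const_mul t)
  unfold T Bl
  rw [h2.fderiv, h1.fderiv]
  simp only [add_apply, smul_apply, innerSL_apply_apply, smul_eq_mul]
  obtain ⟨w, hw⟩ : ∃ w, fderiv ℝ h x = innerSL ℝ w :=
    ⟨(InnerProductSpace.toDual ℝ E).symm (fderiv ℝ h x), by
      ext y; simp⟩
  rw [hw]
  have e1 : innerSL ℝ e + t • innerSL ℝ w = innerSL ℝ (e + t • w) := by simp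
  rw [e1, innerSL_apply_norm, innerSL_apply_norm, innerSL_apply_norm, norm_add_sq_real,
    norm_smul, mul_pow, Real.norm_eq_abs, sq_abs, real_inner_smul_right]
  simp only [innerSL_apply_apply]
  rw [real_inner_comm e w, real_inner_comm e x, real_inner_comm e (ν x)]
  ring

theorem sms_linear (e : E) : SmS (fun y : E => ⟪y, e⟫) := fun x _ =>
  contDiffAt_id.inner ℝ contDiffAt_const

theorem SmS.add_mul {h : E → ℝ} (hh : SmS h) (e : E) (t : ℝ) :
    SmS (fun y : E => ⟪y, e⟫ + t * h y) := fun x hx =>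
  (sms_linear e x hx).add (contDiffAt_const.mul (hh x hx))

theorem bernoulli_aux (m : ℕ) (hm : 2 ≤ m) (l : ℝ) (hl : 0 ≤ l) :
    m * l ^ 2 ≤ 2 * l ^ m + (m - 2) := by
  have h := one_add_mul_self_le_rpow_one_add (s := l ^ 2 - 1) (by nlinarith [sq_nonneg l])
    (p := (m : ℝ) / 2) (by
      rw [le_div_iff₀ two_pos]
      have : (2 : ℝ) ≤ m := by exact_mod_cast hm
      linarith)
  have e : (1 + (l ^ 2 - 1)) ^ ((m : ℝ) / 2) = l ^ m := by
    rw [show 1 + (l ^ 2 - 1) = l ^ (2 : ℝ) by norm_num, ← Real.rpow_mul hl,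
      show (2 : ℝ) * (m / 2) = m by ring, Real.rpow_natCast]
  rw [e] at h
  linarith

/-- the conformal factor in hyperbolic coordinates -/
theorem conf_eq {v : E} (hv : ‖v‖ < 1) (hv0 : v ≠ 0) :
    ∃ (a : E) (t : ℝ), ‖a‖ = 1 ∧ 0 < t ∧ ∀ x : E, ‖x‖ = 1 →
      (1 - ‖v‖ ^ 2) / ‖x - v‖ ^ 2 = (Real.cosh t + Real.sinh t * ⟪x, a⟫)⁻¹ := by
  have hn : 0 < ‖v‖ := norm_pos_iff.2 hv0
  have hd : 0 < 1 - ‖v‖ ^ 2 := by nlinarith
  refine ⟨-(‖v‖⁻¹ • v), Real.arsinh (2 * ‖v‖ / (1 - ‖v‖ ^ 2)), ?_, ?_, ?_⟩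
  · rw [norm_neg, norm_smul, norm_inv, norm_norm, inv_mul_cancel₀ hn.ne']
  · rw [Real.arsinh_pos_iff]
    positivity
  · intro x hx
    rw [Real.sinh_arsinh, Real.cosh_arsinh]
    have e1 : √(1 + (2 * ‖v‖ / (1 - ‖v‖ ^ 2)) ^ 2) = (1 + ‖v‖ ^ 2) / (1 - ‖v‖ ^ 2) := by
      rw [show 1 + (2 * ‖v‖ / (1 - ‖v‖ ^ 2)) ^ 2 = ((1 + ‖v‖ ^ 2) / (1 - ‖v‖ ^ 2)) ^ 2 by
        field_simp; ring]
      exact Real.sqrt_sq (by positivity)
    rw [e1, inner_neg_right, real_inner_smul_right, norm_sub_sq_real, hx]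
    rw [show (1 + ‖v‖ ^ 2) / (1 - ‖v‖ ^ 2) + 2 * ‖v‖ / (1 - ‖v‖ ^ 2) * -(‖v‖⁻¹ * ⟪x, v⟫) =
      (1 ^ 2 - 2 * ⟪x, v⟫ + ‖v‖ ^ 2) / (1 - ‖v‖ ^ 2) by field_simp; ring]
    rw [inv_div]

/-- `∫ m λ² ≤ m σ`, `λ` the conformal factor; with equality information -/
theorem conf_bound (hM : MinSurf m σ ν) (hm : 2 ≤ m) {v : E} (hv : ‖v‖ < 1) :
    Integrable (fun x => m * ((1 - ‖v‖ ^ 2) / ‖x - v‖ ^ 2) ^ 2) σ ∧
    ∫ x, m * ((1 - ‖v‖ ^ 2) / ‖x - v‖ ^ 2) ^ 2 ∂σ ≤ m * σ.real Set.univ ∧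
    (v ≠ 0 → ∫ x, m * ((1 - ‖v‖ ^ 2) / ‖x - v‖ ^ 2) ^ 2 ∂σ = m * σ.real Set.univ →
      ∃ a : E, ‖a‖ = 1 ∧ ∀ᵐ x ∂σ, ⟪ν x, a⟫ = 0) := by
  have := hM.fin
  rcases eq_or_ne v 0 with h0 | h0
  · subst h0
    have e : (fun x : E => (m : ℝ) * ((1 - ‖(0 : E)‖ ^ 2) / ‖x - 0‖ ^ 2) ^ 2) =ᵐ[σ]
        fun _ => (m : ℝ) := by
      filter_upwards [hM.sph] with x hx
      simp [hx]
    refine ⟨(integrable_const (m : ℝ)).congr e.symm, ?_, fun h => absurd rfl h⟩
    rw [integral_congr_ae e]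
    simp [mul_comm]
  · obtain ⟨a, t, ha, ht, hc⟩ := conf_eq hv h0
    have e : (fun x : E => (m : ℝ) * ((1 - ‖v‖ ^ 2) / ‖x - v‖ ^ 2) ^ 2) =ᵐ[σ]
        fun x => (m : ℝ) * ((Real.cosh t + Real.sinh t * ⟪x, a⟫)⁻¹) ^ 2 := by
      filter_upwards [hM.sph] with x hx
      rw [hc x hx]
    have i2 : Integrable (fun x : E => (m : ℝ) * ((Real.cosh t + Real.sinh t * ⟪x, a⟫)⁻¹) ^ 2) σ := by
      have := ((sms_h 2 a ha t).integrable hM).const_mul (m : ℝ)
      refine this.congr (Eventually.of_forall fun x => ?_)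
      simp only [inv_pow]
    have im : Integrable (fun x : E => ((Real.cosh t + Real.sinh t * ⟪x, a⟫) ^ m)⁻¹) σ :=
      (sms_h m a ha t).integrable hM
    have hle : ∫ x, (m : ℝ) * ((Real.cosh t + Real.sinh t * ⟪x, a⟫)⁻¹) ^ 2 ∂σ ≤
        2 * fA m σ a t + (m - 2) * σ.real Set.univ := by
      have h1 : ∫ x, (m : ℝ) * ((Real.cosh t + Real.sinh t * ⟪x, a⟫)⁻¹) ^ 2 ∂σ ≤
          ∫ x, (2 * ((Real.cosh t + Real.sinh t * ⟪x, a⟫) ^ m)⁻¹ + ((m : ℝ) - 2)) ∂σ := by
        refine integral_mono_ae i2 ((im.const_mul 2).add (integrable_const _)) ?_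
        filter_upwards [hM.sph] with x hx
        have h0 := ch_pos' t ⟪x, a⟫ (abs_inner_le_one hx ha)
        have := bernoulli_aux m hm _ (inv_nonneg.2 h0.le)
        simpa [inv_pow] using this
      refine h1.trans (le_of_eq ?_)
      rw [integral_add (im.const_mul 2) (integrable_const _), integral_const_mul]
      simp [fA, mul_comm]
    have hfA := fA_le hM a ha t ht.le
    refine ⟨i2.congr e.symm, ?_, fun _ heq => ⟨a, ha, ?_⟩⟩
    · rw [integral_congr_ae e]
      linarith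
    · rw [integral_congr_ae e] at heq
      exact fA_eq hM (by omega) a ha t ht (by linarith)

/-- **Hersch's trick**, weak form. -/
theorem hersch_main (hM : MinSurf m σ ν) (hm : 2 ≤ m) (hdim : Module.finrank ℝ E = m + 2)
    (A2 : E → ℝ) (hA : Integrable A2 σ) (hA0 : ∀ᵐ x ∂σ, 0 ≤ A2 x)
    (hidx : ∀ h : E → ℝ, SmS h → ∫ x, A2 x * h x ∂σ = 0 →
      ∫ x, A2 x * h x ^ 2 ∂σ ≤ ∫ x, T ν h x ∂σ) :
    ∫ x, A2 x ∂σ ≤ m * σ.real Set.univ ∧
    (∫ x, A2 x ∂σ = m * σ.real Set.univ →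
      (∃ a : E, ‖a‖ = 1 ∧ ∀ᵐ x ∂σ, ⟪ν x, a⟫ = 0) ∨ ∀ᵐ x ∂σ, A2 x = m) := by
  classical
  have := hM.fin
  have hAm : AEMeasurable (fun x => ENNReal.ofReal (A2 x)) σ := hA.aemeasurable.ennreal_ofReal
  have hbA : ∀ {h : E → ℝ}, SmS h → Integrable (fun x => A2 x * h x) σ := by
    intro h hh
    obtain ⟨C, hC⟩ := hh.bound
    have := hA.bdd_mul (c := C) (hh.meas hM) (by
      filter_upwards [hM.sph] with x hx
      exact (hC x hx).1)
    refine this.congr (Eventually.of_forall fun x => ?_)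
    simp only [mul_comm]
  have hbA2 : ∀ {h : E → ℝ}, SmS h → Integrable (fun x => A2 x * h x ^ 2) σ := by
    intro h hh
    exact hbA (h := fun x => h x ^ 2) fun x hx => (hh x hx).pow 2
  by_cases hz : σ.withDensity (fun x => ENNReal.ofReal (A2 x)) = 0
  · -- `A2 = 0` a.e.
    have h1 : ∀ᵐ x ∂σ, A2 x = 0 := by
      have := (withDensity_eq_zero_iff hAm).1 hz
      filter_upwards [this, hA0] with x hx h0
      have hx' : A2 x ≤ 0 := by simpa using hx
      exact le_antisymm hx' h0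
    have h2 : ∫ x, A2 x ∂σ = 0 := by
      rw [integral_congr_ae h1]; simp
    rw [h2]
    refine ⟨by positivity, fun h => Or.inr ?_⟩
    have hσ : σ.real Set.univ = 0 := by
      have hm0 : (m : ℝ) ≠ 0 := by
        have : (2 : ℝ) ≤ m := by exact_mod_cast hm
        positivity
      exact (mul_eq_zero.1 h.symm).resolve_left hm0
    have : σ = 0 := by
      rw [Measure.real, ENNReal.toReal_eq_zero_iff] at hσ
      rcases hσ with h | h
      · exact Measure.measure_univ_eq_zero.1 h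
      · exact absurd h (measure_ne_top _ _)
    rw [this]
    simp
  -- balancing
  have hfin : IsFiniteMeasure (σ.withDensity fun x => ENNReal.ofReal (A2 x)) :=
    isFiniteMeasure_withDensity_ofReal hA.2
  have hac := withDensity_absolutelyContinuous σ (fun x => ENNReal.ofReal (A2 x))
  obtain ⟨v, hv, hbal⟩ := exists_balanced (σ.withDensity fun x => ENNReal.ofReal (A2 x))
    (fun x => hac (hM.atom x)) hz (hac.ae_le hM.sph)
  rw [integral_withDensity_eq_integral_toReal_smul₀ hAm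
    (Eventually.of_forall fun _ => ENNReal.ofReal_lt_top)] at hbal
  have hbal' : ∫ x, A2 x • F v x ∂σ = 0 := by
    rw [← hbal]
    refine integral_congr_ae ?_
    filter_upwards [hA0] with x hx
    rw [ENNReal.toReal_ofReal hx]
  have hIF : Integrable (fun x => A2 x • F v x) σ := by
    refine hA.mono (hA.aestronglyMeasurable.smul (aestronglyMeasurable_F v σ)) ?_
    filter_upwards [hM.sph] with x hx
    rw [norm_smul]
    exact mul_le_of_le_one_right (norm_nonneg _) (norm_F_le hx hv.le)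
  set b := stdOrthonormalBasis ℝ E with hb
  have hne : ∀ x : E, ‖x‖ = 1 → x ≠ v := by
    rintro x hx rfl
    exact absurd hx hv.ne
  have hsm : ∀ i, SmS (fun x => ⟪F v x, b i⟫) := by
    intro i x hx
    have h0 := (norm_sub_sq_pos (hne x hx)).ne'
    have h1 : ContDiffAt ℝ ∞ (fun x : E => F v x) x := by
      unfold F
      refine ContDiffAt.sub (ContDiffAt.smul (ContDiffAt.div contDiffAt_const ?_ h0) ?_)
        contDiffAt_const
      · exact (contDiffAt_id.sub contDiffAt_const).norm_sq ℝ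
      · exact contDiffAt_id.sub contDiffAt_const
    exact h1.inner ℝ contDiffAt_const
  have hbi : ∀ i, ∫ x, A2 x * ⟪F v x, b i⟫ ∂σ = 0 := by
    intro i
    have h1 := integral_inner (𝕜 := ℝ) hIF (b i)
    rw [hbal', inner_zero_right] at h1
    rw [← h1]
    refine integral_congr_ae (Eventually.of_forall fun x => ?_)
    simp only
    rw [real_inner_comm, real_inner_smul_right]
    try rw [real_inner_comm]
  have hle : ∀ i, ∫ x, A2 x * ⟪F v x, b i⟫ ^ 2 ∂σ ≤
      ∫ x, T ν (fun x => ⟪F v x, b i⟫) x ∂σ := fun i => hidx _ (hsm i) (hbi i)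
  have hsumA : ∫ x, A2 x ∂σ = ∑ i, ∫ x, A2 x * ⟪F v x, b i⟫ ^ 2 ∂σ := by
    rw [← integral_finsetSum _ fun i _ => hbA2 (hsm i)]
    refine integral_congr_ae ?_
    filter_upwards [hM.sph] with x hx
    rw [← Finset.mul_sum, b.sum_sq_inner_left, norm_F_sq hx (hne x hx), mul_one]
  have hsumT : ∑ i, ∫ x, T ν (fun x => ⟪F v x, b i⟫) x ∂σ =
      ∫ x, m * ((1 - ‖v‖ ^ 2) / ‖x - v‖ ^ 2) ^ 2 ∂σ := by
    rw [← integral_finsetSum _ fun i _ => (hsm i).integrable_T hM]
    refine integral_congr_ae ?_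
    filter_upwards [hM.sph, hM.nu1] with x hx hn
    exact sum_T_F hdim (hne x hx) hx ν hn
  obtain ⟨-, hc1, hc2⟩ := conf_bound hM hm hv
  have hmain : ∫ x, A2 x ∂σ ≤ ∫ x, m * ((1 - ‖v‖ ^ 2) / ‖x - v‖ ^ 2) ^ 2 ∂σ := by
    rw [hsumA, ← hsumT]
    exact Finset.sum_le_sum fun i _ => hle i
  refine ⟨hmain.trans hc1, fun heq => ?_⟩
  rcases ne_or_eq v 0 with hv0 | hv0
  · exact Or.inl (hc2 hv0 (le_antisymm hc1 (heq ▸ hmain)))
  right
  -- the case `v = 0`
  subst hv0
  have hF0 : ∀ x : E, ‖x‖ = 1 → F 0 x = x := by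
    intro x hx
    simp [F, hx]
  have hbl : ∀ i, ∫ x, A2 x * ⟪x, b i⟫ ∂σ = 0 := by
    intro i
    rw [← hbi i]
    refine integral_congr_ae ?_
    filter_upwards [hM.sph] with x hx
    rw [hF0 x hx]
  have hsumA' : ∫ x, A2 x ∂σ = ∑ i, ∫ x, A2 x * ⟪x, b i⟫ ^ 2 ∂σ := by
    rw [← integral_finsetSum _ fun i _ => hbA2 (sms_linear (b i))]
    refine integral_congr_ae ?_
    filter_upwards [hM.sph] with x hx
    rw [← Finset.mul_sum, b.sum_sq_inner_left, hx, one_pow, mul_one]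
  have hsumT' : ∑ i, ∫ x, T ν (fun x => ⟪x, b i⟫) x ∂σ = m * σ.real Set.univ := by
    rw [← integral_finsetSum _ fun i _ => (sms_linear (b i)).integrable_T hM]
    have : (fun x => ∑ i, T ν (fun x => ⟪x, b i⟫) x) =ᵐ[σ] fun _ => (m : ℝ) := by
      filter_upwards [hM.sph, hM.nu1] with x hx hn
      have h1 : ∀ e : E, fderiv ℝ (fun x : E => ⟪x, e⟫) x = innerSL ℝ e := by
        intro e
        have := (innerSL ℝ e).hasFDerivAt (x := x)
        refine (this.congr_of_eventuallyEq (Eventually.of_forall fun y => ?_)).fderiv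
        simp [real_inner_comm]
      unfold T
      simp only [h1, innerSL_apply_norm, innerSL_apply_apply, OrthonormalBasis.norm_eq_one]
      rw [Finset.sum_sub_distrib, Finset.sum_sub_distrib, b.sum_sq_inner_right,
        b.sum_sq_inner_right, hx, hn]
      simp [hdim]
      ring
    rw [integral_congr_ae this]
    simp [mul_comm]
  have heqi : ∀ i, ∫ x, A2 x * ⟪x, b i⟫ ^ 2 ∂σ = ∫ x, T ν (fun x => ⟪x, b i⟫) x ∂σ := by
    have h1 : ∀ i ∈ Finset.univ, ∫ x, A2 x * ⟪x, b i⟫ ^ 2 ∂σ ≤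
        ∫ x, T ν (fun x => ⟪x, b i⟫) x ∂σ := fun i _ => hidx _ (sms_linear (b i)) (hbl i)
    have h2 : ∑ i, ∫ x, A2 x * ⟪x, b i⟫ ^ 2 ∂σ = ∑ i, ∫ x, T ν (fun x => ⟪x, b i⟫) x ∂σ := by
      rw [← hsumA', hsumT', heq]
    exact fun i => (Finset.sum_eq_sum_iff_of_le h1).1 h2 i (Finset.mem_univ i)
  -- Euler-Lagrange
  have hEL : ∀ i, ∀ h : E → ℝ, SmS h → ∫ x, A2 x * h x ∂σ = 0 →
      ∫ x, (m - A2 x) * (⟪x, b i⟫ * h x) ∂σ = 0 := by
    intro i h hh h0
    have hprod : SmS (fun x => ⟪x, b i⟫ * h x) := fun x hx => (sms_linear (b i) x hx).mul (hh x hx)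
    have hfv : ∫ x, Bl ν h (b i) x ∂σ = m * ∫ x, ⟪x, b i⟫ * h x ∂σ := hM.fv h hh (b i)
    have hquad : ∀ t : ℝ, 0 ≤ 2 * t * ((∫ x, Bl ν h (b i) x ∂σ) -
        ∫ x, A2 x * (⟪x, b i⟫ * h x) ∂σ) + t ^ 2 * ((∫ x, T ν h x ∂σ) -
        ∫ x, A2 x * h x ^ 2 ∂σ) := by
      intro t
      have hs := hh.add_mul (b i) t
      have hz : ∫ x, A2 x * (⟪x, b i⟫ + t * h x) ∂σ = 0 := by
        have : (fun x => A2 x * (⟪x, b i⟫ + t * h x)) =
            fun x => A2 x * ⟪x, b i⟫ + t * (A2 x * h x) := by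
          funext x; ring
        rw [this, integral_add (hbA (sms_linear (b i))) ((hbA hh).const_mul t), hbl i,
          integral_const_mul, h0]
        simp
      have h1 := hidx _ hs hz
      have e1 : ∫ x, A2 x * (⟪x, b i⟫ + t * h x) ^ 2 ∂σ = (∫ x, A2 x * ⟪x, b i⟫ ^ 2 ∂σ) +
          2 * t * (∫ x, A2 x * (⟪x, b i⟫ * h x) ∂σ) + t ^ 2 * ∫ x, A2 x * h x ^ 2 ∂σ := by
        have i1 := hbA2 (sms_linear (b i))
        have i2 := (hbA hprod).const_mul (2 * t)
        have i3 := (hbA2 hh).const_mul (t ^ 2)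
        have i12 : Integrable (fun x => A2 x * ⟪x, b i⟫ ^ 2 +
          2 * t * (A2 x * (⟪x, b i⟫ * h x))) σ := i1.add i2
        have e : (fun x => A2 x * (⟪x, b i⟫ + t * h x) ^ 2) = fun x =>
            (A2 x * ⟪x, b i⟫ ^ 2 + 2 * t * (A2 x * (⟪x, b i⟫ * h x))) +
              t ^ 2 * (A2 x * h x ^ 2) := by
          funext x; ring
        rw [e, integral_add i12 i3, integral_add i1 i2, integral_const_mul, integral_const_mul]
      have e2 : ∫ x, T ν (fun y => ⟪y, b i⟫ + t * h y) x ∂σ =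
          (∫ x, T ν (fun x => ⟪x, b i⟫) x ∂σ) + 2 * t * (∫ x, Bl ν h (b i) x ∂σ) +
          t ^ 2 * ∫ x, T ν h x ∂σ := by
        have i1 := (sms_linear (b i)).integrable_T hM
        have i2 := (hh.integrable_Bl hM (b i)).const_mul (2 * t)
        have i3 := (hh.integrable_T hM).const_mul (t ^ 2)
        have i12 : Integrable (fun x => T ν (fun x => ⟪x, b i⟫) x + 2 * t * Bl ν h (b i) x) σ :=
          i1.add i2
        have e : (fun x => T ν (fun y => ⟪y, b i⟫ + t * h y) x) =ᵐ[σ] fun x =>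
            (T ν (fun x => ⟪x, b i⟫) x + 2 * t * Bl ν h (b i) x) + t ^ 2 * T ν h x := by
          filter_upwards [hM.sph] with x hx
          exact T_expand (b i) ((hh x hx).differentiableAt (by simp)) t
        rw [integral_congr_ae e, integral_add i12 i3, integral_add i1 i2, integral_const_mul,
          integral_const_mul]
      rw [e1, e2, heqi i] at h1
      linarith
    have hlin : (∫ x, Bl ν h (b i) x ∂σ) - ∫ x, A2 x * (⟪x, b i⟫ * h x) ∂σ = 0 := by
      set p := (∫ x, Bl ν h (b i) x ∂σ) - ∫ x, A2 x * (⟪x, b i⟫ * h x) ∂σ with hp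
      set q := (∫ x, T ν h x ∂σ) - ∫ x, A2 x * h x ^ 2 ∂σ with hq
      by_contra hne
      have hq1 : 0 < |q| + 1 := by positivity
      have := hquad (-p / (|q| + 1))
      have h2 : (-p / (|q| + 1)) ^ 2 * q ≤ p ^ 2 / (|q| + 1) := by
        rw [div_pow, neg_sq, div_mul_eq_mul_div, div_le_div_iff₀ (by positivity) hq1]
        have h3 : q * (|q| + 1) ≤ (|q| + 1) ^ 2 := by nlinarith [le_abs_self q, abs_nonneg q]
        nlinarith [sq_nonneg p, mul_le_mul_of_nonneg_left h3 (sq_nonneg p)]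
      have h4 : 2 * (-p / (|q| + 1)) * p = -(2 * (p ^ 2 / (|q| + 1))) := by ring
      have h5 : 0 < p ^ 2 / (|q| + 1) := by positivity
      linarith
    have e : (fun x => ((m : ℝ) - A2 x) * (⟪x, b i⟫ * h x)) =
        fun x => m * (⟪x, b i⟫ * h x) - A2 x * (⟪x, b i⟫ * h x) := by
      funext x; ring
    rw [e, integral_sub ((hprod.integrable hM).const_mul _) (hbA hprod), integral_const_mul, ← hfv]
    exact hlin
  have hS : ∫ x, A2 x ∂σ ≠ 0 := by
    intro h0
    rw [h0] at heq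
    have hm0 : (m : ℝ) ≠ 0 := by
      have : (2 : ℝ) ≤ m := by exact_mod_cast hm
      positivity
    have hσ := (mul_eq_zero.1 heq.symm).resolve_left hm0
    apply hz
    have : σ = 0 := by
      rw [Measure.real, ENNReal.toReal_eq_zero_iff] at hσ
      rcases hσ with h | h
      · exact Measure.measure_univ_eq_zero.1 h
      · exact absurd h (measure_ne_top _ _)
    rw [this]
    simp
  have hone : ∀ i, ∫ x, (m - A2 x) * ⟪x, b i⟫ ∂σ = 0 := by
    intro i
    have hfv := hM.fv (fun _ => 1) (fun x _ => contDiffAt_const) (b i)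
    simp only [fderiv_fun_const, Pi.zero_apply, zero_apply, mul_zero, sub_zero,
      integral_zero, mul_one] at hfv
    have e : (fun x => ((m : ℝ) - A2 x) * ⟪x, b i⟫) =
        fun x => m * ⟪x, b i⟫ - A2 x * ⟪x, b i⟫ := by
      funext x; ring
    rw [e, integral_sub (((sms_linear (b i)).integrable hM).const_mul _)
      (hbA (sms_linear (b i))), integral_const_mul, ← hfv, hbl i, sub_self]
  have hall : ∀ i, ∀ h : E → ℝ, SmS h → ∫ x, (m - A2 x) * (⟪x, b i⟫ * h x) ∂σ = 0 := by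
    intro i h hh
    set c := (∫ x, A2 x * h x ∂σ) / ∫ x, A2 x ∂σ with hc
    have h1 : SmS (fun x => h x - c) := fun x hx => (hh x hx).sub contDiffAt_const
    have h2 : ∫ x, A2 x * (h x - c) ∂σ = 0 := by
      have e : (fun x => A2 x * (h x - c)) = fun x => A2 x * h x - A2 x * c := by
        funext x; ring
      rw [e, integral_sub (hbA hh) (hA.mul_const c), integral_mul_const, hc]
      field_simp
      ring
    have h3 := hEL i _ h1 h2
    have hprod : SmS (fun x => ⟪x, b i⟫ * h x) := fun x hx => (sms_linear (b i) x hx).mul (hh x hx)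
    have e : (fun x => ((m : ℝ) - A2 x) * (⟪x, b i⟫ * (h x - c))) =
        fun x => (m - A2 x) * (⟪x, b i⟫ * h x) - (m - A2 x) * ⟪x, b i⟫ * c := by
      funext x; ring
    have i1 : Integrable (fun x => ((m : ℝ) - A2 x) * (⟪x, b i⟫ * h x)) σ := by
      refine (((hprod.integrable hM).const_mul (m : ℝ)).sub (hbA hprod)).congr
        (Eventually.of_forall fun x => ?_)
      simp only [Pi.sub_apply]
      ring
    have i2 : Integrable (fun x => ((m : ℝ) - A2 x) * ⟪x, b i⟫) σ := by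
      refine ((((sms_linear (b i)).integrable hM).const_mul (m : ℝ)).sub
        (hbA (sms_linear (b i)))).congr (Eventually.of_forall fun x => ?_)
      simp only [Pi.sub_apply]
      ring
    rw [e, integral_sub i1 (i2.mul_const c), integral_mul_const, hone i] at h3
    simpa using h3
  have hae : ∀ i, ∀ᵐ x ∂σ, (m - A2 x) * ⟪x, b i⟫ = 0 := by
    intro i
    refine ae_eq_zero_of_integral_contDiff_smul_eq_zero (μ := σ) (f := fun x : E =>
      ((m : ℝ) - A2 x) * ⟪x, b i⟫) ?_ ?_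
    · have i2 : Integrable (fun x => ((m : ℝ) - A2 x) * ⟪x, b i⟫) σ := by
        refine ((((sms_linear (b i)).integrable hM).const_mul (m : ℝ)).sub
          (hbA (sms_linear (b i)))).congr (Eventually.of_forall fun x => ?_)
        simp only [Pi.sub_apply]
        ring
      exact i2.locallyIntegrable
    · intro g hg _
      have := hall i g fun x _ => hg.contDiffAt
      rw [← this]
      refine integral_congr_ae (Eventually.of_forall fun x => ?_)
      simp only [smul_eq_mul]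
      ring
  have hae' : ∀ᵐ x ∂σ, ∀ i, (m - A2 x) * ⟪x, b i⟫ = 0 := ae_all_iff.2 hae
  filter_upwards [hae', hM.sph] with x hx h1
  by_contra hne
  have h2 : (m : ℝ) - A2 x ≠ 0 := sub_ne_zero.2 (Ne.symm hne)
  have h3 : ∀ i, ⟪x, b i⟫ = 0 := fun i => (mul_eq_zero.1 (hx i)).resolve_left h2
  have h4 := b.sum_sq_inner_left x
  simp [h3, h1] at h4

end main

end Crest.Agent.R246.Hersch900
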