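import Crest.Agent.R246.SM0_436
import Crest.Agent.R246.Hersch3_900
import Mathlib.Analysis.InnerProductSpace.Trace

/-!
R246, part I (II): Hersch for smooth minimal hypercones (`SmoothMin` of helper436).
-/

set_option autoImplicit false
set_option linter.unusedSectionVars false
set_option linter.unusedVariables false
set_option linter.unusedSimpArgs false

open MeasureTheory Filter Topology Set
open scoped RealInnerProductSpace ContDiff

noncomputable section

namespace Crest.Agent.R246.HerschSM900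

open Crest.Agent.R246.H990 Crest.Agent.R246.SM436 Crest.Agent.R246.Hersch900

variable {E : Type*} [NormedAddCommGroup E] [InnerProductSpace ℝ E] [FiniteDimensional ℝ E]

/-! ### translation invariance -/

/-- if `⟨∇φ, a⟩ = 0` on the zero set then it vanishes near the zero set. -/
lemma nua_near {φ : E → ℝ} (lip : LipschitzWith 1 φ)
    (hg : ∀ x, x ≠ 0 → φ x = 0 → Good φ x) {a : E}
    (h0 : ∀ x, x ≠ 0 → φ x = 0 → ⟪gradient φ x, a⟫ = 0) {x : E} (hx : x ≠ 0) (hφ : φ x = 0) :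
    ∀ᶠ y in 𝓝 x, ⟪gradient φ y, a⟫ = 0 := by
  obtain ⟨r, hr, hball⟩ := Metric.isOpen_iff.1 (isOpen_good φ) x (hg x hx hφ)
  set r' := min (r / 2) (‖x‖ / 2) with hr'
  have hxn : 0 < ‖x‖ := norm_pos_iff.2 hx
  have hr'0 : 0 < r' := by positivity
  filter_upwards [Metric.ball_mem_nhds x hr'0] with y hy
  have hyx : ‖y - x‖ < r' := by simpa [dist_eq_norm] using hy
  have hφy : |φ y| ≤ ‖y - x‖ := by
    have := lip_abs lip y x
    rwa [hφ, sub_zero] at this
  have hgood : ∀ s : ℝ, |s| ≤ |φ y| → Good φ (y + s • gradient φ y) := by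
    intro s hs
    have hy1 : Good φ y := hball (by
      rw [Metric.mem_ball, dist_eq_norm]
      have : r' ≤ r / 2 := min_le_left _ _
      linarith)
    apply hball
    rw [Metric.mem_ball, dist_eq_norm]
    have h1 : y + s • gradient φ y - x = (y - x) + s • gradient φ y := by abel
    rw [h1]
    refine (norm_add_le _ _).trans_lt ?_
    rw [norm_smul, hy1.norm_gradient, mul_one, Real.norm_eq_abs]
    have : r' ≤ r / 2 := min_le_left _ _
    linarith
  obtain ⟨e1, e2⟩ := normal_line (abs_nonneg _) hgood (-φ y) (by rw [abs_neg])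
  rw [← e1]
  apply h0
  · intro hz
    have h1 : Good φ y := by simpa using hgood 0 (by simp)
    have h2 : ‖(y + -φ y • gradient φ y) - x‖ ≤ ‖y - x‖ + |φ y| := by
      have h3 : (y + -φ y • gradient φ y) - x = (y - x) + -φ y • gradient φ y := by abel
      rw [h3]
      refine (norm_add_le _ _).trans ?_
      rw [norm_smul, h1.norm_gradient, mul_one, Real.norm_eq_abs, abs_neg]
    rw [hz, zero_sub, norm_neg] at h2
    have : r' ≤ ‖x‖ / 2 := min_le_right _ _
    linarith
  · rw [e2]; ring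

/-- local invariance of `φ` and of its Hessian under translations by `a`. -/
lemma loc_const {φ : E → ℝ} (lip : LipschitzWith 1 φ)
    (hg : ∀ x, x ≠ 0 → φ x = 0 → Good φ x) {a : E}
    (h0 : ∀ x, x ≠ 0 → φ x = 0 → ⟪gradient φ x, a⟫ = 0) {x : E} (hx : x ≠ 0) (hφ : φ x = 0) :
    ∀ᶠ s in 𝓝 (0 : ℝ), φ (x + s • a) = 0 ∧ hs φ (x + s • a) = hs φ x := by
  obtain ⟨r, hr, hball⟩ := Metric.eventually_nhds_iff_ball.1 (nua_near lip hg h0 hx hφ)
  obtain ⟨r2, hr2, hball2⟩ := Metric.isOpen_iff.1 (isOpen_good φ) x (hg x hx hφ)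
  set r' := min r r2 / 2 with hr'
  have hr'0 : 0 < r' := by positivity
  -- `φ (y + s a) = φ y`
  have key : ∀ y ∈ Metric.ball x r', ∀ s : ℝ, |s| * ‖a‖ < r' → φ (y + s • a) = φ y := by
    intro y hy s hs
    have hin : ∀ t ∈ Icc (0 : ℝ) 1, y + (t * s) • a ∈ Metric.ball x (min r r2) := by
      intro t ht
      rw [Metric.mem_ball, dist_eq_norm] at hy ⊢
      have h1 : y + (t * s) • a - x = (y - x) + (t * s) • a := by abel
      rw [h1]
      refine (norm_add_le _ _).trans_lt ?_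
      rw [norm_smul, Real.norm_eq_abs, abs_mul, abs_of_nonneg ht.1]
      have h2 : t * |s| * ‖a‖ ≤ |s| * ‖a‖ := by
        rw [mul_assoc]
        exact mul_le_of_le_one_left (by positivity) ht.2
      have h3 : r' + r' = min r r2 := by rw [hr']; ring
      linarith
    have hd : ∀ t ∈ Icc (0 : ℝ) 1, HasDerivAt (fun t : ℝ => φ (y + (t * s) • a)) 0 t := by
      intro t ht
      have h1 := (hball2 (Metric.ball_subset_ball (min_le_right _ _) (hin t ht)) :
        Good φ (y + (t * s) • a)).hasFDerivAt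
      have h2 : HasDerivAt (fun t : ℝ => y + (t * s) • a) (s • a) t := by
        have h3 : HasDerivAt (fun t : ℝ => t * s) s t := by
          simpa using (hasDerivAt_id t).mul_const s
        exact (h3.smul_const a).const_add y
      have h3 := h1.comp_hasDerivAt t h2
      have h4 : (innerSL ℝ (gradient φ (y + (t * s) • a))) (s • a) = 0 := by
        rw [innerSL_apply_apply, real_inner_smul_right,
          hball _ (Metric.ball_subset_ball (min_le_left _ _) (hin t ht)), mul_zero]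
      rw [h4] at h3
      exact h3
    have := constant_of_has_deriv_right_zero (f := fun t : ℝ => φ (y + (t * s) • a)) (a := 0)
      (b := 1) (fun t ht => (hd t ht).continuousAt.continuousWithinAt)
      (fun t ht => (hd t ⟨ht.1, ht.2.le⟩).hasDerivWithinAt) 1 (right_mem_Icc.2 zero_le_one)
    simpa using this
  have hev : ∀ᶠ s in 𝓝 (0 : ℝ), |s| * ‖a‖ < r' := by
    have : Continuous fun s : ℝ => |s| * ‖a‖ := by fun_prop
    have h := this.tendsto 0
    simp only [abs_zero, zero_mul] at h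
    exact h.eventually (gt_mem_nhds hr'0)
  filter_upwards [hev] with s hs'
  refine ⟨by rw [key x (Metric.mem_ball_self hr'0) s hs', hφ], ?_⟩
  have h1 : (fun y => φ (y + s • a)) =ᶠ[𝓝 x] φ := by
    filter_upwards [Metric.ball_mem_nhds x hr'0] with y hy
    exact key y hy s hs'
  have h2 : (fun y => gradient φ (y + s • a)) =ᶠ[𝓝 x] gradient φ := by
    have h3 := h1.fderiv (𝕜 := ℝ)
    filter_upwards [h3] with y hy
    rw [gradient_eq_comp]
    simp only
    rw [← hy, fderiv_comp_add_right]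
  have h4 := h2.fderiv_eq (𝕜 := ℝ)
  rw [fderiv_comp_add_right] at h4
  exact h4

/-- **rigidity**: if `⟨∇φ, a⟩ = 0` on the zero cone then the Hessian vanishes on the zero cone. -/
theorem hs_eq_zero {φ : E → ℝ} (lip : LipschitzWith 1 φ)
    (hom : ∀ t : ℝ, 0 ≤ t → ∀ x, φ (t • x) = t * φ x)
    (hg : ∀ x, x ≠ 0 → φ x = 0 → Good φ x) {a : E} (ha : ‖a‖ = 1)
    (h0 : ∀ x, x ≠ 0 → φ x = 0 → ⟪gradient φ x, a⟫ = 0) {x : E} (hx : x ≠ 0) (hφ : φ x = 0) :
    hs φ x = 0 := by
  wlog hxa : 0 ≤ ⟪x, a⟫ generalizing a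
  · refine this (a := -a) (by rwa [norm_neg]) (fun y hy hy0 => ?_) ?_
    · rw [inner_neg_right, h0 y hy hy0, neg_zero]
    · rw [inner_neg_right]
      push Not at hxa
      linarith
  have hxn : 0 < ‖x‖ := norm_pos_iff.2 hx
  -- the ray does not meet the origin
  have hray : ∀ t : ℝ, 0 ≤ t → t ≤ ‖x + t • a‖ ∧ x + t • a ≠ 0 := by
    intro t ht
    have h1 : ‖x + t • a‖ ^ 2 = ‖x‖ ^ 2 + 2 * (t * ⟪x, a⟫) + t ^ 2 := by
      rw [norm_add_sq_real, real_inner_smul_right, norm_smul, ha, mul_one, Real.norm_eq_abs, sq_abs]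
    have h2 : 0 ≤ t * ⟪x, a⟫ := mul_nonneg ht hxa
    refine ⟨?_, ?_⟩
    · apply le_of_sq_le_sq _ (norm_nonneg _)
      rw [h1]; nlinarith [sq_nonneg ‖x‖]
    · intro h
      rw [h, norm_zero] at h1
      nlinarith [sq_nonneg t, pow_pos hxn 2]
  -- local constancy along the ray
  have hloc : ∀ t : ℝ, 0 ≤ t → φ (x + t • a) = 0 →
      ∀ᶠ s in 𝓝 t, φ (x + s • a) = 0 ∧ hs φ (x + s • a) = hs φ (x + t • a) := by
    intro t ht ht0
    have h1 := loc_const lip hg h0 (hray t ht).2 ht0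
    have h2 : Tendsto (fun s : ℝ => s - t) (𝓝 t) (𝓝 0) := by
      have : Continuous fun s : ℝ => s - t := by fun_prop
      have h := this.tendsto t
      simpa using h
    filter_upwards [h2.eventually h1] with s hs'
    have h3 : x + t • a + (s - t) • a = x + s • a := by
      rw [sub_smul]; abel
    rwa [h3] at hs'
  set P : ℝ → Prop := fun t => φ (x + t • a) = 0 ∧ hs φ (x + t • a) = hs φ x with hP
  have hsub : Ici (0 : ℝ) ⊆ {t | ∀ᶠ s in 𝓝 t, P s} := by
    refine isPreconnected_Ici.subset_of_closure_inter_subset ?_ ⟨0, self_mem_Ici, ?_⟩ ?_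
    · exact isOpen_setOfPred_eventually_nhds
    · have := hloc 0 le_rfl (by simpa using hφ)
      simpa [hP] using this
    · rintro t ⟨ht, ht0⟩
      have hc : Continuous fun s : ℝ => φ (x + s • a) := lip.continuous.comp (by fun_prop)
      have h1 : φ (x + t • a) = 0 := by
        have hcl : IsClosed {s : ℝ | φ (x + s • a) = 0} := isClosed_eq hc continuous_const
        have hsub' : {t | ∀ᶠ s in 𝓝 t, P s} ⊆ {s : ℝ | φ (x + s • a) = 0} := fun s hs' =>
          (Eventually.self_of_nhds (p := P) hs').1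
        exact closure_minimal hsub' hcl ht
      have h2 := hloc t ht0 h1
      have h3 : ∃ s, (φ (x + s • a) = 0 ∧ hs φ (x + s • a) = hs φ (x + t • a)) ∧ P s := by
        obtain ⟨s, hs1, hs2⟩ := mem_closure_iff_nhds.1 ht _ h2
        exact ⟨s, hs1, Eventually.self_of_nhds (p := P) hs2⟩
      obtain ⟨s, hs1, hs2⟩ := h3
      have h4 : hs φ (x + t • a) = hs φ x := by rw [← hs1.2, hs2.2]
      change ∀ᶠ s in 𝓝 t, P s
      filter_upwards [h2] with s' hs'
      exact ⟨hs'.1, by rw [hs'.2, h4]⟩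
  have hPt : ∀ t : ℝ, 0 ≤ t → P t := fun t ht => Eventually.self_of_nhds (p := P) (hsub ht)
  -- boundedness of the Hessian on the compact set
  obtain ⟨K, hK⟩ : ∃ K : ℝ, ∀ y : E, ‖y‖ = 1 → φ y = 0 → ‖hs φ y‖ ≤ K := by
    have hcomp : IsCompact (Metric.sphere (0 : E) 1 ∩ {y | φ y = 0}) :=
      (isCompact_sphere (0 : E) 1).inter_right (isClosed_eq lip.continuous continuous_const)
    have hcont : ContinuousOn (fun y => ‖hs φ y‖) (Metric.sphere (0 : E) 1 ∩ {y | φ y = 0}) := by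
      intro y hy
      have hy0 : y ≠ 0 := by
        rintro rfl
        simp at hy
      have h2 : ContDiffAt ℝ ∞ (hs φ) y :=
        (hg y hy0 hy.2).contDiffAt_gradient.fderiv_right (m := ∞) (by simp)
      exact h2.continuousAt.norm.continuousWithinAt
    obtain ⟨K, hK⟩ := hcomp.bddAbove_image hcont
    exact ⟨K, fun y hy1 hy2 => hK ⟨y, ⟨by simpa using hy1, hy2⟩, rfl⟩⟩
  have hbound : ∀ t : ℝ, 0 < t → ‖hs φ x‖ ≤ K / t := by
    intro t ht
    obtain ⟨h1, h2⟩ := hPt t ht.le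
    obtain ⟨h3, h4⟩ := hray t ht.le
    have hn : 0 < ‖x + t • a‖ := norm_pos_iff.2 h4
    set y := ‖x + t • a‖⁻¹ • (x + t • a) with hy
    have hy1 : ‖y‖ = 1 := by
      rw [hy, norm_smul, norm_inv, norm_norm, inv_mul_cancel₀ hn.ne']
    have hy2 : φ y = 0 := by rw [hy, hom _ (by positivity), h1, mul_zero]
    have hy3 : x + t • a = ‖x + t • a‖ • y := by
      rw [hy, smul_smul, mul_inv_cancel₀ hn.ne', one_smul]
    have hy0 : y ≠ 0 := by
      rintro h; rw [h, norm_zero] at hy1; exact zero_ne_one hy1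
    have h5 := (hg y hy0 hy2).hs_smul hom hn
    rw [← hy3] at h5
    rw [← h2, h5, norm_smul, norm_inv, norm_norm]
    have h6 := hK y hy1 hy2
    have hK0 : 0 ≤ K := (norm_nonneg _).trans h6
    calc ‖x + t • a‖⁻¹ * ‖hs φ y‖ ≤ t⁻¹ * K := by gcongr
      _ = K / t := by rw [div_eq_mul_inv, mul_comm]
  have hlim : Tendsto (fun t : ℝ => K / t) atTop (𝓝 0) := tendsto_const_nhds.div_atTop tendsto_id
  have : ‖hs φ x‖ ≤ 0 := by
    refine ge_of_tendsto hlim ?_
    filter_upwards [eventually_gt_atTop 0] with t ht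
    exact hbound t ht
  exact norm_le_zero_iff.1 this

/-! ### the second fundamental form -/

/-- `|A|² = trace (D²φ ∘ D²φ)` -/
def A2 (φ : E → ℝ) (x : E) : ℝ :=
  LinearMap.trace ℝ E ((hs φ x).comp (hs φ x) : E →L[ℝ] E)

lemma A2_eq_sum {φ : E → ℝ} {x : E} (h : Good φ x) {ι : Type*} [Fintype ι]
    (b : OrthonormalBasis ι ℝ E) : A2 φ x = ∑ i, ‖hs φ x (b i)‖ ^ 2 := by
  unfold A2
  rw [LinearMap.trace_eq_sum_inner _ b]
  refine Finset.sum_congr rfl fun i _ => ?_
  rw [← real_inner_self_eq_norm_sq, h.hs_symm]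
  rfl

lemma A2_nonneg {φ : E → ℝ} {x : E} (h : Good φ x) : 0 ≤ A2 φ x := by
  rw [A2_eq_sum h (stdOrthonormalBasis ℝ E)]
  positivity

lemma continuousAt_A2 {φ : E → ℝ} {x : E} (h : Good φ x) : ContinuousAt (A2 φ) x := by
  have h2 : ContDiffAt ℝ ∞ (hs φ) x := h.contDiffAt_gradient.fderiv_right (m := ∞) (by simp)
  have h3 : ContinuousAt (fun y => (hs φ y).comp (hs φ y)) x :=
    h2.continuousAt.clm_comp h2.continuousAt
  let L : (E →L[ℝ] E) →ₗ[ℝ] ℝ :=
    { toFun := fun B => LinearMap.trace ℝ E (B : E →ₗ[ℝ] E)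
      map_add' := fun B C => by simp
      map_smul' := fun c B => by simp }
  have hL : Continuous L := L.continuous_of_finiteDimensional
  exact hL.continuousAt.comp h3

/-! ### Hersch for smooth minimal hypercones -/

variable [MeasurableSpace E] [BorelSpace E]

/-- the area measure of `M' = {x | ‖x‖ = 1, φ x = 0}`: what is needed of it. -/
structure AreaMeas (m : ℕ) (φ : E → ℝ) (μ : Measure E) : Prop where
  fin : IsFiniteMeasure μ
  supp : ∀ᵐ x ∂μ, ‖x‖ = 1 ∧ φ x = 0
  atom : ∀ x, μ {x} = 0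
  pos : ∀ x, ‖x‖ = 1 → φ x = 0 → ∀ r : ℝ, 0 < r → 0 < μ (Metric.ball x r)
  fv : ∀ h : E → ℝ, SmS h → ∀ e : E,
    ∫ x, (fderiv ℝ h x e - ⟪x, e⟫ * fderiv ℝ h x x -
      ⟪gradient φ x, e⟫ * fderiv ℝ h x (gradient φ x)) ∂μ = m * ∫ x, ⟪x, e⟫ * h x ∂μ

/-- measurability from continuity on `M'`. -/
lemma aesm_of_cont {φ : E → ℝ} (S : SmoothMin φ) {μ : Measure E}
    (hμ : ∀ᵐ x ∂μ, ‖x‖ = 1 ∧ φ x = 0) {F : Type*} [TopologicalSpace F]
    [TopologicalSpace.PseudoMetrizableSpace F] [SecondCountableTopology F] {f : E → F}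
    (hf : ∀ x, Good φ x → ContinuousAt f x) : AEStronglyMeasurable f μ := by
  have h1 : AEStronglyMeasurable f (μ.restrict {x | Good φ x}) :=
    ContinuousOn.aestronglyMeasurable (fun x hx => (hf x hx).continuousWithinAt)
      (isOpen_good φ).measurableSet
  have h2 : μ.restrict {x | Good φ x} = μ := by
    refine Measure.restrict_eq_self_of_ae_mem ?_
    filter_upwards [hμ] with x hx
    exact S.good x (by rintro rfl; simp at hx) hx.2
  rwa [h2] at h1

/-- boundedness on `M'` of a function continuous at good points. -/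
lemma bdd_of_cont {φ : E → ℝ} (S : SmoothMin φ) {f : E → ℝ}
    (hf : ∀ x, Good φ x → ContinuousAt f x) :
    ∃ K : ℝ, ∀ x : E, ‖x‖ = 1 → φ x = 0 → |f x| ≤ K := by
  have hcomp : IsCompact (Metric.sphere (0 : E) 1 ∩ {y | φ y = 0}) :=
    (isCompact_sphere (0 : E) 1).inter_right (isClosed_eq S.nc.lip.continuous continuous_const)
  have hcont : ContinuousOn (fun y => |f y|) (Metric.sphere (0 : E) 1 ∩ {y | φ y = 0}) := by
    intro y hy
    have hy0 : y ≠ 0 := by
      rintro rfl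
      simp at hy
    exact (hf y (S.good y hy0 hy.2)).abs.continuousWithinAt
  obtain ⟨K, hK⟩ := hcomp.bddAbove_image hcont
  exact ⟨K, fun y hy1 hy2 => hK ⟨y, ⟨by simpa using hy1, hy2⟩, rfl⟩⟩

lemma integrable_of_cont {φ : E → ℝ} (S : SmoothMin φ) {μ : Measure E} [IsFiniteMeasure μ]
    (hμ : ∀ᵐ x ∂μ, ‖x‖ = 1 ∧ φ x = 0) {f : E → ℝ}
    (hf : ∀ x, Good φ x → ContinuousAt f x) : Integrable f μ := by
  obtain ⟨K, hK⟩ := bdd_of_cont S hf
  refine Integrable.of_bound (aesm_of_cont S hμ hf) K ?_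
  filter_upwards [hμ] with x hx
  exact hK x hx.1 hx.2

/-- a continuous identity valid a.e. is valid on all of `M'`. -/
lemma eq_of_ae {m : ℕ} {φ : E → ℝ} (S : SmoothMin φ) {μ : Measure E} (hμ : AreaMeas m φ μ)
    {f : E → ℝ} {c : ℝ} (hf : ∀ x, Good φ x → ContinuousAt f x) (hae : ∀ᵐ x ∂μ, f x = c) :
    ∀ x, ‖x‖ = 1 → φ x = 0 → f x = c := by
  intro x hx hx0
  have hxn : x ≠ 0 := by rintro rfl; simp at hx
  by_contra hne
  have h1 : ∀ᶠ y in 𝓝 x, f y ≠ c := (hf x (S.good x hxn hx0)).eventually_ne hne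
  obtain ⟨r, hr, hball⟩ := Metric.eventually_nhds_iff_ball.1 h1
  have h2 := hμ.pos x hx hx0 r hr
  have h3 : μ (Metric.ball x r) = 0 := by
    refine measure_mono_null (fun y hy => ?_) (ae_iff.1 hae)
    exact hball y hy
  exact h2.ne' h3

lemma minSurf {m : ℕ} {φ : E → ℝ} (S : SmoothMin φ) {μ : Measure E} (hμ : AreaMeas m φ μ) :
    MinSurf m μ (gradient φ) where
  fin := hμ.fin
  sph := hμ.supp.mono fun x hx => hx.1
  atom := hμ.atom
  meas := aesm_of_cont S hμ.supp fun x hx => hx.contDiffAt_gradient.continuousAt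
  nu1 := by
    filter_upwards [hμ.supp] with x hx
    exact (S.good x (by rintro rfl; simp at hx) hx.2).norm_gradient
  nux := by
    filter_upwards [hμ.supp] with x hx
    rw [(S.good x (by rintro rfl; simp at hx) hx.2).euler S.nc.hom, hx.2]
  fv := hμ.fv

/-- **Hersch's theorem** for smooth minimal hypercones. -/
theorem hersch_smooth {m : ℕ} {φ : E → ℝ} (S : SmoothMin φ) {μ : Measure E}
    (hμ : AreaMeas m φ μ) (hμ0 : μ ≠ 0) (hm : 2 ≤ m) (hdim : Module.finrank ℝ E = m + 2)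
    (hidx : ∀ h : E → ℝ, SmS h → ∫ x, A2 φ x * h x ∂μ = 0 →
      ∫ x, A2 φ x * h x ^ 2 ∂μ ≤ ∫ x, T (gradient φ) h x ∂μ) :
    ∫ x, A2 φ x ∂μ ≤ m * μ.real univ ∧
    (∫ x, A2 φ x ∂μ = m * μ.real univ → ∀ x, ‖x‖ = 1 → φ x = 0 → A2 φ x = m) := by
  have := hμ.fin
  have hcA : ∀ x, Good φ x → ContinuousAt (A2 φ) x := fun x hx => continuousAt_A2 hx
  have hA : Integrable (A2 φ) μ := integrable_of_cont S hμ.supp hcA
  have hA0 : ∀ᵐ x ∂μ, 0 ≤ A2 φ x := by
    filter_upwards [hμ.supp] with x hx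
    exact A2_nonneg (S.good x (by rintro rfl; simp at hx) hx.2)
  obtain ⟨h1, h2⟩ := hersch_main (minSurf S hμ) hm hdim (A2 φ) hA hA0 hidx
  refine ⟨h1, fun heq => ?_⟩
  rcases h2 heq with ⟨a, ha, hνa⟩ | h3
  · exfalso
    have h4 : ∀ x, ‖x‖ = 1 → φ x = 0 → ⟪gradient φ x, a⟫ = 0 :=
      eq_of_ae S hμ (f := fun x => ⟪gradient φ x, a⟫)
        (fun x hx => hx.contDiffAt_gradient.continuousAt.inner continuousAt_const) hνa
    have h5 : ∀ x, x ≠ 0 → φ x = 0 → ⟪gradient φ x, a⟫ = 0 := by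
      intro x hx hx0
      have hn : 0 < ‖x‖ := norm_pos_iff.2 hx
      have h6 := h4 (‖x‖⁻¹ • x) (by rw [norm_smul, norm_inv, norm_norm, inv_mul_cancel₀ hn.ne'])
        (by rw [S.nc.hom _ (by positivity), hx0, mul_zero])
      rwa [gradient_smul_of_hom S.nc.hom x (by positivity)] at h6
    have h7 : ∀ᵐ x ∂μ, A2 φ x = 0 := by
      filter_upwards [hμ.supp] with x hx
      have h8 := hs_eq_zero S.nc.lip S.nc.hom S.good ha h5 (x := x)
        (by rintro rfl; simp at hx) hx.2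
      simp [A2, h8]
    have h9 : ∫ x, A2 φ x ∂μ = 0 := by
      rw [integral_congr_ae h7]; simp
    rw [h9] at heq
    have hm0 : (m : ℝ) ≠ 0 := by
      have : (2 : ℝ) ≤ m := by exact_mod_cast hm
      positivity
    have hσ := (mul_eq_zero.1 heq.symm).resolve_left hm0
    rw [Measure.real, ENNReal.toReal_eq_zero_iff] at hσ
    rcases hσ with h | h
    · exact hμ0 (Measure.measure_univ_eq_zero.1 h)
    · exact absurd h (measure_ne_top _ _)
  · exact eq_of_ae S hμ hcA h3

end Crest.Agent.R246.HerschSM900
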