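import Mathlib.Analysis.InnerProductSpace.Calculus
import Mathlib.Analysis.InnerProductSpace.Projection.Basic
import Mathlib.Analysis.SpecialFunctions.Pow.Continuity
import Mathlib.Topology.Order.IntermediateValue
import Mathlib.Analysis.Calculus.FDeriv.Basic

/-!
# R246, block H2 (D): the zero set is a `C^{1,α}` graph

Pointwise expansions `φ x = ⟪e_p, x-p⟫ + O(|x-p|^{1+α})` at all zeros of a continuous function
imply that the zero set is a `C^{1,α}` graph.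
-/

set_option autoImplicit false
noncomputable section
open Metric Set Filter Topology
open scoped RealInnerProductSpace

namespace Crest.Agent.R246.Mg295

variable {E : Type*} [NormedAddCommGroup E] [InnerProductSpace ℝ E]

/-- pointwise `C^{1,α}` expansions at the zeros of `φ` in `ball p0 ρ`. -/
def Expn (φ : E → ℝ) (p0 : E) (ρ C α : ℝ) : Prop :=
  ∀ p ∈ ball p0 ρ, φ p = 0 → ∃ e : E, ‖e‖ = 1 ∧
    ∀ x ∈ ball p ρ, |φ x - ⟪e, x - p⟫| ≤ C * ‖x - p‖ ^ (1 + α)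

/-- expansion at `p` with normal `e`. -/
def Ex (φ : E → ℝ) (p e : E) (ρ C α : ℝ) : Prop :=
  ‖e‖ = 1 ∧ ∀ x, ‖x - p‖ < ρ → |φ x - ⟪e, x - p⟫| ≤ C * ‖x - p‖ ^ (1 + α)

lemma norm_le_of_inner {a : E} {r M : ℝ} (hr : 0 < r) (h : ∀ v : E, ‖v‖ ≤ r → ⟪a, v⟫ ≤ M * r) :
    ‖a‖ ≤ M := by
  by_cases ha : a = 0
  · have h1 := h 0 (by simpa using hr.le)
    rw [inner_zero_right] at h1
    rw [ha, norm_zero]
    exact nonneg_of_mul_nonneg_left h1 hr
  · have hn : 0 < ‖a‖ := norm_pos_iff.2 ha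
    have h1 := h ((r / ‖a‖) • a) (by
      rw [norm_smul, Real.norm_of_nonneg (by positivity)]
      field_simp; exact le_rfl)
    rw [inner_smul_right, real_inner_self_eq_norm_sq] at h1
    have h2 : r / ‖a‖ * ‖a‖ ^ 2 = ‖a‖ * r := by field_simp
    rw [h2] at h1
    exact le_of_mul_le_mul_right h1 hr

lemma pow1 {a r α : ℝ} (ha : 0 ≤ a) (har : a ≤ r) (hα : 0 < α) :
    a ^ (1 + α) ≤ r * r ^ α := by
  have hr : 0 ≤ r := ha.trans har
  have h1 : a ^ (1 + α) ≤ r ^ (1 + α) := Real.rpow_le_rpow ha har (by linarith)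
  refine h1.trans (le_of_eq ?_)
  rw [Real.rpow_one_add' hr (by linarith)]

lemma pow2 {a r α : ℝ} (ha : 0 ≤ a) (hr : 0 ≤ r) (har : a ≤ 2 * r) (hα : 0 < α) (hα1 : α ≤ 1) :
    a ^ (1 + α) ≤ 4 * (r * r ^ α) := by
  have h1 : a ^ (1 + α) ≤ (2 * r) ^ (1 + α) := Real.rpow_le_rpow ha har (by linarith)
  have h2 : (2 * r) ^ (1 + α) = 2 ^ (1 + α) * (r * r ^ α) := by
    rw [Real.mul_rpow (by norm_num) hr, Real.rpow_one_add' hr (by linarith)]
  have h3 : (2 : ℝ) ^ (1 + α) ≤ 4 := by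
    have : (2 : ℝ) ^ (1 + α) ≤ 2 ^ (2 : ℝ) :=
      Real.rpow_le_rpow_of_exponent_le (by norm_num) (by linarith)
    refine this.trans ?_
    norm_num
  rw [h2] at h1
  refine h1.trans ?_
  have : 0 ≤ r * r ^ α := by positivity
  exact mul_le_mul_of_nonneg_right h3 this

lemma pow2' {a r α : ℝ} (ha : 0 ≤ a) (hr : 0 ≤ r) (har : a ≤ 2 * r) (hα : 0 < α) (hα1 : α ≤ 1) :
    a ^ α ≤ 2 * r ^ α := by
  have h1 : a ^ α ≤ (2 * r) ^ α := Real.rpow_le_rpow ha har hα.le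
  rw [Real.mul_rpow (by norm_num) hr] at h1
  have h3 : (2 : ℝ) ^ α ≤ 2 := by
    have : (2 : ℝ) ^ α ≤ 2 ^ (1 : ℝ) :=
      Real.rpow_le_rpow_of_exponent_le (by norm_num) hα1
    refine this.trans ?_
    norm_num
  exact h1.trans (mul_le_mul_of_nonneg_right h3 (by positivity))

/-- Hölder continuity of the normals. -/
lemma normal_holder {φ : E → ℝ} {p q e f : E} {ρ C α : ℝ} (hα : 0 < α) (hα1 : α ≤ 1)
    (hC : 0 ≤ C) (hp : Ex φ p e ρ C α) (hq : Ex φ q f ρ C α) (hφp : φ p = 0)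
    (h : 2 * ‖p - q‖ < ρ) (hne : p ≠ q) : ‖e - f‖ ≤ 6 * C * ‖p - q‖ ^ α := by
  have hr : 0 < ‖p - q‖ := norm_pos_iff.2 (sub_ne_zero.2 hne)
  set r := ‖p - q‖ with hrdef
  apply norm_le_of_inner hr
  intro v hv
  have e1 : p + v - p = v := by abel
  have e2 : p + v - q = (p - q) + v := by abel
  have n2 : ‖p + v - q‖ ≤ 2 * r := by
    rw [e2]; refine (norm_add_le _ _).trans ?_; linarith
  have h1 := hp.2 (p + v) (by rw [e1]; linarith)
  have h2 := hq.2 (p + v) (lt_of_le_of_lt n2 h)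
  have h3 := hq.2 p (by rw [← hrdef]; linarith)
  rw [e1] at h1
  rw [hφp] at h3
  have b1 : C * ‖v‖ ^ (1 + α) ≤ C * (r * r ^ α) :=
    mul_le_mul_of_nonneg_left (pow1 (norm_nonneg _) hv hα) hC
  have b2 : C * ‖p + v - q‖ ^ (1 + α) ≤ C * (4 * (r * r ^ α)) :=
    mul_le_mul_of_nonneg_left (pow2 (norm_nonneg _) hr.le n2 hα hα1) hC
  have b3 : C * ‖p - q‖ ^ (1 + α) ≤ C * (r * r ^ α) :=
    mul_le_mul_of_nonneg_left (pow1 (norm_nonneg _) le_rfl hα) hC
  have k1 := abs_le.1 (h1.trans b1)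
  have k2 := abs_le.1 (h2.trans b2)
  have k3 := abs_le.1 (h3.trans b3)
  have e3 : ⟪e - f, v⟫ = ⟪e, v⟫ - ⟪f, p + v - q⟫ + ⟪f, p - q⟫ := by
    rw [e2, inner_sub_left, inner_add_right]; ring
  rw [e3]
  have : 6 * C * r ^ α * r = C * (r * r ^ α) + C * (4 * (r * r ^ α)) + C * (r * r ^ α) := by ring
  rw [this]
  linarith [k1.1, k1.2, k2.1, k2.2, k3.1, k3.2]

lemma hasFDerivAt_of_bound {F : Type*} [NormedAddCommGroup F] [NormedSpace ℝ F] {f : F → ℝ}
    {L : F →L[ℝ] ℝ} {y : F} {K α δ : ℝ} (hδ : 0 < δ) (hα : 0 < α)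
    (h : ∀ y', ‖y' - y‖ < δ → |f y' - f y - L (y' - y)| ≤ K * (‖y' - y‖ * ‖y' - y‖ ^ α)) :
    HasFDerivAt f L y := by
  rw [hasFDerivAt_iff_isLittleO, Asymptotics.isLittleO_iff]
  intro c hc
  have h1 : Tendsto (fun y' : F => K * ‖y' - y‖ ^ α) (𝓝 y) (𝓝 0) := by
    have h2 : ContinuousAt (fun y' : F => K * ‖y' - y‖ ^ α) y := by
      have h3 : Continuous (fun y' : F => K * ‖y' - y‖ ^ α) :=
        continuous_const.mul ((continuous_norm.comp (continuous_id.sub continuous_const)).rpow_const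
          (fun _ => Or.inr hα.le))
      exact h3.continuousAt
    have h4 := h2.tendsto
    simpa [Real.zero_rpow hα.ne'] using h4
  have h5 : ∀ᶠ y' in 𝓝 y, K * ‖y' - y‖ ^ α < c := h1.eventually_lt_const hc
  filter_upwards [h5, Metric.ball_mem_nhds y hδ] with y' h6 h7
  rw [Metric.mem_ball, dist_eq_norm] at h7
  rw [Real.norm_eq_abs]
  refine (h y' h7).trans ?_
  have : K * (‖y' - y‖ * ‖y' - y‖ ^ α) = (K * ‖y' - y‖ ^ α) * ‖y' - y‖ := by ring
  rw [this]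
  exact mul_le_mul_of_nonneg_right h6.le (norm_nonneg _)

set_option maxHeartbeats 1600000 in
theorem exists_graph {φ : E → ℝ} {p0 : E} {ρ C α : ℝ} (hα : 0 < α) (hα1 : α ≤ 1)
    (hφ : Continuous φ) (hp0 : φ p0 = 0) (hρ : 0 < ρ) (he : Expn φ p0 ρ C α) :
    ∃ e : E, ‖e‖ = 1 ∧ ∃ r0 > 0, ∃ K : ℝ, 0 ≤ K ∧ ∃ w : (ℝ ∙ e)ᗮ → ℝ,
      w 0 = 0 ∧ fderiv ℝ w 0 = 0 ∧
      (∀ y ∈ ball (0 : (ℝ ∙ e)ᗮ) r0, DifferentiableAt ℝ w y ∧ ‖fderiv ℝ w y‖ ≤ 1 / 4) ∧
      (∀ y ∈ ball (0 : (ℝ ∙ e)ᗮ) r0, ∀ y' ∈ ball (0 : (ℝ ∙ e)ᗮ) r0,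
        |w y - w y'| ≤ ‖y - y'‖ / 4) ∧
      (∀ y ∈ ball (0 : (ℝ ∙ e)ᗮ) r0, ∀ y' ∈ ball (0 : (ℝ ∙ e)ᗮ) r0,
        ‖fderiv ℝ w y - fderiv ℝ w y'‖ ≤ K * ‖y - y'‖ ^ α) ∧
      (∀ y ∈ ball (0 : (ℝ ∙ e)ᗮ) r0, ∀ t : ℝ, |t| < r0 →
        SignType.sign (φ (p0 + y + t • e)) = SignType.sign (t - w y)) := by
  -- normals and constants
  obtain ⟨D, hD0, hDC⟩ : ∃ D : ℝ, 0 < D ∧ C ≤ D :=
    ⟨|C| + 1, by positivity, by linarith [le_abs_self C]⟩
  have he' : ∀ p, ‖p - p0‖ < ρ → φ p = 0 → ∃ e : E, Ex φ p e ρ D α := by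
    intro p hp hφp
    obtain ⟨e, h1, h2⟩ := he p (by rwa [Metric.mem_ball, dist_eq_norm]) hφp
    refine ⟨e, h1, fun x hx => (h2 x (by rwa [Metric.mem_ball, dist_eq_norm])).trans ?_⟩
    exact mul_le_mul_of_nonneg_right hDC (by positivity)
  choose! ν hν using he'
  set e0 := ν p0 with he0
  have hν0 : Ex φ p0 e0 ρ D α := hν p0 (by simpa using hρ) hp0
  have hn0 : ‖e0‖ = 1 := hν0.1
  -- the radius δ
  obtain ⟨δ, hδ0, hδρ, hδ⟩ : ∃ δ : ℝ, 0 < δ ∧ δ < ρ ∧ D * δ ^ α ≤ 1 / 48 := by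
    have h1 : Tendsto (fun x : ℝ => D * x ^ α) (𝓝 0) (𝓝 0) := by
      have h2 : Continuous (fun x : ℝ => D * x ^ α) :=
        continuous_const.mul (Real.continuous_rpow_const hα.le)
      have := h2.tendsto 0
      simpa [Real.zero_rpow hα.ne'] using this
    have h3 : ∀ᶠ x in 𝓝 (0 : ℝ), D * x ^ α < 1 / 48 := h1.eventually_lt_const (by norm_num)
    obtain ⟨ε, hε, h4⟩ := Metric.eventually_nhds_iff.1 h3
    refine ⟨min (ε / 2) (ρ / 2), by positivity, ?_, ?_⟩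
    · exact (min_le_right _ _).trans_lt (by linarith)
    · apply (h4 _).le
      rw [Real.dist_eq, sub_zero, abs_of_pos (by positivity)]
      exact (min_le_left _ _).trans_lt (by linarith)
  have hpw : ∀ a : ℝ, 0 ≤ a → a ≤ δ → D * a ^ (1 + α) ≤ a / 48 := by
    intro a ha had
    have h1 : a ^ (1 + α) = a * a ^ α := by rw [Real.rpow_one_add' ha (by linarith)]
    have h2 : a ^ α ≤ δ ^ α := Real.rpow_le_rpow ha had hα.le
    rw [h1]
    have h3 : D * a ^ α ≤ 1 / 48 := (mul_le_mul_of_nonneg_left h2 hD0.le).trans hδ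
    nlinarith [mul_le_mul_of_nonneg_left h3 ha]
  -- normals are close to e0
  have hclose : ∀ p, ‖p - p0‖ ≤ δ / 2 → φ p = 0 → ‖ν p - e0‖ ≤ 1 / 8 := by
    intro p hp hφp
    by_cases hpp : p = p0
    · rw [hpp, ← he0, sub_self, norm_zero]; norm_num
    · have h1 := normal_holder hα hα1 hD0.le (hν p (by linarith) hφp) hν0 hφp (by linarith) hpp
      have h2 : ‖p - p0‖ ^ α ≤ δ ^ α := Real.rpow_le_rpow (norm_nonneg _) (by linarith) hα.le
      have h3 : 6 * D * ‖p - p0‖ ^ α ≤ 6 * (D * δ ^ α) := by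
        have := mul_le_mul_of_nonneg_left h2 hD0.le
        linarith
      linarith
  have hin : ∀ p, ‖p - p0‖ ≤ δ / 2 → φ p = 0 → 7 / 8 ≤ ⟪ν p, e0⟫ := by
    intro p hp hφp
    have h1 : ⟪ν p, e0⟫ = 1 + ⟪ν p - e0, e0⟫ := by
      rw [inner_sub_left, real_inner_self_eq_norm_sq, hn0]; ring
    have h2 := abs_real_inner_le_norm (ν p - e0) e0
    rw [hn0, mul_one] at h2
    have h3 := hclose p hp hφp
    have := (abs_le.1 (h2.trans h3)).1
    linarith
  -- signs on the vertical line through a zero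
  have hup : ∀ p, ‖p - p0‖ ≤ δ / 2 → φ p = 0 → ∀ s, 0 < s → s < δ → 0 < φ (p + s • e0) := by
    intro p hp hφp s hs hsδ
    have e1 : p + s • e0 - p = s • e0 := by abel
    have n1 : ‖s • e0‖ = s := by rw [norm_smul, hn0, mul_one, Real.norm_of_nonneg hs.le]
    have h1 := (hν p (by linarith) hφp).2 (p + s • e0) (by rw [e1, n1]; linarith)
    rw [e1, n1, inner_smul_right] at h1
    have h2 := hpw s hs.le hsδ.le
    have h3 := hin p hp hφp
    have h4 := (abs_le.1 (h1.trans h2)).1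
    nlinarith
  have hdown : ∀ p, ‖p - p0‖ ≤ δ / 2 → φ p = 0 → ∀ s, 0 < s → s < δ → φ (p - s • e0) < 0 := by
    intro p hp hφp s hs hsδ
    have e1 : p - s • e0 - p = -(s • e0) := by abel
    have n1 : ‖s • e0‖ = s := by rw [norm_smul, hn0, mul_one, Real.norm_of_nonneg hs.le]
    have h1 := (hν p (by linarith) hφp).2 (p - s • e0) (by rw [e1, norm_neg, n1]; linarith)
    rw [e1, norm_neg, n1, inner_neg_right, inner_smul_right] at h1
    have h2 := hpw s hs.le hsδ.le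
    have h3 := hin p hp hφp
    have h4 := (abs_le.1 (h1.trans h2)).2
    nlinarith
  -- coordinates
  set r := δ / 8 with hr
  have hr0 : 0 < r := by positivity
  have horth : ∀ y : (ℝ ∙ e0)ᗮ, ⟪e0, (y : E)⟫ = 0 := fun y =>
    Submodule.mem_orthogonal_singleton_iff_inner_right.1 y.2
  have hexz : ∀ y : (ℝ ∙ e0)ᗮ, ‖y‖ < r → ∃ t : ℝ, |t| < r ∧ φ (p0 + y + t • e0) = 0 := by
    intro y hy
    have hcont : Continuous fun t : ℝ => φ (p0 + y + t • e0) :=
      hφ.comp (continuous_const.add (continuous_id.smul continuous_const))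
    have key : ∀ s : ℝ, |s| = r → |φ (p0 + y + s • e0) - s| ≤ 4 * r / 48 := by
      intro s hs
      have e1 : p0 + (y : E) + s • e0 - p0 = y + s • e0 := by abel
      have n1 : ‖(y : E) + s • e0‖ ≤ 2 * r := by
        refine (norm_add_le _ _).trans ?_
        rw [norm_smul, hn0, mul_one, Real.norm_eq_abs, hs]
        have : ‖(y : E)‖ < r := hy
        linarith
      have h1 := hν0.2 (p0 + y + s • e0) (by rw [e1]; refine n1.trans_lt ?_; linarith)
      rw [e1, inner_add_right, horth, inner_smul_right, real_inner_self_eq_norm_sq, hn0] at h1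
      have h2 : D * ‖(y : E) + s • e0‖ ^ (1 + α) ≤ 4 * r / 48 := by
        have h3 := mul_le_mul_of_nonneg_left (pow2 (norm_nonneg _) hr0.le n1 hα hα1) hD0.le
        have h4 := hpw r hr0.le (by rw [hr]; linarith)
        rw [Real.rpow_one_add' hr0.le (by linarith)] at h4
        nlinarith
      have h5 := h1.trans h2
      simpa using h5
    have hpos : 0 < φ (p0 + y + r • e0) := by
      have := (abs_le.1 (key r (abs_of_pos hr0))).1
      linarith
    have hneg : φ (p0 + y + (-r) • e0) < 0 := by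
      have := (abs_le.1 (key (-r) (by rw [abs_neg, abs_of_pos hr0]))).2
      linarith
    obtain ⟨t, ht, ht0⟩ := intermediate_value_Icc (f := fun t : ℝ => φ (p0 + y + t • e0))
      (by linarith : -r ≤ r) hcont.continuousOn ⟨hneg.le, hpos.le⟩
    refine ⟨t, ?_, ht0⟩
    rw [abs_lt]
    constructor
    · rcases eq_or_lt_of_le ht.1 with h | h
      · exfalso; rw [← h] at ht0; exact hneg.ne ht0
      · exact h
    · rcases eq_or_lt_of_le ht.2 with h | h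
      · exfalso; rw [h] at ht0; exact hpos.ne' ht0
      · exact h
  choose! w hw using hexz
  have hPn : ∀ (y : (ℝ ∙ e0)ᗮ) (t : ℝ), ‖y‖ < r → |t| < r →
      ‖p0 + (y : E) + t • e0 - p0‖ ≤ δ / 2 := by
    intro y t hy ht
    have e1 : p0 + (y : E) + t • e0 - p0 = y + t • e0 := by abel
    rw [e1]
    refine (norm_add_le _ _).trans ?_
    rw [norm_smul, hn0, mul_one, Real.norm_eq_abs]
    have : ‖(y : E)‖ < r := hy
    rw [hr] at *; linarith
  have hsign : ∀ y : (ℝ ∙ e0)ᗮ, ‖y‖ < r → ∀ t : ℝ, |t| < r →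
      SignType.sign (φ (p0 + y + t • e0)) = SignType.sign (t - w y) := by
    intro y hy t ht
    obtain ⟨hw1, hw2⟩ := hw y hy
    have hb := abs_lt.1 hw1
    have hb' := abs_lt.1 ht
    rcases lt_trichotomy t (w y) with h | h | h
    · have h1 := hdown _ (hPn y (w y) hy hw1) hw2 (w y - t) (by linarith) (by rw [hr] at *; linarith)
      have e1 : p0 + (y : E) + w y • e0 - (w y - t) • e0 = p0 + y + t • e0 := by
        rw [sub_smul]; abel
      rw [e1] at h1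
      rw [sign_neg h1, sign_neg (by linarith)]
    · rw [h, hw2]; simp
    · have h1 := hup _ (hPn y (w y) hy hw1) hw2 (t - w y) (by linarith) (by rw [hr] at *; linarith)
      have e1 : p0 + (y : E) + w y • e0 + (t - w y) • e0 = p0 + y + t • e0 := by
        rw [sub_smul]; abel
      rw [e1] at h1
      rw [sign_pos h1, sign_pos (by linarith)]
  -- comparison of two points
  have hkey : ∀ y : (ℝ ∙ e0)ᗮ, ‖y‖ < r → ∀ y' : (ℝ ∙ e0)ᗮ, ‖y'‖ < r →
      |w y' - w y| ≤ ‖y' - y‖ / 4 ∧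
      ‖(p0 + (y' : E) + w y' • e0) - (p0 + (y : E) + w y • e0)‖ ≤ 2 * ‖y' - y‖ ∧
      |⟪ν (p0 + (y : E) + w y • e0), ((y' - y : (ℝ ∙ e0)ᗮ) : E)⟫
        + (w y' - w y) * ⟪ν (p0 + (y : E) + w y • e0), e0⟫|
          ≤ D * (4 * (‖y' - y‖ * ‖y' - y‖ ^ α)) := by
    intro y hy y' hy'
    obtain ⟨hw1, hw2⟩ := hw y hy
    obtain ⟨hw1', hw2'⟩ := hw y' hy'
    set p := p0 + (y : E) + w y • e0 with hp
    set p' := p0 + (y' : E) + w y' • e0 with hp'
    have hpn : ‖p - p0‖ ≤ δ / 2 := hPn y (w y) hy hw1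
    have e1 : p' - p = ((y' - y : (ℝ ∙ e0)ᗮ) : E) + (w y' - w y) • e0 := by
      rw [hp, hp', sub_smul, Submodule.coe_sub]; abel
    have nd : ‖p' - p‖ ≤ ‖y' - y‖ + |w y' - w y| := by
      rw [e1]
      refine (norm_add_le _ _).trans ?_
      rw [norm_smul, hn0, mul_one, Real.norm_eq_abs]
      exact le_rfl
    have nd2 : ‖p' - p‖ ≤ δ / 2 := by
      have h1 : ‖y' - y‖ ≤ ‖y'‖ + ‖y‖ := norm_sub_le _ _
      have h2 : |w y' - w y| ≤ |w y'| + |w y| := abs_sub _ _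
      rw [hr] at *; linarith
    have hx := (hν p (by linarith) hw2).2 p' (by linarith)
    rw [hw2', zero_sub, abs_neg, e1, inner_add_right, inner_smul_right] at hx
    rw [← e1] at hx
    have hx2 := hx.trans (hpw _ (norm_nonneg _) (by linarith))
    have ha := hin p hpn hw2
    have hb : |⟪ν p, ((y' - y : (ℝ ∙ e0)ᗮ) : E)⟫| ≤ 1 / 8 * ‖y' - y‖ := by
      have h1 : ⟪ν p, ((y' - y : (ℝ ∙ e0)ᗮ) : E)⟫ = ⟪ν p - e0, ((y' - y : (ℝ ∙ e0)ᗮ) : E)⟫ := by
        rw [inner_sub_left, horth, sub_zero]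
      rw [h1]
      refine (abs_real_inner_le_norm _ _).trans ?_
      have := hclose p hpn hw2
      exact mul_le_mul_of_nonneg_right this (norm_nonneg _)
    have hc : 7 / 8 * |w y' - w y| ≤ |(w y' - w y) * ⟪ν p, e0⟫| := by
      rw [abs_mul, abs_of_nonneg (by linarith : (0:ℝ) ≤ ⟪ν p, e0⟫), mul_comm]
      exact mul_le_mul_of_nonneg_left ha (abs_nonneg _)
    have hd : |(w y' - w y) * ⟪ν p, e0⟫| ≤
        |⟪ν p, ((y' - y : (ℝ ∙ e0)ᗮ) : E)⟫ + (w y' - w y) * ⟪ν p, e0⟫|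
          + |⟪ν p, ((y' - y : (ℝ ∙ e0)ᗮ) : E)⟫| := by
      have := abs_sub (⟪ν p, ((y' - y : (ℝ ∙ e0)ᗮ) : E)⟫ + (w y' - w y) * ⟪ν p, e0⟫)
        (⟪ν p, ((y' - y : (ℝ ∙ e0)ᗮ) : E)⟫)
      simpa using this
    have hL : |w y' - w y| ≤ ‖y' - y‖ / 4 := by
      have h0 : 0 ≤ |w y' - w y| := abs_nonneg _
      have h0' : 0 ≤ ‖y' - y‖ := norm_nonneg _
      nlinarith
    have nd3 : ‖p' - p‖ ≤ 2 * ‖y' - y‖ := by
      have h0' : 0 ≤ ‖y' - y‖ := norm_nonneg _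
      linarith
    refine ⟨hL, nd3, hx.trans ?_⟩
    exact mul_le_mul_of_nonneg_left (pow2 (norm_nonneg _) (norm_nonneg _) nd3 hα hα1) hD0.le
  -- the derivative
  set Lf : (ℝ ∙ e0)ᗮ → ((ℝ ∙ e0)ᗮ →L[ℝ] ℝ) := fun y =>
    (-(⟪ν (p0 + (y : E) + w y • e0), e0⟫)⁻¹) •
      ((innerSL ℝ (ν (p0 + (y : E) + w y • e0))).comp ((ℝ ∙ e0)ᗮ).subtypeL) with hLf
  have hLfa : ∀ (y η : (ℝ ∙ e0)ᗮ), Lf y η = -((⟪ν (p0 + (y : E) + w y • e0), e0⟫)⁻¹
      * ⟪ν (p0 + (y : E) + w y • e0), (η : E)⟫) := by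
    intro y η
    simp [hLf]
  have hder : ∀ y : (ℝ ∙ e0)ᗮ, ‖y‖ < r → HasFDerivAt w (Lf y) y := by
    intro y hy
    have hδ' : 0 < r - ‖y‖ := by linarith
    obtain ⟨hw1, hw2⟩ := hw y hy
    have ha := hin _ (hPn y (w y) hy hw1) hw2
    refine hasFDerivAt_of_bound (K := 8 * D) hδ' hα fun y' hy' => ?_
    have hyy : ‖y'‖ < r := by
      have : ‖y'‖ ≤ ‖y' - y‖ + ‖y‖ := by
        have := norm_add_le (y' - y) y
        simpa using this
      linarith
    obtain ⟨-, -, h3⟩ := hkey y hy y' hyy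
    rw [hLfa]
    set a := ⟪ν (p0 + (y : E) + w y • e0), e0⟫ with hadef
    set b := ⟪ν (p0 + (y : E) + w y • e0), ((y' - y : (ℝ ∙ e0)ᗮ) : E)⟫ with hbdef
    have ha0 : 0 < a := by linarith
    have h4 : w y' - w y - -(a⁻¹ * b) = a⁻¹ * (b + (w y' - w y) * a) := by
      field_simp; ring
    rw [h4, abs_mul, abs_of_pos (inv_pos.2 ha0)]
    have h5 : a⁻¹ ≤ 2 := by
      rw [inv_le_comm₀ ha0 (by norm_num)]
      linarith
    have h6 : 0 ≤ D * (4 * (‖y' - y‖ * ‖y' - y‖ ^ α)) := by positivity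
    calc a⁻¹ * |b + (w y' - w y) * a| ≤ 2 * (D * (4 * (‖y' - y‖ * ‖y' - y‖ ^ α))) :=
          mul_le_mul h5 h3 (abs_nonneg _) (by norm_num)
      _ = 8 * D * (‖y' - y‖ * ‖y' - y‖ ^ α) := by ring
  have hw0 : w 0 = 0 := by
    have h1 := hsign 0 (by simpa using hr0) 0 (by simpa using hr0)
    simp only [Submodule.coe_zero, add_zero, zero_smul, hp0, sign_zero, zero_sub] at h1
    have h2 := h1.symm
    rw [sign_eq_zero_iff] at h2
    linarith
  have hLnorm : ∀ y : (ℝ ∙ e0)ᗮ, ‖y‖ < r → ‖Lf y‖ ≤ 1 / 4 := by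
    intro y hy
    obtain ⟨hw1, hw2⟩ := hw y hy
    have ha := hin _ (hPn y (w y) hy hw1) hw2
    have hcl := hclose _ (hPn y (w y) hy hw1) hw2
    refine ContinuousLinearMap.opNorm_le_bound _ (by norm_num) fun η => ?_
    rw [hLfa, norm_neg, norm_mul, norm_inv, Real.norm_eq_abs, Real.norm_eq_abs]
    set p := p0 + (y : E) + w y • e0 with hp
    have h1 : ⟪ν p, (η : E)⟫ = ⟪ν p - e0, (η : E)⟫ := by
      rw [inner_sub_left, horth, sub_zero]
    have h2 : |⟪ν p, (η : E)⟫| ≤ 1 / 8 * ‖η‖ := by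
      rw [h1]
      refine (abs_real_inner_le_norm _ _).trans ?_
      exact mul_le_mul_of_nonneg_right hcl (norm_nonneg _)
    rw [abs_of_pos (by linarith : (0:ℝ) < ⟪ν p, e0⟫)]
    have h5 : (⟪ν p, e0⟫)⁻¹ ≤ 2 := by
      rw [inv_le_comm₀ (by linarith) (by norm_num)]
      linarith
    calc (⟪ν p, e0⟫)⁻¹ * |⟪ν p, (η : E)⟫| ≤ 2 * (1 / 8 * ‖η‖) :=
          mul_le_mul h5 h2 (abs_nonneg _) (by norm_num)
      _ = 1 / 4 * ‖η‖ := by ring
  refine ⟨e0, hn0, r, hr0, 48 * D, by positivity, w, hw0, ?_, ?_, ?_, ?_, ?_⟩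
  · rw [(hder 0 (by simpa using hr0)).fderiv]
    ext η
    rw [hLfa, hw0]
    simp only [Submodule.coe_zero, add_zero, zero_smul]
    rw [← he0, horth]
    simp
  · intro y hy
    rw [mem_ball_zero_iff] at hy
    refine ⟨(hder y hy).differentiableAt, ?_⟩
    rw [(hder y hy).fderiv]
    exact hLnorm y hy
  · intro y hy y' hy'
    rw [mem_ball_zero_iff] at hy hy'
    exact (hkey y' hy' y hy).1
  · intro y hy y' hy'
    rw [mem_ball_zero_iff] at hy hy'
    rw [(hder y hy).fderiv, (hder y' hy').fderiv]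
    obtain ⟨hw1, hw2⟩ := hw y hy
    obtain ⟨hw1', hw2'⟩ := hw y' hy'
    have hPn1 := hPn y (w y) hy hw1
    have hPn1' := hPn y' (w y') hy' hw1'
    have ha := hin _ hPn1 hw2
    have ha' := hin _ hPn1' hw2'
    have hE := hν _ (by linarith) hw2
    have hE' := hν _ (by linarith) hw2'
    obtain ⟨-, hk2, -⟩ := hkey y' hy' y hy
    refine ContinuousLinearMap.opNorm_le_bound _ (by positivity) fun η => ?_
    rw [sub_apply, hLfa, hLfa]
    set p := p0 + (y : E) + w y • e0 with hp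
    set p' := p0 + (y' : E) + w y' • e0 with hp'
    have hdiff : ‖ν p - ν p'‖ ≤ 12 * D * ‖y - y'‖ ^ α := by
      by_cases hpp : p = p'
      · rw [hpp, sub_self, norm_zero]; positivity
      · have h1 := normal_holder hα hα1 hD0.le hE hE' hw2 (by
          have h2 : ‖p - p'‖ ≤ ‖p - p0‖ + ‖p' - p0‖ := by
            have := norm_sub_le (p - p0) (p' - p0)
            simpa using this
          have h3 : ∀ (z : (ℝ ∙ e0)ᗮ) (t : ℝ), ‖z‖ < r → |t| < r →
              ‖p0 + (z : E) + t • e0 - p0‖ < δ / 4 := by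
            intro z t hz ht
            have e1 : p0 + (z : E) + t • e0 - p0 = z + t • e0 := by abel
            rw [e1]
            refine (norm_add_le _ _).trans_lt ?_
            rw [norm_smul, hn0, mul_one, Real.norm_eq_abs]
            have : ‖(z : E)‖ < r := hz
            rw [hr] at *; linarith
          have h4 := h3 y (w y) hy hw1
          have h5 := h3 y' (w y') hy' hw1'
          rw [← hp] at h4
          rw [← hp'] at h5
          linarith) hpp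
        have h2 := pow2' (norm_nonneg _) (norm_nonneg _) hk2 hα hα1
        calc _ ≤ 6 * D * ‖p - p'‖ ^ α := h1
          _ ≤ 6 * D * (2 * ‖y - y'‖ ^ α) := by
              exact mul_le_mul_of_nonneg_left h2 (by positivity)
          _ = _ := by ring
    have hn1 : ‖ν p‖ = 1 := hE.1
    have hn2 : ‖ν p'‖ = 1 := hE'.1
    have i1 : |⟪ν p, (η : E)⟫| ≤ ‖η‖ := by
      refine (abs_real_inner_le_norm _ _).trans ?_
      rw [hn1, one_mul]; exact le_rfl
    have i2 : |⟪ν p, (η : E)⟫ - ⟪ν p', (η : E)⟫| ≤ ‖ν p - ν p'‖ * ‖η‖ := by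
      rw [← inner_sub_left]
      exact abs_real_inner_le_norm _ _
    have i3 : |⟪ν p', e0⟫ - ⟪ν p, e0⟫| ≤ ‖ν p - ν p'‖ := by
      rw [← inner_sub_left, ← norm_neg (ν p - ν p'), neg_sub]
      refine (abs_real_inner_le_norm _ _).trans ?_
      rw [hn0, mul_one]
    set a := ⟪ν p, e0⟫ with hadef
    set a' := ⟪ν p', e0⟫ with ha'def
    set b := ⟪ν p, (η : E)⟫ with hbdef
    set b' := ⟪ν p', (η : E)⟫ with hb'def
    have ha0 : 0 < a := by linarith
    have ha0' : 0 < a' := by linarith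
    have h1 : -(a⁻¹ * b) - -(a'⁻¹ * b') = -(a⁻¹ * a'⁻¹) * (b * (a' - a) + a * (b - b')) := by
      field_simp; ring
    have ha1 : |a| ≤ 1 := by
      refine (abs_real_inner_le_norm _ _).trans ?_
      rw [hn1, hn0]; norm_num
    have h2 : |b * (a' - a) + a * (b - b')| ≤ 2 * (‖ν p - ν p'‖ * ‖η‖) := by
      refine (abs_add_le _ _).trans ?_
      rw [abs_mul, abs_mul]
      have j1 : |b| * |a' - a| ≤ ‖η‖ * ‖ν p - ν p'‖ :=
        mul_le_mul i1 i3 (abs_nonneg _) (norm_nonneg _)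
      have j2 : |a| * |b - b'| ≤ 1 * (‖ν p - ν p'‖ * ‖η‖) :=
        mul_le_mul ha1 i2 (abs_nonneg _) (by norm_num)
      nlinarith
    have h3 : |-(a⁻¹ * a'⁻¹)| ≤ 2 := by
      rw [abs_neg, abs_of_pos (by positivity)]
      have k1 : a⁻¹ ≤ 8 / 7 := by
        rw [inv_le_comm₀ ha0 (by norm_num)]; linarith
      have k2 : a'⁻¹ ≤ 8 / 7 := by
        rw [inv_le_comm₀ ha0' (by norm_num)]; linarith
      calc a⁻¹ * a'⁻¹ ≤ 8 / 7 * (8 / 7) := mul_le_mul k1 k2 (by positivity) (by norm_num)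
        _ ≤ 2 := by norm_num
    rw [h1, Real.norm_eq_abs, abs_mul]
    calc |-(a⁻¹ * a'⁻¹)| * |b * (a' - a) + a * (b - b')|
        ≤ 2 * (2 * (‖ν p - ν p'‖ * ‖η‖)) :=
          mul_le_mul h3 h2 (abs_nonneg _) (by norm_num)
      _ ≤ 2 * (2 * ((12 * D * ‖y - y'‖ ^ α) * ‖η‖)) := by
          have := mul_le_mul_of_nonneg_right hdiff (norm_nonneg η)
          linarith
      _ = 48 * D * ‖y - y'‖ ^ α * ‖η‖ := by ring
  · intro y hy t ht
    rw [mem_ball_zero_iff] at hy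
    exact hsign y hy t ht

end Crest.Agent.R246.Mg295
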