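import Crest.Agent.R246.ThetaK_688
import Crest.Agent.R246.Inv_990
import Mathlib.MeasureTheory.Integral.Gamma

/-!
# Numeric identities linking `cV` and `unitSphereArea` (R246, module K; helper688)

`unitSphereArea m * cV E = π^((m+1)/2)` for `finrank E = m + 2`.
-/

set_option autoImplicit false

open Real Set MeasureTheory
open Crest.GeometryTopology.SphereImmersion

namespace Crest.Agent.R246.ThetaK688

/-- `∫_0^∞ t^m e^{-t²} dt = Γ((m+1)/2)/2` -/
theorem integral_pow_mul_exp_neg_sq (m : ℕ) :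
    ∫ t in Ioi (0 : ℝ), t ^ m * Real.exp (-t ^ 2) = Real.Gamma (((m : ℝ) + 1) / 2) / 2 := by
  have h := integral_rpow_mul_exp_neg_rpow (p := 2) (q := (m : ℝ)) two_pos
    (by have : (0 : ℝ) ≤ m := Nat.cast_nonneg m; linarith)
  have h2 : ∫ t in Ioi (0 : ℝ), t ^ m * Real.exp (-t ^ 2) =
      ∫ x in Ioi (0 : ℝ), x ^ (m : ℝ) * Real.exp (-x ^ (2 : ℝ)) := by
    refine setIntegral_congr_fun measurableSet_Ioi fun t _ => ?_
    simp only [Real.rpow_natCast]
    norm_num
  rw [h2, h]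
  ring

theorem cV_eq {E : Type*} [NormedAddCommGroup E] [InnerProductSpace ℝ E] {m : ℕ}
    (hE : Module.finrank ℝ E = m + 2) : H990.cV E = Real.Gamma (((m : ℝ) + 1) / 2) / 2 := by
  unfold H990.cV
  rw [hE, Nat.add_sub_cancel]
  exact integral_pow_mul_exp_neg_sq m

theorem unitSphereArea_mul_cV {E : Type*} [NormedAddCommGroup E] [InnerProductSpace ℝ E] {m : ℕ}
    (hE : Module.finrank ℝ E = m + 2) :
    unitSphereArea m * H990.cV E = π ^ (((m : ℝ) + 1) / 2) := by
  rw [cV_eq hE]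
  unfold unitSphereArea
  have : 0 < Real.Gamma (((m : ℝ) + 1) / 2) := Real.Gamma_pos_of_pos (by positivity)
  field_simp

theorem cV_pos {E : Type*} [NormedAddCommGroup E] [InnerProductSpace ℝ E] {m : ℕ}
    (hE : Module.finrank ℝ E = m + 2) : 0 < H990.cV E := by
  rw [cV_eq hE]
  have : 0 < Real.Gamma (((m : ℝ) + 1) / 2) := Real.Gamma_pos_of_pos (by positivity)
  positivity

/-- the mass hypothesis of block G: `V < 2 |S^m|` -/
theorem mass_lt_two {E : Type*} [NormedAddCommGroup E] [InnerProductSpace ℝ E] {m : ℕ}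
    (hE : Module.finrank ℝ E = m + 2) {V : ℝ} (hV : V < 2 * unitSphereArea m) :
    V * H990.cV E < 2 * π ^ (((Module.finrank ℝ E : ℝ) - 1) / 2) := by
  have h := unitSphereArea_mul_cV hE
  have h1 : ((Module.finrank ℝ E : ℝ) - 1) / 2 = ((m : ℝ) + 1) / 2 := by
    rw [hE]; push_cast; ring
  rw [h1, ← h, ← mul_assoc]
  exact mul_lt_mul_of_pos_right hV (cV_pos hE)

/-- `WW j * √π * cV E' = Theta j * π^((j+2)/2)` for `finrank E' = j + 2` -/
theorem WW_mul_cV {E' : Type*} [NormedAddCommGroup E'] [InnerProductSpace ℝ E'] {j : ℕ}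
    (hE' : Module.finrank ℝ E' = j + 2) :
    WW j * (Real.sqrt π * H990.cV E') = Theta j * π ^ (((j : ℝ) + 2) / 2) := by
  have h := unitSphereArea_mul_cV hE'
  have h2 : π ^ (((j : ℝ) + 2) / 2) = π ^ (((j : ℝ) + 1) / 2) * Real.sqrt π := by
    rw [Real.sqrt_eq_rpow, ← Real.rpow_add pi_pos]
    congr 1
    ring
  rw [h2, ← h]
  unfold WW
  ring

/-- the link hypothesis of block G, from `V < WW m` and `WW (m-1) ≤ B`. -/
theorem mass_lt_link {E E' : Type*} [NormedAddCommGroup E] [InnerProductSpace ℝ E]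
    [NormedAddCommGroup E'] [InnerProductSpace ℝ E'] {m : ℕ} (hm : 2 ≤ m)
    (hE : Module.finrank ℝ E = m + 2) (hE' : Module.finrank ℝ E' = m + 1) {V B : ℝ}
    (hV : V < WW m) (hB : WW (m - 1) ≤ B) :
    V * H990.cV E < B * (Real.sqrt π * H990.cV E') := by
  obtain ⟨j, rfl⟩ : ∃ j, m = j + 1 := ⟨m - 1, by omega⟩
  have hj : 1 ≤ j := by omega
  simp only [Nat.add_sub_cancel] at hB
  have hE'2 : Module.finrank ℝ E' = j + 2 := by omega
  have h1 : WW (j + 1) * H990.cV E = Theta (j + 1) * π ^ (((j : ℝ) + 2) / 2) := by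
    have h := unitSphereArea_mul_cV hE
    have e : (((j + 1 : ℕ) : ℝ) + 1) / 2 = ((j : ℝ) + 2) / 2 := by push_cast; ring
    rw [e] at h
    rw [← h]
    unfold WW
    ring
  have h2 : V * H990.cV E < WW (j + 1) * H990.cV E :=
    mul_lt_mul_of_pos_right hV (cV_pos hE)
  have h3 : WW j * (Real.sqrt π * H990.cV E') ≤ B * (Real.sqrt π * H990.cV E') := by
    have := cV_pos hE'2
    gcongr
  have h4 : Theta (j + 1) * π ^ (((j : ℝ) + 2) / 2) ≤ Theta j * π ^ (((j : ℝ) + 2) / 2) := by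
    have := Theta_succ_le hj
    gcongr
  rw [WW_mul_cV hE'2] at h3
  linarith

end Crest.Agent.R246.ThetaK688
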