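import Crest.Agent.R246.SM1_436
import Mathlib.MeasureTheory.Constructions.HaarToSphere

/-!
# The area measure of a smooth hypercone and the exact tube product formula (helper436)
-/

set_option autoImplicit false
set_option linter.unusedSectionVars false
set_option linter.unusedSimpArgs false
noncomputable section
open MeasureTheory Set Filter Topology Module
open scoped RealInnerProductSpace ContDiff

namespace Crest.Agent.R246.SM436

open Crest.Agent.R246.H990

variable {E : Type*} [NormedAddCommGroup E] [InnerProductSpace ℝ E] [FiniteDimensional ℝ E]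
  [MeasurableSpace E] [BorelSpace E]

/-- unit foot point -/
def pp (φ : E → ℝ) (y : E) : E := (rr φ y)⁻¹ • ft φ y

/-- `det (1 + τ A_p)` -/
def jt (φ : E → ℝ) (p : E) (τ : ℝ) : ℝ := (ContinuousLinearMap.id ℝ E + τ • hs φ p).det

/-- Lebesgue measure of the tube divided by the Jacobian. -/
def lam (φ : E → ℝ) (b : ℝ) : Measure E :=
  (volume.restrict (TT φ b)).withDensity (fun y => ENNReal.ofReal |jj φ y|⁻¹)

/-- the area measure of `{φ = 0} ∩ sphere`. -/
def mu (φ : E → ℝ) (b : ℝ) : Measure E :=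
  ENNReal.ofReal (finrank ℝ E / (2 * b)) •
    ((lam φ b).restrict {y | rr φ y < 1}).map (pp φ)

/-! ### measurability -/

lemma measurable_gradient (φ : E → ℝ) : Measurable (gradient φ) := by
  rw [gradient_eq_comp]
  exact (InnerProductSpace.toDual ℝ E).symm.continuous.measurable.comp (measurable_fderiv ℝ φ)

lemma measurable_hs (φ : E → ℝ) : Measurable (hs φ) := measurable_fderiv ℝ (gradient φ)

namespace Tube

variable {φ : E → ℝ} {b : ℝ} (hT : Tube φ b)
include hT

lemma measurable_phi : Measurable φ := hT.lip.continuous.measurable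

lemma measurable_rr : Measurable (rr φ) := hT.continuous_rr.measurable

lemma measurable_ta : Measurable (ta φ) := hT.measurable_phi.div hT.measurable_rr

lemma measurable_ft : Measurable (ft φ) :=
  measurable_id.sub (hT.measurable_phi.smul (measurable_gradient φ))

lemma measurable_pp : Measurable (pp φ) := hT.measurable_rr.inv.smul hT.measurable_ft

lemma measurable_jj : Measurable (jj φ) := by
  have h1 : Measurable fun y => ContinuousLinearMap.id ℝ E + φ y • hs φ (ft φ y) :=
    measurable_const.add (hT.measurable_phi.smul ((measurable_hs φ).comp hT.measurable_ft))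
  exact ContinuousLinearMap.continuous_det.measurable.comp h1

omit hT in
lemma _root_.Crest.Agent.R246.SM436.measurable_jt (φ : E → ℝ) :
    Measurable fun q : E × ℝ => jt φ q.1 q.2 := by
  have h1 : Measurable fun q : E × ℝ => ContinuousLinearMap.id ℝ E + q.2 • hs φ q.1 :=
    measurable_const.add (measurable_snd.smul ((measurable_hs φ).comp measurable_fst))
  exact ContinuousLinearMap.continuous_det.measurable.comp h1

lemma measurable_kk (α β : ℝ) : Measurable (kk φ α β) :=
  hT.measurable_ft.add (((hT.measurable_phi.const_mul α).add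
    (hT.measurable_rr.const_mul β)).smul (measurable_gradient φ))

/-! ### unit foot points -/

lemma norm_pp {y : E} (hy : y ∈ TT φ b) : ‖pp φ y‖ = 1 := by
  rw [pp, norm_smul, norm_inv, hT.norm_ft hy, Real.norm_eq_abs, abs_of_pos hy.1,
    inv_mul_cancel₀ hy.1.ne']

lemma phi_pp {y : E} (hy : y ∈ TT φ b) : φ (pp φ y) = 0 := by
  rw [pp, hT.hom _ (inv_pos.2 hy.1).le, hT.phi_ft hy, mul_zero]

lemma gradient_pp {y : E} (hy : y ∈ TT φ b) : gradient φ (pp φ y) = gradient φ y := by
  rw [pp, gradient_smul_of_hom hT.hom _ (inv_pos.2 hy.1), hT.gradient_ft hy]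

lemma hs_pp {y : E} (hy : y ∈ TT φ b) : hs φ (pp φ y) = rr φ y • hs φ (ft φ y) := by
  rw [pp, (hT.good (hT.ft_mem_TT hy)).hs_smul hT.hom (inv_pos.2 hy.1), inv_inv]

lemma jj_eq_jt {y : E} (hy : y ∈ TT φ b) : jj φ y = jt φ (pp φ y) (ta φ y) := by
  rw [jj, jt, hT.hs_pp hy, smul_smul, hT.ta_mul_rr hy]

lemma recon_pp {y : E} (hy : y ∈ TT φ b) :
    rr φ y • (pp φ y + ta φ y • gradient φ (pp φ y)) = y := by
  rw [smul_add, smul_smul, pp, smul_smul, mul_inv_cancel₀ hy.1.ne', one_smul,
    gradient_smul_of_hom hT.hom _ (inv_pos.2 hy.1), mul_comm, hT.ta_mul_rr hy, hT.recon hy]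

lemma pp_smul (y : E) {t : ℝ} (ht : 0 < t) : pp φ (t • y) = pp φ y := by
  rw [pp, pp, hT.rr_smul y ht.le, hT.ft_smul y ht, smul_smul, mul_inv]
  congr 1
  field_simp

lemma jj_smul {y : E} (hy : y ∈ TT φ b) {t : ℝ} (ht : 0 < t) : jj φ (t • y) = jj φ y := by
  rw [hT.jj_eq_jt hy, hT.jj_eq_jt ((hT.mem_TT_smul ht).2 hy), hT.pp_smul y ht, hT.ta_smul y ht]

/-- points `ρ (p + τ ν)` -/
lemma seg' {p : E} (hp : ‖p‖ = 1) (hφ : φ p = 0) {ρ τ : ℝ} (hρ : 0 < ρ) (hτ : |τ| < b) :
    ρ • (p + τ • gradient φ p) ∈ TT φ b ∧ pp φ (ρ • (p + τ • gradient φ p)) = p ∧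
      rr φ (ρ • (p + τ • gradient φ p)) = ρ ∧ ta φ (ρ • (p + τ • gradient φ p)) = τ := by
  have hx : p ∈ ZZ φ := ⟨by rintro rfl; simp at hp, hφ⟩
  obtain ⟨h1, h2, h3, h4, h5⟩ := hT.seg hx (s := τ) (by rwa [hp, mul_one])
  refine ⟨(hT.mem_TT_smul hρ).2 h1, ?_, ?_, ?_⟩
  · rw [hT.pp_smul _ hρ, pp, h4, h5, hp, inv_one, one_smul]
  · rw [hT.rr_smul _ hρ.le, h5, hp, mul_one]
  · rw [hT.ta_smul _ hρ, ta, h3, h5, hp, div_one]

/-! ### the rectangle sets -/

omit hT in
/-- rectangle sets -/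
def _root_.Crest.Agent.R246.SM436.SS (φ : E → ℝ) (b : ℝ) (B : Set E) (r c : ℝ) : Set E :=
  {y | y ∈ TT φ b ∧ pp φ y ∈ B ∧ rr φ y < r ∧ ta φ y < c}

lemma measurableSet_TT : MeasurableSet (TT φ b) := hT.isOpen_TT.measurableSet

lemma measurableSet_SS {B : Set E} (hB : MeasurableSet B) (r c : ℝ) :
    MeasurableSet (SS φ b B r c) :=
  hT.measurableSet_TT.inter ((hT.measurable_pp hB).inter
    ((measurableSet_lt hT.measurable_rr measurable_const).inter
      (measurableSet_lt hT.measurable_ta measurable_const)))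

lemma lam_SS {B : Set E} (hB : MeasurableSet B) (r c : ℝ) :
    lam φ b (SS φ b B r c) = ∫⁻ y in SS φ b B r c, ENNReal.ofReal |jj φ y|⁻¹ := by
  rw [lam, withDensity_apply _ (hT.measurableSet_SS hB r c),
    Measure.restrict_restrict (hT.measurableSet_SS hB r c)]
  congr 2
  exact inter_eq_left.2 fun y hy => hy.1

/-- dilation -/
lemma lam_SS_dil {B : Set E} (hB : MeasurableSet B) {r : ℝ} (hr : 0 < r) (c : ℝ) :
    lam φ b (SS φ b B r c) = ENNReal.ofReal (r ^ finrank ℝ E) * lam φ b (SS φ b B 1 c) := by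
  have himg : SS φ b B r c = (fun y => r • y) '' SS φ b B 1 c := by
    ext y
    constructor
    · rintro ⟨h1, h2, h3, h4⟩
      refine ⟨r⁻¹ • y, ⟨(hT.mem_TT_smul (inv_pos.2 hr)).2 h1, ?_, ?_, ?_⟩, ?_⟩
      · rwa [hT.pp_smul y (inv_pos.2 hr)]
      · rw [hT.rr_smul y (inv_pos.2 hr).le, inv_mul_lt_iff₀ hr, mul_one]; exact h3
      · rwa [hT.ta_smul y (inv_pos.2 hr)]
      · simp only [smul_smul, mul_inv_cancel₀ hr.ne', one_smul]
    · rintro ⟨z, ⟨h1, h2, h3, h4⟩, rfl⟩
      refine ⟨(hT.mem_TT_smul hr).2 h1, ?_, ?_, ?_⟩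
      · simpa only [hT.pp_smul z hr] using h2
      · simp only [hT.rr_smul z hr.le]; nlinarith
      · simpa only [hT.ta_smul z hr] using h4
  have hdet : (r • ContinuousLinearMap.id ℝ E).det = r ^ finrank ℝ E := by
    rw [ContinuousLinearMap.det]
    have : ((r • ContinuousLinearMap.id ℝ E : E →L[ℝ] E) : E →ₗ[ℝ] E)
        = r • (LinearMap.id : E →ₗ[ℝ] E) := by ext; simp
    rw [this, LinearMap.det_smul, LinearMap.det_id, mul_one]
  rw [hT.lam_SS hB, hT.lam_SS hB, himg,
    lintegral_image_eq_lintegral_abs_det_fderiv_mul volume (hT.measurableSet_SS hB 1 c)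
      (f := fun y => r • y) (f' := fun _ => r • ContinuousLinearMap.id ℝ E)
      (fun y _ => ((hasFDerivAt_id y).const_smul r).hasFDerivWithinAt)
      (fun y _ z _ h => by
        have h' : r • y = r • z := h
        exact smul_right_injective E hr.ne' h')]
  rw [← lintegral_const_mul' _ _ ENNReal.ofReal_ne_top]
  refine setLIntegral_congr_fun (hT.measurableSet_SS hB 1 c) fun y hy => ?_
  simp only [hdet]
  rw [abs_of_nonneg (by positivity), hT.jj_smul hy.1 hr]

/-- stretching -/
lemma lam_SS_str {B : Set E} (hB : MeasurableSet B) (r : ℝ) {c : ℝ} (hc : -b < c) (hcb : c ≤ b) :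
    lam φ b (SS φ b B r c)
      = ENNReal.ofReal ((c + b) / (2 * b)) * lam φ b (SS φ b B r b) := by
  have hb := hT.hb
  set α := (c + b) / (2 * b) with hα
  have hα0 : 0 < α := by rw [hα]; apply div_pos <;> linarith
  have hα1 : α * (2 * b) = c + b := by rw [hα]; field_simp
  set β := b * (α - 1) with hβ
  have hα2 : α ≤ 1 := by rw [hα, div_le_one (by linarith)]; linarith
  have hmaps : ∀ y ∈ TT φ b, |α * ta φ y + β| < b ∧ α * ta φ y + β < c := by
    intro y hy
    have h1 := _root_.abs_lt.1 (hT.abs_ta_lt hy)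
    have h2 : α * ta φ y < α * b := mul_lt_mul_of_pos_left h1.2 hα0
    have h3 : α * (-b) < α * ta φ y := mul_lt_mul_of_pos_left h1.1 hα0
    rw [_root_.abs_lt]
    refine ⟨⟨?_, ?_⟩, ?_⟩ <;> rw [hβ] <;> nlinarith
  have himg : SS φ b B r c = kk φ α β '' SS φ b B r b := by
    ext y
    constructor
    · rintro ⟨h1, h2, h3, h4⟩
      have h5 := _root_.abs_lt.1 (hT.abs_ta_lt h1)
      have hx : |α⁻¹ * ta φ y + -β / α| < b := by
        rw [show α⁻¹ * ta φ y + -β / α = (ta φ y - β) / α by field_simp; ring, abs_div,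
          abs_of_pos hα0, div_lt_iff₀ hα0, _root_.abs_lt, hβ]
        constructor <;> nlinarith
      obtain ⟨g1, g2, g3, g4, g5⟩ := hT.kk_props h1 hx
      refine ⟨kk φ α⁻¹ (-β / α) y, ⟨g1, ?_, ?_, ?_⟩, ?_⟩
      · rwa [pp, g2, g3]
      · rwa [g3]
      · rw [g4]; exact (_root_.abs_lt.1 hx).2
      · rw [hT.kk_comp h1 hx, mul_inv_cancel₀ hα0.ne',
          show α * (-β / α) + β = 0 by field_simp; ring, hT.kk_one_zero h1]
    · rintro ⟨z, ⟨h1, h2, h3, h4⟩, rfl⟩
      obtain ⟨g0, g00⟩ := hmaps z h1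
      obtain ⟨g1, g2, g3, g4, g5⟩ := hT.kk_props h1 g0
      refine ⟨g1, ?_, ?_, ?_⟩
      · rwa [pp, g2, g3]
      · rwa [g3]
      · rw [g4]; exact g00
  have hinj : InjOn (kk φ α β) (SS φ b B r b) := by
    intro y hy z hz h
    have e1 := hT.kk_comp hy.1 (α' := α⁻¹) (β' := -β / α) (hmaps y hy.1).1
    have e2 := hT.kk_comp hz.1 (α' := α⁻¹) (β' := -β / α) (hmaps z hz.1).1
    rw [inv_mul_cancel₀ hα0.ne', show α⁻¹ * β + -β / α = 0 by field_simp; ring,
      hT.kk_one_zero hy.1] at e1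
    rw [inv_mul_cancel₀ hα0.ne', show α⁻¹ * β + -β / α = 0 by field_simp; ring,
      hT.kk_one_zero hz.1] at e2
    rw [← e1, ← e2, h]
  rw [hT.lam_SS hB, hT.lam_SS hB, himg,
    lintegral_image_eq_lintegral_abs_det_fderiv_mul volume (hT.measurableSet_SS hB r b)
      (f := kk φ α β) (f' := dkk φ α β)
      (fun y hy => (hT.hasFDerivAt_kk α β hy.1).hasFDerivWithinAt) hinj]
  rw [← lintegral_const_mul' _ _ ENNReal.ofReal_ne_top]
  refine setLIntegral_congr_fun (hT.measurableSet_SS hB r b) fun y hy => ?_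
  obtain ⟨g1, g2, g3, g4, g5⟩ := hT.kk_props hy.1 (hmaps y hy.1).1
  have hd := hT.det_dkk α β hy.1
  have hjk : jj φ (kk φ α β y)
      = (ContinuousLinearMap.id ℝ E + (α * φ y + β * rr φ y) • hs φ (ft φ y)).det := by
    rw [jj, g5, g2]
  rw [← hjk] at hd
  have hj1 := hT.jj_ne_zero hy.1
  have hj2 := hT.jj_ne_zero g1
  rw [← ENNReal.ofReal_mul (abs_nonneg _), ← ENNReal.ofReal_mul hα0.le]
  congr 1
  have : (dkk φ α β y).det = α * jj φ (kk φ α β y) / jj φ y := by
    rw [← hd]; field_simp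
  rw [this, abs_div, abs_mul, abs_of_pos hα0]
  have h1 := abs_pos.2 hj1
  have h2 := abs_pos.2 hj2
  field_simp

/-! ### finiteness -/

lemma bdd_inv_jj : ∃ C : ℝ, ∀ y ∈ TT φ b, |jj φ y|⁻¹ ≤ C := by
  set K : Set E := Metric.sphere (0 : E) 1 ∩ {y | |φ y| ≤ b * rr φ y} with hK
  have hKc : IsCompact K :=
    (isCompact_sphere (0 : E) 1).inter_right
      (isClosed_le hT.lip.continuous.abs (continuous_const.mul hT.continuous_rr))
  have hgood : ∀ y ∈ K, Good φ y := by
    rintro y ⟨h1, h2⟩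
    have hy0 : y ≠ 0 := by rintro rfl; simp at h1
    have hn : 0 < ‖y‖ := norm_pos_iff.2 hy0
    have hlt : |φ y| < b * ‖y‖ := by
      rcases eq_or_ne (φ y) 0 with h0 | h0
      · rw [h0, abs_zero]; exact mul_pos hT.hb hn
      · have hr : rr φ y < ‖y‖ := by
          have := hT.rr_sq y
          have h3 : 0 < φ y ^ 2 := by positivity
          apply lt_of_pow_lt_pow_left₀ 2 hn.le
          linarith
        have := mul_lt_mul_of_pos_left hr hT.hb
        exact lt_of_le_of_lt h2 this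
    have := hT.line y hy0 hlt 0 (by
      have := hT.hb; simp; positivity)
    simpa using this
  have hcont : ContinuousOn (fun y => |(qq φ y).det|) K := by
    intro y hy
    have h1 : ContinuousAt (hs φ) y := by
      have h2 : ContDiffAt ℝ ∞ (hs φ) y :=
        (hgood y hy).contDiffAt_gradient.fderiv_right (m := ∞) (by simp)
      exact h2.continuousAt
    have h3 : qq φ = fun y => ContinuousLinearMap.id ℝ E - φ y • hs φ y := by
      funext y; ext v
      simp [hT.qq_apply y v]
    have h4 : ContinuousAt (qq φ) y := by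
      rw [h3]
      exact continuousAt_const.sub (hT.lip.continuous.continuousAt.smul h1)
    exact ((ContinuousLinearMap.continuous_det.continuousAt).comp h4).abs.continuousWithinAt
  obtain ⟨C, hC⟩ := hKc.bddAbove_image hcont
  refine ⟨C, fun y hy => ?_⟩
  have hy0 := hT.ne_zero hy
  have hn : 0 < ‖y‖ := norm_pos_iff.2 hy0
  have h1 : ‖y‖⁻¹ • y ∈ TT φ b := (hT.mem_TT_smul (inv_pos.2 hn)).2 hy
  have h2 : ‖y‖⁻¹ • y ∈ K := ⟨by simp [norm_smul, hn.ne'], h1.2.le⟩
  have h3 := hC (mem_image_of_mem _ h2)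
  have h4 := hT.jj_mul_det h1
  rw [hT.jj_smul hy (inv_pos.2 hn)] at h4
  have h5 : |jj φ y|⁻¹ = |(qq φ (‖y‖⁻¹ • y)).det| := by
    rw [← abs_inv]
    congr 1
    exact inv_eq_of_mul_eq_one_right h4
  rw [h5]
  exact h3

lemma lam_SS_univ_lt_top (r : ℝ) : lam φ b (SS φ b univ r b) < ⊤ := by
  obtain ⟨C, hC⟩ := hT.bdd_inv_jj
  rw [hT.lam_SS MeasurableSet.univ]
  have hb := hT.hb
  have hsub : SS φ b univ r b ⊆ Metric.closedBall (0 : E) ((1 + b) * |r|) := by
    rintro y ⟨h1, -, h3, -⟩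
    rw [mem_closedBall_zero_iff]
    have h4 := hT.rr_sq y
    have h5 := h1.2
    have h6 := h1.1
    have h7 : r ≤ |r| := le_abs_self r
    have h8 : ‖y‖ ≤ rr φ y + |φ y| := by
      apply abs_le_of_sq_le_sq' _ (by positivity) |>.2
      have := sq_abs (φ y)
      nlinarith [abs_nonneg (φ y)]
    nlinarith
  calc ∫⁻ y in SS φ b univ r b, ENNReal.ofReal |jj φ y|⁻¹
      ≤ ∫⁻ y in SS φ b univ r b, ENNReal.ofReal C :=
        setLIntegral_mono' (hT.measurableSet_SS MeasurableSet.univ r b)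
          fun y hy => ENNReal.ofReal_le_ofReal (hC y hy.1)
    _ = ENNReal.ofReal C * volume (SS φ b univ r b) := setLIntegral_const _ _
    _ < ⊤ := ENNReal.mul_lt_top ENNReal.ofReal_lt_top
        ((measure_mono hsub).trans_lt measure_closedBall_lt_top)

lemma SS_mono {B B' : Set E} (h : B ⊆ B') (r c : ℝ) : SS φ b B r c ⊆ SS φ b B' r c :=
  fun _ hy => ⟨hy.1, h hy.2.1, hy.2.2⟩

/-! ### the measure `mu` -/

lemma mu_apply {B : Set E} (hB : MeasurableSet B) :
    mu φ b B = ENNReal.ofReal (finrank ℝ E / (2 * b)) * lam φ b (SS φ b B 1 b) := by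
  have hmeas : MeasurableSet {y | rr φ y < 1} := measurableSet_lt hT.measurable_rr measurable_const
  rw [mu, Measure.smul_apply, Measure.map_apply hT.measurable_pp hB, smul_eq_mul,
    Measure.restrict_apply (hT.measurable_pp hB)]
  congr 1
  have h1 : SS φ b B 1 b = (pp φ ⁻¹' B ∩ {y | rr φ y < 1}) ∩ TT φ b := by
    ext y
    constructor
    · rintro ⟨h1, h2, h3, h4⟩; exact ⟨⟨h2, h3⟩, h1⟩
    · rintro ⟨⟨h2, h3⟩, h1⟩; exact ⟨h1, h2, h3, (_root_.abs_lt.1 (hT.abs_ta_lt h1)).2⟩
  have h2 : lam φ b (TT φ b)ᶜ = 0 := by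
    rw [lam, withDensity_apply _ hT.measurableSet_TT.compl,
      Measure.restrict_restrict hT.measurableSet_TT.compl, compl_inter_self,
      Measure.restrict_empty, lintegral_zero_measure]
  rw [h1, measure_inter_conull h2]

lemma isFiniteMeasure_mu : IsFiniteMeasure (mu φ b) := by
  refine ⟨?_⟩
  rw [hT.mu_apply MeasurableSet.univ]
  exact ENNReal.mul_lt_top ENNReal.ofReal_lt_top (hT.lam_SS_univ_lt_top 1)

omit hT in
/-- the link `M' = {φ = 0} ∩ sphere` -/
def _root_.Crest.Agent.R246.SM436.Lk (φ : E → ℝ) : Set E := {p | ‖p‖ = 1 ∧ φ p = 0}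

lemma isCompact_Lk : IsCompact (Lk φ) := by
  have : Lk φ = Metric.sphere (0 : E) 1 ∩ {p | φ p = 0} := by
    ext p; simp [Lk]
  rw [this]
  exact (isCompact_sphere _ _).inter_right (isClosed_eq hT.lip.continuous continuous_const)

lemma mu_compl_Lk : mu φ b (Lk φ)ᶜ = 0 := by
  rw [hT.mu_apply hT.isCompact_Lk.isClosed.measurableSet.compl]
  have : SS φ b (Lk φ)ᶜ 1 b = ∅ := by
    ext y
    simp only [mem_empty_iff_false, iff_false]
    rintro ⟨h1, h2, -⟩
    exact h2 ⟨hT.norm_pp h1, hT.phi_pp h1⟩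
  rw [this, measure_empty, mul_zero]

lemma ae_mem_Lk : ∀ᵐ p ∂(mu φ b), p ∈ Lk φ := by
  rw [ae_iff]; exact hT.mu_compl_Lk

/-- the radial measure `ρ^{n-1} dρ` on `(0,∞)` -/
def _root_.Crest.Agent.R246.SM436.kap (n : ℕ) : Measure ℝ :=
  (volume.restrict (Ioi 0)).withDensity (fun ρ => ENNReal.ofReal (ρ ^ (n - 1)))

omit hT in
lemma _root_.Crest.Agent.R246.SM436.kap_Iio {n : ℕ} (hn : 0 < n) (r : ℝ) :
    kap n (Iio r) = ENNReal.ofReal (max r 0 ^ n / n) := by
  rw [kap, withDensity_apply _ measurableSet_Iio, Measure.restrict_restrict measurableSet_Iio]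
  rcases le_or_gt r 0 with h | h
  · have : Iio r ∩ Ioi 0 = (∅ : Set ℝ) := by
      ext x; simp only [mem_inter_iff, mem_Iio, mem_Ioi, mem_empty_iff_false, iff_false]
      rintro ⟨h1, h2⟩; linarith
    rw [this, Measure.restrict_empty, lintegral_zero_measure, max_eq_right h, zero_pow hn.ne',
      zero_div, ENNReal.ofReal_zero]
  · have h1 : Iio r ∩ Ioi 0 = Ioo 0 r := by ext x; simp [and_comm]
    rw [h1, Measure.restrict_congr_set Ioo_ae_eq_Ioc, max_eq_left h.le,
      ← ofReal_integral_eq_lintegral_ofReal (intervalIntegral.intervalIntegrable_pow _).1,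
      ← intervalIntegral.integral_of_le h.le]
    · rw [integral_pow]
      congr 1
      have : n - 1 + 1 = n := by omega
      rw [this, zero_pow hn.ne', sub_zero]
      congr 1
      have : ((n - 1 : ℕ) : ℝ) + 1 = n := by exact_mod_cast this
      exact this
    · filter_upwards [ae_restrict_mem measurableSet_Ioc] with y hy
      exact pow_nonneg hy.1.le _

omit hT in
/-- spanning sets -/
def _root_.Crest.Agent.R246.SM436.kapSpan {n : ℕ} (hn : 0 < n) :
    (kap n).FiniteSpanningSetsIn (range (Iio : ℝ → Set ℝ)) where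
  set k := Iio (k : ℝ)
  set_mem k := mem_range_self _
  finite k := by rw [kap_Iio hn]; exact ENNReal.ofReal_lt_top
  spanning := by
    rw [iUnion_eq_univ_iff]
    intro x
    obtain ⟨k, hk⟩ := exists_nat_gt x
    exact ⟨k, hk⟩

omit hT in
/-- spanning sets -/
def _root_.Crest.Agent.R246.SM436.ellSpan (b : ℝ) :
    (volume.restrict (Ioo (-b) b)).FiniteSpanningSetsIn (range (Iio : ℝ → Set ℝ)) where
  set k := Iio (k : ℝ)
  set_mem k := mem_range_self _
  finite k := (measure_mono (subset_univ _)).trans_lt (by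
    rw [Measure.restrict_apply_univ, Real.volume_Ioo]; exact ENNReal.ofReal_lt_top)
  spanning := by
    rw [iUnion_eq_univ_iff]
    intro x
    obtain ⟨k, hk⟩ := exists_nat_gt x
    exact ⟨k, hk⟩

omit hT in
lemma _root_.Crest.Agent.R246.SM436.ell_Iio (b : ℝ) (c : ℝ) :
    (volume.restrict (Ioo (-b) b)) (Iio c) = ENNReal.ofReal (min c b + b) := by
  rw [Measure.restrict_apply measurableSet_Iio]
  have : Iio c ∩ Ioo (-b) b = Ioo (-b) (min c b) := by
    ext x; simp only [mem_inter_iff, mem_Iio, mem_Ioo, lt_min_iff]; tauto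
  rw [this, Real.volume_Ioo]
  congr 1; ring

/-- product structure of the tube -/
theorem map_lam [Nontrivial E] :
    (mu φ b).prod ((kap (finrank ℝ E)).prod (volume.restrict (Ioo (-b) b)))
      = (lam φ b).map (fun y => (pp φ y, (rr φ y, ta φ y))) := by
  have hn : 0 < finrank ℝ E := finrank_pos
  have hb := hT.hb
  have := hT.isFiniteMeasure_mu
  have hgen : (MeasurableSpace.generateFrom (range (Iio : ℝ → Set ℝ)))
      = (inferInstance : MeasurableSpace ℝ) :=
    (borel_eq_generateFrom_Iio ℝ).symm.trans BorelSpace.measurable_eq.symm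
  have hmeas : Measurable (fun y => (pp φ y, (rr φ y, ta φ y))) :=
    hT.measurable_pp.prodMk (hT.measurable_rr.prodMk hT.measurable_ta)
  have hkspan := kapSpan hn
  have hlspan := ellSpan b
  have : SigmaFinite (kap (finrank ℝ E)) := hkspan.sigmaFinite
  refine Measure.prod_eq_generateFrom (C := {s | MeasurableSet s})
    (D := image2 (· ×ˢ ·) (range (Iio : ℝ → Set ℝ)) (range (Iio : ℝ → Set ℝ)))
    MeasurableSpace.generateFrom_measurableSet ?_ MeasurableSpace.isPiSystem_measurableSet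
    (isPiSystem_Iio.prod isPiSystem_Iio)
    (mu φ b).toFiniteSpanningSetsIn (hkspan.prod hlspan) ?_
  · exact generateFrom_eq_prod hgen hgen hkspan.isCountablySpanning hlspan.isCountablySpanning
  · rintro B hB _ ⟨_, ⟨r, rfl⟩, _, ⟨c, rfl⟩, rfl⟩
    rw [Measure.map_apply hmeas (hB.prod (measurableSet_Iio.prod measurableSet_Iio)),
      Measure.prod_prod, kap_Iio hn, ell_Iio b]
    have h2 : lam φ b (TT φ b)ᶜ = 0 := by
      rw [lam, withDensity_apply _ hT.measurableSet_TT.compl,
        Measure.restrict_restrict hT.measurableSet_TT.compl, compl_inter_self,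
        Measure.restrict_empty, lintegral_zero_measure]
    have h3 : lam φ b ((fun y => (pp φ y, (rr φ y, ta φ y))) ⁻¹' (B ×ˢ (Iio r ×ˢ Iio c)))
        = lam φ b (SS φ b B r c) := by
      rw [← measure_inter_conull h2]
      congr 1
      ext y
      simp only [mem_inter_iff, mem_preimage, mem_prod, mem_Iio, SS]
      exact ⟨fun h => ⟨h.2, h.1.1, h.1.2.1, h.1.2.2⟩, fun h => ⟨⟨h.2.1, h.2.2.1, h.2.2.2⟩, h.1⟩⟩
    rw [h3]
    -- trivial cases
    rcases le_or_gt r 0 with hr | hr
    · have : SS φ b B r c = ∅ := by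
        ext y; simp only [mem_empty_iff_false, iff_false]
        rintro ⟨h1, -, h4, -⟩
        have := h1.1
        linarith
      rw [this, measure_empty, max_eq_right hr, zero_pow hn.ne', zero_div, ENNReal.ofReal_zero,
        zero_mul, mul_zero]
    rcases le_or_gt c (-b) with hc | hc
    · have : SS φ b B r c = ∅ := by
        ext y; simp only [mem_empty_iff_false, iff_false]
        rintro ⟨h1, -, -, h4⟩
        have := (_root_.abs_lt.1 (hT.abs_ta_lt h1)).1
        linarith
      rw [this, measure_empty, min_eq_left (by linarith),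
        ENNReal.ofReal_of_nonpos (by linarith : c + b ≤ 0), mul_zero, mul_zero]
    -- main case
    have h4 : SS φ b B r c = SS φ b B r (min c b) := by
      ext y
      constructor
      · rintro ⟨h1, h2, h3, h4⟩
        exact ⟨h1, h2, h3, lt_min h4 (_root_.abs_lt.1 (hT.abs_ta_lt h1)).2⟩
      · rintro ⟨h1, h2, h3, h4⟩
        exact ⟨h1, h2, h3, h4.trans_le (min_le_left _ _)⟩
    rw [h4, hT.lam_SS_str hB r (lt_min hc (by linarith)) (min_le_right _ _),
      hT.lam_SS_dil hB hr b, hT.mu_apply hB, max_eq_left hr.le]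
    generalize lam φ b (SS φ b B 1 b) = L
    have e1 : 0 ≤ min c b + b := by
      have := lt_min hc (by linarith : -b < b)
      linarith
    rw [mul_comm (ENNReal.ofReal (finrank ℝ E / (2 * b))) L, ← mul_assoc, mul_comm _ L,
      mul_assoc L, ← ENNReal.ofReal_mul (by positivity),
      ← ENNReal.ofReal_mul (by positivity), ← ENNReal.ofReal_mul (by positivity)]
    congr 2
    have : (finrank ℝ E : ℝ) ≠ 0 := by positivity
    field_simp

/-- **Exact tube product formula.** -/
theorem lintegral_tube [Nontrivial E] {G : E → ENNReal} (hG : Measurable G) :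
    ∫⁻ y in TT φ b, G y = ∫⁻ p, (∫⁻ ρ : ℝ in Ioi (0 : ℝ), ENNReal.ofReal (ρ ^ (finrank ℝ E - 1)) *
      (∫⁻ τ : ℝ in Ioo (-b) b, ENNReal.ofReal |jt φ p τ| *
        G (ρ • (p + τ • gradient φ p)))) ∂(mu φ b) := by
  have hjm := hT.measurable_jj
  have h1 : ∫⁻ y in TT φ b, G y
      = ∫⁻ y, ENNReal.ofReal |jj φ y| * G y ∂(lam φ b) := by
    rw [lam, lintegral_withDensity_eq_lintegral_mul _ (by fun_prop) (by fun_prop)]
    refine setLIntegral_congr_fun hT.measurableSet_TT fun y hy => ?_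
    simp only [Pi.mul_apply]
    rw [← mul_assoc, ← ENNReal.ofReal_mul (by positivity),
      inv_mul_cancel₀ (abs_ne_zero.2 (hT.jj_ne_zero hy)), ENNReal.ofReal_one, one_mul]
  set F : E × (ℝ × ℝ) → ENNReal := fun q => ENNReal.ofReal |jt φ q.1 q.2.2| *
    G (q.2.1 • (q.1 + q.2.2 • gradient φ q.1)) with hF
  have hgm := measurable_gradient φ
  have hjt := measurable_jt φ
  have hFm : Measurable F := by
    have e1 : Measurable fun q : E × (ℝ × ℝ) => jt φ q.1 q.2.2 :=
      hjt.comp (measurable_fst.prodMk measurable_snd.snd)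
    have e2 : Measurable fun q : E × (ℝ × ℝ) => q.2.1 • (q.1 + q.2.2 • gradient φ q.1) :=
      measurable_snd.fst.smul (measurable_fst.add
        (measurable_snd.snd.smul (hgm.comp measurable_fst)))
    exact ((continuous_abs.measurable.comp e1).ennreal_ofReal).mul (hG.comp e2)
  have hmeas : Measurable (fun y => (pp φ y, (rr φ y, ta φ y))) :=
    hT.measurable_pp.prodMk (hT.measurable_rr.prodMk hT.measurable_ta)
  have hae : ∀ᵐ y ∂(lam φ b), y ∈ TT φ b := by
    rw [ae_iff]
    change lam φ b (TT φ b)ᶜ = 0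
    rw [lam, withDensity_apply _ hT.measurableSet_TT.compl,
      Measure.restrict_restrict hT.measurableSet_TT.compl, compl_inter_self,
      Measure.restrict_empty, lintegral_zero_measure]
  have h2 : ∫⁻ y, ENNReal.ofReal |jj φ y| * G y ∂(lam φ b)
      = ∫⁻ y, F (pp φ y, (rr φ y, ta φ y)) ∂(lam φ b) := by
    refine lintegral_congr_ae ?_
    filter_upwards [hae] with y hy
    simp only [hF]
    rw [hT.recon_pp hy, hT.jj_eq_jt hy]
  have := hT.isFiniteMeasure_mu
  have : SigmaFinite (kap (finrank ℝ E)) := (kapSpan (n := finrank ℝ E) finrank_pos).sigmaFinite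
  rw [h1, h2, ← lintegral_map hFm hmeas, ← hT.map_lam, lintegral_prod _ hFm.aemeasurable]
  refine lintegral_congr fun p => ?_
  have hFp : Measurable fun q : ℝ × ℝ => F (p, q) := hFm.comp measurable_prodMk_left
  rw [lintegral_prod _ hFp.aemeasurable, kap,
    lintegral_withDensity_eq_lintegral_mul _ (by fun_prop) hFp.lintegral_prod_right']
  rfl

end Tube

end Crest.Agent.R246.SM436
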