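import Crest.Agent.R246.Inv_990
import Mathlib.MeasureTheory.Constructions.HaarToSphere
import Mathlib.MeasureTheory.Integral.Prod
import Mathlib.MeasureTheory.Measure.Haar.InnerProductSpace
import Mathlib.Analysis.SpecialFunctions.Gaussian.GaussianIntegral

/-!
# Sphere form of the flux and slicing
-/

set_option autoImplicit false
set_option linter.unusedSectionVars false
set_option linter.unusedSimpArgs false
noncomputable section
open MeasureTheory Set Filter Topology Metric Measure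
open scoped RealInnerProductSpace ENNReal

namespace Crest.Agent.R246.H990

variable {E : Type*} [NormedAddCommGroup E] [InnerProductSpace ℝ E]
variable [FiniteDimensional ℝ E] [MeasurableSpace E] [BorelSpace E]

/-- Lebesgue measure on `(0,∞)` with density `r ^ n`, as a measure on `ℝ`. -/
def radial (n : ℕ) : Measure ℝ :=
  (volume.restrict (Ioi (0 : ℝ))).withDensity fun r => ENNReal.ofReal (r ^ n)

lemma measurable_dens (n : ℕ) : Measurable fun r : ℝ => ENNReal.ofReal (r ^ n) :=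
  (measurable_id.pow_const n).ennreal_ofReal

instance (n : ℕ) : SigmaFinite (radial n) := by
  unfold radial
  exact SigmaFinite.withDensity_ofReal _

lemma map_volumeIoiPow (n : ℕ) :
    (volumeIoiPow n).map (Subtype.val : Ioi (0 : ℝ) → ℝ) = radial n := by
  ext s hs
  rw [Measure.map_apply measurable_subtype_coe hs, volumeIoiPow,
    withDensity_apply _ (measurable_subtype_coe hs), radial, withDensity_apply _ hs,
    setLIntegral_subtype measurableSet_Ioi _ fun a : ℝ ↦ .ofReal (a ^ n),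
    Subtype.image_preimage_coe, Measure.restrict_restrict hs, inter_comm]

/-- surface measure on the unit sphere -/
abbrev sig (E : Type*) [NormedAddCommGroup E] [InnerProductSpace ℝ E]
    [FiniteDimensional ℝ E] [MeasurableSpace E] [BorelSpace E] : Measure (sphere (0 : E) 1) :=
  (volume : Measure E).toSphere

lemma continuous_polarMap :
    Continuous fun p : sphere (0 : E) 1 × ℝ => p.2 • (p.1 : E) :=
  continuous_snd.smul (continuous_subtype_val.comp continuous_fst)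

/-- The polar coordinate map `(w, r) ↦ r • w` is measure preserving. -/
theorem measurePreserving_polar [Nontrivial E] :
    MeasurePreserving (fun p : sphere (0 : E) 1 × ℝ => p.2 • (p.1 : E))
      ((sig E).prod (radial (Module.finrank ℝ E - 1))) (volume : Measure E) := by
  refine ⟨(continuous_polarMap (E := E)).measurable, ?_⟩
  have h1 := ((volume : Measure E).measurePreserving_homeomorphUnitSphereProd.symm
    (homeomorphUnitSphereProd E).toMeasurableEquiv)
  have h2 : MeasurePreserving (fun p : sphere (0 : E) 1 × Ioi (0 : ℝ) => (p.2 : ℝ) • (p.1 : E))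
      ((sig E).prod (volumeIoiPow (Module.finrank ℝ E - 1))) (volume : Measure E) := by
    have h3 : MeasurePreserving (Subtype.val : ({(0 : E)}ᶜ : Set E) → E)
        ((volume : Measure E).comap (↑)) volume := by
      refine ⟨measurable_subtype_coe, ?_⟩
      rw [map_comap_subtype_coe (measurableSet_singleton _).compl, restrict_compl_singleton]
    exact h3.comp h1
  rw [← map_volumeIoiPow]
  have h5 : (sig E).prod ((volumeIoiPow (Module.finrank ℝ E - 1)).map
      (Subtype.val : Ioi (0 : ℝ) → ℝ)) =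
      ((sig E).prod (volumeIoiPow (Module.finrank ℝ E - 1))).map
        (Prod.map id (Subtype.val : Ioi (0 : ℝ) → ℝ)) := by
    conv_lhs => rw [← Measure.map_id (μ := sig E)]
    have : SigmaFinite ((volumeIoiPow (Module.finrank ℝ E - 1)).map
      (Subtype.val : Ioi (0 : ℝ) → ℝ)) := by rw [map_volumeIoiPow]; infer_instance
    rw [Measure.map_prod_map _ _ measurable_id measurable_subtype_coe]
  rw [h5, Measure.map_map (continuous_polarMap (E := E)).measurable
    (measurable_id.prodMap measurable_subtype_coe)]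
  exact h2.map_eq

lemma radial_ae_pos (n : ℕ) : ∀ᵐ t ∂(radial n), 0 < t := by
  unfold radial
  exact (withDensity_absolutelyContinuous _ _).ae_le (ae_restrict_mem measurableSet_Ioi)

lemma radial_ne_zero (n : ℕ) : radial n ≠ 0 := by
  intro h
  have h1 : radial n (Ioo 1 2) = 0 := by rw [h]; rfl
  rw [radial, withDensity_apply _ measurableSet_Ioo,
    Measure.restrict_restrict measurableSet_Ioo] at h1
  have h2 : (Ioo 1 2 : Set ℝ) ∩ Ioi 0 = Ioo 1 2 := by
    ext x; constructor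
    · exact fun h => h.1
    · exact fun h => ⟨h, lt_trans one_pos h.1⟩
  rw [h2] at h1
  have h3 : ∫⁻ _ in (Ioo 1 2 : Set ℝ), (1 : ℝ≥0∞) ≤ 0 := by
    rw [← h1]
    refine setLIntegral_mono (measurable_dens n) fun x hx => ?_
    rw [← ENNReal.ofReal_one]
    exact ENNReal.ofReal_le_ofReal (one_le_pow₀ hx.1.le)
  rw [setLIntegral_one, Real.volume_Ioo] at h3
  norm_num at h3

/-- cone-invariant null sets are null on the sphere. -/
theorem ae_sphere_of_ae [Nontrivial E] {P : E → Prop} (hP : ∀ᵐ x ∂(volume : Measure E), P x)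
    (hc : ∀ t : ℝ, 0 < t → ∀ x : E, P (t • x) → P x) :
    ∀ᵐ q : sphere (0 : E) 1 ∂(sig E), P q := by
  have h1 := (measurePreserving_polar (E := E)).quasiMeasurePreserving.ae hP
  have h2 := Measure.ae_ae_of_ae_prod h1
  filter_upwards [h2] with q hq
  have h3 : ∀ᵐ t ∂(radial (Module.finrank ℝ E - 1)), 0 < t ∧ P (t • (q : E)) :=
    (radial_ae_pos _).and hq
  have : NeZero (radial (Module.finrank ℝ E - 1)) := ⟨radial_ne_zero _⟩
  obtain ⟨t, ht, hPt⟩ := h3.exists
  exact hc t ht _ hPt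

/-- dilation as a continuous linear equivalence. -/
lemma hasFDerivAt_smul_iff {f : E → ℝ} {c : ℝ} {t : ℝ} (_ht : 0 < t)
    (hf : ∀ x, f (t • x) = c * f x) {x : E} {A : E →L[ℝ] ℝ}
    (h : HasFDerivAt f A (t • x)) (hc : c ≠ 0) : HasFDerivAt f ((t / c) • A) x := by
  have h1 : HasFDerivAt (fun y : E => t • y) (t • ContinuousLinearMap.id ℝ E) x :=
    (hasFDerivAt_id x).const_smul t
  have h2 := (HasFDerivAt.comp x h h1).const_mul (c⁻¹)
  have e : (fun y : E => c⁻¹ * (f ∘ fun y => t • y) y) = f := by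
    funext y
    simp only [Function.comp_apply]
    rw [hf y, inv_mul_cancel_left₀ hc]
  rw [e] at h2
  have e2 : (t / c) • A = c⁻¹ • (A.comp (t • ContinuousLinearMap.id ℝ E)) := by
    ext v
    simp [div_eq_inv_mul, mul_assoc]
  rw [e2]
  exact h2

lemma fderiv_hom {f : E → ℝ} {k : ℤ} (hf : ∀ t : ℝ, 0 < t → ∀ x, f (t • x) = t ^ k * f x)
    {t : ℝ} (ht : 0 < t) (x : E) : fderiv ℝ f (t • x) = (t ^ (k - 1)) • fderiv ℝ f x := by
  by_cases h : DifferentiableAt ℝ f x
  · have h0 : HasFDerivAt f (fderiv ℝ f x) (t⁻¹ • (t • x)) := by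
      rw [smul_smul, inv_mul_cancel₀ ht.ne', one_smul]; exact h.hasFDerivAt
    have hti : 0 < t⁻¹ := inv_pos.2 ht
    have h1 := hasFDerivAt_smul_iff hti (hf _ hti) h0 (zpow_pos hti k).ne'
    rw [h1.fderiv]
    congr 1
    rw [inv_zpow, zpow_sub_one₀ ht.ne']
    field_simp
  · have h' : ¬ DifferentiableAt ℝ f (t • x) := by
      intro h2
      exact h (hasFDerivAt_smul_iff ht (hf t ht) h2.hasFDerivAt
        (zpow_pos ht k).ne').differentiableAt
    rw [fderiv_zero_of_not_differentiableAt h, fderiv_zero_of_not_differentiableAt h', smul_zero]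

lemma differentiableAt_hom {f : E → ℝ} {k : ℤ}
    (hf : ∀ t : ℝ, 0 < t → ∀ x, f (t • x) = t ^ k * f x)
    {t : ℝ} (ht : 0 < t) {x : E} (h : DifferentiableAt ℝ f (t • x)) : DifferentiableAt ℝ f x :=
  (hasFDerivAt_smul_iff ht (hf t ht) h.hasFDerivAt (zpow_pos ht k).ne').differentiableAt

lemma Test.hom' {ζ : E → ℝ} (hζ : Test ζ) : ∀ t : ℝ, 0 < t → ∀ x, ζ (t • x) = t ^ (0 : ℤ) * ζ x := by
  intro t ht x
  rw [zpow_zero, one_mul, hζ.hom t ht x]

lemma NullCone.hom' {φ : E → ℝ} (h : NullCone φ) :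
    ∀ t : ℝ, 0 < t → ∀ x, φ (t • x) = t ^ (1 : ℤ) * φ x := by
  intro t ht x
  rw [zpow_one, h.hom t ht.le x]

lemma NullCone.fderiv_smul {φ : E → ℝ} (h : NullCone φ) {t : ℝ} (ht : 0 < t) (x : E) :
    fderiv ℝ φ (t • x) = fderiv ℝ φ x := by
  rw [fderiv_hom h.hom' ht x, sub_self, zpow_zero, one_smul]

lemma NullCone.gradient_smul {φ : E → ℝ} (h : NullCone φ) {t : ℝ} (ht : 0 < t) (x : E) :
    gradient φ (t • x) = gradient φ x := by
  rw [gradient_eq_cv, gradient_eq_cv, h.fderiv_smul ht]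

lemma Test.fderiv_smul {ζ : E → ℝ} (hζ : Test ζ) {t : ℝ} (ht : 0 < t) (x : E) :
    fderiv ℝ ζ (t • x) = t⁻¹ • fderiv ℝ ζ x := by
  rw [fderiv_hom hζ.hom' ht x, zero_sub, zpow_neg_one]

/-! ### Gaussian moments -/

lemma integrableOn_gauss (m : ℕ) {b : ℝ} (hb : 0 < b) :
    IntegrableOn (fun t : ℝ => t ^ m * Real.exp (-b * t ^ 2)) (Ioi 0) := by
  have h := integrableOn_rpow_mul_exp_neg_mul_sq hb (s := (m : ℝ))
    (by have := Nat.cast_nonneg (α := ℝ) m; linarith)
  simpa using h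

lemma gauss_scale (m : ℕ) {a : ℝ} (ha : 0 < a) :
    ∫ t in Ioi (0 : ℝ), t ^ m * Real.exp (-(a ^ 2 * t ^ 2)) =
      (∫ t in Ioi (0 : ℝ), t ^ m * Real.exp (-t ^ 2)) * (a ^ (m + 1))⁻¹ := by
  have h := integral_comp_mul_left_Ioi (fun s : ℝ => s ^ m * Real.exp (-s ^ 2)) 0 ha
  rw [mul_zero, smul_eq_mul] at h
  have e : ∀ t : ℝ, (a * t) ^ m * Real.exp (-(a * t) ^ 2) =
      a ^ m * (t ^ m * Real.exp (-(a ^ 2 * t ^ 2))) := by
    intro t; rw [mul_pow, mul_pow]; ring
  simp only [e] at h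
  rw [integral_const_mul] at h
  have hp : a ^ m ≠ 0 := pow_ne_zero _ ha.ne'
  calc ∫ t in Ioi (0 : ℝ), t ^ m * Real.exp (-(a ^ 2 * t ^ 2))
      = (a ^ m)⁻¹ * (a ^ m * ∫ t in Ioi (0 : ℝ), t ^ m * Real.exp (-(a ^ 2 * t ^ 2))) := by
        rw [inv_mul_cancel_left₀ hp]
    _ = (a ^ m)⁻¹ * (a⁻¹ * ∫ t in Ioi (0 : ℝ), t ^ m * Real.exp (-t ^ 2)) := by rw [h]
    _ = _ := by rw [pow_succ, mul_inv]; ring

lemma cV_pos (E : Type*) [NormedAddCommGroup E] [InnerProductSpace ℝ E] : 0 < cV E := by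
  unfold cV
  rw [setIntegral_pos_iff_support_of_nonneg_ae]
  · have : (Ioo (0:ℝ) 1) ⊆ Function.support
        (fun t : ℝ => t ^ (Module.finrank ℝ E - 2) * Real.exp (-t ^ 2)) ∩ Ioi 0 := by
      intro t ht
      refine ⟨?_, ht.1⟩
      rw [Function.mem_support]
      exact (mul_pos (pow_pos ht.1 _) (Real.exp_pos _)).ne'
    refine lt_of_lt_of_le ?_ (measure_mono this)
    rw [Real.volume_Ioo]; norm_num
  · filter_upwards [ae_restrict_mem measurableSet_Ioi] with t ht
    exact mul_nonneg (pow_nonneg (le_of_lt ht) _) (Real.exp_pos _).le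
  · have := integrableOn_gauss (Module.finrank ℝ E - 2) one_pos
    simpa using this

/-! ### Sphere form of the flux -/

lemma NullCone.bd' {φ : E → ℝ} (h : NullCone φ) : ∃ c : ℝ, 0 ≤ c ∧ c < 1 ∧
    ∀ q : sphere (0 : E) 1, φ q ^ 2 ≤ c := by
  obtain ⟨c, hc0, hc1, hc⟩ := h.bd
  refine ⟨c ^ 2, by positivity, by nlinarith, fun q => ?_⟩
  have h1 := hc q
  have h2 : ‖(q : E)‖ = 1 := mem_sphere_zero_iff_norm.1 q.2
  rw [h2, mul_one] at h1
  rw [← sq_abs]
  exact pow_le_pow_left₀ (abs_nonneg _) h1 2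

lemma Test.fderiv_le {ζ : E → ℝ} (hζ : Test ζ) : ∃ K : ℝ, 0 ≤ K ∧
    ∀ x : E, x ≠ 0 → ‖fderiv ℝ ζ x‖ ≤ K / ‖x‖ := by
  obtain ⟨K, hK0, hK⟩ := hζ.sub_le
  refine ⟨K, hK0, fun x hx => ?_⟩
  apply norm_fderiv_le_of_lip' ℝ (by positivity)
  filter_upwards [isOpen_ne.mem_nhds hx] with y hy
  have := hK x y hx hy
  rw [Real.norm_eq_abs, abs_sub_comm, norm_sub_rev]
  exact this

lemma measurable_fD (φ ζ : E → ℝ) : Measurable fun x : E => fderiv ℝ ζ x (gradient φ x) := by
  have h1 : Measurable fun x : E => (fderiv ℝ ζ x, gradient φ x) := by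
    refine (measurable_fderiv ℝ ζ).prodMk ?_
    have : gradient φ = fun x => (InnerProductSpace.toDual ℝ E).symm (fderiv ℝ φ x) := rfl
    rw [this]
    exact (InnerProductSpace.toDual ℝ E).symm.continuous.measurable.comp (measurable_fderiv ℝ φ)
  exact (isBoundedBilinearMap_apply (𝕜 := ℝ) (E := E) (F := ℝ)).continuous.measurable.comp h1

lemma gradient_norm_le {φ : E → ℝ} (h : LipschitzWith 1 φ) (x : E) : ‖gradient φ x‖ ≤ 1 := by
  rw [gradient_eq_cv, cv_norm]; exact fderiv_norm_le h x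

lemma integral_radial (n : ℕ) (f : ℝ → ℝ) :
    ∫ t, f t ∂(radial n) = ∫ t in Ioi (0 : ℝ), t ^ n * f t := by
  unfold radial
  rw [integral_withDensity_eq_integral_toReal_smul (measurable_dens n) (by simp)]
  refine setIntegral_congr_fun measurableSet_Ioi fun t ht => ?_
  simp only [smul_eq_mul]
  rw [ENNReal.toReal_ofReal (pow_nonneg (le_of_lt ht) _)]

lemma integrable_radial {n : ℕ} {f : ℝ → ℝ}
    (h : IntegrableOn (fun t : ℝ => t ^ n * f t) (Ioi 0)) : Integrable f (radial n) := by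
  unfold radial
  rw [integrable_withDensity_iff_integrable_smul' (measurable_dens n) (by simp)]
  refine (integrable_congr ?_).1 h
  filter_upwards [ae_restrict_mem measurableSet_Ioi] with t ht
  rw [smul_eq_mul, ENNReal.toReal_ofReal (pow_nonneg (le_of_lt ht) _)]

/-- **Sphere form of the flux.** -/
theorem flux_eq_sphere (hn : 2 ≤ Module.finrank ℝ E) {φ : E → ℝ} (h : NullCone φ) {ζ : E → ℝ}
    (hζ : Test ζ) :
    flux φ ζ = cV E * ∫ q : sphere (0 : E) 1,
      (Real.sqrt (1 - φ q ^ 2) ^ (Module.finrank ℝ E - 1))⁻¹ *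
        fderiv ℝ ζ q (gradient φ q) ∂(sig E) := by
  have hnt : Nontrivial E := by
    apply Module.nontrivial_of_finrank_pos (R := ℝ); omega
  obtain ⟨c, hc0, hc1, hc⟩ := h.bd'
  obtain ⟨K, hK0, hK⟩ := hζ.fderiv_le
  set n := Module.finrank ℝ E with hndef
  obtain ⟨m, hm⟩ : ∃ m, n = m + 2 := ⟨n - 2, by omega⟩
  set D : E → ℝ := fun x => fderiv ℝ ζ x (gradient φ x) with hD
  have hDm : Measurable D := measurable_fD φ ζ
  have hφm : Measurable φ := h.lip.continuous.measurable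
  set F : E → ℝ := fun x => Real.exp (-(‖x‖ ^ 2 - φ x ^ 2)) * D x with hF
  have hFm : Measurable F :=
    (Real.measurable_exp.comp ((measurable_norm.pow_const 2).sub (hφm.pow_const 2)).neg).mul hDm
  have hmp := measurePreserving_polar (E := E)
  have h0 : flux φ ζ = ∫ p : sphere (0 : E) 1 × ℝ, F (p.2 • (p.1 : E))
      ∂((sig E).prod (radial (n - 1))) := by
    have e0 : flux φ ζ = ∫ x, F x := rfl
    rw [e0]
    conv_lhs => rw [← hmp.map_eq]
    rw [integral_map hmp.measurable.aemeasurable (hFm.aestronglyMeasurable)]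
  set G : sphere (0 : E) 1 × ℝ → ℝ := fun p =>
    Real.exp (-((1 - φ p.1 ^ 2) * p.2 ^ 2)) * (p.2⁻¹ * D p.1) with hG
  have hpos : ∀ᵐ p ∂((sig E).prod (radial (n - 1))), 0 < p.2 :=
    (Measure.quasiMeasurePreserving_snd (μ := sig E) (ν := radial (n - 1))).ae (radial_ae_pos _)
  have h1 : ∫ p : sphere (0 : E) 1 × ℝ, F (p.2 • (p.1 : E)) ∂((sig E).prod (radial (n - 1))) =
      ∫ p, G p ∂((sig E).prod (radial (n - 1))) := by
    refine integral_congr_ae ?_
    filter_upwards [hpos] with p hp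
    have hq : ‖(p.1 : E)‖ = 1 := mem_sphere_zero_iff_norm.1 p.1.2
    simp only [hF, hG, hD]
    rw [h.gradient_smul hp, hζ.fderiv_smul hp, norm_smul, hq, h.hom _ hp.le,
      _root_.smul_apply, smul_eq_mul, mul_one, Real.norm_eq_abs, sq_abs]
    congr 2
    ring
  have hGm : Measurable G := by
    have m1 : Measurable fun p : sphere (0 : E) 1 × ℝ => φ p.1 :=
      hφm.comp (measurable_subtype_coe.comp measurable_fst)
    have m2 : Measurable fun p : sphere (0 : E) 1 × ℝ => D p.1 :=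
      hDm.comp (measurable_subtype_coe.comp measurable_fst)
    exact (Real.measurable_exp.comp
      (((measurable_const.sub (m1.pow_const 2)).mul (measurable_snd.pow_const 2)).neg)).mul
      ((measurable_snd.inv).mul m2)
  have hGi : Integrable G ((sig E).prod (radial (n - 1))) := by
    have hg1 : Integrable (fun t : ℝ => K * (Real.exp (-((1 - c) * t ^ 2)) * t⁻¹))
        (radial (n - 1)) := by
      refine Integrable.const_mul (integrable_radial ?_) K
      have h3 := integrableOn_gauss m (b := 1 - c) (by linarith)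
      refine h3.congr_fun (fun t ht => ?_) measurableSet_Ioi
      have ht0 : t ≠ 0 := ne_of_gt ht
      have : n - 1 = m + 1 := by omega
      simp only
      have e : t ^ (m + 1) * (Real.exp (-((1 - c) * t ^ 2)) * t⁻¹) =
        t ^ m * Real.exp (-((1 - c) * t ^ 2)) * (t * t⁻¹) := by rw [pow_succ t m]; ring
      rw [this, neg_mul, e, mul_inv_cancel₀ ht0, mul_one]
    refine (hg1.comp_snd (sig E)).mono' hGm.aestronglyMeasurable ?_
    filter_upwards [hpos] with p hp
    have hq : ‖(p.1 : E)‖ = 1 := mem_sphere_zero_iff_norm.1 p.1.2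
    have hq0 : (p.1 : E) ≠ 0 := by
      intro h0; rw [h0, norm_zero] at hq; exact zero_ne_one hq
    have hDle : |D p.1| ≤ K := by
      have h4 := ContinuousLinearMap.le_opNorm (fderiv ℝ ζ p.1) (gradient φ p.1)
      rw [Real.norm_eq_abs] at h4
      refine h4.trans ?_
      have h5 := hK p.1 hq0
      rw [hq, div_one] at h5
      calc ‖fderiv ℝ ζ p.1‖ * ‖gradient φ p.1‖ ≤ K * 1 :=
            mul_le_mul h5 (gradient_norm_le h.lip _) (norm_nonneg _) hK0
        _ = K := mul_one K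
    simp only [hG]
    rw [Real.norm_eq_abs, abs_mul, abs_mul, abs_of_pos (Real.exp_pos _),
      abs_of_pos (inv_pos.2 hp)]
    have h6 : Real.exp (-((1 - φ p.1 ^ 2) * p.2 ^ 2)) ≤ Real.exp (-((1 - c) * p.2 ^ 2)) := by
      apply Real.exp_le_exp.2
      have := hc p.1
      nlinarith [sq_nonneg p.2]
    calc Real.exp (-((1 - φ p.1 ^ 2) * p.2 ^ 2)) * (p.2⁻¹ * |D p.1|)
        ≤ Real.exp (-((1 - c) * p.2 ^ 2)) * (p.2⁻¹ * K) := by
          have := inv_pos.2 hp
          gcongr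
      _ = K * (Real.exp (-((1 - c) * p.2 ^ 2)) * p.2⁻¹) := by ring
  rw [h0, h1, integral_prod _ hGi, ← integral_const_mul]
  refine integral_congr_ae (Eventually.of_forall fun q => ?_)
  simp only
  rw [integral_radial]
  have ha : 0 < 1 - φ q ^ 2 := by have := hc q; linarith
  have ha' : 0 < Real.sqrt (1 - φ q ^ 2) := Real.sqrt_pos.2 ha
  have h7 : ∫ t in Ioi (0 : ℝ), t ^ (n - 1) * G (q, t) =
      ∫ t in Ioi (0 : ℝ), D q * (t ^ m * Real.exp (-(Real.sqrt (1 - φ q ^ 2) ^ 2 * t ^ 2))) := by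
    refine setIntegral_congr_fun measurableSet_Ioi fun t ht => ?_
    have ht0 : t ≠ 0 := ne_of_gt ht
    have : n - 1 = m + 1 := by omega
    simp only [hG]
    have e : t ^ (m + 1) * (Real.exp (-((1 - φ q ^ 2) * t ^ 2)) * (t⁻¹ * D q)) =
      D q * (t ^ m * Real.exp (-((1 - φ q ^ 2) * t ^ 2))) * (t * t⁻¹) := by rw [pow_succ t m]; ring
    rw [this, Real.sq_sqrt ha.le, e, mul_inv_cancel₀ ht0, mul_one]
  rw [h7, integral_const_mul, gauss_scale m ha']
  have e8 : (∫ t in Ioi (0 : ℝ), t ^ m * Real.exp (-t ^ 2)) = cV E := by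
    unfold cV
    rw [← hndef, hm, Nat.add_sub_cancel]
  have e9 : n - 1 = m + 1 := by omega
  rw [e8, e9]
  ring

/-! ### Slicing -/

/-- Euler's identity -/
lemma NullCone.euler {φ : E → ℝ} (h : NullCone φ) {x : E} {A : E →L[ℝ] ℝ}
    (hA : HasFDerivAt φ A x) : A x = φ x := by
  have h1 : HasDerivAt (fun s : ℝ => φ (x + s • x)) (A x) 0 := by
    have h2 : HasDerivAt (fun s : ℝ => x + s • x) x 0 := by
      simpa using ((hasDerivAt_id (0 : ℝ)).smul_const x).const_add x
    have h3 : HasFDerivAt φ A (x + (0 : ℝ) • x) := by simpa using hA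
    exact h3.comp_hasDerivAt (0 : ℝ) h2
  have h4 : HasDerivAt (fun s : ℝ => (1 + s) * φ x) (φ x) 0 := by
    simpa using ((hasDerivAt_id (0 : ℝ)).const_add 1).mul_const (φ x)
  refine h1.unique (h4.congr_of_eventuallyEq ?_)
  filter_upwards [lt_mem_nhds (show (-1 : ℝ) < 0 by norm_num)] with s hs
  have e : x + s • x = (1 + s) • x := by rw [add_smul, one_smul]
  rw [e, h.hom _ (by linarith)]

lemma hasFDerivAt_inv_norm {q : E} (hq : ‖q‖ = 1) :
    HasFDerivAt (fun x : E => ‖x‖⁻¹) (-(innerSL ℝ q)) q := by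
  have h1 : HasFDerivAt (fun x : E => ‖x‖ ^ 2) (2 • (innerSL ℝ q)) q := by
    have := (hasFDerivAt_id q).norm_sq
    simpa using this
  have h2 : HasDerivAt (fun s : ℝ => (Real.sqrt s)⁻¹) (-(1 / 2)) (‖q‖ ^ 2) := by
    rw [hq, one_pow]
    have := (Real.hasDerivAt_sqrt (x := 1) one_ne_zero).inv (by simp)
    have e : (-(1 / 2) : ℝ) = -(1 / (2 * Real.sqrt 1)) / Real.sqrt 1 ^ 2 := by simp
    rw [e]
    exact this
  have h3 := h2.comp_hasFDerivAt q h1
  have e : (fun s : ℝ => (Real.sqrt s)⁻¹) ∘ (fun x : E => ‖x‖ ^ 2) = fun x : E => ‖x‖⁻¹ := by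
    funext x
    simp [Real.sqrt_sq (norm_nonneg x)]
  rw [e] at h3
  have e2 : -(innerSL ℝ q) = (-(1 / 2) : ℝ) • (2 • (innerSL ℝ q)) := by
    ext v; simp
  rw [e2]
  exact h3

/-- derivative of `x ↦ H (φ x / ‖x‖)` in direction `∇φ`. -/
lemma fD_slice {φ : E → ℝ} (h : NullCone φ) {q : E} (hq : ‖q‖ = 1) (hd : DifferentiableAt ℝ φ q)
    (hg : ‖fderiv ℝ φ q‖ = 1) {H : ℝ → ℝ} {H' : ℝ} (hH : HasDerivAt H H' (φ q)) :
    fderiv ℝ (fun x => H (φ x * ‖x‖⁻¹)) q (gradient φ q) = H' * (1 - φ q ^ 2) := by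
  have h1 := hd.hasFDerivAt.mul (hasFDerivAt_inv_norm hq)
  have hH1 : HasDerivAt H H' (φ q * ‖q‖⁻¹) := by rwa [hq, inv_one, mul_one]
  have h2 := hH1.comp_hasFDerivAt q h1
  have h3 : HasFDerivAt (fun x => H (φ x * ‖x‖⁻¹))
      (H' • (φ q • (-(innerSL ℝ q)) + ‖q‖⁻¹ • fderiv ℝ φ q)) q := h2
  rw [h3.fderiv]
  have e1 : fderiv ℝ φ q (gradient φ q) = 1 := by
    rw [← cv_inner (fderiv ℝ φ q) (gradient φ q), gradient_eq_cv, real_inner_self_eq_norm_sq,
      cv_norm, hg, one_pow]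
  have e2 : ⟪q, gradient φ q⟫ = φ q := by
    rw [real_inner_comm, gradient_eq_cv, cv_inner, h.euler hd.hasFDerivAt]
  simp only [_root_.smul_apply, _root_.add_apply, _root_.neg_apply, innerSL_apply_apply,
    smul_eq_mul, hq, inv_one, one_mul, e1, e2]
  ring

lemma NullCone.ae_good (hn : 1 ≤ Module.finrank ℝ E) {φ : E → ℝ} (h : NullCone φ) :
    ∀ᵐ q : sphere (0 : E) 1 ∂(sig E), DifferentiableAt ℝ φ q ∧ ‖fderiv ℝ φ q‖ = 1 := by
  have hnt : Nontrivial E := Module.nontrivial_of_finrank_pos (R := ℝ) (by omega)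
  refine ae_sphere_of_ae (P := fun x => DifferentiableAt ℝ φ x ∧ ‖fderiv ℝ φ x‖ = 1) ?_ ?_
  · filter_upwards [h.lip.ae_differentiableAt, h.grad] with x h1 h2 using ⟨h1, h2⟩
  · intro t ht x hx
    exact ⟨differentiableAt_hom h.hom' ht hx.1, by rw [← h.fderiv_smul ht x]; exact hx.2⟩

lemma div_norm_abs_le {φ : E → ℝ} (h : NullCone φ) (x : E) : |φ x * ‖x‖⁻¹| ≤ 1 := by
  rcases eq_or_ne x 0 with rfl | hx
  · simp
  · have hx' : 0 < ‖x‖ := norm_pos_iff.2 hx
    rw [abs_mul, abs_inv, abs_norm, ← div_eq_mul_inv, div_le_one hx']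
    exact h.abs_le x

lemma slice_test {φ : E → ℝ} (h : NullCone φ) {H : ℝ → ℝ} (h0 : ∀ u ∈ Icc (-1 : ℝ) 1, 0 ≤ H u)
    (h1 : ∀ u ∈ Icc (-1 : ℝ) 1, H u ≤ 1) {K : NNReal} (hK : LipschitzOnWith K H (Icc (-1) 1)) :
    Test (fun x : E => H (φ x * ‖x‖⁻¹)) where
  hom := by
    intro t ht x
    have ht' := ht.ne'
    rw [h.hom t ht.le, norm_smul, Real.norm_of_nonneg ht.le, mul_inv]
    congr 1
    calc t * φ x * (t⁻¹ * ‖x‖⁻¹) = (t * t⁻¹) * (φ x * ‖x‖⁻¹) := by ring
      _ = φ x * ‖x‖⁻¹ := by rw [mul_inv_cancel₀ ht', one_mul]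
  nonneg := fun x => h0 _ (abs_le.1 (div_norm_abs_le h x))
  le_one := fun x => h1 _ (abs_le.1 (div_norm_abs_le h x))
  lip := by
    refine ⟨K, LipschitzOnWith.of_dist_le_mul fun a ha b hb => ?_⟩
    have ha' : ‖a‖ = 1 := mem_sphere_zero_iff_norm.1 ha
    have hb' : ‖b‖ = 1 := mem_sphere_zero_iff_norm.1 hb
    have h2 := hK.dist_le_mul _ (abs_le.1 (div_norm_abs_le h a)) _ (abs_le.1 (div_norm_abs_le h b))
    refine h2.trans ?_
    gcongr
    rw [ha', hb', inv_one, mul_one, mul_one]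
    have := h.lip.dist_le_mul a b
    simpa using this

/-- slicing with a continuous weight `k ≥ 0` whose integral over `[-1,1]` is `≤ 1`. -/
lemma slice_aux (hn : 2 ≤ Module.finrank ℝ E) {φ : E → ℝ} (h : NullCone φ) {A : ℝ}
    (hV : VB φ A) {k : ℝ → ℝ} (hk : Continuous k) (hk0 : ∀ u, 0 ≤ k u)
    (hk1 : ∫ u in (-1 : ℝ)..1, k u ≤ 1) :
    ∫ q : sphere (0 : E) 1, (Real.sqrt (1 - φ q ^ 2) ^ (Module.finrank ℝ E - 1))⁻¹ *
      (k (φ q) * (1 - φ q ^ 2)) ∂(sig E) ≤ A := by
  set H : ℝ → ℝ := fun u => ∫ s in (-1 : ℝ)..u, k s with hH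
  have hder : ∀ u, HasDerivAt H (k u) u := fun u =>
    intervalIntegral.integral_hasDerivAt_right (hk.intervalIntegrable _ _)
      (hk.stronglyMeasurableAtFilter _ _) hk.continuousAt
  have hH0 : ∀ u ∈ Icc (-1 : ℝ) 1, 0 ≤ H u := fun u hu =>
    intervalIntegral.integral_nonneg hu.1 fun s _ => hk0 s
  have hH1 : ∀ u ∈ Icc (-1 : ℝ) 1, H u ≤ 1 := fun u hu => by
    refine le_trans ?_ hk1
    have h2 : (∫ s in (-1 : ℝ)..u, k s) + ∫ s in u..1, k s = ∫ s in (-1 : ℝ)..1, k s :=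
      intervalIntegral.integral_add_adjacent_intervals (hk.intervalIntegrable _ _)
        (hk.intervalIntegrable _ _)
    have h3 : 0 ≤ ∫ s in u..1, k s := intervalIntegral.integral_nonneg hu.2 fun s _ => hk0 s
    simp only [hH]
    linarith
  obtain ⟨K, hK⟩ : ∃ K : NNReal, LipschitzOnWith K H (Icc (-1) 1) := by
    obtain ⟨B, hB⟩ := (isCompact_Icc (a := (-1 : ℝ)) (b := 1)).exists_bound_of_continuousOn
      hk.continuousOn
    refine ⟨B.toNNReal, ?_⟩
    refine Convex.lipschitzOnWith_of_nnnorm_hasDerivWithin_le (convex_Icc _ _)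
      (fun u hu => (hder u).hasDerivWithinAt) fun u hu => ?_
    rw [← NNReal.coe_le_coe, coe_nnnorm]
    exact (hB u hu).trans (Real.le_coe_toNNReal B)
  have hT := slice_test h hH0 hH1 hK
  have h4 := hV _ hT
  rw [flux_eq_sphere hn h hT] at h4
  have h5 : ∫ q : sphere (0 : E) 1, (Real.sqrt (1 - φ q ^ 2) ^ (Module.finrank ℝ E - 1))⁻¹ *
      fderiv ℝ (fun x : E => H (φ x * ‖x‖⁻¹)) q (gradient φ q) ∂(sig E) =
      ∫ q : sphere (0 : E) 1, (Real.sqrt (1 - φ q ^ 2) ^ (Module.finrank ℝ E - 1))⁻¹ *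
      (k (φ q) * (1 - φ q ^ 2)) ∂(sig E) := by
    refine integral_congr_ae ?_
    filter_upwards [h.ae_good (by omega)] with q hq
    have hq1 : ‖(q : E)‖ = 1 := mem_sphere_zero_iff_norm.1 q.2
    rw [fD_slice h hq1 hq.1 hq.2 (hder _)]
  rw [h5, mul_comm A] at h4
  exact le_of_mul_le_mul_left h4 (cV_pos E)

/-- **Slicing inequality**, continuous test functions. -/
theorem VB.slice (hn : 3 ≤ Module.finrank ℝ E) {φ : E → ℝ} (h : NullCone φ) {A : ℝ}
    (hV : VB φ A) {f : ℝ → ℝ} (hf : Continuous f) (hf0 : ∀ s, 0 ≤ f s) :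
    ∫ q : sphere (0 : E) 1, f (Real.arcsin (φ q)) ∂(sig E) ≤
      A * ∫ s in (-(Real.pi / 2))..(Real.pi / 2), f s * Real.cos s ^ (Module.finrank ℝ E - 2) := by
  obtain ⟨m, hm⟩ : ∃ m, Module.finrank ℝ E = m + 3 := ⟨Module.finrank ℝ E - 3, by omega⟩
  have e2 : Module.finrank ℝ E - 2 = m + 1 := by omega
  have e1 : Module.finrank ℝ E - 1 = m + 2 := by omega
  set k : ℝ → ℝ := fun u => f (Real.arcsin u) * Real.sqrt (1 - u ^ 2) ^ m with hk
  have hkc : Continuous k := by
    refine (hf.comp Real.continuous_arcsin).mul ?_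
    exact (Real.continuous_sqrt.comp (continuous_const.sub (continuous_id.pow 2))).pow m
  have hk0 : ∀ u, 0 ≤ k u := fun u => mul_nonneg (hf0 _) (pow_nonneg (Real.sqrt_nonneg _) _)
  set I : ℝ := ∫ u in (-1 : ℝ)..1, k u with hI
  have hI0 : 0 ≤ I := intervalIntegral.integral_nonneg (by norm_num) fun u _ => hk0 u
  have hIe : I = ∫ s in (-(Real.pi / 2))..(Real.pi / 2),
      f s * Real.cos s ^ (Module.finrank ℝ E - 2) := by
    have h1 := intervalIntegral.integral_comp_mul_deriv (a := -(Real.pi / 2)) (b := Real.pi / 2)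
      (f := Real.sin) (f' := Real.cos) (g := k) (fun x _ => Real.hasDerivAt_sin x)
      Real.continuous_cos.continuousOn hkc
    rw [Real.sin_neg, Real.sin_pi_div_two] at h1
    rw [hI, ← h1]
    refine intervalIntegral.integral_congr fun s hs => ?_
    rw [uIcc_of_le (by linarith [Real.pi_pos])] at hs
    simp only [hk, Function.comp_apply]
    rw [Real.arcsin_sin hs.1 hs.2, ← Real.cos_sq', Real.sqrt_sq (Real.cos_nonneg_of_mem_Icc hs),
      e2, pow_succ]
    ring
  rw [← hIe]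
  set J := ∫ q : sphere (0 : E) 1, f (Real.arcsin (φ q)) ∂(sig E) with hJ
  have hJe : ∀ c : ℝ, ∫ q : sphere (0 : E) 1,
      (Real.sqrt (1 - φ q ^ 2) ^ (Module.finrank ℝ E - 1))⁻¹ *
      ((c * k (φ q)) * (1 - φ q ^ 2)) ∂(sig E) = c * J := by
    intro c
    rw [hJ, ← integral_const_mul]
    refine integral_congr_ae (Eventually.of_forall fun q => ?_)
    obtain ⟨c', _, hc1, hc⟩ := h.bd'
    have ha : 0 < 1 - φ q ^ 2 := by have := hc q; linarith
    have ha' : 0 < Real.sqrt (1 - φ q ^ 2) := Real.sqrt_pos.2 ha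
    have h3 : 1 - φ q ^ 2 = Real.sqrt (1 - φ q ^ 2) ^ 2 := (Real.sq_sqrt ha.le).symm
    simp only [hk]
    rw [e1, pow_add]
    set a := Real.sqrt (1 - φ q ^ 2) with hadef
    rw [h3]
    field_simp
  have key : ∀ δ : ℝ, 0 < δ → J ≤ A * (I + δ) := by
    intro δ hδ
    have hp : 0 < I + δ := by linarith
    have h5 := slice_aux (by omega) h hV (k := fun u => (I + δ)⁻¹ * k u)
      (continuous_const.mul hkc) (fun u => mul_nonneg (inv_pos.2 hp).le (hk0 u)) (by
        rw [intervalIntegral.integral_const_mul, ← hI, inv_mul_le_iff₀ hp]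
        linarith)
    rw [hJe] at h5
    rw [inv_mul_le_iff₀ hp] at h5
    linarith
  have hlim : Tendsto (fun δ : ℝ => A * (I + δ)) (𝓝[>] 0) (𝓝 (A * (I + 0))) :=
    ((continuous_const.mul (continuous_const.add continuous_id)).tendsto 0).mono_left
      nhdsWithin_le_nhds
  rw [add_zero] at hlim
  refine ge_of_tendsto hlim ?_
  filter_upwards [self_mem_nhdsWithin] with δ hδ using key δ hδ

end Crest.Agent.R246.H990
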