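import Crest.Agent.R246.GSt_873
import Crest.Agent.R246.Slice_990

/-!
# Row 246, block E3 (helper872): `VAR` implies `VB`

If `φ` is a null cone, `|Δφ| + Δ|φ| ≤ 2μ` off the origin, `μ` lives on `{φ = 0}` and
`∫ exp(-‖x‖²) dμ ≤ A`, then `VB φ (A / cV E)`.  Test functions `H = κ w`, `Z = κ w (2ζ-1)` with
`w = exp(φ² - ‖x‖²)` (`⟨∇φ, ∇w⟩ = 0`) and radial cut-offs `κ`.
-/

set_option autoImplicit false
set_option linter.unusedSectionVars false
noncomputable section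
open MeasureTheory Set Filter Topology
open scoped RealInnerProductSpace
open Crest.Agent.R246.H990
open Crest.Agent.R246.G873 (gi Lip VAR)

namespace Crest.Agent.R246.Vb872

variable {E : Type*} [NormedAddCommGroup E] [InnerProductSpace ℝ E] [FiniteDimensional ℝ E]
  [MeasurableSpace E] [BorelSpace E]

/-! ### radial cut-offs -/

/-- clamp to `[0,1]` -/
def cl (t : ℝ) : ℝ := max 0 (min 1 t)

lemma cl_nonneg (t : ℝ) : 0 ≤ cl t := le_max_left _ _
lemma cl_le_one (t : ℝ) : cl t ≤ 1 := max_le zero_le_one (min_le_left _ _)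
lemma cl_one {t : ℝ} (h : 1 ≤ t) : cl t = 1 := by unfold cl; rw [min_eq_left h]; simp
lemma cl_zero {t : ℝ} (h : t ≤ 0) : cl t = 0 := by
  unfold cl; rw [min_eq_right (h.trans zero_le_one)]; exact max_eq_left h
lemma cl_lip (s t : ℝ) : |cl s - cl t| ≤ |s - t| := by
  unfold cl
  have h1 := abs_max_sub_max_le_max 0 (min 1 s) 0 (min 1 t)
  have h2 := abs_min_sub_min_le_max 1 s 1 t
  rw [sub_self, abs_zero] at h1 h2
  exact (h1.trans (max_le (abs_nonneg _) le_rfl)).trans (h2.trans (max_le (abs_nonneg _) le_rfl))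

/-- cut-off near `0` and near `∞` -/
def ka (k : ℕ) (x : E) : ℝ := cl (((k : ℝ) + 1) * ‖x‖ - 1) * cl ((k : ℝ) + 3 - ‖x‖)

lemma ka_nonneg (k : ℕ) (x : E) : 0 ≤ ka k x := mul_nonneg (cl_nonneg _) (cl_nonneg _)
lemma ka_le_one (k : ℕ) (x : E) : ka k x ≤ 1 :=
  mul_le_one₀ (cl_le_one _) (cl_nonneg _) (cl_le_one _)

lemma ka_zero_small {k : ℕ} {x : E} (h : ((k : ℝ) + 1) * ‖x‖ ≤ 1) : ka k x = 0 := by
  unfold ka; rw [cl_zero (by linarith), zero_mul]

lemma ka_zero_large {k : ℕ} {x : E} (h : (k : ℝ) + 3 ≤ ‖x‖) : ka k x = 0 := by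
  unfold ka; rw [cl_zero (t := (k : ℝ) + 3 - ‖x‖) (by linarith), mul_zero]

lemma ka_one {k : ℕ} {x : E} (h : 2 ≤ ((k : ℝ) + 1) * ‖x‖) (h' : ‖x‖ ≤ (k : ℝ) + 2) :
    ka k x = 1 := by
  unfold ka; rw [cl_one (by linarith), cl_one (by linarith), mul_one]

lemma ka_sub_le (k : ℕ) (x y : E) : |ka k x - ka k y| ≤ ((k : ℝ) + 2) * ‖x - y‖ := by
  unfold ka
  set a := cl (((k : ℝ) + 1) * ‖x‖ - 1)
  set b := cl ((k : ℝ) + 3 - ‖x‖)
  set a' := cl (((k : ℝ) + 1) * ‖y‖ - 1)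
  set b' := cl ((k : ℝ) + 3 - ‖y‖)
  have hk : (0 : ℝ) ≤ k := Nat.cast_nonneg k
  have hn : |‖x‖ - ‖y‖| ≤ ‖x - y‖ := abs_norm_sub_norm_le x y
  have h1 : |a - a'| ≤ ((k : ℝ) + 1) * ‖x - y‖ := by
    refine (cl_lip _ _).trans ?_
    have : ((k : ℝ) + 1) * ‖x‖ - 1 - (((k : ℝ) + 1) * ‖y‖ - 1) = ((k : ℝ) + 1) * (‖x‖ - ‖y‖) := by
      ring
    rw [this, abs_mul, abs_of_nonneg (by linarith : (0 : ℝ) ≤ k + 1)]
    gcongr
  have h2 : |b - b'| ≤ ‖x - y‖ := by
    refine (cl_lip _ _).trans ?_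
    have : (k : ℝ) + 3 - ‖x‖ - ((k : ℝ) + 3 - ‖y‖) = -(‖x‖ - ‖y‖) := by ring
    rw [this, abs_neg]; exact hn
  have e : a * b - a' * b' = (a - a') * b + a' * (b - b') := by ring
  rw [e]
  have hb0 : 0 ≤ b := cl_nonneg _
  have hb1 : b ≤ 1 := cl_le_one _
  have ha0 : 0 ≤ a' := cl_nonneg _
  have ha1 : a' ≤ 1 := cl_le_one _
  calc |(a - a') * b + a' * (b - b')| ≤ |(a - a') * b| + |a' * (b - b')| := abs_add_le _ _
    _ = |a - a'| * b + a' * |b - b'| := by
        rw [abs_mul, abs_mul, abs_of_nonneg hb0, abs_of_nonneg ha0]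
    _ ≤ |a - a'| * 1 + 1 * |b - b'| := by gcongr
    _ ≤ ((k : ℝ) + 1) * ‖x - y‖ + ‖x - y‖ := by linarith
    _ = ((k : ℝ) + 2) * ‖x - y‖ := by ring

lemma lip_ka (k : ℕ) : LipschitzWith (Real.toNNReal ((k : ℝ) + 2)) (ka (E := E) k) := by
  refine LipschitzWith.of_dist_le_mul fun x y => ?_
  have hk : (0 : ℝ) ≤ k := Nat.cast_nonneg k
  rw [Real.coe_toNNReal _ (by linarith), Real.dist_eq, dist_eq_norm]
  exact ka_sub_le k x y

lemma norm_fderiv_ka_le (k : ℕ) (x : E) : ‖fderiv ℝ (ka (E := E) k) x‖ ≤ (k : ℝ) + 2 := by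
  have hk : (0 : ℝ) ≤ k := Nat.cast_nonneg k
  have := norm_fderiv_le_of_lipschitz ℝ (lip_ka (E := E) k) (x₀ := x)
  rwa [Real.coe_toNNReal _ (by linarith)] at this

lemma fderiv_ka_zero {k : ℕ} {x : E} (h : 2 < ((k : ℝ) + 1) * ‖x‖) (h' : ‖x‖ < (k : ℝ) + 2) :
    fderiv ℝ (ka (E := E) k) x = 0 := by
  have h1 : ka (E := E) k =ᶠ[𝓝 x] fun _ => 1 := by
    have o1 : IsOpen {y : E | 2 < ((k : ℝ) + 1) * ‖y‖} :=
      isOpen_lt continuous_const (continuous_const.mul continuous_norm)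
    have o2 : IsOpen {y : E | ‖y‖ < (k : ℝ) + 2} := isOpen_lt continuous_norm continuous_const
    filter_upwards [o1.mem_nhds h, o2.mem_nhds h'] with y hy hy'
    exact ka_one (le_of_lt hy) (le_of_lt hy')
  rw [h1.fderiv_eq]; simp

lemma norm_fderiv_ka_le' (k : ℕ) {x : E} (hx : x ≠ 0) :
    ‖fderiv ℝ (ka (E := E) k) x‖ ≤ 2 * ‖x‖⁻¹ + 1 + ‖x‖ := by
  have hx' : 0 < ‖x‖ := norm_pos_iff.2 hx
  have hk : (0 : ℝ) ≤ k := Nat.cast_nonneg k
  have hi : 0 < ‖x‖⁻¹ := inv_pos.2 hx'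
  by_cases h1 : 2 < ((k : ℝ) + 1) * ‖x‖
  · by_cases h2 : ‖x‖ < (k : ℝ) + 2
    · rw [fderiv_ka_zero h1 h2, norm_zero]; positivity
    · push Not at h2
      have := norm_fderiv_ka_le k x
      linarith
  · push Not at h1
    have := norm_fderiv_ka_le k x
    have h3 : (k : ℝ) + 1 ≤ 2 * ‖x‖⁻¹ := by
      rw [← div_eq_mul_inv, le_div_iff₀ hx']; exact h1
    linarith

lemma tendsto_ka {x : E} (hx : x ≠ 0) : ∀ᶠ k : ℕ in atTop, 2 < ((k : ℝ) + 1) * ‖x‖ ∧
    ‖x‖ < (k : ℝ) + 2 := by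
  have hx' : 0 < ‖x‖ := norm_pos_iff.2 hx
  obtain ⟨N, hN⟩ := exists_nat_gt (max (2 / ‖x‖) ‖x‖)
  filter_upwards [eventually_ge_atTop N] with k hk
  have hk' : (N : ℝ) ≤ k := by exact_mod_cast hk
  have h1 : 2 / ‖x‖ < k := (le_max_left _ _).trans_lt (hN.trans_le hk')
  have h2 : ‖x‖ < k := (le_max_right _ _).trans_lt (hN.trans_le hk')
  rw [div_lt_iff₀ hx'] at h1
  constructor
  · nlinarith
  · linarith

/-! ### integrability -/

lemma integrable_gauss_radial (hn : 2 ≤ Module.finrank ℝ E) {b : ℝ} (hb : 0 < b) :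
    Integrable (fun x : E => Real.exp (-b * ‖x‖ ^ 2) * (2 * ‖x‖⁻¹ + 1 + ‖x‖)) := by
  have hnt : Nontrivial E := by
    apply Module.nontrivial_of_finrank_pos (R := ℝ); omega
  set g : ℝ → ℝ := fun t => Real.exp (-b * t ^ 2) * (2 * t⁻¹ + 1 + t) with hg
  have hgm : Measurable g := by
    apply Measurable.mul
    · fun_prop
    · exact ((measurable_const.mul measurable_inv).add measurable_const).add measurable_id
  have hFm : Measurable fun x : E => g ‖x‖ := hgm.comp measurable_norm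
  have hmp := measurePreserving_polar (E := E)
  have h1 : Integrable g (radial (Module.finrank ℝ E - 1)) := by
    apply integrable_radial
    obtain ⟨m, hm⟩ : ∃ m, Module.finrank ℝ E = m + 2 := ⟨_, (Nat.sub_add_cancel hn).symm⟩
    have e1 : Module.finrank ℝ E - 1 = m + 1 := by omega
    rw [e1]
    have i0 := (integrableOn_gauss m hb).const_mul 2
    have i1 := integrableOn_gauss (m + 1) hb
    have i2 := integrableOn_gauss (m + 2) hb
    refine IntegrableOn.congr_fun (IntegrableOn.add (IntegrableOn.add i0 i1) i2)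
      (fun t ht => ?_) measurableSet_Ioi
    have ht0 : t ≠ 0 := ne_of_gt ht
    simp only [hg, Pi.add_apply]
    symm
    have : t ^ (m + 1) * (Real.exp (-b * t ^ 2) * (2 * t⁻¹ + 1 + t)) =
      2 * (t ^ m * Real.exp (-b * t ^ 2)) * (t * t⁻¹) + t ^ (m + 1) * Real.exp (-b * t ^ 2)
        + t ^ (m + 2) * Real.exp (-b * t ^ 2) := by ring
    rw [this, mul_inv_cancel₀ ht0, mul_one]
  have h2 : Integrable (fun p : Metric.sphere (0 : E) 1 × ℝ => g p.2)
      ((sig E).prod (radial (Module.finrank ℝ E - 1))) := h1.comp_snd (sig E)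
  have h3 : Integrable ((fun x : E => g ‖x‖) ∘ fun p : Metric.sphere (0 : E) 1 × ℝ => p.2 • (p.1 : E))
      ((sig E).prod (radial (Module.finrank ℝ E - 1))) := by
    refine h2.congr ?_
    filter_upwards [(Measure.quasiMeasurePreserving_snd (μ := sig E)
      (ν := radial (Module.finrank ℝ E - 1))).ae (radial_ae_pos _)] with p hp
    have hq : ‖(p.1 : E)‖ = 1 := mem_sphere_zero_iff_norm.1 p.1.2
    simp only [Function.comp]
    rw [norm_smul, hq, mul_one, Real.norm_eq_abs, abs_of_pos hp]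
  exact (hmp.integrable_comp hFm.aestronglyMeasurable).1 h3

lemma norm_gradient' (f : E → ℝ) (x : E) : ‖gradient f x‖ = ‖fderiv ℝ f x‖ := by
  unfold gradient; exact LinearIsometryEquiv.norm_map _ _

lemma gi_eq (f g : E → ℝ) (x : E) : gi f g x = fderiv ℝ g x (gradient f x) := by
  unfold gi
  rw [real_inner_comm]
  unfold gradient
  exact InnerProductSpace.toDual_symm_apply

lemma integrable_gi {f g : E → ℝ} {K L : NNReal} (hf : LipschitzWith K f) (hg : LipschitzWith L g)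
    (hc : HasCompactSupport g) : Integrable (gi f g) := by
  have hm : Measurable (gi f g) := by
    have : gi f g = fun x => fderiv ℝ g x (gradient f x) := funext fun x => gi_eq f g x
    rw [this]; exact measurable_fD f g
  have h1 : IntegrableOn (gi f g) (tsupport g) := by
    refine Measure.integrableOn_of_bounded (M := L * K) hc.isCompact.measure_lt_top.ne
      hm.aestronglyMeasurable ?_
    refine Eventually.of_forall fun x => ?_
    rw [gi_eq]
    refine (ContinuousLinearMap.le_opNorm _ _).trans ?_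
    have h2 := norm_fderiv_le_of_lipschitz ℝ hg (x₀ := x)
    have h3 := norm_fderiv_le_of_lipschitz ℝ hf (x₀ := x)
    rw [norm_gradient']
    gcongr
  refine (integrableOn_iff_integrable_of_support_subset fun x hx => ?_).1 h1
  by_contra h
  apply hx
  rw [gi_eq]
  have h0 : g =ᶠ[𝓝 x] fun _ => 0 := by
    rw [notMem_tsupport_iff_eventuallyEq] at h
    exact h
  rw [h0.fderiv_eq]; simp

/-! ### the weight -/

/-- the Gaussian weight `exp(φ² - ‖x‖²)` -/
def wt (φ : E → ℝ) (x : E) : ℝ := Real.exp (-(‖x‖ ^ 2 - φ x ^ 2))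

lemma wt_pos (φ : E → ℝ) (x : E) : 0 < wt φ x := Real.exp_pos _

lemma wt_le {φ : E → ℝ} (h : NullCone φ) : ∃ b : ℝ, 0 < b ∧ ∀ x, wt φ x ≤ Real.exp (-b * ‖x‖ ^ 2) := by
  obtain ⟨c, hc0, hc1, hc⟩ := h.bd
  refine ⟨1 - c ^ 2, by nlinarith, fun x => ?_⟩
  apply Real.exp_le_exp.2
  have h1 : φ x ^ 2 ≤ (c * ‖x‖) ^ 2 := by
    rw [← sq_abs (φ x)]
    exact pow_le_pow_left₀ (abs_nonneg _) (hc x) 2
  nlinarith

lemma wt_le_one {φ : E → ℝ} (h : NullCone φ) (x : E) : wt φ x ≤ 1 := by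
  obtain ⟨b, hb, hw⟩ := wt_le h
  refine (hw x).trans ?_
  rw [← Real.exp_zero]
  apply Real.exp_le_exp.2
  nlinarith [sq_nonneg ‖x‖]

lemma exp_sub_le {a b : ℝ} (ha : a ≤ 0) (hb : b ≤ 0) : |Real.exp a - Real.exp b| ≤ |a - b| := by
  wlog hab : b ≤ a with H
  · rw [abs_sub_comm, abs_sub_comm a b]
    exact H hb ha (le_of_not_ge hab)
  rw [abs_of_nonneg (sub_nonneg.2 (Real.exp_le_exp.2 hab)), abs_of_nonneg (sub_nonneg.2 hab)]
  have h1 : Real.exp b = Real.exp a * Real.exp (b - a) := by rw [← Real.exp_add]; congr 1; ring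
  have h2 := Real.add_one_le_exp (b - a)
  have h3 : Real.exp a ≤ 1 := Real.exp_le_one_iff.2 ha
  have h4 := Real.exp_pos a
  rw [h1]
  nlinarith

lemma sq_le_of {φ : E → ℝ} (h : NullCone φ) (x : E) : φ x ^ 2 ≤ ‖x‖ ^ 2 := by
  have h1 := h.lip.dist_le_mul x 0
  rw [Real.dist_eq, dist_zero_right, h.zero, sub_zero, NNReal.coe_one, one_mul] at h1
  rw [← sq_abs (φ x)]
  exact pow_le_pow_left₀ (abs_nonneg _) h1 2

lemma wt_sub_le {φ : E → ℝ} (h : NullCone φ) {R : ℝ} {x y : E} (hx : ‖x‖ ≤ R) (hy : ‖y‖ ≤ R) :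
    |wt φ x - wt φ y| ≤ 4 * R * ‖x - y‖ := by
  have hR : 0 ≤ R := (norm_nonneg x).trans hx
  unfold wt
  have hxx := sq_le_of h x
  have hyy := sq_le_of h y
  refine (exp_sub_le (by linarith) (by linarith)).trans ?_
  have e : -(‖x‖ ^ 2 - φ x ^ 2) - -(‖y‖ ^ 2 - φ y ^ 2)
      = (φ x - φ y) * (φ x + φ y) - (‖x‖ - ‖y‖) * (‖x‖ + ‖y‖) := by ring
  rw [e]
  have h1 : |φ x - φ y| ≤ ‖x - y‖ := by
    have := h.lip.dist_le_mul x y
    simpa [Real.dist_eq, dist_eq_norm] using this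
  have h2 : |‖x‖ - ‖y‖| ≤ ‖x - y‖ := abs_norm_sub_norm_le x y
  have h3 : |φ x + φ y| ≤ 2 * R := by
    have a1 : |φ x| ≤ ‖x‖ := abs_le_of_sq_le_sq hxx (norm_nonneg _)
    have a2 : |φ y| ≤ ‖y‖ := abs_le_of_sq_le_sq hyy (norm_nonneg _)
    have := abs_add_le (φ x) (φ y)
    linarith
  have h4 : |‖x‖ + ‖y‖| ≤ 2 * R := by
    rw [abs_of_nonneg (by positivity)]; linarith
  calc |(φ x - φ y) * (φ x + φ y) - (‖x‖ - ‖y‖) * (‖x‖ + ‖y‖)|
      ≤ |(φ x - φ y) * (φ x + φ y)| + |(‖x‖ - ‖y‖) * (‖x‖ + ‖y‖)| := abs_sub _ _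
    _ = |φ x - φ y| * |φ x + φ y| + |‖x‖ - ‖y‖| * |‖x‖ + ‖y‖| := by rw [abs_mul, abs_mul]
    _ ≤ ‖x - y‖ * (2 * R) + ‖x - y‖ * (2 * R) := by gcongr
    _ = 4 * R * ‖x - y‖ := by ring

/-- product of a Lipschitz function supported in `{ρ ≤ ‖x‖}` -/
lemma lip_mul_of_zero {f g : E → ℝ} {S : Set E} {L M : ℝ} (hL : 0 ≤ L) (hM : 0 ≤ M)
    (hf0 : ∀ x, x ∉ S → f x = 0) (hf1 : ∀ x, |f x| ≤ 1) (hg1 : ∀ x, |g x| ≤ 1)
    (hf : ∀ x y, |f x - f y| ≤ L * ‖x - y‖)
    (hg : ∀ x ∈ S, ∀ y ∈ S, |g x - g y| ≤ M * ‖x - y‖) :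
    LipschitzWith (Real.toNNReal (L + M)) fun x => f x * g x := by
  refine LipschitzWith.of_dist_le_mul fun x y => ?_
  rw [Real.coe_toNNReal _ (by linarith), Real.dist_eq, dist_eq_norm]
  have hn := norm_nonneg (x - y)
  by_cases hx : x ∈ S
  · by_cases hy : y ∈ S
    · have e : f x * g x - f y * g y = (f x - f y) * g x + f y * (g x - g y) := by ring
      rw [e]
      calc |(f x - f y) * g x + f y * (g x - g y)|
          ≤ |(f x - f y) * g x| + |f y * (g x - g y)| := abs_add_le _ _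
        _ = |f x - f y| * |g x| + |f y| * |g x - g y| := by rw [abs_mul, abs_mul]
        _ ≤ (L * ‖x - y‖) * 1 + 1 * (M * ‖x - y‖) := by
            gcongr
            · exact hf x y
            · exact hg1 x
            · exact hf1 y
            · exact hg x hx y hy
        _ = (L + M) * ‖x - y‖ := by ring
    · rw [hf0 y hy, zero_mul, sub_zero, abs_mul]
      have h1 := hf x y
      rw [hf0 y hy, sub_zero] at h1
      calc |f x| * |g x| ≤ (L * ‖x - y‖) * 1 := by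
            gcongr
            exact hg1 x
        _ ≤ (L + M) * ‖x - y‖ := by nlinarith
  · rw [hf0 x hx, zero_mul, zero_sub, abs_neg, abs_mul]
    have h1 := hf x y
    rw [hf0 x hx, zero_sub, abs_neg] at h1
    calc |f y| * |g y| ≤ (L * ‖x - y‖) * 1 := by
          gcongr
          exact hg1 y
      _ ≤ (L + M) * ‖x - y‖ := by nlinarith

/-- `F = κ w` -/
def Fk (φ : E → ℝ) (k : ℕ) (x : E) : ℝ := ka k x * wt φ x

lemma Fk_nonneg (φ : E → ℝ) (k : ℕ) (x : E) : 0 ≤ Fk φ k x :=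
  mul_nonneg (ka_nonneg _ _) (wt_pos _ _).le

lemma Fk_le_one {φ : E → ℝ} (h : NullCone φ) (k : ℕ) (x : E) : Fk φ k x ≤ 1 :=
  mul_le_one₀ (ka_le_one _ _) (wt_pos _ _).le (wt_le_one h _)

lemma lip_Fk {φ : E → ℝ} (h : NullCone φ) (k : ℕ) :
    LipschitzWith (Real.toNNReal (((k : ℝ) + 2) + 4 * ((k : ℝ) + 3))) (Fk φ k) := by
  have hk : (0 : ℝ) ≤ k := Nat.cast_nonneg k
  refine lip_mul_of_zero (S := {x : E | ‖x‖ ≤ (k : ℝ) + 3}) (by linarith) (by linarith) ?_ ?_ ?_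
    (ka_sub_le k) ?_
  · intro x hx
    have : (k : ℝ) + 3 < ‖x‖ := lt_of_not_ge hx
    exact ka_zero_large this.le
  · intro x; rw [abs_of_nonneg (ka_nonneg _ _)]; exact ka_le_one _ _
  · intro x; rw [abs_of_nonneg (wt_pos _ _).le]; exact wt_le_one h _
  · intro x hx y hy
    exact wt_sub_le h hx hy

lemma Fk_zero_small (φ : E → ℝ) {k : ℕ} {x : E} (h : ((k : ℝ) + 1) * ‖x‖ ≤ 1) : Fk φ k x = 0 := by
  unfold Fk; rw [ka_zero_small h, zero_mul]

lemma tsupport_Fk_sub (φ : E → ℝ) (k : ℕ) :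
    tsupport (Fk φ k) ⊆ {x : E | 1 ≤ ((k : ℝ) + 1) * ‖x‖ ∧ ‖x‖ ≤ (k : ℝ) + 3} := by
  apply closure_minimal
  · intro x hx
    constructor
    · by_contra hcon
      push Not at hcon
      exact hx (Fk_zero_small φ hcon.le)
    · by_contra hcon
      push Not at hcon
      apply hx
      unfold Fk
      rw [ka_zero_large hcon.le, zero_mul]
  · exact (isClosed_le continuous_const (continuous_const.mul continuous_norm)).inter
      (isClosed_le continuous_norm continuous_const)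

lemma hcs_Fk (φ : E → ℝ) (k : ℕ) : HasCompactSupport (Fk φ k) := by
  refine (isCompact_closedBall (0 : E) ((k : ℝ) + 3)).of_isClosed_subset (isClosed_tsupport _) ?_
  intro x hx
  rw [mem_closedBall_zero_iff]
  exact (tsupport_Fk_sub φ k hx).2

/-- `Z = κ w (2ζ - 1)` -/
def Zk (φ ζ : E → ℝ) (k : ℕ) (x : E) : ℝ := Fk φ k x * (2 * ζ x - 1)

lemma abs_two_sub_le {ζ : E → ℝ} (hζ : Test ζ) (x : E) : |2 * ζ x - 1| ≤ 1 := by
  rw [abs_le]
  have h1 := hζ.nonneg x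
  have h2 := hζ.le_one x
  constructor <;> linarith

lemma abs_Zk_le {φ ζ : E → ℝ} (hζ : Test ζ) (k : ℕ) (x : E) : |Zk φ ζ k x| ≤ Fk φ k x := by
  unfold Zk
  rw [abs_mul, abs_of_nonneg (Fk_nonneg φ k x)]
  have := abs_two_sub_le hζ x
  have h2 := Fk_nonneg φ k x
  nlinarith

lemma lip_Zk {φ ζ : E → ℝ} (h : NullCone φ) (hζ : Test ζ) (k : ℕ) : Lip (Zk φ ζ k) := by
  obtain ⟨K, hK0, hK⟩ := hζ.sub_le
  have hk : (0 : ℝ) ≤ k := Nat.cast_nonneg k
  refine ⟨_, lip_mul_of_zero (S := {x : E | 1 < ((k : ℝ) + 1) * ‖x‖})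
    (L := ((k : ℝ) + 2) + 4 * ((k : ℝ) + 3)) (M := 2 * (K * ((k : ℝ) + 1))) (by linarith)
    (by positivity) ?_ ?_ (abs_two_sub_le hζ) ?_ ?_⟩
  · intro x hx
    exact Fk_zero_small φ (le_of_not_gt hx)
  · intro x; rw [abs_of_nonneg (Fk_nonneg _ _ _)]; exact Fk_le_one h _ _
  · intro x y
    have := (lip_Fk h k).dist_le_mul x y
    rwa [Real.coe_toNNReal _ (by linarith), Real.dist_eq, dist_eq_norm] at this
  · intro x hx y hy
    have hx1 : (1 : ℝ) < ((k : ℝ) + 1) * ‖x‖ := hx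
    have hy1 : (1 : ℝ) < ((k : ℝ) + 1) * ‖y‖ := hy
    have hx0 : 0 < ‖x‖ := by
      by_contra hc
      have : ‖x‖ = 0 := le_antisymm (not_lt.1 hc) (norm_nonneg _)
      rw [this, mul_zero] at hx1; linarith
    have hy0 : 0 < ‖y‖ := by
      by_contra hc
      have : ‖y‖ = 0 := le_antisymm (not_lt.1 hc) (norm_nonneg _)
      rw [this, mul_zero] at hy1; linarith
    have h1 := hK x y (norm_pos_iff.1 hx0) (norm_pos_iff.1 hy0)
    have e : 2 * ζ x - 1 - (2 * ζ y - 1) = 2 * (ζ x - ζ y) := by ring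
    rw [e, abs_mul, abs_of_pos (by norm_num : (0 : ℝ) < 2)]
    have h2 : K / ‖x‖ ≤ K * ((k : ℝ) + 1) := by
      rw [div_le_iff₀ hx0]
      nlinarith
    calc 2 * |ζ x - ζ y| ≤ 2 * (K / ‖x‖ * ‖x - y‖) := by linarith
      _ ≤ 2 * (K * ((k : ℝ) + 1) * ‖x - y‖) := by gcongr
      _ = 2 * (K * ((k : ℝ) + 1)) * ‖x - y‖ := by ring

lemma hcs_Zk (φ ζ : E → ℝ) (k : ℕ) : HasCompactSupport (Zk φ ζ k) := (hcs_Fk φ k).mul_right

/-! ### pointwise identities -/

lemma wt_deriv {φ : E → ℝ} (h : NullCone φ) {x : E} (hd : DifferentiableAt ℝ φ x)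
    (hg : ‖fderiv ℝ φ x‖ = 1) :
    DifferentiableAt ℝ (wt φ) x ∧ fderiv ℝ (wt φ) x (gradient φ x) = 0 := by
  have hφ := hd.hasFDerivAt
  have h0 : HasFDerivAt (fun y : E => ‖y‖ ^ 2) (2 • (innerSL ℝ x)) x := by
    simpa using (hasFDerivAt_id x).norm_sq
  have h1 : HasFDerivAt (fun y : E => φ y ^ 2) ((2 * φ x) • fderiv ℝ φ x) x := by
    have := hφ.pow 2
    simpa using this
  have h2 : HasFDerivAt (wt φ)
      (Real.exp (-(‖x‖ ^ 2 - φ x ^ 2)) • -(2 • (innerSL ℝ x) - (2 * φ x) • fderiv ℝ φ x)) x :=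
    (h0.sub h1).neg.exp
  refine ⟨h2.differentiableAt, ?_⟩
  rw [h2.fderiv]
  have e1 : fderiv ℝ φ x (gradient φ x) = 1 := by
    rw [← gi_eq]
    unfold gi
    rw [real_inner_self_eq_norm_sq, norm_gradient', hg, one_pow]
  have e2 : (innerSL ℝ x) (gradient φ x) = φ x := by
    rw [innerSL_apply_apply, real_inner_comm, ← h.euler hφ]
    unfold gradient
    exact InnerProductSpace.toDual_symm_apply
  rw [_root_.smul_apply, _root_.neg_apply, _root_.sub_apply, _root_.smul_apply,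
    _root_.smul_apply, e1, e2]
  simp

lemma key_pt [Nontrivial E] {φ ζ : E → ℝ} (h : NullCone φ) (hζ : Test ζ) (k : ℕ) :
    ∀ᵐ x ∂(volume : Measure E),
      2 * (ka k x * (wt φ x * fderiv ℝ ζ x (gradient φ x)))
          - 2 * (wt φ x * ‖fderiv ℝ (ka (E := E) k) x‖)
        ≤ gi φ (Zk φ ζ k) x - gi (fun y => |φ y|) (Fk φ k) x := by
  have hne : ∀ᵐ x ∂(volume : Measure E), x ≠ 0 := compl_mem_ae_iff.2 (measure_singleton 0)
  filter_upwards [hne, ae_gd h.lip, (lip_ka (E := E) k).ae_differentiableAt,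
    hζ.ae_differentiableAt, h.grad] with x hx0 hφ hκ hζx hg
  have hφ' : DifferentiableAt ℝ φ x := hφ
  obtain ⟨hw, hw0⟩ := wt_deriv h hφ' hg
  have hζd := hζx hx0
  have hF : HasFDerivAt (Fk φ k) (ka k x • fderiv ℝ (wt φ) x + wt φ x • fderiv ℝ (ka k) x) x :=
    hκ.hasFDerivAt.mul hw.hasFDerivAt
  have hFv : fderiv ℝ (Fk φ k) x (gradient φ x) =
      wt φ x * fderiv ℝ (ka (E := E) k) x (gradient φ x) := by
    rw [hF.fderiv, _root_.add_apply, _root_.smul_apply, _root_.smul_apply, hw0]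
    simp
  have hζ2 : HasFDerivAt (fun y => 2 * ζ y - 1) ((2 : ℝ) • fderiv ℝ ζ x) x :=
    (hζd.hasFDerivAt.const_mul 2).sub_const 1
  have hZ : HasFDerivAt (Zk φ ζ k) (Fk φ k x • ((2 : ℝ) • fderiv ℝ ζ x)
      + (2 * ζ x - 1) • fderiv ℝ (Fk φ k) x) x := hF.differentiableAt.hasFDerivAt.mul hζ2
  have hZv : gi φ (Zk φ ζ k) x = Fk φ k x * (2 * fderiv ℝ ζ x (gradient φ x))
      + (2 * ζ x - 1) * (wt φ x * fderiv ℝ (ka (E := E) k) x (gradient φ x)) := by
    rw [gi_eq, hZ.fderiv, _root_.add_apply, _root_.smul_apply, _root_.smul_apply,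
      _root_.smul_apply, hFv]
    simp
  have hb : |fderiv ℝ (ka (E := E) k) x (gradient φ x)| ≤ ‖fderiv ℝ (ka (E := E) k) x‖ := by
    have := ContinuousLinearMap.le_opNorm (fderiv ℝ (ka (E := E) k) x) (gradient φ x)
    rwa [norm_gradient', hg, mul_one] at this
  have hwp := wt_pos φ x
  have hb' : |wt φ x * fderiv ℝ (ka (E := E) k) x (gradient φ x)|
      ≤ wt φ x * ‖fderiv ℝ (ka (E := E) k) x‖ := by
    rw [abs_mul, abs_of_pos hwp]
    exact mul_le_mul_of_nonneg_left hb hwp.le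
  have hA : gi (fun y => |φ y|) (Fk φ k) x ≤ wt φ x * ‖fderiv ℝ (ka (E := E) k) x‖ := by
    rw [gi_eq]
    rcases lt_trichotomy (φ x) 0 with hneg | hz | hpos
    · have e : (fun y => |φ y|) =ᶠ[𝓝 x] fun y => -φ y := by
        filter_upwards [h.lip.continuous.continuousAt.eventually (gt_mem_nhds hneg)] with y hy
        exact abs_of_neg hy
      have e2 : gradient (fun y => |φ y|) x = - gradient φ x := by
        unfold gradient
        rw [e.fderiv_eq, fderiv_fun_neg, map_neg]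
      rw [e2, map_neg, hFv]
      exact (neg_le_abs _).trans hb'
    · have e2 : gradient (fun y => |φ y|) x = 0 := by
        have hm : IsLocalMin (fun y => |φ y|) x :=
          Eventually.of_forall fun y => by simp only [hz, abs_zero]; exact abs_nonneg _
        unfold gradient
        rw [hm.fderiv_eq_zero]; simp
      rw [e2, map_zero]
      positivity
    · have e : (fun y => |φ y|) =ᶠ[𝓝 x] φ := by
        filter_upwards [h.lip.continuous.continuousAt.eventually (lt_mem_nhds hpos)] with y hy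
        exact abs_of_pos hy
      have e2 : gradient (fun y => |φ y|) x = gradient φ x := by
        unfold gradient
        rw [e.fderiv_eq]
      rw [e2, hFv]
      exact (le_abs_self _).trans hb'
  have hB : -(wt φ x * ‖fderiv ℝ (ka (E := E) k) x‖) ≤
      (2 * ζ x - 1) * (wt φ x * fderiv ℝ (ka (E := E) k) x (gradient φ x)) := by
    have h1 := abs_two_sub_le hζ x
    have h2 : |(2 * ζ x - 1) * (wt φ x * fderiv ℝ (ka (E := E) k) x (gradient φ x))|
        ≤ 1 * (wt φ x * ‖fderiv ℝ (ka (E := E) k) x‖) := by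
      rw [abs_mul]
      exact mul_le_mul h1 hb' (abs_nonneg _) zero_le_one
    have h3 := neg_abs_le ((2 * ζ x - 1) * (wt φ x * fderiv ℝ (ka (E := E) k) x (gradient φ x)))
    linarith
  rw [hZv, show Fk φ k x = ka k x * wt φ x from rfl]
  linarith

/-! ### the theorem -/

lemma integral_Fk_le {φ : E → ℝ} (h : NullCone φ) {μ : Measure E} [IsFiniteMeasureOnCompacts μ]
    (hconc : μ {x | φ x ≠ 0} = 0) {A : ℝ} (hA0 : 0 ≤ A)
    (hmass : ∫⁻ x, ENNReal.ofReal (Real.exp (-‖x‖ ^ 2)) ∂μ ≤ ENNReal.ofReal A) (k : ℕ) :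
    ∫ x, Fk φ k x ∂μ ≤ A := by
  rw [integral_eq_lintegral_of_nonneg_ae (Eventually.of_forall fun x => Fk_nonneg φ k x)
    (lip_Fk h k).continuous.aestronglyMeasurable]
  apply ENNReal.toReal_le_of_le_ofReal hA0
  refine le_trans (lintegral_mono_ae ?_) hmass
  have h0 : ∀ᵐ x ∂μ, φ x = 0 := by
    rw [ae_iff]; exact hconc
  filter_upwards [h0] with x hx
  apply ENNReal.ofReal_le_ofReal
  unfold Fk wt
  rw [hx]
  have h1 := ka_le_one k x
  have h2 := Real.exp_pos (-‖x‖ ^ 2)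
  have e : -(‖x‖ ^ 2 - 0 ^ 2) = -‖x‖ ^ 2 := by ring
  rw [e]
  nlinarith

/-- **VAR implies VB.** -/
theorem VB_of_VAR (hn : 2 ≤ Module.finrank ℝ E) {φ : E → ℝ} (h : NullCone φ) {μ : Measure E}
    [IsFiniteMeasureOnCompacts μ] (hvar : VAR φ μ {0}ᶜ) (hconc : μ {x | φ x ≠ 0} = 0) {A : ℝ}
    (hA0 : 0 ≤ A)
    (hmass : ∫⁻ x, ENNReal.ofReal (Real.exp (-‖x‖ ^ 2)) ∂μ ≤ ENNReal.ofReal A) :
    VB φ (A / cV E) := by
  have hnt : Nontrivial E := by
    apply Module.nontrivial_of_finrank_pos (R := ℝ); omega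
  intro ζ hζ
  rw [div_mul_cancel₀ _ (cV_pos E).ne']
  obtain ⟨b, hb, hwb⟩ := wt_le h
  obtain ⟨K, hK0, hK⟩ := hζ.fderiv_le
  have hG := integrable_gauss_radial (E := E) hn hb
  have hne : ∀ᵐ x ∂(volume : Measure E), x ≠ 0 := compl_mem_ae_iff.2 (measure_singleton 0)
  have hwm : Measurable (wt φ) := by
    unfold wt
    exact Real.measurable_exp.comp
      ((measurable_norm.pow_const 2).sub (h.lip.continuous.measurable.pow_const 2)).neg
  have hDm : Measurable fun x : E => fderiv ℝ ζ x (gradient φ x) := measurable_fD φ ζ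
  -- bounds
  have hbd1 : ∀ᵐ x ∂(volume : Measure E), |wt φ x * fderiv ℝ ζ x (gradient φ x)| ≤
      K * (Real.exp (-b * ‖x‖ ^ 2) * (2 * ‖x‖⁻¹ + 1 + ‖x‖)) := by
    filter_upwards [hne] with x hx
    have hx' : 0 < ‖x‖ := norm_pos_iff.2 hx
    have h1 : |fderiv ℝ ζ x (gradient φ x)| ≤ K / ‖x‖ := by
      have h4 := ContinuousLinearMap.le_opNorm (fderiv ℝ ζ x) (gradient φ x)
      rw [Real.norm_eq_abs] at h4
      refine h4.trans ?_
      calc ‖fderiv ℝ ζ x‖ * ‖gradient φ x‖ ≤ (K / ‖x‖) * 1 :=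
            mul_le_mul (hK x hx) (gradient_norm_le h.lip _) (norm_nonneg _) (by positivity)
        _ = K / ‖x‖ := mul_one _
    rw [abs_mul, abs_of_pos (wt_pos φ x)]
    have h2 : K / ‖x‖ ≤ K * (2 * ‖x‖⁻¹ + 1 + ‖x‖) := by
      rw [div_eq_mul_inv]
      have : 0 < ‖x‖⁻¹ := inv_pos.2 hx'
      gcongr
      linarith
    calc wt φ x * |fderiv ℝ ζ x (gradient φ x)| ≤ Real.exp (-b * ‖x‖ ^ 2) * (K / ‖x‖) :=
          mul_le_mul (hwb x) h1 (abs_nonneg _) (Real.exp_pos _).le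
      _ ≤ Real.exp (-b * ‖x‖ ^ 2) * (K * (2 * ‖x‖⁻¹ + 1 + ‖x‖)) := by gcongr
      _ = K * (Real.exp (-b * ‖x‖ ^ 2) * (2 * ‖x‖⁻¹ + 1 + ‖x‖)) := by ring
  have hI1 : ∀ k : ℕ, Integrable fun x : E => ka k x * (wt φ x * fderiv ℝ ζ x (gradient φ x)) := by
    intro k
    refine (hG.const_mul K).mono'
      ((lip_ka k).continuous.measurable.mul (hwm.mul hDm)).aestronglyMeasurable ?_
    filter_upwards [hbd1] with x hx
    rw [Real.norm_eq_abs, abs_mul, abs_of_nonneg (ka_nonneg k x)]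
    have h1 := ka_le_one k x
    have h2 := ka_nonneg k x
    have h3 := abs_nonneg (wt φ x * fderiv ℝ ζ x (gradient φ x))
    nlinarith
  have hbd2 : ∀ k : ℕ, ∀ᵐ x ∂(volume : Measure E), ‖wt φ x * ‖fderiv ℝ (ka (E := E) k) x‖‖ ≤
      Real.exp (-b * ‖x‖ ^ 2) * (2 * ‖x‖⁻¹ + 1 + ‖x‖) := by
    intro k
    filter_upwards [hne] with x hx
    rw [norm_mul, Real.norm_eq_abs, abs_of_pos (wt_pos φ x), norm_norm]
    exact mul_le_mul (hwb x) (norm_fderiv_ka_le' k hx) (norm_nonneg _) (Real.exp_pos _).le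
  have hm2 : ∀ k : ℕ, AEStronglyMeasurable (fun x : E => wt φ x * ‖fderiv ℝ (ka (E := E) k) x‖)
      volume := fun k => (hwm.mul (measurable_fderiv ℝ _).norm).aestronglyMeasurable
  have hI2 : ∀ k : ℕ, Integrable fun x : E => wt φ x * ‖fderiv ℝ (ka (E := E) k) x‖ :=
    fun k => hG.mono' (hm2 k) (hbd2 k)
  -- the inequality for every cut-off
  have hk : ∀ k : ℕ, ∫ x, ka k x * (wt φ x * fderiv ℝ ζ x (gradient φ x)) ≤
      A + ∫ x, wt φ x * ‖fderiv ℝ (ka (E := E) k) x‖ := by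
    intro k
    have hl1 : Lip (Fk φ k) := ⟨_, lip_Fk h k⟩
    obtain ⟨L, hL⟩ := lip_Zk h hζ k
    have habs : LipschitzWith 1 fun y => |φ y| := by
      refine LipschitzWith.of_dist_le_mul fun x y => ?_
      rw [NNReal.coe_one, one_mul, Real.dist_eq]
      have h1 := abs_abs_sub_abs_le_abs_sub (φ x) (φ y)
      have h2 := h.lip.dist_le_mul x y
      rw [NNReal.coe_one, one_mul, Real.dist_eq] at h2
      exact h1.trans h2
    have hi1 := integrable_gi h.lip hL (hcs_Zk φ ζ k)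
    have hi2 := integrable_gi habs (lip_Fk h k) (hcs_Fk φ k)
    have hV := hvar (Zk φ ζ k) (Fk φ k) ⟨L, hL⟩ hl1 (hcs_Zk φ ζ k) (hcs_Fk φ k)
      (abs_Zk_le hζ k) (fun x hx => by
        have h1 := (tsupport_Fk_sub φ k hx).1
        intro h0
        rw [mem_singleton_iff] at h0
        rw [h0, norm_zero, mul_zero] at h1
        linarith)
    have hm := integral_mono_ae (((hI1 k).const_mul 2).sub ((hI2 k).const_mul 2)) (hi1.sub hi2)
      (key_pt h hζ k)
    have e1 : ∫ x, (2 * (ka k x * (wt φ x * fderiv ℝ ζ x (gradient φ x)))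
          - 2 * (wt φ x * ‖fderiv ℝ (ka (E := E) k) x‖)) =
        2 * (∫ x, ka k x * (wt φ x * fderiv ℝ ζ x (gradient φ x)))
          - 2 * (∫ x, wt φ x * ‖fderiv ℝ (ka (E := E) k) x‖) := by
      rw [integral_sub ((hI1 k).const_mul 2) ((hI2 k).const_mul 2), integral_const_mul,
        integral_const_mul]
    have e2 : ∫ x, (gi φ (Zk φ ζ k) x - gi (fun y => |φ y|) (Fk φ k) x) =
        (∫ x, gi φ (Zk φ ζ k) x) - ∫ x, gi (fun y => |φ y|) (Fk φ k) x := integral_sub hi1 hi2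
    have hm' := integral_Fk_le h hconc hA0 hmass k
    simp only [Pi.sub_apply] at hm
    rw [e1, e2] at hm
    linarith
  -- limits
  have t1 : Tendsto (fun k : ℕ => ∫ x : E, ka k x * (wt φ x * fderiv ℝ ζ x (gradient φ x))) atTop
      (𝓝 (∫ x : E, wt φ x * fderiv ℝ ζ x (gradient φ x))) := by
    refine tendsto_integral_of_dominated_convergence
      (fun x => K * (Real.exp (-b * ‖x‖ ^ 2) * (2 * ‖x‖⁻¹ + 1 + ‖x‖))) (fun k => (hI1 k).1)
      (hG.const_mul K) (fun k => ?_) ?_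
    · filter_upwards [hbd1] with x hx
      rw [Real.norm_eq_abs, abs_mul, abs_of_nonneg (ka_nonneg k x)]
      have h1 := ka_le_one k x
      have h2 := ka_nonneg k x
      have h3 := abs_nonneg (wt φ x * fderiv ℝ ζ x (gradient φ x))
      nlinarith
    · filter_upwards [hne] with x hx
      apply tendsto_const_nhds.congr'
      filter_upwards [tendsto_ka hx] with k hk
      rw [ka_one hk.1.le hk.2.le, one_mul]
  have t2 : Tendsto (fun k : ℕ => ∫ x : E, wt φ x * ‖fderiv ℝ (ka (E := E) k) x‖) atTop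
      (𝓝 (∫ _x : E, (0 : ℝ))) := by
    refine tendsto_integral_of_dominated_convergence _ (fun k => hm2 k) hG (fun k => hbd2 k) ?_
    filter_upwards [hne] with x hx
    apply tendsto_const_nhds.congr'
    filter_upwards [tendsto_ka hx] with k hk
    rw [fderiv_ka_zero hk.1 hk.2, norm_zero, mul_zero]
  have t3 := t2.const_add A
  simp only [integral_zero, add_zero] at t3
  exact le_of_tendsto_of_tendsto' t1 t3 hk

end Crest.Agent.R246.Vb872
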