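import Crest.Agent.R246.Skel_656
import Crest.Agent.R246.C5_378
import Crest.Agent.R246.GSt_873
import Crest.Agent.R246.E2a_782
import Crest.Agent.R246.G4b_386
import Crest.Agent.R246.VbVar_872
import Crest.Agent.R246.MSProv_782
import Crest.Agent.R246.Num_688
import Crest.Agent.R246.Mg3_295
import Crest.Agent.R246.HerschSM_900
import Crest.Agent.R246.SM2_436

/-!
# Row 246 (Solomon-Yau): typed skeleton v2 (helper656, integration), real definitions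

Blocks E, G, F, H (limit object, blow-ups, regularity) and the end (SM, index, Hersch, HK).
-/

set_option autoImplicit false
open scoped ContDiff Topology
open MeasureTheory Filter Metric Set
open Crest.GeometryTopology.CoordMetric Crest.GeometryTopology.ChartCurvature
  Crest.GeometryTopology.SphereImmersion
open Crest.Agent.R246.H990 (NullCone VB cV)
open Crest.Agent.R246.ThetaK688 (WW Theta)
open Crest.Agent.R246.D2x782 (SmHom0 ACeq)
open Crest.Agent.R246.G873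
open Crest.Agent.R246.SM436 (Good SmoothMin hs Tube mu)
open Crest.Agent.R246.Hersch900 (SmS T)
open Crest.Agent.R246.HerschSM900 (A2 AreaMeas)
open Crest.Agent.R246.MS852 (psi cpsi)
open Crest.Agent.R246.Mg295 (Expn)
open Crest.Agent.R246.Skel656

noncomputable section

namespace Crest.Agent.R246.Skel2

/-! ### limits of Allen-Cahn solutions -/

/-- `3/4` of the energy density, `(-1)`-homogeneous on `ℝ^{m+2}`:
`(3/4) ‖x‖ (1/2ε) sech⁴(R/ε) (‖x‖⁻² + |∇R|²)`. -/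
def eDen {m : ℕ} (ε : ℝ) (R : E m → ℝ) (x : E m) : ℝ :=
  3 / 4 * (‖x‖ * Lim538.qq (MSP782.hw) R ε x)

/-- convergence of Allen-Cahn solutions along a filter `U ≤ atTop` (an ultrafilter) :
`R_k → r` uniformly, `φ = ‖x‖ sin r`, energies and energy measures converge. -/
structure ACLim (m : ℕ) (U : Filter ℕ) (ε : ℕ → ℝ) (R : ℕ → E m → ℝ) (r φ : E m → ℝ)
    (μ : Measure (E m)) (a : ℝ) : Prop where
  neBot : U.NeBot
  le : U ≤ atTop
  sol : ∀ k, ACsol m (ε k) (R k)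
  eps : Tendsto ε U (𝓝 0)
  geo : E2x782.Geo r
  rpi : ∀ x, x ≠ 0 → |r x| ≤ Real.pi / 2
  conv : TendstoUniformlyOn R r U {0}ᶜ
  phi : ∀ x, φ x = ‖x‖ * Real.sin (r x)
  en : Tendsto (fun k => 3 / 4 * En (ε k) (R k)) U (𝓝 a)
  fin : IsFiniteMeasureOnCompacts μ
  loc : ∀ f : E m → ℝ, Continuous f → HasCompactSupport f →
    Tendsto (fun k => ∫ x, f x * eDen (ε k) (R k) x) U (𝓝 (∫ x, f x ∂μ))

/-- the part of `LimObj` which does not need equipartition -/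
structure LimM {m : ℕ} (φ : E m → ℝ) (μ : Measure (E m)) (A : ℝ) : Prop where
  hom : ∀ t : ℝ, 0 ≤ t → ∀ x, φ (t • x) = t * φ x
  cD : ClassD φ
  conc : μ {x | φ x ≠ 0} = 0
  homμ : ∀ t : ℝ, 0 < t → ∀ f : E m → ℝ, Continuous f → HasCompactSupport f →
    ∫ x, f (t⁻¹ • x) ∂μ = t ^ (Module.finrank ℝ (E m) - 1) * ∫ x, f x ∂μ
  var : VAR φ μ {0}ᶜ
  mass : ∫⁻ x, ENNReal.ofReal (Real.exp (-‖x‖ ^ 2)) ∂μ = ENNReal.ofReal A

/-- **E** : existence of the limit. -/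
def StE (m : ℕ) : Prop :=
  ∀ (ε : ℕ → ℝ) (R : ℕ → E m → ℝ) (C : ℝ), (∀ k, ACsol m (ε k) (R k)) →
    Tendsto ε atTop (𝓝 0) → (∀ k, En (ε k) (R k) ≤ C) →
    ∃ (U : Filter ℕ) (r φ : E m → ℝ) (μ : Measure (E m)) (a : ℝ),
      ACLim m U ε R r φ μ a ∧ LimM φ μ (a * cV (E m))

/-- **DICH** : a limit is a null cone or linear. -/
def StDich (m : ℕ) : Prop :=
  ∀ (U : Filter ℕ) (ε : ℕ → ℝ) (R : ℕ → E m → ℝ) (r φ : E m → ℝ) (μ : Measure (E m)) (a : ℝ),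
    ACLim m U ε R r φ μ a → LimM φ μ (a * cV (E m)) → a < 2 * unitSphereArea m →
    NullCone φ ∨ ∃ e : E m, ‖e‖ = 1 ∧ ∀ x, φ x = inner ℝ e x

/-- **FLAT** : flat exclusion. -/
def StFlat (m : ℕ) : Prop :=
  ∀ (U : Filter ℕ) (ε : ℕ → ℝ) (R : ℕ → E m → ℝ) (r φ : E m → ℝ) (μ : Measure (E m)) (a : ℝ),
    ACLim m U ε R r φ μ a → LimM φ μ (a * cV (E m)) → a < 2 * unitSphereArea m →
    (∃ e : E m, ‖e‖ = 1 ∧ ∀ x, φ x = inner ℝ e x) → a ≤ unitSphereArea m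

/-- **EQ** : equipartition for minimisers, hence a stationary generalised varifold. -/
def StEqp (m : ℕ) : Prop :=
  ∀ (U : Filter ℕ) (ε : ℕ → ℝ) (R : ℕ → E m → ℝ) (r φ : E m → ℝ) (μ : Measure (E m)) (a : ℝ),
    ACLim m U ε R r φ μ a → LimM φ μ (a * cV (E m)) → NullCone φ →
    (∀ A, VB φ A → a ≤ A) → ∃ G : GV (E m), G.μ = μ ∧ LimObj φ G (a * cV (E m))

/-- a null cone limit has `V(φ) ≤ a` (helper872, landed). -/
theorem vb_of_lim {m : ℕ} {φ : E m → ℝ} {μ : Measure (E m)} {a : ℝ}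
    [IsFiniteMeasureOnCompacts μ] (ha : 0 ≤ a)
    (h : LimM φ μ (a * cV (E m))) (hN : NullCone φ) : VB φ a := by
  have hc : 0 < cV (E m) := ThetaK688.cV_pos (m := m) (by simp [E])
  have h1 := Vb872.VB_of_VAR (E := E m) (by simp [E]) hN h.var h.conc
    (A := a * cV (E m)) (by positivity) h.mass.le
  rwa [mul_div_cancel_right₀ _ hc.ne'] at h1

/-! ### regularity -/

/-- flatness of `φ` at `p` at all small scales (output of block G) -/
def FlatAt {m : ℕ} (φ : E m → ℝ) (p : E m) : Prop :=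
  ∀ δ : ℝ, 0 < δ → ∃ r₀ > 0, ∀ r : ℝ, 0 < r → r < r₀ → ∃ e : E m, ‖e‖ = 1 ∧
    ∀ x, ‖x - p‖ ≤ 2 * r → |φ x - inner ℝ e (x - p)| ≤ δ * r

/-- content ratio at most `1 + κ` at all zeros near `p`, all small scales -/
def ContAt {m : ℕ} (φ : E m → ℝ) (μ : Measure (E m)) (p : E m) : Prop :=
  ∀ κ : ℝ, 0 < κ → ∃ r₁ > 0, ∀ q : E m, φ q = 0 → ‖q - p‖ < r₁ → ∀ s : ℝ, 0 < s → s < r₁ →
    ∫ x, psi (‖x - q‖ ^ 2 / s ^ 2) ∂μ ≤ (1 + κ) * cpsi (m + 1) * s ^ (m + 1)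

/-- density ratio monotone and bounded by the density at infinity (profile `hk 2`) -/
def DensAt {m : ℕ} (μ : Measure (E m)) (q : E m) : Prop :=
  MonotoneOn (dens μ 2 q) (Ioi 0) ∧
    ∀ r : ℝ, 0 < r → dens μ 2 q r ≤ ∫ x, hk 2 (‖x‖ ^ 2) ∂μ

/-- **BRIDGE** (549; uses 852's `StMS`). -/
def StBr (m : ℕ) : Prop :=
  ∀ (U : Filter ℕ) (ε : ℕ → ℝ) (R : ℕ → E m → ℝ) (r φ : E m → ℝ) (G : GV (E m)) (a : ℝ),
    ACLim m U ε R r φ G.μ a → LimObj φ G (a * cV (E m)) → a < 2 * unitSphereArea m →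
    (∀ q : E m, q ≠ 0 → φ q = 0 → DensAt G.μ q) →
    ∀ p : E m, p ≠ 0 → φ p = 0 → FlatAt φ p → ContAt φ G.μ p

/-- **H1** (105/452). -/
def StH1 (m : ℕ) : Prop :=
  ∀ (φ : E m → ℝ) (μ : Measure (E m)), IsFiniteMeasureOnCompacts μ → ClassD φ →
    VAR φ μ {0}ᶜ → μ {x | φ x ≠ 0} = 0 → ∀ p : E m, p ≠ 0 → φ p = 0 → FlatAt φ p →
    ContAt φ μ p → ∃ ρ > 0, ∃ C : ℝ, Expn φ p ρ C (3 / 4)

/-- **H2** (622, 295). -/
def StH2 (m : ℕ) : Prop :=
  ∀ (φ : E m → ℝ), (∀ t : ℝ, 0 ≤ t → ∀ x, φ (t • x) = t * φ x) → ClassD φ →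
    (∀ x, |φ x| = infDist x {y | φ y = 0}) → ∀ p : E m, p ≠ 0 → φ p = 0 → ∀ ρ > 0, ∀ C : ℝ,
    Expn φ p ρ C (3 / 4) → Good φ p ∧ LinearMap.trace ℝ (E m) (hs φ p : E m →ₗ[ℝ] E m) = 0

/-- **signed distance** (638's SD, 386's `toSD`). -/
theorem signedDist {m : ℕ} {φ : E m → ℝ} (h : ClassD φ) (x : E m) :
    |φ x| = infDist x {y | φ y = 0} := by
  have : Nontrivial (E m) := by
    apply Module.nontrivial_of_finrank_pos (R := ℝ)
    simp [E]
  exact (G4b386.toSD h).abs_eq_infDist_univ x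

/-- **Regularity of the minimiser.** -/
theorem smoothMin_of {m : ℕ} (hm : 2 ≤ m) (hG : StG (E m) (E (m - 1))) (hBr : StBr m)
    (hH1 : StH1 m) (hH2 : StH2 m) (hT : Tm (m - 1)) {U : Filter ℕ} {ε : ℕ → ℝ}
    {R : ℕ → E m → ℝ} {r φ : E m → ℝ} {G : GV (E m)} {a : ℝ} (hL : ACLim m U ε R r φ G.μ a)
    (hO : LimObj φ G (a * cV (E m))) (hN : NullCone φ) (ha0 : 0 ≤ a) (ha : a < WW m) :
    SmoothMin φ := by
  have hfE : Module.finrank ℝ (E m) = m + 2 := by simp [E]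
  have hfE' : Module.finrank ℝ (E (m - 1)) = m + 1 := by simp [E]; omega
  have hSm := ThetaK688.unitSphereArea_pos m
  have hWW : WW m < 2 * unitSphereArea m := by
    unfold WW
    exact mul_lt_mul_of_pos_right (ThetaK688.Theta_lt_two (by omega)) hSm
  have ha2 : a < 2 * unitSphereArea m := ha.trans hWW
  have hcm : 0 < cV (E m) := ThetaK688.cV_pos hfE
  have hsd : ∀ x, |φ x| = infDist x {y | φ y = 0} := signedDist hO.cD
  have key := hG (by omega) (by omega) φ G (a * cV (E m)) (by positivity) hO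
    (ThetaK688.mass_lt_two hfE ha2)
    (fun ρ hρ B hB => ThetaK688.mass_lt_link hm hfE hfE' ha (hT ρ hρ B hB))
  have hdens : ∀ q : E m, q ≠ 0 → φ q = 0 → DensAt G.μ q := fun q hq hq0 =>
    (key q hq hq0).2 2 le_rfl
  have main : ∀ p : E m, p ≠ 0 → φ p = 0 →
      Good φ p ∧ LinearMap.trace ℝ (E m) (hs φ p : E m →ₗ[ℝ] E m) = 0 := by
    intro p hp hp0
    have hfl : FlatAt φ p := (key p hp hp0).1
    have hct : ContAt φ G.μ p := hBr U ε R r φ G a hL hO ha2 hdens p hp hp0 hfl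
    obtain ⟨ρ, hρ, C, hex⟩ := hH1 φ G.μ G.fin hO.cD hO.var hO.conc p hp hp0 hfl hct
    exact hH2 φ hO.hom hO.cD hsd p hp hp0 ρ hρ C hex
  exact ⟨hN, fun x hx h0 => (main x hx h0).1, fun x hx h0 => (main x hx h0).2⟩

/-! ### the end -/

/-- **SM** (436): area measure, first variation, `V(φ) = μ(M')`.
`ClassD φ` (superharmonic where positive, ...) is needed for `VB φ (μ(M'))`. -/
def StSM (m : ℕ) : Prop :=
  ∀ (φ : E m → ℝ) (b : ℝ), SmoothMin φ → ClassD φ → Tube φ b → mu φ b ≠ 0 ∧ AreaMeas m φ (mu φ b) ∧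
    VB φ ((mu φ b).real univ) ∧ ∀ A : ℝ, VB φ A → (mu φ b).real univ ≤ A

/-- **IDX** (101, 149, 200). -/
def StIdx (m : ℕ) : Prop :=
  ∀ (φ : E m → ℝ) (b : ℝ), SmoothMin φ → ClassD φ → Tube φ b → AreaMeas m φ (mu φ b) →
    VB φ ((mu φ b).real univ) → ∀ h : E m → ℝ, SmS h → ∫ x, A2 φ x * h x ∂(mu φ b) = 0 →
    ∫ x, T (gradient φ) h x ∂(mu φ b) < ∫ x, A2 φ x * h x ^ 2 ∂(mu φ b) →
    ∃ c : ℝ, 0 < c ∧ ∀ᶠ ε in 𝓝[>] (0 : ℝ), HasFam m ε (4 / 3 * ((mu φ b).real univ - c))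

/-- **NC** (112, 475). `ClassD φ` is needed: `{φ = 0}` could be a hyperplane otherwise. -/
def StNC (m : ℕ) : Prop :=
  ∀ (φ : E m → ℝ) (b : ℝ), SmoothMin φ → ClassD φ → Tube φ b → AreaMeas m φ (mu φ b) →
    m * (mu φ b).real univ ≤ ∫ x, A2 φ x ∂(mu φ b)

/-- two principal curvatures `λ, -1/λ` -/
def TwoCurv {m : ℕ} (φ : E m → ℝ) : Prop :=
  ∀ x, ‖x‖ = 1 → φ x = 0 → ∀ (v w : E m) (α β : ℝ), ‖v‖ = 1 → ‖w‖ = 1 → inner ℝ v x = (0 : ℝ) →
    inner ℝ w x = (0 : ℝ) → inner ℝ v (gradient φ x) = (0 : ℝ) →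
    inner ℝ w (gradient φ x) = (0 : ℝ) → hs φ x v = α • v → hs φ x w = β • w →
    α = β ∨ α * β = -1

/-- **EQB** (718): equality block. -/
def StEqb (m : ℕ) : Prop :=
  ∀ φ : E m → ℝ, SmoothMin φ → ClassD φ → (∀ x, ‖x‖ = 1 → φ x = 0 → A2 φ x = m) → TwoCurv φ

/-- **HK** (149). -/
def StHK (m : ℕ) : Prop :=
  ∀ (φ : E m → ℝ) (b : ℝ), SmoothMin φ → ClassD φ → Tube φ b → AreaMeas m φ (mu φ b) →
    (∀ x, ‖x‖ = 1 → φ x = 0 → A2 φ x = m) → TwoCurv φ → WW m ≤ (mu φ b).real univ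

/-- **END**. -/
theorem end_of {m : ℕ} (hm : 2 ≤ m) (hSM : StSM m) (hIdx : StIdx m) (hNC : StNC m)
    (hEqb : StEqb m) (hHK : StHK m) :
    StEnd (fun m φ => SmoothMin (E := E m) φ ∧ ClassD φ) m := by
  intro φ a hN hV hmin hS hfam
  obtain ⟨hS', hD⟩ : SmoothMin φ ∧ ClassD φ := hS
  have hlt : ∀ x : E m, x ≠ 0 → |φ x| < ‖x‖ := by
    obtain ⟨c, hc0, hc1, hc⟩ := hN.bd
    intro x hx
    have hx' : 0 < ‖x‖ := norm_pos_iff.2 hx
    refine (hc x).trans_lt ?_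
    nlinarith
  obtain ⟨b, hb⟩ := SM436.exists_Tube hN.hom hN.lip hlt hS'.good
  obtain ⟨h0, hA, hVB, hle⟩ := hSM φ b hS' hD hb
  have hfin := hA.fin
  have hμa : (mu φ b).real univ = a := le_antisymm (hle a hV) (hmin φ hN _ hVB)
  have hidx : ∀ h : E m → ℝ, SmS h → ∫ x, A2 φ x * h x ∂(mu φ b) = 0 →
      ∫ x, A2 φ x * h x ^ 2 ∂(mu φ b) ≤ ∫ x, T (gradient φ) h x ∂(mu φ b) := by
    intro h hh hh0
    by_contra hcon
    rw [not_le] at hcon
    obtain ⟨c, hc, hf⟩ := hIdx φ b hS' hD hb hA hVB h hh hh0 hcon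
    rw [hμa] at hf
    exact hfam (a - c) (by linarith) hf
  obtain ⟨h1, h2⟩ := HerschSM900.hersch_smooth hS' hA h0 hm (by simp [E]) hidx
  have h3 := h2 (le_antisymm h1 (hNC φ b hS' hD hb hA))
  rw [← hμa]
  exact hHK φ b hS' hD hb hA h3 (hEqb φ hS' hD h3)

/-! ### assembly -/

/-- all analytic inputs for one `m` -/
structure Inputs (m : ℕ) : Prop where
  fam : StFam m
  mm : StMM C378.kapm m
  e : StE m
  dich : StDich m
  flat : StFlat m
  eqp : StEqp m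
  g : StG (E m) (E (m - 1))
  br : StBr m
  h1 : StH1 m
  h2 : StH2 m
  sm : StSM m
  idx : StIdx m
  nc : StNC m
  eqb : StEqb m
  hk : StHK m

/-- the master lemma: families with energies close to `(4/3) a` produce a null cone with `V ≤ a`. -/
theorem master {m : ℕ} (hm : 1 ≤ m) (hC : StC C378.kapm) (hMM : StMM C378.kapm m) (hE : StE m)
    (hD : StDich m) (hF : StFlat m) {A : ℕ → ℝ} {a : ℝ}
    (hA : Tendsto A atTop (𝓝 a)) (ha : a < 2 * unitSphereArea m)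
    (hfam : ∀ j, ∀ᶠ ε in 𝓝[>] (0 : ℝ), HasFam m ε (4 / 3 * A j)) :
    ∃ (U : Filter ℕ) (ε : ℕ → ℝ) (R : ℕ → E m → ℝ) (r φ : E m → ℝ) (μ : Measure (E m)) (a' : ℝ),
      0 ≤ a' ∧ a' ≤ a ∧ ACLim m U ε R r φ μ a' ∧ LimM φ μ (a' * cV (E m)) ∧ NullCone φ ∧
        VB φ a' := by
  have hSm := ThetaK688.unitSphereArea_pos m
  have hSm1 := ThetaK688.unitSphereArea_pos (m + 1)
  have hκ := hC.2.1 m hm
  -- choose small ε
  have hlim : ∀ j, Tendsto (fun ε : ℝ => Real.sqrt (2 * ε * (4 / 3 * A j) / unitSphereArea (m + 1)))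
      (𝓝[>] 0) (𝓝 0) := by
    intro j
    have h1 : Continuous fun ε : ℝ =>
        Real.sqrt (2 * ε * (4 / 3 * A j) / unitSphereArea (m + 1)) := by fun_prop
    have h2 := h1.tendsto 0
    simp only [mul_zero, zero_mul, zero_div, Real.sqrt_zero] at h2
    exact h2.mono_left nhdsWithin_le_nhds
  have hex : ∀ j : ℕ, ∃ ε : ℝ, 0 < ε ∧ ε < 1 / ((j : ℝ) + 1) ∧ HasFam m ε (4 / 3 * A j) ∧
      Real.sqrt (2 * ε * (4 / 3 * A j) / unitSphereArea (m + 1)) < 1 / ((j : ℝ) + 2) := by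
    intro j
    have hj : (0 : ℝ) < 1 / ((j : ℝ) + 1) := by positivity
    have hj2 : (0 : ℝ) < 1 / ((j : ℝ) + 2) := by positivity
    have h1 := (hlim j).eventually (gt_mem_nhds hj2)
    have h2 : ∀ᶠ ε in 𝓝[>] (0 : ℝ), ε ∈ Ioo (0 : ℝ) (1 / ((j : ℝ) + 1)) := Ioo_mem_nhdsGT hj
    obtain ⟨ε, h3, h4, h5⟩ := ((hfam j).and (h2.and h1)).exists
    exact ⟨ε, h4.1, h4.2, h3, h5⟩
  choose ε hε0 hε1 hεf hεs using hex
  have hεlim : Tendsto ε atTop (𝓝 0) :=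
    squeeze_zero (fun j => (hε0 j).le) (fun j => (hε1 j).le) tendsto_one_div_add_atTop_nhds_zero_nat
  have hs1 : ∀ j : ℕ, (1 : ℝ) / ((j : ℝ) + 2) < 1 := by
    intro j
    rw [div_lt_one (by positivity)]
    have : (0 : ℝ) ≤ j := Nat.cast_nonneg j
    linarith
  have hR : ∀ j, ∃ R : E m → ℝ, ACsol m (ε j) R ∧ En (ε j) R ≤ 4 / 3 * A j ∧
      4 / 3 * C378.kapm m * unitSphereArea m *
        (1 - Real.sqrt (2 * ε j * (4 / 3 * A j) / unitSphereArea (m + 1))) ≤ En (ε j) R :=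
    fun j => hMM (ε j) (4 / 3 * A j) (hε0 j) (hεf j) (by have := hεs j; have := hs1 j; linarith)
  choose R hRs hRu hRl using hR
  obtain ⟨C, hC'⟩ : ∃ C, ∀ j, 4 / 3 * A j ≤ C := by
    obtain ⟨C, hC'⟩ := (hA.const_mul (4 / 3)).bddAbove_range
    exact ⟨C, fun j => hC' ⟨j, rfl⟩⟩
  obtain ⟨U, r, φ, μ, a', hL, hM⟩ := hE ε R C hRs hεlim (fun j => (hRu j).trans (hC' j))
  have hU := hL.neBot
  have ha' : a' ≤ a := by
    refine le_of_tendsto_of_tendsto' hL.en (hA.mono_left hL.le) fun k => ?_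
    have := hRu k
    linarith
  have hlow : C378.kapm m * unitSphereArea m ≤ a' := by
    have h1 : Tendsto (fun k : ℕ => C378.kapm m * unitSphereArea m * (1 - 1 / ((k : ℝ) + 2))) atTop
        (𝓝 (C378.kapm m * unitSphereArea m * (1 - 0))) := by
      refine Tendsto.const_mul _ (tendsto_const_nhds.sub ?_)
      have h := tendsto_one_div_add_atTop_nhds_zero_nat (𝕜 := ℝ)
      have h2 := (tendsto_add_atTop_iff_nat 1).2 h
      refine h2.congr fun n => ?_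
      push_cast; ring
    rw [sub_zero, mul_one] at h1
    refine le_of_tendsto_of_tendsto' (h1.mono_left hL.le) hL.en fun k => ?_
    have h2 := hRl k
    have h3 := hεs k
    have h4 : 0 ≤ C378.kapm m * unitSphereArea m := by positivity
    have h5 : C378.kapm m * unitSphereArea m * (1 - 1 / ((k : ℝ) + 2)) ≤
        C378.kapm m * unitSphereArea m *
        (1 - Real.sqrt (2 * ε k * (4 / 3 * A k) / unitSphereArea (m + 1))) := by
      apply mul_le_mul_of_nonneg_left _ h4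
      linarith
    linarith
  have ha0 : 0 ≤ a' := le_trans (by positivity) hlow
  rcases hD U ε R r φ μ a' hL hM (ha'.trans_lt ha) with hN | hfl
  · have := hL.fin
    exact ⟨U, ε, R, r, φ, μ, a', ha0, ha', hL, hM, hN, vb_of_lim ha0 hM hN⟩
  · exfalso
    have h1 := hF U ε R r φ μ a' hL hM (ha'.trans_lt ha) hfl
    nlinarith

/-- **TOP3, final form** -/
theorem Tm_succ {m : ℕ} (hm : 2 ≤ m) (hC : StC C378.kapm) (h : Inputs m) (hT : Tm (m - 1)) :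
    Tm m := by
  by_contra hcon
  unfold Tm at hcon
  push Not at hcon
  obtain ⟨φ0, hφ0, A0, hA0, hlt0⟩ := hcon
  have hm1 : 1 ≤ m := by omega
  have hκ := hC.2.1 m hm1
  have hSm := ThetaK688.unitSphereArea_pos m
  set S : Set ℝ := {A | ∃ φ : E m → ℝ, NullCone φ ∧ VB φ A} with hS
  have hSne : S.Nonempty := ⟨A0, φ0, hφ0, hA0⟩
  have hSb : BddBelow S := ⟨C378.kapm m * unitSphereArea m,
    fun A ⟨φ, h1, h2⟩ => hC.2.2 m hm1 φ h1 A h2⟩
  set V := sInf S with hV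
  have hVlt : V < WW m := (csInf_le hSb ⟨φ0, hφ0, hA0⟩).trans_lt hlt0
  have hWW : WW m < 2 * unitSphereArea m := by
    unfold WW
    exact mul_lt_mul_of_pos_right (ThetaK688.Theta_lt_two hm1) hSm
  -- minimising sequence
  have hex : ∀ j : ℕ, ∃ A ∈ S, A < V + 1 / ((j : ℝ) + 1) := fun j =>
    exists_lt_of_csInf_lt hSne (lt_add_of_pos_right _ (by positivity))
  choose A hAS hAlt using hex
  have hAlim : Tendsto A atTop (𝓝 V) := by
    refine tendsto_of_tendsto_of_tendsto_of_le_of_le (tendsto_const_nhds (x := V)) ?_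
      (fun j => csInf_le hSb (hAS j)) (fun j => (hAlt j).le)
    have := (tendsto_one_div_add_atTop_nhds_zero_nat (𝕜 := ℝ)).const_add V
    simpa using this
  have hfam : ∀ j, ∀ᶠ ε in 𝓝[>] (0 : ℝ), HasFam m ε (4 / 3 * A j) := by
    intro j
    obtain ⟨φ, h1, h2⟩ := hAS j
    filter_upwards [self_mem_nhdsWithin] with ε hε
    exact h.fam φ h1 _ h2 ε hε
  obtain ⟨U, ε, R, r, φ, μ, a', ha0, ha', hL, hM, hN, hVB⟩ :=
    master hm1 hC h.mm h.e h.dich h.flat hAlim (hVlt.trans hWW) hfam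
  have hmin : ∀ ψ : E m → ℝ, NullCone ψ → ∀ A, VB ψ A → V ≤ A := fun ψ h1 A h2 =>
    csInf_le hSb ⟨ψ, h1, h2⟩
  have haV : a' = V := le_antisymm ha' (hmin φ hN _ hVB)
  rw [haV] at hL hM hVB ha0
  obtain ⟨G, hGμ, hO⟩ := h.eqp U ε R r φ μ V hL hM hN (fun A hA => hmin φ hN A hA)
  rw [← hGμ] at hL
  have hsm : SmoothMin φ := smoothMin_of hm h.g h.br h.h1 h.h2 hT hL hO hN ha0 hVlt
  have := end_of hm h.sm h.idx h.nc h.eqb h.hk φ V hN hVB hmin ⟨hsm, hO.cD⟩ (fun b hb hf => by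
    obtain ⟨_, _, _, _, ψ, _, b', _, hb', _, _, hN', hVB'⟩ :=
      master hm1 hC h.mm h.e h.dich h.flat (tendsto_const_nhds (x := b))
        ((hb.trans hVlt).trans hWW) (fun _ => hf)
    have := hmin ψ hN' b' hVB'
    linarith)
  linarith

/-- **The induction**: all `T_m`. -/
theorem all_Tm (hC : StC C378.kapm) (h : ∀ m, 2 ≤ m → Inputs m) : ∀ m, 1 ≤ m → Tm m := by
  intro m hm
  induction m, hm using Nat.le_induction with
  | base => exact top2 hC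
  | succ n hn ih => exact Tm_succ (by omega) hC (h (n + 1) (by omega)) (by simpa using ih)

end Crest.Agent.R246.Skel2
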