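import Crest.Agent.R246.Dich1_67
import Crest.Agent.R246.Skel2_656
import Crest.Agent.R246.Mass_872

/-!
R246, helper67.  Block DICH, part 2: passage to the limit in the conformal identity.
-/

set_option autoImplicit false
noncomputable section
open MeasureTheory Set Filter Topology Metric
open scoped RealInnerProductSpace NNReal ContDiff Gradient
open Crest.GeometryTopology.CoordMetric Crest.GeometryTopology.AffineMaximal
open Crest.Agent.R236.Jet

namespace Crest.Agent.R246.Dich67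
open Crest.Agent.R246.D2x782 Crest.Agent.R246.Stress638 Crest.Agent.R246.Lim538
open Crest.Agent.R202.SphDiv Crest.Agent.R246.MSP782 Crest.Agent.R246.D3Lim67
open Crest.Agent.R246.Skel656 (ACsol En)

section pointwise

variable {n : ℕ}

local notation "EE" => EuclideanSpace ℝ (Fin n)

theorem eden_eq_sg (ε : ℝ) (R : EE → ℝ) (x : EE) :
    eden ε R x = 1 / 2 * sg R ε x * (1 + sgsq R x) := by
  unfold eden sg
  rw [show (1 : ℝ) / (2 * ε) = 1 / 2 * (1 / ε) by rw [one_div, one_div, one_div, mul_inv]]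
  ring

theorem eden_le_sg (hn : 3 ≤ n) {ε : ℝ} (hε : 0 < ε) {R : EE → ℝ} (h : SmHom0 R)
    (hR : ACeq ε R) {x : EE} (hx : x ≠ 0) : eden ε R x ≤ sg R ε x := by
  have h1 := modica hn hε h hR hx
  have h2 := sg_nonneg hε R x
  rw [eden_eq_sg]
  nlinarith

theorem sgsq_nonneg (R : EE → ℝ) {x : EE} (hx : x ≠ 0) : 0 ≤ sgsq R x :=
  mul_nonneg (nsq_pos hx).le (gsq_nonneg R x)

theorem sg_le_eden {ε : ℝ} (hε : 0 < ε) (R : EE → ℝ) {x : EE} (hx : x ≠ 0) :
    sg R ε x ≤ 2 * eden ε R x := by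
  have h1 := sgsq_nonneg R hx
  have h2 := sg_nonneg hε R x
  rw [eden_eq_sg]
  nlinarith

theorem eden_nonneg' {ε : ℝ} (hε : 0 < ε) (R : EE → ℝ) {x : EE} (hx : x ≠ 0) :
    0 ≤ eden ε R x := by
  have h1 := sgsq_nonneg R hx
  have h2 := sg_nonneg hε R x
  rw [eden_eq_sg]
  positivity

theorem sech_sq_le {s : ℝ} (hs : s ≠ 0) : 1 - Real.tanh s ^ 2 ≤ 1 / s ^ 2 := by
  have hc : 0 < Real.cosh s := Real.cosh_pos s
  have h1 : 1 - Real.tanh s ^ 2 = 1 / Real.cosh s ^ 2 := by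
    rw [Real.tanh_eq_sinh_div_cosh, div_pow, eq_div_iff (by positivity), sub_mul,
      div_mul_cancel₀ _ (by positivity)]
    have := Real.cosh_sq s
    linarith
  rw [h1]
  have h2 : s ^ 2 ≤ Real.cosh s ^ 2 := by
    have h3 : |s| ≤ Real.cosh s := by
      rw [← Real.cosh_abs]
      exact (Real.self_le_sinh_iff.2 (abs_nonneg s)).trans (Real.sinh_lt_cosh |s|).le
    calc s ^ 2 = |s| ^ 2 := (sq_abs s).symm
      _ ≤ Real.cosh s ^ 2 := by gcongr
  exact one_div_le_one_div_of_le (by positivity) h2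

theorem sg_le_far {ε δ : ℝ} (hε : 0 < ε) (hδ : 0 < δ) (R : EE → ℝ) {x : EE}
    (hx : δ / 2 ≤ |R x|) : sg R ε x ≤ 16 * ε ^ 3 / δ ^ 4 := by
  have hR0 : R x ≠ 0 := by
    intro h0
    rw [h0, abs_zero] at hx
    linarith
  have hs : R x / ε ≠ 0 := div_ne_zero hR0 hε.ne'
  have h1 := sech_sq_le hs
  have h2 : 0 ≤ 1 - Real.tanh (R x / ε) ^ 2 := by linarith [tanh_sq_lt_one (R x / ε)]
  have h3 : 1 / (R x / ε) ^ 2 ≤ 4 * ε ^ 2 / δ ^ 2 := by
    have h4 : δ ^ 2 / 4 ≤ R x ^ 2 := by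
      rw [← sq_abs (R x)]
      nlinarith
    rw [div_pow, one_div_div, div_le_div_iff₀ (by positivity) (by positivity)]
    nlinarith [sq_nonneg ε]
  have h5 : (1 - Real.tanh (R x / ε) ^ 2) ^ 2 ≤ (4 * ε ^ 2 / δ ^ 2) ^ 2 :=
    pow_le_pow_left₀ h2 (h1.trans h3) 2
  unfold sg
  calc 1 / ε * (1 - Real.tanh (R x / ε) ^ 2) ^ 2 ≤ 1 / ε * (4 * ε ^ 2 / δ ^ 2) ^ 2 := by
        exact mul_le_mul_of_nonneg_left h5 (by positivity)
    _ = 16 * ε ^ 3 / δ ^ 4 := by field_simp; ring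

theorem sg_le_inv {ε : ℝ} (hε : 0 < ε) (R : EE → ℝ) (x : EE) : sg R ε x ≤ 1 / ε := by
  unfold sg
  have h2 : 0 ≤ 1 - Real.tanh (R x / ε) ^ 2 := by linarith [tanh_sq_lt_one (R x / ε)]
  have h3 : 1 - Real.tanh (R x / ε) ^ 2 ≤ 1 := by linarith [sq_nonneg (Real.tanh (R x / ε))]
  have h4 : (1 - Real.tanh (R x / ε) ^ 2) ^ 2 ≤ 1 := pow_le_one₀ h2 h3
  have : 0 < 1 / ε := by positivity
  nlinarith

theorem int_sph {f : EE → ℝ} (hf : ContinuousOn f {0}ᶜ) :
    Integrable (fun z : Sph n => f z) (sig n) :=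
  integrable_sph fun _ hx => hf.continuousAt (isOpen_compl_singleton.mem_nhds hx)

/-- the moment is controlled by the positive part -/
theorem moment_le (hn : 3 ≤ n) {ε : ℝ} (hε : 0 < ε) {R : EE → ℝ} (h : SmHom0 R)
    (hR : ACeq ε R) (a : EE) :
    |∫ z : Sph n, ⟪a, z⟫ * eden ε R z ∂(sig n)| ≤
      ((n : ℝ) - 1) * ∫ z : Sph n, max ⟪a, (z : EE)⟫ 0 * sg R ε z ∂(sig n) := by
  have hn3 : (3 : ℝ) ≤ n := by exact_mod_cast hn
  have hci : Continuous fun x : EE => ⟪a, x⟫ := by fun_prop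
  have hcp : Continuous fun x : EE => max ⟪a, x⟫ 0 := hci.max continuous_const
  have hcq : Continuous fun x : EE => max (-⟪a, x⟫) 0 := hci.neg.max continuous_const
  have ipe : Integrable (fun z : Sph n => max ⟪a, (z : EE)⟫ 0 * eden ε R z) (sig n) :=
    int_sph (n := n) (hcp.continuousOn.mul (continuousOn_eden h ε))
  have iqe : Integrable (fun z : Sph n => max (-⟪a, (z : EE)⟫) 0 * eden ε R z) (sig n) :=
    int_sph (n := n) (hcq.continuousOn.mul (continuousOn_eden h ε))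
  have ips : Integrable (fun z : Sph n => max ⟪a, (z : EE)⟫ 0 * sg R ε z) (sig n) :=
    int_sph (n := n) (hcp.continuousOn.mul (continuousOn_sg h ε))
  have iqs : Integrable (fun z : Sph n => max (-⟪a, (z : EE)⟫) 0 * sg R ε z) (sig n) :=
    int_sph (n := n) (hcq.continuousOn.mul (continuousOn_sg h ε))
  have key := conformal_identity hn hε h hR a
  have hsplit : ∀ t : ℝ, t = max t 0 - max (-t) 0 := by
    intro t
    rcases le_total 0 t with h | h
    · rw [max_eq_left h, max_eq_right (by linarith)]; ring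
    · rw [max_eq_right h, max_eq_left (by linarith)]; ring
  have e1 : ∫ z : Sph n, ⟪a, z⟫ * eden ε R z ∂(sig n) =
      (∫ z : Sph n, max ⟪a, (z : EE)⟫ 0 * eden ε R z ∂(sig n)) -
        ∫ z : Sph n, max (-⟪a, (z : EE)⟫) 0 * eden ε R z ∂(sig n) := by
    rw [← integral_sub ipe iqe]
    refine integral_congr_ae (Eventually.of_forall fun z => ?_)
    show ⟪a, (z : EE)⟫ * eden ε R z = max ⟪a, (z : EE)⟫ 0 * eden ε R z -
      max (-⟪a, (z : EE)⟫) 0 * eden ε R z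
    conv_lhs => rw [hsplit ⟪a, (z : EE)⟫]
    ring
  have e2 : ∫ z : Sph n, ⟪a, z⟫ * sg R ε z ∂(sig n) =
      (∫ z : Sph n, max ⟪a, (z : EE)⟫ 0 * sg R ε z ∂(sig n)) -
        ∫ z : Sph n, max (-⟪a, (z : EE)⟫) 0 * sg R ε z ∂(sig n) := by
    rw [← integral_sub ips iqs]
    refine integral_congr_ae (Eventually.of_forall fun z => ?_)
    show ⟪a, (z : EE)⟫ * sg R ε z = max ⟪a, (z : EE)⟫ 0 * sg R ε z -
      max (-⟪a, (z : EE)⟫) 0 * sg R ε z
    conv_lhs => rw [hsplit ⟪a, (z : EE)⟫]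
    ring
  have h1 : ∫ z : Sph n, max ⟪a, (z : EE)⟫ 0 * eden ε R z ∂(sig n) ≤
      ∫ z : Sph n, max ⟪a, (z : EE)⟫ 0 * sg R ε z ∂(sig n) :=
    integral_mono ipe ips fun z => mul_le_mul_of_nonneg_left
      (eden_le_sg hn hε h hR (sph_ne z)) (le_max_right _ _)
  have h2 : ∫ z : Sph n, max (-⟪a, (z : EE)⟫) 0 * eden ε R z ∂(sig n) ≤
      ∫ z : Sph n, max (-⟪a, (z : EE)⟫) 0 * sg R ε z ∂(sig n) :=
    integral_mono iqe iqs fun z => mul_le_mul_of_nonneg_left
      (eden_le_sg hn hε h hR (sph_ne z)) (le_max_right _ _)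
  have h3 : 0 ≤ ∫ z : Sph n, max ⟪a, (z : EE)⟫ 0 * eden ε R z ∂(sig n) :=
    integral_nonneg fun z => mul_nonneg (le_max_right _ _) (eden_nonneg' hε R (sph_ne z))
  have h4 : 0 ≤ ∫ z : Sph n, max (-⟪a, (z : EE)⟫) 0 * eden ε R z ∂(sig n) :=
    integral_nonneg fun z => mul_nonneg (le_max_right _ _) (eden_nonneg' hε R (sph_ne z))
  rw [e1, e2] at key
  rw [e1]
  generalize (∫ z : Sph n, max ⟪a, (z : EE)⟫ 0 * eden ε R z ∂(sig n)) = pe at *
  generalize (∫ z : Sph n, max (-⟪a, (z : EE)⟫) 0 * eden ε R z ∂(sig n)) = qe at *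
  generalize (∫ z : Sph n, max ⟪a, (z : EE)⟫ 0 * sg R ε z ∂(sig n)) = ps at *
  generalize (∫ z : Sph n, max (-⟪a, (z : EE)⟫) 0 * sg R ε z ∂(sig n)) = qs at *
  have h5 : 0 ≤ (n : ℝ) - 3 := by linarith
  have h6 : ((n : ℝ) - 3) * qe + qs = ((n : ℝ) - 3) * pe + ps := by linarith
  have h7 : 0 ≤ ((n : ℝ) - 3) * qe := mul_nonneg h5 h4
  have h8 : ((n : ℝ) - 3) * pe ≤ ((n : ℝ) - 3) * ps := mul_le_mul_of_nonneg_left h1 h5
  have h9 : qe ≤ ((n : ℝ) - 2) * ps := by nlinarith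
  have h10 : 0 ≤ ((n : ℝ) - 2) * ps := by nlinarith
  rw [abs_le]
  constructor <;> nlinarith

/-- bound of the positive part -/
theorem pos_part_le {ε δ : ℝ} (hε : 0 < ε) (hδ : 0 < δ) {R : EE → ℝ}
    (h : SmHom0 R) {a : EE} (ha : ‖a‖ = 1)
    (hfar : ∀ z : Sph n, δ < ⟪a, (z : EE)⟫ → δ / 2 ≤ |R z|) :
    ∫ z : Sph n, max ⟪a, (z : EE)⟫ 0 * sg R ε z ∂(sig n) ≤
      2 * δ * (∫ z : Sph n, eden ε R z ∂(sig n)) + 16 * ε ^ 3 / δ ^ 4 * (sig n).real univ := by
  have hci : Continuous fun x : EE => ⟪a, x⟫ := by fun_prop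
  have hcp : Continuous fun x : EE => max ⟪a, x⟫ 0 := hci.max continuous_const
  have ips := int_sph (n := n) (hcp.continuousOn.mul (continuousOn_sg h ε))
  have ie := int_sph (n := n) (continuousOn_eden h ε)
  calc ∫ z : Sph n, max ⟪a, (z : EE)⟫ 0 * sg R ε z ∂(sig n)
      ≤ ∫ z : Sph n, (2 * δ * eden ε R z + 16 * ε ^ 3 / δ ^ 4) ∂(sig n) := by
        refine integral_mono ips ((ie.const_mul _).add (integrable_const _)) fun z => ?_
        show max ⟪a, (z : EE)⟫ 0 * sg R ε z ≤ 2 * δ * eden ε R z + 16 * ε ^ 3 / δ ^ 4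
        have hs := sg_nonneg hε R (z : EE)
        have he := sg_le_eden hε R (sph_ne z)
        have h0 : 0 ≤ 16 * ε ^ 3 / δ ^ 4 := by positivity
        by_cases hz : δ < ⟪a, (z : EE)⟫
        · have h1 := sg_le_far hε hδ R (hfar z hz)
          have h2 : ⟪a, (z : EE)⟫ ≤ 1 := by
            have := real_inner_le_norm a (z : EE)
            rw [ha] at this
            simpa using this
          have h3 : max ⟪a, (z : EE)⟫ 0 ≤ 1 := max_le h2 zero_le_one
          have h4 : 0 ≤ 2 * δ * eden ε R z := by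
            have := eden_nonneg' hε R (sph_ne z)
            positivity
          nlinarith
        · push Not at hz
          have h3 : max ⟪a, (z : EE)⟫ 0 ≤ δ := max_le hz hδ.le
          nlinarith
    _ = 2 * δ * (∫ z : Sph n, eden ε R z ∂(sig n)) + 16 * ε ^ 3 / δ ^ 4 * (sig n).real univ := by
        rw [integral_add (ie.const_mul _) (integrable_const _), integral_const_mul,
          integral_const, smul_eq_mul]
        ring

end pointwise

section limit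

open Crest.Agent.R246.Skel2 (ACLim LimM eDen)

local notation "𝔼" m => EuclideanSpace ℝ (Fin (m + 2))

variable {m : ℕ} {U : Filter ℕ} {ε : ℕ → ℝ} {R : ℕ → (𝔼 m) → ℝ} {r φ : (𝔼 m) → ℝ}
  {μ : Measure (𝔼 m)} {a0 : ℝ}

theorem moment_tendsto (hm : 1 ≤ m) (hL : ACLim m U ε R r φ μ a0) {a : 𝔼 m} (ha : ‖a‖ = 1)
    (hφ : ∀ x : 𝔼 m, 0 < ⟪a, x⟫ → |φ x| = ⟪a, x⟫) :
    Tendsto (fun k => ∫ z : Sph (m + 2), ⟪a, z⟫ * eden (ε k) (R k) z ∂(sig (m + 2))) U (𝓝 0) := by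
  have hn : 3 ≤ m + 2 := by omega
  rw [Metric.tendsto_nhds]
  intro η hη
  have hen : ∀ᶠ k in U, ∫ z : Sph (m + 2), eden (ε k) (R k) z ∂(sig (m + 2)) < 4 / 3 * a0 + 1 := by
    have h1 : ∀ᶠ k in U, 3 / 4 * En (ε k) (R k) < a0 + 3 / 4 :=
      hL.en.eventually (gt_mem_nhds (by linarith))
    filter_upwards [h1] with k hk
    have e : En (ε k) (R k) = ∫ z : Sph (m + 2), eden (ε k) (R k) z ∂(sig (m + 2)) :=
      Crest.Agent.R246.Vb872.En_eq (hL.sol k)
    rw [e] at hk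
    linarith
  set C : ℝ := |4 / 3 * a0 + 1| + 1 with hC
  have hC0 : 0 < C := by positivity
  set N : ℝ := ((m + 2 : ℕ) : ℝ) - 1 with hN
  have hN0 : 0 < N := by
    rw [hN]; push_cast
    have : (1 : ℝ) ≤ m := by exact_mod_cast hm
    linarith
  set δ : ℝ := η / (4 * N * C) with hδ
  have hδ0 : 0 < δ := by positivity
  set S : ℝ := (sig (m + 2)).real univ with hS
  have hS0 : 0 ≤ S := measureReal_nonneg
  have h2 : ∀ᶠ k in U, N * (16 * ε k ^ 3 / δ ^ 4 * S) < η / 2 := by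
    have h3 : Tendsto (fun k => N * (16 * ε k ^ 3 / δ ^ 4 * S)) U
        (𝓝 (N * (16 * 0 ^ 3 / δ ^ 4 * S))) :=
      ((((hL.eps.pow 3).const_mul 16).div_const _).mul_const _).const_mul _
    have e : N * (16 * 0 ^ 3 / δ ^ 4 * S) = 0 := by simp
    rw [e] at h3
    exact h3.eventually (gt_mem_nhds (by positivity))
  have h4 := (Metric.tendstoUniformlyOn_iff.1 hL.conv) (δ / 2) (by positivity)
  filter_upwards [hen, h2, h4] with k k1 k2 k3
  have hk := hL.sol k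
  rw [Real.dist_eq, sub_zero]
  refine lt_of_le_of_lt (moment_le hn hk.pos hk.sm hk.eq a) ?_
  have hfar : ∀ z : Sph (m + 2), δ < ⟪a, (z : 𝔼 m)⟫ → δ / 2 ≤ |R k z| := by
    intro z hz
    have h5 := k3 z (sph_ne z)
    have h6 := hφ z (hδ0.trans hz)
    rw [hL.phi] at h6
    have h7 : ‖(z : 𝔼 m)‖ = 1 := by simp
    rw [h7, one_mul] at h6
    have h8 : |Real.sin (r z)| ≤ |r z| := Real.abs_sin_le_abs
    rw [Real.dist_eq] at h5
    have h9 : |r z| ≤ |r z - R k z| + |R k z| := by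
      have := abs_add_le (r z - R k z) (R k z)
      rwa [sub_add_cancel] at this
    linarith
  have h5 := pos_part_le hk.pos hδ0 hk.sm ha hfar
  have h6 : 0 ≤ ∫ z : Sph (m + 2), eden (ε k) (R k) z ∂(sig (m + 2)) :=
    integral_nonneg fun z => eden_nonneg' hk.pos (R k) (sph_ne z)
  have h7 : ∫ z : Sph (m + 2), eden (ε k) (R k) z ∂(sig (m + 2)) ≤ C := by
    rw [hC]; linarith [le_abs_self (4 / 3 * a0 + 1)]
  calc N * ∫ z : Sph (m + 2), max ⟪a, (z : 𝔼 m)⟫ 0 * sg (R k) (ε k) z ∂(sig (m + 2))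
      ≤ N * (2 * δ * (∫ z : Sph (m + 2), eden (ε k) (R k) z ∂(sig (m + 2))) +
          16 * ε k ^ 3 / δ ^ 4 * S) := mul_le_mul_of_nonneg_left h5 hN0.le
    _ ≤ N * (2 * δ * C) + N * (16 * ε k ^ 3 / δ ^ 4 * S) := by
        rw [mul_add]
        have : N * (2 * δ * ∫ z : Sph (m + 2), eden (ε k) (R k) z ∂(sig (m + 2))) ≤
            N * (2 * δ * C) := by gcongr
        linarith
    _ < η / 2 + η / 2 := by
        have e : N * (2 * δ * C) = η / 2 := by
          rw [hδ]; field_simp; ring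
        rw [e]
        linarith
    _ = η := by ring

end limit

end Crest.Agent.R246.Dich67
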