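import Crest.Agent.R246.Dich2_67

/-!
R246, helper67.  Block DICH, part 3: `VAR` across the origin, vanishing first moments of the limit
measure, and the dichotomy `StDich`.
-/

set_option autoImplicit false
set_option linter.unusedSectionVars false
noncomputable section
open MeasureTheory Set Filter Topology Metric
open scoped RealInnerProductSpace NNReal ContDiff Gradient
open Crest.GeometryTopology.CoordMetric Crest.GeometryTopology.AffineMaximal
open Crest.Agent.R236.Jet

namespace Crest.Agent.R246.Dich67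
open Crest.Agent.R246.D2x782 Crest.Agent.R246.Stress638 Crest.Agent.R246.Lim538
open Crest.Agent.R202.SphDiv Crest.Agent.R246.MSP782 Crest.Agent.R246.D3Lim67
open Crest.Agent.R246.Skel656 (ACsol En)
open Crest.Agent.R246.G873

/-! ### `VAR` across the origin -/

section var

variable {E : Type*} [NormedAddCommGroup E] [InnerProductSpace ℝ E] [FiniteDimensional ℝ E]
  [MeasurableSpace E] [BorelSpace E]

/-- cut-off: `0` for `‖x‖ ≤ δ`, `1` for `‖x‖ ≥ 2δ` -/
def co (δ : ℝ) (x : E) : ℝ := min 1 (max 0 (‖x‖ / δ - 1))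

theorem co_nonneg (δ : ℝ) (x : E) : 0 ≤ co δ x := le_min zero_le_one (le_max_left _ _)

theorem co_le_one (δ : ℝ) (x : E) : co δ x ≤ 1 := min_le_left _ _

theorem co_eq_one {δ : ℝ} (hδ : 0 < δ) {x : E} (hx : 2 * δ ≤ ‖x‖) : co δ x = 1 := by
  unfold co
  have : 1 ≤ ‖x‖ / δ - 1 := by
    rw [le_sub_iff_add_le, le_div_iff₀ hδ]; linarith
  rw [max_eq_right (by linarith), min_eq_left this]

theorem co_eq_zero {δ : ℝ} (hδ : 0 < δ) {x : E} (hx : ‖x‖ ≤ δ) : co δ x = 0 := by
  unfold co
  have : ‖x‖ / δ - 1 ≤ 0 := by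
    rw [sub_nonpos, div_le_one hδ]; exact hx
  rw [max_eq_left this]; simp

theorem lip_co {δ : ℝ} (hδ : 0 < δ) : LipschitzWith (Real.toNNReal (1 / δ)) (co δ : E → ℝ) := by
  refine LipschitzWith.of_dist_le_mul fun x y => ?_
  rw [Real.coe_toNNReal _ (by positivity), Real.dist_eq, dist_eq_norm]
  unfold co
  have h1 : |min 1 (max 0 (‖x‖ / δ - 1)) - min 1 (max 0 (‖y‖ / δ - 1))| ≤
      |max 0 (‖x‖ / δ - 1) - max 0 (‖y‖ / δ - 1)| := by
    have := abs_min_sub_min_le_max 1 (max 0 (‖x‖ / δ - 1)) 1 (max 0 (‖y‖ / δ - 1))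
    simpa using this
  have h2 : |max 0 (‖x‖ / δ - 1) - max 0 (‖y‖ / δ - 1)| ≤ |(‖x‖ / δ - 1) - (‖y‖ / δ - 1)| := by
    have := abs_max_sub_max_le_max 0 (‖x‖ / δ - 1) 0 (‖y‖ / δ - 1)
    simpa using this
  have h3 : |(‖x‖ / δ - 1) - (‖y‖ / δ - 1)| = 1 / δ * |‖x‖ - ‖y‖| := by
    have e : (‖x‖ / δ - 1) - (‖y‖ / δ - 1) = 1 / δ * (‖x‖ - ‖y‖) := by ring
    rw [e, abs_mul, abs_of_pos (by positivity : 0 < 1 / δ)]
  calc _ ≤ _ := h1
    _ ≤ _ := h2
    _ = 1 / δ * |‖x‖ - ‖y‖| := h3
    _ ≤ 1 / δ * ‖x - y‖ := mul_le_mul_of_nonneg_left (abs_norm_sub_norm_le x y) (by positivity)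

theorem lip_mul' {f g : E → ℝ} (hf : Lip f) (hg : Lip g) (hfc : HasCompactSupport f)
    {B : ℝ≥0} (hB : ∀ x, |g x| ≤ B) : Lip (fun x => f x * g x) := by
  obtain ⟨C, hC⟩ := hf
  obtain ⟨D, hD⟩ := hg
  obtain ⟨A, hA⟩ := hC.continuous.bounded_above_of_compact_support hfc
  have hA0 : 0 ≤ A := (norm_nonneg _).trans (hA 0)
  exact ⟨_, Crest.Agent.R246.Flat105.lip_mul hC hD (A := A.toNNReal) (B := B)
    (fun x => by rw [Real.coe_toNNReal _ hA0]; exact hA x) hB⟩

theorem gi_mul {φ f g : E → ℝ} {x : E} (hf : DifferentiableAt ℝ f x)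
    (hg : DifferentiableAt ℝ g x) :
    gi φ (fun y => f y * g y) x = g x * gi φ f x + f x * gi φ g x := by
  unfold gi
  rw [Crest.Agent.R246.Flat105.grad_mul hf hg, inner_add_right, inner_smul_right,
    inner_smul_right]
  ring

theorem abs_gi_le {φ f : E → ℝ} {C : ℝ≥0} (hφ : LipschitzWith 1 φ) (hf : LipschitzWith C f)
    (x : E) : |gi φ f x| ≤ C := by
  have h1 := Crest.Agent.R246.Flat105.norm_grad_le hφ x
  have h2 := Crest.Agent.R246.Flat105.norm_grad_le hf x
  simp only [NNReal.coe_one] at h1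
  calc |gi φ f x| ≤ ‖∇ φ x‖ * ‖∇ f x‖ := abs_real_inner_le_norm _ _
    _ ≤ 1 * C := by gcongr
    _ = C := one_mul _

theorem meas_gi (φ f : E → ℝ) : Measurable (gi φ f) :=
  (Crest.Agent.R246.Flat105.meas_grad φ).inner (Crest.Agent.R246.Flat105.meas_grad f)

/-- the error of cutting off at the origin -/
theorem cut_tendsto (hdim : 2 ≤ Module.finrank ℝ E) {φ f : E → ℝ} (hφ : LipschitzWith 1 φ)
    (hf : Lip f) (hfc : HasCompactSupport f) :
    Tendsto (fun j : ℕ => ∫ x, gi φ (fun y => f y * co (1 / ((j : ℝ) + 1)) y) x) atTop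
      (𝓝 (∫ x, gi φ f x)) := by
  obtain ⟨C, hC⟩ := hf
  obtain ⟨A, hA⟩ := hC.continuous.bounded_above_of_compact_support hfc
  have hA0 : 0 ≤ A := (norm_nonneg _).trans (hA 0)
  have : Nontrivial E := Module.nontrivial_of_finrank_pos (R := ℝ) (by omega)
  set d : ℕ → ℝ := fun j => 1 / ((j : ℝ) + 1) with hd
  have hd0 : ∀ j, 0 < d j := fun j => by rw [hd]; positivity
  have hdlim : Tendsto d atTop (𝓝 0) := tendsto_one_div_add_atTop_nhds_zero_nat
  -- split
  have hsplit : ∀ j, ∀ᵐ x ∂(volume : Measure E), gi φ (fun y => f y * co (d j) y) x =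
      co (d j) x * gi φ f x + f x * gi φ (co (d j)) x := by
    intro j
    filter_upwards [hC.ae_differentiableAt, (lip_co (hd0 j)).ae_differentiableAt] with x h1 h2
    exact gi_mul h1 h2
  have hsupp : ∀ x ∉ tsupport f, gi φ f x = 0 := by
    intro x hx
    unfold gi
    have := Crest.Agent.R246.Flat105.grad_zero_of_notMem hx
    rw [this, inner_zero_right]
  have hint1 : ∀ j, Integrable fun x => co (d j) x * gi φ f x := by
    intro j
    refine Crest.Agent.R246.Flat105.integrable_of_bdd_supp (C := (C : ℝ)) ?_ ?_ hfc.isCompact ?_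
    · exact ((lip_co (hd0 j)).continuous.measurable.mul (meas_gi φ f)).aestronglyMeasurable
    · intro x
      rw [abs_mul, abs_of_nonneg (co_nonneg _ _)]
      calc co (d j) x * |gi φ f x| ≤ 1 * C :=
            mul_le_mul (co_le_one _ _) (abs_gi_le hφ hC x) (abs_nonneg _) zero_le_one
        _ = C := one_mul _
    · intro x hx
      rw [hsupp x hx, mul_zero]
  have hco0 : ∀ j, ∀ x ∉ closedBall (0 : E) (2 * d j), gi φ (co (d j)) x = 0 := by
    intro j x hx
    rw [mem_closedBall_zero_iff, not_le] at hx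
    have h1 : (co (d j) : E → ℝ) =ᶠ[𝓝 x] fun _ => 1 := by
      filter_upwards [continuous_norm.continuousAt.eventually (lt_mem_nhds hx)] with y hy
      exact co_eq_one (hd0 j) hy.le
    unfold gi
    have : ∇ (co (d j) : E → ℝ) x = 0 := by
      rw [h1.gradient_eq, gradient_fun_const]
    rw [this, inner_zero_right]
  have hbd2 : ∀ j x, |f x * gi φ (co (d j)) x| ≤ A * (1 / d j) := by
    intro j x
    rw [abs_mul]
    refine mul_le_mul (hA x) ?_ (abs_nonneg _) hA0
    have h1 := abs_gi_le hφ (lip_co (hd0 j)) x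
    rwa [Real.coe_toNNReal _ (by have := hd0 j; positivity)] at h1
  have hint2 : ∀ j, Integrable fun x => f x * gi φ (co (d j)) x := by
    intro j
    refine Crest.Agent.R246.Flat105.integrable_of_bdd_supp (C := A * (1 / d j)) ?_ (hbd2 j)
      (isCompact_closedBall (0 : E) (2 * d j)) ?_
    · exact (hC.continuous.measurable.mul (meas_gi φ _)).aestronglyMeasurable
    · intro x hx
      rw [hco0 j x hx, mul_zero]
  have e : ∀ j, ∫ x, gi φ (fun y => f y * co (d j) y) x =
      (∫ x, co (d j) x * gi φ f x) + ∫ x, f x * gi φ (co (d j)) x := by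
    intro j
    rw [← integral_add (hint1 j) (hint2 j)]
    exact integral_congr_ae (hsplit j)
  have hlim1 : Tendsto (fun j => ∫ x, co (d j) x * gi φ f x) atTop (𝓝 (∫ x, gi φ f x)) := by
    refine tendsto_integral_of_dominated_convergence (fun x => |gi φ f x|) ?_ ?_ ?_ ?_
    · exact fun j => (hint1 j).aestronglyMeasurable
    · refine (Crest.Agent.R246.Flat105.integrable_of_bdd_supp (C := (C : ℝ))
        (meas_gi φ f).aestronglyMeasurable (abs_gi_le hφ hC) hfc.isCompact hsupp).abs
    · intro j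
      refine Eventually.of_forall fun x => ?_
      rw [norm_mul, Real.norm_eq_abs, Real.norm_eq_abs, abs_of_nonneg (co_nonneg _ _)]
      calc co (d j) x * |gi φ f x| ≤ 1 * |gi φ f x| :=
            mul_le_mul_of_nonneg_right (co_le_one _ _) (abs_nonneg _)
        _ = |gi φ f x| := one_mul _
    · have hae : ∀ᵐ x ∂(volume : Measure E), x ≠ 0 := by
        have := (measure_singleton (μ := (volume : Measure E)) (0 : E))
        exact compl_mem_ae_iff.2 this
      filter_upwards [hae] with x hx
      have hx0 : 0 < ‖x‖ := norm_pos_iff.2 hx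
      refine tendsto_const_nhds.congr' ?_
      filter_upwards [hdlim.eventually (gt_mem_nhds (by positivity : 0 < ‖x‖ / 2))] with j hj
      rw [co_eq_one (hd0 j) (by linarith), one_mul]
  have hlim2 : Tendsto (fun j => ∫ x, f x * gi φ (co (d j)) x) atTop (𝓝 0) := by
    have hbound : ∀ j, |∫ x, f x * gi φ (co (d j)) x| ≤
        A * (1 / d j) * (volume : Measure E).real (closedBall (0 : E) (2 * d j)) := by
      intro j
      have h1 : ∫ x, f x * gi φ (co (d j)) x =
          ∫ x in closedBall (0 : E) (2 * d j), f x * gi φ (co (d j)) x := by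
        rw [setIntegral_eq_integral_of_forall_compl_eq_zero]
        intro x hx
        rw [hco0 j x hx, mul_zero]
      rw [h1]
      have h2 := norm_setIntegral_le_of_norm_le_const (μ := (volume : Measure E))
        (s := closedBall (0 : E) (2 * d j)) (C := A * (1 / d j))
        (isCompact_closedBall (0 : E) (2 * d j)).measure_lt_top
        (f := fun x => f x * gi φ (co (d j)) x) (fun x _ => hbd2 j x)
      exact h2
    have hvol : ∀ j, A * (1 / d j) * (volume : Measure E).real (closedBall (0 : E) (2 * d j)) =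
        (A * 2 ^ (Module.finrank ℝ E) * (volume : Measure E).real (ball (0 : E) 1)) *
          d j ^ (Module.finrank ℝ E - 1) := by
      intro j
      have hj := hd0 j
      have h1 : (volume : Measure E).real (closedBall (0 : E) (2 * d j)) =
          (2 * d j) ^ (Module.finrank ℝ E) * (volume : Measure E).real (ball (0 : E) 1) := by
        exact Measure.addHaar_real_closedBall (volume : Measure E) (0 : E)
          (r := 2 * d j) (by positivity)
      rw [h1, mul_pow]
      have h2 : d j ^ (Module.finrank ℝ E) = d j * d j ^ (Module.finrank ℝ E - 1) := by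
        rw [← pow_succ']
        congr 1; omega
      rw [h2]
      field_simp
    have hz : Tendsto (fun j => (A * 2 ^ (Module.finrank ℝ E) *
        (volume : Measure E).real (ball (0 : E) 1)) *
          d j ^ (Module.finrank ℝ E - 1)) atTop (𝓝 0) := by
      have h1 : Tendsto (fun j => d j ^ (Module.finrank ℝ E - 1)) atTop (𝓝 0) := by
        have := hdlim.pow (Module.finrank ℝ E - 1)
        rwa [zero_pow (by omega)] at this
      simpa using h1.const_mul (A * 2 ^ (Module.finrank ℝ E) *
        (volume : Measure E).real (ball (0 : E) 1))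
    refine squeeze_zero_norm (fun j => ?_) hz
    rw [Real.norm_eq_abs, ← hvol j]
    exact hbound j
  have hfinal := hlim1.add hlim2
  rw [add_zero] at hfinal
  refine hfinal.congr fun j => ?_
  exact (e j).symm

theorem var_univ (hdim : 2 ≤ Module.finrank ℝ E) {φ : E → ℝ} (hφ : LipschitzWith 1 φ)
    {μ : Measure E} [IsFiniteMeasureOnCompacts μ] (h : VAR φ μ {0}ᶜ) : VAR φ μ univ := by
  intro ζ η hζ hη hζc hηc hle _
  have hφa : LipschitzWith 1 (fun y => |φ y|) := by
    refine LipschitzWith.of_dist_le_mul fun x y => ?_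
    refine le_trans ?_ (hφ.dist_le_mul x y)
    rw [Real.dist_eq, Real.dist_eq]
    exact abs_abs_sub_abs_le_abs_sub _ _
  have h1 := cut_tendsto hdim hφ hζ hζc
  have h2 := cut_tendsto hdim hφa hη hηc
  have h3 := h1.sub h2
  refine le_of_tendsto h3 (Eventually.of_forall fun j => ?_)
  set δ : ℝ := 1 / ((j : ℝ) + 1) with hδ
  have hδ0 : 0 < δ := by positivity
  have hcoB : ∀ x : E, |co δ x| ≤ (1 : ℝ≥0) := fun x => by
    rw [abs_of_nonneg (co_nonneg _ _)]; exact co_le_one _ _
  have hsub : tsupport (fun x => η x * co δ x) ⊆ {0}ᶜ := by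
    have h4 : tsupport (fun x : E => η x * co δ x) ⊆ {x : E | δ ≤ ‖x‖} := by
      apply closure_minimal
      · intro x hx
        by_contra hcon
        simp only [mem_ofPred_eq, not_le] at hcon
        apply hx
        show η x * co δ x = 0
        rw [co_eq_zero hδ0 hcon.le, mul_zero]
      · exact isClosed_le continuous_const continuous_norm
    intro x hx h0
    have h5 := h4 hx
    rw [mem_singleton_iff.1 h0] at h5
    simp only [mem_ofPred_eq, norm_zero] at h5
    linarith
  have hη0 : ∀ x, 0 ≤ η x := fun x => (abs_nonneg _).trans (hle x)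
  have h6 := h (fun x => ζ x * co δ x) (fun x => η x * co δ x)
    (lip_mul' hζ ⟨_, lip_co hδ0⟩ hζc hcoB) (lip_mul' hη ⟨_, lip_co hδ0⟩ hηc hcoB)
    hζc.mul_right hηc.mul_right (fun x => by
      rw [abs_mul, abs_of_nonneg (co_nonneg δ x)]
      exact mul_le_mul_of_nonneg_right (hle x) (co_nonneg _ _)) hsub
  refine h6.trans ?_
  have hηcont : Continuous η := by
    obtain ⟨D, hD⟩ := hη; exact hD.continuous
  have hi1 : Integrable η μ := hηcont.integrable_of_hasCompactSupport hηc
  have hi2 : Integrable (fun x => η x * co δ x) μ :=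
    (hηcont.mul (lip_co hδ0).continuous).integrable_of_hasCompactSupport hηc.mul_right
  have h7 : ∫ x, η x * co δ x ∂μ ≤ ∫ x, η x ∂μ :=
    integral_mono hi2 hi1 fun x => by
      have := mul_le_mul_of_nonneg_left (co_le_one δ x) (hη0 x)
      simpa using this
  linarith

end var

end Crest.Agent.R246.Dich67
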