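import Crest.Agent.R246.Dich3_67
import Crest.Agent.R246.D3LimC_67

/-!
R246, helper67.  Block DICH, part 4: the dichotomy `Skel2.StDich m` (`1 ≤ m`).
-/

set_option autoImplicit false
set_option linter.unusedSectionVars false
noncomputable section
open MeasureTheory Set Filter Topology Metric
open scoped RealInnerProductSpace NNReal ContDiff Gradient
open Crest.GeometryTopology.CoordMetric Crest.GeometryTopology.AffineMaximal
open Crest.GeometryTopology.SphereImmersion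
open Crest.Agent.R236.Jet

namespace Crest.Agent.R246.Dich67
open Crest.Agent.R246.D2x782 Crest.Agent.R246.Stress638 Crest.Agent.R246.Lim538
open Crest.Agent.R202.SphDiv Crest.Agent.R246.MSP782 Crest.Agent.R246.D3Lim67
open Crest.Agent.R246.Skel656 (ACsol En)
open Crest.Agent.R246.G873
open Crest.Agent.R246.H990 (NullCone VB cV)
open Crest.Agent.R246.Skel2 (ACLim LimM eDen StDich)

local notation "𝔼" m => EuclideanSpace ℝ (Fin (m + 2))

variable {m : ℕ} {U : Filter ℕ} {ε : ℕ → ℝ} {R : ℕ → (𝔼 m) → ℝ} {r φ : (𝔼 m) → ℝ}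
  {μ : Measure (𝔼 m)} {a0 : ℝ}

theorem eDen_smul {e : ℝ} {Q : (𝔼 m) → ℝ} (h : SmHom0 Q) {t : ℝ} (ht : 0 < t)
    (z : Sph (m + 2)) : eDen e Q (t • (z : 𝔼 m)) = 3 / 4 * (t⁻¹ * eden e Q z) := by
  unfold eDen
  rw [qq_hw_smul h e ht, norm_smul, Real.norm_eq_abs, abs_of_pos ht]
  have : ‖(z : 𝔼 m)‖ = 1 := by simp
  rw [this]
  field_simp

/-- profile -/
def pr (ρ : ℝ) (x : 𝔼 m) : ℝ := max (1 - ‖x‖ ^ 2 / ρ ^ 2) 0

theorem pr_cont (ρ : ℝ) : Continuous (pr (m := m) ρ) := by unfold pr; fun_prop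

theorem pr_zero {ρ : ℝ} (hρ : 0 < ρ) {x : 𝔼 m} (hx : x ∉ closedBall (0 : 𝔼 m) ρ) :
    pr ρ x = 0 := by
  rw [mem_closedBall_zero_iff, not_le] at hx
  unfold pr
  rw [max_eq_right]
  rw [sub_nonpos, one_le_div (by positivity)]
  exact pow_le_pow_left₀ hρ.le hx.le 2

theorem pr_le_one (ρ : ℝ) (x : 𝔼 m) : pr ρ x ≤ 1 := by
  unfold pr
  refine max_le ?_ zero_le_one
  have : 0 ≤ ‖x‖ ^ 2 / ρ ^ 2 := by positivity
  linarith

theorem pr_nonneg (ρ : ℝ) (x : 𝔼 m) : 0 ≤ pr ρ x := le_max_right _ _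

theorem integrable_test (hm : 1 ≤ m) {e : ℝ} (he : 0 < e) {Q : (𝔼 m) → ℝ} (h : SmHom0 Q)
    (hQ : ACeq e Q) {a : 𝔼 m} (ha : ‖a‖ = 1) {ρ : ℝ} (hρ : 0 < ρ) :
    Integrable fun x : 𝔼 m => pr ρ x * ⟪a, x⟫ * eDen e Q x := by
  have hn : 3 ≤ m + 2 := by omega
  refine Crest.Agent.R246.Flat105.integrable_of_bdd_supp (C := 3 / 4 * (1 / e)) ?_ ?_
    (isCompact_closedBall (0 : 𝔼 m) ρ) ?_
  · have h1 : ContinuousOn (eDen e Q) {0}ᶜ := by
      unfold eDen
      exact continuousOn_const.mul (continuous_norm.continuousOn.mul (continuousOn_qq h e))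
    have h2 : AEStronglyMeasurable (eDen e Q) volume := aesm_of_continuousOn (by omega) h1
    refine AEStronglyMeasurable.mul ?_ h2
    have : Continuous fun x : 𝔼 m => pr ρ x * ⟪a, x⟫ := (pr_cont ρ).mul (by fun_prop)
    exact this.aestronglyMeasurable
  · intro x
    by_cases hx : x = 0
    · subst hx
      simp only [inner_zero_right, mul_zero, zero_mul, abs_zero]
      positivity
    · have hx0 : 0 < ‖x‖ := norm_pos_iff.2 hx
      have e1 : eDen e Q x = 3 / 4 * (‖x‖⁻¹ * eden e Q x) := by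
        unfold eDen
        have hh : qq hw Q e x = (‖x‖ ^ 2)⁻¹ * eden e Q x := by
          unfold qq eden hw sgsq
          rw [nsq_eq]
          field_simp
        rw [hh]
        field_simp
      have h1 : eden e Q x ≤ 1 / e := (eden_le_sg hn he h hQ hx).trans (sg_le_inv he Q x)
      have h2 := eden_nonneg' he Q hx
      have h3 : |⟪a, x⟫| ≤ ‖x‖ := by
        have := abs_real_inner_le_norm a x
        rwa [ha, one_mul] at this
      rw [e1, abs_mul, abs_mul, abs_of_nonneg (pr_nonneg ρ x),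
        abs_of_nonneg (by positivity : 0 ≤ 3 / 4 * (‖x‖⁻¹ * eden e Q x))]
      calc pr ρ x * |⟪a, x⟫| * (3 / 4 * (‖x‖⁻¹ * eden e Q x))
          ≤ 1 * ‖x‖ * (3 / 4 * (‖x‖⁻¹ * (1 / e))) := by
            have := pr_le_one ρ x
            have := pr_nonneg ρ x
            gcongr
        _ = 3 / 4 * (1 / e) := by field_simp
  · intro x hx
    rw [pr_zero hρ hx]; ring

theorem integral_test (hm : 1 ≤ m) {e : ℝ} (he : 0 < e) {Q : (𝔼 m) → ℝ} (h : SmHom0 Q)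
    (hQ : ACeq e Q) {a : 𝔼 m} (ha : ‖a‖ = 1) {ρ : ℝ} (hρ : 0 < ρ) :
    ∫ x : 𝔼 m, pr ρ x * ⟪a, x⟫ * eDen e Q x =
      (∫ t in Ioi (0 : ℝ), t ^ (m + 2 - 1) * (3 / 4 * max (1 - t ^ 2 / ρ ^ 2) 0)) *
        ∫ z : Sph (m + 2), ⟪a, z⟫ * eden e Q z ∂(sig (m + 2)) := by
  rw [polar (by omega) _ (integrable_test hm he h hQ ha hρ), ← integral_mul_const]
  refine setIntegral_congr_fun measurableSet_Ioi fun t ht => ?_
  have ht' : (0 : ℝ) < t := ht
  have h1 : ∀ z : Sph (m + 2), pr ρ (t • (z : 𝔼 m)) * ⟪a, t • (z : 𝔼 m)⟫ *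
      eDen e Q (t • (z : 𝔼 m)) =
      (3 / 4 * max (1 - t ^ 2 / ρ ^ 2) 0) * (⟪a, z⟫ * eden e Q z) := by
    intro z
    rw [eDen_smul h ht' z, inner_smul_right]
    unfold pr
    have : ‖t • (z : 𝔼 m)‖ = t := by
      rw [norm_smul, Real.norm_eq_abs, abs_of_pos ht']; simp
    rw [this]
    field_simp
  simp only [h1]
  rw [integral_const_mul]
  ring

/-- vanishing first moments of the limit measure -/
theorem moment_zero (hm : 1 ≤ m) (hL : ACLim m U ε R r φ μ a0) {a : 𝔼 m} (ha : ‖a‖ = 1)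
    (hφ : ∀ x : 𝔼 m, 0 < ⟪a, x⟫ → |φ x| = ⟪a, x⟫) {ρ : ℝ} (hρ : 0 < ρ) :
    ∫ x, max (1 - ‖x‖ ^ 2 / ρ ^ 2) 0 * ⟪a, x⟫ ∂μ = 0 := by
  have hNB : U.NeBot := hL.neBot
  have h1 := hL.loc (fun x => pr ρ x * ⟪a, x⟫) ((pr_cont ρ).mul (by fun_prop)) (by
    refine HasCompactSupport.mul_right ?_
    refine HasCompactSupport.of_support_subset_isCompact (isCompact_closedBall (0 : 𝔼 m) ρ) ?_
    intro x hx
    by_contra hcon
    exact hx (pr_zero hρ hcon))
  have h2 := (moment_tendsto hm hL ha hφ).const_mul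
    (∫ t in Ioi (0 : ℝ), t ^ (m + 2 - 1) * (3 / 4 * max (1 - t ^ 2 / ρ ^ 2) 0))
  rw [mul_zero] at h2
  have h3 : ∀ k, ∫ x : 𝔼 m, pr ρ x * ⟪a, x⟫ * eDen (ε k) (R k) x =
      (∫ t in Ioi (0 : ℝ), t ^ (m + 2 - 1) * (3 / 4 * max (1 - t ^ 2 / ρ ^ 2) 0)) *
        ∫ z : Sph (m + 2), ⟪a, z⟫ * eden (ε k) (R k) z ∂(sig (m + 2)) := fun k =>
    integral_test hm (hL.sol k).pos (hL.sol k).sm (hL.sol k).eq ha hρ
  simp only [h3] at h1
  exact tendsto_nhds_unique h1 h2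

/-- touching: `|φ| = ⟪a,·⟫` on the half space -/
theorem touch_eq (hM : LimM φ μ (a0 * cV (𝔼 m))) {a : 𝔼 m} (ha : ‖a‖ = 1) (h : |φ a| = 1)
    (x : 𝔼 m) (hx : 0 < ⟪a, x⟫) : |φ x| = ⟪a, x⟫ := by
  rcases (abs_eq (zero_le_one' ℝ)).1 h with h1 | h1
  · rw [Crest.Agent.R246.G4x386.eq_inner_of_touch hM.hom hM.cD.lip
      (Crest.Agent.R246.G4b386.supW_of_classD hM.cD) ha h1 hx, abs_of_pos hx]
  · have hD := Crest.Agent.R246.G4b386.classD_neg hM.cD
    have h2 := Crest.Agent.R246.G4x386.eq_inner_of_touch (ρ := fun x => -φ x)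
      (fun t ht x => by rw [hM.hom t ht x]; ring) hD.lip
      (Crest.Agent.R246.G4b386.supW_of_classD hD) ha (by rw [h1]; ring) hx
    have h3 : φ x = -⟪a, x⟫ := by
      have : -φ x = ⟪a, x⟫ := h2
      linarith
    rw [h3, abs_neg, abs_of_pos hx]

/-- no touching: null cone -/
theorem nullCone_of (hM : LimM φ μ (a0 * cV (𝔼 m))) (h : ∀ a : 𝔼 m, ‖a‖ = 1 → |φ a| ≠ 1) :
    NullCone φ where
  hom := hM.hom
  lip := hM.cD.lip
  grad := hM.cD.grad
  bd := by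
    have h0 : φ 0 = 0 := by
      have := hM.hom 0 le_rfl 0
      simpa using this
    have hle : ∀ x, |φ x| ≤ ‖x‖ := fun x => by
      have := hM.cD.lip.dist_le_mul x 0
      rw [Real.dist_eq, h0, sub_zero, dist_zero_right, NNReal.coe_one, one_mul] at this
      exact this
    have hne : (sphere (0 : 𝔼 m) 1).Nonempty := by
      have : Nontrivial (𝔼 m) := inferInstance
      exact NormedSpace.sphere_nonempty.2 zero_le_one
    obtain ⟨p, hp, hmax⟩ := (isCompact_sphere (0 : 𝔼 m) 1).exists_isMaxOn hne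
      (hM.cD.lip.continuous.abs.continuousOn)
    have hp1 : ‖p‖ = 1 := mem_sphere_zero_iff_norm.1 hp
    refine ⟨|φ p|, abs_nonneg _, lt_of_le_of_ne ((hle p).trans hp1.le) (h p hp1), fun x => ?_⟩
    by_cases hx : x = 0
    · subst hx; simp [h0]
    · have hx0 : 0 < ‖x‖ := norm_pos_iff.2 hx
      have h1 : x = ‖x‖ • (‖x‖⁻¹ • x) := by
        rw [smul_smul, mul_inv_cancel₀ hx0.ne', one_smul]
      have h2 : φ x = ‖x‖ * φ (‖x‖⁻¹ • x) := by
        conv_lhs => rw [h1]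
        exact hM.hom _ hx0.le _
      have h3 : ‖x‖⁻¹ • x ∈ sphere (0 : 𝔼 m) 1 := by
        rw [mem_sphere_zero_iff_norm, norm_smul, norm_inv, norm_norm, inv_mul_cancel₀ hx0.ne']
      have h4 : |φ (‖x‖⁻¹ • x)| ≤ |φ p| := hmax h3
      rw [h2, abs_mul, abs_of_pos hx0, mul_comm]
      exact mul_le_mul_of_nonneg_right h4 hx0.le

/-- **The dichotomy.** -/
theorem stDich (hm : 1 ≤ m) : StDich m := by
  intro U ε R r φ μ a hL hM ha2
  by_cases h : ∃ b : 𝔼 m, ‖b‖ = 1 ∧ |φ b| = 1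
  · right
    obtain ⟨b, hb, hφb⟩ := h
    have hfin : IsFiniteMeasureOnCompacts μ := hL.fin
    have hE : Module.finrank ℝ (𝔼 m) = m + 2 := by simp
    have hdim : 2 ≤ Module.finrank ℝ (𝔼 m) := by omega
    refine Crest.Agent.R246.G4b386.stG4 (𝔼 m) hdim φ μ b hfin hM.hom hM.cD
      (var_univ hdim hM.cD.lip hM.var) hM.conc hb hφb
      (fun ρ hρ => moment_zero hm hL hb (touch_eq hM hb hφb) hρ) ?_
    rw [hM.mass]
    refine (ENNReal.ofReal_lt_ofReal_iff (by positivity)).2 ?_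
    exact Crest.Agent.R246.ThetaK688.mass_lt_two hE ha2
  · left
    push Not at h
    exact nullCone_of hM h

end Crest.Agent.R246.Dich67
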