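import Crest.Agent.R246.Flat1_105
import Mathlib.Analysis.Distribution.AEEqOfIntegralContDiff
import Mathlib.MeasureTheory.Function.ConvergenceInMeasure
import Mathlib.MeasureTheory.Function.L1Space.AEEqFun
import Mathlib.Topology.MetricSpace.Thickening

/-!
Row 246, block E2 (helper858): strong convergence of gradients of locally uniformly convergent
sequences of Lipschitz functions whose Laplacians have bounded mass.
-/

set_option autoImplicit false
set_option linter.unusedSectionVars false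

namespace Crest.Agent.R246.E2x858

open MeasureTheory Filter Topology Metric Set
open scoped NNReal ENNReal Gradient RealInnerProductSpace ContDiff
open Crest.Agent.R246.Flat105

variable {E : Type*} [NormedAddCommGroup E] [InnerProductSpace ℝ E] [FiniteDimensional ℝ E]
  [MeasurableSpace E] [BorelSpace E]

/-- weak bound for the mass of the Laplacian of `r` in `V` -/
def MassBd (V : Set E) (r : E → ℝ) (C : ℝ) : Prop :=
  ∀ ψ : E → ℝ, (∃ L : ℝ≥0, LipschitzWith L ψ) → HasCompactSupport ψ → tsupport ψ ⊆ V →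
    ∀ s : ℝ, (∀ x, |ψ x| ≤ s) → |∫ x, ⟪∇ r x, ∇ ψ x⟫| ≤ C * s

theorem MassBd.mono {V W : Set E} {r : E → ℝ} {C : ℝ} (h : MassBd V r C) (hW : W ⊆ V) :
    MassBd W r C := fun ψ h1 h2 h3 s h4 => h ψ h1 h2 (h3.trans hW) s h4

/-- integrability of the Dirichlet product with a compactly supported Lipschitz function -/
theorem integrable_inner_grad {r ψ : E → ℝ} {M L : ℝ≥0} (hr : ∀ x, ‖∇ r x‖ ≤ M)
    (hψ : LipschitzWith L ψ) (hc : HasCompactSupport ψ) :
    Integrable (fun x => ⟪∇ r x, ∇ ψ x⟫) := by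
  refine integrable_of_bdd_supp (C := M * L)
    ((meas_grad r).inner (meas_grad ψ)).aestronglyMeasurable ?_ hc
    (fun x hx => by rw [grad_zero_of_notMem hx, inner_zero_right])
  intro x
  refine (abs_real_inner_le_norm _ _).trans ?_
  gcongr
  · exact hr x
  · exact norm_grad_le hψ x

/-- **The Cauchy estimate.** -/
theorem cauchy_est {V : Set E} {r₁ r₂ ζ : E → ℝ} {M L : ℝ≥0} {C s : ℝ}
    (h1 : LipschitzWith M r₁) (h2 : LipschitzWith M r₂) (m1 : MassBd V r₁ C) (m2 : MassBd V r₂ C)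
    (hζ : LipschitzWith L ζ) (h0 : ∀ x, 0 ≤ ζ x) (h1' : ∀ x, ζ x ≤ 1) (hc : HasCompactSupport ζ)
    (hs : tsupport ζ ⊆ V) (hs0 : 0 ≤ s) (hsup : ∀ x ∈ tsupport ζ, |r₁ x - r₂ x| ≤ s) :
    ∫ x, ζ x * ‖∇ r₁ x - ∇ r₂ x‖ ^ 2 ≤
      s * (2 * C + 2 * M * L * (volume (tsupport ζ)).toReal) := by
  set w : E → ℝ := fun x => r₁ x - r₂ x with hw
  have hwL : LipschitzWith (M + M) w := h1.sub h2
  set ψ : E → ℝ := fun x => ζ x * clamp s (w x) with hψ
  have hψeq : ψ = fun x => ζ x * w x := by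
    funext x
    by_cases hx : x ∈ tsupport ζ
    · show ζ x * clamp s (w x) = ζ x * w x
      rw [clamp_eq (hsup x hx)]
    · simp only [hψ, image_eq_zero_of_notMem_tsupport hx, zero_mul]
  have hcl : LipschitzWith (1 * (M + M)) (fun x => clamp s (w x)) := (lip_clamp s).comp hwL
  have hψL : LipschitzWith (1 * (1 * (M + M)) + s.toNNReal * L) ψ :=
    lip_mul hζ hcl (A := 1) (B := s.toNNReal)
      (fun x => by rw [abs_of_nonneg (h0 x)]; simpa using h1' x)
      (fun x => by rw [Real.coe_toNNReal _ hs0]; exact abs_clamp_le hs0 _)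
  have hψt : tsupport ψ ⊆ tsupport ζ := tsupport_mul_left_subset' (f := ζ)
  have hψc : HasCompactSupport ψ := hc.mono' ((subset_tsupport _).trans hψt)
  have hψs : ∀ x, |ψ x| ≤ s := fun x => by
    simp only [hψ]
    rw [abs_mul, abs_of_nonneg (h0 x)]
    calc ζ x * |clamp s (w x)| ≤ 1 * s := by
          gcongr
          · exact h1' x
          · exact abs_clamp_le hs0 _
      _ = s := one_mul s
  have e1 := m1 ψ ⟨_, hψL⟩ hψc (hψt.trans hs) s hψs
  have e2 := m2 ψ ⟨_, hψL⟩ hψc (hψt.trans hs) s hψs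
  have i1 := integrable_inner_grad (norm_grad_le h1) hψL hψc
  have i2 := integrable_inner_grad (norm_grad_le h2) hψL hψc
  -- the a.e. identity
  have key : ∀ᵐ x, ⟪∇ r₁ x, ∇ ψ x⟫ - ⟪∇ r₂ x, ∇ ψ x⟫ =
      ζ x * ‖∇ r₁ x - ∇ r₂ x‖ ^ 2 + w x * ⟪∇ r₁ x - ∇ r₂ x, ∇ ζ x⟫ := by
    filter_upwards [h1.ae_differentiableAt, h2.ae_differentiableAt, hζ.ae_differentiableAt]
      with x d1 d2 d3
    have hg : ∇ ψ x = ζ x • (∇ r₁ x - ∇ r₂ x) + w x • ∇ ζ x := by
      have d4 : DifferentiableAt ℝ w x := d1.sub d2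
      rw [hψeq, grad_mul d3 d4, ← grad_sub d1 d2]
    rw [hg, ← inner_sub_left, inner_add_right, inner_smul_right, inner_smul_right,
      real_inner_self_eq_norm_sq]
  have hmeas : Measurable fun x => ⟪∇ r₁ x - ∇ r₂ x, ∇ ζ x⟫ :=
    ((meas_grad r₁).sub (meas_grad r₂)).inner (meas_grad ζ)
  have hbd : ∀ x, ‖∇ r₁ x - ∇ r₂ x‖ ≤ 2 * M := fun x =>
    (norm_sub_le _ _).trans (by linarith [norm_grad_le h1 x, norm_grad_le h2 x])
  have hin : ∀ x, |⟪∇ r₁ x - ∇ r₂ x, ∇ ζ x⟫| ≤ 2 * M * L := fun x =>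
    (abs_real_inner_le_norm _ _).trans (by
      gcongr
      · exact hbd x
      · exact norm_grad_le hζ x)
  have hcross : ∀ x, |w x * ⟪∇ r₁ x - ∇ r₂ x, ∇ ζ x⟫| ≤ s * (2 * M * L) := by
    intro x
    by_cases hx : x ∈ tsupport ζ
    · rw [abs_mul]
      exact mul_le_mul (hsup x hx) (hin x) (abs_nonneg _) hs0
    · rw [grad_zero_of_notMem hx, inner_zero_right, mul_zero, abs_zero]
      positivity
  have hz : ∀ x, x ∉ tsupport ζ → w x * ⟪∇ r₁ x - ∇ r₂ x, ∇ ζ x⟫ = 0 := fun x hx => by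
    rw [grad_zero_of_notMem hx, inner_zero_right, mul_zero]
  have i3 : Integrable (fun x => w x * ⟪∇ r₁ x - ∇ r₂ x, ∇ ζ x⟫) :=
    integrable_of_bdd_supp ((hwL.continuous.measurable.mul hmeas).aestronglyMeasurable)
      hcross hc hz
  have i4 : Integrable (fun x => ζ x * ‖∇ r₁ x - ∇ r₂ x‖ ^ 2) := by
    refine integrable_of_bdd_supp (C := (2 * M) ^ 2)
      ((hζ.continuous.measurable.mul
        (((meas_grad r₁).sub (meas_grad r₂)).norm.pow_const 2)).aestronglyMeasurable) ?_ hc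
      (fun x hx => by rw [image_eq_zero_of_notMem_tsupport hx, zero_mul])
    intro x
    rw [abs_of_nonneg (mul_nonneg (h0 x) (by positivity))]
    calc ζ x * ‖∇ r₁ x - ∇ r₂ x‖ ^ 2 ≤ 1 * (2 * M) ^ 2 := by
          gcongr
          · exact h1' x
          · exact hbd x
      _ = _ := one_mul _
  have hI : (∫ x, ⟪∇ r₁ x, ∇ ψ x⟫) - ∫ x, ⟪∇ r₂ x, ∇ ψ x⟫ =
      (∫ x, ζ x * ‖∇ r₁ x - ∇ r₂ x‖ ^ 2) + ∫ x, w x * ⟪∇ r₁ x - ∇ r₂ x, ∇ ζ x⟫ := by
    rw [← integral_sub i1 i2, ← integral_add i4 i3]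
    exact integral_congr_ae key
  have hcr : |∫ x, w x * ⟪∇ r₁ x - ∇ r₂ x, ∇ ζ x⟫| ≤
      s * (2 * M * L) * (volume (tsupport ζ)).toReal := by
    have h3 : ∫ x, w x * ⟪∇ r₁ x - ∇ r₂ x, ∇ ζ x⟫ =
        ∫ x in tsupport ζ, w x * ⟪∇ r₁ x - ∇ r₂ x, ∇ ζ x⟫ :=
      (setIntegral_eq_integral_of_forall_compl_eq_zero fun x hx => hz x hx).symm
    rw [h3, ← Real.norm_eq_abs]
    exact norm_setIntegral_le_of_norm_le_const hc.measure_lt_top fun x _ => by
      rw [Real.norm_eq_abs]; exact hcross x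
  rw [abs_le] at e1 e2 hcr
  nlinarith [e1.1, e1.2, e2.1, e2.2, hcr.1, hcr.2, hI]

/-- gradients only depend on the germ -/
theorem grad_congr_open {V : Set E} (hV : IsOpen V) {r r' : E → ℝ} (h : EqOn r r' V) {x : E}
    (hx : x ∈ V) : ∇ r x = ∇ r' x := by
  have : r =ᶠ[𝓝 x] r' := by filter_upwards [hV.mem_nhds hx] with y hy using h hy
  exact this.gradient_eq

theorem MassBd.congr {V : Set E} (hV : IsOpen V) {r r' : E → ℝ} {C : ℝ} (h : MassBd V r C)
    (he : EqOn r r' V) : MassBd V r' C := by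
  intro ψ h1 h2 h3 s h4
  have : ∫ x, ⟪∇ r' x, ∇ ψ x⟫ = ∫ x, ⟪∇ r x, ∇ ψ x⟫ := by
    refine integral_congr_ae (Eventually.of_forall fun x => ?_)
    show ⟪∇ r' x, ∇ ψ x⟫ = ⟪∇ r x, ∇ ψ x⟫
    by_cases hx : x ∈ tsupport ψ
    · rw [grad_congr_open hV he (h3 hx)]
    · rw [grad_zero_of_notMem hx, inner_zero_right, inner_zero_right]
  rw [this]
  exact h ψ h1 h2 h3 s h4

/-- Lipschitz cut-off functions -/
structure LCut (V W : Set E) (ζ : E → ℝ) : Prop where
  lip : ∃ L : ℝ≥0, LipschitzWith L ζ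
  nonneg : ∀ x, 0 ≤ ζ x
  le_one : ∀ x, ζ x ≤ 1
  cpt : HasCompactSupport ζ
  sub : tsupport ζ ⊆ V
  one : ∀ x ∈ W, ζ x = 1

theorem exists_lcut {K V : Set E} (hK : IsCompact K) (hV : IsOpen V) (hKV : K ⊆ V) :
    ∃ (ζ : E → ℝ) (W : Set E), IsOpen W ∧ K ⊆ W ∧ W ⊆ V ∧ LCut V W ζ := by
  obtain ⟨δ, hδ, hsub⟩ := hK.exists_cthickening_subset_open hV hKV
  set f : E → ℝ := fun x => max 0 (min 1 (2 - (3 / δ) * infDist x K)) with hf
  by_cases hne : K.Nonempty
  swap
  · rw [not_nonempty_iff_eq_empty] at hne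
    subst hne
    refine ⟨fun _ => 0, ∅, isOpen_empty, subset_rfl, empty_subset _, ⟨⟨0, LipschitzWith.const 0⟩, fun _ => le_rfl,
      fun _ => zero_le_one, HasCompactSupport.zero, ?_, fun x hx => absurd hx (notMem_empty x)⟩⟩
    simp
  have hfL : LipschitzWith (3 / δ).toNNReal f := by
    have h1 : LipschitzWith ((3 / δ).toNNReal) (fun x : E => (2 : ℝ) - (3 / δ) * infDist x K) := by
      refine LipschitzWith.of_dist_le_mul fun x y => ?_
      have h2 := (lipschitz_infDist_pt K).dist_le_mul x y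
      rw [Real.dist_eq] at h2 ⊢
      rw [Real.coe_toNNReal _ (by positivity)]
      have e : (2 : ℝ) - 3 / δ * infDist x K - (2 - 3 / δ * infDist y K) =
          -(3 / δ * (infDist x K - infDist y K)) := by ring
      rw [e, abs_neg, abs_mul, abs_of_pos (by positivity : (0 : ℝ) < 3 / δ)]
      simp only [NNReal.coe_one, one_mul] at h2
      gcongr
    exact (h1.const_min 1).const_max 0
  have hmem : ∀ x : E, infDist x K ≤ δ → x ∈ cthickening δ K := by
    intro x hx
    obtain ⟨y, hy, hxy⟩ := hK.exists_infDist_eq_dist hne x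
    exact mem_cthickening_of_dist_le x y δ K hy (hxy ▸ hx)
  have hsupp : Function.support f ⊆ cthickening δ K := by
    intro x hx
    apply hmem
    by_contra h
    push Not at h
    apply hx
    have h2 : 2 - (3 / δ) * infDist x K ≤ 0 := by
      have : 3 / δ * δ ≤ 3 / δ * infDist x K := by gcongr
      have h3 : 3 / δ * δ = 3 := by field_simp
      linarith
    show max 0 (min 1 (2 - (3 / δ) * infDist x K)) = 0
    rw [max_eq_left ((min_le_right _ _).trans h2)]
  have hcl : tsupport f ⊆ cthickening δ K := closure_minimal hsupp isClosed_cthickening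
  have hcomp : IsCompact (cthickening δ K) := hK.cthickening
  refine ⟨f, {x | infDist x K < δ / 3} , ?_, ?_, ?_, ⟨⟨_, hfL⟩, fun x => le_max_left _ _,
    fun x => max_le zero_le_one (min_le_left _ _),
    HasCompactSupport.intro' hcomp isClosed_cthickening fun x hx => ?_, hcl.trans hsub, ?_⟩⟩
  · exact isOpen_lt (continuous_infDist_pt K) continuous_const
  · intro x hx
    show infDist x K < δ / 3
    rw [infDist_zero_of_mem hx]; positivity
  · intro x hx
    apply hsub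
    have hx' : infDist x K < δ / 3 := hx
    exact hmem x (by linarith)
  · by_contra h
    exact hx (hsupp h)
  · intro x hx
    have hx' : infDist x K < δ / 3 := hx
    have h2 : (1 : ℝ) ≤ 2 - (3 / δ) * infDist x K := by
      have : 3 / δ * infDist x K ≤ 3 / δ * (δ / 3) := by gcongr
      have h3 : 3 / δ * (δ / 3) = 1 := by field_simp
      linarith
    show max 0 (min 1 (2 - (3 / δ) * infDist x K)) = 1
    rw [min_eq_left h2, max_eq_right zero_le_one]

end Crest.Agent.R246.E2x858
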