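import Crest.Agent.R246.E2a_858
import Mathlib.Analysis.Normed.Lp.SmoothApprox
import Mathlib.MeasureTheory.Function.StronglyMeasurable.Inner
import Mathlib.Analysis.Calculus.BumpFunction.FiniteDimension

/-!
Row 246, block E2 (helper858): weak and strong convergence of gradients, along any filter.
-/

set_option autoImplicit false
set_option linter.unusedSectionVars false

namespace Crest.Agent.R246.E2x858

open MeasureTheory Filter Topology Metric Set
open scoped NNReal ENNReal Gradient RealInnerProductSpace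
open Crest.Agent.R246.Flat105

variable {E : Type*} [NormedAddCommGroup E] [InnerProductSpace ℝ E] [FiniteDimensional ℝ E]
  [MeasurableSpace E] [BorelSpace E]

/-- the set where the cut-off is one is inside its support -/
theorem LCut.subset {V W : Set E} {ζ : E → ℝ} (h : LCut V W ζ) : W ⊆ tsupport ζ := fun x hx =>
  subset_tsupport _ (by rw [Function.mem_support, h.one x hx]; exact one_ne_zero)

theorem LCut.meas_lt_top {V W : Set E} {ζ : E → ℝ} (h : LCut V W ζ) : volume W < ∞ :=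
  (measure_mono h.subset).trans_lt h.cpt.measure_lt_top

theorem integrableOn_norm_grad_sub {r ρ : E → ℝ} {M : ℝ≥0} (h1 : ∀ x, ‖∇ r x‖ ≤ M)
    (h2 : ∀ x, ‖∇ ρ x‖ ≤ M) {W : Set E} (hW : volume W < ∞) :
    IntegrableOn (fun x => ‖∇ r x - ∇ ρ x‖) W := by
  refine Measure.integrableOn_of_bounded (M := 2 * M) hW.ne
    (((meas_grad r).sub (meas_grad ρ)).norm.aestronglyMeasurable) ?_
  refine Eventually.of_forall fun x => ?_
  rw [norm_norm]
  exact (norm_sub_le _ _).trans (by linarith [h1 x, h2 x])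

theorem integrableOn_grad {r : E → ℝ} {M : ℝ≥0} (h1 : ∀ x, ‖∇ r x‖ ≤ M)
    {W : Set E} (hW : volume W < ∞) : IntegrableOn (fun x => ∇ r x) W :=
  Measure.integrableOn_of_bounded (M := M) hW.ne ((meas_grad r).aestronglyMeasurable)
    (Eventually.of_forall fun x => h1 x)

/-- the quantitative `L¹` estimate -/
theorem L1_est {V W : Set E} (hW : MeasurableSet W) {r₁ r₂ ζ : E → ℝ} {M L : ℝ≥0} {C s δ : ℝ}
    (h1 : LipschitzWith M r₁) (h2 : LipschitzWith M r₂) (m1 : MassBd V r₁ C) (m2 : MassBd V r₂ C)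
    (hζ : LCut V W ζ) (hL : LipschitzWith L ζ) (hs0 : 0 ≤ s)
    (hsup : ∀ x ∈ tsupport ζ, |r₁ x - r₂ x| ≤ s) (hδ : 0 < δ) :
    ∫ x in W, ‖∇ r₁ x - ∇ r₂ x‖ ≤ δ * (volume W).toReal +
      δ⁻¹ * (s * (2 * C + 2 * M * L * (volume (tsupport ζ)).toReal)) := by
  have h3 := cauchy_est h1 h2 m1 m2 hL hζ.nonneg hζ.le_one hζ.cpt hζ.sub hs0 hsup
  have hbd : ∀ x, ‖∇ r₁ x - ∇ r₂ x‖ ≤ 2 * M := fun x =>
    (norm_sub_le _ _).trans (by linarith [norm_grad_le h1 x, norm_grad_le h2 x])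
  have hm := ((meas_grad r₁).sub (meas_grad r₂)).norm
  have i2 : IntegrableOn (fun x => ‖∇ r₁ x - ∇ r₂ x‖ ^ 2) W := by
    refine Measure.integrableOn_of_bounded (M := (2 * M) ^ 2) hζ.meas_lt_top.ne
      (hm.pow_const 2).aestronglyMeasurable (Eventually.of_forall fun x => ?_)
    rw [norm_pow, norm_norm]
    gcongr
    exact hbd x
  have i4 : Integrable (fun x => ζ x * ‖∇ r₁ x - ∇ r₂ x‖ ^ 2) := by
    refine integrable_of_bdd_supp (C := (2 * M) ^ 2)
      ((hL.continuous.measurable.mul (hm.pow_const 2)).aestronglyMeasurable) ?_ hζ.cpt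
      (fun x hx => by rw [image_eq_zero_of_notMem_tsupport hx, zero_mul])
    intro x
    rw [abs_of_nonneg (mul_nonneg (hζ.nonneg x) (by positivity))]
    calc ζ x * ‖∇ r₁ x - ∇ r₂ x‖ ^ 2 ≤ 1 * (2 * M) ^ 2 := by
          gcongr
          · exact hζ.le_one x
          · exact hbd x
      _ = _ := one_mul _
  have h4 : ∫ x in W, ‖∇ r₁ x - ∇ r₂ x‖ ^ 2 ≤ ∫ x, ζ x * ‖∇ r₁ x - ∇ r₂ x‖ ^ 2 := by
    calc ∫ x in W, ‖∇ r₁ x - ∇ r₂ x‖ ^ 2
        = ∫ x in W, ζ x * ‖∇ r₁ x - ∇ r₂ x‖ ^ 2 :=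
          setIntegral_congr_fun hW fun x hx => by simp only [hζ.one x hx, one_mul]
      _ ≤ _ := setIntegral_le_integral i4
          (Eventually.of_forall fun x => mul_nonneg (hζ.nonneg x) (by positivity))
  have ic : Integrable (fun _ : E => δ) (volume.restrict W) :=
    integrableOn_const hζ.meas_lt_top.ne
  calc ∫ x in W, ‖∇ r₁ x - ∇ r₂ x‖
      ≤ ∫ x in W, (δ + δ⁻¹ * ‖∇ r₁ x - ∇ r₂ x‖ ^ 2) := by
        refine integral_mono (integrableOn_norm_grad_sub (norm_grad_le h1) (norm_grad_le h2)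
          hζ.meas_lt_top) (ic.add (i2.const_mul _))
          fun x => ?_
        show ‖∇ r₁ x - ∇ r₂ x‖ ≤ δ + δ⁻¹ * ‖∇ r₁ x - ∇ r₂ x‖ ^ 2
        set a := ‖∇ r₁ x - ∇ r₂ x‖ with ha
        have ha0 : 0 ≤ a := norm_nonneg _
        rw [← sub_nonneg]
        have : δ + δ⁻¹ * a ^ 2 - a = δ⁻¹ * ((a - δ / 2) ^ 2 + 3 / 4 * δ ^ 2) := by
          field_simp; ring
        rw [this]; positivity
    _ = δ * (volume W).toReal + δ⁻¹ * ∫ x in W, ‖∇ r₁ x - ∇ r₂ x‖ ^ 2 := by
        rw [integral_add ic (i2.const_mul _),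
          integral_const_mul]
        simp [mul_comm, Measure.real]
    _ ≤ _ := by
        gcongr
        exact h4.trans h3

theorem MassBd.nonneg {V : Set E} {r : E → ℝ} {C : ℝ} (h : MassBd V r C) : 0 ≤ C := by
  have := h (fun _ => 0) ⟨0, LipschitzWith.const 0⟩ HasCompactSupport.zero (by simp) 1
    (fun x => by simp)
  rw [mul_one] at this
  exact (abs_nonneg _).trans this

/-! ### weak convergence -/

section weak

variable {ι : Type*} {F : Filter ι}

theorem integrable_mul_grad {g q : E → ℝ} {D : ℝ≥0} (hg : LipschitzWith D g)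
    (hgc : HasCompactSupport g) (hq : Continuous q) (w : E) :
    Integrable fun x => ⟪∇ g x, w⟫ * q x := by
  obtain ⟨B', hB'⟩ := (hgc.isCompact.image hq.norm).bddAbove
  refine integrable_of_bdd_supp (C := D * ‖w‖ * |B'|)
    (((meas_grad g).inner measurable_const).mul hq.measurable).aestronglyMeasurable
    ?_ hgc (fun x hx => by rw [grad_zero_of_notMem hx, inner_zero_left, zero_mul])
  intro x
  by_cases hx : x ∈ tsupport g
  · rw [abs_mul]
    refine mul_le_mul ((abs_real_inner_le_norm _ _).trans ?_)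
      ((hB' (mem_image_of_mem _ hx)).trans (le_abs_self _)) (abs_nonneg _) (by positivity)
    gcongr; exact norm_grad_le hg x
  · rw [grad_zero_of_notMem hx, inner_zero_left, zero_mul, abs_zero]; positivity

/-- weak convergence against a fixed direction and a Lipschitz weight -/
theorem tendsto_weak_dir {w : ι → E → ℝ} {ρ g : E → ℝ} {M D : ℝ≥0}
    (hw : ∀ᶠ i in F, LipschitzWith M (w i)) (hρ : LipschitzWith M ρ)
    (hg : LipschitzWith D g) (hgc : HasCompactSupport g)
    (hu : TendstoUniformlyOn w ρ F (tsupport g)) (v : E) :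
    Tendsto (fun i => ∫ x, ⟪∇ (w i) x, v⟫ * g x) F (𝓝 (∫ x, ⟪∇ ρ x, v⟫ * g x)) := by
  rw [Metric.tendsto_nhds]
  intro δ hδ
  set A : ℝ := D * ‖v‖ * (volume (tsupport g)).toReal + 1 with hA'
  have hA0 : 0 < A := by positivity
  filter_upwards [hw, Metric.tendstoUniformlyOn_iff.1 hu (δ / A) (by positivity)] with i hi hk
  rw [ibp hi hg hgc v, ibp hρ hg hgc v, Real.dist_eq]
  have e : -(∫ x, ⟪∇ g x, v⟫ * w i x) - -(∫ x, ⟪∇ g x, v⟫ * ρ x) =
      -∫ x, ⟪∇ g x, v⟫ * (w i x - ρ x) := by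
    have : ∫ x, ⟪∇ g x, v⟫ * (w i x - ρ x) =
        (∫ x, ⟪∇ g x, v⟫ * w i x) - ∫ x, ⟪∇ g x, v⟫ * ρ x := by
      rw [← integral_sub (integrable_mul_grad hg hgc hi.continuous v)
        (integrable_mul_grad hg hgc hρ.continuous v)]
      refine integral_congr_ae (Eventually.of_forall fun x => ?_)
      show ⟪∇ g x, v⟫ * (w i x - ρ x) = ⟪∇ g x, v⟫ * w i x - ⟪∇ g x, v⟫ * ρ x
      ring
    rw [this]; ring
  rw [e, abs_neg]
  have h5 : ∫ x, ⟪∇ g x, v⟫ * (w i x - ρ x) = ∫ x in tsupport g, ⟪∇ g x, v⟫ * (w i x - ρ x) :=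
    (setIntegral_eq_integral_of_forall_compl_eq_zero fun x hx => by
      rw [grad_zero_of_notMem hx, inner_zero_left, zero_mul]).symm
  rw [h5]
  have h6 : ‖∫ x in tsupport g, ⟪∇ g x, v⟫ * (w i x - ρ x)‖ ≤
      (D * ‖v‖ * (δ / A)) * (volume (tsupport g)).toReal := by
    refine norm_setIntegral_le_of_norm_le_const hgc.measure_lt_top fun x hx => ?_
    rw [Real.norm_eq_abs, abs_mul]
    have h7 := hk x hx
    rw [dist_comm, Real.dist_eq] at h7
    refine mul_le_mul ((abs_real_inner_le_norm _ _).trans ?_) h7.le (abs_nonneg _) (by positivity)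
    gcongr; exact norm_grad_le hg x
  rw [Real.norm_eq_abs] at h6
  refine h6.trans_lt ?_
  have e : D * ‖v‖ * (δ / A) * (volume (tsupport g)).toReal = δ * ((A - 1) / A) := by
    rw [hA']; field_simp; ring
  rw [e]
  have : (A - 1) / A < 1 := by rw [div_lt_one hA0]; linarith
  nlinarith

/-- weak convergence against smooth vector fields with compact support -/
theorem tendsto_weak_smooth {w : ι → E → ℝ} {ρ : E → ℝ} {M : ℝ≥0} {G : E → E}
    (hw : ∀ᶠ i in F, LipschitzWith M (w i)) (hρ : LipschitzWith M ρ)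
    (hG : ContDiff ℝ 1 G) (hGc : HasCompactSupport G)
    (hu : TendstoUniformlyOn w ρ F (tsupport G)) :
    Tendsto (fun i => ∫ x, ⟪∇ (w i) x, G x⟫) F (𝓝 (∫ x, ⟪∇ ρ x, G x⟫)) := by
  set b := stdOrthonormalBasis ℝ E
  have hc : ∀ j, ContDiff ℝ 1 fun x => ⟪b j, G x⟫ := fun j => contDiff_const.inner ℝ hG
  have hs : ∀ j, tsupport (fun x => ⟪b j, G x⟫) ⊆ tsupport G := fun j =>
    closure_mono fun x hx => by
      rw [Function.mem_support] at hx ⊢
      exact fun h => hx (by rw [h, inner_zero_right])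
  have hcs : ∀ j, HasCompactSupport fun x => ⟪b j, G x⟫ := fun j =>
    hGc.of_isClosed_subset (isClosed_tsupport _) (hs j)
  have hL : ∀ j, ∃ D : ℝ≥0, LipschitzWith D fun x => ⟪b j, G x⟫ := fun j =>
    (hc j).lipschitzWith_of_hasCompactSupport (hcs j) (by simp)
  have key : ∀ q : E → ℝ, LipschitzWith M q →
      ∫ x, ⟪∇ q x, G x⟫ = ∑ j, ∫ x, ⟪∇ q x, b j⟫ * ⟪b j, G x⟫ := by
    intro q hq
    rw [← integral_finsetSum]
    · refine integral_congr_ae (Eventually.of_forall fun x => ?_)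
      exact (b.sum_inner_mul_inner _ _).symm
    · intro j _
      obtain ⟨D, hD⟩ := hL j
      obtain ⟨B, hB⟩ := hD.continuous.bounded_above_of_compact_support (hcs j)
      refine integrable_of_bdd_supp (C := M * B)
        (((meas_grad q).inner measurable_const).mul hD.continuous.measurable).aestronglyMeasurable
        ?_ (hcs j) (fun x hx => by
          have := image_eq_zero_of_notMem_tsupport hx
          show ⟪∇ q x, b j⟫ * ⟪b j, G x⟫ = 0
          rw [show ⟪b j, G x⟫ = 0 from this, mul_zero])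
      intro x
      rw [abs_mul]
      refine mul_le_mul ((abs_real_inner_le_norm _ _).trans ?_) (hB x) (abs_nonneg _) (by positivity)
      rw [b.orthonormal.1 j, mul_one]
      exact norm_grad_le hq x
  rw [key ρ hρ]
  have h1 : Tendsto (fun i => ∑ j, ∫ x, ⟪∇ (w i) x, b j⟫ * ⟪b j, G x⟫) F
      (𝓝 (∑ j, ∫ x, ⟪∇ ρ x, b j⟫ * ⟪b j, G x⟫)) := by
    refine tendsto_finsetSum _ fun j _ => ?_
    obtain ⟨D, hD⟩ := hL j
    exact tendsto_weak_dir hw hρ hD (hcs j) (hu.mono (hs j)) (b j)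
  refine h1.congr' ?_
  filter_upwards [hw] with i hi
  exact (key _ hi).symm

/-- **weak convergence of gradients** against integrable vector fields supported in a compact set. -/
theorem tendsto_weak {w : ι → E → ℝ} {ρ : E → ℝ} {M : ℝ≥0} {U K : Set E} {v : E → E}
    (hw : ∀ᶠ i in F, LipschitzWith M (w i)) (hρ : LipschitzWith M ρ)
    (hU : IsOpen U) (hK : IsCompact K) (hKU : K ⊆ U) (hv : Integrable v)
    (hv0 : ∀ x ∉ K, v x = 0) (hu : ∀ K' ⊆ U, IsCompact K' → TendstoUniformlyOn w ρ F K') :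
    Tendsto (fun i => ∫ x, ⟪∇ (w i) x, v x⟫) F (𝓝 (∫ x, ⟪∇ ρ x, v x⟫)) := by
  rw [Metric.tendsto_nhds]
  intro δ hδ
  -- approximate `v`
  set δ' : ℝ := δ / (4 * (M + 1)) with hδ'
  have hδ'0 : 0 < δ' := by positivity
  obtain ⟨G₀, hG₀c, hG₀, hG₀v⟩ := MemLp.exist_eLpNorm_sub_le (μ := (volume : Measure E)) (p := 1)
    (by simp) le_rfl (memLp_one_iff_integrable.2 hv) hδ'0
  obtain ⟨V, hV, hKV, hVU, hVc⟩ := exists_open_between_and_isCompact_closure hK hU hKU
  obtain ⟨χ, hχ1, hχs, hχr, hχK⟩ : ∃ χ : E → ℝ, ContDiff ℝ 1 χ ∧ tsupport χ ⊆ closure V ∧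
      (∀ x, χ x ∈ Icc (0 : ℝ) 1) ∧ ∀ x ∈ K, χ x = 1 := by
    obtain ⟨V', hV', hKV', hV'V, -⟩ := exists_open_between_and_isCompact_closure hK hV hKV
    obtain ⟨f, hf1, hf2, hf3⟩ := exists_contMDiffMap_zero_one_of_isClosed
      (modelWithCornersSelf ℝ E) (n := 1) (s := V'ᶜ) (t := K) hV'.isClosed_compl hK.isClosed
      (disjoint_compl_left_iff_subset.2 hKV')
    refine ⟨f, f.contMDiff.contDiff, ?_, hf3, fun x hx => hf2 hx⟩
    have : Function.support f ⊆ V' := fun x hx => by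
      by_contra h
      exact hx (hf1 h)
    exact (closure_mono this).trans (hV'V.trans subset_closure)
  have hχc : HasCompactSupport χ := hVc.of_isClosed_subset (isClosed_tsupport _) hχs
  set G : E → E := fun x => χ x • G₀ x with hG
  have hGd : ContDiff ℝ 1 G := hχ1.smul (hG₀.of_le (by exact_mod_cast le_top))
  have hGc : HasCompactSupport G := hχc.smul_right
  have hGs : tsupport G ⊆ U := (tsupport_smul_subset_left _ _).trans (hχs.trans hVU)
  have hiG : Integrable G := hGd.continuous.integrable_of_hasCompactSupport hGc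
  have hiG₀ : Integrable G₀ := hG₀.continuous.integrable_of_hasCompactSupport hG₀c
  have hvG : ∫ x, ‖v x - G x‖ ≤ δ' := by
    have h1 : ∫ x, ‖v x - G₀ x‖ ≤ δ' := by
      have e := integral_norm_eq_lintegral_enorm (hv.sub hiG₀).aestronglyMeasurable
      simp only [Pi.sub_apply] at e
      rw [e]
      refine ENNReal.toReal_le_of_le_ofReal hδ'0.le ?_
      rw [eLpNorm_one_eq_lintegral_enorm] at hG₀v
      exact hG₀v
    refine le_trans (integral_mono (hv.sub hiG).norm (hv.sub hiG₀).norm fun x => ?_) h1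
    show ‖v x - G x‖ ≤ ‖v x - G₀ x‖
    have : v x - G x = χ x • (v x - G₀ x) := by
      by_cases hx : x ∈ K
      · rw [hG]; simp only [hχK x hx, one_smul]
      · rw [hG, smul_sub]; simp only [hv0 x hx, smul_zero]
    rw [this, norm_smul, Real.norm_eq_abs, abs_of_nonneg (hχr x).1]
    exact mul_le_of_le_one_left (norm_nonneg _) (hχr x).2
  have herr : ∀ q : E → ℝ, LipschitzWith M q →
      |(∫ x, ⟪∇ q x, v x⟫) - ∫ x, ⟪∇ q x, G x⟫| ≤ M * δ' := by
    intro q hq
    have hint : ∀ H : E → E, Integrable H → Integrable fun x => ⟪∇ q x, H x⟫ := by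
      intro H hH
      refine (hH.norm.const_mul (M : ℝ)).mono
        (AEStronglyMeasurable.inner (𝕜 := ℝ) (meas_grad q).aestronglyMeasurable
          hH.aestronglyMeasurable)
        (Eventually.of_forall fun x => ?_)
      rw [Real.norm_eq_abs, Real.norm_eq_abs, abs_of_nonneg (by positivity : 0 ≤ (M : ℝ) * ‖H x‖)]
      exact (abs_real_inner_le_norm _ _).trans (by gcongr; exact norm_grad_le hq x)
    rw [← integral_sub (hint _ hv) (hint _ hiG)]
    calc |∫ x, (⟪∇ q x, v x⟫ - ⟪∇ q x, G x⟫)|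
        ≤ ∫ x, M * ‖v x - G x‖ := by
          rw [← Real.norm_eq_abs]
          refine norm_integral_le_of_norm_le ((hv.sub hiG).norm.const_mul _)
            (Eventually.of_forall fun x => ?_)
          rw [← inner_sub_right, Real.norm_eq_abs]
          exact (abs_real_inner_le_norm _ _).trans (by gcongr; exact norm_grad_le hq x)
      _ ≤ M * δ' := by rw [integral_const_mul]; gcongr
  have hMδ : (M : ℝ) * δ' ≤ δ / 4 := by
    rw [hδ', mul_div_assoc', div_le_div_iff₀ (by positivity) (by norm_num)]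
    nlinarith [M.coe_nonneg]
  have h2 := Metric.tendsto_nhds.1 (tendsto_weak_smooth hw hρ hGd hGc (hu _ hGs hGc)) (δ / 4)
    (by positivity)
  filter_upwards [hw, h2] with i hi h3
  rw [Real.dist_eq] at h3 ⊢
  have e1 := herr _ hi
  have e2 := herr _ hρ
  rw [abs_lt] at h3 ⊢
  rw [abs_le] at e1 e2
  constructor <;> linarith [e1.1, e1.2, e2.1, e2.2, h3.1, h3.2]

/-- the mass bound passes to the limit -/
theorem MassBd.of_tendsto [F.NeBot] {w : ι → E → ℝ} {ρ : E → ℝ} {M : ℝ≥0} {U : Set E} {C : ℝ}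
    (hw : ∀ᶠ i in F, LipschitzWith M (w i)) (hρ : LipschitzWith M ρ)
    (hU : IsOpen U) (hm : ∀ᶠ i in F, MassBd U (w i) C)
    (hu : ∀ K' ⊆ U, IsCompact K' → TendstoUniformlyOn w ρ F K') : MassBd U ρ C := by
  intro ψ hL hc hs s h
  obtain ⟨L, hL'⟩ := hL
  have hint : Integrable (∇ ψ) := by
    have h1 : IntegrableOn (∇ ψ) (tsupport ψ) :=
      integrableOn_grad (fun x => norm_grad_le hL' x) hc.measure_lt_top
    exact h1.integrable_of_forall_notMem_eq_zero (fun x hx => grad_zero_of_notMem hx)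
  have ht := tendsto_weak (v := ∇ ψ) hw hρ hU hc hs hint
    (fun x hx => grad_zero_of_notMem hx) hu
  refine le_of_tendsto ht.abs ?_
  filter_upwards [hm] with i hi
  exact hi ψ ⟨L, hL'⟩ hc hs s h

/-- **Strong `L¹` convergence of the gradients.** -/
theorem tendsto_L1 [F.NeBot] {V W : Set E} (hV : IsOpen V) (hW : MeasurableSet W)
    {r : ι → E → ℝ} {ρ ζ : E → ℝ}
    {M : ℝ≥0} {C : ℝ} (hL : ∀ᶠ k in F, LipschitzWith M (r k)) (hρ : LipschitzWith M ρ)
    (hm : ∀ᶠ k in F, MassBd V (r k) C) (hζ : LCut V W ζ)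
    (hu : ∀ K' ⊆ V, IsCompact K' → TendstoUniformlyOn r ρ F K') :
    Tendsto (fun k => ∫ x in W, ‖∇ (r k) x - ∇ ρ x‖) F (𝓝 0) := by
  have hmρ := MassBd.of_tendsto hL hρ hV hm hu
  obtain ⟨L, hLζ⟩ := hζ.lip
  have hC : 0 ≤ C := hmρ.nonneg
  set Q : ℝ := 2 * C + 2 * M * L * (volume (tsupport ζ)).toReal with hQ
  have hQ0 : 0 ≤ Q := by positivity
  set v : ℝ := (volume W).toReal with hv
  have hv0 : 0 ≤ v := ENNReal.toReal_nonneg
  rw [Metric.tendsto_nhds]
  intro δ hδ
  set δ' : ℝ := δ / (2 * (v + 1)) with hδ'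
  have hδ'0 : 0 < δ' := by positivity
  set s : ℝ := δ * δ' / (4 * (Q + 1)) with hs
  have hs0 : 0 < s := by positivity
  filter_upwards [hL, hm, Metric.tendstoUniformlyOn_iff.1 (hu _ hζ.sub hζ.cpt) s hs0]
    with k h1 h2 h3
  have hsup : ∀ x ∈ tsupport ζ, |r k x - ρ x| ≤ s := by
    intro x hx
    have h4 := h3 x hx
    rw [dist_comm, Real.dist_eq] at h4
    exact h4.le
  have h3 := L1_est hW h1 hρ h2 hmρ hζ hLζ hs0.le hsup hδ'0
  rw [← hQ, ← hv] at h3
  have h4 : δ' * v ≤ δ / 2 := by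
    rw [hδ', div_mul_eq_mul_div, div_le_div_iff₀ (by positivity) (by norm_num)]
    nlinarith
  have h5 : δ'⁻¹ * (s * Q) ≤ δ / 4 := by
    have e : δ'⁻¹ * (s * Q) = δ * Q / (4 * (Q + 1)) := by
      rw [hs]; field_simp
    rw [e, div_le_div_iff₀ (by positivity) (by norm_num)]
    nlinarith
  have h0 : 0 ≤ ∫ x in W, ‖∇ (r k) x - ∇ ρ x‖ := integral_nonneg fun x => norm_nonneg _
  rw [Real.dist_eq, sub_zero, abs_of_nonneg h0]
  linarith

end weak

end Crest.Agent.R246.E2x858
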