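import Crest.Agent.R246.E2b_858

/-!
Row 246, block E2 (helper858): locally uniformly convergent families with locally bounded gradients
and locally bounded mass of the Laplacian: strong convergence of the gradients, along any filter.
-/

set_option autoImplicit false
set_option linter.unusedSectionVars false

namespace Crest.Agent.R246.E2x858

open MeasureTheory Filter Topology Metric Set
open scoped NNReal ENNReal Gradient RealInnerProductSpace
open Crest.Agent.R246.Flat105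

variable {E : Type*} [NormedAddCommGroup E] [InnerProductSpace ℝ E] [FiniteDimensional ℝ E]
  [MeasurableSpace E] [BorelSpace E] {ι : Type*}

/-- a family of functions, differentiable with bounded gradients and bounded Laplacian mass near
compact subsets of `U`, converging locally uniformly to `ρ` -/
structure LocSeq (F : Filter ι) (U : Set E) (r : ι → E → ℝ) (ρ : E → ℝ) : Prop where
  isOpen : IsOpen U
  bd : ∀ K ⊆ U, IsCompact K → ∃ M C : ℝ, ∀ᶠ i in F,
    (∀ x ∈ K, DifferentiableAt ℝ (r i) x ∧ ‖∇ (r i) x‖ ≤ M) ∧ MassBd (interior K) (r i) C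
  conv : ∀ K ⊆ U, IsCompact K → TendstoUniformlyOn r ρ F K

/-- smooth cut-off -/
theorem exists_smooth_cut {K U : Set E} (hK : IsCompact K) (hU : IsOpen U) (hKU : K ⊆ U) :
    ∃ (χ : E → ℝ) (V : Set E), IsOpen V ∧ K ⊆ V ∧ V ⊆ U ∧ ContDiff ℝ 1 χ ∧ HasCompactSupport χ ∧
      tsupport χ ⊆ U ∧ (∀ x, χ x ∈ Icc (0 : ℝ) 1) ∧ ∀ x ∈ V, χ x = 1 := by
  obtain ⟨V, hV, hKV, hVU, hVc⟩ := exists_open_between_and_isCompact_closure hK hU hKU
  obtain ⟨V₁, hV₁, hVV₁, hV₁U, hV₁c⟩ := exists_open_between_and_isCompact_closure hVc hU hVU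
  obtain ⟨f, hf1, hf2, hf3⟩ := exists_contMDiffMap_zero_one_of_isClosed
    (modelWithCornersSelf ℝ E) (n := 1) (s := V₁ᶜ) (t := closure V) hV₁.isClosed_compl
    isClosed_closure (disjoint_compl_left_iff_subset.2 hVV₁)
  have hs : tsupport f ⊆ closure V₁ := by
    refine closure_mono fun x hx => ?_
    by_contra h
    exact hx (hf1 h)
  exact ⟨f, V, hV, hKV, subset_closure.trans hVU, f.contMDiff.contDiff,
    hV₁c.of_isClosed_subset (isClosed_tsupport _) hs, hs.trans hV₁U, hf3,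
    fun x hx => hf2 (subset_closure hx)⟩

variable {F : Filter ι} {U : Set E} {r : ι → E → ℝ} {ρ : E → ℝ}

theorem LocSeq.mono {G : Filter ι} (H : LocSeq F U r ρ) (h : G ≤ F) : LocSeq G U r ρ :=
  ⟨H.isOpen, fun K h1 h2 => by
    obtain ⟨M, C, h3⟩ := H.bd K h1 h2
    exact ⟨M, C, h3.filter_mono h⟩, fun K h1 h2 u hu => (H.conv K h1 h2 u hu).filter_mono h⟩

/-- globalisation: near a compact set the family can be replaced by globally Lipschitz functions -/
theorem LocSeq.glob [F.NeBot] (H : LocSeq F U r ρ) {K : Set E} (hK : IsCompact K) (hKU : K ⊆ U) :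
    ∃ (V : Set E) (r' : ι → E → ℝ) (ρ' : E → ℝ) (M : ℝ≥0) (C : ℝ), IsOpen V ∧ K ⊆ V ∧ V ⊆ U ∧
      (∀ i, EqOn (r' i) (r i) V) ∧ EqOn ρ' ρ V ∧ (∀ᶠ i in F, LipschitzWith M (r' i)) ∧
      LipschitzWith M ρ' ∧ (∀ᶠ i in F, MassBd V (r' i) C) ∧ MassBd V ρ' C ∧
      TendstoUniformly r' ρ' F := by
  obtain ⟨χ, V, hV, hKV, hVU, hχ1, hχc, hχs, hχr, hχV⟩ := exists_smooth_cut hK H.isOpen hKU
  obtain ⟨M₁, C₁, hbd⟩ := H.bd _ hχs hχc
  have hconv := H.conv _ hχs hχc
  obtain ⟨L, hL⟩ : ∃ L : ℝ≥0, LipschitzWith L χ :=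
    hχ1.lipschitzWith_of_hasCompactSupport hχc (by simp)
  -- the limit is bounded on the support
  have hρc : ContinuousOn ρ (tsupport χ) := by
    refine hconv.continuousOn (Eventually.frequently ?_)
    filter_upwards [hbd] with i hi x hx
    exact (hi.1 x hx).1.continuousAt.continuousWithinAt
  obtain ⟨B, hB⟩ := (IsCompact.image_of_continuousOn hχc hρc.norm).bddAbove
  have hB' : ∀ x ∈ tsupport χ, |ρ x| ≤ |B| := fun x hx =>
    (hB (mem_image_of_mem _ hx)).trans (le_abs_self B)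
  have hrB : ∀ᶠ i in F, ∀ x ∈ tsupport χ, |r i x| ≤ |B| + 1 := by
    filter_upwards [Metric.tendstoUniformlyOn_iff.1 hconv 1 one_pos] with i hi x hx
    have h1 := hi x hx
    rw [Real.dist_eq] at h1
    have h2 := hB' x hx
    have h3 : |r i x| ≤ |ρ x| + |ρ x - r i x| := by
      have := abs_sub_abs_le_abs_sub (r i x) (ρ x)
      rw [abs_sub_comm] at this
      linarith
    linarith
  set M : ℝ≥0 := ⟨(|B| + 1) * L + |M₁|, by positivity⟩ with hM
  have hdiff : ∀ᶠ i in F, LipschitzWith M (fun x => χ x * r i x) := by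
    filter_upwards [hbd, hrB] with i hi hBi
    refine lipschitzWith_of_nnnorm_fderiv_le (𝕜 := ℝ) ?_ ?_
    · intro x
      by_cases hx : x ∈ tsupport χ
      · exact (hχ1.differentiable one_ne_zero x).mul (hi.1 x hx).1
      · have h0 : (fun x => χ x * r i x) =ᶠ[𝓝 x] fun _ => 0 := by
          filter_upwards [notMem_tsupport_iff_eventuallyEq.1 hx] with y hy
          rw [hy, Pi.zero_apply, zero_mul]
        exact h0.differentiableAt_iff.2 (differentiableAt_const _)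
    · intro x
      rw [← NNReal.coe_le_coe, coe_nnnorm]
      show ‖fderiv ℝ (fun x => χ x * r i x) x‖ ≤ (|B| + 1) * L + |M₁|
      by_cases hx : x ∈ tsupport χ
      · rw [fderiv_fun_mul (hχ1.differentiable one_ne_zero x) (hi.1 x hx).1]
        have h1 : ‖χ x • fderiv ℝ (r i) x‖ ≤ |M₁| := by
          rw [norm_smul, Real.norm_eq_abs, abs_of_nonneg (hχr x).1, ← norm_grad]
          calc χ x * ‖∇ (r i) x‖ ≤ 1 * |M₁| := by
                gcongr
                · exact (hχr x).2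
                · exact (hi.1 x hx).2.trans (le_abs_self _)
            _ = _ := one_mul _
        have h2 : ‖r i x • fderiv ℝ χ x‖ ≤ (|B| + 1) * L := by
          rw [norm_smul, Real.norm_eq_abs]
          gcongr
          · exact hBi x hx
          · exact norm_fderiv_le_of_lipschitz ℝ hL
        exact (norm_add_le _ _).trans (by linarith)
      · have h0 : (fun x => χ x * r i x) =ᶠ[𝓝 x] fun _ => 0 := by
          filter_upwards [notMem_tsupport_iff_eventuallyEq.1 hx] with y hy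
          rw [hy, Pi.zero_apply, zero_mul]
        rw [h0.fderiv_eq]
        simp only [fderiv_fun_const, Pi.zero_apply, norm_zero]
        positivity
  have hunif : TendstoUniformly (fun i x => χ x * r i x) (fun x => χ x * ρ x) F := by
    rw [Metric.tendstoUniformly_iff]
    intro δ hδ
    filter_upwards [Metric.tendstoUniformlyOn_iff.1 hconv δ hδ] with i hi x
    rw [Real.dist_eq, ← mul_sub, abs_mul, abs_of_nonneg (hχr x).1]
    by_cases hx : x ∈ tsupport χ
    · have h1 := hi x hx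
      rw [Real.dist_eq] at h1
      calc χ x * |ρ x - r i x| ≤ 1 * |ρ x - r i x| := by
            gcongr; exact (hχr x).2
        _ < δ := by rwa [one_mul]
    · rw [image_eq_zero_of_notMem_tsupport hx, zero_mul]; exact hδ
  have hρL : LipschitzWith M (fun x => χ x * ρ x) := by
    apply LipschitzWith.of_dist_le_mul
    intro x y
    have h1 : Tendsto (fun i => dist (χ x * r i x) (χ y * r i y)) F
        (𝓝 (dist (χ x * ρ x) (χ y * ρ y))) :=
      (hunif.tendsto_at x).dist (hunif.tendsto_at y)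
    refine le_of_tendsto h1 ?_
    filter_upwards [hdiff] with i hi
    exact hi.dist_le_mul x y
  have hVint : V ⊆ interior (tsupport χ) := by
    refine interior_maximal (fun x hx => subset_tsupport _ ?_) hV
    rw [Function.mem_support, hχV x hx]; exact one_ne_zero
  have heq : ∀ i, EqOn (fun x => χ x * r i x) (r i) V := fun i x hx => by
    simp only [hχV x hx, one_mul]
  have hmass : ∀ᶠ i in F, MassBd V (fun x => χ x * r i x) C₁ := by
    filter_upwards [hbd] with i hi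
    exact (hi.2.mono hVint).congr hV fun x hx => (heq i hx).symm
  refine ⟨V, fun i x => χ x * r i x, fun x => χ x * ρ x, M, C₁, hV, hKV, hVU, heq, fun x hx => by
    simp only [hχV x hx, one_mul], hdiff, hρL, hmass, ?_, hunif⟩
  exact MassBd.of_tendsto hdiff hρL hV hmass fun K' _ _ => hunif.tendstoUniformlyOn

/-- exhaustion of an open set by compact sets -/
theorem exists_exh (hU : IsOpen U) : ∃ K : ℕ → Set E, (∀ n, IsCompact (K n)) ∧ (∀ n, K n ⊆ U) ∧
    Monotone K ∧ U ⊆ ⋃ n, K n := by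
  obtain ⟨T, hT1, hT2, hT3, hT4⟩ := hU.exists_iUnion_isClosed
  refine ⟨fun n => T n ∩ closedBall 0 n, fun n => (isCompact_closedBall _ _).inter_left (hT1 n),
    fun n => inter_subset_left.trans (hT2 n), fun n m h => inter_subset_inter (hT4 h)
    (closedBall_subset_closedBall (by exact_mod_cast h)), fun x hx => ?_⟩
  rw [← hT3] at hx
  obtain ⟨n, hn⟩ := mem_iUnion.1 hx
  obtain ⟨m, hm⟩ := exists_nat_ge ‖x‖
  refine mem_iUnion.2 ⟨max n m, hT4 (le_max_left _ _) hn, ?_⟩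
  rw [mem_closedBall_zero_iff]
  exact hm.trans (by exact_mod_cast le_max_right _ _)

/-- the limit is differentiable almost everywhere in `U` -/
theorem LocSeq.ae_diff [F.NeBot] (H : LocSeq F U r ρ) :
    ∀ᵐ x, x ∈ U → DifferentiableAt ℝ ρ x := by
  obtain ⟨K, hK, hKU, -, hUK⟩ := exists_exh H.isOpen
  have h1 : ∀ n, ∀ᵐ x, x ∈ K n → DifferentiableAt ℝ ρ x := by
    intro n
    obtain ⟨V, r', ρ', M, C, hV, hKV, -, -, he, -, hL, -⟩ := H.glob (hK n) (hKU n)
    filter_upwards [hL.ae_differentiableAt] with x hx hxK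
    exact ((Filter.eventuallyEq_of_mem (hV.mem_nhds (hKV hxK)) he).differentiableAt_iff).1 hx
  filter_upwards [ae_all_iff.2 h1] with x hx hxU
  obtain ⟨n, hn⟩ := mem_iUnion.1 (hUK hxU)
  exact hx n hn

/-- the gradients are bounded on compact sets, uniformly along the filter -/
theorem LocSeq.exists_bd [F.NeBot] (H : LocSeq F U r ρ) {K : Set E} (hK : IsCompact K)
    (hKU : K ⊆ U) : ∃ M : ℝ, 0 ≤ M ∧ (∀ᶠ i in F, ∀ x ∈ K, ‖∇ (r i) x‖ ≤ M) ∧
      ∀ x ∈ K, ‖∇ ρ x‖ ≤ M := by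
  obtain ⟨V, r', ρ', M, C, hV, hKV, -, he', he, hL', hL, -⟩ := H.glob hK hKU
  refine ⟨M, M.coe_nonneg, ?_, fun x hx => ?_⟩
  · filter_upwards [hL'] with i hi x hx
    rw [← grad_congr_open hV (he' i) (hKV hx)]
    exact norm_grad_le hi x
  · rw [← grad_congr_open hV he (hKV hx)]
    exact norm_grad_le hL x

/-- **strong `L¹` convergence of the gradients on compact sets** -/
theorem LocSeq.tendsto_L1 [F.NeBot] (H : LocSeq F U r ρ) {K : Set E} (hK : IsCompact K)
    (hKU : K ⊆ U) : Tendsto (fun i => ∫ x in K, ‖∇ (r i) x - ∇ ρ x‖) F (𝓝 0) := by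
  obtain ⟨V, r', ρ', M, C, hV, hKV, hVU, he', he, hL', hL, hm', hm, hu⟩ := H.glob hK hKU
  obtain ⟨ζ, W, hW, hKW, hWV, hζ⟩ := exists_lcut hK hV hKV
  have h1 := E2x858.tendsto_L1 (F := F) hV hK.measurableSet hL' hL hm'
    (⟨hζ.lip, hζ.nonneg, hζ.le_one, hζ.cpt, hζ.sub, fun x hx => hζ.one x (hKW hx)⟩ : LCut V K ζ)
    fun K' _ _ => hu.tendstoUniformlyOn
  refine h1.congr fun i => ?_
  refine setIntegral_congr_fun hK.measurableSet fun x hx => ?_
  show ‖∇ (r' i) x - ∇ ρ' x‖ = ‖∇ (r i) x - ∇ ρ x‖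
  rw [grad_congr_open hV (he' i) (hKV hx), grad_congr_open hV he (hKV hx)]

theorem integrableOn_of_bd {K : Set E} (hK : IsCompact K) {f : E → ℝ} {B : ℝ}
    (hm : Measurable f) (h : ∀ x ∈ K, |f x| ≤ B) : IntegrableOn f K := by
  refine Measure.integrableOn_of_bounded (M := B) hK.measure_lt_top.ne hm.aestronglyMeasurable ?_
  exact (ae_restrict_iff' hK.measurableSet).2 (Eventually.of_forall fun x hx => h x hx)

/-- strong `L²` convergence -/
theorem LocSeq.tendsto_L2 [F.NeBot] (H : LocSeq F U r ρ) {K : Set E} (hK : IsCompact K)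
    (hKU : K ⊆ U) : Tendsto (fun i => ∫ x in K, ‖∇ (r i) x - ∇ ρ x‖ ^ 2) F (𝓝 0) := by
  obtain ⟨M, hM0, hM, hMρ⟩ := H.exists_bd hK hKU
  have h1 : Tendsto (fun i => 2 * M * ∫ x in K, ‖∇ (r i) x - ∇ ρ x‖) F (𝓝 0) := by
    simpa using (H.tendsto_L1 hK hKU).const_mul (2 * M)
  refine tendsto_of_tendsto_of_tendsto_of_le_of_le' tendsto_const_nhds h1
    (Eventually.of_forall fun i => integral_nonneg fun x => by positivity) ?_
  filter_upwards [hM] with i hi
  have hb : ∀ x ∈ K, ‖∇ (r i) x - ∇ ρ x‖ ≤ 2 * M := fun x hx =>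
    (norm_sub_le _ _).trans (by linarith [hi x hx, hMρ x hx])
  have hmeas := ((meas_grad (r i)).sub (meas_grad ρ)).norm
  rw [← integral_const_mul]
  refine setIntegral_mono_on ?_ ?_ hK.measurableSet fun x hx => ?_
  · refine integrableOn_of_bd (B := (2 * M) ^ 2) hK (hmeas.pow_const 2) fun x hx => ?_
    rw [abs_of_nonneg (by positivity)]
    exact pow_le_pow_left₀ (norm_nonneg _) (hb x hx) 2
  · refine (integrableOn_of_bd (B := 2 * M) hK hmeas fun x hx => ?_).const_mul _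
    rw [Pi.sub_apply, abs_of_nonneg (norm_nonneg _)]
    exact hb x hx
  · rw [sq]
    exact mul_le_mul_of_nonneg_right (hb x hx) (norm_nonneg _)

/-- convergence of integrals `∫ G(x, ∇ r)` for integrands which are Lipschitz in the gradient on
bounded sets -/
theorem LocSeq.tendsto_of_lip [F.NeBot] (H : LocSeq F U r ρ) {K : Set E} (hK : IsCompact K)
    (hKU : K ⊆ U) {G : ι → E → ℝ} {G₀ : E → ℝ}
    (hG : ∀ᶠ i in F, IntegrableOn (G i) K) (hG₀ : IntegrableOn G₀ K) {A : ℝ}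
    (hA : ∀ᶠ i in F, ∀ x ∈ K, |G i x - G₀ x| ≤ A * ‖∇ (r i) x - ∇ ρ x‖) :
    Tendsto (fun i => ∫ x in K, G i x) F (𝓝 (∫ x in K, G₀ x)) := by
  obtain ⟨M, hM0, hM, hMρ⟩ := H.exists_bd hK hKU
  have h1 : Tendsto (fun i => A * ∫ x in K, ‖∇ (r i) x - ∇ ρ x‖) F (𝓝 0) := by
    simpa using (H.tendsto_L1 hK hKU).const_mul A
  rw [tendsto_iff_dist_tendsto_zero]
  refine tendsto_of_tendsto_of_tendsto_of_le_of_le' tendsto_const_nhds h1
    (Eventually.of_forall fun i => dist_nonneg) ?_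
  filter_upwards [hG, hA, hM] with i h2 h3 hi
  rw [Real.dist_eq, ← integral_sub h2 hG₀, ← Real.norm_eq_abs, ← integral_const_mul]
  refine norm_integral_le_of_norm_le ?_ ((ae_restrict_iff' hK.measurableSet).2
    (Eventually.of_forall fun x hx => h3 x hx))
  refine (integrableOn_of_bd (B := 2 * M) hK ((meas_grad (r i)).sub (meas_grad ρ)).norm
    fun x hx => ?_).const_mul _
  rw [Pi.sub_apply, abs_of_nonneg (norm_nonneg _)]
  exact (norm_sub_le _ _).trans (by linarith [hi x hx, hMρ x hx])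

/-- convergence of weighted Dirichlet integrals on compact sets -/
theorem LocSeq.tendsto_sq [F.NeBot] (H : LocSeq F U r ρ) {K : Set E} (hK : IsCompact K)
    (hKU : K ⊆ U) {g : E → ℝ} (hg : Measurable g) {B : ℝ} (hB : ∀ x ∈ K, |g x| ≤ B) :
    Tendsto (fun i => ∫ x in K, g x * ‖∇ (r i) x‖ ^ 2) F (𝓝 (∫ x in K, g x * ‖∇ ρ x‖ ^ 2)) := by
  obtain ⟨M, hM0, hM, hMρ⟩ := H.exists_bd hK hKU
  have hi0 : ∀ q : E → ℝ, (∀ x ∈ K, ‖∇ q x‖ ≤ M) →
      IntegrableOn (fun x => g x * ‖∇ q x‖ ^ 2) K := by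
    intro q hq
    refine integrableOn_of_bd (B := |B| * M ^ 2) hK (hg.mul ((meas_grad q).norm.pow_const 2))
      fun x hx => ?_
    rw [abs_mul, abs_of_nonneg (by positivity : (0 : ℝ) ≤ ‖∇ q x‖ ^ 2)]
    have h1 := hq x hx
    have h2 : |g x| ≤ |B| := (hB x hx).trans (le_abs_self _)
    gcongr
  refine H.tendsto_of_lip hK hKU (A := |B| * (2 * M)) ?_ (hi0 _ hMρ) ?_
  · filter_upwards [hM] with i hi using hi0 _ hi
  · filter_upwards [hM] with i hi x hx
    have h1 := hi x hx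
    have h2 := hMρ x hx
    have h3 : |‖∇ (r i) x‖ - ‖∇ ρ x‖| ≤ ‖∇ (r i) x - ∇ ρ x‖ := abs_norm_sub_norm_le _ _
    have e : g x * ‖∇ (r i) x‖ ^ 2 - g x * ‖∇ ρ x‖ ^ 2 =
        g x * ((‖∇ (r i) x‖ + ‖∇ ρ x‖) * (‖∇ (r i) x‖ - ‖∇ ρ x‖)) := by ring
    rw [e, abs_mul, abs_mul, abs_of_nonneg (by positivity : (0 : ℝ) ≤ ‖∇ (r i) x‖ + ‖∇ ρ x‖),
      mul_assoc]
    have h4 : ‖∇ (r i) x‖ + ‖∇ ρ x‖ ≤ 2 * M := by linarith
    have h5 : |g x| ≤ |B| := (hB x hx).trans (le_abs_self _)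
    gcongr

/-- weak convergence against integrable vector fields with compact support in `U` -/
theorem LocSeq.tendsto_inner [F.NeBot] (H : LocSeq F U r ρ) {K : Set E} (hK : IsCompact K)
    (hKU : K ⊆ U) {v : E → E} (hv : Measurable v) {B : ℝ} (hB : ∀ x ∈ K, ‖v x‖ ≤ B) :
    Tendsto (fun i => ∫ x in K, ⟪∇ (r i) x, v x⟫) F (𝓝 (∫ x in K, ⟪∇ ρ x, v x⟫)) := by
  obtain ⟨M, hM0, hM, hMρ⟩ := H.exists_bd hK hKU
  have hi0 : ∀ q : E → ℝ, (∀ x ∈ K, ‖∇ q x‖ ≤ M) → IntegrableOn (fun x => ⟪∇ q x, v x⟫) K := by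
    intro q hq
    refine integrableOn_of_bd (B := M * |B|) hK ((meas_grad q).inner hv) fun x hx => ?_
    refine (abs_real_inner_le_norm _ _).trans ?_
    have := hq x hx
    gcongr
    exact (hB x hx).trans (le_abs_self _)
  refine H.tendsto_of_lip hK hKU (A := |B|) ?_ (hi0 _ hMρ) ?_
  · filter_upwards [hM] with i hi using hi0 _ hi
  · filter_upwards [hM] with i hi x hx
    rw [← inner_sub_left, mul_comm]
    refine (abs_real_inner_le_norm _ _).trans ?_
    gcongr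
    exact (hB x hx).trans (le_abs_self _)

/-- weak form of the Laplacian passes to the limit -/
theorem LocSeq.tendsto_test [F.NeBot] (H : LocSeq F U r ρ) {ψ : E → ℝ}
    (hL : ∃ L : ℝ≥0, LipschitzWith L ψ) (hc : HasCompactSupport ψ) (hs : tsupport ψ ⊆ U) :
    Tendsto (fun i => ∫ x, ⟪∇ (r i) x, ∇ ψ x⟫) F (𝓝 (∫ x, ⟪∇ ρ x, ∇ ψ x⟫)) := by
  obtain ⟨L, hL⟩ := hL
  have h1 := H.tendsto_inner hc hs (meas_grad ψ) (B := L) fun x _ => norm_grad_le hL x
  have e : ∀ q : E → ℝ, ∫ x in tsupport ψ, ⟪∇ q x, ∇ ψ x⟫ = ∫ x, ⟪∇ q x, ∇ ψ x⟫ := fun q =>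
    setIntegral_eq_integral_of_forall_compl_eq_zero fun x hx => by
      rw [grad_zero_of_notMem hx, inner_zero_right]
  rw [← e ρ]
  exact h1.congr fun i => e (r i)

/-- a subsequence of the gradients converges almost everywhere in `U` -/
theorem LocSeq.exists_ae {r : ℕ → E → ℝ} (H : LocSeq atTop U r ρ) :
    ∃ s : ℕ → ℕ, StrictMono s ∧
      ∀ᵐ x, x ∈ U → Tendsto (fun k => ∇ (r (s k)) x) atTop (𝓝 (∇ ρ x)) := by
  obtain ⟨K, hK, hKU, hmono, hUK⟩ := exists_exh H.isOpen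
  have hev : ∀ n, ∀ᶠ k in atTop, IntegrableOn (fun x => ‖∇ (r k) x - ∇ ρ x‖) (K n) ∧
      ∫ x in K n, ‖∇ (r k) x - ∇ ρ x‖ ≤ (1 / 2) ^ n := by
    intro n
    obtain ⟨M, hM0, hM, hMρ⟩ := H.exists_bd (hK n) (hKU n)
    have h1 : ∀ᶠ k in atTop, ∫ x in K n, ‖∇ (r k) x - ∇ ρ x‖ ≤ (1 / 2) ^ n :=
      (H.tendsto_L1 (hK n) (hKU n)).eventually (Iic_mem_nhds (by positivity))
    filter_upwards [h1, hM] with k h2 h3
    refine ⟨integrableOn_of_bd (B := 2 * M) (hK n) ((meas_grad (r k)).sub (meas_grad ρ)).norm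
      fun x hx => ?_, h2⟩
    rw [abs_of_nonneg (norm_nonneg _)]
    exact (norm_sub_le _ _).trans (by linarith [h3 x hx, hMρ x hx])
  obtain ⟨s, hs, hP⟩ := extraction_forall_of_eventually hev
  refine ⟨s, hs, ?_⟩
  have h1 : ∀ n, ∀ᵐ x, x ∈ K n → Tendsto (fun k => ∇ (r (s k)) x) atTop (𝓝 (∇ ρ x)) := by
    intro n
    rw [← ae_restrict_iff' (hK n).measurableSet]
    have hm : ∀ k, Measurable fun x => ‖∇ (r (s (k + n))) x - ∇ ρ x‖ₑ := fun k =>
      ((meas_grad _).sub (meas_grad ρ)).enorm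
    have h2 : ∫⁻ x in K n, ∑' k, ‖∇ (r (s (k + n))) x - ∇ ρ x‖ₑ ≠ ∞ := by
      rw [lintegral_tsum fun k => (hm k).aemeasurable]
      have h3 : ∀ k, ∫⁻ x in K n, ‖∇ (r (s (k + n))) x - ∇ ρ x‖ₑ ≤ (1 / 2 : ℝ≥0∞) ^ k := by
        intro k
        obtain ⟨h4, h5⟩ := hP (k + n)
        have h6 : ∫⁻ x in K (k + n), ‖∇ (r (s (k + n))) x - ∇ ρ x‖ₑ =
            ENNReal.ofReal (∫ x in K (k + n), ‖∇ (r (s (k + n))) x - ∇ ρ x‖) := by
          rw [ofReal_integral_eq_lintegral_ofReal h4 (Eventually.of_forall fun x => norm_nonneg _)]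
          simp only [ofReal_norm]
        calc ∫⁻ x in K n, ‖∇ (r (s (k + n))) x - ∇ ρ x‖ₑ
            ≤ ∫⁻ x in K (k + n), ‖∇ (r (s (k + n))) x - ∇ ρ x‖ₑ :=
              lintegral_mono_set (hmono (Nat.le_add_left _ _))
          _ ≤ ENNReal.ofReal ((1 / 2) ^ (k + n)) := by rw [h6]; exact ENNReal.ofReal_le_ofReal h5
          _ ≤ ENNReal.ofReal ((1 / 2) ^ k) := by
              refine ENNReal.ofReal_le_ofReal ?_
              exact pow_le_pow_of_le_one (by norm_num) (by norm_num) (Nat.le_add_right _ _)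
          _ = (1 / 2 : ℝ≥0∞) ^ k := by
              rw [ENNReal.ofReal_pow (by norm_num)]
              congr 1
              rw [ENNReal.ofReal_div_of_pos (by norm_num)]
              simp
      refine ne_top_of_le_ne_top ?_ (ENNReal.tsum_le_tsum h3)
      rw [ENNReal.tsum_geometric]
      simp
    have h7 := ae_lt_top (Measurable.tsum hm) h2
    filter_upwards [h7] with x hx
    have h8 : Tendsto (fun k => ‖∇ (r (s (k + n))) x - ∇ ρ x‖ₑ) atTop (𝓝 0) := by
      have := ENNReal.tendsto_atTop_zero_of_tsum_ne_top hx.ne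
      exact this
    have h9 : Tendsto (fun k => ‖∇ (r (s k)) x - ∇ ρ x‖ₑ) atTop (𝓝 0) :=
      (tendsto_add_atTop_iff_nat n).1 h8
    rw [tendsto_iff_norm_sub_tendsto_zero]
    have h10 := (ENNReal.tendsto_toReal ENNReal.zero_ne_top).comp h9
    simpa [Function.comp_def] using h10
  filter_upwards [ae_all_iff.2 h1] with x hx hxU
  obtain ⟨n, hn⟩ := mem_iUnion.1 (hUK hxU)
  exact hx n hn

end Crest.Agent.R246.E2x858
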