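import Crest.Agent.R246.E2c_858
import Crest.Agent.R246.Lim4_538

/-!
Row 246, block E2 (helper858): families of Allen–Cahn solutions (flat weighted form): the gradients
converge strongly and the limit satisfies `|∇ρ|² = h`.
-/

set_option autoImplicit false
set_option linter.unusedSectionVars false

namespace Crest.Agent.R246.E2x858

open MeasureTheory Filter Topology Metric Set
open scoped NNReal ENNReal Gradient RealInnerProductSpace
open Crest.GeometryTopology.CoordMetric Crest.GeometryTopology.AffineMaximal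
open Crest.Agent.R246.Flat105 Crest.Agent.R246.Lim538 Crest.Agent.R246.D2x782

variable {n : ℕ}

local notation "EE" => EuclideanSpace ℝ (Fin n)

/-! ### coordinates -/

theorem inner_grad_basis (f : EE → ℝ) (x : EE) (i : Fin n) :
    ⟪∇ f x, EuclideanSpace.basisFun (Fin n) ℝ i⟫ = pderiv i f x := by
  rw [inner_grad, EuclideanSpace.basisFun_apply]; rfl

theorem dot_eq (f g : EE → ℝ) (x : EE) : dot f g x = ⟪∇ f x, ∇ g x⟫ := by
  rw [← (EuclideanSpace.basisFun (Fin n) ℝ).sum_inner_mul_inner]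
  unfold dot
  refine Finset.sum_congr rfl fun i _ => ?_
  rw [inner_grad_basis, real_inner_comm, inner_grad_basis]

theorem gsq_eq (f : EE → ℝ) (x : EE) : gsq f x = ‖∇ f x‖ ^ 2 := by
  rw [gsq_eq_dot, dot_eq, real_inner_self_eq_norm_sq]

/-- integration by parts of a smooth function against a Lipschitz function with compact support -/
theorem ibp_lip {U : Set EE} (hU : IsOpen U) {r ψ : EE → ℝ} (hr : ContDiffOn ℝ 2 r U)
    (hψ : ∃ L : ℝ≥0, LipschitzWith L ψ) (hc : HasCompactSupport ψ) (hs : tsupport ψ ⊆ U) :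
    ∫ x, ⟪∇ r x, ∇ ψ x⟫ = -∫ x, lapl r x * ψ x := by
  obtain ⟨L, hL⟩ := hψ
  obtain ⟨χ, V, hV, hKV, hVU, hχ1, hχc, hχs, hχr, hχV⟩ := exists_smooth_cut hc hU hs
  have hp : ∀ j, ContDiffOn ℝ 1 (fun x => pderiv j r x) U := fun j => by
    unfold pderiv
    exact (hr.fderiv_of_isOpen hU (by norm_num)).clm_apply contDiffOn_const
  set G : Fin n → EE → ℝ := fun j x => χ x * pderiv j r x with hG
  have hGc : ∀ j, HasCompactSupport (G j) := fun j => hχc.mul_right
  have hG1 : ∀ j, ContDiff ℝ 1 (G j) := by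
    intro j
    rw [contDiff_iff_contDiffAt]
    intro x
    by_cases hx : x ∈ tsupport χ
    · exact hχ1.contDiffAt.mul ((hp j).contDiffAt (hU.mem_nhds (hχs hx)))
    · have h0 : G j =ᶠ[𝓝 x] fun _ => 0 := by
        filter_upwards [notMem_tsupport_iff_eventuallyEq.1 hx] with y hy
        simp only [hG, hy, Pi.zero_apply, zero_mul]
      exact contDiffAt_const.congr_of_eventuallyEq h0
  have hGL : ∀ j, ∃ D : ℝ≥0, LipschitzWith D (G j) := fun j =>
    (hG1 j).lipschitzWith_of_hasCompactSupport (hGc j) (by simp)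
  have key : ∀ j, ∫ x, ⟪∇ (G j) x, EuclideanSpace.basisFun (Fin n) ℝ j⟫ * ψ x =
      -∫ x, ⟪∇ ψ x, EuclideanSpace.basisFun (Fin n) ℝ j⟫ * G j x := by
    intro j
    obtain ⟨D, hD⟩ := hGL j
    exact Flat105.ibp hD hL hc _
  have e1 : ∀ x, ⟪∇ r x, ∇ ψ x⟫ =
      ∑ j, ⟪∇ ψ x, EuclideanSpace.basisFun (Fin n) ℝ j⟫ * G j x := by
    intro x
    by_cases hx : x ∈ tsupport ψ
    · rw [← dot_eq]
      unfold dot
      refine Finset.sum_congr rfl fun j _ => ?_
      rw [inner_grad_basis]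
      simp only [hG, hχV x (hKV hx), one_mul]
      rw [mul_comm]
    · rw [grad_zero_of_notMem hx, inner_zero_right]
      simp
  have e2 : ∀ x, lapl r x * ψ x =
      ∑ j, ⟪∇ (G j) x, EuclideanSpace.basisFun (Fin n) ℝ j⟫ * ψ x := by
    intro x
    by_cases hx : x ∈ tsupport ψ
    · rw [lapl, Finset.sum_mul]
      refine Finset.sum_congr rfl fun j _ => ?_
      rw [hessianMat, grad_congr_open hV (r' := fun x => pderiv j r x)
        (fun y hy => by simp only [hG, hχV y hy, one_mul]) (hKV hx), inner_grad_basis]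
    · rw [image_eq_zero_of_notMem_tsupport hx, mul_zero]
      simp
  have i1 : ∀ j, Integrable fun x => ⟪∇ ψ x, EuclideanSpace.basisFun (Fin n) ℝ j⟫ * G j x := by
    intro j
    exact integrable_mul_grad hL hc (hG1 j).continuous _
  have i2 : ∀ j, Integrable fun x =>
      ⟪∇ (G j) x, EuclideanSpace.basisFun (Fin n) ℝ j⟫ * ψ x := by
    intro j
    obtain ⟨D, hD⟩ := hGL j
    exact integrable_mul_grad hD (hGc j) hL.continuous _
  calc ∫ x, ⟪∇ r x, ∇ ψ x⟫
      = ∫ x, ∑ j, ⟪∇ ψ x, EuclideanSpace.basisFun (Fin n) ℝ j⟫ * G j x :=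
        integral_congr_ae (Eventually.of_forall e1)
    _ = ∑ j, ∫ x, ⟪∇ ψ x, EuclideanSpace.basisFun (Fin n) ℝ j⟫ * G j x :=
        integral_finsetSum _ fun j _ => i1 j
    _ = -∑ j, ∫ x, ⟪∇ (G j) x, EuclideanSpace.basisFun (Fin n) ℝ j⟫ * ψ x := by
        rw [← Finset.sum_neg_distrib]
        refine Finset.sum_congr rfl fun j _ => ?_
        rw [key j, neg_neg]
    _ = -∫ x, ∑ j, ⟪∇ (G j) x, EuclideanSpace.basisFun (Fin n) ℝ j⟫ * ψ x := by
        rw [integral_finsetSum _ fun j _ => i2 j]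
    _ = -∫ x, lapl r x * ψ x := by
        congr 1
        exact (integral_congr_ae (Eventually.of_forall e2)).symm

variable {U W : Set (EuclideanSpace ℝ (Fin n))} {h r : EuclideanSpace ℝ (Fin n) → ℝ} {ε : ℝ}
  {ζ : EuclideanSpace ℝ (Fin n) → ℝ}

/-- the mass bound from a cut-off which is `≥ 1` on `V` -/
theorem massBd_of (H : ACSol W h r ε) (hζ : Cut W ζ) (h0 : ∀ x, 0 ≤ ζ x)
    {V : Set (EuclideanSpace ℝ (Fin n))}
    (hV : ∀ x ∈ V, 1 ≤ ζ x) :
    MassBd V r (7 * (∫ x, qq h r ε x * ζ x) + 2 * ∫ x, |dot r ζ x|) := by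
  intro ψ hL hc hs s hψ
  have hVW : V ⊆ W := fun x hx => by
    by_contra h'
    have := hV x hx
    rw [hζ.zero_out h'] at this
    linarith
  rw [ibp_lip H.isOpen (contDiffOn_infty.1 H.smooth_r 2) hL hc (hs.trans hVW), abs_neg]
  have hs0 : 0 ≤ s := (abs_nonneg _).trans (hψ 0)
  have hm := H.mass hζ h0
  calc |∫ x, lapl r x * ψ x| ≤ ∫ x, s * (|lapl r x| * ζ x) := by
        rw [← Real.norm_eq_abs]
        refine norm_integral_le_of_norm_le ((H.int_abs_lapl hζ).const_mul _)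
          (Eventually.of_forall fun x => ?_)
        rw [Real.norm_eq_abs, abs_mul]
        by_cases hx : x ∈ tsupport ψ
        · have h1 := hV x (hs hx)
          calc |lapl r x| * |ψ x| ≤ |lapl r x| * (s * ζ x) := by
                gcongr
                exact (hψ x).trans (le_mul_of_one_le_right hs0 h1)
            _ = _ := by ring
        · rw [image_eq_zero_of_notMem_tsupport hx, abs_zero, mul_zero]
          have := h0 x
          positivity
    _ = s * ∫ x, |lapl r x| * ζ x := integral_const_mul _ _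
    _ ≤ s * (7 * (∫ x, qq h r ε x * ζ x) + 2 * ∫ x, |dot r ζ x|) := by gcongr
    _ = _ := mul_comm _ _

/-! ### families -/

section fam

variable {ι : Type*}

/-- a family of Allen–Cahn solutions along a filter, with locally bounded energies -/
structure ACSeq (F : Filter ι) (U : Set (EuclideanSpace ℝ (Fin n)))
    (W : ι → Set (EuclideanSpace ℝ (Fin n))) (h r : ι → EuclideanSpace ℝ (Fin n) → ℝ) (ε : ι → ℝ)
    (h₀ ρ : EuclideanSpace ℝ (Fin n) → ℝ) : Prop where
  isOpen : IsOpen U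
  sol : ∀ᶠ i in F, ACSol (W i) (h i) (r i) (ε i)
  dom : ∀ K ⊆ U, IsCompact K → ∀ᶠ i in F, K ⊆ W i
  eps : Tendsto ε F (𝓝 0)
  hconv : ∀ K ⊆ U, IsCompact K → TendstoUniformlyOn h h₀ F K
  rconv : ∀ K ⊆ U, IsCompact K → TendstoUniformlyOn r ρ F K
  energy : ∀ K ⊆ U, IsCompact K → ∃ C, ∀ᶠ i in F, ∫ x in K, qq (h i) (r i) (ε i) x ≤ C

variable {F : Filter ι} {U : Set (EuclideanSpace ℝ (Fin n))}
  {W : ι → Set (EuclideanSpace ℝ (Fin n))} {h r : ι → EuclideanSpace ℝ (Fin n) → ℝ} {ε : ι → ℝ}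
  {h₀ ρ : EuclideanSpace ℝ (Fin n) → ℝ}

theorem ACSeq.mono {G : Filter ι} (H : ACSeq F U W h r ε h₀ ρ) (hG : G ≤ F) :
    ACSeq G U W h r ε h₀ ρ where
  isOpen := H.isOpen
  sol := H.sol.filter_mono hG
  dom K h1 h2 := (H.dom K h1 h2).filter_mono hG
  eps := H.eps.mono_left hG
  hconv K h1 h2 u hu := (H.hconv K h1 h2 u hu).filter_mono hG
  rconv K h1 h2 u hu := (H.rconv K h1 h2 u hu).filter_mono hG
  energy K h1 h2 := by
    obtain ⟨C, hC⟩ := H.energy K h1 h2
    exact ⟨C, hC.filter_mono hG⟩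

theorem ACSeq.cont_h [F.NeBot] (H : ACSeq F U W h r ε h₀ ρ) {K : Set EE} (hK : IsCompact K)
    (hKU : K ⊆ U) : ContinuousOn h₀ K := by
  refine (H.hconv K hKU hK).continuousOn (Eventually.frequently ?_)
  filter_upwards [H.sol, H.dom K hKU hK] with i h1 h2
  exact h1.cont_h.mono h2

/-- uniform bounds on compact sets -/
theorem ACSeq.exists_bd [F.NeBot] (H : ACSeq F U W h r ε h₀ ρ) {K : Set EE} (hK : IsCompact K)
    (hKU : K ⊆ U) : ∃ M : ℝ, 1 ≤ M ∧ (∀ x ∈ K, |h₀ x| ≤ M) ∧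
      ∀ᶠ i in F, ∀ x ∈ K, |h i x| ≤ M ∧ ‖∇ (r i) x‖ ≤ M := by
  obtain ⟨B, hB⟩ := (IsCompact.image_of_continuousOn hK (H.cont_h hK hKU).norm).bddAbove
  have hB' : ∀ x ∈ K, |h₀ x| ≤ |B| := fun x hx =>
    (hB (mem_image_of_mem _ hx)).trans (le_abs_self B)
  refine ⟨|B| + 1, by linarith [abs_nonneg B], fun x hx => (hB' x hx).trans (by linarith), ?_⟩
  filter_upwards [Metric.tendstoUniformlyOn_iff.1 (H.hconv K hKU hK) 1 one_pos, H.sol,
    H.dom K hKU hK] with i hi hs hd x hx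
  have h1 := hi x hx
  rw [Real.dist_eq] at h1
  have h2 := hB' x hx
  have h3 : |h i x| ≤ |h₀ x| + |h₀ x - h i x| := by
    have := abs_sub_abs_le_abs_sub (h i x) (h₀ x)
    rw [abs_sub_comm] at this
    linarith
  have h4 : |h i x| ≤ |B| + 1 := by linarith
  refine ⟨h4, ?_⟩
  have h5 := hs.modica x (hd hx)
  rw [gsq_eq] at h5
  have h6 : ‖∇ (r i) x‖ ^ 2 ≤ |B| + 1 := h5.trans ((le_abs_self _).trans h4)
  have h7 : (0:ℝ) ≤ |B| := abs_nonneg B
  nlinarith [norm_nonneg (∇ (r i) x)]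

theorem ACSeq.cut (H : ACSeq F U W h r ε h₀ ρ) {ζ : EE → ℝ} (hζ : Cut U ζ) :
    ∀ᶠ i in F, Cut (W i) ζ := by
  filter_upwards [H.dom _ hζ.sub hζ.cs] with i hi
  exact ⟨hζ.cd, hζ.cs, hi⟩

theorem exists_cut_one {K U : Set EE} (hK : IsCompact K) (hU : IsOpen U) (hKU : K ⊆ U) :
    ∃ ζ : EE → ℝ, Cut U ζ ∧ (∀ x, 0 ≤ ζ x) ∧ (∀ x, ζ x ≤ 1) ∧ ∀ x ∈ K, ζ x = 1 := by
  obtain ⟨χ, V, hV, hKV, hVU, hχ1, hχc, hχs, hχr, hχV⟩ := exists_smooth_cut hK hU hKU
  exact ⟨χ, ⟨hχ1, hχc, hχs⟩, fun x => (hχr x).1, fun x => (hχr x).2, fun x hx => hχV x (hKV hx)⟩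

theorem exists_lip {ζ : EE → ℝ} (hζ : Cut U ζ) : ∃ L : ℝ≥0, LipschitzWith L ζ :=
  hζ.cd.lipschitzWith_of_hasCompactSupport hζ.cs (by simp)

/-- energies and gradient terms with a cut-off are bounded -/
theorem ACSeq.exists_energy [F.NeBot] (H : ACSeq F U W h r ε h₀ ρ) {ζ : EE → ℝ} (hζ : Cut U ζ)
    (_h0 : ∀ x, 0 ≤ ζ x) : ∃ C : ℝ, 0 ≤ C ∧ ∀ᶠ i in F,
      ∫ x, qq (h i) (r i) (ε i) x * ζ x ≤ C ∧ ∫ x, |dot (r i) ζ x| ≤ C := by
  obtain ⟨C₁, hC₁⟩ := H.energy _ hζ.sub hζ.cs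
  obtain ⟨M, hM1, -, hM⟩ := H.exists_bd hζ.cs hζ.sub
  obtain ⟨L, hL⟩ := exists_lip hζ
  obtain ⟨B, hB⟩ := hζ.cd.continuous.bounded_above_of_compact_support hζ.cs
  have hB0 : 0 ≤ B := (norm_nonneg _).trans (hB 0)
  set v : ℝ := (volume (tsupport ζ)).toReal with hv
  have hv0 : 0 ≤ v := ENNReal.toReal_nonneg
  refine ⟨B * |C₁| + M * L * v, by positivity, ?_⟩
  filter_upwards [H.sol, H.dom _ hζ.sub hζ.cs, hC₁, hM, H.cut hζ] with i hs hd h1 h2 hc
  have a1 : ∫ x, qq (h i) (r i) (ε i) x * ζ x ≤ B * |C₁| := by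
    have e : ∫ x, qq (h i) (r i) (ε i) x * ζ x =
        ∫ x in tsupport ζ, qq (h i) (r i) (ε i) x * ζ x :=
      (setIntegral_eq_integral_of_forall_compl_eq_zero fun x hx => by
        rw [image_eq_zero_of_notMem_tsupport hx, mul_zero]).symm
    have hq : IntegrableOn (qq (h i) (r i) (ε i)) (tsupport ζ) :=
      (hs.cont_qq.mono hd).integrableOn_compact hζ.cs
    rw [e]
    calc ∫ x in tsupport ζ, qq (h i) (r i) (ε i) x * ζ x
        ≤ ∫ x in tsupport ζ, B * qq (h i) (r i) (ε i) x := by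
          refine setIntegral_mono_on (hs.int_qq hc).integrableOn (hq.const_mul _)
            (isClosed_tsupport ζ).measurableSet fun x hx => ?_
          rw [mul_comm B]
          have := hs.qq_nonneg (hd hx)
          gcongr
          exact (le_abs_self _).trans (hB x)
      _ = B * ∫ x in tsupport ζ, qq (h i) (r i) (ε i) x := integral_const_mul _ _
      _ ≤ B * |C₁| := by
          gcongr
          exact h1.trans (le_abs_self _)
  have a2 : ∫ x, |dot (r i) ζ x| ≤ M * L * v := by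
    have e : ∫ x, |dot (r i) ζ x| = ∫ x in tsupport ζ, |dot (r i) ζ x| :=
      (setIntegral_eq_integral_of_forall_compl_eq_zero fun x hx => by
        rw [dot_eq, grad_zero_of_notMem hx, inner_zero_right, abs_zero]).symm
    rw [e]
    calc ∫ x in tsupport ζ, |dot (r i) ζ x| ≤ ∫ x in tsupport ζ, (M * L : ℝ) := by
          refine setIntegral_mono_on ((hs.integrable_dot hc).abs).integrableOn ?_
            (isClosed_tsupport ζ).measurableSet fun x hx => ?_
          · exact integrableOn_const hζ.cs.measure_lt_top.ne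
          · rw [dot_eq]
            refine (abs_real_inner_le_norm _ _).trans ?_
            have := (h2 x hx).2
            gcongr
            exact norm_grad_le hL x
      _ = M * L * v := by simp [mul_comm, Measure.real, hv]
  have b1 : 0 ≤ B * |C₁| := by positivity
  have b2 : 0 ≤ M * L * v := by positivity
  exact ⟨by linarith, by linarith⟩

/-- the family is a `LocSeq`: all results of `E2c_858` apply -/
theorem ACSeq.locSeq [F.NeBot] (H : ACSeq F U W h r ε h₀ ρ) : LocSeq F U r ρ := by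
  refine ⟨H.isOpen, fun K hKU hK => ?_, H.rconv⟩
  obtain ⟨ζ, hζ, h0, h1, hζK⟩ := exists_cut_one hK H.isOpen hKU
  obtain ⟨C, hC0, hC⟩ := H.exists_energy hζ h0
  obtain ⟨M, hM1, -, hM⟩ := H.exists_bd hK hKU
  refine ⟨M, 9 * C, ?_⟩
  filter_upwards [H.sol, H.dom K hKU hK, hC, hM, H.cut hζ] with i hs hd h2 h3 hc
  refine ⟨fun x hx => ⟨?_, (h3 x hx).2⟩, ?_⟩
  · exact (hs.smooth_r.contDiffAt (hs.isOpen.mem_nhds (hd hx))).differentiableAt (by simp)
  · have := massBd_of hs hc h0 (V := interior K) fun x hx => (hζK x (interior_subset hx)).ge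
    intro ψ p1 p2 p3 s p4
    have hs0 : 0 ≤ s := (abs_nonneg _).trans (p4 0)
    refine (this ψ p1 p2 p3 s p4).trans ?_
    gcongr
    linarith [h2.1, h2.2]

end fam

end Crest.Agent.R246.E2x858
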