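import Crest.Agent.R246.E2d_858

/-!
Row 246, block E2 (helper858): the limit of a family of Allen–Cahn solutions satisfies the eikonal
equation `|∇ρ|² = h` almost everywhere, the zero set is a null set, and the truncated gradients
converge.
-/

set_option autoImplicit false
set_option linter.unusedSectionVars false

namespace Crest.Agent.R246.E2x858

open MeasureTheory Filter Topology Metric Set
open scoped NNReal ENNReal Gradient RealInnerProductSpace
open Crest.GeometryTopology.CoordMetric Crest.GeometryTopology.AffineMaximal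
open Crest.Agent.R246.Flat105 Crest.Agent.R246.Lim538 Crest.Agent.R246.D2x782

variable {n : ℕ} {ι : Type*} {F : Filter ι} {U : Set (EuclideanSpace ℝ (Fin n))}
  {W : ι → Set (EuclideanSpace ℝ (Fin n))} {h r : ι → EuclideanSpace ℝ (Fin n) → ℝ} {ε : ι → ℝ}
  {h₀ ρ : EuclideanSpace ℝ (Fin n) → ℝ}

local notation "EE" => EuclideanSpace ℝ (Fin n)

/-- `∫_K (h_i - |∇r_i|²) → 0` -/
theorem ACSeq.tendsto_bulk [F.NeBot] (H : ACSeq F U W h r ε h₀ ρ) {K : Set EE} (hK : IsCompact K)
    (hKU : K ⊆ U) : Tendsto (fun i => ∫ x in K, (h i x - ‖∇ (r i) x‖ ^ 2)) F (𝓝 0) := by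
  obtain ⟨ζ, hζ, h0, h1, hζK⟩ := exists_cut_one hK H.isOpen hKU
  obtain ⟨C, hC0, hC⟩ := H.exists_energy hζ h0
  have hlim : Tendsto (fun i => ε i * ACSol.CB * (10 * C)) F (𝓝 0) := by
    have := (H.eps.mul_const ACSol.CB).mul_const (10 * C)
    simpa using this
  refine tendsto_of_tendsto_of_tendsto_of_le_of_le' tendsto_const_nhds hlim ?_ ?_
  · filter_upwards [H.sol, H.dom K hKU hK] with i hs hd
    refine setIntegral_nonneg hK.measurableSet fun x hx => ?_
    rw [← gsq_eq]
    linarith [hs.modica x (hd hx)]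
  · filter_upwards [H.sol, H.dom K hKU hK, hC, H.cut hζ] with i hs hd h2 hc
    have hb := hs.bulk hc h0
    have hε := hs.eps_pos
    have hCB := ACSol.CB_pos
    have hint : Integrable fun x => (h i x - gsq (r i) x) * ζ x :=
      integrable_mul_of_tsupport hs.isOpen (hs.cont_h.sub hs.cont_gsq) hζ.cd.continuous hc.cs hc.sub
    calc ∫ x in K, (h i x - ‖∇ (r i) x‖ ^ 2)
        = ∫ x in K, (h i x - gsq (r i) x) * ζ x := by
          refine setIntegral_congr_fun hK.measurableSet fun x hx => ?_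
          simp only [hζK x hx, mul_one, gsq_eq]
      _ ≤ ∫ x, (h i x - gsq (r i) x) * ζ x := by
          refine setIntegral_le_integral hint (Eventually.of_forall fun x => ?_)
          by_cases hx : x ∈ W i
          · exact mul_nonneg (by linarith [hs.modica x hx]) (h0 x)
          · show 0 ≤ (h i x - gsq (r i) x) * ζ x
            rw [hc.zero_out hx, mul_zero]
      _ ≤ ε i * ACSol.CB * (8 * C + 2 * C) := by
          refine hb.trans (mul_le_mul_of_nonneg_left ?_ (by positivity))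
          linarith [h2.1, h2.2]
      _ = ε i * ACSol.CB * (10 * C) := by ring

/-- **the eikonal equation** -/
theorem ACSeq.eikonal [F.NeBot] (H : ACSeq F U W h r ε h₀ ρ) :
    ∀ᵐ x, x ∈ U → ‖∇ ρ x‖ ^ 2 = h₀ x := by
  obtain ⟨K, hK, hKU, -, hUK⟩ := exists_exh H.isOpen
  have key : ∀ n, ∀ᵐ x, x ∈ K n → ‖∇ ρ x‖ ^ 2 = h₀ x := by
    intro m
    have hK' := hK m
    have hKU' := hKU m
    obtain ⟨M, hM1, hMh, hM⟩ := H.exists_bd hK' hKU'
    obtain ⟨M₂, hM₂, hM₂', hMρ⟩ := H.locSeq.exists_bd hK' hKU'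
    have hch := H.cont_h hK' hKU'
    have hih : IntegrableOn h₀ (K m) := hch.integrableOn_compact hK'
    have hisq : ∀ q : EE → ℝ, (∀ x ∈ K m, ‖∇ q x‖ ≤ M₂) →
        IntegrableOn (fun x => ‖∇ q x‖ ^ 2) (K m) := by
      intro q hq
      refine integrableOn_of_bd (B := M₂ ^ 2) hK' ((meas_grad q).norm.pow_const 2) fun x hx => ?_
      rw [abs_of_nonneg (by positivity)]
      exact pow_le_pow_left₀ (norm_nonneg _) (hq x hx) 2
    -- ∫ |h₀ - |∇ r_i|²| → ∫ |h₀ - |∇ρ|²|
    have t1 : Tendsto (fun i => ∫ x in K m, |h₀ x - ‖∇ (r i) x‖ ^ 2|) F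
        (𝓝 (∫ x in K m, |h₀ x - ‖∇ ρ x‖ ^ 2|)) := by
      refine H.locSeq.tendsto_of_lip hK' hKU' (A := 2 * M₂) ?_ ((hih.sub (hisq ρ hMρ)).abs) ?_
      · filter_upwards [hM₂'] with i hi using (hih.sub (hisq _ hi)).abs
      · filter_upwards [hM₂'] with i hi x hx
        have a1 : |(|h₀ x - ‖∇ (r i) x‖ ^ 2| - |h₀ x - ‖∇ ρ x‖ ^ 2|)| ≤
            |(h₀ x - ‖∇ (r i) x‖ ^ 2) - (h₀ x - ‖∇ ρ x‖ ^ 2)| := abs_abs_sub_abs_le _ _
        refine a1.trans ?_
        have e : (h₀ x - ‖∇ (r i) x‖ ^ 2) - (h₀ x - ‖∇ ρ x‖ ^ 2) =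
            -((‖∇ (r i) x‖ + ‖∇ ρ x‖) * (‖∇ (r i) x‖ - ‖∇ ρ x‖)) := by ring
        rw [e, abs_neg, abs_mul, abs_of_nonneg (by positivity : (0 : ℝ) ≤ ‖∇ (r i) x‖ + ‖∇ ρ x‖)]
        have h3 : |‖∇ (r i) x‖ - ‖∇ ρ x‖| ≤ ‖∇ (r i) x - ∇ ρ x‖ := abs_norm_sub_norm_le _ _
        have h4 : ‖∇ (r i) x‖ + ‖∇ ρ x‖ ≤ 2 * M₂ := by linarith [hi x hx, hMρ x hx]
        gcongr
    -- it tends to zero
    have t2 : Tendsto (fun i => ∫ x in K m, |h₀ x - h i x|) F (𝓝 0) := by
      rw [Metric.tendsto_nhds]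
      intro δ hδ
      set v : ℝ := (volume (K m)).toReal with hv
      have hv0 : 0 ≤ v := ENNReal.toReal_nonneg
      filter_upwards [Metric.tendstoUniformlyOn_iff.1 (H.hconv _ hKU' hK') (δ / (v + 1))
        (by positivity), H.sol, H.dom _ hKU' hK'] with i hi hs hd
      rw [Real.dist_eq, sub_zero, abs_of_nonneg (integral_nonneg fun x => abs_nonneg _)]
      have hihi : IntegrableOn (h i) (K m) := (hs.cont_h.mono hd).integrableOn_compact hK'
      calc ∫ x in K m, |h₀ x - h i x| ≤ ∫ x in K m, δ / (v + 1) := by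
            refine setIntegral_mono_on (hih.sub hihi).abs
              (integrableOn_const hK'.measure_lt_top.ne) hK'.measurableSet fun x hx => ?_
            have := hi x hx
            rw [Real.dist_eq] at this
            exact this.le
        _ = v * (δ / (v + 1)) := by simp [Measure.real, hv]
        _ < δ := by
            rw [← mul_div_assoc, div_lt_iff₀ (by positivity)]
            nlinarith
    have t3 : Tendsto (fun i => ∫ x in K m, |h₀ x - ‖∇ (r i) x‖ ^ 2|) F (𝓝 0) := by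
      have t4 : Tendsto (fun i => (∫ x in K m, |h₀ x - h i x|) +
          ∫ x in K m, (h i x - ‖∇ (r i) x‖ ^ 2)) F (𝓝 0) := by
        simpa using t2.add (H.tendsto_bulk hK' hKU')
      refine tendsto_of_tendsto_of_tendsto_of_le_of_le' tendsto_const_nhds t4
        (Eventually.of_forall fun i => integral_nonneg fun x => abs_nonneg _) ?_
      filter_upwards [hM₂', H.sol, H.dom _ hKU' hK'] with i hi hs hd
      have hihi : IntegrableOn (h i) (K m) := (hs.cont_h.mono hd).integrableOn_compact hK'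
      have i1 : IntegrableOn (fun x => |h₀ x - h i x|) (K m) := (hih.sub hihi).abs
      have i2 : IntegrableOn (fun x => h i x - ‖∇ (r i) x‖ ^ 2) (K m) := hihi.sub (hisq _ hi)
      rw [← integral_add i1 i2]
      refine setIntegral_mono_on ((hih.sub (hisq _ hi)).abs) (i1.add i2) hK'.measurableSet
        fun x hx => ?_
      have h1 := hs.modica x (hd hx)
      rw [gsq_eq] at h1
      have h2 : |h₀ x - ‖∇ (r i) x‖ ^ 2| ≤ |h₀ x - h i x| + |h i x - ‖∇ (r i) x‖ ^ 2| :=
        abs_sub_le _ _ _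
      rw [abs_of_nonneg (sub_nonneg.2 h1)] at h2
      exact h2
    have t5 := tendsto_nhds_unique t1 t3
    rw [← ae_restrict_iff' hK'.measurableSet]
    have t6 := (integral_eq_zero_iff_of_nonneg_ae (Eventually.of_forall fun x => abs_nonneg _)
      ((hih.sub (hisq ρ hMρ)).abs)).1 t5
    filter_upwards [t6] with x hx
    have h3 : |h₀ x - ‖∇ ρ x‖ ^ 2| = 0 := hx
    have h4 := abs_eq_zero.1 h3
    linarith
  filter_upwards [ae_all_iff.2 key] with x hx hxU
  obtain ⟨m, hm⟩ := mem_iUnion.1 (hUK hxU)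
  exact hx m hm

end Crest.Agent.R246.E2x858
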