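import Crest.Agent.R246.E2e_858

/-!
Row 246, block E2 (helper858): weak convergence of gradients of locally Lipschitz families and
`∫ T₀(r_i/ε_i) ⟨∇r_i, ∇η⟩ → (2/3) ∫ ⟨∇|ρ|, ∇η⟩` along any filter.
-/

set_option autoImplicit false
set_option linter.unusedSectionVars false

namespace Crest.Agent.R246.E2x858

open MeasureTheory Filter Topology Metric Set
open scoped NNReal ENNReal Gradient RealInnerProductSpace
open Crest.Agent.R246.Flat105

section gen

variable {E : Type*} [NormedAddCommGroup E] [InnerProductSpace ℝ E] [FiniteDimensional ℝ E]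
  [MeasurableSpace E] [BorelSpace E] {ι : Type*} {F : Filter ι} {U : Set E} {w : ι → E → ℝ}
  {ρ : E → ℝ}

/-- a family of functions, differentiable with bounded gradients near compact subsets of `U`,
converging locally uniformly to `ρ` -/
structure LocLip (F : Filter ι) (U : Set E) (w : ι → E → ℝ) (ρ : E → ℝ) : Prop where
  isOpen : IsOpen U
  bd : ∀ K ⊆ U, IsCompact K → ∃ M : ℝ, ∀ᶠ i in F,
    ∀ x ∈ K, DifferentiableAt ℝ (w i) x ∧ ‖∇ (w i) x‖ ≤ M
  conv : ∀ K ⊆ U, IsCompact K → TendstoUniformlyOn w ρ F K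

/-- globalisation -/
theorem LocLip.glob [F.NeBot] (H : LocLip F U w ρ) {K : Set E} (hK : IsCompact K) (hKU : K ⊆ U) :
    ∃ (V : Set E) (w' : ι → E → ℝ) (ρ' : E → ℝ) (M : ℝ≥0), IsOpen V ∧ K ⊆ V ∧ V ⊆ U ∧
      (∀ i, EqOn (w' i) (w i) V) ∧ EqOn ρ' ρ V ∧ (∀ᶠ i in F, LipschitzWith M (w' i)) ∧
      LipschitzWith M ρ' ∧ TendstoUniformly w' ρ' F := by
  obtain ⟨χ, V, hV, hKV, hVU, hχ1, hχc, hχs, hχr, hχV⟩ := exists_smooth_cut hK H.isOpen hKU
  obtain ⟨M₁, hbd⟩ := H.bd _ hχs hχc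
  have hconv := H.conv _ hχs hχc
  obtain ⟨L, hL⟩ : ∃ L : ℝ≥0, LipschitzWith L χ :=
    hχ1.lipschitzWith_of_hasCompactSupport hχc (by simp)
  have hρc : ContinuousOn ρ (tsupport χ) := by
    refine hconv.continuousOn (Eventually.frequently ?_)
    filter_upwards [hbd] with i hi x hx
    exact (hi x hx).1.continuousAt.continuousWithinAt
  obtain ⟨B, hB⟩ := (IsCompact.image_of_continuousOn hχc hρc.norm).bddAbove
  have hB' : ∀ x ∈ tsupport χ, |ρ x| ≤ |B| := fun x hx =>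
    (hB (mem_image_of_mem _ hx)).trans (le_abs_self B)
  have hrB : ∀ᶠ i in F, ∀ x ∈ tsupport χ, |w i x| ≤ |B| + 1 := by
    filter_upwards [Metric.tendstoUniformlyOn_iff.1 hconv 1 one_pos] with i hi x hx
    have h1 := hi x hx
    rw [Real.dist_eq] at h1
    have h2 := hB' x hx
    have h3 : |w i x| ≤ |ρ x| + |ρ x - w i x| := by
      have := abs_sub_abs_le_abs_sub (w i x) (ρ x)
      rw [abs_sub_comm] at this
      linarith
    linarith
  set M : ℝ≥0 := ⟨(|B| + 1) * L + |M₁|, by positivity⟩ with hM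
  have hdiff : ∀ᶠ i in F, LipschitzWith M (fun x => χ x * w i x) := by
    filter_upwards [hbd, hrB] with i hi hBi
    refine lipschitzWith_of_nnnorm_fderiv_le (𝕜 := ℝ) ?_ ?_
    · intro x
      by_cases hx : x ∈ tsupport χ
      · exact (hχ1.differentiable one_ne_zero x).mul (hi x hx).1
      · have h0 : (fun x => χ x * w i x) =ᶠ[𝓝 x] fun _ => 0 := by
          filter_upwards [notMem_tsupport_iff_eventuallyEq.1 hx] with y hy
          rw [hy, Pi.zero_apply, zero_mul]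
        exact h0.differentiableAt_iff.2 (differentiableAt_const _)
    · intro x
      rw [← NNReal.coe_le_coe, coe_nnnorm]
      show ‖fderiv ℝ (fun x => χ x * w i x) x‖ ≤ (|B| + 1) * L + |M₁|
      by_cases hx : x ∈ tsupport χ
      · rw [fderiv_fun_mul (hχ1.differentiable one_ne_zero x) (hi x hx).1]
        have h1 : ‖χ x • fderiv ℝ (w i) x‖ ≤ |M₁| := by
          rw [norm_smul, Real.norm_eq_abs, abs_of_nonneg (hχr x).1, ← norm_grad]
          calc χ x * ‖∇ (w i) x‖ ≤ 1 * |M₁| := by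
                gcongr
                · exact (hχr x).2
                · exact (hi x hx).2.trans (le_abs_self _)
            _ = _ := one_mul _
        have h2 : ‖w i x • fderiv ℝ χ x‖ ≤ (|B| + 1) * L := by
          rw [norm_smul, Real.norm_eq_abs]
          gcongr
          · exact hBi x hx
          · exact norm_fderiv_le_of_lipschitz ℝ hL
        exact (norm_add_le _ _).trans (by linarith)
      · have h0 : (fun x => χ x * w i x) =ᶠ[𝓝 x] fun _ => 0 := by
          filter_upwards [notMem_tsupport_iff_eventuallyEq.1 hx] with y hy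
          rw [hy, Pi.zero_apply, zero_mul]
        rw [h0.fderiv_eq]
        simp only [fderiv_fun_const, Pi.zero_apply, norm_zero]
        positivity
  have hunif : TendstoUniformly (fun i x => χ x * w i x) (fun x => χ x * ρ x) F := by
    rw [Metric.tendstoUniformly_iff]
    intro δ hδ
    filter_upwards [Metric.tendstoUniformlyOn_iff.1 hconv δ hδ] with i hi x
    rw [Real.dist_eq, ← mul_sub, abs_mul, abs_of_nonneg (hχr x).1]
    by_cases hx : x ∈ tsupport χ
    · have h1 := hi x hx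
      rw [Real.dist_eq] at h1
      calc χ x * |ρ x - w i x| ≤ 1 * |ρ x - w i x| := by
            gcongr; exact (hχr x).2
        _ < δ := by rwa [one_mul]
    · rw [image_eq_zero_of_notMem_tsupport hx, zero_mul]; exact hδ
  have hρL : LipschitzWith M (fun x => χ x * ρ x) := by
    apply LipschitzWith.of_dist_le_mul
    intro x y
    have h1 : Tendsto (fun i => dist (χ x * w i x) (χ y * w i y)) F
        (𝓝 (dist (χ x * ρ x) (χ y * ρ y))) :=
      (hunif.tendsto_at x).dist (hunif.tendsto_at y)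
    refine le_of_tendsto h1 ?_
    filter_upwards [hdiff] with i hi
    exact hi.dist_le_mul x y
  exact ⟨V, fun i x => χ x * w i x, fun x => χ x * ρ x, M, hV, hKV, hVU, fun i x hx => by
    simp only [hχV x hx, one_mul], fun x hx => by simp only [hχV x hx, one_mul], hdiff, hρL, hunif⟩

theorem integrable_grad {ψ : E → ℝ} {L : ℝ≥0} (hL : LipschitzWith L ψ) (hc : HasCompactSupport ψ) :
    Integrable (∇ ψ) := by
  have h1 : IntegrableOn (∇ ψ) (tsupport ψ) :=
    integrableOn_grad (fun x => norm_grad_le hL x) hc.measure_lt_top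
  exact h1.integrable_of_forall_notMem_eq_zero (fun x hx => grad_zero_of_notMem hx)

/-- weak convergence of the gradients -/
theorem LocLip.tendsto_test [F.NeBot] (H : LocLip F U w ρ) {ψ : E → ℝ}
    (hL : ∃ L : ℝ≥0, LipschitzWith L ψ) (hc : HasCompactSupport ψ) (hs : tsupport ψ ⊆ U) :
    Tendsto (fun i => ∫ x, ⟪∇ (w i) x, ∇ ψ x⟫) F (𝓝 (∫ x, ⟪∇ ρ x, ∇ ψ x⟫)) := by
  obtain ⟨L, hL⟩ := hL
  obtain ⟨V, w', ρ', M, hV, hKV, hVU, he', he, hL', hLρ, hu⟩ := H.glob hc hs
  have h1 := tendsto_weak (F := F) (v := ∇ ψ) hL' hLρ hV hc hKV (integrable_grad hL hc)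
    (fun x hx => grad_zero_of_notMem hx) fun K' _ _ => hu.tendstoUniformlyOn
  have e : ∀ q q' : E → ℝ, EqOn q' q V →
      ∫ x, ⟪∇ q' x, ∇ ψ x⟫ = ∫ x, ⟪∇ q x, ∇ ψ x⟫ := by
    intro q q' hq
    refine integral_congr_ae (Eventually.of_forall fun x => ?_)
    show ⟪∇ q' x, ∇ ψ x⟫ = ⟪∇ q x, ∇ ψ x⟫
    by_cases hx : x ∈ tsupport ψ
    · rw [grad_congr_open hV hq (hKV hx)]
    · rw [grad_zero_of_notMem hx, inner_zero_right, inner_zero_right]
  rw [← e _ _ he]
  exact h1.congr fun i => e _ _ (he' i)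

end gen

/-! ### the primitive of `T₀` -/

open Crest.Agent.R246.Lim538

/-- primitive of `T₀` -/
noncomputable def PT (s : ℝ) : ℝ := 2 / 3 * Real.log (Real.cosh s) + Real.tanh s ^ 2 / 6

theorem hasDerivAt_PT (s : ℝ) : HasDerivAt PT (T0 s) s := by
  have h1 : HasDerivAt (fun s => Real.log (Real.cosh s)) (Real.tanh s) s := by
    have := (Real.hasDerivAt_cosh s).log (Real.cosh_pos s).ne'
    rwa [← Real.tanh_eq_sinh_div_cosh] at this
  have h2 : HasDerivAt PT (2 / 3 * Real.tanh s +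
      ((2 : ℕ) * Real.tanh s ^ (2 - 1) * (1 - Real.tanh s ^ 2)) / 6) s :=
    (h1.const_mul (2 / 3)).add (((hasDerivAt_tanh s).pow 2).div_const 6)
  have e : 2 / 3 * Real.tanh s +
      ((2 : ℕ) * Real.tanh s ^ (2 - 1) * (1 - Real.tanh s ^ 2)) / 6 = T0 s := by
    unfold T0; push_cast; ring
  rwa [e] at h2

theorem abs_PT_sub_le (s : ℝ) : |PT s - 2 / 3 * (|s|)| ≤ 1 := by
  have h1 : Real.log (Real.cosh s) ≤ |s| := by
    rw [Real.log_le_iff_le_exp (Real.cosh_pos s), Real.cosh_eq]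
    have a1 : Real.exp s ≤ Real.exp |s| := Real.exp_le_exp.2 (le_abs_self s)
    have a2 : Real.exp (-s) ≤ Real.exp |s| := Real.exp_le_exp.2 (neg_le_abs s)
    linarith
  have h2 : |s| - Real.log 2 ≤ Real.log (Real.cosh s) := by
    rw [← Real.log_exp |s|, ← Real.log_div (Real.exp_ne_zero _) (by norm_num)]
    refine Real.log_le_log (by positivity) ?_
    rw [Real.cosh_eq]
    have a1 := Real.exp_pos s
    have a2 := Real.exp_pos (-s)
    rcases le_total 0 s with h | h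
    · rw [abs_of_nonneg h]; linarith
    · rw [abs_of_nonpos h]; linarith
  have h3 := tanh_sq_lt s
  have h4 := sq_nonneg (Real.tanh s)
  have h5 : Real.log 2 < 0.6931471808 := Real.log_two_lt_d9
  unfold PT
  rw [abs_le]
  constructor <;> norm_num at h5 ⊢ <;> nlinarith

section ac

open Crest.GeometryTopology.CoordMetric Crest.GeometryTopology.AffineMaximal
open Crest.Agent.R246.D2x782

variable {n : ℕ} {ι : Type*} {F : Filter ι} {U : Set (EuclideanSpace ℝ (Fin n))}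
  {W : ι → Set (EuclideanSpace ℝ (Fin n))} {h r : ι → EuclideanSpace ℝ (Fin n) → ℝ} {ε : ι → ℝ}
  {h₀ ρ : EuclideanSpace ℝ (Fin n) → ℝ}

local notation "EE" => EuclideanSpace ℝ (Fin n)

theorem grad_PT {r : EE → ℝ} {x : EE} {ε : ℝ} (hε : 0 < ε) (hr : DifferentiableAt ℝ r x) :
    DifferentiableAt ℝ (fun y => 3 / 2 * (ε * PT (r y / ε))) x ∧
      ∇ (fun y => 3 / 2 * (ε * PT (r y / ε))) x = (3 / 2 * T0 (r x / ε)) • ∇ r x := by
  have h1 : HasFDerivAt (fun y => r y / ε) (ε⁻¹ • fderiv ℝ r x) x := by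
    have := hr.hasFDerivAt.const_smul ε⁻¹
    refine this.congr_of_eventuallyEq (Eventually.of_forall fun y => ?_)
    simp only [Pi.smul_apply, smul_eq_mul]; rw [div_eq_inv_mul]
  have h2 : HasFDerivAt (fun y => PT (r y / ε)) (T0 (r x / ε) • (ε⁻¹ • fderiv ℝ r x)) x :=
    HasDerivAt.comp_hasFDerivAt (h₂ := PT) x (hasDerivAt_PT (r x / ε)) h1
  have h3 : HasFDerivAt (fun y => 3 / 2 * (ε * PT (r y / ε)))
      ((3 / 2 * T0 (r x / ε)) • fderiv ℝ r x) x := by
    have := (h2.const_mul ε).const_mul (3 / 2)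
    refine this.congr_fderiv ?_
    simp only [smul_smul]
    congr 1
    field_simp
  refine ⟨h3.differentiableAt, ?_⟩
  apply ext_inner_right ℝ
  intro v
  rw [inner_smul_left, inner_grad, inner_grad, h3.fderiv]
  simp

/-- the truncated family `(3/2) ε PT(r/ε)` converges to `|ρ|` -/
theorem ACSeq.locLip [F.NeBot] (H : ACSeq F U W h r ε h₀ ρ) :
    LocLip F U (fun i y => 3 / 2 * (ε i * PT (r i y / ε i))) (fun y => |ρ y|) := by
  refine ⟨H.isOpen, fun K hKU hK => ?_, fun K hKU hK => ?_⟩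
  · obtain ⟨M, hM1, -, hM⟩ := H.exists_bd hK hKU
    refine ⟨M, ?_⟩
    filter_upwards [hM, H.sol, H.dom K hKU hK] with i hi hs hd x hx
    have hdiff : DifferentiableAt ℝ (r i) x :=
      (hs.smooth_r.contDiffAt (hs.isOpen.mem_nhds (hd hx))).differentiableAt (by simp)
    obtain ⟨h1, h2⟩ := grad_PT hs.eps_pos hdiff
    refine ⟨h1, ?_⟩
    rw [h2, norm_smul, Real.norm_eq_abs, abs_mul]
    have h3 := abs_T0_le (r i x / ε i)
    have h4 : |(3 / 2 : ℝ)| * |T0 (r i x / ε i)| ≤ 1 := by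
      rw [abs_of_pos (by norm_num)]; linarith
    calc |(3 / 2 : ℝ)| * |T0 (r i x / ε i)| * ‖∇ (r i) x‖ ≤ 1 * M :=
          mul_le_mul h4 (hi x hx).2 (norm_nonneg _) zero_le_one
      _ = M := one_mul _
  · rw [Metric.tendstoUniformlyOn_iff]
    intro δ hδ
    have he : ∀ᶠ i in F, ε i < δ / 6 := H.eps.eventually (Iio_mem_nhds (by positivity))
    filter_upwards [Metric.tendstoUniformlyOn_iff.1 (H.rconv K hKU hK) (δ / 2) (by positivity), he,
      H.sol] with i hi h1 hs x hx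
    have hε := hs.eps_pos
    have h2 := hi x hx
    rw [Real.dist_eq] at h2 ⊢
    have h3 := abs_PT_sub_le (r i x / ε i)
    rw [abs_div, abs_of_pos hε] at h3
    have h4 : |3 / 2 * (ε i * PT (r i x / ε i)) - (|r i x|)| ≤ 3 / 2 * ε i := by
      have e : 3 / 2 * (ε i * PT (r i x / ε i)) - |r i x| =
          3 / 2 * ε i * (PT (r i x / ε i) - 2 / 3 * (|r i x| / ε i)) := by
        field_simp
      rw [e, abs_mul, abs_of_pos (by positivity)]
      exact mul_le_of_le_one_right (by positivity) h3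
    have h5 : |(|ρ x|) - (|r i x|)| ≤ |ρ x - r i x| := abs_abs_sub_abs_le _ _
    have h6 : |(|ρ x|) - 3 / 2 * (ε i * PT (r i x / ε i))| ≤
        |(|ρ x|) - (|r i x|)| + |3 / 2 * (ε i * PT (r i x / ε i)) - (|r i x|)| := by
      have := abs_sub_le |ρ x| |r i x| (3 / 2 * (ε i * PT (r i x / ε i)))
      rw [abs_sub_comm |r i x|] at this
      exact this
    linarith

/-- **`∫ T₀(r_i/ε_i)⟨∇r_i,∇η⟩ → (2/3) ∫ ⟨∇|ρ|,∇η⟩`** -/
theorem ACSeq.tendsto_T0 [F.NeBot] (H : ACSeq F U W h r ε h₀ ρ) {η : EE → ℝ}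
    (hL : ∃ L : ℝ≥0, LipschitzWith L η) (hc : HasCompactSupport η) (hs : tsupport η ⊆ U) :
    Tendsto (fun i => ∫ x, T0 (r i x / ε i) * ⟪∇ (r i) x, ∇ η x⟫) F
      (𝓝 (2 / 3 * ∫ x, ⟪∇ (fun y => |ρ y|) x, ∇ η x⟫)) := by
  have h1 := (H.locLip.tendsto_test hL hc hs).const_mul (2 / 3)
  refine h1.congr' ?_
  filter_upwards [H.sol, H.dom _ hs hc] with i hs' hd
  rw [← integral_const_mul]
  refine integral_congr_ae (Eventually.of_forall fun x => ?_)
  show 2 / 3 * ⟪∇ (fun y => 3 / 2 * (ε i * PT (r i y / ε i))) x, ∇ η x⟫ =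
    T0 (r i x / ε i) * ⟪∇ (r i) x, ∇ η x⟫
  by_cases hx : x ∈ tsupport η
  · have hdiff : DifferentiableAt ℝ (r i) x :=
      (hs'.smooth_r.contDiffAt (hs'.isOpen.mem_nhds (hd hx))).differentiableAt (by simp)
    rw [(grad_PT hs'.eps_pos hdiff).2, inner_smul_left]
    simp only [conj_trivial]
    ring
  · rw [grad_zero_of_notMem hx, inner_zero_right, inner_zero_right, mul_zero, mul_zero]

/-- `∫ ⟨∇r_i,∇ζ⟩ → ∫ ⟨∇ρ,∇ζ⟩` -/
theorem ACSeq.tendsto_test [F.NeBot] (H : ACSeq F U W h r ε h₀ ρ) {ζ : EE → ℝ}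
    (hL : ∃ L : ℝ≥0, LipschitzWith L ζ) (hc : HasCompactSupport ζ) (hs : tsupport ζ ⊆ U) :
    Tendsto (fun i => ∫ x, ⟪∇ (r i) x, ∇ ζ x⟫) F (𝓝 (∫ x, ⟪∇ ρ x, ∇ ζ x⟫)) :=
  H.locSeq.tendsto_test hL hc hs

end ac

end Crest.Agent.R246.E2x858
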