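import Crest.Agent.R246.E2f_858
import Crest.Agent.R246.E2a_782
import Crest.Agent.R246.Mass_872
import Mathlib.MeasureTheory.Covering.Besicovitch
import Mathlib.MeasureTheory.Covering.BesicovitchVectorSpace

/-!
Row 246, block E2 (helper858): the base level: `0`-homogeneous Allen–Cahn solutions with bounded
energy, the limit `r` and the cone function `φ = ‖x‖ sin r`.
-/

set_option autoImplicit false
set_option linter.unusedSectionVars false

namespace Crest.Agent.R246.E2x858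

open MeasureTheory Filter Topology Metric Set
open scoped NNReal ENNReal Gradient RealInnerProductSpace
open Crest.Agent.R246.Flat105

section gen

variable {E : Type*} [NormedAddCommGroup E] [InnerProductSpace ℝ E] [FiniteDimensional ℝ E]
  [MeasurableSpace E] [BorelSpace E]

/-- almost everywhere on `{f = 0}` the gradient vanishes -/
theorem ae_grad_zero (f : E → ℝ) :
    ∀ᵐ x, f x = 0 → DifferentiableAt ℝ f x → ∇ f x = 0 := by
  set s : Set E := {x | f x = 0} with hs
  have h1 := ae_imp_of_ae_restrict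
    (Besicovitch.ae_tendsto_measure_inter_div (volume : Measure E) s)
  filter_upwards [h1] with x hx hfx hd
  by_contra hne
  have hlim := hx hfx
  set g := ∇ f x with hg
  have hg0 : 0 < ‖g‖ := norm_pos_iff.2 hne
  have hgrad : HasFDerivAt f (innerSL ℝ g) x := by
    have := hd.hasFDerivAt
    refine this.congr_fderiv ?_
    ext v
    rw [innerSL_apply_apply, inner_grad]
  have ho : ∀ᶠ y in 𝓝 x, ‖f y - f x - innerSL ℝ g (y - x)‖ ≤ ‖g‖ / 8 * ‖y - x‖ :=
    hgrad.isLittleO.def (by positivity)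
  obtain ⟨δ, hδ, hball⟩ := Metric.eventually_nhds_iff_ball.1 ho
  set e : E := ‖g‖⁻¹ • g with he
  have hen : ‖e‖ = 1 := by
    rw [he, norm_smul, norm_inv, norm_norm, inv_mul_cancel₀ hg0.ne']
  have hge : ⟪g, e⟫ = ‖g‖ := by
    rw [he, inner_smul_right, real_inner_self_eq_norm_sq]; field_simp
  set q : ℝ≥0∞ := ENNReal.ofReal ((1 / 4) ^ Module.finrank ℝ E) with hq
  have hq0 : 0 < q := ENNReal.ofReal_pos.2 (by positivity)
  have hle : ∀ᶠ t in 𝓝[>] (0 : ℝ),
      volume (s ∩ closedBall x t) / volume (closedBall x t) + q ≤ 1 := by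
    have hmem : Ioo (0 : ℝ) δ ∈ 𝓝[>] (0 : ℝ) := Ioo_mem_nhdsGT hδ
    filter_upwards [hmem] with t ht
    have ht0 : 0 < t := ht.1
    set B' : Set E := closedBall (x + (t / 2) • e) (t / 4) with hB'
    have hB'B : B' ⊆ closedBall x t := by
      intro y hy
      rw [hB', mem_closedBall, dist_eq_norm] at hy
      rw [mem_closedBall, dist_eq_norm]
      have h3 : y - x = (y - (x + (t / 2) • e)) + (t / 2) • e := by abel
      have h4 : ‖(t / 2) • e‖ = t / 2 := by
        rw [norm_smul, hen, mul_one, Real.norm_eq_abs, abs_of_pos (by positivity)]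
      rw [h3]
      exact (norm_add_le _ _).trans (by rw [h4]; linarith)
    have hdisj : Disjoint (s ∩ closedBall x t) B' := by
      rw [Set.disjoint_left]
      rintro y ⟨hys, hyB⟩ hyB'
      rw [hB', mem_closedBall, dist_eq_norm] at hyB'
      have h3 : y - x = (y - (x + (t / 2) • e)) + (t / 2) • e := by abel
      have h4 : ‖(t / 2) • e‖ = t / 2 := by
        rw [norm_smul, hen, mul_one, Real.norm_eq_abs, abs_of_pos (by positivity)]
      have h5 : ‖y - x‖ ≤ 3 / 4 * t := by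
        rw [h3]; exact (norm_add_le _ _).trans (by rw [h4]; linarith)
      have h6 : y ∈ ball x δ := by
        rw [mem_ball, dist_eq_norm]; linarith [ht.2]
      have h7 := hball y h6
      have h8 : f y = 0 := hys
      rw [h8, hfx, innerSL_apply_apply, sub_zero, zero_sub, norm_neg, Real.norm_eq_abs] at h7
      have h9 : ‖g‖ * (t / 4) ≤ ⟪g, y - x⟫ := by
        rw [h3, inner_add_right, inner_smul_right, hge]
        have h10 : |⟪g, y - (x + (t / 2) • e)⟫| ≤ ‖g‖ * (t / 4) :=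
          (abs_real_inner_le_norm _ _).trans (by gcongr)
        have h11 := (abs_le.1 h10).1
        nlinarith
      have h12 := le_abs_self ⟪g, y - x⟫
      nlinarith
    have hvol : volume (s ∩ closedBall x t) + volume B' ≤ volume (closedBall x t) := by
      rw [← measure_union hdisj isClosed_closedBall.measurableSet]
      exact measure_mono (union_subset inter_subset_right hB'B)
    have hB'v : volume B' = q * volume (closedBall x t) := by
      rw [hB', Measure.addHaar_closedBall' _ _ (by positivity : (0 : ℝ) ≤ t / 4),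
        Measure.addHaar_closedBall' _ _ ht0.le, ← mul_assoc, hq, ← ENNReal.ofReal_mul (by positivity)]
      congr 2
      rw [← mul_pow]
      congr 1
      ring
    have hb0 : volume (closedBall x t) ≠ 0 :=
      (measure_closedBall_pos volume x ht0).ne'
    have hbt : volume (closedBall x t) ≠ ⊤ := measure_closedBall_lt_top.ne
    rw [hB'v] at hvol
    have e2 : volume (s ∩ closedBall x t) / volume (closedBall x t) + q =
        (volume (s ∩ closedBall x t) + q * volume (closedBall x t)) / volume (closedBall x t) := by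
      rw [ENNReal.add_div, ENNReal.mul_div_cancel_right hb0 hbt]
    rw [e2]
    exact ENNReal.div_le_of_le_mul (by rwa [one_mul])
  have hlim2 : Tendsto (fun t => volume (s ∩ closedBall x t) / volume (closedBall x t) + q)
      (𝓝[>] (0 : ℝ)) (𝓝 (1 + q)) := hlim.add tendsto_const_nhds
  have h3 : 1 + q ≤ 1 := le_of_tendsto hlim2 hle
  have h4 : (1 : ℝ≥0∞) < 1 + q := ENNReal.lt_add_right ENNReal.one_ne_top hq0.ne'
  exact absurd h3 (not_le.2 h4)

/-- the gradient of the norm -/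
theorem hasFDerivAt_norm {x : E} (hx : x ≠ 0) :
    HasFDerivAt (fun y : E => ‖y‖) (innerSL ℝ (‖x‖⁻¹ • x)) x := by
  have h1 : DifferentiableAt ℝ (fun y : E => ‖y‖) x :=
    (contDiffAt_norm ℝ hx (n := 1)).differentiableAt one_ne_zero
  have h2 : HasFDerivAt (fun y : E => ‖y‖ ^ 2) (2 • innerSL ℝ x) x :=
    (hasStrictFDerivAt_norm_sq x).hasFDerivAt
  have h3 : HasFDerivAt (fun y : E => ‖y‖ ^ 2)
      ((2 * ‖x‖) • fderiv ℝ (fun y : E => ‖y‖) x) x := by
    have := h1.hasFDerivAt.pow 2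
    refine this.congr_fderiv ?_
    ext v; simp
  have h4 := h2.unique h3
  refine h1.hasFDerivAt.congr_fderiv ?_
  ext v
  have h5 := congrArg (fun T : E →L[ℝ] ℝ => T v) h4
  simp only [smul_apply, nsmul_eq_mul, smul_eq_mul,
    innerSL_apply_apply] at h5
  have hx' : ‖x‖ ≠ 0 := norm_ne_zero_iff.2 hx
  rw [innerSL_apply_apply, real_inner_smul_left]
  push_cast at h5
  field_simp
  linarith

/-- `|∇(‖x‖ sin r)| = 1` where `r` is `0`-homogeneous and `|∇r| = 1/‖x‖` -/
theorem norm_grad_phi {r : E → ℝ} (hom : ∀ t : ℝ, 0 < t → ∀ x, r (t • x) = r x) {x : E}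
    (hx : x ≠ 0) (hd : DifferentiableAt ℝ r x) (hn : ‖∇ r x‖ ^ 2 = (‖x‖ ^ 2)⁻¹) :
    DifferentiableAt ℝ (fun y => ‖y‖ * Real.sin (r y)) x ∧
      ‖fderiv ℝ (fun y => ‖y‖ * Real.sin (r y)) x‖ = 1 := by
  have hx' : 0 < ‖x‖ := norm_pos_iff.2 hx
  -- radial derivative vanishes
  have hrad : ⟪∇ r x, x⟫ = 0 := by
    rw [inner_grad]
    have h1 : HasDerivAt (fun t : ℝ => r (t • x)) (fderiv ℝ r x x) 1 := by
      have h2 : HasDerivAt (fun t : ℝ => t • x) x 1 := by
        simpa using (hasDerivAt_id (1 : ℝ)).smul_const x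
      have h3 : HasFDerivAt r (fderiv ℝ r x) ((1 : ℝ) • x) := by
        rw [one_smul]; exact hd.hasFDerivAt
      exact h3.comp_hasDerivAt 1 h2
    have h4 : HasDerivAt (fun t : ℝ => r (t • x)) 0 1 := by
      refine (hasDerivAt_const (1 : ℝ) (r x)).congr_of_eventuallyEq ?_
      filter_upwards [Ioi_mem_nhds (show (0 : ℝ) < 1 by norm_num)] with t ht
      exact hom t ht x
    exact h1.unique h4
  have hdr : HasFDerivAt r (innerSL ℝ (∇ r x)) x := by
    refine hd.hasFDerivAt.congr_fderiv ?_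
    ext v
    rw [innerSL_apply_apply, inner_grad]
  have h5 : HasFDerivAt (fun y => ‖y‖ * Real.sin (r y))
      (‖x‖ • (Real.cos (r x) • innerSL ℝ (∇ r x)) +
        Real.sin (r x) • innerSL ℝ (‖x‖⁻¹ • x)) x :=
    (hasFDerivAt_norm hx).mul hdr.sin
  have h6 : HasFDerivAt (fun y => ‖y‖ * Real.sin (r y))
      (innerSL ℝ ((‖x‖ * Real.cos (r x)) • ∇ r x + (Real.sin (r x) * ‖x‖⁻¹) • x)) x := by
    refine h5.congr_fderiv ?_
    ext v
    simp only [add_apply, smul_apply, innerSL_apply_apply,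
      smul_eq_mul, inner_add_left, real_inner_smul_left]
    ring
  refine ⟨h6.differentiableAt, ?_⟩
  rw [← norm_grad, grad_of_hasFDerivAt h6]
  have h7 : ‖(‖x‖ * Real.cos (r x)) • ∇ r x + (Real.sin (r x) * ‖x‖⁻¹) • x‖ ^ 2 = 1 := by
    rw [norm_add_sq_real, norm_smul, norm_smul, mul_pow, mul_pow, hn, real_inner_smul_left,
      real_inner_smul_right, hrad, Real.norm_eq_abs, Real.norm_eq_abs, sq_abs, sq_abs]
    have := Real.sin_sq_add_cos_sq (r x)
    field_simp
    nlinarith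
  have h8 := norm_nonneg ((‖x‖ * Real.cos (r x)) • ∇ r x + (Real.sin (r x) * ‖x‖⁻¹) • x)
  nlinarith

end gen

/-! ### the base level -/

section base

open Crest.GeometryTopology.CoordMetric Crest.GeometryTopology.AffineMaximal
open Crest.Agent.R246.D2x782 Crest.Agent.R246.Lim538 Crest.Agent.R246.Vb872
open Crest.Agent.R246.H990 (cV)

variable {n : ℕ} {ι : Type*} {F : Filter ι} {ε : ι → ℝ} {R : ι → EuclideanSpace ℝ (Fin n) → ℝ}
  {r : EuclideanSpace ℝ (Fin n) → ℝ} {C : ℝ}

local notation "EE" => EuclideanSpace ℝ (Fin n)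

/-- energy on compact subsets of `ℝⁿ ∖ {0}` in terms of the energy on the sphere -/
theorem energy_le (hn : 2 ≤ n) {K : Set EE} (hK : IsCompact K) (hK0 : K ⊆ {0}ᶜ) (C : ℝ) :
    ∃ C' : ℝ, ∀ (ε : ℝ) (R : EE → ℝ), 0 < ε → SmHom0 R →
      ∫ z, eden ε R (z : EE) ∂((volume : Measure EE).toSphere) ≤ C →
      ∫ x in K, qq (fun x => (‖x‖ ^ 2)⁻¹) R ε x ≤ C' := by
  rcases K.eq_empty_or_nonempty with rfl | hne
  · exact ⟨0, fun ε R _ _ _ => by simp⟩
  obtain ⟨x₀, hx₀, hmin⟩ := hK.exists_isMinOn hne continuous_norm.continuousOn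
  have hc : 0 < ‖x₀‖ := norm_pos_iff.2 (hK0 hx₀)
  obtain ⟨ρ, hρ⟩ := hK.isBounded.subset_closedBall (0 : EE)
  refine ⟨4 / (3 * ‖x₀‖) * (Real.exp (ρ ^ 2) *
    (cV EE * (3 / 4 * |C|))), fun ε R hε hR hE => ?_⟩
  have hden : IntegrableOn (den R ε) K := ((continuousOn_den hR).mono hK0).integrableOn_compact hK
  have hdn : ∀ x, 0 ≤ den R ε x := den_nonneg hε R
  have hcV : 0 < cV EE := Crest.Agent.R246.H990.cV_pos EE
  have h1 : ∫ x in K, den R ε x ≤ Real.exp (ρ ^ 2) * (cV EE * (3 / 4 * |C|)) := by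
    rw [integral_eq_lintegral_of_nonneg_ae (Eventually.of_forall hdn) hden.aestronglyMeasurable]
    refine ENNReal.toReal_le_of_le_ofReal (by positivity) ?_
    have h2 : ∫⁻ x in K, ENNReal.ofReal (den R ε x) = mu R ε K := by
      unfold mu
      rw [withDensity_apply _ hK.measurableSet]
    rw [h2]
    refine (measure_mono hρ).trans ((mu_closedBall_le hn hε hR ρ).trans ?_)
    refine ENNReal.ofReal_le_ofReal ?_
    have h3 : ∫ z, eden ε R (z : EE) ∂((volume : Measure EE).toSphere) ≤ |C| :=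
      hE.trans (le_abs_self _)
    have h4 : 3 / 4 * ∫ z, eden ε R (z : EE) ∂((volume : Measure EE).toSphere) ≤ 3 / 4 * |C| := by
      linarith
    have h5 := mul_le_mul_of_nonneg_left h4 hcV.le
    exact mul_le_mul_of_nonneg_left h5 (Real.exp_pos _).le
  calc ∫ x in K, qq (fun x => (‖x‖ ^ 2)⁻¹) R ε x
      ≤ ∫ x in K, 4 / (3 * ‖x₀‖) * den R ε x := by
        have hq : ∀ x ∈ K, qq (fun x => (‖x‖ ^ 2)⁻¹) R ε x = 4 / (3 * ‖x‖) * den R ε x := by
          intro x hx
          have hx' : 0 < ‖x‖ := norm_pos_iff.2 (hK0 hx)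
          unfold den
          field_simp
        refine integral_mono_of_nonneg ?_ (hden.const_mul _) ?_
        · refine (ae_restrict_iff' hK.measurableSet).2 (Eventually.of_forall fun x hx => ?_)
          show 0 ≤ qq (fun x => (‖x‖ ^ 2)⁻¹) R ε x
          rw [hq x hx]
          have := hdn x
          positivity
        · refine (ae_restrict_iff' hK.measurableSet).2 (Eventually.of_forall fun x hx => ?_)
          show qq (fun x => (‖x‖ ^ 2)⁻¹) R ε x ≤ 4 / (3 * ‖x₀‖) * den R ε x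
          rw [hq x hx]
          have h6 : ‖x₀‖ ≤ ‖x‖ := hmin hx
          have := hdn x
          gcongr
    _ = 4 / (3 * ‖x₀‖) * ∫ x in K, den R ε x := integral_const_mul _ _
    _ ≤ _ := by gcongr

/-- the base level is a family in the sense of `E2d_858` -/
theorem acseq_base (hn : 3 ≤ n) (hε : ∀ᶠ i in F, 0 < ε i) (h0 : Tendsto ε F (𝓝 0))
    (hR : ∀ᶠ i in F, SmHom0 (R i)) (hac : ∀ᶠ i in F, ACeq (ε i) (R i))
    (hE : ∀ᶠ i in F, ∫ z, eden (ε i) (R i) (z : EE) ∂((volume : Measure EE).toSphere) ≤ C)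
    (hconv : TendstoUniformlyOn R r F {0}ᶜ) :
    ACSeq F {0}ᶜ (fun _ => {0}ᶜ) (fun _ x => (‖x‖ ^ 2)⁻¹) R ε (fun x => (‖x‖ ^ 2)⁻¹) r where
  isOpen := isOpen_compl_singleton
  sol := by
    filter_upwards [hε, hR, hac] with i h1 h2 h3
    exact acsol_of_ac hn h2 h1 h3
  dom K hK _ := Eventually.of_forall fun _ => hK
  eps := h0
  hconv K _ _ := by
    rw [Metric.tendstoUniformlyOn_iff]
    intro δ hδ
    exact Eventually.of_forall fun i x _ => by rw [dist_self]; exact hδ
  rconv K hK _ := hconv.mono hK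
  energy K hK hKc := by
    obtain ⟨C', hC'⟩ := energy_le (by omega) hKc hK C
    refine ⟨C', ?_⟩
    filter_upwards [hε, hR, hE] with i h1 h2 h3
    exact hC' _ _ h1 h2 h3

variable [F.NeBot]

/-- a.e. differentiability of the limit and `‖∇r‖² = 1/‖x‖²` -/
theorem base_eikonal (hn : 3 ≤ n) (H : ACSeq F {0}ᶜ (fun _ => {0}ᶜ) (fun _ x => (‖x‖ ^ 2)⁻¹) R ε
    (fun x => (‖x‖ ^ 2)⁻¹) r) :
    ∀ᵐ x, x ≠ 0 ∧ DifferentiableAt ℝ r x ∧ ‖∇ r x‖ ^ 2 = (‖x‖ ^ 2)⁻¹ := by
  have : Nontrivial EE := by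
    apply Module.nontrivial_of_finrank_pos (R := ℝ)
    simp only [finrank_euclideanSpace, Fintype.card_fin]
    omega
  have h0 : ∀ᵐ x : EE, x ∈ ({0}ᶜ : Set EE) := by
    rw [ae_iff]
    simp
  filter_upwards [h0, H.locSeq.ae_diff, H.eikonal] with x h1 h2 h3
  exact ⟨h1, h2 h1, h3 h1⟩

/-- the zero set of the limit is a null set -/
theorem base_null (hn : 3 ≤ n) (H : ACSeq F {0}ᶜ (fun _ => {0}ᶜ) (fun _ x => (‖x‖ ^ 2)⁻¹) R ε
    (fun x => (‖x‖ ^ 2)⁻¹) r) : volume {x : EE | r x = 0} = 0 := by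
  have : ∀ᵐ x : EE, r x ≠ 0 := by
    filter_upwards [base_eikonal hn H, ae_grad_zero r] with x ⟨h1, h2, h3⟩ h4 h5
    rw [h4 h5 h2, norm_zero] at h3
    have : 0 < (‖x‖ ^ 2)⁻¹ := by
      have := norm_pos_iff.2 h1
      positivity
    rw [← h3] at this
    norm_num at this
  rw [ae_iff] at this
  simpa using this

/-- **`‖∇(‖x‖ sin r)‖ = 1` almost everywhere** -/
theorem base_grad (hn : 3 ≤ n) (hom : ∀ t : ℝ, 0 < t → ∀ x, r (t • x) = r x)
    (H : ACSeq F {0}ᶜ (fun _ => {0}ᶜ) (fun _ x => (‖x‖ ^ 2)⁻¹) R ε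
    (fun x => (‖x‖ ^ 2)⁻¹) r) :
    ∀ᵐ x : EE, ‖fderiv ℝ (fun y => ‖y‖ * Real.sin (r y)) x‖ = 1 := by
  filter_upwards [base_eikonal hn H] with x ⟨h1, h2, h3⟩
  exact (norm_grad_phi hom h1 h2 h3).2

end base

end Crest.Agent.R246.E2x858
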