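import Crest.Agent.R246.NC8_718
import Crest.Agent.R246.Skel2_656

/-! R246: `StEqb` of the skeleton (helper718). -/

set_option autoImplicit false

namespace Crest.Agent.R246.NC718

open Crest.Agent.R246.H990 Crest.Agent.R246.SM436 Crest.Agent.R246.HerschSM900
open Crest.Agent.R246.Skel656 Crest.Agent.R246.Skel2

theorem stEqb (m : ℕ) : StEqb m := by
  intro φ S _ hA x hx h0 v w α β hv hw hvx hwx hvN hwN hα hβ
  have hfin : Module.finrank ℝ (E m) = m + 2 := by simp
  refine eigen_rel S hfin hA hx h0 (v := v) (w := w) ?_ ?_ ?_ ?_ ?_ ?_ hα hβ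
  · rintro rfl; simp at hv
  · rintro rfl; simp at hw
  · rw [real_inner_comm]; exact hvx
  · rw [real_inner_comm]; exact hvN
  · rw [real_inner_comm]; exact hwx
  · rw [real_inner_comm]; exact hwN

end Crest.Agent.R246.NC718
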