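import Crest.Agent.R246.LimO4_538
import Crest.Agent.R246.Skel2_656

/-!
Row 246, block E3 (helper538): `StEqp` (Skel2_656) from equipartition (Q).
-/

set_option autoImplicit false

open Filter Topology Metric Set MeasureTheory
open scoped ContDiff RealInnerProductSpace
open Crest.GeometryTopology.CoordMetric Crest.GeometryTopology.AffineMaximal
open Crest.Agent.R236.Jet Crest.Agent.R246.D2x782 Crest.Agent.R246.G873
open Crest.Agent.R246.H990 (NullCone VB cV)
open Crest.Agent.R246.Skel656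

noncomputable section

namespace Crest.Agent.R246.Lim538

/-- **(Q)**: equipartition for minimisers. -/
def StQ (m : ℕ) : Prop :=
  ∀ (U : Filter ℕ) (ε : ℕ → ℝ) (R : ℕ → E m → ℝ) (r φ : E m → ℝ) (μ : Measure (E m)) (a : ℝ),
    Skel2.ACLim m U ε R r φ μ a → Skel2.LimM φ μ (a * cV (E m)) → NullCone φ →
    (∀ A, VB φ A → a ≤ A) → Tendsto (fun k => Qd (R k) (ε k)) U (𝓝 0)

theorem eDen_eq {m : ℕ} (ε : ℝ) (R : E m → ℝ) (x : E m) : Skel2.eDen ε R x = wq R ε x := by
  have h : (MSP782.hw : E m → ℝ) = hw := by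
    funext y; unfold MSP782.hw hw; rw [nsq_eq]
  unfold Skel2.eDen wq
  rw [h]; ring

theorem ACsol_sol {m : ℕ} (hm : 1 ≤ m) {ε : ℝ} {R : E m → ℝ} (h : ACsol m ε R) : Sol R ε :=
  Sol.mk' (by omega) h.sm h.pos h.eq

theorem mlim_of {m : ℕ} {U : Filter ℕ} {ε : ℕ → ℝ} {R : ℕ → E m → ℝ} {r φ : E m → ℝ}
    {μ : Measure (E m)} {a : ℝ} (h : Skel2.ACLim m U ε R r φ μ a) : MLim U R ε μ := by
  intro f hf hc
  refine (h.loc f hf hc).congr fun k => ?_
  refine integral_congr_ae (Eventually.of_forall fun x => ?_)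
  simp only [eDen_eq]; ring

theorem sen_eq {m : ℕ} {ε : ℝ} {R : E m → ℝ} (h : ACsol m ε R) : En ε R = sen R ε :=
  Vb872.En_eq h

open CompactlySupported in
theorem measure_eq {m : ℕ} {μ ν : Measure (E m)} [IsFiniteMeasureOnCompacts μ]
    [IsFiniteMeasureOnCompacts ν]
    (h : ∀ f : E m → ℝ, Continuous f → HasCompactSupport f → ∫ x, f x ∂μ = ∫ x, f x ∂ν) :
    μ = ν :=
  Measure.ext_of_integral_eq_on_compactlySupported fun f =>
    h f f.continuous f.hasCompactSupport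

/-- **StEqp from (Q)** -/
theorem stEqp_of {m : ℕ} (hm : 1 ≤ m) (hQ : StQ m) : Skel2.StEqp m := by
  intro U ε R r φ μ a hL hM hN hmin
  have hU := hL.neBot
  have hfinμ := hL.fin
  set 𝒰 : Ultrafilter ℕ := Ultrafilter.of U with h𝒰
  have hle : (𝒰 : Filter ℕ) ≤ U := Ultrafilter.of_le U
  have H : ∀ k, Sol (R k) (ε k) := fun k => ACsol_sol hm (hL.sol k)
  have hQ' : Tendsto (fun k => Qd (R k) (ε k)) (𝒰 : Filter ℕ) (𝓝 0) :=
    (hQ U ε R r φ μ a hL hM hN hmin).mono_left hle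
  have hn : 2 ≤ m + 2 := by omega
  have hC : ∀ᶠ k in (𝒰 : Filter ℕ), sen (R k) (ε k) ≤ 4 / 3 * (a + 1) := by
    have h1 := hL.en.mono_left hle
    filter_upwards [h1.eventually (gt_mem_nhds (lt_add_one a))] with k hk
    rw [sen_eq (hL.sol k)] at hk
    linarith
  obtain ⟨G, hG, hS⟩ := exists_GV 𝒰 hn H hC hQ'
  have hGfin := G.fin
  have hMμ : MLim (𝒰 : Filter ℕ) R ε μ := fun f hf hc => (mlim_of hL f hf hc).mono_left hle
  have hGμ : G.μ = μ := measure_eq fun f hf hc => tendsto_nhds_unique (hG f hf hc) (hMμ f hf hc)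
  refine ⟨G, hGμ, ?_⟩
  exact
    { hom := hM.hom
      cD := hM.cD
      conc := by rw [hGμ]; exact hM.conc
      homμ := by rw [hGμ]; exact hM.homμ
      var := by rw [hGμ]; exact hM.var
      stat := statOn hn H hQ' hG hS
      mass := by rw [hGμ]; exact hM.mass.le }

end Crest.Agent.R246.Lim538
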