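import Crest.Agent.R246.Mon_638

/-!
Row 246 (helper638): monotonicity on balls, zeros carry energy (block E4).
-/

set_option autoImplicit false

open Filter Topology Metric Set MeasureTheory
open scoped ContDiff
open Crest.GeometryTopology.CoordMetric Crest.GeometryTopology.AffineMaximal
open Crest.Agent.R236.Jet Crest.Agent.R246.D2x782 Crest.Agent.R246.Lim538
open Crest.Agent.R246.Stress638

noncomputable section

namespace Crest.Agent.R246.Mon638

variable {n : ℕ}

local notation "EE" => EuclideanSpace ℝ (Fin n)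

/-! ### profiles -/

/-- `max(0,u)²` is `C¹` -/
theorem hasDerivAt_pos2 (u : ℝ) : HasDerivAt (fun u : ℝ => max 0 u ^ 2) (2 * max 0 u) u := by
  rcases lt_trichotomy u 0 with h | h | h
  · have e : (fun u : ℝ => max 0 u ^ 2) =ᶠ[𝓝 u] fun _ => 0 := by
      filter_upwards [Iio_mem_nhds h] with v hv
      rw [max_eq_left (le_of_lt hv)]; norm_num
    rw [max_eq_left h.le, mul_zero]
    exact (hasDerivAt_const u (0 : ℝ)).congr_of_eventuallyEq e
  · subst h
    rw [max_self, mul_zero, hasDerivAt_iff_isLittleO]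
    simp only [max_self, sub_zero, smul_zero]
    have h1 : (fun x : ℝ => max 0 x ^ 2 - 0 ^ 2) =O[𝓝 0] fun x : ℝ => x ^ 2 := by
      refine Asymptotics.isBigO_of_le _ fun x => ?_
      rw [Real.norm_eq_abs, Real.norm_eq_abs, abs_of_nonneg (sq_nonneg x)]
      rcases le_total 0 x with hx | hx
      · rw [max_eq_right hx]; simp
      · rw [max_eq_left hx]; simp; positivity
    have h2 : (fun x : ℝ => x ^ 2) =o[𝓝 0] fun x : ℝ => x := by
      have := Asymptotics.isLittleO_pow_id (𝕜 := ℝ) (n := 2) (by norm_num)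
      simpa using this
    exact h1.trans_isLittleO h2
  · have e : (fun u : ℝ => max 0 u ^ 2) =ᶠ[𝓝 u] fun u => u ^ 2 := by
      filter_upwards [Ioi_mem_nhds h] with v hv
      rw [max_eq_right (le_of_lt hv)]
    rw [max_eq_right h.le]
    have := hasDerivAt_pow 2 u
    refine (HasDerivAt.congr_of_eventuallyEq ?_ e)
    simpa using this

theorem contDiff_pos2 : ContDiff ℝ 1 (fun u : ℝ => max 0 u ^ 2) := by
  rw [contDiff_one_iff_deriv]
  refine ⟨fun u => (hasDerivAt_pos2 u).differentiableAt, ?_⟩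
  have : deriv (fun u : ℝ => max 0 u ^ 2) = fun u => 2 * max 0 u := by
    funext u; exact (hasDerivAt_pos2 u).deriv
  rw [this]
  fun_prop

/-- the profiles `(1 - t^k)₊²`, increasing to the indicator of `[0,1)` -/
def prk (k : ℕ) (t : ℝ) : ℝ := max 0 (1 - t ^ k) ^ 2

theorem hasDerivAt_prk (k : ℕ) (t : ℝ) :
    HasDerivAt (prk k) (2 * max 0 (1 - t ^ k) * (-(k * t ^ (k - 1)))) t := by
  have h1 : HasDerivAt (fun t : ℝ => 1 - t ^ k) (-(k * t ^ (k - 1))) t :=
    (hasDerivAt_pow k t).const_sub 1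
  exact (hasDerivAt_pos2 (1 - t ^ k)).comp t h1

theorem prof_prk {k : ℕ} (hk : 1 ≤ k) : Prof (prk k) where
  cd := contDiff_pos2.comp (contDiff_const.sub (contDiff_id.pow k))
  zero := fun t ht => by
    unfold prk
    rw [max_eq_left]; · norm_num
    have : (1 : ℝ) ≤ t ^ k := one_le_pow₀ ht
    linarith
  anti := fun t ht => by
    rw [(hasDerivAt_prk k t).deriv]
    have h1 : (0 : ℝ) ≤ max 0 (1 - t ^ k) := le_max_left _ _
    have h2 : (0 : ℝ) ≤ k * t ^ (k - 1) := by positivity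
    nlinarith [mul_nonneg h1 h2]

/-- 852's profile `max(0,1-t)²` -/
theorem prof_psi : Prof (fun t : ℝ => max 0 (1 - t) ^ 2) := by
  have := prof_prk (k := 1) le_rfl
  have e : prk 1 = fun t : ℝ => max 0 (1 - t) ^ 2 := by
    funext t; simp [prk]
  rwa [e] at this

theorem prk_le_one {k : ℕ} {t : ℝ} (ht : 0 ≤ t) : prk k t ≤ 1 := by
  unfold prk
  have h1 : (0 : ℝ) ≤ max 0 (1 - t ^ k) := le_max_left _ _
  have h2 : max 0 (1 - t ^ k) ≤ 1 := by
    have : (0 : ℝ) ≤ t ^ k := by positivity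
    exact max_le zero_le_one (by linarith)
  nlinarith

theorem prk_nonneg (k : ℕ) (t : ℝ) : 0 ≤ prk k t := by unfold prk; positivity

theorem tendsto_prk {t : ℝ} (h0 : 0 ≤ t) (h1 : t < 1) :
    Tendsto (fun k => prk k t) atTop (𝓝 1) := by
  have h : Tendsto (fun k : ℕ => t ^ k) atTop (𝓝 0) := tendsto_pow_atTop_nhds_zero_of_lt_one h0 h1
  have h2 : Tendsto (fun k : ℕ => max 0 (1 - t ^ k) ^ 2) atTop (𝓝 (max 0 (1 - 0) ^ 2)) :=
    ((tendsto_const_nhds.max (tendsto_const_nhds.sub h)).pow 2)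
  unfold prk
  simpa using h2

variable {U : Set (EuclideanSpace ℝ (Fin n))} {h r : EuclideanSpace ℝ (Fin n) → ℝ} {ε : ℝ}

/-- energy of a ball as limit of the profile energies -/
theorem tendsto_FF_prk (A : ACSol U h r ε) {p : EE} {s : ℝ} (hs : 0 < s)
    (hb : closedBall p s ⊆ U) :
    Tendsto (fun k : ℕ => FF (prk (k + 1)) h r ε p s) atTop
      (𝓝 (∫ x in ball p s, qq h r ε x)) := by
  have cq := contOn_qq A
  have hqi : IntegrableOn (qq h r ε) (closedBall p s) volume :=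
    (cq.mono hb).integrableOn_compact (isCompact_closedBall p s)
  rw [← integral_indicator measurableSet_ball]
  unfold FF
  refine tendsto_integral_of_dominated_convergence
    ((closedBall p s).indicator fun x => |qq h r ε x|) ?_ ?_ ?_ ?_
  · intro k
    exact (integrable_radial A.isOpen cq (prof_prk (Nat.le_add_left 1 k)).cd.continuous
      (prof_prk (Nat.le_add_left 1 k)).zero hs hb).aestronglyMeasurable
  · rw [integrable_indicator_iff isClosed_closedBall.measurableSet]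
    exact hqi.abs
  · intro k
    refine ae_of_all _ fun x => ?_
    rw [Real.norm_eq_abs, abs_mul, abs_of_nonneg (prk_nonneg _ _)]
    by_cases hx : x ∈ closedBall p s
    · rw [indicator_of_mem hx]
      have := prk_le_one (k := k + 1) (t := N2 p x / s ^ 2)
        (div_nonneg (N2_nonneg p x) (by positivity))
      nlinarith [abs_nonneg (qq h r ε x)]
    · rw [indicator_of_notMem hx, (prof_prk (Nat.le_add_left 1 k)).zero, zero_mul]
      rw [mem_closedBall_iff_norm, not_le] at hx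
      rw [le_div_iff₀ (by positivity), one_mul, N2]
      exact pow_le_pow_left₀ hs.le hx.le 2
  · refine ae_of_all _ fun x => ?_
    by_cases hx : x ∈ ball p s
    · rw [indicator_of_mem hx]
      rw [mem_ball_iff_norm] at hx
      have h1 : N2 p x / s ^ 2 < 1 := by
        rw [div_lt_one (by positivity), N2]
        exact pow_lt_pow_left₀ hx (norm_nonneg _) (by norm_num)
      have h2 := (tendsto_prk (div_nonneg (N2_nonneg p x) (by positivity)) h1).comp
        (tendsto_add_atTop_nat 1)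
      have h3 := h2.mul_const (qq h r ε x)
      rw [one_mul] at h3
      exact h3
    · rw [indicator_of_notMem hx]
      have : ∀ k : ℕ, prk (k + 1) (N2 p x / s ^ 2) * qq h r ε x = 0 := by
        intro k
        rw [(prof_prk (Nat.le_add_left 1 k)).zero, zero_mul]
        rw [mem_ball_iff_norm, not_lt] at hx
        rw [le_div_iff₀ (by positivity), one_mul, N2]
        exact pow_le_pow_left₀ hs.le hx 2
      simp only [this]
      exact tendsto_const_nhds

/-- **monotonicity on balls**. -/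
theorem mono_ball (A : ACSol U h r ε) {p : EE} {s t s₀ K : ℝ}
    (hs : 0 < s) (hst : s ≤ t) (hts : t < s₀) (hb : closedBall p s₀ ⊆ U) (hK0 : 0 ≤ K)
    (hh : ∀ x ∈ ball p s₀, 0 ≤ h x)
    (hK : ∀ x ∈ ball p s₀, -(K * ‖x - p‖ * h x) ≤ rad h p x) (hn : 1 ≤ n) :
    (∫ x in ball p s, qq h r ε x) / s ^ (n - 1) ≤
      Real.exp (K * (t - s)) * ((∫ x in ball p t, qq h r ε x) / t ^ (n - 1)) := by
  have b1 : closedBall p s ⊆ U := (closedBall_subset_closedBall (by linarith)).trans hb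
  have b2 : closedBall p t ⊆ U := (closedBall_subset_closedBall (by linarith)).trans hb
  have l1 := (tendsto_FF_prk A hs b1).div_const (s ^ (n - 1))
  have l2 := ((tendsto_FF_prk A (lt_of_lt_of_le hs hst) b2).div_const (t ^ (n - 1))).const_mul
    (Real.exp (K * (t - s)))
  exact le_of_tendsto_of_tendsto' l1 l2 fun k =>
    mono_profile A (prof_prk (Nat.le_add_left 1 k)) hs hst hts hb hK0 hh hK hn

/-- the Euclidean norm of the derivative -/
theorem norm_fderiv_sq (f : EE → ℝ) (x : EE) : ‖fderiv ℝ f x‖ ^ 2 = gsq f x := by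
  have h1 : ‖fderiv ℝ f x‖ = ‖(InnerProductSpace.toDual ℝ EE).symm (fderiv ℝ f x)‖ :=
    (LinearIsometryEquiv.norm_map _ _).symm
  rw [h1, EuclideanSpace.real_norm_sq_eq, gsq]
  refine Finset.sum_congr rfl fun i _ => ?_
  have h2 : ((InnerProductSpace.toDual ℝ EE).symm (fderiv ℝ f x)) i = pderiv i f x := by
    have h3 : inner ℝ ((InnerProductSpace.toDual ℝ EE).symm (fderiv ℝ f x))
        (EuclideanSpace.single i (1 : ℝ)) = fderiv ℝ f x (EuclideanSpace.single i 1) :=
      InnerProductSpace.toDual_symm_apply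
    rw [EuclideanSpace.inner_single_right] at h3
    simp only [one_mul, conj_trivial] at h3
    rw [h3]; rfl
  rw [h2]; ring

/-- the gradient bound: `|r x| ≤ √H |x-p|` if `r p = 0` -/
theorem abs_le_of_zero (A : ACSol U h r ε) {p : EE} {s H : ℝ} (hb : ball p s ⊆ U)
    (hH : ∀ x ∈ ball p s, h x ≤ H) (h0 : r p = 0) {x : EE} (hx : x ∈ ball p s) :
    |r x| ≤ Real.sqrt H * ‖x - p‖ := by
  have hs : 0 < s := by
    rw [mem_ball] at hx; exact lt_of_le_of_lt dist_nonneg hx
  have hd : ∀ y ∈ ball p s, DifferentiableAt ℝ r y := fun y hy =>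
    sm_diff (A.smooth_r.contDiffAt (A.isOpen.mem_nhds (hb hy)))
  have hbd : ∀ y ∈ ball p s, ‖fderiv ℝ r y‖ ≤ Real.sqrt H := by
    intro y hy
    rw [← Real.sqrt_sq (norm_nonneg (fderiv ℝ r y)), norm_fderiv_sq]
    exact Real.sqrt_le_sqrt ((A.modica y (hb hy)).trans (hH y hy))
  have := (convex_ball p s).norm_image_sub_le_of_norm_fderiv_le hd hbd (mem_ball_self hs) hx
  rwa [h0, sub_zero, Real.norm_eq_abs] at this

/-- `sech²(s) ≥ sech²(a)` for `|s| ≤ a` -/
theorem sech_ge {s a : ℝ} (hs : |s| ≤ a) : 1 - Real.tanh a ^ 2 ≤ 1 - Real.tanh s ^ 2 := by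
  have ha : 0 ≤ a := (abs_nonneg s).trans hs
  have e : ∀ u : ℝ, 1 - Real.tanh u ^ 2 = 1 / Real.cosh u ^ 2 := by
    intro u
    have hc := (Real.cosh_pos u).ne'
    rw [Real.tanh_eq_sinh_div_cosh]
    have := Real.cosh_sq u
    field_simp
    linarith
  rw [e, e]
  have h1 : Real.cosh s ≤ Real.cosh a := by
    rw [Real.cosh_le_cosh]; rwa [abs_of_nonneg ha]
  exact one_div_le_one_div_of_le (by positivity)
    (pow_le_pow_left₀ (Real.cosh_pos s).le h1 2)

/-- **zeros carry energy** (scale `ε`). -/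
theorem energy_eps (A : ACSol U h r ε) {p : EE} {h₀ H : ℝ} (hh0 : 0 ≤ h₀)
    (hb : closedBall p ε ⊆ U) (h1 : ∀ x ∈ ball p ε, h₀ ≤ h x) (h2 : ∀ x ∈ ball p ε, h x ≤ H)
    (h0 : r p = 0) :
    1 / 2 * (1 - Real.tanh (Real.sqrt H) ^ 2) ^ 2 * h₀ * (volume.real (ball (0 : EE) 1)) *
      ε ^ (n - 1) * (if 1 ≤ n then 1 else 0) ≤ ∫ x in ball p ε, qq h r ε x := by
  have hε := A.eps_pos
  have cq := contOn_qq A
  have hbb : ball p ε ⊆ U := ball_subset_closedBall.trans hb
  have hqi : IntegrableOn (qq h r ε) (ball p ε) volume :=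
    ((cq.mono hb).integrableOn_compact (isCompact_closedBall p ε)).mono_set ball_subset_closedBall
  have hlow : ∀ x ∈ ball p ε,
      1 / (2 * ε) * (1 - Real.tanh (Real.sqrt H) ^ 2) ^ 2 * h₀ ≤ qq h r ε x := by
    intro x hx
    have a1 := abs_le_of_zero A hbb h2 h0 hx
    have a2 : |r x / ε| ≤ Real.sqrt H := by
      rw [abs_div, abs_of_pos hε, div_le_iff₀ hε]
      refine a1.trans (mul_le_mul_of_nonneg_left ?_ (Real.sqrt_nonneg _))
      rw [mem_ball_iff_norm] at hx; exact hx.le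
    have a3 := sech_ge a2
    have a4 : 0 ≤ 1 - Real.tanh (Real.sqrt H) ^ 2 := by
      have := tanh_sq_lt_one (Real.sqrt H); linarith
    unfold qq
    have a5 : (1 - Real.tanh (Real.sqrt H) ^ 2) ^ 2 ≤ (1 - Real.tanh (r x / ε) ^ 2) ^ 2 :=
      pow_le_pow_left₀ a4 a3 2
    have a6 : h₀ ≤ h x + gsq r x := by linarith [h1 x hx, gsq_nonneg r x]
    have a7 : 0 ≤ h x + gsq r x := hh0.trans a6
    calc 1 / (2 * ε) * (1 - Real.tanh (Real.sqrt H) ^ 2) ^ 2 * h₀
        ≤ 1 / (2 * ε) * (1 - Real.tanh (Real.sqrt H) ^ 2) ^ 2 * (h x + gsq r x) :=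
          mul_le_mul_of_nonneg_left a6 (by positivity)
      _ ≤ 1 / (2 * ε) * (1 - Real.tanh (r x / ε) ^ 2) ^ 2 * (h x + gsq r x) := by
          apply mul_le_mul_of_nonneg_right _ a7
          exact mul_le_mul_of_nonneg_left a5 (by positivity)
  have hfin : volume (ball p ε) ≠ ⊤ := measure_ball_lt_top.ne
  have hc : ∫ x in ball p ε, (1 / (2 * ε) * (1 - Real.tanh (Real.sqrt H) ^ 2) ^ 2 * h₀) ≤
      ∫ x in ball p ε, qq h r ε x :=
    setIntegral_mono_on (integrableOn_const hfin) hqi measurableSet_ball hlow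
  rw [setIntegral_const, smul_eq_mul] at hc
  have hvol : volume.real (ball p ε) = ε ^ n * volume.real (ball (0 : EE) 1) := by
    rw [measureReal_def, measureReal_def, Measure.addHaar_ball_of_pos volume p hε,
      finrank_euclideanSpace_fin, ENNReal.toReal_mul, ENNReal.toReal_ofReal (by positivity)]
  rw [hvol] at hc
  split_ifs with hn
  · refine le_trans (le_of_eq ?_) hc
    obtain ⟨k, rfl⟩ : ∃ k, n = k + 1 := ⟨n - 1, by omega⟩
    simp only [Nat.add_sub_cancel]
    rw [pow_succ]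
    field_simp
    try ring
  · rw [mul_zero]
    exact setIntegral_nonneg measurableSet_ball fun x hx => by
      rw [qq_eq]
      have c1 : 0 ≤ sg r ε x := sg_nonneg A.eps_pos r x
      have := gsq_nonneg r x
      have := hh0.trans (h1 x hx)
      positivity

/-- the lower density constant -/
def cE (n : ℕ) (h₀ H : ℝ) : ℝ :=
  1 / 2 * (1 - Real.tanh (Real.sqrt H) ^ 2) ^ 2 * h₀ *
    (volume.real (ball (0 : EuclideanSpace ℝ (Fin n)) 1))

theorem cE_pos {n : ℕ} {h₀ H : ℝ} (h : 0 < h₀) : 0 < cE n h₀ H := by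
  unfold cE
  have h1 : 0 < 1 - Real.tanh (Real.sqrt H) ^ 2 := by
    have := tanh_sq_lt_one (Real.sqrt H); linarith
  have h2 : 0 < volume.real (ball (0 : EuclideanSpace ℝ (Fin n)) 1) := by
    rw [measureReal_def]
    exact ENNReal.toReal_pos (measure_ball_pos _ _ one_pos).ne' measure_ball_lt_top.ne
  positivity

/-- **zeros carry energy**: `∫_{B_ρ(p)} q ≥ c e^{-Kρ} ρ^{n-1}` if `r p = 0`, `ε ≤ ρ < s₀`. -/
theorem energy_lower (A : ACSol U h r ε) {p : EE} {ρ s₀ K h₀ H : ℝ} (hn : 1 ≤ n)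
    (hρ : ε ≤ ρ) (hρs : ρ < s₀) (hb : closedBall p s₀ ⊆ U) (hK0 : 0 ≤ K) (hh0 : 0 ≤ h₀)
    (h1 : ∀ x ∈ ball p s₀, h₀ ≤ h x) (h2 : ∀ x ∈ ball p s₀, h x ≤ H)
    (hK : ∀ x ∈ ball p s₀, -(K * ‖x - p‖ * h x) ≤ rad h p x) (h0 : r p = 0) :
    cE n h₀ H * Real.exp (-(K * ρ)) * ρ ^ (n - 1) ≤ ∫ x in ball p ρ, qq h r ε x := by
  have hε := A.eps_pos
  have hεs : ε < s₀ := lt_of_le_of_lt hρ hρs
  have e1 := energy_eps A hh0 ((closedBall_subset_closedBall hεs.le).trans hb)
    (fun x hx => h1 x (ball_subset_ball hεs.le hx)) (fun x hx => h2 x (ball_subset_ball hεs.le hx)) h0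
  rw [if_pos hn, mul_one] at e1
  have e2 := mono_ball A hε hρ hρs hb hK0 (fun x hx => hh0.trans (h1 x hx)) hK hn
  have hρ0 : 0 < ρ := lt_of_lt_of_le hε hρ
  have e3 : cE n h₀ H ≤ (∫ x in ball p ε, qq h r ε x) / ε ^ (n - 1) := by
    rw [le_div_iff₀ (by positivity)]; exact e1
  have e4 : Real.exp (K * (ρ - ε)) ≤ Real.exp (K * ρ) := by
    apply Real.exp_le_exp.2
    apply mul_le_mul_of_nonneg_left _ hK0
    linarith
  have hpos : 0 ≤ (∫ x in ball p ρ, qq h r ε x) / ρ ^ (n - 1) := by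
    refine div_nonneg (setIntegral_nonneg measurableSet_ball fun x hx => ?_) (by positivity)
    rw [qq_eq]
    have c1 : 0 ≤ sg r ε x := sg_nonneg A.eps_pos r x
    have := gsq_nonneg r x
    have := hh0.trans (h1 x (ball_subset_ball hρs.le hx))
    positivity
  have e5 : cE n h₀ H ≤ Real.exp (K * ρ) * ((∫ x in ball p ρ, qq h r ε x) / ρ ^ (n - 1)) :=
    (e3.trans e2).trans (mul_le_mul_of_nonneg_right e4 hpos)
  have e6 : cE n h₀ H * Real.exp (-(K * ρ)) ≤ (∫ x in ball p ρ, qq h r ε x) / ρ ^ (n - 1) := by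
    calc cE n h₀ H * Real.exp (-(K * ρ))
        ≤ (Real.exp (K * ρ) * ((∫ x in ball p ρ, qq h r ε x) / ρ ^ (n - 1))) *
            Real.exp (-(K * ρ)) := mul_le_mul_of_nonneg_right e5 (Real.exp_pos _).le
      _ = (∫ x in ball p ρ, qq h r ε x) / ρ ^ (n - 1) := by
          rw [Real.exp_neg]; field_simp
  rwa [le_div_iff₀ (by positivity)] at e6

/-- `sech²(s) ≤ 4 e^{-2|s|}` -/
theorem sech_le (s : ℝ) : 1 - Real.tanh s ^ 2 ≤ 4 * Real.exp (-(2 * |s|)) := by
  have hc := (Real.cosh_pos s).ne'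
  have e : 1 - Real.tanh s ^ 2 = 1 / Real.cosh s ^ 2 := by
    rw [Real.tanh_eq_sinh_div_cosh]
    have := Real.cosh_sq s
    field_simp
    linarith
  rw [e, div_le_iff₀ (by positivity)]
  have h1 : Real.exp |s| / 2 ≤ Real.cosh s := by
    rw [← Real.cosh_abs, Real.cosh_eq]
    have := Real.exp_pos (-|s|)
    linarith
  have h2 : (Real.exp |s| / 2) ^ 2 ≤ Real.cosh s ^ 2 :=
    pow_le_pow_left₀ (by positivity) h1 2
  have h3 : Real.exp (-(2 * |s|)) * Real.exp |s| ^ 2 = 1 := by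
    rw [← Real.exp_nat_mul, ← Real.exp_add]
    have : -(2 * |s|) + ((2 : ℕ) : ℝ) * |s| = 0 := by push_cast; ring
    rw [this, Real.exp_zero]
  have h4 : 0 < Real.exp (-(2 * |s|)) := Real.exp_pos _
  have h5 : Real.exp (-(2 * |s|)) * (Real.exp |s| / 2) ^ 2 ≤
      Real.exp (-(2 * |s|)) * Real.cosh s ^ 2 := mul_le_mul_of_nonneg_left h2 h4.le
  nlinarith

/-- **no energy away from the zero set**: `q ≤ (16/ε) e^{-4δ/ε} h` where `|r| ≥ δ`. -/
theorem qq_le_exp (A : ACSol U h r ε) {x : EE} (hx : x ∈ U) {δ : ℝ} (hδ : δ ≤ |r x|) :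
    qq h r ε x ≤ 16 / ε * Real.exp (-(4 * δ / ε)) * h x := by
  have hε := A.eps_pos
  have h1 := sech_le (r x / ε)
  have h0 : 0 ≤ 1 - Real.tanh (r x / ε) ^ 2 := by
    have := tanh_sq_lt_one (r x / ε); linarith
  have h2 : (1 - Real.tanh (r x / ε) ^ 2) ^ 2 ≤ 16 * Real.exp (-(4 * δ / ε)) := by
    calc (1 - Real.tanh (r x / ε) ^ 2) ^ 2 ≤ (4 * Real.exp (-(2 * |r x / ε|))) ^ 2 :=
          pow_le_pow_left₀ h0 h1 2
      _ = 16 * Real.exp (-(4 * |r x / ε|)) := by
          rw [mul_pow, ← Real.exp_nat_mul]; push_cast; ring_nf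
      _ ≤ 16 * Real.exp (-(4 * δ / ε)) := by
          apply mul_le_mul_of_nonneg_left _ (by norm_num)
          apply Real.exp_le_exp.2
          rw [abs_div, abs_of_pos hε, mul_div_assoc]
          have : δ / ε ≤ |r x| / ε := div_le_div_of_nonneg_right hδ hε.le
          linarith
  have h3 : h x + gsq r x ≤ 2 * h x := by linarith [A.modica x hx]
  have h4 : 0 ≤ h x := (gsq_nonneg r x).trans (A.modica x hx)
  unfold qq
  calc 1 / (2 * ε) * (1 - Real.tanh (r x / ε) ^ 2) ^ 2 * (h x + gsq r x)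
      ≤ 1 / (2 * ε) * (1 - Real.tanh (r x / ε) ^ 2) ^ 2 * (2 * h x) :=
        mul_le_mul_of_nonneg_left h3 (by positivity)
    _ ≤ 1 / (2 * ε) * (16 * Real.exp (-(4 * δ / ε))) * (2 * h x) := by
        apply mul_le_mul_of_nonneg_right _ (by positivity)
        exact mul_le_mul_of_nonneg_left h2 (by positivity)
    _ = 16 / ε * Real.exp (-(4 * δ / ε)) * h x := by field_simp

end Crest.Agent.R246.Mon638
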