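import Crest.Agent.R246.G0_873
import Mathlib.MeasureTheory.Integral.RieszMarkovKakutani.Real
import Mathlib.Analysis.Calculus.BumpFunction.FiniteDimension

/-!
# Ultralimits of generalised varifolds

`exists_ultralimit` : a family of `PGV`s (all axioms of `GV` except the trace condition) with
locally bounded masses and asymptotic trace condition has an ultralimit which is a `GV`.
-/

set_option autoImplicit false
set_option linter.unusedSectionVars false
set_option linter.unusedVariables false
set_option linter.style.haveILetI false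
noncomputable section
open MeasureTheory Set Filter Topology
open scoped RealInnerProductSpace

namespace Crest.Agent.R246.G873

section ultra
variable {ι : Type*} (U : Ultrafilter ι)

/-- ultralimit of a real family -/
def ul (f : ι → ℝ) : ℝ := limUnder (U : Filter ι) f

lemma tendsto_ul {f : ι → ℝ} (h : ∃ C : ℝ, ∀ᶠ i in (U : Filter ι), |f i| ≤ C) :
    Tendsto f (U : Filter ι) (𝓝 (ul U f)) := by
  obtain ⟨C, hC⟩ := h
  have hmem : Icc (-C) C ∈ (U.map f) := by
    rw [Ultrafilter.mem_map]
    filter_upwards [hC] with i hi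
    exact abs_le.1 hi
  have := (isCompact_Icc (a := -C) (b := C)).ultrafilter_le_nhds' (U.map f) hmem
  obtain ⟨x, -, hx⟩ := this
  exact tendsto_nhds_limUnder ⟨x, hx⟩

end ultra

variable {E : Type*} [NormedAddCommGroup E] [InnerProductSpace ℝ E] [FiniteDimensional ℝ E]
  [MeasurableSpace E] [BorelSpace E]

lemma tp_apply (v w y : E) : tp v w y = ⟪v, y⟫ • w := by
  simp [tp]

lemma tp_add_left (v v' w : E) : tp (v + v') w = tp v w + tp v' w := by
  ext y; simp [tp_apply, inner_add_left, add_smul]

lemma tp_add_right (v w w' : E) : tp v (w + w') = tp v w + tp v w' := by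
  ext y; simp [tp_apply, smul_add]

lemma tp_smul_left (c : ℝ) (v w : E) : tp (c • v) w = c • tp v w := by
  ext y; simp [tp_apply, inner_smul_left, mul_smul]

lemma tp_smul_right (c : ℝ) (v w : E) : tp v (c • w) = c • tp v w := by
  ext y; simp [tp_apply, smul_comm c]

lemma tp_neg_right (v w : E) : tp v (-w) = -tp v w := by
  have := tp_smul_right (-1) v w
  simpa using this

lemma tp_neg_left (v w : E) : tp (-v) w = -tp v w := by
  have := tp_smul_left (-1) v w
  simpa using this

lemma continuous_tp {X : Type*} [TopologicalSpace X] {v w : X → E} (hv : Continuous v)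
    (hw : Continuous w) : Continuous (fun x => tp (v x) (w x)) := by
  unfold tp
  have h1 : Continuous (fun x => innerSL ℝ (v x)) := (innerSL ℝ).continuous.comp hv
  exact ((ContinuousLinearMap.smulRightL ℝ E E).continuous.comp h1).clm_apply hw

lemma hasCompactSupport_tp_left {X : Type*} [TopologicalSpace X] {v w : X → E}
    (hv : HasCompactSupport v) : HasCompactSupport (fun x => tp (v x) (w x)) := by
  refine hv.mono' ?_
  intro x hx
  apply subset_tsupport v
  intro h
  apply hx
  ext y
  simp [tp_apply, h]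

lemma hasCompactSupport_tp_right {X : Type*} [TopologicalSpace X] {v w : X → E}
    (hw : HasCompactSupport w) : HasCompactSupport (fun x => tp (v x) (w x)) := by
  refine hw.mono' ?_
  intro x hx
  apply subset_tsupport w
  intro h
  apply hx
  ext y
  simp [tp_apply, h]

/-- Pre-varifold: all axioms of `GV` except the trace condition. -/
structure PGV (E : Type*) [NormedAddCommGroup E] [InnerProductSpace ℝ E] [FiniteDimensional ℝ E]
    [MeasurableSpace E] [BorelSpace E] where
  μ : Measure E
  S : (E → E →L[ℝ] E) → ℝ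
  fin : IsFiniteMeasureOnCompacts μ
  S_add : ∀ F G : E → E →L[ℝ] E, Continuous F → HasCompactSupport F → Continuous G →
    HasCompactSupport G → S (fun x => F x + G x) = S F + S G
  S_smul : ∀ (c : ℝ) (F : E → E →L[ℝ] E), Continuous F → HasCompactSupport F →
    S (fun x => c • F x) = c * S F
  S_symm : ∀ v w : E → E, Continuous v → Continuous w → HasCompactSupport v →
    S (fun x => tp (v x) (w x)) = S (fun x => tp (w x) (v x))
  S_nonneg : ∀ v : E → E, Continuous v → HasCompactSupport v → 0 ≤ S (fun x => tp (v x) (v x))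
  S_le : ∀ v : E → E, Continuous v → HasCompactSupport v →
    S (fun x => tp (v x) (v x)) ≤ ∫ x, ‖v x‖ ^ 2 ∂μ

/-- forget the trace condition -/
def GV.toPGV (G : GV E) : PGV E where
  μ := G.μ
  S := G.S
  fin := G.fin
  S_add := G.S_add
  S_smul := G.S_smul
  S_symm := G.S_symm
  S_nonneg := G.S_nonneg
  S_le := G.S_le

namespace PGV

variable (P : PGV E)

lemma _root_.Crest.Agent.R246.G873.hasCompactSupport_fsum {α F : Type*} [AddCommMonoid F]
    [TopologicalSpace F] [ContinuousAdd F] (s : Finset α) (f : α → E → F)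
    (hc : ∀ a ∈ s, HasCompactSupport (f a)) : HasCompactSupport (∑ a ∈ s, f a) := by
  classical
  induction s using Finset.induction_on with
  | empty => simpa using (HasCompactSupport.zero : HasCompactSupport (0 : E → F))
  | insert b t hb ih2 =>
    rw [Finset.sum_insert hb]
    exact HasCompactSupport.add (hc b (Finset.mem_insert_self _ _))
      (ih2 (fun c hc' => hc c (Finset.mem_insert_of_mem hc')))

lemma S_zero : P.S (fun _ => 0) = 0 := by
  have := P.S_smul 0 (fun _ => 0) continuous_const HasCompactSupport.zero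
  simpa using this

lemma S_sum {α : Type*} (s : Finset α) (F : α → E → E →L[ℝ] E) (hF : ∀ a ∈ s, Continuous (F a))
    (hc : ∀ a ∈ s, HasCompactSupport (F a)) :
    P.S (fun x => ∑ a ∈ s, F a x) = ∑ a ∈ s, P.S (F a) := by
  classical
  induction s using Finset.induction_on with
  | empty => simpa using P.S_zero
  | insert a s ha ih =>
    have h1 := ih (fun b hb => hF b (Finset.mem_insert_of_mem hb))
      (fun b hb => hc b (Finset.mem_insert_of_mem hb))
    rw [Finset.sum_insert ha, ← h1]
    have : (fun x => ∑ b ∈ insert a s, F b x) = fun x => F a x + (∑ b ∈ s, F b x) := by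
      ext x : 1
      rw [Finset.sum_insert ha]
    rw [this]
    apply P.S_add
    · exact hF a (Finset.mem_insert_self _ _)
    · exact hc a (Finset.mem_insert_self _ _)
    · exact continuous_finsetSum _ (fun b hb => hF b (Finset.mem_insert_of_mem hb))
    · have : (fun x => ∑ b ∈ s, F b x) = ∑ b ∈ s, F b := by ext x; simp
      rw [this]
      exact hasCompactSupport_fsum s F (fun b hb => hc b (Finset.mem_insert_of_mem hb))

lemma S_neg (F : E → E →L[ℝ] E) (hF : Continuous F) (hc : HasCompactSupport F) :
    P.S (fun x => -F x) = -P.S F := by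
  have := P.S_smul (-1) F hF hc
  simpa using this

/-- expansion of the square -/
lemma S_tp_add (v w : E → E) (hv : Continuous v) (hw : Continuous w)
    (hcv : HasCompactSupport v) (hcw : HasCompactSupport w) :
    P.S (fun x => tp (v x + w x) (v x + w x))
      = P.S (fun x => tp (v x) (v x)) + 2 * P.S (fun x => tp (v x) (w x))
        + P.S (fun x => tp (w x) (w x)) := by
  have h1 : (fun x => tp (v x + w x) (v x + w x))
      = fun x => (tp (v x) (v x) + tp (v x) (w x)) + (tp (w x) (v x) + tp (w x) (w x)) := by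
    ext x : 1
    rw [tp_add_left, tp_add_right, tp_add_right]
  rw [h1, P.S_add, P.S_add, P.S_add, P.S_symm w v hw hv hcw]
  · ring
  · exact continuous_tp hw hv
  · exact hasCompactSupport_tp_left hcw
  · exact continuous_tp hw hw
  · exact hasCompactSupport_tp_left hcw
  · exact continuous_tp hv hv
  · exact hasCompactSupport_tp_left hcv
  · exact continuous_tp hv hw
  · exact hasCompactSupport_tp_left hcv
  · exact (continuous_tp hv hv).add (continuous_tp hv hw)
  · exact (hasCompactSupport_tp_left hcv).add (hasCompactSupport_tp_left hcv)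
  · exact (continuous_tp hw hv).add (continuous_tp hw hw)
  · exact (hasCompactSupport_tp_left hcw).add (hasCompactSupport_tp_left hcw)

lemma abs_S_tp_le (v w : E → E) (hv : Continuous v) (hw : Continuous w)
    (hcv : HasCompactSupport v) (hcw : HasCompactSupport w) :
    |P.S (fun x => tp (v x) (w x))|
      ≤ (1 / 2) * (P.S (fun x => tp (v x) (v x)) + P.S (fun x => tp (w x) (w x))) := by
  have h1 := P.S_tp_add v w hv hw hcv hcw
  have h2 := P.S_nonneg (fun x => v x + w x) (hv.add hw) (hcv.add hcw)
  have hcw' : HasCompactSupport (fun x => -w x) := hcw.neg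
  have h3 := P.S_tp_add v (fun x => -w x) hv hw.neg hcv hcw'
  have h4 := P.S_nonneg (fun x => v x + -w x) (hv.add hw.neg) (hcv.add hcw')
  have h5 : P.S (fun x => tp (v x) (-w x)) = -P.S (fun x => tp (v x) (w x)) := by
    have : (fun x => tp (v x) (-w x)) = fun x => -tp (v x) (w x) := by
      ext x : 1; rw [tp_neg_right]
    rw [this, P.S_neg _ (continuous_tp hv hw) (hasCompactSupport_tp_left hcv)]
  have h6 : (fun x => tp (-w x) (-w x)) = fun x => tp (w x) (w x) := by
    ext x : 1; rw [tp_neg_right, tp_neg_left, neg_neg]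
  rw [h5, h6] at h3
  rw [abs_le]
  constructor <;> linarith

lemma abs_S_tp_le' (v w : E → E) (hv : Continuous v) (hw : Continuous w)
    (hcv : HasCompactSupport v) (hcw : HasCompactSupport w) :
    |P.S (fun x => tp (v x) (w x))|
      ≤ (1 / 2) * ((∫ x, ‖v x‖ ^ 2 ∂P.μ) + ∫ x, ‖w x‖ ^ 2 ∂P.μ) := by
  have h1 := P.abs_S_tp_le v w hv hw hcv hcw
  have h2 := P.S_le v hv hcv
  have h3 := P.S_le w hw hcw
  linarith

end PGV

/-- a continuous cut-off equal to one on a compact set -/
lemma exists_cutoff {K : Set E} (hK : IsCompact K) :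
    ∃ χ : E → ℝ, Continuous χ ∧ HasCompactSupport χ ∧ (∀ x ∈ K, χ x = 1) ∧
      (∀ x, 0 ≤ χ x) ∧ ∀ x, χ x ≤ 1 := by
  obtain ⟨R, hR⟩ := hK.isBounded.subset_closedBall (0 : E)
  have hR' : K ⊆ Metric.closedBall (0 : E) (max R 1) :=
    hR.trans (Metric.closedBall_subset_closedBall (le_max_left _ _))
  set r : ℝ := max R 1
  have hr : 0 < r := lt_of_lt_of_le one_pos (le_max_right _ _)
  let f : ContDiffBump (0 : E) := ⟨r, r + 1, hr, by linarith⟩
  refine ⟨f, f.continuous, f.hasCompactSupport, ?_, fun x => f.nonneg, fun x => f.le_one⟩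
  intro x hx
  exact f.one_of_mem_closedBall (hR' hx)

/-- decomposition of a matrix field. -/
lemma field_decomp (F : E → E →L[ℝ] E) (χ : E → ℝ) (hχ : ∀ x, F x ≠ 0 → χ x = 1) :
    F = fun x => ∑ a, tp (χ x • stdOrthonormalBasis ℝ E a) (F x (stdOrthonormalBasis ℝ E a)) := by
  ext x y
  by_cases hF : F x = 0
  · simp [tp_apply, hF]
  · have h1 := hχ x hF
    have h2 : (∑ a, tp (χ x • stdOrthonormalBasis ℝ E a) (F x (stdOrthonormalBasis ℝ E a))) y
        = ∑ a, ⟪stdOrthonormalBasis ℝ E a, y⟫ • F x (stdOrthonormalBasis ℝ E a) := by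
      rw [sum_apply]
      refine Finset.sum_congr rfl fun a _ => ?_
      rw [tp_apply, h1, one_smul]
    rw [h2]
    conv_lhs => rw [← (stdOrthonormalBasis ℝ E).sum_repr' y]
    rw [map_sum]
    refine Finset.sum_congr rfl fun a _ => ?_
    rw [map_smul]

lemma integral_abs_le_sup (μ : Measure E) [IsFiniteMeasureOnCompacts μ] (f : E → ℝ)
    (hf : Continuous f) (hc : HasCompactSupport f) {M : ℝ} (hM : ∀ x, |f x| ≤ M) :
    |∫ x, f x ∂μ| ≤ M * (μ (tsupport f)).toReal := by
  have hK : μ (tsupport f) < ⊤ := hc.isCompact.measure_lt_top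
  have h1 : ∫ x, f x ∂μ = ∫ x in tsupport f, f x ∂μ := by
    rw [setIntegral_eq_integral_of_forall_compl_eq_zero]
    intro x hx
    exact image_eq_zero_of_notMem_tsupport hx
  rw [h1]
  have := norm_setIntegral_le_of_norm_le_const hK (f := f) (C := M)
    (fun x _ => by simpa using hM x)
  simpa [Real.norm_eq_abs, Measure.real] using this

section main
variable {ι : Type*} (U : Ultrafilter ι)

/-- locally bounded masses -/
def LocBdd (P : ι → PGV E) : Prop :=
  ∀ K : Set E, IsCompact K → ∃ C : ℝ, ∀ᶠ i in (U : Filter ι), ((P i).μ K).toReal ≤ C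

lemma bdd_integral {P : ι → PGV E} (h : LocBdd U P) (f : E → ℝ) (hf : Continuous f)
    (hc : HasCompactSupport f) :
    ∃ C : ℝ, ∀ᶠ i in (U : Filter ι), |∫ x, f x ∂(P i).μ| ≤ C := by
  obtain ⟨M, hM⟩ := hc.exists_bound_of_continuous hf
  obtain ⟨C, hC⟩ := h _ hc.isCompact
  have hM0 : 0 ≤ M := (norm_nonneg _).trans (hM 0)
  refine ⟨M * C, ?_⟩
  filter_upwards [hC] with i hi
  haveI := (P i).fin
  refine (integral_abs_le_sup (P i).μ f hf hc (fun x => by simpa using hM x)).trans ?_
  exact mul_le_mul_of_nonneg_left hi hM0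

lemma bdd_S {P : ι → PGV E} (h : LocBdd U P) (F : E → E →L[ℝ] E) (hF : Continuous F)
    (hc : HasCompactSupport F) :
    ∃ C : ℝ, ∀ᶠ i in (U : Filter ι), |(P i).S F| ≤ C := by
  obtain ⟨χ, hχ, hcχ, hχ1, hχ0, hχle⟩ := exists_cutoff hc.isCompact
  set b := stdOrthonormalBasis ℝ E
  have hdec := field_decomp F χ (fun x hx => hχ1 x (subset_tsupport F hx))
  have hv : ∀ a, Continuous (fun x => χ x • b a) := fun a => hχ.smul continuous_const
  have hw : ∀ a, Continuous (fun x => F x (b a)) := fun a => hF.clm_apply continuous_const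
  have hcv : ∀ a, HasCompactSupport (fun x => χ x • b a) := fun a => hcχ.smul_right
  have hcw : ∀ a, HasCompactSupport (fun x => F x (b a)) := by
    intro a
    refine hc.mono' ?_
    intro x hx
    apply subset_tsupport F
    intro h0
    apply hx
    simp [h0]
  have hb : ∀ a, ∃ C : ℝ, ∀ᶠ i in (U : Filter ι),
      |(P i).S (fun x => tp (χ x • b a) (F x (b a)))| ≤ C := by
    intro a
    obtain ⟨C1, hC1⟩ := bdd_integral U h (fun x => ‖χ x • b a‖ ^ 2)
      ((hv a).norm.pow 2) ((hcv a).norm.comp_left (g := fun t : ℝ => t ^ 2) (by simp))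
    obtain ⟨C2, hC2⟩ := bdd_integral U h (fun x => ‖F x (b a)‖ ^ 2)
      ((hw a).norm.pow 2) ((hcw a).norm.comp_left (g := fun t : ℝ => t ^ 2) (by simp))
    refine ⟨(1 / 2) * (C1 + C2), ?_⟩
    filter_upwards [hC1, hC2] with i h1 h2
    refine ((P i).abs_S_tp_le' _ _ (hv a) (hw a) (hcv a) (hcw a)).trans ?_
    have := le_abs_self (∫ x, ‖χ x • b a‖ ^ 2 ∂(P i).μ)
    have := le_abs_self (∫ x, ‖F x (b a)‖ ^ 2 ∂(P i).μ)
    linarith
  choose C hC using hb
  refine ⟨∑ a, C a, ?_⟩
  have hall : ∀ᶠ i in (U : Filter ι), ∀ a, |(P i).S (fun x => tp (χ x • b a) (F x (b a)))| ≤ C a :=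
    eventually_all.2 hC
  filter_upwards [hall] with i hi
  rw [hdec, (P i).S_sum _ _ (fun a _ => continuous_tp (hv a) (hw a))
    (fun a _ => hasCompactSupport_tp_left (hcv a))]
  exact (Finset.abs_sum_le_sum_abs _ _).trans (Finset.sum_le_sum fun a _ => hi a)

open CompactlySupported CompactlySupportedContinuousMap in
/-- Ultralimits exist. -/
theorem exists_ultralimit (P : ι → PGV E) (hbd : LocBdd U P)
    (htr : ∀ f : E → ℝ, Continuous f → HasCompactSupport f →
      Tendsto (fun i => (P i).S (fun x => f x • ContinuousLinearMap.id ℝ E) - ∫ x, f x ∂(P i).μ)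
        (U : Filter ι) (𝓝 0)) :
    ∃ G : GV E,
      (∀ f : E → ℝ, Continuous f → HasCompactSupport f →
        Tendsto (fun i => ∫ x, f x ∂(P i).μ) (U : Filter ι) (𝓝 (∫ x, f x ∂G.μ))) ∧
      (∀ F : E → E →L[ℝ] E, Continuous F → HasCompactSupport F →
        Tendsto (fun i => (P i).S F) (U : Filter ι) (𝓝 (G.S F))) := by
  have hI : ∀ f : E → ℝ, Continuous f → HasCompactSupport f →
      Tendsto (fun i => ∫ x, f x ∂(P i).μ) (U : Filter ι)
        (𝓝 (ul U (fun i => ∫ x, f x ∂(P i).μ))) :=
    fun f hf hc => tendsto_ul U (bdd_integral U hbd f hf hc)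
  have hS : ∀ F : E → E →L[ℝ] E, Continuous F → HasCompactSupport F →
      Tendsto (fun i => (P i).S F) (U : Filter ι) (𝓝 (ul U (fun i => (P i).S F))) :=
    fun F hF hc => tendsto_ul U (bdd_S U hbd F hF hc)
  let L0 : C_c(E, ℝ) →ₗ[ℝ] ℝ :=
    { toFun := fun f => ul U (fun i => ∫ x, f x ∂(P i).μ)
      map_add' := by
        intro f g
        have h1 := (hI f f.continuous f.hasCompactSupport).add (hI g g.continuous g.hasCompactSupport)
        have h2 := hI (f + g) (f + g).continuous (f + g).hasCompactSupport
        refine tendsto_nhds_unique h2 (h1.congr fun i => ?_)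
        haveI := (P i).fin
        rw [← integral_add]
        · rfl
        · exact f.continuous.integrable_of_hasCompactSupport f.hasCompactSupport
        · exact g.continuous.integrable_of_hasCompactSupport g.hasCompactSupport
      map_smul' := by
        intro c f
        have h1 := (hI f f.continuous f.hasCompactSupport).const_mul c
        have h2 := hI (c • f) (c • f).continuous (c • f).hasCompactSupport
        refine tendsto_nhds_unique h2 (h1.congr fun i => ?_)
        rw [← integral_const_mul]
        rfl }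
  let Λ : C_c(E, ℝ) →ₚ[ℝ] ℝ := PositiveLinearMap.mk₀ L0 (by
    intro f hf
    have h2 := hI f f.continuous f.hasCompactSupport
    exact ge_of_tendsto' h2 fun i => integral_nonneg fun x => hf x)
  set ν := RealRMK.rieszMeasure Λ with hν
  have hνint : ∀ f : E → ℝ, Continuous f → HasCompactSupport f →
      ∫ x, f x ∂ν = ul U (fun i => ∫ x, f x ∂(P i).μ) := by
    intro f hf hc
    have := RealRMK.integral_rieszMeasure Λ ⟨⟨f, hf⟩, hc⟩
    exact this
  refine ⟨{
    μ := ν
    S := fun F => ul U (fun i => (P i).S F)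
    fin := inferInstance
    S_add := ?_
    S_smul := ?_
    S_symm := ?_
    S_nonneg := ?_
    S_le := ?_
    S_one := ?_ }, ?_, ?_⟩
  · intro F G hF hcF hG hcG
    refine tendsto_nhds_unique (hS _ (hF.add hG) (hcF.add hcG))
      (((hS F hF hcF).add (hS G hG hcG)).congr fun i => ?_)
    rw [(P i).S_add F G hF hcF hG hcG]
  · intro c F hF hcF
    refine tendsto_nhds_unique (hS _ (hF.const_smul c) ?_)
      (((hS F hF hcF).const_mul c).congr fun i => ?_)
    · exact hcF.smul_left (f := fun _ => c)
    · rw [(P i).S_smul c F hF hcF]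
  · intro v w hv hw hcv
    simp only [fun i => (P i).S_symm v w hv hw hcv]
  · intro v hv hcv
    exact ge_of_tendsto' (hS _ (continuous_tp hv hv) (hasCompactSupport_tp_left hcv))
      fun i => (P i).S_nonneg v hv hcv
  · intro v hv hcv
    have hc2 : HasCompactSupport (fun x => ‖v x‖ ^ 2) :=
      hcv.norm.comp_left (g := fun t : ℝ => t ^ 2) (by simp)
    have hcn : Continuous (fun x => ‖v x‖ ^ 2) := by fun_prop
    rw [hνint _ hcn hc2]
    exact le_of_tendsto_of_tendsto' (hS _ (continuous_tp hv hv) (hasCompactSupport_tp_left hcv))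
      (hI _ hcn hc2) fun i => (P i).S_le v hv hcv
  · intro f hf hc
    have hcF : HasCompactSupport (fun x => f x • ContinuousLinearMap.id ℝ E) := hc.smul_right
    have hF : Continuous (fun x => f x • ContinuousLinearMap.id ℝ E) := hf.smul continuous_const
    rw [hνint f hf hc]
    have h1 := (hS _ hF hcF).sub (hI f hf hc)
    have := tendsto_nhds_unique h1 (htr f hf hc)
    linarith
  · intro f hf hc
    simp only []
    rw [hνint f hf hc]
    exact hI f hf hc
  · intro F hF hc
    exact hS F hF hc

end main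

end Crest.Agent.R246.G873
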