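import Crest.Agent.R246.Lim4_538
import Crest.Agent.R246.UL_873
import Crest.Agent.R246.VbVar_872
import Crest.Agent.R246.MonBall_638

/-!
Row 246, block E3 (helper538): the pre-varifold of a spherical Allen–Cahn solution (cone form).
-/

set_option autoImplicit false

open Filter Topology Metric Set MeasureTheory
open scoped ContDiff RealInnerProductSpace
open Crest.GeometryTopology.CoordMetric Crest.GeometryTopology.AffineMaximal
open Crest.Agent.R236.Jet Crest.Agent.R246.D2x782 Crest.Agent.R246.G873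
open Crest.Agent.R246.Stress638

noncomputable section

namespace Crest.Agent.R246.Lim538

variable {n : ℕ}

local notation "EE" => EuclideanSpace ℝ (Fin n)

/-- the weight `|x|⁻²` -/
def hw (x : EuclideanSpace ℝ (Fin n)) : ℝ := (‖x‖ ^ 2)⁻¹

/-- cone energy density `(3/4) |x| q` -/
def wq (R : EuclideanSpace ℝ (Fin n) → ℝ) (ε : ℝ) (x : EuclideanSpace ℝ (Fin n)) : ℝ :=
  3 / 4 * ‖x‖ * qq hw R ε x

/-- cone discrepancy density `(3/8) |x| sech⁴/ε (|x|⁻² - |∇R|²)` -/
def wd (R : EuclideanSpace ℝ (Fin n) → ℝ) (ε : ℝ) (x : EuclideanSpace ℝ (Fin n)) : ℝ :=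
  3 / 8 * ‖x‖ * (sg R ε x * (hw x - gsq R x))

/-- normal weight `(3/4) |x| sech⁴/ε` -/
def ws (R : EuclideanSpace ℝ (Fin n) → ℝ) (ε : ℝ) (x : EuclideanSpace ℝ (Fin n)) : ℝ :=
  3 / 4 * ‖x‖ * sg R ε x

theorem wq_eq (R : EE → ℝ) (ε : ℝ) (x : EE) : wq R ε x = ws R ε x * gsq R x + wd R ε x := by
  unfold wq ws wd; rw [qq_eq]; ring

theorem hw_smul {t : ℝ} (x : EE) : hw (t • x) = (t ^ 2)⁻¹ * hw x := by
  unfold hw
  rw [norm_smul, mul_pow, Real.norm_eq_abs, sq_abs, mul_inv]

/-- a spherical Allen–Cahn solution in cone form -/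
structure Sol (R : EuclideanSpace ℝ (Fin n) → ℝ) (ε : ℝ) : Prop where
  sm : SmHom0 R
  pos : 0 < ε
  ac : ACeq ε R
  mod : ∀ x : EuclideanSpace ℝ (Fin n), x ≠ 0 → sgsq R x ≤ 1

theorem Sol.mk' (hn : 3 ≤ n) {R : EE → ℝ} {ε : ℝ} (hR : SmHom0 R) (hε : 0 < ε)
    (hac : ACeq ε R) : Sol R ε := ⟨hR, hε, hac, fun _ hx => (modica hn hε hR hac hx).le⟩

namespace Sol

variable {R : EuclideanSpace ℝ (Fin n) → ℝ} {ε : ℝ}

theorem acsol (H : Sol R ε) : ACSol ({0}ᶜ : Set EE) hw R ε := acsol_of_smHom0 H.sm H.pos H.ac H.mod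

theorem gsq_smul (H : Sol R ε) {x : EE} (hx : x ≠ 0) {t : ℝ} (ht : 0 < t) :
    gsq R (t • x) = (t ^ 2)⁻¹ * gsq R x := by
  unfold gsq
  rw [Finset.mul_sum]
  refine Finset.sum_congr rfl fun i _ => ?_
  rw [H.sm.pderiv_smul hx ht i]
  field_simp

theorem qq_smul (H : Sol R ε) {x : EE} (hx : x ≠ 0) {t : ℝ} (ht : 0 < t) :
    qq hw R ε (t • x) = (t ^ 2)⁻¹ * qq hw R ε x := by
  unfold qq
  rw [H.gsq_smul hx ht, hw_smul, H.sm.hom t x ht]
  ring

theorem wq_smul (H : Sol R ε) {x : EE} {t : ℝ} (ht : 0 < t) :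
    wq R ε (t • x) = t⁻¹ * wq R ε x := by
  by_cases hx : x = 0
  · subst hx; simp [wq]
  · unfold wq
    rw [H.qq_smul hx ht, norm_smul, Real.norm_eq_abs, abs_of_pos ht]
    field_simp

theorem gsq_le (H : Sol R ε) {x : EE} (hx : x ≠ 0) : gsq R x ≤ hw x := H.acsol.modica x hx

theorem sg_nn (H : Sol R ε) (x : EE) : 0 ≤ sg R ε x := sg_nonneg H.pos R x

theorem sg_le (H : Sol R ε) (x : EE) : sg R ε x ≤ 1 / ε := by
  unfold sg
  have h1 := tanh_sq_lt (R x / ε)
  have h2 : (1 - Real.tanh (R x / ε) ^ 2) ^ 2 ≤ 1 := by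
    have h3 : 0 ≤ Real.tanh (R x / ε) ^ 2 := sq_nonneg _
    have h4 : 0 ≤ 1 - Real.tanh (R x / ε) ^ 2 := by linarith
    have h5 : 1 - Real.tanh (R x / ε) ^ 2 ≤ 1 := by linarith
    calc _ ≤ (1 : ℝ) ^ 2 := by gcongr
      _ = 1 := one_pow 2
  have := H.pos
  calc 1 / ε * (1 - Real.tanh (R x / ε) ^ 2) ^ 2 ≤ 1 / ε * 1 := by gcongr
    _ = 1 / ε := mul_one _

theorem wq_nonneg (H : Sol R ε) (x : EE) : 0 ≤ wq R ε x := by
  by_cases hx : x = 0
  · subst hx; simp [wq]
  · unfold wq
    have := H.acsol.qq_nonneg (x := x) hx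
    positivity

theorem ws_nonneg (H : Sol R ε) (x : EE) : 0 ≤ ws R ε x := by
  unfold ws; have := H.sg_nn x; positivity

theorem wd_nonneg (H : Sol R ε) (x : EE) : 0 ≤ wd R ε x := by
  by_cases hx : x = 0
  · subst hx; simp [wd]
  · unfold wd
    have h1 := H.sg_nn x
    have h2 := H.gsq_le hx
    have h3 : 0 ≤ hw x - gsq R x := by linarith
    positivity

theorem wq_le (H : Sol R ε) (x : EE) : wq R ε x ≤ 3 / (4 * ε) * ‖x‖⁻¹ := by
  by_cases hx : x = 0
  · subst hx; simp [wq]
  · have h1 := H.sg_nn x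
    have h2 := H.gsq_le hx
    have h3 := H.sg_le x
    have h5 := H.pos
    have h6 : 0 < ‖x‖ := norm_pos_iff.2 hx
    have h7 : 0 ≤ hw x := by unfold hw; positivity
    have h8 := gsq_nonneg R x
    unfold wq
    rw [qq_eq]
    calc 3 / 4 * ‖x‖ * (1 / 2 * sg R ε x * (hw x + gsq R x))
        ≤ 3 / 4 * ‖x‖ * (1 / 2 * (1 / ε) * (hw x + hw x)) := by gcongr
      _ = 3 / (4 * ε) * (‖x‖ * hw x) := by field_simp; ring
      _ = 3 / (4 * ε) * ‖x‖⁻¹ := by
        congr 1
        unfold hw
        field_simp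

theorem continuousOn_wq (H : Sol R ε) : ContinuousOn (wq R ε) ({0}ᶜ : Set EE) := by
  unfold wq
  exact (continuousOn_const.mul continuous_norm.continuousOn).mul H.acsol.cont_qq

theorem continuousOn_sg (H : Sol R ε) : ContinuousOn (sg R ε) ({0}ᶜ : Set EE) := H.acsol.cont_sech

theorem continuousOn_ws (H : Sol R ε) : ContinuousOn (ws R ε) ({0}ᶜ : Set EE) := by
  unfold ws
  exact (continuousOn_const.mul continuous_norm.continuousOn).mul H.continuousOn_sg

theorem continuousOn_wd (H : Sol R ε) : ContinuousOn (wd R ε) ({0}ᶜ : Set EE) := by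
  unfold wd
  exact (continuousOn_const.mul continuous_norm.continuousOn).mul
    (H.continuousOn_sg.mul (H.acsol.cont_h.sub H.acsol.cont_gsq))

end Sol

/-- a function continuous on `{0}ᶜ` is measurable -/
theorem measurable_of_continuousOn_compl {F : Type*} [TopologicalSpace F] [MeasurableSpace F]
    [BorelSpace F] {f : EE → F} (hf : ContinuousOn f ({0}ᶜ : Set EE)) : Measurable f := by
  have h1 : Measurable (fun x : ({0}ᶜ : Set EE) => f x) := by
    have := continuousOn_iff_continuous_domRestrict.1 hf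
    exact this.measurable
  have h2 : Measurable (fun x : ((({0}ᶜ : Set EE)ᶜ : Set EE)) => f x) := by
    have : (fun x : ((({0}ᶜ : Set EE)ᶜ : Set EE)) => f x) = fun _ => f 0 := by
      funext x
      have hx : (x : EE) = 0 := by simpa using x.2
      rw [hx]
    rw [this]; exact measurable_const
  exact measurable_of_restrict_of_restrict_compl (isOpen_compl_singleton.measurableSet) h1 h2

/-- integrability of bounded compactly supported functions against `1/|x|` -/
theorem integrable_div_norm (hn : 2 ≤ n) {g : EE → ℝ} (hg : AEStronglyMeasurable g volume)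
    {C ρ : ℝ} (hC : ∀ x, |g x| ≤ C * ‖x‖⁻¹) (hρ : ∀ x, ρ < ‖x‖ → g x = 0) : Integrable g := by
  have hfin : 2 ≤ Module.finrank ℝ EE := by simpa using hn
  have h1 := (Crest.Agent.R246.Vb872.integrable_gauss_radial hfin (b := 1) one_pos).const_mul (|C| * Real.exp (ρ ^ 2))
  refine h1.mono' hg (Eventually.of_forall fun x => ?_)
  rw [Real.norm_eq_abs]
  by_cases hx : ρ < ‖x‖
  · rw [hρ x hx, abs_zero]; positivity
  · replace hx := not_lt.1 hx
    have h0 : 0 ≤ ‖x‖ := norm_nonneg x
    have h2 : (1 : ℝ) ≤ Real.exp (ρ ^ 2) * Real.exp (-1 * ‖x‖ ^ 2) := by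
      rw [← Real.exp_add]
      apply Real.one_le_exp
      have : ‖x‖ ^ 2 ≤ ρ ^ 2 := by gcongr
      linarith
    have h3 : ‖x‖⁻¹ ≤ 2 * ‖x‖⁻¹ + 1 + ‖x‖ := by
      have : 0 ≤ ‖x‖⁻¹ := by positivity
      linarith
    calc |g x| ≤ C * ‖x‖⁻¹ := hC x
      _ ≤ |C| * ‖x‖⁻¹ := by gcongr; exact le_abs_self C
      _ ≤ |C| * (1 * (2 * ‖x‖⁻¹ + 1 + ‖x‖)) := by rw [one_mul]; gcongr
      _ ≤ |C| * ((Real.exp (ρ ^ 2) * Real.exp (-1 * ‖x‖ ^ 2)) * (2 * ‖x‖⁻¹ + 1 + ‖x‖)) := by
        gcongr
      _ = _ := by ring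

theorem continuousOn_gradient {R : EE → ℝ} (hR : SmHom0 R) :
    ContinuousOn (gradient R) ({0}ᶜ : Set EE) := by
  have h1 : ContDiffOn ℝ ∞ R ({0}ᶜ : Set EE) := fun x hx => (hR.smooth x hx).contDiffWithinAt
  have h2 : ContinuousOn (fderiv ℝ R) ({0}ᶜ : Set EE) :=
    h1.continuousOn_fderiv_of_isOpen isOpen_compl_singleton (by simp)
  exact (InnerProductSpace.toDual ℝ EE).symm.continuous.comp_continuousOn h2

theorem norm_gradient_sq (R : EE → ℝ) (x : EE) : ‖gradient R x‖ ^ 2 = gsq R x := by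
  rw [← Crest.Agent.R246.Mon638.norm_fderiv_sq]
  congr 1
  exact LinearIsometryEquiv.norm_map _ _

namespace Sol

variable {R : EuclideanSpace ℝ (Fin n) → ℝ} {ε : ℝ}

theorem measurable_wq (H : Sol R ε) : Measurable (wq R ε) :=
  measurable_of_continuousOn_compl H.continuousOn_wq

theorem measurable_wd (H : Sol R ε) : Measurable (wd R ε) :=
  measurable_of_continuousOn_compl H.continuousOn_wd

theorem measurable_ws (H : Sol R ε) : Measurable (ws R ε) :=
  measurable_of_continuousOn_compl H.continuousOn_ws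

theorem ws_gsq_le (H : Sol R ε) (x : EE) : ws R ε x * gsq R x ≤ wq R ε x := by
  rw [wq_eq]; linarith [H.wd_nonneg x]

/-- integrand of `S` -/
theorem abs_integrand_le (H : Sol R ε) (F : EE →L[ℝ] EE) (x : EE) :
    |ws R ε x * ⟪F (gradient R x), gradient R x⟫| ≤ ‖F‖ * wq R ε x := by
  have h1 : |⟪F (gradient R x), gradient R x⟫| ≤ ‖F‖ * gsq R x := by
    calc |⟪F (gradient R x), gradient R x⟫| ≤ ‖F (gradient R x)‖ * ‖gradient R x‖ :=
          abs_real_inner_le_norm _ _
      _ ≤ ‖F‖ * ‖gradient R x‖ * ‖gradient R x‖ := by gcongr; exact F.le_opNorm _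
      _ = ‖F‖ * gsq R x := by rw [← norm_gradient_sq]; ring
  rw [abs_mul, abs_of_nonneg (H.ws_nonneg x)]
  calc ws R ε x * |⟪F (gradient R x), gradient R x⟫| ≤ ws R ε x * (‖F‖ * gsq R x) := by
        gcongr; exact H.ws_nonneg x
    _ = ‖F‖ * (ws R ε x * gsq R x) := by ring
    _ ≤ _ := by gcongr; exact H.ws_gsq_le x

theorem continuousOn_integrand (H : Sol R ε) {F : EE → EE →L[ℝ] EE} (hF : Continuous F) :
    ContinuousOn (fun x => ws R ε x * ⟪F x (gradient R x), gradient R x⟫) ({0}ᶜ : Set EE) := by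
  have hg := continuousOn_gradient H.sm
  exact H.continuousOn_ws.mul ((hF.continuousOn.clm_apply hg).inner hg)

theorem integrable_integrand (hn : 2 ≤ n) (H : Sol R ε) {F : EE → EE →L[ℝ] EE} (hF : Continuous F)
    (hc : HasCompactSupport F) :
    Integrable fun x => ws R ε x * ⟪F x (gradient R x), gradient R x⟫ := by
  obtain ⟨C, hC⟩ := hF.bounded_above_of_compact_support hc
  obtain ⟨ρ, hρ⟩ := hc.isCompact.isBounded.subset_closedBall 0
  refine integrable_div_norm hn (C := C * (3 / (4 * ε))) (ρ := ρ)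
    (measurable_of_continuousOn_compl (H.continuousOn_integrand hF)).aestronglyMeasurable ?_ ?_
  · intro x
    have hC0 : 0 ≤ C := (norm_nonneg _).trans (hC x)
    calc _ ≤ ‖F x‖ * wq R ε x := H.abs_integrand_le (F x) x
      _ ≤ C * (3 / (4 * ε) * ‖x‖⁻¹) := by
        gcongr
        · exact H.wq_nonneg x
        · exact hC x
        · exact H.wq_le x
      _ = _ := by ring
  · intro x hx
    have : x ∉ tsupport F := fun h => by
      have := hρ h
      rw [mem_closedBall, dist_zero_right] at this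
      linarith
    rw [image_eq_zero_of_notMem_tsupport this]; simp

/-- the weight measure -/
def mu (R : EuclideanSpace ℝ (Fin n) → ℝ) (ε : ℝ) : Measure (EuclideanSpace ℝ (Fin n)) :=
  volume.withDensity fun x => ENNReal.ofReal (wq R ε x)

theorem integral_mu (H : Sol R ε) (f : EE → ℝ) : ∫ x, f x ∂(mu R ε) = ∫ x, wq R ε x * f x := by
  unfold mu
  rw [integral_withDensity_eq_integral_toReal_smul H.measurable_wq.ennreal_ofReal
    (Eventually.of_forall fun x => ENNReal.ofReal_lt_top)]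
  refine integral_congr_ae (Eventually.of_forall fun x => ?_)
  simp only [smul_eq_mul]
  rw [ENNReal.toReal_ofReal (H.wq_nonneg x)]

theorem integrable_wq_mul (hn : 2 ≤ n) (H : Sol R ε) {f : EE → ℝ} (hf : Continuous f)
    (hc : HasCompactSupport f) : Integrable fun x => wq R ε x * f x := by
  obtain ⟨C, hC⟩ := hf.bounded_above_of_compact_support hc
  obtain ⟨ρ, hρ⟩ := hc.isCompact.isBounded.subset_closedBall 0
  refine integrable_div_norm hn (C := C * (3 / (4 * ε))) (ρ := ρ)
    (measurable_of_continuousOn_compl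
      (H.continuousOn_wq.mul hf.continuousOn)).aestronglyMeasurable ?_ ?_
  · intro x
    have hC0 : 0 ≤ C := (norm_nonneg _).trans (hC x)
    rw [abs_mul, abs_of_nonneg (H.wq_nonneg x)]
    calc _ ≤ 3 / (4 * ε) * ‖x‖⁻¹ * C := by
          have := H.wq_le x
          have h2 := hC x
          rw [Real.norm_eq_abs] at h2
          have h3 := H.pos
          gcongr
      _ = _ := by ring
  · intro x hx
    have : x ∉ tsupport f := fun h => by
      have := hρ h
      rw [mem_closedBall, dist_zero_right] at this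
      linarith
    rw [image_eq_zero_of_notMem_tsupport this]; simp

theorem mu_fin (hn : 2 ≤ n) (H : Sol R ε) : IsFiniteMeasureOnCompacts (mu R ε) := by
  refine ⟨fun {K} hK => ?_⟩
  obtain ⟨χ, hχ, hχc, hχ1, hχ0, -⟩ := exists_cutoff hK
  have hi := H.integrable_wq_mul hn hχ hχc
  unfold mu
  rw [withDensity_apply _ hK.measurableSet]
  calc ∫⁻ x in K, ENNReal.ofReal (wq R ε x) ≤ ∫⁻ x, ENNReal.ofReal (wq R ε x * χ x) := by
        rw [← lintegral_indicator hK.measurableSet]
        apply lintegral_mono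
        intro x
        by_cases hx : x ∈ K
        · simp only [indicator_of_mem hx]
          rw [hχ1 x hx]; simp
        · simp only [indicator_of_notMem hx]; exact zero_le
    _ < ⊤ := by
      rw [← ofReal_integral_eq_lintegral_ofReal hi]
      · exact ENNReal.ofReal_lt_top
      · exact Eventually.of_forall fun x => mul_nonneg (H.wq_nonneg x) (hχ0 x)

/-- the pre-varifold of a spherical Allen–Cahn solution -/
def pgv (hn : 2 ≤ n) (H : Sol R ε) : PGV (EuclideanSpace ℝ (Fin n)) where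
  μ := mu R ε
  S := fun F => ∫ x, ws R ε x * ⟪F x (gradient R x), gradient R x⟫
  fin := H.mu_fin hn
  S_add := by
    intro F G hF hFc hG hGc
    rw [← integral_add (H.integrable_integrand hn hF hFc) (H.integrable_integrand hn hG hGc)]
    refine integral_congr_ae (Eventually.of_forall fun x => ?_)
    simp only [add_apply, inner_add_left]; ring
  S_smul := by
    intro c F _ _
    rw [← integral_const_mul]
    refine integral_congr_ae (Eventually.of_forall fun x => ?_)
    simp only [smul_apply, real_inner_smul_left]; ring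
  S_symm := by
    intro v w _ _ _
    refine integral_congr_ae (Eventually.of_forall fun x => ?_)
    simp only [tp_apply, real_inner_smul_left]; ring
  S_nonneg := by
    intro v _ _
    refine integral_nonneg fun x => ?_
    simp only [tp_apply, real_inner_smul_left]
    exact mul_nonneg (H.ws_nonneg x) (mul_self_nonneg _)
  S_le := by
    intro v hv hc
    rw [H.integral_mu]
    have hc2 : HasCompactSupport fun x => ‖v x‖ ^ 2 := by
      refine hc.mono' ?_
      intro x hx
      apply subset_tsupport v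
      intro h
      apply hx
      simp only [h, norm_zero]; norm_num
    refine integral_mono (H.integrable_integrand hn (continuous_tp hv hv)
      (hasCompactSupport_tp_left hc)) (H.integrable_wq_mul hn (hv.norm.pow 2) hc2) fun x => ?_
    simp only [tp_apply, real_inner_smul_left]
    have h1 : ⟪v x, gradient R x⟫ * ⟪v x, gradient R x⟫ ≤ ‖v x‖ ^ 2 * gsq R x := by
      rw [← norm_gradient_sq]
      have := abs_real_inner_le_norm (v x) (gradient R x)
      calc ⟪v x, gradient R x⟫ * ⟪v x, gradient R x⟫ = |⟪v x, gradient R x⟫| ^ 2 := by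
            rw [sq_abs]; ring
        _ ≤ (‖v x‖ * ‖gradient R x‖) ^ 2 := by gcongr
        _ = _ := by ring
    calc ws R ε x * (⟪v x, gradient R x⟫ * ⟪v x, gradient R x⟫)
        ≤ ws R ε x * (‖v x‖ ^ 2 * gsq R x) := by gcongr; exact H.ws_nonneg x
      _ = (ws R ε x * gsq R x) * ‖v x‖ ^ 2 := by ring
      _ ≤ _ := by gcongr; exact H.ws_gsq_le x

end Sol

end Crest.Agent.R246.Lim538
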