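import Crest.Agent.R246.VarL_872
import Crest.Agent.R246.LimO1_538
import Crest.Agent.R246.D3LimC_67

/-!
# R246, block E: leaf (Q-a) of `StEqp` (helper657)

The weighted discrepancy tends to `0` once the energy defect `dd` does.
-/

set_option autoImplicit false
noncomputable section
open MeasureTheory Set Filter Topology Metric
open scoped RealInnerProductSpace ContDiff
open Crest.GeometryTopology.CoordMetric Crest.GeometryTopology.AffineMaximal
open Crest.Agent.R236.Jet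
open Crest.Agent.R246.D2x782 Crest.Agent.R246.Lim538 Crest.Agent.R246.Stress638
open Crest.Agent.R246.Vb872 Crest.Agent.R202.SphDiv

namespace Crest.Agent.R246.Eqp657

variable {n : ℕ}

local notation "EE" => EuclideanSpace ℝ (Fin n)

/-- scalar inequality: `(1-τ²)² ≤ (8/δ) w(τ) + 8 δ² τ`, `w(τ) = (1-τ)³(3+τ)/6` -/
theorem scalar_ineq {τ δ : ℝ} (h0 : 0 ≤ τ) (h1 : τ ≤ 1) (hδ : 0 < δ) (hδ2 : δ ≤ 1 / 2) :
    (1 - τ ^ 2) ^ 2 ≤ 8 / δ * ((1 - τ) ^ 3 * (3 + τ) / 6) + 8 * δ ^ 2 * τ := by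
  have hf : (1 - τ ^ 2) ^ 2 = (1 - τ) ^ 2 * (1 + τ) ^ 2 := by ring
  have hs : 0 ≤ 1 - τ := by linarith
  have hq : (1 + τ) ^ 2 ≤ 4 := by nlinarith
  rw [hf]
  by_cases hc : τ ≤ 1 - δ
  · have h2 : δ ≤ 1 - τ := by linarith
    have h3 : 0 ≤ 8 * δ ^ 2 * τ := by positivity
    have h4 : 4 * (1 - τ) ^ 2 ≤ 8 / δ * ((1 - τ) ^ 3 * (3 + τ) / 6) := by
      rw [div_mul_eq_mul_div, le_div_iff₀ hδ]
      have h5 : (1 - τ) ^ 2 * δ ≤ (1 - τ) ^ 2 * (1 - τ) :=
        mul_le_mul_of_nonneg_left h2 (sq_nonneg _)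
      have h6 : 0 ≤ (1 - τ) ^ 3 := by positivity
      have h7 : (1 - τ) ^ 3 * 3 ≤ (1 - τ) ^ 3 * (3 + τ) :=
        mul_le_mul_of_nonneg_left (by linarith) h6
      nlinarith
    have h5 : (1 - τ) ^ 2 * (1 + τ) ^ 2 ≤ (1 - τ) ^ 2 * 4 :=
      mul_le_mul_of_nonneg_left hq (sq_nonneg _)
    linarith
  · have h2 : 1 - τ ≤ δ := by linarith
    have h3 : 1 / 2 ≤ τ := by linarith
    have h4 : (1 - τ) ^ 2 ≤ δ ^ 2 := pow_le_pow_left₀ hs h2 2
    have h5 : 0 ≤ 8 / δ * ((1 - τ) ^ 3 * (3 + τ) / 6) := by positivity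
    have h6 : (1 - τ) ^ 2 * (1 + τ) ^ 2 ≤ δ ^ 2 * 4 :=
      mul_le_mul h4 hq (sq_nonneg _) (sq_nonneg _)
    have h7 : δ ^ 2 * 4 ≤ 8 * δ ^ 2 * τ := by nlinarith [sq_nonneg δ]
    linarith

/-- pointwise: discrepancy `≤ (8/δ)` defect `+ 4δ² |ΔR|` -/
theorem pointwise_le {R : EE → ℝ} {ε : ℝ} (H : Sol R ε) {x : EE} (hx : x ≠ 0) {δ : ℝ}
    (hδ : 0 < δ) (hδ2 : δ ≤ 1 / 2) :
    sg R ε x * (hw x - gsq R x) ≤
      8 / δ * dd hw R ε x + 4 * δ ^ 2 * |lapl R x| := by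
  have hε := H.pos
  have hA : 0 ≤ hw x - gsq R x := by linarith [H.gsq_le hx]
  rw [H.acsol.abs_lapl (x := x) hx]
  unfold sg dd
  set t := Real.tanh (R x / ε) with ht
  have h1 := (abs_tanh_lt (R x / ε)).le
  rw [← ht] at h1
  have h2 : t ^ 2 = |t| ^ 2 := (sq_abs t).symm
  have h3 := scalar_ineq (abs_nonneg t) h1 hδ hδ2
  rw [h2]
  have h4 : 0 ≤ 1 / ε * (hw x - gsq R x) := by positivity
  have h5 := mul_le_mul_of_nonneg_left h3 h4
  calc 1 / ε * (1 - |t| ^ 2) ^ 2 * (hw x - gsq R x)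
      = 1 / ε * (hw x - gsq R x) * (1 - |t| ^ 2) ^ 2 := by ring
    _ ≤ _ := h5
    _ = _ := by ring

/-- integrability of `0`-th order homogeneous densities against the Gaussian -/
theorem integrable_gauss_of_le (hn : 3 ≤ n) {g : EE → ℝ} (hg : ContinuousOn g ({0}ᶜ : Set EE))
    {C : ℝ} (hC : ∀ x : EE, x ≠ 0 → |g x| ≤ C * ‖x‖⁻¹) :
    Integrable fun x : EE => Real.exp (-‖x‖ ^ 2) * g x := by
  have : Nonempty (Fin n) := ⟨⟨0, by omega⟩⟩
  have : Nontrivial EE := inferInstance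
  have hfin : 2 ≤ Module.finrank ℝ EE := by simp; omega
  have h1 := (integrable_gauss_radial (E := EE) hfin (b := 1) one_pos).const_mul |C|
  refine h1.mono' ?_ ?_
  · refine AEStronglyMeasurable.mul ?_ ?_
    · exact (by fun_prop : Continuous fun x : EE => Real.exp (-‖x‖ ^ 2)).aestronglyMeasurable
    · exact D3Lim67.aesm_of_continuousOn (by omega) hg
  · have hae : ∀ᵐ x : EE, x ≠ 0 := by
      have := (measure_singleton (μ := (volume : Measure EE)) (0 : EE))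
      exact compl_mem_ae_iff.2 this
    filter_upwards [hae] with x hx
    have h2 := hC x hx
    have h3 : 0 ≤ ‖x‖⁻¹ := by positivity
    have h4 : C * ‖x‖⁻¹ ≤ |C| * (2 * ‖x‖⁻¹ + 1 + ‖x‖) := by
      have h5 : C * ‖x‖⁻¹ ≤ |C| * ‖x‖⁻¹ := mul_le_mul_of_nonneg_right (le_abs_self C) h3
      have h6 : |C| * ‖x‖⁻¹ ≤ |C| * (2 * ‖x‖⁻¹ + 1 + ‖x‖) :=
        mul_le_mul_of_nonneg_left (by linarith [norm_nonneg x]) (abs_nonneg C)
      linarith
    rw [norm_mul, Real.norm_eq_abs, Real.norm_eq_abs, abs_of_pos (Real.exp_pos _)]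
    have h7 : Real.exp (-‖x‖ ^ 2) = Real.exp (-1 * ‖x‖ ^ 2) := by congr 1; ring
    calc Real.exp (-‖x‖ ^ 2) * |g x| ≤ Real.exp (-‖x‖ ^ 2) * (|C| * (2 * ‖x‖⁻¹ + 1 + ‖x‖)) :=
          mul_le_mul_of_nonneg_left (h2.trans h4) (Real.exp_pos _).le
      _ = _ := by rw [h7]; ring

/-- `∫ e^{-|x|²} |x| |ΔR| = kap (n-1) ∫_S |Δ_S R|` -/
theorem integral_gauss_lapl (hn : 3 ≤ n) {ε : ℝ} (hε : 0 < ε) {R : EE → ℝ} (h : SmHom0 R)
    (hR : ACeq ε R) :
    (Integrable fun x : EE => Real.exp (-‖x‖ ^ 2) * (‖x‖ * |lapl R x|)) ∧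
      ∫ x : EE, Real.exp (-‖x‖ ^ 2) * (‖x‖ * |lapl R x|) =
        D3Lim67.kap (n - 1) * ∫ z : Sph n, |slap R z| ∂(sig n) := by
  have H := Sol.mk' hn h hε hR
  have hslap : ∀ x : EE, x ≠ 0 → ‖x‖ * |lapl R x| = ‖x‖⁻¹ * |slap R x| := by
    intro x hx
    have hx' : 0 < ‖x‖ := norm_pos_iff.2 hx
    unfold slap
    rw [nsq_eq, abs_mul, abs_of_pos (by positivity : 0 < ‖x‖ ^ 2)]
    field_simp
  have hint : Integrable fun x : EE => Real.exp (-‖x‖ ^ 2) * (‖x‖ * |lapl R x|) := by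
    refine integrable_gauss_of_le hn (C := 2 / ε) ?_ ?_
    · exact continuous_norm.continuousOn.mul H.acsol.cont_lapl.abs
    · intro x hx
      rw [hslap x hx, abs_mul, abs_abs, abs_of_nonneg (by positivity : 0 ≤ ‖x‖⁻¹), mul_comm]
      exact mul_le_mul_of_nonneg_right (D3Lim67.abs_slap_le hn hε h hR hx) (by positivity)
  refine ⟨hint, ?_⟩
  rw [polar (by omega) _ hint, D3Lim67.kap, ← integral_mul_const]
  refine setIntegral_congr_fun measurableSet_Ioi fun t ht => ?_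
  have ht' : (0 : ℝ) < t := ht
  have h1 : ∀ z : Sph n, Real.exp (-‖t • (z : EE)‖ ^ 2) * (‖t • (z : EE)‖ * |lapl R (t • (z : EE))|) =
      Real.exp (-t ^ 2) * t⁻¹ * |slap R z| := by
    intro z
    have hz : ‖(z : EE)‖ = 1 := by simp
    rw [hslap _ (smul_ne_zero ht'.ne' (sph_ne z)),
      D3Lim67.slap_smul h hR (sph_ne z) ht', norm_smul, Real.norm_eq_abs,
      abs_of_pos ht', hz, mul_one]
    ring
  simp only [h1]
  rw [integral_const_mul]
  have h2 : t ^ (n - 1) = t ^ (n - 1 - 1) * t := by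
    rw [← pow_succ]; congr 1; omega
  rw [h2]
  field_simp

/-- **(Q-a)** -/
theorem disc_tendsto (hn : 3 ≤ n) {U : Filter ℕ} {ε : ℕ → ℝ}
    {R : ℕ → EuclideanSpace ℝ (Fin n) → ℝ} {C : ℝ} (hR : ∀ k, SmHom0 (R k))
    (hε : ∀ k, 0 < ε k) (hac : ∀ k, ACeq (ε k) (R k))
    (hC : ∀ k, ∫ z : Sph n, |slap (R k) z| ∂(sig n) ≤ C)
    (hdd : Tendsto (fun k => ∫ x, Real.exp (-‖x‖ ^ 2) * (‖x‖ * dd hw (R k) (ε k) x)) U (𝓝 0)) :
    Tendsto (fun k => ∫ x, Real.exp (-‖x‖ ^ 2) *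
      (‖x‖ * (sg (R k) (ε k) x * (hw x - gsq (R k) x)))) U (𝓝 0) := by
  have : Nonempty (Fin n) := ⟨⟨0, by omega⟩⟩
  have : Nontrivial EE := inferInstance
  have hae : ∀ᵐ x : EE, x ≠ 0 := by
    have := (measure_singleton (μ := (volume : Measure EE)) (0 : EE))
    exact compl_mem_ae_iff.2 this
  have H : ∀ k, Sol (R k) (ε k) := fun k => Sol.mk' hn (hR k) (hε k) (hac k)
  set a : ℕ → ℝ := fun k => ∫ x, Real.exp (-‖x‖ ^ 2) *
      (‖x‖ * (sg (R k) (ε k) x * (hw x - gsq (R k) x))) with ha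
  set d : ℕ → ℝ := fun k => ∫ x, Real.exp (-‖x‖ ^ 2) * (‖x‖ * dd hw (R k) (ε k) x) with hd
  set M : ℝ := D3Lim67.kap (n - 1) * C with hM
  have hxw : ∀ x : EE, x ≠ 0 → ‖x‖ * hw x = ‖x‖⁻¹ := by
    intro x hx
    have hx' : 0 < ‖x‖ := norm_pos_iff.2 hx
    unfold hw
    field_simp
  -- integrability of the three densities
  have hI1 : ∀ k, Integrable fun x : EE => Real.exp (-‖x‖ ^ 2) *
      (‖x‖ * (sg (R k) (ε k) x * (hw x - gsq (R k) x))) := by
    intro k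
    refine integrable_gauss_of_le hn (C := 1 / ε k) ?_ ?_
    · exact continuous_norm.continuousOn.mul
        ((H k).continuousOn_sg.mul ((H k).acsol.cont_h.sub (H k).acsol.cont_gsq))
    · intro x hx
      have h1 := (H k).sg_nn x
      have h2 := (H k).gsq_le hx
      have h3 := (H k).sg_le x
      have h4 := gsq_nonneg (R k) x
      have h5 := hε k
      have h6 : 0 ≤ hw x - gsq (R k) x := by linarith
      rw [abs_of_nonneg (by positivity)]
      calc ‖x‖ * (sg (R k) (ε k) x * (hw x - gsq (R k) x))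
          ≤ ‖x‖ * (1 / ε k * hw x) := by
            gcongr
            linarith
        _ = 1 / ε k * (‖x‖ * hw x) := by ring
        _ = _ := by rw [hxw x hx]
  have hI2 : ∀ k, Integrable fun x : EE => Real.exp (-‖x‖ ^ 2) *
      (‖x‖ * dd hw (R k) (ε k) x) := by
    intro k
    refine integrable_gauss_of_le hn (C := 1 / ε k) ?_ ?_
    · exact continuous_norm.continuousOn.mul (cont_dd (H k).acsol)
    · intro x hx
      have h2 := (H k).gsq_le hx
      have h4 := gsq_nonneg (R k) x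
      have h5 := hε k
      have h6 : 0 ≤ hw x - gsq (R k) x := by linarith
      have h7 : 0 ≤ dd hw (R k) (ε k) x := dd_nonneg (H k).acsol (x := x) hx
      rw [abs_of_nonneg (by positivity)]
      unfold dd
      set t := Real.tanh (R k x / ε k) with ht
      have h8 := (abs_tanh_lt (R k x / ε k)).le
      rw [← ht] at h8
      have h9 := abs_nonneg t
      have hhw : 0 ≤ 1 / ε k * hw x := by
        have : 0 ≤ hw x := by unfold hw; positivity
        positivity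
      have h10 : (1 - |t|) ^ 3 * (3 + |t|) / 6 ≤ 1 := by
        have h11 : (1 - |t|) ^ 3 ≤ 1 := pow_le_one₀ (by linarith) (by linarith)
        have h12 : 0 ≤ (1 - |t|) ^ 3 := pow_nonneg (by linarith) 3
        nlinarith
      calc ‖x‖ * (1 / ε k * (hw x - gsq (R k) x) * ((1 - |t|) ^ 3 * (3 + |t|) / 6))
          ≤ ‖x‖ * (1 / ε k * hw x * 1) := by
            refine mul_le_mul_of_nonneg_left ?_ (norm_nonneg x)
            have h13 : 0 ≤ (1 - |t|) ^ 3 * (3 + |t|) / 6 := by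
              have : 0 ≤ 1 - |t| := by linarith
              positivity
            refine mul_le_mul ?_ h10 h13 hhw
            refine mul_le_mul_of_nonneg_left (by linarith) (by positivity)
        _ = 1 / ε k * (‖x‖ * hw x) := by ring
        _ = _ := by rw [hxw x hx]
  -- the key estimate
  have key : ∀ δ : ℝ, 0 < δ → δ ≤ 1 / 2 → ∀ k, a k ≤ 8 / δ * d k + 4 * δ ^ 2 * M := by
    intro δ hδ hδ2 k
    obtain ⟨hI3, he⟩ := integral_gauss_lapl hn (hε k) (hR k) (hac k)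
    have h1 : a k ≤ ∫ x : EE, (8 / δ * (Real.exp (-‖x‖ ^ 2) * (‖x‖ * dd hw (R k) (ε k) x)) +
        4 * δ ^ 2 * (Real.exp (-‖x‖ ^ 2) * (‖x‖ * |lapl (R k) x|))) := by
      refine integral_mono_ae (hI1 k) (((hI2 k).const_mul _).add (hI3.const_mul _)) ?_
      filter_upwards [hae] with x hx
      have h2 := pointwise_le (H k) hx hδ hδ2
      have h3 : 0 ≤ Real.exp (-‖x‖ ^ 2) * ‖x‖ := by positivity
      have h4 := mul_le_mul_of_nonneg_left h2 h3
      calc Real.exp (-‖x‖ ^ 2) * (‖x‖ * (sg (R k) (ε k) x * (hw x - gsq (R k) x)))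
          = Real.exp (-‖x‖ ^ 2) * ‖x‖ * (sg (R k) (ε k) x * (hw x - gsq (R k) x)) := by ring
        _ ≤ _ := h4
        _ = _ := by ring
    rw [integral_add ((hI2 k).const_mul _) (hI3.const_mul _), integral_const_mul,
      integral_const_mul, he] at h1
    have h5 : D3Lim67.kap (n - 1) * ∫ z : Sph n, |slap (R k) z| ∂(sig n) ≤ M :=
      mul_le_mul_of_nonneg_left (hC k) (D3Lim67.kap_nonneg _)
    have h6 : 4 * δ ^ 2 * (D3Lim67.kap (n - 1) * ∫ z : Sph n, |slap (R k) z| ∂(sig n)) ≤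
        4 * δ ^ 2 * M := mul_le_mul_of_nonneg_left h5 (by positivity)
    linarith
  have hnn : ∀ k, 0 ≤ a k := by
    intro k
    refine integral_nonneg_of_ae ?_
    filter_upwards [hae] with x hx
    have h1 := (H k).sg_nn x
    have h6 : 0 ≤ hw x - gsq (R k) x := by linarith [(H k).gsq_le hx]
    simp only [Pi.zero_apply]
    positivity
  rw [Metric.tendsto_nhds]
  intro η hη
  -- choose δ with 4 δ² M < η/2
  obtain ⟨δ, hδ, hδ2, hδM⟩ : ∃ δ : ℝ, 0 < δ ∧ δ ≤ 1 / 2 ∧ 4 * δ ^ 2 * M < η / 2 := by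
    have h1 : Tendsto (fun δ : ℝ => 4 * δ ^ 2 * M) (𝓝[>] 0) (𝓝 0) := by
      have h2 : Continuous fun δ : ℝ => 4 * δ ^ 2 * M := by fun_prop
      have h3 := h2.tendsto 0
      simp only [ne_eq, OfNat.ofNat_ne_zero, not_false_eq_true, zero_pow, mul_zero,
        zero_mul] at h3
      exact h3.mono_left nhdsWithin_le_nhds
    have h4 := h1.eventually (gt_mem_nhds (show (0 : ℝ) < η / 2 by linarith))
    have h5 : ∀ᶠ δ in 𝓝[>] (0 : ℝ), δ ∈ Ioo (0 : ℝ) (1 / 2) := Ioo_mem_nhdsGT (by norm_num)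
    obtain ⟨δ, h6, h7⟩ := (h4.and h5).exists
    exact ⟨δ, h7.1, h7.2.le, h6⟩
  have h8 : Tendsto (fun k => 8 / δ * d k) U (𝓝 (8 / δ * 0)) := hdd.const_mul _
  rw [mul_zero] at h8
  filter_upwards [h8.eventually (gt_mem_nhds (show (0 : ℝ) < η / 2 by linarith))] with k hk
  rw [Real.dist_eq, sub_zero, abs_of_nonneg (hnn k)]
  have := key δ hδ hδ2 k
  linarith

end Crest.Agent.R246.Eqp657
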