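import Crest.Agent.R246.Flat1_105
import Mathlib.Analysis.Calculus.LineDeriv.Measurable
import Mathlib.MeasureTheory.Integral.Prod
import Mathlib.Analysis.InnerProductSpace.Calculus

/-!
R246, helper105.  Mean value inequality for weakly superharmonic Lipschitz functions.
-/

set_option autoImplicit false
set_option linter.unusedSectionVars false
set_option linter.unusedSimpArgs false

namespace Crest.Agent.R246.Flat105

open MeasureTheory Filter Topology Metric Set
open scoped NNReal Gradient RealInnerProductSpace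

/-- the positive part of a power -/
theorem hasDerivAt_posPow {n : ℕ} (hn : 2 ≤ n) (t : ℝ) :
    HasDerivAt (fun s : ℝ => (max 0 s) ^ n) (n * (max 0 t) ^ (n - 1)) t := by
  rcases lt_trichotomy t 0 with ht | ht | ht
  · have h1 : (fun s : ℝ => (max 0 s) ^ n) =ᶠ[𝓝 t] fun _ => 0 := by
      filter_upwards [Iio_mem_nhds ht] with s hs
      rw [max_eq_left (le_of_lt hs), zero_pow (by omega)]
    have h2 : (n : ℝ) * (max 0 t) ^ (n - 1) = 0 := by
      rw [max_eq_left ht.le, zero_pow (by omega), mul_zero]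
    rw [h2]
    exact (hasDerivAt_const t (0 : ℝ)).congr_of_eventuallyEq h1
  · subst ht
    have h2 : (n : ℝ) * (max 0 (0 : ℝ)) ^ (n - 1) = 0 := by
      rw [max_self, zero_pow (by omega), mul_zero]
    rw [h2, hasDerivAt_iff_isLittleO]
    have h3 : (fun s : ℝ => (max 0 s) ^ n - (max 0 (0 : ℝ)) ^ n - (s - 0) • (0 : ℝ)) =O[𝓝 0]
        fun s : ℝ => ‖s - 0‖ ^ 2 := by
      refine Asymptotics.IsBigO.of_bound 1 ?_
      filter_upwards [Metric.ball_mem_nhds (0 : ℝ) one_pos] with s hs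
      rw [mem_ball, dist_zero_right, Real.norm_eq_abs] at hs
      have h4 : 0 ≤ max 0 s := le_max_left _ _
      have h5 : max 0 s ≤ |s| := max_le (abs_nonneg _) (le_abs_self _)
      have h6 : (max 0 s) ^ n ≤ |s| ^ 2 := by
        calc (max 0 s) ^ n ≤ (max 0 s) ^ 2 := pow_le_pow_of_le_one h4 (h5.trans hs.le) hn
          _ ≤ |s| ^ 2 := by gcongr
      rw [max_self, zero_pow (by omega), smul_zero, sub_zero, sub_zero, sub_zero, one_mul,
        Real.norm_eq_abs, abs_of_nonneg (pow_nonneg h4 n), Real.norm_eq_abs, Real.norm_eq_abs,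
        abs_pow, abs_abs]
      exact h6
    refine h3.trans_isLittleO ?_
    exact (Asymptotics.isLittleO_pow_sub_sub (0 : ℝ) one_lt_two)
  · have h1 : (fun s : ℝ => (max 0 s) ^ n) =ᶠ[𝓝 t] fun s => s ^ n := by
      filter_upwards [Ioi_mem_nhds ht] with s hs
      rw [max_eq_right (le_of_lt hs)]
    rw [max_eq_right ht.le]
    exact (hasDerivAt_pow n t).congr_of_eventuallyEq h1

variable {E : Type*} [NormedAddCommGroup E] [InnerProductSpace ℝ E]

/-- the quadratic bump `(1 - |y|²)₊` -/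
noncomputable def qb (y : E) : ℝ := max 0 (1 - ‖y‖ ^ 2)

theorem qb_nonneg (y : E) : 0 ≤ qb y := le_max_left _ _

theorem qb_le_one (y : E) : qb y ≤ 1 := max_le zero_le_one (by nlinarith [norm_nonneg y])

theorem qb_eq_zero {y : E} (h : 1 ≤ ‖y‖) : qb y = 0 :=
  max_eq_left (by nlinarith)

theorem qb_neg (y : E) : qb (-y) = qb y := by unfold qb; rw [norm_neg]

theorem continuous_qb : Continuous (qb : E → ℝ) := by unfold qb; fun_prop

theorem lip_qb : LipschitzWith 2 (qb : E → ℝ) := by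
  have h1 : ∀ y : E, qb y = 1 - (min 1 ‖y‖) ^ 2 := by
    intro y
    unfold qb
    rcases le_total ‖y‖ 1 with h | h
    · rw [min_eq_right h, max_eq_right]
      nlinarith [norm_nonneg y]
    · rw [min_eq_left h, max_eq_left]
      · ring
      · nlinarith
  apply LipschitzWith.of_dist_le_mul
  intro x y
  rw [h1, h1, Real.dist_eq]
  have h2 : |min 1 ‖y‖ - min 1 ‖x‖| ≤ ‖x - y‖ := by
    have h3 : LipschitzWith 1 (fun z : E => min 1 ‖z‖) := lipschitzWith_one_norm.const_min 1
    have h4 := h3.dist_le_mul y x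
    rw [Real.dist_eq, dist_comm, dist_eq_norm] at h4
    simpa using h4
  have h5 : 0 ≤ min 1 ‖x‖ := le_min zero_le_one (norm_nonneg _)
  have h6 : 0 ≤ min 1 ‖y‖ := le_min zero_le_one (norm_nonneg _)
  have h7 : min 1 ‖x‖ ≤ 1 := min_le_left _ _
  have h8 : min 1 ‖y‖ ≤ 1 := min_le_left _ _
  have h9 : (1 - (min 1 ‖x‖) ^ 2) - (1 - (min 1 ‖y‖) ^ 2) =
      (min 1 ‖y‖ - min 1 ‖x‖) * (min 1 ‖y‖ + min 1 ‖x‖) := by ring
  rw [h9, abs_mul, abs_of_nonneg (by linarith : 0 ≤ min 1 ‖y‖ + min 1 ‖x‖), dist_eq_norm]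
  calc |min 1 ‖y‖ - min 1 ‖x‖| * (min 1 ‖y‖ + min 1 ‖x‖) ≤ ‖x - y‖ * 2 := by
        gcongr; linarith
    _ = ((2 : ℝ≥0) : ℝ) * ‖x - y‖ := by push_cast; ring

/-- gradient of `(1 - |x - x₀|²/λ²)₊ⁿ` -/
theorem hasFDerivAt_qbPow {n : ℕ} (hn : 2 ≤ n) (x₀ : E) (l : ℝ) (x : E) :
    HasFDerivAt (fun x => qb (l • (x - x₀)) ^ n)
      (innerSL ℝ ((-(2 * n * l ^ 2 * qb (l • (x - x₀)) ^ (n - 1))) • (x - x₀))) x := by
  have h1 : HasFDerivAt (fun x : E => 1 - ‖l • (x - x₀)‖ ^ 2)
      (-(innerSL ℝ ((2 * l ^ 2) • (x - x₀)))) x := by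
    have h2 : HasFDerivAt (fun x : E => x - x₀) (ContinuousLinearMap.id ℝ E) x :=
      (hasFDerivAt_id x).sub_const x₀
    have h3 := (h2.const_smul l).norm_sq
    have h4 := h3.const_sub 1
    refine h4.congr_fderiv ?_
    ext v
    simp [real_inner_smul_left, real_inner_smul_right]
    ring
  have h5 := (hasDerivAt_posPow hn (1 - ‖l • (x - x₀)‖ ^ 2)).comp_hasFDerivAt x h1
  refine h5.congr_fderiv ?_
  ext v
  simp [real_inner_smul_left, qb]
  ring

theorem tsupport_qb_subset (x₀ : E) {l : ℝ} (hl : 0 < l) {n : ℕ} (hn : 1 ≤ n) :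
    tsupport (fun x => qb (l • (x - x₀)) ^ n) ⊆ closedBall x₀ l⁻¹ := by
  refine closure_minimal ?_ isClosed_closedBall
  intro x hx
  rw [Function.mem_support] at hx
  rw [mem_closedBall, dist_eq_norm]
  by_contra h
  push Not at h
  apply hx
  rw [qb_eq_zero, zero_pow (by omega)]
  rw [norm_smul, Real.norm_eq_abs, abs_of_pos hl]
  calc (1 : ℝ) = l * l⁻¹ := (mul_inv_cancel₀ hl.ne').symm
    _ ≤ l * ‖x - x₀‖ := by gcongr

variable [FiniteDimensional ℝ E] [MeasurableSpace E] [BorelSpace E]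

theorem cpt_qb (x₀ : E) {l : ℝ} (hl : 0 < l) {n : ℕ} (hn : 1 ≤ n) :
    HasCompactSupport (fun x => qb (l • (x - x₀)) ^ n) :=
  (isCompact_closedBall x₀ l⁻¹).of_isClosed_subset (isClosed_tsupport _)
    (tsupport_qb_subset x₀ hl hn)

theorem lip_pow {f : E → ℝ} {C : ℝ≥0} (hf : LipschitzWith C f) (h1 : ∀ x, |f x| ≤ 1) (n : ℕ) :
    ∃ D : ℝ≥0, LipschitzWith D (fun x => f x ^ n) := by
  induction n with
  | zero => exact ⟨0, by simp only [pow_zero]; exact LipschitzWith.const (1 : ℝ)⟩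
  | succ n ih =>
    obtain ⟨D, hD⟩ := ih
    refine ⟨1 * C + 1 * D, ?_⟩
    · have h2 := lip_mul hD hf (A := 1) (B := 1) (fun x => by
        rw [abs_pow]; exact pow_le_one₀ (abs_nonneg _) (h1 x)) (fun x => h1 x)
      simpa [pow_succ] using h2

theorem abs_qb_le (y : E) : |qb y| ≤ 1 := by
  rw [abs_of_nonneg (qb_nonneg y)]; exact qb_le_one y

theorem lip_qbPow (x₀ : E) (l : ℝ) (n : ℕ) :
    ∃ D : ℝ≥0, LipschitzWith D (fun x => qb (l • (x - x₀)) ^ n) := by
  refine lip_pow (C := 2 * (‖l‖₊ * 1)) ?_ (fun x => abs_qb_le _) n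
  have h1 : LipschitzWith (‖l‖₊ * 1) (fun x : E => l • (x - x₀)) := by
    have h2 : LipschitzWith 1 (fun x : E => x - x₀) := by
      have := (LipschitzWith.id (α := E)).sub (LipschitzWith.const x₀)
      simpa using this
    exact (lipschitzWith_smul l).comp h2
  exact lip_qb.comp h1

/-- the fundamental theorem of calculus along a segment -/
theorem line_ftc {v : E → ℝ} {C : ℝ≥0} (hv : LipschitzWith C v) (z w : E) (a b : ℝ) :
    ∫ s in a..b, lineDeriv ℝ v (z + s • w) w = v (z + b • w) - v (z + a • w) := by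
  set g : ℝ → ℝ := fun s => v (z + s • w) with hg
  have hgL : LipschitzWith (C * ‖w‖₊) g := by
    apply LipschitzWith.of_dist_le_mul
    intro s t
    refine (hv.dist_le_mul _ _).trans ?_
    rw [dist_add_left, dist_eq_norm, ← sub_smul, norm_smul, Real.dist_eq, Real.norm_eq_abs]
    push_cast
    apply le_of_eq; ring
  have h1 := (hgL.lipschitzOnWith (s := uIcc a b)).absolutelyContinuousOnInterval
  have h2 := h1.integral_deriv_eq_sub
  rw [hg] at h2
  rw [← h2]
  apply intervalIntegral.integral_congr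
  intro s _
  simp only [lineDeriv]
  have h3 : (fun t : ℝ => v (z + s • w + t • w)) = fun t => g (s + t) := by
    funext t
    simp only [hg]
    rw [add_smul, add_assoc]
  rw [h3, deriv_comp_const_add]
  simp only [add_zero, hg]

/-- **Mean value inequality.** -/
theorem mvi {v : E → ℝ} {C : ℝ≥0} (hv : LipschitzWith C v) {V : Set E}
    (hsup : ∀ ζ, Test V ζ → 0 ≤ ∫ x, ⟪∇ v x, ∇ ζ x⟫) {x₀ : E} {s : ℝ} (hs : 0 < s)
    (hb : closedBall x₀ s ⊆ V) :
    ∫ y, v (x₀ + s • y) * qb y ^ 2 ≤ v x₀ * ∫ y : E, qb y ^ 2 := by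
  -- the function `J`
  set J : ℝ → ℝ := fun l => ∫ y, lineDeriv ℝ v (x₀ + l • y) y * qb y ^ 2 with hJ
  have hJneg : ∀ l ∈ Ioc 0 s, J l ≤ 0 := by
    intro l hl
    have hl0 : 0 < l := hl.1
    set f : E → ℝ := fun z => lineDeriv ℝ v (x₀ + z) (l⁻¹ • z) * qb (l⁻¹ • z) ^ 2 with hf
    have h1 : J l = |(l ^ Module.finrank ℝ E)⁻¹| • ∫ z, f z := by
      rw [← Measure.integral_comp_smul volume f l]
      simp only [hJ, hf]
      apply integral_congr_ae
      refine Filter.Eventually.of_forall fun y => ?_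
      simp only [smul_smul, inv_mul_cancel₀ hl0.ne', one_smul]
    have h2 : ∫ z, f z = ∫ x, f (x - x₀) := (integral_sub_right_eq_self f x₀).symm
    have h3 : ∫ x, f (x - x₀) =
        -(l⁻¹ * ∫ x, ⟪∇ v x, ∇ (fun x => (l ^ 2 / 6) * qb (l⁻¹ • (x - x₀)) ^ 3) x⟫) := by
      rw [← integral_const_mul, ← integral_neg]
      apply integral_congr_ae
      filter_upwards [hv.ae_differentiableAt] with x hx
      have h4 : ∇ (fun x => (l ^ 2 / 6) * qb (l⁻¹ • (x - x₀)) ^ 3) x =
          (-(qb (l⁻¹ • (x - x₀)) ^ 2)) • (x - x₀) := by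
        apply grad_of_hasFDerivAt
        have h5 := (hasFDerivAt_qbPow (n := 3) (by norm_num) x₀ l⁻¹ x).const_mul (l ^ 2 / 6)
        refine h5.congr_fderiv ?_
        ext v
        simp [real_inner_smul_left]
        field_simp
        ring
      rw [h4]
      simp only [hf]
      rw [add_sub_cancel, hx.lineDeriv_eq_fderiv, ← inner_grad, inner_smul_right, inner_smul_right]
      ring
    have h6 : 0 ≤ ∫ x, ⟪∇ v x, ∇ (fun x => (l ^ 2 / 6) * qb (l⁻¹ • (x - x₀)) ^ 3) x⟫ := by
      apply hsup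
      have ht : tsupport (fun x => (l ^ 2 / 6) * qb (l⁻¹ • (x - x₀)) ^ 3) ⊆ closedBall x₀ l := by
        have h7 : tsupport (fun x => (l ^ 2 / 6) * qb (l⁻¹ • (x - x₀)) ^ 3) ⊆
            tsupport (fun x => qb (l⁻¹ • (x - x₀)) ^ 3) :=
          closure_mono fun x hx => by
            simp only [Function.mem_support] at hx ⊢
            exact right_ne_zero_of_mul hx
        have h8 := tsupport_qb_subset x₀ (inv_pos.mpr hl0) (n := 3) (by norm_num)
        rw [inv_inv] at h8
        exact h7.trans h8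
      refine ⟨?_, ?_, ?_, fun x => by positivity [qb_nonneg (l⁻¹ • (x - x₀))]⟩
      · obtain ⟨D, hD⟩ := lip_qbPow x₀ l⁻¹ 3
        refine ⟨(l ^ 2 / 6).toNNReal * D, ?_⟩
        apply LipschitzWith.of_dist_le_mul
        intro x y
        have h9 := hD.dist_le_mul x y
        rw [Real.dist_eq] at h9 ⊢
        rw [← mul_sub, abs_mul, abs_of_nonneg (by positivity : 0 ≤ l ^ 2 / 6)]
        push_cast
        rw [Real.coe_toNNReal _ (by positivity), mul_assoc]
        gcongr
      · exact (isCompact_closedBall x₀ l).of_isClosed_subset (isClosed_tsupport _) ht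
      · exact ht.trans ((closedBall_subset_closedBall hl.2).trans hb)
    rw [h1, h2, h3, smul_eq_mul]
    have h7 : 0 ≤ l⁻¹ * ∫ x, ⟪∇ v x, ∇ (fun x => (l ^ 2 / 6) * qb (l⁻¹ • (x - x₀)) ^ 3) x⟫ :=
      mul_nonneg (inv_nonneg.mpr hl0.le) h6
    nlinarith [abs_nonneg ((l ^ Module.finrank ℝ E)⁻¹)]
  -- Fubini
  have hint : ∀ y : E, (v (x₀ + s • y) - v x₀) * qb y ^ 2 =
      ∫ l in (0 : ℝ)..s, lineDeriv ℝ v (x₀ + l • y) y * qb y ^ 2 := by
    intro y
    rw [intervalIntegral.integral_mul_const, line_ftc hv, zero_smul, add_zero]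
  have hcont : Continuous v := hv.continuous
  have hmeas : Measurable (fun p : ℝ × E => lineDeriv ℝ v (x₀ + p.1 • p.2) p.2 * qb p.2 ^ 2) := by
    have h1 : Measurable (fun p : E × E => lineDeriv ℝ v p.1 p.2) :=
      measurable_lineDeriv_uncurry hcont
    have h2 : Measurable (fun p : ℝ × E => ((x₀ + p.1 • p.2 : E), (p.2 : E))) :=
      Continuous.measurable (by fun_prop)
    exact (h1.comp h2).mul (((continuous_qb).comp continuous_snd).pow 2).measurable
  have hbd : ∀ (l : ℝ) (y : E), |lineDeriv ℝ v (x₀ + l • y) y * qb y ^ 2| ≤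
      (closedBall (0 : E) 1).indicator (fun _ => (C : ℝ)) y := by
    intro l y
    by_cases hy : ‖y‖ ≤ 1
    · rw [indicator_of_mem (by simpa using hy), abs_mul, abs_pow]
      have h1 : |lineDeriv ℝ v (x₀ + l • y) y| ≤ C * ‖y‖ := by
        simpa using norm_lineDeriv_le_of_lipschitz ℝ hv (x₀ := x₀ + l • y) (v := y)
      have h2 : |qb y| ^ 2 ≤ 1 := pow_le_one₀ (abs_nonneg _) (abs_qb_le y)
      calc _ ≤ (C * ‖y‖) * 1 := by gcongr
        _ ≤ C * 1 := by rw [mul_one]; gcongr
        _ = C := mul_one _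
    · rw [indicator_of_notMem (by simpa using hy)]
      push Not at hy
      rw [qb_eq_zero hy.le]; simp
  have hI2 : Integrable (fun p : ℝ × E => lineDeriv ℝ v (x₀ + p.1 • p.2) p.2 * qb p.2 ^ 2)
      ((volume.restrict (Ioc 0 s)).prod volume) := by
    have h1 : Integrable (fun p : ℝ × E => (closedBall (0 : E) 1).indicator
        (fun _ => (C : ℝ)) p.2) ((volume.restrict (Ioc 0 s)).prod volume) := by
      have h2 : Integrable ((closedBall (0 : E) 1).indicator (fun _ => (C : ℝ))) :=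
        (integrable_indicator_iff measurableSet_closedBall).mpr
          (integrableOn_const (measure_closedBall_lt_top.ne))
      exact h2.comp_snd _
    refine h1.mono' hmeas.aestronglyMeasurable ?_
    exact Filter.Eventually.of_forall fun p => by
      rw [Real.norm_eq_abs]; exact hbd p.1 p.2
  have hswap : ∫ y, (∫ l in (0 : ℝ)..s, lineDeriv ℝ v (x₀ + l • y) y * qb y ^ 2) =
      ∫ l in (0 : ℝ)..s, J l := by
    simp only [intervalIntegral.integral_of_le hs.le, hJ]
    exact (integral_integral_swap hI2).symm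
  have hle : ∫ y, (v (x₀ + s • y) - v x₀) * qb y ^ 2 ≤ 0 := by
    simp only [hint]
    rw [hswap, intervalIntegral.integral_of_le hs.le]
    exact setIntegral_nonpos measurableSet_Ioc hJneg
  have hcq : HasCompactSupport (fun y : E => qb y ^ 2) := by
    simpa using cpt_qb (0 : E) one_pos (n := 2) (by norm_num)
  have i1 : Integrable (fun y => v (x₀ + s • y) * qb y ^ 2) := by
    have h9 : Continuous (fun y : E => v (x₀ + s • y) * qb y ^ 2) :=
      (hcont.comp (by fun_prop)).mul (continuous_qb.pow 2)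
    exact h9.integrable_of_hasCompactSupport hcq.mul_left
  have i2 : Integrable (fun y : E => v x₀ * qb y ^ 2) := by
    have h9 : Continuous (fun y : E => v x₀ * qb y ^ 2) :=
      continuous_const.mul (continuous_qb.pow 2)
    exact h9.integrable_of_hasCompactSupport hcq.mul_left
  have h1 : ∫ y, (v (x₀ + s • y) - v x₀) * qb y ^ 2 =
      (∫ y, v (x₀ + s • y) * qb y ^ 2) - ∫ y : E, v x₀ * qb y ^ 2 := by
    rw [← integral_sub i1 i2]
    congr 1; funext y; ring
  rw [h1, integral_const_mul] at hle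
  linarith

end Crest.Agent.R246.Flat105
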