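import Crest.Agent.R246.Slice_105
import Crest.Agent.R246.Flat2_105

/-!
R246, helper105.  Excess estimate, preliminaries: the flux of `∇|⟨e,x⟩|` against `(1-|x|²)₊²`,
and the bound for `∫ ⟨∇f, X⟩` with a Lipschitz field `X`.
-/

set_option autoImplicit false
set_option linter.unusedSectionVars false

namespace Crest.Agent.R246.Flat105

open MeasureTheory Filter Topology Metric Set
open scoped NNReal Gradient RealInnerProductSpace

/-- one dimensional integral -/
theorem integral_abs_posPart (b : ℝ) : ∫ t : ℝ, |t| * max 0 (b - t ^ 2) = (max 0 b) ^ 2 / 2 := by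
  have h1 := integral_comp_abs (f := fun t : ℝ => t * max 0 (b - t ^ 2))
  simp only [sq_abs] at h1
  rw [h1]
  have h2 : ∀ t : ℝ, HasDerivAt (fun s : ℝ => -((max 0 (b - s ^ 2)) ^ 2 / 4))
      (t * max 0 (b - t ^ 2)) t := by
    intro t
    have h3 : HasDerivAt (fun s : ℝ => b - s ^ 2) (-(2 * t)) t := by
      have := (hasDerivAt_pow 2 t).const_sub b
      simpa using this
    have h4 := ((hasDerivAt_posPow (n := 2) le_rfl (b - t ^ 2)).comp t h3).div_const 4
    have h5 := h4.neg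
    refine h5.congr_deriv ?_
    simp
    ring
  have h3 : Tendsto (fun s : ℝ => -((max 0 (b - s ^ 2)) ^ 2 / 4)) atTop (𝓝 0) := by
    refine tendsto_const_nhds.congr' ?_
    filter_upwards [eventually_ge_atTop (max 1 b)] with s hs
    have h4 : 1 ≤ s := (le_max_left _ _).trans hs
    have h5 : b ≤ s := (le_max_right _ _).trans hs
    rw [max_eq_left (by nlinarith)]
    simp
  have h4 := integral_Ioi_of_hasDerivAt_of_nonneg (a := 0) (h2 0).continuousAt.continuousWithinAt
    (fun x _ => h2 x) (fun x hx => mul_nonneg (le_of_lt hx) (le_max_left _ _)) h3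
  rw [h4]
  simp
  ring

variable {E : Type*} [NormedAddCommGroup E] [InnerProductSpace ℝ E] [FiniteDimensional ℝ E]
  [MeasurableSpace E] [BorelSpace E]

theorem grad_qb_sq (x : E) : ∇ (fun y => qb y ^ 2) x = (-(4 * qb x)) • x := by
  apply grad_of_hasFDerivAt
  have h := hasFDerivAt_qbPow (n := 2) le_rfl (0 : E) 1 x
  simp only [sub_zero, one_smul] at h
  have h1 : -(2 * ((2 : ℕ) : ℝ) * 1 ^ 2 * qb x ^ (2 - 1)) = -(4 * qb x) := by
    norm_num
  rwa [h1] at h

theorem grad_abs_inner_flux (e x : E) :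
    ⟪∇ (fun y => |⟪e, y⟫|) x, ∇ (fun y => qb y ^ 2) x⟫ = -4 * (|⟪e, x⟫| * qb x) := by
  rw [grad_qb_sq]
  have d1 : HasFDerivAt (fun y : E => ⟪e, y⟫) (innerSL ℝ e) x := (innerSL ℝ e).hasFDerivAt
  rcases lt_trichotomy ⟪e, x⟫ 0 with h | h | h
  · have h1 : (fun y : E => |⟪e, y⟫|) =ᶠ[𝓝 x] fun y => -⟪e, y⟫ := by
      have : ∀ᶠ y in 𝓝 x, ⟪e, y⟫ < 0 :=
        (d1.continuousAt.tendsto).eventually_lt_const h
      filter_upwards [this] with y hy
      exact abs_of_neg hy
    have h2 : ∇ (fun y : E => |⟪e, y⟫|) x = -e := by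
      apply grad_of_hasFDerivAt
      rw [map_neg]
      exact (d1.neg).congr_of_eventuallyEq h1
    rw [h2, abs_of_neg h, inner_neg_left, inner_smul_right]
    ring
  · have h2 : ∇ (fun y : E => |⟪e, y⟫|) x = 0 := by
      have h3 : IsLocalMin (fun y : E => |⟪e, y⟫|) x :=
        Filter.Eventually.of_forall fun y => by
          show |⟪e, x⟫| ≤ |⟪e, y⟫|
          rw [h, abs_zero]; exact abs_nonneg _
      rw [gradient, h3.fderiv_eq_zero, map_zero]
    rw [h2, h, inner_zero_left]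
    simp
  · have h1 : (fun y : E => |⟪e, y⟫|) =ᶠ[𝓝 x] fun y => ⟪e, y⟫ := by
      have : ∀ᶠ y in 𝓝 x, 0 < ⟪e, y⟫ :=
        (d1.continuousAt.tendsto).eventually_const_lt h
      filter_upwards [this] with y hy
      exact abs_of_pos hy
    have h2 : ∇ (fun y : E => |⟪e, y⟫|) x = e := by
      apply grad_of_hasFDerivAt
      exact d1.congr_of_eventuallyEq h1
    rw [h2, abs_of_pos h, inner_smul_right]
    ring

/-- **The flux of `∇|⟨e,x⟩|`.** -/
theorem flux_abs {d : ℕ} (hd : Module.finrank ℝ E = d + 1) {e : E} (he : ‖e‖ = 1) :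
    ∫ x, ⟪∇ (fun y => |⟪e, y⟫|) x, ∇ (fun y => qb y ^ 2) x⟫ =
      -2 * ∫ y : EuclideanSpace ℝ (Fin d), qb y ^ 2 := by
  obtain ⟨ι, hι, hmp⟩ := slice hd he
  simp only [grad_abs_inner_flux]
  rw [integral_const_mul]
  have hg : Continuous (fun x : E => |⟪e, x⟫| * qb x) := by
    have := continuous_qb (E := E)
    fun_prop
  have hgi : Integrable (fun x : E => |⟪e, x⟫| * qb x) := by
    refine hg.integrable_of_hasCompactSupport ?_
    have h1 := cpt_qb (0 : E) one_pos (n := 1) le_rfl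
    simp only [sub_zero, one_smul, pow_one] at h1
    exact h1.mul_left
  have h1 : ∫ x : E, |⟪e, x⟫| * qb x =
      ∫ p : ℝ × EuclideanSpace ℝ (Fin d), |⟪e, p.1 • e + ι p.2⟫| * qb (p.1 • e + ι p.2)
        ∂(volume.prod volume) := by
    conv_lhs => rw [← hmp.map_eq]
    rw [integral_map hmp.measurable.aemeasurable hg.aestronglyMeasurable]
  have hgi2 : Integrable (fun p : ℝ × EuclideanSpace ℝ (Fin d) =>
      |⟪e, p.1 • e + ι p.2⟫| * qb (p.1 • e + ι p.2)) (volume.prod volume) :=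
    (hmp.integrable_comp hg.aestronglyMeasurable).mpr hgi
  have hee : ⟪e, e⟫ = (1 : ℝ) := by rw [real_inner_self_eq_norm_sq, he]; norm_num
  have h2 : ∀ (t : ℝ) (y : EuclideanSpace ℝ (Fin d)),
      |⟪e, t • e + ι y⟫| * qb (t • e + ι y) = |t| * max 0 ((1 - ‖y‖ ^ 2) - t ^ 2) := by
    intro t y
    have h3 : ⟪e, t • e + ι y⟫ = t := by
      rw [inner_add_right, inner_smul_right, hee, hι, mul_one, add_zero]
    have h4 : ‖t • e + ι y‖ ^ 2 = t ^ 2 + ‖y‖ ^ 2 := by
      rw [@norm_add_sq_real, real_inner_smul_left, hι, norm_smul, he, mul_one, Real.norm_eq_abs,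
        sq_abs, LinearIsometry.norm_map]
      ring
    rw [h3, qb, h4]
    congr 2
    ring
  rw [h1, integral_prod_symm _ hgi2]
  simp only [h2, integral_abs_posPart]
  rw [integral_div]
  simp only [qb]
  ring

end Crest.Agent.R246.Flat105
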