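import Crest.Agent.R246.Ex1_105

/-!
R246, helper105.  Excess estimate.
-/

set_option autoImplicit false
set_option linter.unusedSectionVars false

namespace Crest.Agent.R246.Flat105

open MeasureTheory Filter Topology Metric Set
open scoped NNReal Gradient RealInnerProductSpace

variable {E : Type*} [NormedAddCommGroup E] [InnerProductSpace ℝ E] [FiniteDimensional ℝ E]
  [MeasurableSpace E] [BorelSpace E]

theorem tsupport_qb_sq_subset : tsupport (fun y : E => qb y ^ 2) ⊆ closedBall 0 1 := by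
  have h := tsupport_qb_subset (0 : E) one_pos (n := 2) (by norm_num)
  simpa using h

theorem cpt_qb_sq : HasCompactSupport (fun y : E => qb y ^ 2) := by
  have h := cpt_qb (0 : E) one_pos (n := 2) (by norm_num)
  simpa using h

theorem lip_qb_sq : ∃ D : ℝ≥0, LipschitzWith D (fun y : E => qb y ^ 2) := by
  have h := lip_qbPow (0 : E) 1 2
  simpa using h

theorem norm_grad_qb_sq_le (x : E) : ‖∇ (fun y => qb y ^ 2) x‖ ≤ 4 := by
  rw [grad_qb_sq, norm_smul, norm_neg, Real.norm_eq_abs, abs_mul, abs_of_pos (by norm_num : (0:ℝ) < 4)]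
  by_cases hx : ‖x‖ ≤ 1
  · have := abs_qb_le x
    calc 4 * |qb x| * ‖x‖ ≤ 4 * 1 * 1 := by gcongr
      _ = 4 := by norm_num
  · push Not at hx
    rw [qb_eq_zero hx.le]; simp

theorem grad_qb_sq_eq_zero {x : E} (h : 1 ≤ ‖x‖) : ∇ (fun y => qb y ^ 2) x = 0 := by
  rw [grad_qb_sq, qb_eq_zero h]; simp

/-- **Bound for the divergence.** -/
theorem div_bound {f : E → ℝ} {C : ℝ≥0} (hf : LipschitzWith C f) {δ : ℝ}
    (hb : ∀ x, ‖x‖ ≤ 1 → |f x| ≤ δ) :
    |∫ x, ⟪∇ f x, ∇ (fun y => qb y ^ 2) x⟫| ≤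
      12 * Module.finrank ℝ E * volume.real (closedBall (0 : E) 1) * δ := by
  set b := stdOrthonormalBasis ℝ E with hbdef
  set g : Fin (Module.finrank ℝ E) → E → ℝ := fun i x => (-4) * (qb x * clamp 1 ⟪b i, x⟫) with hg
  have hgL : ∀ i, LipschitzWith 12 (g i) := by
    intro i
    have h1 : LipschitzWith (1 * ‖b i‖₊) (fun x : E => clamp 1 ⟪b i, x⟫) :=
      (lip_clamp 1).comp (lip_inner (b i))
    have h2 := lip_mul (lip_qb (E := E)) h1 (A := 1) (B := 1) (fun x => by
      simpa using abs_qb_le x) (fun x => by simpa using abs_clamp_le (t := 1) zero_le_one _)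
    have h3 : ‖b i‖₊ = 1 := by
      ext; simp
    rw [h3] at h2
    apply LipschitzWith.of_dist_le_mul
    intro x y
    have h4 := h2.dist_le_mul x y
    simp only [Real.dist_eq] at h4 ⊢
    simp only [hg]
    rw [← mul_sub, abs_mul, abs_neg, abs_of_pos (by norm_num : (0 : ℝ) < 4)]
    push_cast at h4 ⊢
    linarith
  have hg0 : ∀ i x, 1 ≤ ‖x‖ → g i x = 0 := fun i x hx => by
    simp only [hg]; rw [qb_eq_zero hx]; ring
  have hgB : ∀ i x, |g i x| ≤ 4 := fun i x => by
    simp only [hg]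
    rw [abs_mul, abs_neg, abs_of_pos (by norm_num : (0 : ℝ) < 4), abs_mul]
    have h1 := abs_qb_le x
    have h2 := abs_clamp_le (t := 1) zero_le_one ⟪b i, x⟫
    calc 4 * (|qb x| * |clamp 1 ⟪b i, x⟫|) ≤ 4 * (1 * 1) := by gcongr
      _ = 4 := by norm_num
  have hgs : ∀ i, tsupport (g i) ⊆ closedBall 0 1 := by
    intro i
    refine closure_minimal ?_ isClosed_closedBall
    intro x hx
    rw [Function.mem_support] at hx
    rw [mem_closedBall, dist_zero_right]
    by_contra h
    push Not at h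
    exact hx (hg0 i x h.le)
  have hK : IsCompact (closedBall (0 : E) 1) := isCompact_closedBall 0 1
  have hgc : ∀ i, HasCompactSupport (g i) := fun i =>
    hK.of_isClosed_subset (isClosed_tsupport _) (hgs i)
  have hpt : ∀ x, ⟪∇ f x, ∇ (fun y => qb y ^ 2) x⟫ = ∑ i, ⟪∇ f x, b i⟫ * g i x := by
    intro x
    rw [grad_qb_sq, inner_smul_right, ← b.sum_inner_mul_inner (∇ f x) x, Finset.mul_sum]
    refine Finset.sum_congr rfl fun i _ => ?_
    simp only [hg]
    by_cases hx : ‖x‖ ≤ 1
    · have h1 : |⟪b i, x⟫| ≤ 1 := by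
        refine (abs_real_inner_le_norm _ _).trans ?_
        simpa using hx
      rw [clamp_eq h1]; ring
    · push Not at hx
      rw [qb_eq_zero hx.le]; ring
  have hgi : ∀ i, Integrable (fun x => ⟪∇ f x, b i⟫ * g i x) := by
    intro i
    refine integrable_of_bdd_supp (((meas_grad f).inner measurable_const).mul
      (hgL i).continuous.measurable).aestronglyMeasurable (C := (C * 1) * 4) (fun x => ?_) hK
      (fun x hx => ?_)
    · rw [abs_mul]
      have h1 : |⟪∇ f x, b i⟫| ≤ C * 1 := by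
        refine (abs_real_inner_le_norm _ _).trans ?_
        gcongr
        · exact norm_grad_le hf x
        · simp
      gcongr
      exact hgB i x
    · rw [mem_closedBall, dist_zero_right] at hx
      push Not at hx
      rw [hg0 i x hx.le, mul_zero]
  simp only [hpt]
  rw [integral_finsetSum _ fun i _ => hgi i]
  have hone : ∀ i, |∫ x, ⟪∇ f x, b i⟫ * g i x| ≤ 12 * volume.real (closedBall (0 : E) 1) * δ := by
    intro i
    rw [ibp hf (hgL i) (hgc i) (b i), abs_neg]
    have h1 : ∀ x, ‖⟪∇ (g i) x, b i⟫ * f x‖ ≤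
        (closedBall (0 : E) 1).indicator (fun _ => 12 * δ) x := by
      intro x
      by_cases hx : x ∈ closedBall (0 : E) 1
      · rw [indicator_of_mem hx, norm_mul, Real.norm_eq_abs, Real.norm_eq_abs]
        have h2 : |⟪∇ (g i) x, b i⟫| ≤ 12 * 1 := by
          refine (abs_real_inner_le_norm _ _).trans ?_
          gcongr
          · simpa using norm_grad_le (hgL i) x
          · simp
        rw [mem_closedBall, dist_zero_right] at hx
        have h3 := hb x hx
        rw [mul_one] at h2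
        gcongr
      · rw [indicator_of_notMem hx, grad_zero_of_notMem (fun h => hx (hgs i h)), inner_zero_left,
          zero_mul, norm_zero]
    have h2 : Integrable ((closedBall (0 : E) 1).indicator (fun _ => 12 * δ)) :=
      (integrable_indicator_iff measurableSet_closedBall).mpr
        (integrableOn_const (measure_closedBall_lt_top.ne))
    have h3 := norm_integral_le_of_norm_le h2 (Eventually.of_forall h1)
    rw [integral_indicator measurableSet_closedBall, setIntegral_const, smul_eq_mul,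
      Real.norm_eq_abs] at h3
    linarith
  calc _ ≤ ∑ i, |∫ x, ⟪∇ f x, b i⟫ * g i x| := Finset.abs_sum_le_sum_abs _ _
    _ ≤ ∑ _i : Fin (Module.finrank ℝ E), 12 * volume.real (closedBall (0 : E) 1) * δ :=
        Finset.sum_le_sum fun i _ => hone i
    _ = _ := by rw [Finset.sum_const, Finset.card_univ, Fintype.card_fin, nsmul_eq_mul]; ring

theorem lip_abs {f : E → ℝ} {C : ℝ≥0} (hf : LipschitzWith C f) :
    LipschitzWith C (fun y => |f y|) := by
  apply LipschitzWith.of_dist_le_mul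
  intro x y
  refine le_trans ?_ (hf.dist_le_mul x y)
  rw [Real.dist_eq, Real.dist_eq]
  exact abs_abs_sub_abs_le_abs_sub _ _

/-- helper873's `VAR`, unfolded -/
def VarIneq (φ : E → ℝ) (μ : Measure E) (U : Set E) : Prop :=
  ∀ ζ η : E → ℝ, (∃ C : ℝ≥0, LipschitzWith C ζ) → (∃ C : ℝ≥0, LipschitzWith C η) →
    HasCompactSupport ζ → HasCompactSupport η → (∀ x, |ζ x| ≤ η x) → tsupport η ⊆ U →
    (∫ x, ⟪∇ φ x, ∇ ζ x⟫) - (∫ x, ⟪∇ (fun y => |φ y|) x, ∇ η x⟫) ≤ 2 * ∫ x, η x ∂μ

theorem grad_const_mul (c : ℝ) {f : E → ℝ} {x : E} (hf : DifferentiableAt ℝ f x) :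
    ∇ (fun y => c * f y) x = c • ∇ f x := by
  apply ext_inner_right ℝ
  intro v
  rw [inner_smul_left, inner_grad, inner_grad, fderiv_const_mul hf]
  simp

/-- **Excess estimate** (unit scale). -/
theorem excess {φ : E → ℝ} (hφ : LipschitzWith 1 φ) (eik : ∀ᵐ x : E, ‖∇ φ x‖ = 1)
    {μ : Measure E} {e : E} (he : ‖e‖ = 1) {δ : ℝ} (hδ : 0 < δ)
    (hflat : ∀ x, ‖x‖ ≤ 1 → |φ x - ⟪e, x⟫| ≤ δ) (hvar : VarIneq φ μ (closedBall 0 1))
    {d : ℕ} (hd : Module.finrank ℝ E = d + 1) {κ : ℝ}
    (hT : ∫ x, qb x ^ 2 ∂μ ≤ (1 + κ) * ∫ y : EuclideanSpace ℝ (Fin d), qb y ^ 2) :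
    ∫ x, qb x ^ 2 * (1 - ⟪∇ φ x, e⟫) ≤
      2 * κ * (∫ y : EuclideanSpace ℝ (Fin d), qb y ^ 2) * δ +
        15 * Module.finrank ℝ E * volume.real (closedBall (0 : E) 1) * δ ^ 2 := by
  set c := ∫ y : EuclideanSpace ℝ (Fin d), qb y ^ 2 with hc
  set NV := (Module.finrank ℝ E : ℝ) * volume.real (closedBall (0 : E) 1) with hNV
  set v : E → ℝ := fun x => φ x - ⟪e, x⟫ with hv
  have hvL : LipschitzWith (1 + ‖e‖₊) v := hφ.sub (lip_inner e)
  set w : E → ℝ := fun x => clamp (2 * δ) (v x) with hw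
  have hwL : LipschitzWith (1 * (1 + ‖e‖₊)) w := (lip_clamp (2 * δ)).comp hvL
  have hwB : ∀ x, |w x| ≤ ((2 * δ).toNNReal : ℝ≥0) := fun x => by
    rw [Real.coe_toNNReal _ (by linarith)]
    exact abs_clamp_le (by linarith) _
  obtain ⟨W, hww⟩ : ∃ W : ℝ≥0, LipschitzWith W (fun x => w x * w x) :=
    ⟨_, lip_mul hwL hwL hwB hwB⟩
  obtain ⟨D, hD⟩ := lip_qb_sq (E := E)
  have hq0 : ∀ x : E, 0 ≤ qb x ^ 2 := fun x => by positivity
  have hq1 : ∀ x : E, |qb x ^ 2| ≤ (1 : ℝ≥0) := fun x => by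
    rw [abs_pow]; exact pow_le_one₀ (abs_nonneg _) (abs_qb_le x)
  have hξL : LipschitzWith _ (fun x => qb x ^ 2 * w x) := lip_mul hD hwL hq1 hwB
  have hK : IsCompact (closedBall (0 : E) 1) := isCompact_closedBall 0 1
  have hηL : ∃ C : ℝ≥0, LipschitzWith C (fun x : E => 2 * δ * qb x ^ 2) := by
    refine ⟨(2 * δ).toNNReal * D, ?_⟩
    apply LipschitzWith.of_dist_le_mul
    intro x y
    have h9 := hD.dist_le_mul x y
    rw [Real.dist_eq] at h9 ⊢
    have h8 : ((2 * δ).toNNReal : ℝ) = 2 * δ := Real.coe_toNNReal _ (by positivity)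
    rw [← mul_sub, abs_mul, abs_of_nonneg (by positivity : 0 ≤ 2 * δ), NNReal.coe_mul, h8,
      mul_assoc (2 * δ)]
    exact mul_le_mul_of_nonneg_left h9 (by positivity)
  have hξs : tsupport (fun x => qb x ^ 2 * w x) ⊆ closedBall 0 1 :=
    tsupport_mul_left_subset'.trans tsupport_qb_sq_subset
  have hηs : tsupport (fun x : E => 2 * δ * qb x ^ 2) ⊆ closedBall 0 1 := by
    refine (closure_mono fun x hx => ?_).trans tsupport_qb_sq_subset
    simp only [Function.mem_support] at hx ⊢
    exact right_ne_zero_of_mul hx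
  have hmain := hvar (fun x => qb x ^ 2 * w x) (fun x => 2 * δ * qb x ^ 2) ⟨_, hξL⟩ hηL
    (hK.of_isClosed_subset (isClosed_tsupport _) hξs)
    (hK.of_isClosed_subset (isClosed_tsupport _) hηs)
    (fun x => by
      rw [abs_mul, abs_of_nonneg (hq0 x), mul_comm]
      gcongr
      exact abs_clamp_le (by linarith) _) hηs
  -- inside the ball, `w = v`
  have hvc : Continuous v := hvL.continuous
  have hin : ∀ x : E, ‖x‖ < 1 → w =ᶠ[𝓝 x] v := by
    intro x hx
    have h3 : ∀ᶠ y in 𝓝 x, |v y| < 2 * δ :=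
      (hvc.abs.tendsto x).eventually_lt_const (by
        have : |v x| ≤ δ := hflat x hx.le
        linarith)
    filter_upwards [h3] with y hy
    simp only [hw, clamp_eq hy.le]
  have hgw : ∀ x : E, ‖x‖ < 1 → DifferentiableAt ℝ φ x → ∇ w x = ∇ φ x - e := by
    intro x hx dφ
    have dinner : DifferentiableAt ℝ (fun y : E => ⟪e, y⟫) x :=
      ((innerSL ℝ e).hasFDerivAt (x := x)).differentiableAt
    rw [(hin x hx).gradient_eq, hv, grad_sub dφ dinner, grad_inner]
  have dq : ∀ x : E, DifferentiableAt ℝ (fun y : E => qb y ^ 2) x := fun x => by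
    have h := (hasFDerivAt_qbPow (n := 2) le_rfl (0 : E) 1 x).differentiableAt
    simpa using h
  -- measurability / integrability
  have mφ := meas_grad φ
  have mw := meas_grad w
  have mq := meas_grad (fun y : E => qb y ^ 2)
  have cq : Continuous (fun y : E => qb y ^ 2) := continuous_qb.pow 2
  have i1 : Integrable (fun x => qb x ^ 2 * (1 - ⟪∇ φ x, e⟫)) := by
    refine integrable_of_bdd_supp (cq.measurable.mul (measurable_const.sub
      (mφ.inner measurable_const))).aestronglyMeasurable (C := 1 * (1 + 1 * ‖e‖)) (fun x => ?_) hK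
      (fun x hx => ?_)
    · rw [abs_mul]
      have h1 : |⟪∇ φ x, e⟫| ≤ 1 * ‖e‖ := by
        refine (abs_real_inner_le_norm _ _).trans ?_
        gcongr
        simpa using norm_grad_le hφ x
      have h2 : |1 - ⟪∇ φ x, e⟫| ≤ 1 + 1 * ‖e‖ := by
        refine (abs_sub _ _).trans ?_
        rw [abs_one]; gcongr
      have h3 := hq1 x
      push_cast at h3
      gcongr
    · rw [mem_closedBall, dist_zero_right] at hx
      push Not at hx
      rw [qb_eq_zero hx.le]; ring
  have i2 : Integrable (fun x => ⟪∇ (fun y => w y * w y) x, ∇ (fun y => qb y ^ 2) x⟫) := by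
    refine integrable_of_bdd_supp ((meas_grad _).inner mq).aestronglyMeasurable
      (C := W * 4) (fun x => ?_) hK (fun x hx => ?_)
    · refine (abs_real_inner_le_norm _ _).trans ?_
      exact mul_le_mul (norm_grad_le hww x) (norm_grad_qb_sq_le x) (norm_nonneg _) (by positivity)
    · rw [mem_closedBall, dist_zero_right] at hx
      push Not at hx
      rw [grad_qb_sq_eq_zero hx.le, inner_zero_right]
  have i3 : Integrable (fun x => ⟪∇ (fun y => qb y ^ 2) x, e⟫ * w x) := by
    refine integrable_of_bdd_supp ((mq.inner measurable_const).mul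
      hwL.continuous.measurable).aestronglyMeasurable (C := (4 * ‖e‖) * (2 * δ)) (fun x => ?_) hK
      (fun x hx => ?_)
    · rw [abs_mul]
      have h1 : |⟪∇ (fun y => qb y ^ 2) x, e⟫| ≤ 4 * ‖e‖ := by
        refine (abs_real_inner_le_norm _ _).trans ?_
        gcongr
        exact norm_grad_qb_sq_le x
      have h2 : |w x| ≤ 2 * δ := abs_clamp_le (by linarith) _
      gcongr
    · rw [mem_closedBall, dist_zero_right] at hx
      push Not at hx
      rw [grad_qb_sq_eq_zero hx.le, inner_zero_left, zero_mul]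
  -- step A
  have hA : ∫ x, ⟪∇ φ x, ∇ (fun x => qb x ^ 2 * w x) x⟫ =
      2 * (∫ x, qb x ^ 2 * (1 - ⟪∇ φ x, e⟫)) +
        (1 / 2) * ∫ x, ⟪∇ (fun y => w y * w y) x, ∇ (fun y => qb y ^ 2) x⟫ := by
    have h1 : ∫ x, ⟪∇ φ x, ∇ (fun x => qb x ^ 2 * w x) x⟫ =
        ∫ x, (qb x ^ 2 * (1 - ⟪∇ φ x, e⟫) +
          (1 / 2) * ⟪∇ (fun y => w y * w y) x, ∇ (fun y => qb y ^ 2) x⟫ +
          ⟪∇ (fun y => qb y ^ 2) x, e⟫ * w x) := by
      apply integral_congr_ae
      filter_upwards [hφ.ae_differentiableAt, hwL.ae_differentiableAt, eik] with x dφ dw hx1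
      rw [grad_mul (dq x) dw, grad_mul dw dw]
      by_cases hx : ‖x‖ < 1
      · rw [hgw x hx dφ]
        simp only [inner_add_right, inner_smul_right, inner_add_left, inner_smul_left,
          inner_sub_right, inner_sub_left, real_inner_self_eq_norm_sq, hx1, conj_trivial]
        rw [real_inner_comm e (∇ (fun y => qb y ^ 2) x)]
        ring
      · push Not at hx
        rw [grad_qb_sq_eq_zero hx, qb_eq_zero hx]
        simp
    have h2 : ∫ x, ⟪∇ (fun y => qb y ^ 2) x, e⟫ * w x = ∫ x, qb x ^ 2 * (1 - ⟪∇ φ x, e⟫) := by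
      have h3 := ibp hwL hD cpt_qb_sq e
      have h4 : ∫ x, ⟪∇ w x, e⟫ * qb x ^ 2 = -∫ x, qb x ^ 2 * (1 - ⟪∇ φ x, e⟫) := by
        rw [← integral_neg]
        apply integral_congr_ae
        filter_upwards [hφ.ae_differentiableAt] with x dφ
        by_cases hx : ‖x‖ < 1
        · rw [hgw x hx dφ, inner_sub_left, real_inner_self_eq_norm_sq, he]
          ring
        · push Not at hx
          rw [qb_eq_zero hx]
          simp
      rw [h4] at h3
      linarith
    have i2' : Integrable (fun x =>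
        (1 / 2) * ⟪∇ (fun y => w y * w y) x, ∇ (fun y => qb y ^ 2) x⟫) := i2.const_mul _
    have i12 : Integrable (fun x => qb x ^ 2 * (1 - ⟪∇ φ x, e⟫) +
        (1 / 2) * ⟪∇ (fun y => w y * w y) x, ∇ (fun y => qb y ^ 2) x⟫) := i1.add i2'
    rw [h1, integral_add i12 i3, integral_add i1 i2', integral_const_mul, h2]
    ring
  -- step B
  have hφa : LipschitzWith 1 (fun y => |φ y|) := lip_abs hφ
  have hea : LipschitzWith ‖e‖₊ (fun y : E => |⟪e, y⟫|) := lip_abs (lip_inner e)
  have i4 : Integrable (fun x => ⟪∇ (fun y => |φ y| - |⟪e, y⟫|) x, ∇ (fun y => qb y ^ 2) x⟫) := by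
    refine integrable_of_bdd_supp ((meas_grad _).inner mq).aestronglyMeasurable
      (C := (1 + ‖e‖₊ : ℝ≥0) * 4) (fun x => ?_) hK (fun x hx => ?_)
    · refine (abs_real_inner_le_norm _ _).trans ?_
      exact mul_le_mul (norm_grad_le (hφa.sub hea) x) (norm_grad_qb_sq_le x) (norm_nonneg _)
        (by positivity)
    · rw [mem_closedBall, dist_zero_right] at hx
      push Not at hx
      rw [grad_qb_sq_eq_zero hx.le, inner_zero_right]
  have i5 : Integrable (fun x => ⟪∇ (fun y => |⟪e, y⟫|) x, ∇ (fun y => qb y ^ 2) x⟫) := by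
    refine integrable_of_bdd_supp ((meas_grad _).inner mq).aestronglyMeasurable
      (C := (‖e‖₊ : ℝ≥0) * 4) (fun x => ?_) hK (fun x hx => ?_)
    · refine (abs_real_inner_le_norm _ _).trans ?_
      exact mul_le_mul (norm_grad_le hea x) (norm_grad_qb_sq_le x) (norm_nonneg _)
        (by positivity)
    · rw [mem_closedBall, dist_zero_right] at hx
      push Not at hx
      rw [grad_qb_sq_eq_zero hx.le, inner_zero_right]
  have hB : ∫ x, ⟪∇ (fun y => |φ y|) x, ∇ (fun x => 2 * δ * qb x ^ 2) x⟫ ≤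
      2 * δ * (12 * NV * δ - 2 * c) := by
    have h1 : ∫ x, ⟪∇ (fun y => |φ y|) x, ∇ (fun x => 2 * δ * qb x ^ 2) x⟫ =
        2 * δ * ((∫ x, ⟪∇ (fun y => |φ y| - |⟪e, y⟫|) x, ∇ (fun y => qb y ^ 2) x⟫) +
          ∫ x, ⟪∇ (fun y => |⟪e, y⟫|) x, ∇ (fun y => qb y ^ 2) x⟫) := by
      rw [← integral_add i4 i5, ← integral_const_mul]
      apply integral_congr_ae
      filter_upwards [hφa.ae_differentiableAt, hea.ae_differentiableAt] with x d1 d2
      rw [grad_const_mul _ (dq x), grad_sub d1 d2, inner_smul_right, inner_sub_left]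
      ring
    rw [h1, flux_abs hd he]
    have h2 := div_bound (hφa.sub hea) (δ := δ) (fun x hx => by
      have h3 := hflat x hx
      exact (abs_abs_sub_abs_le_abs_sub _ _).trans h3)
    have h4 := (abs_le.mp h2).2
    rw [← hc]
    have h5 : 12 * (Module.finrank ℝ E : ℝ) * volume.real (closedBall (0 : E) 1) * δ = 12 * NV * δ := by
      rw [hNV]; ring
    rw [h5] at h4
    have h6 : 0 < 2 * δ := by positivity
    nlinarith
  -- step C
  have hC : |∫ x, ⟪∇ (fun y => w y * w y) x, ∇ (fun y => qb y ^ 2) x⟫| ≤ 12 * NV * δ ^ 2 := by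
    have h2 := div_bound hww (δ := δ ^ 2) (fun x hx => by
      have h3 := hflat x hx
      have h4 : w x = v x := by
        simp only [hw]
        exact clamp_eq (by
          have : |v x| ≤ δ := h3
          linarith)
      rw [h4, abs_mul, ← sq]
      gcongr)
    rw [hNV]
    refine h2.trans (le_of_eq ?_)
    ring
  have hμ : ∫ x, 2 * δ * qb x ^ 2 ∂μ ≤ 2 * δ * ((1 + κ) * c) := by
    rw [integral_const_mul]
    gcongr
  rw [hA] at hmain
  have h1 := (abs_le.mp hC).1
  have h2 : (15 : ℝ) * Module.finrank ℝ E * volume.real (closedBall (0 : E) 1) * δ ^ 2 =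
      15 * NV * δ ^ 2 := by rw [hNV]; ring
  rw [h2]
  nlinarith

end Crest.Agent.R246.Flat105
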