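import Crest.Agent.R246.Iter_105

/-!
R246, helper105.  From one improvement step at all zeros near `p₀` and flatness at one radius to
the pointwise `C^{1,α}` expansion at all zeros near `p₀` (helper295's form).
-/

set_option autoImplicit false

namespace Crest.Agent.R246.Iter105

open Filter Topology Metric Set
open scoped RealInnerProductSpace

variable {E : Type*} [NormedAddCommGroup E] [InnerProductSpace ℝ E]

/-- flatness at `p₀` gives flatness at the zeros nearby -/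
theorem Flat.shift {φ : E → ℝ} {p₀ p e : E} {R η : ℝ} (h : Flat φ p₀ R e η) (hp : φ p = 0)
    (hpR : ‖p - p₀‖ ≤ R / 2) (hR : 0 < R) : Flat φ p (R / 2) e (4 * η) := by
  intro x hx
  have h1 : ‖x - p₀‖ ≤ R := by
    have : x - p₀ = (x - p) + (p - p₀) := by abel
    rw [this]
    exact (norm_add_le _ _).trans (by linarith)
  have h2 := h x h1
  have h3 := h p (by linarith)
  rw [hp, zero_sub, abs_neg] at h3
  have h4 : φ x - ⟪e, x - p⟫ = (φ x - ⟪e, x - p₀⟫) + ⟪e, p - p₀⟫ := by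
    have : x - p₀ = (x - p) + (p - p₀) := by abel
    rw [this, inner_add_right]; ring
  rw [h4]
  calc _ ≤ _ := abs_add_le _ _
    _ ≤ η * R + η * R := add_le_add h2 h3
    _ = 4 * η * (R / 2) := by ring

/-- **Expansion at all zeros near `p₀`** (helper295's `Expn φ p₀ (R/2) C' α`, unfolded). -/
theorem expn_of_oneStep [CompleteSpace E] {φ : E → ℝ} {p₀ : E} {R θ α C η₀ η : ℝ}
    (h : OneStep φ {p | φ p = 0 ∧ ‖p - p₀‖ ≤ R / 2} (R / 2) θ α C η₀) (hR : 0 < R) (hθ0 : 0 < θ)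
    (hθ1 : θ < 1) (hα : 0 < α) (hC : 0 ≤ C) (hη : 0 < η) (hηη : 4 * η ≤ η₀) {e : E}
    (he : ‖e‖ = 1) (hflat : Flat φ p₀ R e η) :
    ∃ C' : ℝ, ∀ p ∈ ball p₀ (R / 2), φ p = 0 → ∃ e : E, ‖e‖ = 1 ∧
      ∀ x ∈ ball p (R / 2), |φ x - ⟪e, x - p⟫| ≤ C' * ‖x - p‖ ^ (1 + α) := by
  have hR2 : 0 < R / 2 := by positivity
  refine ⟨cst θ α C * (4 * η) * (R / 2) * ((R / 2) ^ (1 + α))⁻¹, ?_⟩
  intro p hp hp0
  have hpR : ‖p - p₀‖ ≤ R / 2 := by
    rw [mem_ball, dist_eq_norm] at hp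
    exact hp.le
  obtain ⟨e', he', -, hx⟩ := expand_at h hR2 hθ0 hθ1 hα hC (p := p) ⟨hp0, hpR⟩ he
    (by positivity : 0 < 4 * η) hηη (hflat.shift hp0 hpR hR)
  refine ⟨e', he', ?_⟩
  intro x hxp
  have h1 : ‖x - p‖ ≤ R / 2 := by
    rw [mem_ball, dist_eq_norm] at hxp
    exact hxp.le
  refine (hx x h1).trans (le_of_eq ?_)
  rw [Real.div_rpow (norm_nonneg _) hR2.le]
  field_simp

end Crest.Agent.R246.Iter105
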