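import Crest.Agent.R246.LimDef_538

/-!
Row 246, block F, leaf F2 (helper125): the TAIL ESTIMATE of Lemma MS.
For an Allen–Cahn solution in the flat weighted form, testing with `sech⁴(r/ε) sinh(r/ε)` gives an exact
identity, hence `∫_{|r| ≥ Sε} ζ q ≤ (1/cosh S) (2 ∫ ζ q + (1/2) ∫ |⟨∇ζ,∇r⟩|)`.
-/

set_option autoImplicit false

open Filter Topology Metric Set MeasureTheory
open scoped ContDiff
open Crest.GeometryTopology.CoordMetric Crest.GeometryTopology.AffineMaximal
open Crest.Agent.R236.Jet Crest.Agent.R246.D2x782 Crest.Agent.R246.Lim538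

noncomputable section

namespace Crest.Agent.R246.F2x125

variable {n : ℕ}

local notation "EE" => EuclideanSpace ℝ (Fin n)

theorem contOn_pderiv {U : Set EE} (hU : IsOpen U) {r : EE → ℝ} (hr : ContDiffOn ℝ ∞ r U) (i : Fin n) :
    ContDiffOn ℝ ∞ (fun y => pderiv i r y) U := fun _ hx =>
  (sm_pderiv (hr.contDiffAt (hU.mem_nhds hx)) i).contDiffWithinAt

theorem contOn_lapl {U : Set EE} (hU : IsOpen U) {r : EE → ℝ} (hr : ContDiffOn ℝ ∞ r U) :
    ContinuousOn (lapl r) U := by
  unfold lapl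
  refine continuousOn_finsetSum _ fun i _ => ?_
  have h := contOn_pderiv hU (contOn_pderiv hU hr i) i
  exact h.continuousOn

theorem contOn_gsq {U : Set EE} (hU : IsOpen U) {r : EE → ℝ} (hr : ContDiffOn ℝ ∞ r U) :
    ContinuousOn (gsq r) U := by
  unfold gsq
  refine continuousOn_finsetSum _ fun i _ => ?_
  have h := (contOn_pderiv hU hr i).continuousOn
  exact h.mul h

/-- `∫ A(r) ⟨∇ζ,∇r⟩ = - ∫ (A'(r) |∇r|² + A(r) Δr) ζ`. -/
theorem div_A {U : Set EE} (hU : IsOpen U) {r ζ : EE → ℝ} (hr : ContDiffOn ℝ ∞ r U) (hζ : Cut U ζ)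
    {A A' : ℝ → ℝ} (hA : ∀ t, HasDerivAt A (A' t) t) (hA' : Continuous A') :
    ∫ x, A (r x) * dot ζ r x = - ∫ x, (A' (r x) * gsq r x + A (r x) * lapl r x) * ζ x := by
  have hAd : ContDiff ℝ 1 A := by
    rw [contDiff_one_iff_deriv]
    refine ⟨fun t => (hA t).differentiableAt, ?_⟩
    have : deriv A = A' := funext fun t => (hA t).deriv
    rw [this]; exact hA'
  have hAc : Continuous A := hAd.continuous
  have hF : ∀ i : Fin n, ContDiffOn ℝ 1 (fun x => A (r x) * pderiv i r x) U := fun i =>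
    (hAd.comp_contDiffOn (hr.of_le (by simp))).mul ((contOn_pderiv hU hr i).of_le (by simp))
  have key : ∀ i : Fin n, ∫ x, (A (r x) * pderiv i r x) * pderiv i ζ x
      = - ∫ x, (A' (r x) * (pderiv i r x * pderiv i r x) + A (r x) * hessianMat r x i i) * ζ x := by
    intro i
    rw [ibp hU (hF i) hζ i]
    congr 1
    refine integral_congr_ae (Eventually.of_forall fun x => ?_)
    by_cases hx : x ∈ U
    · have hrx := hr.contDiffAt (hU.mem_nhds hx)
      show pderiv i (fun x => A (r x) * pderiv i r x) x * ζ x = _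
      congr 1
      have hd : DifferentiableAt ℝ (fun y => A (r y)) x :=
        (hA (r x)).differentiableAt.comp x (sm_diff hrx)
      have e1 : pderiv i (fun y => A (r y)) x = A' (r x) * pderiv i r x :=
        pderiv_comp (hA (r x)) (sm_diff hrx) i
      have e2 := pderiv_mul hd (sm_diff (sm_pderiv hrx i)) i
      have e3 : hessianMat r x i i = pderiv i (fun y => pderiv i r y) x := rfl
      rw [e2, e1, e3]
      ring
    · show pderiv i (fun x => A (r x) * pderiv i r x) x * ζ x = _
      simp only [hζ.zero_out hx, mul_zero]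
  have hcr : ContinuousOn r U := hr.continuousOn
  have int1 : ∀ i : Fin n, Integrable (fun x => (A (r x) * pderiv i r x) * pderiv i ζ x) := fun i =>
    integrable_mul_of_tsupport hU (hF i).continuousOn (hζ.cont_pd i) (hζ.cs_pd i)
      ((Cut.tsupport_pd i).trans hζ.sub)
  have int2 : ∀ i : Fin n, Integrable (fun x =>
      (A' (r x) * (pderiv i r x * pderiv i r x) + A (r x) * hessianMat r x i i) * ζ x) := by
    intro i
    refine integrable_mul_of_tsupport hU ?_ hζ.cd.continuous hζ.cs hζ.sub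
    have h1 := (contOn_pderiv hU hr i).continuousOn
    have h2 : ContinuousOn (fun x => hessianMat r x i i) U :=
      (contOn_pderiv hU (contOn_pderiv hU hr i) i).continuousOn
    exact ((hA'.comp_continuousOn hcr).mul (h1.mul h1)).add ((hAc.comp_continuousOn hcr).mul h2)
  calc ∫ x, A (r x) * dot ζ r x
      = ∫ x, ∑ i, (A (r x) * pderiv i r x) * pderiv i ζ x := by
        refine integral_congr_ae (Eventually.of_forall fun x => ?_)
        show A (r x) * (∑ i, pderiv i ζ x * pderiv i r x) = ∑ i, (A (r x) * pderiv i r x) * pderiv i ζ x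
        rw [Finset.mul_sum]
        exact Finset.sum_congr rfl fun i _ => by ring
    _ = ∑ i, ∫ x, (A (r x) * pderiv i r x) * pderiv i ζ x := integral_finsetSum _ fun i _ => int1 i
    _ = - ∑ i, ∫ x, (A' (r x) * (pderiv i r x * pderiv i r x) + A (r x) * hessianMat r x i i) * ζ x := by
        rw [← Finset.sum_neg_distrib]; exact Finset.sum_congr rfl fun i _ => key i
    _ = - ∫ x, ∑ i, (A' (r x) * (pderiv i r x * pderiv i r x) + A (r x) * hessianMat r x i i) * ζ x := by
        rw [integral_finsetSum _ fun i _ => int2 i]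
    _ = _ := by
        congr 1
        refine integral_congr_ae (Eventually.of_forall fun x => ?_)
        show ∑ i, _ = (A' (r x) * (∑ i, pderiv i r x * pderiv i r x)
          + A (r x) * ∑ i, hessianMat r x i i) * ζ x
        rw [Finset.mul_sum, Finset.mul_sum, ← Finset.sum_add_distrib, Finset.sum_mul]

/-- the test function `sech⁴ t · sinh t`, in the form `sinh / cosh⁴` -/
def AA (t : ℝ) : ℝ := Real.sinh t / Real.cosh t ^ 4

theorem one_sub_tanh_sq (t : ℝ) : 1 - Real.tanh t ^ 2 = 1 / Real.cosh t ^ 2 := by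
  have hc := (Real.cosh_pos t).ne'
  rw [Real.tanh_eq_sinh_div_cosh, div_pow]
  field_simp
  linarith [Real.cosh_sq t]

theorem sech4 (t : ℝ) : (1 - Real.tanh t ^ 2) ^ 2 = 1 / Real.cosh t ^ 4 := by
  rw [one_sub_tanh_sq, div_pow, one_pow, ← pow_mul]

theorem hasDerivAt_AA (t : ℝ) :
    HasDerivAt AA (1 / Real.cosh t ^ 3 - 4 * Real.sinh t ^ 2 / Real.cosh t ^ 5) t := by
  have hc := (Real.cosh_pos t).ne'
  have h := (Real.hasDerivAt_sinh t).fun_div ((Real.hasDerivAt_cosh t).fun_pow 4) (pow_ne_zero 4 hc)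
  refine h.congr_deriv ?_
  field_simp
  ring

theorem abs_AA_le (t : ℝ) : |AA t| ≤ 1 := by
  have hc := Real.cosh_pos t
  have h1 : 1 ≤ Real.cosh t := Real.one_le_cosh t
  unfold AA
  rw [abs_div, abs_of_pos (pow_pos hc 4), div_le_one (pow_pos hc 4)]
  have h2 : |Real.sinh t| ≤ Real.cosh t := by
    rw [abs_le]; constructor
    · have := Real.cosh_add_sinh t; have := Real.exp_pos t; linarith
    · have := Real.cosh_sub_sinh t; have := Real.exp_pos (-t); linarith
  calc |Real.sinh t| ≤ Real.cosh t ^ 1 := by simpa using h2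
    _ ≤ Real.cosh t ^ 4 := pow_le_pow_right₀ h1 (by norm_num)

section main
variable {U : Set (EuclideanSpace ℝ (Fin n))} {h r ζ : EuclideanSpace ℝ (Fin n) → ℝ} {ε : ℝ}

theorem contOn_qq (H : ACSol U h r ε) : ContinuousOn (qq h r ε) U := by
  unfold qq
  have h1 : ContinuousOn (fun x => Real.tanh (r x / ε)) U := by
    have hc : Continuous Real.tanh := by
      have : Real.tanh = fun t => Real.sinh t / Real.cosh t := funext Real.tanh_eq_sinh_div_cosh
      rw [this]
      exact Real.continuous_sinh.div Real.continuous_cosh fun t => (Real.cosh_pos t).ne'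
    exact hc.comp_continuousOn (H.smooth_r.continuousOn.div_const ε)
  exact ((continuousOn_const.mul ((continuousOn_const.sub (h1.pow 2)).pow 2))).mul
    (H.smooth_h.continuousOn.add (contOn_gsq H.isOpen H.smooth_r))

theorem qq_nonneg (H : ACSol U h r ε) {x : EE} (hx : x ∈ U) : 0 ≤ qq h r ε x := by
  unfold qq
  have h1 := gsq_nonneg r x
  have h2 : 0 ≤ h x := h1.trans (H.modica x hx)
  have h3 := H.eps_pos
  positivity

/-- the weighted density `(1/ε) sech⁴ cosh (2h + |∇r|²)` -/
def ww (h r : EuclideanSpace ℝ (Fin n) → ℝ) (ε : ℝ) (x : EuclideanSpace ℝ (Fin n)) : ℝ :=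
  1 / ε * (2 * h x + gsq r x) / Real.cosh (r x / ε) ^ 3

theorem contOn_ww (H : ACSol U h r ε) : ContinuousOn (ww h r ε) U := by
  unfold ww
  have h1 : ContinuousOn (fun x => Real.cosh (r x / ε) ^ 3) U :=
    (Real.continuous_cosh.comp_continuousOn (H.smooth_r.continuousOn.div_const ε)).pow 3
  exact ((continuousOn_const.mul ((continuousOn_const.mul H.smooth_h.continuousOn).add
    (contOn_gsq H.isOpen H.smooth_r)))).div h1 fun x _ => pow_ne_zero 3 (Real.cosh_pos _).ne'

theorem ww_nonneg (H : ACSol U h r ε) {x : EE} (hx : x ∈ U) : 0 ≤ ww h r ε x := by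
  unfold ww
  have h1 := gsq_nonneg r x
  have h2 : 0 ≤ h x := h1.trans (H.modica x hx)
  have h3 := H.eps_pos
  have h4 := Real.cosh_pos (r x / ε)
  positivity

/-- `cosh(r/ε) q ≤ (1/2) w` -/
theorem cosh_mul_qq_le (H : ACSol U h r ε) {x : EE} (hx : x ∈ U) :
    Real.cosh (r x / ε) * qq h r ε x ≤ 1 / 2 * ww h r ε x := by
  unfold ww qq
  rw [sech4]
  have h1 := gsq_nonneg r x
  have h2 := H.modica x hx
  have h3 := H.eps_pos
  have h4 := Real.cosh_pos (r x / ε)
  have e1 : Real.cosh (r x / ε) * (1 / (2 * ε) * (1 / Real.cosh (r x / ε) ^ 4) * (h x + gsq r x))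
      = (1 / (2 * ε) / Real.cosh (r x / ε) ^ 3) * (h x + gsq r x) := by
    field_simp
  have e2 : 1 / 2 * (1 / ε * (2 * h x + gsq r x) / Real.cosh (r x / ε) ^ 3)
      = (1 / (2 * ε) / Real.cosh (r x / ε) ^ 3) * (2 * h x + gsq r x) := by
    field_simp
  rw [e1, e2]
  apply mul_le_mul_of_nonneg_left _ (by positivity)
  linarith

/-- THE EXACT WEIGHTED IDENTITY:
`∫ ζ w = ∫ (sinh/cosh⁴)(r/ε) ⟨∇ζ,∇r⟩ + ∫ ζ 4 q / cosh(r/ε)`. -/
theorem weighted_id (H : ACSol U h r ε) (hζ : Cut U ζ) :
    ∫ x, ww h r ε x * ζ x = (∫ x, AA (r x / ε) * dot ζ r x)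
      + ∫ x, (4 * qq h r ε x / Real.cosh (r x / ε)) * ζ x := by
  have hε := H.eps_pos
  have hA : ∀ t : ℝ, HasDerivAt (fun t => AA (t / ε))
      ((1 / Real.cosh (t / ε) ^ 3 - 4 * Real.sinh (t / ε) ^ 2 / Real.cosh (t / ε) ^ 5) * (1 / ε)) t := by
    intro t
    exact (hasDerivAt_AA (t / ε)).comp t ((hasDerivAt_id t).div_const ε)
  have hA' : Continuous fun t : ℝ =>
      (1 / Real.cosh (t / ε) ^ 3 - 4 * Real.sinh (t / ε) ^ 2 / Real.cosh (t / ε) ^ 5) * (1 / ε) := by
    have c1 : Continuous fun t : ℝ => Real.cosh (t / ε) := by fun_prop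
    have c2 : Continuous fun t : ℝ => Real.sinh (t / ε) := by fun_prop
    refine Continuous.mul (Continuous.sub ?_ ?_) continuous_const
    · exact continuous_const.div (c1.pow 3) fun t => pow_ne_zero 3 (Real.cosh_pos _).ne'
    · exact (continuous_const.mul (c2.pow 2)).div (c1.pow 5) fun t => pow_ne_zero 5 (Real.cosh_pos _).ne'
  have key := div_A H.isOpen H.smooth_r hζ hA hA'
  rw [key, ← integral_neg, ← integral_add]
  · refine integral_congr_ae (Eventually.of_forall fun x => ?_)
    by_cases hx : x ∈ U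
    · show ww h r ε x * ζ x = _
      simp only []
      rw [H.pde x hx]
      unfold ww qq AA
      rw [sech4, Real.tanh_eq_sinh_div_cosh]
      have hc := (Real.cosh_pos (r x / ε)).ne'
      have hs : Real.sinh (r x / ε) ^ 2 = Real.cosh (r x / ε) ^ 2 - 1 := by
        linarith [Real.cosh_sq (r x / ε)]
      set c := Real.cosh (r x / ε)
      set s := Real.sinh (r x / ε)
      field_simp
      have : s * s = c ^ 2 - 1 := by rw [← hs]; ring
      ring_nf
      rw [hs]
      ring
    · simp only [hζ.zero_out hx, mul_zero]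
      simp
  · refine Integrable.neg (integrable_mul_of_tsupport H.isOpen ?_ hζ.cd.continuous hζ.cs hζ.sub)
    have hcr := H.smooth_r.continuousOn
    have cA : Continuous fun t => AA (t / ε) := continuous_iff_continuousAt.2 fun t => (hA t).continuousAt
    exact ((hA'.comp_continuousOn hcr).mul (contOn_gsq H.isOpen H.smooth_r)).add
      ((cA.comp_continuousOn hcr).mul (contOn_lapl H.isOpen H.smooth_r))
  · refine integrable_mul_of_tsupport H.isOpen ?_ hζ.cd.continuous hζ.cs hζ.sub
    exact (continuousOn_const.mul (contOn_qq H)).div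
      (Real.continuous_cosh.comp_continuousOn (H.smooth_r.continuousOn.div_const ε))
      fun x _ => (Real.cosh_pos _).ne'

/-- WEIGHTED BOUND: `∫ ζ cosh(r/ε) q ≤ 2 ∫ ζ q + (1/2) ∫ |⟨∇ζ,∇r⟩|`. -/
theorem weighted_bound (H : ACSol U h r ε) (hζ : Cut U ζ) (h0 : ∀ x, 0 ≤ ζ x) :
    ∫ x, (Real.cosh (r x / ε) * qq h r ε x) * ζ x
      ≤ 2 * (∫ x, qq h r ε x * ζ x) + 1 / 2 * ∫ x, |dot ζ r x| := by
  have hdi : Integrable (fun x => dot ζ r x) := by
    have e : (fun x => dot ζ r x) = fun x => ∑ i, pderiv i r x * pderiv i ζ x := by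
      funext x; exact Finset.sum_congr rfl fun i _ => mul_comm _ _
    rw [e]
    exact integrable_finsetSum _ fun i _ => integrable_mul_of_tsupport H.isOpen
      (contOn_pderiv H.isOpen H.smooth_r i).continuousOn (hζ.cont_pd i) (hζ.cs_pd i)
      ((Cut.tsupport_pd i).trans hζ.sub)
  have i1 : Integrable fun x => (Real.cosh (r x / ε) * qq h r ε x) * ζ x :=
    integrable_mul_of_tsupport H.isOpen ((Real.continuous_cosh.comp_continuousOn
      (H.smooth_r.continuousOn.div_const ε)).mul (contOn_qq H)) hζ.cd.continuous hζ.cs hζ.sub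
  have i2 : Integrable fun x => ww h r ε x * ζ x :=
    integrable_mul_of_tsupport H.isOpen (contOn_ww H) hζ.cd.continuous hζ.cs hζ.sub
  have i3 : Integrable fun x => qq h r ε x * ζ x :=
    integrable_mul_of_tsupport H.isOpen (contOn_qq H) hζ.cd.continuous hζ.cs hζ.sub
  have i4 : Integrable fun x => (4 * qq h r ε x / Real.cosh (r x / ε)) * ζ x :=
    integrable_mul_of_tsupport H.isOpen ((continuousOn_const.mul (contOn_qq H)).div
      (Real.continuous_cosh.comp_continuousOn (H.smooth_r.continuousOn.div_const ε))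
      fun x _ => (Real.cosh_pos _).ne') hζ.cd.continuous hζ.cs hζ.sub
  have s1 : ∫ x, (Real.cosh (r x / ε) * qq h r ε x) * ζ x ≤ ∫ x, 1 / 2 * (ww h r ε x * ζ x) := by
    refine integral_mono i1 (i2.const_mul _) fun x => ?_
    by_cases hx : x ∈ U
    · have := mul_le_mul_of_nonneg_right (cosh_mul_qq_le H hx) (h0 x)
      simpa [mul_assoc] using this
    · simp [hζ.zero_out hx]
  have s2 : ∫ x, AA (r x / ε) * dot ζ r x ≤ ∫ x, |dot ζ r x| := by
    have hle : ∀ x, AA (r x / ε) * dot ζ r x ≤ |dot ζ r x| := fun x => by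
      calc AA (r x / ε) * dot ζ r x ≤ |AA (r x / ε) * dot ζ r x| := le_abs_self _
        _ = |AA (r x / ε)| * |dot ζ r x| := abs_mul _ _
        _ ≤ 1 * |dot ζ r x| := mul_le_mul_of_nonneg_right (abs_AA_le _) (abs_nonneg _)
        _ = _ := one_mul _
    by_cases hi : Integrable fun x => AA (r x / ε) * dot ζ r x
    · exact integral_mono hi hdi.abs hle
    · rw [integral_undef hi]
      exact integral_nonneg fun x => abs_nonneg _
  have s3 : ∫ x, (4 * qq h r ε x / Real.cosh (r x / ε)) * ζ x ≤ ∫ x, 4 * (qq h r ε x * ζ x) := by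
    refine integral_mono i4 (i3.const_mul _) fun x => ?_
    by_cases hx : x ∈ U
    · have hq := qq_nonneg H hx
      have hc : 1 ≤ Real.cosh (r x / ε) := Real.one_le_cosh _
      have : 4 * qq h r ε x / Real.cosh (r x / ε) ≤ 4 * qq h r ε x :=
        div_le_self (by positivity) hc
      have := mul_le_mul_of_nonneg_right this (h0 x)
      simpa [mul_assoc] using this
    · simp [hζ.zero_out hx]
  have s4 := weighted_id H hζ
  rw [integral_const_mul] at s1 s3
  linarith

theorem measurableSet_tail (H : ACSol U h r ε) (c : ℝ) :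
    MeasurableSet (U ∩ {x | c ≤ |r x|}) := by
  have e : U ∩ {x | c ≤ |r x|} = U \ (U ∩ (fun x => |r x|) ⁻¹' (Iio c)) := by
    ext x
    simp only [mem_inter_iff, mem_ofPred_eq, Set.mem_sdiff, mem_preimage, mem_Iio, not_and, not_lt]
    tauto
  rw [e]
  exact H.isOpen.measurableSet.diff
    (H.smooth_r.continuousOn.abs.isOpen_inter_preimage H.isOpen isOpen_Iio).measurableSet

theorem setIntegral_inter_of_zero_out (hU : IsOpen U) {f : EE → ℝ} (hf : ∀ x, x ∉ U → f x = 0)
    {E : Set EE} : ∫ x in E, f x = ∫ x in U ∩ E, f x := by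
  rw [← Measure.restrict_restrict hU.measurableSet]
  exact (setIntegral_eq_integral_of_forall_compl_eq_zero hf).symm

/-- TAIL ESTIMATE (F2): `∫_{|r| ≥ Sε} ζ q ≤ (1/cosh S) (2 ∫ ζ q + (1/2) ∫ |⟨∇ζ,∇r⟩|)`. -/
theorem tail (H : ACSol U h r ε) (hζ : Cut U ζ) (h0 : ∀ x, 0 ≤ ζ x) {S : ℝ} (hS : 0 ≤ S) :
    ∫ x in {x | S * ε ≤ |r x|}, qq h r ε x * ζ x
      ≤ 1 / Real.cosh S * (2 * (∫ x, qq h r ε x * ζ x) + 1 / 2 * ∫ x, |dot ζ r x|) := by
  have hε := H.eps_pos
  have i1 : Integrable fun x => (Real.cosh (r x / ε) * qq h r ε x) * ζ x :=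
    integrable_mul_of_tsupport H.isOpen ((Real.continuous_cosh.comp_continuousOn
      (H.smooth_r.continuousOn.div_const ε)).mul (contOn_qq H)) hζ.cd.continuous hζ.cs hζ.sub
  have i3 : Integrable fun x => qq h r ε x * ζ x :=
    integrable_mul_of_tsupport H.isOpen (contOn_qq H) hζ.cd.continuous hζ.cs hζ.sub
  have hcS := Real.cosh_pos S
  have hnn : ∀ x, 0 ≤ (Real.cosh (r x / ε) * qq h r ε x) * ζ x := fun x => by
    by_cases hx : x ∈ U
    · have := qq_nonneg H hx
      have := h0 x
      have := Real.cosh_pos (r x / ε)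
      positivity
    · simp [hζ.zero_out hx]
  -- pointwise comparison on the set
  have hle : ∀ x ∈ {x | S * ε ≤ |r x|}, qq h r ε x * ζ x
      ≤ 1 / Real.cosh S * ((Real.cosh (r x / ε) * qq h r ε x) * ζ x) := by
    intro x hx
    by_cases hU : x ∈ U
    · have hq := qq_nonneg H hU
      have hz := h0 x
      have h1 : S ≤ |r x / ε| := by
        rw [abs_div, abs_of_pos hε, le_div_iff₀ hε]; exact hx
      have h2 : Real.cosh S ≤ Real.cosh (r x / ε) := by
        rw [Real.cosh_le_cosh, abs_of_nonneg hS]; exact h1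
      have h3 : 1 ≤ 1 / Real.cosh S * Real.cosh (r x / ε) := by
        rw [one_div, ← div_eq_inv_mul, one_le_div hcS]; exact h2
      calc qq h r ε x * ζ x = 1 * (qq h r ε x * ζ x) := (one_mul _).symm
        _ ≤ (1 / Real.cosh S * Real.cosh (r x / ε)) * (qq h r ε x * ζ x) :=
          mul_le_mul_of_nonneg_right h3 (mul_nonneg hq hz)
        _ = _ := by ring
    · simp [hζ.zero_out hU]
  calc ∫ x in {x | S * ε ≤ |r x|}, qq h r ε x * ζ x
      ≤ ∫ x, 1 / Real.cosh S * ((Real.cosh (r x / ε) * qq h r ε x) * ζ x) := by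
        have hz : ∀ x, x ∉ U → qq h r ε x * ζ x = 0 := fun x hx => by simp [hζ.zero_out hx]
        have hm := measurableSet_tail H (S * ε)
        rw [setIntegral_inter_of_zero_out H.isOpen hz]
        refine (setIntegral_mono_on i3.integrableOn (i1.const_mul _).integrableOn hm
          fun x hx => hle x hx.2).trans ?_
        exact setIntegral_le_integral (i1.const_mul _)
          (Eventually.of_forall fun x => mul_nonneg (by positivity) (hnn x))
    _ = 1 / Real.cosh S * ∫ x, (Real.cosh (r x / ε) * qq h r ε x) * ζ x := integral_const_mul _ _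
    _ ≤ _ := mul_le_mul_of_nonneg_left (weighted_bound H hζ h0) (by positivity)

end main

end Crest.Agent.R246.F2x125
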