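import Mathlib

/-!
Row 246, block F (Lemma MS), leaf F4 (helper669): one-variable cut-off profiles.

`tkap a b δ` is the `C¹` truncation `v ↦ min (v,b) - a` smoothed at `a` and `b`;
`prof d ρ₁ ρ₂ δ t = tkap (ρ₂^{-d}) (ρ₁^{-d}) δ (t^{-d/2})` is the profile of the test field.
-/

set_option autoImplicit false

open Filter Topology Set
open scoped ContDiff

noncomputable section

namespace Crest.Agent.R246.F4x669

/-- `(v₊)²` -/
def P2 (v : ℝ) : ℝ := (max v 0) ^ 2

theorem hasDerivAt_P2 (v : ℝ) : HasDerivAt P2 (2 * max v 0) v := by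
  rcases lt_trichotomy v 0 with hv | hv | hv
  · have h1 : P2 =ᶠ[𝓝 v] fun _ => 0 := by
      filter_upwards [Iio_mem_nhds hv] with w hw
      unfold P2
      rw [max_eq_right (le_of_lt hw)]; norm_num
    rw [max_eq_right hv.le, mul_zero]
    exact (hasDerivAt_const v (0 : ℝ)).congr_of_eventuallyEq h1
  · subst hv
    rw [max_self, mul_zero]
    rw [hasDerivAt_iff_isLittleO_nhds_zero]
    have h2 : (fun h : ℝ => P2 (0 + h) - P2 0 - h • (0 : ℝ)) = fun h => (max h 0) ^ 2 := by
      funext h; simp [P2]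
    rw [h2, Asymptotics.isLittleO_iff]
    intro c hc
    filter_upwards [Metric.ball_mem_nhds (0 : ℝ) hc] with h hh
    rw [Metric.mem_ball, dist_zero_right, Real.norm_eq_abs] at hh
    have h3 : |max h 0| ≤ |h| := by
      rcases le_total h 0 with h0 | h0
      · rw [max_eq_right h0]; simp
      · rw [max_eq_left h0]
    rw [norm_pow, Real.norm_eq_abs, Real.norm_eq_abs]
    nlinarith [abs_nonneg h, abs_nonneg (max h 0)]
  · have h1 : P2 =ᶠ[𝓝 v] fun w => w ^ 2 := by
      filter_upwards [Ioi_mem_nhds hv] with w hw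
      unfold P2
      rw [max_eq_left (le_of_lt hw)]
    rw [max_eq_left hv.le]
    have h2 : HasDerivAt (fun w : ℝ => w ^ 2) (2 * v) v := by
      have := hasDerivAt_pow 2 v
      simpa using this
    exact h2.congr_of_eventuallyEq h1

/-- smoothed truncation -/
def tkap (a b δ v : ℝ) : ℝ :=
  (P2 (v - a) - P2 (v - a - δ) - P2 (v - b + δ) + P2 (v - b)) / (2 * δ)

/-- its derivative -/
def tkap' (a b δ v : ℝ) : ℝ :=
  (max (v - a) 0 - max (v - a - δ) 0 - max (v - b + δ) 0 + max (v - b) 0) / δ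

variable {a b δ : ℝ}

theorem hasDerivAt_tkap (hδ : 0 < δ) (v : ℝ) : HasDerivAt (tkap a b δ) (tkap' a b δ v) v := by
  have hc : ∀ c : ℝ, HasDerivAt (fun v : ℝ => P2 (v + c)) (2 * max (v + c) 0) v := by
    intro c
    have h0 : HasDerivAt (fun v : ℝ => v + c) 1 v := (hasDerivAt_id v).add_const c
    have h1 := HasDerivAt.comp (h₂ := P2) (h := fun v : ℝ => v + c) v (hasDerivAt_P2 (v + c)) h0
    rw [mul_one] at h1
    exact h1
  have h1 : HasDerivAt (fun v : ℝ => P2 (v - a)) (2 * max (v - a) 0) v := by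
    simpa only [sub_eq_add_neg] using hc (-a)
  have h2 : HasDerivAt (fun v : ℝ => P2 (v - a - δ)) (2 * max (v - a - δ) 0) v := by
    simpa only [sub_eq_add_neg, add_assoc] using hc (-a + -δ)
  have h3 : HasDerivAt (fun v : ℝ => P2 (v - b + δ)) (2 * max (v - b + δ) 0) v := by
    simpa only [sub_eq_add_neg, add_assoc] using hc (-b + δ)
  have h4 : HasDerivAt (fun v : ℝ => P2 (v - b)) (2 * max (v - b) 0) v := by
    simpa only [sub_eq_add_neg] using hc (-b)
  have h5 := (((h1.sub h2).sub h3).add h4).div_const (2 * δ)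
  refine h5.congr_deriv ?_
  unfold tkap'
  field_simp

theorem continuous_tkap' : Continuous (tkap' a b δ) := by
  unfold tkap'
  fun_prop

theorem tkap_of_le (hδ : 0 < δ) (hab : 2 * δ ≤ b - a) {v : ℝ} (hv : v ≤ a) : tkap a b δ v = 0 := by
  unfold tkap P2
  rw [max_eq_right (by linarith), max_eq_right (by linarith), max_eq_right (by linarith),
    max_eq_right (by linarith)]
  simp

theorem tkap'_of_le (hδ : 0 < δ) (hab : 2 * δ ≤ b - a) {v : ℝ} (hv : v ≤ a) :
    tkap' a b δ v = 0 := by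
  unfold tkap'
  rw [max_eq_right (by linarith), max_eq_right (by linarith), max_eq_right (by linarith),
    max_eq_right (by linarith)]
  simp

theorem tkap_of_ge (hδ : 0 < δ) (hab : 2 * δ ≤ b - a) {v : ℝ} (hv : b ≤ v) :
    tkap a b δ v = b - a - δ := by
  unfold tkap P2
  rw [max_eq_left (by linarith), max_eq_left (by linarith), max_eq_left (by linarith),
    max_eq_left (by linarith)]
  field_simp
  ring

theorem tkap'_of_ge (hδ : 0 < δ) (hab : 2 * δ ≤ b - a) {v : ℝ} (hv : b ≤ v) :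
    tkap' a b δ v = 0 := by
  unfold tkap'
  rw [max_eq_left (by linarith), max_eq_left (by linarith), max_eq_left (by linarith),
    max_eq_left (by linarith)]
  rw [div_eq_zero_iff]; left; ring

theorem tkap'_nonneg (hδ : 0 < δ) (hab : 2 * δ ≤ b - a) (v : ℝ) : 0 ≤ tkap' a b δ v := by
  unfold tkap'
  apply div_nonneg _ hδ.le
  rcases le_total (v - a) 0 with h1 | h1 <;> rcases le_total (v - a - δ) 0 with h2 | h2 <;>
    rcases le_total (v - b + δ) 0 with h3 | h3 <;> rcases le_total (v - b) 0 with h4 | h4 <;>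
    simp only [max_eq_left, max_eq_right, h1, h2, h3, h4] <;> linarith

theorem tkap'_le_one (hδ : 0 < δ) (hab : 2 * δ ≤ b - a) (v : ℝ) : tkap' a b δ v ≤ 1 := by
  unfold tkap'
  rw [div_le_one hδ]
  rcases le_total (v - a) 0 with h1 | h1 <;> rcases le_total (v - a - δ) 0 with h2 | h2 <;>
    rcases le_total (v - b + δ) 0 with h3 | h3 <;> rcases le_total (v - b) 0 with h4 | h4 <;>
    simp only [max_eq_left, max_eq_right, h1, h2, h3, h4] <;> linarith

theorem monotone_tkap (hδ : 0 < δ) (hab : 2 * δ ≤ b - a) : Monotone (tkap a b δ) := by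
  apply monotone_of_deriv_nonneg
  · exact fun v => (hasDerivAt_tkap hδ v).differentiableAt
  · intro v
    rw [(hasDerivAt_tkap hδ v).deriv]
    exact tkap'_nonneg hδ hab v

theorem tkap_nonneg (hδ : 0 < δ) (hab : 2 * δ ≤ b - a) (v : ℝ) : 0 ≤ tkap a b δ v := by
  rcases le_total v a with h | h
  · rw [tkap_of_le hδ hab h]
  · rw [← tkap_of_le hδ hab (le_refl a)]
    exact monotone_tkap hδ hab h

theorem tkap_le (hδ : 0 < δ) (hab : 2 * δ ≤ b - a) (v : ℝ) : tkap a b δ v ≤ b - a - δ := by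
  rcases le_total v b with h | h
  · rw [← tkap_of_ge hδ hab (le_refl b)]
    exact monotone_tkap hδ hab h
  · rw [tkap_of_ge hδ hab h]

/-- the key inequality `κ - v κ' ≥ -(a+δ)` -/
theorem tkap_sub_ge (hδ : 0 < δ) (hab : 2 * δ ≤ b - a) (ha : 0 ≤ a) (v : ℝ) (hv : 0 ≤ v) :
    -(a + δ) ≤ tkap a b δ v - v * tkap' a b δ v := by
  have hkey : -(a + δ) * (2 * δ) ≤
      (P2 (v - a) - P2 (v - a - δ) - P2 (v - b + δ) + P2 (v - b))
      - 2 * v * (max (v - a) 0 - max (v - a - δ) 0 - max (v - b + δ) 0 + max (v - b) 0) := by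
    unfold P2
    rcases le_total (v - a) 0 with h1 | h1 <;> rcases le_total (v - a - δ) 0 with h2 | h2 <;>
      rcases le_total (v - b + δ) 0 with h3 | h3 <;> rcases le_total (v - b) 0 with h4 | h4 <;>
      simp only [max_eq_left, max_eq_right, h1, h2, h3, h4] <;>
      nlinarith [mul_nonneg hδ.le ha, mul_pos hδ hδ, mul_nonneg hv hδ.le]
  have : tkap a b δ v - v * tkap' a b δ v =
      ((P2 (v - a) - P2 (v - a - δ) - P2 (v - b + δ) + P2 (v - b))
      - 2 * v * (max (v - a) 0 - max (v - a - δ) 0 - max (v - b + δ) 0 + max (v - b) 0))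
        / (2 * δ) := by
    unfold tkap tkap'
    field_simp
  rw [this, le_div_iff₀ (by positivity)]
  exact hkey

end Crest.Agent.R246.F4x669
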