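import Crest.Agent.R246.F4a_669
import Crest.Agent.R246.MSDefs_852

/-!
Row 246, block F (Lemma MS), leaf F4 (helper669): the slab test field
`X = χ(s) ψ(|y|²/ρ²) y`, `s = ⟪a, x - p⟫`, `y = x - p - s a`, and the slab identity.
-/

set_option autoImplicit false

open Filter Topology Set MeasureTheory Metric InnerProductSpace
open scoped ContDiff RealInnerProductSpace Gradient

noncomputable section

namespace Crest.Agent.R246.F4x669

open Crest.Agent.R246.MS852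

/-! ### the one-variable cut-offs -/

/-- `1` for `|s| ≤ D/4`, `0` for `|s| ≥ D/2` -/
def chi (D s : ℝ) : ℝ := tkap (-4) (-1) (3 / 2) (-(16 * s ^ 2 / D ^ 2)) / (3 / 2)

def chi' (D s : ℝ) : ℝ :=
  tkap' (-4) (-1) (3 / 2) (-(16 * s ^ 2 / D ^ 2)) * (-(32 * s / D ^ 2)) / (3 / 2)

theorem hab0 : (2 : ℝ) * (3 / 2) ≤ -1 - -4 := by norm_num
theorem hd0 : (0 : ℝ) < 3 / 2 := by norm_num

theorem hasDerivAt_chi (D s : ℝ) : HasDerivAt (chi D) (chi' D s) s := by
  have h1 : HasDerivAt (fun s : ℝ => -(16 * s ^ 2 / D ^ 2)) (-(32 * s / D ^ 2)) s := by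
    have h2 : HasDerivAt (fun s : ℝ => s ^ 2) (2 * s) s := by simpa using hasDerivAt_pow 2 s
    refine (((h2.const_mul 16).div_const (D ^ 2)).neg).congr_deriv ?_
    ring
  have h3 := HasDerivAt.comp (h₂ := tkap (-4) (-1) (3 / 2))
    (h := fun s : ℝ => -(16 * s ^ 2 / D ^ 2)) s (hasDerivAt_tkap hd0 _) h1
  exact h3.div_const (3 / 2)

theorem continuous_chi' (D : ℝ) : Continuous (chi' D) := by
  unfold chi'
  have h1 : Continuous fun s : ℝ => tkap' (-4) (-1) (3 / 2) (-(16 * s ^ 2 / D ^ 2)) :=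
    continuous_tkap'.comp (by fun_prop)
  fun_prop

theorem contDiff_chi (D : ℝ) : ContDiff ℝ 1 (chi D) := by
  rw [contDiff_one_iff_deriv]
  refine ⟨fun s => (hasDerivAt_chi D s).differentiableAt, ?_⟩
  have : deriv (chi D) = chi' D := funext fun s => (hasDerivAt_chi D s).deriv
  rw [this]; exact continuous_chi' D

theorem chi_nonneg (D s : ℝ) : 0 ≤ chi D s := by
  unfold chi
  exact div_nonneg (tkap_nonneg hd0 hab0 _) hd0.le

theorem chi_le_one (D s : ℝ) : chi D s ≤ 1 := by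
  unfold chi
  rw [div_le_one hd0]
  have := tkap_le hd0 hab0 (-(16 * s ^ 2 / D ^ 2))
  linarith

theorem chi_eq_one {D s : ℝ} (hD : 0 < D) (hs : |s| ≤ D / 4) : chi D s = 1 := by
  unfold chi
  have h1 : (-1 : ℝ) ≤ -(16 * s ^ 2 / D ^ 2) := by
    have h2 : s ^ 2 ≤ (D / 4) ^ 2 := by
      rw [← sq_abs s]; exact pow_le_pow_left₀ (abs_nonneg s) hs 2
    have : 16 * s ^ 2 / D ^ 2 ≤ 1 := by
      rw [div_le_one (by positivity)]; nlinarith
    linarith
  rw [tkap_of_ge hd0 hab0 h1]; norm_num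

theorem chi_eq_zero {D s : ℝ} (hD : 0 < D) (hs : D / 2 ≤ |s|) : chi D s = 0 := by
  unfold chi
  have h1 : -(16 * s ^ 2 / D ^ 2) ≤ (-4 : ℝ) := by
    have h2 : (D / 2) ^ 2 ≤ s ^ 2 := by
      rw [← sq_abs s]; exact pow_le_pow_left₀ (by positivity) hs 2
    have : 4 ≤ 16 * s ^ 2 / D ^ 2 := by
      rw [le_div_iff₀ (by positivity)]; nlinarith
    linarith
  rw [tkap_of_le hd0 hab0 h1]; norm_num

theorem chi'_eq_zero {D s : ℝ} (hD : 0 < D) (hs : D / 2 ≤ |s|) : chi' D s = 0 := by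
  unfold chi'
  have h1 : -(16 * s ^ 2 / D ^ 2) ≤ (-4 : ℝ) := by
    have h2 : (D / 2) ^ 2 ≤ s ^ 2 := by
      rw [← sq_abs s]; exact pow_le_pow_left₀ (by positivity) hs 2
    have : 4 ≤ 16 * s ^ 2 / D ^ 2 := by
      rw [le_div_iff₀ (by positivity)]; nlinarith
    linarith
  rw [tkap'_of_le hd0 hab0 h1]; norm_num

theorem abs_chi'_le {D s : ℝ} (hD : 0 < D) : |chi' D s| ≤ 11 / D := by
  rcases le_total (D / 2) |s| with hs | hs
  · rw [chi'_eq_zero hD hs, abs_zero]; positivity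
  · unfold chi'
    rw [abs_div, abs_mul, abs_of_nonneg (tkap'_nonneg hd0 hab0 _), abs_neg, abs_div, abs_mul,
      abs_of_pos (by positivity : (0 : ℝ) < D ^ 2), abs_of_pos (by norm_num : (0 : ℝ) < 32),
      abs_of_pos hd0]
    have h1 := tkap'_le_one hd0 hab0 (-(16 * s ^ 2 / D ^ 2))
    have h0 := tkap'_nonneg hd0 hab0 (-(16 * s ^ 2 / D ^ 2))
    have h2 : 32 * |s| / D ^ 2 ≤ 16 / D := by
      rw [div_le_div_iff₀ (by positivity) hD]
      nlinarith
    have h3 : tkap' (-4) (-1) (3 / 2) (-(16 * s ^ 2 / D ^ 2)) * (32 * |s| / D ^ 2) ≤ 16 / D := by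
      calc _ ≤ 1 * (16 / D) := mul_le_mul h1 h2 (by positivity) (by norm_num)
        _ = _ := one_mul _
    calc _ ≤ 16 / D / (3 / 2) := by gcongr
      _ ≤ 11 / D := by
        rw [div_div, div_le_div_iff₀ (by positivity) hD]
        nlinarith

theorem hasDerivAt_psi (t : ℝ) : HasDerivAt psi (dpsi t) t := by
  have h1 : HasDerivAt (fun t : ℝ => 1 - t) (-1) t := by
    simpa using (hasDerivAt_id t).const_sub 1
  have h2 := HasDerivAt.comp (h₂ := P2) (h := fun t : ℝ => 1 - t) t (hasDerivAt_P2 (1 - t)) h1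
  have h3 : (P2 ∘ fun t : ℝ => 1 - t) = psi := by
    funext t; simp [P2, psi, max_comm]
  rw [h3] at h2
  refine h2.congr_deriv ?_
  unfold dpsi
  rw [max_comm]; ring

theorem continuous_dpsi : Continuous dpsi := by unfold dpsi; fun_prop

theorem contDiff_psi : ContDiff ℝ 1 psi := by
  rw [contDiff_one_iff_deriv]
  refine ⟨fun s => (hasDerivAt_psi s).differentiableAt, ?_⟩
  have : deriv psi = dpsi := funext fun s => (hasDerivAt_psi s).deriv
  rw [this]; exact continuous_dpsi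

theorem psi_nonneg (t : ℝ) : 0 ≤ psi t := by unfold psi; positivity

theorem psi_le_one {t : ℝ} (ht : 0 ≤ t) : psi t ≤ 1 := by
  unfold psi
  have h1 : max 0 (1 - t) ≤ 1 := max_le (by norm_num) (by linarith)
  have h0 : 0 ≤ max 0 (1 - t) := le_max_left _ _
  nlinarith

theorem psi_eq_zero {t : ℝ} (ht : 1 ≤ t) : psi t = 0 := by
  unfold psi; rw [max_eq_left (by linarith)]; norm_num

theorem dpsi_eq_zero {t : ℝ} (ht : 1 ≤ t) : dpsi t = 0 := by
  unfold dpsi; rw [max_eq_left (by linarith)]; norm_num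

theorem dpsi_nonpos (t : ℝ) : dpsi t ≤ 0 := by
  unfold dpsi
  have h0 : 0 ≤ max 0 (1 - t) := le_max_left _ _
  linarith

theorem abs_dpsi_le {t : ℝ} (ht : 0 ≤ t) : |dpsi t| ≤ 2 := by
  rw [abs_of_nonpos (dpsi_nonpos t)]
  unfold dpsi
  have h1 : max 0 (1 - t) ≤ 1 := max_le (by norm_num) (by linarith)
  linarith

theorem psi_anti {s t : ℝ} (hst : s ≤ t) : psi t ≤ psi s := by
  unfold psi
  have h0 : 0 ≤ max 0 (1 - t) := le_max_left _ _
  have h1 : max 0 (1 - t) ≤ max 0 (1 - s) := max_le_max le_rfl (by linarith)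
  exact pow_le_pow_left₀ h0 h1 2

/-- Lipschitz bound -/
theorem psi_le_add {s t : ℝ} (hs : 0 ≤ s) (hst : s ≤ t) : psi s ≤ psi t + 2 * (t - s) := by
  unfold psi
  have h0 : 0 ≤ max 0 (1 - t) := le_max_left _ _
  have h1 : max 0 (1 - s) ≤ max 0 (1 - t) + (t - s) := by
    apply max_le
    · linarith
    · have := le_max_right 0 (1 - t); linarith
  have h2 : max 0 (1 - s) ≤ 1 := max_le (by norm_num) (by linarith)
  have h3 : max 0 (1 - t) ≤ 1 := max_le (by norm_num) (by linarith)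
  have h4 : max 0 (1 - t) ≤ max 0 (1 - s) := max_le_max le_rfl (by linarith)
  nlinarith

/-! ### geometry of the slab -/

section
variable {E : Type*} [NormedAddCommGroup E] [InnerProductSpace ℝ E]

/-- vertical coordinate relative to `p` -/
def sc (a p x : E) : ℝ := ⟪a, x - p⟫

/-- horizontal part of `x - p` -/
def yv (a p x : E) : E := x - p - sc a p x • a

/-- the projection `v ↦ v - ⟪a,v⟫ a` -/
def Pm (a : E) : E →L[ℝ] E := ContinuousLinearMap.id ℝ E - (innerSL ℝ a).smulRight a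

theorem Pm_apply (a v : E) : Pm a v = v - ⟪a, v⟫ • a := by
  simp [Pm]

variable {a : E} (ha : ‖a‖ = 1)
include ha

theorem inner_aa : ⟪a, a⟫ = (1 : ℝ) := by rw [real_inner_self_eq_norm_sq, ha]; norm_num

theorem inner_a_yv (p x : E) : ⟪a, yv a p x⟫ = (0 : ℝ) := by
  unfold yv sc
  rw [inner_sub_right, inner_smul_right, inner_aa ha]; ring

theorem norm_yv_sq (p x : E) : ‖yv a p x‖ ^ 2 = ‖x - p‖ ^ 2 - sc a p x ^ 2 := by
  have h1 : ‖yv a p x‖ ^ 2 = ‖x - p‖ ^ 2 - 2 * ⟪x - p, sc a p x • a⟫ + ‖sc a p x • a‖ ^ 2 := by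
    unfold yv; exact norm_sub_sq_real _ _
  rw [h1, inner_smul_right, norm_smul, mul_pow, ha, real_inner_comm, Real.norm_eq_abs, sq_abs]
  unfold sc
  ring

theorem norm_Pm_sq (v : E) : ‖Pm a v‖ ^ 2 = ‖v‖ ^ 2 - ⟪a, v⟫ ^ 2 := by
  rw [Pm_apply]
  have h1 : ‖v - ⟪a, v⟫ • a‖ ^ 2 = ‖v‖ ^ 2 - 2 * ⟪v, ⟪a, v⟫ • a⟫ + ‖(⟪a, v⟫ : ℝ) • a‖ ^ 2 :=
    norm_sub_sq_real _ _
  rw [h1, inner_smul_right, norm_smul, mul_pow, ha, real_inner_comm, Real.norm_eq_abs, sq_abs]
  ring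

theorem inner_yv_eq (p x v : E) : ⟪yv a p x, v⟫ = ⟪yv a p x, Pm a v⟫ := by
  rw [Pm_apply, inner_sub_right, inner_smul_right, real_inner_comm a, inner_a_yv ha]
  ring

theorem abs_inner_yv_le (p x v : E) : |⟪yv a p x, v⟫| ≤ ‖yv a p x‖ * ‖Pm a v‖ := by
  rw [inner_yv_eq ha]
  exact abs_real_inner_le_norm _ _

theorem sc_sq_le (p x : E) : sc a p x ^ 2 ≤ ‖x - p‖ ^ 2 := by
  have h1 := norm_yv_sq ha p x
  have h2 : 0 ≤ ‖yv a p x‖ ^ 2 := by positivity
  linarith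

omit ha in
theorem hasFDerivAt_sc (a p x : E) : HasFDerivAt (sc a p) (innerSL ℝ a) x := by
  have h1 : HasFDerivAt (fun x : E => x - p) (ContinuousLinearMap.id ℝ E) x :=
    (hasFDerivAt_id x).sub_const p
  have h2 : HasFDerivAt (fun x : E => innerSL ℝ a (x - p))
      ((innerSL ℝ a).comp (ContinuousLinearMap.id ℝ E)) x :=
    (innerSL ℝ a).hasFDerivAt.comp x h1
  rw [ContinuousLinearMap.comp_id] at h2
  exact h2

omit ha in
theorem hasFDerivAt_yv (a p x : E) : HasFDerivAt (yv a p) (Pm a) x := by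
  have h1 : HasFDerivAt (fun x : E => x - p) (ContinuousLinearMap.id ℝ E) x :=
    (hasFDerivAt_id x).sub_const p
  exact h1.sub ((hasFDerivAt_sc a p x).smul_const a)

/-- the test functions -/
def TT (a p : E) (D ρ : ℝ) (b x : E) : ℝ :=
  chi D (sc a p x) * psi (‖yv a p x‖ ^ 2 / ρ ^ 2) * ⟪yv a p x, b⟫

omit ha in
theorem contDiff_sc (a p : E) : ContDiff ℝ 1 (sc a p) := by
  exact contDiff_const.inner ℝ (contDiff_id.sub contDiff_const)

omit ha in
theorem contDiff_yv (a p : E) : ContDiff ℝ 1 (yv a p) := by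
  unfold yv
  have := contDiff_sc a p
  fun_prop

omit ha in
theorem contDiff_TT (a p : E) (D ρ : ℝ) (b : E) : ContDiff ℝ 1 (TT a p D ρ b) := by
  unfold TT
  have h1 := contDiff_sc a p
  have h2 := contDiff_yv a p
  have h3 : ContDiff ℝ 1 fun x : E => ‖yv a p x‖ ^ 2 / ρ ^ 2 := (h2.norm_sq ℝ).div_const _
  exact (((contDiff_chi D).comp h1).mul (contDiff_psi.comp h3)).mul (h2.inner ℝ contDiff_const)

theorem hasFDerivAt_ysq (p x : E) :
    HasFDerivAt (fun x : E => ‖yv a p x‖ ^ 2) ((2 : ℝ) • innerSL ℝ (yv a p x)) x := by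
  have h1 := (hasFDerivAt_yv a p x).norm_sq
  refine h1.congr_fderiv ?_
  ext v
  simp only [FunLike.coe_smul, Pi.smul_apply, ContinuousLinearMap.comp_apply, innerSL_apply_apply,
    smul_eq_mul]
  rw [← inner_yv_eq ha]
  simp

theorem fderiv_TT (p : E) (D ρ : ℝ) (b x v : E) :
    fderiv ℝ (TT a p D ρ b) x v =
      chi' D (sc a p x) * ⟪a, v⟫ * psi (‖yv a p x‖ ^ 2 / ρ ^ 2) * ⟪yv a p x, b⟫
      + chi D (sc a p x) * (dpsi (‖yv a p x‖ ^ 2 / ρ ^ 2) * (2 * ⟪yv a p x, v⟫ / ρ ^ 2))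
        * ⟪yv a p x, b⟫
      + chi D (sc a p x) * psi (‖yv a p x‖ ^ 2 / ρ ^ 2) * ⟪Pm a v, b⟫ := by
  have h1 : HasFDerivAt (fun x => chi D (sc a p x)) (chi' D (sc a p x) • innerSL ℝ a) x :=
    (hasDerivAt_chi D _).comp_hasFDerivAt x (hasFDerivAt_sc a p x)
  have h2 : HasFDerivAt (fun x => ‖yv a p x‖ ^ 2 / ρ ^ 2)
      ((ρ ^ 2)⁻¹ • ((2 : ℝ) • innerSL ℝ (yv a p x))) x := by
    have := (hasFDerivAt_ysq ha p x).mul_const (ρ ^ 2)⁻¹
    simpa only [div_eq_mul_inv] using this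
  have h3 : HasFDerivAt (fun x => psi (‖yv a p x‖ ^ 2 / ρ ^ 2))
      (dpsi (‖yv a p x‖ ^ 2 / ρ ^ 2) • ((ρ ^ 2)⁻¹ • ((2 : ℝ) • innerSL ℝ (yv a p x)))) x :=
    (hasDerivAt_psi _).comp_hasFDerivAt x h2
  have h4 : HasFDerivAt (fun x => ⟪yv a p x, b⟫) ((innerSL ℝ b).comp (Pm a)) x := by
    have h5 := (innerSL ℝ b).hasFDerivAt.comp x (hasFDerivAt_yv a p x)
    have h6 : (fun x => ⟪yv a p x, b⟫) = (innerSL ℝ b) ∘ (yv a p) := by
      funext z; simp [real_inner_comm]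
    rw [h6]; exact h5
  have h7 := (h1.mul h3).mul h4
  have h8 : HasFDerivAt (TT a p D ρ b) _ x := h7
  rw [h8.fderiv]
  simp only [FunLike.coe_add, FunLike.coe_smul, Pi.add_apply, Pi.smul_apply, Pi.mul_apply,
    ContinuousLinearMap.comp_apply, innerSL_apply_apply, smul_eq_mul]
  rw [real_inner_comm (Pm a v) b]
  ring

end

end Crest.Agent.R246.F4x669
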