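import Crest.Agent.R246.F4b_669

/-!
Row 246, block F (Lemma MS), leaf F4 (helper669): the slab identity and the derivative inequality.
-/

set_option autoImplicit false
set_option linter.unusedSectionVars false

open Filter Topology Set MeasureTheory Metric InnerProductSpace
open scoped ContDiff RealInnerProductSpace Gradient

noncomputable section

namespace Crest.Agent.R246.F4x669

open Crest.Agent.R246.MS852

section
variable {E : Type*} [NormedAddCommGroup E] [InnerProductSpace ℝ E] [FiniteDimensional ℝ E]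

/-! ### sums over an orthonormal basis -/

theorem fderiv_eq_inner_grad (r : E → ℝ) (x v : E) : fderiv ℝ r x v = ⟪∇ r x, v⟫ := by
  rw [gradient, toDual_symm_apply]

variable {a : E} (ha : ‖a‖ = 1)
include ha

theorem sum_div {d : ℕ} (hd : Module.finrank ℝ E = d + 1) (p : E) (D ρ : ℝ) (x : E) :
    ∑ i, fderiv ℝ (TT a p D ρ (stdOrthonormalBasis ℝ E i)) x (stdOrthonormalBasis ℝ E i) =
      chi D (sc a p x) * (d * psi (‖yv a p x‖ ^ 2 / ρ ^ 2)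
        + 2 * (‖yv a p x‖ ^ 2 / ρ ^ 2) * dpsi (‖yv a p x‖ ^ 2 / ρ ^ 2)) := by
  set b := stdOrthonormalBasis ℝ E with hb
  have h1 : ∀ i, fderiv ℝ (TT a p D ρ (b i)) x (b i) =
      chi' D (sc a p x) * psi (‖yv a p x‖ ^ 2 / ρ ^ 2) * (⟪a, b i⟫ * ⟪b i, yv a p x⟫)
      + chi D (sc a p x) * dpsi (‖yv a p x‖ ^ 2 / ρ ^ 2) * (2 / ρ ^ 2)
        * (⟪yv a p x, b i⟫ * ⟪b i, yv a p x⟫)
      + chi D (sc a p x) * psi (‖yv a p x‖ ^ 2 / ρ ^ 2) * (1 - ⟪a, b i⟫ * ⟪b i, a⟫) := by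
    intro i
    rw [fderiv_TT ha, Pm_apply, inner_sub_left, inner_smul_left, real_inner_self_eq_norm_sq,
      b.orthonormal.1 i, real_inner_comm (b i) (yv a p x), real_inner_comm (b i) a]
    simp only [conj_trivial]
    ring
  rw [Finset.sum_congr rfl fun i _ => h1 i, Finset.sum_add_distrib, Finset.sum_add_distrib,
    ← Finset.mul_sum, ← Finset.mul_sum, ← Finset.mul_sum, Finset.sum_sub_distrib,
    b.sum_inner_mul_inner, b.sum_inner_mul_inner, b.sum_inner_mul_inner, inner_a_yv ha,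
    real_inner_self_eq_norm_sq, inner_aa ha]
  have hc : (∑ _i : Fin (Module.finrank ℝ E), (1 : ℝ)) = d + 1 := by
    rw [Finset.sum_const, Finset.card_univ, Fintype.card_fin, hd]; simp
  rw [hc]
  ring

theorem sum_grad (r : E → ℝ) (p : E) (D ρ : ℝ) (x : E) :
    ∑ i, fderiv ℝ r x (stdOrthonormalBasis ℝ E i) *
        fderiv ℝ (TT a p D ρ (stdOrthonormalBasis ℝ E i)) x (∇ r x) =
      chi' D (sc a p x) * ⟪a, ∇ r x⟫ * psi (‖yv a p x‖ ^ 2 / ρ ^ 2) * ⟪yv a p x, ∇ r x⟫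
      + chi D (sc a p x) * (dpsi (‖yv a p x‖ ^ 2 / ρ ^ 2) * (2 / ρ ^ 2)) * ⟪yv a p x, ∇ r x⟫ ^ 2
      + chi D (sc a p x) * psi (‖yv a p x‖ ^ 2 / ρ ^ 2) * ‖Pm a (∇ r x)‖ ^ 2 := by
  set b := stdOrthonormalBasis ℝ E with hb
  have h1 : ∀ i, fderiv ℝ r x (b i) * fderiv ℝ (TT a p D ρ (b i)) x (∇ r x) =
      chi' D (sc a p x) * ⟪a, ∇ r x⟫ * psi (‖yv a p x‖ ^ 2 / ρ ^ 2)
        * (⟪yv a p x, b i⟫ * ⟪b i, ∇ r x⟫)
      + chi D (sc a p x) * dpsi (‖yv a p x‖ ^ 2 / ρ ^ 2) * (2 * ⟪yv a p x, ∇ r x⟫ / ρ ^ 2)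
        * (⟪yv a p x, b i⟫ * ⟪b i, ∇ r x⟫)
      + chi D (sc a p x) * psi (‖yv a p x‖ ^ 2 / ρ ^ 2)
        * (⟪Pm a (∇ r x), b i⟫ * ⟪b i, ∇ r x⟫) := by
    intro i
    rw [fderiv_TT ha, fderiv_eq_inner_grad, real_inner_comm (b i) (∇ r x)]
    ring
  rw [Finset.sum_congr rfl fun i _ => h1 i, Finset.sum_add_distrib, Finset.sum_add_distrib,
    ← Finset.mul_sum, ← Finset.mul_sum, ← Finset.mul_sum,
    b.sum_inner_mul_inner, b.sum_inner_mul_inner]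
  have h2 : ⟪Pm a (∇ r x), ∇ r x⟫ = ‖Pm a (∇ r x)‖ ^ 2 := by
    rw [norm_Pm_sq ha, Pm_apply, inner_sub_left, inner_smul_left, real_inner_self_eq_norm_sq]
    simp only [conj_trivial]
    ring
  rw [h2]
  ring

omit ha in
theorem sum_h (h : E → ℝ) (p : E) (D ρ : ℝ) (x : E) :
    ∑ i, fderiv ℝ h x (stdOrthonormalBasis ℝ E i) * TT a p D ρ (stdOrthonormalBasis ℝ E i) x =
      chi D (sc a p x) * psi (‖yv a p x‖ ^ 2 / ρ ^ 2) * fderiv ℝ h x (yv a p x) := by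
  set b := stdOrthonormalBasis ℝ E with hb
  have h1 : ∀ i, fderiv ℝ h x (b i) * TT a p D ρ (b i) x =
      chi D (sc a p x) * psi (‖yv a p x‖ ^ 2 / ρ ^ 2) * (⟪∇ h x, b i⟫ * ⟪b i, yv a p x⟫) := by
    intro i
    rw [fderiv_eq_inner_grad, TT, real_inner_comm (b i) (yv a p x)]
    ring
  rw [Finset.sum_congr rfl fun i _ => h1 i, ← Finset.mul_sum, b.sum_inner_mul_inner,
    fderiv_eq_inner_grad]

/-! ### supports -/

theorem norm_lt_of_slab {p x : E} {D ρ : ℝ} (hρ : 0 < ρ) (hDρ : D / 4 ≤ ρ)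
    (hD : 0 < D) (h1 : ‖yv a p x‖ < ρ) (h2 : |sc a p x| < D / 2) : ‖x - p‖ < 3 * ρ := by
  have h3 := norm_yv_sq ha p x
  have h4 : ‖yv a p x‖ ^ 2 < ρ ^ 2 := by
    have := norm_nonneg (yv a p x); nlinarith
  have h5 : sc a p x ^ 2 < (D / 2) ^ 2 := by
    rw [← sq_abs (sc a p x)]
    have := abs_nonneg (sc a p x); nlinarith
  have h6 : ‖x - p‖ ^ 2 < (3 * ρ) ^ 2 := by nlinarith
  exact lt_of_pow_lt_pow_left₀ 2 (by positivity) h6

omit ha in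
theorem psi_zero_of {p x : E} {ρ : ℝ} (hρ : 0 < ρ) (h1 : ρ ≤ ‖yv a p x‖) :
    psi (‖yv a p x‖ ^ 2 / ρ ^ 2) = 0 ∧ dpsi (‖yv a p x‖ ^ 2 / ρ ^ 2) = 0 := by
  have h2 : 1 ≤ ‖yv a p x‖ ^ 2 / ρ ^ 2 := by
    rw [le_div_iff₀ (by positivity), one_mul]
    exact pow_le_pow_left₀ hρ.le h1 2
  exact ⟨psi_eq_zero h2, dpsi_eq_zero h2⟩

theorem slab_dich {p x : E} {D ρ : ℝ} (hρ : 0 < ρ) (hDρ : D / 4 ≤ ρ) (hD : 0 < D)
    (hx : x ∉ closedBall p (3 * ρ)) :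
    (psi (‖yv a p x‖ ^ 2 / ρ ^ 2) = 0 ∧ dpsi (‖yv a p x‖ ^ 2 / ρ ^ 2) = 0) ∨
      (chi D (sc a p x) = 0 ∧ chi' D (sc a p x) = 0) := by
  by_contra hcon
  rw [not_or] at hcon
  obtain ⟨h1, h2⟩ := hcon
  have h3 : ‖yv a p x‖ < ρ := by
    by_contra h; exact h1 (psi_zero_of hρ (not_lt.1 h))
  have h4 : |sc a p x| < D / 2 := by
    by_contra h
    exact h2 ⟨chi_eq_zero hD (not_lt.1 h), chi'_eq_zero hD (not_lt.1 h)⟩
  apply hx
  rw [mem_closedBall, dist_eq_norm]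
  exact (norm_lt_of_slab ha hρ hDρ hD h3 h4).le

theorem tsupport_TT {p : E} {D ρ : ℝ} (hρ : 0 < ρ) (hDρ : D / 4 ≤ ρ) (hD : 0 < D) (b : E) :
    tsupport (TT a p D ρ b) ⊆ closedBall p (3 * ρ) := by
  apply closure_minimal _ isClosed_closedBall
  intro x hx
  by_contra h
  apply hx
  unfold TT
  rcases slab_dich ha hρ hDρ hD h with h1 | h1
  · rw [h1.1]; ring
  · rw [h1.1]; ring

end

end Crest.Agent.R246.F4x669
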