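import Crest.Agent.R246.F4c_669

/-!
Row 246, block F (Lemma MS), leaf F4 (helper669): derivative of the slab energy ratio, and `StSlab`.
-/

set_option autoImplicit false
set_option linter.unusedSectionVars false

open Filter Topology Set MeasureTheory Metric InnerProductSpace
open scoped ContDiff RealInnerProductSpace Gradient

noncomputable section

namespace Crest.Agent.R246.F4x669

open Crest.Agent.R246.MS852

section
variable {E : Type*} [NormedAddCommGroup E] [InnerProductSpace ℝ E] [FiniteDimensional ℝ E]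
  [MeasurableSpace E] [BorelSpace E]
variable {a : E} {ε η : ℝ} {h r : E → ℝ}

theorem continuous_S4 (hr : Continuous r) : Continuous (S4 ε r) := by
  unfold S4
  have h1 : Continuous fun x => Real.cosh (r x / ε) ^ 4 :=
    (Real.continuous_cosh.comp (hr.div_const ε)).pow 4
  exact continuous_const.div h1 fun x => (pow_pos (Real.cosh_pos _) 4).ne'

theorem S4_pos (x : E) : 0 < S4 ε r x := by
  unfold S4
  exact div_pos one_pos (pow_pos (Real.cosh_pos _) 4)

theorem continuous_grad (hr : ContDiff ℝ 1 r) : Continuous fun x => ∇ r x := by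
  unfold gradient
  exact (toDual ℝ E).symm.continuous.comp (hr.continuous_fderiv one_ne_zero)

theorem continuous_q (H : Hyp a ε η h r) : Continuous (q ε h r) := by
  unfold q
  have h1 := continuous_S4 (ε := ε) H.cr.continuous
  have h2 := continuous_grad H.cr
  exact (h1.div_const _).mul (H.ch.continuous.add (h2.norm.pow 2))

theorem continuous_kap (H : Hyp a ε η h r) : Continuous (kap a ε h r) := by
  unfold kap
  have h1 := continuous_S4 (ε := ε) H.cr.continuous
  have h2 := continuous_grad H.cr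
  have h3 : Continuous fun x => fderiv ℝ r x a :=
    (H.cr.continuous_fderiv one_ne_zero).clm_apply continuous_const
  exact (h1.div_const _).mul (((H.ch.continuous.sub (h2.norm.pow 2)).div_const 2).add
    ((h2.norm.pow 2).sub (h3.pow 2)))

theorem h_ge (H : Hyp a ε η h r) {x : E} (hx : x ∈ ball (0 : E) 2) : 1 / 2 ≤ h x := by
  have h1 := H.near x hx
  have h2 := H.hη
  rw [abs_le] at h1
  linarith [h1.1]

theorem q_ge1 (H : Hyp a ε η h r) {x : E} (hx : x ∈ ball (0 : E) 2) :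
    S4 ε r x / ε * ‖∇ r x‖ ^ 2 ≤ q ε h r x := by
  have h1 := H.modica x hx
  have h2 := S4_pos (ε := ε) (r := r) x
  have h3 := H.hε
  unfold q
  have h4 : S4 ε r x / (2 * ε) * (h x + ‖∇ r x‖ ^ 2) =
      S4 ε r x / ε * ((h x + ‖∇ r x‖ ^ 2) / 2) := by
    field_simp
  rw [h4]
  apply mul_le_mul_of_nonneg_left _ (by positivity)
  linarith

theorem q_nonneg (H : Hyp a ε η h r) {x : E} (hx : x ∈ ball (0 : E) 2) : 0 ≤ q ε h r x := by
  have h2 := S4_pos (ε := ε) (r := r) x
  have h3 := H.hε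
  exact (by positivity : 0 ≤ S4 ε r x / ε * ‖∇ r x‖ ^ 2).trans (q_ge1 H hx)

theorem q_ge2 (H : Hyp a ε η h r) {x : E} (hx : x ∈ ball (0 : E) 2) :
    S4 ε r x / (2 * ε) ≤ 2 * q ε h r x := by
  have h1 := h_ge H hx
  have h2 := S4_pos (ε := ε) (r := r) x
  have h3 := H.hε
  unfold q
  have h4 : 0 < S4 ε r x / (2 * ε) := by positivity
  nlinarith [sq_nonneg ‖∇ r x‖]

theorem grad_dir (r : E → ℝ) (a x : E) : fderiv ℝ r x a = ⟪a, ∇ r x⟫ := by
  rw [fderiv_eq_inner_grad, real_inner_comm]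

theorem kap_ge (H : Hyp a ε η h r) {x : E} (hx : x ∈ ball (0 : E) 2) :
    S4 ε r x / ε * ‖Pm a (∇ r x)‖ ^ 2 ≤ kap a ε h r x := by
  have h1 := H.modica x hx
  have h2 := S4_pos (ε := ε) (r := r) x
  have h3 := H.hε
  unfold kap
  rw [norm_Pm_sq H.ha, grad_dir]
  apply mul_le_mul_of_nonneg_left _ (by positivity)
  linarith

theorem kap_nonneg' (H : Hyp a ε η h r) {x : E} (hx : x ∈ ball (0 : E) 2) :
    0 ≤ kap a ε h r x := by
  have h2 := S4_pos (ε := ε) (r := r) x
  have h3 := H.hε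
  exact (by positivity : 0 ≤ S4 ε r x / ε * ‖Pm a (∇ r x)‖ ^ 2).trans (kap_ge H hx)

/-- the divergence part of the slab field, times `q` -/
def GG (d : ℕ) (a : E) (ε : ℝ) (h r : E → ℝ) (p : E) (D ρ : ℝ) (x : E) : ℝ :=
  q ε h r x * (chi D (sc a p x) * (d * psi (‖yv a p x‖ ^ 2 / ρ ^ 2)
        + 2 * (‖yv a p x‖ ^ 2 / ρ ^ 2) * dpsi (‖yv a p x‖ ^ 2 / ρ ^ 2)))

/-- the stress part -/
def SS (a : E) (ε : ℝ) (r : E → ℝ) (p : E) (D ρ : ℝ) (x : E) : ℝ :=
  S4 ε r x / ε * (chi' D (sc a p x) * ⟪a, ∇ r x⟫ * psi (‖yv a p x‖ ^ 2 / ρ ^ 2) * ⟪yv a p x, ∇ r x⟫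
      + chi D (sc a p x) * (dpsi (‖yv a p x‖ ^ 2 / ρ ^ 2) * (2 / ρ ^ 2)) * ⟪yv a p x, ∇ r x⟫ ^ 2
      + chi D (sc a p x) * psi (‖yv a p x‖ ^ 2 / ρ ^ 2) * ‖Pm a (∇ r x)‖ ^ 2)

/-- the weight part -/
def WW (a : E) (ε : ℝ) (h r : E → ℝ) (p : E) (D ρ : ℝ) (x : E) : ℝ :=
  S4 ε r x / (2 * ε) * (chi D (sc a p x) * psi (‖yv a p x‖ ^ 2 / ρ ^ 2)
    * fderiv ℝ h x (yv a p x))

theorem continuous_sc (a p : E) : Continuous (sc a p) := (contDiff_sc a p).continuous
theorem continuous_yv (a p : E) : Continuous (yv a p) := (contDiff_yv a p).continuous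

theorem continuous_psi : Continuous psi := contDiff_psi.continuous

theorem continuous_chi (D : ℝ) : Continuous (chi D) := (contDiff_chi D).continuous

theorem continuous_ysq (a p : E) (ρ : ℝ) : Continuous fun x => ‖yv a p x‖ ^ 2 / ρ ^ 2 :=
  ((continuous_yv a p).norm.pow 2).div_const _

theorem continuous_GG (H : Hyp a ε η h r) (d : ℕ) (p : E) (D ρ : ℝ) :
    Continuous (GG d a ε h r p D ρ) := by
  unfold GG
  have h1 := continuous_q H
  have h2 := (continuous_chi D).comp (continuous_sc a p)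
  have h3 := continuous_psi.comp (continuous_ysq a p ρ)
  have h4 := continuous_dpsi.comp (continuous_ysq a p ρ)
  have h5 := continuous_ysq a p ρ
  simp only [Function.comp_def] at h2 h3 h4
  fun_prop

theorem continuous_SS (H : Hyp a ε η h r) (p : E) (D ρ : ℝ) :
    Continuous (SS a ε r p D ρ) := by
  unfold SS
  have h0 := continuous_S4 (ε := ε) H.cr.continuous
  have h1 := continuous_grad H.cr
  have h2 := (continuous_chi D).comp (continuous_sc a p)
  have h2' := (continuous_chi' D).comp (continuous_sc a p)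
  have h3 := continuous_psi.comp (continuous_ysq a p ρ)
  have h4 := continuous_dpsi.comp (continuous_ysq a p ρ)
  have h5 := continuous_yv a p
  have h6 : Continuous fun x => ⟪a, ∇ r x⟫ := continuous_const.inner h1
  have h7 : Continuous fun x => ⟪yv a p x, ∇ r x⟫ := h5.inner h1
  have h8 : Continuous fun x => ‖Pm a (∇ r x)‖ ^ 2 := (((Pm a).continuous.comp h1).norm).pow 2
  simp only [Function.comp_def] at h2 h2' h3 h4
  fun_prop

theorem continuous_WW (H : Hyp a ε η h r) (p : E) (D ρ : ℝ) :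
    Continuous (WW a ε h r p D ρ) := by
  unfold WW
  have h0 := continuous_S4 (ε := ε) H.cr.continuous
  have h2 := (continuous_chi D).comp (continuous_sc a p)
  have h3 := continuous_psi.comp (continuous_ysq a p ρ)
  have h5 := continuous_yv a p
  have h6 : Continuous fun x => fderiv ℝ h x (yv a p x) :=
    (H.ch.continuous_fderiv one_ne_zero).clm_apply h5
  simp only [Function.comp_def] at h2 h3
  fun_prop

theorem hcs_of {f : E → ℝ} {p : E} {R : ℝ} (hf : ∀ x, x ∉ closedBall p R → f x = 0) :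
    HasCompactSupport f :=
  HasCompactSupport.intro (isCompact_closedBall p R) fun x hx => hf x hx

theorem GG_zero (H : Hyp a ε η h r) (d : ℕ) {p x : E} {D ρ : ℝ} (hρ : 0 < ρ) (hDρ : D / 4 ≤ ρ)
    (hD : 0 < D) (hx : x ∉ closedBall p (3 * ρ)) : GG d a ε h r p D ρ x = 0 := by
  unfold GG
  rcases slab_dich H.ha hρ hDρ hD hx with h1 | h1
  · rw [h1.1, h1.2]; ring
  · rw [h1.1]; ring

theorem SS_zero (H : Hyp a ε η h r) {p x : E} {D ρ : ℝ} (hρ : 0 < ρ) (hDρ : D / 4 ≤ ρ)
    (hD : 0 < D) (hx : x ∉ closedBall p (3 * ρ)) : SS a ε r p D ρ x = 0 := by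
  unfold SS
  rcases slab_dich H.ha hρ hDρ hD hx with h1 | h1
  · rw [h1.1, h1.2]; ring
  · rw [h1.1, h1.2]; ring

theorem WW_zero (H : Hyp a ε η h r) {p x : E} {D ρ : ℝ} (hρ : 0 < ρ) (hDρ : D / 4 ≤ ρ)
    (hD : 0 < D) (hx : x ∉ closedBall p (3 * ρ)) : WW a ε h r p D ρ x = 0 := by
  unfold WW
  rcases slab_dich H.ha hρ hDρ hD hx with h1 | h1
  · rw [h1.1]; ring
  · rw [h1.1]; ring

/-- SLAB IDENTITY -/
theorem slab_identity {d : ℕ} (hd : Module.finrank ℝ E = d + 1) (H : Hyp a ε η h r)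
    {p : E} {D ρ : ℝ} (hρ : 0 < ρ) (hDρ : D / 4 ≤ ρ) (hD : 0 < D)
    (hB : closedBall p (3 * ρ) ⊆ ball (0 : E) 2) :
    ∫ x, GG d a ε h r p D ρ x = (∫ x, SS a ε r p D ρ x) - ∫ x, WW a ε h r p D ρ x := by
  set b := stdOrthonormalBasis ℝ E with hb
  have hts : ∀ i, tsupport (TT a p D ρ (b i)) ⊆ closedBall p (3 * ρ) := fun i =>
    tsupport_TT H.ha hρ hDρ hD (b i)
  have hstat : ∀ i, ∫ x, (q ε h r x * fderiv ℝ (TT a p D ρ (b i)) x (b i)
      - S4 ε r x / ε * fderiv ℝ r x (b i) * fderiv ℝ (TT a p D ρ (b i)) x (∇ r x)) =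
      - ∫ x, S4 ε r x / (2 * ε) * fderiv ℝ h x (b i) * TT a p D ρ (b i) x := fun i =>
    H.stat _ (b i) (contDiff_TT a p D ρ (b i)) ((hts i).trans hB)
  have hfz : ∀ i, ∀ x, x ∉ closedBall p (3 * ρ) → fderiv ℝ (TT a p D ρ (b i)) x = 0 := by
    intro i x hx
    have h1 : x ∉ tsupport (TT a p D ρ (b i)) := fun h => hx (hts i h)
    have h0 : TT a p D ρ (b i) =ᶠ[𝓝 x] fun _ => 0 := by
      have : (tsupport (TT a p D ρ (b i)))ᶜ ∈ 𝓝 x :=
        (isClosed_tsupport _).isOpen_compl.mem_nhds h1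
      filter_upwards [this] with y hy
      rw [image_eq_zero_of_notMem_tsupport hy]
    rw [h0.fderiv_eq]; simp
  have hTz : ∀ i, ∀ x, x ∉ closedBall p (3 * ρ) → TT a p D ρ (b i) x = 0 := fun i x hx =>
    image_eq_zero_of_notMem_tsupport fun h => hx (hts i h)
  have hcq := continuous_q H
  have hcS := continuous_S4 (ε := ε) H.cr.continuous
  have hcg := continuous_grad H.cr
  have hcT : ∀ i, Continuous (fderiv ℝ (TT a p D ρ (b i))) := fun i =>
    (contDiff_TT a p D ρ (b i)).continuous_fderiv one_ne_zero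
  have hcr : Continuous (fderiv ℝ r) := H.cr.continuous_fderiv one_ne_zero
  have hch : Continuous (fderiv ℝ h) := H.ch.continuous_fderiv one_ne_zero
  have hi1 : ∀ i ∈ Finset.univ, Integrable (fun x => q ε h r x * fderiv ℝ (TT a p D ρ (b i)) x (b i)
      - S4 ε r x / ε * fderiv ℝ r x (b i) * fderiv ℝ (TT a p D ρ (b i)) x (∇ r x)) := by
    intro i _
    apply Continuous.integrable_of_hasCompactSupport
    · exact (hcq.mul ((hcT i).clm_apply continuous_const)).sub
        (((hcS.div_const _).mul (hcr.clm_apply continuous_const)).mul ((hcT i).clm_apply hcg))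
    · apply hcs_of (p := p) (R := 3 * ρ)
      intro x hx
      rw [hfz i x hx]; simp
  have hi2 : ∀ i ∈ Finset.univ, Integrable (fun x =>
      S4 ε r x / (2 * ε) * fderiv ℝ h x (b i) * TT a p D ρ (b i) x) := by
    intro i _
    apply Continuous.integrable_of_hasCompactSupport
    · exact ((hcS.div_const _).mul (hch.clm_apply continuous_const)).mul
        (contDiff_TT a p D ρ (b i)).continuous
    · apply hcs_of (p := p) (R := 3 * ρ)
      intro x hx
      rw [hTz i x hx]; simp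
  have hsum := Finset.sum_congr rfl fun i (_ : i ∈ Finset.univ) => hstat i
  rw [Finset.sum_neg_distrib, ← integral_finsetSum _ hi1, ← integral_finsetSum _ hi2] at hsum
  have e1 : (fun x => ∑ i, (q ε h r x * fderiv ℝ (TT a p D ρ (b i)) x (b i)
      - S4 ε r x / ε * fderiv ℝ r x (b i) * fderiv ℝ (TT a p D ρ (b i)) x (∇ r x))) =
      fun x => GG d a ε h r p D ρ x - SS a ε r p D ρ x := by
    funext x
    rw [Finset.sum_sub_distrib, ← Finset.mul_sum, sum_div H.ha hd p D ρ x]
    have : ∑ i, S4 ε r x / ε * fderiv ℝ r x (b i) * fderiv ℝ (TT a p D ρ (b i)) x (∇ r x) =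
        S4 ε r x / ε * ∑ i, fderiv ℝ r x (b i) * fderiv ℝ (TT a p D ρ (b i)) x (∇ r x) := by
      rw [Finset.mul_sum]
      exact Finset.sum_congr rfl fun i _ => by ring
    rw [this, sum_grad H.ha r p D ρ x]
    rfl
  have e2 : (fun x => ∑ i, S4 ε r x / (2 * ε) * fderiv ℝ h x (b i) * TT a p D ρ (b i) x) =
      fun x => WW a ε h r p D ρ x := by
    funext x
    have : ∑ i, S4 ε r x / (2 * ε) * fderiv ℝ h x (b i) * TT a p D ρ (b i) x =
        S4 ε r x / (2 * ε) * ∑ i, fderiv ℝ h x (b i) * TT a p D ρ (b i) x := by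
      rw [Finset.mul_sum]
      exact Finset.sum_congr rfl fun i _ => by ring
    rw [this, sum_h h p D ρ x]
    rfl
  rw [e1, e2] at hsum
  rw [integral_sub] at hsum
  · linarith
  · exact (continuous_GG H d p D ρ).integrable_of_hasCompactSupport
      (hcs_of fun x hx => GG_zero H d hρ hDρ hD hx)
  · exact (continuous_SS H p D ρ).integrable_of_hasCompactSupport
      (hcs_of fun x hx => SS_zero H hρ hDρ hD hx)

end

end Crest.Agent.R246.F4x669
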