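import Crest.Agent.R246.F4d_669

/-!
Row 246, block F (Lemma MS), leaf F4 (helper669): `StSlab`.
-/

set_option autoImplicit false
set_option linter.unusedSectionVars false

open Filter Topology Set MeasureTheory Metric InnerProductSpace
open scoped ContDiff RealInnerProductSpace Gradient

noncomputable section

namespace Crest.Agent.R246.F4x669

open Crest.Agent.R246.MS852

section
variable {E : Type*} [NormedAddCommGroup E] [InnerProductSpace ℝ E] [FiniteDimensional ℝ E]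
  [MeasurableSpace E] [BorelSpace E]
variable {a : E} {ε η : ℝ} {h r : E → ℝ}

/-- pointwise bound of the error terms -/
theorem pointwise_bound (H : Hyp a ε η h r) {p x : E} {D ρ τ : ℝ} (hρ : 0 < ρ)
    (hD : 0 < D) (hτ : 0 < τ) (hx : x ∈ ball (0 : E) 2) :
    SS a ε r p D ρ x - WW a ε h r p D ρ x ≤
      (11 / (2 * D) * ρ * τ + 2 * η * ρ) * q ε h r x
        + (11 / (2 * D) * ρ / τ + 1) * kap a ε h r x := by
  have hq := q_nonneg H hx
  have hk := kap_nonneg' H hx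
  have hη := H.hη0
  have hS := S4_pos (ε := ε) (r := r) x
  have hε := H.hε
  have hR : 0 ≤ (11 / (2 * D) * ρ * τ + 2 * η * ρ) * q ε h r x
        + (11 / (2 * D) * ρ / τ + 1) * kap a ε h r x := by positivity
  rcases le_or_gt ρ ‖yv a p x‖ with hy | hy
  · obtain ⟨h1, h2⟩ := psi_zero_of hρ hy
    have e1 : SS a ε r p D ρ x = 0 := by unfold SS; rw [h1, h2]; ring
    have e2 : WW a ε h r p D ρ x = 0 := by unfold WW; rw [h1]; ring
    rw [e1, e2]; simpa using hR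
  set y := yv a p x with hyd
  set χ := chi D (sc a p x) with hχ
  set χ' := chi' D (sc a p x) with hχ'
  set ψ := psi (‖y‖ ^ 2 / ρ ^ 2) with hψ
  set ψ' := dpsi (‖y‖ ^ 2 / ρ ^ 2) with hψ'
  set g := ∇ r x with hg
  set P := ‖Pm a g‖ with hP
  have hχ0 : 0 ≤ χ := chi_nonneg _ _
  have hχ1 : χ ≤ 1 := chi_le_one _ _
  have hχ'1 : |χ'| ≤ 11 / D := abs_chi'_le hD
  have hψ0 : 0 ≤ ψ := psi_nonneg _
  have hψ1 : ψ ≤ 1 := psi_le_one (by positivity)
  have hψ'0 : ψ' ≤ 0 := dpsi_nonpos _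
  have hP0 : 0 ≤ P := norm_nonneg _
  have hyg : |⟪y, g⟫| ≤ ρ * P :=
    (abs_inner_yv_le H.ha p x g).trans (mul_le_mul_of_nonneg_right hy.le hP0)
  have hPg : P ^ 2 = ‖g‖ ^ 2 - ⟪a, g⟫ ^ 2 := norm_Pm_sq H.ha g
  -- term 1
  have t1 : χ' * ⟪a, g⟫ * ψ * ⟪y, g⟫ ≤ 11 / (2 * D) * ρ * (τ * ⟪a, g⟫ ^ 2 + P ^ 2 / τ) := by
    have h1 : χ' * ⟪a, g⟫ * ψ * ⟪y, g⟫ ≤ (11 / D) * |⟪a, g⟫| * 1 * (ρ * P) := by
      calc χ' * ⟪a, g⟫ * ψ * ⟪y, g⟫ ≤ |χ' * ⟪a, g⟫ * ψ * ⟪y, g⟫| := le_abs_self _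
        _ = |χ'| * |⟪a, g⟫| * ψ * |⟪y, g⟫| := by
            rw [abs_mul, abs_mul, abs_mul, abs_of_nonneg hψ0]
        _ ≤ _ := by gcongr
    have h2 : |⟪a, g⟫| * P ≤ (τ * ⟪a, g⟫ ^ 2 + P ^ 2 / τ) / 2 := by
      have h3 : 0 ≤ (τ * |⟪a, g⟫| - P) ^ 2 / τ := by positivity
      have h4 : (τ * |⟪a, g⟫| - P) ^ 2 / τ = τ * |⟪a, g⟫| ^ 2 - 2 * (|⟪a, g⟫| * P) + P ^ 2 / τ := by
        field_simp
        ring
      rw [h4, sq_abs] at h3
      linarith
    calc _ ≤ _ := h1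
      _ = 11 / D * ρ * (|⟪a, g⟫| * P) := by ring
      _ ≤ 11 / D * ρ * ((τ * ⟪a, g⟫ ^ 2 + P ^ 2 / τ) / 2) := by gcongr
      _ = _ := by field_simp
  have t2 : χ * (ψ' * (2 / ρ ^ 2)) * ⟪y, g⟫ ^ 2 ≤ 0 := by
    have : 0 ≤ χ * ((-ψ') * (2 / ρ ^ 2)) * ⟪y, g⟫ ^ 2 := by
      have : 0 ≤ -ψ' := by linarith
      positivity
    linarith
  have t3 : χ * ψ * P ^ 2 ≤ P ^ 2 := by
    have : χ * ψ ≤ 1 := mul_le_one₀ hχ1 hψ0 hψ1
    nlinarith [sq_nonneg P]
  have t4 : -(χ * ψ * fderiv ℝ h x y) ≤ η * ρ := by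
    have h1 : |fderiv ℝ h x y| ≤ η * ρ := by
      have h2 := (fderiv ℝ h x).le_opNorm y
      rw [Real.norm_eq_abs] at h2
      exact h2.trans (mul_le_mul (H.dh x hx) hy.le (norm_nonneg _) hη.le)
    have h2 : χ * ψ ≤ 1 := mul_le_one₀ hχ1 hψ0 hψ1
    have h3 : 0 ≤ χ * ψ := mul_nonneg hχ0 hψ0
    calc -(χ * ψ * fderiv ℝ h x y) ≤ |χ * ψ * fderiv ℝ h x y| := neg_le_abs _
      _ = χ * ψ * |fderiv ℝ h x y| := by rw [abs_mul, abs_of_nonneg h3]
      _ ≤ 1 * (η * ρ) := mul_le_mul h2 h1 (abs_nonneg _) (by norm_num)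
      _ = _ := one_mul _
  have hqa : S4 ε r x / ε * ⟪a, g⟫ ^ 2 ≤ q ε h r x := by
    refine le_trans ?_ (q_ge1 H hx)
    apply mul_le_mul_of_nonneg_left _ (by positivity)
    have := sq_nonneg P
    rw [hPg] at this
    linarith
  have hkP : S4 ε r x / ε * P ^ 2 ≤ kap a ε h r x := kap_ge H hx
  have hqS : S4 ε r x / (2 * ε) ≤ 2 * q ε h r x := q_ge2 H hx
  have hSe : 0 ≤ S4 ε r x / ε := by positivity
  have hSe2 : 0 ≤ S4 ε r x / (2 * ε) := by positivity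
  have hSS : SS a ε r p D ρ x ≤ S4 ε r x / ε *
      (11 / (2 * D) * ρ * (τ * ⟪a, g⟫ ^ 2 + P ^ 2 / τ) + P ^ 2) := by
    unfold SS
    apply mul_le_mul_of_nonneg_left _ hSe
    linarith
  have hWW : -WW a ε h r p D ρ x ≤ S4 ε r x / (2 * ε) * (η * ρ) := by
    unfold WW
    rw [← mul_neg]
    exact mul_le_mul_of_nonneg_left t4 hSe2
  have c1 : 0 ≤ 11 / (2 * D) * ρ * τ := by positivity
  have c2 : 0 ≤ 11 / (2 * D) * ρ / τ := by positivity
  have f1 : S4 ε r x / ε * (11 / (2 * D) * ρ * (τ * ⟪a, g⟫ ^ 2 + P ^ 2 / τ) + P ^ 2) =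
      11 / (2 * D) * ρ * τ * (S4 ε r x / ε * ⟪a, g⟫ ^ 2)
      + 11 / (2 * D) * ρ / τ * (S4 ε r x / ε * P ^ 2) + S4 ε r x / ε * P ^ 2 := by
    field_simp
  rw [f1] at hSS
  have g1 := mul_le_mul_of_nonneg_left hqa c1
  have g2 := mul_le_mul_of_nonneg_left hkP c2
  have g3 := mul_le_mul_of_nonneg_right hqS (by positivity : 0 ≤ η * ρ)
  nlinarith

/-- integrated error bound -/
theorem int_GG_le {d : ℕ} (hd : Module.finrank ℝ E = d + 1) (H : Hyp a ε η h r)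
    {p : E} {D ρ τ : ℝ} (hρ : 0 < ρ) (hDρ : D / 4 ≤ ρ) (hD : 0 < D) (hτ : 0 < τ)
    (hB : closedBall p (3 * ρ) ⊆ ball (0 : E) 2) :
    ∫ x, GG d a ε h r p D ρ x ≤
      (11 / (2 * D) * ρ * τ + 2 * η * ρ) * En ε h r (closedBall p (3 * ρ))
        + (11 / (2 * D) * ρ / τ + 1) * Kp a ε h r (closedBall p (3 * ρ)) := by
  rw [slab_identity hd H hρ hDρ hD hB, ← integral_sub]
  · have hz : ∀ x, x ∉ closedBall p (3 * ρ) → SS a ε r p D ρ x - WW a ε h r p D ρ x = 0 := by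
      intro x hx
      rw [SS_zero H hρ hDρ hD hx, WW_zero H hρ hDρ hD hx, sub_zero]
    rw [← setIntegral_eq_integral_of_forall_compl_eq_zero hz]
    unfold En Kp
    have iq : IntegrableOn (q ε h r) (closedBall p (3 * ρ)) :=
      (continuous_q H).continuousOn.integrableOn_compact (isCompact_closedBall _ _)
    have ik : IntegrableOn (kap a ε h r) (closedBall p (3 * ρ)) :=
      (continuous_kap H).continuousOn.integrableOn_compact (isCompact_closedBall _ _)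
    rw [← integral_const_mul, ← integral_const_mul, ← integral_add (iq.const_mul _)
      (ik.const_mul _)]
    apply setIntegral_mono_on _ ((iq.const_mul _).add (ik.const_mul _))
      isClosed_closedBall.measurableSet
    · intro x hx
      exact pointwise_bound H hρ hD hτ (hB hx)
    · exact ((continuous_SS H p D ρ).sub (continuous_WW H p D ρ)).continuousOn.integrableOn_compact
        (isCompact_closedBall _ _)
  · exact (continuous_SS H p D ρ).integrable_of_hasCompactSupport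
      (hcs_of fun x hx => SS_zero H hρ hDρ hD hx)
  · exact (continuous_WW H p D ρ).integrable_of_hasCompactSupport
      (hcs_of fun x hx => WW_zero H hρ hDρ hD hx)

/-- slab energy -/
def II (a : E) (ε : ℝ) (h r : E → ℝ) (p : E) (D ρ : ℝ) : ℝ :=
  ∫ x in ball (0 : E) 2, chi D (sc a p x) * q ε h r x * psi (‖yv a p x‖ ^ 2 / ρ ^ 2)

theorem integrableOn_ball2 {f : E → ℝ} (hf : Continuous f) : IntegrableOn f (ball (0 : E) 2) :=
  (hf.continuousOn.integrableOn_compact (isCompact_closedBall 0 2)).mono_set ball_subset_closedBall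

theorem hasDerivAt_II (H : Hyp a ε η h r) (p : E) (D : ℝ) {ρ : ℝ} (hρ : 0 < ρ) :
    HasDerivAt (II a ε h r p D) (∫ x in ball (0 : E) 2, chi D (sc a p x) * q ε h r x *
      (dpsi (‖yv a p x‖ ^ 2 / ρ ^ 2) * (-(2 * ‖yv a p x‖ ^ 2 / ρ ^ 3)))) ρ := by
  have hcq := continuous_q H
  have hc2 := (continuous_chi D).comp (continuous_sc a p)
  have hcF : ∀ s : ℝ, Continuous fun x => chi D (sc a p x) * q ε h r x *
      psi (‖yv a p x‖ ^ 2 / s ^ 2) := by
    intro s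
    have h3 := continuous_psi.comp (continuous_ysq a p s)
    exact (hc2.mul hcq).mul h3
  have hcF' : Continuous fun x => chi D (sc a p x) * q ε h r x *
      (dpsi (‖yv a p x‖ ^ 2 / ρ ^ 2) * (-(2 * ‖yv a p x‖ ^ 2 / ρ ^ 3))) := by
    have h3 := continuous_dpsi.comp (continuous_ysq a p ρ)
    have h4 : Continuous fun x => -(2 * ‖yv a p x‖ ^ 2 / ρ ^ 3) :=
      ((continuous_const.mul ((continuous_yv a p).norm.pow 2)).div_const _).neg
    exact (hc2.mul hcq).mul (h3.mul h4)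
  have hs : Ioo (ρ / 2) (2 * ρ) ∈ 𝓝 ρ := Ioo_mem_nhds (by linarith) (by linarith)
  have key := hasDerivAt_integral_of_dominated_loc_of_deriv_le
    (μ := volume.restrict (ball (0 : E) 2)) (x₀ := ρ) (s := Ioo (ρ / 2) (2 * ρ))
    (F := fun s x => chi D (sc a p x) * q ε h r x * psi (‖yv a p x‖ ^ 2 / s ^ 2))
    (F' := fun s x => chi D (sc a p x) * q ε h r x *
      (dpsi (‖yv a p x‖ ^ 2 / s ^ 2) * (-(2 * ‖yv a p x‖ ^ 2 / s ^ 3))))
    (bound := fun x => |chi D (sc a p x) * q ε h r x| * (8 / ρ)) hs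
    (Eventually.of_forall fun s => (hcF s).aestronglyMeasurable)
    (integrableOn_ball2 (hcF ρ)) hcF'.aestronglyMeasurable
    ?_ ?_ ?_
  · exact key.2
  · refine Eventually.of_forall fun x s hs => ?_
    have hs0 : 0 < s := by linarith [hs.1]
    rw [norm_mul, Real.norm_eq_abs, Real.norm_eq_abs]
    apply mul_le_mul_of_nonneg_left _ (abs_nonneg _)
    rw [abs_mul]
    rcases le_or_gt s ‖yv a p x‖ with hy | hy
    · rw [(psi_zero_of hs0 hy).2]; simp; positivity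
    · have h1 : |dpsi (‖yv a p x‖ ^ 2 / s ^ 2)| ≤ 2 := abs_dpsi_le (by positivity)
      have h2 : |-(2 * ‖yv a p x‖ ^ 2 / s ^ 3)| ≤ 4 / ρ := by
        rw [abs_neg, abs_of_nonneg (by positivity)]
        rw [div_le_div_iff₀ (by positivity) hρ]
        have h3 : ‖yv a p x‖ ^ 2 ≤ s ^ 2 := pow_le_pow_left₀ (norm_nonneg _) hy.le 2
        have h4 : ρ ≤ 2 * s := by linarith [hs.1]
        calc 2 * ‖yv a p x‖ ^ 2 * ρ ≤ 2 * s ^ 2 * (2 * s) := by gcongr
          _ = 4 * s ^ 3 := by ring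
      calc _ ≤ 2 * (4 / ρ) := mul_le_mul h1 h2 (abs_nonneg _) (by norm_num)
        _ = 8 / ρ := by ring
  · exact (integrableOn_ball2 ((hc2.mul hcq).abs)).mul_const (8 / ρ)
  · refine Eventually.of_forall fun x s hs => ?_
    have hs0 : s ≠ 0 := by have := hs.1; intro h0; rw [h0] at this; linarith
    have h1 : HasDerivAt (fun s : ℝ => ‖yv a p x‖ ^ 2 / s ^ 2)
        (-(2 * ‖yv a p x‖ ^ 2 / s ^ 3)) s := by
      have h2 : HasDerivAt (fun s : ℝ => s ^ 2) (2 * s) s := by simpa using hasDerivAt_pow 2 s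
      have h3 := (h2.inv (pow_ne_zero 2 hs0)).const_mul (‖yv a p x‖ ^ 2)
      have h4 : HasDerivAt (fun s : ℝ => ‖yv a p x‖ ^ 2 / s ^ 2) _ s := h3
      refine h4.congr_deriv ?_
      field_simp
    have h5 := HasDerivAt.comp (h₂ := psi) (h := fun s : ℝ => ‖yv a p x‖ ^ 2 / s ^ 2) s
      (hasDerivAt_psi _) h1
    exact h5.const_mul _

end

end Crest.Agent.R246.F4x669
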