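import Crest.Agent.R246.F4e_669

/-!
Row 246, block F (Lemma MS), leaf F4 (helper669): proof of `StSlab`.
-/

set_option autoImplicit false
set_option linter.unusedSectionVars false

open Filter Topology Set MeasureTheory Metric InnerProductSpace
open scoped ContDiff RealInnerProductSpace Gradient

noncomputable section

namespace Crest.Agent.R246.F4x669

open Crest.Agent.R246.MS852

section
variable {E : Type*} [NormedAddCommGroup E] [InnerProductSpace ℝ E] [FiniteDimensional ℝ E]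
  [MeasurableSpace E] [BorelSpace E]
variable {a : E} {ε η : ℝ} {h r : E → ℝ}

theorem int_GG_eq (H : Hyp a ε η h r) (d : ℕ) {p : E} {D ρ : ℝ} (hρ : 0 < ρ)
    (hDρ : D / 4 ≤ ρ) (hD : 0 < D) (hB : closedBall p (3 * ρ) ⊆ ball (0 : E) 2) :
    ∫ x, GG d a ε h r p D ρ x = d * II a ε h r p D ρ - ρ * ∫ x in ball (0 : E) 2,
      chi D (sc a p x) * q ε h r x *
      (dpsi (‖yv a p x‖ ^ 2 / ρ ^ 2) * (-(2 * ‖yv a p x‖ ^ 2 / ρ ^ 3))) := by
  have hcq := continuous_q H
  have hc2 := (continuous_chi D).comp (continuous_sc a p)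
  have hz : ∀ x, x ∉ ball (0 : E) 2 → GG d a ε h r p D ρ x = 0 := fun x hx =>
    GG_zero H d hρ hDρ hD fun h => hx (hB h)
  rw [← setIntegral_eq_integral_of_forall_compl_eq_zero hz]
  unfold II
  rw [← integral_const_mul, ← integral_const_mul, ← integral_sub]
  · apply setIntegral_congr_fun measurableSet_ball
    intro x _
    show GG d a ε h r p D ρ x = _
    unfold GG
    field_simp
    ring
  · have h3 := continuous_psi.comp (continuous_ysq a p ρ)
    exact (integrableOn_ball2 ((hc2.mul hcq).mul h3)).const_mul _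
  · have h3 := continuous_dpsi.comp (continuous_ysq a p ρ)
    have h4 : Continuous fun x => -(2 * ‖yv a p x‖ ^ 2 / ρ ^ 3) :=
      ((continuous_const.mul ((continuous_yv a p).norm.pow 2)).div_const _).neg
    exact (integrableOn_ball2 ((hc2.mul hcq).mul (h3.mul h4))).const_mul _

theorem ratio_aux (d : ℕ) {f : ℝ → ℝ} {f' ρ : ℝ} (hρ : 0 < ρ) (hf : HasDerivAt f f' ρ) :
    HasDerivAt (fun s => f s / s ^ d) (-(d * f ρ - ρ * f') / ρ ^ (d + 1)) ρ := by
  have h2 : HasDerivAt (fun s : ℝ => s ^ d) (d * ρ ^ (d - 1)) ρ := hasDerivAt_pow d ρ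
  have h3 := hf.div h2 (pow_pos hρ d).ne'
  refine HasDerivAt.congr_deriv (f := fun s => f s / s ^ d) h3 ?_
  cases d with
  | zero => simp; field_simp
  | succ k =>
    simp only [Nat.add_sub_cancel]
    field_simp
    ring

theorem hasDerivAt_ratio (H : Hyp a ε η h r) (d : ℕ) {p : E} {D ρ : ℝ} (hρ : 0 < ρ)
    (hDρ : D / 4 ≤ ρ) (hD : 0 < D) (hB : closedBall p (3 * ρ) ⊆ ball (0 : E) 2) :
    HasDerivAt (fun s => II a ε h r p D s / s ^ d) (-(∫ x, GG d a ε h r p D ρ x) / ρ ^ (d + 1))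
      ρ := by
  rw [int_GG_eq H d hρ hDρ hD hB]
  exact ratio_aux d hρ (hasDerivAt_II H p D hρ)

/-- one slab -/
theorem one_slab {d : ℕ} (hd : Module.finrank ℝ E = d + 1) (H : Hyp a ε η h r)
    {G lam K D : ℝ} (hG : 1 ≤ G) (hGr : Growth ε h r d G) (hl : 0 < lam) (hl1 : lam ≤ 1)
    (hK : 1 ≤ K) (hD : 0 < D) (hKD : 3 * K * D ≤ 1 / 100) {p : E} (hp : Good a ε h r d lam p) :
    II a ε h r p D (D / 4) / (D / 4) ^ d ≤ II a ε h r p D (K * D) / (K * D) ^ d
      + 15 * 3 ^ d * G * (K * (Real.sqrt lam + η)) := by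
  set τ := Real.sqrt lam with hτd
  have hτ : 0 < τ := Real.sqrt_pos.2 hl
  have hττ : τ * τ = lam := Real.mul_self_sqrt hl.le
  have hτ1 : τ ≤ 1 := by
    by_contra hcon
    push Not at hcon
    nlinarith
  have hη := H.hη0
  have hDK : D / 4 ≤ K * D := by nlinarith
  set B : ℝ := 3 ^ d * G * (15 * τ / D + 2 * η) with hB
  have hgeo : ∀ ρ ∈ Icc (D / 4) (K * D), 0 < ρ ∧ 3 * ρ ≤ 1 / 100 ∧
      closedBall p (3 * ρ) ⊆ ball (0 : E) 2 := by
    intro ρ hρ
    have h0 : 0 < ρ := lt_of_lt_of_le (by positivity) hρ.1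
    have h1 : 3 * ρ ≤ 1 / 100 := by
      have := hρ.2; linarith
    refine ⟨h0, h1, ?_⟩
    intro x hx
    have hp1 := hp.1
    rw [mem_ball_zero_iff] at hp1 ⊢
    rw [mem_closedBall, dist_eq_norm] at hx
    have : ‖x‖ ≤ ‖x - p‖ + ‖p‖ := by
      calc ‖x‖ = ‖(x - p) + p‖ := by rw [sub_add_cancel]
        _ ≤ _ := norm_add_le _ _
    linarith
  have hder : ∀ ρ ∈ Icc (D / 4) (K * D), HasDerivAt (fun s => II a ε h r p D s / s ^ d)
      (-(∫ x, GG d a ε h r p D ρ x) / ρ ^ (d + 1)) ρ := by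
    intro ρ hρ
    obtain ⟨h0, _, h2⟩ := hgeo ρ hρ
    exact hasDerivAt_ratio H d h0 hρ.1 hD h2
  have hbd : ∀ ρ ∈ Icc (D / 4) (K * D), -B ≤ -(∫ x, GG d a ε h r p D ρ x) / ρ ^ (d + 1) := by
    intro ρ hρ
    obtain ⟨h0, h1, h2⟩ := hgeo ρ hρ
    have hmain := int_GG_le hd H h0 hρ.1 hD hτ h2
    have hEn : En ε h r (closedBall p (3 * ρ)) ≤ G * (3 * ρ) ^ d := by
      apply hGr p _ (3 * ρ) (by positivity) (by linarith)
      exact ball_subset_ball (by norm_num) hp.1
    have hKp : Kp a ε h r (closedBall p (3 * ρ)) ≤ lam * (3 * ρ) ^ d :=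
      hp.2 (3 * ρ) (by positivity) h1
    have hc1 : 0 ≤ 11 / (2 * D) * ρ * τ + 2 * η * ρ := by positivity
    have hc2 : 0 ≤ 11 / (2 * D) * ρ / τ + 1 := by positivity
    have hfin : ∫ x, GG d a ε h r p D ρ x ≤ B * ρ ^ (d + 1) := by
      calc _ ≤ _ := hmain
        _ ≤ (11 / (2 * D) * ρ * τ + 2 * η * ρ) * (G * (3 * ρ) ^ d)
            + (11 / (2 * D) * ρ / τ + 1) * (lam * (3 * ρ) ^ d) := by gcongr
        _ = (3 * ρ) ^ d * (11 / (2 * D) * ρ * τ * G + 2 * η * ρ * G + 11 / (2 * D) * ρ * τ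
              + lam) := by
            rw [← hττ]; field_simp; ring
        _ ≤ (3 * ρ) ^ d * (ρ * (G * (15 * τ / D + 2 * η))) := by
            apply mul_le_mul_of_nonneg_left _ (by positivity)
            have e1 : lam ≤ ρ * (4 * τ / D) := by
              have : 1 ≤ ρ * (4 / D) := by
                rw [mul_div_assoc', le_div_iff₀ hD]; linarith [hρ.1]
              calc lam = τ * τ := hττ.symm
                _ ≤ τ * 1 := by gcongr
                _ ≤ τ * (ρ * (4 / D)) := by gcongr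
                _ = _ := by ring
            have e2 : lam ≤ ρ * (4 * τ / D) * G := by
              have : 0 ≤ ρ * (4 * τ / D) := by positivity
              nlinarith
            have e3 : 11 / (2 * D) * ρ * τ ≤ 11 / (2 * D) * ρ * τ * G := by
              have : 0 ≤ 11 / (2 * D) * ρ * τ := by positivity
              nlinarith
            have e4 : ρ * (G * (15 * τ / D + 2 * η)) = 11 / (2 * D) * ρ * τ * G
                + 2 * η * ρ * G + 11 / (2 * D) * ρ * τ * G + ρ * (4 * τ / D) * G := by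
              field_simp; ring
            linarith
        _ = B * ρ ^ (d + 1) := by rw [hB, mul_pow, pow_succ]; ring
    rw [le_div_iff₀ (by positivity)]
    linarith
  have hmv := (convex_Icc (D / 4) (K * D)).mul_sub_le_image_sub_of_le_deriv
    (f := fun s => II a ε h r p D s / s ^ d)
    (fun ρ hρ => (hder ρ hρ).continuousAt.continuousWithinAt)
    (fun ρ hρ => (hder ρ (interior_subset hρ)).differentiableAt.differentiableWithinAt)
    (C := -B) (fun ρ hρ => by
      rw [(hder ρ (interior_subset hρ)).deriv]; exact hbd ρ (interior_subset hρ))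
    (D / 4) (left_mem_Icc.2 hDK) (K * D) (right_mem_Icc.2 hDK) hDK
  have hB0 : 0 ≤ B := by positivity
  have e1 : B * (K * D - D / 4) ≤ B * (K * D) := by
    apply mul_le_mul_of_nonneg_left _ hB0; linarith
  have e2 : B * (K * D) = 3 ^ d * G * (15 * K * τ + 2 * η * (K * D)) := by
    rw [hB]; field_simp
  have e3 : 3 ^ d * G * (15 * K * τ + 2 * η * (K * D)) ≤ 15 * 3 ^ d * G * (K * (τ + η)) := by
    have : 15 * K * τ + 2 * η * (K * D) ≤ 15 * (K * (τ + η)) := by
      have : K * D ≤ 1 := by nlinarith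
      nlinarith
    calc _ ≤ 3 ^ d * G * (15 * (K * (τ + η))) := by gcongr
      _ = _ := by ring
  linarith

theorem J_le_II (H : Hyp a ε η h r) (p : E) {D : ℝ} (hD : 0 < D) :
    J ε h r p (D / 4) ≤ II a ε h r p D (D / 4) := by
  have hcq := continuous_q H
  have hc2 := (continuous_chi D).comp (continuous_sc a p)
  unfold J II
  apply setIntegral_mono_on
  · have : Continuous fun x : E => psi (‖x - p‖ ^ 2 / (D / 4) ^ 2) :=
      continuous_psi.comp (((continuous_id.sub continuous_const).norm.pow 2).div_const _)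
    exact integrableOn_ball2 (hcq.mul this)
  · exact integrableOn_ball2 ((hc2.mul hcq).mul (continuous_psi.comp (continuous_ysq a p (D / 4))))
  · exact measurableSet_ball
  intro x hx
  have hq := q_nonneg H hx
  have h1 := norm_yv_sq H.ha p x
  rcases le_or_gt (D / 4) ‖x - p‖ with hxp | hxp
  · have h2 : psi (‖x - p‖ ^ 2 / (D / 4) ^ 2) = 0 := by
      apply psi_eq_zero
      rw [le_div_iff₀ (by positivity), one_mul]
      exact pow_le_pow_left₀ (by positivity) hxp 2
    rw [h2, mul_zero]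
    exact mul_nonneg (mul_nonneg (chi_nonneg _ _) hq) (psi_nonneg _)
  · have h3 : chi D (sc a p x) = 1 := by
      apply chi_eq_one hD
      have h4 := sc_sq_le H.ha p x
      have h5 : |sc a p x| ≤ ‖x - p‖ := abs_le_of_sq_le_sq h4 (norm_nonneg _)
      linarith
    rw [h3, one_mul]
    apply mul_le_mul_of_nonneg_left _ hq
    apply psi_anti
    have h6 : 0 ≤ sc a p x ^ 2 := sq_nonneg _
    apply div_le_div_of_nonneg_right _ (by positivity)
    linarith

/-- the two slabs together -/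
theorem II_add_le (H : Hyp a ε η h r) {p : E} {K D : ℝ} (hK : 1 ≤ K) (hD : 0 < D)
    (hB : closedBall p (3 * (K * D)) ⊆ ball (0 : E) 2) :
    II a ε h r p D (K * D) + II a ε h r (p + D • a) D (K * D) ≤
      J ε h r p (K * D) + 9 / 2 / K ^ 2 * En ε h r (closedBall p (3 * (K * D))) := by
  have hcq := continuous_q H
  have hKD : 0 < K * D := by positivity
  have hψc : Continuous fun x : E => psi (‖x - p‖ ^ 2 / (K * D) ^ 2) :=
      continuous_psi.comp (((continuous_id.sub continuous_const).norm.pow 2).div_const _)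
  have hc : ∀ c : E, IntegrableOn (fun x => chi D (sc a c x) * q ε h r x *
      psi (‖yv a c x‖ ^ 2 / (K * D) ^ 2)) (ball (0 : E) 2) := fun c =>
    integrableOn_ball2 ((((continuous_chi D).comp (continuous_sc a c)).mul hcq).mul
      (continuous_psi.comp (continuous_ysq a c (K * D))))
  have hind : En ε h r (closedBall p (3 * (K * D))) =
      ∫ x in ball (0 : E) 2, (closedBall p (3 * (K * D))).indicator (q ε h r) x := by
    unfold En
    rw [setIntegral_indicator isClosed_closedBall.measurableSet, inter_eq_right.2 hB]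
  rw [hind]
  unfold II J
  have hqi : IntegrableOn ((closedBall p (3 * (K * D))).indicator (q ε h r)) (ball (0 : E) 2) :=
    (integrableOn_ball2 hcq).indicator isClosed_closedBall.measurableSet
  have hJi : IntegrableOn (fun x => q ε h r x * psi (‖x - p‖ ^ 2 / (K * D) ^ 2))
      (ball (0 : E) 2) := integrableOn_ball2 (hcq.mul hψc)
  rw [← integral_const_mul, ← integral_add (hc p) (hc (p + D • a)),
    ← integral_add hJi (hqi.const_mul _)]
  apply setIntegral_mono_on ((hc p).add (hc (p + D • a)))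
    (hJi.add (hqi.const_mul _)) measurableSet_ball
  intro x hx
  have hq := q_nonneg H hx
  have haa : ⟪a, a⟫ = (1 : ℝ) := inner_aa H.ha
  have hs2 : sc a (p + D • a) x = sc a p x - D := by
    unfold sc
    rw [← sub_sub, inner_sub_right, inner_smul_right, haa, mul_one]
  have hy2 : yv a (p + D • a) x = yv a p x := by
    unfold yv
    rw [hs2]
    module
  simp only [Pi.add_apply]
  rw [hs2, hy2]
  set s := sc a p x with hs
  set t := ‖yv a p x‖ ^ 2 / (K * D) ^ 2 with ht
  have hψ0 := psi_nonneg t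
  have hψx := psi_nonneg (‖x - p‖ ^ 2 / (K * D) ^ 2)
  have hiq : 0 ≤ (closedBall p (3 * (K * D))).indicator (q ε h r) x := by
    by_cases hm : x ∈ closedBall p (3 * (K * D))
    · rw [indicator_of_mem hm]; exact hq
    · rw [indicator_of_notMem hm]
  have hR : 0 ≤ q ε h r x * psi (‖x - p‖ ^ 2 / (K * D) ^ 2)
      + 9 / 2 / K ^ 2 * (closedBall p (3 * (K * D))).indicator (q ε h r) x := by positivity
  have hwsum : chi D s + chi D (s - D) ≤ 1 := by
    rcases lt_or_ge (|s|) (D / 2) with h1 | h1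
    · have h2 : D / 2 ≤ |s - D| := by
        rw [abs_lt] at h1
        rw [le_abs]; right; linarith [h1.2]
      rw [chi_eq_zero hD h2, add_zero]; exact chi_le_one _ _
    · rw [chi_eq_zero hD h1, zero_add]; exact chi_le_one _ _
  have hw0 : 0 ≤ chi D s + chi D (s - D) := add_nonneg (chi_nonneg _ _) (chi_nonneg _ _)
  have hL : chi D s * q ε h r x * psi t + chi D (s - D) * q ε h r x * psi t =
      (chi D s + chi D (s - D)) * (q ε h r x * psi t) := by ring
  rw [hL]
  rcases le_or_gt (K * D) ‖yv a p x‖ with hy | hy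
  · rw [ht, (psi_zero_of hKD hy).1, mul_zero, mul_zero]; exact hR
  rcases le_or_gt (3 / 2 * D) |s| with hs3 | hs3
  · have h1 : chi D s = 0 := chi_eq_zero hD (by linarith)
    have h2 : chi D (s - D) = 0 := by
      apply chi_eq_zero hD
      rw [le_abs] at hs3 ⊢
      rcases hs3 with h | h
      · left; linarith
      · right; linarith
    rw [h1, h2, add_zero, zero_mul]; exact hR
  have hnorm := norm_yv_sq H.ha p x
  rw [← hs] at hnorm
  have hs2' : s ^ 2 ≤ (3 / 2 * D) ^ 2 := by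
    rw [← sq_abs]; exact pow_le_pow_left₀ (abs_nonneg _) hs3.le 2
  have hy2' : ‖yv a p x‖ ^ 2 ≤ (K * D) ^ 2 := pow_le_pow_left₀ (norm_nonneg _) hy.le 2
  have hDK : D ≤ K * D := by nlinarith
  have hmem : x ∈ closedBall p (3 * (K * D)) := by
    rw [mem_closedBall, dist_eq_norm]
    apply abs_le_of_sq_le_sq' _ (by positivity) |>.2
    nlinarith
  rw [indicator_of_mem hmem]
  have hst : psi t ≤ psi (‖x - p‖ ^ 2 / (K * D) ^ 2) + 9 / 2 / K ^ 2 := by
    have h1 : t ≤ ‖x - p‖ ^ 2 / (K * D) ^ 2 := by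
      rw [ht]
      have := sq_nonneg s
      apply div_le_div_of_nonneg_right _ (by positivity)
      linarith
    have h2 := psi_le_add (by positivity : 0 ≤ t) h1
    have h3 : ‖x - p‖ ^ 2 / (K * D) ^ 2 - t = s ^ 2 / (K * D) ^ 2 := by
      rw [ht, hnorm, ← sub_div]; congr 1; ring
    have h4 : s ^ 2 / (K * D) ^ 2 ≤ 9 / 4 / K ^ 2 := by
      rw [div_le_div_iff₀ (by positivity) (by positivity)]
      nlinarith [sq_nonneg K]
    rw [h3] at h2
    have h5 : 2 * (9 / 4 / K ^ 2) = 9 / 2 / K ^ 2 := by ring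
    linarith
  calc (chi D s + chi D (s - D)) * (q ε h r x * psi t) ≤ 1 * (q ε h r x * psi t) := by gcongr
    _ = q ε h r x * psi t := one_mul _
    _ ≤ q ε h r x * (psi (‖x - p‖ ^ 2 / (K * D) ^ 2) + 9 / 2 / K ^ 2) := by gcongr
    _ = _ := by ring

end

/-- LEAF 7 of Lemma MS -/
theorem stSlab (E : Type*) [NormedAddCommGroup E] [InnerProductSpace ℝ E]
    [FiniteDimensional ℝ E] [MeasurableSpace E] [BorelSpace E] (d : ℕ) : StSlab E d := by
  intro hd
  refine ⟨30 * 3 ^ d, by positivity, ?_⟩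
  intro a ε η h r H G lam K D hG hGr hl hl1 hK hD hKD x1 hx1 hg1 hg2
  have hKD0 : 0 < K * D := by positivity
  have hη := H.hη0
  have s1 := one_slab hd H hG hGr hl hl1 hK hD hKD hg1
  have s2 := one_slab hd H hG hGr hl hl1 hK hD hKD hg2
  have j1 := J_le_II H x1 hD
  have j2 := J_le_II H (x1 + D • a) hD
  have hB : closedBall x1 (3 * (K * D)) ⊆ ball (0 : E) 2 := by
    intro x hx
    rw [mem_ball_zero_iff] at hx1 ⊢
    rw [mem_closedBall, dist_eq_norm] at hx
    have : ‖x‖ ≤ ‖x - x1‖ + ‖x1‖ := by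
      calc ‖x‖ = ‖(x - x1) + x1‖ := by rw [sub_add_cancel]
        _ ≤ _ := norm_add_le _ _
    linarith
  have hsum := II_add_le H hK hD hB
  have hEn : En ε h r (closedBall x1 (3 * (K * D))) ≤ G * (3 * (K * D)) ^ d := by
    apply hGr x1 _ (3 * (K * D)) (by positivity) (by linarith)
    exact ball_subset_ball (by norm_num) hx1
  have hD4 : (0 : ℝ) < (D / 4) ^ d := by positivity
  have hKDd : (0 : ℝ) < (K * D) ^ d := by positivity
  have a1 : J ε h r x1 (D / 4) / (D / 4) ^ d ≤ II a ε h r x1 D (D / 4) / (D / 4) ^ d := by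
    gcongr
  have a2 : J ε h r (x1 + D • a) (D / 4) / (D / 4) ^ d ≤
      II a ε h r (x1 + D • a) D (D / 4) / (D / 4) ^ d := by gcongr
  have a3 : II a ε h r x1 D (K * D) / (K * D) ^ d
      + II a ε h r (x1 + D • a) D (K * D) / (K * D) ^ d ≤
      J ε h r x1 (K * D) / (K * D) ^ d + 9 / 2 / K ^ 2 * (G * 3 ^ d) := by
    rw [← add_div]
    have h1 : 9 / 2 / K ^ 2 * (G * 3 ^ d) =
        9 / 2 / K ^ 2 * (G * (3 * (K * D)) ^ d) / (K * D) ^ d := by
      rw [mul_pow]; field_simp
    rw [h1, ← add_div]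
    apply div_le_div_of_nonneg_right _ hKDd.le
    refine hsum.trans ?_
    gcongr
  have hs0 : 0 ≤ Real.sqrt lam + η := add_nonneg (Real.sqrt_nonneg _) hη.le
  have hKK : K * (Real.sqrt lam + η) ≤ K ^ 2 * (Real.sqrt lam + η) := by
    apply mul_le_mul_of_nonneg_right _ hs0
    nlinarith
  have hfin : 15 * 3 ^ d * G * (K * (Real.sqrt lam + η)) + 15 * 3 ^ d * G *
      (K * (Real.sqrt lam + η)) + 9 / 2 / K ^ 2 * (G * 3 ^ d) ≤
      30 * 3 ^ d * G * (K ^ 2 * (Real.sqrt lam + η) + 1 / K ^ 2) := by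
    have b1 : 15 * 3 ^ d * G * (K * (Real.sqrt lam + η)) ≤
        15 * 3 ^ d * G * (K ^ 2 * (Real.sqrt lam + η)) := by gcongr
    have b2 : 9 / 2 / K ^ 2 * (G * 3 ^ d) ≤ 30 * 3 ^ d * G * (1 / K ^ 2) := by
      have : 9 / 2 / K ^ 2 * (G * 3 ^ d) = (9 / 2) * (3 ^ d * G * (1 / K ^ 2)) := by ring
      rw [this]
      have h0 : 0 ≤ 3 ^ d * G * (1 / K ^ 2) := by positivity
      nlinarith
    have b3 : 30 * 3 ^ d * G * (K ^ 2 * (Real.sqrt lam + η) + 1 / K ^ 2) =
        15 * 3 ^ d * G * (K ^ 2 * (Real.sqrt lam + η))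
        + 15 * 3 ^ d * G * (K ^ 2 * (Real.sqrt lam + η)) + 30 * 3 ^ d * G * (1 / K ^ 2) := by ring
    linarith
  linarith

end Crest.Agent.R246.F4x669
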