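import Crest.Agent.R246.Fam_348
import Crest.Agent.R246.Dbl_348
import Mathlib.Analysis.SpecialFunctions.Artanh

/-!
# Row 246, IDX / FAM (helper378): the modified odd family, continuity part

`tanh ((arcsin (Φ z y) - θ - G z θ y) / ε)` with `G = 0` for `‖z‖` close to `1` or `|θ|` large,
as an odd continuous family on the unit sphere of `(E × ℝ) × ℝ`.
-/

set_option autoImplicit false
set_option linter.unusedSectionVars false
noncomputable section
open Set Filter Topology Metric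
open scoped RealInnerProductSpace

namespace Crest.Agent.R246.FamC378

open Crest.Agent.R246.Fam348 (mob mob_tanh mob_abs_le mob_neg mob_one mob_neg_one tanh_lt_one
  continuous_tanh' continuous_mob)

variable {E : Type*} [NormedAddCommGroup E] [InnerProductSpace ℝ E]

/-- clamp to `[-s₁, s₁]` -/
def cl (s₁ s : ℝ) : ℝ := max (-s₁) (min s₁ s)

theorem continuous_cl (s₁ : ℝ) : Continuous (cl s₁) := by unfold cl; fun_prop

theorem cl_mem {s₁ : ℝ} (h : 0 ≤ s₁) (s : ℝ) : -s₁ ≤ cl s₁ s ∧ cl s₁ s ≤ s₁ := by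
  unfold cl
  exact ⟨le_max_left _ _, max_le (by linarith) (min_le_left _ _)⟩

theorem cl_of_abs_le {s₁ s : ℝ} (h : |s| ≤ s₁) : cl s₁ s = s := by
  have h' := abs_le.1 h
  unfold cl
  rw [min_eq_right h'.2, max_eq_right h'.1]

theorem cl_of_ge {s₁ s : ℝ} (h0 : 0 ≤ s₁) (h : s₁ ≤ s) : cl s₁ s = s₁ := by
  unfold cl
  rw [min_eq_left h, max_eq_right (by linarith)]

theorem cl_of_le {s₁ s : ℝ} (h0 : 0 ≤ s₁) (h : s ≤ -s₁) : cl s₁ s = -s₁ := by
  unfold cl
  rw [min_eq_right (by linarith), max_eq_left h]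

/-- the level, truncated -/
def lev (ε s₁ s : ℝ) : ℝ := ε * Real.artanh (cl s₁ s)

theorem continuous_lev (ε : ℝ) {s₁ : ℝ} (h0 : 0 ≤ s₁) (h1 : s₁ < 1) : Continuous (lev ε s₁) := by
  unfold lev Real.artanh
  have hc := continuous_cl s₁
  have hm := cl_mem h0
  have hq : Continuous fun s => (1 + cl s₁ s) / (1 - cl s₁ s) := by
    refine (continuous_const.add hc).div (continuous_const.sub hc) fun s => ?_
    have := (hm s).2
    exact ne_of_gt (by linarith)
  refine continuous_const.mul ((hq.sqrt).log fun s => ?_)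
  refine (Real.sqrt_pos_of_pos (div_pos ?_ ?_)).ne'
  · have := (hm s).1; linarith
  · have := (hm s).2; linarith

theorem artanh_neg' {x : ℝ} (hx : x ∈ Ioo (-1 : ℝ) 1) : Real.artanh (-x) = -Real.artanh x := by
  apply Real.tanh_injective
  rw [Real.tanh_neg, Real.tanh_artanh hx, Real.tanh_artanh ⟨by linarith [hx.2], by linarith [hx.1]⟩]

section main

variable (Φ : E → E → ℝ) (ε : ℝ) (G : E → ℝ → E → ℝ) (s₁ : ℝ)

/-- the modified profile -/
def q (z : E) (s : ℝ) (y : E) : ℝ :=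
  Real.tanh ((Real.arcsin (Φ z y) - G z (lev ε s₁ s) y) / ε)

/-- the modified family on the box -/
def V (w : E × ℝ) (y : sphere (0 : E) 1) : ℝ := mob (q Φ ε G s₁ w.1 w.2 y) w.2

end main

theorem exists_modified {Φ : E → E → ℝ} {ε : ℝ} {G : E → ℝ → E → ℝ} (hε : 0 < ε)
    (hc : ContinuousOn (fun p : E × E => Φ p.1 p.2) (closedBall 0 1 ×ˢ sphere 0 1))
    (hodd : ∀ a y : E, ‖a‖ = 1 → ‖y‖ = 1 → Φ (-a) y = - Φ a y)
    (hG : ContinuousOn (fun p : E × ℝ × E => G p.1 p.2.1 p.2.2)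
      (univ ×ˢ (univ ×ˢ sphere (0 : E) 1)))
    {r₁ T₁ : ℝ} (hr : r₁ < 1)
    (hG0 : ∀ (z : E) (θ : ℝ) (y : E), ‖y‖ = 1 → (r₁ ≤ ‖z‖ ∨ T₁ ≤ |θ|) → G z θ y = 0) :
    ∃ U : C(sphere (0 : (E × ℝ) × ℝ) 1, C(sphere (0 : E) 1, ℝ)),
      (∀ p, U (-p) = - U p) ∧ (∀ p x, |U p x| ≤ 1) ∧
      ∀ p, (∀ y, U p y = 1) ∨ (∀ y, U p y = -1) ∨
        (∃ z θ, ‖z‖ ≤ 1 ∧ ∀ y : sphere (0 : E) 1,
          U p y = Real.tanh ((Real.arcsin (Φ z y) - θ - G z θ y) / ε)) ∨
        (∃ z θ, ‖z‖ ≤ 1 ∧ ∀ y : sphere (0 : E) 1,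
          U p y = - Real.tanh ((Real.arcsin (Φ z y) - θ - G z θ y) / ε)) := by
  set T := max T₁ 0 with hT
  have hT0 : 0 ≤ T := le_max_right _ _
  have hTT : T₁ ≤ T := le_max_left _ _
  set s₁ := Real.tanh (T / ε) with hs₁
  have hs0 : 0 ≤ s₁ := by
    rw [hs₁, Real.tanh_eq_sinh_div_cosh]
    exact div_nonneg (Real.sinh_nonneg_iff.2 (by positivity)) (Real.cosh_pos _).le
  have hs1 : s₁ < 1 := (abs_lt.1 (tanh_lt_one (T / ε))).2
  have hsm : s₁ ∈ Ioo (-1 : ℝ) 1 := ⟨by linarith, hs1⟩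
  have hat : Real.artanh s₁ = T / ε := Real.artanh_tanh _
  have hlev1 : ∀ s, s₁ ≤ s → lev ε s₁ s = T := by
    intro s hs
    unfold lev
    rw [cl_of_ge hs0 hs, hat, mul_div_cancel₀ _ hε.ne']
  have hlev2 : ∀ s, s ≤ -s₁ → lev ε s₁ s = -T := by
    intro s hs
    unfold lev
    rw [cl_of_le hs0 hs, artanh_neg' hsm, hat, mul_neg, mul_div_cancel₀ _ hε.ne']
  -- far from the centre the modification vanishes
  have hlevG : ∀ (z : E) (s : ℝ) (y : E), ‖y‖ = 1 → s₁ ≤ |s| → G z (lev ε s₁ s) y = 0 := by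
    intro z s y hy hs
    refine hG0 z _ y hy (Or.inr ?_)
    rcases le_or_gt 0 s with h | h
    · rw [abs_of_nonneg h] at hs
      rw [hlev1 s hs, abs_of_nonneg hT0]; exact hTT
    · rw [abs_of_neg h] at hs
      rw [hlev2 s (by linarith), abs_neg, abs_of_nonneg hT0]; exact hTT
  have hqlt : ∀ z s y, |q Φ ε G s₁ z s y| < 1 := fun z s y => tanh_lt_one _
  have hy1 : ∀ y : sphere (0 : E) 1, ‖(y : E)‖ = 1 := fun y => by simp
  -- continuity
  have hVc : ContinuousOn (fun p : (E × ℝ) × sphere (0 : E) 1 => V Φ ε G s₁ p.1 p.2)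
      (closedBall 0 1 ×ˢ univ) := by
    rw [continuousOn_iff_continuous_domRestrict]
    have cw : Continuous fun p : ↥((closedBall (0 : E × ℝ) 1) ×ˢ (univ : Set (sphere (0 : E) 1))) =>
        (p : (E × ℝ) × sphere (0 : E) 1) := continuous_subtype_val
    have c1 := cw.fst.fst
    have c2 := cw.fst.snd
    have c3 : Continuous fun p : ↥((closedBall (0 : E × ℝ) 1) ×ˢ
        (univ : Set (sphere (0 : E) 1))) => ((p : (E × ℝ) × sphere (0 : E) 1).2 : E) :=
      continuous_subtype_val.comp cw.snd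
    have hb : ∀ p : ↥((closedBall (0 : E × ℝ) 1) ×ˢ (univ : Set (sphere (0 : E) 1))),
        ‖(p : (E × ℝ) × sphere (0 : E) 1).1.1‖ ≤ 1 ∧
          |(p : (E × ℝ) × sphere (0 : E) 1).1.2| ≤ 1 := by
      intro p
      have h1 := p.2.1
      rw [mem_closedBall_zero_iff] at h1
      exact ⟨(norm_fst_le _).trans h1, (norm_snd_le _).trans h1⟩
    have cΦ : Continuous fun p : ↥((closedBall (0 : E × ℝ) 1) ×ˢ
        (univ : Set (sphere (0 : E) 1))) => Φ (p : (E × ℝ) × sphere (0 : E) 1).1.1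
          ((p : (E × ℝ) × sphere (0 : E) 1).2 : E) :=
      hc.comp_continuous (c1.prodMk c3) fun p => by
        refine ⟨?_, ?_⟩
        · rw [mem_closedBall_zero_iff]; exact (hb p).1
        · exact (p : (E × ℝ) × sphere (0 : E) 1).2.2
    have cG : Continuous fun p : ↥((closedBall (0 : E × ℝ) 1) ×ˢ
        (univ : Set (sphere (0 : E) 1))) => G (p : (E × ℝ) × sphere (0 : E) 1).1.1
          (lev ε s₁ (p : (E × ℝ) × sphere (0 : E) 1).1.2)
          ((p : (E × ℝ) × sphere (0 : E) 1).2 : E) :=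
      hG.comp_continuous (c1.prodMk (((continuous_lev ε hs0 hs1).comp c2).prodMk c3)) fun p =>
        ⟨mem_univ _, mem_univ _, (p : (E × ℝ) × sphere (0 : E) 1).2.2⟩
    have cq : Continuous fun p : ↥((closedBall (0 : E × ℝ) 1) ×ˢ
        (univ : Set (sphere (0 : E) 1))) =>
          q Φ ε G s₁ (p : (E × ℝ) × sphere (0 : E) 1).1.1
            (p : (E × ℝ) × sphere (0 : E) 1).1.2 ((p : (E × ℝ) × sphere (0 : E) 1).2 : E) :=
      continuous_tanh'.comp (((Real.continuous_arcsin.comp cΦ).sub cG).div_const _)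
    exact continuous_mob cq c2 (fun p => hqlt _ _ _) (fun p => (hb p).2)
  -- oddness on the boundary
  have hVb : ∀ w : E × ℝ, ‖w‖ = 1 → ∀ y : sphere (0 : E) 1,
      V Φ ε G s₁ (-w) y = - V Φ ε G s₁ w y := by
    rintro ⟨z, s⟩ hw y
    have hw' : max ‖z‖ |s| = 1 := hw
    show mob (q Φ ε G s₁ (-z) (-s) y) (-s) = - mob (q Φ ε G s₁ z s y) s
    have hz1 : ‖z‖ ≤ 1 := by rw [← hw']; exact le_max_left _ _
    have hs1' : |s| ≤ 1 := by rw [← hw']; exact le_max_right _ _
    rcases max_eq_iff.1 hw' with ⟨h1, -⟩ | ⟨h1, -⟩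
    · -- `‖z‖ = 1`
      have e1 : G z (lev ε s₁ s) (y : E) = 0 :=
        hG0 _ _ _ (hy1 y) (Or.inl (by rw [h1]; exact hr.le))
      have e2 : G (-z) (lev ε s₁ (-s)) (y : E) = 0 :=
        hG0 _ _ _ (hy1 y) (Or.inl (by rw [norm_neg, h1]; exact hr.le))
      have e3 : q Φ ε G s₁ (-z) (-s) y = - q Φ ε G s₁ z s y := by
        unfold q
        rw [e1, e2, hodd z y h1 (hy1 y), Real.arcsin_neg, sub_zero, sub_zero, neg_div,
          Real.tanh_neg]
      rw [e3, mob_neg]
    · rcases abs_eq (zero_le_one' ℝ) |>.1 h1 with h | h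
      · rw [h, mob_one (hqlt _ _ _), mob_neg_one (hqlt _ _ _)]; ring
      · rw [h, neg_neg, mob_one (hqlt _ _ _), mob_neg_one (hqlt _ _ _)]
  obtain ⟨U, hU1, hU2⟩ := Dbl348.exists_double hVc hVb
  have habs : ∀ w : E × ℝ, ‖w‖ ≤ 1 → ∀ y, |V Φ ε G s₁ w y| ≤ 1 := fun w hw y =>
    mob_abs_le (hqlt _ _ _) ((norm_snd_le w).trans hw)
  -- form of the members
  have hform : ∀ w : E × ℝ, ‖w‖ ≤ 1 → (∀ y, V Φ ε G s₁ w y = 1) ∨ (∀ y, V Φ ε G s₁ w y = -1) ∨
      ∃ z θ, ‖z‖ ≤ 1 ∧ ∀ y : sphere (0 : E) 1,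
        V Φ ε G s₁ w y = Real.tanh ((Real.arcsin (Φ z y) - θ - G z θ y) / ε) := by
    rintro ⟨z, s⟩ hw
    have hz1 : ‖z‖ ≤ 1 := (norm_fst_le ((z, s) : E × ℝ)).trans hw
    have hs1' : |s| ≤ 1 := (norm_snd_le ((z, s) : E × ℝ)).trans hw
    rcases (abs_le.1 hs1').2.eq_or_lt with h | h
    · right; left
      intro y
      show mob (q Φ ε G s₁ z s y) s = -1
      rw [h, mob_one (hqlt _ _ _)]
    · rcases (abs_le.1 hs1').1.eq_or_lt with h' | h'
      · left
        intro y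
        show mob (q Φ ε G s₁ z s y) s = 1
        rw [← h', mob_neg_one (hqlt _ _ _)]
      · right; right
        refine ⟨z, ε * Real.artanh s, hz1, fun y => ?_⟩
        show mob (q Φ ε G s₁ z s y) s = _
        have hsI : s ∈ Ioo (-1 : ℝ) 1 := ⟨h', h⟩
        have e0 : s = Real.tanh (ε * Real.artanh s / ε) := by
          rw [mul_div_cancel_left₀ _ hε.ne', Real.tanh_artanh hsI]
        have e1 : G z (lev ε s₁ s) (y : E) = G z (ε * Real.artanh s) (y : E) := by
          rcases le_or_gt |s| s₁ with hle | hgt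
          · unfold lev; rw [cl_of_abs_le hle]
          · rw [hlevG z s y (hy1 y) hgt.le]
            symm
            refine hG0 _ _ _ (hy1 y) (Or.inr ?_)
            -- `T ≤ |ε artanh s|`
            rw [abs_mul, abs_of_pos hε]
            have h5 : T / ε ≤ |Real.artanh s| := by
              rw [← hat]
              rcases le_or_gt 0 s with h0 | h0
              · rw [abs_of_nonneg h0] at hgt
                rw [abs_of_nonneg (Real.artanh_nonneg h0)]
                exact Real.artanh_le_artanh hsm.1 h hgt.le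
              · rw [abs_of_neg h0] at hgt
                rw [abs_of_nonpos (Real.artanh_nonpos h0.le), ← artanh_neg' hsI]
                exact Real.artanh_le_artanh hsm.1 (by linarith) hgt.le
            have h6 : T ≤ ε * |Real.artanh s| := by
              rwa [div_le_iff₀' hε] at h5
            exact hTT.trans h6
        nth_rewrite 2 [e0]
        unfold q
        rw [mob_tanh, e1]
        congr 1
        ring
  refine ⟨U, hU1, fun p x => ?_, fun p => ?_⟩
  · obtain ⟨w, hw, h | h⟩ := hU2 p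
    · rw [h]; exact habs w hw x
    · rw [h, abs_neg]; exact habs w hw x
  · obtain ⟨w, hw, h | h⟩ := hU2 p
    · rcases hform w hw with h1 | h1 | ⟨z, θ, hz, h1⟩
      · exact Or.inl fun y => by rw [h, h1]
      · exact Or.inr (Or.inl fun y => by rw [h, h1])
      · exact Or.inr (Or.inr (Or.inl ⟨z, θ, hz, fun y => by rw [h, h1]⟩))
    · rcases hform w hw with h1 | h1 | ⟨z, θ, hz, h1⟩
      · exact Or.inr (Or.inl fun y => by rw [h, h1])
      · exact Or.inl fun y => by rw [h, h1, neg_neg]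
      · exact Or.inr (Or.inr (Or.inr ⟨z, θ, hz, fun y => by rw [h, h1]⟩))

end Crest.Agent.R246.FamC378
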