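import Crest.Agent.R246.Boost_990
import Mathlib.Topology.ContinuousMap.Compact
import Mathlib.Topology.CompactOpen
import Mathlib.Analysis.SpecialFunctions.Trigonometric.Inverse
import Mathlib.Analysis.SpecialFunctions.Arsinh
import Mathlib.Analysis.SpecialFunctions.Artanh
import Mathlib.Analysis.Normed.Group.BallSphere

/-!
# The odd continuous family of Allen-Cahn profiles (Lie/de Sitter family of one null cone)

Parameter space: the unit sphere of `E × ℝ × ℝ` with the sup norm, i.e. the doubled box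
`closedBall × [-1,1]`.
-/

set_option autoImplicit false
set_option linter.unusedSectionVars false
set_option linter.unusedSimpArgs false
noncomputable section
open MeasureTheory Set Filter Topology Metric
open scoped RealInnerProductSpace

namespace Crest.Agent.R246.Fam348

variable {E : Type*} [NormedAddCommGroup E] [InnerProductSpace ℝ E]

/-- Addition formula map: `mob (tanh a) (tanh b) = tanh (a - b)`. -/
def mob (q s : ℝ) : ℝ := (q - s) / (1 - q * s)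

lemma tanh_lt_one (a : ℝ) : |Real.tanh a| < 1 := by
  rw [Real.tanh_eq_sinh_div_cosh, abs_div, abs_of_pos (Real.cosh_pos a), div_lt_one (Real.cosh_pos a)]
  rw [abs_lt]
  constructor
  · have := Real.cosh_add_sinh a
    have := Real.exp_pos a
    linarith
  · have := Real.cosh_sub_sinh a
    have := Real.exp_pos (-a)
    linarith

lemma mob_tanh (a b : ℝ) : mob (Real.tanh a) (Real.tanh b) = Real.tanh (a - b) := by
  unfold mob
  rw [Real.tanh_eq_sinh_div_cosh, Real.tanh_eq_sinh_div_cosh, Real.tanh_eq_sinh_div_cosh,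
    Real.sinh_sub, Real.cosh_sub]
  have ha := (Real.cosh_pos a).ne'
  have hb := (Real.cosh_pos b).ne'
  have h : Real.cosh a * Real.cosh b - Real.sinh a * Real.sinh b ≠ 0 := by
    rw [← Real.cosh_sub]; exact (Real.cosh_pos _).ne'
  have e1 : Real.sinh a / Real.cosh a - Real.sinh b / Real.cosh b =
      (Real.sinh a * Real.cosh b - Real.cosh a * Real.sinh b) / (Real.cosh a * Real.cosh b) := by
    field_simp
  have e2 : 1 - Real.sinh a / Real.cosh a * (Real.sinh b / Real.cosh b) =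
      (Real.cosh a * Real.cosh b - Real.sinh a * Real.sinh b) / (Real.cosh a * Real.cosh b) := by
    field_simp
  rw [e1, e2, div_div_div_cancel_right₀ (mul_ne_zero ha hb)]

lemma mob_den_pos {q s : ℝ} (hq : |q| < 1) (hs : |s| ≤ 1) : 0 < 1 - q * s := by
  have : |q * s| < 1 := by
    rw [abs_mul]
    calc |q| * |s| ≤ |q| * 1 := mul_le_mul_of_nonneg_left hs (abs_nonneg _)
      _ < 1 := by linarith
  have := (abs_lt.1 this).2
  linarith

lemma mob_abs_le {q s : ℝ} (hq : |q| < 1) (hs : |s| ≤ 1) : |mob q s| ≤ 1 := by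
  have hd := mob_den_pos hq hs
  unfold mob
  rw [abs_div, abs_of_pos hd, div_le_one hd, abs_le]
  have h1 := abs_lt.1 hq
  have h2 := abs_le.1 hs
  constructor
  · nlinarith [mul_nonneg (by linarith : 0 ≤ 1 + q) (by linarith : 0 ≤ 1 - s)]
  · nlinarith [mul_nonneg (by linarith : 0 ≤ 1 - q) (by linarith : 0 ≤ 1 + s)]

lemma mob_neg (q s : ℝ) : mob (-q) (-s) = - mob q s := by
  unfold mob
  rw [neg_mul_neg, ← neg_div]
  congr 1
  ring

lemma mob_one {q : ℝ} (hq : |q| < 1) : mob q 1 = -1 := by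
  have hd := mob_den_pos (s := 1) hq (by simp)
  unfold mob
  rw [div_eq_iff hd.ne']; ring

lemma mob_neg_one {q : ℝ} (hq : |q| < 1) : mob q (-1) = 1 := by
  have hd := mob_den_pos (s := -1) hq (by simp)
  unfold mob
  rw [div_eq_iff hd.ne']; ring

/-- `tanh (r^z / ε)`. -/
def prof (Φ : E → E → ℝ) (ε : ℝ) (z y : E) : ℝ := Real.tanh (Real.arcsin (Φ z y) / ε)

lemma prof_lt (Φ : E → E → ℝ) (ε : ℝ) (z y : E) : |prof Φ ε z y| < 1 := tanh_lt_one _

lemma continuous_tanh' : Continuous Real.tanh := by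
  have : Real.tanh = fun x => Real.sinh x / Real.cosh x := by
    funext x; exact Real.tanh_eq_sinh_div_cosh x
  rw [this]
  exact Real.continuous_sinh.div Real.continuous_cosh fun x => (Real.cosh_pos x).ne'

/-- the family, as a function on `V × E`. -/
def famFun (Φ : E → E → ℝ) (ε : ℝ) (p : E × ℝ × ℝ) (y : E) : ℝ :=
  if 0 ≤ p.2.2 then mob (prof Φ ε p.1 y) p.2.1 else - mob (prof Φ ε (-p.1) y) (-p.2.1)

lemma famFun_abs_le (Φ : E → E → ℝ) (ε : ℝ) {p : E × ℝ × ℝ} (hp : |p.2.1| ≤ 1) (y : E) :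
    |famFun Φ ε p y| ≤ 1 := by
  unfold famFun
  split_ifs
  · exact mob_abs_le (prof_lt _ _ _ _) hp
  · rw [abs_neg]; exact mob_abs_le (prof_lt _ _ _ _) (by rwa [abs_neg])

lemma mem_box {p : E × ℝ × ℝ} (hp : ‖p‖ = 1) : ‖p.1‖ ≤ 1 ∧ |p.2.1| ≤ 1 ∧ |p.2.2| ≤ 1 := by
  have h1 : ‖p.1‖ ≤ ‖p‖ := norm_fst_le p
  have h2 : ‖p.2‖ ≤ ‖p‖ := norm_snd_le p
  have h3 : ‖p.2.1‖ ≤ ‖p.2‖ := norm_fst_le p.2
  have h4 : ‖p.2.2‖ ≤ ‖p.2‖ := norm_snd_le p.2
  rw [Real.norm_eq_abs] at h3 h4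
  refine ⟨by linarith, by linarith, by linarith⟩

lemma boundary_of_zero {p : E × ℝ × ℝ} (hp : ‖p‖ = 1) (h0 : p.2.2 = 0) :
    ‖p.1‖ = 1 ∨ |p.2.1| = 1 := by
  obtain ⟨z, s, t⟩ := p
  simp only at h0
  subst h0
  rw [Prod.norm_def, Prod.norm_def] at hp
  simp only [norm_zero] at hp
  rcases max_cases ‖z‖ (max ‖s‖ 0) with h | h
  · left; rw [← h.1]; exact hp
  · rw [h.1, max_eq_left (norm_nonneg s)] at hp
    right; exact hp

/-- The two branches agree on `t = 0`. -/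
lemma branch_eq (Φ : E → E → ℝ) (ε : ℝ) (hodd : ∀ a y : E, ‖a‖ = 1 → ‖y‖ = 1 → Φ (-a) y = - Φ a y)
    {p : E × ℝ × ℝ} (hp : ‖p‖ = 1) (h0 : p.2.2 = 0) {y : E} (hy : ‖y‖ = 1) :
    mob (prof Φ ε p.1 y) p.2.1 = - mob (prof Φ ε (-p.1) y) (-p.2.1) := by
  rcases boundary_of_zero hp h0 with h | h
  · have e : prof Φ ε (-p.1) y = - prof Φ ε p.1 y := by
      unfold prof
      rw [hodd _ _ h hy, Real.arcsin_neg, neg_div, Real.tanh_neg]
    rw [e, mob_neg, neg_neg]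
  · rcases abs_eq (zero_le_one) |>.1 h with h | h
    · rw [h, mob_one (prof_lt _ _ _ _), mob_neg_one (prof_lt _ _ _ _)]
    · rw [h, mob_neg_one (prof_lt _ _ _ _), neg_neg, mob_one (prof_lt _ _ _ _), neg_neg]

lemma famFun_neg (Φ : E → E → ℝ) (ε : ℝ)
    (hodd : ∀ a y : E, ‖a‖ = 1 → ‖y‖ = 1 → Φ (-a) y = - Φ a y)
    {p : E × ℝ × ℝ} (hp : ‖p‖ = 1) {y : E} (hy : ‖y‖ = 1) :
    famFun Φ ε (-p) y = - famFun Φ ε p y := by
  rcases lt_trichotomy p.2.2 0 with h | h | h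
  · have h1 : (0:ℝ) ≤ (-p).2.2 := by simp; exact h.le
    have h2 : ¬ (0:ℝ) ≤ p.2.2 := not_le.2 h
    unfold famFun
    rw [if_pos h1, if_neg h2]
    simp
  · have h1 : (0:ℝ) ≤ (-p).2.2 := by simp [h]
    have h2 : (0:ℝ) ≤ p.2.2 := by simp [h]
    unfold famFun
    rw [if_pos h1, if_pos h2, branch_eq Φ ε hodd hp h hy, neg_neg]
    simp
  · have h1 : ¬ (0:ℝ) ≤ (-p).2.2 := by simp; exact h
    have h2 : (0:ℝ) ≤ p.2.2 := h.le
    unfold famFun
    rw [if_neg h1, if_pos h2]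
    simp

lemma continuous_prof {Φ : E → E → ℝ} {ε : ℝ} {X : Type*} [TopologicalSpace X]
    (hc : ContinuousOn (fun p : E × E => Φ p.1 p.2) (closedBall 0 1 ×ˢ sphere 0 1))
    {f : X → E} {g : X → E} (hf : Continuous f) (hg : Continuous g)
    (hf1 : ∀ x, ‖f x‖ ≤ 1) (hg1 : ∀ x, ‖g x‖ = 1) :
    Continuous fun x => prof Φ ε (f x) (g x) := by
  unfold prof
  have : Continuous fun x => Φ (f x) (g x) :=
    hc.comp_continuous (hf.prodMk hg) fun x => by
      simp [mem_prod, hf1 x, hg1 x]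
  exact continuous_tanh'.comp ((Real.continuous_arcsin.comp this).div_const _)

lemma continuous_mob {X : Type*} [TopologicalSpace X] {f g : X → ℝ} (hf : Continuous f)
    (hg : Continuous g) (hf1 : ∀ x, |f x| < 1) (hg1 : ∀ x, |g x| ≤ 1) :
    Continuous fun x => mob (f x) (g x) := by
  unfold mob
  exact (hf.sub hg).div (continuous_const.sub (hf.mul hg)) fun x => (mob_den_pos (hf1 x) (hg1 x)).ne'

lemma continuous_famFun {Φ : E → E → ℝ} {ε : ℝ}
    (hc : ContinuousOn (fun p : E × E => Φ p.1 p.2) (closedBall 0 1 ×ˢ sphere 0 1))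
    (hodd : ∀ a y : E, ‖a‖ = 1 → ‖y‖ = 1 → Φ (-a) y = - Φ a y) :
    Continuous fun q : sphere (0 : E × ℝ × ℝ) 1 × sphere (0 : E) 1 =>
      famFun Φ ε (q.1 : E × ℝ × ℝ) (q.2 : E) := by
  have hp : ∀ q : sphere (0 : E × ℝ × ℝ) 1 × sphere (0 : E) 1, ‖(q.1 : E × ℝ × ℝ)‖ = 1 :=
    fun q => by simp
  have hy : ∀ q : sphere (0 : E × ℝ × ℝ) 1 × sphere (0 : E) 1, ‖(q.2 : E)‖ = 1 :=
    fun q => by simp
  have c1 : Continuous fun q : sphere (0 : E × ℝ × ℝ) 1 × sphere (0 : E) 1 =>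
      (q.1 : E × ℝ × ℝ) := continuous_subtype_val.comp continuous_fst
  have c2 : Continuous fun q : sphere (0 : E × ℝ × ℝ) 1 × sphere (0 : E) 1 =>
      (q.2 : E) := continuous_subtype_val.comp continuous_snd
  unfold famFun
  refine Continuous.if_le ?_ ?_ continuous_const (c1.snd.snd) ?_
  · exact continuous_mob (continuous_prof hc c1.fst c2 (fun q => (mem_box (hp q)).1) hy)
      c1.snd.fst (fun q => prof_lt _ _ _ _) (fun q => (mem_box (hp q)).2.1)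
  · refine (continuous_mob (continuous_prof hc c1.fst.neg c2 (fun q => ?_) hy)
      c1.snd.fst.neg (fun q => prof_lt _ _ _ _) (fun q => ?_)).neg
    · show ‖-(q.1 : E × ℝ × ℝ).1‖ ≤ 1
      rw [norm_neg]; exact (mem_box (hp q)).1
    · show |-(q.1 : E × ℝ × ℝ).2.1| ≤ 1
      rw [abs_neg]; exact (mem_box (hp q)).2.1
  · intro q h
    exact branch_eq Φ ε hodd (hp q) h.symm (hy q)

/-- The odd continuous family. -/
def fam (Φ : E → E → ℝ) (ε : ℝ)
    (hc : ContinuousOn (fun p : E × E => Φ p.1 p.2) (closedBall 0 1 ×ˢ sphere 0 1))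
    (hodd : ∀ a y : E, ‖a‖ = 1 → ‖y‖ = 1 → Φ (-a) y = - Φ a y) :
    C(sphere (0 : E × ℝ × ℝ) 1, C(sphere (0 : E) 1, ℝ)) :=
  ContinuousMap.curry ⟨_, continuous_famFun (ε := ε) hc hodd⟩

lemma fam_apply (Φ : E → E → ℝ) (ε : ℝ)
    (hc : ContinuousOn (fun p : E × E => Φ p.1 p.2) (closedBall 0 1 ×ˢ sphere 0 1))
    (hodd : ∀ a y : E, ‖a‖ = 1 → ‖y‖ = 1 → Φ (-a) y = - Φ a y)
    (p : sphere (0 : E × ℝ × ℝ) 1) (x : sphere (0 : E) 1) :
    fam Φ ε hc hodd p x = famFun Φ ε p x := rfl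

/-- Every member of the family is a constant `±1` or `± tanh ((r^z - θ)/ε)`. -/
lemma famFun_cases (Φ : E → E → ℝ) {ε : ℝ} (hε : 0 < ε) {p : E × ℝ × ℝ} (hp : ‖p‖ = 1) :
    (∀ y, famFun Φ ε p y = 1) ∨ (∀ y, famFun Φ ε p y = -1) ∨
    (∃ z θ, ‖z‖ ≤ 1 ∧ ∀ y, famFun Φ ε p y = Real.tanh ((Real.arcsin (Φ z y) - θ) / ε)) ∨
    (∃ z θ, ‖z‖ ≤ 1 ∧ ∀ y, famFun Φ ε p y = - Real.tanh ((Real.arcsin (Φ z y) - θ) / ε)) := by
  obtain ⟨h1, h2, h3⟩ := mem_box hp
  have key : ∀ s : ℝ, |s| ≤ 1 → s = 1 ∨ s = -1 ∨ ∃ θ, s = Real.tanh (θ / ε) := by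
    intro s hs
    rcases (abs_le.1 hs).2.eq_or_lt with h | h
    · left; exact h
    · rcases (abs_le.1 hs).1.eq_or_lt with h' | h'
      · right; left; exact h'.symm
      · right; right
        refine ⟨ε * Real.artanh s, ?_⟩
        rw [mul_div_cancel_left₀ _ hε.ne', Real.tanh_artanh ⟨h', h⟩]
  unfold famFun
  split_ifs with ht
  · rcases key p.2.1 h2 with h | h | ⟨θ, h⟩
    · right; left; intro y; rw [h, mob_one (prof_lt _ _ _ _)]
    · left; intro y; rw [h, mob_neg_one (prof_lt _ _ _ _)]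
    · right; right; left
      refine ⟨p.1, θ, h1, fun y => ?_⟩
      rw [h, prof, mob_tanh, sub_div]
  · rcases key (-p.2.1) (by rwa [abs_neg]) with h | h | ⟨θ, h⟩
    · left; intro y; rw [h, mob_one (prof_lt _ _ _ _), neg_neg]
    · right; left; intro y; rw [h, mob_neg_one (prof_lt _ _ _ _)]
    · right; right; right
      refine ⟨-p.1, θ, by rwa [norm_neg], fun y => ?_⟩
      rw [h, prof, mob_tanh, sub_div]

/-- Summary. -/
theorem exists_family {Φ : E → E → ℝ} {ε : ℝ} (hε : 0 < ε)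
    (hc : ContinuousOn (fun p : E × E => Φ p.1 p.2) (closedBall 0 1 ×ˢ sphere 0 1))
    (hodd : ∀ a y : E, ‖a‖ = 1 → ‖y‖ = 1 → Φ (-a) y = - Φ a y) :
    ∃ U : C(sphere (0 : E × ℝ × ℝ) 1, C(sphere (0 : E) 1, ℝ)),
      (∀ p, U (-p) = - U p) ∧ (∀ p x, |U p x| ≤ 1) ∧
      ∀ p, (∀ y, U p y = 1) ∨ (∀ y, U p y = -1) ∨
        (∃ z θ, ‖z‖ ≤ 1 ∧ ∀ y, U p y = Real.tanh ((Real.arcsin (Φ z y) - θ) / ε)) ∨
        (∃ z θ, ‖z‖ ≤ 1 ∧ ∀ y, U p y = - Real.tanh ((Real.arcsin (Φ z y) - θ) / ε)) := by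
  refine ⟨fam Φ ε hc hodd, fun p => ?_, fun p x => ?_, fun p => ?_⟩
  · ext x
    have hp : ‖(p : E × ℝ × ℝ)‖ = 1 := by simp
    have hx : ‖(x : E)‖ = 1 := by simp
    rw [ContinuousMap.neg_apply, fam_apply, fam_apply]
    exact famFun_neg Φ ε hodd hp hx
  · have hp : ‖(p : E × ℝ × ℝ)‖ = 1 := by simp
    exact famFun_abs_le Φ ε (mem_box hp).2.1 _
  · have hp : ‖(p : E × ℝ × ℝ)‖ = 1 := by simp
    rcases famFun_cases Φ hε hp with h | h | ⟨z, θ, hz, h⟩ | ⟨z, θ, hz, h⟩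
    · exact Or.inl fun y => h y
    · exact Or.inr (Or.inl fun y => h y)
    · exact Or.inr (Or.inr (Or.inl ⟨z, θ, hz, fun y => h y⟩))
    · exact Or.inr (Or.inr (Or.inr ⟨z, θ, hz, fun y => h y⟩))

end Crest.Agent.R246.Fam348
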