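import Crest.Agent.R202.SphDiv

/-!
Row 246, block GL3 (helper992), part 1: averaging over an equator.  For densities `q` on `ℝⁿ ∖ {0}` which are
homogeneous of degree `-2`: integrals against radial functions, concentration on the hyperplane `a^⊥`, and the
average over the equator of the integrals against round bumps.
-/

set_option autoImplicit false

open Filter Topology Metric Set MeasureTheory
open scoped ContDiff

noncomputable section

namespace Crest.Agent.R246.Flatx992

variable {n : ℕ}

local notation "EE" => EuclideanSpace ℝ (Fin n)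

/-- energy of the unit sphere -/
def SE (q : EuclideanSpace ℝ (Fin n) → ℝ) : ℝ :=
  ∫ z : sphere (0 : EuclideanSpace ℝ (Fin n)) 1, q z
    ∂((volume : Measure (EuclideanSpace ℝ (Fin n))).toSphere)

/-- density homogeneous of degree `-2` -/
structure Dens (q : EuclideanSpace ℝ (Fin n) → ℝ) : Prop where
  cont : ContinuousOn q {0}ᶜ
  nonneg : ∀ x, x ≠ 0 → 0 ≤ q x
  hom : ∀ t : ℝ, 0 < t → ∀ x, x ≠ 0 → q (t • x) = (t ^ 2)⁻¹ * q x

/-- vanishing outside of an annulus -/
def Ann {F : Type*} [Norm F] (a b : ℝ) (G : F → ℝ) : Prop := ∀ x, ‖x‖ < a ∨ b < ‖x‖ → G x = 0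

section Ann
variable {F : Type*} [NormedAddCommGroup F]

theorem Ann.tsupport_sub {a b : ℝ} {G : F → ℝ} (h : Ann a b G) :
    tsupport G ⊆ {x | a ≤ ‖x‖ ∧ ‖x‖ ≤ b} := by
  apply closure_minimal
  · intro x hx
    by_contra h'
    apply hx
    apply h
    simp only [mem_ofPred_eq, not_and_or, not_le] at h'
    exact h'
  · exact (isClosed_le continuous_const continuous_norm).inter
      (isClosed_le continuous_norm continuous_const)

theorem Ann.cs [ProperSpace F] {a b : ℝ} {G : F → ℝ} (h : Ann a b G) : HasCompactSupport G := by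
  apply HasCompactSupport.of_support_subset_isCompact (isCompact_closedBall (0 : F) b)
  intro x hx
  have := h.tsupport_sub (subset_tsupport _ hx)
  simpa using this.2

theorem Ann.sub {a b : ℝ} {G : F → ℝ} (h : Ann a b G) (ha : 0 < a) : tsupport G ⊆ {0}ᶜ := by
  intro x hx h0
  have := (h.tsupport_sub hx).1
  rw [mem_singleton_iff.1 h0, norm_zero] at this
  linarith

end Ann

theorem Dens.continuous_mul {q : EE → ℝ} (hq : Dens q) {G : EE → ℝ} (hG : Continuous G) {a b : ℝ}
    (ha : 0 < a) (h : Ann a b G) : Continuous fun x => q x * G x := by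
  rw [continuous_iff_continuousAt]
  intro x
  by_cases hx : x = 0
  · have h0 : (fun x => q x * G x) =ᶠ[𝓝 x] fun _ => 0 := by
      have h1 : ∀ᶠ y in 𝓝 x, ‖y‖ < a := by
        refine continuous_norm.continuousAt.eventually_lt continuousAt_const ?_
        rw [hx, norm_zero]; exact ha
      filter_upwards [h1] with y hy
      rw [h y (Or.inl hy), mul_zero]
    exact (continuousAt_congr h0).2 continuousAt_const
  · exact (hq.cont.continuousAt (isOpen_compl_singleton.mem_nhds hx)).mul hG.continuousAt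

theorem Dens.integrable_mul {q : EE → ℝ} (hq : Dens q) {G : EE → ℝ} (hG : Continuous G) {a b : ℝ}
    (ha : 0 < a) (h : Ann a b G) : Integrable fun x => q x * G x :=
  (hq.continuous_mul hG ha h).integrable_of_hasCompactSupport h.cs.mul_left

theorem SE_nonneg {q : EE → ℝ} (hq : Dens q) : 0 ≤ SE q := by
  apply integral_nonneg
  intro z
  apply hq.nonneg
  intro h
  have : ‖(z : EE)‖ = 1 := by simp
  rw [h, norm_zero] at this
  exact zero_ne_one this

/-- integrals against radial functions -/
theorem Dens.radial (hn : 3 ≤ n) {q : EE → ℝ} (hq : Dens q) {H : ℝ → ℝ} (hH : Continuous H)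
    {a b : ℝ} (ha : 0 < a) (h : ∀ t, t < a ∨ b < t → H t = 0) :
    ∫ x, q x * H ‖x‖ = (∫ t in Ioi (0 : ℝ), t ^ (n - 3) * H t) * SE q := by
  have hAnn : Ann a b (fun x : EE => H ‖x‖) := fun x hx => h _ hx
  have hint : Integrable (fun x : EE => q x * H ‖x‖) :=
    hq.integrable_mul (hH.comp continuous_norm) ha hAnn
  rw [R202.SphDiv.polar (by omega) _ hint]
  rw [← integral_mul_const]
  refine setIntegral_congr_fun measurableSet_Ioi fun t ht => ?_
  have ht0 : (0 : ℝ) < t := ht
  have h1 : ∀ z : R202.SphDiv.Sph n, q (t • (z : EE)) * H ‖t • (z : EE)‖ =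
      (t ^ 2)⁻¹ * H t * q z := by
    intro z
    have hz : ‖(z : EE)‖ = 1 := by simp
    have hz0 : (z : EE) ≠ 0 := by intro h0; rw [h0, norm_zero] at hz; exact zero_ne_one hz
    rw [hq.hom t ht0 _ hz0, norm_smul, hz, mul_one, Real.norm_of_nonneg ht0.le]
    ring
  simp only [h1]
  rw [integral_const_mul]
  have h2 : t ^ (n - 1) = t ^ (n - 3) * t ^ 2 := by rw [← pow_add]; congr 1; omega
  rw [h2]
  show t ^ (n - 3) * t ^ 2 * ((t ^ 2)⁻¹ * H t * SE q) = t ^ (n - 3) * H t * SE q
  field_simp

/-- a continuous cut-off, `= 1` on `[a, b]`, vanishing outside of `[a / 2, b + 1]` -/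
def cutH (a b : ℝ) (t : ℝ) : ℝ := max 0 (min 1 (min (2 / a * (t - a / 2)) (b + 1 - t)))

theorem cutH_cont (a b : ℝ) : Continuous (cutH a b) := by
  unfold cutH
  fun_prop

theorem cutH_nonneg (a b t : ℝ) : 0 ≤ cutH a b t := le_max_left _ _

theorem cutH_out {a b t : ℝ} (ha : 0 < a) (h : t < a / 2 ∨ b + 1 < t) : cutH a b t = 0 := by
  unfold cutH
  apply max_eq_left
  apply (min_le_right _ _).trans
  rcases h with h | h
  · apply (min_le_left _ _).trans
    have : t - a / 2 < 0 := by linarith
    have h2 : 0 < 2 / a := by positivity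
    nlinarith
  · apply (min_le_right _ _).trans
    linarith

theorem cutH_one {a b t : ℝ} (ha : 0 < a) (h1 : a ≤ t) (h2 : t ≤ b) : cutH a b t = 1 := by
  unfold cutH
  have h3 : 1 ≤ 2 / a * (t - a / 2) := by
    have : 2 / a * (t - a / 2) = 2 * t / a - 1 := by field_simp
    rw [this]
    have : 2 ≤ 2 * t / a := by rw [le_div_iff₀ ha]; linarith
    linarith
  rw [min_eq_left (le_min h3 (by linarith)), max_eq_right zero_le_one]

/-- CONCENTRATION: if the energy densities concentrate on the hyperplane `a^⊥`, integrals against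
continuous functions which are radial on `a^⊥` converge. -/
theorem conc (hn : 3 ≤ n) {q : ℕ → EE → ℝ} (hq : ∀ k, Dens (q k)) {E : ℝ}
    (hE : Tendsto (fun k => SE (q k)) atTop (𝓝 E)) {a : EE}
    (hsm : ∀ δ : ℝ, 0 < δ → ∀ η : ℝ, 0 < η → ∀ᶠ k in atTop, ∀ z : EE, ‖z‖ = 1 →
      δ ≤ |inner ℝ a z| → q k z ≤ η)
    {G : EE → ℝ} (hG : Continuous G) {g : ℝ → ℝ} (hg : Continuous g) {b c : ℝ} (hb : 0 < b)
    (hGA : Ann b c G) (hgA : ∀ t, t < b ∨ c < t → g t = 0)
    (hGg : ∀ x : EE, inner ℝ a x = 0 → G x = g ‖x‖) :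
    Tendsto (fun k => ∫ x, q k x * G x) atTop
      (𝓝 (E * ∫ t in Ioi (0 : ℝ), t ^ (n - 3) * g t)) := by
  set D : EE → ℝ := fun x => G x - g ‖x‖ with hD
  have hDc : Continuous D := hG.sub (hg.comp continuous_norm)
  have hDA : Ann b c D := fun x hx => by simp only [hD, hGA x hx, hgA _ hx, sub_zero]
  -- a bound for `D`
  obtain ⟨M, hM⟩ : ∃ M, ∀ x, ‖D x‖ ≤ M := by
    obtain ⟨M, hM⟩ := (hDA.cs.isCompact_range hDc).isBounded.exists_norm_le
    exact ⟨M, fun x => hM _ ⟨x, rfl⟩⟩
  have hM0 : 0 ≤ M := (norm_nonneg _).trans (hM 0)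
  set C0 : ℝ := ∫ t in Ioi (0 : ℝ), t ^ (n - 3) * cutH b c t with hC0
  have hC0' : 0 ≤ C0 := by
    apply setIntegral_nonneg measurableSet_Ioi
    intro t ht
    exact mul_nonneg (pow_nonneg (le_of_lt ht) _) (cutH_nonneg _ _ _)
  have hcA : Ann (b / 2) (c + 1) (fun x : EE => cutH b c ‖x‖) := fun x hx => cutH_out hb hx
  have hdiff : Tendsto (fun k => ∫ x, q k x * D x) atTop (𝓝 0) := by
    rw [Metric.tendsto_nhds]
    intro η hη
    -- small parameter
    obtain ⟨E1, hE1⟩ : ∃ E1, ∀ᶠ k in atTop, SE (q k) ≤ E1 :=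
      ⟨E + 1, (hE.eventually (gt_mem_nhds (lt_add_one E))).mono fun k hk => le_of_lt hk⟩
    set E2 : ℝ := max E1 0 with hE2
    set η1 : ℝ := η / (2 * (C0 * E2 + 1)) with hη1
    have hE20 : 0 ≤ E2 := le_max_right _ _
    have hden : 0 < 2 * (C0 * E2 + 1) := by positivity
    have hη1p : 0 < η1 := div_pos hη hden
    set K : Set EE := {x | η1 ≤ ‖D x‖} with hK
    have hKc : IsCompact K := by
      apply IsCompact.of_isClosed_subset hDA.cs.isCompact
      · exact isClosed_le continuous_const hDc.norm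
      · intro x hx
        apply subset_tsupport
        intro h0
        simp only [hK, mem_ofPred_eq, h0, norm_zero] at hx
        linarith
    have hKann : ∀ x ∈ K, b ≤ ‖x‖ ∧ ‖x‖ ≤ c := by
      intro x hx
      by_contra h'
      simp only [not_and_or, not_le] at h'
      simp only [hK, mem_ofPred_eq, hDA x h', norm_zero] at hx
      linarith
    obtain ⟨δ, hδ, hδK⟩ : ∃ δ : ℝ, 0 < δ ∧ ∀ x ∈ K, δ ≤ |inner ℝ a x| / ‖x‖ := by
      rcases K.eq_empty_or_nonempty with he | hne
      · exact ⟨1, one_pos, by simp [he]⟩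
      · have hcont : ContinuousOn (fun x : EE => |inner ℝ a x| / ‖x‖) K := by
          apply ContinuousOn.div
          · exact (continuous_const.inner continuous_id).abs.continuousOn
          · exact continuous_norm.continuousOn
          · intro x hx
            exact ne_of_gt (lt_of_lt_of_le hb (hKann x hx).1)
        obtain ⟨x0, hx0, hmin⟩ := hKc.exists_isMinOn hne hcont
        refine ⟨_, ?_, fun x hx => hmin hx⟩
        have h1 : 0 < ‖x0‖ := lt_of_lt_of_le hb (hKann x0 hx0).1
        apply div_pos _ h1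
        rw [abs_pos]
        intro h2
        have h3 : D x0 = 0 := by simp only [hD, hGg x0 h2, sub_self]
        simp only [hK, mem_ofPred_eq, h3, norm_zero] at hx0
        linarith
    set v : ℝ := volume.real K with hv
    set η2 : ℝ := η * b ^ 2 / (2 * (M * v + 1)) with hη2
    have hv0 : 0 ≤ v := measureReal_nonneg
    have hη2p : 0 < η2 := by positivity
    filter_upwards [hE1, hsm δ hδ η2 hη2p] with k hk1 hk2
    rw [dist_zero_right]
    have hbound : ∀ x, ‖q k x * D x‖ ≤ η1 * (q k x * cutH b c ‖x‖)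
        + K.indicator (fun _ => M * (η2 / b ^ 2)) x := by
      intro x
      by_cases hx0 : x = 0
      · have h1 : D x = 0 := hDA x (Or.inl (by rw [hx0, norm_zero]; exact hb))
        have h2 : cutH b c ‖x‖ = 0 := cutH_out hb (Or.inl (by rw [hx0, norm_zero]; positivity))
        rw [h1, h2, mul_zero, norm_zero, mul_zero, zero_add]
        exact indicator_nonneg (fun _ _ => by positivity) _
      have hqx := (hq k).nonneg x hx0
      rw [norm_mul, Real.norm_of_nonneg hqx]
      by_cases hxK : x ∈ K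
      · rw [indicator_of_mem hxK]
        have hxn := hKann x hxK
        have hxp : 0 < ‖x‖ := lt_of_lt_of_le hb hxn.1
        have h1 : q k x ≤ η2 / b ^ 2 := by
          have h2 : x = ‖x‖ • (‖x‖⁻¹ • x) := by
            rw [smul_smul, mul_inv_cancel₀ hxp.ne', one_smul]
          have h3 : ‖‖x‖⁻¹ • x‖ = 1 := by
            rw [norm_smul, norm_inv, norm_norm, inv_mul_cancel₀ hxp.ne']
          have h4 : δ ≤ |inner ℝ a (‖x‖⁻¹ • x)| := by
            rw [inner_smul_right, abs_mul, abs_of_pos (inv_pos.2 hxp)]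
            have := hδK x hxK
            rw [div_eq_inv_mul] at this
            exact this
          have h5 := hk2 _ h3 h4
          rw [h2, (hq k).hom _ hxp _ (by intro h0; rw [h0, norm_zero] at h3; exact zero_ne_one h3)]
          have h6 : (‖x‖ ^ 2)⁻¹ ≤ (b ^ 2)⁻¹ := by
            apply inv_anti₀ (by positivity)
            exact pow_le_pow_left₀ hb.le hxn.1 2
          calc (‖x‖ ^ 2)⁻¹ * q k (‖x‖⁻¹ • x) ≤ (b ^ 2)⁻¹ * η2 := by
                apply mul_le_mul h6 h5 _ (by positivity)
                apply (hq k).nonneg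
                intro h0; rw [h0, norm_zero] at h3; exact zero_ne_one h3
            _ = η2 / b ^ 2 := by rw [div_eq_inv_mul]
        have h7 : 0 ≤ η1 * (q k x * cutH b c ‖x‖) :=
          mul_nonneg hη1p.le (mul_nonneg hqx (cutH_nonneg _ _ _))
        have h8 : q k x * ‖D x‖ ≤ M * (η2 / b ^ 2) := by
          rw [mul_comm]
          exact mul_le_mul (hM x) h1 hqx hM0
        linarith
      · rw [indicator_of_notMem hxK, add_zero]
        have h1 : ‖D x‖ < η1 := by simpa [hK] using hxK
        by_cases hxa : b ≤ ‖x‖ ∧ ‖x‖ ≤ c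
        · rw [cutH_one hb hxa.1 hxa.2, mul_one, mul_comm]
          exact mul_le_mul_of_nonneg_right h1.le hqx
        · simp only [not_and_or, not_le] at hxa
          rw [hDA x hxa, norm_zero, mul_zero]
          exact mul_nonneg hη1p.le (mul_nonneg hqx (cutH_nonneg _ _ _))
    have hI1 : Integrable fun x => q k x * cutH b c ‖x‖ :=
      (hq k).integrable_mul ((cutH_cont b c).comp continuous_norm) (half_pos hb) hcA
    have hI2 : Integrable (K.indicator fun _ => M * (η2 / b ^ 2)) (volume : Measure EE) := by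
      rw [integrable_indicator_iff hKc.measurableSet]
      exact integrableOn_const hKc.measure_lt_top.ne
    have h1 : ‖∫ x, q k x * D x‖ ≤ ∫ x, (η1 * (q k x * cutH b c ‖x‖)
        + K.indicator (fun _ => M * (η2 / b ^ 2)) x) := by
      apply norm_integral_le_of_norm_le ((hI1.const_mul η1).add hI2)
      exact Eventually.of_forall hbound
    rw [integral_add (hI1.const_mul η1) hI2, integral_const_mul,
      (hq k).radial hn (cutH_cont b c) (half_pos hb) (fun t ht => cutH_out hb ht),
      integral_indicator_const _ hKc.measurableSet] at h1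
    have h2 : η1 * (C0 * SE (q k)) ≤ η / 2 * ((C0 * E2) / (C0 * E2 + 1)) := by
      have h3 : SE (q k) ≤ E2 := hk1.trans (le_max_left _ _)
      have h4 : η1 * (C0 * SE (q k)) ≤ η1 * (C0 * E2) := by gcongr
      refine h4.trans (le_of_eq ?_)
      rw [hη1]; field_simp
    have h5 : (C0 * E2) / (C0 * E2 + 1) ≤ 1 := by
      rw [div_le_one (by positivity)]; linarith
    have h6 : volume.real K • (M * (η2 / b ^ 2)) < η / 2 := by
      rw [smul_eq_mul, ← hv, hη2]
      have : v * (M * (η * b ^ 2 / (2 * (M * v + 1)) / b ^ 2)) = η / 2 * (M * v / (M * v + 1)) := by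
        field_simp
      rw [this]
      have : M * v / (M * v + 1) < 1 := by rw [div_lt_one (by positivity)]; linarith
      nlinarith
    have h7 : η / 2 * ((C0 * E2) / (C0 * E2 + 1)) ≤ η / 2 := by nlinarith
    have h8 : (∫ t in Ioi (0 : ℝ), t ^ (n - 3) * cutH b c t) = C0 := rfl
    rw [h8] at h1
    linarith
  have hsum : ∀ k, ∫ x, q k x * G x = (∫ x, q k x * D x) +
      (∫ t in Ioi (0 : ℝ), t ^ (n - 3) * g t) * SE (q k) := by
    intro k
    have hI3 : Integrable fun x : EE => q k x * g ‖x‖ :=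
      (hq k).integrable_mul (hg.comp continuous_norm) hb fun x hx => hgA _ hx
    rw [← (hq k).radial hn hg hb hgA, ← integral_add ((hq k).integrable_mul hDc hb hDA) hI3]
    congr 1
    funext x
    simp only [hD]; ring
  simp only [hsum]
  have := hdiff.add (hE.const_mul (∫ t in Ioi (0 : ℝ), t ^ (n - 3) * g t))
  rw [zero_add, mul_comm _ E] at this
  exact this

end Crest.Agent.R246.Flatx992
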