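import Crest.Agent.R246.MSDefs_852

/-!
# R246-F (helper852): basic facts for Lemma MS
-/

set_option autoImplicit false
set_option linter.unusedSectionVars false

namespace Crest.Agent.R246.MS852

open MeasureTheory Metric Set InnerProductSpace Filter Topology
open scoped RealInnerProductSpace Gradient

/-! ### the profile -/

theorem psi_nonneg (t : ℝ) : 0 ≤ psi t := by unfold psi; positivity

theorem psi_of_one_le {t : ℝ} (h : 1 ≤ t) : psi t = 0 := by
  unfold psi; rw [max_eq_left (by linarith)]; norm_num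

theorem psi_of_le_one {t : ℝ} (h : t ≤ 1) : psi t = (1 - t) ^ 2 := by
  unfold psi; rw [max_eq_right (by linarith)]

theorem dpsi_of_one_le {t : ℝ} (h : 1 ≤ t) : dpsi t = 0 := by
  unfold dpsi; rw [max_eq_left (by linarith)]; norm_num

theorem dpsi_of_le_one {t : ℝ} (h : t ≤ 1) : dpsi t = -2 * (1 - t) := by
  unfold dpsi; rw [max_eq_right (by linarith)]

theorem psi_le_one {t : ℝ} (h : 0 ≤ t) : psi t ≤ 1 := by
  unfold psi
  have h1 : max 0 (1 - t) ≤ 1 := max_le (by norm_num) (by linarith)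
  have h0 : 0 ≤ max 0 (1 - t) := le_max_left _ _
  nlinarith

theorem dpsi_nonpos (t : ℝ) : dpsi t ≤ 0 := by
  unfold dpsi
  have h0 : 0 ≤ max 0 (1 - t) := le_max_left _ _
  linarith

theorem neg_two_le_dpsi {t : ℝ} (h : 0 ≤ t) : -2 ≤ dpsi t := by
  unfold dpsi
  have h1 : max 0 (1 - t) ≤ 1 := max_le (by norm_num) (by linarith)
  linarith

theorem psi_antitone : Antitone psi := by
  intro s t h
  unfold psi
  have h0 : 0 ≤ max 0 (1 - t) := le_max_left _ _
  have h1 : max 0 (1 - t) ≤ max 0 (1 - s) := max_le_max le_rfl (by linarith)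
  nlinarith

theorem continuous_psi : Continuous psi := by unfold psi; fun_prop

theorem continuous_dpsi : Continuous dpsi := by unfold dpsi; fun_prop

theorem hasDerivAt_psi (t : ℝ) : HasDerivAt psi (dpsi t) t := by
  rcases lt_trichotomy t 1 with h | h | h
  · have h1 : HasDerivAt (fun t : ℝ => (1 - t) ^ 2) (dpsi t) t := by
      have h2 : HasDerivAt (fun t : ℝ => 1 - t) (-1) t := by
        simpa using (hasDerivAt_id t).const_sub 1
      have h3 := h2.fun_pow 2
      exact h3.congr_deriv (by rw [dpsi_of_le_one h.le]; ring)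
    refine h1.congr_of_eventuallyEq ?_
    filter_upwards [Iio_mem_nhds h] with s hs
    exact psi_of_le_one (le_of_lt hs)
  · subst h
    rw [dpsi_of_one_le le_rfl, hasDerivAt_iff_isLittleO_nhds_zero]
    have : ∀ s : ℝ, |psi (1 + s) - psi 1 - s • (0:ℝ)| ≤ s ^ 2 := by
      intro s
      rw [psi_of_one_le le_rfl]
      simp only [smul_zero, sub_zero]
      rw [abs_of_nonneg (psi_nonneg _)]
      unfold psi
      rcases le_total 0 s with hs | hs
      · rw [max_eq_left (by linarith)]; nlinarith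
      · rw [max_eq_right (by linarith)]; nlinarith
    refine Asymptotics.IsBigO.trans_isLittleO (g := fun s : ℝ => s ^ 2) ?_ ?_
    · refine Asymptotics.IsBigO.of_bound 1 (Eventually.of_forall fun s => ?_)
      rw [Real.norm_eq_abs, Real.norm_eq_abs, one_mul, abs_of_nonneg (sq_nonneg s)]
      exact this s
    · exact Asymptotics.isLittleO_pow_id (by norm_num)
  · have h1 : HasDerivAt (fun _ : ℝ => (0 : ℝ)) (dpsi t) t := by
      rw [dpsi_of_one_le h.le]; exact hasDerivAt_const _ _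
    refine h1.congr_of_eventuallyEq ?_
    filter_upwards [Ioi_mem_nhds h] with s hs
    exact psi_of_one_le (le_of_lt hs)

theorem deriv_psi : deriv psi = dpsi := funext fun t => (hasDerivAt_psi t).deriv

theorem contDiff_psi : ContDiff ℝ 1 psi := by
  rw [contDiff_one_iff_deriv]
  exact ⟨fun t => (hasDerivAt_psi t).differentiableAt, by rw [deriv_psi]; exact continuous_dpsi⟩

/-- `psi` is `2`-Lipschitz on `[0,∞)` -/
theorem psi_sub_le {s t : ℝ} (hs : 0 ≤ s) (ht : 0 ≤ t) : psi s - psi t ≤ 2 * |s - t| := by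
  have h1 : max 0 (1 - s) ≤ 1 := max_le (by norm_num) (by linarith)
  have h0 : 0 ≤ max 0 (1 - s) := le_max_left _ _
  have h1' : max 0 (1 - t) ≤ 1 := max_le (by norm_num) (by linarith)
  have h0' : 0 ≤ max 0 (1 - t) := le_max_left _ _
  have h2 : |max 0 (1 - s) - max 0 (1 - t)| ≤ |s - t| := by
    refine (abs_max_sub_max_le_max _ _ _ _).trans ?_
    rw [sub_self, abs_zero, max_eq_right (abs_nonneg _)]
    rw [show 1 - s - (1 - t) = t - s by ring, abs_sub_comm]
  unfold psi
  have h3 : max 0 (1 - s) ^ 2 - max 0 (1 - t) ^ 2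
      = (max 0 (1 - s) - max 0 (1 - t)) * (max 0 (1 - s) + max 0 (1 - t)) := by ring
  rw [h3]
  calc _ ≤ |(max 0 (1 - s) - max 0 (1 - t)) * (max 0 (1 - s) + max 0 (1 - t))| := le_abs_self _
    _ = |max 0 (1 - s) - max 0 (1 - t)| * |max 0 (1 - s) + max 0 (1 - t)| := abs_mul _ _
    _ ≤ |s - t| * 2 := by
        apply mul_le_mul h2 _ (abs_nonneg _) (abs_nonneg _)
        rw [abs_of_nonneg (by linarith)]; linarith
    _ = _ := by ring

theorem abs_psi_sub_le {s t : ℝ} (hs : 0 ≤ s) (ht : 0 ≤ t) : |psi s - psi t| ≤ 2 * |s - t| := by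
  rw [abs_le]
  constructor
  · have := psi_sub_le ht hs
    rw [abs_sub_comm] at this; linarith
  · exact psi_sub_le hs ht

/-- `t (-dpsi t) ≤ 1/2` -/
theorem mul_dpsi_bound {t : ℝ} (_ht : 0 ≤ t) : -(t * dpsi t) ≤ 1 / 2 := by
  unfold dpsi
  rcases le_total t 1 with h | h
  · rw [max_eq_right (by linarith)]; nlinarith [sq_nonneg (t - 1/2)]
  · rw [max_eq_left (by linarith)]; norm_num

theorem mul_dpsi_nonneg {t : ℝ} (ht : 0 ≤ t) : 0 ≤ -(t * dpsi t) := by
  have := dpsi_nonpos t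
  nlinarith

/-! ### pointwise facts -/

section
variable {E : Type*} [NormedAddCommGroup E] [InnerProductSpace ℝ E]

theorem S4_pos (ε : ℝ) (r : E → ℝ) (x : E) : 0 < S4 ε r x := by
  unfold S4; positivity

theorem S4_nonneg (ε : ℝ) (r : E → ℝ) (x : E) : 0 ≤ S4 ε r x := (S4_pos ε r x).le

theorem S4_le_one (ε : ℝ) (r : E → ℝ) (x : E) : S4 ε r x ≤ 1 := by
  unfold S4
  rw [div_le_one (by positivity)]
  exact one_le_pow₀ (Real.one_le_cosh _)

theorem continuous_S4 {ε : ℝ} {r : E → ℝ} (hr : Continuous r) : Continuous (S4 ε r) := by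
  unfold S4
  refine continuous_const.div ((Real.continuous_cosh.comp (hr.div_const ε)).pow 4) ?_
  intro x
  exact pow_ne_zero _ (Real.cosh_pos _).ne'

variable [CompleteSpace E]

theorem continuous_grad {f : E → ℝ} (hf : ContDiff ℝ 1 f) : Continuous (∇ f) := by
  unfold gradient
  exact (LinearIsometryEquiv.continuous _).comp (hf.continuous_fderiv one_ne_zero)

theorem grad_eq (f : E → ℝ) (x v : E) : fderiv ℝ f x v = ⟪∇ f x, v⟫_ℝ := by
  rw [inner_gradient_left]

theorem norm_grad (f : E → ℝ) (x : E) : ‖∇ f x‖ = ‖fderiv ℝ f x‖ := by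
  unfold gradient; exact LinearIsometryEquiv.norm_map _ _

theorem fderiv_grad_self (f : E → ℝ) (x : E) : fderiv ℝ f x (∇ f x) = ‖∇ f x‖ ^ 2 := by
  rw [grad_eq, real_inner_self_eq_norm_sq]

theorem abs_fderiv_le (f : E → ℝ) (x v : E) : |fderiv ℝ f x v| ≤ ‖∇ f x‖ * ‖v‖ := by
  rw [grad_eq]; exact abs_real_inner_le_norm _ _

theorem sq_fderiv_le {a : E} (ha : ‖a‖ = 1) (f : E → ℝ) (x : E) :
    (fderiv ℝ f x a) ^ 2 ≤ ‖∇ f x‖ ^ 2 := by
  have h := abs_fderiv_le f x a
  rw [ha, mul_one] at h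
  rw [← sq_abs (fderiv ℝ f x a)]
  exact pow_le_pow_left₀ (abs_nonneg _) h 2

theorem continuous_q {ε : ℝ} {h r : E → ℝ} (hh : Continuous h) (hr : ContDiff ℝ 1 r) :
    Continuous (q ε h r) := by
  unfold q
  exact ((continuous_S4 hr.continuous).div_const _).mul
    (hh.add ((continuous_grad hr).norm.pow 2))

theorem continuous_fderiv_apply' {f : E → ℝ} (hf : ContDiff ℝ 1 f) (v : E) :
    Continuous fun x => fderiv ℝ f x v :=
  (hf.continuous_fderiv one_ne_zero).clm_apply continuous_const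

theorem continuous_kap {a : E} {ε : ℝ} {h r : E → ℝ} (hh : Continuous h) (hr : ContDiff ℝ 1 r) :
    Continuous (kap a ε h r) := by
  unfold kap
  have h1 := (continuous_grad hr).norm.pow 2
  exact ((continuous_S4 hr.continuous).div_const _).mul
    (((hh.sub h1).div_const 2).add (h1.sub ((continuous_fderiv_apply' hr a).pow 2)))

end

section
variable {E : Type*} [NormedAddCommGroup E] [InnerProductSpace ℝ E] [FiniteDimensional ℝ E]
  [MeasurableSpace E] [BorelSpace E] {a : E} {ε η : ℝ} {h r : E → ℝ}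

namespace Hyp

theorem contq (H : Hyp a ε η h r) : Continuous (q ε h r) := continuous_q H.ch.continuous H.cr

theorem contkap (H : Hyp a ε η h r) : Continuous (kap a ε h r) :=
  continuous_kap H.ch.continuous H.cr

theorem h_ge (H : Hyp a ε η h r) {x : E} (hx : x ∈ ball (0 : E) 2) : 99 / 100 ≤ h x := by
  have := abs_le.1 (H.near x hx); linarith [H.hη]

theorem h_le (H : Hyp a ε η h r) {x : E} (hx : x ∈ ball (0 : E) 2) : h x ≤ 101 / 100 := by
  have := abs_le.1 (H.near x hx); linarith [H.hη]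

theorem q_nonneg (H : Hyp a ε η h r) {x : E} (hx : x ∈ ball (0 : E) 2) : 0 ≤ q ε h r x := by
  unfold q
  have := H.h_ge hx
  have h1 := S4_nonneg ε r x
  have h2 := H.hε
  positivity

theorem S_le_q (H : Hyp a ε η h r) {x : E} (hx : x ∈ ball (0 : E) 2) :
    S4 ε r x / (2 * ε) ≤ 2 * q ε h r x := by
  unfold q
  have := H.h_ge hx
  have h1 := S4_nonneg ε r x
  have h2 := H.hε
  have h3 : 0 ≤ S4 ε r x / (2 * ε) := by positivity
  have h4 : 0 ≤ ‖∇ r x‖ ^ 2 := by positivity
  nlinarith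

theorem q_le (H : Hyp a ε η h r) {x : E} (hx : x ∈ ball (0 : E) 2) :
    q ε h r x ≤ S4 ε r x / ε * h x := by
  unfold q
  have := H.modica x hx
  have h1 := S4_nonneg ε r x
  have h2 := H.hε
  have h3 : 0 ≤ S4 ε r x / (2 * ε) := by positivity
  have h4 : S4 ε r x / ε = 2 * (S4 ε r x / (2 * ε)) := by field_simp
  rw [h4]
  nlinarith

theorem q_le' (H : Hyp a ε η h r) {x : E} (hx : x ∈ ball (0 : E) 2) :
    q ε h r x ≤ 2 * (S4 ε r x / ε) := by
  have h0 := H.q_le hx
  have h1 := H.h_le hx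
  have h2 : 0 ≤ S4 ε r x / ε := div_nonneg (S4_nonneg ε r x) H.hε.le
  nlinarith

theorem grad_sq_le (H : Hyp a ε η h r) {x : E} (hx : x ∈ ball (0 : E) 2) :
    ‖∇ r x‖ ^ 2 ≤ 101 / 100 := (H.modica x hx).trans (H.h_le hx)

theorem grad_le (H : Hyp a ε η h r) {x : E} (hx : x ∈ ball (0 : E) 2) : ‖∇ r x‖ ≤ 2 := by
  have := H.grad_sq_le hx
  nlinarith [norm_nonneg (∇ r x)]

/-- `(1/ε) sech⁴ |∇r|² ≤ q` -/
theorem Sg_le_q (H : Hyp a ε η h r) {x : E} (hx : x ∈ ball (0 : E) 2) :
    S4 ε r x / ε * ‖∇ r x‖ ^ 2 ≤ q ε h r x := by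
  unfold q
  have := H.modica x hx
  have h1 := S4_nonneg ε r x
  have h2 := H.hε
  have h3 : 0 ≤ S4 ε r x / (2 * ε) := by positivity
  have h4 : S4 ε r x / ε = 2 * (S4 ε r x / (2 * ε)) := by field_simp
  rw [h4]
  nlinarith

theorem kap_nonneg (H : Hyp a ε η h r) {x : E} (hx : x ∈ ball (0 : E) 2) :
    0 ≤ kap a ε h r x := by
  unfold kap
  have h1 := H.modica x hx
  have h2 := sq_fderiv_le H.ha r x
  have h3 : 0 ≤ S4 ε r x / ε := div_nonneg (S4_nonneg ε r x) H.hε.le
  apply mul_nonneg h3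
  linarith

/-- `κ = q - (1/ε) sech⁴ (∂_a r)²` -/
theorem kap_eq (H : Hyp a ε η h r) (x : E) :
    kap a ε h r x = q ε h r x - S4 ε r x / ε * (fderiv ℝ r x a) ^ 2 := by
  unfold kap q
  have := H.hε
  field_simp; ring

/-- `(1/ε) sech⁴ (|∇r|² - (∂_a r)²) ≤ κ` -/
theorem tilt_le_kap (H : Hyp a ε η h r) {x : E} (hx : x ∈ ball (0 : E) 2) :
    S4 ε r x / ε * (‖∇ r x‖ ^ 2 - (fderiv ℝ r x a) ^ 2) ≤ kap a ε h r x := by
  unfold kap
  have h1 := H.modica x hx
  have h3 : 0 ≤ S4 ε r x / ε := div_nonneg (S4_nonneg ε r x) H.hε.le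
  apply mul_le_mul_of_nonneg_left _ h3
  linarith

theorem kap_le_q (H : Hyp a ε η h r) (x : E) : kap a ε h r x ≤ q ε h r x := by
  rw [H.kap_eq]
  have h3 : 0 ≤ S4 ε r x / ε := div_nonneg (S4_nonneg ε r x) H.hε.le
  have : 0 ≤ S4 ε r x / ε * (fderiv ℝ r x a) ^ 2 := by positivity
  linarith

theorem η1 (H : Hyp a ε η h r) : η ≤ 1 := by linarith [H.hη]

theorem ε_le_η (H : Hyp a ε η h r) : ε ≤ η := by
  have := H.hεη
  have h0 := H.hη0
  have h1 := H.hη
  have : η ^ 3 ≤ η := by nlinarith [sq_nonneg η]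
  linarith

theorem ε_small (H : Hyp a ε η h r) : ε ≤ 1 / 100 := H.ε_le_η.trans H.hη

end Hyp

/-! ### integrability -/

theorem integrableOn_ball {f : E → ℝ} (hf : Continuous f) (p : E) (R : ℝ) :
    IntegrableOn f (ball p R) :=
  (hf.continuousOn.integrableOn_compact (isCompact_closedBall p R)).mono_set ball_subset_closedBall

theorem integrableOn_closedBall {f : E → ℝ} (hf : Continuous f) (p : E) (R : ℝ) :
    IntegrableOn f (closedBall p R) :=
  hf.continuousOn.integrableOn_compact (isCompact_closedBall p R)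

theorem integrableOn_of_subset {f : E → ℝ} (hf : Continuous f) {p : E} {R : ℝ} {A : Set E}
    (hA : A ⊆ ball p R) : IntegrableOn f A := (integrableOn_ball hf p R).mono_set hA

/-- monotonicity of integrals over subsets, integrand nonneg on the big ball -/
theorem setIntegral_mono_of_ball {f : E → ℝ} (hf : Continuous f) {p : E} {R : ℝ} {A B : Set E}
    (hAB : A ⊆ B) (hB : B ⊆ ball p R) (hBm : MeasurableSet B) (h0 : ∀ x ∈ B, 0 ≤ f x) :
    ∫ x in A, f x ≤ ∫ x in B, f x := by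
  apply setIntegral_mono_set (integrableOn_of_subset hf hB)
  · rw [EventuallyLE, ae_restrict_iff' hBm]
    exact Eventually.of_forall h0
  · exact LE.le.eventuallyLE hAB

end

end Crest.Agent.R246.MS852
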