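import Crest.Agent.R246.Flatx1_992
import Crest.Agent.R246.MSBasic_852

/-!
Row 246, block GL3 (helper992), part 2: the average over an equator of the integrals against round bumps.
-/

set_option autoImplicit false
set_option linter.unusedSectionVars false

open Filter Topology Metric Set MeasureTheory
open Crest.Agent.R246.MS852 (psi cpsi psi_nonneg psi_of_one_le psi_le_one continuous_psi)

noncomputable section

namespace Crest.Agent.R246.Flatx992

section Gen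

variable {X : Type*} [NormedAddCommGroup X] [InnerProductSpace ℝ X] [FiniteDimensional ℝ X]
  [MeasurableSpace X] [BorelSpace X]
variable {W : Type*} [NormedAddCommGroup W] [InnerProductSpace ℝ W] [FiniteDimensional ℝ W]
  [MeasurableSpace W] [BorelSpace W]

/-- the scaled bump, with a cut-off in the parameter -/
def bp (ρ : ℝ) (ι : W →ₗᵢ[ℝ] X) (x : X) (p : W) : ℝ :=
  psi (‖x - ι p‖ ^ 2 / (ρ * ‖p‖) ^ 2) * cutH 1 2 ‖p‖

theorem bp_cont {ρ : ℝ} (hρ : 0 < ρ) (ι : W →ₗᵢ[ℝ] X) :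
    Continuous (Function.uncurry (bp ρ ι)) := by
  rw [continuous_iff_continuousAt]
  rintro ⟨x, p⟩
  by_cases hp : p = 0
  · have h0 : (Function.uncurry (bp ρ ι)) =ᶠ[𝓝 (x, p)] fun _ => 0 := by
      have h1 : ∀ᶠ z : X × W in 𝓝 (x, p), ‖z.2‖ < 1 / 2 := by
        refine (continuous_snd.norm).continuousAt.eventually_lt continuousAt_const ?_
        simp only [hp, norm_zero]; norm_num
      filter_upwards [h1] with z hz
      show psi _ * cutH 1 2 ‖z.2‖ = 0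
      rw [cutH_out one_pos (Or.inl hz), mul_zero]
    exact (continuousAt_congr h0).2 continuousAt_const
  · refine ContinuousAt.mul ?_ ?_
    · refine continuous_psi.continuousAt.comp ?_
      refine ContinuousAt.div ?_ ?_ ?_
      · exact ((continuous_fst.sub (ι.continuous.comp continuous_snd)).norm.pow 2).continuousAt
      · exact ((continuous_const.mul continuous_snd.norm).pow 2).continuousAt
      · have : 0 < ρ * ‖p‖ := mul_pos hρ (norm_pos_iff.2 hp)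
        positivity
    · exact ((cutH_cont 1 2).comp continuous_snd.norm).continuousAt

theorem bp_nonneg (ρ : ℝ) (ι : W →ₗᵢ[ℝ] X) (x : X) (p : W) : 0 ≤ bp ρ ι x p :=
  mul_nonneg (psi_nonneg _) (cutH_nonneg _ _ _)

theorem psi_scaled_zero {ρ : ℝ} (hρ : 0 < ρ) {ι : W →ₗᵢ[ℝ] X} {x : X} {p : W} (hp : p ≠ 0)
    (h : ‖x‖ < (1 - ρ) * ‖p‖ ∨ (1 + ρ) * ‖p‖ < ‖x‖) :
    psi (‖x - ι p‖ ^ 2 / (ρ * ‖p‖) ^ 2) = 0 := by
  apply psi_of_one_le
  have hp' : 0 < ‖p‖ := norm_pos_iff.2 hp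
  have h1 : ρ * ‖p‖ ≤ ‖x - ι p‖ := by
    have hι : ‖ι p‖ = ‖p‖ := ι.norm_map p
    rcases h with h | h
    · have := norm_sub_norm_le (ι p) x
      rw [norm_sub_rev] at this
      rw [hι] at this
      nlinarith
    · have := norm_sub_norm_le x (ι p)
      rw [hι] at this
      nlinarith
  have h2 : 0 < ρ * ‖p‖ := mul_pos hρ hp'
  rw [one_le_div (by positivity)]
  exact pow_le_pow_left₀ h2.le h1 2

theorem bp_zero_p {ρ : ℝ} {ι : W →ₗᵢ[ℝ] X} {x : X} {p : W} (h : ‖p‖ < 1 / 2 ∨ 3 < ‖p‖) :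
    bp ρ ι x p = 0 := by
  unfold bp
  rw [cutH_out one_pos (by norm_num; exact h), mul_zero]

theorem bp_zero_x {ρ : ℝ} (hρ : 0 < ρ) (hρ1 : ρ < 1) {ι : W →ₗᵢ[ℝ] X} {x : X} {p : W}
    (h : ‖x‖ < (1 - ρ) / 2 ∨ 3 * (1 + ρ) < ‖x‖) : bp ρ ι x p = 0 := by
  by_cases hp : ‖p‖ < 1 / 2 ∨ 3 < ‖p‖
  · exact bp_zero_p hp
  · simp only [not_or, not_lt] at hp
    have hp0 : p ≠ 0 := by
      intro h0; rw [h0, norm_zero] at hp; linarith [hp.1]
    unfold bp
    rw [psi_scaled_zero hρ hp0, zero_mul]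
    rcases h with h | h
    · left; nlinarith [hp.1, hp.2]
    · right; nlinarith [hp.1, hp.2]

/-- joint continuity with a weight -/
theorem kbp_cont {ρ : ℝ} (hρ : 0 < ρ) (hρ1 : ρ < 1) (ι : W →ₗᵢ[ℝ] X) {κ : X → ℝ}
    (hκ : ContinuousOn κ {0}ᶜ) : Continuous (Function.uncurry fun x p => κ x * bp ρ ι x p) := by
  rw [continuous_iff_continuousAt]
  rintro ⟨x, p⟩
  by_cases hx : x = 0
  · have h0 : (Function.uncurry fun x p => κ x * bp ρ ι x p) =ᶠ[𝓝 (x, p)] fun _ => 0 := by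
      have h1 : ∀ᶠ z : X × W in 𝓝 (x, p), ‖z.1‖ < (1 - ρ) / 2 := by
        refine (continuous_fst.norm).continuousAt.eventually_lt continuousAt_const ?_
        simp only [hx, norm_zero]; linarith
      filter_upwards [h1] with z hz
      show κ z.1 * bp ρ ι z.1 z.2 = 0
      rw [bp_zero_x hρ hρ1 (Or.inl hz), mul_zero]
    exact (continuousAt_congr h0).2 continuousAt_const
  · refine ContinuousAt.mul ?_ (bp_cont hρ ι).continuousAt
    exact (hκ.continuousAt (isOpen_compl_singleton.mem_nhds hx)).comp continuousAt_fst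

theorem kbp_cs {ρ : ℝ} (hρ : 0 < ρ) (hρ1 : ρ < 1) (ι : W →ₗᵢ[ℝ] X) (κ : X → ℝ) :
    HasCompactSupport (Function.uncurry fun x p => κ x * bp ρ ι x p) := by
  apply HasCompactSupport.of_support_subset_isCompact
    ((isCompact_closedBall (0 : X) (3 * (1 + ρ))).prod (isCompact_closedBall (0 : W) 3))
  rintro ⟨x, p⟩ h
  have h1 : κ x * bp ρ ι x p ≠ 0 := h
  have h2 : bp ρ ι x p ≠ 0 := right_ne_zero_of_mul h1
  constructor
  · simp only [mem_closedBall, dist_zero_right]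
    by_contra h3
    exact h2 (bp_zero_x hρ hρ1 (Or.inr (not_le.1 h3)))
  · simp only [mem_closedBall, dist_zero_right]
    by_contra h3
    exact h2 (bp_zero_p (Or.inr (not_le.1 h3)))

/-- FUBINI -/
theorem fub {ρ : ℝ} (hρ : 0 < ρ) (hρ1 : ρ < 1) (ι : W →ₗᵢ[ℝ] X) {κ : X → ℝ}
    (hκ : ContinuousOn κ {0}ᶜ) :
    ∫ x, κ x * ∫ p, bp ρ ι x p = ∫ p, ∫ x, κ x * bp ρ ι x p := by
  rw [← integral_integral_swap_of_hasCompactSupport (kbp_cont hρ hρ1 ι hκ) (kbp_cs hρ hρ1 ι κ)]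
  simp only [integral_const_mul]

/-- continuity of the averaged bump -/
theorem Z_cont {ρ : ℝ} (hρ : 0 < ρ) (ι : W →ₗᵢ[ℝ] X) : Continuous fun x => ∫ p, bp ρ ι x p := by
  have h1 : ∀ x, ∫ p, bp ρ ι x p = ∫ p in closedBall (0 : W) 3, bp ρ ι x p := by
    intro x
    symm
    apply setIntegral_eq_integral_of_forall_compl_eq_zero
    intro p hp
    apply bp_zero_p
    right
    simpa using hp
  simp only [h1]
  exact continuous_parametric_integral_of_continuous (bp_cont hρ ι) (isCompact_closedBall _ _)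

/-- continuity in the parameter -/
theorem P_cont {ρ : ℝ} (hρ : 0 < ρ) (hρ1 : ρ < 1) (ι : W →ₗᵢ[ℝ] X) {κ : X → ℝ}
    (hκ : ContinuousOn κ {0}ᶜ) : Continuous fun p => ∫ x, κ x * bp ρ ι x p := by
  have h1 : ∀ p, ∫ x, κ x * bp ρ ι x p =
      ∫ x in closedBall (0 : X) (3 * (1 + ρ)), κ x * bp ρ ι x p := by
    intro p
    symm
    apply setIntegral_eq_integral_of_forall_compl_eq_zero
    intro x hx
    rw [bp_zero_x hρ hρ1, mul_zero]
    right
    simpa using hx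
  simp only [h1]
  have h2 : Continuous (Function.uncurry fun (p : W) (x : X) => κ x * bp ρ ι x p) :=
    (kbp_cont hρ hρ1 ι hκ).comp continuous_swap
  exact continuous_parametric_integral_of_continuous h2 (isCompact_closedBall _ _)

/-- SCALING -/
theorem scale {ρ : ℝ} (hρ : 0 < ρ) (hρ1 : ρ < 1) (ι : W →ₗᵢ[ℝ] X) {κ : X → ℝ} {s e : ℕ}
    (hκ : ∀ t : ℝ, 0 < t → ∀ x, x ≠ 0 → κ (t • x) = (t ^ s)⁻¹ * κ x)
    (hdim : Module.finrank ℝ X = e + s) {p : W} (hp : p ≠ 0) :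
    ∫ x, κ x * psi (‖x - ι p‖ ^ 2 / (ρ * ‖p‖) ^ 2) =
      ‖p‖ ^ e * ∫ x, κ x * psi (‖x - ι (‖p‖⁻¹ • p)‖ ^ 2 / ρ ^ 2) := by
  have hp' : 0 < ‖p‖ := norm_pos_iff.2 hp
  have h1 := Measure.integral_comp_smul_of_nonneg (volume : Measure X)
    (fun x => κ x * psi (‖x - ι p‖ ^ 2 / (ρ * ‖p‖) ^ 2)) ‖p‖ (hR := hp'.le)
  rw [hdim] at h1
  have h2 : ∀ x : X, κ (‖p‖ • x) * psi (‖‖p‖ • x - ι p‖ ^ 2 / (ρ * ‖p‖) ^ 2) =
      (‖p‖ ^ s)⁻¹ * (κ x * psi (‖x - ι (‖p‖⁻¹ • p)‖ ^ 2 / ρ ^ 2)) := by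
    intro x
    have e1 : ‖‖p‖ • x - ι p‖ ^ 2 / (ρ * ‖p‖) ^ 2 = ‖x - ι (‖p‖⁻¹ • p)‖ ^ 2 / ρ ^ 2 := by
      have : ‖p‖ • x - ι p = ‖p‖ • (x - ι (‖p‖⁻¹ • p)) := by
        rw [smul_sub, ι.map_smul, smul_smul, mul_inv_cancel₀ hp'.ne', one_smul]
      rw [this, norm_smul, norm_norm]
      field_simp
    rw [e1]
    by_cases hx : x = 0
    · have e2 : psi (‖x - ι (‖p‖⁻¹ • p)‖ ^ 2 / ρ ^ 2) = 0 := by
        apply psi_of_one_le
        have e3 : ‖x - ι (‖p‖⁻¹ • p)‖ = 1 := by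
          rw [hx, zero_sub, norm_neg, ι.norm_map, norm_smul, norm_inv, norm_norm,
            inv_mul_cancel₀ hp'.ne']
        rw [e3, one_pow, one_le_div (by positivity)]
        nlinarith
      rw [e2, mul_zero, mul_zero, mul_zero]
    · rw [hκ _ hp' _ hx]; ring
  simp only [h2] at h1
  rw [integral_const_mul, smul_eq_mul] at h1
  have h3 : ∫ x, κ x * psi (‖x - ι p‖ ^ 2 / (ρ * ‖p‖) ^ 2) =
      ‖p‖ ^ (e + s) * ((‖p‖ ^ s)⁻¹ * ∫ x, κ x * psi (‖x - ι (‖p‖⁻¹ • p)‖ ^ 2 / ρ ^ 2)) := by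
    rw [h1]; field_simp
  rw [h3, pow_add]
  field_simp

end Gen

section W

variable {W : Type*} [NormedAddCommGroup W] [InnerProductSpace ℝ W] [FiniteDimensional ℝ W]
  [MeasurableSpace W] [BorelSpace W]

/-- an isometry taking `v` to `w` -/
theorem exists_iso {v w : W} (h : ‖v‖ = ‖w‖) : ∃ L : W ≃ₗᵢ[ℝ] W, L v = w :=
  ⟨(Submodule.span ℝ {v - w})ᗮ.reflection, Submodule.reflection_sub h⟩

theorem rot_inv {v w : W} (h : ‖v‖ = ‖w‖) (G : ℝ → ℝ → ℝ) :
    ∫ x : W, G ‖x‖ ‖x - v‖ = ∫ x : W, G ‖x‖ ‖x - w‖ := by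
  obtain ⟨L, hL⟩ := exists_iso h
  have h1 := (LinearIsometryEquiv.measurePreserving L).integral_comp
    L.toHomeomorph.measurableEmbedding (fun x => G ‖x‖ ‖x - w‖)
  rw [← h1]
  congr 1
  funext x
  have e1 : ‖L x‖ = ‖x‖ := L.norm_map x
  have e2 : ‖L x - w‖ = ‖x - v‖ := by rw [← hL, ← map_sub, L.norm_map]
  rw [e1, e2]

/-- the averaged bump on `W` is radial -/
theorem zW_radial (ρ : ℝ) {v w : W} (h : ‖v‖ = ‖w‖) :
    ∫ p, bp ρ (LinearIsometry.id (R := ℝ) (E := W)) v p =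
      ∫ p, bp ρ (LinearIsometry.id (R := ℝ) (E := W)) w p := by
  have := rot_inv h (fun s t => psi (t ^ 2 / (ρ * s) ^ 2) * cutH 1 2 s)
  unfold bp
  simp only [LinearIsometry.id_apply]
  simp only [norm_sub_rev v, norm_sub_rev w]
  exact this

end W

section Avg

variable {n d : ℕ}

local notation "EE" => EuclideanSpace ℝ (Fin n)
local notation "WW" => EuclideanSpace ℝ (Fin d)

/-- integral against a round bump -/
def FF (ρ : ℝ) (q : EuclideanSpace ℝ (Fin n) → ℝ) (y : EuclideanSpace ℝ (Fin n)) : ℝ :=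
  ∫ x, q x * psi (‖x - y‖ ^ 2 / ρ ^ 2)

/-- area of the unit sphere of `ℝᵈ` -/
def sigW (d : ℕ) : ℝ := d * (volume : Measure (EuclideanSpace ℝ (Fin d))).real (ball 0 1)

/-- the flat value -/
def cc (ρ : ℝ) (w : EuclideanSpace ℝ (Fin d)) : ℝ := ∫ x, ‖x‖⁻¹ * psi (‖x - w‖ ^ 2 / ρ ^ 2)

theorem sigW_pos (hd : 2 ≤ d) : 0 < sigW d := by
  unfold sigW
  have h1 : (0 : ℝ) < d := by exact_mod_cast (by omega : 0 < d)
  have h2 : 0 < (volume : Measure (EuclideanSpace ℝ (Fin d))).real (ball 0 1) := by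
    rw [measureReal_def, ENNReal.toReal_pos_iff]
    exact ⟨measure_ball_pos _ _ one_pos, measure_ball_lt_top⟩
  positivity

/-- normalisation constant of the average -/
def II (d : ℕ) : ℝ := ∫ p : EuclideanSpace ℝ (Fin d), cutH 1 2 ‖p‖ * ‖p‖ ^ (d - 1)

theorem II_integrable : Integrable fun p : WW => cutH 1 2 ‖p‖ * ‖p‖ ^ (d - 1) := by
  apply Continuous.integrable_of_hasCompactSupport
  · exact ((cutH_cont 1 2).comp continuous_norm).mul (continuous_norm.pow _)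
  · apply HasCompactSupport.mul_right
    exact (Ann.cs (a := 1 / 2) (b := 2 + 1) (G := fun p : WW => cutH 1 2 ‖p‖)
      fun p hp => cutH_out one_pos hp)

theorem II_pos (hd : 2 ≤ d) : 0 < II d := by
  have : Nonempty (Fin d) := ⟨⟨0, by omega⟩⟩
  unfold II
  rw [integral_pos_iff_support_of_nonneg (fun p => mul_nonneg (cutH_nonneg _ _ _)
    (pow_nonneg (norm_nonneg _) _)) II_integrable]
  have h1 : ball (EuclideanSpace.single (⟨0, by omega⟩ : Fin d) (3 / 2 : ℝ)) (1 / 2) ⊆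
      Function.support fun p : WW => cutH 1 2 ‖p‖ * ‖p‖ ^ (d - 1) := by
    intro p hp
    have h0 : ‖(EuclideanSpace.single (⟨0, by omega⟩ : Fin d) (3 / 2 : ℝ))‖ = 3 / 2 := by
      rw [PiLp.norm_single]; norm_num
    rw [mem_ball, dist_eq_norm] at hp
    have h2 := norm_sub_norm_le (EuclideanSpace.single (⟨0, by omega⟩ : Fin d) (3 / 2 : ℝ)) p
    have h3 := norm_sub_norm_le p (EuclideanSpace.single (⟨0, by omega⟩ : Fin d) (3 / 2 : ℝ))
    rw [h0, norm_sub_rev] at h2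
    rw [h0] at h3
    have h4 : 1 < ‖p‖ := by linarith
    have h5 : ‖p‖ < 2 := by linarith
    show cutH 1 2 ‖p‖ * ‖p‖ ^ (d - 1) ≠ 0
    rw [cutH_one one_pos h4.le h5.le, one_mul]
    positivity
  exact lt_of_lt_of_le (measure_ball_pos _ _ (by norm_num)) (measure_mono h1)

/-- AVERAGING OVER THE EQUATOR -/
theorem avg (hd : 2 ≤ d) (hn : n = d + 1) {ρ : ℝ} (hρ : 0 < ρ) (hρ1 : ρ < 1) (J : WW →ₗᵢ[ℝ] EE)
    {a : EE} (hJ1 : ∀ w, inner ℝ a (J w) = 0) (hJ2 : ∀ x, inner ℝ a x = 0 → ∃ w, J w = x)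
    {q : ℕ → EE → ℝ} (hq : ∀ k, Dens (q k)) {E : ℝ}
    (hE : Tendsto (fun k => SE (q k)) atTop (𝓝 E))
    (hsm : ∀ δ : ℝ, 0 < δ → ∀ η : ℝ, 0 < η → ∀ᶠ k in atTop, ∀ z : EE, ‖z‖ = 1 →
      δ ≤ |inner ℝ a z| → q k z ≤ η)
    {τ : ℕ → ℝ} (hτ : Tendsto τ atTop (𝓝 0))
    (hnc : ∀ k, ∀ v w : WW, ‖v‖ = 1 → ‖w‖ = 1 → |FF ρ (q k) (J v) - FF ρ (q k) (J w)| ≤ τ k)
    {w0 : WW} (hw0 : ‖w0‖ = 1) :
    Tendsto (fun k => FF ρ (q k) (J w0)) atTop (𝓝 (E * cc ρ w0 / sigW d)) := by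
  subst hn
  have : Nonempty (Fin d) := ⟨⟨0, by omega⟩⟩
  have : Nontrivial (EuclideanSpace ℝ (Fin d)) := inferInstance
  set idW : WW →ₗᵢ[ℝ] WW := LinearIsometry.id with hidW
  have hb : (0 : ℝ) < (1 - ρ) / 2 := by linarith
  have hZc := Z_cont (X := EuclideanSpace ℝ (Fin (d + 1))) hρ J
  set g : ℝ → ℝ := fun t => ∫ p, bp ρ idW (max t 0 • w0) p with hg
  have hgc : Continuous g :=
    (Z_cont hρ idW).comp ((continuous_id.max continuous_const).smul continuous_const)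
  have hZA : Ann ((1 - ρ) / 2) (3 * (1 + ρ))
      (fun x : EuclideanSpace ℝ (Fin (d + 1)) => ∫ p, bp ρ J x p) := by
    intro x hx
    show ∫ p, bp ρ J x p = 0
    rw [integral_congr_ae (g := fun _ => (0 : ℝ))
      (Eventually.of_forall fun p => bp_zero_x hρ hρ1 hx), integral_zero]
  have hgA : ∀ t, t < (1 - ρ) / 2 ∨ 3 * (1 + ρ) < t → g t = 0 := by
    intro t ht
    simp only [hg]
    rw [integral_congr_ae (g := fun _ => (0 : ℝ))
      (Eventually.of_forall fun p => bp_zero_x hρ hρ1 ?_), integral_zero]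
    rw [norm_smul, hw0, mul_one, Real.norm_of_nonneg (le_max_right _ _)]
    rcases ht with ht | ht
    · left; exact max_lt ht hb
    · right; exact lt_of_lt_of_le ht (le_max_left _ _)
  have hgn : ∀ w : WW, ∫ p, bp ρ idW w p = g ‖w‖ := by
    intro w
    apply zW_radial
    rw [norm_smul, hw0, mul_one, Real.norm_of_nonneg (le_max_right _ _),
      max_eq_left (norm_nonneg _)]
  have hGg : ∀ x : EuclideanSpace ℝ (Fin (d + 1)), inner ℝ a x = 0 →
      ∫ p, bp ρ J x p = g ‖x‖ := by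
    intro x hx
    obtain ⟨w, rfl⟩ := hJ2 x hx
    rw [J.norm_map, ← hgn w]
    congr 1
    funext p
    unfold bp
    rw [← map_sub, J.norm_map]
    rfl
  have h1 := conc (by omega) hq hE hsm hZc hgc hb hZA hgA hGg
  -- Fubini and scaling
  have hscale : ∀ k, ∀ p : WW, ∫ x, q k x * bp ρ J x p =
      cutH 1 2 ‖p‖ * ‖p‖ ^ (d - 1) * FF ρ (q k) (J (‖p‖⁻¹ • p)) := by
    intro k p
    by_cases hp : p = 0
    · have hc : cutH 1 2 ‖p‖ = 0 := cutH_out one_pos (Or.inl (by rw [hp, norm_zero]; norm_num))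
      unfold bp
      simp only [hc, mul_zero, zero_mul, integral_zero]
    · have h := scale hρ hρ1 J (κ := q k) (s := 2) (e := d - 1) (hq k).hom
        (by rw [finrank_euclideanSpace_fin]; omega) hp
      unfold FF
      rw [mul_assoc, ← h, ← integral_const_mul]
      congr 1
      funext x
      unfold bp
      ring
  have hfub : ∀ k, ∫ x, q k x * ∫ p, bp ρ J x p =
      ∫ p, cutH 1 2 ‖p‖ * ‖p‖ ^ (d - 1) * FF ρ (q k) (J (‖p‖⁻¹ • p)) := by
    intro k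
    rw [fub hρ hρ1 J (hq k).cont]
    simp only [hscale]
  have hPint : ∀ k, Integrable fun p : WW =>
      cutH 1 2 ‖p‖ * ‖p‖ ^ (d - 1) * FF ρ (q k) (J (‖p‖⁻¹ • p)) := by
    intro k
    have hc := P_cont hρ hρ1 J (hq k).cont
    simp only [hscale] at hc
    apply hc.integrable_of_hasCompactSupport
    apply HasCompactSupport.mul_right
    apply HasCompactSupport.mul_right
    exact (Ann.cs (a := 1 / 2) (b := 2 + 1) (G := fun p : WW => cutH 1 2 ‖p‖)
      fun p hp => cutH_out one_pos hp)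
  have hIp := II_pos hd
  have h2 : ∀ k, |(∫ x, q k x * ∫ p, bp ρ J x p) - II d * FF ρ (q k) (J w0)| ≤ II d * τ k := by
    intro k
    rw [hfub k]
    have e1 : II d * FF ρ (q k) (J w0) =
        ∫ p : WW, cutH 1 2 ‖p‖ * ‖p‖ ^ (d - 1) * FF ρ (q k) (J w0) := by
      rw [integral_mul_const]; rfl
    have e2 : II d * τ k = ∫ p : WW, cutH 1 2 ‖p‖ * ‖p‖ ^ (d - 1) * τ k := by
      rw [integral_mul_const]; rfl
    rw [e1, e2, ← integral_sub (hPint k) (II_integrable.mul_const _), ← Real.norm_eq_abs]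
    apply norm_integral_le_of_norm_le (II_integrable.mul_const _)
    refine Eventually.of_forall fun p => ?_
    rw [← mul_sub, norm_mul, Real.norm_of_nonneg (mul_nonneg (cutH_nonneg _ _ _)
      (pow_nonneg (norm_nonneg _) _)), Real.norm_eq_abs]
    by_cases hp : p = 0
    · have hc : cutH 1 2 ‖p‖ = 0 := cutH_out one_pos (Or.inl (by rw [hp, norm_zero]; norm_num))
      rw [hc, zero_mul, zero_mul, zero_mul]
    · apply mul_le_mul_of_nonneg_left _ (mul_nonneg (cutH_nonneg _ _ _)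
        (pow_nonneg (norm_nonneg _) _))
      apply hnc k _ _ _ hw0
      rw [norm_smul, norm_inv, norm_norm, inv_mul_cancel₀ (norm_ne_zero_iff.2 hp)]
  -- the flat side
  have h4 : ∫ w : WW, ‖w‖⁻¹ * g ‖w‖ = sigW d * ∫ t in Ioi (0 : ℝ), t ^ (d + 1 - 3) * g t := by
    have h := integral_fun_norm_addHaar (volume : Measure WW) (fun y => y⁻¹ * g y)
    rw [h, finrank_euclideanSpace_fin]
    unfold sigW
    rw [nsmul_eq_mul, smul_eq_mul, ← mul_assoc]
    congr 1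
    refine setIntegral_congr_fun measurableSet_Ioi fun t ht => ?_
    have ht0 : (0 : ℝ) < t := ht
    have e1 : t ^ (d - 1) = t ^ (d + 1 - 3) * t := by
      rw [← pow_succ]; congr 1; omega
    show t ^ (d - 1) • (t⁻¹ * g t) = _
    rw [smul_eq_mul, e1]
    field_simp
  have hκc : ContinuousOn (fun w : WW => ‖w‖⁻¹) {0}ᶜ := fun w hw =>
    (continuous_norm.continuousAt.inv₀ (norm_ne_zero_iff.2 hw)).continuousWithinAt
  have hcc : ∀ p : WW, ∫ x, ‖x‖⁻¹ * bp ρ idW x p =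
      cutH 1 2 ‖p‖ * ‖p‖ ^ (d - 1) * cc ρ w0 := by
    intro p
    by_cases hp : p = 0
    · have hc : cutH 1 2 ‖p‖ = 0 := cutH_out one_pos (Or.inl (by rw [hp, norm_zero]; norm_num))
      unfold bp
      simp only [hc, mul_zero, zero_mul, integral_zero]
    · have h := scale hρ hρ1 idW (κ := fun w : WW => ‖w‖⁻¹) (s := 1) (e := d - 1)
        (fun t ht x _ => by
          rw [norm_smul, Real.norm_of_nonneg ht.le, mul_inv, pow_one])
        (by rw [finrank_euclideanSpace_fin]; omega) hp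
      have h' : ∫ x : WW, ‖x‖⁻¹ * psi (‖x - idW (‖p‖⁻¹ • p)‖ ^ 2 / ρ ^ 2) = cc ρ w0 := by
        unfold cc
        refine rot_inv (v := ‖p‖⁻¹ • p) (w := w0) ?_ (fun s t => s⁻¹ * psi (t ^ 2 / ρ ^ 2))
        rw [norm_smul, norm_inv, norm_norm, inv_mul_cancel₀ (norm_ne_zero_iff.2 hp), hw0]
      rw [h'] at h
      rw [mul_assoc, ← h, ← integral_const_mul]
      congr 1
      funext x
      unfold bp
      ring
  have h5 : ∫ w : WW, ‖w‖⁻¹ * g ‖w‖ = II d * cc ρ w0 := by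
    have e1 : ∀ w : WW, ‖w‖⁻¹ * g ‖w‖ = ‖w‖⁻¹ * ∫ p, bp ρ idW w p := by
      intro w; rw [hgn w]
    simp only [e1]
    rw [fub hρ hρ1 idW hκc]
    simp only [hcc]
    rw [integral_mul_const]; rfl
  -- conclusion
  have hσ := sigW_pos hd
  have h6 : ∫ t in Ioi (0 : ℝ), t ^ (d + 1 - 3) * g t = II d * cc ρ w0 / sigW d := by
    rw [eq_div_iff hσ.ne', mul_comm _ (sigW d), ← h4, h5]
  rw [h6] at h1
  have h7 : Tendsto (fun k => (∫ x, q k x * ∫ p, bp ρ J x p) - II d * FF ρ (q k) (J w0)) atTop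
      (𝓝 0) := by
    apply squeeze_zero_norm h2
    have := hτ.const_mul (II d)
    rwa [mul_zero] at this
  have h8 := (h1.sub h7).const_mul (II d)⁻¹
  have h9 : ∀ k, (II d)⁻¹ * ((∫ x, q k x * ∫ p, bp ρ J x p) -
      ((∫ x, q k x * ∫ p, bp ρ J x p) - II d * FF ρ (q k) (J w0))) = FF ρ (q k) (J w0) := by
    intro k
    field_simp
    ring
  simp only [h9] at h8
  have h10 : (II d)⁻¹ * (E * (II d * cc ρ w0 / sigW d) - 0) = E * cc ρ w0 / sigW d := by
    field_simp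
    ring
  rwa [h10] at h8

end Avg

end Crest.Agent.R246.Flatx992
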