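import Crest.Agent.R246.LimDef_538
import Crest.Agent.R246.D2Energy_782

/-!
Row 246 (helper638): stress–energy identity for Allen–Cahn solutions in the flat weighted form.
-/

set_option autoImplicit false

open Filter Topology Metric Set MeasureTheory
open scoped ContDiff
open Crest.GeometryTopology.CoordMetric Crest.GeometryTopology.AffineMaximal
open Crest.Agent.R236.Jet Crest.Agent.R246.D2x782 Crest.Agent.R246.Lim538

noncomputable section

namespace Crest.Agent.R246.Stress638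

variable {n : ℕ}

local notation "EE" => EuclideanSpace ℝ (Fin n)

/-- `σ = sech⁴(r/ε)/ε` -/
def sg (r : EuclideanSpace ℝ (Fin n) → ℝ) (ε : ℝ) (x : EuclideanSpace ℝ (Fin n)) : ℝ :=
  1 / ε * (1 - Real.tanh (r x / ε) ^ 2) ^ 2

/-- `(1-tanh²(s/ε))²/ε` as a function on the line -/
def sg1 (ε s : ℝ) : ℝ := 1 / ε * (1 - Real.tanh (s / ε) ^ 2) ^ 2

theorem sg1_nonneg {ε : ℝ} (hε : 0 < ε) (s : ℝ) : 0 ≤ sg1 ε s := by
  unfold sg1; positivity

theorem sg_nonneg {ε : ℝ} (hε : 0 < ε) (r : EE → ℝ) (x : EE) : 0 ≤ sg r ε x := by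
  unfold sg; positivity

theorem qq_eq (h r : EE → ℝ) (ε : ℝ) (x : EE) :
    qq h r ε x = 1 / 2 * sg r ε x * (h x + gsq r x) := by
  unfold qq sg
  rw [show (1 : ℝ) / (2 * ε) = 1 / 2 * (1 / ε) by rw [one_div, one_div, one_div, mul_inv]]
  ring

theorem hasDerivAt_sg1 {ε : ℝ} (hε : 0 < ε) (s : ℝ) :
    HasDerivAt (sg1 ε) (-(4 / ε) * Real.tanh (s / ε) * sg1 ε s) s := by
  have h2 : HasDerivAt (fun s : ℝ => s / ε) (1 / ε) s := (hasDerivAt_id s).div_const ε
  have h3 : HasDerivAt (fun s : ℝ => Real.tanh (s / ε)) ((1 - Real.tanh (s / ε) ^ 2) * (1 / ε)) s :=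
    HasDerivAt.comp (h₂ := Real.tanh) (h := fun s : ℝ => s / ε) s (hasDerivAt_tanh (s / ε)) h2
  have h4 := (((h3.fun_pow 2).const_sub 1).fun_pow 2).const_mul (1 / ε)
  unfold sg1
  refine h4.congr_deriv ?_
  push_cast
  field_simp
  ring

theorem contDiff_sg1 (ε : ℝ) : ContDiff ℝ ∞ (sg1 ε) := by
  unfold sg1
  exact contDiff_const.mul ((contDiff_const.sub
    ((tanh_contDiff.comp (contDiff_id.div_const ε)).pow 2)).pow 2)

theorem pderiv_sg {r : EE → ℝ} {ε : ℝ} (hε : 0 < ε) {x : EE} (hr : DifferentiableAt ℝ r x)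
    (i : Fin n) :
    pderiv i (sg r ε) x = -(4 / ε) * Real.tanh (r x / ε) * sg r ε x * pderiv i r x := by
  have := pderiv_comp (φ := sg1 ε) (f := r) (hasDerivAt_sg1 hε (r x)) hr i
  exact this

theorem smoothAt_sg {r : EE → ℝ} {ε : ℝ} {x : EE} (hr : ContDiffAt ℝ ∞ r x) :
    ContDiffAt ℝ ∞ (sg r ε) x :=
  ((contDiff_sg1 ε).contDiffAt).comp x hr

theorem smoothAt_gsq {r : EE → ℝ} {x : EE} (hr : ContDiffAt ℝ ∞ r x) :
    ContDiffAt ℝ ∞ (gsq r) x := by
  unfold gsq
  exact ContDiffAt.sum fun i _ => (sm_pderiv hr i).mul (sm_pderiv hr i)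

theorem smoothAt_qq {h r : EE → ℝ} {ε : ℝ} {x : EE} (hh : ContDiffAt ℝ ∞ h x)
    (hr : ContDiffAt ℝ ∞ r x) : ContDiffAt ℝ ∞ (qq h r ε) x := by
  have : qq h r ε = fun x => 1 / 2 * sg r ε x * (h x + gsq r x) := by
    funext x; exact qq_eq h r ε x
  rw [this]
  exact (contDiffAt_const.mul (smoothAt_sg hr)).mul (hh.add (smoothAt_gsq hr))

/-- stress component `ε ∂ᵢu ∂ⱼu = σ ∂ᵢr ∂ⱼr` -/
def SS (r : EuclideanSpace ℝ (Fin n) → ℝ) (ε : ℝ) (i j : Fin n) (x : EuclideanSpace ℝ (Fin n)) :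
    ℝ := sg r ε x * (pderiv i r x * pderiv j r x)

theorem smoothAt_SS {r : EE → ℝ} {ε : ℝ} {x : EE} (hr : ContDiffAt ℝ ∞ r x) (i j : Fin n) :
    ContDiffAt ℝ ∞ (SS r ε i j) x :=
  (smoothAt_sg hr).mul ((sm_pderiv hr i).mul (sm_pderiv hr j))

theorem pderiv_gsq' {r : EE → ℝ} {x : EE} (hr : ContDiffAt ℝ ∞ r x) (i : Fin n) :
    pderiv i (gsq r) x = 2 * ∑ j, pderiv j r x * hessianMat r x i j := by
  unfold gsq
  rw [pderiv_sum (f := fun (j : Fin n) (y : EE) => pderiv j r y * pderiv j r y)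
    (fun j _ => (sm_diff (sm_pderiv hr j)).mul (sm_diff (sm_pderiv hr j)))]
  rw [Finset.mul_sum]
  refine Finset.sum_congr rfl fun j _ => ?_
  rw [pderiv_mul (sm_diff (sm_pderiv hr j)) (sm_diff (sm_pderiv hr j))]
  unfold hessianMat
  ring

theorem pderiv_qq {h r : EE → ℝ} {ε : ℝ} (hε : 0 < ε) {x : EE} (hh : ContDiffAt ℝ ∞ h x)
    (hr : ContDiffAt ℝ ∞ r x) (i : Fin n) :
    pderiv i (qq h r ε) x =
      1 / 2 * (-(4 / ε) * Real.tanh (r x / ε) * sg r ε x * pderiv i r x) * (h x + gsq r x)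
      + 1 / 2 * sg r ε x * (pderiv i h x + 2 * ∑ j, pderiv j r x * hessianMat r x i j) := by
  have e : qq h r ε = fun x => (1 / 2 * sg r ε x) * (h x + gsq r x) := by
    funext x; exact qq_eq h r ε x
  have d1 : DifferentiableAt ℝ (fun x => 1 / 2 * sg r ε x) x :=
    (sm_diff (smoothAt_sg hr)).const_mul _
  have d2 : DifferentiableAt ℝ (fun x => h x + gsq r x) x :=
    (sm_diff hh).add (sm_diff (smoothAt_gsq hr))
  rw [e, pderiv_mul (f := fun x => 1 / 2 * sg r ε x) (g := fun x => h x + gsq r x) d1 d2,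
    pderiv_cmul (sm_diff (smoothAt_sg hr)),
    pderiv_add (sm_diff hh) (sm_diff (smoothAt_gsq hr)), pderiv_sg hε (sm_diff hr),
    pderiv_gsq' hr]
  ring

theorem pderiv_SS {r : EE → ℝ} {ε : ℝ} (hε : 0 < ε) {x : EE} (hr : ContDiffAt ℝ ∞ r x)
    (i j : Fin n) :
    pderiv j (SS r ε i j) x =
      (-(4 / ε) * Real.tanh (r x / ε) * sg r ε x * pderiv j r x) * (pderiv i r x * pderiv j r x)
      + sg r ε x * (pderiv i r x * hessianMat r x j j + pderiv j r x * hessianMat r x j i) := by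
  unfold SS
  have d2 : DifferentiableAt ℝ (fun x => pderiv i r x * pderiv j r x) x :=
    (sm_diff (sm_pderiv hr i)).mul (sm_diff (sm_pderiv hr j))
  rw [pderiv_mul (f := sg r ε) (g := fun x => pderiv i r x * pderiv j r x)
    (sm_diff (smoothAt_sg hr)) d2,
    pderiv_mul (sm_diff (sm_pderiv hr i)) (sm_diff (sm_pderiv hr j)), pderiv_sg hε (sm_diff hr)]
  unfold hessianMat
  ring

/-- pointwise: `∂ᵢq - ∂ⱼSᵢⱼ = ½ σ ∂ᵢh` -/
theorem div_stress {U : Set EE} {h r : EE → ℝ} {ε : ℝ} (A : ACSol U h r ε) {x : EE} (hx : x ∈ U)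
    (i : Fin n) :
    pderiv i (qq h r ε) x - ∑ j, pderiv j (SS r ε i j) x = 1 / 2 * sg r ε x * pderiv i h x := by
  have hr : ContDiffAt ℝ ∞ r x := A.smooth_r.contDiffAt (A.isOpen.mem_nhds hx)
  have hh : ContDiffAt ℝ ∞ h x := A.smooth_h.contDiffAt (A.isOpen.mem_nhds hx)
  have hε := A.eps_pos
  rw [pderiv_qq hε hh hr]
  have e1 : ∑ j, pderiv j (SS r ε i j) x =
      (-(4 / ε) * Real.tanh (r x / ε) * sg r ε x) * pderiv i r x * gsq r x
      + sg r ε x * pderiv i r x * lapl r x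
      + sg r ε x * ∑ j, pderiv j r x * hessianMat r x i j := by
    rw [gsq, lapl, Finset.mul_sum, Finset.mul_sum, Finset.mul_sum, ← Finset.sum_add_distrib,
      ← Finset.sum_add_distrib]
    refine Finset.sum_congr rfl fun j _ => ?_
    rw [pderiv_SS hε hr, hess_symm hr j i]
    ring
  rw [e1, A.pde x hx]
  ring

/-- **stress identity**: `∫ (q div X - Sᵢⱼ ∂ⱼXᵢ) = - ∫ ½ σ ∇h·X`. -/
theorem stress_identity {U : Set EE} {h r : EE → ℝ} {ε : ℝ} (A : ACSol U h r ε)
    {X : Fin n → EE → ℝ} (hX : ∀ i, Cut U (X i)) :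
    ∫ x, (qq h r ε x * ∑ i, pderiv i (X i) x - ∑ i, ∑ j, SS r ε i j x * pderiv j (X i) x)
      = - ∫ x, 1 / 2 * sg r ε x * ∑ i, pderiv i h x * X i x := by
  have hU := A.isOpen
  have hrat : ∀ x ∈ U, ContDiffAt ℝ ∞ r x := fun x hx => A.smooth_r.contDiffAt (hU.mem_nhds hx)
  have hhat : ∀ x ∈ U, ContDiffAt ℝ ∞ h x := fun x hx => A.smooth_h.contDiffAt (hU.mem_nhds hx)
  have hq : ContDiffOn ℝ ∞ (qq h r ε) U := fun x hx =>
    (smoothAt_qq (hhat x hx) (hrat x hx)).contDiffWithinAt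
  have hS : ∀ i j, ContDiffOn ℝ ∞ (SS r ε i j) U := fun i j x hx =>
    (smoothAt_SS (hrat x hx) i j).contDiffWithinAt
  have hq1 : ContDiffOn ℝ 1 (qq h r ε) U := hq.of_le (by simp)
  have hS1 : ∀ i j, ContDiffOn ℝ 1 (SS r ε i j) U := fun i j => (hS i j).of_le (by simp)
  have hqd : ∀ i, ContinuousOn (fun x => pderiv i (qq h r ε) x) U := fun i x hx =>
    (sm_pderiv (smoothAt_qq (hhat x hx) (hrat x hx)) i).continuousAt.continuousWithinAt
  have hSd : ∀ i j, ContinuousOn (fun x => pderiv j (SS r ε i j) x) U := fun i j x hx =>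
    (sm_pderiv (smoothAt_SS (hrat x hx) i j) j).continuousAt.continuousWithinAt
  have i1 : ∀ i, Integrable fun x => qq h r ε x * pderiv i (X i) x := fun i =>
    integrable_mul_of_tsupport hU hq.continuousOn ((hX i).cont_pd i) ((hX i).cs_pd i)
      ((Cut.tsupport_pd i).trans (hX i).sub)
  have i2 : ∀ i j, Integrable fun x => SS r ε i j x * pderiv j (X i) x := fun i j =>
    integrable_mul_of_tsupport hU (hS i j).continuousOn ((hX i).cont_pd j) ((hX i).cs_pd j)
      ((Cut.tsupport_pd j).trans (hX i).sub)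
  have i3 : ∀ i, Integrable fun x => pderiv i (qq h r ε) x * X i x := fun i =>
    integrable_mul_of_tsupport hU (hqd i) (hX i).cd.continuous (hX i).cs (hX i).sub
  have i4 : ∀ i j, Integrable fun x => pderiv j (SS r ε i j) x * X i x := fun i j =>
    integrable_mul_of_tsupport hU (hSd i j) (hX i).cd.continuous (hX i).cs (hX i).sub
  have e1 : ∫ x, (qq h r ε x * ∑ i, pderiv i (X i) x - ∑ i, ∑ j, SS r ε i j x * pderiv j (X i) x)
      = ∑ i, ((∫ x, qq h r ε x * pderiv i (X i) x) - ∑ j, ∫ x, SS r ε i j x * pderiv j (X i) x) := by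
    simp_rw [Finset.mul_sum]
    rw [integral_sub (integrable_finsetSum _ fun i _ => i1 i)
      (integrable_finsetSum _ fun i _ => integrable_finsetSum _ fun j _ => i2 i j),
      integral_finsetSum _ (fun i _ => i1 i),
      integral_finsetSum _ (fun i _ => integrable_finsetSum _ fun j _ => i2 i j),
      Finset.sum_sub_distrib]
    congr 1
    refine Finset.sum_congr rfl fun i _ => ?_
    rw [integral_finsetSum _ (fun j _ => i2 i j)]
  rw [e1]
  have e2 : ∀ i, ((∫ x, qq h r ε x * pderiv i (X i) x) - ∑ j, ∫ x, SS r ε i j x * pderiv j (X i) x)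
      = - ∫ x, 1 / 2 * sg r ε x * (pderiv i h x * X i x) := by
    intro i
    rw [ibp hU hq1 (hX i) i]
    have : ∀ j, ∫ x, SS r ε i j x * pderiv j (X i) x = - ∫ x, pderiv j (SS r ε i j) x * X i x :=
      fun j => ibp hU (hS1 i j) (hX i) j
    simp_rw [this]
    rw [Finset.sum_neg_distrib, ← integral_finsetSum _ (fun j _ => i4 i j), sub_neg_eq_add,
      neg_add_eq_sub, ← integral_sub (integrable_finsetSum _ fun j _ => i4 i j) (i3 i),
      ← integral_neg]
    refine integral_congr_ae (ae_of_all _ fun x => ?_)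
    change ∑ j, pderiv j (SS r ε i j) x * X i x - pderiv i (qq h r ε) x * X i x
      = -(1 / 2 * sg r ε x * (pderiv i h x * X i x))
    by_cases hx : x ∈ U
    · rw [← Finset.sum_mul, ← sub_mul]
      have := div_stress A hx i
      have e : (∑ j, pderiv j (SS r ε i j) x - pderiv i (qq h r ε) x) =
        -(1 / 2 * sg r ε x * pderiv i h x) := by rw [← this]; ring
      rw [e]; ring
    · rw [(hX i).zero_out hx]; simp
  rw [Finset.sum_congr rfl fun i _ => e2 i, Finset.sum_neg_distrib]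
  have i5 : ∀ i, Integrable fun x => 1 / 2 * sg r ε x * (pderiv i h x * X i x) := by
    intro i
    have : (fun x => 1 / 2 * sg r ε x * (pderiv i h x * X i x)) =
        fun x => (1 / 2 * sg r ε x * pderiv i h x) * X i x := by funext x; ring
    rw [this]
    refine integrable_mul_of_tsupport hU ?_ (hX i).cd.continuous (hX i).cs (hX i).sub
    intro x hx
    exact ((continuousAt_const.mul (smoothAt_sg (hrat x hx)).continuousAt).mul
      (sm_pderiv (hhat x hx) i).continuousAt).continuousWithinAt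
  rw [← integral_finsetSum _ (fun i _ => i5 i)]
  congr 1
  refine integral_congr_ae (ae_of_all _ fun x => ?_)
  change _ = 1 / 2 * sg r ε x * ∑ i, pderiv i h x * X i x
  rw [Finset.mul_sum]

end Crest.Agent.R246.Stress638
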