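import Crest.Agent.R246.Flatx2_992
import Crest.Agent.R246.MSProv_782
import Crest.Agent.R246.Stress_638
import Crest.Agent.R246.E2a_782

/-!
Row 246, block GL3 (helper992), part 3: Allen–Cahn energy densities near an equator: tilt excess and
near constancy of the integrals against round bumps.
-/

set_option autoImplicit false

open Filter Topology Metric Set MeasureTheory
open scoped ContDiff RealInnerProductSpace Gradient
open Crest.GeometryTopology.CoordMetric Crest.GeometryTopology.AffineMaximal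
open Crest.Agent.R236.Jet Crest.Agent.R202.SphDiv Crest.Agent.R246.D2x782 Crest.Agent.R246.Lim538
open Crest.Agent.R246.MSP782 (hw cd_hw acsol_of_sphere norm_grad_sq fderiv_grad)
open Crest.Agent.R246.Stress638 (sg sg_nonneg qq_eq SS stress_identity smoothAt_sg smoothAt_qq)
open Crest.Agent.R246.MS852 (psi dpsi psi_nonneg psi_of_one_le psi_le_one continuous_psi
  contDiff_psi hasDerivAt_psi dpsi_of_one_le neg_two_le_dpsi dpsi_nonpos continuous_dpsi grad_eq)

noncomputable section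

namespace Crest.Agent.R246.Flatx992

variable {n : ℕ}

local notation "EE" => EuclideanSpace ℝ (Fin n)

/-! ### the energy density -/

theorem hw_nonneg (x : EE) : 0 ≤ hw x :=
  inv_nonneg.2 (Finset.sum_nonneg fun _ _ => mul_self_nonneg _)

theorem hw_cd {x : EE} (hx : x ≠ 0) : ContDiffAt ℝ ∞ (hw (n := n)) x :=
  cd_hw.contDiffAt (isOpen_compl_singleton.mem_nhds hx)

theorem nsq_smul' (t : ℝ) (x : EE) : nsq (t • x) = t ^ 2 * nsq x := by
  rw [nsq_eq, nsq_eq, norm_smul, mul_pow, Real.norm_eq_abs, sq_abs]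

theorem hw_smul {t : ℝ} (x : EE) : hw (t • x) = (t ^ 2)⁻¹ * hw x := by
  unfold hw
  rw [nsq_smul', mul_inv]

theorem gsq_smul {R : EE → ℝ} (h : SmHom0 R) {x : EE} (hx : x ≠ 0) {t : ℝ} (ht : 0 < t) :
    gsq R (t • x) = (t ^ 2)⁻¹ * gsq R x := by
  unfold gsq
  rw [Finset.mul_sum]
  refine Finset.sum_congr rfl fun i _ => ?_
  rw [h.pderiv_smul hx ht i]
  field_simp

theorem qq_dens {ε : ℝ} (hε : 0 < ε) {R : EE → ℝ} (h : SmHom0 R) : Dens (qq hw R ε) where
  cont x hx := (smoothAt_qq (hw_cd hx) (h.smooth x hx)).continuousAt.continuousWithinAt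
  nonneg x _ := by
    unfold qq
    have := hw_nonneg x
    have := gsq_nonneg R x
    positivity
  hom t ht x hx := by
    unfold qq
    rw [h.hom t x ht, gsq_smul h hx ht, hw_smul]
    ring

theorem SE_qq {ε : ℝ} {R : EE → ℝ} : SE (qq hw R ε) = ∫ z : Sph n, eden ε R z ∂(sig n) := by
  unfold SE sig
  refine integral_congr_ae (Eventually.of_forall fun z => ?_)
  have hz : nsq (z : EE) = 1 := by rw [nsq_eq]; simp
  show qq hw R ε z = eden ε R z
  unfold qq eden sgsq hw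
  rw [hz]
  ring

/-- smallness away from the zero set -/
theorem qq_le {ε : ℝ} {R : EE → ℝ} (H : ACSol {0}ᶜ hw R ε) {z : EE} (hz : ‖z‖ = 1) {δ : ℝ}
    (hδ : 0 < δ) (hR : δ ≤ |R z|) : qq hw R ε z ≤ ε ^ 3 / δ ^ 4 := by
  have hz0 : z ≠ 0 := by intro h; rw [h, norm_zero] at hz; exact zero_ne_one hz
  have hε := H.eps_pos
  have h1 := H.modica z hz0
  have h2 : hw z = 1 := by unfold hw; rw [nsq_eq, hz]; norm_num
  rw [h2] at h1
  unfold qq
  rw [h2]
  set s := R z / ε with hs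
  have h3 : 1 - Real.tanh s ^ 2 ≤ ε ^ 2 / δ ^ 2 := by
    have hc := Real.cosh_pos s
    have h4 := Real.cosh_sq s
    have e1 : 1 - Real.tanh s ^ 2 = 1 / Real.cosh s ^ 2 := by
      rw [Real.tanh_eq_sinh_div_cosh]
      field_simp
      linarith
    have h5 : δ ^ 2 / ε ^ 2 ≤ Real.cosh s ^ 2 := by
      have h6 : |s| ≤ |Real.sinh s| := by
        rcases le_total 0 s with h | h
        · rw [abs_of_nonneg h, abs_of_nonneg (Real.sinh_nonneg_iff.2 h)]
          exact Real.self_le_sinh_iff.2 h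
        · rw [abs_of_nonpos h, abs_of_nonpos (Real.sinh_nonpos_iff.2 h)]
          have := Real.sinh_le_self_iff.2 h
          linarith
      have h7 : s ^ 2 ≤ Real.sinh s ^ 2 := sq_le_sq.2 h6
      have h8 : δ ^ 2 / ε ^ 2 ≤ s ^ 2 := by
        rw [hs, div_pow]
        apply div_le_div_of_nonneg_right _ (by positivity)
        rw [← sq_abs (R z)]
        exact pow_le_pow_left₀ hδ.le hR 2
      linarith
    rw [e1, div_le_div_iff₀ (by positivity) (by positivity)]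
    rw [div_le_iff₀ (by positivity)] at h5
    linarith
  have h4 : 0 ≤ 1 - Real.tanh s ^ 2 := by have := tanh_sq_lt_one s; linarith
  have h5 : (1 - Real.tanh s ^ 2) ^ 2 ≤ (ε ^ 2 / δ ^ 2) ^ 2 := pow_le_pow_left₀ h4 h3 2
  have h6 := gsq_nonneg R z
  calc 1 / (2 * ε) * (1 - Real.tanh s ^ 2) ^ 2 * (1 + gsq R z)
      ≤ 1 / (2 * ε) * (ε ^ 2 / δ ^ 2) ^ 2 * (1 + 1) := by gcongr
    _ = ε ^ 3 / δ ^ 4 := by field_simp; ring

/-! ### tilt excess -/

theorem int_of {L : EE → ℝ} {b c : ℝ} (hb : 0 < b) (hA : Ann b c L)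
    (hc : ∀ x : EE, x ≠ 0 → ContinuousAt L x) : Integrable L := by
  have h1 : Continuous L := by
    rw [continuous_iff_continuousAt]
    intro x
    by_cases hx : x = 0
    · have h0 : L =ᶠ[𝓝 x] fun _ => 0 := by
        have h1 : ∀ᶠ y in 𝓝 x, ‖y‖ < b := by
          refine continuous_norm.continuousAt.eventually_lt continuousAt_const ?_
          rw [hx, norm_zero]; exact hb
        filter_upwards [h1] with y hy using hA y (Or.inl hy)
      exact (continuousAt_congr h0).2 continuousAt_const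
    · exact hc x hx
  exact h1.integrable_of_hasCompactSupport hA.cs

theorem Ann.fd {b c : ℝ} {φ : EE → ℝ} (h : Ann b c φ) {x : EE} (hx : ‖x‖ < b ∨ c < ‖x‖) :
    fderiv ℝ φ x = 0 := by
  have h1 : φ =ᶠ[𝓝 x] fun _ => 0 := by
    rcases hx with hx | hx
    · have : ∀ᶠ y in 𝓝 x, ‖y‖ < b :=
        continuous_norm.continuousAt.eventually_lt continuousAt_const hx
      filter_upwards [this] with y hy using h y (Or.inl hy)
    · have : ∀ᶠ y in 𝓝 x, c < ‖y‖ :=
        continuousAt_const.eventually_lt continuous_norm.continuousAt hx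
      filter_upwards [this] with y hy using h y (Or.inr hy)
  rw [h1.fderiv_eq]; simp

theorem Ann.pd {b c : ℝ} {φ : EE → ℝ} (h : Ann b c φ) {x : EE} (hx : ‖x‖ < b ∨ c < ‖x‖)
    (i : Fin n) : pderiv i φ x = 0 := by
  unfold pderiv
  rw [h.fd hx]; simp

theorem Ann.cut {b c : ℝ} (hb : 0 < b) {φ : EE → ℝ} (h : Ann b c φ) (hφ : ContDiff ℝ 1 φ) :
    Cut {0}ᶜ φ := ⟨hφ, h.cs, h.sub hb⟩

/-- the tilt excess density -/
def KK (a : EuclideanSpace ℝ (Fin n)) (ε : ℝ) (R : EuclideanSpace ℝ (Fin n) → ℝ)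
    (x : EuclideanSpace ℝ (Fin n)) : ℝ :=
  qq hw R ε x - sg R ε x * (fderiv ℝ R x a) ^ 2

variable {ε : ℝ} {R : EuclideanSpace ℝ (Fin n) → ℝ}

theorem qq_nn (H : ACSol {0}ᶜ hw R ε) (x : EE) : 0 ≤ qq hw R ε x := by
  rw [qq_eq]
  have h1 := gsq_nonneg R x
  have h2 := sg_nonneg H.eps_pos R x
  have h3 := hw_nonneg x
  positivity

theorem sg_gsq_le (H : ACSol {0}ᶜ hw R ε) {x : EE} (hx : x ≠ 0) :
    sg R ε x * gsq R x ≤ qq hw R ε x := by
  rw [qq_eq]
  have h1 := H.modica x hx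
  have h2 := sg_nonneg H.eps_pos R x
  nlinarith [mul_le_mul_of_nonneg_left h1 h2]

theorem sg_hw_le (H : ACSol {0}ᶜ hw R ε) (x : EE) :
    sg R ε x * hw x ≤ 2 * qq hw R ε x := by
  rw [qq_eq]
  have h1 := gsq_nonneg R x
  have h2 := sg_nonneg H.eps_pos R x
  nlinarith [mul_nonneg h2 h1]

theorem fd_sq_le {a : EE} (ha : ‖a‖ = 1) (x : EE) : (fderiv ℝ R x a) ^ 2 ≤ gsq R x := by
  have h := E2x782.abs_fderiv_le (R := R) (x := x) (v := a)
  rw [ha, mul_one] at h
  rw [← sq_abs]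
  calc |fderiv ℝ R x a| ^ 2 ≤ Real.sqrt (gsq R x) ^ 2 := pow_le_pow_left₀ (abs_nonneg _) h 2
    _ = gsq R x := Real.sq_sqrt (gsq_nonneg R x)

theorem sg_tilt_le (H : ACSol {0}ᶜ hw R ε) (a : EE) {x : EE} (hx : x ≠ 0) :
    sg R ε x * (gsq R x - (fderiv ℝ R x a) ^ 2) ≤ KK a ε R x := by
  unfold KK
  have := sg_gsq_le H hx
  linarith

theorem KK_nonneg (H : ACSol {0}ᶜ hw R ε) {a : EE} (ha : ‖a‖ = 1) {x : EE} (hx : x ≠ 0) :
    0 ≤ KK a ε R x := by
  refine le_trans ?_ (sg_tilt_le H a hx)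
  exact mul_nonneg (sg_nonneg H.eps_pos R x) (sub_nonneg.2 (fd_sq_le ha x))

section conts
variable (H : ACSol {0}ᶜ hw R ε)
include H

theorem c_R {x : EE} (hx : x ≠ 0) : ContDiffAt ℝ ∞ R x :=
  H.smooth_r.contDiffAt (isOpen_compl_singleton.mem_nhds hx)

theorem c_qq {x : EE} (hx : x ≠ 0) : ContinuousAt (qq hw R ε) x :=
  (smoothAt_qq (hw_cd hx) (c_R H hx)).continuousAt

theorem c_sg {x : EE} (hx : x ≠ 0) : ContinuousAt (sg R ε) x := (smoothAt_sg (c_R H hx)).continuousAt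

theorem c_fd {x : EE} (hx : x ≠ 0) : ContinuousAt (fderiv ℝ R) x :=
  ((c_R H hx).fderiv_right (m := ∞) (by simp)).continuousAt

theorem c_fdv {x : EE} (hx : x ≠ 0) (v : EE) : ContinuousAt (fun y => fderiv ℝ R y v) x :=
  (c_fd H hx).clm_apply continuousAt_const

theorem c_KK (a : EE) {x : EE} (hx : x ≠ 0) : ContinuousAt (KK a ε R) x :=
  (c_qq H hx).sub ((c_sg H hx).mul ((c_fdv H hx a).pow 2))

end conts

theorem c_hw {x : EE} (hx : x ≠ 0) (v : EE) : ContinuousAt (fun y => fderiv ℝ (hw (n := n)) y v) x :=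
  ((hw_cd hx).fderiv_right (m := ∞) (by simp)).continuousAt.clm_apply continuousAt_const

theorem fderiv_hw {x : EE} (hx : x ≠ 0) (v : EE) :
    fderiv ℝ (hw (n := n)) x v = -(2 * hw x ^ 2 * ⟪x, v⟫) := by
  have h1 : HasFDerivAt (nsq (n := n)) (2 • (innerSL ℝ x)) x := by
    have h2 : (nsq (n := n)) = fun y => ‖y‖ ^ 2 := by funext y; exact nsq_eq y
    rw [h2]
    exact (hasStrictFDerivAt_norm_sq x).hasFDerivAt
  have h2 : HasFDerivAt (hw (n := n)) (-(nsq x ^ 2)⁻¹ • (2 • (innerSL ℝ x))) x :=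
    (hasDerivAt_inv (nsq_pos hx).ne').comp_hasFDerivAt x h1
  rw [h2.fderiv]
  unfold hw
  simp only [smul_apply, innerSL_apply_apply, smul_eq_mul, nsmul_eq_mul]
  push_cast
  rw [inv_pow]
  ring

/-- TILT EXCESS: `∫ φ K ≤ ∫ q |⟨a,x⟩| (2|∇φ| + (4/b) φ)` -/
theorem tilt (H : ACSol {0}ᶜ hw R ε) {a : EE} (ha : ‖a‖ = 1) {φ : EE → ℝ} (hφ : ContDiff ℝ 1 φ)
    (hφ0 : ∀ x, 0 ≤ φ x) {b c : ℝ} (hb : 0 < b) (hA : Ann b c φ) :
    ∫ x, KK a ε R x * φ x ≤
      ∫ x, qq hw R ε x * (|⟪a, x⟫| * (2 * ‖fderiv ℝ φ x‖ + 2 / b * φ x)) := by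
  have hcut := hA.cut hb hφ
  set X : Fin n → EE → ℝ := fun i x => φ x * ((a i • innerSL ℝ a) x) with hX
  have hXcut : ∀ i, Cut {0}ᶜ (X i) := fun i =>
    ⟨hφ.mul (ContinuousLinearMap.contDiff _), hcut.cs.mul_right,
      (tsupport_mul_subset_left).trans hcut.sub⟩
  have hpd : ∀ i j x, pderiv j (X i) x = φ x * (a i * a j) + a i * ⟪a, x⟫ * pderiv j φ x := by
    intro i j x
    simp only [hX]
    rw [pderiv_mul (hφ.differentiable one_ne_zero x)
      ((a i • innerSL ℝ a).differentiableAt), pderiv_lin]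
    simp only [smul_apply, innerSL_apply_apply, smul_eq_mul,
      EuclideanSpace.inner_single_right]
    simp
  have hid := stress_identity H hXcut
  have haa : ∑ i, a i * a i = 1 := by
    have := EuclideanSpace.real_norm_sq_eq a
    rw [ha] at this
    simp only [sq] at this
    linarith
  -- pointwise form
  have e1 : ∀ x, ∑ i, pderiv i (X i) x = φ x + ⟪a, x⟫ * fderiv ℝ φ x a := by
    intro x
    simp only [hpd]
    rw [Finset.sum_add_distrib, ← Finset.mul_sum, haa, mul_one, fderiv_eq_sum, Finset.mul_sum]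
    congr 1
    exact Finset.sum_congr rfl fun i _ => by ring
  have e2 : ∀ x, ∑ i, ∑ j, SS R ε i j x * pderiv j (X i) x =
      sg R ε x * fderiv ℝ R x a * (φ x * fderiv ℝ R x a + ⟪a, x⟫ * fderiv ℝ φ x (∇ R x)) := by
    intro x
    simp only [hpd]
    unfold SS
    rw [fderiv_grad, dot, fderiv_eq_sum R x a]
    have e3 : ∀ i j, sg R ε x * (pderiv i R x * pderiv j R x) *
        (φ x * (a i * a j) + a i * ⟪a, x⟫ * pderiv j φ x) =
        (sg R ε x * (pderiv i R x * a i)) * (φ x * (pderiv j R x * a j) +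
          ⟪a, x⟫ * (pderiv j φ x * pderiv j R x)) := fun i j => by ring
    simp only [e3]
    rw [Finset.sum_congr rfl fun i _ => (Finset.mul_sum _ _ _).symm, ← Finset.sum_mul,
      ← Finset.mul_sum, Finset.sum_add_distrib, ← Finset.mul_sum, ← Finset.mul_sum]
  have e4 : ∀ x, ∑ i, pderiv i (hw (n := n)) x * X i x = φ x * ⟪a, x⟫ * fderiv ℝ hw x a := by
    intro x
    simp only [hX]
    rw [fderiv_eq_sum, Finset.mul_sum]
    refine Finset.sum_congr rfl fun i _ => ?_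
    simp only [smul_apply, innerSL_apply_apply, smul_eq_mul]
    ring
  simp only [e1, e2, e4] at hid
  set L : EE → ℝ := fun x => qq hw R ε x * (φ x + ⟪a, x⟫ * fderiv ℝ φ x a) -
    sg R ε x * fderiv ℝ R x a * (φ x * fderiv ℝ R x a + ⟪a, x⟫ * fderiv ℝ φ x (∇ R x)) with hL
  set M : EE → ℝ := fun x => 1 / 2 * sg R ε x * (φ x * ⟪a, x⟫ * fderiv ℝ hw x a) with hM
  have cφ : ∀ x, ContinuousAt φ x := fun x => hφ.continuous.continuousAt
  have cφd : ∀ x, ContinuousAt (fderiv ℝ φ) x := fun x =>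
    (hφ.continuous_fderiv one_ne_zero).continuousAt
  have ci : ∀ x, ContinuousAt (fun y : EE => ⟪a, y⟫) x := fun x =>
    (continuous_const.inner continuous_id).continuousAt
  have iL : Integrable L := by
    apply int_of hb (c := c)
    · intro x hx
      simp only [hL, hA x hx, hA.fd hx]; simp
    · intro x hx
      have cg : ContinuousAt (fun y => fderiv ℝ φ y (∇ R y)) x := by
        apply (cφd x).clm_apply
        unfold gradient
        exact (LinearIsometryEquiv.continuous _).continuousAt.comp (c_fd H hx)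
      exact ((c_qq H hx).mul ((cφ x).add ((ci x).mul ((cφd x).clm_apply continuousAt_const)))).sub
        (((c_sg H hx).mul (c_fdv H hx a)).mul
          (((cφ x).mul (c_fdv H hx a)).add ((ci x).mul cg)))
  have iM : Integrable M := by
    apply int_of hb (c := c)
    · intro x hx
      simp only [hM, hA x hx]; simp
    · intro x hx
      exact ((continuousAt_const.mul (c_sg H hx))).mul (((cφ x).mul (ci x)).mul (c_hw hx a))
  have iK : Integrable fun x => KK a ε R x * φ x := by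
    apply int_of hb (c := c)
    · intro x hx
      simp only [hA x hx, mul_zero]
    · intro x hx
      exact (c_KK H a hx).mul (cφ x)
  have iG1 : Integrable fun x => qq hw R ε x * (|⟪a, x⟫| * (2 * ‖fderiv ℝ φ x‖)) := by
    apply int_of hb (c := c)
    · intro x hx
      simp only [hA.fd hx]; simp
    · intro x hx
      exact (c_qq H hx).mul ((ci x).abs.mul (continuousAt_const.mul (cφd x).norm))
  have iG2 : Integrable fun x => qq hw R ε x * (|⟪a, x⟫| * (2 / b * φ x)) := by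
    apply int_of hb (c := c)
    · intro x hx
      simp only [hA x hx]; simp
    · intro x hx
      exact (c_qq H hx).mul ((ci x).abs.mul (continuousAt_const.mul (cφ x)))
  have h1 : ∫ x, KK a ε R x * φ x ≤
      ∫ x, (L x + qq hw R ε x * (|⟪a, x⟫| * (2 * ‖fderiv ℝ φ x‖))) := by
    apply integral_mono iK (iL.add iG1)
    intro x
    show KK a ε R x * φ x ≤ L x + qq hw R ε x * (|⟪a, x⟫| * (2 * ‖fderiv ℝ φ x‖))
    by_cases hx : x = 0
    · have hx' : ‖x‖ < b ∨ c < ‖x‖ := Or.inl (by rw [hx, norm_zero]; exact hb)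
      simp only [hL, hA x hx', hA.fd hx']; simp
    · have q0 := qq_nn H x
      have s0 := sg_nonneg H.eps_pos R x
      have n1 : |fderiv ℝ φ x a| ≤ ‖fderiv ℝ φ x‖ := by
        have := (fderiv ℝ φ x).le_opNorm a
        rwa [ha, mul_one, Real.norm_eq_abs] at this
      have n2 : |fderiv ℝ φ x (∇ R x)| ≤ ‖fderiv ℝ φ x‖ * ‖∇ R x‖ := by
        have := (fderiv ℝ φ x).le_opNorm (∇ R x)
        rwa [Real.norm_eq_abs] at this
      have n3 : |fderiv ℝ R x a| ≤ ‖∇ R x‖ := by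
        have := MS852.abs_fderiv_le R x a
        rwa [ha, mul_one] at this
      have n4 : sg R ε x * ‖∇ R x‖ ^ 2 ≤ qq hw R ε x := by
        rw [norm_grad_sq]; exact sg_gsq_le H hx
      have n5 : sg R ε x * (|fderiv ℝ R x a| * |fderiv ℝ φ x (∇ R x)|) ≤
          qq hw R ε x * ‖fderiv ℝ φ x‖ := by
        calc sg R ε x * (|fderiv ℝ R x a| * |fderiv ℝ φ x (∇ R x)|)
            ≤ sg R ε x * (‖∇ R x‖ * (‖fderiv ℝ φ x‖ * ‖∇ R x‖)) := by gcongr
          _ = (sg R ε x * ‖∇ R x‖ ^ 2) * ‖fderiv ℝ φ x‖ := by ring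
          _ ≤ qq hw R ε x * ‖fderiv ℝ φ x‖ := by gcongr
      have n6 : KK a ε R x * φ x - L x = ⟪a, x⟫ * (sg R ε x * (fderiv ℝ R x a *
          fderiv ℝ φ x (∇ R x)) - qq hw R ε x * fderiv ℝ φ x a) := by
        simp only [hL, KK]; ring
      have n7 : ⟪a, x⟫ * (sg R ε x * (fderiv ℝ R x a *
          fderiv ℝ φ x (∇ R x)) - qq hw R ε x * fderiv ℝ φ x a) ≤
          |⟪a, x⟫| * (qq hw R ε x * ‖fderiv ℝ φ x‖ + qq hw R ε x * ‖fderiv ℝ φ x‖) := by
        refine (le_abs_self _).trans ?_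
        rw [abs_mul]
        apply mul_le_mul_of_nonneg_left _ (abs_nonneg _)
        refine (abs_sub _ _).trans ?_
        apply add_le_add
        · rw [abs_mul, abs_mul, abs_of_nonneg s0]
          exact n5
        · rw [abs_mul, abs_of_nonneg q0]
          gcongr
      nlinarith [n6, n7]
  have h2 : ∫ x, (L x + qq hw R ε x * (|⟪a, x⟫| * (2 * ‖fderiv ℝ φ x‖))) =
      -(∫ x, M x) + ∫ x, qq hw R ε x * (|⟪a, x⟫| * (2 * ‖fderiv ℝ φ x‖)) := by
    rw [integral_add iL iG1, hid]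
  have h3 : -(∫ x, M x) ≤ ∫ x, qq hw R ε x * (|⟪a, x⟫| * (2 / b * φ x)) := by
    rw [← integral_neg]
    apply integral_mono iM.neg iG2
    intro x
    show -M x ≤ qq hw R ε x * (|⟪a, x⟫| * (2 / b * φ x))
    by_cases hx' : ‖x‖ < b ∨ c < ‖x‖
    · simp only [hM, hA x hx']; simp
    · push Not at hx'
      have hx0 : x ≠ 0 := by
        intro h; rw [h, norm_zero] at hx'; linarith [hx'.1]
      have hxp : 0 < ‖x‖ := norm_pos_iff.2 hx0
      have s0 := sg_nonneg H.eps_pos R x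
      have m1 : -M x = (sg R ε x * hw x) * φ x * |⟪a, x⟫| * (hw x * |⟪a, x⟫|) := by
        simp only [hM]
        rw [fderiv_hw hx0, real_inner_comm a x]
        have : |⟪a, x⟫| * |⟪a, x⟫| = ⟪a, x⟫ * ⟪a, x⟫ := abs_mul_abs_self _
        linear_combination (-(sg R ε x * hw x ^ 2 * φ x)) * this
      have m2 : hw x * |⟪a, x⟫| ≤ 1 / b := by
        have h5 := abs_real_inner_le_norm a x
        rw [ha, one_mul] at h5
        unfold hw
        rw [nsq_eq]
        calc (‖x‖ ^ 2)⁻¹ * |⟪a, x⟫| ≤ (‖x‖ ^ 2)⁻¹ * ‖x‖ := by gcongr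
          _ = 1 / ‖x‖ := by field_simp
          _ ≤ 1 / b := one_div_le_one_div_of_le hb hx'.1
      have m3 := sg_hw_le H x
      have m4 : 0 ≤ hw x := hw_nonneg x
      rw [m1]
      have hφx := hφ0 x
      calc (sg R ε x * hw x) * φ x * |⟪a, x⟫| * (hw x * |⟪a, x⟫|)
          ≤ (2 * qq hw R ε x) * φ x * |⟪a, x⟫| * (1 / b) := by
            gcongr
            exact mul_nonneg (mul_nonneg (by have := qq_nn H x; linarith) hφx) (abs_nonneg _)
        _ = qq hw R ε x * (|⟪a, x⟫| * (2 / b * φ x)) := by ring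
  have h4 : ∫ x, qq hw R ε x * (|⟪a, x⟫| * (2 * ‖fderiv ℝ φ x‖ + 2 / b * φ x)) =
      (∫ x, qq hw R ε x * (|⟪a, x⟫| * (2 * ‖fderiv ℝ φ x‖))) +
        ∫ x, qq hw R ε x * (|⟪a, x⟫| * (2 / b * φ x)) := by
    rw [← integral_add iG1 iG2]
    congr 1
    funext x
    ring
  rw [h4]
  linarith

/-! ### near constancy -/

/-- Bessel: tangential part -/
theorem tan_le {a v : EE} (ha : ‖a‖ = 1) (hav : ⟪a, v⟫ = 0) (x : EE) :
    (fderiv ℝ R x v) ^ 2 ≤ ‖v‖ ^ 2 * (gsq R x - (fderiv ℝ R x a) ^ 2) := by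
  rw [grad_eq, grad_eq, ← norm_grad_sq]
  set g := ∇ R x with hg
  have h1 : ⟪g, v⟫ = ⟪g - ⟪g, a⟫ • a, v⟫ := by
    rw [inner_sub_left, inner_smul_left, hav]; simp
  have h2 : ‖g - ⟪g, a⟫ • a‖ ^ 2 = ‖g‖ ^ 2 - ⟪g, a⟫ ^ 2 := by
    rw [@norm_sub_sq_real, norm_smul, ha, inner_smul_right, mul_one, Real.norm_eq_abs, sq_abs]
    ring
  rw [← h2, h1]
  have h3 := abs_real_inner_le_norm (g - ⟪g, a⟫ • a) v
  rw [← sq_abs]
  calc |⟪g - ⟪g, a⟫ • a, v⟫| ^ 2 ≤ (‖g - ⟪g, a⟫ • a‖ * ‖v‖) ^ 2 :=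
        pow_le_pow_left₀ (abs_nonneg _) h3 2
    _ = ‖v‖ ^ 2 * ‖g - ⟪g, a⟫ • a‖ ^ 2 := by ring

/-- round bump -/
def zt (ρ : ℝ) (p x : EuclideanSpace ℝ (Fin n)) : ℝ := psi (‖x - p‖ ^ 2 / ρ ^ 2)

theorem zt_fderiv (ρ : ℝ) (p x v : EE) :
    fderiv ℝ (zt ρ p) x v = dpsi (‖x - p‖ ^ 2 / ρ ^ 2) * (2 / ρ ^ 2) * ⟪x - p, v⟫ := by
  have h1 : HasFDerivAt (fun y : EE => ‖y - p‖ ^ 2 / ρ ^ 2)
      ((ρ ^ 2)⁻¹ • (2 • (innerSL ℝ (x - p)))) x := by
    have h2 : HasFDerivAt (fun y : EE => ‖y - p‖ ^ 2) (2 • (innerSL ℝ (x - p))) x := by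
      have h3 := HasFDerivAt.comp (g := fun z : EE => ‖z‖ ^ 2) x
        (hasStrictFDerivAt_norm_sq (x - p)).hasFDerivAt ((hasFDerivAt_id x).sub_const p)
      rw [ContinuousLinearMap.comp_id] at h3
      exact h3
    have h3 : (fun y : EE => ‖y - p‖ ^ 2 / ρ ^ 2) = fun y => (ρ ^ 2)⁻¹ • ‖y - p‖ ^ 2 := by
      funext y; rw [smul_eq_mul]; field_simp
    rw [h3]
    exact h2.const_smul ((ρ ^ 2)⁻¹)
  have h2 := (hasDerivAt_psi (‖x - p‖ ^ 2 / ρ ^ 2)).comp_hasFDerivAt x h1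
  have h3 : zt ρ p = psi ∘ fun y : EE => ‖y - p‖ ^ 2 / ρ ^ 2 := rfl
  rw [h3, h2.fderiv]
  simp only [smul_apply, innerSL_apply_apply, smul_eq_mul, nsmul_eq_mul]
  push_cast
  ring

theorem zt_cd (ρ : ℝ) (p : EE) : ContDiff ℝ 1 (zt ρ p) := by
  unfold zt
  exact contDiff_psi.comp (((contDiff_id.sub contDiff_const).norm_sq ℝ).div_const _)

theorem zt_out {ρ : ℝ} (hρ : 0 < ρ) {p x : EE} (h : ρ ≤ ‖x - p‖) :
    psi (‖x - p‖ ^ 2 / ρ ^ 2) = 0 ∧ dpsi (‖x - p‖ ^ 2 / ρ ^ 2) = 0 := by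
  have : 1 ≤ ‖x - p‖ ^ 2 / ρ ^ 2 := by
    rw [one_le_div (by positivity)]
    exact pow_le_pow_left₀ hρ.le h 2
  exact ⟨psi_of_one_le this, dpsi_of_one_le this⟩

theorem norm_between {p x : EE} (hp : ‖p‖ = 1) {ρ : ℝ} (hρ1 : ρ ≤ 1 / 2) (h : ‖x - p‖ < ρ) :
    1 / 2 ≤ ‖x‖ ∧ ‖x‖ ≤ 3 / 2 := by
  have h1 := norm_sub_norm_le p x
  have h2 := norm_sub_norm_le x p
  rw [norm_sub_rev] at h1
  rw [hp] at h1 h2
  constructor <;> linarith

theorem zt_ann {ρ : ℝ} (hρ : 0 < ρ) (hρ1 : ρ ≤ 1 / 2) {p : EE} (hp : ‖p‖ = 1) :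
    Ann (1 / 2) (3 / 2) (zt ρ p) := by
  intro x hx
  by_cases h : ρ ≤ ‖x - p‖
  · exact (zt_out hρ h).1
  · have := norm_between hp hρ1 (not_le.1 h)
    rcases hx with hx | hx <;> linarith [this.1, this.2]

/-- the derivative of the round-bump integral along a great circle, via the stress identity -/
theorem nc_one (H : ACSol {0}ᶜ hw R ε) {a p e : EE} (ha : ‖a‖ = 1) (hp : ‖p‖ = 1) (he : ‖e‖ = 1)
    (hpe : ⟪p, e⟫ = 0) (hap : ⟪a, p⟫ = 0) (hae : ⟪a, e⟫ = 0) {ρ : ℝ} (hρ : 0 < ρ)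
    (hρ1 : ρ ≤ 1 / 2) {φ : EE → ℝ} (hφ : Continuous φ) {b c : ℝ} (hb : 0 < b) (hA : Ann b c φ)
    (hφ0 : ∀ x, 0 ≤ φ x) {c0 : ℝ} (hc0 : 0 < c0)
    (hφ1 : ∀ x : EE, 1 / 2 ≤ ‖x‖ → ‖x‖ ≤ 3 / 2 → c0 ≤ φ x) {β : ℝ} (hβ : 0 < β) :
    |∫ x, qq hw R ε x * (dpsi (‖x - p‖ ^ 2 / ρ ^ 2) * (2 / ρ ^ 2) * ⟪e, x⟫)| ≤
      6 / ρ / c0 * (β⁻¹ * (∫ x, KK a ε R x * φ x) + β * ∫ x, qq hw R ε x * φ x) := by
  have hzA := zt_ann hρ hρ1 hp
  have hcut := hzA.cut (by norm_num) (zt_cd ρ p)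
  set V : EE → EE := fun x => ⟪p, x⟫ • e - ⟪e, x⟫ • p with hV
  set X : Fin n → EE → ℝ := fun i x => zt ρ p x * ((e i • innerSL ℝ p - p i • innerSL ℝ e) x)
    with hX
  have hXcut : ∀ i, Cut {0}ᶜ (X i) := fun i =>
    ⟨(zt_cd ρ p).mul (ContinuousLinearMap.contDiff _), hcut.cs.mul_right,
      (tsupport_mul_subset_left).trans hcut.sub⟩
  have hVi : ∀ i x, (e i • innerSL ℝ p - p i • innerSL ℝ e) x = V x i := by
    intro i x
    simp only [hV, sub_apply, smul_apply, innerSL_apply_apply, smul_eq_mul, PiLp.sub_apply,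
      PiLp.smul_apply]
    ring
  have hpd : ∀ i j x, pderiv j (X i) x = zt ρ p x * (e i * p j - p i * e j) +
      V x i * pderiv j (zt ρ p) x := by
    intro i j x
    simp only [hX]
    rw [pderiv_mul ((zt_cd ρ p).differentiable one_ne_zero x)
      ((e i • innerSL ℝ p - p i • innerSL ℝ e).differentiableAt), pderiv_lin, hVi i x]
    simp only [sub_apply, smul_apply, innerSL_apply_apply, smul_eq_mul,
      EuclideanSpace.inner_single_right]
    simp
  have hid := stress_identity H hXcut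
  have e1 : ∀ x, ∑ i, pderiv i (X i) x =
      dpsi (‖x - p‖ ^ 2 / ρ ^ 2) * (2 / ρ ^ 2) * ⟪e, x⟫ := by
    intro x
    simp only [hpd]
    have h1 : ∑ i, (zt ρ p x * (e i * p i - p i * e i) + V x i * pderiv i (zt ρ p) x) =
        ∑ i, pderiv i (zt ρ p) x * V x i := Finset.sum_congr rfl fun i _ => by ring
    rw [h1, ← fderiv_eq_sum, zt_fderiv]
    congr 1
    simp only [hV]
    rw [inner_sub_left, inner_sub_right, inner_sub_right, inner_smul_right, inner_smul_right,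
      inner_smul_right, inner_smul_right, hpe, real_inner_self_eq_norm_sq, hp,
      real_inner_comm x p, real_inner_comm x e]
    ring
  have e2 : ∀ x, ∑ i, ∑ j, SS R ε i j x * pderiv j (X i) x =
      sg R ε x * (fderiv ℝ R x (V x) * fderiv ℝ (zt ρ p) x (∇ R x)) := by
    intro x
    simp only [hpd]
    unfold SS
    have e3 : ∀ i j, sg R ε x * (pderiv i R x * pderiv j R x) *
        (zt ρ p x * (e i * p j - p i * e j) + V x i * pderiv j (zt ρ p) x) =
        (sg R ε x * zt ρ p x * (pderiv i R x * e i)) * (pderiv j R x * p j) -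
        (sg R ε x * zt ρ p x * (pderiv i R x * p i)) * (pderiv j R x * e j) +
        (sg R ε x * (pderiv i R x * V x i)) * (pderiv j (zt ρ p) x * pderiv j R x) :=
      fun i j => by ring
    simp only [e3, Finset.sum_add_distrib, Finset.sum_sub_distrib]
    simp only [← Finset.mul_sum]
    simp only [← Finset.sum_mul]
    simp only [← Finset.mul_sum]
    rw [fderiv_grad, dot, fderiv_eq_sum R x (V x)]
    ring
  have e4 : ∀ x, ∑ i, pderiv i (hw (n := n)) x * X i x = 0 := by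
    intro x
    have h1 : ∑ i, pderiv i (hw (n := n)) x * X i x = zt ρ p x * fderiv ℝ hw x (V x) := by
      simp only [hX, hVi]
      rw [fderiv_eq_sum, Finset.mul_sum]
      exact Finset.sum_congr rfl fun i _ => by ring
    rw [h1]
    by_cases hx : x = 0
    · rw [hzA x (Or.inl (by rw [hx, norm_zero]; norm_num)), zero_mul]
    · rw [fderiv_hw hx]
      have : ⟪x, V x⟫ = 0 := by
        simp only [hV]
        rw [inner_sub_right, inner_smul_right, inner_smul_right, real_inner_comm x p,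
          real_inner_comm x e]
        ring
      rw [this]; ring
  simp only [e1, e2, e4, mul_zero, integral_zero, neg_zero] at hid
  set P : EE → ℝ := fun x => qq hw R ε x * (dpsi (‖x - p‖ ^ 2 / ρ ^ 2) * (2 / ρ ^ 2) * ⟪e, x⟫)
    with hP
  set B : EE → ℝ := fun x => sg R ε x * (fderiv ℝ R x (V x) * fderiv ℝ (zt ρ p) x (∇ R x)) with hB
  have iP : Integrable P := by
    apply int_of (b := 1 / 2) (c := 3 / 2) (by norm_num)
    · intro x hx
      have : dpsi (‖x - p‖ ^ 2 / ρ ^ 2) = 0 := by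
        by_cases h : ρ ≤ ‖x - p‖
        · exact (zt_out hρ h).2
        · have := norm_between hp hρ1 (not_le.1 h)
          rcases hx with hx | hx <;> linarith [this.1, this.2]
      simp only [hP, this]; simp
    · intro x hx
      have c1 : ContinuousAt (fun y : EE => dpsi (‖y - p‖ ^ 2 / ρ ^ 2)) x :=
        (continuous_dpsi.comp (((continuous_id.sub continuous_const).norm.pow 2).div_const _)).continuousAt
      exact (c_qq H hx).mul ((c1.mul continuousAt_const).mul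
        (continuous_const.inner continuous_id).continuousAt)
  have iB : Integrable B := by
    apply int_of (b := 1 / 2) (c := 3 / 2) (by norm_num)
    · intro x hx
      simp only [hB, hzA.fd hx]; simp
    · intro x hx
      have cg : ContinuousAt (fun y => fderiv ℝ (zt ρ p) y (∇ R y)) x := by
        apply (((zt_cd ρ p).continuous_fderiv one_ne_zero).continuousAt).clm_apply
        unfold gradient
        exact (LinearIsometryEquiv.continuous _).continuousAt.comp (c_fd H hx)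
      have cV : ContinuousAt V x := by
        apply Continuous.continuousAt
        simp only [hV]
        fun_prop
      exact (c_sg H hx).mul (((c_fd H hx).clm_apply cV).mul cg)
  have h1 : ∫ x, P x = ∫ x, B x := by
    have := integral_sub iP iB
    have h2 : ∫ x, (P x - B x) = 0 := hid
    linarith
  rw [h1, ← Real.norm_eq_abs]
  have iK : Integrable fun x => KK a ε R x * φ x := by
    apply int_of hb (c := c)
    · intro x hx
      simp only [hA x hx, mul_zero]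
    · intro x hx
      exact (c_KK H a hx).mul hφ.continuousAt
  have iQ : Integrable fun x => qq hw R ε x * φ x := by
    apply int_of hb (c := c)
    · intro x hx
      simp only [hA x hx, mul_zero]
    · intro x hx
      exact (c_qq H hx).mul hφ.continuousAt
  have h2 : 6 / ρ / c0 * (β⁻¹ * (∫ x, KK a ε R x * φ x) + β * ∫ x, qq hw R ε x * φ x) =
      ∫ x, 6 / ρ / c0 * (β⁻¹ * (KK a ε R x * φ x) + β * (qq hw R ε x * φ x)) := by
    rw [integral_const_mul, integral_add (iK.const_mul _) (iQ.const_mul _), integral_const_mul,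
      integral_const_mul]
  rw [h2]
  apply norm_integral_le_of_norm_le (((iK.const_mul _).add (iQ.const_mul _)).const_mul _)
  refine Eventually.of_forall fun x => ?_
  show ‖B x‖ ≤ 6 / ρ / c0 * (β⁻¹ * (KK a ε R x * φ x) + β * (qq hw R ε x * φ x))
  have q0 := qq_nn H x
  by_cases hx : ρ ≤ ‖x - p‖
  · have hB0 : B x = 0 := by
      simp only [hB]
      rw [zt_fderiv, (zt_out hρ hx).2]
      ring
    rw [hB0, norm_zero]
    by_cases hx0 : x = 0
    · have hφx : ‖x‖ < b ∨ c < ‖x‖ := Or.inl (by rw [hx0, norm_zero]; exact hb)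
      rw [hA x hφx]; simp
    · have := KK_nonneg H ha hx0
      have := hφ0 x
      positivity
  · obtain ⟨hx1, hx2⟩ := norm_between hp hρ1 (not_le.1 hx)
    have hx0 : x ≠ 0 := by
      intro h; rw [h, norm_zero] at hx1; linarith
    have hφx := hφ1 x hx1 hx2
    have s0 := sg_nonneg H.eps_pos R x
    set u : ℝ := Real.sqrt (gsq R x - (fderiv ℝ R x a) ^ 2) with hu
    have hu2 : u ^ 2 = gsq R x - (fderiv ℝ R x a) ^ 2 := Real.sq_sqrt (sub_nonneg.2 (fd_sq_le ha x))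
    have hu0 : 0 ≤ u := Real.sqrt_nonneg _
    set v : ℝ := ‖∇ R x‖ with hv
    have hv2 : v ^ 2 = gsq R x := norm_grad_sq R x
    have hv0 : 0 ≤ v := norm_nonneg _
    have hVa : ⟪a, V x⟫ = 0 := by
      simp only [hV]
      rw [inner_sub_right, inner_smul_right, inner_smul_right, hap, hae]; ring
    have hVn : ‖V x‖ ≤ 3 := by
      simp only [hV]
      have n1 := abs_real_inner_le_norm p x
      have n2 := abs_real_inner_le_norm e x
      rw [hp, one_mul] at n1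
      rw [he, one_mul] at n2
      calc ‖⟪p, x⟫ • e - ⟪e, x⟫ • p‖ ≤ ‖⟪p, x⟫ • e‖ + ‖⟪e, x⟫ • p‖ := norm_sub_le _ _
        _ = |⟪p, x⟫| + |⟪e, x⟫| := by
          rw [norm_smul, norm_smul, hp, he, mul_one, mul_one, Real.norm_eq_abs, Real.norm_eq_abs]
        _ ≤ 3 := by linarith
    have b1 : |fderiv ℝ R x (V x)| ≤ 3 * u := by
      have h3 := tan_le (R := R) ha hVa x
      rw [← hu2, ← mul_pow] at h3
      have h4 := abs_le_of_sq_le_sq h3 (by positivity)
      exact (abs_le.2 (abs_le.1 h4)).trans (by gcongr)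
    have b2 : |fderiv ℝ (zt ρ p) x (∇ R x)| ≤ 4 / ρ * v := by
      rw [zt_fderiv, abs_mul, abs_mul]
      have h3 : |dpsi (‖x - p‖ ^ 2 / ρ ^ 2)| ≤ 2 := by
        rw [abs_le]
        constructor
        · exact neg_two_le_dpsi (by positivity)
        · have := dpsi_nonpos (‖x - p‖ ^ 2 / ρ ^ 2); linarith
      have h4 := abs_real_inner_le_norm (x - p) (∇ R x)
      have h5 : |⟪x - p, ∇ R x⟫| ≤ ρ * v := h4.trans (by gcongr; exact (not_le.1 hx).le)
      rw [abs_of_nonneg (by positivity : (0 : ℝ) ≤ 2 / ρ ^ 2)]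
      calc |dpsi (‖x - p‖ ^ 2 / ρ ^ 2)| * (2 / ρ ^ 2) * |⟪x - p, ∇ R x⟫|
          ≤ 2 * (2 / ρ ^ 2) * (ρ * v) := by gcongr
        _ = 4 / ρ * v := by field_simp; ring
    have b3 : ‖B x‖ ≤ 12 / ρ * (sg R ε x * (u * v)) := by
      simp only [hB]
      rw [Real.norm_eq_abs, abs_mul, abs_mul, abs_of_nonneg s0]
      calc sg R ε x * (|fderiv ℝ R x (V x)| * |fderiv ℝ (zt ρ p) x (∇ R x)|)
          ≤ sg R ε x * ((3 * u) * (4 / ρ * v)) := by gcongr
        _ = 12 / ρ * (sg R ε x * (u * v)) := by ring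
    have b4 : u * v ≤ 1 / 2 * (β⁻¹ * u ^ 2 + β * v ^ 2) := by
      have h3 : 0 ≤ (u - β * v) ^ 2 := sq_nonneg _
      have h4 : β⁻¹ * (u - β * v) ^ 2 = β⁻¹ * u ^ 2 + β * v ^ 2 - 2 * (u * v) := by
        field_simp; ring
      have h5 : 0 ≤ β⁻¹ * (u - β * v) ^ 2 := by positivity
      linarith
    have b5 : sg R ε x * u ^ 2 ≤ KK a ε R x := by rw [hu2]; exact sg_tilt_le H a hx0
    have b6 : sg R ε x * v ^ 2 ≤ qq hw R ε x := by rw [hv2]; exact sg_gsq_le H hx0
    have b7 : sg R ε x * (u * v) ≤ 1 / 2 * (β⁻¹ * KK a ε R x + β * qq hw R ε x) := by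
      calc sg R ε x * (u * v) ≤ sg R ε x * (1 / 2 * (β⁻¹ * u ^ 2 + β * v ^ 2)) := by gcongr
        _ = 1 / 2 * (β⁻¹ * (sg R ε x * u ^ 2) + β * (sg R ε x * v ^ 2)) := by ring
        _ ≤ _ := by gcongr
    have k0 := KK_nonneg H ha hx0
    have b8 : 1 ≤ φ x / c0 := by rw [le_div_iff₀ hc0]; linarith
    calc ‖B x‖ ≤ 12 / ρ * (1 / 2 * (β⁻¹ * KK a ε R x + β * qq hw R ε x)) * 1 := by
          rw [mul_one]; refine b3.trans ?_; gcongr
      _ ≤ 12 / ρ * (1 / 2 * (β⁻¹ * KK a ε R x + β * qq hw R ε x)) * (φ x / c0) := by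
          gcongr
      _ = _ := by field_simp; ring

/-- derivative under the integral sign along a great circle -/
theorem FF_deriv (H : ACSol {0}ᶜ hw R ε) {p e : EE} (hp : ‖p‖ = 1) (he : ‖e‖ = 1)
    (hpe : ⟪p, e⟫ = 0) {ρ : ℝ} (hρ : 0 < ρ) (hρ1 : ρ ≤ 1 / 2) (t0 : ℝ) :
    HasDerivAt (fun t => FF ρ (qq hw R ε) (Real.cos t • p + Real.sin t • e))
      (∫ x, -(qq hw R ε x * (dpsi (‖x - (Real.cos t0 • p + Real.sin t0 • e)‖ ^ 2 / ρ ^ 2) *
        (2 / ρ ^ 2) * ⟪(-Real.sin t0) • p + Real.cos t0 • e, x⟫))) t0 := by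
  set c : ℝ → EE := fun t => Real.cos t • p + Real.sin t • e with hc
  set c' : ℝ → EE := fun t => (-Real.sin t) • p + Real.cos t • e with hc'
  have hcn : ∀ t, ‖c t‖ = 1 := by
    intro t
    have := E2x782.circle_norm hp he hpe (Real.cos t) (Real.sin t)
    rw [Real.cos_sq_add_sin_sq] at this
    exact (pow_eq_one_iff_of_nonneg (norm_nonneg _) two_ne_zero).1 this
  have hcn' : ∀ t, ‖c' t‖ = 1 := by
    intro t
    have := E2x782.circle_norm hp he hpe (-Real.sin t) (Real.cos t)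
    rw [neg_sq, Real.sin_sq_add_cos_sq] at this
    exact (pow_eq_one_iff_of_nonneg (norm_nonneg _) two_ne_zero).1 this
  have hcc : ∀ t, ⟪c t, c' t⟫ = 0 := by
    intro t
    simp only [hc, hc']
    rw [inner_add_left, inner_add_right, inner_add_right]
    simp only [inner_smul_left, inner_smul_right, real_inner_self_eq_norm_sq, hp, he, hpe,
      real_inner_comm p e]
    simp
    ring
  have hcd : ∀ t, HasDerivAt c (c' t) t := fun t =>
    ((Real.hasDerivAt_cos t).smul_const p).add ((Real.hasDerivAt_sin t).smul_const e)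
  have hout : ∀ t (x : EE), ‖x‖ < 1 / 2 ∨ 3 / 2 < ‖x‖ → ρ ≤ ‖x - c t‖ := by
    intro t x hx
    by_contra h
    have := norm_between (hcn t) hρ1 (not_le.1 h)
    rcases hx with hx | hx <;> linarith [this.1, this.2]
  have iF : ∀ t, Integrable fun x => qq hw R ε x * psi (‖x - c t‖ ^ 2 / ρ ^ 2) := by
    intro t
    apply int_of (b := 1 / 2) (c := 3 / 2) (by norm_num)
    · intro x hx
      beta_reduce
      rw [(zt_out hρ (hout t x hx)).1, mul_zero]
    · intro x hx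
      exact (c_qq H hx).mul (continuous_psi.comp
        (((continuous_id.sub continuous_const).norm.pow 2).div_const _)).continuousAt
  have iF' : ∀ t, Integrable fun x => -(qq hw R ε x * (dpsi (‖x - c t‖ ^ 2 / ρ ^ 2) *
        (2 / ρ ^ 2) * ⟪c' t, x⟫)) := by
    intro t
    apply Integrable.neg
    apply int_of (b := 1 / 2) (c := 3 / 2) (by norm_num)
    · intro x hx
      beta_reduce
      rw [(zt_out hρ (hout t x hx)).2]; ring
    · intro x hx
      have c1 : ContinuousAt (fun y : EE => dpsi (‖y - c t‖ ^ 2 / ρ ^ 2)) x :=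
        (continuous_dpsi.comp
          (((continuous_id.sub continuous_const).norm.pow 2).div_const _)).continuousAt
      exact (c_qq H hx).mul ((c1.mul continuousAt_const).mul
        (continuous_const.inner continuous_id).continuousAt)
  have iB : Integrable fun x => qq hw R ε x * (cutH (1 / 2) (3 / 2) ‖x‖ * (6 / ρ ^ 2)) := by
    apply int_of (b := 1 / 2 / 2) (c := 3 / 2 + 1) (by norm_num)
    · intro x hx
      beta_reduce
      rw [cutH_out (by norm_num) hx]; ring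
    · intro x hx
      exact (c_qq H hx).mul ((((cutH_cont _ _).comp continuous_norm).continuousAt).mul
        continuousAt_const)
  refine (hasDerivAt_integral_of_dominated_loc_of_deriv_le (s := univ)
    (F := fun t x => qq hw R ε x * psi (‖x - c t‖ ^ 2 / ρ ^ 2))
    (F' := fun t x => -(qq hw R ε x * (dpsi (‖x - c t‖ ^ 2 / ρ ^ 2) *
        (2 / ρ ^ 2) * ⟪c' t, x⟫)))
    (bound := fun x => qq hw R ε x * (cutH (1 / 2) (3 / 2) ‖x‖ * (6 / ρ ^ 2)))
    univ_mem (Eventually.of_forall fun t => (iF t).aestronglyMeasurable) (iF t0)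
    (iF' t0).aestronglyMeasurable ?_ iB ?_).2
  · refine Eventually.of_forall fun x t _ => ?_
    have q0 := qq_nn H x
    rw [norm_neg, norm_mul, Real.norm_of_nonneg q0]
    apply mul_le_mul_of_nonneg_left _ q0
    by_cases hx : ρ ≤ ‖x - c t‖
    · rw [(zt_out hρ hx).2, zero_mul, zero_mul, norm_zero]
      exact mul_nonneg (cutH_nonneg _ _ _) (by positivity)
    · obtain ⟨hx1, hx2⟩ := norm_between (hcn t) hρ1 (not_le.1 hx)
      rw [cutH_one (by norm_num) hx1 hx2, one_mul, Real.norm_eq_abs, abs_mul, abs_mul,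
        abs_of_nonneg (by positivity : (0 : ℝ) ≤ 2 / ρ ^ 2)]
      have h3 : |dpsi (‖x - c t‖ ^ 2 / ρ ^ 2)| ≤ 2 := by
        rw [abs_le]
        constructor
        · exact neg_two_le_dpsi (by positivity)
        · have := dpsi_nonpos (‖x - c t‖ ^ 2 / ρ ^ 2); linarith
      have h4 := abs_real_inner_le_norm (c' t) x
      rw [hcn' t, one_mul] at h4
      calc |dpsi (‖x - c t‖ ^ 2 / ρ ^ 2)| * (2 / ρ ^ 2) * |⟪c' t, x⟫|
          ≤ 2 * (2 / ρ ^ 2) * (3 / 2) := by gcongr; exact h4.trans hx2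
        _ = 6 / ρ ^ 2 := by ring
  · refine Eventually.of_forall fun x t _ => ?_
    have h1 : HasDerivAt (fun t => ‖x - c t‖ ^ 2 / ρ ^ 2) (2 * ⟪x - c t, -c' t⟫ / ρ ^ 2) t :=
      (((hcd t).const_sub x).norm_sq).div_const _
    have h2 := ((hasDerivAt_psi (‖x - c t‖ ^ 2 / ρ ^ 2)).comp t h1).const_mul (qq hw R ε x)
    refine h2.congr_deriv ?_
    rw [inner_neg_right, inner_sub_left, hcc t, real_inner_comm (c' t) x]
    ring

variable {d : ℕ}

local notation "WW" => EuclideanSpace ℝ (Fin d)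

/-- NEAR CONSTANCY for one solution -/
theorem nc_pair (H : ACSol {0}ᶜ hw R ε) {a : EE} (ha : ‖a‖ = 1) (hd : 2 ≤ d)
    (J : EuclideanSpace ℝ (Fin d) →ₗᵢ[ℝ] EuclideanSpace ℝ (Fin n))
    (hJ1 : ∀ w, ⟪a, J w⟫ = 0) {ρ : ℝ} (hρ : 0 < ρ)
    (hρ1 : ρ ≤ 1 / 2) {φ : EE → ℝ} (hφ : Continuous φ) {b c : ℝ} (hb : 0 < b) (hA : Ann b c φ)
    (hφ0 : ∀ x, 0 ≤ φ x) {c0 : ℝ} (hc0 : 0 < c0)
    (hφ1 : ∀ x : EE, 1 / 2 ≤ ‖x‖ → ‖x‖ ≤ 3 / 2 → c0 ≤ φ x) {β : ℝ} (hβ : 0 < β)
    {v w : WW} (hv : ‖v‖ = 1) (hw' : ‖w‖ = 1) :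
    |FF ρ (qq hw R ε) (J v) - FF ρ (qq hw R ε) (J w)| ≤
      Real.pi * (6 / ρ / c0 * (β⁻¹ * (∫ x, KK a ε R x * φ x) + β * ∫ x, qq hw R ε x * φ x)) := by
  obtain ⟨e, he, hve, hwc⟩ := E2x782.exists_circle hd hv hw'
  set θ := InnerProductGeometry.angle v w with hθ
  have hθ0 : 0 ≤ θ := InnerProductGeometry.angle_nonneg _ _
  have hθ1 : θ ≤ Real.pi := InnerProductGeometry.angle_le_pi _ _
  have hp : ‖J v‖ = 1 := by rw [J.norm_map, hv]
  have he' : ‖J e‖ = 1 := by rw [J.norm_map, he]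
  have hpe : ⟪J v, J e⟫ = 0 := by rw [J.inner_map_map, hve]
  set C : ℝ := 6 / ρ / c0 * (β⁻¹ * (∫ x, KK a ε R x * φ x) + β * ∫ x, qq hw R ε x * φ x) with hC
  have hd' : ∀ t, HasDerivAt (fun t => FF ρ (qq hw R ε) (Real.cos t • J v + Real.sin t • J e)) _ t :=
    fun t => FF_deriv H hp he' hpe hρ hρ1 t
  have hb' : ∀ t, ‖∫ x, -(qq hw R ε x * (dpsi (‖x - (Real.cos t • J v + Real.sin t • J e)‖ ^ 2 /
        ρ ^ 2) * (2 / ρ ^ 2) * ⟪(-Real.sin t) • J v + Real.cos t • J e, x⟫))‖ ≤ C := by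
    intro t
    rw [integral_neg, norm_neg, Real.norm_eq_abs]
    apply nc_one H ha _ _ _ _ _ hρ hρ1 hφ hb hA hφ0 hc0 hφ1 hβ
    · have := E2x782.circle_norm hp he' hpe (Real.cos t) (Real.sin t)
      rw [Real.cos_sq_add_sin_sq] at this
      exact (pow_eq_one_iff_of_nonneg (norm_nonneg _) two_ne_zero).1 this
    · have := E2x782.circle_norm hp he' hpe (-Real.sin t) (Real.cos t)
      rw [neg_sq, Real.sin_sq_add_cos_sq] at this
      exact (pow_eq_one_iff_of_nonneg (norm_nonneg _) two_ne_zero).1 this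
    · rw [inner_add_left, inner_add_right, inner_add_right]
      simp only [inner_smul_left, inner_smul_right, real_inner_self_eq_norm_sq, hp, he', hpe,
        real_inner_comm (J v) (J e)]
      simp
      ring
    · rw [inner_add_right, inner_smul_right, inner_smul_right, hJ1, hJ1]; ring
    · rw [inner_add_right, inner_smul_right, inner_smul_right, hJ1, hJ1]; ring
  have hC0 : 0 ≤ C := (norm_nonneg _).trans (hb' 0)
  have h1 := Convex.norm_image_sub_le_of_norm_hasDerivWithin_le (s := Icc (0 : ℝ) θ) (C := C)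
    (f := fun t => FF ρ (qq hw R ε) (Real.cos t • J v + Real.sin t • J e))
    (fun t _ => (hd' t).hasDerivWithinAt) (fun t _ => hb' t)
    (convex_Icc _ _) (left_mem_Icc.2 hθ0) (right_mem_Icc.2 hθ0)
  have h2 : Real.cos 0 • J v + Real.sin 0 • J e = J v := by simp
  have h3 : Real.cos θ • J v + Real.sin θ • J e = J w := by
    rw [hwc, map_add, map_smul, map_smul]
  simp only [h2, h3] at h1
  rw [Real.norm_eq_abs, Real.norm_eq_abs, sub_zero, abs_of_nonneg hθ0, abs_sub_comm] at h1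
  calc _ ≤ C * θ := h1
    _ ≤ C * Real.pi := by gcongr
    _ = Real.pi * C := mul_comm _ _

/-- radial cut-off -/
def ph0 (t : ℝ) : ℝ := psi ((t ^ 2 - 5 / 4) ^ 2 * (25 / 36))

theorem ph0_nonneg (t : ℝ) : 0 ≤ ph0 t := psi_nonneg _

theorem ph0_cont : Continuous ph0 := by
  unfold ph0
  exact continuous_psi.comp (by fun_prop)

theorem ph0_out {t : ℝ} (ht0 : 0 ≤ t) (ht : t < 1 / 5 ∨ 8 / 5 < t) : ph0 t = 0 := by
  apply psi_of_one_le
  rcases ht with ht | ht
  · have : t ^ 2 ≤ 1 / 25 := by nlinarith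
    nlinarith
  · have : 64 / 25 ≤ t ^ 2 := by nlinarith
    nlinarith

theorem ph0_low {t : ℝ} (h1 : 1 / 2 ≤ t) (h2 : t ≤ 3 / 2) : (11 / 36) ^ 2 ≤ ph0 t := by
  have h3 : 1 / 4 ≤ t ^ 2 := by nlinarith
  have h4 : t ^ 2 ≤ 9 / 4 := by nlinarith
  have h5 : (t ^ 2 - 5 / 4) ^ 2 ≤ 1 := by nlinarith
  unfold ph0
  rw [MS852.psi_of_le_one (by linarith)]
  apply pow_le_pow_left₀ (by norm_num)
  linarith

theorem ph_cd : ContDiff ℝ 1 fun x : EE => ph0 ‖x‖ := by
  unfold ph0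
  apply contDiff_psi.comp
  exact (((contDiff_norm_sq ℝ).sub contDiff_const).pow 2).mul contDiff_const

/-- NEAR CONSTANCY for a sequence of solutions concentrating on the equator -/
theorem nc_seq (hn : 3 ≤ n) {ε : ℕ → ℝ} {R : ℕ → EE → ℝ} (H : ∀ k, ACSol {0}ᶜ hw (R k) (ε k))
    (hs : ∀ k, SmHom0 (R k)) {E : ℝ}
    (hE : Tendsto (fun k => SE (qq hw (R k) (ε k))) atTop (𝓝 E)) {a : EE} (ha : ‖a‖ = 1)
    (hsm : ∀ δ : ℝ, 0 < δ → ∀ η : ℝ, 0 < η → ∀ᶠ k in atTop, ∀ z : EE, ‖z‖ = 1 →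
      δ ≤ |⟪a, z⟫| → qq hw (R k) (ε k) z ≤ η)
    (hd : 2 ≤ d) (J : EuclideanSpace ℝ (Fin d) →ₗᵢ[ℝ] EuclideanSpace ℝ (Fin n))
    (hJ1 : ∀ w, ⟪a, J w⟫ = 0) {ρ : ℝ} (hρ : 0 < ρ) (hρ1 : ρ ≤ 1 / 2) :
    ∃ τ : ℕ → ℝ, Tendsto τ atTop (𝓝 0) ∧ ∀ k, ∀ v w : WW, ‖v‖ = 1 → ‖w‖ = 1 →
      |FF ρ (qq hw (R k) (ε k)) (J v) - FF ρ (qq hw (R k) (ε k)) (J w)| ≤ τ k := by
  have hq : ∀ k, Dens (qq hw (R k) (ε k)) := fun k => qq_dens (H k).eps_pos (hs k)
  have hA : Ann (1 / 5) (8 / 5) fun x : EE => ph0 ‖x‖ := fun x hx => ph0_out (norm_nonneg _) hx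
  set T : ℕ → ℝ := fun k => ∫ x, KK a (ε k) (R k) x * ph0 ‖x‖ with hT
  set S : ℕ → ℝ := fun k => ∫ x, qq hw (R k) (ε k) x * ph0 ‖x‖ with hS
  have hT0 : ∀ k, 0 ≤ T k := by
    intro k
    apply integral_nonneg
    intro x
    by_cases hx : x = 0
    · have h1 : ph0 ‖x‖ = 0 := hA x (Or.inl (by rw [hx, norm_zero]; norm_num))
      show 0 ≤ KK a (ε k) (R k) x * ph0 ‖x‖
      rw [h1, mul_zero]
    · exact mul_nonneg (KK_nonneg (H k) ha hx) (ph0_nonneg _)
  have hTt : Tendsto T atTop (𝓝 0) := by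
    set G0 : EE → ℝ := fun x => |⟪a, x⟫| *
      (2 * ‖fderiv ℝ (fun x : EE => ph0 ‖x‖) x‖ + 2 / (1 / 5) * ph0 ‖x‖) with hG0
    have hG0c : Continuous G0 := by
      have c1 := (ph_cd (n := n)).continuous_fderiv one_ne_zero
      have c2 := (ph_cd (n := n)).continuous
      exact ((continuous_const.inner continuous_id).abs).mul
        ((continuous_const.mul c1.norm).add (continuous_const.mul c2))
    have hG0A : Ann (1 / 5) (8 / 5) G0 := by
      intro x hx
      have e1 : ph0 ‖x‖ = 0 := hA x hx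
      have e2 := hA.fd hx
      simp only [hG0]
      rw [e2, e1]; simp
    have h1 := conc hn hq hE hsm hG0c (g := fun _ => 0) continuous_const (b := 1 / 5) (c := 8 / 5)
      (by norm_num) hG0A (fun _ _ => rfl) (fun x hx => by simp only [hG0]; rw [hx]; simp)
    simp only [mul_zero, integral_zero] at h1
    refine squeeze_zero hT0 (fun k => ?_) h1
    exact tilt (H k) ha ph_cd (fun x => ph0_nonneg _) (by norm_num) hA
  have hSt : ∃ L, Tendsto S atTop (𝓝 L) := by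
    set ph1 : ℝ → ℝ := fun t => ph0 (max t 0) with hph1
    have h1 : ∀ k, S k = (∫ t in Ioi (0 : ℝ), t ^ (n - 3) * ph1 t) * SE (qq hw (R k) (ε k)) := by
      intro k
      have hc1 : Continuous ph1 := ph0_cont.comp (continuous_id.max continuous_const)
      rw [← (hq k).radial hn hc1 (a := 1 / 5) (b := 8 / 5) (by norm_num)]
      · show ∫ x, qq hw (R k) (ε k) x * ph0 ‖x‖ = _
        congr 1
        funext x
        simp only [hph1]
        rw [max_eq_left (norm_nonneg _)]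
      · intro t ht
        apply ph0_out (le_max_right _ _)
        rcases ht with ht | ht
        · left; exact max_lt ht (by norm_num)
        · right; exact lt_of_lt_of_le ht (le_max_left _ _)
    refine ⟨(∫ t in Ioi (0 : ℝ), t ^ (n - 3) * ph1 t) * E, ?_⟩
    rw [funext h1]
    exact hE.const_mul _
  obtain ⟨L, hL⟩ := hSt
  have hc0 : (0 : ℝ) < (11 / 36) ^ 2 := by norm_num
  have hsq : Tendsto (fun k => Real.sqrt (T k)) atTop (𝓝 0) := by
    have := (Real.continuous_sqrt.tendsto 0).comp hTt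
    rwa [Real.sqrt_zero] at this
  set β : ℕ → ℝ := fun k => Real.sqrt (T k) + 1 / ((k : ℝ) + 1) with hβ
  have hβ0 : ∀ k, 0 < β k := fun k => by positivity
  have hβt : Tendsto β atTop (𝓝 0) := by
    have := hsq.add (tendsto_one_div_add_atTop_nhds_zero_nat (𝕜 := ℝ))
    rwa [add_zero] at this
  refine ⟨fun k => Real.pi * (6 / ρ / (11 / 36) ^ 2 * (Real.sqrt (T k) + β k * S k)), ?_, ?_⟩
  · have := ((hsq.add (hβt.mul hL)).const_mul (6 / ρ / (11 / 36) ^ 2)).const_mul Real.pi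
    simpa using this
  · intro k v w hv hw'
    refine (nc_pair (H k) ha hd J hJ1 hρ hρ1 ph_cd.continuous (b := 1 / 5) (by norm_num) hA
      (fun x => ph0_nonneg _) hc0 (fun x h1 h2 => ph0_low h1 h2) (hβ0 k) hv hw').trans ?_
    have h1 : (β k)⁻¹ * T k ≤ Real.sqrt (T k) := by
      rw [inv_mul_le_iff₀ (hβ0 k)]
      calc T k = Real.sqrt (T k) * Real.sqrt (T k) := (Real.mul_self_sqrt (hT0 k)).symm
        _ ≤ β k * Real.sqrt (T k) := by
          apply mul_le_mul_of_nonneg_right _ (Real.sqrt_nonneg _)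
          simp only [hβ]
          have : (0 : ℝ) < 1 / ((k : ℝ) + 1) := by positivity
          linarith
    show Real.pi * (6 / ρ / (11 / 36) ^ 2 * ((β k)⁻¹ * T k + β k * S k)) ≤
      Real.pi * (6 / ρ / (11 / 36) ^ 2 * (Real.sqrt (T k) + β k * S k))
    gcongr

end Crest.Agent.R246.Flatx992
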