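import Crest.Agent.R246.Flatx3_992

/-!
Row 246, block GL3 (helper992), part 4: the flat value, the scaling to Lemma MS and the core of the
flat exclusion.
-/

set_option autoImplicit false

open Filter Topology Metric Set MeasureTheory
open scoped ContDiff RealInnerProductSpace Gradient
open Crest.GeometryTopology.CoordMetric Crest.GeometryTopology.AffineMaximal
open Crest.Agent.R236.Jet Crest.Agent.R202.SphDiv Crest.Agent.R246.D2x782 Crest.Agent.R246.Lim538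
open Crest.Agent.R246.MSP782 (hw cd_hw acsol_of_sphere norm_grad_sq fderiv_grad)
open Crest.Agent.R246.MS852 (psi cpsi psi_nonneg psi_of_one_le psi_le_one continuous_psi)

noncomputable section

namespace Crest.Agent.R246.Flatx992

variable {n d : ℕ}

local notation "EE" => EuclideanSpace ℝ (Fin n)
local notation "WW" => EuclideanSpace ℝ (Fin d)

/-! ### the flat value -/

theorem psi_scale {ρ : ℝ} (hρ : 0 < ρ) (w : WW) :
    ∫ x : WW, psi (‖x - w‖ ^ 2 / ρ ^ 2) = ρ ^ d * cpsi d := by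
  have h1 := integral_sub_right_eq_self (μ := (volume : Measure WW))
    (fun x : WW => psi (‖x‖ ^ 2 / ρ ^ 2)) w
  rw [h1]
  have h2 := Measure.integral_comp_inv_smul_of_nonneg (volume : Measure WW)
    (fun y : WW => psi (‖y‖ ^ 2)) hρ.le
  rw [finrank_euclideanSpace_fin, smul_eq_mul] at h2
  rw [cpsi, ← h2]
  congr 1
  funext x
  rw [norm_smul, mul_pow, norm_inv, Real.norm_of_nonneg hρ.le, inv_pow, mul_comm, div_eq_mul_inv]

theorem psi_ann {ρ : ℝ} (hρ : 0 < ρ) {w x : WW} (hw' : ‖w‖ = 1)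
    (hx : ‖x‖ < 1 - ρ ∨ 1 + ρ < ‖x‖) : psi (‖x - w‖ ^ 2 / ρ ^ 2) = 0 := by
  apply (zt_out hρ _).1
  have h1 := norm_sub_norm_le w x
  have h2 := norm_sub_norm_le x w
  rw [norm_sub_rev] at h1
  rw [hw'] at h1 h2
  rcases hx with hx | hx <;> linarith

theorem psi_int {ρ : ℝ} (hρ : 0 < ρ) (hρ1 : ρ < 1) {w : WW} (hw' : ‖w‖ = 1) :
    Integrable fun x : WW => psi (‖x - w‖ ^ 2 / ρ ^ 2) := by
  apply int_of (b := 1 - ρ) (c := 1 + ρ) (by linarith)
  · intro x hx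
    exact psi_ann hρ hw' hx
  · intro x _
    exact (continuous_psi.comp
      (((continuous_id.sub continuous_const).norm.pow 2).div_const _)).continuousAt

theorem cc_int {ρ : ℝ} (hρ : 0 < ρ) (hρ1 : ρ < 1) {w : WW} (hw' : ‖w‖ = 1) :
    Integrable fun x : WW => ‖x‖⁻¹ * psi (‖x - w‖ ^ 2 / ρ ^ 2) := by
  apply int_of (b := 1 - ρ) (c := 1 + ρ) (by linarith)
  · intro x hx
    beta_reduce
    rw [psi_ann hρ hw' hx, mul_zero]
  · intro x hx
    exact (continuous_norm.continuousAt.inv₀ (norm_ne_zero_iff.2 hx)).mul (continuous_psi.comp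
      (((continuous_id.sub continuous_const).norm.pow 2).div_const _)).continuousAt

theorem cc_le {ρ : ℝ} (hρ : 0 < ρ) (hρ1 : ρ < 1) {w : WW} (hw' : ‖w‖ = 1) :
    cc ρ w ≤ (1 - ρ)⁻¹ * (ρ ^ d * cpsi d) := by
  rw [← psi_scale hρ w, ← integral_const_mul]
  apply integral_mono (cc_int hρ hρ1 hw') ((psi_int hρ hρ1 hw').const_mul _)
  intro x
  beta_reduce
  by_cases hx : ‖x‖ < 1 - ρ ∨ 1 + ρ < ‖x‖
  · rw [psi_ann hρ hw' hx, mul_zero, mul_zero]
  · push Not at hx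
    apply mul_le_mul_of_nonneg_right _ (psi_nonneg _)
    exact inv_anti₀ (by linarith) hx.1

theorem cc_ge {ρ : ℝ} (hρ : 0 < ρ) (hρ1 : ρ < 1) {w : WW} (hw' : ‖w‖ = 1) :
    (1 + ρ)⁻¹ * (ρ ^ d * cpsi d) ≤ cc ρ w := by
  rw [← psi_scale hρ w, ← integral_const_mul]
  apply integral_mono ((psi_int hρ hρ1 hw').const_mul _) (cc_int hρ hρ1 hw')
  intro x
  beta_reduce
  by_cases hx : ‖x‖ < 1 - ρ ∨ 1 + ρ < ‖x‖
  · rw [psi_ann hρ hw' hx, mul_zero, mul_zero]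
  · push Not at hx
    apply mul_le_mul_of_nonneg_right _ (psi_nonneg _)
    exact inv_anti₀ (by linarith [hx.1]) hx.2

theorem cpsi_pos' : 0 < cpsi d := by
  unfold cpsi
  have hc : Continuous fun y : WW => psi (‖y‖ ^ 2) := continuous_psi.comp (continuous_norm.pow 2)
  apply hc.integral_pos_of_hasCompactSupport_nonneg_nonzero (x := 0)
  · apply HasCompactSupport.of_support_subset_isCompact (isCompact_closedBall (0 : WW) 1)
    intro x hx
    rw [mem_closedBall_zero_iff]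
    by_contra h
    apply hx
    apply psi_of_one_le
    nlinarith [norm_nonneg x]
  · intro x; exact psi_nonneg _
  · simp [psi]

/-! ### near the equator -/

/-- `|arcsin`-type estimate: if `|r| ≤ π/2` then `|r - sin r| ≤ 8 |sin r|³` for `|sin r| ≤ 1/2` -/
theorem sub_sin_le {r : ℝ} (hr : |r| ≤ Real.pi / 2) (hs : |Real.sin r| ≤ 1 / 2) :
    |r - Real.sin r| ≤ 8 * |Real.sin r| ^ 3 := by
  have h1 : |r| ≤ 2 * |Real.sin r| := by
    have h2 := Real.mul_abs_le_abs_sin hr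
    have h3 : 1 / 2 ≤ 2 / Real.pi := by
      rw [div_le_div_iff₀ two_pos Real.pi_pos]
      linarith [Real.pi_le_four]
    have h4 : 1 / 2 * |r| ≤ 2 / Real.pi * |r| := by gcongr
    linarith
  have h2 : |r| ≤ 1 := by linarith
  have h3 := Real.sin_bound h2
  have h4 : |r - Real.sin r| ≤ |r| ^ 3 / 6 + |r| ^ 5 / 100 := by
    have h5 : r - Real.sin r = r ^ 3 / 6 - (Real.sin r - (r - r ^ 3 / 6)) := by ring
    rw [h5]
    refine (abs_sub _ _).trans ?_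
    rw [abs_div, abs_pow]
    have : |(6 : ℝ)| = 6 := by norm_num
    rw [this]
    linarith
  have h5 : |r| ^ 5 ≤ |r| ^ 3 := pow_le_pow_of_le_one (abs_nonneg _) h2 (by norm_num)
  have h6 : |r| ^ 3 ≤ (2 * |Real.sin r|) ^ 3 := pow_le_pow_left₀ (abs_nonneg _) h1 3
  have h7 : (2 * |Real.sin r|) ^ 3 = 8 * |Real.sin r| ^ 3 := by ring
  have h8 : 0 ≤ |r| ^ 3 := by positivity
  linarith

theorem ball_norm {p y : EE} (hp : ‖p‖ = 1) {s : ℝ} (hy : y ∈ ball p s) :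
    1 - s < ‖y‖ ∧ ‖y‖ < 1 + s := by
  rw [mem_ball, dist_eq_norm] at hy
  have h1 := norm_sub_norm_le p y
  have h2 := norm_sub_norm_le y p
  rw [norm_sub_rev] at h1
  rw [hp] at h1 h2
  constructor <;> linarith

theorem hw_near {p y : EE} (hp : ‖p‖ = 1) {l : ℝ} (hl1 : l ≤ 1 / 64) (hy : y ∈ ball p (2 * l)) :
    |hw y - 1| ≤ 12 * l := by
  obtain ⟨h1, h2⟩ := ball_norm hp hy
  have hl : 0 < l := by
    have := dist_nonneg.trans_lt (mem_ball.1 hy); linarith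
  have hy0 : 1 / 2 < ‖y‖ := by linarith
  have e1 : hw y - 1 = (1 - ‖y‖) * ((1 + ‖y‖) / ‖y‖ ^ 2) := by
    unfold hw
    rw [nsq_eq]
    have : ‖y‖ ≠ 0 := by linarith
    field_simp
    ring
  rw [e1, abs_mul]
  have e2 : |1 - ‖y‖| ≤ 2 * l := by rw [abs_le]; constructor <;> linarith
  have e3 : |(1 + ‖y‖) / ‖y‖ ^ 2| ≤ 6 := by
    rw [abs_of_nonneg (by positivity), div_le_iff₀ (by positivity)]
    nlinarith
  calc |1 - ‖y‖| * |(1 + ‖y‖) / ‖y‖ ^ 2| ≤ 2 * l * 6 := by gcongr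
    _ = 12 * l := by ring

theorem dhw_near {p y : EE} (hp : ‖p‖ = 1) {l : ℝ} (hl1 : l ≤ 1 / 64) (hy : y ∈ ball p (2 * l)) :
    ‖fderiv ℝ (hw (n := n)) y‖ ≤ 16 := by
  obtain ⟨h1, h2⟩ := ball_norm hp hy
  have hl : 0 < l := by
    have := dist_nonneg.trans_lt (mem_ball.1 hy); linarith
  have hy0 : 1 / 2 < ‖y‖ := by linarith
  have hyne : y ≠ 0 := by intro h; rw [h, norm_zero] at hy0; linarith
  apply ContinuousLinearMap.opNorm_le_bound _ (by norm_num)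
  intro v
  rw [fderiv_hw hyne, norm_neg, Real.norm_eq_abs, abs_mul]
  have h3 := abs_real_inner_le_norm y v
  have h4 : |2 * hw y ^ 2| * ‖y‖ ≤ 16 := by
    unfold hw
    rw [nsq_eq, abs_of_nonneg (by positivity)]
    have : 2 * ((‖y‖ ^ 2)⁻¹) ^ 2 * ‖y‖ = 2 * ((‖y‖)⁻¹) ^ 3 := by
      have : ‖y‖ ≠ 0 := by linarith
      field_simp
    rw [this]
    have h5 : ‖y‖⁻¹ ≤ 2 := by
      rw [inv_le_comm₀ (by linarith) two_pos]; linarith
    calc 2 * ‖y‖⁻¹ ^ 3 ≤ 2 * 2 ^ 3 := by gcongr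
      _ = 16 := by norm_num
  calc |2 * hw y ^ 2| * |⟪y, v⟫| ≤ |2 * hw y ^ 2| * (‖y‖ * ‖v‖) := by gcongr
    _ = |2 * hw y ^ 2| * ‖y‖ * ‖v‖ := by ring
    _ ≤ 16 * ‖v‖ := by gcongr

theorem flat_near {p y e : EE} (hp : ‖p‖ = 1) (he : ‖e‖ = 1) (hep : ⟪e, p⟫ = 0) {l : ℝ}
    (hl1 : l ≤ 1 / 64) (hy : y ∈ ball p (2 * l)) {r : ℝ} (hr : |r| ≤ Real.pi / 2)
    (hphi : ‖y‖ * Real.sin r = ⟪e, y⟫) : |r - ⟪e, y - p⟫| ≤ 16 * l ^ 2 := by
  obtain ⟨h1, h2⟩ := ball_norm hp hy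
  have hl : 0 < l := by
    have := dist_nonneg.trans_lt (mem_ball.1 hy); linarith
  have hy0 : 1 / 2 < ‖y‖ := by linarith
  rw [inner_sub_right, hep, sub_zero]
  have h3 : |⟪e, y⟫| ≤ 2 * l := by
    have h4 : ⟪e, y⟫ = ⟪e, y - p⟫ := by rw [inner_sub_right, hep, sub_zero]
    rw [h4]
    have h5 := abs_real_inner_le_norm e (y - p)
    rw [he, one_mul] at h5
    rw [mem_ball, dist_eq_norm] at hy
    linarith
  have h4 : |Real.sin r| ≤ 4 * l := by
    rw [← hphi, abs_mul, abs_norm] at h3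
    nlinarith [abs_nonneg (Real.sin r)]
  have h5 := sub_sin_le hr (by linarith)
  have h6 : |Real.sin r - ⟪e, y⟫| ≤ 8 * l ^ 2 := by
    rw [← hphi]
    have : Real.sin r - ‖y‖ * Real.sin r = (1 - ‖y‖) * Real.sin r := by ring
    rw [this, abs_mul]
    have e2 : |1 - ‖y‖| ≤ 2 * l := by rw [abs_le]; constructor <;> linarith
    calc |1 - ‖y‖| * |Real.sin r| ≤ (2 * l) * (4 * l) := by gcongr
      _ = 8 * l ^ 2 := by ring
  have h7 : 8 * |Real.sin r| ^ 3 ≤ 8 * l ^ 2 := by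
    calc 8 * |Real.sin r| ^ 3 ≤ 8 * (4 * l) ^ 3 := by gcongr
      _ = 8 * l ^ 2 * (64 * l) := by ring
      _ ≤ 8 * l ^ 2 * 1 := by gcongr; linarith
      _ = 8 * l ^ 2 := mul_one _
  have h8 : r - ⟪e, y⟫ = (r - Real.sin r) + (Real.sin r - ⟪e, y⟫) := by ring
  rw [h8]
  refine (abs_add_le _ _).trans ?_
  linarith

/-- integrals against round bumps over a ball containing the support -/
theorem FF_setIntegral {q : EE → ℝ} {p : EE} {s l : ℝ} (hs : 0 < s) (hsl : s ≤ l) :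
    ∫ y in ball p l, q y * psi (‖y - p‖ ^ 2 / s ^ 2) = FF s q p := by
  unfold FF
  apply setIntegral_eq_integral_of_forall_compl_eq_zero
  intro x hx
  rw [mem_ball, dist_eq_norm, not_lt] at hx
  rw [(zt_out hs (hsl.trans hx)).1, mul_zero]

/-- existence of the plane -/
theorem exists_J (hn : n = d + 1) {e : EE} (he : ‖e‖ = 1) :
    ∃ J : EuclideanSpace ℝ (Fin d) →ₗᵢ[ℝ] EuclideanSpace ℝ (Fin n), (∀ w, ⟪e, J w⟫ = 0) ∧
      ∀ x, ⟪e, x⟫ = 0 → ∃ w, J w = x := by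
  have : Fact (Module.finrank ℝ EE = d + 1) := ⟨by rw [finrank_euclideanSpace_fin, hn]⟩
  have he0 : e ≠ 0 := by intro h; rw [h, norm_zero] at he; exact zero_ne_one he
  set b := OrthonormalBasis.fromOrthogonalSpanSingleton (𝕜 := ℝ) d he0 with hb
  refine ⟨(Submodule.subtypeₗᵢ _).comp b.repr.symm.toLinearIsometry, ?_, ?_⟩
  · intro w
    exact Submodule.mem_orthogonal_singleton_iff_inner_right.1 (b.repr.symm w).2
  · intro x hx
    refine ⟨b.repr ⟨x, Submodule.mem_orthogonal_singleton_iff_inner_right.2 hx⟩, ?_⟩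
    simp

theorem sigW_eq (m : ℕ) : sigW (m + 1) =
    ((volume : Measure (EuclideanSpace ℝ (Fin (m + 1)))).toSphere univ).toReal := by
  rw [Measure.toSphere_apply_univ, finrank_euclideanSpace_fin, ENNReal.toReal_mul]
  unfold sigW
  rw [ENNReal.toReal_natCast]
  rfl

/-- CORE OF THE FLAT EXCLUSION -/
theorem flat_core {m : ℕ} (hm : 1 ≤ m)
    (hMS : MS852.StMS (EuclideanSpace ℝ (Fin (m + 2))) (m + 1))
    {ε : ℕ → ℝ} {R : ℕ → EuclideanSpace ℝ (Fin (m + 2)) → ℝ}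
    (H : ∀ k, ACSol {0}ᶜ hw (R k) (ε k)) (hs : ∀ k, SmHom0 (R k))
    (hε : Tendsto ε atTop (𝓝 0)) {r : EuclideanSpace ℝ (Fin (m + 2)) → ℝ}
    {e : EuclideanSpace ℝ (Fin (m + 2))} (he : ‖e‖ = 1)
    (hr : ∀ x, x ≠ 0 → |r x| ≤ Real.pi / 2) (hphi : ∀ x, ‖x‖ * Real.sin (r x) = ⟪e, x⟫)
    (hconv : ∀ δ : ℝ, 0 < δ → ∀ᶠ k in atTop, ∀ x, x ≠ 0 → |R k x - r x| < δ) {θ : ℝ}
    (hE : Tendsto (fun k => SE (qq hw (R k) (ε k))) atTop (𝓝 (4 / 3 * θ * sigW (m + 1))))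
    (hθ : θ < 2) : θ ≤ 1 := by
  by_contra hcon
  push Not at hcon
  -- constants
  set δ0 : ℝ := min ((θ - 1) / 4) ((2 - θ) / 4) with hδ0d
  have hδ1 : δ0 ≤ (θ - 1) / 4 := min_le_left _ _
  have hδ2 : δ0 ≤ (2 - θ) / 4 := min_le_right _ _
  have hδ0 : 0 < δ0 := lt_min (by linarith) (by linarith)
  obtain ⟨η0, hη0, ρ1, hρ1, hρ1', hmain⟩ := hMS (by rw [finrank_euclideanSpace_fin]) δ0 hδ0
  set l : ℝ := min δ0 (min (η0 / 20) (1 / 2000)) with hl
  have hl1 : l ≤ δ0 := min_le_left _ _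
  have hl2 : l ≤ η0 / 20 := (min_le_right _ _).trans (min_le_left _ _)
  have hl3 : l ≤ 1 / 2000 := (min_le_right _ _).trans (min_le_right _ _)
  have hl0 : 0 < l := lt_min hδ0 (lt_min (by positivity) (by norm_num))
  obtain ⟨J, hJ1, hJ2⟩ := exists_J (n := m + 2) (d := m + 1) rfl he
  obtain ⟨w0, hw0⟩ : ∃ w0 : EuclideanSpace ℝ (Fin (m + 1)), ‖w0‖ = 1 :=
    ⟨EuclideanSpace.single 0 1, by simp⟩
  have hσ : 0 < sigW (m + 1) := sigW_pos (by omega)
  have hcp : 0 < cpsi (m + 1) := cpsi_pos'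
  -- smallness off the equator
  have hsm : ∀ δ : ℝ, 0 < δ → ∀ η : ℝ, 0 < η → ∀ᶠ k in atTop,
      ∀ z : EuclideanSpace ℝ (Fin (m + 2)), ‖z‖ = 1 → δ ≤ |⟪e, z⟫| → qq hw (R k) (ε k) z ≤ η := by
    intro δ hδ η hη
    have h1 : ∀ᶠ k in atTop, ε k ^ 3 / (δ / 2) ^ 4 < η := by
      have h2 : Tendsto (fun k => ε k ^ 3 / (δ / 2) ^ 4) atTop (𝓝 (0 ^ 3 / (δ / 2) ^ 4)) :=
        (hε.pow 3).div_const _
      rw [show (0 : ℝ) ^ 3 / (δ / 2) ^ 4 = 0 by simp] at h2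
      exact h2.eventually (gt_mem_nhds hη)
    filter_upwards [h1, hconv (δ / 2) (half_pos hδ)] with k hk1 hk2 z hz hzδ
    have hz0 : z ≠ 0 := by intro h; rw [h, norm_zero] at hz; exact zero_ne_one hz
    refine (qq_le (H k) hz (half_pos hδ) ?_).trans hk1.le
    have h3 := hk2 z hz0
    have h4 := hphi z
    rw [hz, one_mul] at h4
    have h5 : δ ≤ |r z| := by
      rw [← h4] at hzδ
      exact hzδ.trans Real.abs_sin_le_abs
    have h6 : |r z| ≤ |R k z| + |R k z - r z| := by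
      have := abs_sub_abs_le_abs_sub (r z) (R k z)
      rw [abs_sub_comm (r z)] at this
      linarith
    linarith
  have hq : ∀ k, Dens (qq hw (R k) (ε k)) := fun k => qq_dens (H k).eps_pos (hs k)
  have hlim : ∀ ρ : ℝ, 0 < ρ → ρ ≤ 1 / 2 →
      Tendsto (fun k => FF ρ (qq hw (R k) (ε k)) (J w0)) atTop (𝓝 (4 / 3 * θ * cc ρ w0)) := by
    intro ρ hρ hρh
    obtain ⟨τ, hτ, hnc⟩ := nc_seq (by omega) H hs hE he hsm (by omega) J hJ1 hρ hρh
    have h1 := avg (by omega) rfl hρ (by linarith) J hJ1 hJ2 hq hE hsm hτ hnc hw0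
    have h2 : 4 / 3 * θ * sigW (m + 1) * cc ρ w0 / sigW (m + 1) = 4 / 3 * θ * cc ρ w0 := by
      field_simp
    rwa [h2] at h1
  set p := J w0 with hp
  have hp1 : ‖p‖ = 1 := by rw [hp, J.norm_map, hw0]
  have hep : ⟪e, p⟫ = 0 := hJ1 w0
  have hsub : closedBall p (2 * l) ⊆ ({0}ᶜ : Set (EuclideanSpace ℝ (Fin (m + 2)))) := by
    intro y hy h0
    rw [mem_singleton_iff] at h0
    rw [h0, mem_closedBall, dist_eq_norm, zero_sub, norm_neg, hp1] at hy
    linarith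
  -- the three eventual conditions
  have hev1 : ∀ᶠ k in atTop, ε k < (20 * l) ^ 3 * l := hε.eventually (gt_mem_nhds (by positivity))
  have hev2 := hconv (l ^ 2) (by positivity)
  have hev3 : ∀ᶠ k in atTop, FF l (qq hw (R k) (ε k)) p <
      (2 - δ0) * (4 / 3 * cpsi (m + 1)) * l ^ (m + 1) := by
    refine (hlim l hl0 (by linarith)).eventually (gt_mem_nhds ?_)
    have h1 := cc_le hl0 (by linarith : l < 1) hw0
    have h2 : θ * (1 - l)⁻¹ < 2 - δ0 := by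
      rw [mul_inv_lt_iff₀ (by linarith)]
      nlinarith
    have hP : 0 < l ^ (m + 1) * cpsi (m + 1) := by positivity
    calc 4 / 3 * θ * cc l w0 ≤ 4 / 3 * θ * ((1 - l)⁻¹ * (l ^ (m + 1) * cpsi (m + 1))) := by gcongr
      _ = (θ * (1 - l)⁻¹) * (4 / 3 * (l ^ (m + 1) * cpsi (m + 1))) := by ring
      _ < (2 - δ0) * (4 / 3 * (l ^ (m + 1) * cpsi (m + 1))) := by gcongr
      _ = (2 - δ0) * (4 / 3 * cpsi (m + 1)) * l ^ (m + 1) := by ring
  have hev : ∀ᶠ k in atTop, FF (l * ρ1) (qq hw (R k) (ε k)) p ≤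
      (1 + δ0) * (4 / 3 * cpsi (m + 1)) * (l * ρ1) ^ (m + 1) := by
    filter_upwards [hev1, hev2, hev3] with k hk1 hk2 hk3
    obtain ⟨h', r', hH, -, -, -, hJ⟩ := MSP782.provider (H k) (d := m + 1) rfl hl0 hsub he
      (η := 20 * l) (by positivity) (by linarith)
      (by rw [div_le_iff₀ hl0]; exact hk1.le)
      (fun y hy => (hw_near hp1 (by linarith) hy).trans (by linarith))
      (fun y hy => by
        have := dhw_near hp1 (by linarith) hy
        calc l * ‖fderiv ℝ hw y‖ ≤ l * 16 := by gcongr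
          _ ≤ 20 * l := by linarith)
      (fun y hy => by
        have hy0 : y ≠ 0 := hsub (ball_subset_closedBall hy)
        have h1 := flat_near hp1 he hep (by linarith) hy (hr y hy0) (hphi y)
        have h2 := hk2 y hy0
        have h3 : R k y - ⟪e, y - p⟫ = (R k y - r y) + (r y - ⟪e, y - p⟫) := by ring
        rw [h3]
        refine (abs_add_le _ _).trans ?_
        nlinarith)
    have hJ1' := hJ 0 1
    have hJ2' := hJ 0 ρ1
    rw [smul_zero, add_zero, mul_one, FF_setIntegral hl0 (by linarith)] at hJ1'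
    rw [smul_zero, add_zero, FF_setIntegral (by positivity) (by nlinarith)] at hJ2'
    have hpl : 0 < l ^ (m + 1) := by positivity
    have h1 := hmain e (ε k / l) (20 * l) h' r' (by linarith) hH (by
      rw [← hJ1'] at hk3
      exact (lt_of_mul_lt_mul_right hk3 hpl.le).le)
    rw [← hJ2', mul_pow]
    calc _ ≤ ((1 + δ0) * (4 / 3 * cpsi (m + 1)) * ρ1 ^ (m + 1)) * l ^ (m + 1) := by gcongr
      _ = _ := by ring
  have hρl : l * ρ1 ≤ 1 / 2 := by nlinarith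
  have hfin := le_of_tendsto (hlim (l * ρ1) (by positivity) hρl) hev
  have h1 := cc_ge (by positivity : 0 < l * ρ1) (by linarith : l * ρ1 < 1) hw0
  have hP : 0 < (l * ρ1) ^ (m + 1) * cpsi (m + 1) := by positivity
  have h2 : θ * (1 + l * ρ1)⁻¹ * (4 / 3 * ((l * ρ1) ^ (m + 1) * cpsi (m + 1))) ≤
      (1 + δ0) * (4 / 3 * ((l * ρ1) ^ (m + 1) * cpsi (m + 1))) := by
    calc θ * (1 + l * ρ1)⁻¹ * (4 / 3 * ((l * ρ1) ^ (m + 1) * cpsi (m + 1)))
        = 4 / 3 * θ * ((1 + l * ρ1)⁻¹ * ((l * ρ1) ^ (m + 1) * cpsi (m + 1))) := by ring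
      _ ≤ 4 / 3 * θ * cc (l * ρ1) w0 := by gcongr
      _ ≤ _ := hfin
      _ = _ := by ring
  have h3 : θ * (1 + l * ρ1)⁻¹ ≤ 1 + δ0 := le_of_mul_le_mul_right h2 (by positivity)
  rw [mul_inv_le_iff₀ (by positivity)] at h3
  have h4 : l * ρ1 ≤ δ0 := by nlinarith
  nlinarith

end Crest.Agent.R246.Flatx992
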