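import Crest.Agent.R246.Flatx4_992
import Crest.Agent.R246.Skel2_656
import Crest.Agent.R246.Mass_872

/-!
Row 246, block GL3 (helper992), part 5: the flat exclusion `Skel2.StFlat` from Lemma MS.
-/

set_option autoImplicit false

open Filter Topology Metric Set MeasureTheory
open scoped ContDiff RealInnerProductSpace
open Crest.Agent.R246.MSP782 (hw acsol_of_sphere)
open Crest.Agent.R246.Lim538 (qq)
open Crest.GeometryTopology.SphereImmersion

noncomputable section

namespace Crest.Agent.R246.Flatx992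

theorem SE_eq_En {m : ℕ} {ε : ℝ} {R : Skel656.E m → ℝ} (h : Skel656.ACsol m ε R) :
    SE (qq hw R ε) = Skel656.En ε R := by
  rw [Vb872.En_eq h, SE_qq]
  rfl

theorem sigW_area (m : ℕ) : sigW (m + 1) = unitSphereArea m := by
  rw [sigW_eq, ThetaK688.toSphere_univ, ENNReal.toReal_ofReal (ThetaK688.unitSphereArea_pos m).le]

/-- **FLAT EXCLUSION** -/
theorem stFlat {m : ℕ} (hm : 1 ≤ m)
    (hMS : MS852.StMS (EuclideanSpace ℝ (Fin (m + 2))) (m + 1)) : Skel2.StFlat m := by
  intro U ε R r φ μ a hL _ ha ⟨e, he, hφ⟩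
  have hU := hL.neBot
  -- a subsequence
  have hex : ∀ k : ℕ, ∃ j, ε j < 1 / ((k : ℝ) + 1) ∧
      (∀ x ∈ ({0}ᶜ : Set (Skel656.E m)), dist (r x) (R j x) < 1 / ((k : ℝ) + 1)) ∧
      dist (3 / 4 * Skel656.En (ε j) (R j)) a < 1 / ((k : ℝ) + 1) := by
    intro k
    have hk : (0 : ℝ) < 1 / ((k : ℝ) + 1) := by positivity
    have h1 := hL.eps.eventually (gt_mem_nhds hk)
    have h2 := (Metric.tendstoUniformlyOn_iff.1 hL.conv) _ hk
    have h3 := (Metric.tendsto_nhds.1 hL.en) _ hk
    exact (h1.and (h2.and h3)).exists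
  choose s hs1 hs2 hs3 using hex
  have hz : Tendsto (fun k : ℕ => 1 / ((k : ℝ) + 1)) atTop (𝓝 0) :=
    tendsto_one_div_add_atTop_nhds_zero_nat
  have hn : 3 ≤ m + 2 := by omega
  have H : ∀ k, Lim538.ACSol {0}ᶜ hw (R (s k)) (ε (s k)) := fun k =>
    acsol_of_sphere hn (hL.sol (s k)).pos (hL.sol (s k)).sm (hL.sol (s k)).eq
  have hσ : 0 < unitSphereArea m := ThetaK688.unitSphereArea_pos m
  have hE : Tendsto (fun k => SE (qq hw (R (s k)) (ε (s k)))) atTop
      (𝓝 (4 / 3 * (a / unitSphereArea m) * sigW (m + 1))) := by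
    have h1 : Tendsto (fun k => 3 / 4 * Skel656.En (ε (s k)) (R (s k))) atTop (𝓝 a) := by
      rw [tendsto_iff_dist_tendsto_zero]
      exact squeeze_zero (fun _ => dist_nonneg) (fun k => (hs3 k).le) hz
    have h2 := h1.const_mul (4 / 3)
    rw [sigW_area]
    have h3 : 4 / 3 * (a / unitSphereArea m) * unitSphereArea m = 4 / 3 * a := by field_simp
    rw [h3]
    refine h2.congr fun k => ?_
    rw [SE_eq_En (hL.sol (s k))]
    ring
  have hfin := flat_core (θ := a / unitSphereArea m) hm hMS H (fun k => (hL.sol (s k)).sm)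
    (squeeze_zero (fun k => (hL.sol (s k)).pos.le) (fun k => (hs1 k).le) hz) he hL.rpi
    (fun x => by rw [← hL.phi x, hφ x]) (fun δ hδ => by
      filter_upwards [hz.eventually (gt_mem_nhds hδ)] with k hk x hx
      have := hs2 k x hx
      rw [Real.dist_eq, abs_sub_comm] at this
      exact this.trans hk) hE (by rw [div_lt_iff₀ hσ]; exact ha)
  rwa [div_le_one hσ] at hfin

end Crest.Agent.R246.Flatx992
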