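import Mathlib.Analysis.InnerProductSpace.PiL2
import Mathlib.Analysis.InnerProductSpace.Calculus
import Mathlib.Analysis.Calculus.Rademacher
import Mathlib.Analysis.Calculus.Gradient.Basic
import Mathlib.Analysis.Calculus.ContDiff.Basic
import Mathlib.MeasureTheory.Integral.Bochner.Basic
import Mathlib.Analysis.SpecialFunctions.Gaussian.GaussianIntegral
import Mathlib.LinearAlgebra.Trace

/-!
# Definitions for block G (blow-ups, cones, links)

* `gi f g x = ⟪∇f x, ∇g x⟫`;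
* `ClassD φ` : 1-Lipschitz, `‖∇φ‖ = 1` a.e., superharmonic where positive, subharmonic where
  negative (tested with Lipschitz functions);
* `GV E` : generalised varifolds in functional form: a Radon measure `μ` and a functional `S` on
  continuous compactly supported matrix fields (`S F = ∫ ⟪F ν, ν⟫ dμ` formally, `ν` unit normal);
* `GV.StatOn` : stationarity (first variation zero) in an open set;
* `VAR φ μ U` : `|Δφ| + Δ|φ| ≤ 2 μ` in `U`;
* `LimObj φ G A` : the limit object of Step 2, in cone form.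
-/

set_option autoImplicit false
noncomputable section
open MeasureTheory Set Filter Topology
open scoped RealInnerProductSpace Gradient

namespace Crest.Agent.R246.G873

variable {E : Type*} [NormedAddCommGroup E] [InnerProductSpace ℝ E] [FiniteDimensional ℝ E]
  [MeasurableSpace E] [BorelSpace E]

/-- pointwise Dirichlet product -/
def gi (f g : E → ℝ) (x : E) : ℝ := ⟪gradient f x, gradient g x⟫

/-- Lipschitz with some constant -/
def Lip (f : E → ℝ) : Prop := ∃ C : NNReal, LipschitzWith C f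

/-- The class `D` of helper105, on the whole space. -/
structure ClassD (φ : E → ℝ) : Prop where
  lip : LipschitzWith 1 φ
  grad : ∀ᵐ x ∂(volume : Measure E), ‖fderiv ℝ φ x‖ = 1
  sup : ∀ ζ : E → ℝ, Lip ζ → HasCompactSupport ζ → (∀ x, 0 ≤ ζ x) →
    tsupport ζ ⊆ {x | 0 < φ x} → 0 ≤ ∫ x, gi φ ζ x
  sub : ∀ ζ : E → ℝ, Lip ζ → HasCompactSupport ζ → (∀ x, 0 ≤ ζ x) →
    tsupport ζ ⊆ {x | φ x < 0} → ∫ x, gi φ ζ x ≤ 0

/-- rank one matrix `(v ⊗ w) y = ⟪v, y⟫ w` -/
def tp (v w : E) : E →L[ℝ] E := (innerSL ℝ v).smulRight w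

/-- divergence of a vector field -/
def dv (X : E → E) (x : E) : ℝ := LinearMap.trace ℝ E (fderiv ℝ X x : E →ₗ[ℝ] E)

/-- Generalised varifold: `μ` = weight measure, `S F = ∫ ⟪F ν, ν⟫ dμ` (functional form). -/
structure GV (E : Type*) [NormedAddCommGroup E] [InnerProductSpace ℝ E] [FiniteDimensional ℝ E]
    [MeasurableSpace E] [BorelSpace E] where
  μ : Measure E
  S : (E → E →L[ℝ] E) → ℝ
  fin : IsFiniteMeasureOnCompacts μ
  S_add : ∀ F G : E → E →L[ℝ] E, Continuous F → HasCompactSupport F → Continuous G →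
    HasCompactSupport G → S (fun x => F x + G x) = S F + S G
  S_smul : ∀ (c : ℝ) (F : E → E →L[ℝ] E), Continuous F → HasCompactSupport F →
    S (fun x => c • F x) = c * S F
  S_symm : ∀ v w : E → E, Continuous v → Continuous w → HasCompactSupport v →
    S (fun x => tp (v x) (w x)) = S (fun x => tp (w x) (v x))
  S_nonneg : ∀ v : E → E, Continuous v → HasCompactSupport v → 0 ≤ S (fun x => tp (v x) (v x))
  S_le : ∀ v : E → E, Continuous v → HasCompactSupport v →
    S (fun x => tp (v x) (v x)) ≤ ∫ x, ‖v x‖ ^ 2 ∂μ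
  S_one : ∀ f : E → ℝ, Continuous f → HasCompactSupport f →
    S (fun x => f x • ContinuousLinearMap.id ℝ E) = ∫ x, f x ∂μ

/-- stationarity in `U` : `∫ (div X - ⟪DX ν, ν⟫) dμ = 0`. -/
def GV.StatOn (G : GV E) (U : Set E) : Prop :=
  ∀ X : E → E, ContDiff ℝ 1 X → HasCompactSupport X → tsupport X ⊆ U →
    ∫ x, dv X x ∂G.μ = G.S (fderiv ℝ X)

/-- `|Δφ| + Δ|φ| ≤ 2 μ` in `U`. -/
def VAR (φ : E → ℝ) (μ : Measure E) (U : Set E) : Prop :=
  ∀ ζ η : E → ℝ, Lip ζ → Lip η → HasCompactSupport ζ → HasCompactSupport η →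
    (∀ x, |ζ x| ≤ η x) → tsupport η ⊆ U →
    (∫ x, gi φ ζ x) - (∫ x, gi (fun y => |φ y|) η x) ≤ 2 * ∫ x, η x ∂μ

/-- The limit object (cone form). `μ` has homogeneity `n - 1`, `n = dim E`. -/
structure LimObj (φ : E → ℝ) (G : GV E) (A : ℝ) : Prop where
  hom : ∀ t : ℝ, 0 ≤ t → ∀ x, φ (t • x) = t * φ x
  cD : ClassD φ
  conc : G.μ {x | φ x ≠ 0} = 0
  homμ : ∀ t : ℝ, 0 < t → ∀ f : E → ℝ, Continuous f → HasCompactSupport f →
    ∫ x, f (t⁻¹ • x) ∂G.μ = t ^ (Module.finrank ℝ E - 1) * ∫ x, f x ∂G.μ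
  var : VAR φ G.μ {0}ᶜ
  stat : G.StatOn {0}ᶜ
  mass : ∫⁻ x, ENNReal.ofReal (Real.exp (-‖x‖ ^ 2)) ∂G.μ ≤ ENNReal.ofReal A

end Crest.Agent.R246.G873
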