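import Crest.Agent.R246.MV_386
import Mathlib.Topology.MetricSpace.HausdorffDistance

/-!
# G4: the flat link lemma

`ρ : E → ℝ` positively 1-homogeneous, 1-Lipschitz, weakly superharmonic on `{ρ > 0}` and
`ρ a = 1` for a unit vector `a`.  Then `ρ ≥ ⟪a, ·⟫`, with equality on `{⟪a, ·⟫ > 0}`.  If moreover
`|ρ| = dist (·, {ρ = 0})` and `ρ` has no zero in `{⟪a, ·⟫ < 0}` then `ρ = ⟪a, ·⟫` or
`ρ = |⟪a, ·⟫|`.
-/

set_option autoImplicit false
set_option linter.unusedSectionVars false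
set_option linter.unusedSimpArgs false
noncomputable section
open MeasureTheory Set Filter Topology Metric
open scoped RealInnerProductSpace ContDiff NNReal

namespace Crest.Agent.R246.G4x386

open Crest.Agent.R246.MV386

variable {E : Type*} [NormedAddCommGroup E] [InnerProductSpace ℝ E]

/-! ### touching the light cone -/

theorem ge_inner_of_touch {ρ : E → ℝ} (hom : ∀ t : ℝ, 0 ≤ t → ∀ x, ρ (t • x) = t * ρ x)
    (lip : LipschitzWith 1 ρ) {a : E} (ha : ‖a‖ = 1) (h : ρ a = 1) (x : E) :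
    ⟪a, x⟫ ≤ ρ x := by
  by_contra hcon
  push Not at hcon
  set δ := ⟪a, x⟫ - ρ x with hδ
  have hδ0 : 0 < δ := sub_pos.2 hcon
  -- choose t large
  set t : ℝ := (‖x‖ ^ 2 + 1) / (2 * δ) + |ρ x| + 1 with ht
  have ht1 : |ρ x| + 1 ≤ t := by
    rw [ht]
    have : 0 ≤ (‖x‖ ^ 2 + 1) / (2 * δ) := by positivity
    linarith
  have ht2 : ‖x‖ ^ 2 + 1 ≤ 2 * δ * t := by
    rw [ht]
    have e : 2 * δ * ((‖x‖ ^ 2 + 1) / (2 * δ)) = ‖x‖ ^ 2 + 1 := by field_simp
    have : 0 ≤ 2 * δ * (|ρ x| + 1) := by positivity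
    nlinarith
  have ht0 : 0 < t := by
    have := abs_nonneg (ρ x)
    linarith
  have h1 := lip.dist_le_mul (t • a) x
  rw [hom t ht0.le, h, mul_one, NNReal.coe_one, one_mul, Real.dist_eq, dist_eq_norm] at h1
  have h2 : t - ρ x ≤ ‖t • a - x‖ := (le_abs_self _).trans h1
  have h3 : 0 ≤ t - ρ x := by
    have := le_abs_self (ρ x)
    linarith
  have h4 : (t - ρ x) ^ 2 ≤ ‖t • a - x‖ ^ 2 := by
    have := norm_nonneg (t • a - x)
    nlinarith
  rw [norm_sub_sq_real, norm_smul, ha, Real.norm_eq_abs, abs_of_pos ht0, mul_one,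
    real_inner_smul_left] at h4
  have h5 : 2 * t * δ ≤ ‖x‖ ^ 2 - ρ x ^ 2 := by rw [hδ]; nlinarith
  nlinarith [sq_nonneg (ρ x)]

section measure

variable [FiniteDimensional ℝ E] [CompleteSpace E] [MeasurableSpace E] [BorelSpace E]

lemma norm_gradient_le {K : ℝ≥0} {φ : E → ℝ} (hφ : LipschitzWith K φ) (x : E) :
    ‖gradient φ x‖ ≤ K := by
  unfold gradient
  rw [LinearIsometryEquiv.norm_map]
  exact norm_fderiv_le_of_lipschitz ℝ hφ

lemma measurable_gradient (φ : E → ℝ) : Measurable (gradient φ) := by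
  unfold gradient
  exact (InnerProductSpace.toDual ℝ E).symm.continuous.measurable.comp (measurable_fderiv ℝ φ)

lemma integrable_pair {K : ℝ≥0} {φ : E → ℝ} (hφ : LipschitzWith K φ) {ζ : E → ℝ}
    (hζ : ContDiff ℝ ∞ ζ) (hζc : HasCompactSupport ζ) :
    Integrable (fun x => fderiv ℝ ζ x (gradient φ x)) := by
  have h1 : Continuous (fderiv ℝ ζ) := hζ.continuous_fderiv (by simp)
  have h2 : Integrable (fun x => (K : ℝ) * ‖fderiv ℝ ζ x‖) :=
    (h1.norm.integrable_of_hasCompactSupport (hζc.fderiv ℝ).norm).const_mul _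
  apply h2.mono'
  · apply Measurable.aestronglyMeasurable
    exact (ContinuousLinearMap.apply ℝ ℝ).continuous₂.measurable.comp
      ((measurable_gradient φ).prodMk h1.measurable)
  · refine Eventually.of_forall fun x => ?_
    calc ‖fderiv ℝ ζ x (gradient φ x)‖ ≤ ‖fderiv ℝ ζ x‖ * ‖gradient φ x‖ :=
          ContinuousLinearMap.le_opNorm _ _
      _ ≤ ‖fderiv ℝ ζ x‖ * K := mul_le_mul_of_nonneg_left (norm_gradient_le hφ x) (norm_nonneg _)
      _ = K * ‖fderiv ℝ ζ x‖ := mul_comm _ _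

lemma integral_fderiv_const {ζ : E → ℝ} (hζ : ContDiff ℝ ∞ ζ) (hζc : HasCompactSupport ζ)
    (a : E) : ∫ x, fderiv ℝ ζ x a = 0 := by
  obtain ⟨C, hC⟩ := ContDiff.lipschitzWith_of_hasCompactSupport hζc hζ (by simp)
  have h := (LipschitzWith.const (1 : ℝ) (α := E)).integral_lineDeriv_mul_eq
    (μ := volume) hC hζc (-a)
  have e1 : ∀ x : E, lineDeriv ℝ (fun _ : E => (1 : ℝ)) x (-a) = 0 := by
    intro x; simp [lineDeriv]
  have e2 : ∀ x : E, lineDeriv ℝ ζ x (- -a) = fderiv ℝ ζ x a := by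
    intro x
    rw [neg_neg]
    exact ((hζ.differentiable (by simp)) x).lineDeriv_eq_fderiv
  simp_rw [e1, e2, zero_mul, mul_one] at h
  rw [← h]
  simp

lemma gradient_sub_inner {φ : E → ℝ} {x : E} (h : DifferentiableAt ℝ φ x) (a : E) :
    gradient (fun y => φ y - ⟪a, y⟫) x = gradient φ x - a := by
  have h1 : HasGradientAt φ (gradient φ x) x := h.hasGradientAt
  have h2 : HasGradientAt (fun y => ⟪a, y⟫) a x := by
    rw [hasGradientAt_iff_hasFDerivAt]
    exact (innerSL ℝ a).hasFDerivAt (x := x)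
  have h3 : HasGradientAt (fun y => φ y - ⟪a, y⟫) (gradient φ x - a) x := by
    rw [hasGradientAt_iff_hasFDerivAt] at *
    rw [map_sub]
    exact h1.sub h2
  exact h3.gradient

/-- subtracting a linear function preserves superharmonicity. -/
theorem SupW_sub_inner {K : ℝ≥0} {φ : E → ℝ} (hφ : LipschitzWith K φ) {U : Set E}
    (h : SupW φ U) (a : E) : SupW (fun x => φ x - ⟪a, x⟫) U := by
  intro ζ h1 h2 h3 h4
  have h5 := h ζ h1 h2 h3 h4
  have h6 : ∫ x, fderiv ℝ ζ x (gradient (fun y => φ y - ⟪a, y⟫) x)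
      = ∫ x, (fderiv ℝ ζ x (gradient φ x) - fderiv ℝ ζ x a) := by
    apply integral_congr_ae
    filter_upwards [hφ.ae_differentiableAt (μ := volume)] with x hx
    rw [gradient_sub_inner hx, map_sub]
  rw [h6, integral_sub (integrable_pair hφ h1 h2), integral_fderiv_const h1 h2 a, sub_zero]
  · exact h5
  · have := (h1.continuous_fderiv (by simp) : Continuous (fderiv ℝ ζ))
    apply Continuous.integrable_of_hasCompactSupport
    · exact this.clm_apply continuous_const
    · exact (h2.fderiv ℝ).comp_left (g := fun L : E →L[ℝ] ℝ => L a) rfl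

lemma isOpen_half (a : E) : IsOpen {x : E | 0 < ⟪a, x⟫} :=
  isOpen_lt continuous_const (by fun_prop)

lemma isPreconnected_half (a : E) : IsPreconnected {x : E | 0 < ⟪a, x⟫} := by
  apply Convex.isPreconnected
  exact convex_halfSpace_gt ⟨fun x y => inner_add_right _ _ _,
    fun c x => by rw [inner_smul_right]; rfl⟩ 0

/-- **Flat link lemma, part 1.** -/
theorem eq_inner_of_touch {ρ : E → ℝ} (hom : ∀ t : ℝ, 0 ≤ t → ∀ x, ρ (t • x) = t * ρ x)
    (lip : LipschitzWith 1 ρ) (hsup : SupW ρ {x | 0 < ρ x}) {a : E} (ha : ‖a‖ = 1)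
    (h : ρ a = 1) {x : E} (hx : 0 < ⟪a, x⟫) : ρ x = ⟪a, x⟫ := by
  have hge := ge_inner_of_touch hom lip ha h
  have h1 : SupW (fun x => ρ x - ⟪a, x⟫) {x : E | 0 < ⟪a, x⟫} := by
    apply (SupW_sub_inner lip hsup a).mono
    intro y hy
    exact lt_of_lt_of_le hy (hge y)
  have hL : LipschitzWith 2 (fun x => ρ x - ⟪a, x⟫) := by
    have h2 : LipschitzWith 1 (fun x : E => ⟪a, x⟫) := by
      apply LipschitzWith.of_dist_le_mul
      intro y z
      rw [Real.dist_eq, ← inner_sub_right, NNReal.coe_one, one_mul, dist_eq_norm]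
      calc |⟪a, y - z⟫| ≤ ‖a‖ * ‖y - z‖ := abs_real_inner_le_norm _ _
        _ = ‖y - z‖ := by rw [ha, one_mul]
    have h3 := lip.sub h2
    have e : (1 : ℝ≥0) + 1 = 2 := by norm_num
    rw [e] at h3
    exact h3
  have haa : ⟪a, a⟫ = (1 : ℝ) := by rw [real_inner_self_eq_norm_sq, ha]; norm_num
  have h4 := h1.eq_of_min_conn hL (isOpen_half a) (isPreconnected_half a)
    (x₀ := a) (by rw [mem_setOf_eq, haa]; norm_num) (fun y _ => by
      simp only [h, haa, sub_self]
      exact sub_nonneg.2 (hge y)) (y := x) hx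
  simp only [h, haa, sub_self] at h4
  linarith

/-- a function with superharmonic absolute value that vanishes somewhere vanishes on the whole
preconnected open set. -/
theorem eq_zero_of_SupW_abs {K : ℝ≥0} {ρ : E → ℝ} (lip : LipschitzWith K ρ) {D : Set E}
    (hD : IsOpen D) (hD' : IsPreconnected D) (h : SupW (fun x => |ρ x|) D) {y : E} (hy : y ∈ D)
    (hy0 : ρ y = 0) {z : E} (hz : z ∈ D) : ρ z = 0 := by
  have hL : LipschitzWith K (fun x => |ρ x|) := by
    apply LipschitzWith.of_dist_le_mul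
    intro u v
    refine le_trans ?_ (lip.dist_le_mul u v)
    rw [Real.dist_eq, Real.dist_eq]
    exact abs_abs_sub_abs_le_abs_sub _ _
  have := h.eq_of_min_conn hL hD hD' (x₀ := y) hy (fun w _ => by simp [hy0]) hz
  simpa [hy0] using this

end measure

/-! ### signed distance to a hyperplane -/

lemma infDist_hyperplane {a : E} (ha : ‖a‖ = 1) (x : E) :
    infDist x {y : E | ⟪a, y⟫ = 0} = |⟪a, x⟫| := by
  have haa : ⟪a, a⟫ = (1 : ℝ) := by rw [real_inner_self_eq_norm_sq, ha]; norm_num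
  apply le_antisymm
  · have h1 : x - ⟪a, x⟫ • a ∈ {y : E | ⟪a, y⟫ = 0} := by
      rw [mem_setOf_eq, inner_sub_right, inner_smul_right, haa]; ring
    have h2 := infDist_le_dist_of_mem h1 (x := x)
    rwa [dist_eq_norm, sub_sub_cancel, norm_smul, ha, mul_one, Real.norm_eq_abs] at h2
  · rw [le_infDist ⟨0, by simp⟩]
    intro z hz
    rw [mem_setOf_eq] at hz
    calc |⟪a, x⟫| = |⟪a, x - z⟫| := by rw [inner_sub_right, hz, sub_zero]
      _ ≤ ‖a‖ * ‖x - z‖ := abs_real_inner_le_norm _ _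
      _ = dist x z := by rw [ha, one_mul, dist_eq_norm]

/-- **Flat link lemma, part 2.** -/
theorem eq_or_eq_abs_of_signedDist {ρ : E → ℝ} (hc : Continuous ρ) {a : E} (ha : ‖a‖ = 1)
    (hpos : ∀ x, 0 < ⟪a, x⟫ → ρ x = ⟪a, x⟫)
    (hneg : ∀ x, ⟪a, x⟫ < 0 → ρ x ≠ 0)
    (hsd : ∀ x, |ρ x| = infDist x {y | ρ y = 0}) :
    (∀ x, ρ x = ⟪a, x⟫) ∨ (∀ x, ρ x = |⟪a, x⟫|) := by
  have haa : ⟪a, a⟫ = (1 : ℝ) := by rw [real_inner_self_eq_norm_sq, ha]; norm_num
  have hZ : {y | ρ y = 0} = {y : E | ⟪a, y⟫ = 0} := by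
    ext y
    simp only [mem_setOf_eq]
    constructor
    · intro hy
      rcases lt_trichotomy ⟪a, y⟫ (0 : ℝ) with h | h | h
      · exact absurd hy (hneg y h)
      · exact h
      · rw [hpos y h] at hy; exact hy
    · intro hy
      -- limit from the positive side
      have h1 : Tendsto (fun t : ℝ => ρ (y + t • a)) (𝓝[>] 0) (𝓝 (ρ y)) := by
        have : Continuous (fun t : ℝ => ρ (y + t • a)) := hc.comp (by fun_prop)
        have h2 := this.tendsto 0
        simp only [zero_smul, add_zero] at h2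
        exact h2.mono_left nhdsWithin_le_nhds
      have h2 : Tendsto (fun t : ℝ => ρ (y + t • a)) (𝓝[>] 0) (𝓝 0) := by
        have h3 : Tendsto (fun t : ℝ => t) (𝓝[>] (0 : ℝ)) (𝓝 0) :=
          tendsto_id.mono_left nhdsWithin_le_nhds
        apply h3.congr'
        filter_upwards [self_mem_nhdsWithin] with t ht
        have e : ⟪a, y + t • a⟫ = t := by
          rw [inner_add_right, hy, inner_smul_right, haa]; ring
        rw [hpos _ (by rw [e]; exact ht), e]
      exact tendsto_nhds_unique h1 h2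
  have habs : ∀ x, |ρ x| = |⟪a, x⟫| := by
    intro x
    rw [hsd x, hZ, infDist_hyperplane ha]
  -- constant sign on the lower half space
  have hconv : IsPreconnected {x : E | ⟪a, x⟫ < 0} := by
    apply Convex.isPreconnected
    exact convex_halfSpace_lt ⟨fun x y => inner_add_right _ _ _,
      fun c x => by rw [inner_smul_right]; rfl⟩ 0
  have hsgn : (∀ x, ⟪a, x⟫ < 0 → ρ x < 0) ∨ (∀ x, ⟪a, x⟫ < 0 → 0 < ρ x) := by
    by_contra hcon
    push Not at hcon
    obtain ⟨⟨x, hx, hx'⟩, ⟨y, hy, hy'⟩⟩ := hcon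
    have := hconv.intermediate_value (f := ρ) (a := y) (b := x) hy hx hc.continuousOn
    obtain ⟨z, hz, hz'⟩ := this ⟨hy', hx'⟩
    exact hneg z hz hz'
  have hzero : ∀ x, ⟪a, x⟫ = 0 → ρ x = 0 := by
    intro x hx
    have := habs x
    rw [hx, abs_zero] at this
    exact abs_eq_zero.1 this
  rcases hsgn with h | h
  · left
    intro x
    rcases lt_trichotomy ⟪a, x⟫ (0 : ℝ) with h1 | h1 | h1
    · have h2 := habs x
      rw [abs_of_neg (h x h1), abs_of_neg h1] at h2
      linarith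
    · rw [hzero x h1, h1]
    · exact hpos x h1
  · right
    intro x
    rcases lt_trichotomy ⟪a, x⟫ (0 : ℝ) with h1 | h1 | h1
    · have h2 := habs x
      rwa [abs_of_pos (h x h1)] at h2
    · rw [hzero x h1, h1, abs_zero]
    · rw [hpos x h1, abs_of_pos h1]

end Crest.Agent.R246.G4x386
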