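import Crest.Agent.R246.Mo2_873
import Crest.Agent.R246.GSt_873

/-!
# Block G: exact statements of the sub-leaves of G1 (Props)
-/

set_option autoImplicit false
noncomputable section
open MeasureTheory Set Filter Topology
open scoped RealInnerProductSpace Gradient

namespace Crest.Agent.R246.G873

/-- homogeneity of degree `n - 1` of a measure, functional form -/
def HomM {E : Type} [NormedAddCommGroup E] [InnerProductSpace ℝ E] [FiniteDimensional ℝ E]
    [MeasurableSpace E] [BorelSpace E] (μ : Measure E) : Prop :=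
  ∀ t : ℝ, 0 < t → ∀ f : E → ℝ, Continuous f → HasCompactSupport f →
    ∫ x, f (t⁻¹ • x) ∂μ = t ^ (Module.finrank ℝ E - 1) * ∫ x, f x ∂μ

/-- L1: a cone stationary away from the origin is stationary (`n ≥ 3`). -/
def StL1 (E : Type) [NormedAddCommGroup E] [InnerProductSpace ℝ E] [FiniteDimensional ℝ E]
    [MeasurableSpace E] [BorelSpace E] : Prop :=
  3 ≤ Module.finrank ℝ E → ∀ G : GV E, HomM G.μ → G.StatOn {0}ᶜ → G.StatOn univ

/-- L2: scaling of `ClassD` and `VAR`. -/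
def StL2 (E : Type) [NormedAddCommGroup E] [InnerProductSpace ℝ E] [FiniteDimensional ℝ E]
    [MeasurableSpace E] [BorelSpace E] : Prop :=
  1 ≤ Module.finrank ℝ E → ∀ (G : GV E) (φ : E → ℝ) (p : E) (r : ℝ) (hr : 0 < r), ClassD φ →
    ClassD (fun x => r⁻¹ * φ (p + r • x)) ∧
    ∀ U : Set E, VAR φ G.μ U →
      VAR (fun x => r⁻¹ * φ (p + r • x)) (G.dil p r hr).μ {x | p + r • x ∈ U}

/-- L3: Gaussian mass against the profiles `hk k`. -/
def StL3 (E : Type) [NormedAddCommGroup E] [InnerProductSpace ℝ E] [FiniteDimensional ℝ E]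
    [MeasurableSpace E] [BorelSpace E] : Prop :=
  ∀ (μ : Measure E), IsFiniteMeasureOnCompacts μ → ∀ A : ℝ, 0 ≤ A →
    ((∀ k : ℕ, 2 ≤ k → ∫ x, hk k (‖x‖ ^ 2) ∂μ ≤ A) ↔
      ∫⁻ x, ENNReal.ofReal (Real.exp (-‖x‖ ^ 2)) ∂μ ≤ ENNReal.ofReal A)

/-- L4: a stationary varifold with constant density ratio (profile `hk 2`) is a cone. -/
def StL4 (E : Type) [NormedAddCommGroup E] [InnerProductSpace ℝ E] [FiniteDimensional ℝ E]
    [MeasurableSpace E] [BorelSpace E] : Prop :=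
  2 ≤ Module.finrank ℝ E → ∀ G : GV E, G.StatOn univ →
    (∀ r s : ℝ, 0 < r → 0 < s → dens G.μ 2 0 r = dens G.μ 2 0 s) → HomM G.μ

/-- L5: homogeneity of the function from homogeneity of the measure. -/
def StL5 (E : Type) [NormedAddCommGroup E] [InnerProductSpace ℝ E] [FiniteDimensional ℝ E]
    [MeasurableSpace E] [BorelSpace E] : Prop :=
  2 ≤ Module.finrank ℝ E → ∀ (R : E → ℝ) (μ : Measure E), IsFiniteMeasureOnCompacts μ →
    ClassD R → VAR R μ univ → μ {x | R x ≠ 0} = 0 → HomM μ → R 0 = 0 →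
    ∀ t : ℝ, 0 ≤ t → ∀ x, R (t • x) = t * R x

/-- L6: first moments vanish for stationary varifolds. -/
def StL6 (E : Type) [NormedAddCommGroup E] [InnerProductSpace ℝ E] [FiniteDimensional ℝ E]
    [MeasurableSpace E] [BorelSpace E] : Prop :=
  ∀ G : GV E, G.StatOn univ →
    (∀ t : ℝ, 0 < t → ∀ f : E → ℝ, Continuous f → HasCompactSupport f →
      ∫ x, f (t⁻¹ • x) ∂G.μ = t ^ (Module.finrank ℝ E - 1) * ∫ x, f x ∂G.μ) →
    ∀ (a : E) (ρ : ℝ), 0 < ρ → ∫ x, max (1 - ‖x‖ ^ 2 / ρ ^ 2) 0 * ⟪a, x⟫ ∂G.μ = 0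

end Crest.Agent.R246.G873
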