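import Crest.Agent.R246.Ex2_105

/-!
R246, helper105.  The gap lemma: `φ - ⟨e,·⟩` is squeezed between two mollifications.
-/

set_option autoImplicit false
set_option linter.unusedSectionVars false

namespace Crest.Agent.R246.Flat105

open MeasureTheory Filter Topology Metric Set
open scoped NNReal Gradient RealInnerProductSpace

section
variable {E : Type*} [NormedAddCommGroup E] [InnerProductSpace ℝ E] [FiniteDimensional ℝ E]
  [MeasurableSpace E] [BorelSpace E]

/-- `∇ qb²` is `12`-Lipschitz -/
theorem norm_grad_qb_sub_le (x y : E) :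
    ‖∇ (fun z => qb z ^ 2) x - ∇ (fun z => qb z ^ 2) y‖ ≤ 12 * ‖x - y‖ := by
  rw [grad_qb_sq, grad_qb_sq]
  have h1 : ∀ x y : E, ‖y‖ ≤ 1 → ‖qb x • x - qb y • y‖ ≤ 3 * ‖x - y‖ := by
    intro x y hy
    have h2 : |qb x - qb y| ≤ 2 * ‖x - y‖ := by
      have := (lip_qb (E := E)).dist_le_mul x y
      rw [Real.dist_eq, dist_eq_norm] at this
      simpa using this
    have h3 : qb x • x - qb y • y = qb x • (x - y) + (qb x - qb y) • y := by
      rw [smul_sub, sub_smul]; abel
    rw [h3]
    calc _ ≤ ‖qb x • (x - y)‖ + ‖(qb x - qb y) • y‖ := norm_add_le _ _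
      _ = |qb x| * ‖x - y‖ + |qb x - qb y| * ‖y‖ := by
          rw [norm_smul, norm_smul, Real.norm_eq_abs, Real.norm_eq_abs]
      _ ≤ 1 * ‖x - y‖ + (2 * ‖x - y‖) * 1 := by
          gcongr
          exact abs_qb_le x
      _ = 3 * ‖x - y‖ := by ring
  have h4 : ∀ x y : E, ‖qb x • x - qb y • y‖ ≤ 3 * ‖x - y‖ := by
    intro x y
    by_cases hy : ‖y‖ ≤ 1
    · exact h1 x y hy
    · by_cases hx : ‖x‖ ≤ 1
      · rw [norm_sub_rev, norm_sub_rev x y]
        exact h1 y x hx
      · push Not at hx hy
        rw [qb_eq_zero hx.le, qb_eq_zero hy.le, zero_smul, zero_smul, sub_zero, norm_zero]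
        positivity
  have h5 : (-(4 * qb x)) • x - (-(4 * qb y)) • y = (-4 : ℝ) • (qb x • x - qb y • y) := by
    rw [smul_sub, smul_smul, smul_smul]
    congr 2 <;> ring
  rw [h5, norm_smul]
  have := h4 x y
  norm_num
  linarith

/-- second order Taylor estimate for the kernel -/
theorem qb_taylor (a u : E) :
    |qb (a + u) ^ 2 - qb a ^ 2 - ⟪∇ (fun z => qb z ^ 2) a, u⟫| ≤ 12 * ‖u‖ ^ 2 := by
  set k : E → ℝ := fun z => qb z ^ 2 with hk
  have hd : ∀ x : E, HasFDerivAt k (innerSL ℝ (∇ k x)) x := by
    intro x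
    have h := hasFDerivAt_qbPow (n := 2) le_rfl (0 : E) 1 x
    simp only [sub_zero, one_smul] at h
    have h1 : ∇ k x = (-(2 * ((2 : ℕ) : ℝ) * 1 ^ 2 * qb x ^ (2 - 1))) • x :=
      grad_of_hasFDerivAt h
    rw [h1]
    exact h
  set f : ℝ → ℝ := fun t => k (a + t • u) - ⟪∇ k a, t • u⟫ with hf
  have hfd : ∀ t : ℝ, HasDerivAt f (⟪∇ k (a + t • u) - ∇ k a, u⟫) t := by
    intro t
    have h1 : HasDerivAt (fun t : ℝ => a + t • u) u t := by
      have := ((hasDerivAt_id t).smul_const u).const_add a
      simpa using this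
    have h2 := (hd (a + t • u)).comp_hasDerivAt t h1
    have h3 : HasDerivAt (fun t : ℝ => ⟪∇ k a, t • u⟫) ⟪∇ k a, u⟫ t := by
      have h4 : HasDerivAt (fun t : ℝ => t • u) u t := by
        have := (hasDerivAt_id t).smul_const u
        simpa using this
      exact (innerSL ℝ (∇ k a)).hasFDerivAt.comp_hasDerivAt t h4
    have h5 := h2.sub h3
    refine h5.congr_deriv ?_
    rw [inner_sub_left]
    rfl
  have hbd : ∀ t ∈ Icc (0 : ℝ) 1, ‖⟪∇ k (a + t • u) - ∇ k a, u⟫‖ ≤ 12 * ‖u‖ ^ 2 := by
    intro t ht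
    refine (norm_inner_le_norm _ _).trans ?_
    have h1 := norm_grad_qb_sub_le (a + t • u) a
    rw [add_sub_cancel_left, norm_smul, Real.norm_eq_abs, abs_of_nonneg ht.1] at h1
    calc _ ≤ (12 * (t * ‖u‖)) * ‖u‖ := by gcongr
      _ ≤ (12 * (1 * ‖u‖)) * ‖u‖ := by
          gcongr
          exact ht.2
      _ = _ := by ring
  have h := Convex.norm_image_sub_le_of_norm_hasDerivWithin_le
    (f := f) (f' := fun t => ⟪∇ k (a + t • u) - ∇ k a, u⟫) (s := Icc (0 : ℝ) 1)
    (C := 12 * ‖u‖ ^ 2) (fun t _ => (hfd t).hasDerivWithinAt) hbd (convex_Icc 0 1)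
    (left_mem_Icc.mpr zero_le_one) (right_mem_Icc.mpr zero_le_one)
  simp only [hf, one_smul, zero_smul, add_zero, inner_zero_right, sub_zero, norm_one, mul_one,
    Real.norm_eq_abs] at h
  have h6 : qb (a + u) ^ 2 - qb a ^ 2 - ⟪∇ k a, u⟫ = k (a + u) - ⟪∇ k a, u⟫ - k a := by
    simp only [hk]; ring
  rw [h6]
  exact h

/-- The vertical gap between two mollifications is controlled by the excess. -/
theorem gap_le {φ : E → ℝ} (hφ : LipschitzWith 1 φ) {e : E} (he : ‖e‖ = 1) {s t₀ : ℝ}
    (hs : 0 < s) (ht₀ : 0 < t₀) {x' : E} (hx' : ‖x'‖ + t₀ + s ≤ 1 / 2) :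
    (∫ y, (φ (x' + (-t₀) • e + s • y) + t₀) * qb y ^ 2) -
      (∫ y, (φ (x' + t₀ • e + s • y) - t₀) * qb y ^ 2) ≤
      2 * t₀ * (16 / 9) * (s ^ Module.finrank ℝ E)⁻¹ * ∫ x, qb x ^ 2 * (1 - ⟪∇ φ x, e⟫) := by
  set X := ∫ x, qb x ^ 2 * (1 - ⟪∇ φ x, e⟫) with hX
  have hc : Continuous φ := hφ.continuous
  have hcq : HasCompactSupport (fun y : E => qb y ^ 2) := cpt_qb_sq
  have cq : Continuous (fun y : E => qb y ^ 2) := continuous_qb.pow 2
  have i0 : Integrable (fun y : E => qb y ^ 2) := cq.integrable_of_hasCompactSupport hcq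
  have i1 : Integrable (fun y => (φ (x' + (-t₀) • e + s • y) + t₀) * qb y ^ 2) := by
    have h9 : Continuous (fun y : E => (φ (x' + (-t₀) • e + s • y) + t₀) * qb y ^ 2) :=
      ((hc.comp (by fun_prop)).add continuous_const).mul cq
    exact h9.integrable_of_hasCompactSupport hcq.mul_left
  have i2 : Integrable (fun y => (φ (x' + t₀ • e + s • y) - t₀) * qb y ^ 2) := by
    have h9 : Continuous (fun y : E => (φ (x' + t₀ • e + s • y) - t₀) * qb y ^ 2) :=
      ((hc.comp (by fun_prop)).sub continuous_const).mul cq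
    exact h9.integrable_of_hasCompactSupport hcq.mul_left
  rw [← integral_sub i1 i2]
  -- fundamental theorem of calculus along `e`
  have hint : ∀ y : E, (φ (x' + (-t₀) • e + s • y) + t₀) * qb y ^ 2 -
      (φ (x' + t₀ • e + s • y) - t₀) * qb y ^ 2 =
      ∫ t in (-t₀)..t₀, (1 - lineDeriv ℝ φ (x' + s • y + t • e) e) * qb y ^ 2 := by
    intro y
    have hI : IntervalIntegrable (fun t => lineDeriv ℝ φ (x' + s • y + t • e) e) volume
        (-t₀) t₀ := by
      rw [intervalIntegrable_iff]
      refine Measure.integrableOn_of_bounded (M := 1) (by simp) ?_ ?_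
      · have h1 : Measurable (fun p : E × E => lineDeriv ℝ φ p.1 p.2) :=
          measurable_lineDeriv_uncurry hc
        have h2 : Measurable (fun t : ℝ => ((x' + s • y + t • e : E), (e : E))) :=
          Continuous.measurable (by fun_prop)
        exact (h1.comp h2).aestronglyMeasurable
      · refine Filter.Eventually.of_forall fun t => ?_
        have := norm_lineDeriv_le_of_lipschitz ℝ hφ (x₀ := x' + s • y + t • e) (v := e)
        simpa [he] using this
    rw [intervalIntegral.integral_mul_const, intervalIntegral.integral_sub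
      intervalIntegrable_const hI, line_ftc hφ, intervalIntegral.integral_const]
    have e1 : x' + (-t₀) • e + s • y = x' + s • y + (-t₀) • e := by abel
    have e2 : x' + t₀ • e + s • y = x' + s • y + t₀ • e := by abel
    rw [e1, e2]
    simp only [smul_eq_mul]
    ring
  simp only [hint]
  -- Fubini
  have hmeas : Measurable (fun p : ℝ × E =>
      (1 - lineDeriv ℝ φ (x' + s • p.2 + p.1 • e) e) * qb p.2 ^ 2) := by
    have h1 : Measurable (fun p : E × E => lineDeriv ℝ φ p.1 p.2) :=
      measurable_lineDeriv_uncurry hc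
    have h2 : Measurable (fun p : ℝ × E => ((x' + s • p.2 + p.1 • e : E), (e : E))) :=
      Continuous.measurable (by fun_prop)
    exact (measurable_const.sub (h1.comp h2)).mul
      (((continuous_qb).comp continuous_snd).pow 2).measurable
  have hbd : ∀ (t : ℝ) (y : E), |(1 - lineDeriv ℝ φ (x' + s • y + t • e) e) * qb y ^ 2| ≤
      (closedBall (0 : E) 1).indicator (fun _ => (2 : ℝ)) y := by
    intro t y
    by_cases hy : ‖y‖ ≤ 1
    · rw [indicator_of_mem (by simpa using hy), abs_mul, abs_pow]
      have h1 : |lineDeriv ℝ φ (x' + s • y + t • e) e| ≤ 1 := by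
        have := norm_lineDeriv_le_of_lipschitz ℝ hφ (x₀ := x' + s • y + t • e) (v := e)
        simpa [he] using this
      have h2 : |qb y| ^ 2 ≤ 1 := pow_le_one₀ (abs_nonneg _) (abs_qb_le y)
      have h3 : |1 - lineDeriv ℝ φ (x' + s • y + t • e) e| ≤ 2 := by
        rw [abs_le] at h1 ⊢
        constructor <;> linarith [h1.1, h1.2]
      calc _ ≤ (2 : ℝ) * 1 := by gcongr
        _ = 2 := mul_one _
    · rw [indicator_of_notMem (by simpa using hy)]
      push Not at hy
      rw [qb_eq_zero hy.le]; simp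
  have hI2 : Integrable (fun p : ℝ × E =>
      (1 - lineDeriv ℝ φ (x' + s • p.2 + p.1 • e) e) * qb p.2 ^ 2)
      ((volume.restrict (Ioc (-t₀) t₀)).prod volume) := by
    have h1 : Integrable (fun p : ℝ × E => (closedBall (0 : E) 1).indicator
        (fun _ => (2 : ℝ)) p.2) ((volume.restrict (Ioc (-t₀) t₀)).prod volume) := by
      have h2 : Integrable ((closedBall (0 : E) 1).indicator (fun _ => (2 : ℝ))) :=
        (integrable_indicator_iff measurableSet_closedBall).mpr
          (integrableOn_const (measure_closedBall_lt_top.ne))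
      exact h2.comp_snd _
    refine h1.mono' hmeas.aestronglyMeasurable ?_
    exact Filter.Eventually.of_forall fun p => by
      rw [Real.norm_eq_abs]; exact hbd p.1 p.2
  have hswap : ∫ y, (∫ t in (-t₀)..t₀, (1 - lineDeriv ℝ φ (x' + s • y + t • e) e) * qb y ^ 2) =
      ∫ t in (-t₀)..t₀, ∫ y, (1 - lineDeriv ℝ φ (x' + s • y + t • e) e) * qb y ^ 2 := by
    simp only [intervalIntegral.integral_of_le (by linarith : -t₀ ≤ t₀)]
    exact (integral_integral_swap hI2).symm
  rw [hswap]
  -- the slices
  have iX : Integrable (fun x => qb x ^ 2 * (1 - ⟪∇ φ x, e⟫)) := by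
    refine integrable_of_bdd_supp (cq.measurable.mul (measurable_const.sub
      ((meas_grad φ).inner measurable_const))).aestronglyMeasurable (C := 1 * (1 + 1 * ‖e‖))
      (fun x => ?_) (isCompact_closedBall (0 : E) 1) (fun x hx => ?_)
    · rw [abs_mul]
      have h1 : |⟪∇ φ x, e⟫| ≤ 1 * ‖e‖ := by
        refine (abs_real_inner_le_norm _ _).trans ?_
        gcongr
        simpa using norm_grad_le hφ x
      have h2 : |1 - ⟪∇ φ x, e⟫| ≤ 1 + 1 * ‖e‖ := by
        refine (abs_sub _ _).trans ?_
        rw [abs_one]; gcongr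
      have h3 : |qb x ^ 2| ≤ 1 := by
        rw [abs_pow]; exact pow_le_one₀ (abs_nonneg _) (abs_qb_le x)
      gcongr
    · rw [mem_closedBall, dist_zero_right] at hx
      push Not at hx
      rw [qb_eq_zero hx.le]; ring
  have hslice : ∀ t ∈ Ioc (-t₀) t₀,
      ∫ y, (1 - lineDeriv ℝ φ (x' + s • y + t • e) e) * qb y ^ 2 ≤
        (s ^ Module.finrank ℝ E)⁻¹ * ((16 / 9) * X) := by
    intro t ht
    set a : E := x' + t • e with ha
    set f : E → ℝ := fun z => (1 - lineDeriv ℝ φ (a + z) e) * qb (s⁻¹ • z) ^ 2 with hf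
    have h1 : ∫ y, (1 - lineDeriv ℝ φ (x' + s • y + t • e) e) * qb y ^ 2 =
        |(s ^ Module.finrank ℝ E)⁻¹| • ∫ z, f z := by
      rw [← Measure.integral_comp_smul volume f s]
      apply integral_congr_ae
      refine Filter.Eventually.of_forall fun y => ?_
      simp only [hf, smul_smul, inv_mul_cancel₀ hs.ne', one_smul]
      have : x' + s • y + t • e = a + s • y := by rw [ha]; abel
      rw [this]
    have h2 : ∫ z, f z = ∫ x, f (x - a) := (integral_sub_right_eq_self f a).symm
    have hat : ‖a‖ + s ≤ 1 / 2 := by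
      have : ‖a‖ ≤ ‖x'‖ + t₀ := by
        refine (norm_add_le _ _).trans ?_
        rw [norm_smul, he, mul_one, Real.norm_eq_abs]
        gcongr
        rw [abs_le]; exact ⟨ht.1.le, ht.2⟩
      linarith
    have h3 : ∫ x, f (x - a) ≤ ∫ x, (16 / 9) * (qb x ^ 2 * (1 - ⟪∇ φ x, e⟫)) := by
      have hpt : ∀ᵐ x, f (x - a) ≤ (16 / 9) * (qb x ^ 2 * (1 - ⟪∇ φ x, e⟫)) := by
        filter_upwards [hφ.ae_differentiableAt] with x dx
        simp only [hf]
        rw [add_sub_cancel, dx.lineDeriv_eq_fderiv, ← inner_grad]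
        have h4 : 0 ≤ 1 - ⟪∇ φ x, e⟫ := by
          have h5 : |⟪∇ φ x, e⟫| ≤ 1 := by
            refine (abs_real_inner_le_norm _ _).trans ?_
            rw [he, mul_one]
            simpa using norm_grad_le hφ x
          linarith [(abs_le.mp h5).2]
        have h5 : qb (s⁻¹ • (x - a)) ^ 2 ≤ (16 / 9) * qb x ^ 2 := by
          by_cases hx : ‖s⁻¹ • (x - a)‖ < 1
          · have h6 : ‖x‖ ≤ 1 / 2 := by
              rw [norm_smul, norm_inv, Real.norm_eq_abs, abs_of_pos hs] at hx
              have h7 : ‖x - a‖ < s := by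
                rw [inv_mul_lt_iff₀ hs] at hx
                linarith
              have h8 : x = (x - a) + a := by abel
              rw [h8]
              exact (norm_add_le _ _).trans (by linarith)
            have h7 : 3 / 4 ≤ qb x := by
              unfold qb
              refine le_trans ?_ (le_max_right _ _)
              nlinarith [norm_nonneg x]
            have h8 : qb (s⁻¹ • (x - a)) ^ 2 ≤ 1 := pow_le_one₀ (qb_nonneg _) (qb_le_one _)
            nlinarith
          · push Not at hx
            rw [qb_eq_zero hx]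
            have := sq_nonneg (qb x)
            simpa using this
        calc _ ≤ (1 - ⟪∇ φ x, e⟫) * ((16 / 9) * qb x ^ 2) := by gcongr
          _ = _ := by ring
      have hmf : Measurable (fun x => f (x - a)) := by
        have h1 : Measurable (fun p : E × E => lineDeriv ℝ φ p.1 p.2) :=
          measurable_lineDeriv_uncurry hc
        have h2 : Measurable (fun x : E => ((a + (x - a) : E), (e : E))) :=
          Continuous.measurable (by fun_prop)
        exact (measurable_const.sub (h1.comp h2)).mul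
          (((continuous_qb).comp (by fun_prop : Continuous fun x : E => s⁻¹ • (x - a))).pow
            2).measurable
      have hif : Integrable (fun x => f (x - a)) := by
        refine integrable_of_bdd_supp hmf.aestronglyMeasurable (C := 2) (fun x => ?_)
          (isCompact_closedBall a s) (fun x hx => ?_)
        · simp only [hf]
          rw [abs_mul, abs_pow]
          have h1 : |lineDeriv ℝ φ (a + (x - a)) e| ≤ 1 := by
            have := norm_lineDeriv_le_of_lipschitz ℝ hφ (x₀ := a + (x - a)) (v := e)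
            simpa [he] using this
          have h2 : |qb (s⁻¹ • (x - a))| ^ 2 ≤ 1 := pow_le_one₀ (abs_nonneg _) (abs_qb_le _)
          have h3 : |1 - lineDeriv ℝ φ (a + (x - a)) e| ≤ 2 := by
            rw [abs_le] at h1 ⊢
            constructor <;> linarith [h1.1, h1.2]
          calc _ ≤ (2 : ℝ) * 1 := by gcongr
            _ = 2 := mul_one _
        · simp only [hf]
          rw [mem_closedBall, dist_eq_norm] at hx
          push Not at hx
          rw [qb_eq_zero, zero_pow (by norm_num), mul_zero]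
          rw [norm_smul, norm_inv, Real.norm_eq_abs, abs_of_pos hs]
          rw [le_inv_mul_iff₀ hs]
          linarith
      exact integral_mono_ae hif (iX.const_mul _) hpt
    rw [h1, h2, smul_eq_mul, abs_of_pos (by positivity)]
    rw [integral_const_mul] at h3
    gcongr
  have hmono : ∫ t in (-t₀)..t₀, ∫ y, (1 - lineDeriv ℝ φ (x' + s • y + t • e) e) * qb y ^ 2 ≤
      ∫ _t in (-t₀)..t₀, (s ^ Module.finrank ℝ E)⁻¹ * ((16 / 9) * X) := by
    rw [intervalIntegral.integral_of_le (by linarith), intervalIntegral.integral_of_le (by linarith)]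
    refine setIntegral_mono_on ?_ ?_ measurableSet_Ioc hslice
    · exact hI2.integral_prod_left
    · exact integrableOn_const (by simp)
  refine hmono.trans (le_of_eq ?_)
  rw [intervalIntegral.integral_const, smul_eq_mul]
  ring

end

end Crest.Agent.R246.Flat105
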