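import Crest.Agent.R246.Gap1_105
import Mathlib.MeasureTheory.Function.L2Space

/-!
R246, helper105.  Improvement of flatness at unit scale, from the excess bound.
-/

set_option autoImplicit false
set_option linter.unusedSectionVars false

namespace Crest.Agent.R246.Flat105

open MeasureTheory Filter Topology Metric Set
open scoped NNReal Gradient RealInnerProductSpace

section
variable {E : Type*} [NormedAddCommGroup E] [InnerProductSpace ℝ E]

/-- normalisation of the improved slope -/
theorem normalise {e β : E} (he : ‖e‖ = 1) (hβ : ⟪e, β⟫ = 0) :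
    ∃ e' : E, ‖e'‖ = 1 ∧ ‖e' - e‖ ≤ 2 * ‖β‖ ∧
      ∀ x, |⟪e + β, x⟫ - ⟪e', x⟫| ≤ ‖β‖ ^ 2 * ‖x‖ := by
  set n := ‖e + β‖ with hn
  have hn2 : n ^ 2 = 1 + ‖β‖ ^ 2 := by
    rw [hn, @norm_add_sq_real, he, hβ]; ring
  have hn0 : 0 ≤ n := norm_nonneg _
  have hn1 : 1 ≤ n := by nlinarith [sq_nonneg ‖β‖]
  have hpos : 0 < n := by linarith
  have hn3 : n ≤ 1 + ‖β‖ := by
    rw [hn]; exact (norm_add_le _ _).trans (by rw [he])
  have hn4 : n - 1 ≤ ‖β‖ ^ 2 := by nlinarith
  have hunit : ‖n⁻¹ • (e + β)‖ = 1 := by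
    rw [norm_smul, norm_inv, Real.norm_eq_abs, abs_of_pos hpos, ← hn]
    exact inv_mul_cancel₀ hpos.ne'
  have heq : e + β = n • (n⁻¹ • (e + β)) := by
    rw [smul_smul, mul_inv_cancel₀ hpos.ne', one_smul]
  refine ⟨n⁻¹ • (e + β), hunit, ?_, ?_⟩
  · have h1 : n⁻¹ • (e + β) - e = β - (n - 1) • (n⁻¹ • (e + β)) := by
      rw [sub_smul, one_smul, ← heq]; abel
    rw [h1]
    refine (norm_sub_le _ _).trans ?_
    rw [norm_smul, hunit, Real.norm_eq_abs, abs_of_nonneg (by linarith)]
    linarith
  · intro x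
    have h1 : ⟪e + β, x⟫ - ⟪n⁻¹ • (e + β), x⟫ = (n - 1) * ⟪n⁻¹ • (e + β), x⟫ := by
      have h3 : ⟪e + β, x⟫ = n * ⟪n⁻¹ • (e + β), x⟫ := by
        conv_lhs => rw [heq, inner_smul_left]
        simp only [conj_trivial]
      rw [h3]; ring
    rw [h1, abs_mul, abs_of_nonneg (by linarith : 0 ≤ n - 1)]
    have h2 : |⟪n⁻¹ • (e + β), x⟫| ≤ ‖x‖ := by
      refine (abs_real_inner_le_norm _ _).trans ?_
      rw [hunit, one_mul]
    gcongr

end

section
variable {E : Type*} [NormedAddCommGroup E] [InnerProductSpace ℝ E] [FiniteDimensional ℝ E]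
  [MeasurableSpace E] [BorelSpace E]

theorem integral_qb_sq_pos : 0 < ∫ y : E, qb y ^ 2 := by
  have cq : Continuous (fun y : E => qb y ^ 2) := continuous_qb.pow 2
  refine cq.integral_pos_of_hasCompactSupport_nonneg_nonzero cpt_qb_sq (fun x => by positivity)
    (x := 0) ?_
  simp [qb]

/-- the first moment of the kernel vanishes -/
theorem integral_inner_qb_sq (e : E) : ∫ y : E, ⟪e, y⟫ * qb y ^ 2 = 0 := by
  have h := integral_neg_eq_self (fun y : E => ⟪e, y⟫ * qb y ^ 2) volume
  simp only [qb_neg, inner_neg_right, neg_mul] at h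
  rw [integral_neg] at h
  linarith

/-- **Affine approximation of a mollification.** -/
theorem mollify_affine {H : E → ℝ} (hH : Continuous H) {δ : ℝ}
    (hb : ∀ y, ‖y‖ ≤ 3 → |H y| ≤ δ) :
    ∃ b : E, ‖b‖ ≤ 4 * volume.real (closedBall (0 : E) 1) * δ ∧ ∀ u : E, ‖u‖ ≤ 2 →
      |(∫ y, H y * qb (y - u) ^ 2) - (∫ y, H y * qb y ^ 2) - ⟪b, u⟫| ≤
        12 * volume.real (closedBall (0 : E) 3) * δ * ‖u‖ ^ 2 := by
  set k : E → ℝ := fun z => qb z ^ 2 with hk
  have cq : Continuous k := continuous_qb.pow 2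
  have hcq : HasCompactSupport k := cpt_qb_sq
  have hgk : ∀ x, ∇ k x = (-(4 * qb x)) • x := grad_qb_sq
  have cgk : Continuous (fun x => ∇ k x) := by
    have h1 : (fun x => ∇ k x) = fun x : E => (-(4 * qb x)) • x := funext hgk
    rw [h1]
    have := continuous_qb (E := E)
    fun_prop
  have hgk0 : ∀ x : E, 1 ≤ ‖x‖ → ∇ k x = 0 := fun x hx => grad_qb_sq_eq_zero hx
  have hδ : 0 ≤ δ := (abs_nonneg _).trans (hb 0 (by simp))
  have iV : Integrable (fun y => H y • ∇ k y) := by
    have h1 : Continuous (fun y => H y • ∇ k y) := hH.smul cgk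
    refine h1.integrable_of_hasCompactSupport ?_
    refine HasCompactSupport.intro (isCompact_closedBall (0 : E) 1) fun x hx => ?_
    rw [mem_closedBall, dist_zero_right] at hx
    push Not at hx
    rw [hgk0 x hx.le, smul_zero]
  refine ⟨-∫ y, H y • ∇ k y, ?_, ?_⟩
  · rw [norm_neg]
    have h1 : ∀ x, ‖H x • ∇ k x‖ ≤ (closedBall (0 : E) 1).indicator (fun _ => δ * 4) x := by
      intro x
      by_cases hx : x ∈ closedBall (0 : E) 1
      · rw [indicator_of_mem hx, norm_smul, Real.norm_eq_abs]
        rw [mem_closedBall, dist_zero_right] at hx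
        have h2 := hb x (by linarith)
        have h3 := norm_grad_qb_sq_le x
        gcongr
      · rw [indicator_of_notMem hx]
        rw [mem_closedBall, dist_zero_right] at hx
        push Not at hx
        rw [hgk0 x hx.le, smul_zero, norm_zero]
    have h2 : Integrable ((closedBall (0 : E) 1).indicator (fun _ => δ * 4)) :=
      (integrable_indicator_iff measurableSet_closedBall).mpr
        (integrableOn_const (measure_closedBall_lt_top.ne))
    have h3 := norm_integral_le_of_norm_le h2 (Eventually.of_forall h1)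
    rw [integral_indicator measurableSet_closedBall, setIntegral_const, smul_eq_mul] at h3
    linarith
  · intro u hu
    have i1 : Integrable (fun y => H y * qb (y - u) ^ 2) := by
      have h1 : Continuous (fun y => H y * qb (y - u) ^ 2) :=
        hH.mul (cq.comp (continuous_id.sub continuous_const))
      refine h1.integrable_of_hasCompactSupport ?_
      refine HasCompactSupport.intro (isCompact_closedBall (0 : E) 3) fun x hx => ?_
      rw [mem_closedBall, dist_zero_right] at hx
      push Not at hx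
      rw [qb_eq_zero, zero_pow (by norm_num), mul_zero]
      have : ‖x‖ ≤ ‖x - u‖ + ‖u‖ := by
        calc ‖x‖ = ‖(x - u) + u‖ := by rw [sub_add_cancel]
          _ ≤ _ := norm_add_le _ _
      linarith
    have i2 : Integrable (fun y => H y * qb y ^ 2) :=
      (hH.mul cq).integrable_of_hasCompactSupport hcq.mul_left
    have i3 : Integrable (fun y => H y * ⟪∇ k y, u⟫) := by
      have h1 : Integrable (fun y => ⟪H y • ∇ k y, u⟫) := iV.inner_const (𝕜 := ℝ) u
      refine h1.congr (Eventually.of_forall fun y => ?_)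
      simp [inner_smul_left]
    have h1 : ⟪-∫ y, H y • ∇ k y, u⟫ = -∫ y, H y * ⟪∇ k y, u⟫ := by
      rw [inner_neg_left, real_inner_comm, ← integral_inner iV]
      congr 2
      funext y
      rw [inner_smul_right, real_inner_comm]
    have i12 : Integrable (fun y => H y * qb (y - u) ^ 2 - H y * qb y ^ 2) := i1.sub i2
    rw [h1, sub_neg_eq_add, ← integral_sub i1 i2, ← integral_add i12 i3]
    have h2 : ∀ y, ‖(H y * qb (y - u) ^ 2 - H y * qb y ^ 2) + H y * ⟪∇ k y, u⟫‖ ≤
        (closedBall (0 : E) 3).indicator (fun _ => δ * (12 * ‖u‖ ^ 2)) y := by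
      intro y
      by_cases hy : y ∈ closedBall (0 : E) 3
      · rw [indicator_of_mem hy]
        rw [mem_closedBall, dist_zero_right] at hy
        have h3 := qb_taylor y (-u)
        rw [← sub_eq_add_neg, inner_neg_right, sub_neg_eq_add, norm_neg] at h3
        have h4 : (H y * qb (y - u) ^ 2 - H y * qb y ^ 2) + H y * ⟪∇ k y, u⟫ =
            H y * (qb (y - u) ^ 2 - qb y ^ 2 + ⟪∇ k y, u⟫) := by ring
        rw [h4, norm_mul, Real.norm_eq_abs, Real.norm_eq_abs]
        have h5 := hb y hy
        gcongr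
      · rw [indicator_of_notMem hy]
        rw [mem_closedBall, dist_zero_right] at hy
        push Not at hy
        have h3 : ‖y‖ ≤ ‖y - u‖ + ‖u‖ := by
          calc ‖y‖ = ‖(y - u) + u‖ := by rw [sub_add_cancel]
            _ ≤ _ := norm_add_le _ _
        rw [qb_eq_zero (by linarith : 1 ≤ ‖y - u‖), qb_eq_zero (by linarith : 1 ≤ ‖y‖),
          hgk0 y (by linarith)]
        simp
    have h3 : Integrable ((closedBall (0 : E) 3).indicator (fun _ => δ * (12 * ‖u‖ ^ 2))) :=
      (integrable_indicator_iff measurableSet_closedBall).mpr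
        (integrableOn_const (measure_closedBall_lt_top.ne))
    have h4 := norm_integral_le_of_norm_le h3 (Eventually.of_forall h2)
    rw [integral_indicator measurableSet_closedBall, setIntegral_const, smul_eq_mul,
      Real.norm_eq_abs] at h4
    refine h4.trans (le_of_eq ?_)
    ring

end

end Crest.Agent.R246.Flat105
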