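import Crest.Agent.R246.Gap2_105

/-!
R246, helper105.  Improvement of flatness at unit scale, from the excess bound.
-/

set_option autoImplicit false
set_option linter.unusedSectionVars false

namespace Crest.Agent.R246.Flat105

open MeasureTheory Filter Topology Metric Set
open scoped NNReal Gradient RealInnerProductSpace

variable {E : Type*} [NormedAddCommGroup E] [InnerProductSpace ℝ E] [FiniteDimensional ℝ E]
  [MeasurableSpace E] [BorelSpace E]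

/-- the squeeze -/
theorem squeeze {φ : E → ℝ} (hφ : LipschitzWith 1 φ)
    (hsup : ∀ ζ, Test (ball 0 1 ∩ {x | 0 < φ x}) ζ → 0 ≤ ∫ x, ⟪∇ φ x, ∇ ζ x⟫)
    (hsub : ∀ ζ, Test (ball 0 1 ∩ {x | φ x < 0}) ζ → ∫ x, ⟪∇ φ x, ∇ ζ x⟫ ≤ 0)
    {e : E} (he : ‖e‖ = 1) {δ : ℝ} (hδ1 : δ ≤ 1 / 32)
    (hflat : ∀ x, ‖x‖ ≤ 1 → |φ x - ⟪e, x⟫| ≤ δ) {x : E} (hx : ‖x‖ ≤ 1 / 8) :
    (∫ y, (φ (x - ⟪e, x⟫ • e + (1 / 8 : ℝ) • e + (1 / 16 : ℝ) • y) - 1 / 8) * qb y ^ 2) ≤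
        (∫ y : E, qb y ^ 2) * (φ x - ⟪e, x⟫) ∧
      (∫ y : E, qb y ^ 2) * (φ x - ⟪e, x⟫) ≤
        (∫ y, (φ (x - ⟪e, x⟫ • e + (1 / 8 : ℝ) • e + (1 / 16 : ℝ) • y) - 1 / 8) * qb y ^ 2) +
        2 * (1 / 8) * (16 / 9) * ((1 / 16) ^ Module.finrank ℝ E)⁻¹ *
          ∫ x, qb x ^ 2 * (1 - ⟪∇ φ x, e⟫) := by
  set c₀ := ∫ y : E, qb y ^ 2 with hc₀
  have hc0 : 0 < c₀ := integral_qb_sq_pos
  have hc : Continuous φ := hφ.continuous
  have hcq : HasCompactSupport (fun y : E => qb y ^ 2) := cpt_qb_sq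
  have cq : Continuous (fun y : E => qb y ^ 2) := continuous_qb.pow 2
  have i0 : Integrable (fun y : E => qb y ^ 2) := cq.integrable_of_hasCompactSupport hcq
  have hee : ⟪e, e⟫ = (1 : ℝ) := by rw [real_inner_self_eq_norm_sq, he]; norm_num
  set t := ⟪e, x⟫ with ht
  have ht1 : |t| ≤ 1 / 8 := by
    refine (abs_real_inner_le_norm _ _).trans ?_
    rw [he, one_mul]; exact hx
  set x' := x - t • e with hx'
  have hxe : x = x' + t • e := by rw [hx']; abel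
  have hperp : ⟪e, x'⟫ = 0 := by
    rw [hx', inner_sub_right, inner_smul_right, hee, ← ht]; ring
  have hx'n : ‖x'‖ ≤ 1 / 8 := by
    have h1 : ‖x‖ ^ 2 = ‖x'‖ ^ 2 + t ^ 2 := by
      conv_lhs => rw [hxe]
      rw [@norm_add_sq_real, inner_smul_right, real_inner_comm, hperp, norm_smul, he,
        Real.norm_eq_abs, mul_one, sq_abs]
      ring
    have h2 : ‖x'‖ ^ 2 ≤ (1 / 8) ^ 2 := by
      nlinarith [norm_nonneg x, sq_nonneg t]
    exact le_of_sq_le_sq h2 (by norm_num)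
  -- continuity and integrability
  have i1 : ∀ s : ℝ, ∀ q : E, Integrable (fun y => (φ (q + (1 / 16 : ℝ) • y) + s) * qb y ^ 2) := by
    intro s q
    have h9 : Continuous (fun y : E => (φ (q + (1 / 16 : ℝ) • y) + s) * qb y ^ 2) :=
      ((hc.comp (by fun_prop)).add continuous_const).mul cq
    exact h9.integrable_of_hasCompactSupport hcq.mul_left
  have i1' : ∀ q : E, Integrable (fun y => φ (q + (1 / 16 : ℝ) • y) * qb y ^ 2) := by
    intro q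
    have h9 : Continuous (fun y : E => φ (q + (1 / 16 : ℝ) • y) * qb y ^ 2) :=
      (hc.comp (by fun_prop)).mul cq
    exact h9.integrable_of_hasCompactSupport hcq.mul_left
  have hsplit : ∀ s : ℝ, ∀ q : E, ∫ y, (φ (q + (1 / 16 : ℝ) • y) + s) * qb y ^ 2 =
      (∫ y, φ (q + (1 / 16 : ℝ) • y) * qb y ^ 2) + s * c₀ := by
    intro s q
    rw [hc₀, ← integral_const_mul, ← integral_add (i1' q) (i0.const_mul s)]
    congr 1
    funext y
    ring
  -- the two mean value inequalities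
  have hball : ∀ σ : ℝ, |σ| = 1 / 8 → ∀ z ∈ closedBall (x' + σ • e) (1 / 16),
      ‖z‖ < 1 ∧ |⟪e, z⟫ - σ| ≤ 1 / 16 := by
    intro σ hσ z hz
    rw [mem_closedBall, dist_eq_norm] at hz
    constructor
    · have h1 : z = (z - (x' + σ • e)) + x' + σ • e := by abel
      have h2 : ‖σ • e‖ = 1 / 8 := by rw [norm_smul, he, mul_one, Real.norm_eq_abs, hσ]
      calc ‖z‖ = ‖(z - (x' + σ • e)) + x' + σ • e‖ := by rw [← h1]
        _ ≤ ‖z - (x' + σ • e)‖ + ‖x'‖ + ‖σ • e‖ := norm_add₃_le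
        _ ≤ 1 / 16 + 1 / 8 + 1 / 8 := by gcongr; exact h2.le
        _ < 1 := by norm_num
    · have h1 : ⟪e, z⟫ - σ = ⟪e, z - (x' + σ • e)⟫ := by
        rw [inner_sub_right, inner_add_right, hperp, inner_smul_right, hee]; ring
      rw [h1]
      refine (abs_real_inner_le_norm _ _).trans ?_
      rw [he, one_mul]; exact hz
  have hup : (∫ y, φ (x' + (1 / 8 : ℝ) • e + (1 / 16 : ℝ) • y) * qb y ^ 2) ≤
      φ (x' + (1 / 8 : ℝ) • e) * c₀ := by
    refine mvi hφ hsup (by norm_num) ?_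
    intro z hz
    obtain ⟨h1, h2⟩ := hball (1 / 8) (by norm_num) z hz
    refine ⟨by simpa using h1, ?_⟩
    have h3 := hflat z h1.le
    rw [abs_le] at h2 h3
    show 0 < φ z
    linarith [h2.1, h3.1]
  have hlo : φ (x' + (-(1 / 8) : ℝ) • e) * c₀ ≤
      ∫ y, φ (x' + (-(1 / 8) : ℝ) • e + (1 / 16 : ℝ) • y) * qb y ^ 2 := by
    have hneg : LipschitzWith 1 (fun x => -φ x) := hφ.neg
    have hgn : ∀ x, ∇ (fun y => -φ y) x = -∇ φ x := by
      intro x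
      rw [gradient, gradient, fderiv_fun_neg, map_neg]
    have h := mvi (V := ball 0 1 ∩ {x | φ x < 0}) hneg (fun ζ hζ => by
      have h1 := hsub ζ hζ
      simp only [hgn, inner_neg_left]
      rw [integral_neg]
      linarith) (x₀ := x' + (-(1 / 8) : ℝ) • e) (s := 1 / 16) (by norm_num) (by
        intro z hz
        obtain ⟨h1, h2⟩ := hball (-(1 / 8)) (by norm_num) z hz
        refine ⟨by simpa using h1, ?_⟩
        have h3 := hflat z h1.le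
        rw [abs_le] at h2 h3
        show φ z < 0
        linarith [h2.2, h3.2])
    simp only [neg_mul] at h
    rw [integral_neg] at h
    linarith
  -- monotonicity along `e`
  have hm1 : φ (x' + (1 / 8 : ℝ) • e) - 1 / 8 ≤ φ x - t := by
    have h1 := hφ.dist_le_mul (x' + (1 / 8 : ℝ) • e) x
    rw [Real.dist_eq, dist_eq_norm] at h1
    have h2 : x' + (1 / 8 : ℝ) • e - x = (1 / 8 - t) • e := by
      rw [hx', sub_smul]; abel
    rw [h2, norm_smul, he, Real.norm_eq_abs] at h1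
    have h3 : 0 ≤ 1 / 8 - t := by linarith [(abs_le.mp ht1).2]
    rw [abs_of_nonneg h3] at h1
    push_cast at h1
    have := (abs_le.mp h1).2
    linarith
  have hm2 : φ x - t ≤ φ (x' + (-(1 / 8) : ℝ) • e) + 1 / 8 := by
    have h1 := hφ.dist_le_mul x (x' + (-(1 / 8) : ℝ) • e)
    rw [Real.dist_eq, dist_eq_norm] at h1
    have h2 : x - (x' + (-(1 / 8) : ℝ) • e) = (1 / 8 + t) • e := by
      rw [hx', add_smul, neg_smul]; abel
    rw [h2, norm_smul, he, Real.norm_eq_abs] at h1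
    have h3 : 0 ≤ 1 / 8 + t := by linarith [(abs_le.mp ht1).1]
    rw [abs_of_nonneg h3] at h1
    push_cast at h1
    have := (abs_le.mp h1).2
    linarith
  have hgap := gap_le hφ he (s := 1 / 16) (t₀ := 1 / 8) (by norm_num) (by norm_num)
    (x' := x') (by linarith)
  have e1 := hsplit (-(1 / 8)) (x' + (1 / 8 : ℝ) • e)
  have e2 := hsplit (1 / 8) (x' + (-(1 / 8) : ℝ) • e)
  simp only [← sub_eq_add_neg] at e1
  rw [e1]
  rw [e1, e2] at hgap
  constructor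
  · nlinarith
  · nlinarith

/-- **Improvement of flatness at unit scale.** -/
theorem improve_unit (E : Type*) [NormedAddCommGroup E] [InnerProductSpace ℝ E]
    [FiniteDimensional ℝ E] [MeasurableSpace E] [BorelSpace E] :
    ∃ C : ℝ, 0 ≤ C ∧ ∀ φ : E → ℝ, LipschitzWith 1 φ →
      (∀ ζ, Test (ball 0 1 ∩ {x | 0 < φ x}) ζ → 0 ≤ ∫ x, ⟪∇ φ x, ∇ ζ x⟫) →
      (∀ ζ, Test (ball 0 1 ∩ {x | φ x < 0}) ζ → ∫ x, ⟪∇ φ x, ∇ ζ x⟫ ≤ 0) → φ 0 = 0 →
      ∀ e : E, ‖e‖ = 1 → ∀ δ : ℝ, δ ≤ 1 / 32 → (∀ x, ‖x‖ ≤ 1 → |φ x - ⟪e, x⟫| ≤ δ) →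
      ∀ X : ℝ, ∫ x, qb x ^ 2 * (1 - ⟪∇ φ x, e⟫) ≤ X → ∀ θ : ℝ, θ ≤ 1 / 8 →
      ∃ e' : E, ‖e'‖ = 1 ∧ ‖e' - e‖ ≤ C * δ ∧
        ∀ x, ‖x‖ ≤ θ → |φ x - ⟪e', x⟫| ≤ C * (X + δ * θ ^ 2 + δ ^ 2 * θ) := by
  set c₀ := ∫ y : E, qb y ^ 2 with hc₀
  have hc0 : 0 < c₀ := integral_qb_sq_pos
  set V₁ := volume.real (closedBall (0 : E) 1) with hV₁
  set V₃ := volume.real (closedBall (0 : E) 3) with hV₃
  have hV1 : 0 ≤ V₁ := measureReal_nonneg
  have hV3 : 0 ≤ V₃ := measureReal_nonneg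
  set g₀ : ℝ := 2 * (1 / 8) * (16 / 9) * ((1 / 16) ^ Module.finrank ℝ E)⁻¹ with hg₀
  have hg0 : 0 < g₀ := by positivity
  set B : ℝ := 128 * V₁ / c₀ with hB
  have hB0 : 0 ≤ B := by positivity
  refine ⟨g₀ / c₀ + 3072 * V₃ / c₀ + 2 * B + B ^ 2, by positivity, ?_⟩
  intro φ hφ hsup hsub h0 e he δ hδ1 hflat X hX θ hθ1
  have hδ : 0 ≤ δ := (abs_nonneg _).trans (hflat 0 (by simp))
  have hc : Continuous φ := hφ.continuous
  have hee : ⟪e, e⟫ = (1 : ℝ) := by rw [real_inner_self_eq_norm_sq, he]; norm_num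
  have hX0 : 0 ≤ ∫ x, qb x ^ 2 * (1 - ⟪∇ φ x, e⟫) := by
    refine integral_nonneg fun x => mul_nonneg (by positivity) ?_
    have h5 : |⟪∇ φ x, e⟫| ≤ 1 := by
      refine (abs_real_inner_le_norm _ _).trans ?_
      rw [he, mul_one]
      simpa using norm_grad_le hφ x
    linarith [(abs_le.mp h5).2]
  have hX0' : 0 ≤ X := hX0.trans hX
  set H : E → ℝ := fun y => φ ((1 / 8 : ℝ) • e + (1 / 16 : ℝ) • y) - 1 / 8 - (1 / 16) * ⟪e, y⟫
    with hH
  have cH : Continuous H := by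
    have h1 : Continuous (fun y : E => φ ((1 / 8 : ℝ) • e + (1 / 16 : ℝ) • y)) :=
      hc.comp (by fun_prop)
    have h2 : Continuous (fun y : E => (1 / 16) * ⟪e, y⟫) := by fun_prop
    exact (h1.sub continuous_const).sub h2
  have hHb : ∀ y, ‖y‖ ≤ 3 → |H y| ≤ δ := by
    intro y hy
    have h1 : ‖(1 / 8 : ℝ) • e + (1 / 16 : ℝ) • y‖ ≤ 1 := by
      refine (norm_add_le _ _).trans ?_
      rw [norm_smul, norm_smul, he]
      norm_num
      linarith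
    have h2 := hflat _ h1
    rw [inner_add_right, inner_smul_right, inner_smul_right, hee] at h2
    have h3 : H y = φ ((1 / 8 : ℝ) • e + (1 / 16 : ℝ) • y) - (1 / 8 * 1 + 1 / 16 * ⟪e, y⟫) := by
      simp only [hH]; ring
    rw [h3]
    exact h2
  obtain ⟨b, hb1, hb2⟩ := mollify_affine cH hHb
  rw [← hV₁] at hb1
  rw [← hV₃] at hb2
  -- identification of the mollification
  have hJ : ∀ x' : E, ⟪e, x'⟫ = 0 →
      (∫ y, (φ (x' + (1 / 8 : ℝ) • e + (1 / 16 : ℝ) • y) - 1 / 8) * qb y ^ 2) =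
        ∫ y, H y * qb (y - (16 : ℝ) • x') ^ 2 := by
    intro x' hx'
    rw [← integral_add_right_eq_self (fun y => H y * qb (y - (16 : ℝ) • x') ^ 2) ((16 : ℝ) • x')]
    have cq : Continuous (fun y : E => qb y ^ 2) := continuous_qb.pow 2
    have i1 : Integrable (fun y =>
        (φ (x' + (1 / 8 : ℝ) • e + (1 / 16 : ℝ) • y) - 1 / 8) * qb y ^ 2) := by
      have h9 : Continuous (fun y : E =>
          (φ (x' + (1 / 8 : ℝ) • e + (1 / 16 : ℝ) • y) - 1 / 8) * qb y ^ 2) :=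
        ((hc.comp (by fun_prop)).sub continuous_const).mul cq
      exact h9.integrable_of_hasCompactSupport cpt_qb_sq.mul_left
    have i2 : Integrable (fun y => (1 / 16) * (⟪e, y⟫ * qb y ^ 2)) := by
      have h9 : Continuous (fun y : E => ⟪e, y⟫ * qb y ^ 2) :=
        Continuous.mul (by fun_prop) cq
      exact (h9.integrable_of_hasCompactSupport cpt_qb_sq.mul_left).const_mul _
    have h1 : ∀ y, H (y + (16 : ℝ) • x') * qb (y + (16 : ℝ) • x' - (16 : ℝ) • x') ^ 2 =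
        (φ (x' + (1 / 8 : ℝ) • e + (1 / 16 : ℝ) • y) - 1 / 8) * qb y ^ 2 -
          (1 / 16) * (⟪e, y⟫ * qb y ^ 2) := by
      intro y
      simp only [hH]
      rw [add_sub_cancel_right, inner_add_right, inner_smul_right, hx', smul_add, smul_smul]
      have h2 : (1 / 8 : ℝ) • e + ((1 / 16 : ℝ) • y + ((1 / 16 : ℝ) * 16) • x') =
          x' + (1 / 8 : ℝ) • e + (1 / 16 : ℝ) • y := by
        norm_num
        abel
      rw [h2]
      ring
    simp only [h1]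
    rw [integral_sub i1 i2, integral_const_mul, integral_inner_qb_sq]
    ring
  -- the squeeze in terms of `J`
  have hsq : ∀ x : E, ‖x‖ ≤ 1 / 8 →
      (∫ y, H y * qb (y - (16 : ℝ) • (x - ⟪e, x⟫ • e)) ^ 2) ≤ c₀ * (φ x - ⟪e, x⟫) ∧
      c₀ * (φ x - ⟪e, x⟫) ≤
        (∫ y, H y * qb (y - (16 : ℝ) • (x - ⟪e, x⟫ • e)) ^ 2) + g₀ * X := by
    intro x hx
    have hperp : ⟪e, x - ⟪e, x⟫ • e⟫ = 0 := by
      rw [inner_sub_right, inner_smul_right, hee]; ring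
    obtain ⟨h1, h2⟩ := squeeze hφ hsup hsub he hδ1 hflat hx
    rw [hJ _ hperp] at h1 h2
    refine ⟨h1, h2.trans ?_⟩
    gcongr
  obtain ⟨hz1, hz2⟩ := hsq 0 (by simp)
  rw [h0, inner_zero_right, zero_smul, sub_zero, sub_zero, mul_zero, smul_zero] at hz1 hz2
  simp only [sub_zero] at hz1 hz2
  -- the slope
  set β : E := (16 / c₀) • (b - ⟪e, b⟫ • e) with hβ
  have hβe : ⟪e, β⟫ = 0 := by
    rw [hβ, inner_smul_right, inner_sub_right, inner_smul_right, hee]; ring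
  have hβn : ‖β‖ ≤ B * δ := by
    rw [hβ, norm_smul, Real.norm_eq_abs, abs_of_pos (by positivity)]
    have h1 : ‖b - ⟪e, b⟫ • e‖ ≤ 2 * ‖b‖ := by
      refine (norm_sub_le _ _).trans ?_
      rw [norm_smul, he, mul_one, Real.norm_eq_abs]
      have := abs_real_inner_le_norm e b
      rw [he, one_mul] at this
      linarith
    calc 16 / c₀ * ‖b - ⟪e, b⟫ • e‖ ≤ 16 / c₀ * (2 * (4 * V₁ * δ)) := by
          gcongr
          exact h1.trans (by gcongr)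
      _ = B * δ := by rw [hB]; ring
  obtain ⟨e', he', he1, he2⟩ := normalise he hβe
  refine ⟨e', he', ?_, ?_⟩
  · refine he1.trans ?_
    have : 0 ≤ (g₀ / c₀ + 3072 * V₃ / c₀ + B ^ 2) * δ := by positivity
    nlinarith
  · intro x hx
    have hθ0 : 0 ≤ θ := (norm_nonneg x).trans hx
    obtain ⟨h1, h2⟩ := hsq x (hx.trans hθ1)
    set u : E := (16 : ℝ) • (x - ⟪e, x⟫ • e) with hu
    have hun : ‖u‖ ≤ 16 * θ := by
      rw [hu, norm_smul]
      have h3 : ‖x - ⟪e, x⟫ • e‖ ^ 2 = ‖x‖ ^ 2 - ⟪e, x⟫ ^ 2 := by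
        rw [@norm_sub_sq_real, inner_smul_right, norm_smul, he, mul_one, Real.norm_eq_abs,
          sq_abs, real_inner_comm e x]
        ring
      have h4 : ‖x - ⟪e, x⟫ • e‖ ≤ ‖x‖ := by
        refine le_of_sq_le_sq ?_ (norm_nonneg _)
        rw [h3]; linarith [sq_nonneg ⟪e, x⟫]
      norm_num
      linarith
    have h3 := hb2 u (by linarith)
    have h4 : ⟪b, u⟫ = c₀ * ⟪β, x⟫ := by
      rw [hu, hβ, inner_smul_right, inner_sub_right, inner_smul_right, inner_smul_left,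
        inner_sub_left, inner_smul_left]
      simp only [conj_trivial]
      rw [real_inner_comm e b]
      field_simp
    have h5 : 12 * V₃ * δ * ‖u‖ ^ 2 ≤ 3072 * V₃ * δ * θ ^ 2 := by
      have : ‖u‖ ^ 2 ≤ (16 * θ) ^ 2 := by gcongr
      nlinarith [mul_nonneg hV3 hδ]
    have h6 : c₀ * |φ x - ⟪e + β, x⟫| ≤ g₀ * X + 3072 * V₃ * δ * θ ^ 2 := by
      have h7 : c₀ * |φ x - ⟪e + β, x⟫| = |c₀ * (φ x - ⟪e, x⟫) - ⟪b, u⟫| := by
        conv_lhs => rw [← abs_of_pos hc0, ← abs_mul]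
        congr 1
        rw [h4, inner_add_left]; ring
      rw [h7]
      rw [abs_le] at h3 ⊢
      constructor
      · linarith [h3.1, h3.2]
      · linarith [h3.1, h3.2]
    have h7 : |φ x - ⟪e + β, x⟫| ≤ g₀ / c₀ * X + 3072 * V₃ / c₀ * (δ * θ ^ 2) := by
      have : |φ x - ⟪e + β, x⟫| ≤ (g₀ * X + 3072 * V₃ * δ * θ ^ 2) / c₀ := by
        rw [le_div_iff₀ hc0]; linarith
      refine this.trans (le_of_eq ?_)
      ring
    have h8 : |⟪e + β, x⟫ - ⟪e', x⟫| ≤ B ^ 2 * (δ ^ 2 * θ) := by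
      refine (he2 x).trans ?_
      calc ‖β‖ ^ 2 * ‖x‖ ≤ (B * δ) ^ 2 * θ := by gcongr
        _ = _ := by ring
    have h9 : |φ x - ⟪e', x⟫| ≤ |φ x - ⟪e + β, x⟫| + |⟪e + β, x⟫ - ⟪e', x⟫| := by
      have : φ x - ⟪e', x⟫ = (φ x - ⟪e + β, x⟫) + (⟪e + β, x⟫ - ⟪e', x⟫) := by ring
      rw [this]; exact abs_add_le _ _
    have p1 : 0 ≤ g₀ / c₀ := by positivity
    have p2 : 0 ≤ 3072 * V₃ / c₀ := by positivity
    have p3 : 0 ≤ δ * θ ^ 2 := by positivity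
    have p4 : 0 ≤ δ ^ 2 * θ := by positivity
    have p5 : 0 ≤ B ^ 2 := by positivity
    have q1 : g₀ / c₀ ≤ g₀ / c₀ + 3072 * V₃ / c₀ + 2 * B + B ^ 2 := by linarith
    have q2 : 3072 * V₃ / c₀ ≤ g₀ / c₀ + 3072 * V₃ / c₀ + 2 * B + B ^ 2 := by linarith
    have q3 : B ^ 2 ≤ g₀ / c₀ + 3072 * V₃ / c₀ + 2 * B + B ^ 2 := by linarith
    calc |φ x - ⟪e', x⟫| ≤ g₀ / c₀ * X + 3072 * V₃ / c₀ * (δ * θ ^ 2) + B ^ 2 * (δ ^ 2 * θ) := by
          linarith
      _ ≤ (g₀ / c₀ + 3072 * V₃ / c₀ + 2 * B + B ^ 2) * X +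
          (g₀ / c₀ + 3072 * V₃ / c₀ + 2 * B + B ^ 2) * (δ * θ ^ 2) +
          (g₀ / c₀ + 3072 * V₃ / c₀ + 2 * B + B ^ 2) * (δ ^ 2 * θ) := by gcongr
      _ = _ := by ring

end Crest.Agent.R246.Flat105
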