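import Mathlib

/-!
R246, step 4(B): barriers => integral inequality (Lemma VI), helper475.
-/

set_option autoImplicit false
set_option linter.unusedSectionVars false
set_option linter.style.haveILetI false
open MeasureTheory Set Filter Topology

namespace Crest.Agent.R246.Visc475

section Soft

variable {E : Type*} [NormedAddCommGroup E] [NormedSpace ℝ E]
variable {ι : Type*} [Fintype ι]

/-- The second order operator `L f = ∑ D²f(Vᵢ,Vᵢ) + Df(b)`. -/
noncomputable def Lop (V : ι → E → E) (b : E → E) (f : E → ℝ) (x : E) : ℝ :=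
  ∑ i, fderiv ℝ (fderiv ℝ f) x (V i x) (V i x) + fderiv ℝ f x (b x)

theorem Lop_add (V : ι → E → E) (b : E → E) {f g : E → ℝ} (hf : ContDiff ℝ 2 f)
    (hg : ContDiff ℝ 2 g) (x : E) :
    Lop V b (fun y => f y + g y) x = Lop V b f x + Lop V b g x := by
  have hf1 : Differentiable ℝ f := hf.differentiable (by norm_num)
  have hg1 : Differentiable ℝ g := hg.differentiable (by norm_num)
  have hf2 : Differentiable ℝ (fderiv ℝ f) :=
    (hf.fderiv_right (m := 1) (by norm_num)).differentiable (by norm_num)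
  have hg2 : Differentiable ℝ (fderiv ℝ g) :=
    (hg.fderiv_right (m := 1) (by norm_num)).differentiable (by norm_num)
  have e1 : fderiv ℝ (fun y => f y + g y) = fun y => fderiv ℝ f y + fderiv ℝ g y := by
    funext y
    exact fderiv_fun_add (hf1 y) (hg1 y)
  unfold Lop
  rw [e1, fderiv_fun_add (hf2 x) (hg2 x)]
  simp only [add_apply, Finset.sum_add_distrib]
  ring

theorem Lop_const_mul (V : ι → E → E) (b : E → E) {f : E → ℝ} (hf : ContDiff ℝ 2 f)
    (c : ℝ) (x : E) :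
    Lop V b (fun y => c * f y) x = c * Lop V b f x := by
  have hf1 : Differentiable ℝ f := hf.differentiable (by norm_num)
  have hf2 : Differentiable ℝ (fderiv ℝ f) :=
    (hf.fderiv_right (m := 1) (by norm_num)).differentiable (by norm_num)
  have e1 : fderiv ℝ (fun y => c * f y) = fun y => c • fderiv ℝ f y := by
    funext y
    exact fderiv_const_mul (hf1 y) c
  unfold Lop
  rw [e1, fderiv_fun_const_smul (hf2 x)]
  simp only [smul_apply, smul_eq_mul, Finset.mul_sum, mul_add]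

theorem Lop_const (V : ι → E → E) (b : E → E) (c : ℝ) (x : E) :
    Lop V b (fun _ => c) x = 0 := by
  have e1 : fderiv ℝ (fun _ : E => c) = fun _ => 0 := by
    funext y; simp
  unfold Lop
  rw [e1]
  simp

theorem Lop_sum {α : Type*} (s : Finset α) (V : ι → E → E) (b : E → E) {f : α → E → ℝ}
    (hf : ∀ a, ContDiff ℝ 2 (f a)) (p : α → ℝ) (x : E) :
    Lop V b (fun y => ∑ a ∈ s, p a * f a y) x = ∑ a ∈ s, p a * Lop V b (f a) x := by
  classical
  induction s using Finset.induction_on with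
  | empty => simp [Lop_const]
  | insert a s ha ih =>
    have h1 : (fun y => ∑ c ∈ insert a s, p c * f c y)
        = fun y => (p a * f a y) + ∑ c ∈ s, p c * f c y := by
      funext y; rw [Finset.sum_insert ha]
    rw [h1, Lop_add V b (contDiff_const.mul (hf a))
      (ContDiff.sum fun c _ => contDiff_const.mul (hf c)), Lop_const_mul V b (hf a), ih,
      Finset.sum_insert ha]

/-- second order necessary condition at a local minimum, one variable. -/
theorem deriv2_nonneg {h : ℝ → ℝ} {t : ℝ} (hm : IsLocalMin h t) (hc : ContinuousAt h t) :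
    0 ≤ deriv (deriv h) t := by
  by_contra hneg
  push Not at hneg
  have hd : deriv h t = 0 := hm.deriv_eq_zero
  have hmax := isLocalMax_of_deriv_deriv_neg hneg hd hc
  have hev : h =ᶠ[𝓝 t] fun _ => h t := by
    filter_upwards [hm, hmax] with s hs1 hs2
    exact le_antisymm hs2 hs1
  have h1 : deriv h =ᶠ[𝓝 t] deriv (fun _ => h t) := hev.deriv
  have h2 : deriv (deriv h) t = deriv (deriv (fun _ : ℝ => h t)) t := h1.deriv_eq
  rw [h2] at hneg
  simp at hneg

theorem fderiv2_nonneg {h : E → ℝ} (hh : ContDiff ℝ 2 h) {x : E} (hm : IsLocalMin h x) (v : E) :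
    0 ≤ fderiv ℝ (fderiv ℝ h) x v v := by
  set l : ℝ → E := fun t => x + t • v with hl
  have hld : ∀ t, HasDerivAt l v t := by
    intro t
    have := ((hasDerivAt_id t).smul_const v).const_add x
    simpa only [id, one_smul, hl] using this
  have h1 : Differentiable ℝ h := hh.differentiable (by norm_num)
  have h2 : Differentiable ℝ (fderiv ℝ h) :=
    (hh.fderiv_right (m := 1) (by norm_num)).differentiable (by norm_num)
  have e1 : deriv (fun t => h (l t)) = fun t => fderiv ℝ h (l t) v := by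
    funext t
    exact ((h1 (l t)).hasFDerivAt.comp_hasDerivAt t (hld t)).deriv
  have e2 : deriv (fun t => fderiv ℝ h (l t) v) 0 = fderiv ℝ (fderiv ℝ h) (l 0) v v := by
    have hA : HasDerivAt (fun t => fderiv ℝ h (l t)) (fderiv ℝ (fderiv ℝ h) (l 0) v) 0 :=
      (h2 (l 0)).hasFDerivAt.comp_hasDerivAt 0 (hld 0)
    have hB := hA.clm_apply (hasDerivAt_const (0:ℝ) v)
    simpa using hB.deriv
  have hl0 : l 0 = x := by simp [hl]
  have hmin : IsLocalMin (fun t => h (l t)) 0 := by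
    have hcont : ContinuousAt l 0 := (hld 0).continuousAt
    have : Tendsto l (𝓝 0) (𝓝 x) := by
      have := hcont.tendsto
      rwa [hl0] at this
    have := this.eventually hm
    refine this.mono ?_
    intro t ht
    simpa [hl0] using ht
  have := deriv2_nonneg hmin
    ((h1.continuous.comp (by fun_prop : Continuous l)).continuousAt)
  rw [e1, e2, hl0] at this
  exact this

theorem Lop_nonneg_of_min (V : ι → E → E) (b : E → E) {h : E → ℝ} (hh : ContDiff ℝ 2 h) {x : E}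
    (hm : IsLocalMin h x) : 0 ≤ Lop V b h x := by
  unfold Lop
  have h1 : fderiv ℝ h x = 0 := hm.fderiv_eq_zero
  rw [h1]
  simp only [zero_apply, add_zero]
  exact Finset.sum_nonneg fun i _ => fderiv2_nonneg hh hm _

/-- soft maximum -/
noncomputable def smax {α : Type*} [Fintype α] (k : ℝ) (f : α → E → ℝ) (x : E) : ℝ :=
  k⁻¹ * Real.log (∑ a, Real.exp (k * f a x))

noncomputable def wgt {α : Type*} [Fintype α] (k : ℝ) (f : α → E → ℝ) (x : E) (a : α) : ℝ :=
  Real.exp (k * f a x) / ∑ c, Real.exp (k * f c x)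

variable {α : Type*} [Fintype α] [Nonempty α]

theorem sum_exp_pos (k : ℝ) (f : α → E → ℝ) (x : E) : 0 < ∑ c, Real.exp (k * f c x) :=
  Finset.sum_pos (fun _ _ => Real.exp_pos _) Finset.univ_nonempty

theorem contDiff_smax {r : WithTop ℕ∞} (k : ℝ) {f : α → E → ℝ} (hf : ∀ a, ContDiff ℝ r (f a)) :
    ContDiff ℝ r (smax k f) := by
  unfold smax
  refine contDiff_const.mul (ContDiff.log ?_ ?_)
  · exact ContDiff.sum fun a _ => (contDiff_const.mul (hf a)).exp
  · exact fun x => (sum_exp_pos k f x).ne'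

theorem wgt_nonneg (k : ℝ) (f : α → E → ℝ) (x : E) (a : α) : 0 ≤ wgt k f x a :=
  div_nonneg (Real.exp_pos _).le (sum_exp_pos k f x).le

theorem wgt_sum (k : ℝ) (f : α → E → ℝ) (x : E) : ∑ a, wgt k f x a = 1 := by
  unfold wgt
  rw [← Finset.sum_div, div_self (sum_exp_pos k f x).ne']

theorem wgt_le (k : ℝ) (hk : 0 ≤ k) (f : α → E → ℝ) (x : E) (a c : α) (δ : ℝ)
    (h : f a x ≤ f c x - δ) : wgt k f x a ≤ Real.exp (-(k * δ)) := by
  unfold wgt
  rw [div_le_iff₀ (sum_exp_pos k f x)]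
  calc Real.exp (k * f a x) ≤ Real.exp (-(k * δ)) * Real.exp (k * f c x) := by
        rw [← Real.exp_add]
        apply Real.exp_le_exp.2
        nlinarith
    _ ≤ Real.exp (-(k * δ)) * ∑ c, Real.exp (k * f c x) := by
        apply mul_le_mul_of_nonneg_left _ (Real.exp_pos _).le
        exact Finset.single_le_sum (f := fun c => Real.exp (k * f c x))
          (fun _ _ => (Real.exp_pos _).le) (Finset.mem_univ c)

theorem smax_ge (k : ℝ) (hk : 0 < k) (f : α → E → ℝ) (x y : E) :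
    smax k f x + ∑ a, wgt k f x a * (f a y - f a x) ≤ smax k f y := by
  set p := wgt k f x with hp
  have hp0 : ∀ a, 0 ≤ p a := wgt_nonneg k f x
  have hp1 : ∑ a, p a = 1 := wgt_sum k f x
  have hJ := convexOn_exp.map_sum_le (t := Finset.univ) (w := p)
    (p := fun a => k * (f a y - f a x)) (fun a _ => hp0 a) hp1 (fun _ _ => mem_univ _)
  simp only [smul_eq_mul] at hJ
  have hS : ∑ a, p a * Real.exp (k * (f a y - f a x))
      = (∑ a, Real.exp (k * f a y)) / ∑ c, Real.exp (k * f c x) := by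
    rw [Finset.sum_div]
    refine Finset.sum_congr rfl fun a _ => ?_
    rw [hp]
    unfold wgt
    rw [mul_sub, Real.exp_sub]
    field_simp
  rw [hS] at hJ
  have hlog := Real.log_le_log (Real.exp_pos _) hJ
  rw [Real.log_exp, Real.log_div (sum_exp_pos k f y).ne' (sum_exp_pos k f x).ne'] at hlog
  have h3 : ∑ a, p a * (k * (f a y - f a x)) = k * ∑ a, p a * (f a y - f a x) := by
    rw [Finset.mul_sum]
    refine Finset.sum_congr rfl fun a _ => by ring
  rw [h3] at hlog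
  unfold smax
  have h4 : ∑ a, p a * (f a y - f a x)
      ≤ k⁻¹ * (Real.log (∑ a, Real.exp (k * f a y)) - Real.log (∑ c, Real.exp (k * f c x))) := by
    rw [le_inv_mul_iff₀ hk]
    exact hlog
  linarith [h4, mul_sub k⁻¹ (Real.log (∑ a, Real.exp (k * f a y)))
    (Real.log (∑ c, Real.exp (k * f c x)))]

theorem Lop_smax_ge (V : ι → E → E) (b : E → E) (k : ℝ) (hk : 0 < k) {f : α → E → ℝ}
    (hf : ∀ a, ContDiff ℝ 2 (f a)) (x : E) :
    ∑ a, wgt k f x a * Lop V b (f a) x ≤ Lop V b (smax k f) x := by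
  set p := wgt k f x with hp
  have hu : ContDiff ℝ 2 (smax k f) := contDiff_smax k hf
  have hs : ContDiff ℝ 2 (fun y => ∑ a, p a * f a y) :=
    ContDiff.sum fun c _ => contDiff_const.mul (hf c)
  have hmin : IsLocalMin (fun y => smax k f y + (-1) * (∑ a, p a * f a y)) x := by
    refine Filter.Eventually.of_forall fun y => ?_
    have := smax_ge k hk f x y
    simp only [mul_sub, Finset.sum_sub_distrib] at this
    show smax k f x + (-1) * (∑ a, p a * f a x) ≤ smax k f y + (-1) * (∑ a, p a * f a y)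
    rw [← hp] at this
    linarith
  have h0 := Lop_nonneg_of_min V b (hu.add (contDiff_const.mul hs)) hmin
  rw [Lop_add V b hu (contDiff_const.mul hs), Lop_const_mul V b hs,
    Lop_sum Finset.univ V b hf] at h0
  linarith

/-- weighted sums: most of the weight sits where `a ≥ B`. -/
theorem weighted_lower {p a : α → ℝ} (hp0 : ∀ i, 0 ≤ p i) (hp1 : ∑ i, p i = 1) {B M τ : ℝ}
    (hM : 0 ≤ M) (hτ : 0 ≤ τ)
    (h : ∀ i, B ≤ a i ∨ (p i ≤ τ ∧ B - M ≤ a i)) :
    B - Fintype.card α * τ * M ≤ ∑ i, p i * a i := by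
  have h1 : ∑ i, p i * a i = B + ∑ i, p i * (a i - B) := by
    simp only [mul_sub, Finset.sum_sub_distrib, ← Finset.sum_mul, hp1]
    ring
  have h2 : ∑ _i : α, (-(τ * M)) ≤ ∑ i, p i * (a i - B) := by
    refine Finset.sum_le_sum fun i _ => ?_
    rcases h i with h | ⟨h3, h4⟩
    · have := mul_nonneg (hp0 i) (sub_nonneg.2 h)
      nlinarith
    · rcases le_or_gt B (a i) with h5 | h5
      · have := mul_nonneg (hp0 i) (sub_nonneg.2 h5)
        nlinarith
      · have h6 : p i * (B - a i) ≤ τ * M :=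
          mul_le_mul h3 (by linarith) (by linarith) hτ
        nlinarith
  rw [h1]
  simp only [Finset.sum_const, Finset.card_univ, nsmul_eq_mul] at h2
  nlinarith

end Soft

section Main

variable {E : Type*} [NormedAddCommGroup E] [InnerProductSpace ℝ E] [FiniteDimensional ℝ E]
variable {ι : Type*} [Fintype ι]

/-- `IsBar r Z w x₀ ψ`: `ψ` is a `C^r` global lower barrier of `w` on `Z` touching at `x₀`. -/
structure IsBar (r : WithTop ℕ∞) (Z : Set E) (w : E → ℝ) (x₀ : E) (ψ : E → ℝ) : Prop where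
  smooth : ContDiff ℝ r ψ
  le : ∀ x ∈ Z, ψ x ≤ w x
  touch : ψ x₀ = w x₀

/-- the set of points having a quantitatively good barrier. -/
def Aset (r : WithTop ℕ∞) (Z : Set E) (V : ι → E → E) (b : E → E) (w g : E → ℝ) (e : ℝ)
    (n : ℕ) : Set E :=
  {x₀ | x₀ ∈ Z ∧ ∃ ψ, IsBar r Z w x₀ ψ ∧ (∀ x ∈ Z, ∀ y ∈ Z, |ψ x - ψ y| ≤ (n + 1) * dist x y) ∧
    (∀ x ∈ Z, -((n : ℝ) + 1) ≤ Lop V b ψ x) ∧
    ∀ x ∈ Z, ψ x ≤ w x - 1 / ((n : ℝ) + 1) ∨ g x - 2 * e ≤ Lop V b ψ x}

theorem Aset_mono (r : WithTop ℕ∞) (Z : Set E) (V : ι → E → E) (b : E → E) (w g : E → ℝ)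
    (e : ℝ) {n n' : ℕ} (h : n ≤ n') : Aset r Z V b w g e n ⊆ Aset r Z V b w g e n' := by
  rintro x ⟨hx, ψ, hψ, h1, h2, h3⟩
  have hn : (n : ℝ) ≤ n' := by exact_mod_cast h
  refine ⟨hx, ψ, hψ, fun y hy z hz => (h1 y hy z hz).trans ?_, fun y hy => ?_, fun y hy => ?_⟩
  · exact mul_le_mul_of_nonneg_right (by linarith) dist_nonneg
  · linarith [h2 y hy]
  · rcases h3 y hy with h4 | h4
    · left
      have : 1 / ((n' : ℝ) + 1) ≤ 1 / ((n : ℝ) + 1) :=
        one_div_le_one_div_of_le (by positivity) (by linarith)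
      linarith
    · right; exact h4

theorem continuousOn_Lop {r : WithTop ℕ∞} (hr : 2 ≤ r) {Z : Set E} {V : ι → E → E} {b : E → E}
    (hV : ∀ i, ContinuousOn (V i) Z) (hb : ContinuousOn b Z) {ψ : E → ℝ}
    (hψ : ContDiff ℝ r ψ) : ContinuousOn (Lop V b ψ) Z := by
  have h2 : ContDiff ℝ 2 ψ := hψ.of_le hr
  have hc1 : Continuous (fderiv ℝ ψ) := h2.continuous_fderiv (by norm_num)
  have hc2 : Continuous (fderiv ℝ (fderiv ℝ ψ)) :=
    (h2.fderiv_right (m := 1) (by norm_num)).continuous_fderiv (by norm_num)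
  unfold Lop
  refine ContinuousOn.add (continuousOn_finsetSum _ fun i _ => ?_) ?_
  · exact (hc2.continuousOn.clm_apply (hV i)).clm_apply (hV i)
  · exact hc1.continuousOn.clm_apply hb

/-- a `C¹` function is Lipschitz on a compact set. -/
theorem lipschitz_on_compact {Z : Set E} (hZ : IsCompact Z) {ψ : E → ℝ} (hψ : ContDiff ℝ 1 ψ) :
    ∃ C : ℝ, 0 ≤ C ∧ ∀ x ∈ Z, ∀ y ∈ Z, |ψ x - ψ y| ≤ C * dist x y := by
  obtain ⟨R, hR⟩ := hZ.isBounded.subset_closedBall (0:E)
  have hc : Continuous (fun x => ‖fderiv ℝ ψ x‖) := (hψ.continuous_fderiv (by norm_num)).norm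
  obtain ⟨C, hC⟩ := (isCompact_closedBall (0:E) R).exists_bound_of_continuousOn hc.continuousOn
  refine ⟨max C 0, le_max_right _ _, fun x hx y hy => ?_⟩
  have := (convex_closedBall (0:E) R).norm_image_sub_le_of_norm_fderiv_le (𝕜 := ℝ)
    (f := ψ) (C := max C 0) (fun z _ => (hψ.differentiable (by norm_num)) z)
    (fun z hz => by
      have := hC z hz
      rw [norm_norm] at this
      exact this.trans (le_max_left _ _)) (hR hy) (hR hx)
  rw [Real.norm_eq_abs, ← dist_eq_norm] at this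
  exact this

/-- Claim 1: every point lies in some `Aset`. -/
theorem mem_Aset {r : WithTop ℕ∞} (hr : 2 ≤ r) {Z : Set E} (hZ : IsCompact Z)
    {V : ι → E → E} {b : E → E}
    (hV : ∀ i, ContinuousOn (V i) Z) (hb : ContinuousOn b Z) {w g : E → ℝ}
    (hg : ContinuousOn g Z) {e : ℝ} (he : 0 < e) {x₀ : E} (hx₀ : x₀ ∈ Z)
    (h : ∃ ψ, IsBar r Z w x₀ ψ ∧ g x₀ - e ≤ Lop V b ψ x₀) :
    ∃ n, x₀ ∈ Aset r Z V b w g e n := by
  obtain ⟨ψ, hψ, hL⟩ := h
  have hq : ContDiff ℝ 2 (fun x : E => ‖x - x₀‖ ^ 2) := (contDiff_id.sub contDiff_const).norm_sq ℝ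
  have hqr : ContDiff ℝ r (fun x : E => ‖x - x₀‖ ^ 2) :=
    (contDiff_id.sub contDiff_const).norm_sq ℝ
  set Q : ℝ := Lop V b (fun x : E => ‖x - x₀‖ ^ 2) x₀ with hQ
  obtain ⟨e', he'0, he'⟩ : ∃ e' : ℝ, 0 < e' ∧ e' * |Q| ≤ e / 2 := by
    refine ⟨e / (2 * (|Q| + 1)), by positivity, ?_⟩
    rw [div_mul_eq_mul_div, div_le_div_iff₀ (by positivity) (by norm_num)]
    nlinarith [abs_nonneg Q]
  set ψ' : E → ℝ := fun x => ψ x + (-e') * ‖x - x₀‖ ^ 2 with hψ'
  have hψ's : ContDiff ℝ r ψ' := hψ.smooth.add (contDiff_const.mul hqr)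
  have hL' : g x₀ - e - e / 2 ≤ Lop V b ψ' x₀ := by
    rw [hψ', Lop_add V b (hψ.smooth.of_le hr) (contDiff_const.mul hq), Lop_const_mul V b hq, ← hQ]
    have : e' * Q ≤ e' * |Q| := mul_le_mul_of_nonneg_left (le_abs_self Q) he'0.le
    linarith
  have hcL : ContinuousOn (Lop V b ψ') Z := continuousOn_Lop hr hV hb hψ's
  -- near x₀
  have hev : ∀ᶠ x in 𝓝[Z] x₀, g x - 2 * e ≤ Lop V b ψ' x := by
    have hc : ContinuousWithinAt (fun x => Lop V b ψ' x - (g x - 2 * e)) Z x₀ :=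
      (hcL x₀ hx₀).sub ((hg x₀ hx₀).sub continuousWithinAt_const)
    have hpos : 0 < Lop V b ψ' x₀ - (g x₀ - 2 * e) := by linarith
    filter_upwards [hc.tendsto.eventually (lt_mem_nhds hpos)] with x hx
    linarith
  rw [eventually_nhdsWithin_iff, Metric.eventually_nhds_iff] at hev
  obtain ⟨ρ, hρ, hev⟩ := hev
  obtain ⟨C1, hC1, hLip⟩ := lipschitz_on_compact hZ (hψ's.of_le (le_trans (by norm_num) hr))
  obtain ⟨C2, hC2⟩ := hZ.exists_bound_of_continuousOn hcL
  obtain ⟨n, hn⟩ := exists_nat_ge (max (max C1 C2) (1 / (e' * ρ ^ 2)))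
  have hn1 : C1 ≤ n := ((le_max_left _ _).trans (le_max_left _ _)).trans hn
  have hn2 : C2 ≤ n := ((le_max_right _ _).trans (le_max_left _ _)).trans hn
  have hn3 : 1 / (e' * ρ ^ 2) ≤ n := (le_max_right _ _).trans hn
  refine ⟨n, hx₀, ψ', ⟨hψ's, fun x hx => ?_, ?_⟩, fun x hx y hy => ?_, fun x hx => ?_,
    fun x hx => ?_⟩
  · have := hψ.le x hx
    have h2 : 0 ≤ e' * ‖x - x₀‖ ^ 2 := by positivity
    simp only [hψ']
    linarith
  · simp [hψ', hψ.touch]
  · exact (hLip x hx y hy).trans (mul_le_mul_of_nonneg_right (by linarith) dist_nonneg)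
  · have := hC2 x hx
    rw [Real.norm_eq_abs, abs_le] at this
    linarith [this.1]
  · rcases lt_or_ge (dist x x₀) ρ with h1 | h1
    · right
      exact hev h1 hx
    · left
      have h2 := hψ.le x hx
      have h3 : e' * ρ ^ 2 ≤ e' * ‖x - x₀‖ ^ 2 := by
        apply mul_le_mul_of_nonneg_left _ he'0.le
        rw [← dist_eq_norm]
        exact pow_le_pow_left₀ hρ.le h1 2
      have h4 : 1 / ((n:ℝ) + 1) ≤ e' * ρ ^ 2 := by
        rw [div_le_iff₀ (by positivity)]
        have h5 : 0 < e' * ρ ^ 2 := by positivity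
        rw [div_le_iff₀ h5] at hn3
        nlinarith
      simp only [hψ']
      linarith

/-- Claim 2: a smooth function with `L u ≥ g - 2e - η` on `closure (A n)`. -/
theorem exists_soft {r : WithTop ℕ∞} (hr : 2 ≤ r) {Z : Set E} (hZ : IsCompact Z)
    (hZne : Z.Nonempty) {V : ι → E → E} {b : E → E}
    {w g : E → ℝ} {G : ℝ} (hG : ∀ x ∈ Z, |g x| ≤ G) {e : ℝ} (he : 0 < e)
    {C : ℝ} (hC : 0 ≤ C)
    (ha : ∀ x₀ ∈ Z, ∃ ψ, IsBar r Z w x₀ ψ ∧ (∀ x ∈ Z, ∀ y ∈ Z, |ψ x - ψ y| ≤ C * dist x y) ∧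
      ∀ x ∈ Z, -C ≤ Lop V b ψ x) (n : ℕ) {η : ℝ} (hη : 0 < η) :
    ∃ u : E → ℝ, ContDiff ℝ r u ∧ (∀ x ∈ Z, -(C + G + 2 * e) - η ≤ Lop V b u x) ∧
      ∀ x ∈ closure (Aset r Z V b w g e n), g x - 2 * e - η ≤ Lop V b u x := by
  classical
  have hG0 : 0 ≤ G := by
    obtain ⟨x, hx⟩ := hZne
    exact (abs_nonneg _).trans (hG x hx)
  set A := Aset r Z V b w g e n with hA
  have hAZ : A ⊆ Z := fun x hx => hx.1
  have hclA : closure A ⊆ Z := closure_minimal hAZ hZ.isClosed
  -- `w` is Lipschitz on `Z`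
  have hw : ∀ x ∈ Z, ∀ y ∈ Z, w x - w y ≤ C * dist x y := by
    intro x hx y hy
    obtain ⟨ψ, hψ, h1, -⟩ := ha x hx
    have h2 := hψ.le y hy
    have h3 := hψ.touch
    have h4 := h1 x hx y hy
    rw [abs_le] at h4
    linarith [h4.2]
  -- parameters
  set δ : ℝ := 1 / (6 * ((n : ℝ) + 1)) with hδ
  have hδ0 : 0 < δ := by positivity
  set s : ℝ := δ / (2 * (C + (n + 1) + 1)) with hs
  have hs0 : 0 < s := by positivity
  have hsδ : 2 * (C + (n + 1)) * s ≤ δ := by
    rw [hs, mul_div_assoc', div_le_iff₀ (by positivity)]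
    have : (0:ℝ) ≤ n := Nat.cast_nonneg n
    nlinarith
  -- nets
  obtain ⟨T1, hT1A, hT1f, hT1c⟩ :=
    Metric.finite_approx_of_totallyBounded ((hZ.totallyBounded).subset hAZ) s hs0
  obtain ⟨T2, hT2Z, hT2f, hT2c⟩ :=
    Metric.finite_approx_of_totallyBounded hZ.totallyBounded s hs0
  have hgood : ∀ t : E, ∃ ψ : E → ℝ, t ∈ A → (IsBar r Z w t ψ ∧
      (∀ x ∈ Z, ∀ y ∈ Z, |ψ x - ψ y| ≤ (n + 1) * dist x y) ∧
      (∀ x ∈ Z, -((n : ℝ) + 1) ≤ Lop V b ψ x) ∧
      ∀ x ∈ Z, ψ x ≤ w x - 1 / ((n : ℝ) + 1) ∨ g x - 2 * e ≤ Lop V b ψ x) := by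
    intro t
    by_cases ht : t ∈ A
    · obtain ⟨ψ, h⟩ := ht.2
      exact ⟨ψ, fun _ => h⟩
    · exact ⟨0, fun h => absurd h ht⟩
  choose ψg hψg using hgood
  have hbad : ∀ t : E, ∃ ψ : E → ℝ, t ∈ Z → (IsBar r Z w t ψ ∧
      (∀ x ∈ Z, ∀ y ∈ Z, |ψ x - ψ y| ≤ C * dist x y) ∧ ∀ x ∈ Z, -C ≤ Lop V b ψ x) := by
    intro t
    by_cases ht : t ∈ Z
    · obtain ⟨ψ, h⟩ := ha t ht
      exact ⟨ψ, fun _ => h⟩
    · exact ⟨0, fun h => absurd h ht⟩
  choose ψb hψb using hbad
  haveI : Finite T1 := hT1f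
  haveI : Finite T2 := hT2f
  haveI : Fintype T1 := Fintype.ofFinite T1
  haveI : Fintype T2 := Fintype.ofFinite T2
  let f : T1 ⊕ T2 → E → ℝ := Sum.elim (fun t => ψg t) (fun t x => ψb t x + (-(2 * δ)))
  obtain ⟨z0, hz0⟩ := hZne
  have hT2ne : Nonempty T2 := by
    have := hT2c hz0
    simp only [mem_iUnion] at this
    obtain ⟨t, ht, -⟩ := this
    exact ⟨⟨t, ht⟩⟩
  haveI : Nonempty (T1 ⊕ T2) := ⟨Sum.inr hT2ne.some⟩
  have hfs : ∀ a, ContDiff ℝ r (f a) := by
    rintro (t | t)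
    · exact (hψg t (hT1A t.2)).1.smooth
    · exact (hψb t (hT2Z t.2)).1.smooth.add contDiff_const
  have hfs2 : ∀ a, ContDiff ℝ 2 (f a) := fun a => (hfs a).of_le hr
  have hLb : ∀ t : T2, ∀ x, Lop V b (f (Sum.inr t)) x = Lop V b (ψb t) x := by
    intro t x
    show Lop V b (fun x => ψb t x + (-(2 * δ))) x = _
    rw [Lop_add V b ((hψb t (hT2Z t.2)).1.smooth.of_le hr) contDiff_const, Lop_const, add_zero]
  set N : ℝ := ((Fintype.card (T1 ⊕ T2) : ℕ) : ℝ) with hN
  have hN0 : 0 ≤ N := Nat.cast_nonneg _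
  set M : ℝ := (n + 1) + C + G with hM
  have hM0 : 0 ≤ M := by positivity
  -- choose k
  obtain ⟨k, hk0, hk⟩ : ∃ k : ℝ, 0 < k ∧ N * Real.exp (-(k * δ)) * M ≤ η := by
    have h1 : Tendsto (fun k : ℝ => N * Real.exp (-(k * δ)) * M) atTop (𝓝 (N * 0 * M)) := by
      refine (Tendsto.const_mul N ?_).mul_const M
      refine Real.tendsto_exp_atBot.comp ?_
      exact tendsto_neg_atTop_atBot.comp (tendsto_id.atTop_mul_const hδ0)
    rw [mul_zero, zero_mul] at h1
    have h2 := h1.eventually (ge_mem_nhds hη)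
    obtain ⟨k, hk1, hk2⟩ := (h2.and (eventually_gt_atTop 0)).exists
    exact ⟨k, hk2, hk1⟩
  refine ⟨smax k f, contDiff_smax k hfs, fun x hx => ?_, fun x hx => ?_⟩
  · -- general points
    refine le_trans ?_ (Lop_smax_ge V b k hk0 hfs2 x)
    -- a nearby bad net point
    obtain ⟨t0, ht0, hxt0⟩ : ∃ t0 : E, ∃ _ : t0 ∈ T2, dist x t0 < s := by
      have := hT2c hx
      simp only [mem_iUnion, Metric.mem_ball] at this
      obtain ⟨t, ht, h⟩ := this
      exact ⟨t, ht, h⟩
    have hft0 : w x - 3 * δ ≤ f (Sum.inr ⟨t0, ht0⟩) x := by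
      show w x - 3 * δ ≤ ψb t0 x + (-(2 * δ))
      have hZt0 := hT2Z ht0
      obtain ⟨h1, h2, -⟩ := hψb t0 hZt0
      have h3 := h2 t0 hZt0 x hx
      have h4 := hw x hx t0 hZt0
      have h5 := h1.touch
      rw [abs_le] at h3
      have h6 : dist t0 x ≤ s := by rw [dist_comm]; exact hxt0.le
      have h7 : C * dist t0 x ≤ C * s := mul_le_mul_of_nonneg_left h6 hC
      have h8 : C * dist x t0 ≤ C * s := mul_le_mul_of_nonneg_left hxt0.le hC
      have : (0:ℝ) ≤ n := Nat.cast_nonneg n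
      nlinarith [h3.2, mul_nonneg this hs0.le]
    have hsum := weighted_lower (α := T1 ⊕ T2) (p := wgt k f x)
      (a := fun a => Lop V b (f a) x) (B := -(C + G + 2 * e)) (M := M)
      (τ := Real.exp (-(k * δ))) (wgt_nonneg k f x) (wgt_sum k f x) hM0 (Real.exp_pos _).le ?_
    · refine le_trans ?_ hsum
      linarith
    · rintro (t | t)
      · obtain ⟨h1, -, h2, h3⟩ := hψg t (hT1A t.2)
        rcases h3 x hx with h4 | h4
        · right
          refine ⟨wgt_le k hk0.le f x (Sum.inl t) (Sum.inr ⟨t0, ht0⟩) δ ?_, ?_⟩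
          · show ψg t x ≤ f (Sum.inr ⟨t0, ht0⟩) x - δ
            have h5 : 1 / ((n:ℝ) + 1) = 6 * δ := by
              rw [hδ]; field_simp
            linarith
          · show -(C + G + 2 * e) - M ≤ Lop V b (ψg t) x
            have := h2 x hx
            rw [hM]
            linarith
        · left
          show -(C + G + 2 * e) ≤ Lop V b (ψg t) x
          have h5 := hG x hx
          rw [abs_le] at h5
          linarith [h5.1]
      · left
        show -(C + G + 2 * e) ≤ Lop V b (f (Sum.inr t)) x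
        rw [hLb]
        have := (hψb t (hT2Z t.2)).2.2 x hx
        linarith
  · -- points of closure A
    have hxZ : x ∈ Z := hclA hx
    refine le_trans ?_ (Lop_smax_ge V b k hk0 hfs2 x)
    obtain ⟨t0, ht0, hxt0⟩ : ∃ t0 : E, ∃ _ : t0 ∈ T1, dist x t0 < 2 * s := by
      obtain ⟨a, haA, hxa⟩ := Metric.mem_closure_iff.1 hx s hs0
      have := hT1c haA
      simp only [mem_iUnion, Metric.mem_ball] at this
      obtain ⟨t, ht, h⟩ := this
      refine ⟨t, ht, ?_⟩
      linarith [dist_triangle x a t]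
    have hft0 : w x - δ ≤ f (Sum.inl ⟨t0, ht0⟩) x := by
      show w x - δ ≤ ψg t0 x
      have hAt0 := hT1A ht0
      have hZt0 := hAZ hAt0
      obtain ⟨h1, h2, -⟩ := hψg t0 hAt0
      have h3 := h2 t0 hZt0 x hxZ
      have h4 := hw x hxZ t0 hZt0
      have h5 := h1.touch
      rw [abs_le] at h3
      have h6 : dist t0 x ≤ 2 * s := by rw [dist_comm]; exact hxt0.le
      have h0 : (0:ℝ) ≤ n := Nat.cast_nonneg n
      have h7 : ((n:ℝ) + 1) * dist t0 x ≤ (n + 1) * (2 * s) :=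
        mul_le_mul_of_nonneg_left h6 (by linarith)
      have h8 : C * dist x t0 ≤ C * (2 * s) := mul_le_mul_of_nonneg_left hxt0.le hC
      nlinarith [h3.2]
    have hsum := weighted_lower (α := T1 ⊕ T2) (p := wgt k f x)
      (a := fun a => Lop V b (f a) x) (B := g x - 2 * e) (M := M)
      (τ := Real.exp (-(k * δ))) (wgt_nonneg k f x) (wgt_sum k f x) hM0 (Real.exp_pos _).le ?_
    · refine le_trans ?_ hsum
      linarith
    · have hgx := hG x hxZ
      rw [abs_le] at hgx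
      rintro (t | t)
      · obtain ⟨h1, -, h2, h3⟩ := hψg t (hT1A t.2)
        rcases h3 x hxZ with h4 | h4
        · right
          refine ⟨wgt_le k hk0.le f x (Sum.inl t) (Sum.inl ⟨t0, ht0⟩) δ ?_, ?_⟩
          · show ψg t x ≤ f (Sum.inl ⟨t0, ht0⟩) x - δ
            have h5 : 1 / ((n:ℝ) + 1) = 6 * δ := by
              rw [hδ]; field_simp
            linarith
          · show g x - 2 * e - M ≤ Lop V b (ψg t) x
            have := h2 x hxZ
            rw [hM]
            linarith [hgx.2]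
        · left
          exact h4
      · right
        refine ⟨wgt_le k hk0.le f x (Sum.inr t) (Sum.inl ⟨t0, ht0⟩) δ ?_, ?_⟩
        · show ψb t x + (-(2 * δ)) ≤ f (Sum.inl ⟨t0, ht0⟩) x - δ
          have := (hψb t (hT2Z t.2)).1.le x hxZ
          linarith
        · show g x - 2 * e - M ≤ Lop V b (f (Sum.inr t)) x
          rw [hLb]
          have := (hψb t (hT2Z t.2)).2.2 x hxZ
          rw [hM]
          have h0 : (0:ℝ) ≤ n := Nat.cast_nonneg n
          linarith [hgx.2]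

/-- **Lemma VI.** Lower barriers give the integrated inequality. -/
theorem barrier_integral [MeasurableSpace E] [BorelSpace E] {r : WithTop ℕ∞} (hr : 2 ≤ r)
    {Z : Set E} (hZ : IsCompact Z) (μ : Measure E) [IsFiniteMeasure μ] (hμ : μ Zᶜ = 0)
    {V : ι → E → E} {b : E → E}
    (hV : ∀ i, ContinuousOn (V i) Z) (hb : ContinuousOn b Z)
    (hint : ∀ f : E → ℝ, ContDiff ℝ r f → ∫ x, Lop V b f x ∂μ = 0)
    {w g : E → ℝ} (hg : ContinuousOn g Z)
    (ha : ∃ C : ℝ, ∀ x₀ ∈ Z, ∃ ψ, IsBar r Z w x₀ ψ ∧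
      (∀ x ∈ Z, ∀ y ∈ Z, |ψ x - ψ y| ≤ C * dist x y) ∧ ∀ x ∈ Z, -C ≤ Lop V b ψ x)
    (hbar : ∀ x₀ ∈ Z, ∀ e : ℝ, 0 < e → ∃ ψ, IsBar r Z w x₀ ψ ∧ g x₀ - e ≤ Lop V b ψ x₀) :
    ∫ x, g x ∂μ ≤ 0 := by
  classical
  have hres : μ.restrict Z = μ := Measure.restrict_eq_self_of_ae_mem (by
    rw [ae_iff]; exact hμ)
  rcases Z.eq_empty_or_nonempty with hZe | hZne
  · have : μ = 0 := by
      rw [← hres, hZe, Measure.restrict_empty]
    rw [this, integral_zero_measure]
  obtain ⟨C, ha⟩ := ha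
  -- WLOG `0 ≤ C`
  have ha' : ∀ x₀ ∈ Z, ∃ ψ, IsBar r Z w x₀ ψ ∧
      (∀ x ∈ Z, ∀ y ∈ Z, |ψ x - ψ y| ≤ max C 0 * dist x y) ∧
      ∀ x ∈ Z, -(max C 0) ≤ Lop V b ψ x := by
    intro x hx
    obtain ⟨ψ, h1, h2, h3⟩ := ha x hx
    refine ⟨ψ, h1, fun y hy z hz => (h2 y hy z hz).trans
      (mul_le_mul_of_nonneg_right (le_max_left _ _) dist_nonneg), fun y hy => ?_⟩
    linarith [h3 y hy, le_max_left C 0]
  set C' := max C 0 with hC'
  have hC0 : 0 ≤ C' := le_max_right _ _
  obtain ⟨G, hG⟩ := hZ.exists_bound_of_continuousOn hg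
  have hG' : ∀ x ∈ Z, |g x| ≤ G := hG
  have hG0 : 0 ≤ G := by
    obtain ⟨x, hx⟩ := hZne
    exact (abs_nonneg _).trans (hG' x hx)
  have hgi : IntegrableOn g Z μ := hg.integrableOn_compact hZ
  -- main estimate
  have key : ∀ e : ℝ, 0 < e → ∀ n : ℕ,
      ∫ x in Z, g x ∂μ ≤ 3 * e * μ.real Z
        + (C' + 2 * G + 3 * e) * μ.real (Z \ closure (Aset r Z V b w g e n)) := by
    intro e he n
    obtain ⟨u, hu, hu1, hu2⟩ := exists_soft hr hZ hZne (V := V) (b := b) hG' he hC0 ha' n he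
    set K := closure (Aset r Z V b w g e n) with hK
    have hKZ : K ⊆ Z := closure_minimal (fun x hx => hx.1) hZ.isClosed
    have h0 : ∫ x in Z, Lop V b u x ∂μ = 0 := by rw [hres]; exact hint u hu
    have hLi : IntegrableOn (Lop V b u) Z μ := (continuousOn_Lop hr hV hb hu).integrableOn_compact hZ
    have hmeas : MeasurableSet (Z \ K) := hZ.measurableSet.diff isClosed_closure.measurableSet
    have hind : IntegrableOn (fun x => (Z \ K).indicator (fun _ => (C' + 2 * G + 3 * e)) x) Z μ :=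
      (integrable_const _).indicator hmeas |>.integrableOn
    have hci : IntegrableOn (fun _ : E => 3 * e) Z μ := (integrable_const _).integrableOn
    have hle : ∀ x ∈ Z, g x - 3 * e - (Z \ K).indicator (fun _ => (C' + 2 * G + 3 * e)) x
        ≤ Lop V b u x := by
      intro x hx
      by_cases hxK : x ∈ K
      · rw [indicator_of_notMem (fun h => h.2 hxK)]
        have := hu2 x hxK
        linarith
      · rw [indicator_of_mem (show x ∈ Z \ K from ⟨hx, hxK⟩)]
        have h1 := hu1 x hx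
        have h2 := hG' x hx
        rw [abs_le] at h2
        linarith [h2.2]
    have h1 : ∫ x in Z, (g x - 3 * e - (Z \ K).indicator (fun _ => (C' + 2 * G + 3 * e)) x) ∂μ
        ≤ ∫ x in Z, Lop V b u x ∂μ :=
      setIntegral_mono_on ((hgi.sub hci).sub hind) hLi hZ.measurableSet hle
    have e1 : ∫ x in Z, (g x - 3 * e - (Z \ K).indicator (fun _ => (C' + 2 * G + 3 * e)) x) ∂μ
        = ∫ x in Z, (g x - 3 * e) ∂μ
          - ∫ x in Z, (Z \ K).indicator (fun _ => (C' + 2 * G + 3 * e)) x ∂μ :=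
      integral_sub (f := fun x => g x - 3 * e) (hgi.sub hci) hind
    have e2 : ∫ x in Z, (g x - 3 * e) ∂μ = ∫ x in Z, g x ∂μ - ∫ x in Z, (3 * e) ∂μ :=
      integral_sub hgi hci
    rw [h0, e1, e2] at h1
    have h2 : ∫ x in Z, (Z \ K).indicator (fun _ => (C' + 2 * G + 3 * e)) x ∂μ
        = (C' + 2 * G + 3 * e) * μ.real (Z \ K) := by
      rw [setIntegral_indicator hmeas, inter_eq_right.2 sdiff_subset, setIntegral_const,
        smul_eq_mul, mul_comm]
    have h3 : ∫ x in Z, (3 * e) ∂μ = 3 * e * μ.real Z := by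
      rw [setIntegral_const, smul_eq_mul, mul_comm]
    rw [h2, h3] at h1
    linarith
  -- the bad sets shrink
  have hlim : ∀ e : ℝ, 0 < e →
      Tendsto (fun n : ℕ => μ.real (Z \ closure (Aset r Z V b w g e n))) atTop (𝓝 0) := by
    intro e he
    have hanti : Antitone (fun n : ℕ => Z \ closure (Aset r Z V b w g e n)) := by
      intro n n' h
      exact sdiff_subset_sdiff_right (closure_mono (Aset_mono r Z V b w g e h))
    have hm : ∀ n : ℕ, NullMeasurableSet (Z \ closure (Aset r Z V b w g e n)) μ := fun n =>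
      (hZ.measurableSet.diff isClosed_closure.measurableSet).nullMeasurableSet
    have h1 := tendsto_measure_iInter_atTop (μ := μ) hm hanti ⟨0, measure_ne_top _ _⟩
    have h2 : ⋂ n, Z \ closure (Aset r Z V b w g e n) = ∅ := by
      rw [eq_empty_iff_forall_notMem]
      intro x hx
      rw [mem_iInter] at hx
      have hxZ : x ∈ Z := (hx 0).1
      obtain ⟨n, hn⟩ := mem_Aset hr hZ hV hb hg he hxZ (hbar x hxZ e he)
      exact (hx n).2 (subset_closure hn)
    rw [h2, measure_empty] at h1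
    have := (ENNReal.tendsto_toReal ENNReal.zero_ne_top).comp h1
    rw [ENNReal.toReal_zero] at this
    exact this
  have key2 : ∀ e : ℝ, 0 < e → ∫ x in Z, g x ∂μ ≤ 3 * e * μ.real Z := by
    intro e he
    have h1 : Tendsto (fun n : ℕ => 3 * e * μ.real Z
        + (C' + 2 * G + 3 * e) * μ.real (Z \ closure (Aset r Z V b w g e n))) atTop
        (𝓝 (3 * e * μ.real Z + (C' + 2 * G + 3 * e) * 0)) :=
      ((hlim e he).const_mul _).const_add _
    rw [mul_zero, add_zero] at h1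
    exact ge_of_tendsto' h1 (fun n => key e he n)
  have hfin : ∫ x in Z, g x ∂μ ≤ 0 := by
    by_contra hcon
    push Not at hcon
    set I := ∫ x in Z, g x ∂μ with hI
    have hZ0 : 0 ≤ μ.real Z := measureReal_nonneg
    have := key2 (I / (6 * (μ.real Z + 1))) (by positivity)
    have h2 : 3 * (I / (6 * (μ.real Z + 1))) * μ.real Z ≤ I / 2 := by
      rw [mul_div_assoc', div_mul_eq_mul_div, div_le_div_iff₀ (by positivity) (by norm_num)]
      nlinarith
    linarith
  rwa [hres] at hfin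

end Main

end Crest.Agent.R246.Visc475
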