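import Mathlib
import Crest.Agent.R246.Visc_475

/-!
R246, step 4(B): local barriers of uniform radius => global barriers (helper475).
-/

set_option autoImplicit false
set_option linter.unusedSectionVars false
open MeasureTheory Set Filter Topology

namespace Crest.Agent.R246.Visc475

section Prod

variable {E : Type*} [NormedAddCommGroup E] [NormedSpace ℝ E]

theorem fderiv2_mul {f g : E → ℝ} {x : E} (hf : ContDiffAt ℝ 2 f x) (hg : ContDiffAt ℝ 2 g x)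
    (v : E) :
    fderiv ℝ (fderiv ℝ (fun y => f y * g y)) x v v
      = f x * fderiv ℝ (fderiv ℝ g) x v v + 2 * (fderiv ℝ f x v * fderiv ℝ g x v)
        + g x * fderiv ℝ (fderiv ℝ f) x v v := by
  have hf' : ∀ᶠ y in 𝓝 x, DifferentiableAt ℝ f y := by
    filter_upwards [hf.eventually (by norm_num)] with y hy
    exact hy.differentiableAt (by norm_num)
  have hg' : ∀ᶠ y in 𝓝 x, DifferentiableAt ℝ g y := by
    filter_upwards [hg.eventually (by norm_num)] with y hy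
    exact hy.differentiableAt (by norm_num)
  have e1 : fderiv ℝ (fun y => f y * g y) =ᶠ[𝓝 x]
      fun y => f y • fderiv ℝ g y + g y • fderiv ℝ f y := by
    filter_upwards [hf', hg'] with y h1 h2
    exact fderiv_fun_mul h1 h2
  have hf1 : DifferentiableAt ℝ f x := hf.differentiableAt (by norm_num)
  have hg1 : DifferentiableAt ℝ g x := hg.differentiableAt (by norm_num)
  have hf2 : DifferentiableAt ℝ (fderiv ℝ f) x :=
    (hf.fderiv_right (m := 1) (by norm_num)).differentiableAt (by norm_num)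
  have hg2 : DifferentiableAt ℝ (fderiv ℝ g) x :=
    (hg.fderiv_right (m := 1) (by norm_num)).differentiableAt (by norm_num)
  rw [e1.fderiv_eq]
  have h1 := (hf1.hasFDerivAt.smul hg2.hasFDerivAt).add (hg1.hasFDerivAt.smul hf2.hasFDerivAt)
  have h2 : fderiv ℝ (fun y => f y • fderiv ℝ g y + g y • fderiv ℝ f y) x = _ := h1.fderiv
  rw [h2]
  simp
  ring

end Prod

section Glob

variable {E : Type*} [NormedAddCommGroup E] [InnerProductSpace ℝ E] [FiniteDimensional ℝ E]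
variable {ι : Type*} [Fintype ι]

theorem Lop_congr {V : ι → E → E} {b : E → E} {f g : E → ℝ} {x : E} (h : f =ᶠ[𝓝 x] g) :
    Lop V b f x = Lop V b g x := by
  unfold Lop
  have h1 : fderiv ℝ f =ᶠ[𝓝 x] fderiv ℝ g := h.fderiv
  rw [h1.fderiv_eq, h.fderiv_eq]

theorem fderiv_bdd {E : Type*} [NormedAddCommGroup E] [NormedSpace ℝ E]
    {F : Type*} [NormedAddCommGroup F] [NormedSpace ℝ F] {g : E → F}
    (hg : ContDiff ℝ 1 g) (hc : HasCompactSupport g) : ∃ B, ∀ x, ‖fderiv ℝ g x‖ ≤ B :=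
  (hc.fderiv (𝕜 := ℝ)).exists_bound_of_continuous (hg.continuous_fderiv (by norm_num))

theorem fderiv2_bdd {f : E → ℝ} (hf : ContDiff ℝ 2 f) (hc : HasCompactSupport f) :
    ∃ B2, ∀ x, ‖fderiv ℝ (fderiv ℝ f) x‖ ≤ B2 :=
  fderiv_bdd (F := E →L[ℝ] ℝ) (hf.fderiv_right (m := 1) (by norm_num)) (hc.fderiv (𝕜 := ℝ))

theorem exists_bump0 {r : WithTop ℕ∞} (hr' : r ≤ (⊤ : ℕ∞)) {r0 : ℝ} (hr0 : 0 < r0) :
    ∃ f : E → ℝ, ContDiff ℝ r f ∧ HasCompactSupport f ∧ (∀ x, 0 ≤ f x) ∧ (∀ x, f x ≤ 1) ∧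
      (∀ x, ‖x‖ ≤ r0 / 3 → f x = 1) ∧ (∀ x, 2 * r0 / 3 ≤ ‖x‖ → f x = 0) := by
  obtain ⟨χ0, h1, h2⟩ : ∃ χ0 : ContDiffBump (0 : E), χ0.rIn = r0 / 3 ∧ χ0.rOut = 2 * r0 / 3 :=
    ⟨⟨r0 / 3, 2 * r0 / 3, by positivity, by linarith⟩, rfl, rfl⟩
  have hs : ContDiff ℝ (((⊤ : ℕ∞) : WithTop ℕ∞)) (fun x : E => χ0 x) := χ0.contDiff
  refine ⟨fun x => χ0 x, hs.of_le hr', χ0.hasCompactSupport, fun x => χ0.nonneg,
    fun x => χ0.le_one, fun x hx => ?_, fun x hx => ?_⟩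
  · apply χ0.one_of_mem_closedBall
    rw [mem_closedBall_zero_iff, h1]
    exact hx
  · apply χ0.zero_of_le_dist
    rw [dist_zero_right, h2]
    exact hx

/-- bumps, uniformly in the centre. -/
theorem exists_bumps {r : WithTop ℕ∞} (hr : 2 ≤ r) (hr' : r ≤ (⊤ : ℕ∞)) {r0 : ℝ} (hr0 : 0 < r0) :
    ∃ B : ℝ, 0 ≤ B ∧ ∀ x₀ : E, ∃ χ : E → ℝ, ContDiff ℝ r χ ∧ (∀ x, 0 ≤ χ x) ∧ (∀ x, χ x ≤ 1) ∧
      (∀ x, ‖fderiv ℝ χ x‖ ≤ B) ∧ (∀ x, ‖fderiv ℝ (fderiv ℝ χ) x‖ ≤ B) ∧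
      (∀ x, x ∉ Metric.ball x₀ r0 → χ =ᶠ[𝓝 x] fun _ => 0) ∧ χ =ᶠ[𝓝 x₀] fun _ => 1 := by
  obtain ⟨f, hfs, hfc, hf0, hf1, hfin, hfout⟩ := exists_bump0 (E := E) hr' hr0
  have hf2 : ContDiff ℝ 2 f := hfs.of_le hr
  obtain ⟨B1, hB1⟩ := fderiv_bdd (hf2.of_le (by norm_num)) hfc
  obtain ⟨B2, hB2⟩ := fderiv2_bdd hf2 hfc
  refine ⟨max B1 B2, (norm_nonneg _).trans ((hB1 0).trans (le_max_left _ _)), fun x₀ => ?_⟩
  refine ⟨fun x => f (x - x₀), hfs.comp (contDiff_id.sub contDiff_const), fun x => hf0 _,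
      fun x => hf1 _, fun x => ?_, fun x => ?_, fun x hx => ?_, ?_⟩
  · rw [fderiv_comp_sub x₀]
    exact (hB1 _).trans (le_max_left _ _)
  · have h3 : fderiv ℝ (fun y => f (y - x₀)) = fun y => fderiv ℝ f (y - x₀) :=
      funext fun y => fderiv_comp_sub x₀
    rw [h3, fderiv_comp_sub x₀]
    exact (hB2 _).trans (le_max_right _ _)
  · have h1 : IsOpen {y : E | 2 * r0 / 3 < dist y x₀} :=
      isOpen_lt continuous_const (continuous_id.dist continuous_const)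
    have h2 : x ∈ {y : E | 2 * r0 / 3 < dist y x₀} := by
      rw [Metric.mem_ball, not_lt] at hx
      show 2 * r0 / 3 < dist x x₀
      linarith
    filter_upwards [h1.mem_nhds h2] with y hy
    apply hfout
    rw [← dist_eq_norm]
    exact le_of_lt hy
  · filter_upwards [Metric.ball_mem_nhds x₀ (show 0 < r0 / 3 by positivity)] with y hy
    apply hfin
    rw [← dist_eq_norm]
    exact le_of_lt hy

/-- one barrier made global. -/
theorem glob_one {r : WithTop ℕ∞} (hr : 2 ≤ r) {x₀ : E} {r0 : ℝ} {B C0 B3 K : ℝ}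
    (hC0 : 0 ≤ C0) (hB30 : 0 ≤ B3) (hB0 : 0 ≤ B) {χ ψ : E → ℝ}
    (hχ : ContDiff ℝ r χ) (hχ0 : ∀ x, 0 ≤ χ x) (hχ1 : ∀ x, χ x ≤ 1)
    (hχd1 : ∀ x, ‖fderiv ℝ χ x‖ ≤ B) (hχd2 : ∀ x, ‖fderiv ℝ (fderiv ℝ χ) x‖ ≤ B)
    (hχout : ∀ x, x ∉ Metric.ball x₀ r0 → χ =ᶠ[𝓝 x] fun _ => 0)
    (hψat : ∀ x ∈ Metric.ball x₀ r0, ContDiffAt ℝ r ψ x)
    (hD1 : ∀ x ∈ Metric.ball x₀ r0, ‖fderiv ℝ ψ x‖ ≤ C0)
    (hD2 : ∀ x ∈ Metric.ball x₀ r0, ‖fderiv ℝ (fderiv ℝ ψ) x‖ ≤ C0)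
    (hψb : ∀ x ∈ Metric.ball x₀ r0, |ψ x + K| ≤ B3) :
    ContDiff ℝ r (fun x => χ x * (ψ x + K) + (-K)) ∧
    (∀ x, ‖fderiv ℝ (fun x => χ x * (ψ x + K) + (-K)) x‖ ≤ C0 + B3 * B) ∧
    (∀ x, ∀ v : E, |fderiv ℝ (fderiv ℝ (fun x => χ x * (ψ x + K) + (-K))) x v v|
      ≤ (C0 + 2 * (B * C0) + B3 * B) * ‖v‖ * ‖v‖) := by
  have hr1 : r ≠ 0 := by
    intro h; rw [h] at hr; simp at hr
  have hφout : ∀ x, x ∉ Metric.ball x₀ r0 →
      (fun x => χ x * (ψ x + K) + (-K)) =ᶠ[𝓝 x] fun _ => -K := by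
    intro x hx
    filter_upwards [hχout x hx] with y hy
    rw [hy]; ring
  refine ⟨?_, fun x => ?_, fun x v => ?_⟩
  · rw [contDiff_iff_contDiffAt]
    intro x
    by_cases hx : x ∈ Metric.ball x₀ r0
    · exact (hχ.contDiffAt.mul ((hψat x hx).add contDiffAt_const)).add contDiffAt_const
    · exact contDiffAt_const.congr_of_eventuallyEq (hφout x hx)
  · by_cases hx : x ∈ Metric.ball x₀ r0
    · have hψx : DifferentiableAt ℝ (fun y => ψ y + K) x :=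
        ((hψat x hx).differentiableAt hr1).add_const K
      have hχx : DifferentiableAt ℝ χ x := hχ.contDiffAt.differentiableAt hr1
      have h1 : fderiv ℝ (fun x => χ x * (ψ x + K) + (-K)) x
          = χ x • fderiv ℝ ψ x + (ψ x + K) • fderiv ℝ χ x := by
        rw [fderiv_add_const, fderiv_fun_mul hχx hψx, fderiv_add_const]
      rw [h1]
      calc ‖χ x • fderiv ℝ ψ x + (ψ x + K) • fderiv ℝ χ x‖
          ≤ ‖χ x • fderiv ℝ ψ x‖ + ‖(ψ x + K) • fderiv ℝ χ x‖ := norm_add_le _ _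
        _ ≤ 1 * C0 + B3 * B := by
            rw [norm_smul, norm_smul]
            refine add_le_add ?_ ?_
            · refine mul_le_mul ?_ (hD1 x hx) (norm_nonneg _) zero_le_one
              rw [Real.norm_eq_abs, abs_of_nonneg (hχ0 x)]
              exact hχ1 x
            · exact mul_le_mul (hψb x hx) (hχd1 x) (norm_nonneg _) hB30
        _ = C0 + B3 * B := by ring
    · rw [(hφout x hx).fderiv_eq]
      simp
      positivity
  · by_cases hx : x ∈ Metric.ball x₀ r0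
    · have hψx : ContDiffAt ℝ 2 (fun y => ψ y + K) x :=
        ((hψat x hx).of_le hr).add contDiffAt_const
      have e0 : fderiv ℝ (fun x => χ x * (ψ x + K) + (-K))
          = fderiv ℝ (fun y => χ y * (ψ y + K)) := by
        funext y
        rw [fderiv_add_const]
      have e1 : fderiv ℝ (fun y => ψ y + K) = fderiv ℝ ψ := by
        funext y
        rw [fderiv_add_const]
      rw [e0, fderiv2_mul (hχ.of_le hr).contDiffAt hψx v, e1]
      have a1 : |χ x * fderiv ℝ (fderiv ℝ ψ) x v v| ≤ C0 * ‖v‖ * ‖v‖ := by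
        rw [abs_mul, abs_of_nonneg (hχ0 x)]
        have h1 : |fderiv ℝ (fderiv ℝ ψ) x v v| ≤ C0 * ‖v‖ * ‖v‖ := by
          refine (ContinuousLinearMap.le_opNorm₂ (fderiv ℝ (fderiv ℝ ψ) x) v v).trans ?_
          have := hD2 x hx
          gcongr
        have h2 := hχ1 x
        have h3 := abs_nonneg (fderiv ℝ (fderiv ℝ ψ) x v v)
        nlinarith
      have a2 : |2 * (fderiv ℝ χ x v * fderiv ℝ ψ x v)| ≤ 2 * (B * C0) * ‖v‖ * ‖v‖ := by
        rw [abs_mul, abs_mul, abs_two]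
        have h1 : |fderiv ℝ χ x v| ≤ B * ‖v‖ := by
          refine (ContinuousLinearMap.le_opNorm (fderiv ℝ χ x) v).trans ?_
          have := hχd1 x
          gcongr
        have h2 : |fderiv ℝ ψ x v| ≤ C0 * ‖v‖ := by
          refine (ContinuousLinearMap.le_opNorm (fderiv ℝ ψ x) v).trans ?_
          have := hD1 x hx
          gcongr
        calc 2 * (|fderiv ℝ χ x v| * |fderiv ℝ ψ x v|) ≤ 2 * ((B * ‖v‖) * (C0 * ‖v‖)) := by
              gcongr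
          _ = _ := by ring
      have a3 : |(ψ x + K) * fderiv ℝ (fderiv ℝ χ) x v v| ≤ B3 * B * ‖v‖ * ‖v‖ := by
        rw [abs_mul]
        have h1 : |fderiv ℝ (fderiv ℝ χ) x v v| ≤ B * ‖v‖ * ‖v‖ := by
          refine (ContinuousLinearMap.le_opNorm₂ (fderiv ℝ (fderiv ℝ χ) x) v v).trans ?_
          have := hχd2 x
          gcongr
        calc |ψ x + K| * |fderiv ℝ (fderiv ℝ χ) x v v| ≤ B3 * (B * ‖v‖ * ‖v‖) := by
              have := hψb x hx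
              gcongr
          _ = _ := by ring
      calc _ ≤ |χ x * fderiv ℝ (fderiv ℝ ψ) x v v| + |2 * (fderiv ℝ χ x v * fderiv ℝ ψ x v)|
            + |(ψ x + K) * fderiv ℝ (fderiv ℝ χ) x v v| := abs_add_three _ _ _
        _ ≤ C0 * ‖v‖ * ‖v‖ + 2 * (B * C0) * ‖v‖ * ‖v‖ + B3 * B * ‖v‖ * ‖v‖ := by linarith
        _ = (C0 + 2 * (B * C0) + B3 * B) * ‖v‖ * ‖v‖ := by ring
    · have h1 : fderiv ℝ (fun x => χ x * (ψ x + K) + (-K)) =ᶠ[𝓝 x] fderiv ℝ (fun _ => -K) :=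
        (hφout x hx).fderiv
      have h2 : fderiv ℝ (fun _ : E => -K) = fun _ => 0 := by funext y; simp
      rw [h1.fderiv_eq, h2]
      simp
      positivity

/-- bound for `Lop` from derivative bounds. -/
theorem abs_Lop_le {V : ι → E → E} {b : E → E} {φ : E → ℝ} {x : E} {M C1 C2 : ℝ} (hM : 0 ≤ M)
    (hC1 : 0 ≤ C1) (hC2 : 0 ≤ C2)
    (hV : ∀ i, ‖V i x‖ ≤ M) (hb : ‖b x‖ ≤ M) (h1 : ‖fderiv ℝ φ x‖ ≤ C1)
    (h2 : ∀ v : E, |fderiv ℝ (fderiv ℝ φ) x v v| ≤ C2 * ‖v‖ * ‖v‖) :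
    |Lop V b φ x| ≤ Fintype.card ι * (C2 * M * M) + C1 * M := by
  unfold Lop
  refine (abs_add_le _ _).trans ?_
  refine add_le_add ?_ ?_
  · refine (Finset.abs_sum_le_sum_abs _ _).trans ?_
    have h2 : ∀ i ∈ (Finset.univ : Finset ι),
        |fderiv ℝ (fderiv ℝ φ) x (V i x) (V i x)| ≤ C2 * M * M := by
      intro i _
      refine (h2 _).trans ?_
      have := hV i
      gcongr
    refine (Finset.sum_le_sum h2).trans ?_
    rw [Finset.sum_const, Finset.card_univ, nsmul_eq_mul]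
  · refine (ContinuousLinearMap.le_opNorm (fderiv ℝ φ x) (b x)).trans ?_
    exact mul_le_mul h1 hb (norm_nonneg _) hC1

theorem coeff_bound {Z : Set E} (hZ : IsCompact Z) {V : ι → E → E} {b : E → E}
    (hV : ∀ i, ContinuousOn (V i) Z) (hb : ContinuousOn b Z) :
    ∃ M : ℝ, 0 ≤ M ∧ (∀ i, ∀ x ∈ Z, ‖V i x‖ ≤ M) ∧ ∀ x ∈ Z, ‖b x‖ ≤ M := by
  have hVM : ∀ i, ∃ M : ℝ, ∀ x ∈ Z, ‖V i x‖ ≤ M := fun i => hZ.exists_bound_of_continuousOn (hV i)
  choose Mi hMi using hVM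
  obtain ⟨Mb, hMb⟩ := hZ.exists_bound_of_continuousOn hb
  refine ⟨∑ i, |Mi i| + |Mb|, by positivity, fun i x hx => ?_, fun x hx => ?_⟩
  · calc ‖V i x‖ ≤ Mi i := hMi i x hx
      _ ≤ |Mi i| := le_abs_self _
      _ ≤ ∑ i, |Mi i| := Finset.single_le_sum (f := fun i => |Mi i|)
          (fun _ _ => abs_nonneg _) (Finset.mem_univ i)
      _ ≤ _ := by linarith [abs_nonneg Mb]
  · calc ‖b x‖ ≤ Mb := hMb x hx
      _ ≤ |Mb| := le_abs_self _
      _ ≤ _ := by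
        have : 0 ≤ ∑ i, |Mi i| := Finset.sum_nonneg fun _ _ => abs_nonneg _
        linarith

/-- Local barriers with uniform radius and `C²` bounds give global barriers with uniform
constants. -/
theorem globalize {r : WithTop ℕ∞} (hr : 2 ≤ r) (hr' : r ≤ (⊤ : ℕ∞)) {Z : Set E}
    (hZ : IsCompact Z) {V : ι → E → E} {b : E → E}
    (hV : ∀ i, ContinuousOn (V i) Z) (hb : ContinuousOn b Z) {w : E → ℝ} {K : ℝ}
    (hwK : ∀ x ∈ Z, |w x| ≤ K) {r0 : ℝ} (hr0 : 0 < r0) (C : ℝ) :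
    ∃ C' : ℝ, ∀ x₀ ∈ Z, ∀ ψ : E → ℝ, ContDiffOn ℝ r ψ (Metric.ball x₀ r0) →
      (∀ x ∈ Z, x ∈ Metric.ball x₀ r0 → ψ x ≤ w x) → ψ x₀ = w x₀ →
      (∀ x ∈ Metric.ball x₀ r0, ‖fderiv ℝ ψ x‖ ≤ C) →
      (∀ x ∈ Metric.ball x₀ r0, ‖fderiv ℝ (fderiv ℝ ψ) x‖ ≤ C) →
      ∃ φ, IsBar r Z w x₀ φ ∧ (∀ x ∈ Z, ∀ y ∈ Z, |φ x - φ y| ≤ C' * dist x y) ∧
        (∀ x ∈ Z, -C' ≤ Lop V b φ x) ∧ Lop V b φ x₀ = Lop V b ψ x₀ := by
  rcases Z.eq_empty_or_nonempty with hZe | ⟨z0, hz0⟩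
  · exact ⟨0, fun x hx => by simp [hZe] at hx⟩
  have hK0 : 0 ≤ K := (abs_nonneg _).trans (hwK z0 hz0)
  obtain ⟨B, hB0, hB⟩ := exists_bumps (E := E) hr hr' hr0
  obtain ⟨M, hM0, hVM, hbM⟩ := coeff_bound hZ hV hb
  obtain ⟨C0, hC0⟩ : ∃ C0 : ℝ, C0 = max C 0 := ⟨_, rfl⟩
  have hC00 : 0 ≤ C0 := by rw [hC0]; exact le_max_right _ _
  have hCC0 : C ≤ C0 := by rw [hC0]; exact le_max_left _ _
  obtain ⟨B3, hB3⟩ : ∃ B3 : ℝ, B3 = 2 * K + C0 * r0 := ⟨_, rfl⟩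
  have hB30 : 0 ≤ B3 := by rw [hB3]; positivity
  have hr1 : r ≠ 0 := by
    intro h; rw [h] at hr; simp at hr
  refine ⟨max (C0 + B3 * B) (Fintype.card ι * ((C0 + 2 * (B * C0) + B3 * B) * M * M)
    + (C0 + B3 * B) * M), fun x₀ hx₀ ψ hψ hψw hψ0 hD1 hD2 => ?_⟩
  have hD1' : ∀ x ∈ Metric.ball x₀ r0, ‖fderiv ℝ ψ x‖ ≤ C0 := fun x hx => (hD1 x hx).trans hCC0
  have hD2' : ∀ x ∈ Metric.ball x₀ r0, ‖fderiv ℝ (fderiv ℝ ψ) x‖ ≤ C0 := fun x hx =>
    (hD2 x hx).trans hCC0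
  have hψat : ∀ x ∈ Metric.ball x₀ r0, ContDiffAt ℝ r ψ x := fun x hx =>
    hψ.contDiffAt (Metric.isOpen_ball.mem_nhds hx)
  have hψb : ∀ x ∈ Metric.ball x₀ r0, |ψ x + K| ≤ B3 := by
    intro x hx
    have h1 := (convex_ball x₀ r0).norm_image_sub_le_of_norm_fderiv_le (𝕜 := ℝ) (f := ψ)
      (C := C0) (fun z hz => (hψat z hz).differentiableAt hr1) hD1'
      (Metric.mem_ball_self hr0) hx
    rw [Real.norm_eq_abs, ← dist_eq_norm] at h1
    have h2 : C0 * dist x x₀ ≤ C0 * r0 :=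
      mul_le_mul_of_nonneg_left (Metric.mem_ball.1 hx).le hC00
    have h3 := hwK x₀ hx₀
    rw [hψ0] at h1
    rw [abs_le] at h1 h3 ⊢
    constructor <;> linarith [h1.1, h1.2, h3.1, h3.2]
  obtain ⟨χ, hχs, hχ0, hχ1, hχd1, hχd2, hχout, hχone⟩ := hB x₀
  obtain ⟨g1, g2, g3⟩ := glob_one hr hC00 hB30 hB0 hχs hχ0 hχ1 hχd1 hχd2 hχout hψat hD1' hD2' hψb
  refine ⟨fun x => χ x * (ψ x + K) + (-K), ⟨g1, fun x hx => ?_, ?_⟩, fun x _ y _ => ?_,
    fun x hx => ?_, ?_⟩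
  · have h2 := hwK x hx
    rw [abs_le] at h2
    by_cases hxb : x ∈ Metric.ball x₀ r0
    · have h1 := hψw x hx hxb
      have h3 : χ x * (ψ x + K) ≤ χ x * (w x + K) :=
        mul_le_mul_of_nonneg_left (by linarith) (hχ0 x)
      have h4 : χ x * (w x + K) ≤ 1 * (w x + K) :=
        mul_le_mul_of_nonneg_right (hχ1 x) (by linarith)
      show χ x * (ψ x + K) + (-K) ≤ w x
      linarith
    · have h1 : χ x = 0 := (hχout x hxb).eq_of_nhds
      show χ x * (ψ x + K) + (-K) ≤ w x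
      rw [h1]
      linarith [h2.1]
  · have h1 : χ x₀ = 1 := hχone.eq_of_nhds
    show χ x₀ * (ψ x₀ + K) + (-K) = w x₀
    rw [h1, hψ0]; ring
  · have h1 := convex_univ.norm_image_sub_le_of_norm_fderiv_le (𝕜 := ℝ)
      (f := fun x => χ x * (ψ x + K) + (-K))
      (fun z _ => g1.contDiffAt.differentiableAt hr1) (fun z _ => g2 z)
      (mem_univ y) (mem_univ x)
    rw [Real.norm_eq_abs, ← dist_eq_norm] at h1
    exact h1.trans (mul_le_mul_of_nonneg_right (le_max_left _ _) dist_nonneg)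
  · have h1 := abs_Lop_le (V := V) (b := b) (x := x) hM0 (by positivity : 0 ≤ C0 + B3 * B)
      (by positivity : 0 ≤ C0 + 2 * (B * C0) + B3 * B) (fun i => hVM i x hx) (hbM x hx)
      (g2 x) (g3 x)
    rw [abs_le] at h1
    refine le_trans ?_ h1.1
    exact neg_le_neg (le_max_right _ _)
  · apply Lop_congr
    filter_upwards [hχone] with y hy
    rw [hy]; ring

end Glob

end Crest.Agent.R246.Visc475
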