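import Crest.Agent.R246.VbMu_196
import Crest.Agent.R246.Skel2_656

/-!
# Row 246: glue of the end block onto `Skel2` (helper196) : `StSM`
-/

set_option autoImplicit false
noncomputable section
open MeasureTheory Set Filter Topology Module
open scoped RealInnerProductSpace

namespace Crest.Agent.R246.GlueEnd196

open Crest.Agent.R246.H990 Crest.Agent.R246.SM436 Crest.Agent.R246.Skel656
open Crest.Agent.R246.G873 (ClassD)

/-- a null cone of class `D` has a unit zero. -/
theorem exists_zero {m : ℕ} {φ : E m → ℝ} (hN : NullCone φ) (hD : ClassD φ) :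
    ∃ p : E m, ‖p‖ = 1 ∧ φ p = 0 := by
  have hNt : Nontrivial (E m) := by
    apply Module.nontrivial_of_finrank_pos (R := ℝ)
    simp [E]
  obtain ⟨c, hc0, hc1, hc⟩ := hN.bd
  obtain ⟨x, hx⟩ := exists_ne (0 : E m)
  by_contra hcon
  push Not at hcon
  have hz : {y : E m | φ y = 0} ⊆ {0} := by
    intro y hy
    by_contra hy0
    have hy0' : y ≠ 0 := hy0
    have hn : 0 < ‖y‖ := norm_pos_iff.2 hy0'
    refine hcon (‖y‖⁻¹ • y) ?_ ?_
    · rw [norm_smul, norm_inv, norm_norm, inv_mul_cancel₀ hn.ne']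
    · rw [hN.hom _ (inv_pos.2 hn).le]
      have : φ y = 0 := hy
      rw [this, mul_zero]
  have h0 : φ (0 : E m) = 0 := by
    have := hN.hom 0 le_rfl (0 : E m)
    simpa using this
  have hz' : {y : E m | φ y = 0} = {0} := Subset.antisymm hz (by
    rintro y rfl
    exact h0)
  have h1 := Skel2.signedDist hD x
  rw [hz', Metric.infDist_singleton, dist_zero_right] at h1
  have h2 := hc x
  rw [h1] at h2
  have hn : 0 < ‖x‖ := norm_pos_iff.2 hx
  nlinarith

/-- **SM** -/
theorem stSM {m : ℕ} (hm : 1 ≤ m) : Skel2.StSM m := by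
  intro φ b hS hD hT
  have hf : finrank ℝ (E m) = m + 2 := by simp [E]
  have hA := areaMeas hS hT hm hf
  have hfin := hA.fin
  refine ⟨?_, hA, VbMu196.vb_mu (by omega) hS.nc hD hT, fun A hV =>
    hT.mu_le_of_VB (by omega) hV⟩
  obtain ⟨p, hp, hp0⟩ := exists_zero hS.nc hD
  intro h0
  have := hA.pos p hp hp0 1 one_pos
  rw [h0] at this
  simp at this

end Crest.Agent.R246.GlueEnd196
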