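import Crest.Agent.R246.H1a_105
import Crest.Agent.R246.Expn_105
import Crest.Agent.R246.Skel2_656

/-!
R246, helper105.  **H1** in the form of helper656's skeleton: `StH1 m`.
-/

set_option autoImplicit false

namespace Crest.Agent.R246.H1x105

open MeasureTheory Filter Topology Metric Set
open scoped NNReal Gradient RealInnerProductSpace
open Crest.Agent.R246.G873 Crest.Agent.R246.Flat105 Crest.Agent.R246.Iter105
open Crest.Agent.R246.MS852 (psi cpsi)
open Crest.Agent.R246.Skel656 Crest.Agent.R246.Skel2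

theorem stH1 (m : ℕ) : StH1 m := by
  intro φ μ _ hD hV _ p hp hp0 hfl hct
  have hfin : Module.finrank ℝ (E m) = (m + 1) + 1 := by simp [E]
  obtain ⟨θ, C, η₀, κ, hθ0, hθ1, hC, hη₀, hκ, hone⟩ := oneStep (E m) hfin
  obtain ⟨r₁, hr₁, hcon⟩ := hct κ hκ
  obtain ⟨r₀, hr₀, hflat⟩ := hfl (η₀ / 2) (by positivity)
  have hpn : 0 < ‖p‖ := norm_pos_iff.mpr hp
  set r : ℝ := min (r₀ / 2) (min (r₁ / 4) (‖p‖ / 4)) with hr
  have hr0 : 0 < r := by positivity
  have h1 : r < r₀ := (min_le_left _ _).trans_lt (by linarith)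
  have h2 : r ≤ r₁ / 4 := (min_le_right _ _).trans (min_le_left _ _)
  have h3 : r ≤ ‖p‖ / 4 := (min_le_right _ _).trans (min_le_right _ _)
  obtain ⟨e, he, hfe⟩ := hflat r hr0 h1
  have hF : Flat φ p (2 * r) e (η₀ / 4) := by
    intro x hx
    refine (hfe x hx).trans (le_of_eq ?_)
    ring
  have hO : OneStep φ {q | φ q = 0 ∧ ‖q - p‖ ≤ 2 * r / 2} (2 * r / 2) θ (3 / 4) C η₀ := by
    refine hone φ μ _ {0}ᶜ _ hD hV (fun q hq => hq.1) ?_ ?_
    · intro q hq y hy
      rw [mem_closedBall, dist_eq_norm] at hy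
      rw [mem_compl_iff, mem_singleton_iff]
      intro hy0
      have h4 := hq.2
      rw [hy0, zero_sub, norm_neg] at hy
      have h5 : ‖p‖ ≤ ‖q - p‖ + ‖q‖ := by
        calc ‖p‖ = ‖q - (q - p)‖ := by rw [sub_sub_cancel]
          _ ≤ ‖q‖ + ‖q - p‖ := norm_sub_le _ _
          _ = _ := add_comm _ _
      linarith
    · intro q hq s hs hsr
      have h4 := hcon q hq.1 (by
        have := hq.2
        linarith) s hs (by linarith)
      exact h4
  obtain ⟨C', hC'⟩ := expn_of_oneStep hO (by positivity) hθ0 hθ1 (by norm_num) hC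
    (by positivity : 0 < η₀ / 4) (by linarith) he hF
  exact ⟨2 * r / 2, by positivity, C', hC'⟩

end Crest.Agent.R246.H1x105
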