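import Crest.Agent.R246.H2c5_622

/-!
R246, block H2c (helper622).  Part 6: the interface form (literally `Reg549.StH2c F`).
-/

open MeasureTheory Metric Set Filter Topology
open scoped ContDiff

namespace Crest.Agent.R246.H2x622

noncomputable section

variable {F : Type} [NormedAddCommGroup F] [InnerProductSpace ℝ F] [FiniteDimensional ℝ F]
  [MeasurableSpace F] [BorelSpace F]

/-- `C^{1,α}` weak solutions of the minimal surface equation with `∇w(0) = 0` are smooth near `0`. -/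
theorem smooth_of_weak_mse (r K α : ℝ) (w : F → ℝ) (hr : 0 < r) (hK : 0 ≤ K) (hα : 1 / 2 < α)
    (_hα1 : α ≤ 1) (h0 : fderiv ℝ w 0 = 0)
    (hd : ∀ y ∈ ball (0 : F) r, DifferentiableAt ℝ w y ∧ ‖fderiv ℝ w y‖ ≤ 1 / 4)
    (hh : ∀ y ∈ ball (0 : F) r, ∀ y' ∈ ball (0 : F) r,
      ‖fderiv ℝ w y - fderiv ℝ w y'‖ ≤ K * ‖y - y'‖ ^ α)
    (hweak : ∀ ψ : F → ℝ, ContDiff ℝ 1 ψ → HasCompactSupport ψ → tsupport ψ ⊆ ball 0 r →
      ∫ y, (Real.sqrt (1 + ‖gradient w y‖ ^ 2))⁻¹ * inner ℝ (gradient w y) (gradient ψ y) = 0) :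
    ∃ r1 > 0, r1 ≤ r ∧ ContDiffOn ℝ ∞ w (ball 0 r1) := by
  obtain ⟨p₀, hp, hmain⟩ := mse_smooth F (α := 1 / 2) (by norm_num) (by norm_num)
  have hc : ContinuousAt (fun y => ‖fderiv ℝ w y‖) 0 := by
    have h1 : ContinuousAt (fderiv ℝ w) 0 :=
      continuousAt_of_hol (by linarith : 0 < α) hr hh
    exact h1.norm
  have hz : ‖fderiv ℝ w 0‖ < p₀ := by rw [h0, norm_zero]; exact hp
  obtain ⟨δ, hδ, hδ2⟩ := Metric.eventually_nhds_iff.1 (hc.eventually (gt_mem_nhds hz))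
  set r1 : ℝ := min (min r δ) (1 / 2) with hr1
  have hr10 : 0 < r1 := by positivity
  have hr1r : r1 ≤ r := (min_le_left _ _).trans (min_le_left _ _)
  have hr1δ : r1 ≤ δ := (min_le_left _ _).trans (min_le_right _ _)
  have hr12 : r1 ≤ 1 / 2 := min_le_right _ _
  refine ⟨r1, hr10, hr1r, ?_⟩
  have hsub : ball (0 : F) r1 ⊆ ball 0 r := ball_subset_ball hr1r
  refine hmain (ball 0 r1) w (fderiv ℝ w) isOpen_ball
    (fun z hz => (hd z (hsub hz)).1.hasFDerivAt) ?_ ?_ ?_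
  · intro x hx
    obtain ⟨ρ, hρ, hρ2⟩ := Metric.isOpen_iff.1 isOpen_ball x hx
    refine ⟨ρ, hρ, K, fun z hz z' hz' => ?_⟩
    have hz1 := hρ2 hz
    have hz1' := hρ2 hz'
    refine (hh z (hsub hz1) z' (hsub hz1')).trans (mul_le_mul_of_nonneg_left ?_ hK)
    have h1 : ‖z - z'‖ ≤ 1 := by
      rw [mem_ball, dist_zero_right] at hz1 hz1'
      exact (norm_sub_le _ _).trans (by linarith)
    exact Real.rpow_le_rpow_of_exponent_ge' (norm_nonneg _) h1 (by norm_num) hα.le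
  · intro z hz
    exact hδ2 (lt_of_lt_of_le (mem_ball.1 hz) hr1δ)
  · intro ζ h1 h2 h3
    rw [← hweak ζ (h1.of_le (by norm_cast)) h2 (h3.trans hsub)]
    congr 1
    ext z
    have e1 : ‖gradient w z‖ = ‖fderiv ℝ w z‖ := by
      rw [gradient, LinearIsometryEquiv.norm_map]
    have e2 : inner ℝ (gradient w z) (gradient ζ z) = fderiv ℝ w z (gradient ζ z) := by
      rw [gradient, InnerProductSpace.toDual_symm_apply]
    rw [e1, e2]

end

end Crest.Agent.R246.H2x622
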