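import Crest.Agent.R246.MSL5_579

/-!
# R246-F (helper579): `StAff` = Lemma L5 at good points, by rescaling `R z = r (x0 + ε z) / ε`
-/

set_option autoImplicit false
set_option linter.unusedSectionVars false

namespace Crest.Agent.R246.L5x579

open MeasureTheory Metric Set InnerProductSpace Filter Topology
open scoped RealInnerProductSpace Gradient
open Crest.Agent.R246.MS852

section
variable {E : Type*} [NormedAddCommGroup E] [InnerProductSpace ℝ E] [FiniteDimensional ℝ E]
  [MeasurableSpace E] [BorelSpace E]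

theorem continuous_tanh : Continuous Real.tanh := by
  have h1 : Real.tanh = fun x => Real.sinh x / Real.cosh x :=
    funext fun x => Real.tanh_eq_sinh_div_cosh x
  rw [h1]
  exact Real.continuous_sinh.div Real.continuous_cosh fun x => (Real.cosh_pos x).ne'

theorem int_rescale (f : E → ℝ) (p : E) {ρ : ℝ} (hρ : 0 < ρ) :
    ρ ^ (Module.finrank ℝ E) * ∫ x, f (p + ρ • x) = ∫ y, f y := by
  rw [Measure.integral_comp_smul volume (fun y => f (p + y)) ρ,
    integral_add_left_eq_self (fun y => f y) p, smul_eq_mul, abs_of_pos (by positivity)]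
  field_simp

theorem int_ball_rescale (f : E → ℝ) (p : E) {ρ : ℝ} (hρ : 0 < ρ) (R : ℝ) :
    ρ ^ (Module.finrank ℝ E) * ∫ x in ball (0 : E) R, f (p + ρ • x) = ∫ y in ball p (ρ * R), f y := by
  rw [← integral_indicator measurableSet_ball, ← integral_indicator measurableSet_ball]
  have h1 : ∀ x : E, (ball (0 : E) R).indicator (fun x => f (p + ρ • x)) x =
      (ball p (ρ * R)).indicator f (p + ρ • x) := by
    intro x
    have h2 : x ∈ ball (0 : E) R ↔ p + ρ • x ∈ ball p (ρ * R) := by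
      rw [mem_ball_zero_iff, mem_ball, dist_eq_norm, add_sub_cancel_left, norm_smul,
        Real.norm_eq_abs, abs_of_pos hρ, mul_lt_mul_iff_right₀ hρ]
    by_cases hx : x ∈ ball (0 : E) R
    · rw [indicator_of_mem hx, indicator_of_mem (h2.1 hx)]
    · rw [indicator_of_notMem hx, indicator_of_notMem (fun h' => hx (h2.2 h'))]
  rw [integral_congr_ae (Eventually.of_forall h1)]
  exact int_rescale (fun y => (ball p (ρ * R)).indicator f y) p hρ

variable {a x0 : E} {ε η : ℝ} {h r : E → ℝ}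

/-- the rescaled function -/
noncomputable def rs (r : E → ℝ) (x0 : E) (ε : ℝ) (z : E) : ℝ := r (x0 + ε • z) / ε

theorem rs_fderiv (hr : ContDiff ℝ 1 r) (hε : 0 < ε) (x0 z : E) :
    fderiv ℝ (rs r x0 ε) z = fderiv ℝ r (x0 + ε • z) := by
  have h1 : HasFDerivAt (fun z : E => x0 + ε • z) (ε • ContinuousLinearMap.id ℝ E) z :=
    ((hasFDerivAt_id z).const_smul ε).const_add x0
  have h2 : HasFDerivAt r (fderiv ℝ r (x0 + ε • z)) (x0 + ε • z) :=
    (hr.differentiable one_ne_zero _).hasFDerivAt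
  have h3 := (h2.comp z h1).mul_const (ε⁻¹)
  have h4 : HasFDerivAt (rs r x0 ε) (fderiv ℝ r (x0 + ε • z)) z := by
    refine (h3.congr_fderiv ?_).congr_of_eventuallyEq (Eventually.of_forall fun y => ?_)
    · ext v
      simp only [smul_apply, ContinuousLinearMap.comp_apply,
        ContinuousLinearMap.id_apply, map_smul, smul_eq_mul]
      field_simp
    · show r (x0 + ε • y) / ε = r (x0 + ε • y) * ε⁻¹
      rw [div_eq_mul_inv]
  exact h4.fderiv

theorem rs_grad (hr : ContDiff ℝ 1 r) (hε : 0 < ε) (x0 z : E) :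
    ∇ (rs r x0 ε) z = ∇ r (x0 + ε • z) := by
  unfold gradient; rw [rs_fderiv hr hε]

theorem rs_cd (hr : ContDiff ℝ 1 r) (x0 : E) (ε : ℝ) : ContDiff ℝ 1 (rs r x0 ε) := by
  unfold rs
  exact (hr.comp (contDiff_const.add (contDiff_const.smul contDiff_id))).div_const ε

/-- rescaled defect density without the factor `sech⁴` -/
noncomputable def dd (a : E) (h r : E → ℝ) (x0 : E) (ε : ℝ) (z : E) : ℝ :=
  (h (x0 + ε • z) - ‖∇ r (x0 + ε • z)‖ ^ 2) / 2 +
    (‖∇ r (x0 + ε • z)‖ ^ 2 - (fderiv ℝ r (x0 + ε • z) a) ^ 2)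

theorem mem_two {L : ℝ} (hε : 0 < ε) (hx0 : x0 ∈ ball (0 : E) (3 / 5)) (hL : L * ε ≤ 1 / 100)
    {z : E} (hz : z ∈ ball (0 : E) L) : x0 + ε • z ∈ ball (0 : E) 2 := by
  rw [mem_ball_zero_iff] at *
  have h1 := norm_add_le x0 (ε • z)
  rw [norm_smul, Real.norm_eq_abs, abs_of_pos hε] at h1
  have h2 : ε * ‖z‖ ≤ ε * L := mul_le_mul_of_nonneg_left hz.le hε.le
  linarith

theorem dd_nonneg (H : Hyp a ε η h r) {z : E} (hz : x0 + ε • z ∈ ball (0 : E) 2) :
    0 ≤ dd a h r x0 ε z := by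
  unfold dd
  have h1 := H.modica _ hz
  have h2 := sq_fderiv_le H.ha r (x0 + ε • z)
  linarith

theorem dd_cont (H : Hyp a ε η h r) : Continuous (dd a h r x0 ε) := by
  unfold dd
  have hA : Continuous fun z : E => x0 + ε • z := by fun_prop
  have h1 := ((continuous_grad H.cr).comp hA).norm.pow 2
  have h2 := ((continuous_fderiv_apply' H.cr a).comp hA).pow 2
  exact (((H.ch.continuous.comp hA).sub h1).div_const 2).add (h1.sub h2)

/-- the rescaled function is `2`-Lipschitz on the ball -/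
theorem rs_lip (H : Hyp a ε η h r) {L : ℝ} (hx0 : x0 ∈ ball (0 : E) (3 / 5))
    (hL : L * ε ≤ 1 / 100) {z : E} (hz : z ∈ ball (0 : E) L) (hL0 : 0 < L) :
    |rs r x0 ε z| ≤ |r x0 / ε| + 2 * L := by
  have h1 := Convex.norm_image_sub_le_of_norm_fderiv_le (𝕜 := ℝ) (f := rs r x0 ε)
    (s := ball (0 : E) L) (C := 2)
    (fun y _ => (rs_cd H.cr x0 ε).differentiable one_ne_zero y) (fun y hy => ?_) (convex_ball _ _)
    (mem_ball_self hL0) hz
  · rw [sub_zero, Real.norm_eq_abs] at h1
    rw [mem_ball_zero_iff] at hz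
    have h2 : rs r x0 ε 0 = r x0 / ε := by unfold rs; rw [smul_zero, add_zero]
    rw [h2] at h1
    have h3 := abs_sub_abs_le_abs_sub (rs r x0 ε z) (r x0 / ε)
    linarith
  · rw [rs_fderiv H.cr H.hε, ← norm_grad]
    exact H.grad_le (mem_two H.hε hx0 hL hy)

/-- the integral of the rescaled defect -/
theorem int_dd_le (H : Hyp a ε η h r) {d : ℕ} (hd : Module.finrank ℝ E = d + 1) {L S lam : ℝ}
    (hL0 : 0 < L) (hL : L * ε ≤ 1 / 100) (hg : Good a ε h r d lam x0) (hS : |r x0 / ε| ≤ S) :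
    ∫ z in ball (0 : E) L, dd a h r x0 ε z ≤ Real.cosh (S + 2 * L) ^ 4 * (lam * L ^ d) := by
  have hε := H.hε
  have hS0 : 0 ≤ S := (abs_nonneg _).trans hS
  set c := Real.cosh (S + 2 * L) ^ 4 with hc
  have hc0 : 0 < c := by rw [hc]; exact pow_pos (Real.cosh_pos _) 4
  have hA : Continuous fun z : E => x0 + ε • z := by fun_prop
  have h1 : ∀ z ∈ ball (0 : E) L, dd a h r x0 ε z ≤ c * (ε * kap a ε h r (x0 + ε • z)) := by
    intro z hz
    have hz2 := mem_two hε hg.1 hL hz
    have hdd := dd_nonneg (x0 := x0) H hz2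
    have hk : kap a ε h r (x0 + ε • z) = S4 ε r (x0 + ε • z) / ε * dd a h r x0 ε z := rfl
    rw [hk]
    have h2 : 1 ≤ c * S4 ε r (x0 + ε • z) := by
      unfold S4
      rw [mul_one_div, le_div_iff₀ (pow_pos (Real.cosh_pos _) 4), one_mul, hc]
      refine pow_le_pow_left₀ (Real.cosh_pos _).le ?_ 4
      rw [Real.cosh_le_cosh]
      have h3 := rs_lip H hg.1 hL hz hL0
      rw [abs_of_nonneg (by positivity : (0 : ℝ) ≤ S + 2 * L)]
      unfold rs at h3
      linarith
    have h3 : c * (ε * (S4 ε r (x0 + ε • z) / ε * dd a h r x0 ε z))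
        = (c * S4 ε r (x0 + ε • z)) * dd a h r x0 ε z := by field_simp
    rw [h3]
    nlinarith
  have hkc : Continuous fun z => kap a ε h r (x0 + ε • z) := H.contkap.comp hA
  refine (setIntegral_mono_on (integrableOn_ball (dd_cont H) 0 L)
    (integrableOn_ball ((hkc.const_mul ε).const_mul c) 0 L) measurableSet_ball h1).trans ?_
  simp only [integral_const_mul]
  refine mul_le_mul_of_nonneg_left ?_ hc0.le
  have h4 := int_ball_rescale (kap a ε h r) x0 hε L
  rw [hd] at h4
  have h5 : ∫ y in ball x0 (ε * L), kap a ε h r y ≤ lam * (ε * L) ^ d := by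
    refine le_trans ?_ (hg.2 (ε * L) (by positivity) (by linarith))
    refine setIntegral_mono_set (integrableOn_closedBall H.contkap x0 (ε * L)) ?_
      (Eventually.of_forall ball_subset_closedBall)
    rw [EventuallyLE, ae_restrict_iff' measurableSet_closedBall]
    refine Eventually.of_forall fun y hy => H.kap_nonneg ?_
    have hx := hg.1
    rw [mem_ball_zero_iff] at hx ⊢
    rw [mem_closedBall, dist_eq_norm] at hy
    have h6 : ‖y‖ ≤ ‖y - x0‖ + ‖x0‖ := by
      have := norm_add_le (y - x0) x0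
      rwa [sub_add_cancel] at this
    linarith
  rw [← h4] at h5
  have h6 : 0 < ε ^ d := by positivity
  have h7 : ε ^ (d + 1) * (∫ x in ball (0 : E) L, kap a ε h r (x0 + ε • x))
      = ε ^ d * (ε * ∫ x in ball (0 : E) L, kap a ε h r (x0 + ε • x)) := by ring
  have h8 : lam * (ε * L) ^ d = ε ^ d * (lam * L ^ d) := by rw [mul_pow]; ring
  rw [h7, h8] at h5
  exact le_of_mul_le_mul_left h5 h6

/-- rescaled weak equation -/
theorem weak_rs (H : Hyp a ε η h r) {L : ℝ} (hx0 : x0 ∈ ball (0 : E) (3 / 5))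
    (hL : L * ε ≤ 1 / 100) {φ : E → ℝ} (hφ : ContDiff ℝ 1 φ) (hs : tsupport φ ⊆ ball (0 : E) L) :
    ∫ z, fderiv ℝ φ z (∇ (rs r x0 ε) z) =
      ∫ z, 2 * Real.tanh (rs r x0 ε z) * (h (x0 + ε • z) - ‖∇ r (x0 + ε • z)‖ ^ 2) * φ z := by
  have hε := H.hε
  set B : E → E := fun x => ε⁻¹ • (x - x0) with hB
  have hBA : ∀ z, B (x0 + ε • z) = z := by
    intro z
    rw [hB]
    simp only [add_sub_cancel_left, smul_smul]
    rw [inv_mul_cancel₀ hε.ne', one_smul]
  have hBc : Continuous B := by rw [hB]; fun_prop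
  have hBd : ContDiff ℝ 1 B := contDiff_const.smul (contDiff_id.sub contDiff_const)
  have hBf : ∀ x, HasFDerivAt B (ε⁻¹ • ContinuousLinearMap.id ℝ E) x := fun x =>
    ((hasFDerivAt_id x).sub_const x0).const_smul ε⁻¹
  have hψ : ContDiff ℝ 1 fun x => φ (B x) := hφ.comp hBd
  have hψs : tsupport (fun x => φ (B x)) ⊆ ball (0 : E) 2 := by
    have h1 : tsupport (fun x => φ (B x)) ⊆ B ⁻¹' tsupport φ := by
      refine closure_minimal (fun x hx => subset_tsupport φ hx) ?_
      exact (isClosed_tsupport φ).preimage hBc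
    intro x hx
    have h2 := hs (h1 hx)
    have h3 : x = x0 + ε • B x := by
      rw [hB]
      simp only [smul_smul]
      rw [mul_inv_cancel₀ hε.ne', one_smul, add_sub_cancel]
    rw [h3]
    exact mem_two hε hx0 hL h2
  have hw := H.weak (fun x => φ (B x)) hψ hψs
  have hfd : ∀ x v, fderiv ℝ (fun x => φ (B x)) x v = ε⁻¹ * fderiv ℝ φ (B x) v := by
    intro x v
    have h1 := ((hφ.differentiable one_ne_zero (B x)).hasFDerivAt.comp x (hBf x)).fderiv
    have h2 : (fun x => φ (B x)) = φ ∘ B := rfl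
    rw [h2, h1]
    simp
  rw [← int_rescale (fun x => fderiv ℝ (fun x => φ (B x)) x (∇ r x)) x0 hε,
    ← int_rescale (fun x => 2 / ε * Real.tanh (r x / ε) * (h x - ‖∇ r x‖ ^ 2) * φ (B x)) x0 hε] at hw
  have hp : (0 : ℝ) < ε ^ (Module.finrank ℝ E) := by positivity
  have hw2 := mul_left_cancel₀ hp.ne' hw
  have e1 : ∀ z, fderiv ℝ (fun x => φ (B x)) (x0 + ε • z) (∇ r (x0 + ε • z))
      = ε⁻¹ * fderiv ℝ φ z (∇ (rs r x0 ε) z) := by
    intro z
    rw [hfd, hBA, rs_grad H.cr hε]
  have e2 : ∀ z, 2 / ε * Real.tanh (r (x0 + ε • z) / ε) *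
      (h (x0 + ε • z) - ‖∇ r (x0 + ε • z)‖ ^ 2) * φ (B (x0 + ε • z)) =
      ε⁻¹ * (2 * Real.tanh (rs r x0 ε z) * (h (x0 + ε • z) - ‖∇ r (x0 + ε • z)‖ ^ 2) * φ z) := by
    intro z
    rw [hBA]
    unfold rs
    ring
  simp only [e1, e2, integral_const_mul] at hw2
  exact mul_left_cancel₀ (inv_ne_zero hε.ne') hw2

variable (E) in
/-- LEAF 6 -/
theorem stAff (d : ℕ) : StAff E d := by
  intro hd S L w hS hL hw
  obtain ⟨τ0, hτ0, hτ1, hL5⟩ := stL5' E L w hL hw
  set c := Real.cosh (S + 2 * L) ^ 4 with hc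
  have hc0 : 0 < c := by rw [hc]; exact pow_pos (Real.cosh_pos _) 4
  set V : ℝ := volume.real (ball (0 : E) L) with hV
  have hV0 : 0 ≤ V := measureReal_nonneg
  have hL0 : (0 : ℝ) < L := by linarith
  refine ⟨τ0 / (8 * c * L ^ d), by positivity, min (1 / (100 * L)) (min τ0 (τ0 / (2 * (V + 1)))),
    by positivity, ?_⟩
  intro a ε η h r hη H x0 hg hx0S
  have hε := H.hε
  have hη0 := H.hη0
  have hη1 : η ≤ 1 / (100 * L) := hη.trans (min_le_left _ _)
  have hη2 : η ≤ τ0 := hη.trans ((min_le_right _ _).trans (min_le_left _ _))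
  have hη3 : η ≤ τ0 / (2 * (V + 1)) := hη.trans ((min_le_right _ _).trans (min_le_right _ _))
  have hLε : L * ε ≤ 1 / 100 := by
    have h1 : ε ≤ 1 / (100 * L) := H.ε_le_η.trans hη1
    rw [le_div_iff₀ (by positivity)] at h1
    linarith
  refine ⟨hLε, ?_⟩
  have hI := int_dd_le H hd hL0 hLε hg hx0S
  rw [← hc] at hI
  have hI2 : ∫ z in ball (0 : E) L, dd a h r x0 ε z ≤ τ0 / 8 := by
    refine hI.trans (le_of_eq ?_)
    field_simp
  have hA : Continuous fun z : E => x0 + ε • z := by fun_prop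
  have hddc : Continuous (dd a h r x0 ε) := dd_cont H
  have hddi := integrableOn_ball hddc 0 L
  have hgr : ∀ z, ∇ (rs r x0 ε) z = ∇ r (x0 + ε • z) := rs_grad H.cr hε x0
  have hfr : ∀ z, fderiv ℝ (rs r x0 ε) z = fderiv ℝ r (x0 + ε • z) := rs_fderiv H.cr hε x0
  have hRc : ContDiff ℝ 1 (rs r x0 ε) := rs_cd H.cr x0 ε
  have hgc : Continuous fun z => ‖∇ r (x0 + ε • z)‖ ^ 2 :=
    ((continuous_grad H.cr).comp hA).norm.pow 2
  have hfc : Continuous fun z => (fderiv ℝ r (x0 + ε • z) a) ^ 2 :=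
    ((continuous_fderiv_apply' H.cr a).comp hA).pow 2
  have hhc : Continuous fun z => h (x0 + ε • z) := H.ch.continuous.comp hA
  have hyp : HypL5 a L τ0 (rs r x0 ε) := by
    refine ⟨H.ha, hτ0, hτ1, hRc, ?_, ?_, ?_, ?_⟩
    · intro z hz
      have hz2 := mem_two hε hg.1 hLε hz
      rw [hgr]
      have h1 := H.modica _ hz2
      have h2 := abs_le.1 (H.near _ hz2)
      linarith
    · simp only [hgr, hfr]
      refine (setIntegral_mono_on (integrableOn_ball (hgc.sub hfc) 0 L) hddi measurableSet_ball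
        fun z hz => ?_).trans (hI2.trans (by linarith))
      have hz2 := mem_two hε hg.1 hLε hz
      have h1 := H.modica _ hz2
      show ‖∇ r (x0 + ε • z)‖ ^ 2 - (fderiv ℝ r (x0 + ε • z) a) ^ 2 ≤ dd a h r x0 ε z
      unfold dd
      linarith
    · simp only [hgr]
      have h3 : ∀ z ∈ ball (0 : E) L, |1 - ‖∇ r (x0 + ε • z)‖ ^ 2| ≤ η + 2 * dd a h r x0 ε z := by
        intro z hz
        have hz2 := mem_two hε hg.1 hLε hz
        have h1 := H.modica _ hz2
        have h2 := abs_le.1 (H.near _ hz2)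
        have h4 := sq_fderiv_le H.ha r (x0 + ε • z)
        unfold dd
        rw [abs_le]
        constructor <;> linarith [h2.1, h2.2]
      have h5 := setIntegral_mono_on (μ := volume)
        (integrableOn_ball (continuous_const.sub hgc).abs 0 L)
        (integrableOn_ball (continuous_const.add (hddc.const_mul 2)) 0 L) measurableSet_ball h3
      refine h5.trans ?_
      simp only [Pi.add_apply]
      rw [integral_add (integrableOn_ball continuous_const 0 L)
        (integrableOn_ball (hddc.const_mul 2) 0 L), integral_const_mul, setIntegral_const,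
        smul_eq_mul, ← hV]
      have h6 : η * (2 * (V + 1)) ≤ τ0 := by
        rwa [le_div_iff₀ (by positivity)] at hη3
      nlinarith
    · intro φ hφ hs M hM
      have hM0 : 0 ≤ M := (abs_nonneg _).trans (hM 0)
      rw [weak_rs H hg.1 hLε hφ hs]
      have hz0 : ∀ z, z ∉ ball (0 : E) L → φ z = 0 := fun z hz =>
        image_eq_zero_of_notMem_tsupport fun h => hz (hs h)
      have h7 := abs_int_le (L := L) (C := 4 * M) (G := dd a h r x0 ε)
        (f := fun z => 2 * Real.tanh (rs r x0 ε z) *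
          (h (x0 + ε • z) - ‖∇ r (x0 + ε • z)‖ ^ 2) * φ z)
        (((continuous_const.mul (continuous_tanh.comp hRc.continuous)).mul
          (hhc.sub hgc)).mul hφ.continuous) hddc
        (fun z hz => by rw [hz0 z hz, mul_zero]) ?_
      · refine h7.trans ?_
        have h8 : 4 * M * ∫ z in ball (0 : E) L, dd a h r x0 ε z ≤ 4 * M * (τ0 / 8) :=
          mul_le_mul_of_nonneg_left hI2 (by positivity)
        nlinarith [mul_nonneg hτ0.le hM0]
      · intro z hz
        have hz2 := mem_two hε hg.1 hLε hz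
        have h1 := H.modica _ hz2
        have h4 := sq_fderiv_le H.ha r (x0 + ε • z)
        have hdd0 := dd_nonneg (x0 := x0) H hz2
        have h9 : 0 ≤ h (x0 + ε • z) - ‖∇ r (x0 + ε • z)‖ ^ 2 := by linarith
        have h10 : h (x0 + ε • z) - ‖∇ r (x0 + ε • z)‖ ^ 2 ≤ 2 * dd a h r x0 ε z := by
          unfold dd; linarith
        have ht : |Real.tanh (rs r x0 ε z)| ≤ 1 := (Real.abs_tanh_lt_one _).le
        rw [abs_mul, abs_mul, abs_mul, abs_of_nonneg h9, abs_two]
        calc 2 * |Real.tanh (rs r x0 ε z)| * (h (x0 + ε • z) - ‖∇ r (x0 + ε • z)‖ ^ 2) * |φ z|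
            ≤ 2 * 1 * (2 * dd a h r x0 ε z) * M := by
              refine mul_le_mul (mul_le_mul (by linarith) h10 h9 (by norm_num)) (hM z)
                (abs_nonneg _) (by positivity)
          _ = 4 * M * dd a h r x0 ε z := by ring
  obtain ⟨s, hs, hz⟩ := hL5 a (rs r x0 ε) hyp
  refine ⟨s, hs, fun z hzz => ?_⟩
  have h1 := hz z hzz
  have h2 : rs r x0 ε 0 = r x0 / ε := by unfold rs; rw [smul_zero, add_zero]
  rw [h2] at h1
  exact h1

end

end Crest.Agent.R246.L5x579
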