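import Crest.Agent.R246.MSDefs_852

/-!
# R246-F (helper598): leaf `StSlice` of Lemma MS (slicing along `a`)
-/

set_option autoImplicit false

namespace Crest.Agent.R246.MSSlice598

open MeasureTheory Metric Set Module
open scoped RealInnerProductSpace ENNReal

variable {E : Type*} [NormedAddCommGroup E] [InnerProductSpace ℝ E] [FiniteDimensional ℝ E]
  [MeasurableSpace E] [BorelSpace E] {d : ℕ}

theorem stSlice : MS852.StSlice E d := by
  intro hfin a ha
  have : Fact (finrank ℝ E = d + 1) := ⟨hfin⟩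
  have ha0 : a ≠ 0 := by
    intro h
    rw [h, norm_zero] at ha
    exact zero_ne_one ha
  let b : OrthonormalBasis (Fin d) ℝ (ℝ ∙ a)ᗮ :=
    OrthonormalBasis.fromOrthogonalSpanSingleton (𝕜 := ℝ) d ha0
  let ι : EuclideanSpace ℝ (Fin d) →ₗᵢ[ℝ] E :=
    ((ℝ ∙ a)ᗮ).subtypeₗᵢ.comp b.repr.symm.toLinearIsometry
  have hι : ∀ y, inner ℝ a (ι y) = 0 := by
    intro y
    exact (Submodule.mem_orthogonal_singleton_iff_inner_right.1 (b.repr.symm y).2)
  have hιn : ∀ y, ‖ι y‖ = ‖y‖ := fun y => ι.norm_map y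
  let L : WithLp 2 (ℝ × EuclideanSpace ℝ (Fin d)) →ₗ[ℝ] E :=
    { toFun := fun p => p.fst • a + ι p.snd
      map_add' := by
        intro p q
        simp only [WithLp.add_fst, WithLp.add_snd, map_add, add_smul]
        abel
      map_smul' := by
        intro c p
        simp only [WithLp.smul_fst, WithLp.smul_snd, map_smul, smul_eq_mul, mul_smul,
          RingHom.id_apply, smul_add] }
  have hL : ∀ p, ‖L p‖ = ‖p‖ := by
    intro p
    have h1 : ‖L p‖ ^ 2 = ‖p‖ ^ 2 := by
      have h2 : L p = p.fst • a + ι p.snd := rfl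
      rw [h2, WithLp.prod_norm_sq_eq_of_L2, @norm_add_sq_real]
      rw [real_inner_smul_left, hι, norm_smul, ha, hιn]
      simp
    exact (sq_eq_sq₀ (norm_nonneg _) (norm_nonneg _)).1 h1
  let Li : WithLp 2 (ℝ × EuclideanSpace ℝ (Fin d)) →ₗᵢ[ℝ] E := ⟨L, hL⟩
  have hdim : finrank ℝ (WithLp 2 (ℝ × EuclideanSpace ℝ (Fin d))) = finrank ℝ E := by
    rw [hfin, (WithLp.linearEquiv 2 ℝ (ℝ × EuclideanSpace ℝ (Fin d))).finrank_eq,
      Module.finrank_prod, Module.finrank_self, finrank_euclideanSpace_fin, add_comm]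
  let Le := Li.toLinearIsometryEquiv hdim
  refine ⟨ι, hι, ?_⟩
  have h1 : MeasurePreserving Le volume volume := Le.measurePreserving
  have h2 := WithLp.volume_preserving_toLp (U := ℝ) (V := EuclideanSpace ℝ (Fin d))
  exact h1.comp h2

end Crest.Agent.R246.MSSlice598
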