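import Crest.Agent.R246.MSPsi_598
import Crest.Agent.R246.MSSlice_598

/-!
# R246-F (helper598): leaf `StLow` of Lemma MS
-/

set_option autoImplicit false
set_option linter.unusedSectionVars false

namespace Crest.Agent.R246.MSLow598

open MeasureTheory Metric Set Module InnerProductSpace
open Crest.Agent.R246.MS852 Crest.Agent.R246.MSPsi598
open scoped RealInnerProductSpace Gradient

/-! ### the constants -/

section
variable (d : ℕ)

theorem psi_normSq_hcs {V : Type*} [NormedAddCommGroup V] [NormedSpace ℝ V]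
    [FiniteDimensional ℝ V] {τ : ℝ} (hτ : 0 ≤ τ) :
    HasCompactSupport fun y : V => psi (τ + ‖y‖ ^ 2) := by
  refine HasCompactSupport.of_support_subset_isCompact (isCompact_closedBall (0 : V) 1) ?_
  intro y hy
  rw [mem_closedBall_zero_iff]
  by_contra hc
  push Not at hc
  apply hy
  apply psi_of_one_le
  nlinarith [norm_nonneg y]

theorem psi_normSq_cont {V : Type*} [NormedAddCommGroup V] (τ : ℝ) :
    Continuous fun y : V => psi (τ + ‖y‖ ^ 2) :=
  continuous_psi.comp (by fun_prop)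

theorem psi_normSq_int {V : Type*} [NormedAddCommGroup V] [NormedSpace ℝ V]
    [FiniteDimensional ℝ V] [MeasurableSpace V] [BorelSpace V] (μ : Measure V)
    [IsFiniteMeasureOnCompacts μ] {τ : ℝ} (hτ : 0 ≤ τ) :
    Integrable (fun y : V => psi (τ + ‖y‖ ^ 2)) μ :=
  (psi_normSq_cont τ).integrable_of_hasCompactSupport (psi_normSq_hcs hτ)

theorem cpsi_eq : cpsi d = ∫ y : EuclideanSpace ℝ (Fin d), psi (0 + ‖y‖ ^ 2) := by
  simp [cpsi]

theorem cpsi_pos : 0 < cpsi d := by
  rw [cpsi_eq]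
  refine Continuous.integral_pos_of_hasCompactSupport_nonneg_nonzero (x := 0)
    (psi_normSq_cont 0) (psi_normSq_hcs le_rfl) (fun y => psi_nonneg _) ?_
  simp [psi]

/-- volume of the unit ball -/
noncomputable def vb : ℝ := volume.real (closedBall (0 : EuclideanSpace ℝ (Fin d)) 1)

theorem vb_nonneg : 0 ≤ vb d := measureReal_nonneg

theorem cpsi_sub {τ : ℝ} (hτ : 0 ≤ τ) :
    cpsi d - 2 * τ * vb d ≤ ∫ y : EuclideanSpace ℝ (Fin d), psi (τ + ‖y‖ ^ 2) := by
  have h0 := psi_normSq_int (V := EuclideanSpace ℝ (Fin d)) volume (le_refl (0:ℝ))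
  have h1 := psi_normSq_int (V := EuclideanSpace ℝ (Fin d)) volume hτ
  have h2 : ∫ y : EuclideanSpace ℝ (Fin d), (psi (0 + ‖y‖ ^ 2) - psi (τ + ‖y‖ ^ 2)) ≤
      ∫ y : EuclideanSpace ℝ (Fin d),
        (closedBall (0 : EuclideanSpace ℝ (Fin d)) 1).indicator (fun _ => 2 * τ) y := by
    refine integral_mono (h0.sub h1) ?_ ?_
    · exact (integrable_indicator_iff measurableSet_closedBall).2
        (continuous_const.continuousOn.integrableOn_compact (isCompact_closedBall _ _))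
    · intro y
      by_cases hy : y ∈ closedBall (0 : EuclideanSpace ℝ (Fin d)) 1
      · simp only [indicator_of_mem hy]
        have := psi_sub_le (s := 0 + ‖y‖ ^ 2) (t := τ + ‖y‖ ^ 2) (by positivity) (by positivity)
        rw [show (0 + ‖y‖ ^ 2 - (τ + ‖y‖ ^ 2)) = -τ by ring, abs_neg, abs_of_nonneg hτ] at this
        exact this
      · simp only [indicator_of_notMem hy]
        rw [mem_closedBall_zero_iff] at hy
        push Not at hy
        rw [psi_of_one_le (by nlinarith), psi_of_one_le (by nlinarith)]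
        simp
  rw [integral_sub h0 h1, integral_indicator measurableSet_closedBall, setIntegral_const,
    ← cpsi_eq] at h2
  have h3 : volume.real (closedBall (0 : EuclideanSpace ℝ (Fin d)) 1) • (2 * τ)
      = 2 * τ * vb d := by
    rw [smul_eq_mul, vb]; ring
  rw [h3] at h2
  linarith

theorem integral_scale {τ ρ : ℝ} (hρ : 0 < ρ) :
    ∫ y : EuclideanSpace ℝ (Fin d), psi (τ + ‖y‖ ^ 2 / ρ ^ 2) =
      ρ ^ d * ∫ y : EuclideanSpace ℝ (Fin d), psi (τ + ‖y‖ ^ 2) := by
  have h := Measure.integral_comp_smul (volume : Measure (EuclideanSpace ℝ (Fin d)))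
    (fun y => psi (τ + ‖y‖ ^ 2)) ρ⁻¹
  have h1 : ∀ y : EuclideanSpace ℝ (Fin d), τ + ‖ρ⁻¹ • y‖ ^ 2 = τ + ‖y‖ ^ 2 / ρ ^ 2 := by
    intro y
    rw [norm_smul, Real.norm_eq_abs, abs_of_pos (by positivity)]
    field_simp
  simp only [h1] at h
  rw [h, finrank_euclideanSpace, Fintype.card_fin, smul_eq_mul, abs_of_pos (by positivity)]
  simp

end

section
variable {E : Type*} [NormedAddCommGroup E] [InnerProductSpace ℝ E] [FiniteDimensional ℝ E]
  [MeasurableSpace E] [BorelSpace E] {d : ℕ} {a : E} {ε η : ℝ} {h r : E → ℝ}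

theorem q_ge (H : Hyp a ε η h r) {x : E} (hx : x ∈ ball (0 : E) 2) :
    (1 - η) * (S4 ε r x / ε * |fderiv ℝ r x a|) ≤ q ε h r x := by
  have h1 := abs_fderiv_le r x a
  rw [H.ha, mul_one] at h1
  have h2 := (abs_le.1 (H.near x hx)).1
  have h3 := H.hη0
  have h4 := H.hη
  have h5 : 0 ≤ S4 ε r x / ε := div_nonneg (S4_nonneg ε r x) H.hε.le
  have h6 : 2 * ((1 - η) * |fderiv ℝ r x a|) ≤ h x + ‖∇ r x‖ ^ 2 := by
    have h7 : (1 - η) * |fderiv ℝ r x a| ≤ (1 - η) * ‖∇ r x‖ :=
      mul_le_mul_of_nonneg_left h1 (by linarith)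
    nlinarith [sq_nonneg (‖∇ r x‖ - (1 - η)), norm_nonneg (∇ r x)]
  have h8 : q ε h r x = S4 ε r x / ε * ((h x + ‖∇ r x‖ ^ 2) / 2) := by
    unfold q; have := H.hε; field_simp
  rw [h8]
  calc (1 - η) * (S4 ε r x / ε * |fderiv ℝ r x a|)
      = S4 ε r x / ε * ((1 - η) * |fderiv ℝ r x a|) := by ring
    _ ≤ _ := mul_le_mul_of_nonneg_left (by linarith) h5

/-- fundamental theorem along a vertical line -/
theorem int_abs_ge (hr : ContDiff ℝ 1 r) (hε : 0 < ε) (a p : E) {T : ℝ} (hT : 0 ≤ T) :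
    |P4 (r (p + T • a) / ε) - P4 (r (p + (-T) • a) / ε)| ≤
      ∫ t in (-T)..T, S4 ε r (p + t • a) / ε * |fderiv ℝ r (p + t • a) a| := by
  have hl : ∀ t : ℝ, HasDerivAt (fun t : ℝ => p + t • a) a t := by
    intro t
    simpa using ((hasDerivAt_id t).smul_const a).const_add p
  have hcl : Continuous fun t : ℝ => p + t • a := by fun_prop
  have hd : ∀ t : ℝ, HasDerivAt (fun t : ℝ => P4 (r (p + t • a) / ε))
      (S4 ε r (p + t • a) / ε * fderiv ℝ r (p + t • a) a) t := by
    intro t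
    have h1 : HasDerivAt (fun t : ℝ => r (p + t • a)) (fderiv ℝ r (p + t • a) a) t :=
      ((hr.differentiable one_ne_zero (p + t • a)).hasFDerivAt).comp_hasDerivAt t (hl t)
    have h2 := (hasDerivAt_P4 (r (p + t • a) / ε)).comp t (h1.div_const ε)
    refine h2.congr_deriv ?_
    unfold S4
    ring
  have hc : Continuous fun t : ℝ => S4 ε r (p + t • a) / ε * fderiv ℝ r (p + t • a) a :=
    (((continuous_S4 hr.continuous).comp hcl).div_const ε).mul
      ((continuous_fderiv_apply' hr a).comp hcl)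
  rw [← intervalIntegral.integral_eq_sub_of_hasDerivAt (fun t _ => hd t)
    (hc.intervalIntegrable _ _)]
  refine (intervalIntegral.abs_integral_le_integral_abs (by linarith)).trans (le_of_eq ?_)
  refine intervalIntegral.integral_congr (fun t _ => ?_)
  simp only [abs_mul]
  rw [abs_of_nonneg (div_nonneg (S4_nonneg ε r _) hε.le)]

/-- the energy of a vertical segment crossing the interface -/
theorem vert_lower (H : Hyp a ε η h r) {p : E} {S X R0 s : ℝ} (hS : 1 ≤ S) (hX : 0 < X)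
    (hR : |R0| ≤ S) (hs : s = 1 ∨ s = -1)
    (hin : ∀ t ∈ Icc (-((S + 1 + X) * ε)) ((S + 1 + X) * ε), p + t • a ∈ ball (0 : E) 2)
    (hp : |r (p + ((S + 1 + X) * ε) • a) / ε - R0 - s * (S + 1 + X)| ≤ 1)
    (hm : |r (p + (-((S + 1 + X) * ε)) • a) / ε - R0 + s * (S + 1 + X)| ≤ 1) :
    (1 - η) * (4 / 3 - 2 / X) ≤
      ∫ t in (-((S + 1 + X) * ε))..((S + 1 + X) * ε), q ε h r (p + t • a) := by
  have hε := H.hε
  have hη := H.hη
  have hη0 := H.hη0
  have hTε : 0 ≤ (S + 1 + X) * ε := by positivity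
  have h1 := int_abs_ge H.cr hε a p hTε
  have h2 : 4 / 3 - 2 / X ≤ |P4 (r (p + ((S + 1 + X) * ε) • a) / ε) -
      P4 (r (p + (-((S + 1 + X) * ε)) • a) / ε)| := by
    have hR' := abs_le.1 hR
    have hp' := abs_le.1 hp
    have hm' := abs_le.1 hm
    have h3 := P4_ge hX
    have e2 : 2 / X = 1 / X + 1 / X := by ring
    rcases hs with h' | h'
    · subst h'
      have a1 : X ≤ r (p + ((S + 1 + X) * ε) • a) / ε := by linarith
      have a2 : r (p + (-((S + 1 + X) * ε)) • a) / ε ≤ -X := by linarith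
      have b1 := P4_mono a1
      have b2 := P4_mono a2
      rw [P4_neg] at b2
      refine le_trans ?_ (le_abs_self _)
      linarith
    · subst h'
      have a1 : r (p + ((S + 1 + X) * ε) • a) / ε ≤ -X := by linarith
      have a2 : X ≤ r (p + (-((S + 1 + X) * ε)) • a) / ε := by linarith
      have b1 := P4_mono a1
      have b2 := P4_mono a2
      rw [P4_neg] at b1
      refine le_trans ?_ (neg_le_abs _)
      linarith
  have hcl : Continuous fun t : ℝ => p + t • a := by fun_prop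
  have hcq : Continuous fun t : ℝ => q ε h r (p + t • a) := H.contq.comp hcl
  have hc : Continuous fun t : ℝ => S4 ε r (p + t • a) / ε * |fderiv ℝ r (p + t • a) a| :=
    (((continuous_S4 H.cr.continuous).comp hcl).div_const ε).mul
      ((continuous_fderiv_apply' H.cr a).comp hcl).abs
  calc (1 - η) * (4 / 3 - 2 / X)
      ≤ (1 - η) * ∫ t in (-((S + 1 + X) * ε))..((S + 1 + X) * ε),
          S4 ε r (p + t • a) / ε * |fderiv ℝ r (p + t • a) a| :=
        mul_le_mul_of_nonneg_left (h2.trans h1) (by linarith)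
    _ = ∫ t in (-((S + 1 + X) * ε))..((S + 1 + X) * ε),
          (1 - η) * (S4 ε r (p + t • a) / ε * |fderiv ℝ r (p + t • a) a|) := by
        rw [intervalIntegral.integral_const_mul]
    _ ≤ _ := by
        refine intervalIntegral.integral_mono_on (by linarith)
          ((continuous_const.mul hc).intervalIntegrable _ _) (hcq.intervalIntegrable _ _) ?_
        intro t ht
        exact q_ge H (hin t ht)

theorem norm_sq_slice {a : E} (ha : ‖a‖ = 1) (ι : EuclideanSpace ℝ (Fin d) →ₗᵢ[ℝ] E)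
    (hι : ∀ y, ⟪a, ι y⟫_ℝ = 0) (t : ℝ) (y : EuclideanSpace ℝ (Fin d)) :
    ‖t • a + ι y‖ ^ 2 = t ^ 2 + ‖y‖ ^ 2 := by
  rw [norm_add_sq_real, inner_smul_left, hι, norm_smul, ha, ι.norm_map, Real.norm_eq_abs,
    mul_one, sq_abs]
  simp

theorem J_ge (H : Hyp a ε η h r) (ι : EuclideanSpace ℝ (Fin d) →ₗᵢ[ℝ] E)
    (hι : ∀ y, ⟪a, ι y⟫_ℝ = 0)
    (hmp : MeasurePreserving (fun p : ℝ × EuclideanSpace ℝ (Fin d) => p.1 • a + ι p.2)
      (volume.prod volume) volume)
    {x0 : E} {ρ b c : ℝ} (hρ : 0 < ρ) (hb : 0 ≤ b) (hbρ : b ≤ ρ)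
    (hball : closedBall x0 (2 * ρ) ⊆ ball (0 : E) 2)
    (hc : ∀ y : EuclideanSpace ℝ (Fin d), ‖y‖ ≤ ρ →
      c ≤ ∫ t in (-b)..b, q ε h r (x0 + ι y + t • a)) :
    c * (ρ ^ d * ∫ y : EuclideanSpace ℝ (Fin d), psi (b ^ 2 / ρ ^ 2 + ‖y‖ ^ 2)) ≤
      J ε h r x0 ρ := by
  classical
  set F : E → ℝ := fun x => q ε h r x * psi (‖x - x0‖ ^ 2 / ρ ^ 2) with hF
  have hρ2 : 0 < ρ ^ 2 := by positivity
  have hF0 : ∀ x, ρ ≤ ‖x - x0‖ → F x = 0 := by
    intro x hx
    have : 1 ≤ ‖x - x0‖ ^ 2 / ρ ^ 2 := by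
      rw [le_div_iff₀ hρ2, one_mul]
      exact pow_le_pow_left₀ hρ.le hx 2
    simp only [hF, psi_of_one_le this, mul_zero]
  have hnn : ∀ x, 0 ≤ F x := by
    intro x
    rcases le_or_gt ρ ‖x - x0‖ with hx | hx
    · rw [hF0 x hx]
    · apply mul_nonneg (H.q_nonneg (hball _)) (psi_nonneg _)
      rw [mem_closedBall, dist_eq_norm]; linarith
  have hFc : Continuous F :=
    H.contq.mul (continuous_psi.comp (by fun_prop))
  have hFs : HasCompactSupport F := by
    refine HasCompactSupport.of_support_subset_isCompact (isCompact_closedBall x0 ρ) ?_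
    intro x hx
    rw [mem_closedBall, dist_eq_norm]
    by_contra hcon
    push Not at hcon
    exact hx (hF0 x hcon.le)
  have hJ : J ε h r x0 ρ = ∫ x, F x := by
    unfold J
    apply setIntegral_eq_integral_of_forall_compl_eq_zero
    intro x hx
    apply hF0
    by_contra hcon
    push Not at hcon
    apply hx
    apply hball
    rw [mem_closedBall, dist_eq_norm]; linarith
  set G : E → ℝ := fun x => F (x0 + x) with hG
  have hGc : Continuous G := hFc.comp (by fun_prop)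
  have hGi : Integrable G := (hFc.integrable_of_hasCompactSupport hFs).comp_add_left x0
  have hJ2 : J ε h r x0 ρ = ∫ x, G x := by
    rw [hJ]; exact (integral_add_left_eq_self F x0).symm
  have hPi : Integrable (fun p : ℝ × EuclideanSpace ℝ (Fin d) => G (p.1 • a + ι p.2))
      (volume.prod volume) := (hmp.integrable_comp hGc.aestronglyMeasurable).2 hGi
  have hJ3 : J ε h r x0 ρ = ∫ y : EuclideanSpace ℝ (Fin d), ∫ t : ℝ, G (t • a + ι y) := by
    rw [hJ2, ← integral_prod_symm _ hPi]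
    conv_lhs => rw [← hmp.map_eq]
    rw [integral_map hmp.measurable.aemeasurable hGc.aestronglyMeasurable]
  have hin : ∀ t : ℝ, |t| ≤ ρ → ∀ y : EuclideanSpace ℝ (Fin d), ‖y‖ ≤ ρ →
      x0 + (t • a + ι y) ∈ ball (0 : E) 2 := by
    intro t ht y hy
    apply hball
    rw [mem_closedBall, dist_eq_norm, add_sub_cancel_left]
    refine (norm_add_le _ _).trans ?_
    rw [norm_smul, H.ha, ι.norm_map, Real.norm_eq_abs]
    linarith
  have hkey : ∀ y : EuclideanSpace ℝ (Fin d),
      c * psi (b ^ 2 / ρ ^ 2 + ‖y‖ ^ 2 / ρ ^ 2) ≤ ∫ t : ℝ, G (t • a + ι y) := by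
    intro y
    rcases le_or_gt ρ ‖y‖ with hy | hy
    · have : 1 ≤ b ^ 2 / ρ ^ 2 + ‖y‖ ^ 2 / ρ ^ 2 := by
        have h1 : 1 ≤ ‖y‖ ^ 2 / ρ ^ 2 := by
          rw [le_div_iff₀ hρ2, one_mul]
          exact pow_le_pow_left₀ hρ.le hy 2
        have h2 : 0 ≤ b ^ 2 / ρ ^ 2 := by positivity
        linarith
      rw [psi_of_one_le this, mul_zero]
      exact integral_nonneg (fun t => hnn _)
    · have hgc : Continuous fun t : ℝ => G (t • a + ι y) := hGc.comp (by fun_prop)
      have hgs : HasCompactSupport fun t : ℝ => G (t • a + ι y) := by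
        refine HasCompactSupport.of_support_subset_isCompact (isCompact_closedBall (0:ℝ) ρ) ?_
        intro t ht
        rw [mem_closedBall_zero_iff, Real.norm_eq_abs]
        by_contra hcon
        push Not at hcon
        apply ht
        apply hF0
        rw [add_sub_cancel_left]
        apply le_of_sq_le_sq _ (norm_nonneg _)
        rw [norm_sq_slice H.ha ι hι]
        have : ρ ^ 2 ≤ |t| ^ 2 := pow_le_pow_left₀ hρ.le hcon.le 2
        rw [sq_abs] at this
        nlinarith [sq_nonneg ‖y‖]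
      have hgi : Integrable fun t : ℝ => G (t • a + ι y) :=
        hgc.integrable_of_hasCompactSupport hgs
      have hqc : Continuous fun t : ℝ => q ε h r (x0 + ι y + t • a) :=
        H.contq.comp (by fun_prop)
      have hp0 : 0 ≤ psi (b ^ 2 / ρ ^ 2 + ‖y‖ ^ 2 / ρ ^ 2) := psi_nonneg _
      calc c * psi (b ^ 2 / ρ ^ 2 + ‖y‖ ^ 2 / ρ ^ 2)
          ≤ (∫ t in (-b)..b, q ε h r (x0 + ι y + t • a)) *
              psi (b ^ 2 / ρ ^ 2 + ‖y‖ ^ 2 / ρ ^ 2) :=
            mul_le_mul_of_nonneg_right (hc y hy.le) hp0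
        _ = ∫ t in Icc (-b) b, q ε h r (x0 + ι y + t • a) *
              psi (b ^ 2 / ρ ^ 2 + ‖y‖ ^ 2 / ρ ^ 2) := by
            rw [integral_Icc_eq_integral_Ioc, ← intervalIntegral.integral_of_le (by linarith),
              intervalIntegral.integral_mul_const]
        _ ≤ ∫ t in Icc (-b) b, G (t • a + ι y) := by
            refine setIntegral_mono_on
              ((hqc.mul continuous_const).continuousOn.integrableOn_compact isCompact_Icc)
              (hgc.continuousOn.integrableOn_compact isCompact_Icc) measurableSet_Icc ?_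
            intro t ht
            have htabs : |t| ≤ b := abs_le.2 ⟨ht.1, ht.2⟩
            have e1 : x0 + ι y + t • a = x0 + (t • a + ι y) := by abel
            simp only [hG, hF]
            rw [e1, add_sub_cancel_left, norm_sq_slice H.ha ι hι]
            apply mul_le_mul_of_nonneg_left _ (H.q_nonneg (hin t (htabs.trans hbρ) y hy.le))
            apply psi_antitone
            rw [add_div]
            have : t ^ 2 ≤ b ^ 2 := by
              rw [← sq_abs t]; exact pow_le_pow_left₀ (abs_nonneg _) htabs 2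
            have := div_le_div_of_nonneg_right this hρ2.le
            linarith
        _ ≤ ∫ t : ℝ, G (t • a + ι y) :=
            setIntegral_le_integral hgi (Filter.Eventually.of_forall fun t => hnn _)
  have hpi : Integrable (fun y : EuclideanSpace ℝ (Fin d) =>
      psi (b ^ 2 / ρ ^ 2 + ‖y‖ ^ 2 / ρ ^ 2)) := by
    have h1 := (psi_normSq_int (V := EuclideanSpace ℝ (Fin d)) volume
      (τ := b ^ 2 / ρ ^ 2) (by positivity)).comp_smul (R := ρ⁻¹) (by positivity)
    have h2 : ∀ y : EuclideanSpace ℝ (Fin d),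
        b ^ 2 / ρ ^ 2 + ‖ρ⁻¹ • y‖ ^ 2 = b ^ 2 / ρ ^ 2 + ‖y‖ ^ 2 / ρ ^ 2 := by
      intro y
      rw [norm_smul, Real.norm_eq_abs, abs_of_pos (by positivity)]
      field_simp
    simpa only [h2] using h1
  rw [hJ3, ← integral_scale d hρ, ← integral_const_mul]
  exact integral_mono (hpi.const_mul c) hPi.integral_prod_right hkey

theorem stLow (hAff : StAff E d) : StLow E d := by
  intro hd S ω hS hω
  obtain ⟨w, hw0, hw1, hw2⟩ : ∃ w : ℝ, 0 < w ∧ w ≤ ω ∧ w ≤ 1 / 2 :=
    ⟨min ω (1 / 2), by positivity, min_le_left _ _, min_le_right _ _⟩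
  have hcp := cpsi_pos d
  have hvb := vb_nonneg d
  obtain ⟨X, hX⟩ : ∃ X : ℝ, X = 6 / w := ⟨_, rfl⟩
  have hX0 : 0 < X := by rw [hX]; positivity
  obtain ⟨T, hT⟩ : ∃ T : ℝ, T = S + 1 + X := ⟨_, rfl⟩
  have hT0 : 2 ≤ T := by linarith
  obtain ⟨L2, hL2⟩ : ∃ L2 : ℝ, L2 = 4 + T + 2 * vb d * T ^ 2 / (w / 4 * cpsi d) := ⟨_, rfl⟩
  have hfr : 0 ≤ 2 * vb d * T ^ 2 / (w / 4 * cpsi d) := by positivity
  have hL2T : 4 + T ≤ L2 := by linarith
  have hτ : 2 * (T ^ 2 / L2 ^ 2) * vb d ≤ w / 4 * cpsi d := by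
    have h1 : 2 * vb d * T ^ 2 / (w / 4 * cpsi d) ≤ L2 := by linarith
    rw [div_le_iff₀ (by positivity)] at h1
    have h2 : 0 < L2 := by linarith
    have h3 : 2 * (T ^ 2 / L2 ^ 2) * vb d = 2 * vb d * T ^ 2 / L2 ^ 2 := by ring
    rw [h3, div_le_iff₀ (by positivity)]
    have h4 : L2 ≤ L2 ^ 2 := by nlinarith
    have h5 : 0 ≤ w / 4 * cpsi d := by positivity
    nlinarith
  obtain ⟨lam0, hlam0, η0, hη0, HA⟩ := hAff hd S (4 * L2) 1 hS (by linarith) one_pos
  refine ⟨L2, by linarith, lam0, hlam0, min η0 (w / 4), lt_min hη0 (by positivity), ?_⟩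
  intro a ε η h r hη Hy x0 hgood hx0
  obtain ⟨hLε, s, hs, hz⟩ := HA a ε η h r (hη.trans (min_le_left _ _)) Hy x0 hgood hx0
  have hε := Hy.hε
  have ha := Hy.ha
  have hη2 : η ≤ w / 4 := hη.trans (min_le_right _ _)
  have hL0 : 0 < L2 := by linarith
  have hρ0 : 0 < L2 * ε := by positivity
  refine ⟨by nlinarith, ?_⟩
  obtain ⟨ι, hι, hmp⟩ := MSSlice598.stSlice hd a ha
  have hTL : T * ε ≤ L2 * ε := mul_le_mul_of_nonneg_right (by linarith) hε.le
  have hball : closedBall x0 (2 * (L2 * ε)) ⊆ ball (0 : E) 2 := by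
    intro x hx
    rw [mem_closedBall, dist_eq_norm] at hx
    rw [mem_ball_zero_iff]
    have h3 := mem_ball_zero_iff.1 hgood.1
    have h4 : ‖x‖ ≤ ‖x - x0‖ + ‖x0‖ := by
      simpa using norm_add_le (x - x0) x0
    linarith
  have hin : ∀ t : ℝ, |t| ≤ L2 * ε → ∀ y : EuclideanSpace ℝ (Fin d), ‖y‖ ≤ L2 * ε →
      x0 + ι y + t • a ∈ ball (0 : E) 2 := by
    intro t ht y hy
    apply hball
    rw [mem_closedBall, dist_eq_norm, add_assoc, add_sub_cancel_left]
    refine (norm_add_le _ _).trans ?_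
    rw [norm_smul, ha, ι.norm_map, Real.norm_eq_abs]
    linarith
  have hcl : ∀ t : ℝ, |t| ≤ T → ∀ y : EuclideanSpace ℝ (Fin d), ‖y‖ ≤ L2 * ε →
      |r (x0 + ι y + (t * ε) • a) / ε - r x0 / ε - s * t| ≤ 1 := by
    intro t ht y hy
    have hzin : t • a + ι (ε⁻¹ • y) ∈ ball (0 : E) (4 * L2 / 2) := by
      rw [mem_ball_zero_iff]
      refine (norm_add_le _ _).trans_lt ?_
      rw [norm_smul, ha, ι.norm_map, norm_smul, Real.norm_eq_abs, norm_inv, Real.norm_eq_abs,
        abs_of_pos hε]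
      have : ε⁻¹ * ‖y‖ ≤ L2 := by
        rw [inv_mul_le_iff₀ hε]; linarith
      linarith
    have h1 := hz _ hzin
    have h2 : x0 + ε • (t • a + ι (ε⁻¹ • y)) = x0 + ι y + (t * ε) • a := by
      rw [smul_add, smul_smul, ι.map_smul, smul_smul, mul_inv_cancel₀ hε.ne', one_smul,
        mul_comm ε t]
      abel
    rw [h2, inner_add_right, inner_smul_right, real_inner_self_eq_norm_sq, ha, hι] at h1
    simpa using h1
  have hvert : ∀ y : EuclideanSpace ℝ (Fin d), ‖y‖ ≤ L2 * ε →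
      (1 - η) * (4 / 3 - 2 / X) ≤ ∫ t in (-(T * ε))..(T * ε), q ε h r (x0 + ι y + t • a) := by
    intro y hy
    rw [hT]
    refine vert_lower Hy hS hX0 hx0 hs ?_ ?_ ?_
    · intro t ht
      rw [← hT] at ht
      exact hin t (abs_le.2 ⟨by linarith [ht.1], by linarith [ht.2]⟩) y hy
    · have := hcl T (abs_of_nonneg (by linarith)).le y hy
      rwa [hT] at this
    · have := hcl (-T) (by rw [abs_neg]; exact (abs_of_nonneg (by linarith)).le) y hy
      rw [hT] at this
      rw [neg_mul] at this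
      rw [show s * -(S + 1 + X) = -(s * (S + 1 + X)) by ring, sub_neg_eq_add] at this
      exact this
  have hJ := J_ge Hy ι hι hmp hρ0 (by positivity) hTL hball hvert
  refine le_trans ?_ hJ
  have e1 : (T * ε) ^ 2 / (L2 * ε) ^ 2 = T ^ 2 / L2 ^ 2 := by
    field_simp
  rw [e1]
  have h5 := cpsi_sub d (τ := T ^ 2 / L2 ^ 2) (by positivity)
  have h6 : (1 - w / 4) * cpsi d ≤
      ∫ y : EuclideanSpace ℝ (Fin d), psi (T ^ 2 / L2 ^ 2 + ‖y‖ ^ 2) := by linarith
  have e2 : 4 / 3 - 2 / X = 4 / 3 * (1 - w / 4) := by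
    rw [hX]; field_simp; ring
  rw [e2]
  have hpow : 0 ≤ (L2 * ε) ^ d := by positivity
  have h7 : (1 - w / 4) * (4 / 3 * (1 - w / 4)) ≤ (1 - η) * (4 / 3 * (1 - w / 4)) :=
    mul_le_mul_of_nonneg_right (by linarith) (by nlinarith)
  have h8 : 1 - ω ≤ (1 - w / 4) ^ 3 := by
    nlinarith [sq_nonneg (w / 4), mul_nonneg (sq_nonneg (w / 4)) (by linarith : 0 ≤ 3 - w / 4)]
  calc (1 - ω) * (4 / 3 * cpsi d) * (L2 * ε) ^ d
      ≤ (1 - w / 4) ^ 3 * (4 / 3 * cpsi d) * (L2 * ε) ^ d := by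
        apply mul_le_mul_of_nonneg_right _ hpow
        exact mul_le_mul_of_nonneg_right h8 (by positivity)
    _ = (1 - w / 4) * (4 / 3 * (1 - w / 4)) * ((L2 * ε) ^ d * ((1 - w / 4) * cpsi d)) := by ring
    _ ≤ (1 - η) * (4 / 3 * (1 - w / 4)) * ((L2 * ε) ^ d * ((1 - w / 4) * cpsi d)) :=
        mul_le_mul_of_nonneg_right h7 (mul_nonneg hpow (mul_nonneg (by linarith) hcp.le))
    _ ≤ _ := by
        apply mul_le_mul_of_nonneg_left (mul_le_mul_of_nonneg_left h6 hpow)
        have := Hy.hη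
        exact mul_nonneg (by linarith) (mul_nonneg (by norm_num) (by linarith))

end

end Crest.Agent.R246.MSLow598
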