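import Crest.Agent.R246.MSBasic_852

/-!
# R246-F (helper125): Lemma MS, leaves `StTail` and `StDefect`

The tail bound comes from the test function `z(x) sinh(s)/cosh⁴(s)`, `s = r/ε`, in `weak`, which gives the
exact identity `∫ z (1/ε)(2h+|∇r|²)/cosh³ s = ∫ (sinh s/cosh⁴ s) ⟨∇z,∇r⟩ + ∫ z 4q/cosh s`, hence
`∫ z cosh(s) q ≤ 2 ∫ z q + (1/2) ∫ |⟨∇z,∇r⟩|`.
-/

set_option autoImplicit false
set_option linter.unusedSectionVars false

namespace Crest.Agent.R246.MS125

open MeasureTheory Metric Set InnerProductSpace Filter Topology Crest.Agent.R246.MS852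
open scoped RealInnerProductSpace Gradient

/-! ### the test profile `sinh / cosh⁴` -/

/-- the test function `sech⁴ t · sinh t`, in the form `sinh / cosh⁴` -/
noncomputable def AA (t : ℝ) : ℝ := Real.sinh t / Real.cosh t ^ 4

/-- its derivative -/
noncomputable def dAA (t : ℝ) : ℝ := 1 / Real.cosh t ^ 3 - 4 * Real.sinh t ^ 2 / Real.cosh t ^ 5

theorem hasDerivAt_AA (t : ℝ) : HasDerivAt AA (dAA t) t := by
  have hc := (Real.cosh_pos t).ne'
  have h := (Real.hasDerivAt_sinh t).fun_div ((Real.hasDerivAt_cosh t).fun_pow 4) (pow_ne_zero 4 hc)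
  refine h.congr_deriv ?_
  unfold dAA
  field_simp
  ring

theorem continuous_dAA : Continuous dAA := by
  unfold dAA
  refine Continuous.sub ?_ ?_
  · exact continuous_const.div (Real.continuous_cosh.pow 3) fun t => pow_ne_zero 3 (Real.cosh_pos _).ne'
  · exact (continuous_const.mul (Real.continuous_sinh.pow 2)).div (Real.continuous_cosh.pow 5)
      fun t => pow_ne_zero 5 (Real.cosh_pos _).ne'

theorem contDiff_AA : ContDiff ℝ 1 AA := by
  rw [contDiff_one_iff_deriv]
  refine ⟨fun t => (hasDerivAt_AA t).differentiableAt, ?_⟩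
  have : deriv AA = dAA := funext fun t => (hasDerivAt_AA t).deriv
  rw [this]; exact continuous_dAA

theorem abs_AA_le (t : ℝ) : |AA t| ≤ 1 := by
  have hc := Real.cosh_pos t
  have h1 : 1 ≤ Real.cosh t := Real.one_le_cosh t
  unfold AA
  rw [abs_div, abs_of_pos (pow_pos hc 4), div_le_one (pow_pos hc 4)]
  have h2 : |Real.sinh t| ≤ Real.cosh t := by
    rw [abs_le]; constructor
    · have := Real.cosh_add_sinh t; have := Real.exp_pos t; linarith
    · have := Real.cosh_sub_sinh t; have := Real.exp_pos (-t); linarith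
  calc |Real.sinh t| ≤ Real.cosh t ^ 1 := by simpa using h2
    _ ≤ Real.cosh t ^ 4 := pow_le_pow_right₀ h1 (by norm_num)

theorem abs_le_cosh (t : ℝ) : |t| ≤ Real.cosh t := by
  have h1 := Real.quadratic_le_exp_of_nonneg (abs_nonneg t)
  have h2 : Real.cosh t = (Real.exp |t| + Real.exp (-|t|)) / 2 := by
    rw [← Real.cosh_abs, Real.cosh_eq]
  rw [h2]
  have h3 := Real.exp_pos (-|t|)
  nlinarith [sq_nonneg (|t| - 1)]

/-! ### the cut-off `psi(|x|²/R²)` -/

section
variable {E : Type*} [NormedAddCommGroup E] [InnerProductSpace ℝ E]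

/-- cut-off `psi(|x|²/R²)` -/
noncomputable def zz (R : ℝ) (x : E) : ℝ := psi (‖x‖ ^ 2 / R ^ 2)

theorem zz_nonneg (R : ℝ) (x : E) : 0 ≤ zz R x := psi_nonneg _

theorem zz_le_one (R : ℝ) (x : E) : zz R x ≤ 1 := psi_le_one (by positivity)

theorem zz_zero {R : ℝ} (hR : 0 < R) {x : E} (hx : x ∉ ball (0 : E) R) : zz R x = 0 := by
  unfold zz
  apply psi_of_one_le
  rw [mem_ball_zero_iff, not_lt] at hx
  rw [one_le_div (by positivity)]
  exact pow_le_pow_left₀ hR.le hx 2

theorem zz_ge {R ρ : ℝ} (hR : 0 < R) (hρR : ρ ≤ R) {x : E} (hx : x ∈ ball (0 : E) ρ) :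
    (1 - ρ ^ 2 / R ^ 2) ^ 2 ≤ zz R x := by
  rw [mem_ball_zero_iff] at hx
  have h0 : 0 ≤ ρ := (norm_nonneg x).trans hx.le
  have h1 : ‖x‖ ^ 2 / R ^ 2 ≤ ρ ^ 2 / R ^ 2 := by
    apply div_le_div_of_nonneg_right _ (by positivity)
    exact pow_le_pow_left₀ (norm_nonneg x) hx.le 2
  have h2 : ρ ^ 2 / R ^ 2 ≤ 1 := by
    rw [div_le_one (by positivity)]; exact pow_le_pow_left₀ h0 hρR 2
  unfold zz
  rw [psi_of_le_one (h1.trans h2)]
  apply pow_le_pow_left₀ <;> linarith

theorem contDiff_zz (R : ℝ) : ContDiff ℝ 1 (zz R : E → ℝ) := by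
  unfold zz
  exact contDiff_psi.comp ((contDiff_norm_sq ℝ).div_const _)

theorem fderiv_zz (R : ℝ) (x v : E) :
    fderiv ℝ (zz R) x v = dpsi (‖x‖ ^ 2 / R ^ 2) * (2 * ⟪x, v⟫_ℝ / R ^ 2) := by
  have h1 : HasFDerivAt (fun x : E => ‖x‖ ^ 2) (2 • (innerSL ℝ x)) x :=
    (hasStrictFDerivAt_norm_sq x).hasFDerivAt
  have h2 : HasFDerivAt (fun x : E => ‖x‖ ^ 2 / R ^ 2) ((R ^ 2)⁻¹ • (2 • (innerSL ℝ x))) x := by
    have := h1.const_mul ((R ^ 2)⁻¹)
    refine this.congr_of_eventuallyEq (Eventually.of_forall fun y => ?_)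
    simp only [div_eq_inv_mul]
  have h3 := (hasDerivAt_psi (‖x‖ ^ 2 / R ^ 2)).comp_hasFDerivAt x h2
  have h4 : fderiv ℝ (zz R) x = _ := h3.fderiv
  rw [h4]
  simp only [smul_apply, innerSL_apply_apply, smul_eq_mul, nsmul_eq_mul]
  push_cast
  ring

theorem fderiv_zz_zero {R : ℝ} (hR : 0 < R) {x : E} (hx : x ∉ ball (0 : E) R) (v : E) :
    fderiv ℝ (zz R) x v = 0 := by
  rw [fderiv_zz, dpsi_of_one_le, zero_mul]
  rw [mem_ball_zero_iff, not_lt] at hx
  rw [one_le_div (by positivity)]
  exact pow_le_pow_left₀ hR.le hx 2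

theorem abs_fderiv_zz_le {R : ℝ} (hR : 0 < R) (x v : E) :
    |fderiv ℝ (zz R) x v| ≤ 4 / R * ‖v‖ := by
  by_cases hx : x ∈ ball (0 : E) R
  · rw [mem_ball_zero_iff] at hx
    rw [fderiv_zz, abs_mul, abs_div, abs_of_pos (by positivity : (0:ℝ) < R ^ 2), abs_mul, abs_two]
    have h1 : |dpsi (‖x‖ ^ 2 / R ^ 2)| ≤ 2 := by
      rw [abs_le]
      exact ⟨neg_two_le_dpsi (by positivity), (dpsi_nonpos _).trans (by norm_num)⟩
    have h2 : |⟪x, v⟫_ℝ| ≤ R * ‖v‖ :=
      (abs_real_inner_le_norm x v).trans (mul_le_mul_of_nonneg_right hx.le (norm_nonneg v))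
    calc |dpsi (‖x‖ ^ 2 / R ^ 2)| * (2 * |⟪x, v⟫_ℝ| / R ^ 2) ≤ 2 * (2 * (R * ‖v‖) / R ^ 2) := by
          apply mul_le_mul h1 _ (by positivity) (by norm_num)
          gcongr
      _ = 4 / R * ‖v‖ := by field_simp; ring
  · rw [fderiv_zz_zero hR hx, abs_zero]; positivity

theorem tsupport_zz {R : ℝ} (hR : 0 < R) : tsupport (zz R : E → ℝ) ⊆ closedBall 0 R := by
  apply closure_minimal _ isClosed_closedBall
  intro x hx
  by_contra h
  exact hx (zz_zero hR fun h' => h (ball_subset_closedBall h'))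

end

section
variable {E : Type*} [NormedAddCommGroup E] [InnerProductSpace ℝ E] [FiniteDimensional ℝ E]
  [MeasurableSpace E] [BorelSpace E] {a : E} {ε η : ℝ} {h r : E → ℝ}

theorem cs_zz {R : ℝ} (hR : 0 < R) : HasCompactSupport (zz R : E → ℝ) :=
  HasCompactSupport.of_support_subset_isCompact (isCompact_closedBall 0 R)
    ((subset_tsupport _).trans (tsupport_zz hR))

/-- integrability of a continuous function vanishing outside a ball -/
theorem integrable_of_zero_out {f : E → ℝ} (hf : Continuous f) {R : ℝ}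
    (h0 : ∀ x, x ∉ ball (0 : E) R → f x = 0) : Integrable f := by
  apply hf.integrable_of_hasCompactSupport
  apply HasCompactSupport.of_support_subset_isCompact (isCompact_closedBall (0 : E) R)
  intro x hx
  by_contra h
  exact hx (h0 x fun h' => h (ball_subset_closedBall h'))

theorem integral_eq_ball {f : E → ℝ} {R : ℝ}
    (h0 : ∀ x, x ∉ ball (0 : E) R → f x = 0) : ∫ x, f x = ∫ x in ball (0 : E) R, f x :=
  (setIntegral_eq_integral_of_forall_compl_eq_zero h0).symm

/-- weighted density `(1/ε) (2h+|∇r|²)/cosh³` -/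
noncomputable def ww (ε : ℝ) (h r : E → ℝ) (x : E) : ℝ :=
  1 / ε * (2 * h x + ‖∇ r x‖ ^ 2) / Real.cosh (r x / ε) ^ 3

theorem continuous_coshr (H : Hyp a ε η h r) : Continuous fun x => Real.cosh (r x / ε) :=
  Real.continuous_cosh.comp (H.cr.continuous.div_const ε)

theorem continuous_ww (H : Hyp a ε η h r) : Continuous (ww ε h r) := by
  unfold ww
  exact (continuous_const.mul ((continuous_const.mul H.ch.continuous).add
    ((continuous_grad H.cr).norm.pow 2))).div ((continuous_coshr H).pow 3)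
    fun x => pow_ne_zero 3 (Real.cosh_pos _).ne'

/-- `cosh(r/ε) q ≤ (1/2) w` -/
theorem cosh_mul_q_le (H : Hyp a ε η h r) {x : E} (hx : x ∈ ball (0 : E) 2) :
    Real.cosh (r x / ε) * q ε h r x ≤ 1 / 2 * ww ε h r x := by
  unfold ww q S4
  have h1 : 0 ≤ ‖∇ r x‖ ^ 2 := by positivity
  have h2 := H.h_ge hx
  have h3 := H.hε
  have h4 := Real.cosh_pos (r x / ε)
  have e1 : Real.cosh (r x / ε) * (1 / Real.cosh (r x / ε) ^ 4 / (2 * ε) * (h x + ‖∇ r x‖ ^ 2))
      = (1 / (2 * ε) / Real.cosh (r x / ε) ^ 3) * (h x + ‖∇ r x‖ ^ 2) := by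
    field_simp
  have e2 : 1 / 2 * (1 / ε * (2 * h x + ‖∇ r x‖ ^ 2) / Real.cosh (r x / ε) ^ 3)
      = (1 / (2 * ε) / Real.cosh (r x / ε) ^ 3) * (2 * h x + ‖∇ r x‖ ^ 2) := by
    field_simp
  rw [e1, e2]
  apply mul_le_mul_of_nonneg_left _ (by positivity)
  linarith

/-- THE EXACT WEIGHTED IDENTITY -/
theorem weighted_id (H : Hyp a ε η h r) {R : ℝ} (hR : 0 < R) (hR2 : R < 2) :
    ∫ x, ww ε h r x * zz R x = (∫ x, AA (r x / ε) * fderiv ℝ (zz R) x (∇ r x))
      + ∫ x, (4 * q ε h r x / Real.cosh (r x / ε)) * zz R x := by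
  have hε := H.hε
  have hcr := H.cr
  have cAr : ContDiff ℝ 1 fun x => AA (r x / ε) := contDiff_AA.comp (hcr.div_const ε)
  have cph : ContDiff ℝ 1 fun x => zz R x * AA (r x / ε) := (contDiff_zz R).mul cAr
  have hts : tsupport (fun x => zz R x * AA (r x / ε)) ⊆ ball (0 : E) 2 :=
    (tsupport_mul_subset_left.trans (tsupport_zz hR)).trans (closedBall_subset_ball hR2)
  have hw := H.weak _ cph hts
  -- derivative of the test function
  have hd : ∀ x : E, fderiv ℝ (fun x => zz R x * AA (r x / ε)) x (∇ r x)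
      = AA (r x / ε) * fderiv ℝ (zz R) x (∇ r x)
        + zz R x * (dAA (r x / ε) / ε * ‖∇ r x‖ ^ 2) := by
    intro x
    have h1 : HasFDerivAt (fun x => AA (r x / ε)) ((dAA (r x / ε) / ε) • fderiv ℝ r x) x := by
      have h2 : HasFDerivAt (fun x => r x / ε) (ε⁻¹ • fderiv ℝ r x) x := by
        have := ((hcr.differentiable one_ne_zero) x).hasFDerivAt.const_mul ε⁻¹
        refine this.congr_of_eventuallyEq (Eventually.of_forall fun y => ?_)
        simp only [div_eq_inv_mul]
      have h3 := (hasDerivAt_AA (r x / ε)).comp_hasFDerivAt x h2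
      refine h3.congr_fderiv ?_
      rw [smul_smul, ← div_eq_mul_inv]
    have h4 := ((((contDiff_zz R).differentiable one_ne_zero) x).hasFDerivAt (𝕜 := ℝ)).mul h1
    have h5 : fderiv ℝ (fun x => zz R x * AA (r x / ε)) x = _ := h4.fderiv
    rw [h5]
    simp only [add_apply, smul_apply, smul_eq_mul]
    rw [fderiv_grad_self]
    ring
  have cg := continuous_grad hcr
  have cdz : Continuous fun x => fderiv ℝ (zz R) x (∇ r x) :=
    ((contDiff_zz R).continuous_fderiv one_ne_zero).clm_apply cg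
  have cc := continuous_coshr H
  have cz : Continuous (zz R : E → ℝ) := (contDiff_zz R).continuous
  have i1 : Integrable fun x => fderiv ℝ (fun x => zz R x * AA (r x / ε)) x (∇ r x) := by
    apply integrable_of_zero_out (R := R)
    · exact (cph.continuous_fderiv one_ne_zero).clm_apply cg
    · intro x hx
      rw [hd, fderiv_zz_zero hR hx, zz_zero hR hx]; ring
  have i2 : Integrable fun x => 2 / ε * Real.tanh (r x / ε) * (h x - ‖∇ r x‖ ^ 2)
      * (zz R x * AA (r x / ε)) := by
    apply integrable_of_zero_out (R := R)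
    · have ct : Continuous fun x => Real.tanh (r x / ε) := by
        have : (fun x => Real.tanh (r x / ε)) = fun x => Real.sinh (r x / ε) / Real.cosh (r x / ε) :=
          funext fun x => Real.tanh_eq_sinh_div_cosh _
        rw [this]
        exact (Real.continuous_sinh.comp (hcr.continuous.div_const ε)).div cc
          fun x => (Real.cosh_pos _).ne'
      exact ((continuous_const.mul ct).mul (H.ch.continuous.sub (cg.norm.pow 2))).mul cph.continuous
    · intro x hx
      rw [zz_zero hR hx]; ring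
  have i3 : Integrable fun x => AA (r x / ε) * fderiv ℝ (zz R) x (∇ r x) := by
    apply integrable_of_zero_out (R := R)
    · exact cAr.continuous.mul cdz
    · intro x hx
      rw [fderiv_zz_zero hR hx, mul_zero]
  have i4 : Integrable fun x => (4 * q ε h r x / Real.cosh (r x / ε)) * zz R x := by
    apply integrable_of_zero_out (R := R)
    · exact ((continuous_const.mul H.contq).div cc fun x => (Real.cosh_pos _).ne').mul cz
    · intro x hx
      rw [zz_zero hR hx, mul_zero]
  have key : ∀ x : E, ww ε h r x * zz R x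
      = (AA (r x / ε) * fderiv ℝ (zz R) x (∇ r x) + (4 * q ε h r x / Real.cosh (r x / ε)) * zz R x)
        - fderiv ℝ (fun x => zz R x * AA (r x / ε)) x (∇ r x)
        + 2 / ε * Real.tanh (r x / ε) * (h x - ‖∇ r x‖ ^ 2) * (zz R x * AA (r x / ε)) := by
    intro x
    rw [hd]
    unfold ww q S4 dAA AA
    rw [Real.tanh_eq_sinh_div_cosh]
    have hc := (Real.cosh_pos (r x / ε)).ne'
    have hs : Real.sinh (r x / ε) ^ 2 = Real.cosh (r x / ε) ^ 2 - 1 := by
      linarith [Real.cosh_sq (r x / ε)]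
    set c := Real.cosh (r x / ε)
    set s := Real.sinh (r x / ε)
    set g := ‖∇ r x‖ ^ 2
    field_simp
    ring_nf
    rw [hs]
    ring
  have e := integral_congr_ae (μ := (volume : Measure E)) (Eventually.of_forall key)
  have i5 : Integrable fun x => AA (r x / ε) * fderiv ℝ (zz R) x (∇ r x)
      + (4 * q ε h r x / Real.cosh (r x / ε)) * zz R x := i3.add i4
  have i6 : Integrable fun x => (AA (r x / ε) * fderiv ℝ (zz R) x (∇ r x)
      + (4 * q ε h r x / Real.cosh (r x / ε)) * zz R x)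
        - fderiv ℝ (fun x => zz R x * AA (r x / ε)) x (∇ r x) := i5.sub i1
  rw [e, integral_add i6 i2, integral_sub i5 i1, integral_add i3 i4, hw]
  ring

/-- WEIGHTED BOUND -/
theorem weighted_bound (H : Hyp a ε η h r) {R : ℝ} (hR : 0 < R) (hR2 : R < 2) :
    ∫ x, (Real.cosh (r x / ε) * q ε h r x) * zz R x
      ≤ 2 * En ε h r (ball 0 R) + 4 / R * (volume : Measure E).real (ball 0 R) := by
  have hε := H.hε
  have hcr := H.cr
  have cg := continuous_grad hcr
  have cdz : Continuous fun x => fderiv ℝ (zz R) x (∇ r x) :=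
    ((contDiff_zz R).continuous_fderiv one_ne_zero).clm_apply cg
  have cA : Continuous fun x => AA (r x / ε) :=
    contDiff_AA.continuous.comp (hcr.continuous.div_const ε)
  have cc := continuous_coshr H
  have cz : Continuous (zz R : E → ℝ) := (contDiff_zz R).continuous
  have hid := weighted_id H hR hR2
  have hb2 : ∀ x ∈ ball (0 : E) R, x ∈ ball (0 : E) 2 := fun x hx => ball_subset_ball hR2.le hx
  have i1 : Integrable fun x => (Real.cosh (r x / ε) * q ε h r x) * zz R x := by
    apply integrable_of_zero_out (R := R)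
    · exact (cc.mul H.contq).mul cz
    · intro x hx
      rw [zz_zero hR hx, mul_zero]
  have i2 : Integrable fun x => ww ε h r x * zz R x := by
    apply integrable_of_zero_out (R := R)
    · exact (continuous_ww H).mul cz
    · intro x hx
      rw [zz_zero hR hx, mul_zero]
  have s1 : ∫ x, (Real.cosh (r x / ε) * q ε h r x) * zz R x
      ≤ ∫ x, 1 / 2 * (ww ε h r x * zz R x) := by
    refine integral_mono i1 (i2.const_mul _) fun x => ?_
    by_cases hx : x ∈ ball (0 : E) R
    · have := mul_le_mul_of_nonneg_right (cosh_mul_q_le H (hb2 x hx)) (zz_nonneg R x)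
      simpa [mul_assoc] using this
    · simp [zz_zero hR hx]
  have s2 : ∫ x, AA (r x / ε) * fderiv ℝ (zz R) x (∇ r x)
      ≤ 8 / R * (volume : Measure E).real (ball 0 R) := by
    rw [integral_eq_ball (R := R) (fun x hx => by rw [fderiv_zz_zero hR hx, mul_zero])]
    have i3 : IntegrableOn (fun x => AA (r x / ε) * fderiv ℝ (zz R) x (∇ r x)) (ball 0 R) :=
      integrableOn_ball (cA.mul cdz) 0 R
    calc ∫ x in ball (0 : E) R, AA (r x / ε) * fderiv ℝ (zz R) x (∇ r x)
        ≤ ∫ x in ball (0 : E) R, 8 / R := by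
          refine setIntegral_mono_on i3 (integrableOn_const measure_ball_lt_top.ne) measurableSet_ball
            fun x hx => ?_
          calc AA (r x / ε) * fderiv ℝ (zz R) x (∇ r x)
              ≤ |AA (r x / ε) * fderiv ℝ (zz R) x (∇ r x)| := le_abs_self _
            _ = |AA (r x / ε)| * |fderiv ℝ (zz R) x (∇ r x)| := abs_mul _ _
            _ ≤ 1 * (4 / R * ‖∇ r x‖) :=
              mul_le_mul (abs_AA_le _) (abs_fderiv_zz_le hR _ _) (abs_nonneg _) zero_le_one
            _ ≤ 1 * (4 / R * 2) := by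
              have := H.grad_le (hb2 x hx)
              gcongr
            _ = 8 / R := by ring
      _ = _ := by rw [setIntegral_const, smul_eq_mul, mul_comm]
  have s3 : ∫ x, (4 * q ε h r x / Real.cosh (r x / ε)) * zz R x ≤ 4 * En ε h r (ball 0 R) := by
    rw [integral_eq_ball (R := R) (fun x hx => by rw [zz_zero hR hx, mul_zero])]
    unfold En
    rw [← integral_const_mul]
    have c4 : Continuous fun x => (4 * q ε h r x / Real.cosh (r x / ε)) * zz R x :=
      ((continuous_const.mul H.contq).div cc fun x => (Real.cosh_pos _).ne').mul cz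
    refine setIntegral_mono_on (integrableOn_ball c4 0 R)
      (integrableOn_ball (continuous_const.mul H.contq) 0 R) measurableSet_ball fun x hx => ?_
    have hq := H.q_nonneg (hb2 x hx)
    have hc : 1 ≤ Real.cosh (r x / ε) := Real.one_le_cosh _
    have h1 : 4 * q ε h r x / Real.cosh (r x / ε) ≤ 4 * q ε h r x :=
      div_le_self (by positivity) hc
    have h2 : 0 ≤ 4 * q ε h r x / Real.cosh (r x / ε) := by positivity
    calc 4 * q ε h r x / Real.cosh (r x / ε) * zz R x
        ≤ 4 * q ε h r x / Real.cosh (r x / ε) * 1 :=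
          mul_le_mul_of_nonneg_left (zz_le_one R x) h2
      _ ≤ _ := by rw [mul_one]; exact h1
  rw [integral_const_mul] at s1
  have : 8 / R * (volume : Measure E).real (ball 0 R)
      = 2 * (4 / R * (volume : Measure E).real (ball 0 R)) := by ring
  linarith

/-- weighted energy bound on the smaller ball `ball 0 (17/20)` -/
theorem weighted_ball (H : Hyp a ε η h r) {M : ℝ} (hM : En ε h r (ball 0 (9 / 10)) ≤ M) :
    ∫ x in ball (0 : E) (17 / 20), Real.cosh (r x / ε) * q ε h r x
      ≤ 100 * (2 * M + 5 * (volume : Measure E).real (ball 0 (9 / 10))) := by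
  have hb := weighted_bound H (R := 9 / 10) (by norm_num) (by norm_num)
  have cc := continuous_coshr H
  have c1 : Continuous fun x => Real.cosh (r x / ε) * q ε h r x := cc.mul H.contq
  have c2 : Continuous fun x => (Real.cosh (r x / ε) * q ε h r x) * zz (9 / 10) x :=
    c1.mul (contDiff_zz _).continuous
  have h0 : ∀ x, 0 ≤ (Real.cosh (r x / ε) * q ε h r x) * zz (9 / 10) x := by
    intro x
    by_cases hx : x ∈ ball (0 : E) (9 / 10)
    · have := H.q_nonneg (ball_subset_ball (by norm_num) hx)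
      have := zz_nonneg (9 / 10) x
      have := Real.cosh_pos (r x / ε)
      positivity
    · rw [zz_zero (by norm_num) hx, mul_zero]
  have i2 : Integrable fun x => (Real.cosh (r x / ε) * q ε h r x) * zz (9 / 10) x := by
    apply integrable_of_zero_out (R := 9 / 10) c2
    intro x hx
    rw [zz_zero (by norm_num) hx, mul_zero]
  have s1 : ∫ x in ball (0 : E) (17 / 20), Real.cosh (r x / ε) * q ε h r x
      ≤ ∫ x in ball (0 : E) (17 / 20), 100 * ((Real.cosh (r x / ε) * q ε h r x) * zz (9 / 10) x) := by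
    refine setIntegral_mono_on (integrableOn_ball c1 0 _)
      (integrableOn_ball (continuous_const.mul c2) 0 _) measurableSet_ball fun x hx => ?_
    have hq := H.q_nonneg (ball_subset_ball (by norm_num) hx : x ∈ ball (0 : E) 2)
    have hc := Real.cosh_pos (r x / ε)
    have hz := zz_ge (R := 9 / 10) (ρ := 17 / 20) (by norm_num) (by norm_num) hx
    have h1 : 1 ≤ 100 * zz (9 / 10) x := by
      have : (1 : ℝ) ≤ 100 * (1 - (17 / 20) ^ 2 / (9 / 10) ^ 2) ^ 2 := by norm_num
      linarith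
    have h2 : 0 ≤ Real.cosh (r x / ε) * q ε h r x := by positivity
    nlinarith
  have s2 : ∫ x in ball (0 : E) (17 / 20), 100 * ((Real.cosh (r x / ε) * q ε h r x) * zz (9 / 10) x)
      ≤ ∫ x, 100 * ((Real.cosh (r x / ε) * q ε h r x) * zz (9 / 10) x) :=
    setIntegral_le_integral (i2.const_mul _)
      (Eventually.of_forall fun x => mul_nonneg (by norm_num) (h0 x))
  rw [integral_const_mul, integral_const_mul] at s2
  rw [integral_const_mul] at s1
  have hv : 0 ≤ (volume : Measure E).real (ball 0 (9 / 10)) := measureReal_nonneg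
  have : (4 : ℝ) / (9 / 10) * (volume : Measure E).real (ball 0 (9 / 10))
      ≤ 5 * (volume : Measure E).real (ball 0 (9 / 10)) :=
    mul_le_mul_of_nonneg_right (by norm_num) hv
  linarith

theorem En_nonneg (H : Hyp a ε η h r) {R : ℝ} (hR : R ≤ 2) : 0 ≤ En ε h r (ball 0 R) := by
  unfold En
  exact setIntegral_nonneg measurableSet_ball fun x hx => H.q_nonneg (ball_subset_ball hR hx)

end

section
variable (E : Type*) [NormedAddCommGroup E] [InnerProductSpace ℝ E] [FiniteDimensional ℝ E]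
  [MeasurableSpace E] [BorelSpace E]

/-- LEAF 3: tail bound -/
theorem stTail : StTail E := by
  set V := (volume : Measure E).real (ball 0 (9 / 10)) with hV
  have hV0 : 0 ≤ V := measureReal_nonneg
  refine ⟨200 + 500 * V, by positivity, ?_⟩
  intro a ε η h r H M hM S hS
  have hM0 : 0 ≤ M := (En_nonneg H (by norm_num)).trans hM
  have hw := weighted_ball H hM
  have hε := H.hε
  have cr := H.cr.continuous
  have hm : MeasurableSet (ball (0 : E) (4 / 5) ∩ {x | S ≤ |r x / ε|}) :=
    measurableSet_ball.inter (isClosed_le continuous_const (cr.div_const ε).abs).measurableSet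
  have c1 : Continuous fun x => Real.cosh (r x / ε) * q ε h r x := (continuous_coshr H).mul H.contq
  have hsub : ball (0 : E) (4 / 5) ∩ {x | S ≤ |r x / ε|} ⊆ ball (0 : E) (17 / 20) :=
    inter_subset_left.trans (ball_subset_ball (by norm_num))
  have hSp : 0 < S := by linarith
  have s1 : En ε h r (ball 0 (4 / 5) ∩ {x | S ≤ |r x / ε|})
      ≤ ∫ x in ball (0 : E) (4 / 5) ∩ {x | S ≤ |r x / ε|},
        1 / S * (Real.cosh (r x / ε) * q ε h r x) := by
    unfold En
    refine setIntegral_mono_on (integrableOn_of_subset H.contq hsub)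
      (integrableOn_of_subset (continuous_const.mul c1) hsub) hm fun x hx => ?_
    have hq := H.q_nonneg (ball_subset_ball (by norm_num) hx.1 : x ∈ ball (0 : E) 2)
    have h1 : S ≤ Real.cosh (r x / ε) := le_trans hx.2 (abs_le_cosh _)
    have h2 : 1 ≤ 1 / S * Real.cosh (r x / ε) := by
      rw [one_div, ← div_eq_inv_mul, one_le_div hSp]; exact h1
    nlinarith
  have s2 : ∫ x in ball (0 : E) (4 / 5) ∩ {x | S ≤ |r x / ε|},
        1 / S * (Real.cosh (r x / ε) * q ε h r x)
      ≤ ∫ x in ball (0 : E) (17 / 20), 1 / S * (Real.cosh (r x / ε) * q ε h r x) := by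
    refine setIntegral_mono_of_ball (continuous_const.mul c1) hsub subset_rfl measurableSet_ball
      fun x hx => ?_
    have hq := H.q_nonneg (ball_subset_ball (by norm_num) hx : x ∈ ball (0 : E) 2)
    have := Real.cosh_pos (r x / ε)
    show 0 ≤ 1 / S * (Real.cosh (r x / ε) * q ε h r x)
    positivity
  refine (s1.trans s2).trans ?_
  rw [integral_const_mul]
  rw [one_div, ← div_eq_inv_mul]
  apply div_le_div_of_nonneg_right _ hSp.le
  refine hw.trans ?_
  nlinarith

/-- LEAF 2: defect bound -/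
theorem stDefect : StDefect E := by
  set V := (volume : Measure E).real (ball 0 (9 / 10)) with hV
  have hV0 : 0 ≤ V := measureReal_nonneg
  refine ⟨420000 + 1050000 * V, by positivity, ?_⟩
  intro a ε η h r H M hM
  have hM0 : 0 ≤ M := (En_nonneg H (by norm_num)).trans hM
  have hw := weighted_ball H hM
  rw [← hV] at hw
  have hε := H.hε
  have hη := H.hη0
  have hεη := H.ε_le_η
  have hR : (0 : ℝ) < 17 / 20 := by norm_num
  have cin : ContDiff ℝ 1 fun x : E => ⟪a, x⟫_ℝ := contDiff_const.inner ℝ contDiff_id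
  have cph : ContDiff ℝ 1 fun x : E => zz (17 / 20) x * ⟪a, x⟫_ℝ := (contDiff_zz _).mul cin
  have hts : tsupport (fun x : E => zz (17 / 20) x * ⟪a, x⟫_ℝ) ⊆ ball (0 : E) 2 :=
    (tsupport_mul_subset_left.trans (tsupport_zz hR)).trans (closedBall_subset_ball (by norm_num))
  have hst := H.stat _ a cph hts
  have hd : ∀ x v : E, fderiv ℝ (fun x : E => zz (17 / 20) x * ⟪a, x⟫_ℝ) x v
      = zz (17 / 20) x * ⟪a, v⟫_ℝ + ⟪a, x⟫_ℝ * fderiv ℝ (zz (17 / 20)) x v := by
    intro x v
    have h1 : HasFDerivAt (fun x : E => ⟪a, x⟫_ℝ) (innerSL ℝ a) x := (innerSL ℝ a).hasFDerivAt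
    have h4 := ((((contDiff_zz (17 / 20)).differentiable one_ne_zero) x).hasFDerivAt (𝕜 := ℝ)).mul h1
    have h5 : fderiv ℝ (fun x : E => zz (17 / 20) x * ⟪a, x⟫_ℝ) x = _ := h4.fderiv
    rw [h5]
    simp only [add_apply, smul_apply, smul_eq_mul, innerSL_apply_apply]
  have hb2 : ∀ x ∈ ball (0 : E) (17 / 20), x ∈ ball (0 : E) 2 :=
    fun x hx => ball_subset_ball (by norm_num) hx
  have cg := continuous_grad H.cr
  have cda := continuous_fderiv_apply' H.cr a
  have cha := continuous_fderiv_apply' H.ch a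
  have cS := continuous_S4 (ε := ε) H.cr.continuous
  have cz : Continuous (zz (17 / 20) : E → ℝ) := (contDiff_zz _).continuous
  have cW : Continuous fun x => Real.cosh (r x / ε) * q ε h r x := (continuous_coshr H).mul H.contq
  have cI1 : Continuous fun x => q ε h r x * fderiv ℝ (fun x : E => zz (17 / 20) x * ⟪a, x⟫_ℝ) x a
      - S4 ε r x / ε * fderiv ℝ r x a
        * fderiv ℝ (fun x : E => zz (17 / 20) x * ⟪a, x⟫_ℝ) x (∇ r x) := by
    have c1 : Continuous fun x => fderiv ℝ (fun x : E => zz (17 / 20) x * ⟪a, x⟫_ℝ) x (∇ r x) :=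
      (cph.continuous_fderiv one_ne_zero).clm_apply cg
    exact (H.contq.mul (continuous_fderiv_apply' cph a)).sub (((cS.div_const ε).mul cda).mul c1)
  have cI2 : Continuous fun x => S4 ε r x / (2 * ε) * fderiv ℝ h x a
      * (zz (17 / 20) x * ⟪a, x⟫_ℝ) :=
    ((cS.div_const _).mul cha).mul cph.continuous
  have cK : Continuous fun x => zz (17 / 20) x * kap a ε h r x := cz.mul H.contkap
  -- reduce the stationarity identity to the ball
  have z1 : ∀ x, x ∉ ball (0 : E) (17 / 20) →
      q ε h r x * fderiv ℝ (fun x : E => zz (17 / 20) x * ⟪a, x⟫_ℝ) x a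
      - S4 ε r x / ε * fderiv ℝ r x a
        * fderiv ℝ (fun x : E => zz (17 / 20) x * ⟪a, x⟫_ℝ) x (∇ r x) = 0 := by
    intro x hx
    rw [hd, hd, zz_zero hR hx, fderiv_zz_zero hR hx, fderiv_zz_zero hR hx]; ring
  have z2 : ∀ x, x ∉ ball (0 : E) (17 / 20) →
      S4 ε r x / (2 * ε) * fderiv ℝ h x a * (zz (17 / 20) x * ⟪a, x⟫_ℝ) = 0 := by
    intro x hx
    rw [zz_zero hR hx]; ring
  rw [integral_eq_ball z1, integral_eq_ball z2] at hst
  -- pointwise facts on the ball
  have hxN : ∀ x ∈ ball (0 : E) (17 / 20), |⟪a, x⟫_ℝ| ≤ 2 * η * Real.cosh (r x / ε) := by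
    intro x hx
    have h1 := H.flat x (hb2 x hx)
    have h2 : |r x| ≤ ε * Real.cosh (r x / ε) := by
      have h3 := abs_le_cosh (r x / ε)
      rw [abs_div, abs_of_pos hε, div_le_iff₀ hε] at h3
      linarith
    have h4 : |⟪a, x⟫_ℝ| ≤ |r x| + η := by
      have h5 : ⟪a, x⟫_ℝ = r x - (r x - ⟪a, x⟫_ℝ) := by ring
      calc |⟪a, x⟫_ℝ| = |r x - (r x - ⟪a, x⟫_ℝ)| := by rw [← h5]
        _ ≤ |r x| + |r x - ⟪a, x⟫_ℝ| := abs_sub _ _
        _ ≤ _ := by linarith
    have hc : 1 ≤ Real.cosh (r x / ε) := Real.one_le_cosh _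
    nlinarith
  have hxN1 : ∀ x ∈ ball (0 : E) (17 / 20), |⟪a, x⟫_ℝ| ≤ 1 := by
    intro x hx
    rw [mem_ball_zero_iff] at hx
    have := abs_real_inner_le_norm a x
    rw [H.ha, one_mul] at this
    linarith
  have p1 : ∀ x ∈ ball (0 : E) (17 / 20), zz (17 / 20) x * kap a ε h r x
      ≤ (q ε h r x * fderiv ℝ (fun x : E => zz (17 / 20) x * ⟪a, x⟫_ℝ) x a
      - S4 ε r x / ε * fderiv ℝ r x a
        * fderiv ℝ (fun x : E => zz (17 / 20) x * ⟪a, x⟫_ℝ) x (∇ r x))
        + 19 * η * (Real.cosh (r x / ε) * q ε h r x) := by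
    intro x hx
    have hq := H.q_nonneg (hb2 x hx)
    have hS : 0 ≤ S4 ε r x / ε := div_nonneg (S4_nonneg _ _ _) hε.le
    rw [hd, hd, H.kap_eq]
    have e1 : ⟪a, a⟫_ℝ = 1 := by rw [real_inner_self_eq_norm_sq, H.ha]; norm_num
    have e2 : ⟪a, ∇ r x⟫_ℝ = fderiv ℝ r x a := by rw [grad_eq, real_inner_comm]
    rw [e1, e2]
    have b1 : |fderiv ℝ (zz (17 / 20)) x a| ≤ 4 / (17 / 20) := by
      have := abs_fderiv_zz_le hR x a
      rwa [H.ha, mul_one] at this
    have b2 : |fderiv ℝ (zz (17 / 20)) x (∇ r x)| ≤ 4 / (17 / 20) * ‖∇ r x‖ :=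
      abs_fderiv_zz_le hR x _
    have b3 : |fderiv ℝ r x a| ≤ ‖∇ r x‖ := by
      have := abs_fderiv_le r x a
      rwa [H.ha, mul_one] at this
    have b4 : |q ε h r x * fderiv ℝ (zz (17 / 20)) x a
        - S4 ε r x / ε * fderiv ℝ r x a * fderiv ℝ (zz (17 / 20)) x (∇ r x)| ≤ 19 / 2 * q ε h r x := by
      calc |q ε h r x * fderiv ℝ (zz (17 / 20)) x a
        - S4 ε r x / ε * fderiv ℝ r x a * fderiv ℝ (zz (17 / 20)) x (∇ r x)|
          ≤ |q ε h r x * fderiv ℝ (zz (17 / 20)) x a|
            + |S4 ε r x / ε * fderiv ℝ r x a * fderiv ℝ (zz (17 / 20)) x (∇ r x)| := abs_sub _ _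
        _ = q ε h r x * |fderiv ℝ (zz (17 / 20)) x a|
            + S4 ε r x / ε * (|fderiv ℝ r x a| * |fderiv ℝ (zz (17 / 20)) x (∇ r x)|) := by
            rw [abs_mul, abs_mul, abs_mul, abs_of_nonneg hq, abs_of_nonneg hS]; ring
        _ ≤ q ε h r x * (4 / (17 / 20))
            + S4 ε r x / ε * (‖∇ r x‖ * (4 / (17 / 20) * ‖∇ r x‖)) := by gcongr
        _ = 4 / (17 / 20) * q ε h r x + 4 / (17 / 20) * (S4 ε r x / ε * ‖∇ r x‖ ^ 2) := by ring
        _ ≤ 4 / (17 / 20) * q ε h r x + 4 / (17 / 20) * q ε h r x := by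
            have := H.Sg_le_q (hb2 x hx)
            linarith
        _ ≤ _ := by linarith
    have b5 : |⟪a, x⟫_ℝ * (q ε h r x * fderiv ℝ (zz (17 / 20)) x a
        - S4 ε r x / ε * fderiv ℝ r x a * fderiv ℝ (zz (17 / 20)) x (∇ r x))|
        ≤ (2 * η * Real.cosh (r x / ε)) * (19 / 2 * q ε h r x) := by
      rw [abs_mul]
      exact mul_le_mul (hxN x hx) b4 (abs_nonneg _)
        (by have := Real.cosh_pos (r x / ε); positivity)
    have b6 := neg_abs_le (⟪a, x⟫_ℝ * (q ε h r x * fderiv ℝ (zz (17 / 20)) x a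
        - S4 ε r x / ε * fderiv ℝ r x a * fderiv ℝ (zz (17 / 20)) x (∇ r x)))
    nlinarith
  have p2 : ∀ x ∈ ball (0 : E) (17 / 20),
      -(2 * η * (Real.cosh (r x / ε) * q ε h r x)) ≤
      S4 ε r x / (2 * ε) * fderiv ℝ h x a * (zz (17 / 20) x * ⟪a, x⟫_ℝ) := by
    intro x hx
    have hq := H.q_nonneg (hb2 x hx)
    have hS : 0 ≤ S4 ε r x / (2 * ε) := div_nonneg (S4_nonneg _ _ _) (by positivity)
    have hc : 1 ≤ Real.cosh (r x / ε) := Real.one_le_cosh _
    have b1 : |fderiv ℝ h x a| ≤ η := by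
      have h1 := (fderiv ℝ h x).le_opNorm a
      rw [H.ha, mul_one, Real.norm_eq_abs] at h1
      exact h1.trans (H.dh x (hb2 x hx))
    have b2 : |S4 ε r x / (2 * ε) * fderiv ℝ h x a * (zz (17 / 20) x * ⟪a, x⟫_ℝ)|
        ≤ 2 * q ε h r x * η * (1 * 1) := by
      rw [abs_mul, abs_mul, abs_mul, abs_of_nonneg hS, abs_of_nonneg (zz_nonneg _ x)]
      have := H.S_le_q (hb2 x hx)
      have := zz_le_one (17 / 20) x
      have := hxN1 x hx
      have := zz_nonneg (17 / 20) x
      gcongr
    have b3 := neg_abs_le (S4 ε r x / (2 * ε) * fderiv ℝ h x a * (zz (17 / 20) x * ⟪a, x⟫_ℝ))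
    have b4 : q ε h r x ≤ Real.cosh (r x / ε) * q ε h r x := le_mul_of_one_le_left hq hc
    nlinarith
  set W := ∫ x in ball (0 : E) (17 / 20), Real.cosh (r x / ε) * q ε h r x with hW
  have q1 : ∫ x in ball (0 : E) (17 / 20), zz (17 / 20) x * kap a ε h r x
      ≤ (∫ x in ball (0 : E) (17 / 20),
        (q ε h r x * fderiv ℝ (fun x : E => zz (17 / 20) x * ⟪a, x⟫_ℝ) x a
        - S4 ε r x / ε * fderiv ℝ r x a
        * fderiv ℝ (fun x : E => zz (17 / 20) x * ⟪a, x⟫_ℝ) x (∇ r x))) + 19 * η * W := by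
    have cW' : Continuous fun x => 19 * η * (Real.cosh (r x / ε) * q ε h r x) :=
      continuous_const.mul cW
    rw [hW, ← integral_const_mul, ← integral_add (integrableOn_ball cI1 0 _)
      (integrableOn_ball cW' 0 _)]
    exact setIntegral_mono_on (integrableOn_ball cK 0 _)
      ((integrableOn_ball cI1 0 _).add (integrableOn_ball cW' 0 _))
      measurableSet_ball p1
  have q2 : -(2 * η * W) ≤ ∫ x in ball (0 : E) (17 / 20),
      S4 ε r x / (2 * ε) * fderiv ℝ h x a * (zz (17 / 20) x * ⟪a, x⟫_ℝ) := by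
    have cW' : Continuous fun x => -(2 * η * (Real.cosh (r x / ε) * q ε h r x)) :=
      (continuous_const.mul cW).neg
    rw [hW, ← integral_const_mul, ← integral_neg]
    exact setIntegral_mono_on (integrableOn_ball cW' 0 _)
      (integrableOn_ball cI2 0 _) measurableSet_ball p2
  have q3 : ∫ x in ball (0 : E) (17 / 20), zz (17 / 20) x * kap a ε h r x ≤ 21 * η * W := by
    rw [hst] at q1; linarith
  have q4 : Kp a ε h r (ball 0 (4 / 5))
      ≤ 100 * ∫ x in ball (0 : E) (17 / 20), zz (17 / 20) x * kap a ε h r x := by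
    unfold Kp
    calc ∫ x in ball (0 : E) (4 / 5), kap a ε h r x
        ≤ ∫ x in ball (0 : E) (4 / 5), 100 * (zz (17 / 20) x * kap a ε h r x) := by
          refine setIntegral_mono_on (integrableOn_ball H.contkap 0 _)
            (integrableOn_ball (continuous_const.mul cK) 0 _) measurableSet_ball fun x hx => ?_
          have hk := H.kap_nonneg (ball_subset_ball (by norm_num) hx : x ∈ ball (0 : E) 2)
          have hz := zz_ge (R := 17 / 20) (ρ := 4 / 5) (by norm_num) (by norm_num) hx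
          have h1 : 1 ≤ 100 * zz (17 / 20) x := by
            have : (1 : ℝ) ≤ 100 * (1 - (4 / 5) ^ 2 / (17 / 20) ^ 2) ^ 2 := by norm_num
            linarith
          nlinarith
      _ ≤ ∫ x in ball (0 : E) (17 / 20), 100 * (zz (17 / 20) x * kap a ε h r x) := by
          refine setIntegral_mono_of_ball (continuous_const.mul cK)
            (ball_subset_ball (by norm_num)) subset_rfl measurableSet_ball fun x hx => ?_
          have hk := H.kap_nonneg (hb2 x hx)
          have hz := zz_nonneg (17 / 20) x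
          show 0 ≤ 100 * (zz (17 / 20) x * kap a ε h r x)
          positivity
      _ = _ := integral_const_mul _ _
  have q5 : Kp a ε h r (ball 0 (4 / 5)) ≤ 2100 * η * W := by linarith
  calc Kp a ε h r (ball 0 (4 / 5)) ≤ 2100 * η * W := q5
    _ ≤ 2100 * η * (100 * (2 * M + 5 * V)) := by gcongr
    _ ≤ (420000 + 1050000 * V) * (M + 1) * η := by
      have : 0 ≤ η * (M * V) := by positivity
      nlinarith


end

end Crest.Agent.R246.MS125
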