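import Crest.Agent.R246.MSPsi_598

/-!
# R246-F (helper598): leaf `StVert` of Lemma MS
-/

set_option autoImplicit false
set_option linter.unusedSectionVars false

namespace Crest.Agent.R246.MSVert598

open MeasureTheory Metric Set Module InnerProductSpace
open Crest.Agent.R246.MS852 Crest.Agent.R246.MSPsi598
open scoped RealInnerProductSpace Gradient

theorem exists_small {ω : ℝ} (hω : 0 < ω) :
    ∃ w : ℝ, 0 < w ∧ w ≤ 1 ∧ Real.exp (4 * w) * (1 + w) ≤ 1 + ω := by
  have hc : Continuous fun w : ℝ => Real.exp (4 * w) * (1 + w) := by fun_prop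
  have h0 : Real.exp (4 * 0) * (1 + 0) < 1 + ω := by simpa using hω
  have h1 : ∀ᶠ w in nhds (0 : ℝ), Real.exp (4 * w) * (1 + w) < 1 + ω :=
    hc.tendsto (0 : ℝ) (Iio_mem_nhds h0)
  obtain ⟨δ, hδ, h2⟩ := Metric.eventually_nhds_iff.1 h1
  refine ⟨min (δ / 2) 1, by positivity, min_le_right _ _, (h2 ?_).le⟩
  rw [Real.dist_eq, sub_zero, abs_of_pos (by positivity)]
  exact (min_le_left _ _).trans_lt (by linarith)

/-- the integral of `sech⁴` along a line of slope `±1/ε` -/
theorem integral_line {ε s R0 : ℝ} (hε : 0 < ε) (hs : s = 1 ∨ s = -1) (T : ℝ) :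
    ∫ t in (-(T * ε))..(T * ε), 1 / ε * (1 / Real.cosh (R0 + s * (t / ε)) ^ 4) =
      s * (P4 (R0 + s * T) - P4 (R0 - s * T)) := by
  have hs2 : s * s = 1 := by rcases hs with h | h <;> rw [h] <;> norm_num
  have hd : ∀ t : ℝ, HasDerivAt (fun t => s * P4 (R0 + s * (t / ε)))
      (1 / ε * (1 / Real.cosh (R0 + s * (t / ε)) ^ 4)) t := by
    intro t
    have h1 : HasDerivAt (fun t : ℝ => R0 + s * (t / ε)) (s * (1 / ε)) t :=
      (((hasDerivAt_id t).div_const ε).const_mul s).const_add R0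
    have h2 := ((hasDerivAt_P4 (R0 + s * (t / ε))).comp t h1).const_mul s
    refine h2.congr_deriv ?_
    calc _ = (s * s) * (1 / ε * (1 / Real.cosh (R0 + s * (t / ε)) ^ 4)) := by ring
      _ = _ := by rw [hs2, one_mul]
  have hc : Continuous fun t : ℝ => 1 / ε * (1 / Real.cosh (R0 + s * (t / ε)) ^ 4) :=
    continuous_const.mul (continuous_sech4.comp (by fun_prop))
  rw [intervalIntegral.integral_eq_sub_of_hasDerivAt (fun t _ => hd t)
    (hc.intervalIntegrable _ _)]
  have e1 : T * ε / ε = T := by field_simp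
  have e2 : -(T * ε) / ε = -T := by field_simp
  rw [e1, e2]
  have e3 : R0 + s * -T = R0 - s * T := by ring
  rw [e3]; ring

section
variable {E : Type*} [NormedAddCommGroup E] [InnerProductSpace ℝ E] [FiniteDimensional ℝ E]
  [MeasurableSpace E] [BorelSpace E] {d : ℕ}

theorem stVert (hAff : StAff E d) : StVert E d := by
  intro hd S ω Λ hS hω hΛ
  obtain ⟨w, hw0, hw1, hw2⟩ := exists_small hω
  obtain ⟨lam0, hlam0, η0, hη0, H⟩ := hAff hd S (4 * Λ) w hS (by linarith) hw0
  refine ⟨lam0, hlam0, min η0 w, lt_min hη0 hw0, ?_⟩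
  intro a ε η h r hη Hy x0 hgood hx0
  obtain ⟨hLε, s, hs, hz⟩ := H a ε η h r (hη.trans (min_le_left _ _)) Hy x0 hgood hx0
  have hε := Hy.hε
  have ha := Hy.ha
  have hη2 : η ≤ w := hη.trans (min_le_right _ _)
  have hΛε : 0 < Λ * ε := by positivity
  refine ⟨by nlinarith, ?_⟩
  have hpt : ∀ t ∈ Icc (-(Λ * ε)) (Λ * ε), q ε h r (x0 + t • a) ≤
      (1 + ω) * (1 / ε * (1 / Real.cosh (r x0 / ε + s * (t / ε)) ^ 4)) := by
    intro t ht
    have htabs : |t| ≤ Λ * ε := abs_le.2 ⟨ht.1, ht.2⟩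
    have hzin : (t / ε) • a ∈ ball (0 : E) (4 * Λ / 2) := by
      rw [mem_ball_zero_iff, norm_smul, ha, mul_one, Real.norm_eq_abs, abs_div, abs_of_pos hε,
        div_lt_iff₀ hε]
      nlinarith
    have h1 := hz _ hzin
    have h2 : x0 + ε • ((t / ε) • a) = x0 + t • a := by
      rw [smul_smul]; congr 2; field_simp
    rw [h2, inner_smul_right, real_inner_self_eq_norm_sq, ha] at h1
    have hin : x0 + t • a ∈ ball (0 : E) 2 := by
      rw [mem_ball_zero_iff]
      have h3 := mem_ball_zero_iff.1 hgood.1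
      have h4 : ‖t • a‖ = |t| := by rw [norm_smul, ha, mul_one, Real.norm_eq_abs]
      have h5 := norm_add_le x0 (t • a)
      rw [h4] at h5
      linarith
    have h3 := Hy.q_le hin
    have h4 : h (x0 + t • a) ≤ 1 + w := by
      have := abs_le.1 (Hy.near _ hin); linarith
    have h4' : 0 ≤ h (x0 + t • a) := by have := Hy.h_ge hin; linarith
    have h5 : S4 ε r (x0 + t • a) ≤
        Real.exp (4 * w) * (1 / Real.cosh (r x0 / ε + s * (t / ε)) ^ 4) := by
      unfold S4
      apply sech_le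
      refine le_trans (le_of_eq ?_) h1
      congr 1; ring
    have h6 : 0 ≤ 1 / Real.cosh (r x0 / ε + s * (t / ε)) ^ 4 := by positivity
    calc q ε h r (x0 + t • a) ≤ S4 ε r (x0 + t • a) / ε * h (x0 + t • a) := h3
      _ ≤ (Real.exp (4 * w) * (1 / Real.cosh (r x0 / ε + s * (t / ε)) ^ 4)) / ε * (1 + w) := by
          apply mul_le_mul _ h4 h4' (by positivity)
          exact div_le_div_of_nonneg_right h5 hε.le
      _ = (Real.exp (4 * w) * (1 + w)) *
          (1 / ε * (1 / Real.cosh (r x0 / ε + s * (t / ε)) ^ 4)) := by ring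
      _ ≤ _ := mul_le_mul_of_nonneg_right hw2 (by positivity)
  have hcl : Continuous fun t : ℝ => x0 + t • a := by fun_prop
  have hcq : Continuous fun t : ℝ => q ε h r (x0 + t • a) := Hy.contq.comp hcl
  have hcr : Continuous fun t : ℝ =>
      (1 + ω) * (1 / ε * (1 / Real.cosh (r x0 / ε + s * (t / ε)) ^ 4)) :=
    continuous_const.mul (continuous_const.mul (continuous_sech4.comp (by fun_prop)))
  have hle : -(Λ * ε) ≤ Λ * ε := by linarith
  calc ∫ t in Icc (-(Λ * ε)) (Λ * ε), q ε h r (x0 + t • a)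
      ≤ ∫ t in Icc (-(Λ * ε)) (Λ * ε),
        (1 + ω) * (1 / ε * (1 / Real.cosh (r x0 / ε + s * (t / ε)) ^ 4)) :=
        setIntegral_mono_on (hcq.continuousOn.integrableOn_compact isCompact_Icc)
          (hcr.continuousOn.integrableOn_compact isCompact_Icc) measurableSet_Icc hpt
    _ = (1 + ω) * (s * (P4 (r x0 / ε + s * Λ) - P4 (r x0 / ε - s * Λ))) := by
        rw [integral_Icc_eq_integral_Ioc, ← intervalIntegral.integral_of_le hle,
          intervalIntegral.integral_const_mul, integral_line hε hs]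
    _ ≤ (1 + ω) * (4 / 3) := by
        apply mul_le_mul_of_nonneg_left _ (by linarith)
        have a1 := P4_le (r x0 / ε + s * Λ)
        have a2 := P4_le (r x0 / ε - s * Λ)
        have a3 := neg_le_P4 (r x0 / ε + s * Λ)
        have a4 := neg_le_P4 (r x0 / ε - s * Λ)
        rcases hs with h' | h' <;> subst h' <;> linarith

end

end Crest.Agent.R246.MSVert598
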