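import Crest.Agent.R246.MSDefs_852

/-!
# R246-F (helper598): leaf `StVit` of Lemma MS (Vitali covering)
-/

set_option autoImplicit false

namespace Crest.Agent.R246.MSVit598

open MeasureTheory Metric Set
open scoped ENNReal

variable {E : Type*} [NormedAddCommGroup E] [InnerProductSpace ℝ E] [FiniteDimensional ℝ E]
  [MeasurableSpace E] [BorelSpace E] {d : ℕ}

theorem stVit : MS852.StVit E d := by
  intro Q K hQ hK hQ0 hK0 G lam hG hlam hgr
  set T : Set E := {x | x ∈ ball (0 : E) (3 / 5) ∧ ∃ ρ : ℝ, 0 < ρ ∧ ρ ≤ 1 / 100 ∧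
    lam * ρ ^ d < ∫ y in closedBall x ρ, K y} with hT
  have hex : ∀ x ∈ T, ∃ ρ : ℝ, 0 < ρ ∧ ρ ≤ 1 / 100 ∧
    lam * ρ ^ d < ∫ y in closedBall x ρ, K y := fun x hx => hx.2
  choose! r hr0 hr1 hr2 using hex
  obtain ⟨u, huT, hdis, hcov⟩ :=
    Vitali.exists_disjoint_subfamily_covering_enlargement_closedBall T (fun x => x) r (1 / 100)
      (fun a ha => hr1 a ha) 5 (by norm_num)
  have hcount : u.Countable := by
    refine hdis.countable_of_nonempty_interior (fun b hb => ?_)
    exact ⟨b, ball_subset_interior_closedBall (mem_ball_self (hr0 b (huT hb)))⟩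
  have hsub5 : ∀ b ∈ u, closedBall b (5 * r b) ⊆ ball (0 : E) (4 / 5) := by
    intro b hb x hx
    have h1 : ‖b‖ < 3 / 5 := by simpa using (huT hb).1
    have h2 : dist x b ≤ 5 * r b := hx
    have h3 := hr1 b (huT hb)
    rw [mem_ball_zero_iff]
    have h4 : ‖x‖ ≤ dist x b + ‖b‖ := by
      rw [dist_eq_norm]
      calc ‖x‖ = ‖(x - b) + b‖ := by rw [sub_add_cancel]
        _ ≤ ‖x - b‖ + ‖b‖ := norm_add_le _ _
    linarith
  have hsub1 : ∀ b ∈ u, closedBall b (r b) ⊆ ball (0 : E) (4 / 5) := by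
    intro b hb
    refine Subset.trans (closedBall_subset_closedBall ?_) (hsub5 b hb)
    have := hr0 b (huT hb)
    linarith
  have hQi : ∀ s : Set E, Bornology.IsBounded s → IntegrableOn Q s := by
    intro s hs
    obtain ⟨R, hR⟩ := hs.subset_closedBall (0 : E)
    exact ((hQ.continuousOn).integrableOn_compact (isCompact_closedBall (0 : E) R)).mono_set hR
  have hKi : ∀ s : Set E, Bornology.IsBounded s → IntegrableOn K s := by
    intro s hs
    obtain ⟨R, hR⟩ := hs.subset_closedBall (0 : E)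
    exact ((hK.continuousOn).integrableOn_compact (isCompact_closedBall (0 : E) R)).mono_set hR
  have h451 : ball (0 : E) (4 / 5) ⊆ ball (0 : E) 1 := ball_subset_ball (by norm_num)
  have hmeasB : MeasurableSet (⋃ b ∈ u, closedBall b (5 * r b)) :=
    MeasurableSet.biUnion hcount (fun b _ => isClosed_closedBall.measurableSet)
  have hBsub : (⋃ b ∈ u, closedBall b (5 * r b)) ⊆ ball (0 : E) (4 / 5) :=
    iUnion₂_subset hsub5
  -- conversion of integrals
  have conv : ∀ (f : E → ℝ) (s : Set E), MeasurableSet s → s ⊆ ball (0 : E) (4 / 5) →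
      (∀ x ∈ ball (0 : E) 1, 0 ≤ f x) → IntegrableOn f s →
      ENNReal.ofReal (∫ x in s, f x) = ∫⁻ x in s, ENNReal.ofReal (f x) := by
    intro f s hs hs1 hf hfi
    exact ofReal_integral_eq_lintegral_ofReal hfi
      ((ae_restrict_iff' hs).2 (Filter.Eventually.of_forall fun x hx => hf x (h451 (hs1 hx))))
  refine ⟨⋃ b ∈ u, closedBall b (5 * r b), hmeasB, hBsub, ?_, ?_⟩
  · intro x hx hxB ρ hρ hρ1
    by_contra hcon
    push Not at hcon
    have hxT : x ∈ T := ⟨hx, ρ, hρ, hρ1, hcon⟩
    obtain ⟨b, hb, hsub⟩ := hcov x hxT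
    apply hxB
    refine mem_iUnion₂.2 ⟨b, hb, hsub ?_⟩
    exact mem_closedBall_self (hr0 x hxT).le
  · have hnn : 0 ≤ 5 ^ d * G / lam := by positivity
    have hKnn : 0 ≤ ∫ x in ball (0 : E) (4 / 5), K x :=
      setIntegral_nonneg measurableSet_ball (fun x hx => hK0 x (h451 hx))
    rw [← ENNReal.ofReal_le_ofReal_iff (mul_nonneg hnn hKnn)]
    rw [conv Q _ hmeasB hBsub hQ0 (hQi _ (isBounded_ball.subset hBsub)),
      ENNReal.ofReal_mul hnn,
      conv K _ measurableSet_ball Subset.rfl hK0 (hKi _ isBounded_ball)]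
    have hstep : ∀ b ∈ u, ∫⁻ x in closedBall b (5 * r b), ENNReal.ofReal (Q x) ≤
        ENNReal.ofReal (5 ^ d * G / lam) * ∫⁻ x in closedBall b (r b), ENNReal.ofReal (K x) := by
      intro b hb
      rw [← conv Q _ isClosed_closedBall.measurableSet (hsub5 b hb) hQ0
          (hQi _ isBounded_closedBall),
        ← conv K _ isClosed_closedBall.measurableSet (hsub1 b hb) hK0
          (hKi _ isBounded_closedBall), ← ENNReal.ofReal_mul hnn]
      apply ENNReal.ofReal_le_ofReal
      have hb0 := hr0 b (huT hb)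
      have hb1 := hr1 b (huT hb)
      have hb2 := hr2 b (huT hb)
      have hb3 : b ∈ ball (0 : E) (4 / 5) := ball_subset_ball (by norm_num) (huT hb).1
      have e1 := hgr b hb3 (5 * r b) (by linarith) (by linarith)
      have e2 : 5 ^ d * G / lam * (lam * r b ^ d) ≤
          5 ^ d * G / lam * ∫ y in closedBall b (r b), K y :=
        mul_le_mul_of_nonneg_left hb2.le hnn
      have e3 : 5 ^ d * G / lam * (lam * r b ^ d) = G * (5 * r b) ^ d := by
        rw [mul_pow]; field_simp
      linarith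
    have : Countable u := hcount.to_subtype
    calc ∫⁻ x in (⋃ b ∈ u, closedBall b (5 * r b)), ENNReal.ofReal (Q x)
        = ∫⁻ x in (⋃ b : u, closedBall (b : E) (5 * r b)), ENNReal.ofReal (Q x) := by
          rw [biUnion_eq_iUnion]
      _ ≤ ∑' b : u, ∫⁻ x in closedBall (b : E) (5 * r b), ENNReal.ofReal (Q x) :=
          lintegral_iUnion_le _ _
      _ ≤ ∑' b : u, ENNReal.ofReal (5 ^ d * G / lam) *
            ∫⁻ x in closedBall (b : E) (r b), ENNReal.ofReal (K x) :=
          ENNReal.tsum_le_tsum (fun b => hstep b b.2)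
      _ = ENNReal.ofReal (5 ^ d * G / lam) *
            ∑' b : u, ∫⁻ x in closedBall (b : E) (r b), ENNReal.ofReal (K x) :=
          ENNReal.tsum_mul_left
      _ = ENNReal.ofReal (5 ^ d * G / lam) *
            ∫⁻ x in (⋃ b : u, closedBall (b : E) (r b)), ENNReal.ofReal (K x) := by
          rw [lintegral_iUnion (fun b => isClosed_closedBall.measurableSet)]
          intro b c hbc
          exact hdis b.2 c.2 (fun h => hbc (Subtype.ext h))
      _ ≤ ENNReal.ofReal (5 ^ d * G / lam) *
            ∫⁻ x in ball (0 : E) (4 / 5), ENNReal.ofReal (K x) := by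
          gcongr
          exact iUnion_subset (fun b => hsub1 b b.2)

end Crest.Agent.R246.MSVit598
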