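import Crest.Agent.R246.MSFin_852
import Crest.Agent.R246.MSTail_125
import Crest.Agent.R246.MSVit_598
import Crest.Agent.R246.MSSlice_598
import Crest.Agent.R246.MSVert_598
import Crest.Agent.R246.MSLow_598
import Crest.Agent.R246.MSAff_579
import Crest.Agent.R246.F4f_669

/-!
# R246-F (helper852): LEMMA MS, unconditional
-/

set_option autoImplicit false

namespace Crest.Agent.R246.MS852

open MeasureTheory

/-- LEMMA MS -/
theorem stMS (E : Type*) [NormedAddCommGroup E] [InnerProductSpace ℝ E]
    [FiniteDimensional ℝ E] [MeasurableSpace E] [BorelSpace E] (d : ℕ) : StMS E d :=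
  stMS_of E d (MS125.stDefect E) (MS125.stTail E) MSVit598.stVit
    (MSLow598.stLow (L5x579.stAff E d)) (MSVert598.stVert (L5x579.stAff E d))
    (F4x669.stSlab E d) MSSlice598.stSlice

end Crest.Agent.R246.MS852
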