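import Crest.Agent.R246.Mg5_295
import Crest.Agent.R246.G0_873

/-!
# R246, block H2a in the form of the assembly `Reg549.StH2a`
-/

set_option autoImplicit false
set_option linter.unusedSectionVars false
noncomputable section
open Metric Set Filter Topology MeasureTheory
open scoped RealInnerProductSpace ContDiff

namespace Crest.Agent.R246.Mg295

variable (F : Type*) [NormedAddCommGroup F] [InnerProductSpace ℝ F] [FiniteDimensional ℝ F]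
  [MeasurableSpace F] [BorelSpace F]

/-- literally `Reg549.StH2a F`. -/
theorem stH2a : ∀ (φ : F → ℝ) (p0 : F), φ p0 = 0 → G873.ClassD φ →
    (∀ x, |φ x| = infDist x {x | φ x = 0}) →
    ∀ (e : F), ‖e‖ = 1 → ∀ (r0 K α : ℝ) (w : (ℝ ∙ e)ᗮ → ℝ), 0 < r0 → 0 ≤ K → 1 / 2 < α → α ≤ 1 →
      w 0 = 0 → fderiv ℝ w 0 = 0 →
      (∀ y ∈ ball (0 : (ℝ ∙ e)ᗮ) r0, DifferentiableAt ℝ w y ∧ ‖fderiv ℝ w y‖ ≤ 1 / 4) →
      (∀ y ∈ ball (0 : (ℝ ∙ e)ᗮ) r0, ∀ y' ∈ ball (0 : (ℝ ∙ e)ᗮ) r0,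
        |w y - w y'| ≤ ‖y - y'‖ / 4) →
      (∀ y ∈ ball (0 : (ℝ ∙ e)ᗮ) r0, ∀ y' ∈ ball (0 : (ℝ ∙ e)ᗮ) r0,
        ‖fderiv ℝ w y - fderiv ℝ w y'‖ ≤ K * ‖y - y'‖ ^ α) →
      (∀ y ∈ ball (0 : (ℝ ∙ e)ᗮ) r0, ∀ t : ℝ, |t| < r0 →
        SignType.sign (φ (p0 + y + t • e)) = SignType.sign (t - w y)) →
      ∃ r1 > 0, r1 ≤ r0 ∧ ∀ ψ : (ℝ ∙ e)ᗮ → ℝ, ContDiff ℝ 1 ψ → HasCompactSupport ψ →
        tsupport ψ ⊆ ball 0 r1 →
        ∫ y, (Real.sqrt (1 + ‖gradient w y‖ ^ 2))⁻¹ * ⟪gradient w y, gradient ψ y⟫ = 0 := by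
  intro φ p0 hp0 hφ hdist e he r0 K α w hr0 hK hα hα1 hw0 hdw0 hwd hwl hwh hsgn
  have H : GData φ p0 e r0 K α r0 w :=
    { he := he, hr := hr0, hK := hK, hα := by linarith, hR := hr0, lip := hφ.lip, w0 := hw0,
      dw0 := hdw0, wd := hwd, wl := hwl, wh := hwh, sgn := hsgn
      dst := fun x _ => hdist x
      eik := by
        filter_upwards [hφ.grad] with x hx _
        rw [gradient, LinearIsometryEquiv.norm_map]; exact hx }
  have hlip : ∀ ζ : F → ℝ, ContDiff ℝ 1 ζ → HasCompactSupport ζ → G873.Lip ζ := by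
    intro ζ h1 h2
    exact h1.lipschitzWith_of_hasCompactSupport h2 (by simp)
  have hsup : Sup1 (ball p0 r0 ∩ {x | 0 < φ x}) φ := by
    intro ζ h1 h2 h3 h4
    exact hφ.sup ζ (hlip ζ h1 h2) h2 h4 (h3.trans inter_subset_right)
  have hsub : Sub1 (ball p0 r0 ∩ {x | φ x < 0}) φ := by
    intro ζ h1 h2 h3 h4
    exact hφ.sub ζ (hlip ζ h1 h2) h2 h4 (h3.trans inter_subset_right)
  refine ⟨r0 / 16, by positivity, by linarith, fun ψ hψ hψc hψs => ?_⟩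
  exact H.weak_mse (by linarith) hsup hsub (by positivity) (by linarith) (by linarith) hψ hψc hψs

end Crest.Agent.R246.Mg295
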