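import Mathlib.Analysis.InnerProductSpace.Calculus
import Mathlib.Analysis.InnerProductSpace.Projection.Basic
import Mathlib.Analysis.InnerProductSpace.Trace
import Mathlib.Analysis.Calculus.InverseFunctionTheorem.ContDiff
import Mathlib.Analysis.Calculus.Gradient.Basic
import Mathlib.Analysis.Calculus.LineDeriv.IntegrationByParts
import Mathlib.Analysis.Calculus.BumpFunction.InnerProduct
import Mathlib.Analysis.Calculus.BumpFunction.FiniteDimension
import Mathlib.MeasureTheory.Measure.Haar.InnerProductSpace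
import Mathlib.Topology.MetricSpace.HausdorffDistance
import Mathlib.Analysis.SpecialFunctions.Sqrt
import Mathlib.Analysis.Normed.Operator.BoundedLinearMaps

/-!
# R246, block H2 (E): the signed distance function of a smooth graph is smooth
-/

set_option autoImplicit false
set_option linter.unusedSectionVars false
noncomputable section
open Metric Set Filter Topology MeasureTheory
open scoped RealInnerProductSpace ContDiff

namespace Crest.Agent.R246.Mg295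

variable {E : Type*} [NormedAddCommGroup E] [InnerProductSpace ℝ E]

/-! ### coordinates -/

lemma inner_orth {e : E} (y : (ℝ ∙ e)ᗮ) : ⟪e, (y : E)⟫ = 0 :=
  Submodule.mem_orthogonal_singleton_iff_inner_right.1 y.2

/-- projection onto `e^⊥`. -/
def pr (e : E) (he : ‖e‖ = 1) : E →L[ℝ] (ℝ ∙ e)ᗮ :=
  ((ContinuousLinearMap.id ℝ E) - (innerSL ℝ e).smulRight e).codRestrict _ (fun x => by
    rw [Submodule.mem_orthogonal_singleton_iff_inner_right]
    simp [inner_sub_right, inner_smul_right, he])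

lemma pr_coe {e : E} (he : ‖e‖ = 1) (x : E) : (pr e he x : E) = x - ⟪e, x⟫ • e := by
  simp [pr]

lemma pr_add {e : E} (he : ‖e‖ = 1) (x : E) : (pr e he x : E) + ⟪e, x⟫ • e = x := by
  rw [pr_coe]; abel

lemma pr_of {e : E} (he : ‖e‖ = 1) (y : (ℝ ∙ e)ᗮ) (t : ℝ) : pr e he ((y : E) + t • e) = y := by
  apply Subtype.ext
  rw [pr_coe, inner_add_right, inner_orth, inner_smul_right, real_inner_self_eq_norm_sq, he]
  simp

lemma norm_pr_le {e : E} (he : ‖e‖ = 1) (x : E) : ‖pr e he x‖ ≤ ‖x‖ := by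
  have h1 : ‖x‖ ^ 2 = ‖(pr e he x : E)‖ ^ 2 + ⟪e, x⟫ ^ 2 := by
    have h2 : ⟪(pr e he x : E), ⟪e, x⟫ • e⟫ = 0 := by
      rw [inner_smul_right, real_inner_comm e, inner_orth, mul_zero]
    have h3 := norm_add_sq_real (pr e he x : E) (⟪e, x⟫ • e)
    rw [pr_add, h2, norm_smul, he, mul_one, Real.norm_eq_abs, sq_abs] at h3
    linarith
  have h4 : ‖pr e he x‖ ^ 2 ≤ ‖x‖ ^ 2 := by
    have : ‖pr e he x‖ = ‖(pr e he x : E)‖ := rfl
    rw [this, h1]; nlinarith [sq_nonneg ⟪e, x⟫]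
  exact abs_le_of_sq_le_sq' h4 (norm_nonneg _) |>.2

/-- the coordinates `(η, σ) ↦ η + σ e`. -/
def crd (e : E) (he : ‖e‖ = 1) : ((ℝ ∙ e)ᗮ × ℝ) ≃L[ℝ] E :=
  ContinuousLinearEquiv.equivOfInverse
    (((ℝ ∙ e)ᗮ).subtypeL.comp (ContinuousLinearMap.fst ℝ _ ℝ)
      + (ContinuousLinearMap.snd ℝ (ℝ ∙ e)ᗮ ℝ).smulRight e)
    ((pr e he).prod (innerSL ℝ e))
    (by
      rintro ⟨η, σ⟩
      simp only [add_apply, ContinuousLinearMap.comp_apply,
        ContinuousLinearMap.smulRight_apply, ContinuousLinearMap.prod_apply,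
        ContinuousLinearMap.coe_fst', ContinuousLinearMap.coe_snd', Submodule.subtypeL_apply]
      rw [pr_of]
      simp [inner_add_right, inner_orth, inner_smul_right, he])
    (by
      intro x
      simp [pr_coe])

lemma crd_apply {e : E} (he : ‖e‖ = 1) (q : (ℝ ∙ e)ᗮ × ℝ) :
    crd e he q = (q.1 : E) + q.2 • e := rfl


/-! ### the normal and the tubular map -/

section Tub

variable [FiniteDimensional ℝ E] {e p0 : E}

/-- normalising factor. -/
def aa (w : (ℝ ∙ e)ᗮ → ℝ) (y : (ℝ ∙ e)ᗮ) : ℝ := (Real.sqrt (1 + ‖gradient w y‖ ^ 2))⁻¹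

/-- upward unit normal of the graph of `w`. -/
def nn (w : (ℝ ∙ e)ᗮ → ℝ) (y : (ℝ ∙ e)ᗮ) : E := aa w y • (e - ((gradient w y : (ℝ ∙ e)ᗮ) : E))

/-- tubular coordinates. -/
def Ph (p0 : E) (w : (ℝ ∙ e)ᗮ → ℝ) (q : (ℝ ∙ e)ᗮ × ℝ) : E :=
  p0 + (q.1 : E) + w q.1 • e + q.2 • nn w q.1

lemma aa_pos (w : (ℝ ∙ e)ᗮ → ℝ) (y : (ℝ ∙ e)ᗮ) : 0 < aa w y := by
  unfold aa; positivity

lemma inner_grad' {F : Type*} [NormedAddCommGroup F] [InnerProductSpace ℝ F] [CompleteSpace F]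
    (f : F → ℝ) (x v : F) : ⟪gradient f x, v⟫ = fderiv ℝ f x v := by
  rw [gradient, InnerProductSpace.toDual_symm_apply]

lemma norm_sub_coe (he : ‖e‖ = 1) (g : (ℝ ∙ e)ᗮ) : ‖e - (g : E)‖ = Real.sqrt (1 + ‖g‖ ^ 2) := by
  have h1 := norm_sub_sq_real e (g : E)
  rw [inner_orth, he] at h1
  have h2 : ‖e - (g : E)‖ ^ 2 = 1 + ‖g‖ ^ 2 := by
    rw [h1]; simp
  rw [← h2, Real.sqrt_sq (norm_nonneg _)]

lemma norm_nn (he : ‖e‖ = 1) (w : (ℝ ∙ e)ᗮ → ℝ) (y : (ℝ ∙ e)ᗮ) : ‖nn w y‖ = 1 := by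
  unfold nn
  rw [norm_smul, Real.norm_of_nonneg (aa_pos w y).le, norm_sub_coe he]
  unfold aa
  rw [inv_mul_cancel₀]
  positivity

variable {w : (ℝ ∙ e)ᗮ → ℝ} {r : ℝ}

lemma contDiffAt_grad (hws : ContDiffOn ℝ ∞ w (ball 0 r)) {y : (ℝ ∙ e)ᗮ}
    (hy : y ∈ ball (0 : (ℝ ∙ e)ᗮ) r) : ContDiffAt ℝ ∞ (gradient w) y := by
  have h1 : ContDiffOn ℝ ∞ (fderiv ℝ w) (ball 0 r) :=
    hws.fderiv_of_isOpen isOpen_ball (by simp)
  have h2 : ContDiffAt ℝ ∞ (fderiv ℝ w) y := h1.contDiffAt (isOpen_ball.mem_nhds hy)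
  have h3 : gradient w = fun y => (InnerProductSpace.toDual ℝ (ℝ ∙ e)ᗮ).symm (fderiv ℝ w y) := rfl
  rw [h3]
  exact (InnerProductSpace.toDual ℝ (ℝ ∙ e)ᗮ).symm.toContinuousLinearEquiv.contDiff.contDiffAt.comp
    y h2

lemma contDiffAt_nn (hws : ContDiffOn ℝ ∞ w (ball 0 r)) {y : (ℝ ∙ e)ᗮ}
    (hy : y ∈ ball (0 : (ℝ ∙ e)ᗮ) r) : ContDiffAt ℝ ∞ (nn w) y := by
  have h1 := contDiffAt_grad hws hy
  have h2 : ContDiffAt ℝ ∞ (fun y => 1 + ‖gradient w y‖ ^ 2) y :=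
    contDiffAt_const.add (h1.norm_sq ℝ)
  have h3 : ContDiffAt ℝ ∞ (aa w) y := by
    have h4 : (1 : ℝ) + ‖gradient w y‖ ^ 2 ≠ 0 := by positivity
    exact (h2.sqrt h4).inv (by positivity)
  have h5 : ContDiffAt ℝ ∞ (fun y => e - ((gradient w y : (ℝ ∙ e)ᗮ) : E)) y :=
    contDiffAt_const.sub ((((ℝ ∙ e)ᗮ).subtypeL.contDiff.contDiffAt).comp y h1)
  exact h3.smul h5

lemma contDiffAt_Ph (hws : ContDiffOn ℝ ∞ w (ball 0 r)) {q : (ℝ ∙ e)ᗮ × ℝ}
    (hq : q.1 ∈ ball (0 : (ℝ ∙ e)ᗮ) r) : ContDiffAt ℝ ∞ (Ph p0 w) q := by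
  have h1 : ContDiffAt ℝ ∞ (fun q : (ℝ ∙ e)ᗮ × ℝ => nn w q.1) q :=
    (contDiffAt_nn hws hq).comp q contDiffAt_fst
  have h2 : ContDiffAt ℝ ∞ (fun q : (ℝ ∙ e)ᗮ × ℝ => w q.1) q :=
    (hws.contDiffAt (isOpen_ball.mem_nhds hq)).comp q contDiffAt_fst
  have h3 : ContDiffAt ℝ ∞ (fun q : (ℝ ∙ e)ᗮ × ℝ => (q.1 : E)) q :=
    (((ℝ ∙ e)ᗮ).subtypeL.contDiff.contDiffAt).comp q contDiffAt_fst
  exact ((contDiffAt_const.add h3).add (h2.smul contDiffAt_const)).add (contDiffAt_snd.smul h1)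

lemma nn_zero (hdw0 : fderiv ℝ w 0 = 0) : nn w 0 = e := by
  have h : gradient w (0 : (ℝ ∙ e)ᗮ) = 0 := by
    rw [gradient, hdw0, map_zero]
  unfold nn aa
  rw [h]
  simp

lemma hasFDerivAt_Ph (he : ‖e‖ = 1) (hr : 0 < r) (hws : ContDiffOn ℝ ∞ w (ball 0 r))
    (hdw0 : fderiv ℝ w 0 = 0) :
    HasFDerivAt (Ph p0 w) (crd e he : ((ℝ ∙ e)ᗮ × ℝ) →L[ℝ] E) (0, 0) := by
  have hb : (0 : (ℝ ∙ e)ᗮ) ∈ ball (0 : (ℝ ∙ e)ᗮ) r := by simpa using hr
  have a1 : HasFDerivAt (fun q : (ℝ ∙ e)ᗮ × ℝ => (q.1 : E))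
      (((ℝ ∙ e)ᗮ).subtypeL.comp (ContinuousLinearMap.fst ℝ _ ℝ)) (0, 0) :=
    (((ℝ ∙ e)ᗮ).subtypeL.comp (ContinuousLinearMap.fst ℝ _ ℝ)).hasFDerivAt
  have hw' : HasFDerivAt w (fderiv ℝ w 0) (0 : (ℝ ∙ e)ᗮ) :=
    ((hws.contDiffAt (isOpen_ball.mem_nhds hb)).differentiableAt (by simp)).hasFDerivAt
  have a2 : HasFDerivAt (fun q : (ℝ ∙ e)ᗮ × ℝ => w q.1)
      ((fderiv ℝ w 0).comp (ContinuousLinearMap.fst ℝ _ ℝ)) (0, 0) :=
    HasFDerivAt.comp (g := w) (f := fun q : (ℝ ∙ e)ᗮ × ℝ => q.1) (0, 0) hw' hasFDerivAt_fst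
  have a3 : HasFDerivAt (fun q : (ℝ ∙ e)ᗮ × ℝ => nn w q.1)
      (fderiv ℝ (fun q : (ℝ ∙ e)ᗮ × ℝ => nn w q.1) (0, 0)) (0, 0) := by
    have : ContDiffAt ℝ ∞ (fun q : (ℝ ∙ e)ᗮ × ℝ => nn w q.1) (0, 0) :=
      ContDiffAt.comp (g := nn w) (0, 0) (contDiffAt_nn hws hb) contDiffAt_fst
    exact (this.differentiableAt (by simp)).hasFDerivAt
  have a4 : HasFDerivAt (fun q : (ℝ ∙ e)ᗮ × ℝ => q.2) (ContinuousLinearMap.snd ℝ (ℝ ∙ e)ᗮ ℝ)
    (0, 0) := hasFDerivAt_snd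
  have a5 := ((a1.const_add p0).add (a2.smul_const e)).add (a4.smul a3)
  refine a5.congr_fderiv ?_
  refine ContinuousLinearMap.ext fun q => ?_
  simp [crd_apply, hdw0, nn_zero hdw0]

/-- every point near `p0` is `Φ(y, φ x)`. -/
lemma exists_coord {φ : E → ℝ} (he : ‖e‖ = 1) (hφ : LipschitzWith 1 φ) (hr : 0 < r)
    (hw0 : w 0 = 0)
    (hwl : ∀ y ∈ ball (0 : (ℝ ∙ e)ᗮ) r, ∀ y' ∈ ball (0 : (ℝ ∙ e)ᗮ) r, |w y - w y'| ≤ ‖y - y'‖ / 4)
    (hwd : ∀ y ∈ ball (0 : (ℝ ∙ e)ᗮ) r, DifferentiableAt ℝ w y ∧ ‖fderiv ℝ w y‖ ≤ 1 / 4)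
    (hsign : ∀ y ∈ ball (0 : (ℝ ∙ e)ᗮ) r, ∀ t : ℝ, |t| < r →
      SignType.sign (φ (p0 + y + t • e)) = SignType.sign (t - w y))
    {x : E} (hdist : |φ x| = infDist x {x | φ x = 0}) (hx : 4 * ‖x - p0‖ < r) :
    ∃ y : (ℝ ∙ e)ᗮ, ‖y‖ ≤ 2 * ‖x - p0‖ ∧ x = Ph p0 w (y, φ x) := by
  set d := ‖x - p0‖ with hd
  have hd0 : 0 ≤ d := norm_nonneg _
  set Z : Set E := {x | φ x = 0} with hZ
  have hbb : ∀ y : (ℝ ∙ e)ᗮ, ‖y‖ < r → y ∈ ball (0 : (ℝ ∙ e)ᗮ) r := fun y hy => by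
    rwa [mem_ball_zero_iff]
  have hwb : ∀ y : (ℝ ∙ e)ᗮ, ‖y‖ < r → |w y| ≤ ‖y‖ / 4 := by
    intro y hy
    have := hwl y (hbb y hy) 0 (hbb 0 (by simpa using hr))
    simpa [hw0] using this
  have hp0 : φ p0 = 0 := by
    have h1 := hsign 0 (hbb 0 (by simpa using hr)) 0 (by simpa using hr)
    simp only [Submodule.coe_zero, add_zero, zero_smul, hw0, sub_zero, sign_zero] at h1
    exact sign_eq_zero_iff.1 h1
  have hZc : IsClosed Z := isClosed_eq hφ.continuous continuous_const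
  have hZn : Z.Nonempty := ⟨p0, hp0⟩
  obtain ⟨z, hzZ, hz⟩ := hZc.exists_infDist_eq_dist hZn x
  have hxz : ‖x - z‖ = |φ x| := by rw [hdist, hz, dist_eq_norm]
  have hxzd : ‖x - z‖ ≤ d := by
    have h1 : infDist x Z ≤ dist x p0 := infDist_le_dist_of_mem hp0
    rw [hz, dist_eq_norm, dist_eq_norm] at h1
    exact h1
  have hzp : ‖z - p0‖ ≤ 2 * d := by
    have h1 : z - p0 = (x - p0) - (x - z) := by abel
    rw [h1]
    refine (norm_sub_le _ _).trans ?_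
    linarith
  set y := pr e he (z - p0) with hy
  set t := ⟪e, z - p0⟫ with ht
  have hyn : ‖y‖ ≤ 2 * d := (norm_pr_le he _).trans hzp
  have htn : |t| ≤ 2 * d := by
    refine (abs_real_inner_le_norm _ _).trans ?_
    rw [he, one_mul]; exact hzp
  have hyr : ‖y‖ < r := by linarith
  have hz1 : p0 + (y : E) + t • e = z := by
    rw [add_assoc, pr_add]; abel
  have htw : t = w y := by
    have h1 := hsign y (hbb y hyr) t (by linarith)
    rw [hz1, show φ z = 0 from hzZ, sign_zero] at h1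
    have h2 := sign_eq_zero_iff.1 h1.symm
    linarith
  obtain ⟨hwdy, hwny⟩ := hwd y (hbb y hyr)
  -- minimality
  have hmin : IsLocalMin (fun y' : (ℝ ∙ e)ᗮ => ‖x - (p0 + (y' : E) + w y' • e)‖ ^ 2) y := by
    have hn : ∀ᶠ y' in 𝓝 y, y' ∈ ball (0 : (ℝ ∙ e)ᗮ) r := isOpen_ball.mem_nhds (hbb y hyr)
    filter_upwards [hn] with y' hy'
    have hy'r : ‖y'‖ < r := by rwa [mem_ball_zero_iff] at hy'
    have h1 : φ (p0 + (y' : E) + w y' • e) = 0 := by
      have h2 := hsign y' hy' (w y') ((hwb y' hy'r).trans_lt (by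
        have := norm_nonneg y'; linarith))
      rw [sub_self, sign_zero] at h2
      exact sign_eq_zero_iff.1 h2
    have h3 : infDist x Z ≤ dist x (p0 + (y' : E) + w y' • e) := infDist_le_dist_of_mem h1
    rw [hz, dist_eq_norm, dist_eq_norm, ← hz1, htw] at h3
    exact pow_le_pow_left₀ (norm_nonneg _) h3 2
  have hder : HasFDerivAt (fun y' : (ℝ ∙ e)ᗮ => x - (p0 + (y' : E) + w y' • e))
      (-(((ℝ ∙ e)ᗮ).subtypeL + (fderiv ℝ w y).smulRight e)) y := by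
    have a1 : HasFDerivAt (fun y' : (ℝ ∙ e)ᗮ => (y' : E)) (((ℝ ∙ e)ᗮ).subtypeL) y :=
      (((ℝ ∙ e)ᗮ).subtypeL).hasFDerivAt
    exact ((a1.const_add p0).add (hwdy.hasFDerivAt.smul_const e)).const_sub x
  have h0 := hmin.hasFDerivAt_eq_zero hder.norm_sq
  have hcrit : ∀ η : (ℝ ∙ e)ᗮ, ⟪x - z, (η : E)⟫ + fderiv ℝ w y η * ⟪x - z, e⟫ = 0 := by
    intro η
    have h1 := congrArg (fun L : (ℝ ∙ e)ᗮ →L[ℝ] ℝ => L η) h0
    simp only [smul_apply, ContinuousLinearMap.comp_apply,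
      innerSL_apply_apply, neg_apply, add_apply,
      ContinuousLinearMap.smulRight_apply, Submodule.subtypeL_apply,
      zero_apply] at h1
    rw [← htw, hz1, inner_neg_right, inner_add_right, inner_smul_right] at h1
    simp only [nsmul_eq_mul] at h1
    push_cast at h1
    linarith
  set b := ⟪e, x - z⟫ with hb
  set g : (ℝ ∙ e)ᗮ := gradient w y with hg
  have hpr : pr e he (x - z) = -(b • g) := by
    apply ext_inner_right ℝ
    intro η
    rw [inner_neg_left, inner_smul_left, hg, inner_grad']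
    have h1 := hcrit η
    have h2 : ⟪pr e he (x - z), η⟫ = ⟪x - z, (η : E)⟫ := by
      rw [Submodule.coe_inner, pr_coe, inner_sub_left, inner_smul_left, inner_orth]
      simp
    rw [h2]
    rw [real_inner_comm e (x - z)] at h1
    simp only [conj_trivial]
    linarith
  have hxz2 : x - z = b • (e - (g : E)) := by
    have h1 := pr_add he (x - z)
    rw [hpr] at h1
    rw [← h1, smul_sub]
    push_cast
    abel
  have hgn : ‖g‖ ≤ 1 / 4 := by
    rw [hg, gradient, LinearIsometryEquiv.norm_map]; exact hwny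
  have hbn : |b| ≤ d := by
    refine (abs_real_inner_le_norm _ _).trans ?_
    rw [he, one_mul]; exact hxzd
  have hnorm : |φ x| = |b| * (aa w y)⁻¹ := by
    rw [← hxz, hxz2, norm_smul, norm_sub_coe he, Real.norm_eq_abs]
    unfold aa
    rw [inv_inv]
  -- the sign
  have hsg : SignType.sign (φ x) = SignType.sign b := by
    have hbg : ‖b • g‖ ≤ |b| / 4 := by
      rw [norm_smul, Real.norm_eq_abs]
      nlinarith [abs_nonneg b]
    have h1 : ‖y - b • g‖ < r := by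
      refine (norm_sub_le _ _).trans_lt ?_
      have := abs_nonneg b
      linarith
    have h2 : |w y + b| < r := by
      refine (abs_add_le _ _).trans_lt ?_
      have := hwb y hyr
      linarith
    have h3 := hsign (y - b • g) (hbb _ h1) (w y + b) h2
    have h4 : p0 + ((y - b • g : (ℝ ∙ e)ᗮ) : E) + (w y + b) • e = x := by
      have h5 : x = z + (x - z) := by abel
      rw [h5, hxz2, ← hz1, htw, Submodule.coe_sub, Submodule.coe_smul, add_smul, smul_sub]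
      abel
    rw [h4] at h3
    rw [h3]
    have h6 := hwl y (hbb y hyr) (y - b • g) (hbb _ h1)
    rw [sub_sub_cancel] at h6
    have h7 := abs_le.1 h6
    rcases lt_trichotomy b 0 with hb0 | hb0 | hb0
    · rw [abs_of_neg hb0] at hbg
      rw [sign_neg hb0, sign_neg]
      linarith [h7.1, h7.2]
    · have : b • g = 0 := by rw [hb0, zero_smul]
      rw [this, hb0]; simp
    · rw [abs_of_pos hb0] at hbg
      rw [sign_pos hb0, sign_pos]
      linarith [h7.1, h7.2]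
  have hφx : φ x = b * (aa w y)⁻¹ := by
    have ha := inv_pos.2 (aa_pos w y)
    rcases lt_trichotomy b 0 with hb0 | hb0 | hb0
    · rw [sign_neg hb0] at hsg
      have := sign_eq_neg_one_iff.1 hsg
      rw [abs_of_neg hb0, abs_of_neg this] at hnorm
      linarith
    · rw [hb0, sign_zero] at hsg
      rw [sign_eq_zero_iff.1 hsg, hb0, zero_mul]
    · rw [sign_pos hb0] at hsg
      have := sign_eq_one_iff.1 hsg
      rw [abs_of_pos hb0, abs_of_pos this] at hnorm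
      linarith
  refine ⟨y, hyn, ?_⟩
  unfold Ph nn
  simp only
  rw [hφx, smul_smul, inv_mul_cancel_right₀ (aa_pos w y).ne', ← hg, ← hxz2, ← htw, hz1]
  abel

/-- **tubular neighbourhood**: the signed distance of a smooth graph is smooth, with unit
gradient. -/
theorem good_of_graph {φ : E → ℝ} (he : ‖e‖ = 1) (hφ : LipschitzWith 1 φ) (hr : 0 < r)
    (hw0 : w 0 = 0) (hdw0 : fderiv ℝ w 0 = 0)
    (hwl : ∀ y ∈ ball (0 : (ℝ ∙ e)ᗮ) r, ∀ y' ∈ ball (0 : (ℝ ∙ e)ᗮ) r, |w y - w y'| ≤ ‖y - y'‖ / 4)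
    (hwd : ∀ y ∈ ball (0 : (ℝ ∙ e)ᗮ) r, DifferentiableAt ℝ w y ∧ ‖fderiv ℝ w y‖ ≤ 1 / 4)
    (hws : ContDiffOn ℝ ∞ w (ball 0 r))
    (hsign : ∀ y ∈ ball (0 : (ℝ ∙ e)ᗮ) r, ∀ t : ℝ, |t| < r →
      SignType.sign (φ (p0 + y + t • e)) = SignType.sign (t - w y))
    {R : ℝ} (hR : 0 < R) (hdist : ∀ x ∈ ball p0 R, |φ x| = infDist x {x | φ x = 0}) :
    ∃ U : Set E, IsOpen U ∧ p0 ∈ U ∧ ContDiffOn ℝ ∞ φ U ∧ ∀ x ∈ U, ‖gradient φ x‖ = 1 := by
  have hb0 : (0 : (ℝ ∙ e)ᗮ) ∈ ball (0 : (ℝ ∙ e)ᗮ) r := by simpa using hr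
  have hcd : ContDiffAt ℝ ∞ (Ph p0 w) ((0, 0) : (ℝ ∙ e)ᗮ × ℝ) := contDiffAt_Ph hws hb0
  have hfd := hasFDerivAt_Ph (p0 := p0) he hr hws hdw0
  have hstr : HasStrictFDerivAt (Ph p0 w) (crd e he : ((ℝ ∙ e)ᗮ × ℝ) →L[ℝ] E) (0, 0) :=
    hcd.hasStrictFDerivAt' hfd (by simp)
  have hP0 : Ph p0 w ((0, 0) : (ℝ ∙ e)ᗮ × ℝ) = p0 := by
    unfold Ph; simp [hw0]
  set T := hstr.toOpenPartialHomeomorph (Ph p0 w) with hT
  have hTc : (T : (ℝ ∙ e)ᗮ × ℝ → E) = Ph p0 w := rfl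
  have hsrc : ((0, 0) : (ℝ ∙ e)ᗮ × ℝ) ∈ T.source := hstr.mem_toOpenPartialHomeomorph_source
  have htgt : p0 ∈ T.target := by
    have := T.map_source hsrc
    rwa [hTc, hP0] at this
  have hsymm0 : T.symm p0 = (0, 0) := by
    have := T.left_inv hsrc
    rwa [hTc, hP0] at this
  -- the good set of parameters
  have hgood : ∀ᶠ q in 𝓝 ((0, 0) : (ℝ ∙ e)ᗮ × ℝ), q.1 ∈ ball (0 : (ℝ ∙ e)ᗮ) r ∧
      fderiv ℝ (Ph p0 w) q ∈ range ((↑) : (((ℝ ∙ e)ᗮ × ℝ) ≃L[ℝ] E) → ((ℝ ∙ e)ᗮ × ℝ) →L[ℝ] E) := by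
    have h1 : ContinuousAt (fderiv ℝ (Ph p0 w)) ((0, 0) : (ℝ ∙ e)ᗮ × ℝ) :=
      (hcd.fderiv_right (m := 0) (by simp)).continuousAt
    have h2 : range ((↑) : (((ℝ ∙ e)ᗮ × ℝ) ≃L[ℝ] E) → ((ℝ ∙ e)ᗮ × ℝ) →L[ℝ] E) ∈
        𝓝 (fderiv ℝ (Ph p0 w) ((0, 0) : (ℝ ∙ e)ᗮ × ℝ)) := by
      rw [hfd.fderiv]
      exact ContinuousLinearEquiv.nhds _
    have h3 : ∀ᶠ q : (ℝ ∙ e)ᗮ × ℝ in 𝓝 ((0, 0) : (ℝ ∙ e)ᗮ × ℝ), q.1 ∈ ball (0 : (ℝ ∙ e)ᗮ) r :=
      continuousAt_fst.eventually (isOpen_ball.mem_nhds hb0)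
    exact h3.and (h1.eventually h2)
  have hsymmc : ContinuousAt T.symm p0 := T.symm.continuousAt (by rwa [T.symm_source])
  have hgood' : ∀ᶠ x in 𝓝 p0, (T.symm x).1 ∈ ball (0 : (ℝ ∙ e)ᗮ) r ∧
      fderiv ℝ (Ph p0 w) (T.symm x) ∈
        range ((↑) : (((ℝ ∙ e)ᗮ × ℝ) ≃L[ℝ] E) → ((ℝ ∙ e)ᗮ × ℝ) →L[ℝ] E) := by
    have h1 : Tendsto T.symm (𝓝 p0) (𝓝 (0, 0)) := by
      have := hsymmc.tendsto
      rwa [hsymm0] at this
    exact h1.eventually hgood
  have htgt' : ∀ᶠ x in 𝓝 p0, x ∈ T.target := T.open_target.mem_nhds htgt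
  -- φ is the second coordinate
  have hcoord : ∀ᶠ x in 𝓝 p0, φ x = (T.symm x).2 := by
    obtain ⟨ε, hε, hεs⟩ := Metric.isOpen_iff.1 T.open_source _ hsrc
    have hnear : ∀ᶠ x in 𝓝 p0, x ∈ ball p0 (min R (min (r / 4) (ε / 4))) :=
      isOpen_ball.mem_nhds (mem_ball_self (by positivity))
    filter_upwards [hnear] with x hx
    rw [mem_ball, dist_eq_norm, lt_min_iff, lt_min_iff] at hx
    obtain ⟨hx1, hx2, hx3⟩ := hx
    obtain ⟨y, hy1, hy2⟩ := exists_coord he hφ hr hw0 hwl hwd hsign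
      (hdist x (by rwa [mem_ball, dist_eq_norm])) (by linarith)
    have hp0 : φ p0 = 0 := by
      have h1 := hsign 0 hb0 0 (by simpa using hr)
      simp only [Submodule.coe_zero, add_zero, zero_smul, hw0, sub_zero, sign_zero] at h1
      exact sign_eq_zero_iff.1 h1
    have hφx : |φ x| ≤ ‖x - p0‖ := by
      have := hφ.dist_le_mul x p0
      rw [Real.dist_eq, hp0, sub_zero, dist_eq_norm] at this
      simpa using this
    have hs : ((y, φ x) : (ℝ ∙ e)ᗮ × ℝ) ∈ T.source := by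
      apply hεs
      rw [mem_ball, dist_eq_norm, Prod.norm_def, max_lt_iff]
      simp only [Prod.fst_sub, Prod.snd_sub, sub_zero, Real.norm_eq_abs]
      constructor <;> linarith
    have h3 := T.left_inv hs
    rw [hTc, ← hy2] at h3
    rw [h3]
  -- conclusion near p0
  have hfin : ∀ᶠ x in 𝓝 p0, ContDiffAt ℝ ∞ φ x ∧ ‖gradient φ x‖ = 1 := by
    filter_upwards [hcoord.eventually_nhds, htgt', hgood'] with x h1 h2 h3
    obtain ⟨h3a, A, hA⟩ := h3
    have h4 : ContDiffAt ℝ ∞ (Ph p0 w) (T.symm x) := contDiffAt_Ph hws h3a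
    have h5 : HasFDerivAt (Ph p0 w) (A : ((ℝ ∙ e)ᗮ × ℝ) →L[ℝ] E) (T.symm x) := by
      rw [hA]; exact (h4.differentiableAt (by simp)).hasFDerivAt
    have h6 : ContDiffAt ℝ ∞ T.symm x := T.contDiffAt_symm h2 h5 h4
    have h7 : ContDiffAt ℝ ∞ φ x := (contDiffAt_snd.comp x h6).congr_of_eventuallyEq h1
    refine ⟨h7, ?_⟩
    rw [gradient, LinearIsometryEquiv.norm_map]
    apply le_antisymm
    · have := norm_fderiv_le_of_lipschitz ℝ hφ (x₀ := x)
      simpa using this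
    · set y := (T.symm x).1 with hy
      set s := (T.symm x).2 with hs
      have hxy : Ph p0 w (y, s) = x := by
        have := T.right_inv h2
        rw [hTc] at this
        exact this
      have hline : HasDerivAt (fun s' : ℝ => Ph p0 w (y, s')) (nn w y) s := by
        unfold Ph
        have := ((hasDerivAt_id s).smul_const (nn w y)).const_add (p0 + (y : E) + w y • e)
        simpa using this
      have hcomp : HasDerivAt (fun s' : ℝ => φ (Ph p0 w (y, s'))) (fderiv ℝ φ x (nn w y)) s := by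
        have h8 : HasFDerivAt φ (fderiv ℝ φ x) (Ph p0 w (y, s)) := by
          rw [hxy]; exact (h7.differentiableAt (by simp)).hasFDerivAt
        exact h8.comp_hasDerivAt s hline
      have hev : (fun s' : ℝ => φ (Ph p0 w (y, s'))) =ᶠ[𝓝 s] fun s' => s' := by
        have h9 : Tendsto (fun s' : ℝ => Ph p0 w (y, s')) (𝓝 s) (𝓝 x) := by
          have := hline.continuousAt.tendsto
          rwa [hxy] at this
        have h10 : ∀ᶠ s' in 𝓝 s, ((y, s') : (ℝ ∙ e)ᗮ × ℝ) ∈ T.source := by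
          have h11 : Continuous fun s' : ℝ => ((y, s') : (ℝ ∙ e)ᗮ × ℝ) := by fun_prop
          have h12 : ((y, s) : (ℝ ∙ e)ᗮ × ℝ) ∈ T.source := T.map_target h2
          exact h11.continuousAt.eventually (T.open_source.mem_nhds h12)
        filter_upwards [h9.eventually h1, h10] with s' h13 h14
        rw [h13]
        have := T.left_inv h14
        rw [hTc] at this
        rw [this]
      have hone : fderiv ℝ φ x (nn w y) = 1 := by
        have h15 := hcomp.congr_of_eventuallyEq hev.symm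
        exact h15.unique (hasDerivAt_id s)
      have h16 := (fderiv ℝ φ x).le_opNorm (nn w y)
      rw [hone, norm_nn he, mul_one, norm_one] at h16
      exact h16
  obtain ⟨U, hU1, hU2, hU3⟩ := _root_.mem_nhds_iff.1 hfin
  exact ⟨U, hU2, hU3, fun x hx => (hU1 hx).1.contDiffWithinAt, fun x hx => (hU1 hx).2⟩

end Tub

/-! ### the trace of the Hessian -/

section Trace

variable [FiniteDimensional ℝ E] [MeasurableSpace E] [BorelSpace E]

/-- `0 ≤ ∫ ⟪∇φ, ∇ζ⟫` for smooth nonnegative compactly supported `ζ`. -/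
def SupW (V : Set E) (φ : E → ℝ) : Prop :=
  ∀ ζ : E → ℝ, ContDiff ℝ ∞ ζ → HasCompactSupport ζ → tsupport ζ ⊆ V → (∀ x, 0 ≤ ζ x) →
    0 ≤ ∫ x, ⟪gradient φ x, gradient ζ x⟫

/-- `∫ ⟪∇φ, ∇ζ⟫ ≤ 0` for smooth nonnegative compactly supported `ζ`. -/
def SubW (V : Set E) (φ : E → ℝ) : Prop :=
  ∀ ζ : E → ℝ, ContDiff ℝ ∞ ζ → HasCompactSupport ζ → tsupport ζ ⊆ V → (∀ x, 0 ≤ ζ x) →
    ∫ x, ⟪gradient φ x, gradient ζ x⟫ ≤ 0

lemma cont_mul {U : Set E} {g ζ : E → ℝ} (hg : ∀ x ∈ U, ContinuousAt g x) (hζ : Continuous ζ)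
    (hs : tsupport ζ ⊆ U) : Continuous fun x => g x * ζ x :=
  continuous_of_tsupport fun x hx => (hg x (hs (tsupport_mul_subset_right hx))).mul hζ.continuousAt

lemma contDiffAt_gradient {φ : E → ℝ} {x : E} (h : ContDiffAt ℝ ∞ φ x) :
    ContDiffAt ℝ ∞ (gradient φ) x := by
  have h1 : ContDiffAt ℝ ∞ (fderiv ℝ φ) x := h.fderiv_right (m := ∞) (by simp)
  exact (InnerProductSpace.toDual ℝ E).symm.toContinuousLinearEquiv.contDiff.contDiffAt.comp x h1

/-- the Laplacian of `φ` as the trace of the Hessian. -/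
def tr (φ : E → ℝ) (x : E) : ℝ := LinearMap.trace ℝ E (fderiv ℝ (gradient φ) x : E →ₗ[ℝ] E)

lemma tr_eq (φ : E → ℝ) {x : E} (h : ContDiffAt ℝ ∞ φ x) :
    tr φ x = ∑ i, fderiv ℝ (fun y => fderiv ℝ φ y (stdOrthonormalBasis ℝ E i)) x
      (stdOrthonormalBasis ℝ E i) := by
  unfold tr
  rw [LinearMap.trace_eq_sum_inner _ (stdOrthonormalBasis ℝ E)]
  refine Finset.sum_congr rfl fun i _ => ?_
  have h1 : HasFDerivAt (gradient φ) (fderiv ℝ (gradient φ) x) x :=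
    ((contDiffAt_gradient h).differentiableAt (by simp)).hasFDerivAt
  have h2 : (fun y => fderiv ℝ φ y (stdOrthonormalBasis ℝ E i)) =
      fun y => innerSL ℝ (stdOrthonormalBasis ℝ E i) (gradient φ y) := by
    funext y
    rw [innerSL_apply_apply, real_inner_comm, inner_grad']
  have h3 := ((innerSL ℝ (stdOrthonormalBasis ℝ E i)).hasFDerivAt (x := gradient φ x)).comp x h1
  have h4 : HasFDerivAt (fun y => innerSL ℝ (stdOrthonormalBasis ℝ E i) (gradient φ y))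
      ((innerSL ℝ (stdOrthonormalBasis ℝ E i)).comp (fderiv ℝ (gradient φ) x)) x := h3
  rw [h2, h4.fderiv]
  rfl

lemma continuousAt_tr {φ : E → ℝ} {x : E} (h : ContDiffAt ℝ ∞ φ x) : ContinuousAt (tr φ) x := by
  have h1 : ContinuousAt (fderiv ℝ (gradient φ)) x :=
    ((contDiffAt_gradient h).fderiv_right (m := 0) (by simp)).continuousAt
  have h2 : Continuous (fun L : E →L[ℝ] E => LinearMap.trace ℝ E (L : E →ₗ[ℝ] E)) :=
    ((LinearMap.trace ℝ E).comp (ContinuousLinearMap.coeLM ℝ)).continuous_of_finiteDimensional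
  exact h2.continuousAt.comp h1

theorem ibp_trace {U : Set E} (hU : IsOpen U) {φ : E → ℝ} (hφ : ContDiffOn ℝ ∞ φ U) {ζ : E → ℝ}
    (hζ : ContDiff ℝ ∞ ζ) (hc : HasCompactSupport ζ) (hs : tsupport ζ ⊆ U) :
    ∫ x, ⟪gradient φ x, gradient ζ x⟫ = - ∫ x, tr φ x * ζ x := by
  set b := stdOrthonormalBasis ℝ E with hb
  have hφx : ∀ x ∈ U, ContDiffAt ℝ ∞ φ x := fun x hx => hφ.contDiffAt (hU.mem_nhds hx)
  have hD : ∀ i, ∀ x ∈ U, ContDiffAt ℝ ∞ (fun y => fderiv ℝ φ y (b i)) x := by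
    intro i x hx
    have h1 : ContDiffAt ℝ ∞ (fderiv ℝ φ) x := (hφx x hx).fderiv_right (m := ∞) (by simp)
    exact h1.clm_apply contDiffAt_const
  have hDζ : ∀ i, ContDiff ℝ ∞ (fun y => fderiv ℝ ζ y (b i)) := by
    intro i
    have h1 : ContDiff ℝ ∞ (fderiv ℝ ζ) := hζ.fderiv_right (m := ∞) (by simp)
    exact h1.clm_apply contDiff_const
  have hsD : ∀ i, tsupport (fun y => fderiv ℝ ζ y (b i)) ⊆ U := by
    intro i
    refine (closure_mono ?_).trans ((tsupport_fderiv_subset ℝ (f := ζ)).trans hs)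
    intro x hx
    rw [Function.mem_support] at hx ⊢
    intro h0; exact hx (by rw [h0]; rfl)
  have hcD : ∀ i, HasCompactSupport (fun y => fderiv ℝ ζ y (b i)) := fun i => hc.fderiv_apply ℝ (b i)
  have hi1 : ∀ i, Integrable (fun x => fderiv ℝ φ x (b i) * fderiv ℝ ζ x (b i)) := by
    intro i
    refine (cont_mul (fun x hx => (hD i x hx).continuousAt) (hDζ i).continuous
      (hsD i)).integrable_of_hasCompactSupport (hcD i).mul_left
  have hi2 : ∀ i, Integrable (fun x => fderiv ℝ (fun y => fderiv ℝ φ y (b i)) x (b i) * ζ x) := by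
    intro i
    refine (cont_mul (fun x hx => ?_) hζ.continuous hs).integrable_of_hasCompactSupport hc.mul_left
    have h1 : ContDiffAt ℝ ∞ (fderiv ℝ (fun y => fderiv ℝ φ y (b i))) x :=
      (hD i x hx).fderiv_right (m := ∞) (by simp)
    exact (h1.clm_apply contDiffAt_const).continuousAt
  have hi3 : ∀ i, Integrable (fun x => fderiv ℝ φ x (b i) * ζ x) := by
    intro i
    exact (cont_mul (fun x hx => (hD i x hx).continuousAt) hζ.continuous
      hs).integrable_of_hasCompactSupport hc.mul_left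
  have hibp : ∀ i, ∫ x, fderiv ℝ φ x (b i) * fderiv ℝ ζ x (b i)
      = - ∫ x, fderiv ℝ (fun y => fderiv ℝ φ y (b i)) x (b i) * ζ x := by
    intro i
    exact integral_mul_fderiv_eq_neg_fderiv_mul_of_integrable (hi2 i) (hi1 i) (hi3 i)
      (fun x hx => (hD i x (hs hx)).differentiableAt (by simp))
      (fun x _ => (hζ.differentiable (by simp)) x)
  have h1 : ∀ x, ⟪gradient φ x, gradient ζ x⟫ = ∑ i, fderiv ℝ φ x (b i) * fderiv ℝ ζ x (b i) := by
    intro x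
    rw [← b.sum_inner_mul_inner]
    refine Finset.sum_congr rfl fun i _ => ?_
    rw [inner_grad', real_inner_comm, inner_grad']
  have h2 : ∀ x, tr φ x * ζ x = ∑ i, fderiv ℝ (fun y => fderiv ℝ φ y (b i)) x (b i) * ζ x := by
    intro x
    by_cases hx : x ∈ tsupport ζ
    · rw [tr_eq φ (hφx x (hs hx)), Finset.sum_mul]
    · rw [image_eq_zero_of_notMem_tsupport hx]; simp
  simp_rw [h1, h2]
  rw [integral_finsetSum _ fun i _ => hi1 i, integral_finsetSum _ fun i _ => hi2 i,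
    ← Finset.sum_neg_distrib]
  exact Finset.sum_congr rfl fun i _ => hibp i

/-- smooth superharmonic functions have nonpositive Laplacian. -/
theorem tr_nonpos {U V : Set E} (hU : IsOpen U) (hV : IsOpen V) {φ : E → ℝ}
    (hφ : ContDiffOn ℝ ∞ φ U) (hsup : SupW V φ) {x : E} (hxU : x ∈ U) (hxV : x ∈ V) :
    tr φ x ≤ 0 := by
  by_contra hcon
  push Not at hcon
  have hc : ContinuousAt (tr φ) x := continuousAt_tr (hφ.contDiffAt (hU.mem_nhds hxU))
  have hev : ∀ᶠ y in 𝓝 x, 0 < tr φ y ∧ y ∈ U ∧ y ∈ V :=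
    (hc.eventually_const_lt hcon).and (Filter.Eventually.and (hU.mem_nhds hxU)
      (hV.mem_nhds hxV))
  obtain ⟨ε, hε, hball⟩ := Metric.eventually_nhds_iff_ball.1 hev
  let f : ContDiffBump x := ⟨ε / 4, ε / 2, by positivity, by linarith⟩
  have hts : tsupport f ⊆ ball x ε := by
    rw [f.tsupport_eq]
    exact closedBall_subset_ball (by show ε / 2 < ε; linarith)
  have h0 := hsup f f.contDiff f.hasCompactSupport (fun y hy => (hball y (hts hy)).2.2)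
    (fun y => f.nonneg)
  rw [ibp_trace hU hφ f.contDiff f.hasCompactSupport (fun y hy => (hball y (hts hy)).2.1)] at h0
  have hcont : Continuous fun y => tr φ y * f y :=
    cont_mul (U := U) (fun y hy => continuousAt_tr (hφ.contDiffAt (hU.mem_nhds hy)))
      f.continuous (fun y hy => (hball y (hts hy)).2.1)
  have hnn : (0 : E → ℝ) ≤ fun y => tr φ y * f y := by
    intro y
    by_cases hy : y ∈ tsupport f
    · exact mul_nonneg (hball y (hts hy)).1.le f.nonneg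
    · simp [image_eq_zero_of_notMem_tsupport hy]
  have hpos := hcont.integral_pos_of_hasCompactSupport_nonneg_nonzero (μ := volume) (x := x)
    f.hasCompactSupport.mul_left hnn (by
      have h1 : f x = 1 := f.one_of_mem_closedBall (mem_closedBall_self f.rIn_pos.le)
      rw [h1, mul_one]; exact hcon.ne')
  linarith

lemma tr_neg {φ : E → ℝ} (x : E) : tr (fun y => -φ y) x = -tr φ x := by
  have h1 : gradient (fun y => -φ y) = fun y => -gradient φ y := by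
    funext y
    rw [gradient, gradient, fderiv_fun_neg, map_neg]
  unfold tr
  rw [h1, fderiv_fun_neg]
  simp

theorem tr_nonneg {U V : Set E} (hU : IsOpen U) (hV : IsOpen V) {φ : E → ℝ}
    (hφ : ContDiffOn ℝ ∞ φ U) (hsub : SubW V φ) {x : E} (hxU : x ∈ U) (hxV : x ∈ V) :
    0 ≤ tr φ x := by
  have h1 : SupW V (fun y => -φ y) := by
    intro ζ h1 h2 h3 h4
    have h5 := hsub ζ h1 h2 h3 h4
    have h6 : ∀ x, ⟪gradient (fun y => -φ y) x, gradient ζ x⟫ = -⟪gradient φ x, gradient ζ x⟫ := by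
      intro x
      rw [inner_grad', inner_grad', fderiv_fun_neg]; rfl
    simp_rw [h6]
    rw [integral_neg]
    linarith
  have h2 := tr_nonpos hU hV hφ.neg h1 hxU hxV
  rw [tr_neg] at h2
  linarith

/-- the Laplacian vanishes at `p0 ∈ {φ = 0}` if `φ` is superharmonic on `{φ > 0}` and
subharmonic on `{φ < 0}` and the signs are those of a graph. -/
theorem tr_eq_zero {φ : E → ℝ} {e p0 : E} {U : Set E} (hU : IsOpen U) (hpU : p0 ∈ U)
    (hφ : ContDiffOn ℝ ∞ φ U) (hφc : Continuous φ) {R r : ℝ} (hR : 0 < R) (hr : 0 < r)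
    (hpos : ∀ t : ℝ, 0 < t → t < r → 0 < φ (p0 + t • e))
    (hneg : ∀ t : ℝ, 0 < t → t < r → φ (p0 - t • e) < 0)
    (hsup : SupW (ball p0 R ∩ {x | 0 < φ x}) φ) (hsub : SubW (ball p0 R ∩ {x | φ x < 0}) φ) :
    tr φ p0 = 0 := by
  have hc : ContinuousAt (tr φ) p0 := continuousAt_tr (hφ.contDiffAt (hU.mem_nhds hpU))
  have hc1 : Tendsto (fun t : ℝ => p0 + t • e) (𝓝[>] 0) (𝓝 p0) := by
    have h1 : Continuous fun t : ℝ => p0 + t • e := by fun_prop
    have h2 := h1.tendsto 0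
    simp only [zero_smul, add_zero] at h2
    exact h2.mono_left nhdsWithin_le_nhds
  have hc2 : Tendsto (fun t : ℝ => p0 - t • e) (𝓝[>] 0) (𝓝 p0) := by
    have h1 : Continuous fun t : ℝ => p0 - t • e := by fun_prop
    have h2 := h1.tendsto 0
    simp only [zero_smul, sub_zero] at h2
    exact h2.mono_left nhdsWithin_le_nhds
  have hnb : ∀ᶠ x in 𝓝 p0, x ∈ U ∧ x ∈ ball p0 R :=
    Filter.Eventually.and (hU.mem_nhds hpU) (isOpen_ball.mem_nhds (mem_ball_self hR))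
  have hlt : ∀ᶠ t : ℝ in 𝓝[>] 0, 0 < t ∧ t < r := by
    filter_upwards [Ioo_mem_nhdsGT hr] with t ht using ht
  apply le_antisymm
  · refine le_of_tendsto (hc.tendsto.comp hc1) ?_
    filter_upwards [hc1.eventually hnb, hlt] with t h1 h2
    exact tr_nonpos hU (isOpen_ball.inter (isOpen_lt continuous_const hφc)) hφ hsup h1.1
      ⟨h1.2, hpos t h2.1 h2.2⟩
  · refine ge_of_tendsto (hc.tendsto.comp hc2) ?_
    filter_upwards [hc2.eventually hnb, hlt] with t h1 h2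
    exact tr_nonneg hU (isOpen_ball.inter (isOpen_lt hφc continuous_const)) hφ hsub h1.1
      ⟨h1.2, hneg t h2.1 h2.2⟩

end Trace

end Crest.Agent.R246.Mg295
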