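import Crest.Agent.R246.Boost_990
import Mathlib.Analysis.ODE.Gronwall
import Mathlib.Analysis.Calculus.ContDiff.RCLike
import Mathlib.Analysis.Calculus.FDeriv.Symmetric
import Mathlib.Analysis.InnerProductSpace.Calculus
import Mathlib.LinearAlgebra.Trace

/-!
# Smooth minimal hypercones: basic framework (helper436)

`SmoothMin φ`: `φ : E → ℝ` is a null cone (990), smooth with unit gradient near every nonzero
zero, and `trace D²φ = 0` there.  `ν = ∇φ`, `hs φ x = D²φ(x) : E →L E`.
-/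

set_option autoImplicit false
set_option linter.unusedSectionVars false
set_option linter.unusedSimpArgs false
noncomputable section
open MeasureTheory Set Filter Topology
open scoped RealInnerProductSpace ContDiff

namespace Crest.Agent.R246.SM436

open Crest.Agent.R246.H990

variable {E : Type*} [NormedAddCommGroup E] [InnerProductSpace ℝ E] [FiniteDimensional ℝ E]

/-- the Hessian operator `D(∇φ)(x)`. -/
def hs (φ : E → ℝ) (x : E) : E →L[ℝ] E := fderiv ℝ (gradient φ) x

/-- `φ` is smooth with unit gradient near `x`. -/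
def Good (φ : E → ℝ) (x : E) : Prop :=
  ∃ U : Set E, IsOpen U ∧ x ∈ U ∧ ContDiffOn ℝ ∞ φ U ∧ ∀ y ∈ U, ‖gradient φ y‖ = 1

/-- smooth minimal hypercone `{φ = 0}`. -/
structure SmoothMin [MeasurableSpace E] [BorelSpace E] (φ : E → ℝ) : Prop where
  nc : NullCone φ
  good : ∀ x, x ≠ 0 → φ x = 0 → Good φ x
  min : ∀ x, x ≠ 0 → φ x = 0 → LinearMap.trace ℝ E (hs φ x : E →ₗ[ℝ] E) = 0

/-! ### facts at good points -/

lemma isOpen_good (φ : E → ℝ) : IsOpen {x | Good φ x} := by
  rw [isOpen_iff_mem_nhds]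
  rintro x ⟨U, hU, hx, h1, h2⟩
  exact Filter.mem_of_superset (hU.mem_nhds hx) fun y hy => ⟨U, hU, hy, h1, h2⟩

lemma Good.contDiffAt {φ : E → ℝ} {x : E} (h : Good φ x) : ContDiffAt ℝ ∞ φ x := by
  obtain ⟨U, hU, hx, h1, -⟩ := h
  exact h1.contDiffAt (hU.mem_nhds hx)

lemma gradient_eq_comp (φ : E → ℝ) :
    gradient φ = fun x => (InnerProductSpace.toDual ℝ E).symm (fderiv ℝ φ x) := rfl

lemma contDiffAt_gradient {φ : E → ℝ} {x : E} (h : ContDiffAt ℝ ∞ φ x) :
    ContDiffAt ℝ ∞ (gradient φ) x := by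
  rw [gradient_eq_comp]
  have h1 : ContDiffAt ℝ ∞ (fderiv ℝ φ) x := h.fderiv_right (m := ∞) (by simp)
  exact (InnerProductSpace.toDual ℝ E).symm.toContinuousLinearEquiv.contDiff.contDiffAt.comp x h1

lemma Good.contDiffAt_gradient {φ : E → ℝ} {x : E} (h : Good φ x) :
    ContDiffAt ℝ ∞ (gradient φ) x := SM436.contDiffAt_gradient h.contDiffAt

lemma Good.norm_gradient {φ : E → ℝ} {x : E} (h : Good φ x) : ‖gradient φ x‖ = 1 := by
  obtain ⟨U, -, hx, -, h2⟩ := h
  exact h2 x hx

lemma Good.differentiableAt {φ : E → ℝ} {x : E} (h : Good φ x) : DifferentiableAt ℝ φ x :=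
  h.contDiffAt.differentiableAt (by simp)

lemma Good.hasFDerivAt_gradient {φ : E → ℝ} {x : E} (h : Good φ x) :
    HasFDerivAt (gradient φ) (hs φ x) x :=
  (h.contDiffAt_gradient.differentiableAt (by simp)).hasFDerivAt

lemma inner_gradient (φ : E → ℝ) (x v : E) : ⟪gradient φ x, v⟫ = fderiv ℝ φ x v := by
  rw [gradient_eq_comp]
  simp

lemma Good.hasFDerivAt {φ : E → ℝ} {x : E} (h : Good φ x) :
    HasFDerivAt φ (innerSL ℝ (gradient φ x)) x := by
  have h1 := h.differentiableAt.hasFDerivAt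
  convert h1 using 1
  ext v
  rw [innerSL_apply_apply, inner_gradient]

/-- the Hessian is symmetric. -/
lemma Good.hs_symm {φ : E → ℝ} {x : E} (h : Good φ x) (v w : E) :
    ⟪hs φ x v, w⟫ = ⟪v, hs φ x w⟫ := by
  have h2 : IsSymmSndFDerivAt ℝ φ x :=
    h.contDiffAt.isSymmSndFDerivAt (by
      rw [minSmoothness_of_isRCLikeNormedField]
      exact (WithTop.coe_le_coe.2 le_top : ((2 : ℕ∞) : WithTop ℕ∞) ≤ ((⊤ : ℕ∞) : WithTop ℕ∞)))
  have h1 : ContDiffAt ℝ ∞ (fderiv ℝ φ) x := h.contDiffAt.fderiv_right (m := ∞) (by simp)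
  have h3 : HasFDerivAt (fderiv ℝ φ) (fderiv ℝ (fderiv ℝ φ) x) x :=
    (h1.differentiableAt (by simp)).hasFDerivAt
  have h4 : ∀ v, hs φ x v = (InnerProductSpace.toDual ℝ E).symm (fderiv ℝ (fderiv ℝ φ) x v) := by
    intro v
    have h5 : HasFDerivAt (gradient φ)
        (((InnerProductSpace.toDual ℝ E).symm.toContinuousLinearEquiv : StrongDual ℝ E ≃L[ℝ] E).toContinuousLinearMap.comp
          (fderiv ℝ (fderiv ℝ φ) x)) x := by
      have h7 : HasFDerivAt (fun L : StrongDual ℝ E => (InnerProductSpace.toDual ℝ E).symm L)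
        ((InnerProductSpace.toDual ℝ E).symm.toContinuousLinearEquiv : StrongDual ℝ E ≃L[ℝ] E).toContinuousLinearMap
        (fderiv ℝ φ x) :=
        ((InnerProductSpace.toDual ℝ E).symm.toContinuousLinearEquiv : StrongDual ℝ E ≃L[ℝ] E).toContinuousLinearMap.hasFDerivAt
      exact h7.comp x h3
    rw [hs, h5.fderiv]
    rfl
  have h6 : ∀ v w, ⟪hs φ x v, w⟫ = fderiv ℝ (fderiv ℝ φ) x v w := by
    intro v w
    rw [h4]
    simp
  rw [real_inner_comm (hs φ x w) v, h6, h6]
  exact h2 v w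

/-- `A ν = 0`. -/
lemma Good.hs_gradient {φ : E → ℝ} {x : E} (h : Good φ x) : hs φ x (gradient φ x) = 0 := by
  obtain ⟨U, hU, hx, h1, h2⟩ := id h
  have h3 : HasFDerivAt (fun y => ⟪gradient φ y, gradient φ y⟫)
      ((fderivInnerCLM ℝ (gradient φ x, gradient φ x)).comp ((hs φ x).prod (hs φ x))) x :=
    h.hasFDerivAt_gradient.inner ℝ h.hasFDerivAt_gradient
  have h4 : (fun y => ⟪gradient φ y, gradient φ y⟫) =ᶠ[𝓝 x] fun _ => (1 : ℝ) := by
    filter_upwards [hU.mem_nhds hx] with y hy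
    rw [real_inner_self_eq_norm_sq, h2 y hy]; norm_num
  have h5 := h3.congr_of_eventuallyEq h4.symm
  have h6 := h5.unique (hasFDerivAt_const (1 : ℝ) x)
  apply ext_inner_right ℝ
  intro v
  rw [inner_zero_left, h.hs_symm]
  have h7 := congrArg (fun L : E →L[ℝ] ℝ => L v) h6
  simp only [ContinuousLinearMap.comp_apply, ContinuousLinearMap.prod_apply,
    fderivInnerCLM_apply, zero_apply] at h7
  rw [real_inner_comm (gradient φ x) (hs φ x v)] at h7
  linarith

/-! ### homogeneity -/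

section Hom

variable {φ : E → ℝ} (hom : ∀ t : ℝ, 0 ≤ t → ∀ x, φ (t • x) = t * φ x)
include hom

lemma hasFDerivAt_smul_of_hom {x : E} {L : E →L[ℝ] ℝ} {t : ℝ} (ht : 0 < t)
    (h : HasFDerivAt φ L x) : HasFDerivAt φ L (t • x) := by
  have h1 : HasFDerivAt (fun y : E => t⁻¹ • y) (t⁻¹ • ContinuousLinearMap.id ℝ E) (t • x) :=
    (hasFDerivAt_id (t • x)).const_smul t⁻¹
  have hx : t⁻¹ • t • x = x := by rw [smul_smul, inv_mul_cancel₀ ht.ne', one_smul]
  have h2 : HasFDerivAt φ L (t⁻¹ • t • x) := by rw [hx]; exact h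
  have h3 := (h2.comp (t • x) h1).const_mul t
  have h4 : (fun y => t * (φ ∘ fun y : E => t⁻¹ • y) y) = φ := by
    funext y
    simp only [Function.comp]
    rw [hom t⁻¹ (by positivity)]
    field_simp
  rw [h4] at h3
  have h5 : t • L.comp (t⁻¹ • ContinuousLinearMap.id ℝ E) = L := by
    ext v
    simp only [smul_apply, ContinuousLinearMap.comp_apply, ContinuousLinearMap.id_apply, map_smul,
      smul_eq_mul]
    field_simp
  rwa [h5] at h3

lemma fderiv_smul_of_hom (x : E) {t : ℝ} (ht : 0 < t) :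
    fderiv ℝ φ (t • x) = fderiv ℝ φ x := by
  by_cases h : DifferentiableAt ℝ φ x
  · exact (hasFDerivAt_smul_of_hom hom ht h.hasFDerivAt).fderiv
  · have h' : ¬ DifferentiableAt ℝ φ (t • x) := by
      intro h1
      apply h
      have := hasFDerivAt_smul_of_hom hom (inv_pos.2 ht) h1.hasFDerivAt
      rw [smul_smul, inv_mul_cancel₀ ht.ne', one_smul] at this
      exact this.differentiableAt
    rw [fderiv_zero_of_not_differentiableAt h, fderiv_zero_of_not_differentiableAt h']

/-- the gradient is homogeneous of degree `0`. -/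
lemma gradient_smul_of_hom (x : E) {t : ℝ} (ht : 0 < t) :
    gradient φ (t • x) = gradient φ x := by
  simp only [gradient_eq_comp, fderiv_smul_of_hom hom x ht]

lemma good_smul {x : E} (h : Good φ x) {t : ℝ} (ht : 0 < t) : Good φ (t • x) := by
  obtain ⟨U, hU, hx, h1, h2⟩ := h
  refine ⟨(fun y => t⁻¹ • y) ⁻¹' U, hU.preimage (by fun_prop), ?_, ?_, ?_⟩
  · simp only [mem_preimage, smul_smul, inv_mul_cancel₀ ht.ne', one_smul]; exact hx
  · have h3 : ContDiffOn ℝ ∞ (fun y => t * φ (t⁻¹ • y)) ((fun y => t⁻¹ • y) ⁻¹' U) := by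
      apply contDiffOn_const.mul
      exact h1.comp (by fun_prop) (fun y hy => hy)
    refine h3.congr fun y _ => ?_
    rw [hom t⁻¹ (by positivity)]; field_simp
  · intro y hy
    have := h2 _ hy
    rwa [gradient_smul_of_hom hom y (inv_pos.2 ht)] at this

/-- Euler's identity. -/
lemma Good.euler {x : E} (h : Good φ x) : ⟪gradient φ x, x⟫ = φ x := by
  have h1 : HasDerivAt (fun t : ℝ => φ (t • x)) (⟪gradient φ x, x⟫) 1 := by
    have h2 : HasDerivAt (fun t : ℝ => t • x) ((1 : ℝ) • x) 1 := (hasDerivAt_id (1 : ℝ)).smul_const x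
    have h3 : HasFDerivAt φ (innerSL ℝ (gradient φ x)) ((1 : ℝ) • x) := by
      rw [one_smul]; exact h.hasFDerivAt
    have := h3.comp_hasDerivAt (1 : ℝ) h2
    rw [one_smul, innerSL_apply_apply] at this
    exact this
  have h2 : HasDerivAt (fun t : ℝ => t * φ x) (φ x) 1 := by
    simpa using (hasDerivAt_id (1 : ℝ)).mul_const (φ x)
  have h3 : (fun t : ℝ => φ (t • x)) =ᶠ[𝓝 1] fun t => t * φ x := by
    filter_upwards [lt_mem_nhds (zero_lt_one (α := ℝ))] with t ht
    exact hom t ht.le x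
  exact h1.unique (h2.congr_of_eventuallyEq h3)

/-- `A x = 0`. -/
lemma Good.hs_self {x : E} (h : Good φ x) : hs φ x x = 0 := by
  have h1 : HasDerivAt (fun t : ℝ => gradient φ (t • x)) (hs φ x x) 1 := by
    have h2 : HasDerivAt (fun t : ℝ => t • x) ((1 : ℝ) • x) 1 := (hasDerivAt_id (1 : ℝ)).smul_const x
    have h3 : HasFDerivAt (gradient φ) (hs φ x) ((1 : ℝ) • x) := by
      rw [one_smul]; exact h.hasFDerivAt_gradient
    have := h3.comp_hasDerivAt (1 : ℝ) h2
    rw [one_smul] at this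
    exact this
  have h3 : (fun t : ℝ => gradient φ (t • x)) =ᶠ[𝓝 1] fun _ => gradient φ x := by
    filter_upwards [lt_mem_nhds (zero_lt_one (α := ℝ))] with t ht
    exact gradient_smul_of_hom hom x ht
  exact h1.unique ((hasDerivAt_const (1 : ℝ) (gradient φ x)).congr_of_eventuallyEq h3)

/-- the Hessian is homogeneous of degree `-1`. -/
lemma Good.hs_smul {x : E} (h : Good φ x) {t : ℝ} (ht : 0 < t) :
    hs φ (t • x) = t⁻¹ • hs φ x := by
  have h1 : HasFDerivAt (fun y : E => t⁻¹ • y) (t⁻¹ • ContinuousLinearMap.id ℝ E) (t • x) :=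
    (hasFDerivAt_id (t • x)).const_smul t⁻¹
  have hx : t⁻¹ • t • x = x := by rw [smul_smul, inv_mul_cancel₀ ht.ne', one_smul]
  have h2 : HasFDerivAt (gradient φ) (hs φ x) (t⁻¹ • t • x) := by
    rw [hx]; exact h.hasFDerivAt_gradient
  have h3 := h2.comp (t • x) h1
  have h4 : (gradient φ ∘ fun y : E => t⁻¹ • y) = gradient φ := by
    funext y
    simp only [Function.comp]
    exact gradient_smul_of_hom hom y (inv_pos.2 ht)
  rw [h4] at h3
  rw [hs, h3.fderiv]
  ext v
  simp

end Hom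

/-! ### the tube -/

lemma exists_tube {φ : E → ℝ} (hom : ∀ t : ℝ, 0 ≤ t → ∀ x, φ (t • x) = t * φ x)
    (hc : Continuous φ) (hg : ∀ x, x ≠ 0 → φ x = 0 → Good φ x) :
    ∃ δ : ℝ, 0 < δ ∧ ∀ x, x ≠ 0 → |φ x| < δ * ‖x‖ → Good φ x := by
  set K : Set E := Metric.sphere (0 : E) 1 ∩ {x | Good φ x}ᶜ with hK
  have hKc : IsCompact K :=
    (isCompact_sphere (0 : E) 1).inter_right (isOpen_good φ).isClosed_compl
  have key : ∃ δ : ℝ, 0 < δ ∧ ∀ x ∈ K, δ ≤ |φ x| := by
    by_cases hne : K.Nonempty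
    · obtain ⟨x0, hx0, hmin⟩ := hKc.exists_isMinOn hne (hc.abs.continuousOn)
      refine ⟨|φ x0|, ?_, fun x hx => hmin hx⟩
      rw [abs_pos]
      intro h0
      refine hx0.2 (hg x0 ?_ h0)
      intro h
      have := hx0.1
      simp [h] at this
    · refine ⟨1, one_pos, fun x hx => (hne ⟨x, hx⟩).elim⟩
  obtain ⟨δ, hδ, hK2⟩ := key
  refine ⟨δ, hδ, fun x hx hx2 => ?_⟩
  have hn : 0 < ‖x‖ := norm_pos_iff.2 hx
  by_contra hng
  have h1 : ‖x‖⁻¹ • x ∈ K := by
    refine ⟨by simp [norm_smul, hn.ne'], fun h => hng ?_⟩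
    have := good_smul hom h hn
    rwa [smul_smul, mul_inv_cancel₀ hn.ne', one_smul] at this
  have h2 := hK2 _ h1
  rw [hom _ (by positivity), abs_mul, abs_of_pos (inv_pos.2 hn)] at h2
  have h3 : δ * ‖x‖ ≤ |φ x| := by
    have := mul_le_mul_of_nonneg_right h2 hn.le
    rwa [mul_comm (‖x‖⁻¹), mul_assoc, inv_mul_cancel₀ hn.ne', mul_one] at this
  linarith

/-- normal lines: inside the tube the gradient is constant along the segment in its direction. -/
lemma normal_line {φ : E → ℝ} {y : E} {c : ℝ} (hc : 0 ≤ c)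
    (hseg : ∀ s : ℝ, |s| ≤ c → Good φ (y + s • gradient φ y)) :
    ∀ s : ℝ, |s| ≤ c → gradient φ (y + s • gradient φ y) = gradient φ y ∧
      φ (y + s • gradient φ y) = φ y + s := by
  -- one-sided statement
  have one : ∀ ε : ℝ, |ε| = 1 → ∀ s : ℝ, 0 ≤ s → s ≤ c →
      gradient φ (y + (ε * s) • gradient φ y) = gradient φ y := by
    intro ε hε s hs0 hsc
    set n := gradient φ y with hn
    set γ : ℝ → E := fun s => y + (ε * s) • n with hγ
    have hmem : ∀ s ∈ Icc 0 c, Good φ (γ s) := by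
      intro s hs
      apply hseg
      rw [abs_mul, hε, one_mul, abs_of_nonneg hs.1]; exact hs.2
    have hγd : ∀ s, HasDerivAt γ (ε • n) s := by
      intro s
      have h1 : HasDerivAt (fun s : ℝ => ε * s) ε s := by
        simpa using (hasDerivAt_id s).const_mul ε
      exact (h1.smul_const n).const_add y
    set u : ℝ → E := fun s => gradient φ (γ s) - n with hu
    set u' : ℝ → E := fun s => (hs φ (γ s)) (ε • n) with hu'
    have hud : ∀ s ∈ Icc 0 c, HasDerivAt u (u' s) s := by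
      intro s hs
      exact ((hmem s hs).hasFDerivAt_gradient.comp_hasDerivAt s (hγd s)).sub_const n
    have hγcont : Continuous γ := by rw [hγ]; fun_prop
    have hbound : ∃ K : ℝ, 0 ≤ K ∧ ∀ s ∈ Icc 0 c, ‖hs φ (γ s)‖ ≤ K := by
      have hcont : ContinuousOn (fun s => ‖hs φ (γ s)‖) (Icc 0 c) := by
        intro s hs'
        have h1 : ContinuousAt (hs φ) (γ s) := by
          have h2 : ContDiffAt ℝ ∞ (hs φ) (γ s) :=
            (hmem s hs').contDiffAt_gradient.fderiv_right (m := ∞) (by simp)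
          exact h2.continuousAt
        exact (h1.comp hγcont.continuousAt).norm.continuousWithinAt
      obtain ⟨K, hK⟩ := isCompact_Icc.bddAbove_image hcont
      refine ⟨max K 0, le_max_right _ _, fun s hs' => ?_⟩
      exact (hK (mem_image_of_mem _ hs')).trans (le_max_left _ _)
    obtain ⟨K, hK0, hK⟩ := hbound
    have h0 : u 0 = 0 := by simp [hu, hγ, hn]
    have hb : ∀ s ∈ Ico 0 c, ‖u' s‖ ≤ K * ‖u s‖ := by
      intro s hs'
      have hs2 : s ∈ Icc 0 c := ⟨hs'.1, hs'.2.le⟩
      have h1 := (hmem s hs2).hs_gradient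
      have h2 : u' s = - (ε • (hs φ (γ s) (u s))) := by
        simp only [hu', hu, map_sub, h1, map_smul, zero_sub, smul_neg, neg_neg]
      rw [h2, norm_neg, norm_smul, Real.norm_eq_abs, hε, one_mul]
      exact ((hs φ (γ s)).le_opNorm _).trans (by gcongr; exact hK s hs2)
    have := norm_le_gronwallBound_of_norm_deriv_right_le (f := u) (f' := u') (δ := 0) (K := K)
      (ε := 0) (a := 0) (b := c)
      (fun s hs' => (hud s hs').continuousAt.continuousWithinAt)
      (fun s hs' => (hud s ⟨hs'.1, hs'.2.le⟩).hasDerivWithinAt)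
      (by rw [h0, norm_zero]) (fun s hs' => by simpa using hb s hs') s ⟨hs0, hsc⟩
    rw [gronwallBound_ε0_δ0] at this
    exact sub_eq_zero.1 (norm_le_zero_iff.1 this)
  have all : ∀ s : ℝ, |s| ≤ c → gradient φ (y + s • gradient φ y) = gradient φ y := by
    intro s hs'
    rcases le_total 0 s with h | h
    · have := one 1 (by simp) s h (by rwa [abs_of_nonneg h] at hs')
      simpa using this
    · have := one (-1) (by simp) (-s) (by linarith) (by rwa [abs_of_nonpos h] at hs')
      simpa using this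
  intro s hs'
  refine ⟨all s hs', ?_⟩
  -- integrate
  set n := gradient φ y with hn
  have hd : ∀ r ∈ Icc (-c) c, HasDerivAt (fun r : ℝ => φ (y + r • n) - r) 0 r := by
    intro r hr
    have hr' : |r| ≤ c := abs_le.2 hr
    have h1 := (hseg r hr').hasFDerivAt
    rw [all r hr'] at h1
    have h2 : HasDerivAt (fun r : ℝ => y + r • n) ((1 : ℝ) • n) r :=
      ((hasDerivAt_id r).smul_const n).const_add y
    have h3 := (h1.comp_hasDerivAt r h2).sub (hasDerivAt_id r)
    have hn1 : ‖n‖ = 1 := by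
      have := (hseg 0 (by simpa using hc)).norm_gradient
      simpa [hn] using this
    have h4 : (innerSL ℝ n) ((1 : ℝ) • n) - 1 = 0 := by
      simp [hn1]
    rw [h4] at h3
    exact h3
  have hconst : ∀ r ∈ Icc (-c) c, φ (y + r • n) - r = φ (y + (-c) • n) - (-c) := by
    have := constant_of_has_deriv_right_zero (f := fun r : ℝ => φ (y + r • n) - r) (a := -c)
      (b := c) (fun r hr => (hd r hr).continuousAt.continuousWithinAt)
      (fun r hr => (hd r ⟨hr.1, hr.2.le⟩).hasDerivWithinAt)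
    exact this
  have e1 := hconst s (abs_le.1 hs')
  have e2 := hconst 0 ⟨by linarith, hc⟩
  simp only [zero_smul, add_zero, sub_zero] at e2
  linarith

end Crest.Agent.R246.SM436
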