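import Crest.Agent.R246.Skel_656
import Crest.Agent.R246.Br3_549
import Crest.Agent.R246.Expn_105
import Crest.Agent.R246.Mg3_295
import Crest.Agent.R246.Mg4_295
import Crest.Agent.R246.Slice2_990
import Crest.Agent.R246.SM0_436
import Crest.Agent.R246.SD_638
import Crest.Agent.R246.Num_688

/-!
# R246 (helper549): assembly of the regularity block `StReg`

`[StObj (538, 872)] + [StMS (852)] + [StG (873)] + [StH1 (105)] + [StH2a (295)] + [StH2c (622)]`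
`⟹ Skel656.StReg SmoothMin m`.
-/

set_option autoImplicit false
set_option linter.unusedSectionVars false
set_option linter.unusedVariables false

noncomputable section
open MeasureTheory Set Filter Topology Metric
open scoped RealInnerProductSpace ContDiff Gradient
open Crest.Agent.R246.G873 Crest.Agent.R246.MS852
open Crest.Agent.R246.H990 (NullCone VB cV)
open Crest.Agent.R246.ThetaK688 (WW Theta)
open Crest.Agent.R246.Skel656 (E Tm Real' Lim StReg)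
open Crest.Agent.R246.Br549 (ACData H1In)
open Crest.Agent.R246.Mg295 (Expn)

namespace Crest.Agent.R246.Reg549

/-- E (538, 872): the limit object of a minimising sequence. -/
def StObj (m : ℕ) : Prop :=
  ∀ (ε : ℕ → ℝ) (R : ℕ → E m → ℝ) (φ : E m → ℝ) (a : ℝ), Real' m ε R φ a → Lim m φ → NullCone φ →
    VB φ a → (∀ ψ : E m → ℝ, NullCone ψ → ∀ A, VB ψ A → a ≤ A) → a < WW m →
    ∃ (F : Filter ℕ) (_ : F.NeBot) (G : GV (E m)), LimObj φ G (a * cV (E m)) ∧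
      ACData F φ G.μ ε R

/-- H1 (105): flatness and density `≤ 1 + κ` at all nearby zeros and scales give a pointwise
`C^{1,α}` expansion, `α > 1/2`. -/
def StH1 (n d : ℕ) : Prop :=
  ∃ κ > 0, ∃ η > 0, ∃ α : ℝ, 1 / 2 < α ∧ α ≤ 1 ∧
    ∀ (φ : EuclideanSpace ℝ (Fin n) → ℝ) (μ : Measure (EuclideanSpace ℝ (Fin n))),
    IsFiniteMeasureOnCompacts μ → G873.ClassD φ → VAR φ μ {0}ᶜ →
    ∀ (p₀ : EuclideanSpace ℝ (Fin n)) (r : ℝ), φ p₀ = 0 → 0 < r → 4 * r < ‖p₀‖ →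
      H1In φ μ d κ η r p₀ → ∃ ρ > 0, ∃ C : ℝ, Expn φ p₀ ρ C α

section H2

variable (F : Type) [NormedAddCommGroup F] [InnerProductSpace ℝ F] [FiniteDimensional ℝ F]
  [MeasurableSpace F] [BorelSpace F]

/-- H2a (295): the weak minimal surface equation of the graph. -/
def StH2a : Prop :=
  ∀ (φ : F → ℝ) (p0 : F), φ p0 = 0 → G873.ClassD φ → (∀ x, |φ x| = infDist x {x | φ x = 0}) →
    ∀ (e : F), ‖e‖ = 1 → ∀ (r0 K α : ℝ) (w : (ℝ ∙ e)ᗮ → ℝ), 0 < r0 → 0 ≤ K → 1 / 2 < α → α ≤ 1 →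
      w 0 = 0 → fderiv ℝ w 0 = 0 →
      (∀ y ∈ ball (0 : (ℝ ∙ e)ᗮ) r0, DifferentiableAt ℝ w y ∧ ‖fderiv ℝ w y‖ ≤ 1 / 4) →
      (∀ y ∈ ball (0 : (ℝ ∙ e)ᗮ) r0, ∀ y' ∈ ball (0 : (ℝ ∙ e)ᗮ) r0,
        |w y - w y'| ≤ ‖y - y'‖ / 4) →
      (∀ y ∈ ball (0 : (ℝ ∙ e)ᗮ) r0, ∀ y' ∈ ball (0 : (ℝ ∙ e)ᗮ) r0,
        ‖fderiv ℝ w y - fderiv ℝ w y'‖ ≤ K * ‖y - y'‖ ^ α) →
      (∀ y ∈ ball (0 : (ℝ ∙ e)ᗮ) r0, ∀ t : ℝ, |t| < r0 →
        SignType.sign (φ (p0 + y + t • e)) = SignType.sign (t - w y)) →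
      ∃ r1 > 0, r1 ≤ r0 ∧ ∀ ψ : (ℝ ∙ e)ᗮ → ℝ, ContDiff ℝ 1 ψ → HasCompactSupport ψ →
        tsupport ψ ⊆ ball 0 r1 →
        ∫ y, (Real.sqrt (1 + ‖gradient w y‖ ^ 2))⁻¹ * ⟪gradient w y, gradient ψ y⟫ = 0

/-- H2c (622): `C^{1,α}` weak solutions of the minimal surface equation are smooth. -/
def StH2c : Prop :=
  ∀ (r K α : ℝ) (w : F → ℝ), 0 < r → 0 ≤ K → 1 / 2 < α → α ≤ 1 → fderiv ℝ w 0 = 0 →
    (∀ y ∈ ball (0 : F) r, DifferentiableAt ℝ w y ∧ ‖fderiv ℝ w y‖ ≤ 1 / 4) →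
    (∀ y ∈ ball (0 : F) r, ∀ y' ∈ ball (0 : F) r,
      ‖fderiv ℝ w y - fderiv ℝ w y'‖ ≤ K * ‖y - y'‖ ^ α) →
    (∀ ψ : F → ℝ, ContDiff ℝ 1 ψ → HasCompactSupport ψ → tsupport ψ ⊆ ball 0 r →
      ∫ y, (Real.sqrt (1 + ‖gradient w y‖ ^ 2))⁻¹ * ⟪gradient w y, gradient ψ y⟫ = 0) →
    ∃ r1 > 0, r1 ≤ r ∧ ContDiffOn ℝ ∞ w (ball 0 r1)

end H2

section core

variable {F : Type} [NormedAddCommGroup F] [InnerProductSpace ℝ F] [FiniteDimensional ℝ F]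
  [MeasurableSpace F] [BorelSpace F]

/-- the class `D` of 873 in 638's form -/
theorem classD_univ {φ : F → ℝ} (h : G873.ClassD φ) : SD638.ClassD univ φ where
  lip := h.lip
  grad := by filter_upwards [h.grad] with x hx _ using hx
  pos := by
    intro ζ hζ hs ht h0
    rw [univ_inter] at ht
    exact h.sup ζ hζ hs h0 ht
  neg := by
    intro ζ hζ hs ht h0
    rw [univ_inter] at ht
    have := h.sub ζ hζ hs h0 ht
    have e : ∀ x, ⟪gradient (fun y => - φ y) x, gradient ζ x⟫ = - gi φ ζ x := by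
      intro x
      rw [SD638.gradient_neg', inner_neg_left]; rfl
    simp only [e, integral_neg]
    linarith

/-- from the expansion at all zeros near `p0` to smoothness and minimality at `p0`. -/
theorem good_of_expn [Nontrivial F] (hH2a : StH2a F)
    (hH2c : ∀ e : F, ‖e‖ = 1 → StH2c (ℝ ∙ e)ᗮ) {φ : F → ℝ} (hφ : G873.ClassD φ) {p0 : F}
    (hp0 : φ p0 = 0) {ρ C α : ℝ} (hρ : 0 < ρ) (hα : 1 / 2 < α) (hα1 : α ≤ 1)
    (hE : Expn φ p0 ρ C α) :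
    SM436.Good φ p0 ∧ LinearMap.trace ℝ F (SM436.hs φ p0 : F →ₗ[ℝ] F) = 0 := by
  have hdist : ∀ x, |φ x| = infDist x {x | φ x = 0} := (classD_univ hφ).abs_eq_infDist_univ
  obtain ⟨e, he, r0, hr0, K, hK, w, hw0, hdw0, hwd, hwl, hwh, hsign⟩ :=
    Mg295.exists_graph (by linarith) hα1 hφ.lip.continuous hp0 hρ hE
  obtain ⟨r1, hr1, hr10, hweak⟩ := hH2a φ p0 hp0 hφ hdist e he r0 K α w hr0 hK hα hα1 hw0 hdw0 hwd
    hwl hwh hsign
  have hsub1 : ball (0 : (ℝ ∙ e)ᗮ) r1 ⊆ ball 0 r0 := ball_subset_ball hr10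
  obtain ⟨r2, hr2, hr21, hsm⟩ := hH2c e he r1 K α w hr1 hK hα hα1 hdw0
    (fun y hy => hwd y (hsub1 hy)) (fun y hy y' hy' => hwh y (hsub1 hy) y' (hsub1 hy')) hweak
  have hr20 : r2 ≤ r0 := hr21.trans hr10
  have hsub2 : ball (0 : (ℝ ∙ e)ᗮ) r2 ⊆ ball 0 r0 := ball_subset_ball hr20
  obtain ⟨U, hU, hpU, hUs, hUg⟩ := Mg295.good_of_graph (p0 := p0) he hφ.lip hr2 hw0 hdw0
    (fun y hy y' hy' => hwl y (hsub2 hy) y' (hsub2 hy')) (fun y hy => hwd y (hsub2 hy)) hsm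
    (fun y hy t ht => hsign y (hsub2 hy) t (ht.trans_le hr20)) one_pos (fun x _ => hdist x)
  refine ⟨⟨U, hU, hpU, hUs, hUg⟩, ?_⟩
  have h0b : (0 : (ℝ ∙ e)ᗮ) ∈ ball (0 : (ℝ ∙ e)ᗮ) r0 := mem_ball_self hr0
  refine Mg295.tr_eq_zero (e := e) hU hpU hUs hφ.lip.continuous (R := 1) one_pos hr0 ?_ ?_ ?_ ?_
  · intro t ht htr
    have h := hsign 0 h0b t (by rwa [abs_of_pos ht])
    rw [hw0, sub_zero, sign_pos ht] at h
    have h2 := sign_eq_one_iff.1 h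
    simpa using h2
  · intro t ht htr
    have h := hsign 0 h0b (-t) (by rwa [abs_neg, abs_of_pos ht])
    rw [hw0, sub_zero, sign_neg (neg_lt_zero.2 ht)] at h
    have h2 := sign_eq_neg_one_iff.1 h
    simpa [sub_eq_add_neg] using h2
  · intro ζ hζ hs ht h0
    obtain ⟨C', hC'⟩ := hζ.lipschitzWith_of_hasCompactSupport hs (by simp)
    exact hφ.sup ζ ⟨C', hC'⟩ hs h0 (ht.trans inter_subset_right)
  · intro ζ hζ hs ht h0
    obtain ⟨C', hC'⟩ := hζ.lipschitzWith_of_hasCompactSupport hs (by simp)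
    exact hφ.sub ζ ⟨C', hC'⟩ hs h0 (ht.trans inter_subset_right)

end core

/-- **The regularity block.** -/
theorem stReg {m : ℕ} (hm : 2 ≤ m) (hObj : StObj m) (hMS : StMS (E m) (m + 1))
    (hG : StG (E m) (E (m - 1))) (hH1 : StH1 (m + 2) (m + 1)) (hH2a : StH2a (E m))
    (hH2c : ∀ e : E m, ‖e‖ = 1 → StH2c (ℝ ∙ e)ᗮ) :
    StReg (fun m φ => SM436.SmoothMin φ) m := by
  intro hT ε R φ a hreal hlim hN hV hmin ha
  obtain ⟨F, hF, G, L, D⟩ := hObj ε R φ a hreal hlim hN hV hmin ha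
  have hfE : Module.finrank ℝ (E m) = m + 2 := by simp
  have hfE' : Module.finrank ℝ (E (m - 1)) = m + 1 := by
    simp only [finrank_euclideanSpace_fin]; omega
  have hSm := Crest.Agent.R246.ThetaK688.unitSphereArea_pos m
  have hWW : WW m < 2 * Crest.GeometryTopology.SphereImmersion.unitSphereArea m := by
    unfold WW
    exact mul_lt_mul_of_pos_right (Crest.Agent.R246.ThetaK688.Theta_lt_two (by omega)) hSm
  have hmass := Crest.Agent.R246.ThetaK688.mass_lt_two hfE (ha.trans hWW)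
  have ha0 : 0 ≤ a := Crest.Agent.R246.H990.VB.nonneg hV
  have hcV := Crest.Agent.R246.ThetaK688.cV_pos hfE
  have hGc := hG (by rw [hfE, hfE']) (by rw [hfE']; omega) φ G (a * cV (E m))
    (mul_nonneg ha0 hcV.le) L hmass (fun ρ hρ B hB => by
      have hB' : WW (m - 1) ≤ B := hT ρ hρ B hB
      exact Crest.Agent.R246.ThetaK688.mass_lt_link hm hfE hfE' ha hB')
  obtain ⟨κ, hκ, η, hη, α, hα, hα1, hH⟩ := hH1
  have key : ∀ x : E m, x ≠ 0 → φ x = 0 →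
      SM436.Good φ x ∧ LinearMap.trace ℝ (E m) (SM436.hs φ x : E m →ₗ[ℝ] E m) = 0 := by
    intro p₀ hp₀ hp0
    have hpos : 0 < ‖p₀‖ := norm_pos_iff.2 hp₀
    have hA : a * cV (E m) < 2 * Real.pi ^ (((m + 1 : ℕ) : ℝ) / 2) := by
      have e : ((Module.finrank ℝ (E m) : ℝ) - 1) / 2 = ((m + 1 : ℕ) : ℝ) / 2 := by
        rw [hfE]; push_cast; ring
      rwa [e] at hmass
    obtain ⟨r, hr, hr1, hIn⟩ := Br549.bridge (n := m + 2) (d := m + 1) rfl (by omega) hMS L hA D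
      hGc hp₀ hp0 hκ hη (r₁ := ‖p₀‖ / 8) (by positivity)
    obtain ⟨ρ, hρ, C, hC⟩ := hH φ G.μ G.fin L.cD L.var p₀ r hp0 hr (by linarith) hIn
    exact good_of_expn hH2a hH2c L.cD hp0 hρ hα hα1 hC
  exact ⟨hN, fun x hx h0 => (key x hx h0).1, fun x hx h0 => (key x hx h0).2⟩

end Crest.Agent.R246.Reg549
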