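import Crest.Agent.R246.GlueReg_549
import Crest.Agent.R246.Reg_549
import Crest.Agent.R246.MSAll_852
import Crest.Agent.R246.H1_105
import Crest.Agent.R246.H2c6_622
import Crest.Agent.R246.Mg6_295

/-!
# R246 (helper549): the fields `br`, `h1`, `h2` of `Skel2.Inputs`, unconditional
-/

set_option autoImplicit false

noncomputable section
open MeasureTheory Set Filter Topology Metric
open scoped RealInnerProductSpace ContDiff Gradient

namespace Crest.Agent.R246.GlueReg549

/-- the bridge (852's Lemma MS plugged in) -/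
theorem stBr' {m : ℕ} (hm : 1 ≤ m) : Skel2.StBr m :=
  stBr hm (MS852.stMS (Skel656.E m) (m + 1))

/-- H1 (105) -/
theorem stH1 (m : ℕ) : Skel2.StH1 m := H1x105.stH1 m

theorem stH2a (F : Type) [NormedAddCommGroup F] [InnerProductSpace ℝ F] [FiniteDimensional ℝ F]
    [MeasurableSpace F] [BorelSpace F] : Reg549.StH2a F := by
  intro φ p0 hp0 hφ hdist e he r0 K α w hr0 hK hα hα1 hw0 hdw0 hwd hwl hwh hsgn
  exact Mg295.stH2a F φ p0 hp0 hφ hdist e he r0 K α w hr0 hK hα hα1 hw0 hdw0 hwd hwl hwh hsgn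

theorem stH2c (F : Type) [NormedAddCommGroup F] [InnerProductSpace ℝ F] [FiniteDimensional ℝ F]
    [MeasurableSpace F] [BorelSpace F] : Reg549.StH2c F := by
  intro r K α w hr hK hα hα1 h0 hd hh hw
  exact H2x622.smooth_of_weak_mse r K α w hr hK hα hα1 h0 hd hh hw

/-- H2 (295, 622) -/
theorem stH2 (m : ℕ) : Skel2.StH2 m := by
  intro φ _ hD _ p _ hp0 ρ hρ C hE
  have : Nontrivial (Skel656.E m) := by
    apply Module.nontrivial_of_finrank_pos (R := ℝ)
    simp [Skel656.E]
  exact Reg549.good_of_expn (stH2a _) (fun e _ => stH2c _) hD hp0 hρ (by norm_num) (by norm_num) hE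

end Crest.Agent.R246.GlueReg549
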