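import Crest.Agent.R246.Skel2_656
import Crest.Agent.R246.Br3_549
import Crest.Agent.R246.Lim4_538

/-!
# R246 (helper549): glue onto `Skel2_656`

`stBr : StMS (E m) (m+1) → StBr m` and `stH1_of : H1X m → StH1 m` (`H1X` = 105's final theorem).
-/

set_option autoImplicit false
set_option linter.unusedSectionVars false
set_option linter.unusedVariables false

noncomputable section
open MeasureTheory Set Filter Topology Metric
open scoped RealInnerProductSpace ContDiff Gradient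
open Crest.Agent.R246.G873 Crest.Agent.R246.MS852
open Crest.Agent.R246.H990 (NullCone VB cV)
open Crest.Agent.R246.ThetaK688 (WW Theta)
open Crest.Agent.R246.Skel656 (E Tm ACsol)
open Crest.Agent.R246.Skel2 (ACLim eDen FlatAt ContAt DensAt StBr StH1)
open Crest.Agent.R246.Br549
open Crest.Agent.R246.Mg295 (Expn)
open Crest.GeometryTopology.SphereImmersion

namespace Crest.Agent.R246.GlueReg549

theorem hw_fun {n : ℕ} :
    (MSP782.hw : EuclideanSpace ℝ (Fin n) → ℝ) = fun x => (‖x‖ ^ 2)⁻¹ := by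
  rw [hw_eq]; rfl

/-- 656's limits are my Allen–Cahn data. -/
theorem acData {m : ℕ} (hm : 1 ≤ m) {U : Filter ℕ} {ε : ℕ → ℝ} {R : ℕ → E m → ℝ} {r φ : E m → ℝ}
    {μ : Measure (E m)} {a : ℝ} (h : ACLim m U ε R r φ μ a) : ACData U φ μ ε R where
  sol k := by
    rw [hw_fun]
    exact Lim538.acsol_of_ac (by omega) (h.sol k).sm (h.sol k).pos (h.sol k).eq
  hom k t ht x := (h.sol k).sm.hom t x ht
  eps := h.eps
  conv := by
    intro δ hδ
    have h1 := Metric.tendstoUniformlyOn_iff.1 h.conv δ hδ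
    filter_upwards [h1] with k hk x hx
    have hx0 : x ≠ 0 := by
      intro h0
      rw [h0, norm_zero] at hx
      norm_num at hx
    have h2 := hk x hx0
    rw [dist_comm, Real.dist_eq] at h2
    have h3 := abs_le.1 (h.rpi x hx0)
    rw [h.phi x, hx, one_mul, Real.arcsin_sin (by linarith) h3.2]
    exact h2.le
  energy := by
    intro f hf hfs _
    refine (h.loc f hf hfs).congr fun k => ?_
    rw [← integral_const_mul]
    refine integral_congr_ae (Eventually.of_forall fun x => ?_)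
    simp only [eDen]
    ring

theorem flatAt_smul {m : ℕ} {φ : E m → ℝ} (hom : ∀ t : ℝ, 0 ≤ t → ∀ x, φ (t • x) = t * φ x)
    {p : E m} {t : ℝ} (ht : 0 < t) (h : FlatAt φ p) : FlatAt φ (t⁻¹ • p) := by
  intro δ hδ
  obtain ⟨r₀, hr₀, h1⟩ := h δ hδ
  refine ⟨t⁻¹ * r₀, by positivity, fun r hr hrr => ?_⟩
  obtain ⟨e, he, h2⟩ := h1 (t * r) (by positivity) (by
    rw [inv_mul_eq_div, lt_div_iff₀ ht] at hrr; linarith)
  refine ⟨e, he, fun x hx => ?_⟩
  have e1 : t • x - p = t • (x - t⁻¹ • p) := by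
    rw [smul_sub, smul_smul, mul_inv_cancel₀ ht.ne', one_smul]
  have h3 := h2 (t • x) (by
    rw [e1, norm_smul, Real.norm_eq_abs, abs_of_pos ht]
    nlinarith)
  rw [e1, hom t ht.le, real_inner_smul_right, ← mul_sub, abs_mul, abs_of_pos ht] at h3
  have h4 : t * |φ x - ⟪e, x - t⁻¹ • p⟫| ≤ t * (δ * r) := by linarith
  exact le_of_mul_le_mul_left h4 ht

/-- **BRIDGE**, 656's form. -/
theorem stBr {m : ℕ} (hm : 1 ≤ m) (hMS : StMS (E m) (m + 1)) : StBr m := by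
  intro U ε R r φ G a hL hO ha2 hdens p hp hp0 hfl κ hκ
  have := hL.neBot
  have := G.fin
  have hfin : Module.finrank ℝ (E m) = (m + 1) + 1 := by simp [E]
  have hd : 1 ≤ m + 1 := by omega
  have D := acData hm hL
  have hHom : Br549.HomM G.μ (m + 1) := by
    intro t ht f hf hfs
    have := hO.homμ t ht f hf hfs
    rwa [hfin, Nat.add_sub_cancel] at this
  have hA : a * cV (E m) < 2 * Real.pi ^ (((m + 1 : ℕ) : ℝ) / 2) := by
    have h := ThetaK688.mass_lt_two (E := E m) (m := m) (by simp [E]) ha2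
    have e : ((Module.finrank ℝ (E m) : ℝ) - 1) / 2 = ((m + 1 : ℕ) : ℝ) / 2 := by
      rw [hfin]; push_cast; ring
    rwa [e] at h
  have hΘ := Thinf_lt_two hHom hd hO.mass hA
  have hmono : ∀ q : E m, q ≠ 0 → φ q = 0 → ∀ s s' : ℝ, 0 < s → s ≤ s' →
      Dp G.μ q s / s ^ (m + 1) ≤ Dp G.μ q s' / s' ^ (m + 1) := by
    intro q hq hq1 s s' hs hss
    have := Dp_mono_ratio (hdens q hq hq1).1 hs hss
    rwa [hfin, Nat.add_sub_cancel] at this
  set t : ℝ := ‖p‖ with ht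
  have ht0 : 0 < t := norm_pos_iff.2 hp
  set q : E m := t⁻¹ • p with hq
  have hq1 : ‖q‖ = 1 := by rw [hq, norm_smul, norm_inv, norm_norm, inv_mul_cancel₀ ht0.ne']
  have hqz : φ q = 0 := by rw [hq, hO.hom _ (by positivity), hp0, mul_zero]
  have hq0 : q ≠ 0 := by
    intro h; rw [h, norm_zero] at hq1; norm_num at hq1
  obtain ⟨r, hr, -, -, hT⟩ := bridge_unit (n := m + 2) rfl hd hMS D hO.cD.lip hO.hom hq1 hqz
    (flatAt_smul hO.hom ht0 hfl) ENNReal.toReal_nonneg hΘ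
    (fun s hs => Dp_le hd hfin hHom (hdens q hq0 hqz).2 hs) hmono hκ one_pos one_pos
  refine ⟨t * r, by positivity, fun x hx hxp s hs hsr => ?_⟩
  have h1 : φ (t⁻¹ • x) = 0 := by rw [hO.hom _ (by positivity), hx, mul_zero]
  have h2 : ‖t⁻¹ • x - q‖ ≤ r := by
    have e1 : t⁻¹ • x - q = t⁻¹ • (x - p) := by rw [hq, smul_sub]
    rw [e1, norm_smul, norm_inv, Real.norm_eq_abs, abs_of_pos ht0, inv_mul_le_iff₀ ht0]
    exact hxp.le
  have h3 := hT (t⁻¹ • x) h1 h2 (t⁻¹ * s) (by positivity) (by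
    rw [inv_mul_le_iff₀ ht0]; nlinarith)
  have h4 := Dp_scale hHom ht0 (by positivity : 0 < t⁻¹ * s) (t⁻¹ • x)
  rw [smul_smul, mul_inv_cancel₀ ht0.ne', one_smul, ← mul_assoc, mul_inv_cancel₀ ht0.ne',
    one_mul] at h4
  have h5 : Dp G.μ x s ≤ (1 + κ) * cpsi (m + 1) * s ^ (m + 1) := by
    rw [h4]
    calc t ^ (m + 1) * Dp G.μ (t⁻¹ • x) (t⁻¹ * s)
        ≤ t ^ (m + 1) * ((1 + κ) * cpsi (m + 1) * (t⁻¹ * s) ^ (m + 1)) := by gcongr
      _ = _ := by rw [mul_pow, inv_pow]; field_simp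
  exact h5

/-- 105's final theorem, `n = m + 2`, `d = m + 1`. -/
def H1X (m : ℕ) : Prop :=
  ∃ κ > 0, ∃ η > 0, ∀ (φ : E m → ℝ) (μ : Measure (E m)), IsFiniteMeasureOnCompacts μ →
    ClassD φ → VAR φ μ {0}ᶜ → ∀ (p₀ : E m) (r : ℝ), φ p₀ = 0 → 0 < r → 4 * r < ‖p₀‖ →
      H1In φ μ (m + 1) κ η r p₀ → ∃ ρ > 0, ∃ C : ℝ, Expn φ p₀ ρ C (3 / 4)

theorem stH1_of {m : ℕ} (h : H1X m) : StH1 m := by
  obtain ⟨κ, hκ, η, hη, h⟩ := h
  intro φ μ hμ hD hV _ p hp hp0 hfl hct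
  obtain ⟨r₀, hr₀, h1⟩ := hfl η hη
  obtain ⟨r₁, hr₁, h2⟩ := hct κ hκ
  have hpos : 0 < ‖p‖ := norm_pos_iff.2 hp
  set r : ℝ := min (r₀ / 2) (min (r₁ / 4) (‖p‖ / 8)) with hr
  have hr0 : 0 < r := by positivity
  have e1 : r ≤ r₀ / 2 := min_le_left _ _
  have e2 : r ≤ r₁ / 4 := (min_le_right _ _).trans (min_le_left _ _)
  have e3 : r ≤ ‖p‖ / 8 := (min_le_right _ _).trans (min_le_right _ _)
  refine h φ μ hμ hD hV p r hp0 hr0 (by linarith) ⟨?_, ?_⟩
  · obtain ⟨e, he, hfl⟩ := h1 r hr0 (by linarith)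
    exact ⟨e, he, fun x hx => hfl x (by linarith)⟩
  · intro q hq hqp s hs hsr
    exact h2 q hq (by linarith) s hs (by linarith)

end Crest.Agent.R246.GlueReg549
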