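import Crest.Agent.R246.Iter_105
import Mathlib.Analysis.InnerProductSpace.Projection.Submodule
import Mathlib.Analysis.InnerProductSpace.Dual
import Mathlib.Analysis.Calculus.Gradient.Basic
import Mathlib.Topology.Order.IntermediateValue

/-!
R246, helper105.  From pointwise `C^{1,α}` expansions at the zeros to a `C^{1,α}` graph.
-/

set_option autoImplicit false
set_option linter.unusedSectionVars false

namespace Crest.Agent.R246.Iter105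

open Filter Topology Metric Set
open scoped RealInnerProductSpace

variable {E : Type*} [NormedAddCommGroup E] [InnerProductSpace ℝ E]

theorem inner_perp {e : E} (y : (ℝ ∙ e)ᗮ) : ⟪e, (y : E)⟫ = 0 :=
  Submodule.mem_orthogonal_singleton_iff_inner_right.mp y.2

theorem pow_le_lin {K η R α s : ℝ} (hR : 0 < R) (hα : 0 < α) (hK : 0 ≤ K) (hη : 0 ≤ η)
    (hs : 0 ≤ s) (hsR : s ≤ R) : K * η * R * (s / R) ^ (1 + α) ≤ K * η * s := by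
  have h1 : (s / R) ^ (1 + α) ≤ s / R := by
    calc (s / R) ^ (1 + α) ≤ (s / R) ^ (1 : ℝ) :=
          Real.rpow_le_rpow_of_exponent_ge' (by positivity) ((div_le_one hR).mpr hsR)
            zero_le_one (by linarith)
      _ = s / R := Real.rpow_one _
  calc K * η * R * (s / R) ^ (1 + α) ≤ K * η * R * (s / R) := by gcongr
    _ = K * η * s := by field_simp

/-- the assertion that `w` (with slopes `a`) parametrises the zero set near `p₀` -/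
structure IsGraph (φ : E → ℝ) (p₀ e : E) (R α κ : ℝ) (w : (ℝ ∙ e)ᗮ → ℝ) (a : (ℝ ∙ e)ᗮ → E) :
    Prop where
  zero : w 0 = 0
  small : ∀ y : (ℝ ∙ e)ᗮ, ‖y‖ ≤ R / 4 → |w y| ≤ R / 16
  pos_iff : ∀ y : (ℝ ∙ e)ᗮ, ‖y‖ ≤ R / 4 → ∀ t : ℝ, |t| ≤ R / 2 → (0 < φ (p₀ + y + t • e) ↔ w y < t)
  neg_iff : ∀ y : (ℝ ∙ e)ᗮ, ‖y‖ ≤ R / 4 → ∀ t : ℝ, |t| ≤ R / 2 → (φ (p₀ + y + t • e) < 0 ↔ t < w y)
  zero_iff : ∀ y : (ℝ ∙ e)ᗮ, ‖y‖ ≤ R / 4 → ∀ t : ℝ, |t| ≤ R / 2 → (φ (p₀ + y + t • e) = 0 ↔ t = w y)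
  norm_slope : ∀ y : (ℝ ∙ e)ᗮ, ‖y‖ ≤ R / 4 → ‖a y‖ = 1
  slope_near : ∀ y : (ℝ ∙ e)ᗮ, ‖y‖ ≤ R / 4 → ‖a y - e‖ ≤ 1 / 4
  expand : ∀ y : (ℝ ∙ e)ᗮ, ‖y‖ ≤ R / 4 → ∀ x, ‖x - (p₀ + y + w y • e)‖ ≤ R →
    |φ x - ⟪a y, x - (p₀ + y + w y • e)⟫| ≤
      κ * R * (‖x - (p₀ + y + w y • e)‖ / R) ^ (1 + α)
  lip : ∀ y y' : (ℝ ∙ e)ᗮ, ‖y‖ ≤ R / 4 → ‖y'‖ ≤ R / 4 → |w y' - w y| ≤ ‖y' - y‖
  taylor : ∀ y y' : (ℝ ∙ e)ᗮ, ‖y‖ ≤ R / 4 → ‖y'‖ ≤ R / 4 →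
    |w y' - w y + ⟪a y, ((y' - y : (ℝ ∙ e)ᗮ) : E)⟫ / ⟪a y, e⟫| ≤
      2 * κ * R * (2 * ‖y' - y‖ / R) ^ (1 + α)
  slope_holder : ∀ y y' : (ℝ ∙ e)ᗮ, ‖y‖ ≤ R / 8 → ‖y'‖ ≤ R / 8 →
    ‖a y - a y'‖ ≤ 4 * κ * (4 * ‖y' - y‖ / R) ^ α

theorem exists_graph {φ : E → ℝ} (hc : Continuous φ) {p₀ e : E} (he : ‖e‖ = 1) {R α K η : ℝ}
    (hR : 0 < R) (hα : 0 < α) (hK : 0 ≤ K) (hη : 0 ≤ η) (hκ : K * η ≤ 1 / 8) (h0 : φ p₀ = 0)
    (hflat : ∀ x, ‖x - p₀‖ ≤ R → |φ x - ⟪e, x - p₀⟫| ≤ R / 16)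
    (hexp : ∀ p, φ p = 0 → ‖p - p₀‖ ≤ R → ∃ a : E, ‖a‖ = 1 ∧ ‖a - e‖ ≤ 1 / 4 ∧
      ∀ x, ‖x - p‖ ≤ R → |φ x - ⟪a, x - p⟫| ≤ K * η * R * (‖x - p‖ / R) ^ (1 + α)) :
    ∃ (w : (ℝ ∙ e)ᗮ → ℝ) (a : (ℝ ∙ e)ᗮ → E), IsGraph φ p₀ e R α (K * η) w a := by
  classical
  have hee : ⟪e, e⟫ = (1 : ℝ) := by rw [real_inner_self_eq_norm_sq, he]; norm_num
  have hin : ∀ (y : (ℝ ∙ e)ᗮ) (t : ℝ), ⟪e, p₀ + y + t • e - p₀⟫ = t := by
    intro y t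
    have : p₀ + (y : E) + t • e - p₀ = y + t • e := by abel
    rw [this, inner_add_right, inner_perp, inner_smul_right, hee, zero_add, mul_one]
  have hnorm : ∀ (y : (ℝ ∙ e)ᗮ) (t : ℝ), ‖p₀ + (y : E) + t • e - p₀‖ ≤ ‖y‖ + |t| := by
    intro y t
    have : p₀ + (y : E) + t • e - p₀ = y + t • e := by abel
    rw [this]
    refine (norm_add_le _ _).trans ?_
    rw [norm_smul, he, mul_one, Real.norm_eq_abs, Submodule.coe_norm]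
  have hfl : ∀ (y : (ℝ ∙ e)ᗮ) (t : ℝ), ‖y‖ ≤ R / 4 → |t| ≤ R / 2 →
      |φ (p₀ + y + t • e) - t| ≤ R / 16 := by
    intro y t hy ht
    have h1 := hflat (p₀ + y + t • e) ((hnorm y t).trans (by linarith))
    rwa [hin] at h1
  -- existence of a zero
  have hex : ∀ y : (ℝ ∙ e)ᗮ, ‖y‖ ≤ R / 4 → ∃ t : ℝ, |t| ≤ R / 16 ∧ φ (p₀ + y + t • e) = 0 := by
    intro y hy
    have hcont : ContinuousOn (fun t : ℝ => φ (p₀ + y + t • e)) (Icc (-(R / 8)) (R / 8)) :=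
      (hc.comp (by fun_prop)).continuousOn
    have h1 := hfl y (-(R / 8)) hy (by rw [abs_neg, abs_of_pos (by positivity)]; linarith)
    have h2 := hfl y (R / 8) hy (by rw [abs_of_pos (by positivity)]; linarith)
    rw [abs_le] at h1 h2
    have h3 : (0 : ℝ) ∈ Icc (φ (p₀ + y + (-(R / 8)) • e)) (φ (p₀ + y + (R / 8) • e)) :=
      ⟨by linarith, by linarith⟩
    obtain ⟨t, ht, ht0⟩ := intermediate_value_Icc (by linarith) hcont h3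
    simp only at ht0
    refine ⟨t, ?_, ht0⟩
    have h4 := hfl y t hy (by rw [abs_le]; constructor <;> linarith [ht.1, ht.2])
    rw [ht0, zero_sub, abs_neg] at h4
    exact h4
  choose w0 hw0 using fun y : {y : (ℝ ∙ e)ᗮ // ‖y‖ ≤ R / 4} => hex y.1 y.2
  let w : (ℝ ∙ e)ᗮ → ℝ := fun y => if h : ‖y‖ ≤ R / 4 then w0 ⟨y, h⟩ else 0
  have hw : ∀ y : (ℝ ∙ e)ᗮ, ‖y‖ ≤ R / 4 → |w y| ≤ R / 16 ∧ φ (p₀ + y + w y • e) = 0 := by
    intro y hy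
    have : w y = w0 ⟨y, hy⟩ := dif_pos hy
    rw [this]
    exact hw0 ⟨y, hy⟩
  have hpn : ∀ y : (ℝ ∙ e)ᗮ, ‖y‖ ≤ R / 4 → ‖p₀ + (y : E) + w y • e - p₀‖ ≤ R := fun y hy =>
    (hnorm y (w y)).trans (by linarith [(hw y hy).1])
  choose a0 ha0 using fun y : {y : (ℝ ∙ e)ᗮ // ‖y‖ ≤ R / 4} =>
    hexp _ (hw y.1 y.2).2 (hpn y.1 y.2)
  let a : (ℝ ∙ e)ᗮ → E := fun y => if h : ‖y‖ ≤ R / 4 then a0 ⟨y, h⟩ else 0
  have ha : ∀ y : (ℝ ∙ e)ᗮ, ‖y‖ ≤ R / 4 → ‖a y‖ = 1 ∧ ‖a y - e‖ ≤ 1 / 4 ∧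
      ∀ x, ‖x - (p₀ + y + w y • e)‖ ≤ R → |φ x - ⟪a y, x - (p₀ + y + w y • e)⟫| ≤
        K * η * R * (‖x - (p₀ + y + w y • e)‖ / R) ^ (1 + α) := by
    intro y hy
    have : a y = a0 ⟨y, hy⟩ := dif_pos hy
    rw [this]
    exact ha0 ⟨y, hy⟩
  have hae : ∀ y : (ℝ ∙ e)ᗮ, ‖y‖ ≤ R / 4 → 3 / 4 ≤ ⟪a y, e⟫ := by
    intro y hy
    have h1 : ⟪a y, e⟫ = 1 + ⟪a y - e, e⟫ := by rw [inner_sub_left, hee]; ring
    have h2 : |⟪a y - e, e⟫| ≤ 1 / 4 := by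
      refine (abs_real_inner_le_norm _ _).trans ?_
      rw [he, mul_one]; exact (ha y hy).2.1
    rw [h1]
    linarith [(abs_le.mp h2).1]
  -- signs
  have hsign : ∀ y : (ℝ ∙ e)ᗮ, ‖y‖ ≤ R / 4 → ∀ t : ℝ, |t| ≤ R / 2 →
      |φ (p₀ + y + t • e) - (t - w y) * ⟪a y, e⟫| ≤ 1 / 8 * |t - w y| := by
    intro y hy t ht
    have h1 : p₀ + (y : E) + t • e - (p₀ + y + w y • e) = (t - w y) • e := by
      rw [sub_smul]; abel
    have h2 : ‖p₀ + (y : E) + t • e - (p₀ + y + w y • e)‖ = |t - w y| := by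
      rw [h1, norm_smul, he, mul_one, Real.norm_eq_abs]
    have h3 : |t - w y| ≤ R := by
      refine (abs_sub _ _).trans ?_
      linarith [(hw y hy).1]
    have h4 := (ha y hy).2.2 (p₀ + y + t • e) (by rw [h2]; exact h3)
    rw [h2, h1, inner_smul_right] at h4
    refine h4.trans ((pow_le_lin hR hα hK hη (abs_nonneg _) h3).trans ?_)
    gcongr
  have hpos : ∀ y : (ℝ ∙ e)ᗮ, ‖y‖ ≤ R / 4 → ∀ t : ℝ, |t| ≤ R / 2 → w y < t → 0 < φ (p₀ + y + t • e) := by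
    intro y hy t ht hlt
    have h1 := hsign y hy t ht
    have h2 := hae y hy
    rw [abs_of_pos (sub_pos.mpr hlt), abs_le] at h1
    nlinarith [h1.1, sub_pos.mpr hlt]
  have hneg : ∀ y : (ℝ ∙ e)ᗮ, ‖y‖ ≤ R / 4 → ∀ t : ℝ, |t| ≤ R / 2 → t < w y → φ (p₀ + y + t • e) < 0 := by
    intro y hy t ht hlt
    have h1 := hsign y hy t ht
    have h2 := hae y hy
    rw [abs_of_neg (sub_neg.mpr hlt), abs_le] at h1
    nlinarith [h1.2, sub_neg.mpr hlt]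
  -- the difference of two zeros
  have hzz : ∀ y y' : (ℝ ∙ e)ᗮ, ‖y‖ ≤ R / 4 → ‖y'‖ ≤ R / 4 →
      |⟪a y, ((y' - y : (ℝ ∙ e)ᗮ) : E)⟫ + (w y' - w y) * ⟪a y, e⟫| ≤
        K * η * R * (‖((y' - y : (ℝ ∙ e)ᗮ) : E) + (w y' - w y) • e‖ / R) ^ (1 + α) ∧
      ‖((y' - y : (ℝ ∙ e)ᗮ) : E) + (w y' - w y) • e‖ ≤ ‖y' - y‖ + |w y' - w y| ∧
      ‖((y' - y : (ℝ ∙ e)ᗮ) : E) + (w y' - w y) • e‖ ≤ R := by
    intro y y' hy hy'
    have h1 : p₀ + (y' : E) + w y' • e - (p₀ + y + w y • e) =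
        ((y' - y : (ℝ ∙ e)ᗮ) : E) + (w y' - w y) • e := by
      rw [sub_smul, Submodule.coe_sub]; abel
    have h2 : ‖((y' - y : (ℝ ∙ e)ᗮ) : E) + (w y' - w y) • e‖ ≤ ‖y' - y‖ + |w y' - w y| := by
      refine (norm_add_le _ _).trans ?_
      rw [norm_smul, he, mul_one, Real.norm_eq_abs, Submodule.coe_norm]
    have h3 : ‖((y' - y : (ℝ ∙ e)ᗮ) : E) + (w y' - w y) • e‖ ≤ R := by
      refine h2.trans ?_
      have h4 : ‖y' - y‖ ≤ R / 2 := (norm_sub_le _ _).trans (by linarith)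
      have h5 : |w y' - w y| ≤ R / 8 := (abs_sub _ _).trans (by
        linarith [(hw y hy).1, (hw y' hy').1])
      linarith
    have h6 := (ha y hy).2.2 (p₀ + y' + w y' • e) (by rw [h1]; exact h3)
    rw [(hw y' hy').2, h1, zero_sub, abs_neg, inner_add_right, inner_smul_right] at h6
    exact ⟨h6, h2, h3⟩
  have hlip : ∀ y y' : (ℝ ∙ e)ᗮ, ‖y‖ ≤ R / 4 → ‖y'‖ ≤ R / 4 → |w y' - w y| ≤ ‖y' - y‖ := by
    intro y y' hy hy'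
    obtain ⟨h1, h2, h3⟩ := hzz y y' hy hy'
    have h4 := h1.trans (pow_le_lin hR hα hK hη (norm_nonneg _) h3)
    have h5 : K * η * ‖((y' - y : (ℝ ∙ e)ᗮ) : E) + (w y' - w y) • e‖ ≤
        1 / 8 * (‖y' - y‖ + |w y' - w y|) := by gcongr
    have h6 : |⟪a y, ((y' - y : (ℝ ∙ e)ᗮ) : E)⟫| ≤ 1 / 4 * ‖y' - y‖ := by
      have h7 : ⟪a y, ((y' - y : (ℝ ∙ e)ᗮ) : E)⟫ = ⟪a y - e, ((y' - y : (ℝ ∙ e)ᗮ) : E)⟫ := by
        rw [inner_sub_left, inner_perp, sub_zero]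
      rw [h7]
      refine (abs_real_inner_le_norm _ _).trans ?_
      rw [Submodule.coe_norm]
      gcongr
      exact (ha y hy).2.1
    have h7 : |(w y' - w y) * ⟪a y, e⟫| ≤ 1 / 8 * (‖y' - y‖ + |w y' - w y|) + 1 / 4 * ‖y' - y‖ := by
      have h8 : (w y' - w y) * ⟪a y, e⟫ =
        (⟪a y, ((y' - y : (ℝ ∙ e)ᗮ) : E)⟫ + (w y' - w y) * ⟪a y, e⟫) -
          ⟪a y, ((y' - y : (ℝ ∙ e)ᗮ) : E)⟫ := by ring
      rw [h8]
      exact (abs_sub _ _).trans (add_le_add (h4.trans h5) h6)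
    have h8 : 3 / 4 * |w y' - w y| ≤ |(w y' - w y) * ⟪a y, e⟫| := by
      rw [abs_mul, mul_comm]
      gcongr
      exact (hae y hy).trans (le_abs_self _)
    nlinarith [norm_nonneg (y' - y), abs_nonneg (w y' - w y)]
  have hdz : ∀ y y' : (ℝ ∙ e)ᗮ, ‖y‖ ≤ R / 4 → ‖y'‖ ≤ R / 4 →
      ‖((y' - y : (ℝ ∙ e)ᗮ) : E) + (w y' - w y) • e‖ ≤ 2 * ‖y' - y‖ := by
    intro y y' hy hy'
    have := (hzz y y' hy hy').2.1
    linarith [hlip y y' hy hy']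
  refine ⟨w, a, ?_⟩
  refine ⟨?_, fun y hy => (hw y hy).1, fun y hy t ht => ⟨fun h => ?_, hpos y hy t ht⟩,
    fun y hy t ht => ⟨fun h => ?_, hneg y hy t ht⟩, fun y hy t ht => ⟨fun h => ?_, fun h => ?_⟩,
    fun y hy => (ha y hy).1, fun y hy => (ha y hy).2.1, fun y hy => (ha y hy).2.2, hlip,
    fun y y' hy hy' => ?_, fun y y' hy hy' => ?_⟩
  · -- w 0 = 0
    have h1 : ‖(0 : (ℝ ∙ e)ᗮ)‖ ≤ R / 4 := by rw [norm_zero]; positivity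
    have h2 : |(0 : ℝ)| ≤ R / 2 := by rw [abs_zero]; positivity
    have h3 : φ (p₀ + ((0 : (ℝ ∙ e)ᗮ) : E) + (0 : ℝ) • e) = 0 := by simpa using h0
    rcases lt_trichotomy (w 0) 0 with h | h | h
    · have := hpos 0 h1 0 h2 h
      linarith
    · exact h
    · have := hneg 0 h1 0 h2 h
      linarith
  · rcases lt_trichotomy (w y) t with h1 | h1 | h1
    · exact h1
    · rw [← h1, (hw y hy).2] at h
      exact absurd h (lt_irrefl _)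
    · have := hneg y hy t ht h1
      linarith
  · rcases lt_trichotomy (w y) t with h1 | h1 | h1
    · have := hpos y hy t ht h1
      linarith
    · rw [← h1, (hw y hy).2] at h
      exact absurd h (lt_irrefl _)
    · exact h1
  · rcases lt_trichotomy (w y) t with h1 | h1 | h1
    · have := hpos y hy t ht h1
      linarith
    · exact h1.symm
    · have := hneg y hy t ht h1
      linarith
  · rw [h]; exact (hw y hy).2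
  · obtain ⟨h1, h2, h3⟩ := hzz y y' hy hy'
    have h4 := hae y hy
    have h5 : 0 < ⟪a y, e⟫ := by linarith
    have h6 : w y' - w y + ⟪a y, ((y' - y : (ℝ ∙ e)ᗮ) : E)⟫ / ⟪a y, e⟫ =
        (⟪a y, ((y' - y : (ℝ ∙ e)ᗮ) : E)⟫ + (w y' - w y) * ⟪a y, e⟫) / ⟪a y, e⟫ := by
      field_simp
      ring
    rw [h6, abs_div, abs_of_pos h5, div_le_iff₀ h5]
    have h7 : (‖((y' - y : (ℝ ∙ e)ᗮ) : E) + (w y' - w y) • e‖ / R) ^ (1 + α) ≤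
        (2 * ‖y' - y‖ / R) ^ (1 + α) := by
      apply Real.rpow_le_rpow (by positivity) _ (by linarith)
      gcongr
      exact hdz y y' hy hy'
    have h8 : 0 ≤ K * η * R * (2 * ‖y' - y‖ / R) ^ (1 + α) := by positivity
    calc _ ≤ _ := h1
      _ ≤ K * η * R * (2 * ‖y' - y‖ / R) ^ (1 + α) := by gcongr
      _ ≤ 2 * (K * η) * R * (2 * ‖y' - y‖ / R) ^ (1 + α) * ⟪a y, e⟫ := by nlinarith
  · have hy4 : ‖y‖ ≤ R / 4 := hy.trans (by linarith)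
    have hy4' : ‖y'‖ ≤ R / 4 := hy'.trans (by linarith)
    have h1 : p₀ + (y : E) + w y • e - (p₀ + y' + w y' • e) =
        -(((y' - y : (ℝ ∙ e)ᗮ) : E) + (w y' - w y) • e) := by
      rw [sub_smul, Submodule.coe_sub]; abel
    have h2 : ‖p₀ + (y : E) + w y • e - (p₀ + y' + w y' • e)‖ ≤ 2 * ‖y' - y‖ := by
      rw [h1, norm_neg]
      exact hdz y y' hy4 hy4'
    have h3 : ‖y' - y‖ ≤ R / 4 := (norm_sub_le _ _).trans (by linarith)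
    have h4 := slope_close hR hα hK hη (ha y hy4).2.2 (ha y' hy4').2.2 (h2.trans (by linarith))
    refine h4.trans ?_
    have h5 : 2 * (‖p₀ + (y : E) + w y • e - (p₀ + y' + w y' • e)‖ / R) ≤
        4 * ‖y' - y‖ / R := by
      rw [← mul_div_assoc]
      apply div_le_div_of_nonneg_right _ hR.le
      linarith
    have h6 : (2 * (‖p₀ + (y : E) + w y • e - (p₀ + y' + w y' • e)‖ / R)) ^ α ≤
        (4 * ‖y' - y‖ / R) ^ α := Real.rpow_le_rpow (by positivity) h5 hα.le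
    calc 4 * K * η * (2 * (‖p₀ + (y : E) + w y • e - (p₀ + y' + w y' • e)‖ / R)) ^ α
        ≤ 4 * K * η * (4 * ‖y' - y‖ / R) ^ α := by gcongr
      _ = _ := by ring

end Crest.Agent.R246.Iter105
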