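import Crest.Agent.R246.Gap3_105
import Crest.Agent.R246.Iter_105
import Crest.Agent.R246.L2_196

/-!
R246, helper105.  **H1**: the one-step improvement theorem at all centres and scales, for
helper873's `ClassD`, `VAR` and the content ratio with the profile `(1-t)₊²`.
-/

set_option autoImplicit false
set_option linter.unusedSectionVars false

namespace Crest.Agent.R246.H1x105

open MeasureTheory Filter Topology Metric Set
open scoped NNReal Gradient RealInnerProductSpace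
open Crest.Agent.R246.G873 Crest.Agent.R246.Flat105 Crest.Agent.R246.Iter105
open Crest.Agent.R246.L2x196

variable {E : Type*} [NormedAddCommGroup E] [InnerProductSpace ℝ E] [FiniteDimensional ℝ E]
  [MeasurableSpace E] [BorelSpace E]

theorem sup_of_classD {φ : E → ℝ} (h : ClassD φ) {V : Set E} (hV : V ⊆ {x | 0 < φ x}) :
    ∀ ζ, Test V ζ → 0 ≤ ∫ x, ⟪∇ φ x, ∇ ζ x⟫ :=
  fun ζ hζ => h.sup ζ hζ.lip hζ.cpt hζ.nonneg (hζ.sub.trans hV)

theorem sub_of_classD {φ : E → ℝ} (h : ClassD φ) {V : Set E} (hV : V ⊆ {x | φ x < 0}) :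
    ∀ ζ, Test V ζ → ∫ x, ⟪∇ φ x, ∇ ζ x⟫ ≤ 0 :=
  fun ζ hζ => h.sub ζ hζ.lip hζ.cpt hζ.nonneg (hζ.sub.trans hV)

/-- the rescaled measure -/
noncomputable def dilM (μ : Measure E) (p : E) (r : ℝ) (d : ℕ) : Measure E :=
  ENNReal.ofReal ((r ^ d)⁻¹) • μ.map (fun x => r⁻¹ • (x - p))

theorem integral_dilM (μ : Measure E) (p : E) {r : ℝ} (hr : 0 < r) (d : ℕ) (f : E → ℝ) :
    ∫ x, f x ∂(dilM μ p r d) = (r ^ d)⁻¹ * ∫ x, f (r⁻¹ • (x - p)) ∂μ := by
  unfold dilM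
  rw [integral_smul_measure, ENNReal.toReal_ofReal (by positivity), smul_eq_mul]
  congr 1
  exact (zoom p r hr.ne').measurableEmbedding.integral_map f

theorem varIneq_dilM {φ : E → ℝ} {μ : Measure E} {p : E} {r : ℝ} (hr : 0 < r) {d : ℕ}
    (hd : Module.finrank ℝ E = d + 1) {U : Set E} (hV : VAR φ μ U) (hU : closedBall p r ⊆ U) :
    VarIneq (fun x => r⁻¹ * φ (p + r • x)) (dilM μ p r d) (closedBall 0 1) := by
  intro ζ η hζ hη hcζ hcη hle hs
  have hr' : r ≠ 0 := hr.ne'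
  have h1 := hV (pull ζ p r) (pull η p r) (pull_lip hζ p r) (pull_lip hη p r)
    (pull_cs hcζ p hr') (pull_cs hcη p hr') (fun x => hle _) (by
      intro y hy
      apply hU
      have h1 := hs (tsupport_pull η p hr' hy)
      rw [mem_closedBall, dist_zero_right, norm_smul, norm_inv, Real.norm_eq_abs,
        abs_of_pos hr, inv_mul_le_iff₀ hr, mul_one] at h1
      rwa [mem_closedBall, dist_eq_norm])
  have h2 : (fun y => |r⁻¹ * φ (p + r • y)|) = fun y => r⁻¹ * |φ (p + r • y)| := by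
    funext y; rw [abs_mul, abs_of_pos (inv_pos.2 hr)]
  have e1 := integral_gi_aff φ ζ p hr'
  have e2 := integral_gi_aff (fun y => |φ y|) η p hr'
  unfold gi at e1 e2 h1
  rw [h2, e1, e2, integral_dilM μ p hr d]
  have h3 : r * |(r ^ Module.finrank ℝ E)⁻¹| = (r ^ d)⁻¹ := by
    rw [abs_of_pos (by positivity), hd, pow_succ]
    field_simp
  have h4 : (∫ x, η (r⁻¹ • (x - p)) ∂μ) = ∫ x, pull η p r x ∂μ := rfl
  rw [h4, ← mul_assoc, ← mul_assoc, h3, ← mul_sub]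
  calc _ ≤ (r ^ d)⁻¹ * (2 * ∫ x, pull η p r x ∂μ) := by
        apply mul_le_mul_of_nonneg_left h1 (by positivity)
    _ = 2 * ((r ^ d)⁻¹ * ∫ x, pull η p r x ∂μ) := by ring

set_option maxHeartbeats 1000000 in
/-- **H1, one step.** -/
theorem oneStep (E : Type*) [NormedAddCommGroup E] [InnerProductSpace ℝ E]
    [FiniteDimensional ℝ E] [MeasurableSpace E] [BorelSpace E] {d : ℕ}
    (hd : Module.finrank ℝ E = d + 1) :
    ∃ θ C η₀ κ : ℝ, 0 < θ ∧ θ < 1 ∧ 0 ≤ C ∧ 0 < η₀ ∧ 0 < κ ∧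
      ∀ (φ : E → ℝ) (μ : Measure E) (S U : Set E) (R : ℝ), ClassD φ → VAR φ μ U →
        (∀ p ∈ S, φ p = 0) → (∀ p ∈ S, closedBall p R ⊆ U) →
        (∀ p ∈ S, ∀ s : ℝ, 0 < s → s ≤ R →
          ∫ x, (max 0 (1 - ‖x - p‖ ^ 2 / s ^ 2)) ^ 2 ∂μ ≤
            (1 + κ) * (∫ y : EuclideanSpace ℝ (Fin d), qb y ^ 2) * s ^ d) →
        OneStep φ S R θ (3 / 4) C η₀ := by
  obtain ⟨C₂, hC₂, himp⟩ := improve_unit E
  set c := ∫ y : EuclideanSpace ℝ (Fin d), qb y ^ 2 with hc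
  have hc0 : 0 < c := integral_qb_sq_pos
  set C₁ : ℝ := 15 * Module.finrank ℝ E * volume.real (closedBall (0 : E) 1) with hC₁
  have hC1 : 0 ≤ C₁ := by positivity
  -- choice of the constants
  set a : ℝ := 1 / (4 * (C₂ + 1)) with ha
  have ha0 : 0 < a := by positivity
  set θ : ℝ := min (1 / 8) (a ^ 4) with hθ
  have hθ0 : 0 < θ := by positivity
  have hθ8 : θ ≤ 1 / 8 := min_le_left _ _
  have hθa : θ ≤ a ^ 4 := min_le_right _ _
  have hθ14 : θ ^ (1 / 4 : ℝ) ≤ a := by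
    calc θ ^ (1 / 4 : ℝ) ≤ (a ^ 4) ^ (1 / 4 : ℝ) := by gcongr
      _ = a := by
        rw [← Real.rpow_natCast a 4, ← Real.rpow_mul ha0.le]
        norm_num
  set T : ℝ := θ ^ (3 / 4 : ℝ) * θ with hT
  have hT0 : 0 < T := by positivity
  have hθ2 : C₂ * θ ^ 2 ≤ T / 4 := by
    have h1 : θ ^ 2 = T * θ ^ (1 / 4 : ℝ) := by
      rw [hT, mul_assoc, mul_comm θ, ← mul_assoc, ← Real.rpow_add hθ0]
      norm_num
      ring
    rw [h1]
    have h2 : C₂ * θ ^ (1 / 4 : ℝ) ≤ 1 / 4 := by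
      calc C₂ * θ ^ (1 / 4 : ℝ) ≤ (C₂ + 1) * a := by gcongr; linarith
        _ = 1 / 4 := by rw [ha]; field_simp
    nlinarith
  set b : ℝ := T / (4 * (C₂ + 1)) with hb
  have hb0 : 0 < b := by positivity
  have hCb : C₂ * b ≤ T / 4 := by
    rw [hb]
    have : C₂ * (T / (4 * (C₂ + 1))) = T / 4 * (C₂ / (C₂ + 1)) := by field_simp
    rw [this]
    have h3 : C₂ / (C₂ + 1) ≤ 1 := (div_le_one (by positivity)).mpr (by linarith)
    nlinarith
  set η₀ : ℝ := min (1 / 32) (b / (C₁ + 1)) with hη₀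
  have hη0 : 0 < η₀ := by positivity
  set κ : ℝ := b / (2 * c + 1) with hκ
  have hκ0 : 0 < κ := by positivity
  refine ⟨θ, C₂, η₀, κ, hθ0, by linarith, hC₂, hη0, hκ0, ?_⟩
  intro φ μ S U R hD hV hS hU hcont p hp ρ hρ hρR e he η hη hηη hflat
  set ψ : E → ℝ := fun x => ρ⁻¹ * φ (p + ρ • x) with hψ
  have hψD : ClassD ψ := classD_aff hD p hρ
  have hflat' : ∀ x, ‖x‖ ≤ 1 → |ψ x - ⟪e, x⟫| ≤ η := by
    intro x hx
    have h1 : ‖p + ρ • x - p‖ ≤ ρ := by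
      rw [add_sub_cancel_left, norm_smul, Real.norm_eq_abs, abs_of_pos hρ]
      nlinarith
    have h2 := hflat _ h1
    rw [add_sub_cancel_left, inner_smul_right] at h2
    have h3 : ψ x - ⟪e, x⟫ = ρ⁻¹ * (φ (p + ρ • x) - ρ * ⟪e, x⟫) := by
      simp only [hψ]; field_simp
    rw [h3, abs_mul, abs_of_pos (inv_pos.mpr hρ), inv_mul_le_iff₀ hρ]
    linarith
  have hvar : VarIneq ψ (dilM μ p ρ d) (closedBall 0 1) :=
    varIneq_dilM hρ hd hV ((closedBall_subset_closedBall hρR).trans (hU p hp))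
  have hT' : ∫ x, qb x ^ 2 ∂(dilM μ p ρ d) ≤ (1 + κ) * c := by
    rw [integral_dilM μ p hρ d]
    have h1 := hcont p hp ρ hρ hρR
    have h2 : ∀ x : E, qb (ρ⁻¹ • (x - p)) ^ 2 = (max 0 (1 - ‖x - p‖ ^ 2 / ρ ^ 2)) ^ 2 := by
      intro x
      unfold qb
      rw [norm_smul, norm_inv, Real.norm_eq_abs, abs_of_pos hρ]
      congr 3
      field_simp
    simp only [h2]
    rw [inv_mul_le_iff₀ (by positivity)]
    linarith
  have hη1 : η ≤ 1 / 32 := hηη.trans (min_le_left _ _)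
  have hηb : (C₁ + 1) * η ≤ b := by
    have : η ≤ b / (C₁ + 1) := hηη.trans (min_le_right _ _)
    rw [le_div_iff₀ (by positivity)] at this
    linarith
  have hex := excess hψD.lip (by
    filter_upwards [hψD.grad] with x hx
    rw [norm_grad]; exact hx) he hη hflat' hvar hd hT'
  rw [← hc, ← hC₁] at hex
  obtain ⟨e', he', he'e, hx⟩ := himp ψ hψD.lip (sup_of_classD hψD inter_subset_right)
    (sub_of_classD hψD inter_subset_right) (by simp [hψ, hS p hp]) e he η hη1 hflat' _ hex θ hθ8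
  refine ⟨e', he', he'e, ?_⟩
  intro x hxp
  have hxn : ‖ρ⁻¹ • (x - p)‖ ≤ θ := by
    rw [norm_smul, norm_inv, Real.norm_eq_abs, abs_of_pos hρ, inv_mul_le_iff₀ hρ]
    linarith
  have h1 := hx _ hxn
  have h2 : ψ (ρ⁻¹ • (x - p)) - ⟪e', ρ⁻¹ • (x - p)⟫ = ρ⁻¹ * (φ x - ⟪e', x - p⟫) := by
    simp only [hψ]
    rw [zoom_inv p hρ.ne', inner_smul_right]
    ring
  rw [h2, abs_mul, abs_of_pos (inv_pos.mpr hρ), inv_mul_le_iff₀ hρ] at h1
  refine h1.trans ?_
  have h3 : C₂ * (2 * κ * c * η + C₁ * η ^ 2 + η * θ ^ 2 + η ^ 2 * θ) ≤ T * η := by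
    have e1 : C₂ * (2 * κ * c) ≤ T / 4 := by
      have : 2 * κ * c ≤ b := by
        have h4 : κ * (2 * c + 1) = b := by rw [hκ]; field_simp
        nlinarith
      exact (mul_le_mul_of_nonneg_left this hC₂).trans hCb
    have e2 : C₂ * (C₁ * η + η * θ) ≤ T / 4 := by
      have : C₁ * η + η * θ ≤ b := by
        have h4 : η * θ ≤ η * 1 := by gcongr; linarith
        linarith
      exact (mul_le_mul_of_nonneg_left this hC₂).trans hCb
    have e3 : C₂ * (2 * κ * c * η + C₁ * η ^ 2 + η * θ ^ 2 + η ^ 2 * θ) =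
        (C₂ * (2 * κ * c) + C₂ * (C₁ * η + η * θ) + C₂ * θ ^ 2) * η := by ring
    rw [e3]
    gcongr
    linarith
  calc ρ * (C₂ * (2 * κ * c * η + C₁ * η ^ 2 + η * θ ^ 2 + η ^ 2 * θ)) ≤ ρ * (T * η) := by gcongr
    _ = θ ^ (3 / 4 : ℝ) * η * (θ * ρ) := by rw [hT]; ring

end Crest.Agent.R246.H1x105
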