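import Mathlib

/-!
R246, block H2b (helper622).  Part 1: the radial kernel and the scale identity.
-/

open MeasureTheory Metric Set Filter Topology
open scoped ContDiff

namespace Crest.Agent.R246.H2x622

noncomputable section

set_option linter.unusedSectionVars false

variable {F : Type*} [NormedAddCommGroup F] [InnerProductSpace ℝ F] [FiniteDimensional ℝ F]
  [MeasurableSpace F] [BorelSpace F]
variable {V : Type*} [NormedAddCommGroup V] [NormedSpace ℝ V]

/-! ### The one variable profile -/

def G0 : ℝ → ℝ := expNegInvGlue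
def G1 : ℝ → ℝ := deriv G0
def G2 : ℝ → ℝ := deriv G1

lemma G0_contDiff : ContDiff ℝ ∞ G0 := expNegInvGlue.contDiff
lemma G1_contDiff : ContDiff ℝ ∞ G1 := by
  have h : ContDiff ℝ (∞ + 1) G0 := by simpa using G0_contDiff
  exact (contDiff_succ_iff_deriv.1 h).2.2
lemma G2_contDiff : ContDiff ℝ ∞ G2 := by
  have h : ContDiff ℝ (∞ + 1) G1 := by simpa using G1_contDiff
  exact (contDiff_succ_iff_deriv.1 h).2.2

lemma G0_zero {t : ℝ} (ht : t ≤ 0) : G0 t = 0 := expNegInvGlue.zero_of_nonpos ht

lemma hasDerivAt_G0 (t : ℝ) : HasDerivAt G0 (G1 t) t :=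
  (G0_contDiff.differentiable (by simp)).differentiableAt.hasDerivAt
lemma hasDerivAt_G1 (t : ℝ) : HasDerivAt G1 (G2 t) t :=
  (G1_contDiff.differentiable (by simp)).differentiableAt.hasDerivAt

lemma G1_zero {t : ℝ} (ht : t ≤ 0) : G1 t = 0 := by
  have h1 : ∀ s < 0, G1 s = 0 := by
    intro s hs
    have h : G0 =ᶠ[𝓝 s] fun _ => 0 := by
      filter_upwards [Iio_mem_nhds hs] with u hu
      exact G0_zero (le_of_lt hu)
    have := h.deriv_eq
    simpa [G1] using this
  rcases ht.lt_or_eq with h | h
  · exact h1 t h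
  · subst h
    have hc : Tendsto G1 (𝓝[<] 0) (𝓝 (G1 0)) := G1_contDiff.continuous.continuousAt.mono_left inf_le_left
    have h0 : Tendsto G1 (𝓝[<] 0) (𝓝 0) := by
      refine tendsto_const_nhds.congr' ?_
      filter_upwards [self_mem_nhdsWithin] with s hs
      exact (h1 s hs).symm
    exact tendsto_nhds_unique hc h0

lemma G2_zero {t : ℝ} (ht : t ≤ 0) : G2 t = 0 := by
  have h1 : ∀ s < 0, G2 s = 0 := by
    intro s hs
    have h : G1 =ᶠ[𝓝 s] fun _ => 0 := by
      filter_upwards [Iio_mem_nhds hs] with u hu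
      exact G1_zero (le_of_lt hu)
    have := h.deriv_eq
    simpa [G2] using this
  rcases ht.lt_or_eq with h | h
  · exact h1 t h
  · subst h
    have hc : Tendsto G2 (𝓝[<] 0) (𝓝 (G2 0)) := G2_contDiff.continuous.continuousAt.mono_left inf_le_left
    have h0 : Tendsto G2 (𝓝[<] 0) (𝓝 0) := by
      refine tendsto_const_nhds.congr' ?_
      filter_upwards [self_mem_nhdsWithin] with s hs
      exact (h1 s hs).symm
    exact tendsto_nhds_unique hc h0

lemma G1_nonneg (t : ℝ) : 0 ≤ G1 t := by
  have hm : Monotone G0 := expNegInvGlue.monotone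
  exact hm.deriv_nonneg

/-! ### The kernels on `F` -/

/-- radial potential -/
def Psi (y : F) : ℝ := G0 (1 - ‖y‖ ^ 2)
/-- mollifier (not normalised) -/
def eta (y : F) : ℝ := 2 * G1 (1 - ‖y‖ ^ 2)
/-- derivative of the mollifier -/
def deta (y : F) : F →L[ℝ] ℝ := (-4 * G2 (1 - ‖y‖ ^ 2)) • innerSL ℝ y
/-- the vector kernel `K y e = ∂_e (y η(y))` -/
def KK (y : F) : F →L[ℝ] F := (eta y) • ContinuousLinearMap.id ℝ F + (deta y).smulRight y

lemma contDiff_one_sub : ContDiff ℝ ∞ (fun y : F => 1 - ‖y‖ ^ 2) :=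
  contDiff_const.sub (contDiff_norm_sq ℝ)

lemma Psi_contDiff : ContDiff ℝ ∞ (Psi : F → ℝ) := G0_contDiff.comp contDiff_one_sub
lemma eta_contDiff : ContDiff ℝ ∞ (eta : F → ℝ) :=
  contDiff_const.mul (G1_contDiff.comp contDiff_one_sub)
lemma deta_contDiff : ContDiff ℝ ∞ (deta : F → F →L[ℝ] ℝ) := by
  unfold deta
  exact (contDiff_const.mul (G2_contDiff.comp contDiff_one_sub)).smul (innerSL ℝ).contDiff
lemma KK_contDiff : ContDiff ℝ ∞ (KK : F → F →L[ℝ] F) := by
  unfold KK
  exact (eta_contDiff.smul contDiff_const).add (deta_contDiff.smulRight contDiff_id)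

lemma one_sub_nonpos {y : F} (hy : y ∉ closedBall (0 : F) 1) : 1 - ‖y‖ ^ 2 ≤ 0 := by
  simp only [mem_closedBall, dist_zero_right, not_le] at hy
  nlinarith

lemma Psi_zero {y : F} (hy : y ∉ closedBall (0 : F) 1) : Psi y = 0 := G0_zero (one_sub_nonpos hy)
lemma eta_zero {y : F} (hy : y ∉ closedBall (0 : F) 1) : eta y = 0 := by
  simp [eta, G1_zero (one_sub_nonpos hy)]
lemma deta_zero {y : F} (hy : y ∉ closedBall (0 : F) 1) : deta y = 0 := by
  simp [deta, G2_zero (one_sub_nonpos hy)]
lemma KK_zero {y : F} (hy : y ∉ closedBall (0 : F) 1) : KK y = 0 := by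
  simp [KK, eta_zero hy, deta_zero hy]

lemma hasFDerivAt_one_sub (y : F) :
    HasFDerivAt (fun y : F => 1 - ‖y‖ ^ 2) (-((2 : ℝ) • innerSL ℝ y)) y := by
  have h := (hasStrictFDerivAt_norm_sq y).hasFDerivAt
  refine (h.const_sub 1).congr_fderiv ?_
  ext e
  simp

lemma hasFDerivAt_Psi (y : F) : HasFDerivAt (Psi : F → ℝ) (-(eta y • innerSL ℝ y)) y := by
  have h := (hasDerivAt_G0 (1 - ‖y‖ ^ 2)).comp_hasFDerivAt y (hasFDerivAt_one_sub y)
  refine h.congr_fderiv ?_
  ext e
  simp [eta]
  ring

lemma hasFDerivAt_eta (y : F) : HasFDerivAt (eta : F → ℝ) (deta y) y := by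
  have h := ((hasDerivAt_G1 (1 - ‖y‖ ^ 2)).comp_hasFDerivAt y (hasFDerivAt_one_sub y)).const_mul 2
  refine h.congr_fderiv ?_
  ext e
  simp [deta]
  ring

/-- the test functions `ψ_e = η ⟪·,e⟫` -/
def psi (e y : F) : ℝ := eta y * inner ℝ e y

lemma psi_contDiff (e : F) : ContDiff ℝ ∞ (psi e : F → ℝ) := by
  unfold psi
  exact eta_contDiff.mul (innerSL ℝ e).contDiff

lemma psi_zero (e : F) {y : F} (hy : y ∉ closedBall (0 : F) 1) : psi e y = 0 := by
  simp [psi, eta_zero hy]

lemma hasFDerivAt_psi (e y : F) : HasFDerivAt (psi e : F → ℝ) (innerSL ℝ (KK y e)) y := by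
  have h := (hasFDerivAt_eta y).mul ((innerSL ℝ e).hasFDerivAt (x := y))
  refine h.congr_fderiv ?_
  ext u
  simp [KK, deta]
  rw [real_inner_comm y e]
  ring

lemma gradient_psi (e y : F) : gradient (psi e : F → ℝ) y = KK y e := by
  apply HasGradientAt.gradient
  rw [hasGradientAt_iff_hasFDerivAt]
  refine (hasFDerivAt_psi e y).congr_fderiv ?_
  ext u
  simp


/-! ### Integrals of compactly supported kernels -/

/-- `H` is weakly divergence free in `U` -/
def WeakDiv (H : F → F →L[ℝ] V) (U : Set F) : Prop :=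
  ∀ ζ : F → ℝ, ContDiff ℝ ∞ ζ → HasCompactSupport ζ → tsupport ζ ⊆ U →
    ∫ z, H z (gradient ζ z) = 0

lemma integrable_ball {W : Type*} [NormedAddCommGroup W] {h : F → W} {r : ℝ}
    (hc : ContinuousOn h (closedBall 0 r)) (h0 : ∀ y ∉ closedBall (0 : F) r, h y = 0) :
    Integrable h :=
  (hc.integrableOn_compact (isCompact_closedBall _ _)).integrable_of_forall_notMem_eq_zero h0

lemma norm_integral_le_ball {h : F → V} {r C : ℝ}
    (h0 : ∀ y ∉ closedBall (0 : F) r, h y = 0) (hC : ∀ y ∈ closedBall (0 : F) r, ‖h y‖ ≤ C) :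
    ‖∫ y, h y‖ ≤ C * volume.real (closedBall (0 : F) r) := by
  rw [← setIntegral_eq_integral_of_forall_compl_eq_zero (s := closedBall (0 : F) r) h0]
  exact norm_setIntegral_le_of_norm_le_const (isCompact_closedBall _ _).measure_lt_top hC

lemma sub_smul_mem {x y : F} {s : ℝ} (hs : 0 ≤ s) (hy : y ∈ closedBall (0 : F) 1) :
    x - s • y ∈ closedBall x s := by
  simp only [mem_closedBall, dist_zero_right] at hy
  rw [mem_closedBall, dist_eq_norm]
  have : x - s • y - x = -(s • y) := by abel
  rw [this, norm_neg, norm_smul, Real.norm_of_nonneg hs]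
  nlinarith

lemma integral_resc (h : F → V) (x : F) (s : ℝ) :
    ∫ y, h (x - s • y) = |(s ^ Module.finrank ℝ F)⁻¹| • ∫ y, h y := by
  rw [Measure.integral_comp_smul volume (fun y => h (x - y)) s, integral_sub_left_eq_self]

lemma tsupport_psi_resc (e x : F) {s : ℝ} (hs : 0 < s) :
    tsupport (fun z => psi e (s⁻¹ • (x - z))) ⊆ closedBall x s := by
  refine closure_minimal ?_ isClosed_closedBall
  intro z hz
  by_contra hzx
  apply hz
  apply psi_zero
  intro hmem
  apply hzx
  simp only [mem_closedBall, dist_zero_right, norm_smul, norm_inv, Real.norm_of_nonneg hs.le] at hmem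
  rw [mem_closedBall, dist_comm, dist_eq_norm]
  have := (inv_mul_le_iff₀ hs).1 hmem
  linarith

lemma weak_kernel {H : F → F →L[ℝ] V} {U : Set F} (hw : WeakDiv H U) {x : F} {s : ℝ}
    (hs : 0 < s) (hU : closedBall x s ⊆ U) (e : F) :
    ∫ y, H (x - s • y) (KK y e) = 0 := by
  set ζ : F → ℝ := fun z => psi e (s⁻¹ • (x - z)) with hζ
  have hsm : ContDiff ℝ ∞ ζ := by
    apply (psi_contDiff e).comp
    fun_prop
  have hts := tsupport_psi_resc e x hs
  have hcs : HasCompactSupport ζ :=
    HasCompactSupport.intro (isCompact_closedBall x s)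
      (fun z hz => by
        by_contra h
        exact hz (hts (subset_tsupport _ h)))
  have h := hw ζ hsm hcs (hts.trans hU)
  have hgr : ∀ z, gradient ζ z = -(s⁻¹ • KK (s⁻¹ • (x - z)) e) := by
    intro z
    apply HasGradientAt.gradient
    rw [hasGradientAt_iff_hasFDerivAt]
    have h1 : HasFDerivAt (fun z : F => s⁻¹ • (x - z)) (s⁻¹ • (-(ContinuousLinearMap.id ℝ F))) z := by
      exact ((hasFDerivAt_id z).const_sub x).const_smul s⁻¹
    refine ((hasFDerivAt_psi e (s⁻¹ • (x - z))).comp z h1).congr_fderiv ?_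
    ext u
    simp
  simp only [hgr, map_neg, map_smul, integral_neg, integral_smul, neg_eq_zero] at h
  have h3 : ∫ z, (H z) (KK (s⁻¹ • (x - z)) e) = 0 := by
    rcases smul_eq_zero.1 h with h4 | h4
    · exact absurd h4 (inv_ne_zero hs.ne')
    · exact h4
  have h5 := integral_resc (fun z => (H z) (KK (s⁻¹ • (x - z)) e)) x s
  rw [h3, smul_zero] at h5
  rw [← h5]
  congr 1
  ext y
  have : s⁻¹ • (x - (x - s • y)) = y := by
    rw [sub_sub_cancel, smul_smul, inv_mul_cancel₀ hs.ne', one_smul]
  rw [this]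

lemma integrable_eta_smul {W : Type*} [NormedAddCommGroup W] [NormedSpace ℝ W] {h : F → W}
    (hh : ContinuousOn h (closedBall 0 1)) : Integrable (fun y : F => eta y • h y) := by
  refine integrable_ball (r := 1) ?_ (fun y hy => by simp [eta_zero hy])
  exact (eta_contDiff.continuous.continuousOn).smul hh

lemma integrable_deta_smul {W : Type*} [NormedAddCommGroup W] [NormedSpace ℝ W] {h : F → W} (e : F)
    (hh : ContinuousOn h (closedBall 0 1)) : Integrable (fun y : F => deta y e • h y) := by
  refine integrable_ball (r := 1) ?_ (fun y hy => by simp [deta_zero hy])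
  have : Continuous fun y : F => deta y e := deta_contDiff.continuous.clm_apply continuous_const
  exact this.continuousOn.smul hh

lemma integrable_KK {H : F → F →L[ℝ] V} (e : F)
    (hh : ContinuousOn H (closedBall 0 1)) : Integrable (fun y : F => H y (KK y e)) := by
  refine integrable_ball (r := 1) ?_ (fun y hy => by simp [KK_zero hy])
  have : Continuous fun y : F => KK y e := KK_contDiff.continuous.clm_apply continuous_const
  exact hh.clm_apply this.continuousOn

lemma KK_apply (y e : F) : KK y e = eta y • e + deta y e • y := by simp [KK]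

lemma integral_KK (e : F) : ∫ y : F, KK y e = 0 := by
  have h1 : Integrable (fun y : F => eta y • e) := integrable_eta_smul continuousOn_const
  have h2 : Integrable (fun y : F => deta y e • y) := integrable_deta_smul e continuousOn_id
  have h3 : Integrable (fun y : F => eta y • y) := integrable_eta_smul continuousOn_id
  have h := integral_bilinear_hasFDerivAt_right_eq_neg_left_of_integrable (μ := (volume : Measure F))
    (f := (eta : F → ℝ)) (f' := deta) (g := (id : F → F)) (g' := fun _ => ContinuousLinearMap.id ℝ F)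
    (v := e) (B := ContinuousLinearMap.lsmul ℝ ℝ) (by simpa using h2) (by simpa using h1)
    (by simpa using h3) (fun y _ => hasFDerivAt_eta y) (fun y _ => hasFDerivAt_id y)
  simp only [KK_apply]
  rw [integral_add h1 h2]
  simpa using (eq_neg_iff_add_eq_zero.1 h)

/-! ### The scale identity -/

/-- mollified gradient -/
def PP (g : F → F →L[ℝ] V) (s : ℝ) (x e : F) : V := ∫ y, eta y • g (x - s • y) e
/-- kernel average of the flux -/
def QQ (f : F → F →L[ℝ] V) (s : ℝ) (x e : F) : V := ∫ y, f (x - s • y) (KK y e)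
/-- the integrated by parts form of `PP` -/
def AA (v : F → V) (s : ℝ) (x e : F) : V := ∫ y, deta y e • v (x - s • y)

lemma contOn_resc {W : Type*} [TopologicalSpace W] {h : F → W} {x : F} {s R : ℝ} (hs : 0 ≤ s)
    (hsR : s < R) (hh : ContinuousOn h (ball x R)) :
    ContinuousOn (fun y => h (x - s • y)) (closedBall 0 1) := by
  refine hh.comp (by fun_prop) ?_
  intro y hy
  exact closedBall_subset_ball hsR (sub_smul_mem hs hy)

variable [CompleteSpace V]

lemma hasDerivAt_AA {v : F → V} {g : F → F →L[ℝ] V} {x : F} {R s₀ : ℝ}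
    (hv : ∀ z ∈ ball x R, HasFDerivAt v (g z) z) (hg : ContinuousOn g (ball x R))
    (hs0 : 0 < s₀) (hsR : s₀ < R) (e : F) :
    HasDerivAt (fun s => AA v s x e) (-∫ y, deta y e • g (x - s₀ • y) y) s₀ := by
  have hvc : ContinuousOn v (ball x R) := fun z hz => (hv z hz).continuousAt.continuousWithinAt
  obtain ⟨r, hr1, hr2⟩ := exists_between hsR
  have hde : Continuous fun y : F => deta y e := deta_contDiff.continuous.clm_apply continuous_const
  obtain ⟨C, hC⟩ : ∃ C, ∀ z ∈ closedBall x r, ‖g z‖ ≤ C :=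
    (isCompact_closedBall x r).exists_bound_of_continuousOn
      (hg.mono (closedBall_subset_ball hr2))
  have hmem : Ioo 0 r ∈ 𝓝 s₀ := Ioo_mem_nhds hs0 hr1
  have hmeas : ∀ s ∈ Ioo 0 r, Integrable (fun y : F => deta y e • v (x - s • y)) := fun s hs =>
    integrable_deta_smul e (contOn_resc hs.1.le (hs.2.trans hr2) hvc)
  have hI' : Integrable (fun y : F => -(deta y e • g (x - s₀ • y) y)) := by
    refine (integrable_deta_smul e ?_).neg
    exact (contOn_resc hs0.le hsR hg).clm_apply continuousOn_id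
  have key := hasDerivAt_integral_of_dominated_loc_of_deriv_le (μ := (volume : Measure F))
    (F := fun s y => deta y e • v (x - s • y)) (x₀ := s₀)
    (F' := fun s y => -(deta y e • g (x - s • y) y)) (s := Ioo 0 r)
    (bound := fun y => ‖deta y e‖ * |C|) hmem ?_ (hmeas s₀ ⟨hs0, hr1⟩) hI'.1 ?_ ?_ ?_
  · have h2 := key.2
    rw [integral_neg] at h2
    exact h2
  · filter_upwards [hmem] with s hs using (hmeas s hs).1
  · refine Eventually.of_forall fun y s hs => ?_
    by_cases hy : y ∈ closedBall (0 : F) 1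
    · rw [norm_neg, norm_smul]
      have hz : x - s • y ∈ closedBall x r :=
        closedBall_subset_closedBall hs.2.le (sub_smul_mem hs.1.le hy)
      have h3 := hC _ hz
      have h4 : ‖g (x - s • y) y‖ ≤ |C| := by
        refine ((g (x - s • y)).le_opNorm y).trans ?_
        have hy' : ‖y‖ ≤ 1 := by simpa using hy
        have : ‖g (x - s • y)‖ ≤ |C| := h3.trans (le_abs_self C)
        nlinarith [norm_nonneg y, norm_nonneg (g (x - s • y))]
      exact mul_le_mul_of_nonneg_left h4 (norm_nonneg _)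
    · simp [deta_zero hy]
  · have h5 : Integrable (fun y : F => deta y e • (1 : ℝ)) := integrable_deta_smul e continuousOn_const
    have h6 := h5.norm.mul_const |C|
    simpa using h6
  · refine Eventually.of_forall fun y s hs => ?_
    by_cases hy : y ∈ closedBall (0 : F) 1
    · have hz : x - s • y ∈ ball x R :=
        closedBall_subset_ball (hs.2.trans hr2) (sub_smul_mem hs.1.le hy)
      have h7 : HasDerivAt (fun s : ℝ => x - s • y) (-y) s := by
        have := ((hasDerivAt_id s).smul_const y).const_sub x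
        simpa using this
      have h8 : HasDerivAt (fun s : ℝ => v (x - s • y)) (g (x - s • y) (-y)) s :=
        (hv _ hz).comp_hasDerivAt s h7
      have h9 := h8.const_smul (deta y e)
      rw [map_neg, smul_neg] at h9
      exact h9
    · simp only [deta_zero hy]
      simpa using hasDerivAt_const s (0 : V)

lemma tsupport_eta : tsupport (eta : F → ℝ) ⊆ closedBall 0 1 := by
  refine closure_minimal ?_ isClosed_closedBall
  intro z hz
  by_contra h
  exact hz (eta_zero h)

lemma PP_ibp {v : F → V} {g : F → F →L[ℝ] V} {x : F} {R s : ℝ}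
    (hv : ∀ z ∈ ball x R, HasFDerivAt v (g z) z) (hg : ContinuousOn g (ball x R))
    (hs0 : 0 < s) (hsR : s < R) (e : F) : s • PP g s x e = AA v s x e := by
  have hvc : ContinuousOn v (ball x R) := fun z hz => (hv z hz).continuousAt.continuousWithinAt
  have h1 : Integrable (fun y : F => eta y • (-(s • g (x - s • y) e))) :=
    integrable_eta_smul (((contOn_resc hs0.le hsR hg).clm_apply continuousOn_const).const_smul s).neg
  have h2 : Integrable (fun y : F => deta y e • v (x - s • y)) :=
    integrable_deta_smul e (contOn_resc hs0.le hsR hvc)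
  have h3 : Integrable (fun y : F => eta y • v (x - s • y)) :=
    integrable_eta_smul (contOn_resc hs0.le hsR hvc)
  have h := integral_bilinear_hasFDerivAt_right_eq_neg_left_of_integrable (μ := (volume : Measure F))
    (f := (eta : F → ℝ)) (f' := deta) (g := fun y => v (x - s • y))
    (g' := fun y => -(s • g (x - s • y)))
    (v := e) (B := ContinuousLinearMap.lsmul ℝ ℝ) (by simpa using h2) (by simpa using h1)
    (by simpa using h3) (fun y _ => hasFDerivAt_eta y) ?_
  · simp only [ContinuousLinearMap.lsmul_apply, neg_apply,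
      smul_apply, smul_neg, integral_neg, neg_inj] at h
    rw [AA, PP, ← h, ← integral_smul]
    congr 1
    ext y
    rw [smul_comm]
  · intro y hy
    have hy' := tsupport_eta hy
    have hz : x - s • y ∈ ball x R := closedBall_subset_ball hsR (sub_smul_mem hs0.le hy')
    have h7 : HasFDerivAt (fun y : F => x - s • y) (-(s • ContinuousLinearMap.id ℝ F)) y :=
      ((hasFDerivAt_id y).const_smul s).const_sub x
    refine ((hv _ hz).comp y h7).congr_fderiv ?_
    ext u
    simp

lemma hasDerivAt_PP {v : F → V} {g f : F → F →L[ℝ] V} {x : F} {R s₀ : ℝ}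
    (hv : ∀ z ∈ ball x R, HasFDerivAt v (g z) z) (hg : ContinuousOn g (ball x R))
    (hf : ContinuousOn f (ball x R)) (hw : WeakDiv (fun z => g z - f z) (ball x R))
    (hs0 : 0 < s₀) (hsR : s₀ < R) (e : F) :
    HasDerivAt (fun s => PP g s x e) (-(s₀⁻¹ • QQ f s₀ x e)) s₀ := by
  have h1 := hasDerivAt_AA hv hg hs0 hsR e
  have h2 := (hasDerivAt_inv hs0.ne').smul h1
  have h3 : (fun s => PP g s x e) =ᶠ[𝓝 s₀] (fun s => s⁻¹ • AA v s x e) := by
    filter_upwards [Ioo_mem_nhds hs0 hsR] with s hs
    rw [← PP_ibp hv hg hs.1 hs.2 e, smul_smul, inv_mul_cancel₀ hs.1.ne', one_smul]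
  have hgc := contOn_resc hs0.le hsR hg
  have hfc := contOn_resc hs0.le hsR hf
  have h4 : QQ f s₀ x e = PP g s₀ x e + ∫ y, deta y e • g (x - s₀ • y) y := by
    have h5 := weak_kernel hw hs0 (closedBall_subset_ball hsR) e
    simp only [sub_apply] at h5
    rw [integral_sub (integrable_KK e hgc) (integrable_KK e hfc), sub_eq_zero] at h5
    rw [QQ, ← h5, PP, ← integral_add]
    · congr 1
      ext y
      simp [KK_apply]
    · exact integrable_eta_smul (hgc.clm_apply continuousOn_const)
    · exact integrable_deta_smul e (hgc.clm_apply continuousOn_id)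
  refine (h2.congr_of_eventuallyEq h3).congr_deriv ?_
  rw [h4, ← PP_ibp hv hg hs0 hsR e]
  rw [smul_smul, smul_add, neg_add]
  have h6 : -(s₀ ^ 2)⁻¹ * s₀ = -(s₀⁻¹) := by field_simp
  rw [h6, smul_neg, neg_smul]
  abel

end

end Crest.Agent.R246.H2x622
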