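import Crest.Agent.R246.H2b1_622

/-!
R246, block H2b (helper622).  Part 2: the `C^{1,α}` estimate for `Δ v = div f`.
-/

open MeasureTheory Metric Set Filter Topology
open scoped ContDiff

namespace Crest.Agent.R246.H2x622

noncomputable section

set_option linter.unusedSectionVars false

variable {F : Type*} [NormedAddCommGroup F] [InnerProductSpace ℝ F] [FiniteDimensional ℝ F]
  [MeasurableSpace F] [BorelSpace F]
variable {V : Type*} [NormedAddCommGroup V] [NormedSpace ℝ V]

variable (F) in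
/-- bounds for the kernels -/
structure KB (κ : ℝ) : Prop where
  nonneg : 0 ≤ κ
  bK : ∀ y : F, ‖KK y‖ ≤ κ
  bD : ∀ y : F, ‖deta y‖ ≤ κ
  lK : ∀ y y' : F, ‖KK y - KK y'‖ ≤ κ * ‖y - y'‖
  lD : ∀ y y' : F, ‖deta y - deta y'‖ ≤ κ * ‖y - y'‖

variable (F) in
lemma exists_KB : ∃ κ, KB F κ := by
  have hK : HasCompactSupport (KK : F → F →L[ℝ] F) :=
    HasCompactSupport.intro (isCompact_closedBall 0 1) (fun _ hy => KK_zero hy)
  have hD : HasCompactSupport (deta : F → F →L[ℝ] ℝ) :=
    HasCompactSupport.intro (isCompact_closedBall 0 1) (fun _ hy => deta_zero hy)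
  obtain ⟨c1, h1⟩ := (KK_contDiff (F := F)).continuous.bounded_above_of_compact_support hK
  obtain ⟨c2, h2⟩ := (deta_contDiff (F := F)).continuous.bounded_above_of_compact_support hD
  obtain ⟨c3, h3⟩ := (KK_contDiff (F := F)).lipschitzWith_of_hasCompactSupport hK (by simp)
  obtain ⟨c4, h4⟩ := (deta_contDiff (F := F)).lipschitzWith_of_hasCompactSupport hD (by simp)
  refine ⟨|c1| + |c2| + c3 + c4, ⟨by positivity, ?_, ?_, ?_, ?_⟩⟩
  · intro y
    have := h1 y
    have h5 := le_abs_self c1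
    have h6 := abs_nonneg c2
    have h7 : (0:ℝ) ≤ c3 := c3.2
    have h8 : (0:ℝ) ≤ c4 := c4.2
    linarith
  · intro y
    have := h2 y
    have h5 := le_abs_self c2
    have h6 := abs_nonneg c1
    have h7 : (0:ℝ) ≤ c3 := c3.2
    have h8 : (0:ℝ) ≤ c4 := c4.2
    linarith
  · intro y y'
    have h5 := h3.dist_le_mul y y'
    rw [dist_eq_norm, dist_eq_norm] at h5
    refine h5.trans (mul_le_mul_of_nonneg_right ?_ (norm_nonneg _))
    have h8 : (0:ℝ) ≤ c4 := c4.2
    have h6 := abs_nonneg c1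
    have h6 := abs_nonneg c2
    linarith
  · intro y y'
    have h5 := h4.dist_le_mul y y'
    rw [dist_eq_norm, dist_eq_norm] at h5
    refine h5.trans (mul_le_mul_of_nonneg_right ?_ (norm_nonneg _))
    have h8 : (0:ℝ) ≤ c3 := c3.2
    have h6 := abs_nonneg c1
    have h6 := abs_nonneg c2
    linarith

variable (F) in
def vb (r : ℝ) : ℝ := volume.real (closedBall (0 : F) r)

lemma vb_nonneg (r : ℝ) : 0 ≤ vb F r := measureReal_nonneg

variable [CompleteSpace V]

lemma integral_clm_KK (L : F →L[ℝ] V) (e : F) : ∫ y : F, L (KK y e) = 0 := by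
  have h1 : Integrable (fun y : F => KK y e) := by
    have h := integrable_KK (H := fun _ : F => ContinuousLinearMap.id ℝ F) e continuousOn_const
    simpa using h
  rw [ContinuousLinearMap.integral_comp_comm L h1, integral_KK, map_zero]

lemma QQ_bound {κ : ℝ} (hκ : KB F κ) {f : F → F →L[ℝ] V} {x : F} {s R K α : ℝ}
    (hs : 0 ≤ s) (hsR : s < R) (hf : ContinuousOn f (ball x R)) (hK0 : 0 ≤ K) (hα : 0 ≤ α)
    (hK : ∀ z ∈ ball x R, ‖f z - f x‖ ≤ K * ‖z - x‖ ^ α) (e : F) :
    ‖QQ f s x e‖ ≤ K * s ^ α * κ * ‖e‖ * vb F 1 := by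
  have hfc := contOn_resc hs hsR hf
  have h1 : QQ f s x e = ∫ y, (f (x - s • y) - f x) (KK y e) := by
    simp only [sub_apply]
    rw [integral_sub (integrable_KK e hfc) (integrable_KK e continuousOn_const),
      integral_clm_KK, sub_zero, QQ]
  rw [h1]
  refine norm_integral_le_ball (fun y hy => by simp [KK_zero hy]) ?_
  intro y hy
  have h2 := sub_smul_mem (x := x) hs hy
  have h3 := hK _ (closedBall_subset_ball hsR h2)
  rw [mem_closedBall, dist_eq_norm] at h2
  have h4 : ‖x - s • y - x‖ ^ α ≤ s ^ α := Real.rpow_le_rpow (norm_nonneg _) h2 hα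
  have h5 : ‖f (x - s • y) - f x‖ ≤ K * s ^ α := h3.trans (mul_le_mul_of_nonneg_left h4 hK0)
  have h6 : ‖KK y e‖ ≤ κ * ‖e‖ :=
    ((KK y).le_opNorm e).trans (mul_le_mul_of_nonneg_right (hκ.bK y) (norm_nonneg _))
  calc ‖(f (x - s • y) - f x) (KK y e)‖ ≤ ‖f (x - s • y) - f x‖ * ‖KK y e‖ :=
        ContinuousLinearMap.le_opNorm _ _
    _ ≤ (K * s ^ α) * (κ * ‖e‖) := mul_le_mul h5 h6 (norm_nonneg _) (by positivity)
    _ = _ := by ring

lemma AA_bound {κ : ℝ} (hκ : KB F κ) {v : F → V} {x : F} {s R M : ℝ}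
    (hs : 0 ≤ s) (hsR : s < R) (hM : ∀ z ∈ ball x R, ‖v z‖ ≤ M) (e : F) :
    ‖AA v s x e‖ ≤ κ * ‖e‖ * M * vb F 1 := by
  refine norm_integral_le_ball (fun y hy => by simp [deta_zero hy]) ?_
  intro y hy
  have h3 := hM _ (closedBall_subset_ball hsR (sub_smul_mem (x := x) hs hy))
  have h6 : ‖deta y e‖ ≤ κ * ‖e‖ :=
    ((deta y).le_opNorm e).trans (mul_le_mul_of_nonneg_right (hκ.bD y) (norm_nonneg _))
  rw [norm_smul]
  exact mul_le_mul h6 h3 (norm_nonneg _) (mul_nonneg hκ.nonneg (norm_nonneg _))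

lemma shift_mem {c y : F} (hc : ‖c‖ ≤ 1) (hy : y ∉ closedBall (0 : F) 2) :
    y ∉ closedBall (0 : F) 1 ∧ y + c ∉ closedBall (0 : F) 1 := by
  simp only [mem_closedBall, dist_zero_right, not_le] at hy ⊢
  constructor
  · linarith
  · have : ‖y‖ ≤ ‖y + c‖ + ‖c‖ := by
      calc ‖y‖ = ‖(y + c) - c‖ := by rw [add_sub_cancel_right]
        _ ≤ _ := norm_sub_le _ _
    linarith

lemma sub_smul_mem2 {x y : F} {s : ℝ} (hs : 0 ≤ s) (hy : y ∈ closedBall (0 : F) 2) :
    x - s • y ∈ closedBall x (2 * s) := by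
  simp only [mem_closedBall, dist_zero_right] at hy
  rw [mem_closedBall, dist_eq_norm]
  have : x - s • y - x = -(s • y) := by abel
  rw [this, norm_neg, norm_smul, Real.norm_of_nonneg hs]
  nlinarith

lemma QQ_diff {κ : ℝ} (hκ : KB F κ) {f : F → F →L[ℝ] V} {x x' : F} {s R K α : ℝ}
    (hs : 0 < s) (hsR : 2 * s < R) (hf : ContinuousOn f (ball x R)) (hK0 : 0 ≤ K) (hα : 0 ≤ α)
    (hK : ∀ z ∈ ball x R, ‖f z - f x‖ ≤ K * ‖z - x‖ ^ α) (hxx : ‖x' - x‖ ≤ s) (e : F) :
    ‖QQ f s x e - QQ f s x' e‖ ≤ K * (2 * s) ^ α * (κ * (s⁻¹ * ‖x' - x‖) * ‖e‖) * vb F 2 := by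
  have hfc := contOn_resc hs.le (by linarith : s < R) hf
  set c : F := s⁻¹ • (x' - x) with hc
  have hc1 : ‖c‖ ≤ 1 := by
    rw [hc, norm_smul, norm_inv, Real.norm_of_nonneg hs.le]
    exact (inv_mul_le_iff₀ hs).2 (by linarith)
  have hsc : s • c = x' - x := by
    rw [hc, smul_smul, mul_inv_cancel₀ hs.ne', one_smul]
  have hpt : ∀ y, x' - s • (y + c) = x - s • y := by
    intro y
    rw [smul_add, hsc]; abel
  have hQ' : QQ f s x' e = ∫ y, f (x - s • y) (KK (y + c) e) := by
    rw [QQ, ← integral_add_right_eq_self (fun y => f (x' - s • y) (KK y e)) c]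
    simp only [hpt]
  have hball : closedBall x' s ⊆ ball x R := by
    intro z hz
    rw [mem_closedBall, dist_eq_norm] at hz
    rw [mem_ball, dist_eq_norm]
    calc ‖z - x‖ = ‖(z - x') + (x' - x)‖ := by congr 1; abel
      _ ≤ ‖z - x'‖ + ‖x' - x‖ := norm_add_le _ _
      _ < R := by linarith
  have hfc' : ContinuousOn (fun y => f (x' - s • y)) (closedBall 0 1) := by
    refine hf.comp (by fun_prop) ?_
    intro y hy
    exact hball (sub_smul_mem hs.le hy)
  have hI1 : Integrable (fun y => f (x - s • y) (KK y e)) := integrable_KK e hfc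
  have hI2 : Integrable (fun y => f (x - s • y) (KK (y + c) e)) := by
    have h := (integrable_KK (H := fun y => f (x' - s • y)) e hfc').comp_add_right c
    simpa only [hpt] using h
  have hI3 : Integrable (fun y => f x (KK y e)) := integrable_KK e continuousOn_const
  have hI4 : Integrable (fun y => f x (KK (y + c) e)) := hI3.comp_add_right c
  have hz4 : ∫ y, f x (KK (y + c) e) = 0 := by
    rw [integral_add_right_eq_self (fun y => f x (KK y e)) c, integral_clm_KK]
  have hmain : QQ f s x e - QQ f s x' e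
      = ∫ y, (f (x - s • y) - f x) ((KK y - KK (y + c)) e) := by
    have h1 : ∀ y, (f (x - s • y) - f x) ((KK y - KK (y + c)) e)
        = (f (x - s • y) (KK y e) - f (x - s • y) (KK (y + c) e))
          - (f x (KK y e) - f x (KK (y + c) e)) := by
      intro y
      simp only [sub_apply, map_sub]
      abel
    simp only [h1]
    have hI12 : Integrable (fun y => f (x - s • y) (KK y e) - f (x - s • y) (KK (y + c) e)) :=
      hI1.sub hI2
    have hI34 : Integrable (fun y => f x (KK y e) - f x (KK (y + c) e)) := hI3.sub hI4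
    rw [integral_sub hI12 hI34, integral_sub hI1 hI2, integral_sub hI3 hI4,
      integral_clm_KK, hz4, hQ', QQ]
    simp
  rw [hmain]
  refine norm_integral_le_ball (r := 2) (fun y hy => ?_) ?_
  · obtain ⟨h1, h2⟩ := shift_mem hc1 hy
    simp [KK_zero h1, KK_zero h2]
  · intro y hy
    have h2 := sub_smul_mem2 (x := x) hs.le hy
    have h3 := hK _ (closedBall_subset_ball hsR h2)
    rw [mem_closedBall, dist_eq_norm] at h2
    have h4 : ‖x - s • y - x‖ ^ α ≤ (2 * s) ^ α := Real.rpow_le_rpow (norm_nonneg _) h2 hα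
    have h5 : ‖f (x - s • y) - f x‖ ≤ K * (2 * s) ^ α :=
      h3.trans (mul_le_mul_of_nonneg_left h4 hK0)
    have h6 : ‖(KK y - KK (y + c)) e‖ ≤ κ * (s⁻¹ * ‖x' - x‖) * ‖e‖ := by
      refine ((KK y - KK (y + c)).le_opNorm e).trans ?_
      refine mul_le_mul_of_nonneg_right ?_ (norm_nonneg _)
      refine (hκ.lK _ _).trans ?_
      have : ‖y - (y + c)‖ = s⁻¹ * ‖x' - x‖ := by
        rw [sub_add_cancel_left, norm_neg, hc, norm_smul, norm_inv, Real.norm_of_nonneg hs.le]
      rw [this]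
    exact (ContinuousLinearMap.le_opNorm _ _).trans
      (mul_le_mul h5 h6 (norm_nonneg _) (by positivity))

lemma AA_diff {κ : ℝ} (hκ : KB F κ) {v : F → V} {x x' : F} {s R M : ℝ}
    (hs : 0 < s) (hsR : 2 * s < R) (hv : ContinuousOn v (ball x R))
    (hM : ∀ z ∈ ball x R, ‖v z‖ ≤ M) (hxx : ‖x' - x‖ ≤ s) (e : F) :
    ‖AA v s x e - AA v s x' e‖ ≤ (κ * (s⁻¹ * ‖x' - x‖) * ‖e‖) * M * vb F 2 := by
  have hfc := contOn_resc hs.le (by linarith : s < R) hv
  set c : F := s⁻¹ • (x' - x) with hc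
  have hc1 : ‖c‖ ≤ 1 := by
    rw [hc, norm_smul, norm_inv, Real.norm_of_nonneg hs.le]
    exact (inv_mul_le_iff₀ hs).2 (by linarith)
  have hsc : s • c = x' - x := by
    rw [hc, smul_smul, mul_inv_cancel₀ hs.ne', one_smul]
  have hpt : ∀ y, x' - s • (y + c) = x - s • y := by
    intro y
    rw [smul_add, hsc]; abel
  have hQ' : AA v s x' e = ∫ y, deta (y + c) e • v (x - s • y) := by
    rw [AA, ← integral_add_right_eq_self (fun y => deta y e • v (x' - s • y)) c]
    simp only [hpt]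
  have hball : closedBall x' s ⊆ ball x R := by
    intro z hz
    rw [mem_closedBall, dist_eq_norm] at hz
    rw [mem_ball, dist_eq_norm]
    calc ‖z - x‖ = ‖(z - x') + (x' - x)‖ := by congr 1; abel
      _ ≤ ‖z - x'‖ + ‖x' - x‖ := norm_add_le _ _
      _ < R := by linarith
  have hfc' : ContinuousOn (fun y => v (x' - s • y)) (closedBall 0 1) := by
    refine hv.comp (by fun_prop) ?_
    intro y hy
    exact hball (sub_smul_mem hs.le hy)
  have hI1 : Integrable (fun y => deta y e • v (x - s • y)) := integrable_deta_smul e hfc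
  have hI2 : Integrable (fun y => deta (y + c) e • v (x - s • y)) := by
    have h := (integrable_deta_smul (h := fun y => v (x' - s • y)) e hfc').comp_add_right c
    simpa only [hpt] using h
  rw [hQ', AA, ← integral_sub hI1 hI2]
  refine norm_integral_le_ball (r := 2) (fun y hy => ?_) ?_
  · obtain ⟨h1, h2⟩ := shift_mem hc1 hy
    simp [deta_zero h1, deta_zero h2]
  · intro y hy
    have h3 := hM _ (closedBall_subset_ball hsR (sub_smul_mem2 (x := x) hs.le hy))
    have h6 : ‖(deta y - deta (y + c)) e‖ ≤ κ * (s⁻¹ * ‖x' - x‖) * ‖e‖ := by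
      refine ((deta y - deta (y + c)).le_opNorm e).trans ?_
      refine mul_le_mul_of_nonneg_right ?_ (norm_nonneg _)
      refine (hκ.lD _ _).trans ?_
      have : ‖y - (y + c)‖ = s⁻¹ * ‖x' - x‖ := by
        rw [sub_add_cancel_left, norm_neg, hc, norm_smul, norm_inv, Real.norm_of_nonneg hs.le]
      rw [this]
    rw [← sub_smul, ← sub_apply, norm_smul]
    exact mul_le_mul h6 h3 (norm_nonneg _) (mul_nonneg (mul_nonneg hκ.nonneg (by positivity)) (norm_nonneg _))

end

end Crest.Agent.R246.H2x622
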