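import Crest.Agent.R246.H2b2_622

/-!
R246, block H2b (helper622).  Part 3: the Schauder estimate for `Δ v = div f`.
-/

open MeasureTheory Metric Set Filter Topology
open scoped ContDiff

namespace Crest.Agent.R246.H2x622

noncomputable section

set_option linter.unusedSectionVars false

variable {F : Type*} [NormedAddCommGroup F] [InnerProductSpace ℝ F] [FiniteDimensional ℝ F]
  [MeasurableSpace F] [BorelSpace F]
variable {V : Type*} [NormedAddCommGroup V] [NormedSpace ℝ V]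

variable (F) in
/-- mass of the mollifier -/
def ce : ℝ := ∫ y : F, eta y

lemma G1_one_pos : 0 < G1 1 := by
  have h1 : HasDerivAt (fun x : ℝ => Real.exp (-x⁻¹)) (Real.exp (-(1:ℝ)⁻¹) * (-(-((1:ℝ) ^ 2)⁻¹))) 1 :=
    ((hasDerivAt_inv one_ne_zero).neg).exp
  have h2 : G0 =ᶠ[𝓝 1] (fun x : ℝ => Real.exp (-x⁻¹)) := by
    filter_upwards [Ioi_mem_nhds (show (0:ℝ) < 1 by norm_num)] with x hx
    have : ¬ x ≤ 0 := not_le.2 hx
    simp [G0, expNegInvGlue, this]
  have h3 : G1 1 = Real.exp (-(1:ℝ)⁻¹) * (-(-((1:ℝ) ^ 2)⁻¹)) := by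
    rw [G1, h2.deriv_eq, h1.deriv]
  rw [h3]
  have := Real.exp_pos (-(1:ℝ)⁻¹)
  simpa using this

lemma eta_nonneg (y : F) : 0 ≤ eta y := mul_nonneg (by norm_num) (G1_nonneg _)

lemma ce_pos : 0 < ce F := by
  refine (eta_contDiff (F := F)).continuous.integral_pos_of_hasCompactSupport_nonneg_nonzero
    (HasCompactSupport.intro (isCompact_closedBall 0 1) (fun _ hy => eta_zero hy)) eta_nonneg
    (x := 0) ?_
  simp [eta, G1_one_pos.ne']

variable [CompleteSpace V]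

lemma PP_tendsto {g : F → F →L[ℝ] V} {x : F} {R : ℝ} (hR : 0 < R)
    (hg : ContinuousOn g (ball x R)) (e : F) :
    Tendsto (fun s => PP g s x e) (𝓝[>] 0) (𝓝 (ce F • g x e)) := by
  rw [Metric.tendsto_nhds]
  intro ε hε
  have hgx : ContinuousAt g x := (hg x (mem_ball_self hR)).continuousAt (ball_mem_nhds x hR)
  set δ : ℝ := ε / (2 * (ce F * (‖e‖ + 1))) with hδ
  have hce := ce_pos (F := F)
  have hδ0 : 0 < δ := by positivity
  obtain ⟨ρ, hρ, hρ2⟩ := Metric.continuousAt_iff.1 hgx δ hδ0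
  filter_upwards [Ioo_mem_nhdsGT (show (0:ℝ) < min ρ R by positivity)] with s hs
  have hsρ : s < ρ := hs.2.trans_le (min_le_left _ _)
  have hsR : s < R := hs.2.trans_le (min_le_right _ _)
  have hc := contOn_resc hs.1.le hsR hg
  have h1 : PP g s x e - ce F • g x e = ∫ y : F, eta y • (g (x - s • y) e - g x e) := by
    rw [PP, ce, ← integral_smul_const, ← integral_sub]
    · simp only [smul_sub]
    · exact integrable_eta_smul (hc.clm_apply continuousOn_const)
    · exact integrable_eta_smul (h := fun _ => g x e) continuousOn_const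
  rw [dist_eq_norm, h1]
  have h2 : ∀ y : F, ‖eta y • (g (x - s • y) e - g x e)‖ ≤ eta y * (δ * ‖e‖) := by
    intro y
    rw [norm_smul, Real.norm_of_nonneg (eta_nonneg y)]
    by_cases hy : y ∈ closedBall (0 : F) 1
    · refine mul_le_mul_of_nonneg_left ?_ (eta_nonneg y)
      have h3 := sub_smul_mem (x := x) hs.1.le hy
      have h4 := hρ2 (lt_of_le_of_lt (mem_closedBall.1 h3) hsρ)
      rw [dist_eq_norm] at h4
      rw [← sub_apply]
      exact ((g (x - s • y) - g x).le_opNorm e).trans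
        (mul_le_mul_of_nonneg_right h4.le (norm_nonneg _))
    · simp [eta_zero hy]
  have hint : Integrable (fun y : F => eta y * (δ * ‖e‖)) := by
    simpa using integrable_eta_smul (F := F) (h := fun _ => δ * ‖e‖) continuousOn_const
  refine lt_of_le_of_lt (norm_integral_le_of_norm_le hint (Eventually.of_forall h2)) ?_
  rw [integral_mul_const]
  change ce F * (δ * ‖e‖) < ε
  have h5 : ce F * (δ * ‖e‖) = ε / 2 * (‖e‖ / (‖e‖ + 1)) := by
    rw [hδ]; field_simp
  rw [h5]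
  have h6 : ‖e‖ / (‖e‖ + 1) ≤ 1 := by
    rw [div_le_one (by positivity)]; linarith [norm_nonneg e]
  nlinarith

lemma PP_lim_bound {κ : ℝ} (hκ : KB F κ) {v : F → V} {g f : F → F →L[ℝ] V} {x : F} {R t K α : ℝ}
    (hα : 0 < α) (hK0 : 0 ≤ K)
    (hv : ∀ z ∈ ball x R, HasFDerivAt v (g z) z) (hg : ContinuousOn g (ball x R))
    (hf : ContinuousOn f (ball x R)) (hw : WeakDiv (fun z => g z - f z) (ball x R))
    (hK : ∀ z ∈ ball x R, ‖f z - f x‖ ≤ K * ‖z - x‖ ^ α)
    (ht : 0 < t) (htR : t < R) (e : F) :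
    ‖PP g t x e - ce F • g x e‖ ≤ K * κ * ‖e‖ * vb F 1 / α * t ^ α := by
  set C : ℝ := K * κ * ‖e‖ * vb F 1 with hC
  have hC0 : 0 ≤ C := by
    have := hκ.nonneg; have := vb_nonneg (F := F) 1; positivity
  have key : ∀ ε ∈ Ioo 0 t, ‖PP g t x e - PP g ε x e‖ ≤ C / α * t ^ α := by
    intro ε hε
    have hder : ∀ s ∈ Icc ε t, HasDerivAt (fun s => PP g s x e - PP g ε x e)
        (-(s⁻¹ • QQ f s x e)) s := by
      intro s hs
      have hs0 : 0 < s := hε.1.trans_le hs.1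
      exact (hasDerivAt_PP hv hg hf hw hs0 (hs.2.trans_lt htR) e).sub_const _
    have hB : ∀ s ∈ Icc ε t, HasDerivAt (fun s => C / α * (s ^ α - ε ^ α)) (C * s ^ (α - 1)) s := by
      intro s hs
      have hs0 : 0 < s := hε.1.trans_le hs.1
      have h1 := ((Real.hasDerivAt_rpow_const (p := α) (Or.inl hs0.ne')).sub_const (ε ^ α)).const_mul
        (C / α)
      refine h1.congr_deriv ?_
      field_simp
    have h := image_norm_le_of_norm_deriv_right_le_deriv_boundary' (a := ε) (b := t)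
      (f := fun s => PP g s x e - PP g ε x e) (f' := fun s => -(s⁻¹ • QQ f s x e))
      (B := fun s => C / α * (s ^ α - ε ^ α)) (B' := fun s => C * s ^ (α - 1))
      (fun s hs => (hder s hs).continuousAt.continuousWithinAt)
      (fun s hs => (hder s (Ico_subset_Icc_self hs)).hasDerivWithinAt) (by simp)
      (fun s hs => (hB s hs).continuousAt.continuousWithinAt)
      (fun s hs => (hB s (Ico_subset_Icc_self hs)).hasDerivWithinAt) ?_ (right_mem_Icc.2 hε.2.le)
    · refine h.trans ?_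
      have : 0 ≤ ε ^ α := Real.rpow_nonneg hε.1.le _
      exact mul_le_mul_of_nonneg_left (by linarith) (by positivity)
    · intro s hs
      have hs0 : 0 < s := hε.1.trans_le hs.1
      have h2 := QQ_bound hκ hs0.le (hs.2.trans htR) hf hK0 hα.le hK e
      rw [norm_neg, norm_smul, norm_inv, Real.norm_of_nonneg hs0.le]
      have h3 : s ^ (α - 1) = s⁻¹ * s ^ α := by
        rw [Real.rpow_sub_one hs0.ne']; ring
      rw [h3]
      calc s⁻¹ * ‖QQ f s x e‖ ≤ s⁻¹ * (K * s ^ α * κ * ‖e‖ * vb F 1) :=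
            mul_le_mul_of_nonneg_left h2 (by positivity)
        _ = _ := by rw [hC]; ring
  have hlim : Tendsto (fun ε => ‖PP g t x e - PP g ε x e‖) (𝓝[>] 0)
      (𝓝 ‖PP g t x e - ce F • g x e‖) :=
    (tendsto_const_nhds.sub (PP_tendsto (ht.trans htR) hg e)).norm
  refine le_of_tendsto hlim ?_
  filter_upwards [Ioo_mem_nhdsGT ht] with ε hε
  exact key ε hε

lemma PP_diff_bound {κ : ℝ} (hκ : KB F κ) {v : F → V} {g f : F → F →L[ℝ] V} {x x' : F}
    {R r t K α : ℝ} (hα : 0 < α) (hα1 : α < 1) (hK0 : 0 ≤ K)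
    (hv : ∀ z ∈ ball x R, HasFDerivAt v (g z) z) (hg : ContinuousOn g (ball x R))
    (hf : ContinuousOn f (ball x R)) (hw : WeakDiv (fun z => g z - f z) (ball x R))
    (hK : ∀ z ∈ ball x R, ‖f z - f x‖ ≤ K * ‖z - x‖ ^ α)
    (ht : 0 < t) (htr : t ≤ r) (hrR : 2 * r < R) (hxx : ‖x' - x‖ ≤ t) (e : F) :
    ‖(PP g r x e - PP g r x' e) - (PP g t x e - PP g t x' e)‖
      ≤ K * 2 ^ α * κ * ‖x' - x‖ * ‖e‖ * vb F 2 / (1 - α) * t ^ (α - 1) := by
  set C : ℝ := K * 2 ^ α * κ * ‖x' - x‖ * ‖e‖ * vb F 2 with hC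
  have hC0 : 0 ≤ C := by
    have := hκ.nonneg; have := vb_nonneg (F := F) 2; positivity
  have hα2 : 0 < 1 - α := by linarith
  have hsub : ball x' (R - t) ⊆ ball x R := by
    intro z hz
    rw [mem_ball, dist_eq_norm] at hz ⊢
    calc ‖z - x‖ = ‖(z - x') + (x' - x)‖ := by congr 1; abel
      _ ≤ ‖z - x'‖ + ‖x' - x‖ := norm_add_le _ _
      _ < R := by linarith
  have hw' : WeakDiv (fun z => g z - f z) (ball x' (R - t)) :=
    fun ζ h1 h2 h3 => hw ζ h1 h2 (h3.trans hsub)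
  have hder : ∀ s ∈ Icc t r, HasDerivAt
      (fun s => (PP g s x e - PP g s x' e) - (PP g t x e - PP g t x' e))
        (-(s⁻¹ • QQ f s x e) - -(s⁻¹ • QQ f s x' e)) s := by
    intro s hs
    have hs0 : 0 < s := ht.trans_le hs.1
    have h1 := hasDerivAt_PP hv hg hf hw hs0 (by linarith [hs.2] : s < R) e
    have h2 := hasDerivAt_PP (fun z hz => hv z (hsub hz)) (hg.mono hsub) (hf.mono hsub) hw' hs0
      (by linarith [hs.2, hs.1] : s < R - t) e
    exact (h1.sub h2).sub_const _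
  have hB : ∀ s ∈ Icc t r, HasDerivAt (fun s => C / (1 - α) * (t ^ (α - 1) - s ^ (α - 1)))
      (C * s ^ (α - 2)) s := by
    intro s hs
    have hs0 : 0 < s := ht.trans_le hs.1
    have h1 := ((Real.hasDerivAt_rpow_const (p := α - 1) (Or.inl hs0.ne')).const_sub
      (t ^ (α - 1))).const_mul (C / (1 - α))
    refine h1.congr_deriv ?_
    have : α - 1 - 1 = α - 2 := by ring
    rw [this]
    field_simp
    ring
  have h := image_norm_le_of_norm_deriv_right_le_deriv_boundary' (a := t) (b := r)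
      (f := fun s => (PP g s x e - PP g s x' e) - (PP g t x e - PP g t x' e))
      (f' := fun s => -(s⁻¹ • QQ f s x e) - -(s⁻¹ • QQ f s x' e))
      (B := fun s => C / (1 - α) * (t ^ (α - 1) - s ^ (α - 1))) (B' := fun s => C * s ^ (α - 2))
      (fun s hs => (hder s hs).continuousAt.continuousWithinAt)
      (fun s hs => (hder s (Ico_subset_Icc_self hs)).hasDerivWithinAt) (by simp)
      (fun s hs => (hB s hs).continuousAt.continuousWithinAt)
      (fun s hs => (hB s (Ico_subset_Icc_self hs)).hasDerivWithinAt) ?_ (right_mem_Icc.2 htr)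
  · refine h.trans ?_
    have : 0 ≤ r ^ (α - 1) := Real.rpow_nonneg (ht.le.trans htr) _
    exact mul_le_mul_of_nonneg_left (by linarith) (by positivity)
  · intro s hs
    have hs0 : 0 < s := ht.trans_le hs.1
    have h2 := QQ_diff hκ hs0 (by linarith [hs.2] : 2 * s < R) hf hK0 hα.le hK
      (hxx.trans hs.1) e
    have h4 : -(s⁻¹ • QQ f s x e) - -(s⁻¹ • QQ f s x' e)
        = -(s⁻¹ • (QQ f s x e - QQ f s x' e)) := by
      rw [smul_sub]; abel
    rw [h4, norm_neg, norm_smul, norm_inv, Real.norm_of_nonneg hs0.le]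
    have h3 : s ^ (α - 2) = s⁻¹ * s⁻¹ * s ^ α := by
      have : α - 2 = α - 1 - 1 := by ring
      rw [this, Real.rpow_sub_one hs0.ne', Real.rpow_sub_one hs0.ne']; ring
    rw [h3]
    rw [Real.mul_rpow (by norm_num) hs0.le] at h2
    calc s⁻¹ * ‖QQ f s x e - QQ f s x' e‖
        ≤ s⁻¹ * (K * (2 ^ α * s ^ α) * (κ * (s⁻¹ * ‖x' - x‖) * ‖e‖) * vb F 2) :=
          mul_le_mul_of_nonneg_left h2 (by positivity)
      _ = _ := by rw [hC]; ring

variable (F) in
/-- the Schauder constant -/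
def CS (κ α : ℝ) : ℝ := (ce F)⁻¹ * (2 * κ * vb F 1 / α + 2 ^ α * κ * vb F 2 / (1 - α) + κ * vb F 2)

/-- The `C^{1,α}` estimate for `Δ v = div f`. -/
theorem schauder {κ : ℝ} (hκ : KB F κ) {v : F → V} {g f : F → F →L[ℝ] V} {x x' : F}
    {R K M α : ℝ} (hα : 0 < α) (hα1 : α < 1) (hK0 : 0 ≤ K) (hR : 0 < R) (hM0 : 0 ≤ M)
    (hv : ∀ z ∈ ball x (3 * R), HasFDerivAt v (g z) z) (hg : ContinuousOn g (ball x (3 * R)))
    (hf : ContinuousOn f (ball x (3 * R)))
    (hw : WeakDiv (fun z => g z - f z) (ball x (3 * R)))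
    (hK : ∀ z ∈ ball x (3 * R), ∀ z' ∈ ball x (3 * R), ‖f z - f z'‖ ≤ K * ‖z - z'‖ ^ α)
    (hM : ∀ z ∈ ball x (3 * R), ‖v z‖ ≤ M)
    (hxx : ‖x' - x‖ ≤ R) :
    ‖g x - g x'‖ ≤ CS F κ α * (K + M * R ^ (-1 - α)) * ‖x' - x‖ ^ α := by
  have hce := ce_pos (F := F)
  have hκ0 := hκ.nonneg
  have hv1 := vb_nonneg (F := F) 1
  have hv2 := vb_nonneg (F := F) 2
  have hα2 : 0 < 1 - α := by linarith
  have hCS0 : 0 ≤ CS F κ α := by unfold CS; positivity
  rcases eq_or_ne x' x with rfl | hne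
  · simp only [sub_self, norm_zero]
    positivity
  set t : ℝ := ‖x' - x‖ with ht
  have ht0 : 0 < t := norm_pos_iff.2 (sub_ne_zero.2 hne)
  have hsub : ball x' (2 * R) ⊆ ball x (3 * R) := by
    intro z hz
    rw [mem_ball, dist_eq_norm] at hz ⊢
    calc ‖z - x‖ = ‖(z - x') + (x' - x)‖ := by congr 1; abel
      _ ≤ ‖z - x'‖ + ‖x' - x‖ := norm_add_le _ _
      _ < 3 * R := by linarith
  have hx : x ∈ ball x (3 * R) := mem_ball_self (by linarith)
  have hx' : x' ∈ ball x (3 * R) := hsub (mem_ball_self (by linarith))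
  have hw' : WeakDiv (fun z => g z - f z) (ball x' (2 * R)) :=
    fun ζ h1 h2 h3 => hw ζ h1 h2 (h3.trans hsub)
  have hvc : ContinuousOn v (ball x (3 * R)) :=
    fun z hz => (hv z hz).continuousAt.continuousWithinAt
  have hpw : 0 ≤ t ^ α := Real.rpow_nonneg ht0.le _
  refine ContinuousLinearMap.opNorm_le_bound _ (by positivity) ?_
  intro e
  rw [sub_apply]
  have h1 := PP_lim_bound hκ hα hK0 hv hg hf hw (fun z hz => hK z hz x hx) ht0
    (by linarith : t < 3 * R) e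
  have h2 := PP_lim_bound hκ hα hK0 (fun z hz => hv z (hsub hz)) (hg.mono hsub) (hf.mono hsub) hw'
    (fun z hz => hK z (hsub hz) x' hx') ht0 (by linarith : t < 2 * R) e
  have h3 := PP_diff_bound hκ hα hα1 hK0 hv hg hf hw (fun z hz => hK z hz x hx) ht0
    hxx (by linarith : 2 * R < 3 * R) (le_of_eq ht.symm) e
  have h4 := AA_diff hκ hR (by linarith : 2 * R < 3 * R) hvc hM (x' := x') hxx e
  rw [← PP_ibp hv hg hR (by linarith) e,
    ← PP_ibp (fun z hz => hv z (hsub hz)) (hg.mono hsub) hR (by linarith) e, ← smul_sub,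
    norm_smul, Real.norm_of_nonneg hR.le] at h4
  have h5 : ‖PP g R x e - PP g R x' e‖ ≤ R⁻¹ * ((κ * (R⁻¹ * t) * ‖e‖) * M * vb F 2) := by
    rw [← inv_mul_le_iff₀ (inv_pos.2 hR), inv_inv]
    exact h4
  have h6 : ‖ce F • (g x e - g x' e)‖ ≤
      2 * (K * κ * ‖e‖ * vb F 1 / α * t ^ α)
      + K * 2 ^ α * κ * t * ‖e‖ * vb F 2 / (1 - α) * t ^ (α - 1)
      + R⁻¹ * ((κ * (R⁻¹ * t) * ‖e‖) * M * vb F 2) := by
    have h7 : ce F • (g x e - g x' e) =
        -(PP g t x e - ce F • g x e) + (PP g t x' e - ce F • g x' e)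
        - ((PP g R x e - PP g R x' e) - (PP g t x e - PP g t x' e))
        + (PP g R x e - PP g R x' e) := by
      rw [smul_sub]; abel
    rw [h7]
    refine (norm_add_le _ _).trans ?_
    refine add_le_add ((norm_sub_le _ _).trans ?_) h5
    refine add_le_add ((norm_add_le _ _).trans ?_) h3
    rw [norm_neg]
    linarith
  rw [norm_smul, Real.norm_of_nonneg hce.le] at h6
  have h8 : t * t ^ (α - 1) = t ^ α := by
    rw [Real.rpow_sub_one ht0.ne']; field_simp
  have h9 : R⁻¹ * R⁻¹ * t ≤ R ^ (-1 - α) * t ^ α := by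
    have h10 : R ^ (-1 - α) = R⁻¹ * (R ^ α)⁻¹ := by
      rw [Real.rpow_sub hR, Real.rpow_neg_one]; rfl
    rw [h10]
    have h11 : (t / R) ^ (1:ℝ) ≤ (t / R) ^ α := by
      apply Real.rpow_le_rpow_of_exponent_ge (by positivity) ((div_le_one hR).2 hxx) hα1.le
    rw [Real.rpow_one, Real.div_rpow ht0.le hR.le] at h11
    calc R⁻¹ * R⁻¹ * t = R⁻¹ * (t / R) := by ring
      _ ≤ R⁻¹ * (t ^ α / R ^ α) := mul_le_mul_of_nonneg_left h11 (by positivity)
      _ = _ := by ring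
  have h12 : ce F * ‖g x e - g x' e‖ ≤
      ((2 * κ * vb F 1 / α + 2 ^ α * κ * vb F 2 / (1 - α)) * K
      + κ * vb F 2 * (M * R ^ (-1 - α))) * t ^ α * ‖e‖ := by
    refine h6.trans ?_
    have e1 : K * 2 ^ α * κ * t * ‖e‖ * vb F 2 / (1 - α) * t ^ (α - 1)
        = 2 ^ α * κ * vb F 2 / (1 - α) * K * (t * t ^ (α - 1)) * ‖e‖ := by ring
    have e2 : R⁻¹ * ((κ * (R⁻¹ * t) * ‖e‖) * M * vb F 2)
        = κ * vb F 2 * M * ‖e‖ * (R⁻¹ * R⁻¹ * t) := by ring
    have e3 : κ * vb F 2 * M * ‖e‖ * (R⁻¹ * R⁻¹ * t)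
        ≤ κ * vb F 2 * M * ‖e‖ * (R ^ (-1 - α) * t ^ α) :=
      mul_le_mul_of_nonneg_left h9 (by positivity)
    rw [e1, e2, h8]
    refine (add_le_add_right e3 _).trans (le_of_eq ?_)
    ring
  have h13 : ‖g x e - g x' e‖ ≤ (ce F)⁻¹ * (((2 * κ * vb F 1 / α + 2 ^ α * κ * vb F 2 / (1 - α)) * K
      + κ * vb F 2 * (M * R ^ (-1 - α))) * t ^ α * ‖e‖) := by
    rw [← inv_mul_le_iff₀ (inv_pos.2 hce), inv_inv]
    exact h12
  refine h13.trans ?_
  have hRp : 0 ≤ R ^ (-1 - α) := Real.rpow_nonneg hR.le _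
  have h14 : (2 * κ * vb F 1 / α + 2 ^ α * κ * vb F 2 / (1 - α)) * K
      + κ * vb F 2 * (M * R ^ (-1 - α)) ≤
      (2 * κ * vb F 1 / α + 2 ^ α * κ * vb F 2 / (1 - α) + κ * vb F 2) * (K + M * R ^ (-1 - α)) := by
    have a1 : 0 ≤ (2 * κ * vb F 1 / α + 2 ^ α * κ * vb F 2 / (1 - α)) * (M * R ^ (-1 - α)) := by
      positivity
    have a2 : 0 ≤ κ * vb F 2 * K := by positivity
    nlinarith
  unfold CS
  calc (ce F)⁻¹ * (((2 * κ * vb F 1 / α + 2 ^ α * κ * vb F 2 / (1 - α)) * K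
      + κ * vb F 2 * (M * R ^ (-1 - α))) * t ^ α * ‖e‖)
      ≤ (ce F)⁻¹ * (((2 * κ * vb F 1 / α + 2 ^ α * κ * vb F 2 / (1 - α) + κ * vb F 2)
        * (K + M * R ^ (-1 - α))) * t ^ α * ‖e‖) := by
        refine mul_le_mul_of_nonneg_left ?_ (by positivity)
        refine mul_le_mul_of_nonneg_right ?_ (norm_nonneg _)
        exact mul_le_mul_of_nonneg_right h14 hpw
    _ = _ := by ring

end

end Crest.Agent.R246.H2x622
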