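import Crest.Agent.R246.H2b3_622

/-!
R246, block H2b (helper622).  Part 4: absorption, `div((I+B)∇v) = div f₀`.
-/

open MeasureTheory Metric Set Filter Topology
open scoped ContDiff

namespace Crest.Agent.R246.H2x622

noncomputable section

set_option linter.unusedSectionVars false

variable {F : Type*} [NormedAddCommGroup F] [InnerProductSpace ℝ F] [FiniteDimensional ℝ F]
  [MeasurableSpace F] [BorelSpace F]
variable {V : Type*} [NormedAddCommGroup V] [NormedSpace ℝ V]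

/-- weighted interior Hölder bound of the gradient -/
def WH (g : F → F →L[ℝ] V) (x₀ : F) (ρ α N : ℝ) : Prop :=
  ∀ x ∈ ball x₀ ρ, ∀ x', ‖x' - x‖ ≤ (ρ - ‖x - x₀‖) / 4 →
    (ρ - ‖x - x₀‖) ^ (1 + α) * ‖g x - g x'‖ ≤ N * ‖x' - x‖ ^ α

lemma dist_pos_of_mem {x x₀ : F} {ρ : ℝ} (hx : x ∈ ball x₀ ρ) : 0 < ρ - ‖x - x₀‖ := by
  rw [mem_ball, dist_eq_norm] at hx; linarith

lemma dist_le' {x z x₀ : F} {ρ : ℝ} : ρ - ‖x - x₀‖ - ‖z - x‖ ≤ ρ - ‖z - x₀‖ := by
  have : ‖z - x₀‖ ≤ ‖z - x‖ + ‖x - x₀‖ := by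
    calc ‖z - x₀‖ = ‖(z - x) + (x - x₀)‖ := by congr 1; abel
      _ ≤ _ := norm_add_le _ _
  linarith

lemma mem_of_near {x z x₀ : F} {ρ : ℝ} (hz : ‖z - x‖ < ρ - ‖x - x₀‖) : z ∈ ball x₀ ρ := by
  have := dist_le' (x := x) (z := z) (x₀ := x₀) (ρ := ρ)
  rw [mem_ball, dist_eq_norm]; linarith

lemma WH_grad {v : F → V} {g : F → F →L[ℝ] V} {x₀ : F} {ρ α N M : ℝ} (hα : 0 < α) (hN : 0 ≤ N)
    (hv : ∀ z ∈ ball x₀ ρ, HasFDerivAt v (g z) z) (hM : ∀ z ∈ ball x₀ ρ, ‖v z‖ ≤ M)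
    (hM0 : 0 ≤ M) (hW : WH g x₀ ρ α N) {τ : ℝ} (hτ : 0 < τ) (hτ4 : τ ≤ 1 / 4) {x : F}
    (hx : x ∈ ball x₀ ρ) :
    (ρ - ‖x - x₀‖) * ‖g x‖ ≤ 2 * M / τ + N * τ ^ α := by
  set d : ℝ := ρ - ‖x - x₀‖ with hd
  have hd0 : 0 < d := dist_pos_of_mem hx
  have hτd : 0 < τ * d := by positivity
  set C : ℝ := N * d ^ (-1 - α) * (τ * d) ^ α with hC
  have hCd : C * d = N * τ ^ α := by
    rw [hC, Real.mul_rpow hτ.le hd0.le, Real.rpow_sub hd0, Real.rpow_neg_one]
    field_simp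
  have hbound : ∀ e : F, ‖g x e‖ ≤ ((2 * M / τ + N * τ ^ α) / d) * ‖e‖ := by
    intro e
    rcases eq_or_ne e 0 with rfl | he
    · simp
    have he0 : 0 < ‖e‖ := norm_pos_iff.2 he
    set u : F := (τ * d / ‖e‖) • e with hu
    have hun : ‖u‖ = τ * d := by
      rw [hu, norm_smul, Real.norm_of_nonneg (by positivity)]
      field_simp
    have hsub : closedBall x (τ * d) ⊆ ball x₀ ρ := by
      intro z hz
      rw [mem_closedBall, dist_eq_norm] at hz
      apply mem_of_near (x := x)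
      rw [← hd]
      nlinarith
    have hder : ∀ z ∈ closedBall x (τ * d), HasFDerivWithinAt v (g z) (closedBall x (τ * d)) z :=
      fun z hz => (hv z (hsub hz)).hasFDerivWithinAt
    have hbd : ∀ z ∈ closedBall x (τ * d), ‖g z - g x‖ ≤ C := by
      intro z hz
      rw [mem_closedBall, dist_eq_norm] at hz
      have h1 := hW x hx z (by rw [← hd]; nlinarith)
      rw [← hd] at h1
      have h2 : ‖z - x‖ ^ α ≤ (τ * d) ^ α := Real.rpow_le_rpow (norm_nonneg _) hz hα.le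
      have h3 : d ^ (1 + α) * ‖g x - g z‖ ≤ N * (τ * d) ^ α :=
        h1.trans (mul_le_mul_of_nonneg_left h2 hN)
      have h4 : d ^ (-1 - α) * d ^ (1 + α) = 1 := by
        rw [← Real.rpow_add hd0]; ring_nf; exact Real.rpow_zero d
      have h5 : 0 ≤ d ^ (-1 - α) := Real.rpow_nonneg hd0.le _
      rw [norm_sub_rev]
      calc ‖g x - g z‖ = d ^ (-1 - α) * (d ^ (1 + α) * ‖g x - g z‖) := by
            rw [← mul_assoc, h4, one_mul]
        _ ≤ d ^ (-1 - α) * (N * (τ * d) ^ α) := mul_le_mul_of_nonneg_left h3 h5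
        _ = C := by rw [hC]; ring
    have hxu : x + u ∈ closedBall x (τ * d) := by
      rw [mem_closedBall, dist_eq_norm, add_sub_cancel_left, hun]
    have h6 := (convex_closedBall x (τ * d)).norm_image_sub_le_of_norm_hasFDerivWithin_le'
      hder hbd (mem_closedBall_self hτd.le) hxu
    rw [add_sub_cancel_left, hun] at h6
    have h7 : ‖g x u‖ ≤ 2 * M + C * (τ * d) := by
      have h8 : g x u = (v (x + u) - v x) - (v (x + u) - v x - g x u) := by abel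
      rw [h8]
      refine (norm_sub_le _ _).trans (add_le_add ?_ h6)
      refine (norm_sub_le _ _).trans ?_
      have := hM _ (hsub hxu)
      have := hM _ hx
      linarith
    have h9 : g x u = (τ * d / ‖e‖) • g x e := by rw [hu, map_smul]
    rw [h9, norm_smul, Real.norm_of_nonneg (by positivity)] at h7
    have h10 : ‖g x e‖ ≤ (2 * M + C * (τ * d)) * ‖e‖ / (τ * d) := by
      rw [le_div_iff₀ hτd]
      have : τ * d / ‖e‖ * ‖g x e‖ * ‖e‖ ≤ (2 * M + C * (τ * d)) * ‖e‖ :=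
        mul_le_mul_of_nonneg_right h7 he0.le
      have h11 : τ * d / ‖e‖ * ‖g x e‖ * ‖e‖ = ‖g x e‖ * (τ * d) := by field_simp
      linarith
    refine h10.trans (le_of_eq ?_)
    have h12 : (2 * M + C * (τ * d)) * ‖e‖ / (τ * d) = (2 * M / τ + C * d) / d * ‖e‖ := by
      field_simp
    rw [h12, hCd]
  have h13 : ‖g x‖ ≤ (2 * M / τ + N * τ ^ α) / d :=
    ContinuousLinearMap.opNorm_le_bound _ (by positivity) hbound
  rw [le_div_iff₀ hd0] at h13
  linarith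

variable [CompleteSpace V]

lemma WH_step {κ : ℝ} (hκ : KB F κ) {v : F → V} {g f : F → F →L[ℝ] V} {x₀ : F}
    {ρ α β b N M F0 τ : ℝ} (hα : 0 < α) (hα1 : α < 1) (hρ1 : ρ ≤ 1) (hN : 0 ≤ N)
    (hv : ∀ z ∈ ball x₀ ρ, HasFDerivAt v (g z) z) (hg : ContinuousOn g (ball x₀ ρ))
    (hf : ContinuousOn f (ball x₀ ρ)) (hw : WeakDiv (fun z => g z - f z) (ball x₀ ρ))
    (hM : ∀ z ∈ ball x₀ ρ, ‖v z‖ ≤ M) (hM0 : 0 ≤ M) (hb : 0 ≤ b) (hβ : 0 ≤ β) (hF0 : 0 ≤ F0)
    (hfb : ∀ z ∈ ball x₀ ρ, ∀ z' ∈ ball x₀ ρ,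
      ‖f z - f z'‖ ≤ β * ‖g z - g z'‖ + (b * ‖g z'‖ + F0) * ‖z - z'‖ ^ α)
    (hτ : 0 < τ) (hτ4 : τ ≤ 1 / 4) (hW : WH g x₀ ρ α N) :
    WH g x₀ ρ α (CS F κ α * (4 * β * N + 2 * b * (2 * M / τ + N * τ ^ α) + F0 + 1024 * M)
      + 96 * (2 * M / τ + N * τ ^ α)) := by
  have hce := ce_pos (F := F)
  have hκ0 := hκ.nonneg
  have hv1 := vb_nonneg (F := F) 1
  have hv2 := vb_nonneg (F := F) 2
  have hα2 : 0 < 1 - α := by linarith
  have hCS0 : 0 ≤ CS F κ α := by unfold CS; positivity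
  set L : ℝ := 2 * M / τ + N * τ ^ α with hL
  have hL0 : 0 ≤ L := by
    have : 0 ≤ τ ^ α := Real.rpow_nonneg hτ.le _
    positivity
  have hgr : ∀ x ∈ ball x₀ ρ, (ρ - ‖x - x₀‖) * ‖g x‖ ≤ L := fun x hx =>
    WH_grad hα hN hv hM hM0 hW hτ hτ4 hx
  intro x hx x' hxx
  set d : ℝ := ρ - ‖x - x₀‖ with hd
  have hd0 : 0 < d := dist_pos_of_mem hx
  have hd1 : d ≤ 1 := by have := norm_nonneg (x - x₀); linarith
  have hpw : 0 ≤ ‖x' - x‖ ^ α := Real.rpow_nonneg (norm_nonneg _) _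
  have hdp : 0 < d ^ (1 + α) := Real.rpow_pos_of_pos hd0 _
  have hdp1 : d ^ (1 + α) ≤ 1 := Real.rpow_le_one hd0.le hd1 (by linarith)
  have hdpa1 : d ^ α ≤ 1 := Real.rpow_le_one hd0.le hd1 hα.le
  have hdpa : 0 < d ^ α := Real.rpow_pos_of_pos hd0 _
  have hsplit : d ^ (1 + α) = d * d ^ α := by rw [Real.rpow_add hd0, Real.rpow_one]
  have hx' : x' ∈ ball x₀ ρ := mem_of_near (x := x) (by rw [← hd]; linarith)
  have hdx' : 3 / 4 * d ≤ ρ - ‖x' - x₀‖ := by
    have := dist_le' (x := x) (z := x') (x₀ := x₀) (ρ := ρ)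
    rw [← hd] at this; linarith
  rcases le_or_gt ‖x' - x‖ (d / 32) with hcase | hcase
  · -- near case
    set R : ℝ := d / 32 with hR
    have hR0 : 0 < R := by positivity
    have hsub : ball x (3 * R) ⊆ ball x₀ ρ := by
      intro z hz
      rw [mem_ball, dist_eq_norm] at hz
      apply mem_of_near (x := x); rw [← hd]; linarith
    have hdz : ∀ z ∈ ball x (3 * R), 29 / 32 * d ≤ ρ - ‖z - x₀‖ := by
      intro z hz
      rw [mem_ball, dist_eq_norm] at hz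
      have := dist_le' (x := x) (z := z) (x₀ := x₀) (ρ := ρ)
      rw [← hd] at this; linarith
    set K : ℝ := 4 * β * N * d ^ (-1 - α) + 2 * b * L / d + F0 with hK
    have hdm : 0 < d ^ (-1 - α) := Real.rpow_pos_of_pos hd0 _
    have hK0 : 0 ≤ K := by positivity
    have hmul : d ^ (-1 - α) * d ^ (1 + α) = 1 := by
      rw [← Real.rpow_add hd0]; ring_nf; exact Real.rpow_zero d
    have hKh : ∀ z ∈ ball x (3 * R), ∀ z' ∈ ball x (3 * R),
        ‖f z - f z'‖ ≤ K * ‖z - z'‖ ^ α := by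
      intro z hz z' hz'
      have h1 := hfb z (hsub hz) z' (hsub hz')
      have hzp : 0 ≤ ‖z - z'‖ ^ α := Real.rpow_nonneg (norm_nonneg _) _
      have hzz : ‖z' - z‖ ≤ (ρ - ‖z - x₀‖) / 4 := by
        have h2 := hdz z hz
        rw [mem_ball, dist_eq_norm] at hz hz'
        have h3 : ‖z' - z‖ ≤ ‖z' - x‖ + ‖z - x‖ := by
          calc ‖z' - z‖ = ‖(z' - x) - (z - x)‖ := by congr 1; abel
            _ ≤ _ := norm_sub_le _ _
        linarith
      have h2 := hW z (hsub hz) z' hzz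
      have h3 := hdz z hz
      have h4 : d ^ (1 + α) / 4 ≤ (ρ - ‖z - x₀‖) ^ (1 + α) := by
        have h5 : (d / 2) ^ (1 + α) ≤ (ρ - ‖z - x₀‖) ^ (1 + α) :=
          Real.rpow_le_rpow (by positivity) (by linarith) (by linarith)
        have h6 : (d / 2) ^ (1 + α) = d ^ (1 + α) * (1 / 2) ^ (1 + α) := by
          rw [← Real.mul_rpow hd0.le (by norm_num)]; congr 1; ring
        have h7 : (1 / 4 : ℝ) ≤ (1 / 2 : ℝ) ^ (1 + α) := by
          have h8 : ((1:ℝ) / 2) ^ (2:ℝ) ≤ (1 / 2 : ℝ) ^ (1 + α) :=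
            Real.rpow_le_rpow_of_exponent_ge (by norm_num) (by norm_num) (by linarith)
          have h9 : ((1:ℝ) / 2) ^ (2:ℝ) = 1 / 4 := by norm_num
          linarith
        have h10 : d ^ (1 + α) * (1 / 4) ≤ d ^ (1 + α) * (1 / 2) ^ (1 + α) :=
          mul_le_mul_of_nonneg_left h7 hdp.le
        linarith
      have h5 : d ^ (1 + α) / 4 * ‖g z - g z'‖ ≤ N * ‖z - z'‖ ^ α := by
        refine (mul_le_mul_of_nonneg_right h4 (norm_nonneg _)).trans ?_
        rw [norm_sub_rev z z']; exact h2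
      have h6 : ‖g z - g z'‖ ≤ 4 * N * d ^ (-1 - α) * ‖z - z'‖ ^ α := by
        have h7 : ‖g z - g z'‖ = 4 * d ^ (-1 - α) * (d ^ (1 + α) / 4 * ‖g z - g z'‖) := by
          have : 4 * d ^ (-1 - α) * (d ^ (1 + α) / 4 * ‖g z - g z'‖)
            = (d ^ (-1 - α) * d ^ (1 + α)) * ‖g z - g z'‖ := by ring
          rw [this, hmul, one_mul]
        rw [h7]
        refine (mul_le_mul_of_nonneg_left h5 (by positivity)).trans (le_of_eq (by ring))
      have h7 : ‖g z'‖ ≤ 2 * L / d := by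
        have h8 := hgr z' (hsub hz')
        have h9 := hdz z' hz'
        rw [le_div_iff₀ hd0]
        have h10 : d / 2 * ‖g z'‖ ≤ (ρ - ‖z' - x₀‖) * ‖g z'‖ :=
          mul_le_mul_of_nonneg_right (by linarith) (norm_nonneg _)
        linarith
      calc ‖f z - f z'‖ ≤ β * ‖g z - g z'‖ + (b * ‖g z'‖ + F0) * ‖z - z'‖ ^ α := h1
        _ ≤ β * (4 * N * d ^ (-1 - α) * ‖z - z'‖ ^ α) + (b * (2 * L / d) + F0) * ‖z - z'‖ ^ α := by
            refine add_le_add (mul_le_mul_of_nonneg_left h6 hβ) ?_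
            refine mul_le_mul_of_nonneg_right ?_ hzp
            have := mul_le_mul_of_nonneg_left h7 hb
            linarith
        _ = K * ‖z - z'‖ ^ α := by rw [hK]; ring
    have hmain := schauder hκ hα hα1 hK0 hR0 hM0 (fun z hz => hv z (hsub hz)) (hg.mono hsub)
      (hf.mono hsub) (fun ζ h1 h2 h3 => hw ζ h1 h2 (h3.trans hsub)) hKh
      (fun z hz => hM z (hsub hz)) hcase
    have hRp : R ^ (-1 - α) ≤ 1024 * d ^ (-1 - α) := by
      have h1 : R ^ (-1 - α) = d ^ (-1 - α) * (1 / 32) ^ (-1 - α) := by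
        rw [← Real.mul_rpow hd0.le (by norm_num)]; congr 1; rw [hR]; ring
      have h2 : ((1:ℝ) / 32) ^ (-1 - α) ≤ (1 / 32 : ℝ) ^ (-2 : ℝ) :=
        Real.rpow_le_rpow_of_exponent_ge (by norm_num) (by norm_num) (by linarith)
      have h3 : ((1:ℝ) / 32) ^ (-2 : ℝ) = 1024 := by
        rw [Real.rpow_neg (by norm_num)]; norm_num
      rw [h1]
      rw [h3] at h2
      nlinarith
    have h1 : d ^ (1 + α) * ‖g x - g x'‖ ≤
        d ^ (1 + α) * (CS F κ α * (K + M * (1024 * d ^ (-1 - α))) * ‖x' - x‖ ^ α) := by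
      refine mul_le_mul_of_nonneg_left (hmain.trans ?_) hdp.le
      refine mul_le_mul_of_nonneg_right ?_ hpw
      refine mul_le_mul_of_nonneg_left ?_ hCS0
      have := mul_le_mul_of_nonneg_left hRp hM0
      linarith
    have h2 : d ^ (1 + α) * (K + M * (1024 * d ^ (-1 - α)))
        ≤ 4 * β * N + 2 * b * L + F0 + 1024 * M := by
      have e1 : d ^ (1 + α) * (K + M * (1024 * d ^ (-1 - α)))
          = (4 * β * N + 1024 * M) * (d ^ (-1 - α) * d ^ (1 + α)) + 2 * b * L * d ^ α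
            + F0 * d ^ (1 + α) := by
        rw [hK, hsplit]; field_simp; ring
      rw [e1, hmul]
      have e2 : 2 * b * L * d ^ α ≤ 2 * b * L * 1 := mul_le_mul_of_nonneg_left hdpa1 (by positivity)
      have e3 : F0 * d ^ (1 + α) ≤ F0 * 1 := mul_le_mul_of_nonneg_left hdp1 hF0
      linarith
    calc d ^ (1 + α) * ‖g x - g x'‖ ≤
        d ^ (1 + α) * (CS F κ α * (K + M * (1024 * d ^ (-1 - α))) * ‖x' - x‖ ^ α) := h1
      _ = CS F κ α * (d ^ (1 + α) * (K + M * (1024 * d ^ (-1 - α)))) * ‖x' - x‖ ^ α := by ring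
      _ ≤ CS F κ α * (4 * β * N + 2 * b * L + F0 + 1024 * M) * ‖x' - x‖ ^ α := by
          refine mul_le_mul_of_nonneg_right ?_ hpw
          exact mul_le_mul_of_nonneg_left h2 hCS0
      _ ≤ _ := by
          refine mul_le_mul_of_nonneg_right ?_ hpw
          linarith
  · -- far case
    have h1 := hgr x hx
    have h2 := hgr x' hx'
    rw [← hd] at h1
    have h3 : d * ‖g x'‖ ≤ 4 / 3 * L := by
      have : 3 / 4 * d * ‖g x'‖ ≤ (ρ - ‖x' - x₀‖) * ‖g x'‖ :=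
        mul_le_mul_of_nonneg_right hdx' (norm_nonneg _)
      linarith
    have h4 : d * ‖g x - g x'‖ ≤ 3 * L := by
      have : d * ‖g x - g x'‖ ≤ d * (‖g x‖ + ‖g x'‖) :=
        mul_le_mul_of_nonneg_left (norm_sub_le _ _) hd0.le
      linarith
    have h5 : d ^ α ≤ 32 * ‖x' - x‖ ^ α := by
      have h6 : d ^ α ≤ (32 * ‖x' - x‖) ^ α := Real.rpow_le_rpow hd0.le (by linarith) hα.le
      rw [Real.mul_rpow (by norm_num) (norm_nonneg _)] at h6
      have h7 : (32:ℝ) ^ α ≤ 32 ^ (1:ℝ) := Real.rpow_le_rpow_of_exponent_le (by norm_num) hα1.le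
      rw [Real.rpow_one] at h7
      exact h6.trans (mul_le_mul_of_nonneg_right h7 hpw)
    have h6 : d ^ (1 + α) * ‖g x - g x'‖ ≤ 96 * L * ‖x' - x‖ ^ α := by
      calc d ^ (1 + α) * ‖g x - g x'‖ = d ^ α * (d * ‖g x - g x'‖) := by rw [hsplit]; ring
        _ ≤ d ^ α * (3 * L) := mul_le_mul_of_nonneg_left h4 hdpa.le
        _ ≤ (32 * ‖x' - x‖ ^ α) * (3 * L) := mul_le_mul_of_nonneg_right h5 (by positivity)
        _ = _ := by ring
    refine h6.trans (mul_le_mul_of_nonneg_right ?_ hpw)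
    have : 0 ≤ CS F κ α * (4 * β * N + 2 * b * L + F0 + 1024 * M) := by positivity
    linarith

variable (F) in
/-- admissible size of the perturbation of the identity -/
def bet (κ α : ℝ) : ℝ := 1 / (16 * CS F κ α + 1)

lemma CS_nonneg {κ α : ℝ} (hκ : KB F κ) (hα : 0 < α) (hα1 : α < 1) : 0 ≤ CS F κ α := by
  have hce := ce_pos (F := F)
  have hκ0 := hκ.nonneg
  have hv1 := vb_nonneg (F := F) 1
  have hv2 := vb_nonneg (F := F) 2
  have hα2 : 0 < 1 - α := by linarith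
  unfold CS; positivity

lemma bet_pos {κ α : ℝ} (hκ : KB F κ) (hα : 0 < α) (hα1 : α < 1) : 0 < bet F κ α := by
  have := CS_nonneg hκ hα hα1
  unfold bet; positivity

/-- Interior `C^{1,α}` a priori estimate for perturbations of the Laplacian in divergence form. -/
theorem schauder_pert {κ α : ℝ} (hκ : KB F κ) (hα : 0 < α) (hα1 : α < 1) {b ρ : ℝ} (hb : 0 ≤ b)
    (hρ0 : 0 < ρ) (hρ1 : ρ ≤ 1) :
    ∃ C : ℝ, 0 ≤ C ∧ ∀ (v : F → V) (g f : F → F →L[ℝ] V) (x₀ : F) (M F0 K0 : ℝ),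
      0 ≤ M → 0 ≤ F0 →
      (∀ z ∈ ball x₀ ρ, HasFDerivAt v (g z) z) → ContinuousOn f (ball x₀ ρ) →
      WeakDiv (fun z => g z - f z) (ball x₀ ρ) →
      (∀ z ∈ ball x₀ ρ, ∀ z' ∈ ball x₀ ρ, ‖g z - g z'‖ ≤ K0 * ‖z - z'‖ ^ α) →
      (∀ z ∈ ball x₀ ρ, ‖v z‖ ≤ M) →
      (∀ z ∈ ball x₀ ρ, ∀ z' ∈ ball x₀ ρ,
        ‖f z - f z'‖ ≤ bet F κ α * ‖g z - g z'‖ + (b * ‖g z'‖ + F0) * ‖z - z'‖ ^ α) →
      (∀ x ∈ ball x₀ (ρ / 2), ‖g x‖ ≤ C * (M + F0)) ∧
      (∀ x ∈ ball x₀ (ρ / 2), ∀ x', ‖x' - x‖ ≤ ρ / 8 →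
        ‖g x - g x'‖ ≤ C * (M + F0) * ‖x' - x‖ ^ α) := by
  have hCS := CS_nonneg hκ hα hα1
  have hbet := bet_pos hκ hα hα1
  set C0 := CS F κ α with hC0
  -- choice of τ
  obtain ⟨τ, hτ, hτ4, hτs⟩ : ∃ τ : ℝ, 0 < τ ∧ τ ≤ 1 / 4 ∧ (2 * b * C0 + 96) * τ ^ α ≤ 1 / 4 := by
    have hD : 0 < 4 * (2 * b * C0 + 96) := by positivity
    refine ⟨min (1 / 4) ((1 / (4 * (2 * b * C0 + 96))) ^ (1 / α)), ?_, min_le_left _ _, ?_⟩
    · exact lt_min (by norm_num) (Real.rpow_pos_of_pos (by positivity) _)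
    · have h1 : (min (1 / 4) ((1 / (4 * (2 * b * C0 + 96))) ^ (1 / α))) ^ α
          ≤ ((1 / (4 * (2 * b * C0 + 96))) ^ (1 / α)) ^ α :=
        Real.rpow_le_rpow (le_min (by norm_num) (Real.rpow_nonneg (by positivity) _))
          (min_le_right _ _) hα.le
      rw [← Real.rpow_mul (by positivity), one_div_mul_cancel hα.ne', Real.rpow_one] at h1
      calc (2 * b * C0 + 96) * _ ≤ (2 * b * C0 + 96) * (1 / (4 * (2 * b * C0 + 96))) :=
            mul_le_mul_of_nonneg_left h1 (by positivity)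
        _ = 1 / 4 := by field_simp
  set A1 : ℝ := C0 * 1025 + (2 * b * C0 + 96) * (2 / τ) with hA1
  have hA10 : 0 ≤ A1 := by positivity
  have hρ2 : 0 < ρ / 2 := by positivity
  set E1 : ℝ := (ρ / 2) ^ (-1 - α) with hE1
  have hE10 : 0 < E1 := Real.rpow_pos_of_pos hρ2 _
  refine ⟨(2 / τ + 2 * A1) / (ρ / 2) + 2 * A1 * E1, by positivity, ?_⟩
  intro v g f x₀ M F0 K0 hM0 hF0 hv hf hw hK0 hM hfb
  have hg : ContinuousOn g (ball x₀ ρ) := by
    intro z hz
    apply ContinuousAt.continuousWithinAt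
    rw [Metric.continuousAt_iff]
    intro ε hε
    have h1 : Tendsto (fun z' : F => |K0| * ‖z - z'‖ ^ α) (𝓝 z) (𝓝 (|K0| * ‖z - z‖ ^ α)) := by
      have : Continuous fun z' : F => |K0| * ‖z - z'‖ ^ α :=
        continuous_const.mul ((continuous_const.sub continuous_id).norm.rpow_const
          (fun _ => Or.inr hα.le))
      exact this.tendsto z
    rw [sub_self, norm_zero, Real.zero_rpow hα.ne', mul_zero] at h1
    have h2 := (h1.eventually (gt_mem_nhds hε)).and (isOpen_ball.mem_nhds hz)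
    obtain ⟨δ, hδ, hδ2⟩ := Metric.eventually_nhds_iff.1 h2
    refine ⟨δ, hδ, fun {z'} hz' => ?_⟩
    obtain ⟨h3, h4⟩ := hδ2 hz'
    rw [dist_comm, dist_eq_norm]
    refine lt_of_le_of_lt (hK0 z hz z' h4) (lt_of_le_of_lt ?_ h3)
    exact mul_le_mul_of_nonneg_right (le_abs_self K0) (Real.rpow_nonneg (norm_nonneg _) _)
  set A : ℝ := A1 * (M + F0) with hA
  have hA0 : 0 ≤ A := by positivity
  have hstep : ∀ N, 0 ≤ N → WH g x₀ ρ α N → WH g x₀ ρ α (N / 2 + A) := by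
    intro N hN hW
    have h := WH_step hκ hα hα1 hρ1 hN hv hg hf hw hM hM0 hb hbet.le hF0 hfb hτ hτ4 hW
    intro x hx x' hxx
    refine (h x hx x' hxx).trans (mul_le_mul_of_nonneg_right ?_ (Real.rpow_nonneg (norm_nonneg _) _))
    have e1 : C0 * (4 * bet F κ α * N + 2 * b * (2 * M / τ + N * τ ^ α) + F0 + 1024 * M)
        + 96 * (2 * M / τ + N * τ ^ α)
        = N * (4 * (C0 * bet F κ α) + (2 * b * C0 + 96) * τ ^ α)
          + (C0 * (F0 + 1024 * M) + (2 * b * C0 + 96) * (2 / τ) * M) := by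
      field_simp; ring
    rw [← hC0, e1]
    have e2 : C0 * bet F κ α ≤ 1 / 16 := by
      rw [bet, ← hC0, mul_one_div, div_le_iff₀ (by positivity)]; linarith
    have e3 : N * (4 * (C0 * bet F κ α) + (2 * b * C0 + 96) * τ ^ α) ≤ N * (1 / 2) :=
      mul_le_mul_of_nonneg_left (by linarith) hN
    have e4 : C0 * (F0 + 1024 * M) + (2 * b * C0 + 96) * (2 / τ) * M ≤ A := by
      rw [hA, hA1]
      have a1 : 0 ≤ C0 * M := by positivity
      have a2 : 0 ≤ C0 * F0 := by positivity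
      have a3 : 0 ≤ (2 * b * C0 + 96) * (2 / τ) * F0 := by positivity
      nlinarith
    linarith
  have hW0 : WH g x₀ ρ α |K0| := by
    intro x hx x' hxx
    have hd0 := dist_pos_of_mem hx
    have hd1 : ρ - ‖x - x₀‖ ≤ 1 := by have := norm_nonneg (x - x₀); linarith
    have hx' : x' ∈ ball x₀ ρ := mem_of_near (x := x) (by linarith)
    have h1 := hK0 x hx x' hx'
    have h2 : (ρ - ‖x - x₀‖) ^ (1 + α) ≤ 1 := Real.rpow_le_one hd0.le hd1 (by linarith)
    rw [norm_sub_rev x x'] at h1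
    have h3 : 0 ≤ ‖x' - x‖ ^ α := Real.rpow_nonneg (norm_nonneg _) _
    calc (ρ - ‖x - x₀‖) ^ (1 + α) * ‖g x - g x'‖ ≤ 1 * ‖g x - g x'‖ :=
          mul_le_mul_of_nonneg_right h2 (norm_nonneg _)
      _ ≤ |K0| * ‖x' - x‖ ^ α := by
          rw [one_mul]
          exact h1.trans (mul_le_mul_of_nonneg_right (le_abs_self _) h3)
  have hiter : ∀ k : ℕ, WH g x₀ ρ α (|K0| / 2 ^ k + 2 * A) := by
    intro k
    induction k with
    | zero =>
      intro x hx x' hxx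
      refine (hW0 x hx x' hxx).trans (mul_le_mul_of_nonneg_right ?_
        (Real.rpow_nonneg (norm_nonneg _) _))
      simp; positivity
    | succ k ih =>
      have h := hstep _ (by positivity) ih
      intro x hx x' hxx
      refine (h x hx x' hxx).trans (mul_le_mul_of_nonneg_right (le_of_eq ?_)
        (Real.rpow_nonneg (norm_nonneg _) _))
      rw [pow_succ]; field_simp; ring
  have hfin : WH g x₀ ρ α (2 * A) := by
    intro x hx x' hxx
    have hlim : Tendsto (fun k : ℕ => (|K0| / 2 ^ k + 2 * A) * ‖x' - x‖ ^ α) atTop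
        (𝓝 ((0 + 2 * A) * ‖x' - x‖ ^ α)) := by
      refine Tendsto.mul_const _ (Tendsto.add_const _ ?_)
      have h1 : Tendsto (fun k : ℕ => |K0| * (1 / 2 : ℝ) ^ k) atTop (𝓝 (|K0| * 0)) :=
        (tendsto_pow_atTop_nhds_zero_of_lt_one (by norm_num) (by norm_num)).const_mul _
      rw [mul_zero] at h1
      refine h1.congr (fun k => ?_)
      rw [one_div, inv_pow]; rfl
    rw [zero_add] at hlim
    exact ge_of_tendsto' hlim (fun k => hiter k x hx x' hxx)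
  have hMF : 0 ≤ M + F0 := by positivity
  have hdge : ∀ x ∈ ball x₀ (ρ / 2), ρ / 2 ≤ ρ - ‖x - x₀‖ := by
    intro x hx
    rw [mem_ball, dist_eq_norm] at hx; linarith
  have hsub : ball x₀ (ρ / 2) ⊆ ball x₀ ρ := ball_subset_ball (by linarith)
  constructor
  · intro x hx
    have h1 := WH_grad hα (by positivity : 0 ≤ 2 * A) hv hM hM0 hfin hτ hτ4 (hsub hx)
    have h2 := hdge x hx
    have h3 : ρ / 2 * ‖g x‖ ≤ 2 * M / τ + 2 * A * τ ^ α :=
      (mul_le_mul_of_nonneg_right h2 (norm_nonneg _)).trans h1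
    have h4 : τ ^ α ≤ 1 := Real.rpow_le_one hτ.le (by linarith) hα.le
    have h5 : ‖g x‖ ≤ (2 * M / τ + 2 * A) / (ρ / 2) := by
      rw [le_div_iff₀ hρ2]
      have : 2 * A * τ ^ α ≤ 2 * A * 1 := mul_le_mul_of_nonneg_left h4 (by positivity)
      linarith
    refine h5.trans ?_
    have h6 : (2 * M / τ + 2 * A) / (ρ / 2) ≤ (2 / τ + 2 * A1) / (ρ / 2) * (M + F0) := by
      have h7 : (2 / τ + 2 * A1) / (ρ / 2) * (M + F0)
          = ((2 / τ + 2 * A1) * (M + F0)) / (ρ / 2) := by ring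
      rw [h7]
      apply div_le_div_of_nonneg_right _ hρ2.le
      rw [hA]
      have h8 : 0 ≤ 2 / τ * F0 := by positivity
      have h9 : 2 * M / τ = 2 / τ * M := by ring
      rw [h9]; nlinarith
    have h7 : 0 ≤ 2 * A1 * E1 * (M + F0) := by positivity
    linarith
  · intro x hx x' hxx
    have hx2 := hdge x hx
    have h1 := hfin x (hsub hx) x' (by linarith)
    have hd0 := dist_pos_of_mem (hsub hx)
    have h2 : (ρ / 2) ^ (1 + α) ≤ (ρ - ‖x - x₀‖) ^ (1 + α) :=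
      Real.rpow_le_rpow hρ2.le hx2 (by linarith)
    have h3 : (ρ / 2) ^ (1 + α) * ‖g x - g x'‖ ≤ 2 * A * ‖x' - x‖ ^ α :=
      (mul_le_mul_of_nonneg_right h2 (norm_nonneg _)).trans h1
    have h4 : E1 * (ρ / 2) ^ (1 + α) = 1 := by
      rw [hE1, ← Real.rpow_add hρ2]; ring_nf; exact Real.rpow_zero _
    have hpw : 0 ≤ ‖x' - x‖ ^ α := Real.rpow_nonneg (norm_nonneg _) _
    calc ‖g x - g x'‖ = E1 * ((ρ / 2) ^ (1 + α) * ‖g x - g x'‖) := by
          rw [← mul_assoc, h4, one_mul]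
      _ ≤ E1 * (2 * A * ‖x' - x‖ ^ α) := mul_le_mul_of_nonneg_left h3 hE10.le
      _ = (2 * A1 * E1) * (M + F0) * ‖x' - x‖ ^ α := by rw [hA]; ring
      _ ≤ _ := by
          refine mul_le_mul_of_nonneg_right ?_ hpw
          refine mul_le_mul_of_nonneg_right ?_ hMF
          have : 0 ≤ (2 / τ + 2 * A1) / (ρ / 2) := by positivity
          linarith

end

end Crest.Agent.R246.H2x622
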