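import Crest.Agent.R246.H2b4_622

/-!
R246, block H2c (helper622).  Part 1: Hölder second differences give `C^{1,α}`.
-/

open MeasureTheory Metric Set Filter Topology
open scoped ContDiff

namespace Crest.Agent.R246.H2x622

noncomputable section

set_option linter.unusedSectionVars false

section dyadic

variable {F : Type*} [NormedAddCommGroup F] [NormedSpace ℝ F]
variable {W : Type*} [NormedAddCommGroup W] [NormedSpace ℝ W]

/-- dyadic difference quotient -/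
def dq (g : F → W) (x h : F) (k : ℕ) : W := (2 : ℝ) ^ k • (g (x + (2⁻¹ : ℝ) ^ k • h) - g x)

lemma two_half (k : ℕ) : (2 : ℝ) ^ k * (2⁻¹ : ℝ) ^ k = 1 := by
  rw [← mul_pow]; norm_num

lemma norm_half_smul (h : F) (k : ℕ) : ‖((2⁻¹ : ℝ) ^ k • h)‖ = (2⁻¹ : ℝ) ^ k * ‖h‖ := by
  rw [norm_smul, Real.norm_of_nonneg (by positivity)]

lemma tendsto_half (h : F) : Tendsto (fun k : ℕ => (2⁻¹ : ℝ) ^ k * ‖h‖) atTop (𝓝 0) := by
  have h1 : Tendsto (fun k : ℕ => (2⁻¹ : ℝ) ^ k) atTop (𝓝 0) :=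
    tendsto_pow_atTop_nhds_zero_of_lt_one (by norm_num) (by norm_num)
  simpa using h1.mul_const ‖h‖

lemma eventually_half (h : F) {r : ℝ} (hr : 0 < r) :
    ∀ᶠ k : ℕ in atTop, ‖((2⁻¹ : ℝ) ^ k • h)‖ < r := by
  filter_upwards [(tendsto_half h).eventually (gt_mem_nhds hr)] with k hk
  rw [norm_half_smul]; exact hk

lemma dq_step {g : F → W} {x₀ : F} {r C α : ℝ} (hC : 0 ≤ C) (hα : 0 < α)
    (h2 : ∀ x ∈ ball x₀ r, ∀ x' ∈ ball x₀ r, ∀ h, ‖h‖ < r →
      ‖(g (x + h) - g x) - (g (x' + h) - g x')‖ ≤ C * ‖h‖ * ‖x - x'‖ ^ α)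
    {x : F} (hx : x ∈ ball x₀ (r / 2)) {h : F} (hh : ‖h‖ < r / 2) (k : ℕ) :
    dist (dq g x h k) (dq g x h (k + 1)) ≤ (C * ‖h‖ * ‖h‖ ^ α) * ((2⁻¹ : ℝ) ^ α) ^ k := by
  have hr : 0 < r / 2 := (norm_nonneg h).trans_lt hh
  set h' : F := (2⁻¹ : ℝ) ^ (k + 1) • h with hh'
  have hn' : ‖h'‖ = (2⁻¹ : ℝ) ^ (k + 1) * ‖h‖ := norm_half_smul h (k + 1)
  have hle : ‖h'‖ ≤ ‖h‖ := by
    rw [hn']
    have : (2⁻¹ : ℝ) ^ (k + 1) ≤ 1 := pow_le_one₀ (by norm_num) (by norm_num)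
    nlinarith [norm_nonneg h]
  have hdouble : (2⁻¹ : ℝ) ^ k • h = h' + h' := by
    rw [hh', ← two_smul ℝ, smul_smul, pow_succ]
    congr 1; ring
  have hxr : x ∈ ball x₀ r := ball_subset_ball (by linarith) hx
  have hxh : x + h' ∈ ball x₀ r := by
    rw [mem_ball, dist_eq_norm] at hx ⊢
    have : x + h' - x₀ = (x - x₀) + h' := by abel
    rw [this]
    refine (norm_add_le _ _).trans_lt ?_
    linarith
  have h3 := h2 x hxr (x + h') hxh h' (by linarith)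
  have h4 : dq g x h k - dq g x h (k + 1)
      = -((2 : ℝ) ^ k • ((g (x + h') - g x) - (g (x + h' + h') - g (x + h')))) := by
    rw [dq, dq, hdouble, ← hh', pow_succ, ← add_assoc]
    module
  rw [dist_eq_norm, h4, norm_neg, norm_smul, Real.norm_of_nonneg (by positivity)]
  have h5 : ‖x - (x + h')‖ = ‖h'‖ := by rw [sub_add_cancel_left, norm_neg]
  rw [h5] at h3
  have h6 : ‖h'‖ ^ α ≤ ((2⁻¹ : ℝ) ^ α) ^ k * ‖h‖ ^ α := by
    rw [hn', Real.mul_rpow (by positivity) (norm_nonneg _)]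
    refine mul_le_mul_of_nonneg_right ?_ (Real.rpow_nonneg (norm_nonneg _) _)
    have h7 : ((2⁻¹ : ℝ) ^ (k + 1)) ^ α = ((2⁻¹ : ℝ) ^ α) ^ (k + 1) := by
      rw [← Real.rpow_natCast, ← Real.rpow_natCast, ← Real.rpow_mul (by norm_num),
        ← Real.rpow_mul (by norm_num), mul_comm]
    rw [h7, pow_succ]
    have h8 : (2⁻¹ : ℝ) ^ α ≤ 1 := Real.rpow_le_one (by norm_num) (by norm_num) hα.le
    have h9 : 0 ≤ ((2⁻¹ : ℝ) ^ α) ^ k := by positivity
    nlinarith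
  calc (2 : ℝ) ^ k * ‖(g (x + h') - g x) - (g (x + h' + h') - g (x + h'))‖
      ≤ (2 : ℝ) ^ k * (C * ‖h'‖ * ‖h'‖ ^ α) := mul_le_mul_of_nonneg_left h3 (by positivity)
    _ = C * ((2 : ℝ) ^ k * ‖h'‖) * ‖h'‖ ^ α := by ring
    _ ≤ C * ‖h‖ * (((2⁻¹ : ℝ) ^ α) ^ k * ‖h‖ ^ α) := by
        have h10 : (2 : ℝ) ^ k * ‖h'‖ ≤ ‖h‖ := by
          rw [hn', pow_succ, mul_comm _ (2⁻¹ : ℝ), mul_assoc, ← mul_assoc, mul_comm _ (2⁻¹ : ℝ),
            mul_assoc, ← mul_assoc ((2:ℝ) ^ k), two_half, one_mul]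
          linarith [norm_nonneg h]
        exact mul_le_mul (mul_le_mul_of_nonneg_left h10 hC) h6 (Real.rpow_nonneg (norm_nonneg _) _)
          (by positivity)
    _ = _ := by ring

variable [CompleteSpace W]

lemma dq_tendsto {g : F → W} {x₀ : F} {r C α : ℝ} (hr : 0 < r) (hC : 0 ≤ C) (hα : 0 < α)
    (h2 : ∀ x ∈ ball x₀ r, ∀ x' ∈ ball x₀ r, ∀ h, ‖h‖ < r →
      ‖(g (x + h) - g x) - (g (x' + h) - g x')‖ ≤ C * ‖h‖ * ‖x - x'‖ ^ α)
    {x : F} (hx : x ∈ ball x₀ (r / 2)) (h : F) :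
    ∃ l, Tendsto (dq g x h) atTop (𝓝 l) := by
  obtain ⟨n, hn⟩ := (eventually_half h (half_pos hr)).exists
  have hq : (2⁻¹ : ℝ) ^ α < 1 := Real.rpow_lt_one (by norm_num) (by norm_num) hα
  have hcs := cauchySeq_of_le_geometric _ _ hq (dq_step hC hα h2 hx hn)
  obtain ⟨l, hl⟩ := cauchySeq_tendsto_of_complete hcs
  refine ⟨(2 : ℝ) ^ n • l, ?_⟩
  rw [← tendsto_add_atTop_iff_nat n]
  refine (hl.const_smul ((2 : ℝ) ^ n)).congr (fun k => ?_)
  rw [dq, dq, smul_smul, smul_smul, ← pow_add, ← pow_add, add_comm n k]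

theorem diff_of_second_diff {g : F → W} {x₀ : F} {r C α : ℝ} (hr : 0 < r) (hC : 0 ≤ C)
    (hα : 0 < α)
    (h1 : ∀ x ∈ ball x₀ r, ∀ h, ‖h‖ < r → ‖g (x + h) - g x‖ ≤ C * ‖h‖)
    (h2 : ∀ x ∈ ball x₀ r, ∀ x' ∈ ball x₀ r, ∀ h, ‖h‖ < r →
      ‖(g (x + h) - g x) - (g (x' + h) - g x')‖ ≤ C * ‖h‖ * ‖x - x'‖ ^ α) :
    ∃ g' : F → F →L[ℝ] W, (∀ x ∈ ball x₀ (r / 2), HasFDerivAt g (g' x) x) ∧
      ∀ x ∈ ball x₀ (r / 2), ∀ x' ∈ ball x₀ (r / 2), ‖g' x - g' x'‖ ≤ C * ‖x - x'‖ ^ α := by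
  have hq : (2⁻¹ : ℝ) ^ α < 1 := Real.rpow_lt_one (by norm_num) (by norm_num) hα
  have hq0 : 0 < (2⁻¹ : ℝ) ^ α := Real.rpow_pos_of_pos (by norm_num) _
  have hex : ∀ x : F, ∃ L : F →L[ℝ] W, x ∈ ball x₀ (r / 2) →
      ∀ h, Tendsto (dq g x h) atTop (𝓝 (L h)) := by
    intro x
    by_cases hx : x ∈ ball x₀ (r / 2)
    · choose l hl using fun h => dq_tendsto hr hC hα h2 hx h
      have hxr : x ∈ ball x₀ r := ball_subset_ball (by linarith) hx
      have hbound : ∀ h, ‖l h‖ ≤ C * ‖h‖ := by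
        intro h
        refine le_of_tendsto (hl h).norm ?_
        filter_upwards [eventually_half h hr] with k hk
        rw [dq, norm_smul, Real.norm_of_nonneg (by positivity)]
        have h3 := h1 x hxr _ hk
        rw [norm_half_smul] at h3
        calc (2 : ℝ) ^ k * ‖g (x + (2⁻¹ : ℝ) ^ k • h) - g x‖
            ≤ (2 : ℝ) ^ k * (C * ((2⁻¹ : ℝ) ^ k * ‖h‖)) :=
              mul_le_mul_of_nonneg_left h3 (by positivity)
          _ = ((2 : ℝ) ^ k * (2⁻¹ : ℝ) ^ k) * (C * ‖h‖) := by ring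
          _ = C * ‖h‖ := by rw [two_half, one_mul]
      have hadd : ∀ h h', l (h + h') = l h + l h' := by
        intro h h'
        have hT : Tendsto (fun k => dq g x (h + h') k - dq g x h k - dq g x h' k) atTop
            (𝓝 (l (h + h') - l h - l h')) := ((hl _).sub (hl _)).sub (hl _)
        have hT0 : Tendsto (fun k => dq g x (h + h') k - dq g x h k - dq g x h' k) atTop (𝓝 0) := by
          have hz : Tendsto (fun k : ℕ => C * ‖h'‖ * ((2⁻¹ : ℝ) ^ k * ‖h‖) ^ α) atTop (𝓝 0) := by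
            have h3 := (tendsto_half h).rpow_const (p := α) (Or.inr hα.le)
            rw [Real.zero_rpow hα.ne'] at h3
            simpa using h3.const_mul (C * ‖h'‖)
          refine squeeze_zero_norm' ?_ hz
          filter_upwards [eventually_half h (half_pos hr), eventually_half h' hr] with k hk hk'
          have hxh : x + (2⁻¹ : ℝ) ^ k • h ∈ ball x₀ r := by
            rw [mem_ball, dist_eq_norm] at hx ⊢
            have : x + (2⁻¹ : ℝ) ^ k • h - x₀ = (x - x₀) + (2⁻¹ : ℝ) ^ k • h := by abel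
            rw [this]
            refine (norm_add_le _ _).trans_lt ?_
            linarith
          have h3 := h2 _ hxh x hxr _ hk'
          have h4 : dq g x (h + h') k - dq g x h k - dq g x h' k
              = (2 : ℝ) ^ k • ((g (x + (2⁻¹ : ℝ) ^ k • h + (2⁻¹ : ℝ) ^ k • h')
                - g (x + (2⁻¹ : ℝ) ^ k • h)) - (g (x + (2⁻¹ : ℝ) ^ k • h') - g x)) := by
            rw [dq, dq, dq, smul_add, ← add_assoc]
            module
          rw [h4, norm_smul, Real.norm_of_nonneg (by positivity)]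
          have h5 : ‖x + (2⁻¹ : ℝ) ^ k • h - x‖ = (2⁻¹ : ℝ) ^ k * ‖h‖ := by
            rw [add_sub_cancel_left, norm_half_smul]
          rw [h5, norm_half_smul] at h3
          refine (mul_le_mul_of_nonneg_left h3 (by positivity)).trans (le_of_eq ?_)
          calc (2 : ℝ) ^ k * (C * ((2⁻¹ : ℝ) ^ k * ‖h'‖) * ((2⁻¹ : ℝ) ^ k * ‖h‖) ^ α)
              = ((2 : ℝ) ^ k * (2⁻¹ : ℝ) ^ k) * (C * ‖h'‖ * ((2⁻¹ : ℝ) ^ k * ‖h‖) ^ α) := by ring
            _ = _ := by rw [two_half, one_mul]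
        have h5 := tendsto_nhds_unique hT hT0
        have : l (h + h') = (l (h + h') - l h - l h') + l h + l h' := by abel
        rw [this, h5, zero_add]
      let A : F →+ W := AddMonoidHom.mk' l hadd
      have hAc : Continuous A := AddMonoidHomClass.continuous_of_bound A C hbound
      exact ⟨A.toRealLinearMap hAc, fun _ h => hl h⟩
    · exact ⟨0, fun h => absurd h hx⟩
  choose g' hg' using hex
  refine ⟨g', ?_, ?_⟩
  · intro x hx
    rw [hasFDerivAt_iff_isLittleO_nhds_zero, Asymptotics.isLittleO_iff]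
    intro c hc
    have h3 : Tendsto (fun h : F => C / (1 - (2⁻¹ : ℝ) ^ α) * ‖h‖ ^ α) (𝓝 0) (𝓝 0) := by
      have h4 : Tendsto (fun h : F => ‖h‖ ^ α) (𝓝 0) (𝓝 (‖(0:F)‖ ^ α)) :=
        (continuous_norm.rpow_const (fun _ => Or.inr hα.le)).tendsto 0
      rw [norm_zero, Real.zero_rpow hα.ne'] at h4
      simpa using h4.const_mul (C / (1 - (2⁻¹ : ℝ) ^ α))
    filter_upwards [ball_mem_nhds (0 : F) (half_pos hr), h3.eventually (gt_mem_nhds hc)] with h hh hh2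
    rw [mem_ball, dist_zero_right] at hh
    have h5 := dist_le_of_le_geometric_of_tendsto₀ _ _ hq (dq_step hC hα h2 hx hh) (hg' x hx h)
    have h6 : dq g x h 0 = g (x + h) - g x := by simp [dq]
    rw [h6, dist_eq_norm] at h5
    refine h5.trans ?_
    calc C * ‖h‖ * ‖h‖ ^ α / (1 - (2⁻¹ : ℝ) ^ α)
        = (C / (1 - (2⁻¹ : ℝ) ^ α) * ‖h‖ ^ α) * ‖h‖ := by ring
      _ ≤ c * ‖h‖ := mul_le_mul_of_nonneg_right hh2.le (norm_nonneg _)
  · intro x hx x' hx'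
    refine ContinuousLinearMap.opNorm_le_bound _
      (mul_nonneg hC (Real.rpow_nonneg (norm_nonneg _) _)) ?_
    intro h
    rw [sub_apply]
    have hlim := ((hg' x hx h).sub (hg' x' hx' h)).norm
    refine le_of_tendsto hlim ?_
    filter_upwards [eventually_half h hr] with k hk
    have h3 := h2 x (ball_subset_ball (by linarith) hx) x' (ball_subset_ball (by linarith) hx') _ hk
    rw [dq, dq, ← smul_sub, norm_smul, Real.norm_of_nonneg (by positivity)]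
    rw [norm_half_smul] at h3
    refine (mul_le_mul_of_nonneg_left h3 (by positivity)).trans (le_of_eq ?_)
    calc (2 : ℝ) ^ k * (C * ((2⁻¹ : ℝ) ^ k * ‖h‖) * ‖x - x'‖ ^ α)
        = ((2 : ℝ) ^ k * (2⁻¹ : ℝ) ^ k) * (C * ‖x - x'‖ ^ α * ‖h‖) := by ring
      _ = _ := by rw [two_half, one_mul]

end dyadic

end

end Crest.Agent.R246.H2x622
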