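import Crest.Agent.R246.H2c1_622

/-!
R246, block H2c (helper622).  Part 2: `C^{1,α}` solutions of `Δ v = div G(v,∇v)` are `C^{2,α}`.
-/

open MeasureTheory Metric Set Filter Topology
open scoped ContDiff

namespace Crest.Agent.R246.H2x622

noncomputable section

set_option linter.unusedSectionVars false

variable {F : Type*} [NormedAddCommGroup F] [InnerProductSpace ℝ F] [FiniteDimensional ℝ F]
  [MeasurableSpace F] [BorelSpace F]
variable {V : Type*} [NormedAddCommGroup V] [NormedSpace ℝ V]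

lemma gradient_zero_of_notMem {ζ : F → ℝ} {z : F} (hz : z ∉ tsupport ζ) : gradient ζ z = 0 := by
  rw [gradient, fderiv_of_notMem_tsupport ℝ hz, map_zero]

lemma gradient_contDiff {ζ : F → ℝ} (hζ : ContDiff ℝ ∞ ζ) : ContDiff ℝ ∞ (gradient ζ) := by
  have h : ContDiff ℝ (∞ + 1) ζ := by simpa using hζ
  have h2 : ContDiff ℝ ∞ (fderiv ℝ ζ) := h.fderiv_right (m := ∞) le_rfl
  exact (InnerProductSpace.toDual ℝ F).symm.contDiff.comp h2

lemma integrable_grad {W : Type*} [NormedAddCommGroup W] [NormedSpace ℝ W] {H : F → F →L[ℝ] W}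
    {U : Set F} (hH : ContinuousOn H U) {ζ : F → ℝ} (hζ : ContDiff ℝ ∞ ζ)
    (hcs : HasCompactSupport ζ) (hU : tsupport ζ ⊆ U) :
    Integrable (fun z => H z (gradient ζ z)) := by
  have h1 : ContinuousOn (fun z => H z (gradient ζ z)) (tsupport ζ) :=
    (hH.mono hU).clm_apply (gradient_contDiff hζ).continuous.continuousOn
  refine (h1.integrableOn_compact hcs).integrable_of_forall_notMem_eq_zero ?_
  intro z hz
  rw [gradient_zero_of_notMem hz, map_zero]

lemma weakDiv_translate {H : F → F →L[ℝ] V} {U D : Set F} {h : F} (hw : WeakDiv H U)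
    (hc : ContinuousOn H U) (hD : D ⊆ U) (hDh : ∀ z ∈ D, z + h ∈ U) :
    WeakDiv (fun z => H (z + h) - H z) D := by
  intro ζ hζ hcs hts
  simp only [sub_apply]
  have hc2 : ContinuousOn (fun z => H (z + h)) D := by
    refine hc.comp (by fun_prop) ?_
    intro z hz; exact hDh z hz
  rw [integral_sub (integrable_grad hc2 hζ hcs hts) (integrable_grad hc hζ hcs (hts.trans hD)),
    hw ζ hζ hcs (hts.trans hD), sub_zero]
  set ζ' : F → ℝ := fun z => ζ (z - h) with hζ'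
  have hsm : ContDiff ℝ ∞ ζ' := hζ.comp (contDiff_id.sub contDiff_const)
  have hts' : tsupport ζ' ⊆ (fun z => z - h) ⁻¹' (tsupport ζ) :=
    tsupport_comp_subset_preimage (f := fun z : F => z - h) ζ (by fun_prop)
  have hcs' : HasCompactSupport ζ' := by
    have : IsCompact ((fun z : F => z + h) '' (tsupport ζ)) := hcs.image (by fun_prop)
    refine HasCompactSupport.of_support_subset_isCompact this ?_
    intro z hz
    refine ⟨z - h, hts' (subset_tsupport _ hz), by simp⟩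
  have hU : tsupport ζ' ⊆ U := by
    intro z hz
    have h1 := hDh _ (hts (hts' hz))
    simpa using h1
  have h1 := hw ζ' hsm hcs' hU
  have hgr : ∀ z, gradient ζ' z = gradient ζ (z - h) := by
    intro z
    rw [gradient, gradient, hζ', fderiv_comp_sub]
  simp only [hgr] at h1
  rw [← integral_add_right_eq_self _ h] at h1
  simpa using h1

/-- `C^{1,α}_loc` solution of `Δ v = div G(v,∇v)` in `U` -/
structure Sol (α : ℝ) (G : V × (F →L[ℝ] V) → (F →L[ℝ] V)) (v : F → V) (g : F → F →L[ℝ] V)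
    (U : Set F) : Prop where
  op : IsOpen U
  der : ∀ z ∈ U, HasFDerivAt v (g z) z
  hol : ∀ x ∈ U, ∃ r > 0, ∃ K, ∀ z ∈ ball x r, ∀ z' ∈ ball x r, ‖g z - g z'‖ ≤ K * ‖z - z'‖ ^ α
  weak : WeakDiv (fun z => g z - G (v z, g z)) U

/-- smallness of the gradient dependence -/
def Sml (β : ℝ) (G : V × (F →L[ℝ] V) → (F →L[ℝ] V)) (p : V × (F →L[ℝ] V)) : Prop :=
  ∀ P : F →L[ℝ] V, ‖fderiv ℝ G p (0, P)‖ ≤ β * ‖P‖

lemma continuousAt_of_hol {W : Type*} [NormedAddCommGroup W] {g : F → W} {x : F} {r K α : ℝ}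
    (hα : 0 < α) (hr : 0 < r)
    (h : ∀ z ∈ ball x r, ∀ z' ∈ ball x r, ‖g z - g z'‖ ≤ K * ‖z - z'‖ ^ α) : ContinuousAt g x := by
  rw [Metric.continuousAt_iff]
  intro ε hε
  have h1 : Tendsto (fun z' : F => K * ‖z' - x‖ ^ α) (𝓝 x) (𝓝 (K * ‖x - x‖ ^ α)) := by
    have : Continuous fun z' : F => K * ‖z' - x‖ ^ α :=
      continuous_const.mul ((continuous_id.sub continuous_const).norm.rpow_const
        (fun _ => Or.inr hα.le))
    exact this.tendsto x
  rw [sub_self, norm_zero, Real.zero_rpow hα.ne', mul_zero] at h1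
  have h2 := (h1.eventually (gt_mem_nhds hε)).and (ball_mem_nhds x hr)
  obtain ⟨δ, hδ, hδ2⟩ := Metric.eventually_nhds_iff.1 h2
  refine ⟨δ, hδ, fun {z'} hz' => ?_⟩
  obtain ⟨h3, h4⟩ := hδ2 hz'
  rw [dist_eq_norm]
  exact lt_of_le_of_lt (h z' h4 x (mem_ball_self hr)) h3

lemma Sol.cont_g {α : ℝ} {G : V × (F →L[ℝ] V) → (F →L[ℝ] V)} {v : F → V} {g : F → F →L[ℝ] V}
    {U : Set F} (h : Sol α G v g U) (hα : 0 < α) : ContinuousOn g U := by
  intro x hx
  obtain ⟨r, hr, K, hK⟩ := h.hol x hx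
  exact (continuousAt_of_hol hα hr hK).continuousWithinAt

lemma Sol.cont_X {α : ℝ} {G : V × (F →L[ℝ] V) → (F →L[ℝ] V)} {v : F → V} {g : F → F →L[ℝ] V}
    {U : Set F} (h : Sol α G v g U) (hα : 0 < α) : ContinuousOn (fun z => (v z, g z)) U := by
  intro x hx
  exact ((h.der x hx).continuousAt.continuousWithinAt).prodMk (h.cont_g hα x hx)

/-- local bounds for the nonlinearity -/
lemma exists_G_bounds {W W' : Type*} [NormedAddCommGroup W] [NormedSpace ℝ W]
    [NormedAddCommGroup W'] [NormedSpace ℝ W'] {G : W → W'} (hG : ContDiff ℝ ∞ G) (X₀ : W)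
    {c : ℝ} (hc : 0 < c) :
    ∃ δ > 0, ∃ L1 ≥ 0, ∃ L2 ≥ 0,
      (∀ Y ∈ ball X₀ δ, ‖fderiv ℝ G Y‖ ≤ L1) ∧
      (∀ Y ∈ ball X₀ δ, ‖fderiv ℝ G Y - fderiv ℝ G X₀‖ ≤ c) ∧
      (∀ Y ∈ ball X₀ δ, ∀ Y' ∈ ball X₀ δ, ‖fderiv ℝ G Y - fderiv ℝ G Y'‖ ≤ L2 * ‖Y - Y'‖) := by
  have h : ContDiff ℝ (1 + 1) G := hG.of_le (by norm_cast)
  have h2 : ContDiff ℝ 1 (fderiv ℝ G) := h.fderiv_right (m := 1) le_rfl
  obtain ⟨L, t, ht, hL⟩ := (h2.contDiffAt (x := X₀)).exists_lipschitzOnWith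
  have h3 : ∀ᶠ Y in 𝓝 X₀, ‖fderiv ℝ G Y - fderiv ℝ G X₀‖ < c := by
    have h4 : Tendsto (fun Y => ‖fderiv ℝ G Y - fderiv ℝ G X₀‖) (𝓝 X₀) (𝓝 0) := by
      have : Continuous fun Y => ‖fderiv ℝ G Y - fderiv ℝ G X₀‖ :=
        (h2.continuous.sub continuous_const).norm
      simpa using this.tendsto X₀
    exact h4.eventually (gt_mem_nhds hc)
  obtain ⟨δ, hδ, hδ2⟩ := Metric.mem_nhds_iff.1 (inter_mem ht h3)
  refine ⟨δ, hδ, ‖fderiv ℝ G X₀‖ + c, by positivity, L, L.2, ?_, ?_, ?_⟩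
  · intro Y hY
    have h5 := (hδ2 hY).2
    change _ < c at h5
    calc ‖fderiv ℝ G Y‖ = ‖fderiv ℝ G X₀ + (fderiv ℝ G Y - fderiv ℝ G X₀)‖ := by congr 1; abel
      _ ≤ _ := (norm_add_le _ _).trans (by linarith)
  · intro Y hY
    have h5 := (hδ2 hY).2
    change _ < c at h5
    exact h5.le
  · intro Y hY Y' hY'
    have h5 := hL.dist_le_mul Y (hδ2 hY).1 Y' (hδ2 hY').1
    rwa [dist_eq_norm, dist_eq_norm] at h5

/-- mean value inequality on a segment of a ball -/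
lemma seg_bound {W W' : Type*} [NormedAddCommGroup W] [NormedSpace ℝ W]
    [NormedAddCommGroup W'] [NormedSpace ℝ W'] {G : W → W'} (hG : Differentiable ℝ G)
    {X₀ Y1 Y2 : W} {δ c : ℝ} (h1 : Y1 ∈ ball X₀ δ) (h2 : Y2 ∈ ball X₀ δ)
    (hc : ∀ Y ∈ ball X₀ δ, ‖fderiv ℝ G Y (Y1 - Y2)‖ ≤ c) : ‖G Y1 - G Y2‖ ≤ c := by
  have h := norm_image_sub_le_of_norm_deriv_le_segment_01'
    (f := fun t : ℝ => G (Y2 + t • (Y1 - Y2)))
    (f' := fun t : ℝ => fderiv ℝ G (Y2 + t • (Y1 - Y2)) (Y1 - Y2)) (C := c) ?_ ?_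
  · simpa using h
  · intro t _
    have h3 : HasDerivAt (fun t : ℝ => Y2 + t • (Y1 - Y2)) (Y1 - Y2) t := by
      simpa using ((hasDerivAt_id t).smul_const (Y1 - Y2)).const_add Y2
    exact ((hG _).hasFDerivAt.comp_hasDerivAt t h3).hasDerivWithinAt
  · intro t ht
    apply hc
    have := (convex_ball X₀ δ).add_smul_sub_mem h2 h1 (Ico_subset_Icc_self ht)
    exact this

lemma second_diff_bound {W W' : Type*} [NormedAddCommGroup W] [NormedSpace ℝ W]
    [NormedAddCommGroup W'] [NormedSpace ℝ W'] {G : W → W'} (hG : Differentiable ℝ G)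
    {X₀ Y Y' D : W} {δ L2 : ℝ} (h1 : Y ∈ ball X₀ (δ / 3)) (h2 : Y' ∈ ball X₀ (δ / 3))
    (hD : ‖D‖ < 2 * (δ / 3))
    (hL : ∀ Y ∈ ball X₀ δ, ∀ Y' ∈ ball X₀ δ, ‖fderiv ℝ G Y - fderiv ℝ G Y'‖ ≤ L2 * ‖Y - Y'‖) :
    ‖(G (Y + D) - G Y) - (G (Y' + D) - G Y')‖ ≤ L2 * ‖D‖ * ‖Y - Y'‖ := by
  have hδ : 0 < δ := by
    have := pos_of_mem_ball h1; linarith
  have h := norm_image_sub_le_of_norm_deriv_le_segment_01'
    (f := fun t : ℝ => G (Y' + t • (Y - Y') + D) - G (Y' + t • (Y - Y')))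
    (f' := fun t : ℝ => fderiv ℝ G (Y' + t • (Y - Y') + D) (Y - Y')
      - fderiv ℝ G (Y' + t • (Y - Y')) (Y - Y')) (C := L2 * ‖D‖ * ‖Y - Y'‖) ?_ ?_
  · simpa using h
  · intro t _
    have h3 : HasDerivAt (fun t : ℝ => Y' + t • (Y - Y')) (Y - Y') t := by
      simpa using ((hasDerivAt_id t).smul_const (Y - Y')).const_add Y'
    have h4 : HasDerivAt (fun t : ℝ => Y' + t • (Y - Y') + D) (Y - Y') t := h3.add_const D
    exact (((hG _).hasFDerivAt.comp_hasDerivAt t h4).sub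
      ((hG _).hasFDerivAt.comp_hasDerivAt t h3)).hasDerivWithinAt
  · intro t ht
    have h5 : Y' + t • (Y - Y') ∈ ball X₀ (δ / 3) :=
      (convex_ball X₀ (δ / 3)).add_smul_sub_mem h2 h1 (Ico_subset_Icc_self ht)
    have h6 : Y' + t • (Y - Y') + D ∈ ball X₀ δ := by
      rw [mem_ball, dist_eq_norm] at h5 ⊢
      have : Y' + t • (Y - Y') + D - X₀ = (Y' + t • (Y - Y') - X₀) + D := by abel
      rw [this]
      refine (norm_add_le _ _).trans_lt ?_
      linarith
    have h7 := hL _ h6 _ (ball_subset_ball (by linarith) h5)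
    rw [add_sub_cancel_left] at h7
    rw [← sub_apply]
    exact (ContinuousLinearMap.le_opNorm _ _).trans
      (mul_le_mul_of_nonneg_right h7 (norm_nonneg _))

lemma norm_zero_prod {W : Type*} [NormedAddCommGroup W] [NormedSpace ℝ W] (P : W) :
    ‖((0 : V), P)‖ = ‖P‖ := by
  rw [Prod.norm_def]; simp

variable [CompleteSpace V]

/-- `C^{1,α}` implies `C^{2,α}` (interior, local). -/
theorem sol_c2 {κ α β₁ : ℝ} (hκ : KB F κ) (hα : 0 < α) (hα1 : α < 1) (hβ : β₁ < bet F κ α)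
    {G : V × (F →L[ℝ] V) → (F →L[ℝ] V)} (hG : ContDiff ℝ ∞ G) {v : F → V} {g : F → F →L[ℝ] V}
    {U : Set F} (hS : Sol α G v g U) (hsml : ∀ z ∈ U, Sml β₁ G (v z, g z)) {x₀ : F} (hx₀ : x₀ ∈ U) :
    ∃ r > 0, ∃ K, ∃ g' : F → F →L[ℝ] (F →L[ℝ] V), (∀ x ∈ ball x₀ r, HasFDerivAt g (g' x) x) ∧
      ∀ x ∈ ball x₀ r, ∀ x' ∈ ball x₀ r, ‖g' x - g' x'‖ ≤ K * ‖x - x'‖ ^ α := by
  obtain ⟨r0, hr0, K', hK'⟩ := hS.hol x₀ hx₀
  obtain ⟨r1, hr1, hr1U⟩ := Metric.isOpen_iff.1 hS.op x₀ hx₀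
  set K : ℝ := |K'| with hKdef
  have hK0 : 0 ≤ K := abs_nonneg _
  obtain ⟨δ, hδ, L1, hL1, L2, hL2, hb1, hb2, hb3⟩ := exists_G_bounds hG (v x₀, g x₀)
    (sub_pos.2 hβ)
  set X : F → V × (F →L[ℝ] V) := fun z => (v z, g z) with hX
  have hXc : ContinuousAt X x₀ := (hS.cont_X hα).continuousAt (hS.op.mem_nhds hx₀)
  obtain ⟨r2, hr2, hX2⟩ := Metric.continuousAt_iff.1 hXc (δ / 3) (by positivity)
  -- the working radius
  obtain ⟨ρ, hρ, hρ0, hρ1, hρ2, hρ4⟩ : ∃ ρ : ℝ, 0 < ρ ∧ 2 * ρ ≤ r0 ∧ 2 * ρ ≤ r1 ∧ 2 * ρ ≤ r2 ∧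
      4 * ρ ≤ 1 := by
    refine ⟨min (min r0 r1) (min r2 1) / 4, by positivity, ?_, ?_, ?_, ?_⟩
    · have h1 : min (min r0 r1) (min r2 1) ≤ r0 := (min_le_left _ _).trans (min_le_left _ _)
      linarith
    · have h1 : min (min r0 r1) (min r2 1) ≤ r1 := (min_le_left _ _).trans (min_le_right _ _)
      linarith
    · have h1 : min (min r0 r1) (min r2 1) ≤ r2 := (min_le_right _ _).trans (min_le_left _ _)
      linarith
    · have h1 : min (min r0 r1) (min r2 1) ≤ 1 := (min_le_right _ _).trans (min_le_right _ _)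
      linarith
  have hUB : ball x₀ (2 * ρ) ⊆ U := (ball_subset_ball hρ1).trans hr1U
  have hgK : ∀ z ∈ ball x₀ (2 * ρ), ∀ z' ∈ ball x₀ (2 * ρ), ‖g z - g z'‖ ≤ K * ‖z - z'‖ ^ α := by
    intro z hz z' hz'
    refine (hK' z (ball_subset_ball hρ0 hz) z' (ball_subset_ball hρ0 hz')).trans ?_
    exact mul_le_mul_of_nonneg_right (le_abs_self _) (Real.rpow_nonneg (norm_nonneg _) _)
  have hXB : ∀ z ∈ ball x₀ (2 * ρ), X z ∈ ball (v x₀, g x₀) (δ / 3) := fun z hz =>
    hX2 ((mem_ball.1 hz).trans_le hρ2)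
  set Mg : ℝ := ‖g x₀‖ + K with hMg
  have hMg0 : 0 ≤ Mg := by positivity
  have hgM : ∀ z ∈ ball x₀ (2 * ρ), ‖g z‖ ≤ Mg := by
    intro z hz
    have h1 := hgK z hz x₀ (mem_ball_self (by positivity))
    have h2 : ‖z - x₀‖ ^ α ≤ 1 := by
      rw [mem_ball, dist_eq_norm] at hz
      exact Real.rpow_le_one (norm_nonneg _) (by linarith) hα.le
    calc ‖g z‖ = ‖g x₀ + (g z - g x₀)‖ := by congr 1; abel
      _ ≤ ‖g x₀‖ + ‖g z - g x₀‖ := norm_add_le _ _
      _ ≤ ‖g x₀‖ + K := by nlinarith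
  have hpow1 : ∀ z ∈ ball x₀ (2 * ρ), ∀ z' ∈ ball x₀ (2 * ρ), ‖z - z'‖ ≤ ‖z - z'‖ ^ α := by
    intro z hz z' hz'
    rw [mem_ball, dist_eq_norm] at hz hz'
    have h1 : ‖z - z'‖ ≤ 1 := by
      calc ‖z - z'‖ = ‖(z - x₀) - (z' - x₀)‖ := by congr 1; abel
        _ ≤ _ := (norm_sub_le _ _).trans (by linarith)
    calc ‖z - z'‖ = ‖z - z'‖ ^ (1:ℝ) := (Real.rpow_one _).symm
      _ ≤ _ := Real.rpow_le_rpow_of_exponent_ge' (norm_nonneg _) h1 hα.le hα1.le
  have hvM : ∀ z ∈ ball x₀ (2 * ρ), ∀ z' ∈ ball x₀ (2 * ρ), ‖v z - v z'‖ ≤ Mg * ‖z - z'‖ := by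
    intro z hz z' hz'
    exact (convex_ball x₀ (2 * ρ)).norm_image_sub_le_of_norm_hasFDerivWithin_le
      (fun y hy => (hS.der y (hUB hy)).hasFDerivWithinAt) hgM hz' hz
  have hshift : ∀ z ∈ ball x₀ ρ, ∀ h : F, ‖h‖ < ρ → z + h ∈ ball x₀ (2 * ρ) := by
    intro z hz h hh
    rw [mem_ball, dist_eq_norm] at hz ⊢
    have : z + h - x₀ = (z - x₀) + h := by abel
    rw [this]
    exact (norm_add_le _ _).trans_lt (by linarith)
  have hsub2 : ball x₀ ρ ⊆ ball x₀ (2 * ρ) := ball_subset_ball (by linarith)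
  set KX : ℝ := Mg + K with hKX
  have hKX0 : 0 ≤ KX := by positivity
  have hXK : ∀ z ∈ ball x₀ (2 * ρ), ∀ z' ∈ ball x₀ (2 * ρ), ‖X z - X z'‖ ≤ KX * ‖z - z'‖ ^ α := by
    intro z hz z' hz'
    have h1 := hgK z hz z' hz'
    have h2 := hvM z hz z' hz'
    have h3 := hpow1 z hz z' hz'
    have h4 : 0 ≤ ‖z - z'‖ ^ α := Real.rpow_nonneg (norm_nonneg _) _
    rw [Prod.norm_def]
    refine max_le ?_ ?_
    · change ‖v z - v z'‖ ≤ _
      nlinarith
    · change ‖g z - g z'‖ ≤ _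
      nlinarith
  obtain ⟨C, hC0, hC⟩ := schauder_pert (V := V) hκ hα hα1 (b := L2 * KX) (ρ := ρ) (by positivity)
    hρ (by linarith)
  have hGd : Differentiable ℝ G := hG.differentiable (by simp)
  -- estimates for the translation differences
  have key : ∀ h : F, ‖h‖ < ρ →
      (∀ x ∈ ball x₀ (ρ / 2), ‖g (x + h) - g x‖ ≤
        C * (Mg * ‖h‖ + (L1 * K + L2 * Mg * KX) * ‖h‖)) ∧
      (∀ x ∈ ball x₀ (ρ / 2), ∀ x', ‖x' - x‖ ≤ ρ / 8 →
        ‖(g (x + h) - g x) - (g (x' + h) - g x')‖ ≤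
          C * (Mg * ‖h‖ + (L1 * K + L2 * Mg * KX) * ‖h‖) * ‖x' - x‖ ^ α) := by
    intro h hh
    refine hC (fun z => v (z + h) - v z) (fun z => g (z + h) - g z)
      (fun z => G (X (z + h)) - G (X z)) x₀ (Mg * ‖h‖) ((L1 * K + L2 * Mg * KX) * ‖h‖) (2 * K)
      (by positivity) (by positivity) ?_ ?_ ?_ ?_ ?_ ?_
    · intro z hz
      have h1 := hS.der (z + h) (hUB (hshift z hz h hh))
      have h2 : HasFDerivAt (fun z => v (z + h)) (g (z + h)) z :=
        (hasFDerivAt_comp_add_right h).2 h1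
      exact h2.sub (hS.der z (hUB (hsub2 hz)))
    · have h1 : ContinuousOn (fun z => G (X z)) (ball x₀ (2 * ρ)) :=
        hG.continuous.comp_continuousOn ((hS.cont_X hα).mono hUB)
      refine ContinuousOn.sub ?_ (h1.mono hsub2)
      exact h1.comp (by fun_prop) (fun z hz => hshift z hz h hh)
    · have h1 : ContinuousOn (fun z => g z - G (v z, g z)) U :=
        (hS.cont_g hα).sub (hG.continuous.comp_continuousOn (hS.cont_X hα))
      have h2 := weakDiv_translate hS.weak h1 (hsub2.trans hUB)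
        (fun z hz => hUB (hshift z hz h hh))
      intro ζ z1 z2 z3
      have h3 := h2 ζ z1 z2 z3
      rw [← h3]
      congr 1
      ext z
      simp only [hX, sub_apply]
      abel
    · intro z hz z' hz'
      have h1 := hgK _ (hshift z hz h hh) _ (hshift z' hz' h hh)
      have h2 := hgK _ (hsub2 hz) _ (hsub2 hz')
      rw [add_sub_add_right_eq_sub] at h1
      calc ‖g (z + h) - g z - (g (z' + h) - g z')‖
          = ‖(g (z + h) - g (z' + h)) - (g z - g z')‖ := by congr 1; abel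
        _ ≤ ‖g (z + h) - g (z' + h)‖ + ‖g z - g z'‖ := norm_sub_le _ _
        _ ≤ 2 * K * ‖z - z'‖ ^ α := by linarith
    · intro z hz
      have h1 := hvM _ (hshift z hz h hh) _ (hsub2 hz)
      rwa [add_sub_cancel_left] at h1
    · intro z hz z' hz'
      set Y := X z with hY
      set Y' := X z' with hY'
      set Δ := X (z + h) - X z with hΔ
      set Δ' := X (z' + h) - X z' with hΔ'
      have hz2 := hsub2 hz
      have hz2' := hsub2 hz'
      have hzh := hshift z hz h hh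
      have hzh' := hshift z' hz' h hh
      have hYb := hXB z hz2
      have hYb' := hXB z' hz2'
      have hYhb := hXB _ hzh
      have hYhb' := hXB _ hzh'
      have hΔ'n : ‖Δ'‖ < 2 * (δ / 3) := by
        rw [mem_ball, dist_eq_norm] at hYb' hYhb'
        calc ‖Δ'‖ = ‖(X (z' + h) - (v x₀, g x₀)) - (X z' - (v x₀, g x₀))‖ := by
              rw [hΔ']; congr 1; abel
          _ ≤ _ := norm_sub_le _ _
          _ < _ := by linarith
      have e1 : X (z + h) = Y + Δ := by rw [hY, hΔ]; abel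
      have e2 : X (z' + h) = Y' + Δ' := by rw [hY', hΔ']; abel
      have hYΔ' : Y + Δ' ∈ ball (v x₀, g x₀) δ := by
        rw [mem_ball, dist_eq_norm] at hYb ⊢
        have : Y + Δ' - (v x₀, g x₀) = (Y - (v x₀, g x₀)) + Δ' := by abel
        rw [this]
        exact (norm_add_le _ _).trans_lt (by linarith)
      have hYΔ : Y + Δ ∈ ball (v x₀, g x₀) δ := by
        rw [← e1]; exact ball_subset_ball (by linarith) hYhb
      -- first difference
      have hdv : ‖(v (z + h) - v z) - (v (z' + h) - v z')‖ ≤ K * ‖z - z'‖ ^ α * ‖h‖ := by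
        have h1 := norm_image_sub_le_of_norm_deriv_le_segment_01'
          (f := fun t : ℝ => v (z + t • h) - v (z' + t • h))
          (f' := fun t : ℝ => g (z + t • h) h - g (z' + t • h) h)
          (C := K * ‖z - z'‖ ^ α * ‖h‖) ?_ ?_
        · have h2 : v (z + h) - v z - (v (z' + h) - v z')
              = (v (z + (1:ℝ) • h) - v (z' + (1:ℝ) • h)) - (v (z + (0:ℝ) • h) - v (z' + (0:ℝ) • h)) := by
            simp only [one_smul, zero_smul, add_zero]; abel
          rw [h2]; exact h1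
        · intro t ht
          have ha : ∀ w : F, HasDerivAt (fun t : ℝ => w + t • h) h t := by
            intro w
            simpa using ((hasDerivAt_id t).smul_const h).const_add w
          have hmem : ∀ w ∈ ball x₀ ρ, w + t • h ∈ ball x₀ (2 * ρ) := by
            intro w hw
            apply hshift w hw
            rw [norm_smul, Real.norm_of_nonneg ht.1]
            nlinarith [norm_nonneg h, ht.2]
          exact (((hS.der _ (hUB (hmem z hz))).comp_hasDerivAt t (ha z)).sub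
            ((hS.der _ (hUB (hmem z' hz'))).comp_hasDerivAt t (ha z'))).hasDerivWithinAt
        · intro t ht
          have hmem : ∀ w ∈ ball x₀ ρ, w + t • h ∈ ball x₀ (2 * ρ) := by
            intro w hw
            apply hshift w hw
            rw [norm_smul, Real.norm_of_nonneg ht.1]
            nlinarith [norm_nonneg h, ht.2]
          have h3 := hgK _ (hmem z hz) _ (hmem z' hz')
          rw [add_sub_add_right_eq_sub] at h3
          rw [← sub_apply]
          exact (ContinuousLinearMap.le_opNorm _ _).trans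
            (mul_le_mul_of_nonneg_right h3 (norm_nonneg _))
      have hfirst : ‖G (Y + Δ) - G (Y + Δ')‖ ≤
          L1 * (K * ‖z - z'‖ ^ α * ‖h‖) + bet F κ α * ‖(g (z + h) - g z) - (g (z' + h) - g z')‖ := by
        refine seg_bound hGd hYΔ hYΔ' ?_
        intro Z hZ
        have e3 : Y + Δ - (Y + Δ') = ((v (z + h) - v z) - (v (z' + h) - v z'), (0 : F →L[ℝ] V))
            + ((0 : V), (g (z + h) - g z) - (g (z' + h) - g z')) := by
          rw [add_sub_add_left_eq_sub, hΔ, hΔ']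
          refine Prod.ext ?_ ?_
          · change (v (z + h) - v z) - (v (z' + h) - v z')
              = ((v (z + h) - v z) - (v (z' + h) - v z')) + 0
            rw [add_zero]
          · change (g (z + h) - g z) - (g (z' + h) - g z')
              = 0 + ((g (z + h) - g z) - (g (z' + h) - g z'))
            rw [zero_add]
        rw [e3, map_add]
        refine (norm_add_le _ _).trans (add_le_add ?_ ?_)
        · refine (ContinuousLinearMap.le_opNorm _ _).trans ?_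
          refine mul_le_mul (hb1 Z hZ) ?_ (norm_nonneg _) hL1
          rw [Prod.norm_def]
          simpa using hdv
        · set P := (g (z + h) - g z) - (g (z' + h) - g z') with hP
          have h3 : fderiv ℝ G Z (0, P) = fderiv ℝ G (v x₀, g x₀) (0, P)
              + (fderiv ℝ G Z - fderiv ℝ G (v x₀, g x₀)) (0, P) := by
            rw [sub_apply]; abel
          rw [h3]
          have h4 := hsml x₀ hx₀ P
          have h5 : ‖(fderiv ℝ G Z - fderiv ℝ G (v x₀, g x₀)) ((0 : V), P)‖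
              ≤ (bet F κ α - β₁) * ‖P‖ := by
            refine (ContinuousLinearMap.le_opNorm _ _).trans ?_
            rw [norm_zero_prod]
            exact mul_le_mul_of_nonneg_right (hb2 Z hZ) (norm_nonneg _)
          refine (norm_add_le _ _).trans ?_
          linarith
      have hsecond := second_diff_bound hGd (X₀ := (v x₀, g x₀)) hYb hYb' hΔ'n hb3
      have hYY : ‖Y - Y'‖ ≤ KX * ‖z - z'‖ ^ α := hXK z hz2 z' hz2'
      have hΔ'b : ‖Δ'‖ ≤ Mg * ‖h‖ + ‖g (z' + h) - g z'‖ := by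
        have h1 := hvM _ hzh' _ hz2'
        rw [add_sub_cancel_left] at h1
        rw [Prod.norm_def]
        have h2 : 0 ≤ Mg * ‖h‖ := by positivity
        have h3 := norm_nonneg (g (z' + h) - g z')
        refine max_le ?_ ?_
        · change ‖v (z' + h) - v z'‖ ≤ _
          linarith
        · change ‖g (z' + h) - g z'‖ ≤ _
          linarith
      have hpz : 0 ≤ ‖z - z'‖ ^ α := Real.rpow_nonneg (norm_nonneg _) _
      have hsecond' : ‖(G (Y + Δ') - G Y) - (G (Y' + Δ') - G Y')‖ ≤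
          L2 * (Mg * ‖h‖ + ‖g (z' + h) - g z'‖) * (KX * ‖z - z'‖ ^ α) := by
        refine hsecond.trans ?_
        refine mul_le_mul (mul_le_mul_of_nonneg_left hΔ'b hL2) hYY (norm_nonneg _) (by positivity)
      have e4 : G (X (z + h)) - G (X z) - (G (X (z' + h)) - G (X z'))
          = (G (Y + Δ) - G (Y + Δ')) + ((G (Y + Δ') - G Y) - (G (Y' + Δ') - G Y')) := by
        rw [e1, e2]; abel
      change ‖G (X (z + h)) - G (X z) - (G (X (z' + h)) - G (X z'))‖ ≤ _
      rw [e4]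
      refine (norm_add_le _ _).trans ((add_le_add hfirst hsecond').trans (le_of_eq ?_))
      ring
  -- conclusion
  set C1 : ℝ := C * (Mg + (L1 * K + L2 * Mg * KX)) with hC1
  have hC10 : 0 ≤ C1 := by positivity
  have hCe : ∀ h : F, C * (Mg * ‖h‖ + (L1 * K + L2 * Mg * KX) * ‖h‖) = C1 * ‖h‖ := by
    intro h; rw [hC1]; ring
  have hA : ∀ x ∈ ball x₀ (ρ / 16), ∀ h, ‖h‖ < ρ / 16 → ‖g (x + h) - g x‖ ≤ C1 * ‖h‖ := by
    intro x hx h hh
    have h1 := (key h (by linarith)).1 x (ball_subset_ball (by linarith) hx)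
    rwa [hCe] at h1
  have hB : ∀ x ∈ ball x₀ (ρ / 16), ∀ x' ∈ ball x₀ (ρ / 16), ∀ h, ‖h‖ < ρ / 16 →
      ‖(g (x + h) - g x) - (g (x' + h) - g x')‖ ≤ C1 * ‖h‖ * ‖x - x'‖ ^ α := by
    intro x hx x' hx' h hh
    have h2 : ‖x' - x‖ ≤ ρ / 8 := by
      rw [mem_ball, dist_eq_norm] at hx hx'
      calc ‖x' - x‖ = ‖(x' - x₀) - (x - x₀)‖ := by congr 1; abel
        _ ≤ _ := (norm_sub_le _ _).trans (by linarith)
    have h1 := (key h (by linarith)).2 x (ball_subset_ball (by linarith) hx) x' h2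
    rwa [hCe, norm_sub_rev x' x] at h1
  obtain ⟨g', hg1, hg2⟩ := diff_of_second_diff (g := g) (x₀ := x₀) (r := ρ / 16) (C := C1)
    (α := α) (by positivity) hC10 hα hA hB
  exact ⟨ρ / 16 / 2, by positivity, C1, g', hg1, hg2⟩

end

end Crest.Agent.R246.H2x622
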