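import Crest.Agent.R246.H2c2_622

/-!
R246, block H2c (helper622).  Part 3: prolongation and `C^∞` regularity.
-/

open MeasureTheory Metric Set Filter Topology
open scoped ContDiff

namespace Crest.Agent.R246.H2x622

noncomputable section

set_option linter.unusedSectionVars false

section prolong

variable {F : Type*} [NormedAddCommGroup F] [InnerProductSpace ℝ F]
variable {V : Type*} [NormedAddCommGroup V] [NormedSpace ℝ V]

lemma fderiv_of_affine {A B : Type*} [NormedAddCommGroup A] [NormedSpace ℝ A]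
    [NormedAddCommGroup B] [NormedSpace ℝ B] {H : A → B} (hH : Differentiable ℝ H) {p w : A} {W : B}
    (hline : ∀ t : ℝ, H (p + t • w) = H p + t • W) : fderiv ℝ H p w = W := by
  have h1 : HasDerivAt (fun t : ℝ => p + t • w) w 0 := by
    simpa using ((hasDerivAt_id (0:ℝ)).smul_const w).const_add p
  have h2 : HasFDerivAt H (fderiv ℝ H p) (p + (0:ℝ) • w) := by
    rw [zero_smul, add_zero]
    exact (hH p).hasFDerivAt
  have hd : HasDerivAt (fun t : ℝ => H (p + t • w)) (fderiv ℝ H p w) 0 :=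
    h2.comp_hasDerivAt (0:ℝ) h1
  have hd2 : HasDerivAt (fun t : ℝ => H (p + t • w)) W 0 := by
    simp only [hline]
    simpa using ((hasDerivAt_id (0:ℝ)).smul_const W).const_add (H p)
  exact hd.unique hd2

/-- flip as a continuous linear map -/
def flipC : (F →L[ℝ] F →L[ℝ] V) →L[ℝ] (F →L[ℝ] F →L[ℝ] V) :=
  ((ContinuousLinearMap.flipₗᵢ ℝ F F V).toContinuousLinearEquiv :
    (F →L[ℝ] F →L[ℝ] V) →L[ℝ] (F →L[ℝ] F →L[ℝ] V))

/-- pairing as a continuous linear map -/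
def prodC {W : Type*} [NormedAddCommGroup W] [NormedSpace ℝ W] :
    ((F →L[ℝ] V) × (F →L[ℝ] W)) →L[ℝ] (F →L[ℝ] V × W) :=
  ((ContinuousLinearMap.prodₗᵢ (𝕜 := ℝ) (E := F) (F := V) (G := W) ℝ).toContinuousLinearEquiv :
    ((F →L[ℝ] V) × (F →L[ℝ] W)) →L[ℝ] (F →L[ℝ] V × W))

lemma flip_contDiff : ContDiff ℝ ∞ (fun A : (F →L[ℝ] F →L[ℝ] V) => ContinuousLinearMap.flip A) := by
  have h : ContDiff ℝ ∞ (fun A : (F →L[ℝ] F →L[ℝ] V) => flipC A) := by
    apply ContinuousLinearMap.contDiff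
  exact h

lemma prod_contDiff {W : Type*} [NormedAddCommGroup W] [NormedSpace ℝ W] :
    ContDiff ℝ ∞ (fun A : ((F →L[ℝ] V) × (F →L[ℝ] W)) => ContinuousLinearMap.prod A.1 A.2) := by
  have h : ContDiff ℝ ∞ (fun A : ((F →L[ℝ] V) × (F →L[ℝ] W)) => prodC A) := by
    apply ContinuousLinearMap.contDiff
  exact h

/-- the prolonged nonlinearity -/
def pro (G : V × (F →L[ℝ] V) → (F →L[ℝ] V))
    (p : (V × (F →L[ℝ] V)) × (F →L[ℝ] (V × (F →L[ℝ] V)))) : F →L[ℝ] (V × (F →L[ℝ] V)) :=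
  (G p.1).prod ((fderiv ℝ G p.1 ∘L
    (p.1.2.prod ((ContinuousLinearMap.snd ℝ V (F →L[ℝ] V)) ∘L p.2).flip)).flip)

lemma pro_contDiff {G : V × (F →L[ℝ] V) → (F →L[ℝ] V)} (hG : ContDiff ℝ ∞ G) :
    ContDiff ℝ ∞ (pro G) := by
  have h : ContDiff ℝ (∞ + 1) G := by simpa using hG
  have h2 : ContDiff ℝ ∞ (fderiv ℝ G) := h.fderiv_right (m := ∞) le_rfl
  have h3 : ContDiff ℝ ∞ (fun p : (V × (F →L[ℝ] V)) × (F →L[ℝ] (V × (F →L[ℝ] V))) =>
      ((ContinuousLinearMap.snd ℝ V (F →L[ℝ] V)) ∘L p.2).flip) := by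
    have h4 : ContDiff ℝ ∞ (fun p : (V × (F →L[ℝ] V)) × (F →L[ℝ] (V × (F →L[ℝ] V))) =>
      ((ContinuousLinearMap.snd ℝ V (F →L[ℝ] V)) ∘L p.2)) := contDiff_const.clm_comp contDiff_snd
    exact flip_contDiff.comp h4
  have hf : ContDiff ℝ ∞ (Prod.fst : (V × (F →L[ℝ] V)) × (F →L[ℝ] (V × (F →L[ℝ] V))) → _) :=
    contDiff_fst
  have h5 : ContDiff ℝ ∞ (fun p : (V × (F →L[ℝ] V)) × (F →L[ℝ] (V × (F →L[ℝ] V))) =>
      p.1.2.prod ((ContinuousLinearMap.snd ℝ V (F →L[ℝ] V)) ∘L p.2).flip) := by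
    have h6 := (contDiff_snd.comp hf).prodMk h3
    exact prod_contDiff.comp h6
  have h7 := (h2.comp hf).clm_comp h5
  have h8 := flip_contDiff.comp h7
  have h9 := (hG.comp hf).prodMk h8
  exact prod_contDiff.comp h9

lemma pro_sml {G : V × (F →L[ℝ] V) → (F →L[ℝ] V)} (hG : ContDiff ℝ ∞ G) {β : ℝ} (hβ : 0 ≤ β)
    {p : V × (F →L[ℝ] V)} (hs : Sml β G p) (Q : F →L[ℝ] (V × (F →L[ℝ] V))) :
    Sml β (pro G) (p, Q) := by
  intro P
  set R : F →L[ℝ] (F →L[ℝ] V) := ((ContinuousLinearMap.snd ℝ V (F →L[ℝ] V)) ∘L P) with hR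
  set W : F →L[ℝ] (V × (F →L[ℝ] V)) := (0 : F →L[ℝ] V).prod ((fderiv ℝ G p ∘L
    ((0 : F →L[ℝ] V).prod R.flip)).flip) with hW
  have hline : ∀ t : ℝ, pro G ((p, Q) + t • ((0 : V × (F →L[ℝ] V)), P)) = pro G (p, Q) + t • W := by
    intro t
    have h1 : (p, Q) + t • ((0 : V × (F →L[ℝ] V)), P) = (p, Q + t • P) := by
      rw [Prod.smul_mk, Prod.mk_add_mk, smul_zero, add_zero]
    rw [h1]
    have h2 : ∀ y e : F, (fderiv ℝ G p (p.2 e,
        ((ContinuousLinearMap.snd ℝ V (F →L[ℝ] V)) ∘L (Q + t • P)).flip e)) y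
        = (fderiv ℝ G p (p.2 e, ((ContinuousLinearMap.snd ℝ V (F →L[ℝ] V)) ∘L Q).flip e)) y
          + t • (fderiv ℝ G p (0, R.flip e)) y := by
      intro y e
      have h3 : (p.2 e, ((ContinuousLinearMap.snd ℝ V (F →L[ℝ] V)) ∘L (Q + t • P)).flip e)
          = (p.2 e, ((ContinuousLinearMap.snd ℝ V (F →L[ℝ] V)) ∘L Q).flip e)
            + t • ((0 : V), R.flip e) := by
        rw [Prod.smul_mk, Prod.mk_add_mk, smul_zero, add_zero]
        rfl
      rw [h3, map_add, map_smul]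
      rfl
    refine ContinuousLinearMap.ext fun y => Prod.ext ?_ ?_
    · change G p y = G p y + t • (0 : V)
      rw [smul_zero, add_zero]
    · refine ContinuousLinearMap.ext fun e => ?_
      exact h2 y e
  have hfd := fderiv_of_affine ((pro_contDiff hG).differentiable (by simp)) hline
  rw [hfd]
  refine ContinuousLinearMap.opNorm_le_bound _ (mul_nonneg hβ (norm_nonneg _)) ?_
  intro y
  have hWy : W y = ((0 : V), (fderiv ℝ G p ∘L ((0 : F →L[ℝ] V).prod R.flip)).flip y) := rfl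
  rw [hWy, norm_zero_prod]
  have hR1 : ‖R‖ ≤ ‖P‖ := by
    refine (ContinuousLinearMap.opNorm_comp_le _ _).trans ?_
    have := ContinuousLinearMap.norm_snd_le (𝕜 := ℝ) V (F →L[ℝ] V)
    nlinarith [norm_nonneg P]
  refine ContinuousLinearMap.opNorm_le_bound _ (by positivity) ?_
  intro e
  change ‖(fderiv ℝ G p (0, R.flip e)) y‖ ≤ _
  have h1 := hs (R.flip e)
  have h2 : ‖R.flip e‖ ≤ ‖P‖ * ‖e‖ := by
    refine (ContinuousLinearMap.le_opNorm _ _).trans ?_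
    rw [ContinuousLinearMap.opNorm_flip]
    exact mul_le_mul_of_nonneg_right hR1 (norm_nonneg _)
  calc ‖(fderiv ℝ G p (0, R.flip e)) y‖ ≤ ‖fderiv ℝ G p (0, R.flip e)‖ * ‖y‖ :=
        ContinuousLinearMap.le_opNorm _ _
    _ ≤ (β * (‖P‖ * ‖e‖)) * ‖y‖ := by
        refine mul_le_mul_of_nonneg_right (h1.trans ?_) (norm_nonneg _)
        exact mul_le_mul_of_nonneg_left h2 hβ
    _ = β * ‖P‖ * ‖y‖ * ‖e‖ := by ring

end prolong

end

end Crest.Agent.R246.H2x622
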