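import Crest.Agent.R246.H2c3_622

/-!
R246, block H2c (helper622).  Part 4: the prolonged solution and `C^∞` regularity.
-/

open MeasureTheory Metric Set Filter Topology
open scoped ContDiff

namespace Crest.Agent.R246.H2x622

noncomputable section

set_option linter.unusedSectionVars false

variable {F : Type*} [NormedAddCommGroup F] [InnerProductSpace ℝ F] [FiniteDimensional ℝ F]
  [MeasurableSpace F] [BorelSpace F]
variable {V : Type*} [NormedAddCommGroup V] [NormedSpace ℝ V] [CompleteSpace V]

/-- directional derivative of a test function -/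
lemma gradient_dir {ζ : F → ℝ} (hζ : ContDiff ℝ ∞ ζ) (e z : F) :
    gradient (fun y => fderiv ℝ ζ y e) z = fderiv ℝ (gradient ζ) z e := by
  have h : ContDiff ℝ (∞ + 1) ζ := by simpa using hζ
  have h2 : ContDiff ℝ ∞ (fderiv ℝ ζ) := h.fderiv_right (m := ∞) le_rfl
  have h3 : HasFDerivAt (fderiv ℝ ζ) (fderiv ℝ (fderiv ℝ ζ) z) z :=
    (h2.differentiable (by simp) z).hasFDerivAt
  have h4 : HasFDerivAt (fun y => fderiv ℝ ζ y e) ((fderiv ℝ (fderiv ℝ ζ) z).flip e) z := by
    have := h3.clm_apply (hasFDerivAt_const e z)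
    refine this.congr_fderiv ?_
    ext u
    simp
  have h5 : HasFDerivAt (gradient ζ) (fderiv ℝ (gradient ζ) z) z :=
    ((gradient_contDiff hζ).differentiable (by simp) z).hasFDerivAt
  have hin : ∀ y u : F, inner ℝ (gradient ζ y) u = fderiv ℝ ζ y u := by
    intro y u
    rw [gradient, InnerProductSpace.toDual_symm_apply]
  have h6 : ∀ u : F, inner ℝ (fderiv ℝ (gradient ζ) z e) u = fderiv ℝ (fderiv ℝ ζ) z e u := by
    intro u
    have a1 : HasFDerivAt (fun y => inner ℝ (gradient ζ y) u)
        ((fderiv ℝ (fderiv ℝ ζ) z).flip u) z := by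
      simp only [hin]
      refine (h3.clm_apply (hasFDerivAt_const u z)).congr_fderiv ?_
      ext w
      simp
    have a2 := h5.inner ℝ (hasFDerivAt_const u z)
    have a3 := congrArg (fun L : F →L[ℝ] ℝ => L e) (a2.unique a1)
    simpa [ContinuousLinearMap.flip_apply] using a3
  refine ext_inner_right ℝ fun u => ?_
  rw [h6, gradient, InnerProductSpace.toDual_symm_apply, h4.fderiv, ContinuousLinearMap.flip_apply]
  exact second_derivative_symmetric (fun y => (hζ.differentiable (by simp) y).hasFDerivAt) h3 u e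

lemma sol_fderiv {κ α β₁ : ℝ} (hκ : KB F κ) (hα : 0 < α) (hα1 : α < 1) (hβ : β₁ < bet F κ α)
    {G : V × (F →L[ℝ] V) → (F →L[ℝ] V)} (hG : ContDiff ℝ ∞ G) {v : F → V} {g : F → F →L[ℝ] V}
    {U : Set F} (hS : Sol α G v g U) (hsml : ∀ z ∈ U, Sml β₁ G (v z, g z)) :
    (∀ z ∈ U, HasFDerivAt g (fderiv ℝ g z) z) ∧
    (∀ x ∈ U, ∃ r > 0, ∃ K, ∀ z ∈ ball x r, ∀ z' ∈ ball x r,
      ‖fderiv ℝ g z - fderiv ℝ g z'‖ ≤ K * ‖z - z'‖ ^ α) := by
  constructor
  · intro z hz
    obtain ⟨r, hr, K, g', h1, h2⟩ := sol_c2 hκ hα hα1 hβ hG hS hsml hz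
    exact (h1 z (mem_ball_self hr)).differentiableAt.hasFDerivAt
  · intro x hx
    obtain ⟨r, hr, K, g', h1, h2⟩ := sol_c2 hκ hα hα1 hβ hG hS hsml hx
    refine ⟨r, hr, K, fun z hz z' hz' => ?_⟩
    rw [(h1 z hz).fderiv, (h1 z' hz').fderiv]
    exact h2 z hz z' hz'

theorem sol_prolong {κ α β₁ : ℝ} (hκ : KB F κ) (hα : 0 < α) (hα1 : α < 1) (hβ : β₁ < bet F κ α)
    {G : V × (F →L[ℝ] V) → (F →L[ℝ] V)} (hG : ContDiff ℝ ∞ G) {v : F → V} {g : F → F →L[ℝ] V}
    {U : Set F} (hS : Sol α G v g U) (hsml : ∀ z ∈ U, Sml β₁ G (v z, g z)) :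
    Sol α (pro G) (fun z => (v z, g z)) (fun z => (g z).prod (fderiv ℝ g z)) U := by
  obtain ⟨hgd, hgh⟩ := sol_fderiv hκ hα hα1 hβ hG hS hsml
  have hgc : ContinuousOn g U := hS.cont_g hα
  have hXc : ContinuousOn (fun z => (v z, g z)) U := hS.cont_X hα
  have hg'c : ContinuousOn (fderiv ℝ g) U := by
    intro x hx
    obtain ⟨r, hr, K, hK⟩ := hgh x hx
    exact (continuousAt_of_hol (W := F →L[ℝ] (F →L[ℝ] V)) hα hr hK).continuousWithinAt
  have hGd : Differentiable ℝ G := hG.differentiable (by simp)
  have hG2 : ContDiff ℝ (∞ + 1) G := by simpa using hG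
  have hG'c : Continuous (fderiv ℝ G) := (hG2.fderiv_right (m := ∞) le_rfl).continuous
  have hg1c : ContinuousOn (fun z => (g z).prod (fderiv ℝ g z)) U :=
    (prodC (F := F) (V := V) (W := F →L[ℝ] V)).continuous.comp_continuousOn (hgc.prodMk hg'c)
  refine ⟨hS.op, ?_, ?_, ?_⟩
  · intro z hz
    exact (hS.der z hz).prodMk (hgd z hz)
  · intro x hx
    obtain ⟨r, hr, K, hK⟩ := hgh x hx
    obtain ⟨r', hr', K', hK'⟩ := hS.hol x hx
    refine ⟨min r r', lt_min hr hr', K' + K, fun z hz z' hz' => ?_⟩
    have h1 := hK z (ball_subset_ball (min_le_left _ _) hz) z' (ball_subset_ball (min_le_left _ _) hz')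
    have h2 := hK' z (ball_subset_ball (min_le_right _ _) hz) z'
      (ball_subset_ball (min_le_right _ _) hz')
    have e1 : (g z).prod (fderiv ℝ g z) - (g z').prod (fderiv ℝ g z')
        = (g z - g z').prod (fderiv ℝ g z - fderiv ℝ g z') := rfl
    rw [e1, ContinuousLinearMap.opNorm_prod, Prod.norm_def]
    refine max_le ?_ ?_
    · change ‖g z - g z'‖ ≤ _
      have := le_trans (norm_nonneg (fderiv ℝ g z - fderiv ℝ g z')) h1
      linarith
    · change ‖fderiv ℝ g z - fderiv ℝ g z'‖ ≤ _
      have := le_trans (norm_nonneg (g z - g z')) h2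
      linarith
  · intro ζ hζ hcs hts
    set X : F → V × (F →L[ℝ] V) := fun z => (v z, g z) with hX
    set H : F → F →L[ℝ] V := fun z => g z - G (X z) with hH
    set H' : F → F →L[ℝ] (F →L[ℝ] V) := fun z =>
      fderiv ℝ g z - (fderiv ℝ G (X z)) ∘L ((g z).prod (fderiv ℝ g z)) with hH'
    have hHd : ∀ z ∈ U, HasFDerivAt H (H' z) z := by
      intro z hz
      have h1 : HasFDerivAt X ((g z).prod (fderiv ℝ g z)) z := (hS.der z hz).prodMk (hgd z hz)
      exact (hgd z hz).sub ((hGd (X z)).hasFDerivAt.comp z h1)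
    have hHc : ContinuousOn H U := hgc.sub (hG.continuous.comp_continuousOn hXc)
    have hH'c : ContinuousOn H' U :=
      hg'c.sub ((hG'c.comp_continuousOn hXc).clm_comp hg1c)
    -- the directional equation
    have hdir : ∀ e : F, ∫ z, (H' z e) (gradient ζ z) = 0 := by
      intro e
      set ζe : F → ℝ := fun y => fderiv ℝ ζ y e with hζe
      have h : ContDiff ℝ (∞ + 1) ζ := by simpa using hζ
      have h2 : ContDiff ℝ ∞ ζe := (h.fderiv_right (m := ∞) le_rfl).clm_apply contDiff_const
      have hsub : tsupport ζe ⊆ tsupport ζ := by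
        refine closure_minimal ?_ (isClosed_tsupport ζ)
        intro z hz
        by_contra hz2
        apply hz
        simp only [hζe]
        rw [fderiv_of_notMem_tsupport ℝ hz2]
        rfl
      have hcse : HasCompactSupport ζe := hcs.of_isClosed_subset (isClosed_tsupport _) hsub
      have h3 := hS.weak ζe h2 hcse (hsub.trans hts)
      have hgr : ∀ z, gradient ζe z = fderiv ℝ (gradient ζ) z e := gradient_dir hζ e
      have hi1 : Integrable (fun z => (H' z e) (gradient ζ z)) :=
        integrable_grad (H := fun z => H' z e) (hH'c.clm_apply continuousOn_const) hζ hcs hts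
      have hi2 : Integrable (fun z => H z (fderiv ℝ (gradient ζ) z e)) := by
        have := integrable_grad hHc h2 hcse (hsub.trans hts)
        simpa only [hgr] using this
      have hi3 : Integrable (fun z => H z (gradient ζ z)) := integrable_grad hHc hζ hcs hts
      have hib := integral_bilinear_hasFDerivAt_right_eq_neg_left_of_integrable
        (μ := (volume : Measure F)) (f := H) (f' := H') (g := gradient ζ)
        (g' := fderiv ℝ (gradient ζ)) (v := e) (B := ContinuousLinearMap.id ℝ (F →L[ℝ] V))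
        hi1 hi2 hi3 ?_ ?_
      · simp only [ContinuousLinearMap.id_apply] at hib
        simp only [hgr] at h3
        have h4 : ∫ z, H z (fderiv ℝ (gradient ζ) z e) = 0 := h3
        rw [h4] at hib
        exact (neg_eq_zero.1 hib.symm)
      · intro x hx
        apply hHd x (hts _)
        have : tsupport (gradient ζ) ⊆ tsupport ζ := by
          refine closure_minimal ?_ (isClosed_tsupport ζ)
          intro z hz
          by_contra hz2
          exact hz (gradient_zero_of_notMem hz2)
        exact this hx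
      · intro x _
        exact ((gradient_contDiff hζ).differentiable (by simp) x).hasFDerivAt
    -- symmetry of the second derivative
    have hsym : ∀ z ∈ U, ∀ y e : F, fderiv ℝ g z y e = fderiv ℝ g z e y := by
      intro z hz y e
      refine second_derivative_symmetric_of_eventually (f := v) (f' := g) ?_ (hgd z hz) y e
      filter_upwards [hS.op.mem_nhds hz] with y hy
      exact hS.der y hy
    set w : F → V × (F →L[ℝ] V) := fun z =>
      ((g z).prod (fderiv ℝ g z) - pro G (X z, (g z).prod (fderiv ℝ g z))) (gradient ζ z) with hw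
    have hwint : Integrable w := by
      refine integrable_grad (H := fun z => (g z).prod (fderiv ℝ g z)
        - pro G (X z, (g z).prod (fderiv ℝ g z))) (hg1c.sub ?_) hζ hcs hts
      exact (pro_contDiff hG).continuous.comp_continuousOn (hXc.prodMk hg1c)
    change ∫ z, w z = 0
    refine Prod.ext ?_ ?_
    · have h1 := (ContinuousLinearMap.fst ℝ V (F →L[ℝ] V)).integral_comp_comm hwint
      change (ContinuousLinearMap.fst ℝ V (F →L[ℝ] V)) (∫ z, w z) = 0
      rw [← h1]
      exact hS.weak ζ hζ hcs hts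
    · have h1 := (ContinuousLinearMap.snd ℝ V (F →L[ℝ] V)).integral_comp_comm hwint
      change (ContinuousLinearMap.snd ℝ V (F →L[ℝ] V)) (∫ z, w z) = 0
      rw [← h1]
      have hwint2 : Integrable (fun z => (ContinuousLinearMap.snd ℝ V (F →L[ℝ] V)) (w z)) :=
        (ContinuousLinearMap.snd ℝ V (F →L[ℝ] V)).integrable_comp hwint
      refine ContinuousLinearMap.ext fun e => ?_
      have h2 := (ContinuousLinearMap.apply ℝ V e).integral_comp_comm hwint2
      change (ContinuousLinearMap.apply ℝ V e) (∫ z, (ContinuousLinearMap.snd ℝ V (F →L[ℝ] V)) (w z))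
        = 0
      rw [← h2, ← hdir e]
      congr 1
      ext z
      by_cases hz : z ∈ U
      · change (fderiv ℝ g z (gradient ζ z)) e
          - (fderiv ℝ G (X z) (g z e, ((ContinuousLinearMap.snd ℝ V (F →L[ℝ] V)) ∘L
            ((g z).prod (fderiv ℝ g z))).flip e)) (gradient ζ z)
          = (fderiv ℝ g z e) (gradient ζ z)
            - (fderiv ℝ G (X z) (g z e, fderiv ℝ g z e)) (gradient ζ z)
        have h3 : ((ContinuousLinearMap.snd ℝ V (F →L[ℝ] V)) ∘L
            ((g z).prod (fderiv ℝ g z))).flip e = fderiv ℝ g z e := by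
          refine ContinuousLinearMap.ext fun y => ?_
          exact hsym z hz y e
        rw [h3, hsym z hz]
      · have h4 : gradient ζ z = 0 := gradient_zero_of_notMem (fun h => hz (hts h))
        simp [hw, h4]

end

end Crest.Agent.R246.H2x622
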