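import Crest.Agent.R246.H2c4_622

/-!
R246, block H2c (helper622).  Part 5: `C^{1,α}` weak solutions of the minimal surface equation with
small gradient are `C^∞`.
-/

open MeasureTheory Metric Set Filter Topology
open scoped ContDiff

namespace Crest.Agent.R246.H2x622

noncomputable section

set_option linter.unusedSectionVars false

theorem sol_contDiffOn {F : Type} [NormedAddCommGroup F] [InnerProductSpace ℝ F]
    [FiniteDimensional ℝ F] [MeasurableSpace F] [BorelSpace F] {κ α β₁ : ℝ} (hκ : KB F κ)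
    (hα : 0 < α) (hα1 : α < 1) (hβ0 : 0 ≤ β₁) (hβ : β₁ < bet F κ α) {U : Set F} (n : ℕ) :
    ∀ {V : Type} [NormedAddCommGroup V] [NormedSpace ℝ V] [CompleteSpace V]
      {G : V × (F →L[ℝ] V) → (F →L[ℝ] V)} (_ : ContDiff ℝ ∞ G) {v : F → V} {g : F → F →L[ℝ] V},
      Sol α G v g U → (∀ z ∈ U, Sml β₁ G (v z, g z)) → ContDiffOn ℝ n v U := by
  induction n with
  | zero =>
    intro V _ _ _ G hG v g hS hs
    rw [Nat.cast_zero, contDiffOn_zero]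
    exact fun z hz => (hS.der z hz).continuousAt.continuousWithinAt
  | succ n ih =>
    intro V _ _ _ G hG v g hS hs
    have h1 := sol_prolong hκ hα hα1 hβ hG hS hs
    have h2 := ih (pro_contDiff hG) h1 (fun z hz => pro_sml hG hβ0 (hs z hz) _)
    have h3 : ContDiffOn ℝ n g U := h2.snd
    rw [Nat.cast_succ, contDiffOn_succ_iff_fderiv_of_isOpen hS.op]
    refine ⟨fun z hz => (hS.der z hz).differentiableAt.differentiableWithinAt, by simp, ?_⟩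
    exact h3.congr (fun z hz => (hS.der z hz).fderiv)

section mse

variable {F : Type} [NormedAddCommGroup F] [InnerProductSpace ℝ F] [FiniteDimensional ℝ F]
  [MeasurableSpace F] [BorelSpace F]

/-- the nonlinearity of the minimal surface equation, gradient part -/
def mseM (q : F →L[ℝ] ℝ) : F →L[ℝ] ℝ := q - (Real.sqrt (1 + ‖q‖ ^ 2))⁻¹ • q

/-- the nonlinearity of the minimal surface equation -/
def mseG (p : ℝ × (F →L[ℝ] ℝ)) : F →L[ℝ] ℝ := mseM p.2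

lemma normsq_contDiff : ContDiff ℝ ∞ (fun q : F →L[ℝ] ℝ => ‖q‖ ^ 2) := by
  have h1 : ContDiff ℝ ∞ (fun q : F →L[ℝ] ℝ => ‖(InnerProductSpace.toDual ℝ F).symm q‖ ^ 2) :=
    (contDiff_norm_sq ℝ).comp (InnerProductSpace.toDual ℝ F).symm.contDiff
  simpa only [LinearIsometryEquiv.norm_map] using h1

lemma mse_s_contDiff : ContDiff ℝ ∞ (fun q : F →L[ℝ] ℝ => (Real.sqrt (1 + ‖q‖ ^ 2))⁻¹) := by
  have h1 : ContDiff ℝ ∞ (fun q : F →L[ℝ] ℝ => 1 + ‖q‖ ^ 2) := contDiff_const.add normsq_contDiff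
  have h2 : ∀ q : F →L[ℝ] ℝ, 1 + ‖q‖ ^ 2 ≠ 0 := fun q => by positivity
  have h3 : ∀ q : F →L[ℝ] ℝ, Real.sqrt (1 + ‖q‖ ^ 2) ≠ 0 := fun q => by positivity
  exact (h1.sqrt h2).inv h3

lemma mseM_contDiff : ContDiff ℝ ∞ (mseM : (F →L[ℝ] ℝ) → (F →L[ℝ] ℝ)) :=
  contDiff_id.sub (mse_s_contDiff.smul contDiff_id)

lemma mseG_contDiff : ContDiff ℝ ∞ (mseG : ℝ × (F →L[ℝ] ℝ) → (F →L[ℝ] ℝ)) :=
  mseM_contDiff.comp contDiff_snd

lemma fderiv_mseM_zero : fderiv ℝ (mseM : (F →L[ℝ] ℝ) → (F →L[ℝ] ℝ)) 0 = 0 := by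
  have h1 : HasFDerivAt (fun q : F →L[ℝ] ℝ => (Real.sqrt (1 + ‖q‖ ^ 2))⁻¹)
      (fderiv ℝ (fun q : F →L[ℝ] ℝ => (Real.sqrt (1 + ‖q‖ ^ 2))⁻¹) 0) 0 :=
    (mse_s_contDiff.differentiable (by simp) _).hasFDerivAt
  have h2 : HasFDerivAt (mseM : (F →L[ℝ] ℝ) → (F →L[ℝ] ℝ)) _ 0 :=
    (hasFDerivAt_id (0 : F →L[ℝ] ℝ)).sub (h1.smul (hasFDerivAt_id (0 : F →L[ℝ] ℝ)))
  rw [h2.fderiv]
  ext P
  simp

lemma small_of_fderiv_zero {W W' : Type*} [NormedAddCommGroup W] [NormedSpace ℝ W]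
    [NormedAddCommGroup W'] [NormedSpace ℝ W'] {G : W → W'} (hG : ContDiff ℝ ∞ G)
    (h0 : ∀ P, fderiv ℝ G 0 P = 0) {β : ℝ} (hβ : 0 < β) :
    ∃ p₀ > 0, ∀ q, ‖q‖ < p₀ → ∀ P, ‖fderiv ℝ G q P‖ ≤ β * ‖P‖ := by
  obtain ⟨δ, hδ, L1, hL1, L2, hL2, hb1, hb2, hb3⟩ := exists_G_bounds hG 0 hβ
  refine ⟨δ, hδ, fun q hq P => ?_⟩
  have h1 := hb2 q (by rwa [mem_ball, dist_zero_right])
  have h2 : fderiv ℝ G q P = (fderiv ℝ G q - fderiv ℝ G 0) P := by rw [sub_apply, h0, sub_zero]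
  rw [h2]
  exact (ContinuousLinearMap.le_opNorm _ _).trans (mul_le_mul_of_nonneg_right h1 (norm_nonneg _))

lemma exists_small_mse {β : ℝ} (hβ : 0 < β) :
    ∃ p₀ > 0, ∀ p : ℝ × (F →L[ℝ] ℝ), ‖p.2‖ < p₀ → Sml β mseG p := by
  obtain ⟨p₀, hp, hp2⟩ := small_of_fderiv_zero (mseM_contDiff (F := F))
    (fun P => by rw [fderiv_mseM_zero]; rfl) hβ
  refine ⟨p₀, hp, fun p hpp P => ?_⟩
  have h2 : HasFDerivAt (mseG : ℝ × (F →L[ℝ] ℝ) → (F →L[ℝ] ℝ))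
      (fderiv ℝ mseM p.2 ∘L ContinuousLinearMap.snd ℝ ℝ (F →L[ℝ] ℝ)) p :=
    ((mseM_contDiff.differentiable (by simp) _).hasFDerivAt).comp p hasFDerivAt_snd
  rw [h2.fderiv]
  exact hp2 p.2 hpp P

variable (F) in
/-- **Regularity for the minimal surface equation**: `C^{1,α}` weak solutions with small gradient
are smooth. -/
theorem mse_smooth {α : ℝ} (hα : 0 < α) (hα1 : α < 1) :
    ∃ p₀ > 0, ∀ (U : Set F) (w : F → ℝ) (g : F → F →L[ℝ] ℝ), IsOpen U →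
      (∀ z ∈ U, HasFDerivAt w (g z) z) →
      (∀ x ∈ U, ∃ r > 0, ∃ K, ∀ z ∈ ball x r, ∀ z' ∈ ball x r, ‖g z - g z'‖ ≤ K * ‖z - z'‖ ^ α) →
      (∀ z ∈ U, ‖g z‖ < p₀) →
      (∀ ζ : F → ℝ, ContDiff ℝ ∞ ζ → HasCompactSupport ζ → tsupport ζ ⊆ U →
        ∫ z, (Real.sqrt (1 + ‖g z‖ ^ 2))⁻¹ * g z (gradient ζ z) = 0) →
      ContDiffOn ℝ ∞ w U := by
  obtain ⟨κ, hκ⟩ := exists_KB F
  have hb := bet_pos hκ hα hα1
  obtain ⟨p₀, hp, hp2⟩ := exists_small_mse (F := F) (half_pos hb)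
  refine ⟨p₀, hp, ?_⟩
  intro U w g hU hder hhol hsm hweak
  have hS : Sol α (mseG : ℝ × (F →L[ℝ] ℝ) → (F →L[ℝ] ℝ)) w g U := by
    refine ⟨hU, hder, hhol, ?_⟩
    intro ζ h1 h2 h3
    rw [← hweak ζ h1 h2 h3]
    congr 1
    ext z
    simp [mseG, mseM]
  rw [contDiffOn_infty]
  intro n
  exact sol_contDiffOn hκ hα hα1 (half_pos hb).le (half_lt_self hb) n mseG_contDiff hS
    (fun z hz => hp2 _ (hsm z hz))

end mse

end

end Crest.Agent.R246.H2x622
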