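import Mathlib.Analysis.Calculus.Gradient.Basic
import Mathlib.Analysis.Calculus.ContDiff.Operations
import Mathlib.Analysis.Calculus.FDeriv.Symmetric
import Mathlib.Analysis.Calculus.DerivativeTest
import Mathlib.Analysis.ODE.Gronwall
import Mathlib.Analysis.InnerProductSpace.Calculus
import Mathlib.Analysis.InnerProductSpace.PiL2

/-!
# Heintze-Karcher step, part 1: smooth signed distance functions, nearest points

`SDon U φ` : `φ` smooth on the open set `U` with unit gradient.  Lines in direction of the gradient,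
foot points, and the first and second order conditions at a nearest point of the zero set.
-/

set_option autoImplicit false
noncomputable section

open Set Filter Topology
open scoped RealInnerProductSpace ContDiff

namespace Crest.Agent.R246.HK149

variable {E : Type*} [NormedAddCommGroup E] [InnerProductSpace ℝ E] [FiniteDimensional ℝ E]

/-- smooth with unit gradient on the open set `U` -/
structure SDon (U : Set E) (φ : E → ℝ) : Prop where
  isOpen : IsOpen U
  smooth : ContDiffOn ℝ ∞ φ U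
  grad : ∀ x ∈ U, ‖gradient φ x‖ = 1

theorem inner_gradient (f : E → ℝ) (x v : E) : ⟪gradient f x, v⟫ = fderiv ℝ f x v := by
  rw [gradient, InnerProductSpace.toDual_symm_apply]

theorem gradient_eq_sum (f : E → ℝ) (x : E) :
    gradient f x = ∑ i, fderiv ℝ f x (stdOrthonormalBasis ℝ E i) • stdOrthonormalBasis ℝ E i := by
  conv_lhs => rw [← (stdOrthonormalBasis ℝ E).sum_repr' (gradient f x)]
  refine Finset.sum_congr rfl fun i _ => ?_
  rw [real_inner_comm, inner_gradient]

namespace SDon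

variable {U : Set E} {φ : E → ℝ}

theorem contDiffOn_fderiv (h : SDon U φ) : ContDiffOn ℝ ∞ (fderiv ℝ φ) U :=
  h.smooth.fderiv_of_isOpen h.isOpen (by simp)

theorem contDiffOn_gradient (h : SDon U φ) : ContDiffOn ℝ ∞ (gradient φ) U := by
  have e : gradient φ = fun x => ∑ i, fderiv ℝ φ x (stdOrthonormalBasis ℝ E i) •
      stdOrthonormalBasis ℝ E i := funext fun x => gradient_eq_sum φ x
  rw [e]
  refine ContDiffOn.sum fun i _ => ?_
  exact (h.contDiffOn_fderiv.clm_apply contDiffOn_const).smul contDiffOn_const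

theorem differentiableAt (h : SDon U φ) {x : E} (hx : x ∈ U) : DifferentiableAt ℝ φ x :=
  (h.smooth.contDiffAt (h.isOpen.mem_nhds hx)).differentiableAt (by simp)

theorem differentiableAt_gradient (h : SDon U φ) {x : E} (hx : x ∈ U) :
    DifferentiableAt ℝ (gradient φ) x :=
  (h.contDiffOn_gradient.contDiffAt (h.isOpen.mem_nhds hx)).differentiableAt (by simp)

theorem differentiableAt_fderiv (h : SDon U φ) {x : E} (hx : x ∈ U) :
    DifferentiableAt ℝ (fderiv ℝ φ) x :=
  (h.contDiffOn_fderiv.contDiffAt (h.isOpen.mem_nhds hx)).differentiableAt (by simp)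

theorem continuousOn_gradient (h : SDon U φ) : ContinuousOn (gradient φ) U :=
  h.contDiffOn_gradient.continuousOn

theorem contDiffOn_hess (h : SDon U φ) : ContDiffOn ℝ ∞ (fderiv ℝ (gradient φ)) U :=
  h.contDiffOn_gradient.fderiv_of_isOpen h.isOpen (by simp)

theorem continuousOn_hess (h : SDon U φ) : ContinuousOn (fderiv ℝ (gradient φ)) U :=
  h.contDiffOn_hess.continuousOn

theorem inner_hess (h : SDon U φ) {x : E} (hx : x ∈ U) (v w : E) :
    ⟪fderiv ℝ (gradient φ) x v, w⟫ = fderiv ℝ (fderiv ℝ φ) x v w := by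
  have h1 : HasFDerivAt (fun y => ⟪gradient φ y, w⟫)
      ((innerSL ℝ w).comp (fderiv ℝ (gradient φ) x)) x := by
    have h2 := (innerSL ℝ w).hasFDerivAt.comp x (h.differentiableAt_gradient hx).hasFDerivAt
    refine h2.congr_of_eventuallyEq (Eventually.of_forall fun y => ?_)
    exact real_inner_comm _ _
  have h3 : HasFDerivAt (fun y => ⟪gradient φ y, w⟫)
      ((fderiv ℝ (fderiv ℝ φ) x).flip w) x := by
    have h2 := (h.differentiableAt_fderiv hx).hasFDerivAt.clm_apply (hasFDerivAt_const w x)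
    refine (h2.congr_of_eventuallyEq (Eventually.of_forall fun y => inner_gradient φ y w)).congr_fderiv ?_
    ext v
    simp
  have h4 := DFunLike.congr_fun (h1.unique h3) v
  rw [real_inner_comm]
  simpa using h4

theorem hess_symm (h : SDon U φ) {x : E} (hx : x ∈ U) (v w : E) :
    ⟪fderiv ℝ (gradient φ) x v, w⟫ = ⟪v, fderiv ℝ (gradient φ) x w⟫ := by
  rw [h.inner_hess hx, real_inner_comm, h.inner_hess hx]
  have h1 : ContDiffAt ℝ ∞ φ x := h.smooth.contDiffAt (h.isOpen.mem_nhds hx)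
  have h2 : IsSymmSndFDerivAt ℝ φ x :=
    h1.isSymmSndFDerivAt (by
      simp only [minSmoothness_of_isRCLikeNormedField]
      exact WithTop.coe_le_coe.2 (le_top : (2 : ℕ∞) ≤ ⊤))
  exact h2.eq v w

theorem hess_grad (h : SDon U φ) {x : E} (hx : x ∈ U) :
    fderiv ℝ (gradient φ) x (gradient φ x) = 0 := by
  have key : ∀ v, ⟪fderiv ℝ (gradient φ) x v, gradient φ x⟫ = 0 := by
    intro v
    have h1 : HasFDerivAt (fun y => ⟪gradient φ y, gradient φ y⟫) _ x :=
      (h.differentiableAt_gradient hx).hasFDerivAt.inner ℝ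
        (h.differentiableAt_gradient hx).hasFDerivAt
    have h2 : HasFDerivAt (fun y => ⟪gradient φ y, gradient φ y⟫) (0 : E →L[ℝ] ℝ) x := by
      refine (hasFDerivAt_const (1 : ℝ) x).congr_of_eventuallyEq ?_
      filter_upwards [h.isOpen.mem_nhds hx] with y hy
      rw [real_inner_self_eq_norm_sq, h.grad y hy, one_pow]
    have h3 := DFunLike.congr_fun (h1.unique h2) v
    simp only [ContinuousLinearMap.comp_apply, ContinuousLinearMap.prod_apply,
      fderivInnerCLM_apply, zero_apply] at h3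
    rw [real_inner_comm] at h3
    linarith
  refine ext_inner_left ℝ fun v => ?_
  rw [← h.hess_symm hx, key, inner_zero_right]

/-- gradient lines, one-sided version -/
theorem line_aux (h : SDon U φ) {x : E} {s ε : ℝ} (hs : 0 ≤ s) (hε : ε = 1 ∨ ε = -1)
    (hU : ∀ σ ∈ Icc 0 s, x + (ε * σ) • gradient φ x ∈ U) :
    gradient φ (x + (ε * s) • gradient φ x) = gradient φ x ∧
      φ (x + (ε * s) • gradient φ x) = φ x + ε * s := by
  set e := gradient φ x with he
  have hxU : x ∈ U := by simpa using hU 0 ⟨le_rfl, hs⟩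
  have hcd : ∀ σ : ℝ, HasDerivAt (fun σ : ℝ => x + (ε * σ) • e) (ε • e) σ := fun σ => by
    have : HasDerivAt (fun σ : ℝ => ε * σ) ε σ := by
      simpa using (hasDerivAt_id σ).const_mul ε
    exact (this.smul_const e).const_add x
  have hcc : Continuous fun σ : ℝ => x + (ε * σ) • e := by fun_prop
  have hcomp : IsCompact (Icc 0 s) := isCompact_Icc
  have hmaps : MapsTo (fun σ : ℝ => x + (ε * σ) • e) (Icc 0 s) U := hU
  obtain ⟨M, hM⟩ : ∃ M, ∀ σ ∈ Icc 0 s, ‖fderiv ℝ (gradient φ) (x + (ε * σ) • e)‖ ≤ M := by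
    have hc : ContinuousOn (fun σ => fderiv ℝ (gradient φ) (x + (ε * σ) • e)) (Icc 0 s) :=
      h.continuousOn_hess.comp hcc.continuousOn hmaps
    exact hcomp.exists_bound_of_continuousOn hc
  have hε1 : |ε| = 1 := by rcases hε with h | h <;> simp [h]
  set ψ : ℝ → E := fun σ => gradient φ (x + (ε * σ) • e) - e with hψ
  have hψd : ∀ σ ∈ Icc 0 s, HasDerivAt ψ (fderiv ℝ (gradient φ) (x + (ε * σ) • e) (ε • e)) σ := by
    intro σ hσ
    exact ((h.differentiableAt_gradient (hU σ hσ)).hasFDerivAt.comp_hasDerivAt σ (hcd σ)).sub_const e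
  have hψ0 : ∀ σ ∈ Icc 0 s, ψ σ = 0 := by
    intro σ hσ
    have hg := norm_le_gronwallBound_of_norm_deriv_right_le (f := ψ)
      (f' := fun σ => fderiv ℝ (gradient φ) (x + (ε * σ) • e) (ε • e)) (δ := 0) (K := M) (ε := 0)
      (a := 0) (b := s)
      (fun σ hσ => (hψd σ hσ).continuousAt.continuousWithinAt)
      (fun σ hσ => (hψd σ ⟨hσ.1, hσ.2.le⟩).hasDerivWithinAt)
      (by simp [hψ, ← he])
      (fun σ hσ => by
        have hσ' : σ ∈ Icc 0 s := ⟨hσ.1, hσ.2.le⟩
        have e1 : fderiv ℝ (gradient φ) (x + (ε * σ) • e) (ε • e)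
            = - (ε • fderiv ℝ (gradient φ) (x + (ε * σ) • e) (ψ σ)) := by
          simp only [hψ, map_sub, h.hess_grad (hU σ hσ'), map_smul]
          simp
        rw [e1, norm_neg, norm_smul, Real.norm_eq_abs, hε1, one_mul, add_zero]
        exact ((fderiv ℝ (gradient φ) (x + (ε * σ) • e)).le_opNorm _).trans
          (mul_le_mul_of_nonneg_right (hM σ hσ') (norm_nonneg _))) σ hσ
    rw [gronwallBound_ε0_δ0] at hg
    exact norm_le_zero_iff.1 hg
  have hs' : s ∈ Icc 0 s := ⟨hs, le_rfl⟩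
  refine ⟨sub_eq_zero.1 (hψ0 s hs'), ?_⟩
  have hφd : ∀ σ ∈ Icc 0 s, HasDerivAt (fun σ => φ (x + (ε * σ) • e) - ε * σ) 0 σ := by
    intro σ hσ
    have h1 := (h.differentiableAt (hU σ hσ)).hasFDerivAt.comp_hasDerivAt σ (hcd σ)
    have h2 : HasDerivAt (fun σ : ℝ => ε * σ) ε σ := by
      simpa using (hasDerivAt_id σ).const_mul ε
    refine (h1.sub h2).congr_deriv ?_
    have h3 : gradient φ (x + (ε * σ) • e) = e := sub_eq_zero.1 (hψ0 σ hσ)
    rw [← inner_gradient, h3, inner_smul_right, real_inner_self_eq_norm_sq, he, h.grad x hxU]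
    ring
  have h4 := constant_of_has_deriv_right_zero
    (f := fun σ => φ (x + (ε * σ) • e) - ε * σ) (a := 0) (b := s)
    (fun σ hσ => (hφd σ hσ).continuousAt.continuousWithinAt)
    (fun σ hσ => (hφd σ ⟨hσ.1, hσ.2.le⟩).hasDerivWithinAt) s hs'
  simp at h4
  linarith

/-- gradient lines -/
theorem line (h : SDon U φ) {x : E} {s : ℝ}
    (hU : ∀ σ : ℝ, |σ| ≤ |s| → x + σ • gradient φ x ∈ U) :
    gradient φ (x + s • gradient φ x) = gradient φ x ∧
      φ (x + s • gradient φ x) = φ x + s := by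
  rcases le_total 0 s with hs | hs
  · have := h.line_aux (x := x) (s := s) (ε := 1) hs (Or.inl rfl) (fun σ hσ => by
      rw [one_mul]
      exact hU σ (by rw [abs_of_nonneg hσ.1, abs_of_nonneg hs]; exact hσ.2))
    simpa using this
  · have := h.line_aux (x := x) (s := -s) (ε := -1) (by linarith) (Or.inr rfl) (fun σ hσ => by
      refine hU (-1 * σ) ?_
      rw [abs_mul, abs_neg, abs_one, one_mul, abs_of_nonneg hσ.1, abs_of_nonpos hs]
      exact hσ.2)
    simpa using this

/-- foot points -/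
theorem foot (h : SDon U φ) (hlip : ∀ x y, |φ x - φ y| ≤ ‖x - y‖) {y : E} (hy : y ∈ U)
    (hy0 : φ y = 0) : ∀ᶠ x in 𝓝 y, ∃ z, φ z = 0 ∧ ‖x - z‖ = |φ x| := by
  obtain ⟨r, hr, hrU⟩ := Metric.isOpen_iff.1 h.isOpen y hy
  filter_upwards [Metric.ball_mem_nhds y (half_pos hr)] with x hx
  rw [Metric.mem_ball, dist_eq_norm] at hx
  have hφx : |φ x| < r / 2 := by
    have := hlip x y
    rw [hy0, sub_zero] at this
    linarith
  have hxU : x ∈ U := hrU (by rw [Metric.mem_ball, dist_eq_norm]; linarith)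
  have hl := h.line (x := x) (s := - φ x) (fun σ hσ => hrU (by
    rw [Metric.mem_ball, dist_eq_norm]
    have e1 : x + σ • gradient φ x - y = (x - y) + σ • gradient φ x := by abel
    rw [e1]
    refine (norm_add_le _ _).trans_lt ?_
    rw [norm_smul, h.grad x hxU, mul_one, Real.norm_eq_abs]
    rw [abs_neg] at hσ
    linarith))
  refine ⟨x + (-φ x) • gradient φ x, by rw [hl.2]; ring, ?_⟩
  rw [sub_add_cancel_left, norm_neg, norm_smul, h.grad x hxU, mul_one, Real.norm_eq_abs, abs_neg]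

end SDon

omit [FiniteDimensional ℝ E] in
/-- touching from one side: the positive case -/
theorem touch_pos {φ : E → ℝ} (hlip : ∀ x y, |φ x - φ y| ≤ ‖x - y‖) {q y : E}
    (hy0 : φ y = 0) (hfoot : ∀ᶠ x in 𝓝 y, ∃ z, φ z = 0 ∧ ‖x - z‖ = |φ x|)
    (hnear : ∀ z, φ z = 0 → ‖q - y‖ ≤ ‖q - z‖) (hq : 0 < φ q) :
    ∀ᶠ x in 𝓝 y, 0 ≤ 2 * ‖q - y‖ * φ x + ‖x - q‖ ^ 2 - ‖q - y‖ ^ 2 := by
  have hcont : Continuous φ := by
    refine (LipschitzWith.of_dist_le_mul (K := 1) fun x y => ?_).continuous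
    rw [Real.dist_eq, dist_eq_norm, NNReal.coe_one, one_mul]
    exact hlip x y
  set s := ‖q - y‖ with hs
  have hs0 : 0 < s := by
    rw [hs, norm_pos_iff, sub_ne_zero]
    rintro rfl
    linarith
  -- `φ > 0` on the open ball
  have hball : ∀ x, ‖x - q‖ < s → 0 < φ x := by
    intro x hx
    by_contra hneg
    push Not at hneg
    have hconn : IsPreconnected (Metric.ball q s) := (convex_ball q s).isPreconnected
    have hxb : x ∈ Metric.ball q s := by rwa [Metric.mem_ball, dist_eq_norm]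
    have hqb : q ∈ Metric.ball q s := Metric.mem_ball_self hs0
    obtain ⟨z, hz, hz0⟩ := hconn.intermediate_value hxb hqb hcont.continuousOn ⟨hneg, hq.le⟩
    rw [Metric.mem_ball, dist_eq_norm, norm_sub_rev] at hz
    exact absurd (hnear z hz0) (not_le.2 hz)
  have hcl : ∀ x, ‖x - q‖ ≤ s → 0 ≤ φ x := by
    intro x hx
    have hx' : x ∈ closure (Metric.ball q s) := by
      rw [closure_ball q hs0.ne', Metric.mem_closedBall, dist_eq_norm]; exact hx
    have hcl2 : IsClosed {x | 0 ≤ φ x} := isClosed_le continuous_const hcont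
    refine hcl2.closure_subset_iff.2 (fun z hz => ?_) hx'
    rw [Metric.mem_ball, dist_eq_norm] at hz
    exact (hball z hz).le
  filter_upwards [hfoot] with x hx
  obtain ⟨z, hz0, hz⟩ := hx
  have key : s - ‖x - q‖ ≤ φ x := by
    rcases lt_or_ge (‖x - q‖) s with hlt | hge
    · have h1 : s ≤ ‖q - z‖ := hnear z hz0
      have h2 : ‖q - z‖ ≤ ‖q - x‖ + ‖x - z‖ := norm_sub_le_norm_sub_add_norm_sub q x z
      rw [hz, abs_of_pos (hball x hlt), norm_sub_rev q x] at h2
      linarith
    · set d := ‖x - q‖ with hd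
      have hd0 : 0 < d := by linarith
      set w := q + (s / d) • (x - q) with hw
      have hwq : ‖w - q‖ = s := by
        rw [hw, add_sub_cancel_left, norm_smul, Real.norm_of_nonneg (by positivity), ← hd]
        field_simp
      have h1 : 0 ≤ φ w := hcl w hwq.le
      have h2 := hlip w x
      have h3 : w - x = (s / d - 1) • (x - q) := by
        rw [hw, sub_smul, one_smul]; abel
      have h4 : ‖w - x‖ = d - s := by
        rw [h3, norm_smul, Real.norm_eq_abs, abs_sub_comm, ← hd, abs_of_nonneg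
          (by rw [sub_nonneg, div_le_one hd0]; exact hge)]
        field_simp
      rw [h4] at h2
      have := (abs_le.1 h2).2
      linarith
  nlinarith [sq_nonneg (s - ‖x - q‖)]

omit [FiniteDimensional ℝ E] in
/-- touching: signed version -/
theorem touch {φ : E → ℝ} (hlip : ∀ x y, |φ x - φ y| ≤ ‖x - y‖) {q y : E}
    (hy0 : φ y = 0) (hfoot : ∀ᶠ x in 𝓝 y, ∃ z, φ z = 0 ∧ ‖x - z‖ = |φ x|)
    (hnear : ∀ z, φ z = 0 → ‖q - y‖ ≤ ‖q - z‖) :
    ∃ s : ℝ, |s| = ‖q - y‖ ∧ ∀ᶠ x in 𝓝 y, 0 ≤ 2 * s * φ x + ‖x - q‖ ^ 2 - s ^ 2 := by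
  rcases lt_trichotomy (φ q) 0 with hq | hq | hq
  · refine ⟨-‖q - y‖, by simp, ?_⟩
    have := touch_pos (φ := fun x => - φ x) (fun x y => by
      rw [← abs_neg]; simpa [add_comm, sub_eq_add_neg] using hlip x y) (q := q) (y := y)
      (by simp [hy0]) (by simpa using hfoot) (fun z hz => hnear z (by simpa using hz))
      (by simpa using hq)
    filter_upwards [this] with x hx
    nlinarith
  · have : ‖q - y‖ = 0 := by
      have := hnear q hq
      simp only [sub_self, norm_zero] at this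
      exact le_antisymm this (norm_nonneg _)
    refine ⟨0, by rw [this, abs_zero], Eventually.of_forall fun x => ?_⟩
    nlinarith [sq_nonneg ‖x - q‖]
  · exact ⟨‖q - y‖, abs_of_nonneg (norm_nonneg _), touch_pos hlip hy0 hfoot hnear hq⟩

/-- necessary second order condition -/
theorem deriv2_nonneg {g : ℝ → ℝ} (h : IsLocalMin g 0) (hc : ContinuousAt g 0) :
    0 ≤ deriv (deriv g) 0 := by
  by_contra hneg
  push Not at hneg
  have hd : deriv g 0 = 0 := h.deriv_eq_zero
  have hmax := isLocalMax_of_deriv_deriv_neg hneg hd hc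
  have h1 : g =ᶠ[𝓝 0] fun _ => g 0 := by
    filter_upwards [h, hmax] with x h1 h2 using le_antisymm h2 h1
  have h2 : deriv g =ᶠ[𝓝 0] fun _ => 0 := by
    filter_upwards [h1.deriv] with x hx
    rw [hx]; simp
  have h3 : deriv (deriv g) 0 = 0 := by
    rw [h2.deriv_eq]; simp
  linarith

/-- first and second order conditions at a nearest point -/
theorem SDon.nearest {U : Set E} {φ : E → ℝ} (h : SDon U φ) (hlip : ∀ x y, |φ x - φ y| ≤ ‖x - y‖)
    {q y : E} (hy : y ∈ U) (hy0 : φ y = 0) (hnear : ∀ z, φ z = 0 → ‖q - y‖ ≤ ‖q - z‖) :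
    ∃ s : ℝ, |s| = ‖q - y‖ ∧ q = y + s • gradient φ y ∧
      ∀ v, 0 ≤ ‖v‖ ^ 2 + s * ⟪fderiv ℝ (gradient φ) y v, v⟫ := by
  obtain ⟨s, hs, hev⟩ := touch hlip hy0 (h.foot hlip hy hy0) hnear
  -- restriction to lines
  have hUev : ∀ v : E, ∀ᶠ t : ℝ in 𝓝 0, y + t • v ∈ U := by
    intro v
    have hc : ContinuousAt (fun t : ℝ => y + t • v) 0 := by fun_prop
    exact hc (by simpa using h.isOpen.mem_nhds hy)
  have hfirst : ∀ v : E, ∀ᶠ t : ℝ in 𝓝 0,
      HasDerivAt (fun t : ℝ => 2 * s * φ (y + t • v) + ‖y + t • v - q‖ ^ 2 - s ^ 2)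
        (2 * s * ⟪gradient φ (y + t • v), v⟫ + 2 * ⟪y + t • v - q, v⟫) t := by
    intro v
    filter_upwards [hUev v] with t ht
    have hl : HasDerivAt (fun t : ℝ => y + t • v) v t := by
      simpa using ((hasDerivAt_id t).smul_const v).const_add y
    have h1 : HasDerivAt (fun t : ℝ => φ (y + t • v)) (⟪gradient φ (y + t • v), v⟫) t := by
      rw [inner_gradient]
      exact (h.differentiableAt ht).hasFDerivAt.comp_hasDerivAt t hl
    have h2 : HasDerivAt (fun t : ℝ => ‖y + t • v - q‖ ^ 2) (2 * ⟪y + t • v - q, v⟫) t :=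
      (hl.sub_const q).norm_sq
    exact ((h1.const_mul (2 * s)).add h2).sub_const _
  have hmin : ∀ v : E, IsLocalMin
      (fun t : ℝ => 2 * s * φ (y + t • v) + ‖y + t • v - q‖ ^ 2 - s ^ 2) 0 := by
    intro v
    have hc : ContinuousAt (fun t : ℝ => y + t • v) 0 := by fun_prop
    have hc' : Tendsto (fun t : ℝ => y + t • v) (𝓝 0) (𝓝 y) := by simpa using hc.tendsto
    filter_upwards [hc'.eventually hev] with t ht
    have e0 : 2 * s * φ (y + (0 : ℝ) • v) + ‖y + (0 : ℝ) • v - q‖ ^ 2 - s ^ 2 = 0 := by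
      rw [zero_smul, add_zero, hy0, norm_sub_rev, ← hs, sq_abs]; ring
    simp only [e0]
    exact ht
  have hfo : s • gradient φ y = q - y := by
    have hv : ∀ v, ⟪s • gradient φ y - (q - y), v⟫ = 0 := by
      intro v
      have h1 := (hfirst v).self_of_nhds
      have h2 := (hmin v).hasDerivAt_eq_zero h1
      rw [zero_smul, add_zero] at h2
      have e : ⟪s • gradient φ y - (q - y), v⟫ =
          (2 * s * ⟪gradient φ y, v⟫ + 2 * ⟪y - q, v⟫) / 2 := by
        simp only [inner_sub_left, real_inner_smul_left]; ring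
      rw [e, h2]; simp
    exact sub_eq_zero.1 (inner_self_eq_zero.1 (hv _))
  refine ⟨s, hs, by rw [hfo]; abel, fun v => ?_⟩
  have hc0 := (hfirst v).self_of_nhds.continuousAt
  have h0 := deriv2_nonneg (hmin v) hc0
  have e1 : deriv (fun t : ℝ => 2 * s * φ (y + t • v) + ‖y + t • v - q‖ ^ 2 - s ^ 2) =ᶠ[𝓝 0]
      fun t => 2 * s * ⟪gradient φ (y + t • v), v⟫ + 2 * ⟪y + t • v - q, v⟫ := by
    filter_upwards [hfirst v] with t ht using ht.deriv
  have hl : HasDerivAt (fun t : ℝ => y + t • v) v 0 := by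
    simpa using ((hasDerivAt_id (0 : ℝ)).smul_const v).const_add y
  have hg : HasDerivAt (fun t : ℝ => gradient φ (y + t • v)) (fderiv ℝ (gradient φ) y v) 0 := by
    have h1 : HasFDerivAt (gradient φ) (fderiv ℝ (gradient φ) y) (y + (0 : ℝ) • v) := by
      rw [zero_smul, add_zero]; exact (h.differentiableAt_gradient hy).hasFDerivAt
    exact h1.comp_hasDerivAt 0 hl
  have h2 : HasDerivAt (fun t : ℝ => 2 * s * ⟪gradient φ (y + t • v), v⟫ + 2 * ⟪y + t • v - q, v⟫)
      (2 * s * ⟪fderiv ℝ (gradient φ) y v, v⟫ + 2 * ⟪v, v⟫) 0 := by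
    have i1 : HasDerivAt (fun t : ℝ => ⟪gradient φ (y + t • v), v⟫)
        (⟪fderiv ℝ (gradient φ) y v, v⟫) 0 := by
      simpa using hg.inner ℝ (hasDerivAt_const (0 : ℝ) v)
    have i2 : HasDerivAt (fun t : ℝ => ⟪y + t • v - q, v⟫) ⟪v, v⟫ 0 := by
      simpa using (hl.sub_const q).inner ℝ (hasDerivAt_const (0 : ℝ) v)
    exact (i1.const_mul (2 * s)).add (i2.const_mul 2)
  rw [e1.deriv_eq, h2.deriv, real_inner_self_eq_norm_sq] at h0
  linarith

end Crest.Agent.R246.HK149
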