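import Crest.Agent.R246.HK1_149
import Crest.Agent.R246.SM2_436
import Mathlib.MeasureTheory.Function.Jacobian

/-!
# Heintze-Karcher step, part 2: the covering and the volume inequality

`hk_ineq`: `vol (unit ball) ≤ ∫⁻ p, ∫⁻ s, 1_{1 + s A_p ≥ 0} |det (1 + s A_p)| (1+s²)^{-n/2} / n ds dμ`.
-/

set_option autoImplicit false
noncomputable section
open MeasureTheory Set Filter Topology Module
open scoped RealInnerProductSpace ContDiff

namespace Crest.Agent.R246.HK149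

open Crest.Agent.R246.H990 Crest.Agent.R246.SM436

variable {E : Type*} [NormedAddCommGroup E] [InnerProductSpace ℝ E] [FiniteDimensional ℝ E]

/-- `1 + s A_p` is positive semidefinite -/
def PS (φ : E → ℝ) (p : E) (s : ℝ) : Prop := ∀ v, 0 ≤ ‖v‖ ^ 2 + s * ⟪hs φ p v, v⟫

/-- the covering by normals -/
theorem covering {φ : E → ℝ} {b : ℝ} (hT : Tube φ b)
    {c : ℝ} (hc0 : 0 ≤ c) (hc1 : c < 1) (hd : ∀ x, Metric.infDist x {y | φ y = 0} ≤ c * ‖x‖)
    {q : E} (hq : q ≠ 0) :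
    ∃ y s, y ∈ ZZ φ ∧ q = y + s • gradient φ y ∧ |s| ≤ c / Real.sqrt (1 - c ^ 2) * ‖y‖ ∧
      PS φ y s := by
  have hcl : IsClosed {y | φ y = 0} := isClosed_eq hT.lip.continuous continuous_const
  have hne : ({y | φ y = 0} : Set E).Nonempty := ⟨0, hT.phi_zero⟩
  obtain ⟨y, hy0, hy⟩ := hcl.exists_infDist_eq_dist hne q
  have hy0' : φ y = 0 := hy0
  have hqn : 0 < ‖q‖ := norm_pos_iff.2 hq
  have hdist : ‖q - y‖ ≤ c * ‖q‖ := by
    rw [← dist_eq_norm, ← hy]; exact hd q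
  have hyne : y ≠ 0 := by
    rintro rfl
    rw [sub_zero] at hdist
    nlinarith
  have hyZ : y ∈ ZZ φ := ⟨hyne, hy0'⟩
  obtain ⟨U, hU, hyU, h1, h2⟩ := hT.good (hT.mem_TT_of_ZZ hyZ)
  obtain ⟨s, hs1, hs2, hs3⟩ := SDon.nearest (U := U) ⟨hU, h1, h2⟩ (lip_abs hT.lip) (q := q) hyU hy0'
    (fun z hz => by
      rw [← dist_eq_norm, ← dist_eq_norm, ← hy]
      exact Metric.infDist_le_dist_of_mem hz)
  refine ⟨y, s, hyZ, hs2, ?_, hs3⟩
  have hyn : 0 < ‖y‖ := norm_pos_iff.2 hyne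
  have hgood := hT.good (hT.mem_TT_of_ZZ hyZ)
  have hnq : ‖q‖ ^ 2 = ‖y‖ ^ 2 + s ^ 2 := by
    rw [hs2, norm_add_sq_real, inner_smul_right, real_inner_comm,
      hT.euler (hT.mem_TT_of_ZZ hyZ), hy0', norm_smul, hgood.norm_gradient, Real.norm_eq_abs,
      mul_one, sq_abs]
    ring
  have hc2 : 0 < 1 - c ^ 2 := by nlinarith
  have hsq : 0 < Real.sqrt (1 - c ^ 2) := Real.sqrt_pos.2 hc2
  rw [← hs1] at hdist
  have h3 : s ^ 2 * (1 - c ^ 2) ≤ c ^ 2 * ‖y‖ ^ 2 := by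
    have : s ^ 2 ≤ c ^ 2 * ‖q‖ ^ 2 := by
      rw [← sq_abs s, ← mul_pow]
      exact pow_le_pow_left₀ (abs_nonneg _) hdist 2
    rw [hnq] at this
    linarith
  rw [div_mul_eq_mul_div, le_div_iff₀ hsq]
  apply abs_le_of_sq_le_sq' _ (by positivity) |>.2
  rw [mul_pow, Real.sq_sqrt hc2.le, sq_abs, mul_pow]
  exact h3

variable [MeasurableSpace E] [BorelSpace E]

/-- the thin set stretched to the unit ball -/
def TL (φ : E → ℝ) (b L : ℝ) : Set E :=
  {y | y ∈ TT φ b ∧ ‖kk φ L 0 y‖ < 1 ∧ PS φ (ft φ y) (L * φ y)}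

omit [MeasurableSpace E] [BorelSpace E] in
theorem TL_sub (φ : E → ℝ) (b L : ℝ) : TL φ b L ⊆ TT φ b := fun _ h => h.1

omit [MeasurableSpace E] [BorelSpace E] in
/-- the ball is covered -/
theorem ball_subset {φ : E → ℝ} {b : ℝ} (hT : Tube φ b)
    {c : ℝ} (hc0 : 0 ≤ c) (hc1 : c < 1) (hd : ∀ x, Metric.infDist x {y | φ y = 0} ≤ c * ‖x‖)
    {L : ℝ} (hL0 : 0 < L) (hL : c / Real.sqrt (1 - c ^ 2) < L * b) :
    Metric.ball (0 : E) 1 \ {0} ⊆ kk φ L 0 '' TL φ b L := by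
  rintro q ⟨hq1, hq0⟩
  rw [mem_ball_zero_iff] at hq1
  obtain ⟨y, s, hy, hqy, hs, hps⟩ := covering hT hc0 hc1 hd hq0
  have hyn : 0 < ‖y‖ := norm_pos_iff.2 hy.1
  have hsl : |s / L| < b * ‖y‖ := by
    rw [abs_div, abs_of_pos hL0, div_lt_iff₀ hL0]
    calc |s| ≤ c / Real.sqrt (1 - c ^ 2) * ‖y‖ := hs
      _ < L * b * ‖y‖ := mul_lt_mul_of_pos_right hL hyn
      _ = b * ‖y‖ * L := by ring
  obtain ⟨h1, h2, h3, h4, h5⟩ := hT.seg hy hsl
  have hk : kk φ L 0 (y + (s / L) • gradient φ y) = q := by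
    rw [kk, h2, h3, h4, hqy, zero_mul, add_zero, mul_div_cancel₀ _ hL0.ne']
  refine ⟨y + (s / L) • gradient φ y, ⟨h1, ?_, ?_⟩, hk⟩
  · rw [hk]; exact hq1
  · rw [h4, h3, mul_div_cancel₀ _ hL0.ne']
    exact hps

theorem measurableSet_TL {φ : E → ℝ} {b : ℝ} (hT : Tube φ b) (L : ℝ) :
    MeasurableSet (TL φ b L) := by
  have hcomp : IsOpen {y | y ∈ TT φ b ∧ ¬ PS φ (ft φ y) (L * φ y)} := by
    have e : {y | y ∈ TT φ b ∧ ¬ PS φ (ft φ y) (L * φ y)} =
        ⋃ v : E, (TT φ b ∩ (fun y => ‖v‖ ^ 2 + (L * φ y) * ⟪hs φ (ft φ y) v, v⟫) ⁻¹' Iio 0) := by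
      ext y
      simp only [PS, mem_iUnion, mem_inter_iff, mem_preimage, mem_Iio, not_forall, not_le]
      constructor
      · rintro ⟨h1, v, hv⟩; exact ⟨v, h1, hv⟩
      · rintro ⟨v, h1, hv⟩; exact ⟨h1, v, hv⟩
    rw [e]
    refine isOpen_iUnion fun v => ContinuousOn.isOpen_inter_preimage ?_ hT.isOpen_TT isOpen_Iio
    intro y hy
    have h1 : ContinuousAt (ft φ) y := (hT.hasFDerivAt_ft hy).continuousAt
    have h2 : ContinuousAt (hs φ) (ft φ y) := by
      have h2 : ContDiffAt ℝ ∞ (hs φ) (ft φ y) :=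
        (hT.good (hT.ft_mem_TT hy)).contDiffAt_gradient.fderiv_right (m := ∞) (by simp)
      exact h2.continuousAt
    have h3 : ContinuousAt (fun y => hs φ (ft φ y)) y := ContinuousAt.comp (f := ft φ) h2 h1
    have h4 : ContinuousAt φ y := hT.lip.continuous.continuousAt
    refine ContinuousAt.continuousWithinAt ?_
    have h5 : ContinuousAt (fun y => ⟪hs φ (ft φ y) v, v⟫) y :=
      (h3.clm_apply continuousAt_const).inner continuousAt_const
    exact continuousAt_const.add ((continuousAt_const.mul h4).mul h5)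
  have e : TL φ b L = (TT φ b ∩ {y | ‖kk φ L 0 y‖ < 1}) \
      {y | y ∈ TT φ b ∧ ¬ PS φ (ft φ y) (L * φ y)} := by
    ext y
    simp only [TL, mem_ofPred_eq, Set.mem_sdiff, mem_inter_iff, not_and, not_not]
    constructor
    · rintro ⟨h1, h2, h3⟩; exact ⟨⟨h1, h2⟩, fun _ => h3⟩
    · rintro ⟨⟨h1, h2⟩, h3⟩; exact ⟨h1, h2, h3 h1⟩
  rw [e]
  exact (hT.measurableSet_TT.inter (measurableSet_lt (hT.measurable_kk L 0).norm
    measurable_const)).diff hcomp.measurableSet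

/-- volume of the ball -/
theorem vol_le {φ : E → ℝ} {b : ℝ} [Nontrivial E] (hT : Tube φ b)
    {c : ℝ} (hc0 : 0 ≤ c) (hc1 : c < 1) (hd : ∀ x, Metric.infDist x {y | φ y = 0} ≤ c * ‖x‖)
    {L : ℝ} (hL0 : 0 < L) (hL : c / Real.sqrt (1 - c ^ 2) < L * b) :
    volume (Metric.ball (0 : E) 1) ≤
      ∫⁻ y in TL φ b L, ENNReal.ofReal |(dkk φ L 0 y).det| := by
  calc volume (Metric.ball (0 : E) 1) = volume (Metric.ball (0 : E) 1 \ {0}) := by
        rw [measure_sdiff_null (measure_singleton 0)]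
    _ ≤ volume (kk φ L 0 '' TL φ b L) := measure_mono (ball_subset hT hc0 hc1 hd hL0 hL)
    _ ≤ _ := addHaar_image_le_lintegral_abs_det_fderiv volume (measurableSet_TL hT L)
        (fun y hy => (hT.hasFDerivAt_kk L 0 (TL_sub _ _ _ hy)).hasFDerivWithinAt)

/-- `1_{1 + s A ≥ 0} |det (1 + s A)|` -/
def HH (φ : E → ℝ) (p : E) (s : ℝ) : ENNReal :=
  {s | PS φ p s}.indicator (fun s => ENNReal.ofReal |jt φ p s|) s

/-- `cos t` for `s = tan t` -/
def ww (s : ℝ) : ℝ := (Real.sqrt (1 + s ^ 2))⁻¹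

theorem ww_pos (s : ℝ) : 0 < ww s := inv_pos.2 (Real.sqrt_pos.2 (by positivity))

theorem continuous_ww : Continuous ww := by
  unfold ww
  refine Continuous.inv₀ (by fun_prop) fun s => ?_
  exact (Real.sqrt_pos.2 (by positivity)).ne'

omit [BorelSpace E] [MeasurableSpace E] in
theorem measurableSet_PS (φ : E → ℝ) (p : E) : MeasurableSet {s | PS φ p s} := by
  have e : {s | PS φ p s} = ⋂ v : E, {s : ℝ | 0 ≤ ‖v‖ ^ 2 + s * ⟪hs φ p v, v⟫} := by
    ext s; simp [PS]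
  rw [e]
  exact (isClosed_iInter fun v => isClosed_le continuous_const (by fun_prop)).measurableSet

theorem measurable_HH (φ : E → ℝ) (p : E) : Measurable (HH φ p) := by
  have h1 : Measurable fun s : ℝ => jt φ p s := (measurable_jt φ).comp measurable_prodMk_left
  exact ((continuous_abs.measurable.comp h1).ennreal_ofReal).indicator (measurableSet_PS φ p)

/-- the integrand in the tube -/
def GG (φ : E → ℝ) (b L : ℝ) (y : E) : ENNReal :=
  (TL φ b L).indicator (fun y => ENNReal.ofReal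
    (L * |(ContinuousLinearMap.id ℝ E + (L * φ y) • hs φ (ft φ y)).det| / |jj φ y|)) y

theorem measurable_GG {φ : E → ℝ} {b : ℝ} (hT : Tube φ b) (L : ℝ) : Measurable (GG φ b L) := by
  refine Measurable.indicator ?_ (measurableSet_TL hT L)
  have h1 : Measurable fun y => ContinuousLinearMap.id ℝ E + (L * φ y) • hs φ (ft φ y) :=
    measurable_const.add ((hT.measurable_phi.const_mul L).smul
      ((measurable_hs φ).comp hT.measurable_ft))
  have h2 : Measurable fun y =>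
      (ContinuousLinearMap.id ℝ E + (L * φ y) • hs φ (ft φ y)).det :=
    ContinuousLinearMap.continuous_det.measurable.comp h1
  exact (((continuous_abs.measurable.comp h2).const_mul L).div
    (continuous_abs.measurable.comp hT.measurable_jj)).ennreal_ofReal

theorem lint_eq_GG {φ : E → ℝ} {b : ℝ} (hT : Tube φ b) {L : ℝ} (hL0 : 0 < L) :
    ∫⁻ y in TL φ b L, ENNReal.ofReal |(dkk φ L 0 y).det| = ∫⁻ y in TT φ b, GG φ b L y := by
  have h1 : ∫⁻ y in TT φ b, GG φ b L y = ∫⁻ y in TL φ b L, ENNReal.ofReal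
    (L * |(ContinuousLinearMap.id ℝ E + (L * φ y) • hs φ (ft φ y)).det| / |jj φ y|) := by
    unfold GG
    rw [setLIntegral_indicator (measurableSet_TL hT L),
      inter_eq_left.2 (TL_sub φ b L)]
  rw [h1]
  refine setLIntegral_congr_fun (measurableSet_TL hT L) fun y hy => ?_
  have hy' := TL_sub _ _ _ hy
  have hd := hT.det_dkk L 0 hy'
  have hj := hT.jj_ne_zero hy'
  have hj' : 0 < |jj φ y| := abs_pos.2 hj
  congr 1
  rw [eq_div_iff hj'.ne', ← abs_mul, hd, abs_mul, abs_of_pos hL0, zero_mul, add_zero]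

/-- the integrand in product coordinates -/
theorem GG_prod {φ : E → ℝ} {b : ℝ} (hT : Tube φ b) {L : ℝ} (hL0 : 0 < L) {p : E}
    (hp : p ∈ Lk φ) {ρ τ : ℝ} (hρ : 0 < ρ) (hτ : |τ| < b) :
    ENNReal.ofReal |jt φ p τ| * GG φ b L (ρ • (p + τ • gradient φ p)) =
      ENNReal.ofReal L * (HH φ p (L * τ) * (Iio (ww (L * τ))).indicator 1 ρ) := by
  obtain ⟨h1, h2, h3, h4⟩ := hT.seg' hp.1 hp.2 hρ hτ
  set y := ρ • (p + τ • gradient φ p) with hy
  have hφ : φ y = τ * ρ := by rw [← hT.ta_mul_rr h1, h3, h4]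
  have hft : ft φ y = ρ • p := by
    have : pp φ y = ρ⁻¹ • ft φ y := by rw [pp, h3]
    rw [← h2, this, smul_smul, mul_inv_cancel₀ hρ.ne', one_smul]
  have hhs : hs φ p = ρ • hs φ (ft φ y) := by
    have := hT.hs_pp h1
    rwa [h2, h3] at this
  have hgr : gradient φ y = gradient φ p := by rw [← hT.gradient_pp h1, h2]
  have hjj : jj φ y = jt φ p τ := by rw [hT.jj_eq_jt h1, h2, h4]
  have hdet : (ContinuousLinearMap.id ℝ E + (L * φ y) • hs φ (ft φ y)).det = jt φ p (L * τ) := by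
    rw [jt, hhs, smul_smul, hφ]
    congr 3
    ring
  have hps : PS φ (ft φ y) (L * φ y) ↔ PS φ p (L * τ) := by
    unfold PS
    refine forall_congr' fun v => ?_
    have e : L * τ * ⟪hs φ p v, v⟫ = L * φ y * ⟪hs φ (ft φ y) v, v⟫ := by
      rw [hhs, hφ, smul_apply, real_inner_smul_left]; ring
    rw [e]
  have hgood : Good φ p := hT.good (hT.mem_TT_of_ZZ ⟨by rintro rfl; simpa using hp.1, hp.2⟩)
  have hnorm : ‖kk φ L 0 y‖ ^ 2 = ρ ^ 2 * (1 + (L * τ) ^ 2) := by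
    have e1 : kk φ L 0 y = ρ • (p + (L * τ) • gradient φ p) := by
      rw [kk, hft, hgr, hφ, zero_mul, add_zero, smul_add, smul_smul]
      congr 2
      ring
    rw [e1, norm_smul, mul_pow, norm_add_sq_real, inner_smul_right, real_inner_comm,
      hgood.euler hT.hom, hp.2, norm_smul, hgood.norm_gradient, hp.1, Real.norm_eq_abs,
      Real.norm_eq_abs, mul_one, sq_abs, sq_abs]
    ring
  have hlt : ‖kk φ L 0 y‖ < 1 ↔ ρ < ww (L * τ) := by
    have hs0 : 0 < Real.sqrt (1 + (L * τ) ^ 2) := Real.sqrt_pos.2 (by positivity)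
    have e1 : ‖kk φ L 0 y‖ = ρ * Real.sqrt (1 + (L * τ) ^ 2) := by
      rw [← Real.sqrt_sq (norm_nonneg (kk φ L 0 y)), hnorm,
        Real.sqrt_mul (by positivity), Real.sqrt_sq hρ.le]
    rw [e1, ww, lt_inv_comm₀ hρ hs0, ← one_div, lt_div_iff₀ hρ, mul_comm]
  have hmem : y ∈ TL φ b L ↔ ρ < ww (L * τ) ∧ PS φ p (L * τ) := by
    constructor
    · rintro ⟨-, g2, g3⟩; exact ⟨hlt.1 g2, hps.1 g3⟩
    · rintro ⟨g2, g3⟩; exact ⟨h1, hlt.2 g2, hps.2 g3⟩
  have hj0 : jt φ p τ ≠ 0 := by rw [← hjj]; exact hT.jj_ne_zero h1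
  have hj1 : 0 < |jt φ p τ| := abs_pos.2 hj0
  unfold GG HH
  by_cases g1 : PS φ p (L * τ)
  · by_cases g2 : ρ < ww (L * τ)
    · rw [indicator_of_mem (hmem.2 ⟨g2, g1⟩), indicator_of_mem (show L * τ ∈ {s | PS φ p s} from g1),
        indicator_of_mem (show ρ ∈ Iio (ww (L * τ)) from g2), hdet, hjj, Pi.one_apply, mul_one,
        ← ENNReal.ofReal_mul hj1.le, ← ENNReal.ofReal_mul hL0.le]
      congr 1
      field_simp
    · rw [indicator_of_notMem (fun h => g2 (hmem.1 h).1),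
        indicator_of_notMem (show ρ ∉ Iio (ww (L * τ)) from g2)]
      simp
  · rw [indicator_of_notMem (fun h => g1 (hmem.1 h).2),
      indicator_of_notMem (show L * τ ∉ {s | PS φ p s} from g1)]
    simp

/-- substitution `s = L τ` -/
theorem lint_subst {L : ℝ} (hL0 : 0 < L) {f : ℝ → ENNReal} (hf : Measurable f) :
    ∫⁻ τ, ENNReal.ofReal L * f (L * τ) = ∫⁻ s, f s := by
  conv_rhs => rw [← Real.smul_map_volume_mul_left hL0.ne']
  have hf' : Measurable fun τ => f (L * τ) := hf.comp (measurable_const_mul L)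
  rw [lintegral_smul_measure, lintegral_map hf (measurable_const_mul L), abs_of_pos hL0,
    lintegral_const_mul _ hf', smul_eq_mul]

/-- the inner integral -/
theorem inner_le {φ : E → ℝ} {b : ℝ} [Nontrivial E] (hT : Tube φ b) {L : ℝ} (hL0 : 0 < L) {p : E}
    (hp : p ∈ Lk φ) :
    ∫⁻ ρ : ℝ in Ioi (0 : ℝ), ENNReal.ofReal (ρ ^ (finrank ℝ E - 1)) *
      (∫⁻ τ : ℝ in Ioo (-b) b, ENNReal.ofReal |jt φ p τ| *
        GG φ b L (ρ • (p + τ • gradient φ p))) ≤
    ∫⁻ s, HH φ p s * ENNReal.ofReal (ww s ^ finrank ℝ E / finrank ℝ E) := by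
  have hn : 0 < finrank ℝ E := finrank_pos
  have hH := measurable_HH φ p
  have hJ : Measurable fun q : ℝ × ℝ => HH φ p q.2 * (Iio (ww q.2)).indicator 1 q.1 := by
    have e : (fun q : ℝ × ℝ => (Iio (ww q.2)).indicator (1 : ℝ → ENNReal) q.1) =
        {q : ℝ × ℝ | q.1 < ww q.2}.indicator 1 := by
      ext q
      by_cases h : q.1 < ww q.2
      · rw [indicator_of_mem (show q.1 ∈ Iio (ww q.2) from h),
          indicator_of_mem (show q ∈ {q : ℝ × ℝ | q.1 < ww q.2} from h)]; rfl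
      · rw [indicator_of_notMem (show q.1 ∉ Iio (ww q.2) from h),
          indicator_of_notMem (show q ∉ {q : ℝ × ℝ | q.1 < ww q.2} from h)]
    refine (hH.comp measurable_snd).mul ?_
    rw [e]
    exact measurable_one.indicator (measurableSet_lt measurable_fst
      (continuous_ww.measurable.comp measurable_snd))
  have step1 : ∀ ρ ∈ Ioi (0 : ℝ), ∫⁻ τ : ℝ in Ioo (-b) b, ENNReal.ofReal |jt φ p τ| *
        GG φ b L (ρ • (p + τ • gradient φ p)) ≤
      ∫⁻ s, HH φ p s * (Iio (ww s)).indicator 1 ρ := by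
    intro ρ hρ
    calc ∫⁻ τ : ℝ in Ioo (-b) b, ENNReal.ofReal |jt φ p τ| *
        GG φ b L (ρ • (p + τ • gradient φ p))
        = ∫⁻ τ : ℝ in Ioo (-b) b,
          ENNReal.ofReal L * (HH φ p (L * τ) * (Iio (ww (L * τ))).indicator 1 ρ) :=
          setLIntegral_congr_fun measurableSet_Ioo fun τ hτ =>
            GG_prod hT hL0 hp hρ (abs_lt.2 hτ)
      _ ≤ ∫⁻ τ : ℝ, ENNReal.ofReal L * (HH φ p (L * τ) * (Iio (ww (L * τ))).indicator 1 ρ) :=
          setLIntegral_le_lintegral _ _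
      _ = ∫⁻ s, HH φ p s * (Iio (ww s)).indicator 1 ρ :=
          lint_subst hL0 (f := fun s => HH φ p s * (Iio (ww s)).indicator 1 ρ)
            (hJ.comp measurable_prodMk_left)
  have hsf : SigmaFinite (SM436.kap (finrank ℝ E)) := (kapSpan (n := finrank ℝ E) hn).sigmaFinite
  calc ∫⁻ ρ : ℝ in Ioi (0 : ℝ), ENNReal.ofReal (ρ ^ (finrank ℝ E - 1)) *
      (∫⁻ τ : ℝ in Ioo (-b) b, ENNReal.ofReal |jt φ p τ| *
        GG φ b L (ρ • (p + τ • gradient φ p)))
      ≤ ∫⁻ ρ : ℝ in Ioi (0 : ℝ), ENNReal.ofReal (ρ ^ (finrank ℝ E - 1)) *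
        ∫⁻ s, HH φ p s * (Iio (ww s)).indicator 1 ρ :=
        setLIntegral_mono' measurableSet_Ioi fun ρ hρ => mul_le_mul_right (step1 ρ hρ) _
    _ = ∫⁻ ρ, (∫⁻ s, HH φ p s * (Iio (ww s)).indicator 1 ρ) ∂(SM436.kap (finrank ℝ E)) := by
        rw [SM436.kap, lintegral_withDensity_eq_lintegral_mul _ (by fun_prop) hJ.lintegral_prod_right']
        rfl
    _ = ∫⁻ s, (∫⁻ ρ, HH φ p s * (Iio (ww s)).indicator 1 ρ ∂(SM436.kap (finrank ℝ E))) :=
        lintegral_lintegral_swap hJ.aemeasurable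
    _ = ∫⁻ s, HH φ p s * ENNReal.ofReal (ww s ^ finrank ℝ E / finrank ℝ E) := by
        refine lintegral_congr fun s => ?_
        rw [lintegral_const_mul _ (measurable_one.indicator measurableSet_Iio),
          lintegral_indicator_one measurableSet_Iio, kap_Iio hn, max_eq_left (ww_pos s).le]

/-- **the volume inequality (Heintze-Karcher)** -/
theorem hk_ineq {φ : E → ℝ} {b : ℝ} [Nontrivial E] (hT : Tube φ b)
    {c : ℝ} (hc0 : 0 ≤ c) (hc1 : c < 1)
    (hd : ∀ x, Metric.infDist x {y | φ y = 0} ≤ c * ‖x‖) :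
    volume (Metric.ball (0 : E) 1) ≤
      ∫⁻ p, (∫⁻ s, HH φ p s * ENNReal.ofReal (ww s ^ finrank ℝ E / finrank ℝ E)) ∂(mu φ b) := by
  obtain ⟨L, hL0, hL⟩ : ∃ L : ℝ, 0 < L ∧ c / Real.sqrt (1 - c ^ 2) < L * b := by
    have hb := hT.hb
    have h0 : 0 ≤ c / Real.sqrt (1 - c ^ 2) := by positivity
    refine ⟨(c / Real.sqrt (1 - c ^ 2) + 1) / b, by positivity, ?_⟩
    rw [div_mul_cancel₀ _ hb.ne']
    linarith
  refine (vol_le hT hc0 hc1 hd hL0 hL).trans ?_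
  rw [lint_eq_GG hT hL0, hT.lintegral_tube (measurable_GG hT L)]
  refine lintegral_mono_ae ?_
  filter_upwards [hT.ae_mem_Lk] with p hp
  exact inner_le hT hL0 hp

end Crest.Agent.R246.HK149
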