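import Crest.Agent.R246.ThetaK_688
import Mathlib.Analysis.SpecialFunctions.Integrals.Basic
import Mathlib.Analysis.SpecialFunctions.Trigonometric.Arctan

/-!
# Scalar identity of the Heintze-Karcher step (R246, module K; helper688)

`∫_0^{π/2} cos^k sin^l = |S^(k+l+1)| / (|S^k| |S^l|)` and
`∫_{-arctan lam}^{π/2 - arctan lam} (cos t - lam sin t)^k (cos t + sin t / lam)^(m-k) dt
  = |S^(m+1)| / cliffordVolume m k` for `lam > 0`, `k lam^2 = m - k`.
-/

set_option autoImplicit false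

open Real Set MeasureTheory intervalIntegral
open Crest.GeometryTopology.SphereImmersion

namespace Crest.Agent.R246.ThetaK688

/-- `∫_0^{π/2} cos^k sin^l` -/
noncomputable def JJ (k l : ℕ) : ℝ := ∫ t in (0 : ℝ)..(π / 2), cos t ^ k * sin t ^ l

theorem JJ_symm (k l : ℕ) : JJ k l = JJ l k := by
  unfold JJ
  have h := intervalIntegral.integral_comp_sub_left (a := 0) (b := π / 2)
    (fun t : ℝ => cos t ^ k * sin t ^ l) (π / 2)
  simp only [sub_self, sub_zero] at h
  rw [← h]
  refine intervalIntegral.integral_congr fun t _ => ?_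
  simp only [Real.cos_pi_div_two_sub, Real.sin_pi_div_two_sub]
  ring

theorem JJ_rec (k l : ℕ) : ((k : ℝ) + l + 2) * JJ k (l + 2) = (l + 1) * JJ k l := by
  have hd : ∀ t : ℝ, HasDerivAt (fun t : ℝ => cos t ^ (k + 1) * sin t ^ (l + 1))
      ((l + 1) * (cos t ^ k * sin t ^ l) - ((k : ℝ) + l + 2) * (cos t ^ k * sin t ^ (l + 2))) t := by
    intro t
    have h1 := ((hasDerivAt_cos t).pow (k + 1)).mul ((hasDerivAt_sin t).pow (l + 1))
    refine h1.congr_deriv ?_
    simp only [Nat.add_sub_cancel, Nat.cast_add, Nat.cast_one, Pi.pow_apply]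
    have hs : cos t ^ 2 = 1 - sin t ^ 2 := by rw [← sin_sq_add_cos_sq t]; ring
    have : cos t ^ (k + 1) * (((l : ℝ) + 1) * sin t ^ l * cos t) =
      ((l : ℝ) + 1) * (cos t ^ k * sin t ^ l) * cos t ^ 2 := by ring
    rw [this, hs]
    ring
  have hc : Continuous fun t : ℝ =>
      (l + 1) * (cos t ^ k * sin t ^ l) - ((k : ℝ) + l + 2) * (cos t ^ k * sin t ^ (l + 2)) := by
    fun_prop
  have h := intervalIntegral.integral_eq_sub_of_hasDerivAt (a := 0) (b := π / 2)
    (fun t _ => hd t) (hc.intervalIntegrable _ _)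
  simp only [cos_pi_div_two, sin_zero, ne_eq, Nat.add_eq_zero_iff, one_ne_zero, and_false,
    not_false_eq_true, zero_pow, zero_mul, mul_zero, sub_zero] at h
  rw [intervalIntegral.integral_sub, intervalIntegral.integral_const_mul,
    intervalIntegral.integral_const_mul] at h
  · unfold JJ
    linarith
  · exact Continuous.intervalIntegrable (by fun_prop) _ _
  · exact Continuous.intervalIntegrable (by fun_prop) _ _

/-- the value -/
noncomputable def FF (k l : ℕ) : ℝ := unitSphereArea (k + l + 1) / (unitSphereArea k * unitSphereArea l)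

theorem FF_symm (k l : ℕ) : FF k l = FF l k := by
  unfold FF
  rw [show k + l + 1 = l + k + 1 by ring, mul_comm (unitSphereArea k)]

theorem FF_eq (k l : ℕ) :
    FF k l = Gamma (((k : ℝ) + 1) / 2) * Gamma (((l : ℝ) + 1) / 2) /
      (2 * Gamma (((k : ℝ) + l) / 2 + 1)) := by
  have h1 := Real.Gamma_pos_of_pos (show (0 : ℝ) < ((k : ℝ) + 1) / 2 by positivity)
  have h2 := Real.Gamma_pos_of_pos (show (0 : ℝ) < ((l : ℝ) + 1) / 2 by positivity)
  have h3 := Real.Gamma_pos_of_pos (show (0 : ℝ) < ((k : ℝ) + l) / 2 + 1 by positivity)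
  unfold FF unitSphereArea
  push_cast
  rw [show ((k : ℝ) + l + 1 + 1) / 2 = ((k : ℝ) + l) / 2 + 1 by ring]
  have hp : π ^ (((k : ℝ) + l) / 2 + 1) = π ^ (((k : ℝ) + 1) / 2) * π ^ (((l : ℝ) + 1) / 2) := by
    rw [← Real.rpow_add pi_pos]
    congr 1
    ring
  rw [hp]
  have h4 : (0 : ℝ) < π ^ (((k : ℝ) + 1) / 2) := by positivity
  have h5 : (0 : ℝ) < π ^ (((l : ℝ) + 1) / 2) := by positivity
  field_simp

theorem FF_rec (k l : ℕ) : ((k : ℝ) + l + 2) * FF k (l + 2) = (l + 1) * FF k l := by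
  have h3 := Real.Gamma_pos_of_pos (show (0 : ℝ) < ((k : ℝ) + l) / 2 + 1 by positivity)
  rw [FF_eq, FF_eq]
  push_cast
  rw [show ((l : ℝ) + 2 + 1) / 2 = (l + 1) / 2 + 1 by ring,
    show ((k : ℝ) + (l + 2)) / 2 + 1 = ((k + l) / 2 + 1) + 1 by ring,
    Real.Gamma_add_one (s := ((l : ℝ) + 1) / 2) (by positivity),
    Real.Gamma_add_one (s := ((k : ℝ) + l) / 2 + 1) (by positivity)]
  field_simp

theorem FF_00 : FF 0 0 = π / 2 := by
  rw [FF_eq]
  norm_num [Real.Gamma_one_half_eq, Real.mul_self_sqrt pi_pos.le]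

theorem FF_10 : FF 1 0 = 1 := by
  rw [FF_eq]
  have hG32 : Gamma (3 / 2) = √π / 2 := by
    rw [show (3 : ℝ) / 2 = 1 / 2 + 1 by norm_num, Real.Gamma_add_one (by norm_num),
      Real.Gamma_one_half_eq]
    ring
  have : (0 : ℝ) < √π := Real.sqrt_pos.2 pi_pos
  norm_num [Real.Gamma_one_half_eq, hG32]
  field_simp

theorem FF_11 : FF 1 1 = 1 / 2 := by
  rw [FF_eq]
  norm_num

theorem JJ_00 : JJ 0 0 = π / 2 := by
  simp [JJ]

theorem JJ_10 : JJ 1 0 = 1 := by
  simp [JJ]

theorem JJ_11 : JJ 1 1 = 1 / 2 := by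
  have h := intervalIntegral.integral_eq_sub_of_hasDerivAt (a := 0) (b := π / 2)
    (f := fun t => sin t ^ 2 / 2) (f' := fun t => cos t ^ 1 * sin t ^ 1)
    (fun t _ => by
      have := ((hasDerivAt_sin t).pow 2).div_const 2
      refine this.congr_deriv ?_
      simp
      ring)
    (Continuous.intervalIntegrable (by fun_prop) _ _)
  unfold JJ
  rw [h]
  simp

theorem JJ_eq_FF (k l : ℕ) : JJ k l = FF k l := by
  have step : ∀ k : ℕ, JJ k 0 = FF k 0 → JJ k 1 = FF k 1 → ∀ l, JJ k l = FF k l := by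
    intro k h0 h1 l
    induction l using Nat.twoStepInduction with
    | zero => exact h0
    | one => exact h1
    | more l ih _ =>
      have e1 := JJ_rec k l
      have e2 := FF_rec k l
      rw [ih] at e1
      have hpos : ((k : ℝ) + l + 2) ≠ 0 := by positivity
      exact mul_left_cancel₀ hpos (e1.trans e2.symm)
  have s0 : ∀ l, JJ 0 l = FF 0 l := step 0 (by rw [JJ_00, FF_00])
    (by rw [JJ_symm, FF_symm, JJ_10, FF_10])
  have s1 : ∀ l, JJ 1 l = FF 1 l := step 1 (by rw [JJ_10, FF_10]) (by rw [JJ_11, FF_11])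
  refine step k ?_ ?_ l
  · rw [JJ_symm, FF_symm, s0]
  · rw [JJ_symm, FF_symm, s1]

/-- `∫_0^{π/2} cos^k sin^l = |S^(k+l+1)| / (|S^k| |S^l|)` -/
theorem integral_cos_pow_mul_sin_pow (k l : ℕ) :
    ∫ t in (0 : ℝ)..(π / 2), cos t ^ k * sin t ^ l =
      unitSphereArea (k + l + 1) / (unitSphereArea k * unitSphereArea l) :=
  JJ_eq_FF k l

/-- the scalar Heintze-Karcher identity -/
theorem hk_scalar {m k : ℕ} (hk : 1 ≤ k) (hkm : k < m) {lam : ℝ} (hlam : 0 < lam)
    (hl : (k : ℝ) * lam ^ 2 = (m : ℝ) - k) :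
    ∫ t in (-arctan lam)..(π / 2 - arctan lam),
      (cos t - lam * sin t) ^ k * (cos t + sin t / lam) ^ (m - k) =
        unitSphereArea (m + 1) / cliffordVolume m k := by
  have hk' : (0 : ℝ) < k := by exact_mod_cast hk
  have hm' : (0 : ℝ) < m := by exact_mod_cast (by omega : 0 < m)
  have hl' : (0 : ℝ) < ((m - k : ℕ) : ℝ) := by exact_mod_cast (by omega : 0 < m - k)
  have hml : ((m : ℝ) - k) = ((m - k : ℕ) : ℝ) := by
    rw [Nat.cast_sub hkm.le]
  set θ := arctan lam with hθ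
  have hcos : cos θ = 1 / √(1 + lam ^ 2) := cos_arctan lam
  have hsin : sin θ = lam / √(1 + lam ^ 2) := sin_arctan lam
  have hsq : (0 : ℝ) < √(1 + lam ^ 2) := Real.sqrt_pos.2 (by positivity)
  have hc0 : 0 < cos θ := by rw [hcos]; positivity
  have hs0 : 0 < sin θ := by rw [hsin]; positivity
  have hlc : lam = sin θ / cos θ := by rw [hcos, hsin]; field_simp
  -- squares
  have hm1 : 1 + lam ^ 2 = (m : ℝ) / k := by
    field_simp
    linarith
  have hc2 : cos θ ^ 2 = (k : ℝ) / m := by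
    rw [hcos, div_pow, Real.sq_sqrt (by positivity), hm1]
    field_simp
  have hs2 : sin θ ^ 2 = ((m - k : ℕ) : ℝ) / m := by
    have := sin_sq_add_cos_sq θ
    rw [hc2] at this
    rw [← hml]
    field_simp
    field_simp at this
    linarith
  have hck : cos θ ^ k = ((k : ℝ) / m) ^ ((k : ℝ) / 2) := by
    rw [← hc2, ← Real.rpow_natCast (cos θ) 2, ← Real.rpow_mul hc0.le, ← Real.rpow_natCast]
    congr 1
    push_cast
    ring
  have hsl : sin θ ^ (m - k) = (((m : ℝ) - k) / m) ^ (((m : ℝ) - k) / 2) := by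
    rw [hml, ← hs2, ← Real.rpow_natCast (sin θ) 2, ← Real.rpow_mul hs0.le, ← Real.rpow_natCast]
    congr 1
    push_cast
    ring
  have hint : ∀ t : ℝ, (cos t - lam * sin t) ^ k * (cos t + sin t / lam) ^ (m - k) =
      (cos θ ^ k * sin θ ^ (m - k))⁻¹ * (cos (t + θ) ^ k * sin (t + θ) ^ (m - k)) := by
    intro t
    have e1 : cos t - lam * sin t = cos (t + θ) / cos θ := by
      rw [cos_add, hlc]; field_simp
    have e2 : cos t + sin t / lam = sin (t + θ) / sin θ := by
      rw [sin_add, hlc]; field_simp; ring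
    rw [e1, e2, div_pow, div_pow]
    field_simp
  simp only [hint]
  rw [intervalIntegral.integral_const_mul,
    intervalIntegral.integral_comp_add_right (fun t => cos t ^ k * sin t ^ (m - k)) θ]
  rw [show -θ + θ = 0 by ring, show π / 2 - θ + θ = π / 2 by ring,
    integral_cos_pow_mul_sin_pow, show k + (m - k) + 1 = m + 1 by omega, hck, hsl]
  have h1 := unitSphereArea_pos k
  have h2 := unitSphereArea_pos (m - k)
  have h3 := unitSphereArea_pos (m + 1)
  have h4 : 0 < ((k : ℝ) / m) ^ ((k : ℝ) / 2) := by positivity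
  have h5 : 0 < (((m : ℝ) - k) / m) ^ (((m : ℝ) - k) / 2) := by
    rw [hml]; positivity
  unfold cliffordVolume
  field_simp

end Crest.Agent.R246.ThetaK688
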