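import Crest.Agent.R246.HK2_149
import Crest.Agent.R246.HKscalar_688
import Crest.Agent.R246.HerschSM_900
import Mathlib.Analysis.InnerProductSpace.Spectrum
import Mathlib.Analysis.InnerProductSpace.Trace
import Mathlib.MeasureTheory.Measure.Lebesgue.VolumeOfBalls

/-!
# Heintze-Karcher step, part 3: two principal curvatures

`TwoCurv φ m p`: `det (1 + s A_p) = (1 - λ s)^k (1 + s/λ)^(m-k)`, `k λ² = m - k`.
`hk_two`: if all points of the link are `TwoCurv` then `WW m ≤ μ(univ)`.
-/

set_option autoImplicit false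
noncomputable section
open MeasureTheory Set Filter Topology Module
open scoped RealInnerProductSpace ContDiff
open Crest.GeometryTopology.SphereImmersion

namespace Crest.Agent.R246.HK149

open Crest.Agent.R246.H990 Crest.Agent.R246.SM436 Crest.Agent.R246.ThetaK688

/-- the scalar integral in the variable `s = tan t` -/
theorem scal_int {m k : ℕ} (hk : 1 ≤ k) (hkm : k < m) {lam : ℝ} (hlam : 0 < lam)
    (hl : (k : ℝ) * lam ^ 2 = (m : ℝ) - k) :
    ∫ s in (-lam)..(1 / lam), (1 - lam * s) ^ k * (1 + s / lam) ^ (m - k) * ww s ^ (m + 2) =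
      unitSphereArea (m + 1) / cliffordVolume m k := by
  rw [← hk_scalar hk hkm hlam hl]
  have h := intervalIntegral.integral_comp_mul_deriv (a := -lam) (b := 1 / lam)
    (f := Real.arctan) (f' := fun x => 1 / (1 + x ^ 2))
    (g := fun t => (Real.cos t - lam * Real.sin t) ^ k * (Real.cos t + Real.sin t / lam) ^ (m - k))
    (fun x _ => Real.hasDerivAt_arctan x)
    (Continuous.continuousOn (Continuous.div continuous_const (by fun_prop)
      (fun x => by positivity)))
    (by fun_prop)
  rw [Real.arctan_neg, show Real.arctan (1 / lam) = Real.pi / 2 - Real.arctan lam by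
    rw [one_div]; exact Real.arctan_inv_of_pos hlam] at h
  rw [← h]
  refine intervalIntegral.integral_congr fun s _ => ?_
  have hs0 : 0 < Real.sqrt (1 + s ^ 2) := Real.sqrt_pos.2 (by positivity)
  have hc : Real.cos (Real.arctan s) = ww s := by
    rw [Real.cos_arctan, ww, one_div]
  have hsn : Real.sin (Real.arctan s) = s * ww s := by
    rw [Real.sin_arctan, ww]; rfl
  have hw : 1 / (1 + s ^ 2) = ww s ^ 2 := by
    rw [ww, inv_pow, Real.sq_sqrt (by positivity), one_div]
  simp only [Function.comp, hc, hsn, hw]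
  have e1 : ww s - lam * (s * ww s) = (1 - lam * s) * ww s := by ring
  have e2 : ww s + s * ww s / lam = (1 + s / lam) * ww s := by ring
  rw [e1, e2, mul_pow, mul_pow]
  have e3 : ww s ^ (m + 2) = ww s ^ k * ww s ^ (m - k) * ww s ^ 2 := by
    rw [← pow_add, ← pow_add]; congr 1; omega
  rw [e3]
  ring

variable {E : Type*} [NormedAddCommGroup E] [InnerProductSpace ℝ E] [FiniteDimensional ℝ E]

/-- two principal curvatures `-λ` (`k` times) and `1/λ` (`m-k` times), in determinant form -/
def TwoCurv (φ : E → ℝ) (m : ℕ) (p : E) : Prop :=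
  ∃ (k : ℕ) (lam : ℝ), 1 ≤ k ∧ k < m ∧ 0 < lam ∧ (k : ℝ) * lam ^ 2 = (m : ℝ) - k ∧
    (∀ s, (ContinuousLinearMap.id ℝ E + s • hs φ p).det
      = (1 - lam * s) ^ k * (1 + s / lam) ^ (m - k)) ∧
    (∃ v, v ≠ 0 ∧ hs φ p v = (-lam) • v) ∧ (∃ w, w ≠ 0 ∧ hs φ p w = (1 / lam) • w)

theorem PS_bound {φ : E → ℝ} {p : E} {s a : ℝ} (h : PS φ p s) {v : E} (hv : v ≠ 0)
    (hva : hs φ p v = a • v) : 0 ≤ 1 + s * a := by
  have h1 := h v
  rw [hva, real_inner_smul_left, real_inner_self_eq_norm_sq] at h1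
  have h2 : 0 < ‖v‖ ^ 2 := pow_pos (norm_pos_iff.2 hv) 2
  by_contra hneg
  push Not at hneg
  nlinarith

variable [MeasurableSpace E] [BorelSpace E]

omit [MeasurableSpace E] [BorelSpace E] in
/-- the pointwise bound -/
theorem lint_le {φ : E → ℝ} {m : ℕ} {p : E} (h : TwoCurv φ m p) :
    ∫⁻ s, HH φ p s * ENNReal.ofReal (ww s ^ (m + 2) / ((m + 2 : ℕ) : ℝ)) ≤
      ENNReal.ofReal (unitSphereArea (m + 1) / WW m / ((m + 2 : ℕ) : ℝ)) := by
  obtain ⟨k, lam, hk, hkm, hlam, hl, hdet, ⟨v, hv, hvl⟩, ⟨w, hw, hwl⟩⟩ := h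
  have hm2 : 2 ≤ m := by omega
  set F : ℝ → ℝ := fun s => (1 - lam * s) ^ k * (1 + s / lam) ^ (m - k) * ww s ^ (m + 2) with hF
  have hFc : Continuous F := by
    have := continuous_ww
    fun_prop
  have hnn : (0 : ℝ) < ((m + 2 : ℕ) : ℝ) := by positivity
  have hle : -lam ≤ 1 / lam := by
    have : 0 < 1 / lam := by positivity
    linarith
  have hFnn : ∀ s ∈ Ioc (-lam) (1 / lam), 0 ≤ F s := by
    intro s hs
    have h1 : 0 ≤ 1 - lam * s := by
      have := mul_le_mul_of_nonneg_left hs.2 hlam.le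
      rw [mul_one_div_cancel hlam.ne'] at this
      linarith
    have h2 : 0 ≤ 1 + s / lam := by
      have : -1 ≤ s / lam := by rw [le_div_iff₀ hlam]; linarith [hs.1]
      linarith
    have := (ww_pos s).le
    simp only [hF]
    positivity
  calc ∫⁻ s, HH φ p s * ENNReal.ofReal (ww s ^ (m + 2) / ((m + 2 : ℕ) : ℝ))
      ≤ ∫⁻ s, (Icc (-lam) (1 / lam)).indicator
          (fun s => ENNReal.ofReal (F s / ((m + 2 : ℕ) : ℝ))) s := by
        refine lintegral_mono fun s => ?_
        by_cases hs : PS φ p s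
        · have b1 := PS_bound hs hv hvl
          have b2 := PS_bound hs hw hwl
          have hs1 : s ∈ Icc (-lam) (1 / lam) := by
            constructor
            · have : -1 ≤ s * (1 / lam) := by linarith
              rw [mul_one_div, le_div_iff₀ hlam] at this
              linarith
            · rw [le_div_iff₀ hlam]; linarith
          simp only [HH]
          rw [indicator_of_mem hs1, indicator_of_mem (show s ∈ {s | PS φ p s} from hs),
            jt, hdet, abs_of_nonneg, ← ENNReal.ofReal_mul]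
          · refine ENNReal.ofReal_le_ofReal (le_of_eq ?_)
            simp only [hF]; ring
          · have h1 : 0 ≤ 1 - lam * s := by linarith
            have h2 : 0 ≤ 1 + s / lam := by rw [div_eq_mul_one_div]; exact b2
            positivity
          · have h1 : 0 ≤ 1 - lam * s := by linarith
            have h2 : 0 ≤ 1 + s / lam := by rw [div_eq_mul_one_div]; exact b2
            positivity
        · simp only [HH]
          rw [indicator_of_notMem (show s ∉ {s | PS φ p s} from hs), zero_mul]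
          exact bot_le
    _ = ENNReal.ofReal (∫ s in (-lam)..(1 / lam), F s / ((m + 2 : ℕ) : ℝ)) := by
        rw [lintegral_indicator measurableSet_Icc,
          Measure.restrict_congr_set (Ioc_ae_eq_Icc (a := -lam) (b := 1 / lam)).symm,
          intervalIntegral.integral_of_le hle, ofReal_integral_eq_lintegral_ofReal]
        · exact ((hFc.div_const _).intervalIntegrable _ _).1
        · filter_upwards [ae_restrict_mem measurableSet_Ioc] with s hs
          exact div_nonneg (hFnn s hs) hnn.le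
    _ = ENNReal.ofReal (unitSphereArea (m + 1) / cliffordVolume m k / ((m + 2 : ℕ) : ℝ)) := by
        rw [intervalIntegral.integral_div, scal_int hk hkm hlam hl]
    _ ≤ _ := by
        refine ENNReal.ofReal_le_ofReal ?_
        have h1 := WW_le_cliffordVolume hk hkm
        have h2 := unitSphereArea_pos (m + 1)
        have h3 : 0 < WW m := by
          obtain ⟨j, hj, hjm, he⟩ := exists_WW_eq hm2
          rw [← he, cliffordVolume_eq hj hjm]
          exact mul_pos (th_pos hj (by omega)) (unitSphereArea_pos m)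
        gcongr

/-- volume of the unit ball -/
theorem vol_ball {m : ℕ} (hdim : finrank ℝ E = m + 2) [Nontrivial E] :
    volume (Metric.ball (0 : E) 1) =
      ENNReal.ofReal (unitSphereArea (m + 1) / ((m + 2 : ℕ) : ℝ)) := by
  rw [InnerProductSpace.volume_ball, hdim, ENNReal.ofReal_one, one_pow, one_mul]
  congr 1
  have hG : Real.Gamma (((m + 2 : ℕ) : ℝ) / 2 + 1) =
      (((m + 2 : ℕ) : ℝ) / 2) * Real.Gamma (((m + 2 : ℕ) : ℝ) / 2) :=
    Real.Gamma_add_one (by positivity)
  have hGp : 0 < Real.Gamma (((m + 2 : ℕ) : ℝ) / 2) := Real.Gamma_pos_of_pos (by positivity)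
  rw [hG, unitSphereArea]
  have e1 : (((m + 1 : ℕ) : ℝ) + 1) / 2 = ((m + 2 : ℕ) : ℝ) / 2 := by push_cast; ring
  rw [e1]
  have e2 : Real.sqrt Real.pi ^ (m + 2) = Real.pi ^ (((m + 2 : ℕ) : ℝ) / 2) := by
    rw [Real.sqrt_eq_rpow, ← Real.rpow_natCast, ← Real.rpow_mul Real.pi_pos.le]
    congr 1
    ring
  rw [e2]
  have hn : (0 : ℝ) < ((m + 2 : ℕ) : ℝ) := by positivity
  field_simp

/-- **Heintze-Karcher with two principal curvatures.** -/
theorem hk_two {m : ℕ} (hm : 2 ≤ m) (hdim : finrank ℝ E = m + 2) {φ : E → ℝ} {b : ℝ}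
    (hT : Tube φ b) {c : ℝ} (hc0 : 0 ≤ c) (hc1 : c < 1)
    (hd : ∀ x, Metric.infDist x {y | φ y = 0} ≤ c * ‖x‖)
    (h2 : ∀ p ∈ Lk φ, TwoCurv φ m p) :
    ENNReal.ofReal (WW m) ≤ mu φ b univ := by
  have : Nontrivial E := Module.nontrivial_of_finrank_pos (R := ℝ) (by omega)
  have h := hk_ineq hT hc0 hc1 hd
  rw [vol_ball hdim, hdim] at h
  have h3 : 0 < WW m := by
    obtain ⟨j, hj, hjm, he⟩ := exists_WW_eq hm
    rw [← he, cliffordVolume_eq hj hjm]
    exact mul_pos (th_pos hj (by omega)) (unitSphereArea_pos m)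
  have h4 := unitSphereArea_pos (m + 1)
  have hn : (0 : ℝ) < ((m + 2 : ℕ) : ℝ) := by positivity
  have h5 : ∫⁻ p, (∫⁻ s, HH φ p s * ENNReal.ofReal (ww s ^ (m + 2) / ((m + 2 : ℕ) : ℝ)))
      ∂(mu φ b) ≤ ENNReal.ofReal (unitSphereArea (m + 1) / WW m / ((m + 2 : ℕ) : ℝ)) *
        mu φ b univ := by
    rw [← lintegral_const]
    refine lintegral_mono_ae ?_
    filter_upwards [hT.ae_mem_Lk] with p hp
    exact lint_le (h2 p hp)
  have h6 := h.trans h5
  have h7 : ENNReal.ofReal (unitSphereArea (m + 1) / ((m + 2 : ℕ) : ℝ)) =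
      ENNReal.ofReal (unitSphereArea (m + 1) / WW m / ((m + 2 : ℕ) : ℝ)) *
        ENNReal.ofReal (WW m) := by
    rw [← ENNReal.ofReal_mul (by positivity)]
    congr 1
    field_simp
  rw [h7] at h6
  refine (ENNReal.mul_le_mul_iff_right ?_ ENNReal.ofReal_ne_top).1 h6
  rw [ne_eq, ENNReal.ofReal_eq_zero, not_le]
  positivity

end Crest.Agent.R246.HK149
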