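import Crest.Agent.R246.HK3_149

/-!
# Heintze-Karcher step, part 4: from the pairwise relation of principal curvatures to `TwoCurv`
-/

set_option autoImplicit false
noncomputable section
open MeasureTheory Set Filter Topology Module
open scoped RealInnerProductSpace ContDiff
open Crest.GeometryTopology.SphereImmersion

namespace Crest.Agent.R246.HK149

open Crest.Agent.R246.H990 Crest.Agent.R246.SM436 Crest.Agent.R246.ThetaK688
open Crest.Agent.R246.HerschSM900 (A2 A2_eq_sum)

variable {E : Type*} [NormedAddCommGroup E] [InnerProductSpace ℝ E] [FiniteDimensional ℝ E]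

omit [FiniteDimensional ℝ E] in
/-- determinant in an eigenbasis -/
theorem det_eigen {n : ℕ} (B : OrthonormalBasis (Fin n) ℝ E) (T : E →L[ℝ] E) (κ : Fin n → ℝ)
    (h : ∀ i, T (B i) = κ i • B i) (s : ℝ) :
    (ContinuousLinearMap.id ℝ E + s • T).det = ∏ i, (1 + s * κ i) := by
  rw [ContinuousLinearMap.det, ← LinearMap.det_toMatrix B.toBasis]
  have e : LinearMap.toMatrix B.toBasis B.toBasis
      ((ContinuousLinearMap.id ℝ E + s • T : E →L[ℝ] E) : E →ₗ[ℝ] E) =
      Matrix.diagonal (fun i => 1 + s * κ i) := by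
    ext i j
    rw [LinearMap.toMatrix_apply, Matrix.diagonal_apply]
    have h1 : (((ContinuousLinearMap.id ℝ E + s • T : E →L[ℝ] E) : E →ₗ[ℝ] E)) (B.toBasis j) =
        (1 + s * κ j) • B.toBasis j := by
      simp only [OrthonormalBasis.coe_toBasis, ContinuousLinearMap.coe_coe, add_apply,
        ContinuousLinearMap.id_apply, smul_apply, h j]
      module
    rw [h1, map_smul, Finsupp.smul_apply, Basis.repr_self, Finsupp.single_apply, smul_eq_mul]
    by_cases hij : i = j
    · subst hij; simp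
    · rw [if_neg (fun h => hij h.symm), if_neg hij, mul_zero]
  rw [e, Matrix.det_diagonal]

theorem twoCurv_of_pair {φ : E → ℝ} {m : ℕ} (hm : 1 ≤ m) (hdim : finrank ℝ E = m + 2) {p : E}
    (hg : Good φ p) (htr : LinearMap.trace ℝ E (hs φ p : E →ₗ[ℝ] E) = 0) (hA2 : A2 φ p = m)
    (hpair : ∀ (v w : E) (a b : ℝ), v ≠ 0 → w ≠ 0 → a ≠ 0 → b ≠ 0 → hs φ p v = a • v →
      hs φ p w = b • w → a = b ∨ a * b = -1) : TwoCurv φ m p := by
  classical
  have hsym : ((hs φ p : E →L[ℝ] E) : E →ₗ[ℝ] E).IsSymmetric := fun v w => hg.hs_symm v w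
  set B := hsym.eigenvectorBasis hdim with hB
  set κ : Fin (m + 2) → ℝ := hsym.eigenvalues hdim with hκ
  have hBκ : ∀ i, hs φ p (B i) = κ i • B i := fun i => by
    exact hsym.apply_eigenvectorBasis hdim i
  have hB0 : ∀ i, B i ≠ 0 := fun i h => by
    have := B.orthonormal.1 i
    rw [h, norm_zero] at this
    exact zero_ne_one this
  have hsum : ∑ i, κ i = 0 := by
    rw [← htr, LinearMap.trace_eq_sum_inner _ B]
    refine Finset.sum_congr rfl fun i _ => ?_
    rw [ContinuousLinearMap.coe_coe, hBκ, inner_smul_right, real_inner_self_eq_norm_sq,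
      B.orthonormal.1 i]
    simp
  have hsq : ∑ i, κ i ^ 2 = m := by
    rw [← hA2, A2_eq_sum hg B]
    refine Finset.sum_congr rfl fun i _ => ?_
    rw [hBκ, norm_smul, B.orthonormal.1 i, mul_one, Real.norm_eq_abs, sq_abs]
  have hmp : (0 : ℝ) < m := by exact_mod_cast hm
  have hne : ∃ i ∈ Finset.univ, κ i ≠ 0 := by
    by_contra hcon
    push Not at hcon
    have : ∑ i, κ i ^ 2 = 0 := Finset.sum_eq_zero fun i _ => by rw [hcon i (Finset.mem_univ i)]; ring
    linarith
  obtain ⟨j₀, -, hj₀⟩ := Finset.exists_pos_of_sum_zero_of_exists_nonzero κ hsum hne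
  obtain ⟨i₀, -, hi₀⟩ := Finset.exists_pos_of_sum_zero_of_exists_nonzero (fun i => - κ i)
    (by rw [Finset.sum_neg_distrib, hsum, neg_zero]) (by simpa using hne)
  set lam : ℝ := - κ i₀ with hlam
  have hlam0 : 0 < lam := hi₀
  have hall : ∀ i, κ i ≠ 0 → κ i = -lam ∨ κ i = 1 / lam := by
    intro i hi
    rcases hpair (B i) (B i₀) (κ i) (κ i₀) (hB0 i) (hB0 i₀) hi (by linarith) (hBκ i) (hBκ i₀)
      with h | h
    · left; rw [h, hlam, neg_neg]
    · right
      rw [eq_div_iff hlam0.ne', hlam]; linarith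
  have hne1 : -lam ≠ 1 / lam := by
    have : 0 < 1 / lam := by positivity
    linarith
  set S1 := Finset.univ.filter (fun i => κ i = -lam) with hS1
  set S2 := Finset.univ.filter (fun i => κ i = 1 / lam) with hS2
  set k := S1.card with hk
  set l := S2.card with hl
  have hi₀1 : i₀ ∈ S1 := by simp [hS1, hlam]
  have hj₀2 : j₀ ∈ S2 := by
    rcases hall j₀ hj₀.ne' with h | h
    · rw [h] at hj₀; linarith
    · simp [hS2, h]
  have hk1 : 1 ≤ k := Finset.card_pos.2 ⟨i₀, hi₀1⟩
  have hl1 : 1 ≤ l := Finset.card_pos.2 ⟨j₀, hj₀2⟩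
  have hlr : (1 : ℝ) ≤ l := by exact_mod_cast hl1
  -- general sums
  have hprod : ∀ f : ℝ → ℝ, f 0 = 1 → ∏ i, f (κ i) = f (-lam) ^ k * f (1 / lam) ^ l := by
    intro f hf
    have h1 := Finset.prod_filter_mul_prod_filter_not Finset.univ (fun i => κ i = -lam)
      (fun i => f (κ i))
    have h2 := Finset.prod_filter_mul_prod_filter_not
      (Finset.univ.filter (fun i => ¬ κ i = -lam)) (fun i => κ i = 1 / lam) (fun i => f (κ i))
    have h3 : ((Finset.univ.filter (fun i => ¬ κ i = -lam)).filter (fun i => κ i = 1 / lam)) =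
        S2 := by
      ext i
      simp only [hS2, Finset.mem_filter, Finset.mem_univ, true_and]
      constructor
      · rintro ⟨-, h⟩; exact h
      · intro h; exact ⟨by rw [h]; exact hne1.symm, h⟩
    have h4 : ∏ i ∈ (Finset.univ.filter (fun i => ¬ κ i = -lam)).filter
        (fun i => ¬ κ i = 1 / lam), f (κ i) = 1 := by
      refine Finset.prod_eq_one fun i hi => ?_
      simp only [Finset.mem_filter, Finset.mem_univ, true_and] at hi
      by_cases h0 : κ i = 0
      · rw [h0, hf]
      · rcases hall i h0 with h | h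
        · exact absurd h hi.1
        · exact absurd h hi.2
    have h5 : ∏ i ∈ S1, f (κ i) = f (-lam) ^ k := by
      rw [hk, ← Finset.prod_const]
      refine Finset.prod_congr rfl fun i hi => ?_
      rw [(Finset.mem_filter.1 hi).2]
    have h6 : ∏ i ∈ S2, f (κ i) = f (1 / lam) ^ l := by
      rw [hl, ← Finset.prod_const]
      refine Finset.prod_congr rfl fun i hi => ?_
      rw [(Finset.mem_filter.1 hi).2]
    rw [h3, h4, mul_one, h6] at h2
    rw [← h2, h5] at h1
    exact h1.symm
  have hsumg : ∀ f : ℝ → ℝ, f 0 = 0 → ∑ i, f (κ i) = k * f (-lam) + l * f (1 / lam) := by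
    intro f hf
    have h1 := Finset.sum_filter_add_sum_filter_not Finset.univ (fun i => κ i = -lam)
      (fun i => f (κ i))
    have h2 := Finset.sum_filter_add_sum_filter_not
      (Finset.univ.filter (fun i => ¬ κ i = -lam)) (fun i => κ i = 1 / lam) (fun i => f (κ i))
    have h3 : ((Finset.univ.filter (fun i => ¬ κ i = -lam)).filter (fun i => κ i = 1 / lam)) =
        S2 := by
      ext i
      simp only [hS2, Finset.mem_filter, Finset.mem_univ, true_and]
      constructor
      · rintro ⟨-, h⟩; exact h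
      · intro h; exact ⟨by rw [h]; exact hne1.symm, h⟩
    have h4 : ∑ i ∈ (Finset.univ.filter (fun i => ¬ κ i = -lam)).filter
        (fun i => ¬ κ i = 1 / lam), f (κ i) = 0 := by
      refine Finset.sum_eq_zero fun i hi => ?_
      simp only [Finset.mem_filter, Finset.mem_univ, true_and] at hi
      by_cases h0 : κ i = 0
      · rw [h0, hf]
      · rcases hall i h0 with h | h
        · exact absurd h hi.1
        · exact absurd h hi.2
    have h5 : ∑ i ∈ S1, f (κ i) = k * f (-lam) := by
      rw [hk, ← nsmul_eq_mul, ← Finset.sum_const]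
      refine Finset.sum_congr rfl fun i hi => ?_
      rw [(Finset.mem_filter.1 hi).2]
    have h6 : ∑ i ∈ S2, f (κ i) = l * f (1 / lam) := by
      rw [hl, ← nsmul_eq_mul, ← Finset.sum_const]
      refine Finset.sum_congr rfl fun i hi => ?_
      rw [(Finset.mem_filter.1 hi).2]
    rw [h3, h4, add_zero, h6] at h2
    rw [← h2, h5] at h1
    exact h1.symm
  have e1 := hsumg (fun x => x) rfl
  have e2 := hsumg (fun x => x ^ 2) (by simp)
  rw [hsum] at e1
  rw [hsq] at e2
  have e3 : (l : ℝ) = k * lam ^ 2 := by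
    field_simp at e1
    linarith
  have e4 : (m : ℝ) = k + l := by
    rw [e2]
    have : (l : ℝ) * (1 / lam) ^ 2 = k := by
      rw [e3]; field_simp
    rw [this, neg_sq, ← e3]; ring
  have e4' : m = k + l := by exact_mod_cast e4
  refine ⟨k, lam, hk1, by omega, hlam0, by rw [← e3, e4]; ring, fun s => ?_,
    ⟨B i₀, hB0 i₀, by rw [hBκ, hlam, neg_neg]⟩, ⟨B j₀, hB0 j₀, ?_⟩⟩
  · rw [det_eigen B (hs φ p) κ hBκ s, hprod (fun x => 1 + s * x) (by simp)]
    have : m - k = l := by omega
    rw [this]
    congr 2 <;> ring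
  · rw [hBκ, (Finset.mem_filter.1 hj₀2).2]

end Crest.Agent.R246.HK149
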