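import Crest.Agent.R246.HK4_149
import Crest.Agent.R246.Skel2_656

/-!
# Heintze-Karcher step, part 5: the input `StHK` of the skeleton
-/

set_option autoImplicit false
noncomputable section
open MeasureTheory Set Filter Topology Module
open scoped RealInnerProductSpace ContDiff
open Crest.GeometryTopology.SphereImmersion

namespace Crest.Agent.R246.HK149

open Crest.Agent.R246.H990 Crest.Agent.R246.SM436 Crest.Agent.R246.ThetaK688
open Crest.Agent.R246.HerschSM900 (A2 A2_eq_sum)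

theorem perp_of_eigen {E : Type*} [NormedAddCommGroup E] [InnerProductSpace ℝ E]
    [FiniteDimensional ℝ E] {φ : E → ℝ} (hom : ∀ t : ℝ, 0 ≤ t → ∀ x, φ (t • x) = t * φ x)
    {p : E} (hg : Good φ p) {v : E} {a : ℝ} (ha : a ≠ 0) (hv : hs φ p v = a • v) :
    ⟪v, p⟫ = 0 ∧ ⟪v, gradient φ p⟫ = 0 := by
  constructor
  · have h := hg.hs_symm v p
    rw [hg.hs_self hom, inner_zero_right, hv, real_inner_smul_left] at h
    exact (mul_eq_zero.1 h).resolve_left ha
  · have h := hg.hs_symm v (gradient φ p)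
    rw [hg.hs_gradient, inner_zero_right, hv, real_inner_smul_left] at h
    exact (mul_eq_zero.1 h).resolve_left ha

theorem stHK {m : ℕ} (hm : 2 ≤ m) : Skel2.StHK m := by
  intro φ b S hD hT hA h2 htc
  obtain ⟨c, hc0, hc1, hc⟩ := S.nc.bd
  have hfin := hA.fin
  have hd : ∀ x, Metric.infDist x {y | φ y = 0} ≤ c * ‖x‖ := fun x => by
    rw [← Skel2.signedDist hD x]; exact hc x
  have hE : finrank ℝ (Skel656.E m) = m + 2 := by simp [Skel656.E]
  have h := hk_two hm hE hT hc0 hc1 hd (fun p hp => ?_)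
  · rwa [ENNReal.ofReal_le_iff_le_toReal (measure_ne_top _ _)] at h
  · have hp0 : p ≠ 0 := by rintro rfl; simpa using hp.1
    have hg := S.good p hp0 hp.2
    refine twoCurv_of_pair (by omega) hE hg (S.min p hp0 hp.2) (h2 p hp.1 hp.2) ?_
    intro v w a b' hv hw ha hb hva hwb
    obtain ⟨v1, v2⟩ := perp_of_eigen S.nc.hom hg ha hva
    obtain ⟨w1, w2⟩ := perp_of_eigen S.nc.hom hg hb hwb
    have hvn : 0 < ‖v‖ := norm_pos_iff.2 hv
    have hwn : 0 < ‖w‖ := norm_pos_iff.2 hw
    refine htc p hp.1 hp.2 (‖v‖⁻¹ • v) (‖w‖⁻¹ • w) a b' ?_ ?_ ?_ ?_ ?_ ?_ ?_ ?_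
    · rw [norm_smul, norm_inv, norm_norm, inv_mul_cancel₀ hvn.ne']
    · rw [norm_smul, norm_inv, norm_norm, inv_mul_cancel₀ hwn.ne']
    · rw [real_inner_smul_left, v1, mul_zero]
    · rw [real_inner_smul_left, w1, mul_zero]
    · rw [real_inner_smul_left, v2, mul_zero]
    · rw [real_inner_smul_left, w2, mul_zero]
    · rw [map_smul, hva, smul_comm]
    · rw [map_smul, hwb, smul_comm]

end Crest.Agent.R246.HK149
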