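import Crest.Agent.R246.Mass_872
import Crest.Agent.R246.UL_873
import Mathlib.MeasureTheory.Integral.RieszMarkovKakutani.Real

/-!
# Row 246, blocks E/G (helper782): limits of homogeneous measures `w dx`, `w` of degree `-1`

`exists_lim` (Riesz ultralimit), `homμ` (homogeneity of the limit), `mass` (Gaussian mass of the
limit), `conc` (concentration on a zero set).
-/

set_option autoImplicit false
set_option linter.unusedSectionVars false
noncomputable section
open MeasureTheory Set Filter Topology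
open scoped RealInnerProductSpace ENNReal

namespace Crest.Agent.R246.HL782

open Crest.Agent.R246.G873 (ul tendsto_ul)
open Crest.Agent.R246.Vb872 (mass_le_of_tests cl cl_one cl_zero cl_nonneg cl_le_one)

variable {n : ℕ}

local notation "EE" => EuclideanSpace ℝ (Fin n)

/-- nonnegative measurable densities, homogeneous of degree `-1`, Gaussian integrable. -/
structure HW (w : EuclideanSpace ℝ (Fin n) → ℝ) : Prop where
  nonneg : ∀ x, 0 ≤ w x
  meas : Measurable w
  hom : ∀ (t : ℝ) x, 0 < t → w (t • x) = t⁻¹ * w x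
  int : Integrable fun x => Real.exp (-‖x‖ ^ 2) * w x

lemma exists_bound {f : EuclideanSpace ℝ (Fin n) → ℝ} (hf : Continuous f)
    (hc : HasCompactSupport f) :
    ∃ C : ℝ, 0 ≤ C ∧ ∀ x, |f x| ≤ C * Real.exp (-‖x‖ ^ 2) := by
  have hg : Continuous fun x => f x * Real.exp (‖x‖ ^ 2) := by fun_prop
  have hgc : HasCompactSupport fun x => f x * Real.exp (‖x‖ ^ 2) := hc.mul_right
  obtain ⟨C, hC⟩ := hg.bounded_above_of_compact_support hgc
  refine ⟨C, (norm_nonneg _).trans (hC 0), fun x => ?_⟩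
  have h1 := hC x
  rw [Real.norm_eq_abs, abs_mul, abs_of_pos (Real.exp_pos _)] at h1
  rw [Real.exp_neg, ← div_eq_mul_inv, le_div_iff₀ (Real.exp_pos _)]
  exact h1

variable {w : EuclideanSpace ℝ (Fin n) → ℝ}

lemma HW.integrable_of_le (h : HW w) {f : EuclideanSpace ℝ (Fin n) → ℝ} (hf : Measurable f)
    {C : ℝ} (hC : ∀ x, |f x| ≤ C * Real.exp (-‖x‖ ^ 2)) : Integrable fun x => f x * w x := by
  refine (h.int.const_mul C).mono' (hf.mul h.meas).aestronglyMeasurable
    (Eventually.of_forall fun x => ?_)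
  rw [Real.norm_eq_abs, abs_mul, abs_of_nonneg (h.nonneg x)]
  calc |f x| * w x ≤ C * Real.exp (-‖x‖ ^ 2) * w x :=
        mul_le_mul_of_nonneg_right (hC x) (h.nonneg x)
    _ = C * (Real.exp (-‖x‖ ^ 2) * w x) := by ring

lemma HW.integrable_mul (h : HW w) {f : EuclideanSpace ℝ (Fin n) → ℝ} (hf : Continuous f)
    (hc : HasCompactSupport f) : Integrable fun x => f x * w x := by
  obtain ⟨C, -, hC⟩ := exists_bound hf hc
  exact h.integrable_of_le hf.measurable hC

lemma HW.abs_integral_le (h : HW w) {f : EuclideanSpace ℝ (Fin n) → ℝ}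
    {C : ℝ} (hC : ∀ x, |f x| ≤ C * Real.exp (-‖x‖ ^ 2)) :
    |∫ x, f x * w x| ≤ C * ∫ x, Real.exp (-‖x‖ ^ 2) * w x := by
  rw [← Real.norm_eq_abs, ← integral_const_mul]
  refine norm_integral_le_of_norm_le (h.int.const_mul C) (Eventually.of_forall fun x => ?_)
  rw [Real.norm_eq_abs, abs_mul, abs_of_nonneg (h.nonneg x)]
  calc |f x| * w x ≤ C * Real.exp (-‖x‖ ^ 2) * w x :=
        mul_le_mul_of_nonneg_right (hC x) (h.nonneg x)
    _ = C * (Real.exp (-‖x‖ ^ 2) * w x) := by ring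

lemma HW.integral_nonneg' (h : HW w) : 0 ≤ ∫ x, Real.exp (-‖x‖ ^ 2) * w x :=
  integral_nonneg fun x => mul_nonneg (Real.exp_pos _).le (h.nonneg x)

/-- (i) existence of the limit measure along an ultrafilter. -/
theorem exists_lim {ι : Type*} (𝒰 : Ultrafilter ι) {w : ι → EuclideanSpace ℝ (Fin n) → ℝ}
    (hw : ∀ i, HW (w i)) {C : ℝ} (hC : ∀ i, ∫ x, Real.exp (-‖x‖ ^ 2) * w i x ≤ C) :
    ∃ μ : Measure (EuclideanSpace ℝ (Fin n)), IsFiniteMeasureOnCompacts μ ∧
      ∀ f : EuclideanSpace ℝ (Fin n) → ℝ, Continuous f → HasCompactSupport f →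
        Tendsto (fun i => ∫ x, f x * w i x) (𝒰 : Filter ι) (𝓝 (∫ x, f x ∂μ)) := by
  have hI : ∀ f : EuclideanSpace ℝ (Fin n) → ℝ, Continuous f → HasCompactSupport f →
      Tendsto (fun i => ∫ x, f x * w i x) (𝒰 : Filter ι) (𝓝 (ul 𝒰 (fun i => ∫ x, f x * w i x))) := by
    intro f hf hc
    obtain ⟨D, hD0, hD⟩ := exists_bound hf hc
    refine tendsto_ul 𝒰 ⟨D * C, Eventually.of_forall fun i => ?_⟩
    exact ((hw i).abs_integral_le hD).trans (mul_le_mul_of_nonneg_left (hC i) hD0)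
  let L0 : CompactlySupportedContinuousMap (EuclideanSpace ℝ (Fin n)) ℝ →ₗ[ℝ] ℝ :=
    { toFun := fun f => ul 𝒰 (fun i => ∫ x, f x * w i x)
      map_add' := by
        intro f g
        have h1 := (hI f f.continuous f.hasCompactSupport).add (hI g g.continuous g.hasCompactSupport)
        have h2 := hI (f + g) (f + g).continuous (f + g).hasCompactSupport
        refine tendsto_nhds_unique h2 (h1.congr fun i => ?_)
        have h3 := integral_add ((hw i).integrable_mul f.continuous f.hasCompactSupport)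
          ((hw i).integrable_mul g.continuous g.hasCompactSupport)
        refine Eq.trans h3.symm (integral_congr_ae (Eventually.of_forall fun x => ?_))
        show f x * w i x + g x * w i x = (f x + g x) * w i x
        ring
      map_smul' := by
        intro c f
        have h1 := (hI f f.continuous f.hasCompactSupport).const_mul c
        have h2 := hI (c • f) (c • f).continuous (c • f).hasCompactSupport
        refine tendsto_nhds_unique h2 (h1.congr fun i => ?_)
        rw [← integral_const_mul]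
        refine integral_congr_ae (Eventually.of_forall fun x => ?_)
        show c * (f x * w i x) = (c * f x) * w i x
        ring }
  let Λ : CompactlySupportedContinuousMap (EuclideanSpace ℝ (Fin n)) ℝ →ₚ[ℝ] ℝ :=
    PositiveLinearMap.mk₀ L0 (by
      intro f hf
      have h2 := hI f f.continuous f.hasCompactSupport
      exact ge_of_tendsto' h2 fun i => integral_nonneg fun x => mul_nonneg (hf x) ((hw i).nonneg x))
  refine ⟨RealRMK.rieszMeasure Λ, inferInstance, fun f hf hc => ?_⟩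
  have := RealRMK.integral_rieszMeasure Λ ⟨⟨f, hf⟩, hc⟩
  have h3 : ∫ x, f x ∂(RealRMK.rieszMeasure Λ) = ul 𝒰 (fun i => ∫ x, f x * w i x) := this
  rw [h3]
  exact hI f hf hc

section filt
variable {ι : Type*} {U : Filter ι} {w : ι → EuclideanSpace ℝ (Fin n) → ℝ}
  {μ : Measure (EuclideanSpace ℝ (Fin n))}

lemma HW.integral_comp {w : EuclideanSpace ℝ (Fin n) → ℝ} (h : HW w)
    (f : EuclideanSpace ℝ (Fin n) → ℝ) {t : ℝ} (ht : 0 < t) :
    ∫ x, f (t⁻¹ • x) * w x = t ^ n * t⁻¹ * ∫ x, f x * w x := by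
  have h1 := Measure.integral_comp_smul (volume : Measure (EuclideanSpace ℝ (Fin n)))
    (fun y => f y * w (t • y)) t⁻¹
  have h2 : ∀ x : EuclideanSpace ℝ (Fin n), t • t⁻¹ • x = x := fun x => by
    rw [smul_smul, mul_inv_cancel₀ ht.ne', one_smul]
  simp only [h2] at h1
  rw [h1]
  have h3 : ∀ y : EuclideanSpace ℝ (Fin n), f y * w (t • y) = t⁻¹ * (f y * w y) := fun y => by
    rw [h.hom t y ht]; ring
  simp only [h3]
  rw [integral_const_mul, smul_eq_mul, finrank_euclideanSpace_fin, inv_pow, inv_inv,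
    abs_of_pos (pow_pos ht n)]
  ring

/-- (ii) the limit measure is homogeneous. -/
theorem homμ [U.NeBot] (hn : 1 ≤ n) (hw : ∀ i, HW (w i))
    (loc : ∀ f : EuclideanSpace ℝ (Fin n) → ℝ, Continuous f → HasCompactSupport f →
      Tendsto (fun i => ∫ x, f x * w i x) U (𝓝 (∫ x, f x ∂μ))) :
    ∀ t : ℝ, 0 < t → ∀ f : EuclideanSpace ℝ (Fin n) → ℝ, Continuous f → HasCompactSupport f →
      ∫ x, f (t⁻¹ • x) ∂μ =
        t ^ (Module.finrank ℝ (EuclideanSpace ℝ (Fin n)) - 1) * ∫ x, f x ∂μ := by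
  intro t ht f hf hc
  have h1 : Continuous fun x : EuclideanSpace ℝ (Fin n) => f (t⁻¹ • x) :=
    hf.comp (continuous_const_smul _)
  have h2 : HasCompactSupport fun x : EuclideanSpace ℝ (Fin n) => f (t⁻¹ • x) :=
    hc.comp_homeomorph (Homeomorph.smulOfNeZero t⁻¹ (inv_ne_zero ht.ne'))
  have h3 := loc _ h1 h2
  have h4 := (loc f hf hc).const_mul (t ^ n * t⁻¹)
  have h5 := tendsto_nhds_unique h3 (h4.congr fun i => ((hw i).integral_comp f ht).symm)
  rw [h5, finrank_euclideanSpace_fin]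
  congr 1
  obtain ⟨m, rfl⟩ : ∃ m, n = m + 1 := ⟨n - 1, by omega⟩
  rw [Nat.add_sub_cancel, pow_succ]
  field_simp

/-- Gaussian tails of homogeneous densities. -/
lemma HW.tail {w : EuclideanSpace ℝ (Fin n) → ℝ} (h : HW w) :
    Integrable (fun x => Real.exp (-‖x‖ ^ 2 / 2) * w x) ∧
    ∫ x, Real.exp (-‖x‖ ^ 2 / 2) * w x =
      (Real.sqrt 2) ^ n * (Real.sqrt 2)⁻¹ * ∫ x, Real.exp (-‖x‖ ^ 2) * w x := by
  have hs : 0 < Real.sqrt 2 := Real.sqrt_pos.2 two_pos
  have hs2 : Real.sqrt 2 ^ 2 = 2 := Real.sq_sqrt two_pos.le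
  have e1 : ∀ x : EuclideanSpace ℝ (Fin n), Real.exp (-‖(Real.sqrt 2)⁻¹ • x‖ ^ 2) =
      Real.exp (-‖x‖ ^ 2 / 2) := by
    intro x
    rw [norm_smul, norm_inv, Real.norm_eq_abs, abs_of_pos hs, mul_pow, inv_pow, hs2]
    congr 1
    ring
  refine ⟨?_, ?_⟩
  · have h1 := h.int.comp_smul (R := (Real.sqrt 2)⁻¹) (inv_ne_zero hs.ne')
    have h2 : (fun x : EuclideanSpace ℝ (Fin n) => Real.exp (-‖(Real.sqrt 2)⁻¹ • x‖ ^ 2) *
        w ((Real.sqrt 2)⁻¹ • x)) =
        fun x => Real.sqrt 2 * (Real.exp (-‖x‖ ^ 2 / 2) * w x) := by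
      funext x
      rw [e1, h.hom _ x (inv_pos.2 hs), inv_inv]
      ring
    rw [h2] at h1
    have h3 := h1.const_mul (Real.sqrt 2)⁻¹
    refine h3.congr (Eventually.of_forall fun x => ?_)
    show (Real.sqrt 2)⁻¹ * (Real.sqrt 2 * (Real.exp (-‖x‖ ^ 2 / 2) * w x)) = _
    rw [← mul_assoc, inv_mul_cancel₀ hs.ne', one_mul]
  · have h1 := h.integral_comp (fun x => Real.exp (-‖x‖ ^ 2)) hs
    simp only [e1] at h1
    exact h1

/-- the cut-offs -/
def cut (j : ℕ) (x : EuclideanSpace ℝ (Fin n)) : ℝ :=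
  cl ((j : ℝ) + 1 - ‖x‖) * Real.exp (-‖x‖ ^ 2)

lemma continuous_cl : Continuous cl := by unfold cl; fun_prop

lemma continuous_cut (j : ℕ) : Continuous (cut (n := n) j) := by
  unfold cut
  have := continuous_cl
  fun_prop

lemma hasCompactSupport_cut (j : ℕ) : HasCompactSupport (cut (n := n) j) := by
  refine HasCompactSupport.intro
    (isCompact_closedBall (0 : EuclideanSpace ℝ (Fin n)) ((j : ℝ) + 1)) fun x hx => ?_
  rw [mem_closedBall_zero_iff, not_le] at hx
  unfold cut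
  rw [cl_zero (by linarith), zero_mul]

lemma cut_nonneg (j : ℕ) (x : EuclideanSpace ℝ (Fin n)) : 0 ≤ cut j x :=
  mul_nonneg (cl_nonneg _) (Real.exp_pos _).le

lemma cut_le (j : ℕ) (x : EuclideanSpace ℝ (Fin n)) : cut j x ≤ Real.exp (-‖x‖ ^ 2) := by
  have h1 := cl_le_one ((j : ℝ) + 1 - ‖x‖)
  have h2 := Real.exp_pos (-‖x‖ ^ 2)
  unfold cut
  nlinarith

lemma cut_ge (j : ℕ) (x : EuclideanSpace ℝ (Fin n)) :
    Real.exp (-‖x‖ ^ 2) - Real.exp (-(j : ℝ) ^ 2 / 2) * Real.exp (-‖x‖ ^ 2 / 2) ≤ cut j x := by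
  by_cases hx : ‖x‖ ≤ j
  · unfold cut
    rw [cl_one (by linarith), one_mul]
    have := mul_pos (Real.exp_pos (-(j : ℝ) ^ 2 / 2)) (Real.exp_pos (-‖x‖ ^ 2 / 2))
    linarith
  · push Not at hx
    refine le_trans ?_ (cut_nonneg j x)
    rw [sub_nonpos, ← Real.exp_add]
    apply Real.exp_le_exp.2
    have h0 : (0 : ℝ) ≤ j := Nat.cast_nonneg j
    nlinarith

/-- (iii) the Gaussian mass passes to the limit. -/
theorem mass [U.NeBot] [IsFiniteMeasureOnCompacts μ] (hw : ∀ i, HW (w i)) {A : ℝ}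
    (loc : ∀ f : EuclideanSpace ℝ (Fin n) → ℝ, Continuous f → HasCompactSupport f →
      Tendsto (fun i => ∫ x, f x * w i x) U (𝓝 (∫ x, f x ∂μ)))
    (hA : Tendsto (fun i => ∫ x, Real.exp (-‖x‖ ^ 2) * w i x) U (𝓝 A)) :
    ∫⁻ x, ENNReal.ofReal (Real.exp (-‖x‖ ^ 2)) ∂μ = ENNReal.ofReal A := by
  apply le_antisymm
  · refine mass_le_of_tests fun f hf hc hf0 hf1 => ?_
    refine le_of_tendsto_of_tendsto' (loc f hf hc) hA fun i => ?_
    refine integral_mono ((hw i).integrable_mul hf hc) (hw i).int fun x => ?_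
    exact mul_le_mul_of_nonneg_right (hf1 x) ((hw i).nonneg x)
  · set c : ℝ := (Real.sqrt 2) ^ n * (Real.sqrt 2)⁻¹ with hc
    have h1 : ∀ j : ℕ, (1 - Real.exp (-(j : ℝ) ^ 2 / 2) * c) * A ≤ ∫ x, cut j x ∂μ := by
      intro j
      refine le_of_tendsto_of_tendsto' (hA.const_mul (1 - Real.exp (-(j : ℝ) ^ 2 / 2) * c))
        (loc _ (continuous_cut j) (hasCompactSupport_cut j)) fun i => ?_
      obtain ⟨t1, t2⟩ := (hw i).tail
      have e : (1 - Real.exp (-(j : ℝ) ^ 2 / 2) * c) * ∫ x, Real.exp (-‖x‖ ^ 2) * w i x =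
          ∫ x, (Real.exp (-‖x‖ ^ 2) * w i x -
            Real.exp (-(j : ℝ) ^ 2 / 2) * (Real.exp (-‖x‖ ^ 2 / 2) * w i x)) := by
        rw [integral_sub (hw i).int (t1.const_mul _), integral_const_mul, t2]
        ring
      rw [e]
      refine integral_mono ((hw i).int.sub (t1.const_mul _))
        ((hw i).integrable_mul (continuous_cut j) (hasCompactSupport_cut j)) fun x => ?_
      have h3 := mul_le_mul_of_nonneg_right (cut_ge j x) ((hw i).nonneg x)
      have h4 : (Real.exp (-‖x‖ ^ 2) - Real.exp (-(j : ℝ) ^ 2 / 2) * Real.exp (-‖x‖ ^ 2 / 2)) *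
          w i x = Real.exp (-‖x‖ ^ 2) * w i x -
            Real.exp (-(j : ℝ) ^ 2 / 2) * (Real.exp (-‖x‖ ^ 2 / 2) * w i x) := by ring
      rw [h4] at h3
      exact h3
    have h2 : ∀ j : ℕ, ENNReal.ofReal ((1 - Real.exp (-(j : ℝ) ^ 2 / 2) * c) * A) ≤
        ∫⁻ x, ENNReal.ofReal (Real.exp (-‖x‖ ^ 2)) ∂μ := by
      intro j
      refine (ENNReal.ofReal_le_ofReal (h1 j)).trans ?_
      rw [ofReal_integral_eq_lintegral_ofReal
        ((continuous_cut j).integrable_of_hasCompactSupport (hasCompactSupport_cut j))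
        (Eventually.of_forall (cut_nonneg j))]
      exact lintegral_mono fun x => ENNReal.ofReal_le_ofReal (cut_le j x)
    have h3 : Tendsto (fun j : ℕ => Real.exp (-(j : ℝ) ^ 2 / 2)) atTop (𝓝 0) := by
      apply Real.tendsto_exp_atBot.comp
      have h4 : Tendsto (fun j : ℕ => (j : ℝ) ^ 2 / 2) atTop atTop :=
        ((tendsto_pow_atTop two_ne_zero).comp tendsto_natCast_atTop_atTop).atTop_div_const two_pos
      refine (tendsto_neg_atTop_atBot.comp h4).congr fun j => ?_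
      simp only [Function.comp_apply]
      ring
    have h4 : Tendsto (fun j : ℕ => (1 - Real.exp (-(j : ℝ) ^ 2 / 2) * c) * A) atTop (𝓝 A) := by
      have := ((tendsto_const_nhds (x := (1 : ℝ))).sub (h3.mul_const c)).mul_const A
      simpa using this
    exact le_of_tendsto' ((ENNReal.continuous_ofReal.tendsto A).comp h4) h2

/-- (iv) concentration on the zero set of `φ`. -/
theorem conc [U.NeBot] [IsFiniteMeasureOnCompacts μ] (hw : ∀ i, HW (w i))
    (loc : ∀ f : EuclideanSpace ℝ (Fin n) → ℝ, Continuous f → HasCompactSupport f →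
      Tendsto (fun i => ∫ x, f x * w i x) U (𝓝 (∫ x, f x ∂μ)))
    {φ : EuclideanSpace ℝ (Fin n) → ℝ} (hφ : Continuous φ) (h0 : φ 0 = 0)
    (h : ∀ δ : ℝ, 0 < δ → ∀ η : ℝ, 0 < η → ∀ᶠ i in U, ∀ x, x ≠ 0 → δ * ‖x‖ ≤ |φ x| →
      w i x ≤ η * ‖x‖⁻¹) : μ {x | φ x ≠ 0} = 0 := by
  have hopen : IsOpen {x | φ x ≠ 0} := isOpen_ne_fun hφ continuous_const
  rw [hopen.measure_eq_iSup_isCompact μ]
  simp only [ENNReal.iSup_eq_zero]
  intro K' hK'W hK'
  obtain ⟨K, hK, hK'K, hKW⟩ := exists_compact_between hK' hopen hK'W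
  obtain ⟨f, hf1, hf0, hfc, hf01⟩ := exists_continuous_one_zero_of_isCompact hK'
    (isOpen_interior (s := K)).isClosed_compl
    (Set.disjoint_compl_right_iff_subset.2 hK'K)
  have hK0 : (0 : EuclideanSpace ℝ (Fin n)) ∉ K := fun hh => hKW hh h0
  have hfK : ∀ x, x ∉ K → f x = 0 := fun x hx => hf0 (fun hh => hx (interior_subset hh))
  -- lower bounds on `K`
  obtain ⟨δ, hδ, hδK⟩ : ∃ δ : ℝ, 0 < δ ∧ ∀ x ∈ K, δ * ‖x‖ ≤ |φ x| := by
    rcases K.eq_empty_or_nonempty with hE | hne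
    · exact ⟨1, one_pos, by simp [hE]⟩
    · have hc : ContinuousOn (fun x : EuclideanSpace ℝ (Fin n) => ‖x‖⁻¹ * |φ x|) K := by
        intro x hx
        have hx0 : x ≠ 0 := fun h => hK0 (h ▸ hx)
        exact ((continuous_norm.continuousAt.inv₀ (norm_ne_zero_iff.2 hx0)).mul
          hφ.continuousAt.abs).continuousWithinAt
      obtain ⟨y, hy, hmin⟩ := hK.exists_isMinOn hne hc
      have hy0 : y ≠ 0 := fun h => hK0 (h ▸ hy)
      have hp : 0 < ‖y‖⁻¹ * |φ y| := mul_pos (inv_pos.2 (norm_pos_iff.2 hy0)) (abs_pos.2 (hKW hy))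
      refine ⟨‖y‖⁻¹ * |φ y|, hp, fun x hx => ?_⟩
      have hx0 : x ≠ 0 := fun h => hK0 (h ▸ hx)
      have hxp : 0 < ‖x‖ := norm_pos_iff.2 hx0
      have h1 : ‖y‖⁻¹ * |φ y| ≤ ‖x‖⁻¹ * |φ x| := hmin hx
      calc ‖y‖⁻¹ * |φ y| * ‖x‖ ≤ ‖x‖⁻¹ * |φ x| * ‖x‖ := mul_le_mul_of_nonneg_right h1 hxp.le
        _ = |φ x| := by field_simp
  have hgi : Integrable fun x : EuclideanSpace ℝ (Fin n) => f x * ‖x‖⁻¹ := by
    have hcont : Continuous fun x : EuclideanSpace ℝ (Fin n) => f x * ‖x‖⁻¹ := by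
      rw [continuous_iff_continuousAt]
      intro x
      by_cases hx : x = 0
      · have h1 : (fun x : EuclideanSpace ℝ (Fin n) => f x * ‖x‖⁻¹) =ᶠ[𝓝 x] fun _ => 0 := by
          have h2 : Kᶜ ∈ 𝓝 x := hK.isClosed.isOpen_compl.mem_nhds (by rw [hx]; exact hK0)
          filter_upwards [h2] with y hy
          rw [hfK y hy, zero_mul]
        exact continuousAt_const.congr h1.symm
      · exact f.continuous.continuousAt.mul
          (continuous_norm.continuousAt.inv₀ (norm_ne_zero_iff.2 hx))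
    exact hcont.integrable_of_hasCompactSupport hfc.mul_right
  have hI0 : ∫ x, f x ∂μ ≤ 0 := by
    refine le_of_forall_pos_le_add fun e he => ?_
    rw [zero_add]
    set B := ∫ x : EuclideanSpace ℝ (Fin n), f x * ‖x‖⁻¹ with hB
    have hB0 : 0 ≤ B := integral_nonneg fun x =>
      mul_nonneg (hf01 x).1 (inv_nonneg.2 (norm_nonneg x))
    have hη : 0 < e / (B + 1) := by positivity
    refine le_of_tendsto (loc f f.continuous hfc) ?_
    filter_upwards [h δ hδ _ hη] with i hi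
    calc ∫ x, f x * w i x ≤ ∫ x, e / (B + 1) * (f x * ‖x‖⁻¹) := by
          refine integral_mono ((hw i).integrable_mul f.continuous hfc) (hgi.const_mul _)
            fun x => ?_
          by_cases hx : x ∈ K
          · have hx0 : x ≠ 0 := fun h => hK0 (h ▸ hx)
            have h1 := mul_le_mul_of_nonneg_left (hi x hx0 (hδK x hx)) (hf01 x).1
            calc f x * w i x ≤ f x * (e / (B + 1) * ‖x‖⁻¹) := h1
              _ = e / (B + 1) * (f x * ‖x‖⁻¹) := by ring
          · show f x * w i x ≤ e / (B + 1) * (f x * ‖x‖⁻¹)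
            rw [hfK x hx]; simp
      _ = e / (B + 1) * B := integral_const_mul _ _
      _ ≤ e := by
          rw [div_mul_eq_mul_div, div_le_iff₀ (by positivity)]
          nlinarith
  have hI1 : ∫ x, f x ∂μ = 0 := le_antisymm hI0 (integral_nonneg fun x => (hf01 x).1)
  have h2 := ofReal_integral_eq_lintegral_ofReal
    (f.continuous.integrable_of_hasCompactSupport (μ := μ) hfc)
    (Eventually.of_forall fun x => (hf01 x).1)
  rw [hI1, ENNReal.ofReal_zero] at h2
  have h3 : μ K' ≤ ∫⁻ x, ENNReal.ofReal (f x) ∂μ := by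
    rw [← lintegral_indicator_one hK'.measurableSet]
    refine lintegral_mono fun x => ?_
    by_cases hx : x ∈ K'
    · rw [indicator_of_mem hx, Pi.one_apply, hf1 hx]; simp
    · rw [indicator_of_notMem hx]; exact zero_le
  rw [← h2] at h3
  exact le_antisymm h3 zero_le

end filt

end Crest.Agent.R246.HL782
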