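import Crest.Agent.R246.Fam2_348
import Crest.Agent.R246.Moll_657
import Mathlib.MeasureTheory.Integral.IntervalIntegral.FundThmCalculus

/-!
# I(I), far part: the profile kernel and its primitives (helper101)
-/

set_option autoImplicit false
noncomputable section
open MeasureTheory Set Filter Topology Metric
open scoped Real

namespace Crest.Agent.R246.IF101

open Crest.Agent.R246.Moll657 (hasDerivAt_tanh continuous_tanh)

/-- the profile kernel `(1/ε) sech⁴(s/ε)`. -/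
def K (ε s : ℝ) : ℝ := (1 / ε) * (1 - Real.tanh (s / ε) ^ 2) ^ 2

/-- primitive of `sech⁴`. -/
def Tp (s : ℝ) : ℝ := Real.tanh s - Real.tanh s ^ 3 / 3

lemma hasDerivAt_Tp (s : ℝ) : HasDerivAt Tp ((1 - Real.tanh s ^ 2) ^ 2) s := by
  have h1 := hasDerivAt_tanh s
  have h2 := h1.sub ((h1.pow 3).div_const 3)
  have e : (1 - Real.tanh s ^ 2) - (((3 : ℕ) : ℝ) * Real.tanh s ^ (3 - 1) * (1 - Real.tanh s ^ 2)) / 3
      = (1 - Real.tanh s ^ 2) ^ 2 := by
    push_cast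
    ring
  rw [← e]
  exact h2

lemma continuous_K (ε : ℝ) : Continuous (K ε) := by
  unfold K
  have := continuous_tanh
  fun_prop

lemma K_nonneg {ε : ℝ} (hε : 0 < ε) (s : ℝ) : 0 ≤ K ε s := by
  unfold K; positivity

lemma hasDerivAt_Tpe {ε : ℝ} (hε : 0 < ε) (θ t : ℝ) :
    HasDerivAt (fun t => Tp ((t - θ) / ε)) (K ε (t - θ)) t := by
  have h1 : HasDerivAt (fun t : ℝ => (t - θ) / ε) (1 / ε) t :=
    ((hasDerivAt_id t).sub_const θ).div_const ε
  have h2 := (hasDerivAt_Tp ((t - θ) / ε)).comp t h1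
  have e : (1 - Real.tanh ((t - θ) / ε) ^ 2) ^ 2 * (1 / ε) = K ε (t - θ) := by
    unfold K
    ring
  rw [← e]
  exact h2

lemma Tp_neg (s : ℝ) : Tp (-s) = - Tp s := by
  unfold Tp
  rw [Real.tanh_neg]; ring

lemma Tp_mono : Monotone Tp := by
  have hd : ∀ s, HasDerivAt Tp ((1 - Real.tanh s ^ 2) ^ 2) s := hasDerivAt_Tp
  refine monotone_of_deriv_nonneg (fun s => (hd s).differentiableAt) fun s => ?_
  rw [(hd s).deriv]; positivity

lemma two_thirds_sub (s : ℝ) :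
    2 / 3 - Tp s = (1 - Real.tanh s) ^ 2 * (2 + Real.tanh s) / 3 := by
  unfold Tp; ring

lemma Tp_le (s : ℝ) : Tp s ≤ 2 / 3 := by
  have h1 := two_thirds_sub s
  have h2 := Real.neg_one_lt_tanh s
  have : 0 ≤ (1 - Real.tanh s) ^ 2 * (2 + Real.tanh s) / 3 := by
    have : 0 ≤ 2 + Real.tanh s := by linarith
    positivity
  linarith

lemma neg_le_Tp (s : ℝ) : -(2 / 3) ≤ Tp s := by
  have := Tp_le (-s)
  rw [Tp_neg] at this
  linarith

/-- `1 - tanh s ≤ 1 / (1 + s)` for `s ≥ 0`. -/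
lemma one_sub_tanh_le {s : ℝ} (hs : 0 ≤ s) : 1 - Real.tanh s ≤ 1 / (1 + s) := by
  rw [Real.tanh_eq_sinh_div_cosh]
  have hc := Real.cosh_pos s
  have h1 : 1 - Real.sinh s / Real.cosh s = Real.exp (-s) / Real.cosh s := by
    rw [← Real.cosh_sub_sinh]; field_simp
  rw [h1, div_le_div_iff₀ hc (by linarith), one_mul]
  have h2 : Real.cosh s = (Real.exp s + Real.exp (-s)) / 2 := Real.cosh_eq s
  rw [h2]
  have h3 : Real.exp s = Real.exp (2 * s) * Real.exp (-s) := by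
    rw [← Real.exp_add]; ring_nf
  rw [h3]
  have h4 : 2 * s + 1 ≤ Real.exp (2 * s) := Real.add_one_le_exp (2 * s)
  have h5 := Real.exp_pos (-s)
  nlinarith

lemma Tp_tail {s : ℝ} (hs : 0 ≤ s) : 2 / 3 - Tp s ≤ 1 / (1 + s) := by
  rw [two_thirds_sub]
  have h1 := one_sub_tanh_le hs
  have h2 := Real.tanh_lt_one s
  have h3 : 0 ≤ Real.tanh s := by
    rw [Real.tanh_eq_sinh_div_cosh]
    exact div_nonneg (Real.sinh_nonneg_iff.2 hs) (Real.cosh_pos s).le
  have h4 : (1 - Real.tanh s) ^ 2 * (2 + Real.tanh s) / 3 ≤ 1 - Real.tanh s := by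
    have h5 : 0 ≤ 1 - Real.tanh s := by linarith
    have h6 : (1 - Real.tanh s) ^ 2 ≤ 1 - Real.tanh s := by nlinarith
    have h7 : (2 + Real.tanh s) / 3 ≤ 1 := by linarith
    calc (1 - Real.tanh s) ^ 2 * (2 + Real.tanh s) / 3
        = (1 - Real.tanh s) ^ 2 * ((2 + Real.tanh s) / 3) := by ring
      _ ≤ (1 - Real.tanh s) * 1 := by
          apply mul_le_mul h6 h7 (by linarith) h5
      _ = _ := mul_one _
  linarith

lemma Tp_tail' {s : ℝ} (hs : 0 ≤ s) : 2 / 3 + Tp (-s) ≤ 1 / (1 + s) := by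
  rw [Tp_neg]; have := Tp_tail hs; linarith

/-! ### primitives with the weight `cos^m` -/

/-- integrand -/
def Kc (m : ℕ) (ε θ u : ℝ) : ℝ := K ε (u - θ) * Real.cos u ^ m

lemma continuous_Kc (m : ℕ) (ε θ : ℝ) : Continuous (Kc m ε θ) := by
  unfold Kc
  have := continuous_K ε
  fun_prop

lemma Kc_le (m : ℕ) {ε : ℝ} (hε : 0 < ε) (θ : ℝ) {u : ℝ} :
    Kc m ε θ u ≤ K ε (u - θ) := by
  unfold Kc
  have h1 := K_nonneg hε (u - θ)
  have h2 : Real.cos u ^ m ≤ 1 := by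
    calc Real.cos u ^ m ≤ |Real.cos u ^ m| := le_abs_self _
      _ = |Real.cos u| ^ m := abs_pow _ _
      _ ≤ 1 := pow_le_one₀ (abs_nonneg _) (Real.abs_cos_le_one u)
  calc K ε (u - θ) * Real.cos u ^ m ≤ K ε (u - θ) * 1 := mul_le_mul_of_nonneg_left h2 h1
    _ = _ := mul_one _

lemma Kc_nonneg (m : ℕ) {ε : ℝ} (hε : 0 < ε) (θ : ℝ) {u : ℝ} (hu : u ∈ Icc (-(π / 2)) (π / 2)) :
    0 ≤ Kc m ε θ u := by
  unfold Kc
  exact mul_nonneg (K_nonneg hε _) (pow_nonneg (Real.cos_nonneg_of_mem_Icc hu) m)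

lemma integral_K {ε : ℝ} (hε : 0 < ε) (θ a b : ℝ) :
    ∫ u in a..b, K ε (u - θ) = Tp ((b - θ) / ε) - Tp ((a - θ) / ε) := by
  have := intervalIntegral.integral_eq_sub_of_hasDerivAt (a := a) (b := b)
    (f := fun t => Tp ((t - θ) / ε)) (f' := fun u => K ε (u - θ))
    (fun x _ => hasDerivAt_Tpe hε θ x)
    (((continuous_K ε).comp (by fun_prop)).intervalIntegrable _ _)
  exact this

lemma integral_Kc_nonneg (m : ℕ) {ε : ℝ} (hε : 0 < ε) (θ : ℝ) {a b : ℝ} (hab : a ≤ b)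
    (ha : -(π / 2) ≤ a) (hb : b ≤ π / 2) : 0 ≤ ∫ u in a..b, Kc m ε θ u :=
  intervalIntegral.integral_nonneg hab fun _ hu => Kc_nonneg m hε θ ⟨ha.trans hu.1, hu.2.trans hb⟩

lemma integral_Kc_le (m : ℕ) {ε : ℝ} (hε : 0 < ε) (θ : ℝ) {a b : ℝ} (hab : a ≤ b) :
    ∫ u in a..b, Kc m ε θ u ≤ Tp ((b - θ) / ε) - Tp ((a - θ) / ε) := by
  rw [← integral_K hε]
  refine intervalIntegral.integral_mono_on hab ((continuous_Kc m ε θ).intervalIntegrable _ _)
    (((continuous_K ε).comp (by fun_prop)).intervalIntegrable _ _) fun u _ => Kc_le m hε θ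

/-- lower primitive, with values in `[0,1]` on `[-π/2,π/2]`. -/
def Gm (m : ℕ) (ε θ t : ℝ) : ℝ := (3 / 4) * ∫ u in (-(π / 2))..t, Kc m ε θ u

/-- upper primitive. -/
def Gp (m : ℕ) (ε θ t : ℝ) : ℝ := 1 - Gm m ε θ (π / 2) + Gm m ε θ t

lemma hasDerivAt_Gm (m : ℕ) (ε θ t : ℝ) :
    HasDerivAt (Gm m ε θ) ((3 / 4) * Kc m ε θ t) t := by
  have h := intervalIntegral.integral_hasDerivAt_right (f := Kc m ε θ) (a := -(π / 2)) (b := t)
    ((continuous_Kc m ε θ).intervalIntegrable _ _)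
    ((continuous_Kc m ε θ).stronglyMeasurableAtFilter _ _) (continuous_Kc m ε θ).continuousAt
  exact h.const_mul (3 / 4)

lemma hasDerivAt_Gp (m : ℕ) (ε θ t : ℝ) :
    HasDerivAt (Gp m ε θ) ((3 / 4) * Kc m ε θ t) t :=
  (hasDerivAt_Gm m ε θ t).const_add _

lemma Gm_nonneg (m : ℕ) {ε : ℝ} (hε : 0 < ε) (θ : ℝ) {t : ℝ} (ht : t ∈ Icc (-(π / 2)) (π / 2)) :
    0 ≤ Gm m ε θ t := by
  unfold Gm
  have := integral_Kc_nonneg m hε θ ht.1 le_rfl ht.2
  positivity

lemma Gm_le (m : ℕ) {ε : ℝ} (hε : 0 < ε) (θ : ℝ) {t : ℝ} (ht : -(π / 2) ≤ t) :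
    Gm m ε θ t ≤ (3 / 4) * (Tp ((t - θ) / ε) + 2 / 3) := by
  unfold Gm
  have h1 := integral_Kc_le m hε θ ht
  have h2 := neg_le_Tp ((-(π / 2) - θ) / ε)
  linarith

lemma Gm_le_one (m : ℕ) {ε : ℝ} (hε : 0 < ε) (θ : ℝ) {t : ℝ} (ht : -(π / 2) ≤ t) :
    Gm m ε θ t ≤ 1 := by
  have h1 := Gm_le m hε θ ht
  have h2 := Tp_le ((t - θ) / ε)
  linarith

lemma Gm_tail (m : ℕ) {ε : ℝ} (hε : 0 < ε) (θ : ℝ) {t η : ℝ} (ht : -(π / 2) ≤ t) (hη : 0 ≤ η)
    (h : t ≤ θ - η) : Gm m ε θ t ≤ 1 / (1 + η / ε) := by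
  have h1 := Gm_le m hε θ ht
  have h2 : Tp ((t - θ) / ε) ≤ Tp (-(η / ε)) := by
    apply Tp_mono
    rw [← neg_div]
    gcongr
    linarith
  have h3 := Tp_tail' (div_nonneg hη hε.le)
  have h4 : 0 ≤ 1 / (1 + η / ε) := by positivity
  linarith

lemma one_sub_Gp (m : ℕ) (ε θ t : ℝ) :
    1 - Gp m ε θ t = (3 / 4) * ∫ u in t..(π / 2), Kc m ε θ u := by
  unfold Gp Gm
  have hi : ∀ a b, IntervalIntegrable (Kc m ε θ) volume a b := fun a b =>
    (continuous_Kc m ε θ).intervalIntegrable _ _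
  have := intervalIntegral.integral_add_adjacent_intervals (hi (-(π / 2)) t) (hi t (π / 2))
  linarith

lemma Gp_le_one (m : ℕ) {ε : ℝ} (hε : 0 < ε) (θ : ℝ) {t : ℝ} (ht : t ∈ Icc (-(π / 2)) (π / 2)) :
    Gp m ε θ t ≤ 1 := by
  have h1 := one_sub_Gp m ε θ t
  have := integral_Kc_nonneg m hε θ ht.2 ht.1 le_rfl
  linarith

lemma one_sub_Gp_le (m : ℕ) {ε : ℝ} (hε : 0 < ε) (θ : ℝ) {t : ℝ} (ht : t ≤ π / 2) :
    1 - Gp m ε θ t ≤ (3 / 4) * (2 / 3 - Tp ((t - θ) / ε)) := by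
  rw [one_sub_Gp]
  have h1 := integral_Kc_le m hε θ ht
  have h2 := Tp_le ((π / 2 - θ) / ε)
  linarith

lemma Gp_nonneg (m : ℕ) {ε : ℝ} (hε : 0 < ε) (θ : ℝ) {t : ℝ} (ht : t ≤ π / 2) :
    0 ≤ Gp m ε θ t := by
  have h1 := one_sub_Gp_le m hε θ ht
  have h2 := neg_le_Tp ((t - θ) / ε)
  linarith

lemma Gp_tail (m : ℕ) {ε : ℝ} (hε : 0 < ε) (θ : ℝ) {t η : ℝ} (ht : t ≤ π / 2) (hη : 0 ≤ η)
    (h : θ + η ≤ t) : 1 - Gp m ε θ t ≤ 1 / (1 + η / ε) := by
  have h1 := one_sub_Gp_le m hε θ ht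
  have h2 : Tp (η / ε) ≤ Tp ((t - θ) / ε) := by
    apply Tp_mono
    gcongr
    linarith
  have h3 := Tp_tail (div_nonneg hη hε.le)
  have h4 : 0 ≤ 1 / (1 + η / ε) := by positivity
  linarith

/-- total mass of the weighted kernel, away from `θ = 0`. -/
lemma total_far (m : ℕ) (hm : 1 ≤ m) {ε : ℝ} (hε : 0 < ε) {θ ρ : ℝ} (hρ : 0 ≤ ρ) (hρ2 : ρ ≤ π)
    (hθ : ρ ≤ |θ|) :
    (3 / 4) * ∫ u in (-(π / 2))..(π / 2), Kc m ε θ u ≤
      Real.cos (ρ / 2) + 2 / (1 + ρ / (2 * ε)) := by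
  have hπ := Real.pi_pos
  -- pointwise bound
  have hcos0 : 0 ≤ Real.cos (ρ / 2) := Real.cos_nonneg_of_mem_Icc ⟨by linarith, by linarith⟩
  have hi : ∀ a b, IntervalIntegrable (Kc m ε θ) volume a b := fun a b =>
    (continuous_Kc m ε θ).intervalIntegrable _ _
  -- the truncated endpoints
  set a : ℝ := max (-(π / 2)) (min (π / 2) (θ - ρ / 2)) with ha
  set b : ℝ := max (-(π / 2)) (min (π / 2) (θ + ρ / 2)) with hb
  have ha1 : -(π / 2) ≤ a := le_max_left _ _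
  have ha2 : a ≤ π / 2 := max_le (by linarith) (min_le_left _ _)
  have hb1 : -(π / 2) ≤ b := le_max_left _ _
  have hb2 : b ≤ π / 2 := max_le (by linarith) (min_le_left _ _)
  have hab : a ≤ b := max_le_max le_rfl (min_le_min le_rfl (by linarith))
  have hsplit : ∫ u in (-(π / 2))..(π / 2), Kc m ε θ u
      = (∫ u in (-(π / 2))..a, Kc m ε θ u) + (∫ u in a..b, Kc m ε θ u)
        + ∫ u in b..(π / 2), Kc m ε θ u := by
    rw [intervalIntegral.integral_add_adjacent_intervals (hi _ _) (hi _ _),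
      intervalIntegral.integral_add_adjacent_intervals (hi _ _) (hi _ _)]
  have hr : 0 ≤ ρ / (2 * ε) := by positivity
  have hneg : ∀ x y : ℝ, x ≤ y → Tp (x / ε) ≤ Tp (y / ε) := fun x y h => Tp_mono (by gcongr)
  -- left part
  have h1 : ∫ u in (-(π / 2))..a, Kc m ε θ u ≤ 1 / (1 + ρ / (2 * ε)) := by
    by_cases h : θ - ρ / 2 ≤ -(π / 2)
    · have : a = -(π / 2) := by
        rw [ha]; exact max_eq_left ((min_le_right _ _).trans h)
      rw [this, intervalIntegral.integral_same]; positivity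
    · push Not at h
      have hle : a ≤ θ - ρ / 2 := max_le h.le (min_le_right _ _)
      have h2 := integral_Kc_le m hε θ ha1
      have h3 := neg_le_Tp ((-(π / 2) - θ) / ε)
      have h4 : Tp ((a - θ) / ε) ≤ Tp (-(ρ / (2 * ε))) := by
        have : -(ρ / (2 * ε)) = (-(ρ / 2)) / ε := by field_simp
        rw [this]; exact hneg _ _ (by linarith)
      have h5 := Tp_tail' hr
      linarith
  have h3 : ∫ u in b..(π / 2), Kc m ε θ u ≤ 1 / (1 + ρ / (2 * ε)) := by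
    by_cases h : π / 2 ≤ θ + ρ / 2
    · have : b = π / 2 := by
        rw [hb, min_eq_left h]; exact max_eq_right (by linarith)
      rw [this, intervalIntegral.integral_same]; positivity
    · push Not at h
      have hle : θ + ρ / 2 ≤ b := by
        rw [hb]; exact le_max_of_le_right (le_min h.le le_rfl)
      have h2 := integral_Kc_le m hε θ hb2
      have h3 := Tp_le ((π / 2 - θ) / ε)
      have h4 : Tp (ρ / (2 * ε)) ≤ Tp ((b - θ) / ε) := by
        have : ρ / (2 * ε) = (ρ / 2) / ε := by field_simp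
        rw [this]; exact hneg _ _ (by linarith)
      have h5 := Tp_tail hr
      linarith
  have h2 : ∫ u in a..b, Kc m ε θ u ≤ (4 / 3) * Real.cos (ρ / 2) := by
    have hc : ∀ u ∈ Ioo a b, Kc m ε θ u ≤ K ε (u - θ) * Real.cos (ρ / 2) := by
      intro u hu
      have hu1 : -(π / 2) ≤ u := ha1.trans hu.1.le
      have hu2 : u ≤ π / 2 := hu.2.le.trans hb2
      have hu3 : θ - ρ / 2 ≤ u := by
        by_contra hcon
        push Not at hcon
        have h5 : u < min (π / 2) (θ - ρ / 2) := by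
          refine lt_min ?_ hcon
          exact hu.2.trans_le hb2
        have : u < a := h5.trans_le (le_max_right _ _)
        exact absurd this (not_lt.2 hu.1.le)
      have hu4 : u ≤ θ + ρ / 2 := by
        by_contra hcon
        push Not at hcon
        have h5 : b ≤ u := max_le hu1 ((min_le_right _ _).trans hcon.le)
        exact absurd hu.2 (not_lt.2 h5)
      have habs : ρ / 2 ≤ |u| := by
        rcases le_abs.1 hθ with h6 | h6
        · exact (by linarith : ρ / 2 ≤ u).trans (le_abs_self u)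
        · exact (by linarith : ρ / 2 ≤ -u).trans (neg_le_abs u)
      have hcu : Real.cos u ≤ Real.cos (ρ / 2) := by
        rw [← Real.cos_abs u]
        apply Real.cos_le_cos_of_nonneg_of_le_pi (by linarith) _ habs
        have : |u| ≤ π / 2 := abs_le.2 ⟨hu1, hu2⟩
        linarith
      have hcu0 : 0 ≤ Real.cos u := Real.cos_nonneg_of_mem_Icc ⟨hu1, hu2⟩
      have hpow : Real.cos u ^ m ≤ Real.cos (ρ / 2) := by
        calc Real.cos u ^ m ≤ Real.cos u ^ 1 :=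
              pow_le_pow_of_le_one hcu0 (Real.cos_le_one u) hm
          _ = Real.cos u := pow_one _
          _ ≤ _ := hcu
      exact mul_le_mul_of_nonneg_left hpow (K_nonneg hε _)
    have hmono : ∫ u in a..b, Kc m ε θ u ≤ ∫ u in a..b, K ε (u - θ) * Real.cos (ρ / 2) := by
      refine intervalIntegral.integral_mono_on_of_le_Ioo hab (hi _ _) ?_ hc
      exact (((continuous_K ε).comp (by fun_prop)).mul continuous_const).intervalIntegrable _ _
    rw [intervalIntegral.integral_mul_const, integral_K hε] at hmono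
    have h5 := Tp_le ((b - θ) / ε)
    have h6 := neg_le_Tp ((a - θ) / ε)
    have h7 : Tp ((b - θ) / ε) - Tp ((a - θ) / ε) ≤ 4 / 3 := by linarith
    calc ∫ u in a..b, Kc m ε θ u ≤ _ := hmono
      _ ≤ (4 / 3) * Real.cos (ρ / 2) := mul_le_mul_of_nonneg_right h7 hcos0
  have h8 : 0 ≤ 1 / (1 + ρ / (2 * ε)) := by positivity
  have h9 : 2 / (1 + ρ / (2 * ε)) = 2 * (1 / (1 + ρ / (2 * ε))) := by ring
  rw [hsplit, h9]
  linarith

end Crest.Agent.R246.IF101
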