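import Crest.Agent.R246.SM1_436
import Crest.Agent.R246.Slice_990
import Mathlib.Analysis.Calculus.LineDeriv.IntegrationByParts
import Mathlib.Analysis.SpecialFunctions.SmoothTransition
import Mathlib.Analysis.InnerProductSpace.Trace
import Mathlib.Analysis.Calculus.BumpFunction.InnerProduct

/-!
# I(I), far part: the flux of a bump near a non-umbilic point (helper101)
-/

set_option autoImplicit false
set_option linter.unusedSectionVars false
noncomputable section
open MeasureTheory Set Filter Topology Metric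
open scoped RealInnerProductSpace ContDiff

namespace Crest.Agent.R246.IF101

open Crest.Agent.R246.H990 Crest.Agent.R246.SM436

variable {E : Type*} [NormedAddCommGroup E] [InnerProductSpace ℝ E] [FiniteDimensional ℝ E]

/-- product of a compactly supported continuous function and a function continuous on the
support. -/
lemma continuous_mul_of_tsupport {f g : E → ℝ} (hf : Continuous f)
    (hg : ∀ x ∈ tsupport f, ContinuousAt g x) : Continuous fun x => f x * g x := by
  rw [continuous_iff_continuousAt]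
  intro x
  by_cases hx : x ∈ tsupport f
  · exact hf.continuousAt.mul (hg x hx)
  · have h1 : (fun x => f x * g x) =ᶠ[𝓝 x] fun _ => 0 := by
      have h2 : (tsupport f)ᶜ ∈ 𝓝 x := (isClosed_tsupport f).isOpen_compl.mem_nhds hx
      filter_upwards [h2] with y hy
      rw [image_eq_zero_of_notMem_tsupport hy, zero_mul]
    exact (continuousAt_const (y := (0 : ℝ))).congr h1.symm

variable [MeasurableSpace E] [BorelSpace E]

lemma integrable_mul_of_tsupport {f g : E → ℝ} (hf : Continuous f) (hc : HasCompactSupport f)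
    (hg : ∀ x ∈ tsupport f, ContinuousAt g x) : Integrable fun x => f x * g x :=
  (continuous_mul_of_tsupport hf hg).integrable_of_hasCompactSupport hc.mul_right

/-- Green's formula against a function supported at good points. -/
theorem good_ibp {φ η : E → ℝ} (hη : ContDiff ℝ 1 η) (hc : HasCompactSupport η)
    (hg : ∀ x ∈ tsupport η, Good φ x) :
    ∫ x, fderiv ℝ η x (gradient φ x) =
      - ∫ x, η x * LinearMap.trace ℝ E (hs φ x : E →ₗ[ℝ] E) := by
  set b := stdOrthonormalBasis ℝ E with hb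
  have hηd : Differentiable ℝ η := hη.differentiable (by simp)
  -- continuity facts
  have hcg : ∀ i, ∀ x ∈ tsupport η, ContinuousAt (fun x => ⟪b i, gradient φ x⟫) x := by
    intro i x hx
    exact continuousAt_const.inner (hg x hx).contDiffAt_gradient.continuousAt
  have hch : ∀ i, ∀ x ∈ tsupport η, ContinuousAt (fun x => ⟪b i, hs φ x (b i)⟫) x := by
    intro i x hx
    have h1 : ContinuousAt (hs φ) x := by
      have h2 : ContDiffAt ℝ ∞ (hs φ) x :=
        (hg x hx).contDiffAt_gradient.fderiv_right (m := ∞) (by simp)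
      exact h2.continuousAt
    exact continuousAt_const.inner (h1.clm_apply continuousAt_const)
  have hdc : ∀ v, Continuous fun x => fderiv ℝ η x v := fun v =>
    (hη.continuous_fderiv (by simp)).clm_apply continuous_const
  have hds : ∀ v, tsupport (fun x => fderiv ℝ η x v) ⊆ tsupport η := fun v =>
    tsupport_fderiv_apply_subset ℝ v
  have hdcs : ∀ v, HasCompactSupport fun x => fderiv ℝ η x v := fun v =>
    hc.mono' (subset_closure.trans (hds v))
  have hI1 : ∀ i, Integrable fun x => fderiv ℝ η x (b i) * ⟪b i, gradient φ x⟫ := fun i =>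
    integrable_mul_of_tsupport (hdc _) (hdcs _) fun x hx => hcg i x (hds _ hx)
  have hI2 : ∀ i, Integrable fun x => η x * ⟪b i, hs φ x (b i)⟫ := fun i =>
    integrable_mul_of_tsupport hη.continuous hc (hch i)
  -- the derivative of the components
  have hder : ∀ i, ∀ x ∈ tsupport η,
      HasFDerivAt (fun x => ⟪b i, gradient φ x⟫) ((innerSL ℝ (b i)).comp (hs φ x)) x := by
    intro i x hx
    exact ((innerSL ℝ (b i)).hasFDerivAt).comp x (hg x hx).hasFDerivAt_gradient
  have hprod : ∀ i, (fun x => η x * fderiv ℝ (fun x => ⟪b i, gradient φ x⟫) x (b i)) =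
      fun x => η x * ⟪b i, hs φ x (b i)⟫ := by
    intro i
    funext x
    by_cases hx : x ∈ tsupport η
    · rw [(hder i x hx).fderiv]; rfl
    · rw [image_eq_zero_of_notMem_tsupport hx, zero_mul, zero_mul]
  have key : ∀ i, ∫ x, fderiv ℝ η x (b i) * ⟪b i, gradient φ x⟫ =
      - ∫ x, η x * ⟪b i, hs φ x (b i)⟫ := by
    intro i
    have h1 := integral_mul_fderiv_eq_neg_fderiv_mul_of_integrable (μ := (volume : Measure E))
      (f := η) (g := fun x => ⟪b i, gradient φ x⟫) (v := b i) (hI1 i)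
      (by rw [hprod i]; exact hI2 i)
      (integrable_mul_of_tsupport hη.continuous hc (hcg i))
      (fun x _ => hηd x) (fun x hx => (hder i x hx).differentiableAt)
    rw [hprod i] at h1
    rw [h1, neg_neg]
  have e1 : ∀ x, fderiv ℝ η x (gradient φ x) =
      ∑ i, fderiv ℝ η x (b i) * ⟪b i, gradient φ x⟫ := by
    intro x
    conv_lhs => rw [← b.sum_repr' (gradient φ x)]
    rw [map_sum]
    refine Finset.sum_congr rfl fun i _ => ?_
    rw [map_smul, smul_eq_mul, mul_comm]
  have e2 : ∀ x, η x * LinearMap.trace ℝ E (hs φ x : E →ₗ[ℝ] E) =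
      ∑ i, η x * ⟪b i, hs φ x (b i)⟫ := by
    intro x
    rw [LinearMap.trace_eq_sum_inner _ b, Finset.mul_sum]
    rfl
  simp only [e1, e2]
  rw [integral_finsetSum _ fun i _ => hI1 i, integral_finsetSum _ fun i _ => hI2 i,
    ← Finset.sum_neg_distrib]
  exact Finset.sum_congr rfl fun i _ => key i

/-! ### integrable majorant -/

lemma integrable_majorant (hn : 2 ≤ Module.finrank ℝ E) {b : ℝ} (hb : 0 < b) :
    Integrable fun x : E => Real.exp (-b * ‖x‖ ^ 2) * ‖x‖⁻¹ := by
  have hnt : Nontrivial E := Module.nontrivial_of_finrank_pos (R := ℝ) (by omega)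
  have hmp := measurePreserving_polar (E := E)
  have hm : Measurable fun x : E => Real.exp (-b * ‖x‖ ^ 2) * ‖x‖⁻¹ :=
    (Real.measurable_exp.comp (measurable_const.mul (measurable_norm.pow_const 2))).mul
      measurable_norm.inv
  rw [← hmp.integrable_comp hm.aestronglyMeasurable]
  obtain ⟨m, hmm⟩ : ∃ m, Module.finrank ℝ E = m + 2 := ⟨Module.finrank ℝ E - 2, by omega⟩
  have hg1 : Integrable (fun t : ℝ => Real.exp (-b * t ^ 2) * t⁻¹)
      (radial (Module.finrank ℝ E - 1)) := by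
    refine integrable_radial ?_
    have h3 := integrableOn_gauss m (b := b) hb
    refine h3.congr_fun (fun t ht => ?_) measurableSet_Ioi
    have ht0 : t ≠ 0 := ne_of_gt ht
    have : Module.finrank ℝ E - 1 = m + 1 := by omega
    simp only
    have e : t ^ (m + 1) * (Real.exp (-b * t ^ 2) * t⁻¹) =
      t ^ m * Real.exp (-b * t ^ 2) * (t * t⁻¹) := by rw [pow_succ t m]; ring
    rw [this, e, mul_inv_cancel₀ ht0, mul_one]
  have h2 := hg1.comp_snd (sig E)
  refine h2.congr ?_
  have hpos : ∀ᵐ p ∂((sig E).prod (radial (Module.finrank ℝ E - 1))), 0 < p.2 :=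
    (Measure.quasiMeasurePreserving_snd (μ := sig E)
      (ν := radial (Module.finrank ℝ E - 1))).ae (radial_ae_pos _)
  filter_upwards [hpos] with p hp
  have hq : ‖(p.1 : E)‖ = 1 := mem_sphere_zero_iff_norm.1 p.1.2
  simp only [Function.comp_apply]
  rw [norm_smul, hq, mul_one, Real.norm_eq_abs, abs_of_pos hp]

/-! ### the radial weights -/

/-- cut-off weights `a_k(u) e^{-u}`. -/
def wk (k : ℕ) (u : ℝ) : ℝ :=
  Real.smoothTransition (k * u - 1) * Real.smoothTransition (k + 1 - u) * Real.exp (-u)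

lemma contDiff_wk (k : ℕ) : ContDiff ℝ ∞ (wk k) := by
  unfold wk
  refine ContDiff.mul (ContDiff.mul ?_ ?_) (Real.contDiff_exp.comp contDiff_neg)
  · exact Real.smoothTransition.contDiff.comp ((contDiff_const.mul contDiff_id).sub contDiff_const)
  · exact Real.smoothTransition.contDiff.comp (contDiff_const.sub contDiff_id)

lemma wk_nonneg (k : ℕ) (u : ℝ) : 0 ≤ wk k u :=
  mul_nonneg (mul_nonneg (Real.smoothTransition.nonneg _) (Real.smoothTransition.nonneg _))
    (Real.exp_pos _).le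

lemma wk_le (k : ℕ) (u : ℝ) : wk k u ≤ Real.exp (-u) := by
  unfold wk
  have h1 := Real.smoothTransition.nonneg (k * u - 1)
  have h2 := Real.smoothTransition.le_one (k * u - 1)
  have h3 := Real.smoothTransition.nonneg (k + 1 - u)
  have h4 := Real.smoothTransition.le_one (k + 1 - u)
  have h5 : Real.smoothTransition (k * u - 1) * Real.smoothTransition (k + 1 - u) ≤ 1 := by
    nlinarith
  calc _ ≤ 1 * Real.exp (-u) := mul_le_mul_of_nonneg_right h5 (Real.exp_pos _).le
    _ = _ := one_mul _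

lemma wk_eq_zero_low {k : ℕ} {u : ℝ} (h : k * u ≤ 1) : wk k u = 0 := by
  unfold wk
  rw [Real.smoothTransition.zero_of_nonpos (by linarith)]; ring

lemma wk_eq_zero_high {k : ℕ} {u : ℝ} (h : k + 1 ≤ u) : wk k u = 0 := by
  unfold wk
  rw [Real.smoothTransition.zero_of_nonpos (x := k + 1 - u) (by linarith)]; ring

lemma wk_mono {k l : ℕ} (h : k ≤ l) {u : ℝ} (hu : 0 ≤ u) : wk k u ≤ wk l u := by
  unfold wk
  have hkl : (k : ℝ) ≤ l := by exact_mod_cast h
  have h1 := Real.smoothTransition.nonneg (k * u - 1)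
  have h2 := Real.smoothTransition.nonneg (k + 1 - u)
  have h3 : Real.smoothTransition (k * u - 1) ≤ Real.smoothTransition (l * u - 1) :=
    Real.smoothTransition.monotone (by nlinarith)
  have h4 : Real.smoothTransition (k + 1 - u) ≤ Real.smoothTransition (l + 1 - u) :=
    Real.smoothTransition.monotone (by linarith)
  have h5 := Real.smoothTransition.nonneg (l * u - 1)
  exact mul_le_mul_of_nonneg_right (mul_le_mul h3 h4 h2 h5) (Real.exp_pos _).le

lemma wk_tendsto {u : ℝ} (hu : 0 < u) : Tendsto (fun k : ℕ => wk k u) atTop (𝓝 (Real.exp (-u))) := by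
  obtain ⟨N, hN⟩ := exists_nat_ge (max (2 / u) u)
  refine tendsto_const_nhds.congr' ?_
  filter_upwards [eventually_ge_atTop N] with k hk
  have hkN : (N : ℝ) ≤ k := by exact_mod_cast hk
  have h1 : 2 / u ≤ k := (le_max_left _ _).trans (hN.trans hkN)
  have h2 : u ≤ k := (le_max_right _ _).trans (hN.trans hkN)
  have h3 : 2 ≤ k * u := by rwa [div_le_iff₀ hu] at h1
  unfold wk
  rw [Real.smoothTransition.one_of_one_le (by linarith),
    Real.smoothTransition.one_of_one_le (by linarith)]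
  ring

/-! ### positivity of the flux of a bump -/

/-- the quadratic form `|x|² - φ²`. -/
def uu (φ : E → ℝ) (x : E) : ℝ := ‖x‖ ^ 2 - φ x ^ 2

lemma uu_ge {φ : E → ℝ} (h : NullCone φ) : ∃ b : ℝ, 0 < b ∧ ∀ x, b * ‖x‖ ^ 2 ≤ uu φ x := by
  obtain ⟨c, hc0, hc1, hc⟩ := h.bd
  refine ⟨1 - c ^ 2, by nlinarith, fun x => ?_⟩
  have h1 : φ x ^ 2 ≤ (c * ‖x‖) ^ 2 := by
    rw [← sq_abs (φ x)]
    exact pow_le_pow_left₀ (abs_nonneg _) (hc x) 2
  unfold uu
  nlinarith

lemma uu_nonneg {φ : E → ℝ} (h : NullCone φ) (x : E) : 0 ≤ uu φ x := by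
  obtain ⟨b, hb, hb2⟩ := uu_ge h
  exact le_trans (by positivity) (hb2 x)

lemma continuous_uu {φ : E → ℝ} (h : NullCone φ) : Continuous (uu φ) :=
  (continuous_norm.pow 2).sub (h.lip.continuous.pow 2)

lemma hasFDerivAt_uu {φ : E → ℝ} {x : E} (hx : Good φ x) :
    HasFDerivAt (uu φ) (2 • innerSL ℝ x - (2 * φ x) • innerSL ℝ (gradient φ x)) x := by
  have h1 : HasFDerivAt (fun x : E => ‖x‖ ^ 2) (2 • (innerSL ℝ x)) x := by
    have := (hasFDerivAt_id x).norm_sq
    simpa using this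
  have h2 := (hx.hasFDerivAt).pow 2
  have h3 := h1.sub h2
  have e : (2 • innerSL ℝ x - (2 * φ x) • innerSL ℝ (gradient φ x) : E →L[ℝ] ℝ) =
      2 • innerSL ℝ x - (((2 : ℕ) : ℝ) * φ x ^ (2 - 1)) • innerSL ℝ (gradient φ x) := by
    norm_num
  rw [e]
  refine h3.congr_fderiv ?_
  ext v
  simp

lemma fderiv_uu_gradient {φ : E → ℝ} (hom : ∀ t : ℝ, 0 ≤ t → ∀ x, φ (t • x) = t * φ x) {x : E}
    (hx : Good φ x) :
    (2 • innerSL ℝ x - (2 * φ x) • innerSL ℝ (gradient φ x) : E →L[ℝ] ℝ) (gradient φ x) = 0 := by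
  have h1 := hx.euler hom
  have h2 := hx.norm_gradient
  simp only [_root_.sub_apply, _root_.smul_apply, innerSL_apply_apply,
    real_inner_self_eq_norm_sq, h2]
  rw [real_inner_comm, h1]
  simp

section Bump

variable {φ ξ : E → ℝ} {B : Set E}

/-- the test function `w_k(u) ξ`. -/
def et (φ ξ : E → ℝ) (k : ℕ) (x : E) : ℝ := wk k (uu φ x) * ξ x

/-- closed set carrying `et`. -/
def Ck (φ : E → ℝ) (B : Set E) (k : ℕ) : Set E :=
  {x | 1 ≤ k * uu φ x ∧ uu φ x ≤ k + 1} ∩ (fun x : E => ‖x‖⁻¹ • x) ⁻¹' B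

lemma ne_zero_of_mem {x : E} {k : ℕ} (hz : uu φ 0 = 0)
    (hx : x ∈ {x | 1 ≤ k * uu φ x ∧ uu φ x ≤ k + 1}) : x ≠ 0 := by
  rintro rfl
  have := hx.1
  rw [hz, mul_zero] at this
  linarith

lemma uu_zero (h : NullCone φ) : uu φ 0 = 0 := by simp [uu, h.zero]

lemma isClosed_Ck (h : NullCone φ) (hB : IsClosed B) (k : ℕ) : IsClosed (Ck φ B k) := by
  have h1 : IsClosed {x | 1 ≤ k * uu φ x ∧ uu φ x ≤ k + 1} := by
    have hc := continuous_uu h
    exact (isClosed_le continuous_const (continuous_const.mul hc)).inter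
      (isClosed_le hc continuous_const)
  refine ContinuousOn.preimage_isClosed_of_isClosed ?_ h1 hB
  intro x hx
  have hx0 : x ≠ 0 := ne_zero_of_mem (uu_zero h) hx
  have h2 : ContinuousAt (fun x : E => ‖x‖⁻¹ • x) x :=
    (continuous_norm.continuousAt.inv₀ (norm_ne_zero_iff.2 hx0)).smul continuousAt_id
  exact h2.continuousWithinAt

lemma isCompact_Ck (h : NullCone φ) (hB : IsClosed B) (k : ℕ) : IsCompact (Ck φ B k) := by
  obtain ⟨b, hb, hb2⟩ := uu_ge h
  refine Metric.isCompact_of_isClosed_isBounded (isClosed_Ck h hB k) ?_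
  refine (Metric.isBounded_closedBall (x := (0 : E)) (r := Real.sqrt ((k + 1) / b))).subset ?_
  intro x hx
  rw [mem_closedBall_zero_iff]
  apply Real.le_sqrt_of_sq_le
  rw [le_div_iff₀ hb]
  have h1 := hb2 x
  have h2 := hx.1.2
  linarith

lemma et_eq_zero (hsupp : ∀ x, ‖x‖⁻¹ • x ∉ B → ξ x = 0) {k : ℕ} {x : E} (hx : x ∉ Ck φ B k) :
    et φ ξ k x = 0 := by
  unfold et
  by_cases h1 : ‖x‖⁻¹ • x ∈ B
  · have h2 : x ∉ {x | 1 ≤ k * uu φ x ∧ uu φ x ≤ k + 1} := fun h3 => hx ⟨h3, h1⟩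
    simp only [mem_ofPred_eq, not_and_or, not_le] at h2
    rcases h2 with h2 | h2
    · rw [wk_eq_zero_low h2.le, zero_mul]
    · rw [wk_eq_zero_high h2.le, zero_mul]
  · rw [hsupp x h1, mul_zero]

lemma good_of_mem (h : NullCone φ) (hBg : ∀ y ∈ B, Good φ y) {x : E} (hx0 : x ≠ 0)
    (hx : ‖x‖⁻¹ • x ∈ B) : Good φ x := by
  have hn : 0 < ‖x‖ := norm_pos_iff.2 hx0
  have := good_smul h.hom (hBg _ hx) hn
  rwa [smul_smul, mul_inv_cancel₀ hn.ne', one_smul] at this

lemma tsupport_et (h : NullCone φ) (hB : IsClosed B)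
    (hsupp : ∀ x, ‖x‖⁻¹ • x ∉ B → ξ x = 0) (k : ℕ) : tsupport (et φ ξ k) ⊆ Ck φ B k := by
  refine closure_minimal ?_ (isClosed_Ck h hB k)
  intro x hx
  by_contra hc
  exact hx (et_eq_zero hsupp hc)

lemma hasFDerivAt_et (h : NullCone φ) (hξs : ContDiffOn ℝ ∞ ξ {0}ᶜ)
    (hBg : ∀ y ∈ B, Good φ y) (k : ℕ) {x : E} (hx0 : x ≠ 0) (hx : ‖x‖⁻¹ • x ∈ B) :
    HasFDerivAt (et φ ξ k) (wk k (uu φ x) • fderiv ℝ ξ x +
      ξ x • (deriv (wk k) (uu φ x) •
        (2 • innerSL ℝ x - (2 * φ x) • innerSL ℝ (gradient φ x) : E →L[ℝ] ℝ))) x := by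
  have hg := good_of_mem h hBg hx0 hx
  have h1 : HasFDerivAt ξ (fderiv ℝ ξ x) x :=
    ((hξs.contDiffAt (isOpen_compl_singleton.mem_nhds hx0)).differentiableAt (by simp)).hasFDerivAt
  have h2 : HasDerivAt (wk k) (deriv (wk k) (uu φ x)) (uu φ x) :=
    ((contDiff_wk k).differentiable (by simp) _).hasDerivAt
  have h3 := h2.comp_hasFDerivAt x (hasFDerivAt_uu hg)
  exact h3.mul h1

lemma contDiff_et (h : NullCone φ) (hξs : ContDiffOn ℝ ∞ ξ {0}ᶜ) (hB : IsClosed B)
    (hBg : ∀ y ∈ B, Good φ y) (hsupp : ∀ x, ‖x‖⁻¹ • x ∉ B → ξ x = 0) (k : ℕ) :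
    ContDiff ℝ 1 (et φ ξ k) := by
  rw [contDiff_iff_contDiffAt]
  intro x
  by_cases hx : x ∈ tsupport (et φ ξ k)
  · have h1 := tsupport_et h hB hsupp k hx
    have hx0 : x ≠ 0 := ne_zero_of_mem (uu_zero h) h1.1
    have hg := good_of_mem h hBg hx0 h1.2
    have h2 : ContDiffAt ℝ ∞ (uu φ) x := by
      unfold uu
      exact (contDiff_norm_sq ℝ).contDiffAt.sub (hg.contDiffAt.pow 2)
    have h3 : ContDiffAt ℝ ∞ (et φ ξ k) x :=
      ((contDiff_wk k).contDiffAt.comp x h2).mul
        (hξs.contDiffAt (isOpen_compl_singleton.mem_nhds hx0))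
    exact h3.of_le (by simp)
  · have h1 : et φ ξ k =ᶠ[𝓝 x] fun _ => 0 := by
      filter_upwards [(isClosed_tsupport _).isOpen_compl.mem_nhds hx] with y hy
      exact image_eq_zero_of_notMem_tsupport hy
    exact contDiffAt_const.congr_of_eventuallyEq h1

lemma fderiv_et_gradient (h : NullCone φ) (hξs : ContDiffOn ℝ ∞ ξ {0}ᶜ) (hB : IsClosed B)
    (hBg : ∀ y ∈ B, Good φ y) (hsupp : ∀ x, ‖x‖⁻¹ • x ∉ B → ξ x = 0) (k : ℕ) (x : E) :
    fderiv ℝ (et φ ξ k) x (gradient φ x) =
      wk k (uu φ x) * fderiv ℝ ξ x (gradient φ x) := by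
  rcases eq_or_ne x 0 with rfl | hx0
  · have h1 : et φ ξ k =ᶠ[𝓝 0] fun _ => 0 := by
      have h2 : ∀ᶠ y in 𝓝 (0 : E), (k : ℝ) * uu φ y < 1 := by
        have hc : Continuous fun y => (k : ℝ) * uu φ y := continuous_const.mul (continuous_uu h)
        have : (k : ℝ) * uu φ 0 < 1 := by rw [uu_zero h, mul_zero]; exact one_pos
        exact hc.continuousAt.eventually_lt continuousAt_const this
      filter_upwards [h2] with y hy
      unfold et
      rw [wk_eq_zero_low hy.le, zero_mul]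
    rw [h1.fderiv_eq, wk_eq_zero_low (by rw [uu_zero h, mul_zero]; exact zero_le_one)]
    simp
  · by_cases hx : ‖x‖⁻¹ • x ∈ B
    · rw [(hasFDerivAt_et h hξs hBg k hx0 hx).fderiv]
      have h1 := fderiv_uu_gradient h.hom (good_of_mem h hBg hx0 hx)
      rw [_root_.add_apply, _root_.smul_apply,
        _root_.smul_apply, _root_.smul_apply, h1]
      simp
    · -- both vanish
      have h1 : ξ =ᶠ[𝓝 x] fun _ => 0 := by
        have h2 : ContinuousAt (fun x : E => ‖x‖⁻¹ • x) x :=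
          (continuous_norm.continuousAt.inv₀ (norm_ne_zero_iff.2 hx0)).smul continuousAt_id
        filter_upwards [h2.preimage_mem_nhds (hB.isOpen_compl.mem_nhds hx)] with y hy
        exact hsupp y hy
      have h3 : et φ ξ k =ᶠ[𝓝 x] fun _ => 0 := by
        filter_upwards [h1] with y hy
        unfold et
        rw [hy, mul_zero]
      rw [h1.fderiv_eq, h3.fderiv_eq]
      simp

theorem flux_pos_of_bump (hn : 2 ≤ Module.finrank ℝ E) (h : NullCone φ) (hξ : Test ξ)
    (hξs : ContDiffOn ℝ ∞ ξ {0}ᶜ) (hB : IsClosed B)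
    (hBg : ∀ y ∈ B, Good φ y ∧ LinearMap.trace ℝ E (hs φ y : E →ₗ[ℝ] E) < 0)
    (hsupp : ∀ x, ‖x‖⁻¹ • x ∉ B → ξ x = 0) {q0 : E} (hq0 : ‖q0‖ = 1) (hq1 : 0 < ξ q0) :
    0 < flux φ ξ := by
  have hBg' : ∀ y ∈ B, Good φ y := fun y hy => (hBg y hy).1
  obtain ⟨b, hb, hb2⟩ := uu_ge h
  obtain ⟨K, hK0, hK⟩ := hξ.fderiv_le
  have hnt : Nontrivial E := Module.nontrivial_of_finrank_pos (R := ℝ) (by omega)
  -- sign of the trace on the cone
  have htr : ∀ x, x ≠ 0 → ‖x‖⁻¹ • x ∈ B → LinearMap.trace ℝ E (hs φ x : E →ₗ[ℝ] E) < 0 := by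
    intro x hx0 hx
    have hn' : 0 < ‖x‖ := norm_pos_iff.2 hx0
    have h1 := (hBg' _ hx).hs_smul h.hom hn'
    rw [smul_smul, mul_inv_cancel₀ hn'.ne', one_smul] at h1
    rw [h1]
    have h2 := (hBg _ hx).2
    have h3 : LinearMap.trace ℝ E ((‖x‖⁻¹ • hs φ (‖x‖⁻¹ • x) : E →L[ℝ] E) : E →ₗ[ℝ] E) =
        ‖x‖⁻¹ * LinearMap.trace ℝ E (hs φ (‖x‖⁻¹ • x) : E →ₗ[ℝ] E) := by
      rw [ContinuousLinearMap.toLinearMap_smul, map_smul, smul_eq_mul]
    rw [h3]
    exact mul_neg_of_pos_of_neg (inv_pos.2 hn') h2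
  -- the approximating integrals
  have hk : ∀ k : ℕ, ∫ x, wk k (uu φ x) * fderiv ℝ ξ x (gradient φ x) =
      - ∫ x, et φ ξ k x * LinearMap.trace ℝ E (hs φ x : E →ₗ[ℝ] E) := by
    intro k
    have h1 := good_ibp (contDiff_et h hξs hB hBg' hsupp k)
      (HasCompactSupport.intro (isCompact_Ck h hB k) fun x hx => et_eq_zero hsupp hx)
      (fun x hx => by
        have h2 := tsupport_et h hB hsupp k hx
        exact good_of_mem h hBg' (ne_zero_of_mem (uu_zero h) h2.1) h2.2)
    simp only [fderiv_et_gradient h hξs hB hBg' hsupp k] at h1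
    exact h1
  have hlim : Tendsto (fun k : ℕ => ∫ x, wk k (uu φ x) * fderiv ℝ ξ x (gradient φ x)) atTop
      (𝓝 (flux φ ξ)) := by
    unfold flux
    refine tendsto_integral_of_dominated_convergence
      (fun x => K * (Real.exp (-b * ‖x‖ ^ 2) * ‖x‖⁻¹)) ?_
      ((integrable_majorant hn hb).const_mul K) ?_ ?_
    · intro k
      exact (((contDiff_wk k).continuous.comp (continuous_uu h)).measurable.mul
        (measurable_fD φ ξ)).aestronglyMeasurable
    · intro k
      filter_upwards [compl_mem_ae_iff.2 (measure_singleton (0 : E))] with x hx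
      have hx0 : x ≠ 0 := hx
      have hn' : 0 < ‖x‖ := norm_pos_iff.2 hx0
      rw [Real.norm_eq_abs, abs_mul, abs_of_nonneg (wk_nonneg _ _)]
      have h1 : wk k (uu φ x) ≤ Real.exp (-b * ‖x‖ ^ 2) := by
        refine (wk_le _ _).trans (Real.exp_le_exp.2 ?_)
        have := hb2 x
        linarith
      have h2 : |fderiv ℝ ξ x (gradient φ x)| ≤ K / ‖x‖ := by
        have h3 := (fderiv ℝ ξ x).le_opNorm (gradient φ x)
        rw [Real.norm_eq_abs] at h3
        calc _ ≤ ‖fderiv ℝ ξ x‖ * ‖gradient φ x‖ := h3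
          _ ≤ K / ‖x‖ * 1 := mul_le_mul (hK x hx0) (gradient_norm_le h.lip x) (norm_nonneg _)
              (by positivity)
          _ = _ := mul_one _
      calc wk k (uu φ x) * |fderiv ℝ ξ x (gradient φ x)|
          ≤ Real.exp (-b * ‖x‖ ^ 2) * (K / ‖x‖) :=
            mul_le_mul h1 h2 (abs_nonneg _) (Real.exp_pos _).le
        _ = _ := by rw [div_eq_mul_inv]; ring
    · filter_upwards [compl_mem_ae_iff.2 (measure_singleton (0 : E))] with x hx
      have hx0 : x ≠ 0 := hx
      have hn' : 0 < ‖x‖ := norm_pos_iff.2 hx0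
      have hu : 0 < uu φ x := lt_of_lt_of_le (by positivity) (hb2 x)
      exact (wk_tendsto hu).mul_const _
  -- lower bound
  have hcont : ∀ k, Continuous fun x => et φ ξ k x * LinearMap.trace ℝ E (hs φ x : E →ₗ[ℝ] E) := by
    intro k
    refine continuous_mul_of_tsupport (contDiff_et h hξs hB hBg' hsupp k).continuous fun x hx => ?_
    have h2 := tsupport_et h hB hsupp k hx
    have hg := good_of_mem h hBg' (ne_zero_of_mem (uu_zero h) h2.1) h2.2
    have h1 : ContinuousAt (hs φ) x := by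
      have h2 : ContDiffAt ℝ ∞ (hs φ) x :=
        hg.contDiffAt_gradient.fderiv_right (m := ∞) (by simp)
      exact h2.continuousAt
    have h3 : Continuous fun L : E →L[ℝ] E => LinearMap.trace ℝ E (L : E →ₗ[ℝ] E) := by
      have h4 : Continuous ((LinearMap.trace ℝ E) ∘ₗ (ContinuousLinearMap.coeLM ℝ :
          (E →L[ℝ] E) →ₗ[ℝ] (E →ₗ[ℝ] E))) := LinearMap.continuous_of_finiteDimensional _
      exact h4
    exact h3.continuousAt.comp h1
  have hcs : ∀ k, HasCompactSupport fun x =>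
      et φ ξ k x * LinearMap.trace ℝ E (hs φ x : E →ₗ[ℝ] E) := fun k =>
    HasCompactSupport.intro (isCompact_Ck h hB k) fun x hx => by
      rw [et_eq_zero hsupp hx, zero_mul]
  have hint : ∀ k, Integrable fun x =>
      et φ ξ k x * LinearMap.trace ℝ E (hs φ x : E →ₗ[ℝ] E) := fun k =>
    (hcont k).integrable_of_hasCompactSupport (hcs k)
  have hmono : ∀ k l : ℕ, k ≤ l → ∀ x,
      et φ ξ l x * LinearMap.trace ℝ E (hs φ x : E →ₗ[ℝ] E) ≤
      et φ ξ k x * LinearMap.trace ℝ E (hs φ x : E →ₗ[ℝ] E) := by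
    intro k l hkl x
    by_cases hx : ‖x‖⁻¹ • x ∈ B
    · rcases eq_or_ne x 0 with rfl | hx0
      · unfold et
        rw [wk_eq_zero_low (by rw [uu_zero h, mul_zero]; exact zero_le_one),
          wk_eq_zero_low (by rw [uu_zero h, mul_zero]; exact zero_le_one)]
      · have h1 := (htr x hx0 hx).le
        apply mul_le_mul_of_nonpos_right _ h1
        unfold et
        exact mul_le_mul_of_nonneg_right (wk_mono hkl (uu_nonneg h x)) (hξ.nonneg x)
    · unfold et
      rw [hsupp x hx]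
      simp
  -- choose the first weight
  obtain ⟨k0, hk0⟩ : ∃ k0 : ℕ, 0 < wk k0 (uu φ q0) := by
    have hu : 0 < uu φ q0 := lt_of_lt_of_le (by rw [hq0]; positivity) (hb2 q0)
    have h1 := wk_tendsto hu
    exact ((tendsto_order.1 h1).1 0 (Real.exp_pos _)).exists
  have hq0B : ‖q0‖⁻¹ • q0 ∈ B := by
    by_contra hc
    rw [hsupp q0 hc] at hq1
    exact lt_irrefl _ hq1
  have hq00 : q0 ≠ 0 := by
    rintro rfl
    simp at hq0
  have hc0 : 0 < ∫ x, -(et φ ξ k0 x * LinearMap.trace ℝ E (hs φ x : E →ₗ[ℝ] E)) := by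
    refine (hcont k0).neg.integral_pos_of_hasCompactSupport_nonneg_nonzero (hcs k0).neg ?_ (x := q0) ?_
    · intro x
      have h1 := hmono 0 k0 (Nat.zero_le _) x
      have h2 : et φ ξ 0 x = 0 := by
        unfold et
        rw [wk_eq_zero_low (by simp), zero_mul]
      rw [h2, zero_mul] at h1
      simp only [Pi.zero_apply]
      linarith
    · have h1 : 0 < et φ ξ k0 q0 := mul_pos hk0 hq1
      have h2 := htr q0 hq00 hq0B
      exact (neg_pos.2 (mul_neg_of_pos_of_neg h1 h2)).ne'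
  refine lt_of_lt_of_le hc0 ?_
  refine ge_of_tendsto hlim ?_
  filter_upwards [eventually_ge_atTop k0] with k hkk
  rw [hk k, ← integral_neg]
  exact integral_mono (hint k0).neg (hint k).neg fun x => neg_le_neg (hmono k0 k hkk x)

end Bump

end Crest.Agent.R246.IF101
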