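import Crest.Agent.R246.IF1_101
import Crest.Agent.R246.IF2_101

/-!
# I(I), far part: bumps near non-umbilic points, symmetry `φ ↦ -φ` (helper101)
-/

set_option autoImplicit false
set_option linter.unusedSectionVars false
noncomputable section
open MeasureTheory Set Filter Topology Metric
open scoped RealInnerProductSpace ContDiff

namespace Crest.Agent.R246.IF101

open Crest.Agent.R246.H990 Crest.Agent.R246.SM436

variable {E : Type*} [NormedAddCommGroup E] [InnerProductSpace ℝ E] [FiniteDimensional ℝ E]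

/-- trace of an operator -/
def tr (A : E →L[ℝ] E) : ℝ := LinearMap.trace ℝ E (A : E →ₗ[ℝ] E)

lemma tr_eq_sum (A : E →L[ℝ] E) :
    tr A = ∑ i, ⟪stdOrthonormalBasis ℝ E i, A (stdOrthonormalBasis ℝ E i)⟫ :=
  LinearMap.trace_eq_sum_inner _ _

lemma tr_sub (A B : E →L[ℝ] E) : tr (A - B) = tr A - tr B := by
  simp [tr_eq_sum, inner_sub_right]

lemma tr_smul (c : ℝ) (A : E →L[ℝ] E) : tr (c • A) = c * tr A := by
  simp [tr_eq_sum, inner_smul_right, Finset.mul_sum]

lemma continuous_tr : Continuous (tr : (E →L[ℝ] E) → ℝ) := by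
  have : (tr : (E →L[ℝ] E) → ℝ) = fun A =>
      ∑ i, ⟪stdOrthonormalBasis ℝ E i, A (stdOrthonormalBasis ℝ E i)⟫ := by
    funext A; exact tr_eq_sum A
  rw [this]
  refine continuous_finsetSum _ fun i _ => ?_
  exact continuous_const.inner (continuous_id.clm_apply continuous_const)

lemma tr_comp_self_pos {A : E →L[ℝ] E} (hs : ∀ v w, ⟪A v, w⟫ = ⟪v, A w⟫) (hA : A ≠ 0) :
    0 < tr (A.comp A) := by
  set b := stdOrthonormalBasis ℝ E with hb
  have e : tr (A.comp A) = ∑ i, ‖A (b i)‖ ^ 2 := by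
    rw [tr_eq_sum]
    refine Finset.sum_congr rfl fun i _ => ?_
    rw [ContinuousLinearMap.comp_apply, ← hs, real_inner_self_eq_norm_sq]
  rw [e]
  by_contra hcon
  push Not at hcon
  have h0 : ∀ i ∈ Finset.univ, ‖A (b i)‖ ^ 2 = 0 :=
    (Finset.sum_eq_zero_iff_of_nonneg fun i _ => sq_nonneg _).1
      (le_antisymm hcon (Finset.sum_nonneg fun i _ => sq_nonneg _))
  apply hA
  ext v
  have h1 : A v = ∑ i, ⟪b i, v⟫ • A (b i) := by
    conv_lhs => rw [← b.sum_repr' v]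
    rw [map_sum]
    simp
  rw [h1]
  simp only [_root_.zero_apply]
  refine Finset.sum_eq_zero fun i hi => ?_
  have := h0 i hi
  have h2 : A (b i) = 0 := by
    rw [← norm_eq_zero]
    exact pow_eq_zero_iff (two_ne_zero) |>.1 this
  rw [h2, smul_zero]

lemma continuousAt_hs {φ : E → ℝ} {x : E} (h : Good φ x) : ContinuousAt (hs φ) x := by
  have h2 : ContDiffAt ℝ ∞ (hs φ) x := h.contDiffAt_gradient.fderiv_right (m := ∞) (by simp)
  exact h2.continuousAt

/-- Riccati identity in integrated form: `A_y = A_x - φ(y) A_x A_y`. -/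
lemma tr_hs {φ : E → ℝ} {b : ℝ} (hT : Tube φ b) {y : E} (hy : y ∈ TT φ b) :
    tr (hs φ y) = tr (hs φ (ft φ y)) - φ y * tr ((hs φ (ft φ y)).comp (hs φ y)) := by
  rw [← tr_smul, ← tr_sub]
  congr 1
  ext v
  simp only [_root_.sub_apply, _root_.smul_apply, ContinuousLinearMap.comp_apply]
  conv_lhs => rw [← hT.hs_ft_dft hy v, hT.dft_apply, map_sub, map_add, map_smul, map_smul,
    hT.hs_ft_gradient hy, smul_zero, add_zero]

/-- sign of the trace of the Hessian on the two sides of a non-umbilic point. -/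
lemma tr_hs_sign {φ : E → ℝ} {b : ℝ} (hT : Tube φ b) {p : E} (hp : p ∈ ZZ φ)
    (htr : tr (hs φ p) = 0) (hA : hs φ p ≠ 0) :
    ∀ᶠ s : ℝ in 𝓝 0, s ≠ 0 → s * tr (hs φ (p + s • gradient φ p)) < 0 := by
  have hpT := hT.mem_TT_of_ZZ hp
  have hn : 0 < ‖p‖ := norm_pos_iff.2 hp.1
  have h1 : ContinuousAt (fun s : ℝ => tr ((hs φ p).comp (hs φ (p + s • gradient φ p)))) 0 := by
    have h2 : ContinuousAt (fun s : ℝ => hs φ (p + s • gradient φ p)) 0 := by
      have h3 : ContinuousAt (hs φ) (p + (0 : ℝ) • gradient φ p) := by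
        rw [zero_smul, add_zero]
        exact continuousAt_hs (hT.good hpT)
      exact ContinuousAt.comp (f := fun s : ℝ => p + s • gradient φ p) h3 (by fun_prop)
    exact continuous_tr.continuousAt.comp (continuousAt_const.clm_comp h2)
  have h2 : 0 < tr ((hs φ p).comp (hs φ (p + (0 : ℝ) • gradient φ p))) := by
    rw [zero_smul, add_zero]
    exact tr_comp_self_pos (hT.good hpT).hs_symm hA
  have h3 := h1.eventually (lt_mem_nhds h2)
  have h4 : ∀ᶠ s : ℝ in 𝓝 0, |s| < b * ‖p‖ := by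
    exact (continuous_abs.tendsto (0 : ℝ)).eventually_lt_const
      (by rw [abs_zero]; exact mul_pos hT.hb hn)
  filter_upwards [h3, h4] with s hs1 hs2 hs3
  obtain ⟨h5, h6, h7, h8, h9⟩ := hT.seg hp hs2
  have h10 := tr_hs hT h5
  rw [h8, h7, htr, zero_sub] at h10
  rw [h10]
  have : 0 < s ^ 2 := by positivity
  nlinarith

/-! ### symmetry `φ ↦ -φ` -/

lemma gradient_neg' (φ : E → ℝ) : gradient (fun x => -φ x) = fun x => - gradient φ x := by
  funext x
  simp only [gradient]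
  rw [← map_neg]
  congr 1
  exact fderiv_fun_neg

lemma hs_neg (φ : E → ℝ) (x : E) : hs (fun x => -φ x) x = - hs φ x := by
  unfold hs
  rw [gradient_neg']
  exact fderiv_fun_neg

lemma Good_neg {φ : E → ℝ} {x : E} (h : Good φ x) : Good (fun x => -φ x) x := by
  obtain ⟨U, hU, hx, h1, h2⟩ := h
  refine ⟨U, hU, hx, h1.neg, fun y hy => ?_⟩
  rw [gradient_neg', norm_neg]
  exact h2 y hy

variable [MeasurableSpace E] [BorelSpace E]

lemma NullCone_neg {φ : E → ℝ} (h : NullCone φ) : NullCone fun x => -φ x where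
  hom := fun t ht x => by rw [h.hom t ht x]; ring
  lip := by
    refine LipschitzWith.of_dist_le_mul fun x y => ?_
    rw [dist_neg_neg]
    exact h.lip.dist_le_mul x y
  grad := by
    filter_upwards [h.grad] with x hx
    have : fderiv ℝ (fun x => -φ x) x = - fderiv ℝ φ x := fderiv_fun_neg
    rw [this, norm_neg, hx]
  bd := by
    obtain ⟨c, h0, h1, h2⟩ := h.bd
    exact ⟨c, h0, h1, fun x => by rw [abs_neg]; exact h2 x⟩

lemma Test_one_sub {ζ : E → ℝ} (h : Test ζ) : Test fun x => 1 - ζ x where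
  hom := fun t ht x => by rw [h.hom t ht x]
  nonneg := fun x => by have := h.le_one x; linarith
  le_one := fun x => by have := h.nonneg x; linarith
  lip := by
    obtain ⟨K, hK⟩ := h.lip
    refine ⟨K, LipschitzOnWith.of_dist_le_mul fun x hx y hy => ?_⟩
    have := hK.dist_le_mul x hx y hy
    rw [dist_sub_left]
    exact this

lemma flux_neg_one_sub (φ ζ : E → ℝ) : flux (fun x => -φ x) ζ = flux φ (fun x => 1 - ζ x) := by
  unfold flux
  congr 1
  funext x
  rw [gradient_neg']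
  have : fderiv ℝ (fun x => 1 - ζ x) x = - fderiv ℝ ζ x := fderiv_const_sub 1
  rw [this]
  simp

lemma VB_neg {φ : E → ℝ} {A : ℝ} (hV : VB φ A) : VB (fun x => -φ x) A := by
  intro ζ hζ
  rw [flux_neg_one_sub]
  exact hV _ (Test_one_sub hζ)

lemma boost_neg_neg {φ : E → ℝ} (h : LipschitzWith 1 φ) (z y : E) :
    boost (fun x => -φ x) (-z) y = - boost φ z y := by
  have hl : LipschitzWith 1 fun x => -φ x := by
    refine LipschitzWith.of_dist_le_mul fun x y => ?_
    rw [dist_neg_neg]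
    exact h.dist_le_mul x y
  by_cases hz : ‖z‖ < 1
  · have hz' : ‖-z‖ < 1 := by rwa [norm_neg]
    obtain ⟨x, rfl⟩ := bT_surjective h hz y
    have e1 : bT φ z x = bT (fun x => -φ x) (-z) x := by
      simp only [bT, LX, kap_neg, gam_neg, inner_neg_left]
      module
    rw [boost_bT h hz, e1, boost_bT hl hz']
    simp only [LB, gam_neg, inner_neg_left]
    ring
  · have hz' : ¬ ‖-z‖ < 1 := by rwa [norm_neg]
    rw [boost_of_not_lt hz, boost_of_not_lt hz', inner_neg_left]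

/-! ### bumps -/

/-- `p` is a point near which there are test functions with positive flux. -/
def BumpAt (φ : E → ℝ) (p : E) : Prop :=
  ∀ r : ℝ, 0 < r → ∃ ξ : E → ℝ, Test ξ ∧ (∀ x, r ≤ ‖‖x‖⁻¹ • x - p‖ → ξ x = 0) ∧ 0 < flux φ ξ

theorem exists_bump (hn : 2 ≤ Module.finrank ℝ E) {φ : E → ℝ} (h : NullCone φ) {b : ℝ}
    (hT : Tube φ b) {p : E} (hp : φ p = 0) (hp1 : ‖p‖ = 1) (htr : tr (hs φ p) = 0)
    (hA : hs φ p ≠ 0) : BumpAt φ p := by
  intro r hr
  have hp0 : p ≠ 0 := by rintro rfl; simp at hp1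
  have hpZ : p ∈ ZZ φ := ⟨hp0, hp⟩
  have hpT := hT.mem_TT_of_ZZ hpZ
  -- a nearby point on the positive side
  obtain ⟨s, hs0, hsr, hsb, hstr⟩ : ∃ s : ℝ, 0 < s ∧ s < min (r / 8) (1 / 8) ∧ |s| < b * ‖p‖ ∧
      s * tr (hs φ (p + s • gradient φ p)) < 0 := by
    have h1 := tr_hs_sign hT hpZ htr hA
    have h2 : ∀ᶠ s : ℝ in 𝓝 0, |s| < b * ‖p‖ := by
      exact (continuous_abs.tendsto (0 : ℝ)).eventually_lt_const
        (by rw [abs_zero, hp1, mul_one]; exact hT.hb)
    have h3 : ∀ᶠ s : ℝ in 𝓝 0, s < min (r / 8) (1 / 8) := gt_mem_nhds (by positivity)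
    have h4 := (h1.and (h2.and h3)).filter_mono (nhdsWithin_le_nhds (s := Ioi (0 : ℝ)))
    obtain ⟨s, ⟨hs1, hs2, hs3⟩, hs4⟩ := (h4.and self_mem_nhdsWithin).exists
    exact ⟨s, hs4, hs3, hs2, hs1 (ne_of_gt hs4)⟩
  set q := p + s • gradient φ p with hq
  have htrq : tr (hs φ q) < 0 := by
    by_contra hc
    push Not at hc
    have := mul_nonneg hs0.le hc
    linarith
  have hqT : q ∈ TT φ b := (hT.seg hpZ hsb).1
  have hgp : ‖gradient φ p‖ = 1 := (hT.good hpT).norm_gradient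
  have hqp : ‖q - p‖ = s := by
    rw [hq, add_sub_cancel_left, norm_smul, hgp, mul_one, Real.norm_eq_abs, abs_of_pos hs0]
  have hqn : 1 ≤ ‖q‖ := by
    have h1 : ‖q‖ ^ 2 = 1 + s ^ 2 := by
      rw [hq, norm_add_sq_real, inner_smul_right, real_inner_comm, hT.euler hpT, hp, norm_smul,
        hgp, hp1, Real.norm_eq_abs, mul_one, sq_abs]
      ring
    nlinarith [norm_nonneg q]
  have hq0 : q ≠ 0 := hT.ne_zero hqT
  have hqn' : 0 < ‖q‖ := by linarith
  set q0 := ‖q‖⁻¹ • q with hq0d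
  have hq01 : ‖q0‖ = 1 := by rw [hq0d, norm_smul, norm_inv, norm_norm, inv_mul_cancel₀ hqn'.ne']
  have hq0p : ‖q0 - p‖ ≤ 2 * s := by
    have h1 : q0 - p = q0 - q + (q - p) := by abel
    have h2 : ‖q0 - q‖ ≤ s := by
      have h3 : q0 - q = (‖q‖⁻¹ - 1) • q := by rw [sub_smul, one_smul]
      rw [h3, norm_smul, Real.norm_eq_abs]
      have h4 : |‖q‖⁻¹ - 1| * ‖q‖ = ‖q‖ - 1 := by
        have h5 : ‖q‖⁻¹ ≤ 1 := inv_le_one_of_one_le₀ hqn
        rw [abs_of_nonpos (by linarith)]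
        field_simp
        ring
      rw [h4]
      have h5 : ‖q‖ ≤ ‖p‖ + ‖q - p‖ := by
        have := norm_add_le p (q - p)
        rwa [add_sub_cancel] at this
      rw [hqp, hp1] at h5
      linarith
    calc ‖q0 - p‖ = ‖q0 - q + (q - p)‖ := by rw [← h1]
      _ ≤ ‖q0 - q‖ + ‖q - p‖ := norm_add_le _ _
      _ ≤ s + s := by rw [hqp]; linarith
      _ = 2 * s := by ring
  -- the good set is a neighbourhood of q0
  have hq0g : Good φ q0 := good_smul h.hom (hT.good hqT) (inv_pos.2 hqn')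
  have htrq0 : tr (hs φ q0) < 0 := by
    have h1 := (hT.good hqT).hs_smul h.hom (inv_pos.2 hqn')
    rw [← hq0d] at h1
    rw [h1, inv_inv, tr_smul]
    exact mul_neg_of_pos_of_neg hqn' htrq
  have hnhds : {y | Good φ y ∧ tr (hs φ y) < 0} ∈ 𝓝 q0 := by
    have h1 : ∀ᶠ y in 𝓝 q0, Good φ y := (isOpen_good φ).mem_nhds hq0g
    have h2 : ∀ᶠ y in 𝓝 q0, tr (hs φ y) < 0 :=
      (continuous_tr.continuousAt.comp (continuousAt_hs hq0g)).eventually (gt_mem_nhds htrq0)
    exact h1.and h2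
  obtain ⟨ρ, hρ, hρs⟩ := Metric.nhds_basis_closedBall.mem_iff.1 hnhds
  set ρ' := min ρ (min (r / 8) (1 / 8)) with hρ'
  have hρ'0 : 0 < ρ' := by positivity
  have hρ'1 : ρ' ≤ ρ := min_le_left _ _
  have hρ'2 : ρ' ≤ r / 8 := (min_le_right _ _).trans (min_le_left _ _)
  have hρ'3 : ρ' ≤ 1 / 8 := (min_le_right _ _).trans (min_le_right _ _)
  have hs8 : s < r / 8 := hsr.trans_le (min_le_left _ _)
  have hs8' : s < 1 / 8 := hsr.trans_le (min_le_right _ _)
  set f : ContDiffBump q0 := ⟨ρ' / 2, ρ', half_pos hρ'0, half_lt_self hρ'0⟩ with hf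
  have hfsupp : ∀ y, y ∉ closedBall q0 ρ' → f y = 0 := by
    intro y hy
    apply f.zero_of_le_dist
    rw [mem_closedBall, not_le] at hy
    exact hy.le
  set ξ : E → ℝ := fun x => f (‖x‖⁻¹ • x) with hξ
  have hTest : Test ξ := by
    refine ⟨fun t ht x => ?_, fun x => f.nonneg, fun x => f.le_one, ?_⟩
    · simp only [hξ]
      congr 1
      rw [norm_smul, Real.norm_eq_abs, abs_of_pos ht, smul_smul, mul_inv]
      congr 1
      field_simp
    · obtain ⟨K, hK⟩ := (f.contDiff (n := 1)).lipschitzWith_of_hasCompactSupport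
        f.hasCompactSupport (by simp)
      refine ⟨K, LipschitzOnWith.of_dist_le_mul fun x hx y hy => ?_⟩
      have hx' : ‖x‖ = 1 := mem_sphere_zero_iff_norm.1 hx
      have hy' : ‖y‖ = 1 := mem_sphere_zero_iff_norm.1 hy
      simp only [hξ, hx', hy', inv_one, one_smul]
      exact hK.dist_le_mul x y
  have hsm : ContDiffOn ℝ ∞ ξ {0}ᶜ := by
    intro x hx
    have h1 : ContDiffAt ℝ ∞ (fun x : E => ‖x‖⁻¹) x :=
      (contDiffAt_norm ℝ hx).inv (norm_ne_zero_iff.2 hx)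
    have h2 : ContDiffAt ℝ ∞ (fun x : E => ‖x‖⁻¹ • x) x := h1.smul contDiffAt_id
    exact (f.contDiff.contDiffAt.comp x h2).contDiffWithinAt
  have hfar : ∀ x, ‖x‖⁻¹ • x ∉ closedBall q0 ρ' → ξ x = 0 := fun x hx => hfsupp _ hx
  refine ⟨ξ, hTest, fun x hx => ?_, ?_⟩
  · apply hfar
    intro hc
    rw [mem_closedBall, dist_eq_norm] at hc
    have h1 : ‖‖x‖⁻¹ • x - p‖ ≤ ‖‖x‖⁻¹ • x - q0‖ + ‖q0 - p‖ := by
      have := norm_add_le (‖x‖⁻¹ • x - q0) (q0 - p)
      rwa [sub_add_sub_cancel] at this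
    linarith
  · refine flux_pos_of_bump hn h hTest hsm isClosed_closedBall (fun y hy => ?_) hfar hq01 ?_
    · exact hρs (closedBall_subset_closedBall hρ'1 hy)
    · simp only [hξ, hq01, inv_one, one_smul]
      rw [f.one_of_mem_closedBall (mem_closedBall_self (half_pos hρ'0).le)]
      exact one_pos

/-- both sides. -/
theorem exists_bump_both (hn : 2 ≤ Module.finrank ℝ E) {φ : E → ℝ} (h : SmoothMin φ) {p : E}
    (hp : φ p = 0) (hp1 : ‖p‖ = 1) (hA : hs φ p ≠ 0) :
    BumpAt φ p ∧ BumpAt (fun x => -φ x) p := by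
  have hp0 : p ≠ 0 := by rintro rfl; simp at hp1
  have hlt : ∀ x, x ≠ 0 → |φ x| < ‖x‖ := by
    obtain ⟨c, hc0, hc1, hc⟩ := h.nc.bd
    intro x hx
    have hn : 0 < ‖x‖ := norm_pos_iff.2 hx
    calc |φ x| ≤ c * ‖x‖ := hc x
      _ < 1 * ‖x‖ := by gcongr
      _ = ‖x‖ := one_mul _
  have htr : tr (hs φ p) = 0 := h.min p hp0 hp
  constructor
  · obtain ⟨b, hT⟩ := exists_Tube h.nc.hom h.nc.lip hlt h.good
    exact exists_bump hn h.nc hT hp hp1 htr hA
  · have hN := NullCone_neg h.nc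
    obtain ⟨b, hT⟩ := exists_Tube (φ := fun x => -φ x) hN.hom hN.lip
      (fun x hx => by rw [abs_neg]; exact hlt x hx)
      (fun x hx hx2 => Good_neg (h.good x hx (neg_eq_zero.1 hx2)))
    refine exists_bump hn hN hT (by simp [hp]) hp1 ?_ ?_
    · rw [hs_neg, ← neg_one_smul ℝ, tr_smul, htr, mul_zero]
    · rw [hs_neg]; exact neg_ne_zero.2 hA

end Crest.Agent.R246.IF101
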