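import Crest.Agent.R246.IF3_101
import Crest.Agent.R246.Slice2_990
import Mathlib.Analysis.SpecialFunctions.Trigonometric.Arctan

/-!
# I(I), far part: strict energy loss away from `(z,θ) = (0,0)` (helper101)
-/

set_option autoImplicit false
set_option linter.unusedSectionVars false
noncomputable section
open MeasureTheory Set Filter Topology Metric
open scoped RealInnerProductSpace ContDiff Real

namespace Crest.Agent.R246.IF101

open Crest.Agent.R246.H990 Crest.Agent.R246.SM436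

/-! ### the slice profile in the variable `u = sin r` -/

/-- density in `u = sin r`, `k = dim - 3 = m - 1`. -/
def kd (k : ℕ) (ε θ u : ℝ) : ℝ :=
  (3 / 4) * (K ε (Real.arcsin u - θ) * Real.sqrt (1 - u ^ 2) ^ k)

lemma continuous_kd (k : ℕ) (ε θ : ℝ) : Continuous (kd k ε θ) := by
  unfold kd
  have h1 := continuous_K ε
  have h2 := Real.continuous_arcsin
  fun_prop

lemma kd_nonneg (k : ℕ) {ε : ℝ} (hε : 0 < ε) (θ u : ℝ) : 0 ≤ kd k ε θ u := by
  unfold kd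
  have := K_nonneg hε (Real.arcsin u - θ)
  positivity

/-- the profile. -/
def HH (k : ℕ) (ε θ u : ℝ) : ℝ := ∫ s in (-1 : ℝ)..u, kd k ε θ s

lemma hasDerivAt_HH (k : ℕ) (ε θ u : ℝ) : HasDerivAt (HH k ε θ) (kd k ε θ u) u :=
  intervalIntegral.integral_hasDerivAt_right ((continuous_kd k ε θ).intervalIntegrable _ _)
    ((continuous_kd k ε θ).stronglyMeasurableAtFilter _ _) (continuous_kd k ε θ).continuousAt

/-- substitution `u = sin t`. -/
lemma HH_eq (k : ℕ) (ε θ : ℝ) {u : ℝ} (hu : u ∈ Icc (-1 : ℝ) 1) :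
    HH k ε θ u = Gm (k + 1) ε θ (Real.arcsin u) := by
  have h1 := intervalIntegral.integral_comp_mul_deriv (a := -(π / 2)) (b := Real.arcsin u)
    (f := Real.sin) (f' := Real.cos) (g := kd k ε θ) (fun x _ => Real.hasDerivAt_sin x)
    Real.continuous_cos.continuousOn (continuous_kd k ε θ)
  rw [Real.sin_neg, Real.sin_pi_div_two, Real.sin_arcsin hu.1 hu.2] at h1
  unfold HH
  rw [← h1, Gm, ← intervalIntegral.integral_const_mul]
  refine intervalIntegral.integral_congr fun s hs => ?_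
  rw [uIcc_of_le (Real.neg_pi_div_two_le_arcsin u)] at hs
  have hs2 : s ≤ π / 2 := hs.2.trans (Real.arcsin_le_pi_div_two u)
  simp only [kd, Kc, Function.comp_apply]
  rw [Real.arcsin_sin hs.1 hs2, ← Real.cos_sq',
    Real.sqrt_sq (Real.cos_nonneg_of_mem_Icc ⟨hs.1, hs2⟩), pow_succ]
  ring

lemma arcsin_mem (u : ℝ) : Real.arcsin u ∈ Icc (-(π / 2)) (π / 2) :=
  ⟨Real.neg_pi_div_two_le_arcsin u, Real.arcsin_le_pi_div_two u⟩

lemma HH_nonneg (k : ℕ) {ε : ℝ} (hε : 0 < ε) (θ : ℝ) {u : ℝ} (hu : u ∈ Icc (-1 : ℝ) 1) :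
    0 ≤ HH k ε θ u := by
  rw [HH_eq k ε θ hu]; exact Gm_nonneg _ hε θ (arcsin_mem u)

lemma HH_le_one (k : ℕ) {ε : ℝ} (hε : 0 < ε) (θ : ℝ) {u : ℝ} (hu : u ∈ Icc (-1 : ℝ) 1) :
    HH k ε θ u ≤ 1 := by
  rw [HH_eq k ε θ hu]; exact Gm_le_one _ hε θ (arcsin_mem u).1

lemma exists_lip_HH (k : ℕ) (ε θ : ℝ) : ∃ L : NNReal, LipschitzOnWith L (HH k ε θ) (Icc (-1) 1) := by
  obtain ⟨B, hB⟩ := (isCompact_Icc (a := (-1 : ℝ)) (b := 1)).exists_bound_of_continuousOn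
    (continuous_kd k ε θ).continuousOn
  refine ⟨B.toNNReal, ?_⟩
  refine Convex.lipschitzOnWith_of_nnnorm_hasDerivWithin_le (convex_Icc _ _)
    (fun u _ => (hasDerivAt_HH k ε θ u).hasDerivWithinAt) fun u hu => ?_
  rw [← NNReal.coe_le_coe, coe_nnnorm]
  exact (hB u hu).trans (Real.le_coe_toNNReal B)

variable {E : Type*} [NormedAddCommGroup E] [InnerProductSpace ℝ E] [FiniteDimensional ℝ E]
  [MeasurableSpace E] [BorelSpace E]

/-- slice test function of `ψ`. -/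
def sl (ψ : E → ℝ) (k : ℕ) (ε θ : ℝ) (x : E) : ℝ := HH k ε θ (ψ x * ‖x‖⁻¹)

lemma test_sl {ψ : E → ℝ} (h : NullCone ψ) (k : ℕ) {ε : ℝ} (hε : 0 < ε) (θ : ℝ) :
    Test (sl ψ k ε θ) := by
  obtain ⟨L, hL⟩ := exists_lip_HH k ε θ
  exact slice_test h (fun u hu => HH_nonneg k hε θ hu) (fun u hu => HH_le_one k hε θ hu) hL

/-- flux of the slice test function = profile energy. -/
lemma flux_sl {ψ : E → ℝ} (h : NullCone ψ) {k : ℕ} (hk : Module.finrank ℝ E = k + 3) {ε : ℝ}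
    (hε : 0 < ε) (θ : ℝ) :
    flux ψ (sl ψ k ε θ) = cV E * ((3 / 4) * Fam348.PrE ε θ ψ) := by
  rw [flux_eq_sphere (by omega) h (test_sl h k hε θ)]
  congr 1
  rw [Fam348.PrE, ← integral_const_mul]
  refine integral_congr_ae ?_
  filter_upwards [h.ae_good (by omega)] with q hq
  have hq1 : ‖(q : E)‖ = 1 := mem_sphere_zero_iff_norm.1 q.2
  have e0 : fderiv ℝ (sl ψ k ε θ) q (gradient ψ q) = kd k ε θ (ψ q) * (1 - ψ q ^ 2) :=
    fD_slice h hq1 hq.1 hq.2 (hasDerivAt_HH k ε θ _)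
  rw [e0]
  obtain ⟨c', _, hc1, hc⟩ := h.bd'
  have ha : 0 < 1 - ψ q ^ 2 := by have := hc q; linarith
  have ha' : 0 < Real.sqrt (1 - ψ q ^ 2) := Real.sqrt_pos.2 ha
  have h3 : 1 - ψ q ^ 2 = Real.sqrt (1 - ψ q ^ 2) ^ 2 := (Real.sq_sqrt ha.le).symm
  have e1 : Module.finrank ℝ E - 1 = k + 2 := by omega
  simp only [kd, K]
  rw [e1, pow_add]
  set a := Real.sqrt (1 - ψ q ^ 2) with hadef
  rw [h3]
  field_simp

/-! ### additivity of the flux -/

lemma integrable_flux_sphere {φ : E → ℝ} (h : NullCone φ) {ζ : E → ℝ} (hζ : Test ζ) (n : ℕ) :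
    Integrable (fun q : sphere (0 : E) 1 => (Real.sqrt (1 - φ q ^ 2) ^ n)⁻¹ *
      fderiv ℝ ζ q (gradient φ q)) (sig E) := by
  obtain ⟨c, hc0, hc1, hc⟩ := h.bd'
  obtain ⟨L, hL0, hL⟩ := hζ.fderiv_le
  have hm : Measurable fun q : sphere (0 : E) 1 => (Real.sqrt (1 - φ q ^ 2) ^ n)⁻¹ *
      fderiv ℝ ζ q (gradient φ q) := by
    have h1 : Measurable fun x : E => (Real.sqrt (1 - φ x ^ 2) ^ n)⁻¹ :=
      ((Real.continuous_sqrt.measurable.comp
        (measurable_const.sub (h.lip.continuous.measurable.pow_const 2))).pow_const n).inv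
    exact (h1.mul (measurable_fD φ ζ)).comp measurable_subtype_coe
  refine Integrable.mono' (integrable_const ((Real.sqrt (1 - c) ^ n)⁻¹ * L))
    hm.aestronglyMeasurable (Eventually.of_forall fun q => ?_)
  have hq : ‖(q : E)‖ = 1 := mem_sphere_zero_iff_norm.1 q.2
  have hq0 : (q : E) ≠ 0 := by
    intro h0; rw [h0, norm_zero] at hq; exact zero_ne_one hq
  have h1 : |fderiv ℝ ζ q (gradient φ q)| ≤ L := by
    have h4 := ContinuousLinearMap.le_opNorm (fderiv ℝ ζ q) (gradient φ q)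
    rw [Real.norm_eq_abs] at h4
    have h5 := hL q hq0
    rw [hq, div_one] at h5
    calc _ ≤ ‖fderiv ℝ ζ q‖ * ‖gradient φ q‖ := h4
      _ ≤ L * 1 := mul_le_mul h5 (gradient_norm_le h.lip _) (norm_nonneg _) hL0
      _ = L := mul_one L
  have h2 : 0 < Real.sqrt (1 - c) := Real.sqrt_pos.2 (by linarith)
  have h3 : Real.sqrt (1 - c) ≤ Real.sqrt (1 - φ q ^ 2) :=
    Real.sqrt_le_sqrt (by have := hc q; linarith)
  have h6 : (Real.sqrt (1 - φ q ^ 2) ^ n)⁻¹ ≤ (Real.sqrt (1 - c) ^ n)⁻¹ :=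
    inv_anti₀ (by positivity) (pow_le_pow_left₀ h2.le h3 n)
  rw [Real.norm_eq_abs, abs_mul]
  have h7 : 0 < Real.sqrt (1 - φ q ^ 2) := h2.trans_le h3
  rw [abs_of_nonneg (by positivity : 0 ≤ (Real.sqrt (1 - φ q ^ 2) ^ n)⁻¹)]
  exact mul_le_mul h6 h1 (abs_nonneg _) (by positivity)

lemma Test.ae_diff_sphere [Nontrivial E] {ζ : E → ℝ} (hζ : Test ζ) :
    ∀ᵐ q : sphere (0 : E) 1 ∂(sig E), DifferentiableAt ℝ ζ q := by
  have h1 : ∀ᵐ q : sphere (0 : E) 1 ∂(sig E), (q : E) ≠ 0 → DifferentiableAt ℝ ζ q := by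
    refine ae_sphere_of_ae (P := fun x => x ≠ 0 → DifferentiableAt ℝ ζ x)
      hζ.ae_differentiableAt ?_
    intro t ht x hx hx0
    have h2 : t • x ≠ 0 := smul_ne_zero ht.ne' hx0
    exact differentiableAt_hom hζ.hom' ht (hx h2)
  filter_upwards [h1] with q hq
  apply hq
  have hq : ‖(q : E)‖ = 1 := mem_sphere_zero_iff_norm.1 q.2
  intro h0; rw [h0, norm_zero] at hq; exact zero_ne_one hq

lemma flux_add_smul (hn : 2 ≤ Module.finrank ℝ E) {φ : E → ℝ} (h : NullCone φ) {ζ ξ : E → ℝ}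
    (hζ : Test ζ) (hξ : Test ξ) {c : ℝ} (hs : Test fun x => ζ x + c * ξ x) :
    flux φ (fun x => ζ x + c * ξ x) = flux φ ζ + c * flux φ ξ := by
  have hnt : Nontrivial E := Module.nontrivial_of_finrank_pos (R := ℝ) (by omega)
  rw [flux_eq_sphere hn h hs, flux_eq_sphere hn h hζ, flux_eq_sphere hn h hξ,
    mul_left_comm c, ← mul_add]
  congr 1
  rw [← integral_const_mul,
    ← integral_add (integrable_flux_sphere h hζ _) ((integrable_flux_sphere h hξ _).const_mul c)]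
  refine integral_congr_ae ?_
  filter_upwards [Test.ae_diff_sphere hζ, Test.ae_diff_sphere hξ] with q h1 h2
  have h3 : HasFDerivAt (fun x => ζ x + c * ξ x) (fderiv ℝ ζ q + c • fderiv ℝ ξ q) q :=
    h1.hasFDerivAt.add (h2.hasFDerivAt.const_mul c)
  rw [h3.fderiv]
  simp only [_root_.add_apply, _root_.smul_apply, smul_eq_mul]
  ring

/-! ### the far lemma, one sign -/

/-- the boosted slope below a point `p` with `⟪z,p⟫ ≤ -a`. -/
lemma slope_le {φ : E → ℝ} (h : NullCone φ) {z p x : E} (hz : ‖z‖ < 1) (hp : φ p = 0)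
    {a : ℝ} (ha : 0 < a) (hzp : ⟪z, p⟫ ≤ -a) (hx1 : ‖x‖ = 1) (hxp : ‖x - p‖ < a / 4) :
    Real.arcsin (boost φ z (bT φ z x) * ‖bT φ z x‖⁻¹) ≤ -Real.arctan (a / 2) := by
  have h1 : φ x ≤ a / 4 := by
    have := lip_abs h.lip x p
    rw [hp, sub_zero] at this
    exact (le_abs_self _).trans (this.trans hxp.le)
  have h2 : ⟪z, x⟫ ≤ -a + a / 4 := by
    have h3 : ⟪z, x⟫ = ⟪z, p⟫ + ⟪z, x - p⟫ := by rw [inner_sub_right]; ring
    have h4 : |⟪z, x - p⟫| ≤ a / 4 := by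
      calc |⟪z, x - p⟫| ≤ ‖z‖ * ‖x - p‖ := abs_real_inner_le_norm _ _
        _ ≤ 1 * (a / 4) := mul_le_mul hz.le hxp.le (norm_nonneg _) zero_le_one
        _ = a / 4 := one_mul _
    have h5 := (le_abs_self _).trans h4
    linarith
  have hb : boost φ z (bT φ z x) ≤ -(a / 2) := by
    rw [boost_bT h.lip hz, LB]
    have h6 : φ x + ⟪z, x⟫ ≤ -(a / 2) := by linarith
    have h7 := one_le_gam hz
    nlinarith
  -- normalise
  set v := bT φ z x with hv
  set β := boost φ z v with hβ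
  have hform := boost_form h.lip hz x
  rw [hx1, one_pow, ← hv, ← hβ] at hform
  obtain ⟨c, _, hc1, hc⟩ := h.bd
  have hφx : φ x ^ 2 < 1 := by
    have h3 := hc x
    rw [hx1, mul_one] at h3
    have h4 := abs_le.1 h3
    nlinarith
  have hv0 : 0 < ‖v‖ := by
    rw [norm_pos_iff]
    intro h0
    rw [h0, norm_zero] at hform
    nlinarith [sq_nonneg β]
  set u := β * ‖v‖⁻¹ with hu
  have hu2 : 1 - u ^ 2 = (1 - φ x ^ 2) / ‖v‖ ^ 2 := by
    rw [hu]
    field_simp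
    linarith
  have hu3 : 0 < 1 - u ^ 2 := by rw [hu2]; apply div_pos <;> [linarith; positivity]
  have huI : u ∈ Ioo (-1 : ℝ) 1 := by
    constructor <;> nlinarith
  rw [Real.arcsin_eq_arctan huI, ← Real.arctan_neg]
  apply Real.arctan_mono
  have hsq : Real.sqrt (1 - u ^ 2) ≤ ‖v‖⁻¹ := by
    rw [hu2]
    apply Real.sqrt_le_iff.2
    refine ⟨by positivity, ?_⟩
    rw [inv_pow, div_eq_mul_inv]
    have : 0 < (‖v‖ ^ 2)⁻¹ := by positivity
    nlinarith [sq_nonneg (φ x)]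
  have hsq0 : 0 < Real.sqrt (1 - u ^ 2) := Real.sqrt_pos.2 hu3
  rw [div_le_iff₀ hsq0, hu]
  have hvi : 0 < ‖v‖⁻¹ := by positivity
  nlinarith

/-- **Far lemma, one sign**, for a single bump. -/
theorem far_neg {k : ℕ} (hk : Module.finrank ℝ E = k + 3) {φ : E → ℝ} (h : NullCone φ) {V : ℝ}
    (hV : VB φ V) {p : E} (hp : φ p = 0) {a : ℝ} (ha : 0 < a) {ξ : E → ℝ} (hξ : Test ξ)
    (hξs : ∀ x, a / 4 ≤ ‖‖x‖⁻¹ • x - p‖ → ξ x = 0) {z : E} (hz : ‖z‖ < 1)
    (hzp : ⟪z, p⟫ ≤ -a) {ε : ℝ} (hε : 0 < ε) (hε2 : ε ≤ Real.arctan (a / 2) / 2) {θ : ℝ}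
    (hθ : -(Real.arctan (a / 2) / 2) ≤ θ) :
    (3 / 4) * Fam348.PrE ε θ (boost φ z) ≤ V - flux φ ξ / (2 * cV E) := by
  set η := Real.arctan (a / 2) / 2 with hη
  have hη0 : 0 < η := by
    have : 0 < Real.arctan (a / 2) := Real.arctan_pos.2 (by linarith)
    positivity
  have hψ := h.boost hz
  set ζ0 := sl (boost φ z) k ε θ with hζ0
  have hT0 := test_sl hψ k hε θ
  have hT1 : Test (ζ0 ∘ bT φ z) := hT0.comp_bT h hz
  have hcv := cV_pos E
  have hsmall : ∀ x, ξ x ≠ 0 → (ζ0 ∘ bT φ z) x ≤ 1 / 2 := by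
    intro x hx
    have h1 : ‖‖x‖⁻¹ • x - p‖ < a / 4 := by
      by_contra hc
      push Not at hc
      exact hx (hξs x hc)
    rcases eq_or_ne x 0 with rfl | hx0
    · -- value at the origin
      have h2 : ‖p‖ < a / 4 := by simpa using h1
      have h3 : |⟪z, p⟫| ≤ ‖p‖ := by
        calc |⟪z, p⟫| ≤ ‖z‖ * ‖p‖ := abs_real_inner_le_norm _ _
          _ ≤ 1 * ‖p‖ := by gcongr
          _ = ‖p‖ := one_mul _
      have := (abs_le.1 h3).1
      linarith
    · have hn' : 0 < ‖x‖ := norm_pos_iff.2 hx0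
      have hy1 : ‖‖x‖⁻¹ • x‖ = 1 := by rw [norm_smul, norm_inv, norm_norm, inv_mul_cancel₀ hn'.ne']
      have h2 := slope_le h hz hp ha hzp hy1 h1
      have h3 := hT1.hom ‖x‖⁻¹ (inv_pos.2 hn') x
      rw [← h3]
      set y := ‖x‖⁻¹ • x with hy
      have h4 : (ζ0 ∘ bT φ z) y = Gm (k + 1) ε θ
          (Real.arcsin (boost φ z (bT φ z y) * ‖bT φ z y‖⁻¹)) := by
        simp only [Function.comp_apply, hζ0, sl]
        exact HH_eq k ε θ (abs_le.1 (div_norm_abs_le hψ _))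
      rw [h4]
      refine (Gm_tail (k + 1) hε θ (arcsin_mem _).1 hη0.le (by linarith)).trans ?_
      have h5 : 1 ≤ η / ε := by rw [le_div_iff₀ hε]; linarith
      rw [div_le_div_iff₀ (by linarith) (by norm_num)]
      linarith
  have hsum : Test fun x => (ζ0 ∘ bT φ z) x + (1 / 2) * ξ x := by
    refine ⟨fun t ht x => by rw [hT1.hom t ht, hξ.hom t ht], fun x => ?_, fun x => ?_, ?_⟩
    · have := hT1.nonneg x
      have := hξ.nonneg x
      positivity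
    · by_cases hx : ξ x = 0
      · rw [hx, mul_zero, add_zero]; exact hT1.le_one x
      · have := hsmall x hx
        have := hξ.le_one x
        linarith
    · obtain ⟨K1, hK1⟩ := hT1.lip
      obtain ⟨K2, hK2⟩ := hξ.lip
      refine ⟨K1 + K2, LipschitzOnWith.of_dist_le_mul fun x hx y hy => ?_⟩
      have h1 := hK1.dist_le_mul x hx y hy
      have h2 := hK2.dist_le_mul x hx y hy
      rw [Real.dist_eq] at h1 h2 ⊢
      have e : (ζ0 ∘ bT φ z) x + 1 / 2 * ξ x - ((ζ0 ∘ bT φ z) y + 1 / 2 * ξ y) =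
        ((ζ0 ∘ bT φ z) x - (ζ0 ∘ bT φ z) y) + (1 / 2) * (ξ x - ξ y) := by ring
      rw [e]
      have h3 := abs_add_le ((ζ0 ∘ bT φ z) x - (ζ0 ∘ bT φ z) y) ((1 / 2) * (ξ x - ξ y))
      rw [abs_mul, abs_of_pos (by norm_num : (0 : ℝ) < 1 / 2)] at h3
      have h4 := abs_nonneg (ξ x - ξ y)
      push_cast
      linarith
  have h1 := hV _ hsum
  rw [flux_add_smul (by omega) h hT1 hξ hsum, ← flux_boost h hz hT0, flux_sl hψ hk hε θ] at h1
  have h2 : (3 / 4) * Fam348.PrE ε θ (boost φ z) * cV E ≤ (V - flux φ ξ / (2 * cV E)) * cV E := by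
    have e : (V - flux φ ξ / (2 * cV E)) * cV E = V * cV E - 1 / 2 * flux φ ξ := by
      field_simp
    rw [e]
    linarith
  exact le_of_mul_le_mul_right h2 hcv

/-- symmetry of the profile energy. -/
lemma PrE_neg {φ : E → ℝ} (h : LipschitzWith 1 φ) (ε θ : ℝ) (z : E) :
    Fam348.PrE ε (-θ) (boost (fun x => -φ x) (-z)) = Fam348.PrE ε θ (boost φ z) := by
  unfold Fam348.PrE
  congr 1
  funext y
  rw [boost_neg_neg h, Real.arcsin_neg]
  congr 2
  have : (-Real.arcsin (boost φ z y) - -θ) / ε = -((Real.arcsin (boost φ z y) - θ) / ε) := by ring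
  rw [this, Real.tanh_neg, neg_sq]

/-- **Far lemma in `z`**, near one point with bumps on both sides. -/
theorem far_point {k : ℕ} (hk : Module.finrank ℝ E = k + 3) {φ : E → ℝ} (h : NullCone φ) {V : ℝ}
    (hV : VB φ V) {p : E} (hp : φ p = 0) (hb1 : BumpAt φ p) (hb2 : BumpAt (fun x => -φ x) p)
    {a : ℝ} (ha : 0 < a) : ∃ c : ℝ, 0 < c ∧ ∀ z : E, ‖z‖ < 1 → a ≤ |⟪z, p⟫| →
      ∀ ε : ℝ, 0 < ε → ε ≤ Real.arctan (a / 2) / 2 → ∀ θ : ℝ, |θ| ≤ Real.arctan (a / 2) / 2 →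
      (3 / 4) * Fam348.PrE ε θ (boost φ z) ≤ V - c := by
  obtain ⟨ξ1, h11, h12, h13⟩ := hb1 (a / 4) (by positivity)
  obtain ⟨ξ2, h21, h22, h23⟩ := hb2 (a / 4) (by positivity)
  have hcv := cV_pos E
  refine ⟨min (flux φ ξ1 / (2 * cV E)) (flux (fun x => -φ x) ξ2 / (2 * cV E)), by positivity,
    fun z hz hzp ε hε hε2 θ hθ => ?_⟩
  have hθ' := abs_le.1 hθ
  rcases le_abs.1 hzp with h1 | h1
  · -- `⟪z,p⟫ ≥ a`: use `-φ`
    have h2 := far_neg hk (NullCone_neg h) (VB_neg hV) (p := p) (by simp [hp]) ha h21 h22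
      (z := -z) (by rwa [norm_neg]) (by rw [inner_neg_left]; linarith) hε hε2 (θ := -θ)
      (by linarith)
    rw [PrE_neg h.lip] at h2
    have := min_le_right (flux φ ξ1 / (2 * cV E)) (flux (fun x => -φ x) ξ2 / (2 * cV E))
    linarith
  · have h2 := far_neg hk h hV hp ha h11 h12 hz (by linarith) hε hε2 (θ := θ) (by linarith)
    have := min_le_left (flux φ ξ1 / (2 * cV E)) (flux (fun x => -φ x) ξ2 / (2 * cV E))
    linarith

/-- **Far lemma in `θ`.** -/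
theorem far_theta {k : ℕ} (hk : Module.finrank ℝ E = k + 3) {ψ : E → ℝ} (h : NullCone ψ) {V : ℝ}
    (hV : VB ψ V) {ρ : ℝ} (hρ : 0 < ρ) (hρ2 : ρ ≤ 1) {ε : ℝ} (hε : 0 < ε) {θ : ℝ}
    (hθ : ρ ≤ |θ|) :
    (3 / 4) * Fam348.PrE ε θ ψ ≤ V * (Real.cos (ρ / 2) + 2 / (1 + ρ / (2 * ε))) := by
  have h1 := hV.slice (by omega) h (f := fun s => K ε (s - θ))
    ((continuous_K ε).comp (by fun_prop)) (fun s => K_nonneg hε _)
  have e : Module.finrank ℝ E - 2 = k + 1 := by omega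
  rw [e] at h1
  have h2 := total_far (k + 1) (by omega) hε hρ.le (by linarith [Real.two_le_pi]) hθ
  have h3 : Fam348.PrE ε θ ψ = ∫ q : sphere (0 : E) 1, K ε (Real.arcsin (ψ q) - θ) ∂(sig E) := rfl
  have hV0 := hV.nonneg
  calc (3 / 4) * Fam348.PrE ε θ ψ
      ≤ (3 / 4) * (V * ∫ s in (-(π / 2))..(π / 2), K ε (s - θ) * Real.cos s ^ (k + 1)) := by
        rw [h3]; linarith
    _ = V * ((3 / 4) * ∫ s in (-(π / 2))..(π / 2), K ε (s - θ) * Real.cos s ^ (k + 1)) := by ring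
    _ ≤ _ := mul_le_mul_of_nonneg_left h2 hV0

end Crest.Agent.R246.IF101
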