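import Crest.Agent.R246.IF4_101

/-!
# I(I), far part: final form of the far lemma (helper101)
-/

set_option autoImplicit false
set_option linter.unusedSectionVars false
noncomputable section
open MeasureTheory Set Filter Topology Metric
open scoped RealInnerProductSpace ContDiff Real

namespace Crest.Agent.R246.IF101

open Crest.Agent.R246.H990 Crest.Agent.R246.SM436

variable {E : Type*} [NormedAddCommGroup E] [InnerProductSpace ℝ E] [FiniteDimensional ℝ E]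

/-- finitely many non-umbilic points control all directions. -/
lemma exists_finite_span {P : Set E} (hP : ∀ w : E, w ≠ 0 → ∃ p ∈ P, ⟪w, p⟫ ≠ 0) :
    ∃ F : Finset E, (↑F : Set E) ⊆ P ∧ ∃ c : ℝ, 0 < c ∧ ∀ w : E, w ≠ 0 →
      ∃ p ∈ F, c * ‖w‖ ≤ |⟪w, p⟫| := by
  classical
  have h1 : ∀ w : E, w ∈ sphere (0 : E) 1 → ∃ p ∈ P, ⟪w, p⟫ ≠ 0 := fun w hw =>
    hP w (by rintro rfl; simp at hw)
  choose! f hf1 hf2 using h1
  have hopen : ∀ w ∈ sphere (0 : E) 1, {v : E | |⟪w, f w⟫| / 2 < |⟪v, f w⟫|} ∈ 𝓝 w := by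
    intro w hw
    have hc : Continuous fun v : E => |⟪v, f w⟫| := (continuous_id.inner continuous_const).abs
    have h2 : |⟪w, f w⟫| / 2 < |⟪w, f w⟫| := half_lt_self (abs_pos.2 (hf2 w hw))
    exact hc.continuousAt.eventually (lt_mem_nhds h2)
  obtain ⟨t, ht1⟩ := (isCompact_sphere (0 : E) 1).elim_nhds_subcover' _ hopen
  rcases t.eq_empty_or_nonempty with hte | hte
  · refine ⟨∅, by simp, 1, one_pos, fun w hw => ?_⟩
    exfalso
    have h3 : ‖w‖⁻¹ • w ∈ sphere (0 : E) 1 := by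
      rw [mem_sphere_zero_iff_norm, norm_smul, norm_inv, norm_norm,
        inv_mul_cancel₀ (norm_ne_zero_iff.2 hw)]
    have h4 := ht1 h3
    rw [hte] at h4
    simp at h4
  · refine ⟨t.image fun w : sphere (0 : E) 1 => f (w : E), ?_, ?_⟩
    · intro p hp
      simp only [Finset.coe_image, mem_image] at hp
      obtain ⟨w, -, rfl⟩ := hp
      exact hf1 _ w.2
    · obtain ⟨w0, hw0, hmin⟩ := t.exists_min_image
        (fun w : sphere (0 : E) 1 => |⟪(w : E), f (w : E)⟫| / 2) hte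
      refine ⟨|⟪(w0 : E), f w0⟫| / 2, half_pos (abs_pos.2 (hf2 _ w0.2)), fun w hw => ?_⟩
      have hn : 0 < ‖w‖ := norm_pos_iff.2 hw
      have h3 : ‖w‖⁻¹ • w ∈ sphere (0 : E) 1 := by
        rw [mem_sphere_zero_iff_norm, norm_smul, norm_inv, norm_norm, inv_mul_cancel₀ hn.ne']
      have h4 := ht1 h3
      simp only [mem_iUnion] at h4
      obtain ⟨v, hv, hv2⟩ := h4
      refine ⟨f v, Finset.mem_image_of_mem (fun w : sphere (0 : E) 1 => f w) hv, ?_⟩
      have h5 : |⟪(v : E), f v⟫| / 2 < |⟪‖w‖⁻¹ • w, f v⟫| := hv2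
      rw [inner_smul_left, abs_mul] at h5
      simp only [RCLike.conj_to_real, abs_inv, abs_norm] at h5
      have h6 := hmin v hv
      have h7 : |⟪(w0 : E), f w0⟫| / 2 ≤ ‖w‖⁻¹ * |⟪w, f v⟫| := h6.trans h5.le
      rw [inv_mul_eq_div, le_div_iff₀ hn] at h7
      exact h7

variable [MeasurableSpace E] [BorelSpace E]

/-- the non-umbilic points of `{φ = 0}` on the unit sphere. -/
def NU (φ : E → ℝ) : Set E := {p | φ p = 0 ∧ ‖p‖ = 1 ∧ hs φ p ≠ 0}

/-- **Far lemma**, open ball. -/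
theorem far_open {k : ℕ} (hk : Module.finrank ℝ E = k + 3) {φ : E → ℝ} (S : SmoothMin φ) {V : ℝ}
    (hV : VB φ V) (hV0 : 0 < V) (hsp : ∀ w : E, w ≠ 0 → ∃ p ∈ NU φ, ⟪w, p⟫ ≠ 0) {ρ : ℝ}
    (hρ : 0 < ρ) : ∃ c : ℝ, 0 < c ∧ ∃ ε0 : ℝ, 0 < ε0 ∧ ∀ ε : ℝ, 0 < ε → ε < ε0 →
      ∀ z : E, ‖z‖ < 1 → ∀ θ : ℝ, ρ ≤ ‖z‖ ∨ ρ ≤ |θ| →
      (3 / 4) * Fam348.PrE ε θ (boost φ z) ≤ V - c := by
  classical
  obtain ⟨F, hF, cs, hcs, hF2⟩ := exists_finite_span hsp
  set a := cs * ρ with ha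
  have ha0 : 0 < a := by positivity
  set η := Real.arctan (a / 2) / 2 with hη
  have hη0 : 0 < η := by
    have : 0 < Real.arctan (a / 2) := Real.arctan_pos.2 (by linarith)
    positivity
  have h1 : ∀ p ∈ F, ∃ c : ℝ, 0 < c ∧ ∀ z : E, ‖z‖ < 1 → a ≤ |⟪z, p⟫| →
      ∀ ε : ℝ, 0 < ε → ε ≤ Real.arctan (a / 2) / 2 → ∀ θ : ℝ, |θ| ≤ Real.arctan (a / 2) / 2 →
      (3 / 4) * Fam348.PrE ε θ (boost φ z) ≤ V - c := by
    intro p hp
    obtain ⟨hp1, hp2, hp3⟩ := hF hp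
    obtain ⟨hb1, hb2⟩ := exists_bump_both (by omega) S hp1 hp2 hp3
    exact far_point hk S.nc hV hp1 hb1 hb2 ha0
  choose! cp hcp0 hcp using h1
  obtain ⟨c1, hc10, hc1⟩ : ∃ c1 : ℝ, 0 < c1 ∧ ∀ p ∈ F, c1 ≤ cp p := by
    rcases F.eq_empty_or_nonempty with hFe | hFe
    · exact ⟨1, one_pos, fun p hp => by rw [hFe] at hp; simp at hp⟩
    · obtain ⟨p0, hp0, hmin⟩ := F.exists_min_image cp hFe
      exact ⟨cp p0, hcp0 p0 hp0, hmin⟩
  -- the `θ` part
  set ρ' := min (min ρ η) 1 with hρ'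
  have hρ'0 : 0 < ρ' := by positivity
  have hρ'1 : ρ' ≤ 1 := min_le_right _ _
  have hρ'2 : ρ' ≤ ρ := (min_le_left _ _).trans (min_le_left _ _)
  have hρ'3 : ρ' ≤ η := (min_le_left _ _).trans (min_le_right _ _)
  have hcos : Real.cos (ρ' / 2) < 1 := by
    have h2 := Real.cos_lt_cos_of_nonneg_of_le_pi_div_two (x := 0) (y := ρ' / 2) le_rfl
      (by linarith [Real.two_le_pi]) (by positivity)
    rwa [Real.cos_zero] at h2
  set q := (1 - Real.cos (ρ' / 2)) / 2 with hq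
  have hq0 : 0 < q := by rw [hq]; linarith
  refine ⟨min c1 (V * q), by positivity, min η (ρ' * q / 4), by positivity,
    fun ε hε hε2 z hz θ hzθ => ?_⟩
  have hεη : ε < η := hε2.trans_le (min_le_left _ _)
  have hεq : ε < ρ' * q / 4 := hε2.trans_le (min_le_right _ _)
  by_cases hθ : ρ' ≤ |θ|
  · have h2 := far_theta hk (S.nc.boost hz) (hV.boost S.nc hz) hρ'0 hρ'1 hε hθ
    have h3 : 2 / (1 + ρ' / (2 * ε)) ≤ q := by
      have h4 : 2 / q ≤ ρ' / (2 * ε) := by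
        rw [div_le_div_iff₀ hq0 (by positivity)]
        nlinarith
      have h5 : 0 < ρ' / (2 * ε) := by positivity
      rw [div_le_iff₀ (by linarith)]
      rw [div_le_iff₀ hq0] at h4
      nlinarith
    have h6 : V * (Real.cos (ρ' / 2) + 2 / (1 + ρ' / (2 * ε))) ≤ V - V * q := by
      have : Real.cos (ρ' / 2) + 2 / (1 + ρ' / (2 * ε)) ≤ 1 - q := by
        have : Real.cos (ρ' / 2) = 1 - 2 * q := by rw [hq]; ring
        linarith
      nlinarith
    have := min_le_right c1 (V * q)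
    linarith
  · push Not at hθ
    have hz2 : ρ ≤ ‖z‖ := by
      rcases hzθ with h2 | h2
      · exact h2
      · exfalso
        exact absurd (hρ'2.trans h2) (not_le.2 hθ)
    have hz0 : z ≠ 0 := by
      rintro rfl
      rw [norm_zero] at hz2
      linarith
    obtain ⟨p, hp, hp2⟩ := hF2 z hz0
    have h3 : a ≤ |⟪z, p⟫| := by
      refine le_trans ?_ hp2
      rw [ha]
      gcongr
    have h4 := hcp p hp z hz h3 ε hε hεη.le θ (by linarith)
    have := min_le_left c1 (V * q)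
    have := hc1 p hp
    linarith

/-- **Far lemma**, closed ball. -/
theorem far {k : ℕ} (hk : Module.finrank ℝ E = k + 3) {φ : E → ℝ} (S : SmoothMin φ) {V : ℝ}
    (hV : VB φ V) (hV0 : 0 < V) (hsp : ∀ w : E, w ≠ 0 → ∃ p ∈ NU φ, ⟪w, p⟫ ≠ 0) {ρ : ℝ}
    (hρ : 0 < ρ) : ∃ c : ℝ, 0 < c ∧ ∃ ε0 : ℝ, 0 < ε0 ∧ ∀ ε : ℝ, 0 < ε → ε < ε0 →
      ∀ z : E, ‖z‖ ≤ 1 → ∀ θ : ℝ, ρ ≤ ‖z‖ ∨ ρ ≤ |θ| →
      (3 / 4) * Fam348.PrE ε θ (boost φ z) ≤ V - c := by
  obtain ⟨c, hc, ε0, hε0, H⟩ := far_open hk S hV hV0 hsp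
    (lt_min hρ (by norm_num : (0 : ℝ) < 1 / 2))
  refine ⟨c, hc, ε0, hε0, fun ε hε hε2 z hz θ hzθ => ?_⟩
  have hzθ' : min ρ (1 / 2) ≤ ‖z‖ ∨ min ρ (1 / 2) ≤ |θ| :=
    hzθ.imp (fun h => (min_le_left _ _).trans h) fun h => (min_le_left _ _).trans h
  rcases hz.lt_or_eq with hz1 | hz1
  · exact H ε hε hε2 z hz1 θ hzθ'
  · -- approximate from inside
    have hcont := Fam348.continuous_PrE (ε := ε) (θ := θ) (Φ := boost φ)
      ((continuousOn_boost S.nc).mono (prod_mono_right (subset_univ _)))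
    let s : ℕ → ℝ := fun n => 1 - 1 / ((n : ℝ) + 2)
    have hs0 : ∀ n, 1 / 2 ≤ s n := by
      intro n
      have : 1 / ((n : ℝ) + 2) ≤ 1 / 2 := by
        apply one_div_le_one_div_of_le (by norm_num)
        have : (0:ℝ) ≤ n := Nat.cast_nonneg n
        linarith
      simp only [s]; linarith
    have hs1 : ∀ n, s n < 1 := by
      intro n
      have : 0 < 1 / ((n : ℝ) + 2) := by positivity
      simp only [s]; linarith
    have hn : ∀ n, ‖s n • z‖ = s n := by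
      intro n
      rw [norm_smul, hz1, mul_one, Real.norm_eq_abs, abs_of_nonneg (by linarith [hs0 n])]
    have hlim : Tendsto s atTop (𝓝 1) := by
      have h1 : Tendsto (fun n : ℕ => 1 / ((n : ℝ) + 2)) atTop (𝓝 0) := by
        have := tendsto_one_div_add_atTop_nhds_zero_nat (𝕜 := ℝ)
        have h2 := (tendsto_add_atTop_iff_nat 1).2 this
        refine h2.congr fun n => ?_
        push_cast; ring
      simpa [s] using tendsto_const_nhds.sub h1
    have hz' : z ∈ closedBall (0 : E) 1 := by simpa using hz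
    let zz : ℕ → closedBall (0 : E) 1 := fun n =>
      ⟨s n • z, by rw [mem_closedBall_zero_iff, hn]; exact (hs1 n).le⟩
    have hzz : Tendsto zz atTop (𝓝 ⟨z, hz'⟩) := by
      rw [tendsto_subtype_rng]
      have := hlim.smul_const z
      simpa using this
    have hlim2 := ((hcont.tendsto ⟨z, hz'⟩).comp hzz).const_mul (3 / 4)
    refine le_of_tendsto' hlim2 fun n => ?_
    exact H ε hε hε2 (s n • z) (by rw [hn]; exact hs1 n) θ
      (Or.inl (by rw [hn]; exact (min_le_right _ _).trans (hs0 n)))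

end Crest.Agent.R246.IF101
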