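import Crest.Agent.R246.Moll_657
import Crest.Agent.R246.Fam2_348

/-!
# I(I), near part: mollification of the modified members (helper101)
-/

set_option autoImplicit false
set_option linter.unusedSectionVars false
noncomputable section
open MeasureTheory Set Filter Topology Metric
open scoped RealInnerProductSpace ContDiff

namespace Crest.Agent.R246.IF101

open Crest.Agent.R246.Moll657 (mol psi rp bump mol_compare psi_smul contDiffOn_psi
  abs_psi_lt psi_sub_le norm_sq_fderiv_psi contDiff_mol hasFDerivAt_comp_rp rp_of_norm_one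
  contDiff_tanh hasDerivAt_tanh mol_sub_le continuous_tanh phi_zero)

variable {E : Type*} [NormedAddCommGroup E] [InnerProductSpace ℝ E] [FiniteDimensional ℝ E]
  [MeasurableSpace E] [BorelSpace E]

/-- derivative of the mollification is close to the derivative at a point of strict
differentiability. -/
lemma fderiv_mol_tendsto {φ : E → ℝ} (hφ : LipschitzWith 1 φ) {y : E} {A : E →L[ℝ] ℝ}
    (hA : HasStrictFDerivAt φ A y) {δ : ℕ → ℝ} (hδ : ∀ n, 0 < δ n) (hlim : Tendsto δ atTop (𝓝 0)) :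
    Tendsto (fun n => fderiv ℝ (mol (δ n) (hδ n) φ) y) atTop (𝓝 A) := by
  rw [Metric.tendsto_atTop]
  intro η hη
  have h1 := hA.isLittleO.def (half_pos hη)
  rw [Metric.eventually_nhds_iff_ball] at h1
  obtain ⟨r, hr, h2⟩ := h1
  have h3 : ∀ᶠ n in atTop, δ n < r / 2 := hlim.eventually (gt_mem_nhds (by positivity))
  obtain ⟨N, hN⟩ := eventually_atTop.1 h3
  refine ⟨N, fun n hn => ?_⟩
  have hδr := hN n hn
  have hd : HasFDerivAt (mol (δ n) (hδ n) φ) (fderiv ℝ (mol (δ n) (hδ n) φ) y) y :=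
    ((contDiff_mol (hδ n) hφ.continuous).differentiable (by simp) y).hasFDerivAt
  have h4 : HasFDerivAt (fun x => mol (δ n) (hδ n) φ x - A x)
      (fderiv ℝ (mol (δ n) (hδ n) φ) y - A) y := hd.sub A.hasFDerivAt
  have h5 : ‖fderiv ℝ (mol (δ n) (hδ n) φ) y - A‖ ≤ η / 2 := by
    refine h4.le_of_lip' (C := η / 2) (by positivity) ?_
    filter_upwards [Metric.ball_mem_nhds y (show (0 : ℝ) < r / 2 by positivity)] with x hx
    rw [mem_ball, dist_eq_norm] at hx
    -- compare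
    set c := η / 2 * ‖x - y‖ with hc
    have h6 : |mol (δ n) (hδ n) φ x - 1 * mol (δ n) (hδ n) φ y - A (x - y)| ≤ c := by
      -- apply the comparison to `φ - A`
      set φ' : E → ℝ := fun x => φ x - A x with hφ'
      have hcont : Continuous φ' := hφ.continuous.sub A.continuous
      have h7 : |mol (δ n) (hδ n) φ' x - 1 * mol (δ n) (hδ n) φ' y| ≤ c := by
        refine mol_compare (hδ n) hcont fun h hh => ?_
        have hp : (x - h, y - h) ∈ ball (y, y) r := by
          rw [← ball_prod_same]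
          constructor
          · rw [mem_ball, dist_eq_norm]
            calc ‖x - h - y‖ = ‖(x - y) - h‖ := by congr 1; abel
              _ ≤ ‖x - y‖ + ‖h‖ := norm_sub_le _ _
              _ < r := by linarith
          · rw [mem_ball, dist_eq_norm]
            have : y - h - y = -h := by abel
            rw [this, norm_neg]; linarith
        have h8 := h2 _ hp
        simp only at h8
        rw [Real.norm_eq_abs] at h8
        have e : x - h - (y - h) = x - y := by abel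
        rw [e] at h8
        have e2 : φ' (x - h) - 1 * φ' (y - h) = φ (x - h) - φ (y - h) - A (x - y) := by
          simp only [hφ', map_sub]; ring
        rw [e2]
        exact h8
      have e1 : ∀ x, mol (δ n) (hδ n) φ' x = mol (δ n) (hδ n) φ x - mol (δ n) (hδ n) (fun x => A x) x := by
        intro x
        rw [Moll657.mol_apply, Moll657.mol_apply, Moll657.mol_apply,
          ← integral_sub (Moll657.integrable_mol (hδ n) hφ.continuous x)
            (Moll657.integrable_mol (hδ n) A.continuous x)]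
        refine integral_congr_ae (Eventually.of_forall fun h => ?_)
        simp only [hφ']; ring
      have e2 : mol (δ n) (hδ n) (fun x => A x) x - mol (δ n) (hδ n) (fun x => A x) y = A (x - y) := by
        rw [Moll657.mol_apply, Moll657.mol_apply, ← integral_sub
          (Moll657.integrable_mol (hδ n) A.continuous x) (Moll657.integrable_mol (hδ n) A.continuous y)]
        have e3 : ∀ h, (bump (E := E) (δ n) (hδ n)).normed volume h * A (x - h) -
            (bump (E := E) (δ n) (hδ n)).normed volume h * A (y - h) =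
            (bump (E := E) (δ n) (hδ n)).normed volume h * A (x - y) := by
          intro h
          rw [← mul_sub, ← map_sub]
          congr 2
          abel
        simp only [e3]
        rw [integral_mul_const, (bump (E := E) (δ n) (hδ n)).integral_normed, one_mul]
      rw [e1, e1] at h7
      have e4 : mol (δ n) (hδ n) φ x - mol (δ n) (hδ n) (fun x => A x) x -
          1 * (mol (δ n) (hδ n) φ y - mol (δ n) (hδ n) (fun x => A x) y) =
          mol (δ n) (hδ n) φ x - 1 * mol (δ n) (hδ n) φ y - A (x - y) := by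
        rw [← e2]; ring
      rw [e4] at h7
      exact h7
    have e5 : (fun x => mol (δ n) (hδ n) φ x - A x) x - (fun x => mol (δ n) (hδ n) φ x - A x) y =
        mol (δ n) (hδ n) φ x - 1 * mol (δ n) (hδ n) φ y - A (x - y) := by
      simp only [map_sub]; ring
    simp only at e5 ⊢
    rw [Real.norm_eq_abs, e5]
    exact h6
  rw [dist_eq_norm]
  linarith

/-- the smooth approximation of a modified member. -/
def wn (ε θ δ : ℝ) (hδ : 0 < δ) (φ g : E → ℝ) (x : E) : ℝ :=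
  Real.tanh ((Real.arcsin (psi δ hδ φ x) - θ - g x) / ε)

/-- the (0-homogeneous) signed function of a modified member. -/
def rh (φ : E → ℝ) (θ : ℝ) (g : E → ℝ) (x : E) : ℝ := Real.arcsin (φ x * ‖x‖⁻¹) - θ - g x

lemma adm_wn {φ g : E → ℝ} (hφ : LipschitzWith 1 φ)
    (hom : ∀ t : ℝ, 0 ≤ t → ∀ x, φ (t • x) = t * φ x) (hg0 : ∀ t : ℝ, 0 < t → ∀ x, g (t • x) = g x)
    (hg : ContDiffOn ℝ ∞ g {0}ᶜ) (ε θ : ℝ) {δ : ℝ} (hδ : 0 < δ) :
    Fam348.Adm (wn ε θ δ hδ φ g) where
  hom := fun t ht x => by unfold wn; rw [psi_smul hδ ht, hg0 t ht]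
  smooth := by
    intro x hx
    have h1 : ContDiffWithinAt ℝ ∞ (psi δ hδ φ) {0}ᶜ x := contDiffOn_psi hφ hδ x hx
    have h2 := abs_lt.1 (abs_psi_lt hφ hom hδ x)
    have h3 : ContDiffAt ℝ ∞ Real.arcsin (psi δ hδ φ x) :=
      Real.contDiffAt_arcsin h2.1.ne' h2.2.ne
    have h4 := ((h3.comp_contDiffWithinAt x h1).sub (contDiffWithinAt_const (c := θ))).sub (hg x hx)
    have h5 := (h4.div_const ε)
    exact contDiff_tanh.contDiffAt.comp_contDiffWithinAt x h5
  bd := fun x => (abs_lt.2 ⟨Real.neg_one_lt_tanh _, Real.tanh_lt_one _⟩).le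

lemma ne_zero_of_norm_one {y : E} (hy : ‖y‖ = 1) : y ≠ 0 := by
  rintro rfl; simp at hy

/-- `B = D(arcsin psi)`. -/
def Bn (δ : ℝ) (hδ : 0 < δ) (φ : E → ℝ) (y : E) : E →L[ℝ] ℝ :=
  (1 / Real.sqrt (1 - psi δ hδ φ y ^ 2)) • fderiv ℝ (psi δ hδ φ) y

lemma norm_Bn_le {φ : E → ℝ} (hφ : LipschitzWith 1 φ)
    (hom : ∀ t : ℝ, 0 ≤ t → ∀ x, φ (t • x) = t * φ x) {δ : ℝ} (hδ : 0 < δ) {y : E}
    (hy : ‖y‖ = 1) : ‖Bn δ hδ φ y‖ ≤ 1 := by
  have h1 := norm_sq_fderiv_psi hφ hom hδ hy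
  have h2 := abs_lt.1 (abs_psi_lt hφ hom hδ y)
  have h3 : 0 < 1 - psi δ hδ φ y ^ 2 := by nlinarith
  have h4 : 0 < Real.sqrt (1 - psi δ hδ φ y ^ 2) := Real.sqrt_pos.2 h3
  unfold Bn
  rw [norm_smul, Real.norm_eq_abs, abs_of_pos (by positivity), one_div, inv_mul_le_iff₀ h4, mul_one]
  exact Real.le_sqrt_of_sq_le h1

lemma hasFDerivAt_wn {φ g : E → ℝ} (hφ : LipschitzWith 1 φ)
    (hom : ∀ t : ℝ, 0 ≤ t → ∀ x, φ (t • x) = t * φ x)
    (hg : ContDiffOn ℝ ∞ g {0}ᶜ) (ε θ : ℝ) {δ : ℝ} (hδ : 0 < δ) {y : E} (hy : ‖y‖ = 1) :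
    HasFDerivAt (wn ε θ δ hδ φ g)
      (((1 - wn ε θ δ hδ φ g y ^ 2) * (1 / ε)) • (Bn δ hδ φ y - fderiv ℝ g y)) y := by
  have hy0 : y ∈ ({0}ᶜ : Set E) := ne_zero_of_norm_one hy
  have hn := isOpen_compl_singleton.mem_nhds hy0
  have h1 : HasFDerivAt (psi δ hδ φ) (fderiv ℝ (psi δ hδ φ) y) y :=
    (((contDiffOn_psi hφ hδ).contDiffAt hn).differentiableAt (by simp)).hasFDerivAt
  have h1g : HasFDerivAt g (fderiv ℝ g y) y :=
    ((hg.contDiffAt hn).differentiableAt (by simp)).hasFDerivAt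
  have h2 := abs_lt.1 (abs_psi_lt hφ hom hδ y)
  have h3 := (Real.hasDerivAt_arcsin h2.1.ne' h2.2.ne).comp_hasFDerivAt y h1
  have h4 : HasFDerivAt (fun x => (Real.arcsin (psi δ hδ φ x) - θ - g x) / ε)
      ((1 / ε) • (Bn δ hδ φ y - fderiv ℝ g y)) y := by
    have h5 := (((h3.sub_const θ).sub h1g).mul_const (1 / ε))
    have e : (fun x => (Real.arcsin (psi δ hδ φ x) - θ - g x) / ε) =
        fun x => ((Real.arcsin ∘ psi δ hδ φ) x - θ - g x) * (1 / ε) := by
      funext x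
      simp only [Function.comp_apply]
      ring
    rw [e]
    exact h5
  have h6 := (hasDerivAt_tanh ((Real.arcsin (psi δ hδ φ y) - θ - g y) / ε)).comp_hasFDerivAt y h4
  rw [mul_smul]
  exact h6

lemma acDen_wn {φ g : E → ℝ} (hφ : LipschitzWith 1 φ)
    (hom : ∀ t : ℝ, 0 ≤ t → ∀ x, φ (t • x) = t * φ x)
    (hg : ContDiffOn ℝ ∞ g {0}ᶜ) {ε : ℝ} (hε : 0 < ε) (θ : ℝ) {δ : ℝ} (hδ : 0 < δ) {y : E}
    (hy : ‖y‖ = 1) :
    ε / 2 * ‖fderiv ℝ (wn ε θ δ hδ φ g) y‖ ^ 2 + (1 - wn ε θ δ hδ φ g y ^ 2) ^ 2 / (2 * ε) =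
      1 / (2 * ε) * (1 - wn ε θ δ hδ φ g y ^ 2) ^ 2 * (1 + ‖Bn δ hδ φ y - fderiv ℝ g y‖ ^ 2) := by
  rw [(hasFDerivAt_wn hφ hom hg ε θ hδ hy).fderiv, norm_smul, mul_pow, Real.norm_eq_abs, sq_abs]
  field_simp
  ring

/-- derivative of the radial normalisation at a unit vector -/
lemma hasFDerivAt_rh {φ g : E → ℝ} {y : E} (hy : ‖y‖ = 1) {A : E →L[ℝ] ℝ}
    (hA : HasFDerivAt φ A y) (hφ1 : |φ y| < 1) (hom : ∀ t : ℝ, 0 ≤ t → ∀ x, φ (t • x) = t * φ x)
    (hg : ContDiffOn ℝ ∞ g {0}ᶜ) (θ : ℝ) :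
    HasFDerivAt (rh φ θ g) ((1 / Real.sqrt (1 - φ y ^ 2)) • (A - (A y) • innerSL ℝ y) -
      fderiv ℝ g y) y := by
  have hy0 : y ∈ ({0}ᶜ : Set E) := ne_zero_of_norm_one hy
  have hn := isOpen_compl_singleton.mem_nhds hy0
  have h1g : HasFDerivAt g (fderiv ℝ g y) y :=
    ((hg.contDiffAt hn).differentiableAt (by simp)).hasFDerivAt
  have h1 := hasFDerivAt_comp_rp hy hA
  have h2 := abs_lt.1 hφ1
  have h2' : HasDerivAt Real.arcsin (1 / Real.sqrt (1 - φ y ^ 2)) (φ (rp y)) := by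
    rw [rp_of_norm_one hy]
    exact Real.hasDerivAt_arcsin h2.1.ne' h2.2.ne
  have h3 := h2'.comp_hasFDerivAt y h1
  have h4 := (h3.sub_const θ).sub h1g
  refine h4.congr_of_eventuallyEq ?_
  filter_upwards with x
  simp only [rh, Function.comp_apply, Pi.sub_apply]
  congr 3
  unfold rp
  rw [hom _ (by positivity), mul_comm]

/-- **Mollification of a modified member.** -/
theorem exists_near_approx {φ g : E → ℝ} (hφ : LipschitzWith 1 φ)
    (hom : ∀ t : ℝ, 0 ≤ t → ∀ x, φ (t • x) = t * φ x) (hg0 : ∀ t : ℝ, 0 < t → ∀ x, g (t • x) = g x)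
    (hg : ContDiffOn ℝ ∞ g {0}ᶜ) {G : ℝ} (hG : ∀ y : E, ‖y‖ = 1 → ‖fderiv ℝ g y‖ ≤ G)
    {T : Set (sphere (0 : E) 1)} (hTm : MeasurableSet T)
    (hT : ∀ y ∈ T, ContDiffAt ℝ 1 φ (y : E) ∧ |φ (y : E)| < 1) {ε : ℝ} (hε : 0 < ε) {θ t1 : ℝ}
    (ht1 : 0 ≤ t1) (hfar : ∀ y : sphere (0 : E) 1, y ∉ T → t1 ≤ |rh φ θ g y|) {η : ℝ} (hη : 0 < η) :
    ∃ w : E → ℝ, Fam348.Adm w ∧
      (∀ y : sphere (0 : E) 1, |w y - Real.tanh (rh φ θ g y / ε)| ≤ η) ∧
      Fam348.AcE ε w ≤ (∫ y in T, 1 / (2 * ε) * (1 - Real.tanh (rh φ θ g y / ε) ^ 2) ^ 2 *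
        (1 + ‖fderiv ℝ (rh φ θ g) y‖ ^ 2) ∂(volume : Measure E).toSphere) +
        ((volume : Measure E).toSphere.real univ) *
          (1 / (2 * ε) * (1 - Real.tanh (t1 / ε) ^ 2) ^ 2 * (1 + (1 + G) ^ 2)) + η := by
  classical
  set σ : Measure (sphere (0 : E) 1) := (volume : Measure E).toSphere with hσ
  set δ : ℕ → ℝ := fun n => 1 / ((n : ℝ) + 1) with hδd
  have hδ : ∀ n, 0 < δ n := fun n => by simp only [hδd]; positivity
  have hδlim : Tendsto δ atTop (𝓝 0) := tendsto_one_div_add_atTop_nhds_zero_nat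
  set w : ℕ → E → ℝ := fun n => wn ε θ (δ n) (hδ n) φ g with hw
  have hrh : ∀ y : E, ‖y‖ = 1 → rh φ θ g y = Real.arcsin (φ y) - θ - g y := by
    intro y hy; unfold rh; rw [hy, inv_one, mul_one]
  -- uniform convergence
  have hpsi : ∀ y : E, ‖y‖ = 1 → Tendsto (fun n => psi (δ n) (hδ n) φ y) atTop (𝓝 (φ y)) := by
    intro y hy
    rw [tendsto_iff_dist_tendsto_zero]
    refine squeeze_zero (fun n => dist_nonneg) (g := fun n => 3 * δ n) (fun n => ?_) ?_
    · rw [Real.dist_eq]; exact psi_sub_le hφ hom (hδ n) hy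
    · simpa using hδlim.const_mul 3
  have htanh : ∀ a b : ℝ, |Real.tanh a - Real.tanh b| ≤ |a - b| := by
    intro a b
    have h1 : ∀ x, ‖deriv Real.tanh x‖ ≤ 1 := by
      intro x
      rw [(hasDerivAt_tanh x).deriv, Real.norm_eq_abs, abs_le]
      have h2 := Real.tanh_lt_one x
      have h3 := Real.neg_one_lt_tanh x
      constructor <;> nlinarith
    have h2 := Convex.norm_image_sub_le_of_norm_deriv_le (f := Real.tanh) (s := univ) (C := 1)
      (fun x _ => (hasDerivAt_tanh x).differentiableAt) (fun x _ => h1 x) convex_univ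
      (mem_univ b) (mem_univ a)
    simpa using h2
  have huc : UniformContinuousOn Real.arcsin (Icc (-2) 2) :=
    isCompact_Icc.uniformContinuousOn_of_continuous Real.continuous_arcsin.continuousOn
  have hunif : ∀ᶠ n in atTop, ∀ y : sphere (0 : E) 1,
      |w n y - Real.tanh (rh φ θ g y / ε)| ≤ η := by
    obtain ⟨δ1, hδ1, H1⟩ := Metric.uniformContinuousOn_iff.1 huc (η * ε) (by positivity)
    have h1 : ∀ᶠ n in atTop, δ n < δ1 / 3 := hδlim.eventually (gt_mem_nhds (by positivity))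
    filter_upwards [h1] with n hn y
    have hy : ‖(y : E)‖ = 1 := by simp
    have h2 : |φ (y : E)| ≤ 1 := by
      have := Moll657.abs_phi_le hφ hom (y : E)
      rwa [hy] at this
    have h3 := abs_psi_lt hφ hom (hδ n) (y : E)
    have h4 := H1 (psi (δ n) (hδ n) φ y)
      ⟨by linarith [(abs_lt.1 h3).1], by linarith [(abs_lt.1 h3).2]⟩ (φ y)
      ⟨by linarith [(abs_le.1 h2).1], by linarith [(abs_le.1 h2).2]⟩ (by
        rw [Real.dist_eq]
        have := psi_sub_le hφ hom (hδ n) hy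
        linarith)
    rw [Real.dist_eq] at h4
    refine (htanh _ _).trans ?_
    rw [hrh y hy, ← sub_div, abs_div, abs_of_pos hε, div_le_iff₀ hε]
    have e : Real.arcsin (psi (δ n) (hδ n) φ y) - θ - g y - (Real.arcsin (φ y) - θ - g y) =
      Real.arcsin (psi (δ n) (hδ n) φ y) - Real.arcsin (φ y) := by ring
    rw [e]
    exact h4.le
  have hG0 : 0 ≤ G ∨ IsEmpty (sphere (0 : E) 1) := by
    rcases isEmpty_or_nonempty (sphere (0 : E) 1) with h | ⟨⟨y⟩⟩
    · exact Or.inr h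
    · exact Or.inl ((norm_nonneg _).trans (hG y (by simp)))
  have hwlim : ∀ y : E, ‖y‖ = 1 → Tendsto (fun n => w n y) atTop (𝓝 (Real.tanh (rh φ θ g y / ε))) := by
    intro y hy
    have h1 := (Real.continuous_arcsin.tendsto _).comp (hpsi y hy)
    have h2 := ((h1.sub_const θ).sub_const (g y)).div_const ε
    have h3 := (continuous_tanh.tendsto _).comp h2
    rw [hrh y hy]
    exact h3
  -- the majorising densities
  set F : ℕ → sphere (0 : E) 1 → ℝ := fun n y =>
    if y ∈ T then 1 / (2 * ε) * (1 - w n y ^ 2) ^ 2 *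
      (1 + ‖Bn (δ n) (hδ n) φ y - fderiv ℝ g y‖ ^ 2)
    else 1 / (2 * ε) * (1 - w n y ^ 2) ^ 2 * (1 + (1 + G) ^ 2) with hF
  set F0 : sphere (0 : E) 1 → ℝ := fun y =>
    if y ∈ T then 1 / (2 * ε) * (1 - Real.tanh (rh φ θ g y / ε) ^ 2) ^ 2 *
      (1 + ‖fderiv ℝ (rh φ θ g) y‖ ^ 2)
    else 1 / (2 * ε) * (1 - Real.tanh (rh φ θ g y / ε) ^ 2) ^ 2 * (1 + (1 + G) ^ 2) with hF0
  have hwb : ∀ n (y : E), (1 - w n y ^ 2) ^ 2 ≤ 1 := by
    intro n y
    have h1 : |w n y| ≤ 1 := (adm_wn hφ hom hg0 hg ε θ (hδ n)).bd y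
    have h2 : w n y ^ 2 ≤ 1 := by rw [sq_le_one_iff_abs_le_one]; exact h1
    nlinarith [sq_nonneg (w n y)]
  have hBg : ∀ n (y : sphere (0 : E) 1), ‖Bn (δ n) (hδ n) φ y - fderiv ℝ g y‖ ^ 2 ≤ (1 + G) ^ 2 := by
    intro n y
    have hy : ‖(y : E)‖ = 1 := by simp
    refine pow_le_pow_left₀ (norm_nonneg _) ?_ 2
    exact (norm_sub_le _ _).trans (add_le_add (norm_Bn_le hφ hom (hδ n) hy) (hG y hy))
  have hle : ∀ n (y : sphere (0 : E) 1), ε / 2 * ‖fderiv ℝ (w n) y‖ ^ 2 +
      (1 - w n y ^ 2) ^ 2 / (2 * ε) ≤ F n y := by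
    intro n y
    have hy : ‖(y : E)‖ = 1 := by simp
    rw [acDen_wn hφ hom hg hε θ (hδ n) hy]
    simp only [hF]
    split_ifs with h
    · exact le_rfl
    · have := hBg n y
      gcongr
  have hFb : ∀ n (y : sphere (0 : E) 1), ‖F n y‖ ≤ 1 / (2 * ε) * (1 + (1 + G) ^ 2) := by
    intro n y
    have h1 : 0 ≤ F n y := by
      simp only [hF]
      split_ifs <;> positivity
    rw [Real.norm_eq_abs, abs_of_nonneg h1]
    have h2 := hwb n y
    have h3 := hBg n y
    have h4 : 0 ≤ (1 + G) ^ 2 := sq_nonneg _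
    have h5 : 0 < 1 / (2 * ε) := by positivity
    simp only [hF]
    split_ifs with h
    · calc 1 / (2 * ε) * (1 - w n y ^ 2) ^ 2 * (1 + ‖Bn (δ n) (hδ n) φ y - fderiv ℝ g y‖ ^ 2)
          ≤ 1 / (2 * ε) * 1 * (1 + (1 + G) ^ 2) := by gcongr
        _ = _ := by ring
    · calc 1 / (2 * ε) * (1 - w n y ^ 2) ^ 2 * (1 + (1 + G) ^ 2)
          ≤ 1 / (2 * ε) * 1 * (1 + (1 + G) ^ 2) := by gcongr
        _ = _ := by ring
  have hwm : ∀ n, Measurable fun y : sphere (0 : E) 1 => w n y := by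
    intro n
    have h1 : ContinuousOn (w n) {0}ᶜ := (adm_wn hφ hom hg0 hg ε θ (hδ n)).smooth.continuousOn
    have h2 : Continuous fun y : sphere (0 : E) 1 => w n y :=
      h1.comp_continuous continuous_subtype_val fun y => ne_zero_of_norm_one (by simp)
    exact h2.measurable
  have hgd : Measurable fun y : sphere (0 : E) 1 => fderiv ℝ g y :=
    (measurable_fderiv ℝ g).comp measurable_subtype_coe
  have hpc : ∀ n, Continuous fun y : sphere (0 : E) 1 => psi (δ n) (hδ n) φ y := fun n =>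
    (contDiffOn_psi hφ (hδ n)).continuousOn.comp_continuous continuous_subtype_val
      fun y => ne_zero_of_norm_one (by simp)
  have hBm : ∀ n, Measurable fun y : sphere (0 : E) 1 => Bn (δ n) (hδ n) φ y := by
    intro n
    have ha : Measurable fun y : sphere (0 : E) 1 => 1 / Real.sqrt (1 - psi (δ n) (hδ n) φ y ^ 2) :=
      (Real.continuous_sqrt.measurable.comp
        (measurable_const.sub ((hpc n).measurable.pow_const 2))).const_div 1
    have hb : Measurable fun y : sphere (0 : E) 1 => fderiv ℝ (psi (δ n) (hδ n) φ) y :=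
      (measurable_fderiv ℝ (psi (δ n) (hδ n) φ)).comp measurable_subtype_coe
    exact ha.smul hb
  have hFm : ∀ n, Measurable (F n) := by
    intro n
    refine Measurable.ite hTm ?_ ?_
    · exact (measurable_const.mul ((measurable_const.sub ((hwm n).pow_const 2)).pow_const 2)).mul
        (measurable_const.add ((((hBm n).sub hgd).norm).pow_const 2))
    · exact (measurable_const.mul ((measurable_const.sub ((hwm n).pow_const 2)).pow_const 2)).mul
        measurable_const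
  have hFlim : ∀ y : sphere (0 : E) 1, Tendsto (fun n => F n y) atTop (𝓝 (F0 y)) := by
    intro y
    have hy : ‖(y : E)‖ = 1 := by simp
    have h1 := hwlim y hy
    have h2 : Tendsto (fun n => 1 / (2 * ε) * (1 - w n y ^ 2) ^ 2) atTop
        (𝓝 (1 / (2 * ε) * (1 - Real.tanh (rh φ θ g y / ε) ^ 2) ^ 2)) :=
      (((h1.pow 2).const_sub 1).pow 2).const_mul _
    by_cases hyT : y ∈ T
    · obtain ⟨h3, h4⟩ := hT y hyT
      have hA : HasStrictFDerivAt φ (fderiv ℝ φ y) y := h3.hasStrictFDerivAt (by simp)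
      have h5 := fderiv_mol_tendsto hφ hA hδ hδlim
      have h6 : Tendsto (fun n => fderiv ℝ (psi (δ n) (hδ n) φ) y) atTop
          (𝓝 (fderiv ℝ φ y - (fderiv ℝ φ y y) • innerSL ℝ (y : E))) := by
        have h7 : ∀ n, fderiv ℝ (psi (δ n) (hδ n) φ) y = (1 + 2 * δ n)⁻¹ •
            (fderiv ℝ (mol (δ n) (hδ n) φ) y -
              (fderiv ℝ (mol (δ n) (hδ n) φ) y y) • innerSL ℝ (y : E)) := by
          intro n
          have hd : HasFDerivAt (mol (δ n) (hδ n) φ) (fderiv ℝ (mol (δ n) (hδ n) φ) y) y :=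
            ((contDiff_mol (hδ n) hφ.continuous).differentiable (by simp) y).hasFDerivAt
          exact ((hasFDerivAt_comp_rp hy hd).const_mul ((1 + 2 * δ n)⁻¹)).fderiv
        simp only [h7]
        have h8 : Tendsto (fun n => (1 + 2 * δ n)⁻¹) atTop (𝓝 1) := by
          have h9 : Tendsto (fun n => 1 + 2 * δ n) atTop (𝓝 (1 + 2 * 0)) :=
            (hδlim.const_mul 2).const_add 1
          have h10 := h9.inv₀ (by norm_num)
          simpa using h10
        have h11 : Tendsto (fun n => fderiv ℝ (mol (δ n) (hδ n) φ) y y) atTop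
            (𝓝 (fderiv ℝ φ y y)) :=
          ((ContinuousLinearMap.apply ℝ ℝ (y : E)).continuous.tendsto _).comp h5
        have h12 := h8.smul (h5.sub (h11.smul_const (innerSL ℝ (y : E))))
        rwa [one_smul] at h12
      have h13 : Tendsto (fun n => Bn (δ n) (hδ n) φ y) atTop
          (𝓝 ((1 / Real.sqrt (1 - φ y ^ 2)) •
            (fderiv ℝ φ y - (fderiv ℝ φ y y) • innerSL ℝ (y : E)))) := by
        unfold Bn
        refine Tendsto.smul ?_ h6
        have h14 : 0 < 1 - φ (y : E) ^ 2 := by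
          have := abs_lt.1 h4
          nlinarith
        have h15 : Tendsto (fun n => Real.sqrt (1 - psi (δ n) (hδ n) φ y ^ 2)) atTop
            (𝓝 (Real.sqrt (1 - φ y ^ 2))) :=
          (Real.continuous_sqrt.tendsto _).comp (((hpsi y hy).pow 2).const_sub 1)
        exact tendsto_const_nhds.div h15 (Real.sqrt_pos.2 h14).ne'
      have h16 := (hasFDerivAt_rh hy (h3.differentiableAt (by simp)).hasFDerivAt h4 hom hg θ).fderiv
      have h17 : Tendsto (fun n => ‖Bn (δ n) (hδ n) φ y - fderiv ℝ g y‖ ^ 2) atTop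
          (𝓝 (‖fderiv ℝ (rh φ θ g) y‖ ^ 2)) := by
        rw [h16]
        exact ((h13.sub_const _).norm).pow 2
      have e1 : F0 y = 1 / (2 * ε) * (1 - Real.tanh (rh φ θ g y / ε) ^ 2) ^ 2 *
        (1 + ‖fderiv ℝ (rh φ θ g) y‖ ^ 2) := by simp only [hF0]; rw [if_pos hyT]
      have e2 : ∀ n, F n y = 1 / (2 * ε) * (1 - w n y ^ 2) ^ 2 *
        (1 + ‖Bn (δ n) (hδ n) φ y - fderiv ℝ g y‖ ^ 2) := by
        intro n; simp only [hF]; rw [if_pos hyT]
      rw [e1]
      simp only [e2]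
      exact h2.mul (h17.const_add 1)
    · have e1 : F0 y = 1 / (2 * ε) * (1 - Real.tanh (rh φ θ g y / ε) ^ 2) ^ 2 *
        (1 + (1 + G) ^ 2) := by simp only [hF0]; rw [if_neg hyT]
      have e2 : ∀ n, F n y = 1 / (2 * ε) * (1 - w n y ^ 2) ^ 2 * (1 + (1 + G) ^ 2) := by
        intro n; simp only [hF]; rw [if_neg hyT]
      rw [e1]
      simp only [e2]
      exact h2.mul_const _
  have hDC : Tendsto (fun n => ∫ y, F n y ∂σ) atTop (𝓝 (∫ y, F0 y ∂σ)) :=
    tendsto_integral_of_dominated_convergence (fun _ => 1 / (2 * ε) * (1 + (1 + G) ^ 2))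
      (fun n => (hFm n).aestronglyMeasurable) (integrable_const _)
      (fun n => Eventually.of_forall (hFb n)) (Eventually.of_forall hFlim)
  have hev : ∀ᶠ n in atTop, ∫ y, F n y ∂σ < (∫ y, F0 y ∂σ) + η :=
    hDC.eventually (gt_mem_nhds (by linarith))
  obtain ⟨n, hn1, hn2⟩ := (hunif.and hev).exists
  refine ⟨w n, adm_wn hφ hom hg0 hg ε θ (hδ n), hn1, ?_⟩
  have hFi : Integrable (F n) σ :=
    Integrable.mono' (integrable_const _) (hFm n).aestronglyMeasurable
      (Eventually.of_forall (hFb n))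
  have h1 : Fam348.AcE ε (w n) ≤ ∫ y, F n y ∂σ := by
    unfold Fam348.AcE
    refine integral_mono_of_nonneg (Eventually.of_forall fun y => ?_) hFi
      (Eventually.of_forall (hle n))
    show 0 ≤ ε / 2 * ‖fderiv ℝ (w n) y‖ ^ 2 + (1 - w n y ^ 2) ^ 2 / (2 * ε)
    positivity
  -- split the limit integral
  have hF0m : Measurable F0 := measurable_of_tendsto_metrizable hFm (tendsto_pi_nhds.2 hFlim)
  have hF0b : ∀ y, ‖F0 y‖ ≤ 1 / (2 * ε) * (1 + (1 + G) ^ 2) := fun y =>
    le_of_tendsto ((hFlim y).norm) (Eventually.of_forall fun n => hFb n y)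
  have hF0i : Integrable F0 σ := Integrable.mono' (integrable_const _) hF0m.aestronglyMeasurable
    (Eventually.of_forall hF0b)
  have h2 : ∫ y, F0 y ∂σ = (∫ y in T, F0 y ∂σ) + ∫ y in Tᶜ, F0 y ∂σ :=
    (integral_add_compl hTm hF0i).symm
  have h3 : ∫ y in T, F0 y ∂σ = ∫ y in T, 1 / (2 * ε) * (1 - Real.tanh (rh φ θ g y / ε) ^ 2) ^ 2 *
        (1 + ‖fderiv ℝ (rh φ θ g) y‖ ^ 2) ∂σ := by
    refine setIntegral_congr_fun hTm fun y hy => ?_
    simp only [hF0]
    rw [if_pos hy]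
  have h4 : ∫ y in Tᶜ, F0 y ∂σ ≤ σ.real univ *
      (1 / (2 * ε) * (1 - Real.tanh (t1 / ε) ^ 2) ^ 2 * (1 + (1 + G) ^ 2)) := by
    set C := 1 / (2 * ε) * (1 - Real.tanh (t1 / ε) ^ 2) ^ 2 * (1 + (1 + G) ^ 2) with hC
    have hC0 : 0 ≤ C := by rw [hC]; positivity
    have h5 : ∀ y ∈ Tᶜ, F0 y ≤ C := by
      intro y hy
      simp only [hF0]
      rw [if_neg hy, hC]
      have h6 := hfar y hy
      have h7 : Real.tanh (t1 / ε) ^ 2 ≤ Real.tanh (rh φ θ g y / ε) ^ 2 := by
        have h8 : Real.tanh (rh φ θ g y / ε) ^ 2 = Real.tanh (|rh φ θ g y| / ε) ^ 2 := by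
          rcases abs_cases (rh φ θ g y) with h | h
          · rw [h.1]
          · rw [h.1, neg_div, Real.tanh_neg, neg_sq]
        rw [h8]
        have hmono : Monotone Real.tanh := by
          refine monotone_of_deriv_nonneg (fun s => (hasDerivAt_tanh s).differentiableAt) fun s => ?_
          rw [(hasDerivAt_tanh s).deriv]
          have h2 := Real.tanh_lt_one s
          have h3 := Real.neg_one_lt_tanh s
          nlinarith
        have h9 : 0 ≤ Real.tanh (t1 / ε) := by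
          have := hmono (div_nonneg ht1 hε.le)
          rwa [Real.tanh_zero] at this
        exact pow_le_pow_left₀ h9 (hmono (by gcongr)) 2
      have h10 : Real.tanh (rh φ θ g y / ε) ^ 2 ≤ 1 := by
        rw [sq_le_one_iff_abs_le_one]
        exact (abs_lt.2 ⟨Real.neg_one_lt_tanh _, Real.tanh_lt_one _⟩).le
      have h11 : (1 - Real.tanh (rh φ θ g y / ε) ^ 2) ^ 2 ≤ (1 - Real.tanh (t1 / ε) ^ 2) ^ 2 :=
        pow_le_pow_left₀ (by linarith) (by linarith) 2
      gcongr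
    calc ∫ y in Tᶜ, F0 y ∂σ ≤ ∫ _ in Tᶜ, C ∂σ :=
          setIntegral_mono_on hF0i.integrableOn (integrable_const _) hTm.compl h5
      _ = σ.real Tᶜ * C := by rw [setIntegral_const, smul_eq_mul]
      _ ≤ σ.real univ * C :=
          mul_le_mul_of_nonneg_right (measureReal_mono (subset_univ _) (measure_ne_top _ _)) hC0
  linarith

end Crest.Agent.R246.IF101
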