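import Crest.Agent.R246.Cont_990
import Crest.Agent.R246.D2Energy_782

/-!
# Row 246, IDX / FAM (helper378): outer lower bound, coordinate bridges, cutoff
-/

set_option autoImplicit false
set_option linter.unusedSectionVars false
noncomputable section
open MeasureTheory Set Filter Topology Metric
open scoped RealInnerProductSpace

namespace Crest.Agent.R246.OutT378

open Crest.Agent.R246.H990

section outer

variable {E : Type*} [NormedAddCommGroup E] [InnerProductSpace ℝ E]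
variable [FiniteDimensional ℝ E] [MeasurableSpace E] [BorelSpace E]

lemma gam_zero : gam (0 : E) = 1 := by simp [gam]

lemma boost_zero {φ : E → ℝ} (h : NullCone φ) (y : E) : boost φ 0 y = φ y := by
  have h0 : ‖(0 : E)‖ < 1 := by simp
  have h1 := boost_bT h.lip h0 y
  have h2 : bT φ (0 : E) y = y := by simp [bT, LX]
  rw [h2] at h1
  rw [h1]
  simp [LB, gam_zero]

lemma abs_le_abs_arcsin {b : ℝ} (hb : |b| ≤ 1) : |b| ≤ |Real.arcsin b| := by
  have h := abs_le.1 hb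
  calc |b| = |Real.sin (Real.arcsin b)| := by rw [Real.sin_arcsin h.1 h.2]
    _ ≤ |Real.arcsin b| := Real.abs_sin_le_abs

/-- (A) outer lower bound -/
theorem out_lower {φ : E → ℝ} (hφ : NullCone φ) {gt : E → ℝ}
    (hgt : ContinuousOn gt (sphere 0 1)) {t0 : ℝ} (ht0 : 0 < t0) :
    ∃ d1 t1 : ℝ, 0 < d1 ∧ 0 < t1 ∧ ∀ (z : E) (θ s : ℝ) (y : E), ‖z‖ ≤ d1 → |θ| ≤ d1 → |s| ≤ d1 →
      ‖y‖ = 1 → t0 ≤ |φ y| →
      t1 ≤ |Real.arcsin (boost φ z y * ‖y‖⁻¹) - θ - s * gt y| := by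
  -- bound of gt
  obtain ⟨M, hM0, hM⟩ : ∃ M : ℝ, 0 ≤ M ∧ ∀ y : E, ‖y‖ = 1 → |gt y| ≤ M := by
    obtain ⟨M, hM⟩ := (isCompact_sphere (0 : E) 1).exists_bound_of_continuousOn hgt
    refine ⟨max M 0, le_max_right _ _, fun y hy => ?_⟩
    have := hM y (by simpa using hy)
    rw [Real.norm_eq_abs] at this
    exact this.trans (le_max_left _ _)
  have hK : IsCompact (closedBall (0 : E) 1 ×ˢ sphere (0 : E) 1) :=
    (isCompact_closedBall _ _).prod (isCompact_sphere _ _)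
  have hc : ContinuousOn (fun p : E × E => boost φ p.1 p.2)
      (closedBall (0 : E) 1 ×ˢ sphere (0 : E) 1) :=
    (continuousOn_boost hφ).mono (prod_mono_right (subset_univ _))
  have hu := hK.uniformContinuousOn_of_continuous hc
  rw [Metric.uniformContinuousOn_iff] at hu
  obtain ⟨δ, hδ, hd⟩ := hu (t0 / 2) (half_pos ht0)
  refine ⟨min (min (δ / 2) (1 / 2)) (t0 / (4 * (1 + M))), t0 / 4, by positivity, by positivity, ?_⟩
  intro z θ s y hz hθ hs hy hφy
  have hz1 : ‖z‖ ≤ δ / 2 := hz.trans ((min_le_left _ _).trans (min_le_left _ _))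
  have hz2 : ‖z‖ ≤ 1 / 2 := hz.trans ((min_le_left _ _).trans (min_le_right _ _))
  have hd3 : ∀ r : ℝ, r ≤ min (min (δ / 2) (1 / 2)) (t0 / (4 * (1 + M))) →
      r ≤ t0 / (4 * (1 + M)) := fun r hr => hr.trans (min_le_right _ _)
  have hys : y ∈ sphere (0 : E) 1 := by simpa using hy
  have h1 := hd (z, y) ⟨by rw [mem_closedBall_zero_iff]; linarith, hys⟩ (0, y)
    ⟨by simp, hys⟩ (by
      rw [Prod.dist_eq, dist_self, dist_zero_right]
      exact max_lt (by linarith) hδ)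
  simp only [Real.dist_eq, boost_zero hφ] at h1
  have hb : |boost φ z y| ≤ 1 := by
    have := boost_abs_le hφ (z := z) (by linarith) y
    rwa [hy] at this
  have h2 : t0 / 2 ≤ |boost φ z y| := by
    have h3 : |φ y| ≤ |boost φ z y| + |boost φ z y - φ y| := by
      have h4 := abs_sub_abs_le_abs_sub (φ y) (boost φ z y)
      rw [abs_sub_comm (φ y)] at h4
      linarith
    linarith
  have h3 := h2.trans (abs_le_abs_arcsin hb)
  rw [hy, inv_one, mul_one]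
  have h4 : |s * gt y| ≤ t0 / (4 * (1 + M)) * M := by
    rw [abs_mul]
    exact mul_le_mul (hd3 _ hs) (hM y hy) (abs_nonneg _) (by positivity)
  have h5 : |θ| ≤ t0 / (4 * (1 + M)) := hd3 _ hθ
  have h6 : t0 / (4 * (1 + M)) + t0 / (4 * (1 + M)) * M = t0 / 4 := by
    field_simp
  have h7 : |Real.arcsin (boost φ z y)| ≤
      |Real.arcsin (boost φ z y) - θ - s * gt y| + (|θ| + |s * gt y|) := by
    have h8 : Real.arcsin (boost φ z y) =
        (Real.arcsin (boost φ z y) - θ - s * gt y) + (θ + s * gt y) := by ring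
    calc |Real.arcsin (boost φ z y)|
        = |(Real.arcsin (boost φ z y) - θ - s * gt y) + (θ + s * gt y)| := by rw [← h8]
      _ ≤ |Real.arcsin (boost φ z y) - θ - s * gt y| + |θ + s * gt y| := abs_add_le _ _
      _ ≤ _ := by linarith [abs_add_le θ (s * gt y)]
  linarith

end outer

section coords

open Crest.Agent.R246.D2x782 Crest.GeometryTopology.CoordMetric

variable {n : ℕ}

local notation "EE" => EuclideanSpace ℝ (Fin n)

theorem sum_sq_dual (L : EE →L[ℝ] ℝ) :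
    ∑ j, L (EuclideanSpace.single j 1) * L (EuclideanSpace.single j 1) = ‖L‖ ^ 2 := by
  set v : EE := (InnerProductSpace.toDual ℝ EE).symm L with hv
  have h1 : ∀ w : EE, L w = ⟪v, w⟫ := fun w => by
    rw [hv, InnerProductSpace.toDual_symm_apply]
  have h2 : ‖L‖ = ‖v‖ := by rw [hv, LinearIsometryEquiv.norm_map]
  rw [h2, EuclideanSpace.real_norm_sq_eq]
  refine Finset.sum_congr rfl fun j _ => ?_
  rw [h1, EuclideanSpace.inner_single_right]
  simp [sq]

/-- (B) the spherical gradient of 782's coordinates -/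
theorem sgsq_eq (R : EE → ℝ) (x : EE) : sgsq R x = ‖x‖ ^ 2 * ‖fderiv ℝ R x‖ ^ 2 := by
  rw [sgsq, nsq_eq, gsq, ← sum_sq_dual]
  rfl

theorem eden_eq (ε : ℝ) (R : EE → ℝ) {y : EE} (hy : ‖y‖ = 1) :
    eden ε R y = 1 / (2 * ε) * (1 - Real.tanh (R y / ε) ^ 2) ^ 2 * (1 + ‖fderiv ℝ R y‖ ^ 2) := by
  rw [eden, sgsq_eq, hy, one_pow, one_mul]

end coords

section cutoff

variable {E : Type*} [NormedAddCommGroup E] [InnerProductSpace ℝ E]

/-- one dimensional trapezoid -/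
def trap (ρ r : ℝ) : ℝ := max 0 (min 1 (2 - 2 * r / ρ))

lemma continuous_trap (ρ : ℝ) : Continuous (trap ρ) := by unfold trap; fun_prop

lemma trap_nonneg (ρ r : ℝ) : 0 ≤ trap ρ r := le_max_left _ _

lemma trap_le_one (ρ r : ℝ) : trap ρ r ≤ 1 := max_le zero_le_one (min_le_left _ _)

lemma trap_eq_zero {ρ r : ℝ} (hρ : 0 < ρ) (h : ρ ≤ r) : trap ρ r = 0 := by
  unfold trap
  have h1 : 2 - 2 * r / ρ ≤ 0 := by
    have : 2 ≤ 2 * r / ρ := by rw [le_div_iff₀ hρ]; linarith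
    linarith
  rw [min_eq_right (by linarith), max_eq_left h1]

lemma trap_eq_one {ρ r : ℝ} (hρ : 0 < ρ) (h : r ≤ ρ / 2) : trap ρ r = 1 := by
  unfold trap
  have h1 : 1 ≤ 2 - 2 * r / ρ := by
    have : 2 * r / ρ ≤ 1 := by rw [div_le_one hρ]; linarith
    linarith
  rw [min_eq_left h1, max_eq_right zero_le_one]

/-- (C) the cutoff -/
def chi (ρ : ℝ) (z : E) (θ : ℝ) : ℝ := trap ρ ‖z‖ * trap ρ |θ|

lemma continuous_chi (ρ : ℝ) : Continuous fun p : E × ℝ => chi ρ p.1 p.2 := by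
  unfold chi
  exact ((continuous_trap ρ).comp continuous_fst.norm).mul
    ((continuous_trap ρ).comp continuous_snd.abs)

lemma chi_nonneg (ρ : ℝ) (z : E) (θ : ℝ) : 0 ≤ chi ρ z θ :=
  mul_nonneg (trap_nonneg _ _) (trap_nonneg _ _)

lemma chi_le_one (ρ : ℝ) (z : E) (θ : ℝ) : chi ρ z θ ≤ 1 :=
  mul_le_one₀ (trap_le_one _ _) (trap_nonneg _ _) (trap_le_one _ _)

lemma chi_eq_zero {ρ : ℝ} (hρ : 0 < ρ) {z : E} {θ : ℝ} (h : ρ ≤ ‖z‖ ∨ ρ ≤ |θ|) :
    chi ρ z θ = 0 := by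
  unfold chi
  rcases h with h | h
  · rw [trap_eq_zero hρ h, zero_mul]
  · rw [trap_eq_zero hρ h, mul_zero]

lemma chi_eq_one {ρ : ℝ} (hρ : 0 < ρ) {z : E} {θ : ℝ} (h1 : ‖z‖ ≤ ρ / 2) (h2 : |θ| ≤ ρ / 2) :
    chi ρ z θ = 1 := by
  unfold chi
  rw [trap_eq_one hρ h1, trap_eq_one hρ h2, one_mul]

lemma chi_ge {ρ : ℝ} (hρ : 0 < ρ) (s0 : ℝ) (z : E) (θ : ℝ) :
    min (s0 ^ 2) (ρ ^ 2 / 4) ≤ (s0 * chi ρ z θ) ^ 2 + θ ^ 2 + ‖z‖ ^ 2 := by
  rcases le_or_gt ‖z‖ (ρ / 2) with h1 | h1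
  · rcases le_or_gt |θ| (ρ / 2) with h2 | h2
    · rw [chi_eq_one hρ h1 h2, mul_one]
      exact (min_le_left _ _).trans (by nlinarith [sq_nonneg θ, sq_nonneg ‖z‖])
    · refine (min_le_right _ _).trans ?_
      have h3 : (ρ / 2) ^ 2 ≤ |θ| ^ 2 := pow_le_pow_left₀ (by positivity) h2.le 2
      rw [sq_abs] at h3
      nlinarith [sq_nonneg (s0 * chi ρ z θ), sq_nonneg ‖z‖]
  · refine (min_le_right _ _).trans ?_
    have h3 : (ρ / 2) ^ 2 ≤ ‖z‖ ^ 2 := pow_le_pow_left₀ (by positivity) h1.le 2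
    nlinarith [sq_nonneg (s0 * chi ρ z θ), sq_nonneg θ]

lemma chi_cont (ρ s0 : ℝ) {gt : E → ℝ} (hgt : ContinuousOn gt (sphere 0 1)) :
    ContinuousOn (fun p : E × ℝ × E => s0 * chi ρ p.1 p.2.1 * gt p.2.2)
      (univ ×ˢ (univ ×ˢ sphere (0 : E) 1)) := by
  have h1 : Continuous fun p : E × ℝ × E => s0 * chi ρ p.1 p.2.1 :=
    continuous_const.mul ((continuous_chi ρ).comp
      (continuous_fst.prodMk (continuous_fst.comp continuous_snd)))
  refine h1.continuousOn.mul (hgt.comp (t := sphere (0 : E) 1)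
    (continuous_snd.comp continuous_snd).continuousOn ?_)
  rintro ⟨z, θ, y⟩ ⟨-, -, hy⟩
  exact hy

end cutoff

end Crest.Agent.R246.OutT378
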