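import Crest.Agent.R246.IF5_101
import Crest.Agent.R246.IF6_101
import Crest.Agent.R246.OutT_378
import Crest.Agent.R246.FamC_378
import Crest.Agent.R246.Psi4_348
import Crest.Agent.R246.Skel_656

/-!
# I(I), assembly part 1 (helper101): near estimate + far lemma => the family
-/

set_option autoImplicit false
set_option linter.unusedSectionVars false
noncomputable section
open MeasureTheory Set Filter Topology Metric
open scoped RealInnerProductSpace ContDiff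

namespace Crest.Agent.R246.IF101

open Crest.Agent.R246.H990 (NullCone VB boost continuousOn_boost)
open Crest.Agent.R246.SM436 (Good SmoothMin hs)
open Crest.Agent.R246.D2x782 (SmHom0 eden)
open Crest.Agent.R246.Skel656 (E HasFam)

lemma tail_le {ε t1 : ℝ} (hε : 0 < ε) (ht1 : 0 < t1) :
    1 / (2 * ε) * (1 - Real.tanh (t1 / ε) ^ 2) ^ 2 ≤ 2 * ε / t1 ^ 2 := by
  have h0 : 0 < t1 / ε := div_pos ht1 hε
  have h1 := one_sub_tanh_le h0.le
  have h2 := Real.tanh_lt_one (t1 / ε)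
  have h3 := Real.neg_one_lt_tanh (t1 / ε)
  have h5 : 1 / (1 + t1 / ε) ≤ ε / t1 := by
    rw [div_le_div_iff₀ (by positivity) ht1]
    have : ε * (1 + t1 / ε) = ε + t1 := by field_simp
    nlinarith
  have h4 : 1 - Real.tanh (t1 / ε) ^ 2 ≤ 2 * (ε / t1) := by nlinarith
  have h6 : 0 ≤ 1 - Real.tanh (t1 / ε) ^ 2 := by nlinarith
  calc 1 / (2 * ε) * (1 - Real.tanh (t1 / ε) ^ 2) ^ 2 ≤ 1 / (2 * ε) * (2 * (ε / t1)) ^ 2 := by
        gcongr
    _ = 2 * ε / t1 ^ 2 := by field_simp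

lemma mollSt_boost {F : Type*} [NormedAddCommGroup F] [InnerProductSpace ℝ F]
    [FiniteDimensional ℝ F] [MeasurableSpace F] [BorelSpace F] {φ : F → ℝ} (hφ : NullCone φ)
    {ε : ℝ} (hε : 0 < ε) (θ : ℝ) {z : F} (hz : ‖z‖ ≤ 1) : Fam348.MollSt ε θ (boost φ z) := by
  rcases hz.lt_or_eq with h | h
  · have hN := hφ.boost h
    exact Psi348.mollSt hN.lip hN.hom hε θ
  · have hb : H990.boost φ z = fun y => ⟪z, y⟫ := by
      funext y
      exact H990.boost_of_not_lt (by rw [h]; exact lt_irrefl _) y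
    rw [hb]
    refine Psi348.mollSt ?_ ?_ hε θ
    · refine LipschitzWith.of_dist_le_mul fun x y => ?_
      rw [Real.dist_eq, ← inner_sub_right, NNReal.coe_one, one_mul, dist_eq_norm]
      exact (abs_real_inner_le_norm _ _).trans (by rw [h, one_mul])
    · intro t _ x
      rw [inner_smul_right]

/-- smooth approximation of the near members. -/
lemma near_member {m : ℕ} {φ : E m → ℝ} (hφ : NullCone φ) {gt : E m → ℝ} (hgt : SmHom0 gt)
    {G1 : ℝ} (hG1 : ∀ y : E m, ‖y‖ = 1 → ‖fderiv ℝ gt y‖ ≤ G1) (hG0 : 0 ≤ G1) {t0 t1 : ℝ}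
    (ht1 : 0 < t1) {z : E m} {θ s ε : ℝ} (hz : ‖z‖ < 1) (hs : |s| ≤ 1) (hε : 0 < ε)
    (hC1 : ∀ y : E m, ‖y‖ = 1 → |φ y| < t0 → ContDiffAt ℝ 1 (boost φ z) y)
    (hfar : ∀ y : E m, ‖y‖ = 1 → t0 ≤ |φ y| →
      t1 ≤ |Real.arcsin (boost φ z y * ‖y‖⁻¹) - θ - s * gt y|) {η : ℝ} (hη : 0 < η) :
    ∃ w : E m → ℝ, Fam348.Adm w ∧
      (∀ y : sphere (0 : E m) 1,
        |w y - Real.tanh ((Real.arcsin (boost φ z y) - θ - s * gt y) / ε)| ≤ η) ∧
      Fam348.AcE ε w ≤ (∫ y in {y : sphere (0 : E m) 1 | |φ y| < t0},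
        eden ε (fun x => Real.arcsin (boost φ z x * ‖x‖⁻¹) - θ - s * gt x) y
          ∂(volume : Measure (E m)).toSphere) +
        ((volume : Measure (E m)).toSphere.real univ) * (2 * ε / t1 ^ 2 * (1 + (1 + G1) ^ 2)) +
          η := by
  have hN := hφ.boost hz
  have hgs : ContDiffOn ℝ ∞ (fun x => s * gt x) {0}ᶜ := fun x hx =>
    (contDiffAt_const.mul (hgt.smooth x hx)).contDiffWithinAt
  have hTm : MeasurableSet {y : sphere (0 : E m) 1 | |φ y| < t0} :=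
    measurableSet_lt ((hφ.lip.continuous.measurable.comp measurable_subtype_coe).abs)
      measurable_const
  have hGf : ∀ y : E m, ‖y‖ = 1 → ‖fderiv ℝ (fun x => s * gt x) y‖ ≤ G1 := by
    intro y hy
    have h1 : fderiv ℝ (fun x => s * gt x) y = s • fderiv ℝ gt y :=
      fderiv_const_mul ((hgt.smooth y (ne_zero_of_norm_one hy)).differentiableAt (by simp)) s
    rw [h1, norm_smul, Real.norm_eq_abs]
    calc |s| * ‖fderiv ℝ gt y‖ ≤ 1 * G1 := by
          gcongr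
          exact hG1 y hy
      _ = G1 := one_mul _
  obtain ⟨c, hc0, hc1, hcb⟩ := hN.bd
  have hy1 : ∀ y : sphere (0 : E m) 1, ‖(y : E m)‖ = 1 := fun y => by simp
  obtain ⟨w, h1, h2, h3⟩ := exists_near_approx (θ := θ) (t1 := t1) (g := fun x => s * gt x)
    hN.lip hN.hom
    (fun t ht x => by
      show s * gt (t • x) = s * gt x
      rw [hgt.hom t x ht]) hgs hGf hTm
    (fun y hy => ⟨hC1 y (hy1 y) hy, by
      refine (hcb y).trans_lt ?_
      rw [hy1 y, mul_one]; exact hc1⟩) hε ht1.le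
    (fun y hy => by
      have hy' : t0 ≤ |φ y| := not_lt.1 hy
      exact hfar y (hy1 y) hy') hη
  refine ⟨w, h1, fun y => ?_, ?_⟩
  · have := h2 y
    unfold rh at this
    rwa [hy1 y, inv_one, mul_one] at this
  · refine h3.trans ?_
    have h4 : (∫ y in {y : sphere (0 : E m) 1 | |φ y| < t0},
        1 / (2 * ε) * (1 - Real.tanh (rh (boost φ z) θ (fun x => s * gt x) y / ε) ^ 2) ^ 2 *
        (1 + ‖fderiv ℝ (rh (boost φ z) θ (fun x => s * gt x)) y‖ ^ 2)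
          ∂(volume : Measure (E m)).toSphere) =
        ∫ y in {y : sphere (0 : E m) 1 | |φ y| < t0},
        eden ε (fun x => Real.arcsin (boost φ z x * ‖x‖⁻¹) - θ - s * gt x) y
          ∂(volume : Measure (E m)).toSphere := by
      congr 1
      funext y
      rw [OutT378.eden_eq _ _ (hy1 y)]
      rfl
    rw [h4]
    have h5 := tail_le hε ht1
    have h6 : 0 ≤ (volume : Measure (E m)).toSphere.real univ := measureReal_nonneg
    gcongr

lemma cube_le {C ρ c0 a n b : ℝ} (hC : 0 ≤ C) (hρ : 0 ≤ ρ) (h : 27 * (C + 1) * ρ ≤ c0)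
    (_ : 0 ≤ a) (_ : 0 ≤ n) (_ : 0 ≤ b) (ha' : a ≤ ρ) (hn' : n ≤ ρ) (hb' : b ≤ ρ) :
    C * (a + n + b) ^ 3 ≤ c0 / 3 * (a ^ 2 + b ^ 2 + n ^ 2) := by
  have g1 : a + n + b ≤ 3 * ρ := by linarith
  have g2 : (a + n + b) ^ 2 ≤ 3 * (a ^ 2 + b ^ 2 + n ^ 2) := by
    nlinarith [sq_nonneg (a - n), sq_nonneg (a - b), sq_nonneg (n - b)]
  calc C * (a + n + b) ^ 3 = C * ((a + n + b) * (a + n + b) ^ 2) := by ring
    _ ≤ C * ((3 * ρ) * (3 * (a ^ 2 + b ^ 2 + n ^ 2))) := by gcongr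
    _ = (9 * C * ρ) * (a ^ 2 + b ^ 2 + n ^ 2) := by ring
    _ ≤ (c0 / 3) * (a ^ 2 + b ^ 2 + n ^ 2) := by
        gcongr
        nlinarith

theorem hasFam_of_near {m : ℕ} (hm : 1 ≤ m) {φ : E m → ℝ} (S : SmoothMin φ) {V : ℝ}
    (hV : VB φ V) (hV0 : 0 < V) (hsp : ∀ w : E m, w ≠ 0 → ∃ p ∈ NU φ, ⟪w, p⟫ ≠ 0)
    {gt : E m → ℝ} (hgt : SmHom0 gt) {t0 d0 C c0 : ℝ} {om : ℝ → ℝ} (ht0 : 0 < t0) (hd0 : 0 < d0)
    (hC : 0 ≤ C) (hc0 : 0 < c0) (hom : Tendsto om (𝓝[>] 0) (𝓝 0))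
    (hC1 : ∀ z : E m, ‖z‖ ≤ d0 → ∀ y : E m, ‖y‖ = 1 → |φ y| < t0 → ContDiffAt ℝ 1 (boost φ z) y)
    (hen : ∀ ε : ℝ, 0 < ε → ε ≤ 1 → ∀ (s : ℝ) (z : E m) (θ : ℝ), |s| ≤ d0 → ‖z‖ ≤ d0 → |θ| ≤ d0 →
      ∫ y in {y : sphere (0 : E m) 1 | |φ y| < t0},
        eden ε (fun x => Real.arcsin (boost φ z x * ‖x‖⁻¹) - θ - s * gt x) y
          ∂(volume : Measure (E m)).toSphere ≤
        4 / 3 * (V - c0 / 2 * (s ^ 2 + θ ^ 2 + ‖z‖ ^ 2)) + C * (|s| + ‖z‖ + |θ|) ^ 3 + om ε) :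
    ∃ c : ℝ, 0 < c ∧ ∀ᶠ ε in 𝓝[>] (0 : ℝ), HasFam m ε (4 / 3 * (V - c)) := by
  have hN := S.nc
  have hk : Module.finrank ℝ (E m) = (m - 1) + 3 := by
    rw [finrank_euclideanSpace_fin]; omega
  have hy1 : ∀ y : sphere (0 : E m) 1, ‖(y : E m)‖ = 1 := fun y => by simp
  -- bound of the gradient of `gt`
  have hgc : ContinuousOn gt {0}ᶜ := fun x hx => (hgt.smooth x hx).continuousAt.continuousWithinAt
  have hsub : sphere (0 : E m) 1 ⊆ ({0}ᶜ : Set (E m)) := fun y hy =>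
    ne_zero_of_norm_one (by simpa using hy)
  obtain ⟨G1, hG1⟩ : ∃ G1 : ℝ, ∀ y ∈ sphere (0 : E m) 1, ‖fderiv ℝ gt y‖ ≤ G1 := by
    refine (isCompact_sphere (0 : E m) 1).exists_bound_of_continuousOn ?_
    intro y hy
    have h1 : ContDiffAt ℝ ∞ (fderiv ℝ gt) y := (hgt.smooth y (hsub hy)).fderiv_right (by simp)
    exact h1.continuousAt.continuousWithinAt
  have hG1' : ∀ y : E m, ‖y‖ = 1 → ‖fderiv ℝ gt y‖ ≤ max G1 0 := fun y hy =>
    (hG1 y (by simpa using hy)).trans (le_max_left _ _)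
  obtain ⟨d1, t1, hd1, ht1, hout⟩ := OutT378.out_lower hN (hgc.mono hsub) ht0
  -- the radius
  set ρ : ℝ := min (min d0 d1) (min (1 / 2) (c0 / (27 * (C + 1)))) with hρd
  have hρ : 0 < ρ := by
    rw [hρd]
    exact lt_min (lt_min hd0 hd1) (lt_min (by norm_num) (by positivity))
  have hρ0 : ρ ≤ d0 := (min_le_left _ _).trans (min_le_left _ _)
  have hρ1 : ρ ≤ d1 := (min_le_left _ _).trans (min_le_right _ _)
  have hρ2 : ρ ≤ 1 / 2 := (min_le_right _ _).trans (min_le_left _ _)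
  have hρ3 : 27 * (C + 1) * ρ ≤ c0 := by
    have h : ρ ≤ c0 / (27 * (C + 1)) := (min_le_right _ _).trans (min_le_right _ _)
    rw [le_div_iff₀ (by positivity)] at h
    linarith
  obtain ⟨c1, hc1, ε1, hε1, hfar⟩ := far hk S hV hV0 hsp hρ
  set κ : ℝ := min (ρ ^ 2) (ρ ^ 2 / 4) with hκd
  have hκ : 0 < κ := lt_min (by positivity) (by positivity)
  set c : ℝ := min (min c1 V) (c0 * κ / 8) with hcd
  have hc : 0 < c := lt_min (lt_min hc1 hV0) (by positivity)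
  have hcc1 : c ≤ c1 := (min_le_left _ _).trans (min_le_left _ _)
  have hcV : c ≤ V := (min_le_left _ _).trans (min_le_right _ _)
  have hcκ : c ≤ c0 * κ / 8 := min_le_right _ _
  have hA0 : 0 ≤ 4 / 3 * (V - c) := by linarith
  refine ⟨c, hc, ?_⟩
  -- small epsilon
  set Sg := (volume : Measure (E m)).toSphere.real univ with hSg
  have hSg0 : 0 ≤ Sg := measureReal_nonneg
  have hlim : Tendsto (fun ε => om ε + Sg * (2 * ε / t1 ^ 2 * (1 + (1 + max G1 0) ^ 2)))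
      (𝓝[>] (0 : ℝ)) (𝓝 (0 + Sg * (2 * 0 / t1 ^ 2 * (1 + (1 + max G1 0) ^ 2)))) := by
    refine hom.add ?_
    have : Continuous fun ε : ℝ => Sg * (2 * ε / t1 ^ 2 * (1 + (1 + max G1 0) ^ 2)) := by
      fun_prop
    exact (this.tendsto 0).mono_left nhdsWithin_le_nhds
  have hev := hlim.eventually (gt_mem_nhds (show
    0 + Sg * (2 * 0 / t1 ^ 2 * (1 + (1 + max G1 0) ^ 2)) < c0 * κ / 6 by
      have : 0 + Sg * (2 * 0 / t1 ^ 2 * (1 + (1 + max G1 0) ^ 2)) = 0 := by simp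
      rw [this]; positivity))
  have hev2 : ∀ᶠ ε in 𝓝[>] (0 : ℝ), 0 < ε ∧ ε < min ε1 1 := by
    have := Ioo_mem_nhdsGT (show (0 : ℝ) < min ε1 1 from lt_min hε1 one_pos)
    filter_upwards [this] with ε hε using ⟨hε.1, hε.2⟩
  filter_upwards [hev, hev2] with ε hsm hε'
  obtain ⟨hε, hεm⟩ := hε'
  have hεε1 : ε < ε1 := hεm.trans_le (min_le_left _ _)
  have hεone : ε ≤ 1 := (hεm.trans_le (min_le_right _ _)).le
  -- the family
  obtain ⟨U, hU1, hU2, hU3⟩ := FamC378.exists_modified (E := E m) (Φ := boost φ) (ε := ε)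
    (G := fun z θ y => ρ * OutT378.chi ρ z θ * gt y) hε
    ((continuousOn_boost hN).mono (prod_mono_right (subset_univ _)))
    (fun a y ha _ => H990.boost_neg_of_norm_eq_one φ ha y)
    (OutT378.chi_cont ρ ρ (hgc.mono hsub)) (r₁ := ρ) (T₁ := ρ) (by linarith)
    (fun z θ y _ h => by
      show ρ * OutT378.chi ρ z θ * gt y = 0
      rw [OutT378.chi_eq_zero hρ h]; ring)
  refine ⟨(E m × ℝ) × ℝ, inferInstance, inferInstance, inferInstance, U, ?_, hU1, hU2, ?_⟩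
  · simp
  -- members of the family
  have key : ∀ (z : E m) (θ : ℝ), ‖z‖ ≤ 1 → ∀ δ > 0, ∃ w : E m → ℝ, Fam348.Adm w ∧
      (∀ y : sphere (0 : E m) 1, |w y - Real.tanh ((Real.arcsin (boost φ z y) - θ -
        ρ * OutT378.chi ρ z θ * gt y) / ε)| ≤ δ) ∧ Fam348.AcE ε w ≤ 4 / 3 * (V - c) + δ := by
    intro z θ hz δ hδ
    by_cases hfr : ρ ≤ ‖z‖ ∨ ρ ≤ |θ|
    · obtain ⟨w, hw1, hw2, hw3⟩ := mollSt_boost hN hε θ hz δ hδ
      refine ⟨w, hw1, fun y => ?_, ?_⟩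
      · rw [OutT378.chi_eq_zero hρ hfr, mul_zero, zero_mul, sub_zero]
        exact hw2 y (hy1 y)
      · have := hfar ε hε hεε1 z hz θ hfr
        linarith
    · push Not at hfr
      obtain ⟨hz1, hθ1⟩ := hfr
      set s := ρ * OutT378.chi ρ z θ with hs
      have hχ := And.intro (OutT378.chi_nonneg ρ z θ) (OutT378.chi_le_one ρ z θ)
      have hs0 : 0 ≤ s := mul_nonneg hρ.le hχ.1
      have hsρ : |s| ≤ ρ := by
        rw [abs_of_nonneg hs0, hs]
        exact mul_le_of_le_one_right hρ.le hχ.2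
      obtain ⟨w, hw1, hw2, hw3⟩ := near_member (z := z) (θ := θ) (s := s) (ε := ε) (t0 := t0) hN hgt
        hG1' (le_max_right _ _) ht1
        (by linarith) (by linarith) hε (hC1 z (by linarith))
        (fun y hy h => hout z θ s y (by linarith) (by linarith) (by linarith) hy h) hδ
      refine ⟨w, hw1, hw2, hw3.trans ?_⟩
      have h1 := hen ε hε hεone s z θ (by linarith) (by linarith) (by linarith)
      have h2 : κ ≤ s ^ 2 + θ ^ 2 + ‖z‖ ^ 2 := OutT378.chi_ge hρ ρ z θ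
      have h3 : C * (|s| + ‖z‖ + |θ|) ^ 3 ≤ c0 / 3 * (s ^ 2 + θ ^ 2 + ‖z‖ ^ 2) := by
        have h := cube_le hC hρ.le hρ3 (abs_nonneg s) (norm_nonneg z) (abs_nonneg θ) hsρ hz1.le
          hθ1.le
        rwa [sq_abs, sq_abs] at h
      have h4 : c0 / 3 * κ ≤ c0 / 3 * (s ^ 2 + θ ^ 2 + ‖z‖ ^ 2) := by gcongr
      have h5 : om ε + Sg * (2 * ε / t1 ^ 2 * (1 + (1 + max G1 0) ^ 2)) < c0 * κ / 6 := hsm
      linarith
  intro p δ hδ
  rcases hU3 p with h | h | ⟨z, θ, hz, h⟩ | ⟨z, θ, hz, h⟩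
  · refine ⟨fun _ => 1, Fam348.Adm.const (by simp), fun y => ?_, ?_⟩
    · rw [h y]; simpa using hδ.le
    · rw [Fam348.AcE_const (by norm_num)]; linarith
  · refine ⟨fun _ => -1, Fam348.Adm.const (by simp), fun y => ?_, ?_⟩
    · rw [h y]; simpa using hδ.le
    · rw [Fam348.AcE_const (by norm_num)]; linarith
  · obtain ⟨w, hw1, hw2, hw3⟩ := key z θ hz δ hδ
    exact ⟨w, hw1, fun y => by rw [h y]; exact hw2 y, hw3⟩
  · obtain ⟨w, hw1, hw2, hw3⟩ := key z θ hz δ hδ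
    refine ⟨fun x => - w x, hw1.neg, fun y => ?_, ?_⟩
    · rw [h y]
      have := hw2 y
      rw [show -w (y : E m) - -Real.tanh ((Real.arcsin (boost φ z y) - θ -
        ρ * OutT378.chi ρ z θ * gt y) / ε) = -(w y - Real.tanh ((Real.arcsin (boost φ z y) - θ -
        ρ * OutT378.chi ρ z θ * gt y) / ε)) by ring, abs_neg]
      exact this
    · rw [Fam348.AcE_neg]; exact hw3

end Crest.Agent.R246.IF101
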