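import Crest.Agent.R246.IF7_101
import Crest.Agent.R246.Skel2_656

/-!
# I(I), assembly part 2 (helper101): `StIdx m` from the near energy expansion (HN) and the
coercivity / span statement (HL).
-/

set_option autoImplicit false
set_option linter.unusedSectionVars false
noncomputable section
open MeasureTheory Set Filter Topology Metric
open scoped RealInnerProductSpace ContDiff

namespace Crest.Agent.R246.IF101

open Crest.Agent.R246.H990 (NullCone VB boost continuousOn_boost)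
open Crest.Agent.R246.SM436 (Good SmoothMin hs Tube mu)
open Crest.Agent.R246.Hersch900 (SmS T)
open Crest.Agent.R246.HerschSM900 (A2 AreaMeas)
open Crest.Agent.R246.D2x782 (SmHom0 eden)
open Crest.Agent.R246.G873 (ClassD)
open Crest.Agent.R246.Skel656 (E HasFam)
open Crest.Agent.R246.Skel2 (StIdx)

/-- the quadratic form `∫ |∇u|² - (|A|² + m) u²`. -/
def Qf (m : ℕ) (φ : E m → ℝ) (μ : Measure (E m)) (u : E m → ℝ) : ℝ :=
  ∫ x, T (gradient φ) u x ∂μ - ∫ x, A2 φ x * u x ^ 2 ∂μ - m * ∫ x, u x ^ 2 ∂μ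

/-- (HN), helper200. -/
def NearE (m : ℕ) : Prop :=
  ∀ (φ : E m → ℝ) (b : ℝ), SmoothMin φ → ClassD φ → Tube φ b → AreaMeas m φ (mu φ b) →
    ∀ G : E m → ℝ, (∀ p : E m, ‖p‖ = 1 → φ p = 0 → ContDiffAt ℝ ∞ G p) →
    ∃ (gt : E m → ℝ) (t0 d0 C : ℝ) (om : ℝ → ℝ), SmHom0 gt ∧ 0 < t0 ∧ 0 < d0 ∧ 0 ≤ C ∧
      Tendsto om (𝓝[>] 0) (𝓝 0) ∧
      (∀ z : E m, ‖z‖ ≤ d0 → ∀ y : E m, ‖y‖ = 1 → |φ y| < t0 → ContDiffAt ℝ 1 (boost φ z) y) ∧
      ∀ ε : ℝ, 0 < ε → ε ≤ 1 → ∀ (s : ℝ) (z : E m) (θ : ℝ), |s| ≤ d0 → ‖z‖ ≤ d0 → |θ| ≤ d0 →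
        ∫ y in {y : sphere (0 : E m) 1 | |φ y| < t0},
          eden ε (fun x => Real.arcsin (boost φ z x * ‖x‖⁻¹) - θ - s * gt x) y
            ∂(volume : Measure (E m)).toSphere ≤
          4 / 3 * ((mu φ b).real univ +
            1 / 2 * Qf m φ (mu φ b) (fun x => s * G x + θ - ⟪z, x⟫)) +
            C * (|s| + ‖z‖ + |θ|) ^ 3 + om ε

/-- (HL), helper149. -/
def CoerL (m : ℕ) : Prop :=
  ∀ (φ : E m → ℝ) (b : ℝ), SmoothMin φ → ClassD φ → Tube φ b → AreaMeas m φ (mu φ b) →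
    ∀ h : E m → ℝ, SmS h → ∫ x, A2 φ x * h x ∂(mu φ b) = 0 →
    ∫ x, T (gradient φ) h x ∂(mu φ b) < ∫ x, A2 φ x * h x ^ 2 ∂(mu φ b) →
    (∃ (α β : ℝ) (b' : E m) (c : ℝ), 0 < c ∧ ∀ (s θ : ℝ) (z : E m),
      Qf m φ (mu φ b) (fun x => s * (α * h x + β + ⟪b', gradient φ x⟫) + θ - ⟪z, x⟫) ≤
        -c * (s ^ 2 + θ ^ 2 + ‖z‖ ^ 2)) ∧
    ∀ w : E m, w ≠ 0 → ∃ p : E m, φ p = 0 ∧ ‖p‖ = 1 ∧ hs φ p ≠ 0 ∧ ⟪w, p⟫ ≠ 0

theorem stIdx_of {m : ℕ} (hm : 1 ≤ m) (h1 : NearE m) (h2 : CoerL m) : StIdx m := by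
  intro φ b S hD hT hA hV h hh hAh hlt
  obtain ⟨⟨α, β, b', c0, hc0, hQ⟩, hsp⟩ := h2 φ b S hD hT hA h hh hAh hlt
  have hG : ∀ p : E m, ‖p‖ = 1 → φ p = 0 →
      ContDiffAt ℝ ∞ (fun x => α * h x + β + ⟪b', gradient φ x⟫) p := by
    intro p hp hp0
    have h3 : ContDiffAt ℝ ∞ h p := hh p hp
    have h4 : ContDiffAt ℝ ∞ (gradient φ) p := (S.good p (ne_zero_of_norm_one hp) hp0).contDiffAt_gradient
    exact ((contDiffAt_const.mul h3).add contDiffAt_const).add (contDiffAt_const.inner ℝ h4)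
  obtain ⟨gt, t0, d0, C, om, hgt, ht0, hd0, hC, hom, hC1, hen⟩ := h1 φ b S hD hT hA _ hG
  have hfin : IsFiniteMeasure (mu φ b) := hA.fin
  have hV0 : 0 < (mu φ b).real univ := by
    rcases eq_or_ne (mu φ b) 0 with h0 | h0
    · rw [h0] at hlt
      simp at hlt
    · rw [measureReal_def]
      exact ENNReal.toReal_pos (by simpa using h0) (measure_ne_top _ _)
  refine hasFam_of_near hm S hV hV0 ?_ hgt ht0 hd0 hC hc0 hom hC1 ?_
  · intro w hw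
    obtain ⟨p, hp0, hp1, hp2, hp3⟩ := hsp w hw
    exact ⟨p, ⟨hp0, hp1, hp2⟩, hp3⟩
  · intro ε hε hε1 s z θ hs hz hθ
    refine (hen ε hε hε1 s z θ hs hz hθ).trans ?_
    have h5 := hQ s θ z
    linarith

end Crest.Agent.R246.IF101
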