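import Crest.Agent.R246.IN9_200

/-!
Row 246, block I(I) (helper200), part 10: Lemma N for a smooth minimal hypercone, assembly.
-/

set_option autoImplicit false

open MeasureTheory Filter Topology Metric Set
open scoped ContDiff RealInnerProductSpace
open Crest.GeometryTopology.CoordMetric Crest.GeometryTopology.AffineMaximal
open Crest.Agent.R236.Jet Crest.Agent.R202.SphDiv Crest.Agent.R246.D2x782
open Crest.Agent.R246.H990 (NullCone boost)

noncomputable section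

namespace Crest.Agent.R246.IN200

variable {n : ℕ}

local notation "EE" => EuclideanSpace ℝ (Fin n)

variable {φ : EuclideanSpace ℝ (Fin n) → ℝ} {b : ℝ}

/-- the remainder of the boosted distance -/
def Hh (φ : EuclideanSpace ℝ (Fin n) → ℝ) (z x : EuclideanSpace ℝ (Fin n)) : ℝ :=
  Real.arcsin (boost φ z x * ‖x‖⁻¹) - Real.arctan (SM436.ta φ x) - ⟪z, SM436.pp φ x⟫

/-- what is needed about the boost -/
def BoostHyp (φ : EuclideanSpace ℝ (Fin n) → ℝ) (b d0 C : ℝ) : Prop :=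
  ∀ z : EuclideanSpace ℝ (Fin n), ‖z‖ ≤ d0 → ∀ y : EuclideanSpace ℝ (Fin n), ‖y‖ = 1 →
    |SM436.ta φ y| ≤ 3 * b / 4 →
    ContDiffAt ℝ 1 (boost φ z) y ∧ |boost φ z y| < 1 ∧ |Hh φ z y| ≤ C * ‖z‖ ^ 2 ∧
      ‖fderiv ℝ (Hh φ z) y‖ ≤ C * ‖z‖ ^ 2

theorem boost_smul (nc : NullCone φ) {z : EE} (hz : ‖z‖ < 1) {t : ℝ} (ht : 0 < t) (x : EE) :
    boost φ z (t • x) = t * boost φ z x := (nc.boost hz).hom t ht.le x

theorem c1_Hh (nc : NullCone φ) (hT : SM436.Tube φ b) {d0 C : ℝ} (hd1 : d0 < 1)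
    (hB : BoostHyp φ b d0 C) {z : EE} (hz : ‖z‖ ≤ d0) :
    C1 (fun x => chR hT.hb (SM436.ta φ x) * Hh φ z x) := by
  intro x hx
  have hb := hT.hb
  refine contDiffAt_cut hT (chR_sm hT.hb) (c := 3 * b / 4) (by linarith)
    (fun t ht => chR_zero hT.hb ht) (by exact_mod_cast le_top) hx ?_
  intro hta
  have hz1 : ‖z‖ < 1 := hz.trans_lt hd1
  have hxT : x ∈ SM436.TT φ b := (mem_TT_iff hT hx).2 (by linarith)
  have hn : 0 < ‖x‖ := norm_pos_iff.2 hx
  have hy1 : ‖‖x‖⁻¹ • x‖ = 1 := by simp [norm_smul, hn.ne']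
  have hy2 : |SM436.ta φ (‖x‖⁻¹ • x)| ≤ 3 * b / 4 := by
    rw [hT.ta_smul x (inv_pos.2 hn)]; exact hta
  obtain ⟨h1, h2, -, -⟩ := hB z hz _ hy1 hy2
  have h3 : ContDiffAt ℝ 1 (boost φ z) x := by
    have h4 : boost φ z = fun x' => ‖x‖ * boost φ z (‖x‖⁻¹ • x') := by
      funext x'
      rw [boost_smul nc hz1 (inv_pos.2 hn)]
      field_simp
    rw [h4]
    refine contDiffAt_const.mul ?_
    exact h1.comp x (contDiff_const_smul (‖x‖⁻¹)).contDiffAt
  have h5 : ContDiffAt ℝ 1 (fun x : EE => ‖x‖⁻¹) x := (contDiffAt_norm ℝ hx).inv hn.ne'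
  have h6 : |boost φ z x * ‖x‖⁻¹| < 1 := by
    rwa [boost_smul nc hz1 (inv_pos.2 hn), mul_comm] at h2
  have h7 := abs_lt.1 h6
  have h8 : ContDiffAt ℝ 1 (fun x => Real.arcsin (boost φ z x * ‖x‖⁻¹)) x :=
    (Real.contDiffAt_arcsin (by linarith) (by linarith)).comp x (h3.mul h5)
  have h9 : ContDiffAt ℝ 1 (fun x => Real.arctan (SM436.ta φ x)) x :=
    (Real.contDiff_arctan.contDiffAt).comp x ((hT.contDiffAt_ta hxT).of_le (by exact_mod_cast le_top))
  have h10 : ContDiffAt ℝ 1 (fun x => ⟪z, SM436.pp φ x⟫) x :=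
    contDiffAt_const.inner ℝ ((hT.contDiffAt_pp hxT).of_le (by exact_mod_cast le_top))
  exact (h8.sub h9).sub h10

theorem norm_gradient_eq (a : EE → ℝ) (x : EE) : ‖gradient a x‖ = ‖fderiv ℝ a x‖ := by
  rw [SM436.gradient_eq_comp]
  exact LinearIsometryEquiv.norm_map _ _

/-- smallness of the deformation -/
theorem exists_small (nc : NullCone φ) (hT : SM436.Tube φ b) {G : EE → ℝ}
    (hG : ∀ p ∈ SM436.Lk φ, ContDiffAt ℝ ∞ G p) {d0 C : ℝ} (hd1 : d0 < 1) (hC : 0 ≤ C)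
    (hB : BoostHyp φ b d0 C) :
    ∃ K : ℝ, 0 < K ∧ ∀ (s θ : ℝ) (z : EE), ‖z‖ ≤ d0 →
      Small (TR φ b) (K * (|s| + ‖z‖ + |θ|)) (rF φ hT.hb) (comb (FF φ hT.hb G) (cc s θ z))
        (fun x => chR hT.hb (SM436.ta φ x) * Hh φ z x) := by
  obtain ⟨K1, hK1, hb1⟩ := comb_bounds (FF_sm hT hG)
  refine ⟨K1 + C + 1, by positivity, fun s θ z hz => ?_⟩
  set D := |s| + ‖z‖ + |θ| with hD
  have hD0 : 0 ≤ D := by positivity
  have hzD : ‖z‖ ≤ D := by
    have := abs_nonneg s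
    have := abs_nonneg θ
    linarith
  have hK1D : K1 * D ≤ (K1 + C + 1) * D := by
    have : 0 ≤ (C + 1) * D := by positivity
    nlinarith
  have hsq : C * ‖z‖ ^ 2 ≤ ((K1 + C + 1) * D) ^ 2 := by
    have h1 : ‖z‖ ^ 2 ≤ D ^ 2 := pow_le_pow_left₀ (norm_nonneg _) hzD 2
    have h2 : C ≤ (K1 + C + 1) ^ 2 := by nlinarith
    rw [mul_pow]
    exact mul_le_mul h2 h1 (sq_nonneg _) (sq_nonneg _)
  have hcc : ∀ i, |cc s θ z i| ≤ D := abs_cc_le s θ z
  have hbd := hb1 (cc s θ z) D hcc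
  have hsm := comb_sm (FF_sm hT hG) (cc s θ z)
  refine ⟨hsm, c1_Hh nc hT hd1 hB hz, ?_, ?_, ?_, ?_, ?_, ?_, ?_⟩
  · intro y hy
    exact sdot_NC hT hsm.c1 (comb_NC (FF_NC hT G) _) hy (by simp)
  · intro y _
    exact (hbd y).1.trans hK1D
  · intro y _
    exact (hbd y).2.1.trans (pow_le_pow_left₀ (by positivity) hK1D 2)
  · intro y _
    exact (hbd y).2.2.1.trans hK1D
  · intro y _
    exact (hbd y).2.2.2.trans (pow_le_pow_left₀ (by positivity) hK1D 2)
  · intro y hy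
    have hb := hT.hb
    obtain ⟨-, -, h3, -⟩ := hB z hz y (by simp) (by have := hy.2; linarith)
    show |chR hT.hb (SM436.ta φ y) * Hh φ z y| ≤ _
    rw [chR_one hT.hb hy.2.le, one_mul]
    exact h3.trans hsq
  · intro y hy
    have hb := hT.hb
    obtain ⟨-, -, -, h4⟩ := hB z hz y (by simp) (by have := hy.2; linarith)
    have h5 : (fun x => chR hT.hb (SM436.ta φ x) * Hh φ z x) =ᶠ[𝓝 (y : EE)] Hh φ z := by
      filter_upwards [(isOpen_TR hT).mem_nhds hy] with x hx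
      rw [chR_one hT.hb hx.2.le, one_mul]
    rw [sgsq_eq, sdot_congr_left h5, sdot_congr_right h5, sdot_sph, real_inner_self_eq_norm_sq,
      norm_gradient_eq]
    have h6 := h4.trans hsq
    calc ‖fderiv ℝ (Hh φ z) y‖ ^ 2 ≤ (((K1 + C + 1) * D) ^ 2) ^ 2 :=
          pow_le_pow_left₀ (norm_nonneg _) h6 2
      _ = ((K1 + C + 1) * D) ^ 4 := by ring

/-- the deformed distance -/
def rho (φ gt : EuclideanSpace ℝ (Fin n) → ℝ) (s θ : ℝ) (z x : EuclideanSpace ℝ (Fin n)) : ℝ :=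
  Real.arcsin (boost φ z x * ‖x‖⁻¹) - θ - s * gt x

theorem rhoF_eq (hT : SM436.Tube φ b) (G : EE → ℝ) (s θ : ℝ) (z : EE) {x : EE}
    (hx : x ∈ TR φ b) :
    rhoF (rF φ hT.hb) (comb (FF φ hT.hb G) (cc s θ z))
      (fun x => chR hT.hb (SM436.ta φ x) * Hh φ z x) x = rho φ (ext φ hT.hb G) s θ z x := by
  show rF φ hT.hb x - comb (FF φ hT.hb G) (cc s θ z) x + chR hT.hb (SM436.ta φ x) * Hh φ z x = _
  unfold rho
  rw [comb_FF hT G s θ z hx, chR_one hT.hb hx.2.le, rF_eq hT hx, ext_eq hT G hx]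
  unfold Hh uu r0
  ring

theorem eden_congr {ε : ℝ} {R R' : EE → ℝ} {x : EE} (h : R =ᶠ[𝓝 x] R') :
    eden ε R x = eden ε R' x := by
  rw [eden_eq, eden_eq, h.eq_of_nhds, sgsq_eq, sgsq_eq, sdot_congr_left h, sdot_congr_right h]

theorem eden_nonneg {ε : ℝ} (hε : 0 < ε) (R : EE → ℝ) (x : EE) : 0 ≤ eden ε R x := by
  rw [eden_eq]
  have h1 := GG_nonneg hε (R x)
  have h2 := sgsq_nonneg R x
  positivity

theorem ta_lt_of_phi (hT : SM436.Tube φ b) {y : EE} (hy : ‖y‖ = 1)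
    (h : |φ y| < min (1 / 2) (b / 16)) : |SM436.ta φ y| < b / 8 := by
  have h1 : |φ y| < 1 / 2 := h.trans_le (min_le_left _ _)
  have h2 : |φ y| < b / 16 := h.trans_le (min_le_right _ _)
  have hy0 : y ≠ 0 := by rintro rfl; simp at hy
  have h3 := hT.rr_sq y
  have h4 := hT.rr_pos hy0
  rw [hy] at h3
  have h5 : φ y ^ 2 < 1 / 4 := by
    rw [← sq_abs]
    have := abs_nonneg (φ y)
    nlinarith
  have h6 : 1 / 2 < SM436.rr φ y := by
    by_contra hc
    push Not at hc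
    nlinarith
  rw [SM436.ta, abs_div, abs_of_pos h4, div_lt_iff₀ h4]
  have := abs_nonneg (φ y)
  have hb := hT.hb
  nlinarith

/-- the weighted integral -/
def gI (φ : EuclideanSpace ℝ (Fin n) → ℝ) {b : ℝ} (hb : 0 < b) (ε : ℝ)
    (F : EuclideanSpace ℝ (Fin n) → ℝ) : ℝ :=
  ∫ z : Sph n, eF φ hb z * GG ε (rF φ hb z) * F z ∂(sig n)

/-- what is needed about the limit -/
def LimHyp (φ : EuclideanSpace ℝ (Fin n) → ℝ) (b : ℝ) (hb : 0 < b) : Prop :=
  ∀ F : EuclideanSpace ℝ (Fin n) → ℝ, (∀ x : EuclideanSpace ℝ (Fin n), x ≠ 0 → ContinuousAt F x) →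
    Tendsto (fun ε : ℝ => ∫ z : Sph n, chE hb (SM436.ta φ z)
      * (1 / ε * (1 - Real.tanh (Real.arctan (SM436.ta φ z) / ε) ^ 2) ^ 2) * F z ∂(sig n))
      (𝓝[>] 0) (𝓝 (4 / 3 * ∫ x, F x ∂(SM436.mu φ b)))

theorem gI_tendsto (hT : SM436.Tube φ b) (hL : LimHyp φ b hT.hb) {F : EE → ℝ}
    (hF : ∀ x : EE, x ≠ 0 → ContinuousAt F x) :
    Tendsto (fun ε => gI φ hT.hb ε F) (𝓝[>] 0) (𝓝 (4 / 3 * ∫ x, F x ∂(SM436.mu φ b))) := by
  refine (hL F hF).congr fun ε => ?_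
  unfold gI
  refine integral_congr_ae (Eventually.of_forall fun z => ?_)
  show chE hT.hb (SM436.ta φ z)
      * (1 / ε * (1 - Real.tanh (Real.arctan (SM436.ta φ z) / ε) ^ 2) ^ 2) * F z
      = chE hT.hb (SM436.ta φ z) * 1 * GG ε (rF φ hT.hb z) * F z
  by_cases h : b / 4 ≤ |SM436.ta φ (z : EE)|
  · rw [chE_zero hT.hb h]; ring
  · have hb := hT.hb
    have h1 : (z : EE) ∈ TR φ b := (mem_TR_iff hT (sph_ne z)).2 (by push Not at h; linarith)
    rw [rF_eq hT h1]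
    unfold GG r0
    ring

variable {ι : Type} [Fintype ι]

theorem gI_quad (hT : SM436.Tube φ b) {F : ι → EE → ℝ} (hF : ∀ i, SmHom0 (F i)) (c : ι → ℝ)
    (ε : ℝ) :
    gI φ hT.hb ε (fun x => sgsq (comb F c) x - qF φ hT.hb x * comb F c x ^ 2)
      = ∑ i, ∑ k, c i * c k * gI φ hT.hb ε
          (fun x => sdot (F i) (F k) x - qF φ hT.hb x * (F i x * F k x)) := by
  have ηc : C1 (eF φ hT.hb) := (eF_sm hT).c1
  have rc : C1 (rF φ hT.hb) := (rF_sm hT).c1
  have qc : C1 (qF φ hT.hb) := qF_sm hT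
  have hI : ∀ i k, Integrable (fun z : Sph n => eF φ hT.hb z * GG ε (rF φ hT.hb z)
      * (sdot (F i) (F k) z - qF φ hT.hb z * (F i z * F k z))) (sig n) := by
    intro i k
    refine integrable_sph (f := fun z => eF φ hT.hb z * GG ε (rF φ hT.hb z)
      * (sdot (F i) (F k) z - qF φ hT.hb z * (F i z * F k z))) fun x hx => ?_
    refine ((ηc.cont hx).mul (((continuous_GG ε).continuousAt).comp (rc.cont hx))).mul ?_
    exact ((hF i).c1.cont_sdot (hF k).c1 hx).sub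
      ((qc.cont hx).mul (((hF i).c1.cont hx).mul ((hF k).c1.cont hx)))
  have h1 : ∀ z : Sph n, eF φ hT.hb z * GG ε (rF φ hT.hb z)
      * (sgsq (comb F c) z - qF φ hT.hb z * comb F c z ^ 2)
      = ∑ i, ∑ k, c i * c k * (eF φ hT.hb z * GG ε (rF φ hT.hb z)
        * (sdot (F i) (F k) z - qF φ hT.hb z * (F i z * F k z))) := by
    intro z
    rw [sdot_comb hF c (sph_ne z), sq_comb]
    rw [Finset.mul_sum, ← Finset.sum_sub_distrib, Finset.mul_sum]
    refine Finset.sum_congr rfl fun i _ => ?_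
    rw [Finset.mul_sum, ← Finset.sum_sub_distrib, Finset.mul_sum]
    refine Finset.sum_congr rfl fun k _ => ?_
    ring
  unfold gI
  rw [integral_congr_ae (Eventually.of_forall h1), integral_finsetSum]
  · refine Finset.sum_congr rfl fun i _ => ?_
    rw [integral_finsetSum]
    · exact Finset.sum_congr rfl fun k _ => integral_const_mul _ _
    · exact fun k _ => (hI i k).const_mul _
  · exact fun i _ => integrable_finsetSum _ fun k _ => (hI i k).const_mul _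

theorem mu_quad (hT : SM436.Tube φ b) {F : ι → EE → ℝ} (hF : ∀ i, SmHom0 (F i)) (c : ι → ℝ) :
    ∫ x, (sgsq (comb F c) x - qF φ hT.hb x * comb F c x ^ 2) ∂(SM436.mu φ b)
      = ∑ i, ∑ k, c i * c k * ∫ x, (sdot (F i) (F k) x - qF φ hT.hb x * (F i x * F k x))
          ∂(SM436.mu φ b) := by
  have qc : C1 (qF φ hT.hb) := qF_sm hT
  have hI : ∀ i k, Integrable (fun x => sdot (F i) (F k) x - qF φ hT.hb x * (F i x * F k x))
      (SM436.mu φ b) := by
    intro i k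
    refine hT.integrable_mu fun p hp => ?_
    have hx := hT.ne_zero_of_Lk hp
    exact (((hF i).c1.cont_sdot (hF k).c1 hx).sub
      ((qc.cont hx).mul (((hF i).c1.cont hx).mul ((hF k).c1.cont hx)))).continuousWithinAt
  have h1 : ∀ᵐ x ∂(SM436.mu φ b), sgsq (comb F c) x - qF φ hT.hb x * comb F c x ^ 2
      = ∑ i, ∑ k, c i * c k * (sdot (F i) (F k) x - qF φ hT.hb x * (F i x * F k x)) := by
    filter_upwards [hT.ae_mem_Lk] with x hx
    rw [sdot_comb hF c (hT.ne_zero_of_Lk hx), sq_comb]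
    rw [Finset.mul_sum, ← Finset.sum_sub_distrib]
    refine Finset.sum_congr rfl fun i _ => ?_
    rw [Finset.mul_sum, ← Finset.sum_sub_distrib]
    refine Finset.sum_congr rfl fun k _ => ?_
    ring
  rw [integral_congr_ae h1, integral_finsetSum]
  · refine Finset.sum_congr rfl fun i _ => ?_
    rw [integral_finsetSum]
    · exact Finset.sum_congr rfl fun k _ => integral_const_mul _ _
    · exact fun k _ => (hI i k).const_mul _
  · exact fun i _ => integrable_finsetSum _ fun k _ => (hI i k).const_mul _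

/-- LEMMA N, with the two analytic inputs as hypotheses -/
theorem near_core (hn : 0 < n) (nc : NullCone φ) (hT : SM436.Tube φ b)
    (hmin : ∀ p ∈ SM436.Lk φ, LinearMap.trace ℝ EE (SM436.hs φ p : EE →ₗ[ℝ] EE) = 0)
    {G : EE → ℝ} (hG : ∀ p ∈ SM436.Lk φ, ContDiffAt ℝ ∞ G p) {dB CB : ℝ} (hdB : 0 < dB)
    (hd1 : dB < 1) (hCB : 0 ≤ CB) (hB : BoostHyp φ b dB CB) (hL : LimHyp φ b hT.hb) :
    ∃ (t0 d0 C : ℝ) (om : ℝ → ℝ), 0 < t0 ∧ 0 < d0 ∧ d0 ≤ dB ∧ 0 ≤ C ∧ Tendsto om (𝓝[>] 0) (𝓝 0) ∧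
      (∀ z : EE, ‖z‖ ≤ d0 → ∀ y : EE, ‖y‖ = 1 → |φ y| < t0 → ContDiffAt ℝ 1 (boost φ z) y) ∧
      ∀ ε : ℝ, 0 < ε → ε ≤ 1 → ∀ (s : ℝ) (z : EE) (θ : ℝ), |s| ≤ d0 → ‖z‖ ≤ d0 → |θ| ≤ d0 →
        ∫ y in {y : Sph n | |φ y| < t0}, eden ε (rho φ (ext φ hT.hb G) s θ z) y ∂(sig n)
          ≤ 4 / 3 * ((SM436.mu φ b).real univ + 1 / 2 * QQ φ b ((n : ℝ) - 2) (uu G s θ z))
            + C * (|s| + ‖z‖ + |θ|) ^ 3 + om ε := by
  have hb := hT.hb
  obtain ⟨K, hK⟩ := exists_tube hT hmin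
  obtain ⟨C1', δ0, hC1, hδ0, -, -, hexp⟩ := hK.energy_expand hn
  obtain ⟨K0, hK0, hsmall⟩ := exists_small nc hT hG hd1 hCB hB
  set η := eF φ hT.hb with hη
  set r := rF φ hT.hb with hr
  set q := qF φ hT.hb with hq
  set F := FF φ hT.hb G with hF
  have hFs : ∀ i, SmHom0 (F i) := FF_sm hT hG
  have ηc : C1 η := (eF_sm hT).c1
  have rc : C1 r := (rF_sm hT).c1
  have qc : C1 q := qF_sm hT
  set BB : Ix n → Ix n → EE → ℝ := fun i k x => sdot (F i) (F k) x - q x * (F i x * F k x) with hBB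
  have hBBc : ∀ i k, ∀ x : EE, x ≠ 0 → ContinuousAt (BB i k) x := fun i k x hx =>
    ((hFs i).c1.cont_sdot (hFs k).c1 hx).sub
      ((qc.cont hx).mul (((hFs i).c1.cont hx).mul ((hFs k).c1.cont hx)))
  set V := (SM436.mu φ b).real univ with hV
  set om : ℝ → ℝ := fun ε => |gI φ hT.hb ε (fun _ => 1) - 4 / 3 * V|
    + (∑ i, ∑ k, |gI φ hT.hb ε (BB i k) - 4 / 3 * ∫ x, BB i k x ∂(SM436.mu φ b)|)
    + C1' * ε with hom
  have := hT.isFiniteMeasure_mu
  have hom0 : Tendsto om (𝓝[>] 0) (𝓝 0) := by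
    have e1 : Tendsto (fun ε => |gI φ hT.hb ε (fun _ => 1) - 4 / 3 * V|) (𝓝[>] 0) (𝓝 0) := by
      have h1 := gI_tendsto hT hL (F := fun _ => 1) (fun x _ => continuousAt_const)
      have h2 : ∫ _x : EE, (1 : ℝ) ∂(SM436.mu φ b) = V := by
        rw [integral_const, smul_eq_mul, mul_one]
      rw [h2] at h1
      have h3 := (h1.sub_const (4 / 3 * V)).abs
      simpa using h3
    have e2 : Tendsto (fun ε => ∑ i, ∑ k, |gI φ hT.hb ε (BB i k)
        - 4 / 3 * ∫ x, BB i k x ∂(SM436.mu φ b)|) (𝓝[>] 0) (𝓝 0) := by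
      have h1 : (0 : ℝ) = ∑ _i : Ix n, ∑ _k : Ix n, (0 : ℝ) := by simp
      rw [h1]
      refine tendsto_finsetSum _ fun i _ => tendsto_finsetSum _ fun k _ => ?_
      have h2 := gI_tendsto hT hL (hBBc i k)
      have h3 := (h2.sub_const (4 / 3 * ∫ x, BB i k x ∂(SM436.mu φ b))).abs
      simpa using h3
    have e3 : Tendsto (fun ε : ℝ => C1' * ε) (𝓝[>] 0) (𝓝 0) := by
      have : Tendsto (fun ε : ℝ => C1' * ε) (𝓝 0) (𝓝 (C1' * 0)) := tendsto_id.const_mul C1'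
      rw [mul_zero] at this
      exact this.mono_left nhdsWithin_le_nhds
    have e4 := (e1.add e2).add e3
    rw [add_zero, add_zero] at e4
    exact e4
  refine ⟨min (1 / 2) (b / 16), min (min dB (δ0 / (3 * K0))) (1 / 3), C1' * K0 ^ 3, om, by positivity,
    by positivity, (min_le_left _ _).trans (min_le_left _ _), by positivity, hom0, ?_, ?_⟩
  · intro z hz y hy hφy
    have h1 := ta_lt_of_phi hT hy hφy
    exact (hB z (hz.trans ((min_le_left _ _).trans (min_le_left _ _))) y hy (by linarith)).1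
  intro ε hε hε1 s z θ hs hz hθ
  have hzB : ‖z‖ ≤ dB := hz.trans ((min_le_left _ _).trans (min_le_left _ _))
  set D := |s| + ‖z‖ + |θ| with hD
  have hD0 : 0 ≤ D := by positivity
  have hD3 : D ≤ 3 * (min (min dB (δ0 / (3 * K0))) (1 / 3)) := by linarith
  have hD1 : D ≤ 1 := by
    have := min_le_right (min dB (δ0 / (3 * K0))) (1 / 3)
    linarith
  have hDδ : K0 * D ≤ δ0 := by
    have h1 : min (min dB (δ0 / (3 * K0))) (1 / 3) ≤ δ0 / (3 * K0) :=
      (min_le_left _ _).trans (min_le_right _ _)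
    calc K0 * D ≤ K0 * (3 * (δ0 / (3 * K0))) := by
          gcongr; linarith
      _ = δ0 := by field_simp
  set f := comb F (cc s θ z) with hf
  set hh : EE → ℝ := fun x => chR hT.hb (SM436.ta φ x) * Hh φ z x with hhh
  have hS : Small (TR φ b) (K0 * D) r f hh := hsmall s θ z hzB
  have hE := hexp ε (K0 * D) f hh hε hε1 (by positivity) hDδ hS
  rw [second_term hT hn hK (comb_sm hFs _) (comb_NC (FF_NC hT G) _) ε] at hE
  have g1 : ∫ z : Sph n, η z * eden ε r z ∂(sig n) = gI φ hT.hb ε (fun _ => 1) := by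
    unfold gI
    refine integral_congr_ae (Eventually.of_forall fun y => ?_)
    show η y * eden ε r y = η y * GG ε (r y) * 1
    by_cases hy : (y : EE) ∈ TR φ b
    · rw [eden_eq, hK.eik y hy]; ring
    · rw [hK.supp y hy]; ring
  have g2 : ∫ z : Sph n, η z * GG ε (r z) * (sgsq f z - q z * f z ^ 2) ∂(sig n)
      = ∑ i, ∑ k, cc s θ z i * cc s θ z k * gI φ hT.hb ε (BB i k) :=
    gI_quad hT hFs (cc s θ z) ε
  have g3 : QQ φ b ((n : ℝ) - 2) (uu G s θ z)
      = ∑ i, ∑ k, cc s θ z i * cc s θ z k * ∫ x, BB i k x ∂(SM436.mu φ b) := by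
    rw [← integral_quad hT hG s θ z]
    exact mu_quad hT hFs (cc s θ z)
  have hcc : ∀ i, |cc s θ z i| ≤ 1 := fun i => (abs_cc_le s θ z i).trans hD1
  have g4 : (∑ i, ∑ k, cc s θ z i * cc s θ z k * gI φ hT.hb ε (BB i k))
      ≤ 4 / 3 * (∑ i, ∑ k, cc s θ z i * cc s θ z k * ∫ x, BB i k x ∂(SM436.mu φ b))
        + ∑ i, ∑ k, |gI φ hT.hb ε (BB i k) - 4 / 3 * ∫ x, BB i k x ∂(SM436.mu φ b)| := by
    rw [Finset.mul_sum, ← Finset.sum_add_distrib]
    refine Finset.sum_le_sum fun i _ => ?_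
    rw [Finset.mul_sum, ← Finset.sum_add_distrib]
    refine Finset.sum_le_sum fun k _ => ?_
    set A := gI φ hT.hb ε (BB i k)
    set B := ∫ x, BB i k x ∂(SM436.mu φ b)
    have h1 : cc s θ z i * cc s θ z k * (A - 4 / 3 * B) ≤ |A - 4 / 3 * B| := by
      refine (le_abs_self _).trans ?_
      rw [abs_mul, abs_mul]
      have h2 : |cc s θ z i| * |cc s θ z k| ≤ 1 :=
        mul_le_one₀ (hcc i) (abs_nonneg _) (hcc k)
      calc |cc s θ z i| * |cc s θ z k| * |A - 4 / 3 * B| ≤ 1 * |A - 4 / 3 * B| := by gcongr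
        _ = _ := one_mul _
    linarith
  -- the set integral
  have hρc : ∀ x : EE, x ≠ 0 → ContinuousAt (fun x => η x * eden ε (rhoF r f hh) x) x := by
    intro x hx
    have ρc : C1 (rhoF r f hh) := c1_rhoF rc hS.f_sm.c1 hS.h_c1
    have h1 : (fun x => η x * eden ε (rhoF r f hh) x)
        = fun x => η x * (GG ε (rhoF r f hh x) * ((1 + sgsq (rhoF r f hh) x) / 2)) := by
      funext x; rw [eden_eq]
    rw [h1]
    exact (ηc.cont hx).mul ((((continuous_GG ε).continuousAt).comp (ρc.cont hx)).mul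
      ((continuousAt_const.add (ρc.cont_sdot ρc hx)).div_const 2))
  have iρ : Integrable (fun y : Sph n => η y * eden ε (rhoF r f hh) y) (sig n) :=
    integrable_sph hρc
  have hms : MeasurableSet {y : Sph n | |φ y| < min (1 / 2) (b / 16)} := by
    have hc : Continuous fun y : Sph n => |φ y| :=
      (hT.lip.continuous.comp continuous_subtype_val).abs
    exact (isOpen_lt hc continuous_const).measurableSet
  have g5 : ∫ y in {y : Sph n | |φ y| < min (1 / 2) (b / 16)},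
      eden ε (rho φ (ext φ hT.hb G) s θ z) y ∂(sig n)
      ≤ ∫ y : Sph n, η y * eden ε (rhoF r f hh) y ∂(sig n) := by
    have h1 : ∫ y in {y : Sph n | |φ y| < min (1 / 2) (b / 16)},
        eden ε (rho φ (ext φ hT.hb G) s θ z) y ∂(sig n)
        = ∫ y in {y : Sph n | |φ y| < min (1 / 2) (b / 16)},
          η y * eden ε (rhoF r f hh) y ∂(sig n) := by
      refine setIntegral_congr_fun hms fun y hy => ?_
      have hy1 : ‖(y : EE)‖ = 1 := by simp
      have hta := ta_lt_of_phi hT hy1 hy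
      have hyT : (y : EE) ∈ TR φ b := (mem_TR_iff hT (sph_ne y)).2 (by linarith)
      have h2 : η y = 1 := by
        show chE hT.hb (SM436.ta φ y) * 1 = 1
        rw [chE_one hT.hb hta.le, one_mul]
      have h3 : rhoF r f hh =ᶠ[𝓝 (y : EE)] rho φ (ext φ hT.hb G) s θ z := by
        filter_upwards [(isOpen_TR hT).mem_nhds hyT] with x hx using rhoF_eq hT G s θ z hx
      show eden ε (rho φ (ext φ hT.hb G) s θ z) y = η y * eden ε (rhoF r f hh) y
      rw [h2, one_mul, eden_congr h3]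
    rw [h1]
    refine setIntegral_le_integral iρ (Eventually.of_forall fun y => ?_)
    exact mul_nonneg (hK.η_nonneg y) (eden_nonneg hε _ _)
  have g6 := (abs_le.1 hE).2
  rw [g1, g2] at g6
  have g7 := le_abs_self (gI φ hT.hb ε (fun _ => 1) - 4 / 3 * V)
  have g8 : C1' * ((K0 * D) ^ 3 + ε) = C1' * K0 ^ 3 * D ^ 3 + C1' * ε := by ring
  rw [g8] at g6
  have g9 : 0 ≤ ∑ i, ∑ k, |gI φ hT.hb ε (BB i k) - 4 / 3 * ∫ x, BB i k x ∂(SM436.mu φ b)| :=
    Finset.sum_nonneg fun i _ => Finset.sum_nonneg fun k _ => abs_nonneg _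
  refine g5.trans ?_
  rw [g3]
  show _ ≤ _ + _ + (|gI φ hT.hb ε (fun _ => 1) - 4 / 3 * V|
    + (∑ i, ∑ k, |gI φ hT.hb ε (BB i k) - 4 / 3 * ∫ x, BB i k x ∂(SM436.mu φ b)|)
    + C1' * ε)
  linarith

end Crest.Agent.R246.IN200
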