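import Crest.Agent.R246.SMS_651
import Mathlib.Analysis.SpecialFunctions.Trigonometric.Deriv
import Mathlib.Analysis.SpecialFunctions.Trigonometric.DerivHyp

/-!
# Sphere form of the tube limit: angle form and `w (K φ)` form (helper651)
-/

set_option autoImplicit false
set_option linter.unusedSectionVars false
set_option linter.unusedSimpArgs false
noncomputable section
open MeasureTheory Set Filter Topology Module Metric
open scoped RealInnerProductSpace ContDiff

namespace Crest.Agent.R246.SMS651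

open Crest.Agent.R246.H990 Crest.Agent.R246.SM436

variable {E : Type*} [NormedAddCommGroup E] [InnerProductSpace ℝ E] [FiniteDimensional ℝ E]
  [MeasurableSpace E] [BorelSpace E]

/-! ### the profile `sech⁴` -/

lemma hasDerivAt_tanh (s : ℝ) : HasDerivAt Real.tanh (1 - Real.tanh s ^ 2) s := by
  have hc := (Real.cosh_pos s).ne'
  have h1 : HasDerivAt (fun s => Real.sinh s / Real.cosh s)
      ((Real.cosh s * Real.cosh s - Real.sinh s * Real.sinh s) / Real.cosh s ^ 2) s :=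
    (Real.hasDerivAt_sinh s).div (Real.hasDerivAt_cosh s) hc
  have h2 : Real.tanh = fun s => Real.sinh s / Real.cosh s := by
    funext s; exact Real.tanh_eq_sinh_div_cosh s
  rw [h2]
  convert h1 using 1
  field_simp

lemma continuous_tanh : Continuous Real.tanh :=
  continuous_iff_continuousAt.2 fun s => (hasDerivAt_tanh s).continuousAt

/-- `sech⁴` -/
def w4 (t : ℝ) : ℝ := (1 - Real.tanh t ^ 2) ^ 2

lemma one_sub_tanh_sq (t : ℝ) : 1 - Real.tanh t ^ 2 = (Real.cosh t ^ 2)⁻¹ := by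
  have hc := (Real.cosh_pos t).ne'
  rw [Real.tanh_eq_sinh_div_cosh, div_pow]
  field_simp
  have := Real.cosh_sq t
  linarith

lemma continuous_w4 : Continuous w4 := by
  have := continuous_tanh
  unfold w4
  fun_prop

lemma w4_nonneg (t : ℝ) : 0 ≤ w4 t := by unfold w4; positivity

lemma one_add_sq_le_cosh_sq (t : ℝ) : 1 + t ^ 2 ≤ Real.cosh t ^ 2 := by
  rw [Real.cosh_sq]
  have h1 : t ^ 2 ≤ Real.sinh t ^ 2 := by
    rw [← sq_abs t, ← sq_abs (Real.sinh t), Real.abs_sinh]
    exact pow_le_pow_left₀ (abs_nonneg _) (Real.self_le_sinh_iff.2 (abs_nonneg t)) 2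
  linarith

lemma abs_w4_le (t : ℝ) : |w4 t| ≤ 1 / (1 + t ^ 2) := by
  rw [abs_of_nonneg (w4_nonneg t), w4, one_sub_tanh_sq, one_div]
  have h1 := one_add_sq_le_cosh_sq t
  have h2 : (Real.cosh t ^ 2)⁻¹ ≤ (1 + t ^ 2)⁻¹ := inv_anti₀ (by positivity) h1
  have h3 : (Real.cosh t ^ 2)⁻¹ ≤ 1 := inv_le_one_of_one_le₀ (by nlinarith [sq_nonneg t])
  have h4 : 0 ≤ (Real.cosh t ^ 2)⁻¹ := by positivity
  nlinarith

lemma tendsto_tanh_atTop : Tendsto Real.tanh atTop (𝓝 1) := by
  have h1 : ∀ t, 0 ≤ t → 1 - 1 / (1 + t ^ 2) ≤ Real.tanh t := by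
    intro t ht
    have h2 : 0 ≤ Real.tanh t := by
      rw [Real.tanh_eq_sinh_div_cosh]
      exact div_nonneg (Real.sinh_nonneg_iff.2 ht) (Real.cosh_pos t).le
    have h3 : 1 - Real.tanh t ^ 2 ≤ 1 / (1 + t ^ 2) := by
      rw [one_sub_tanh_sq, one_div]
      exact inv_anti₀ (by positivity) (one_add_sq_le_cosh_sq t)
    have h4 : Real.tanh t ≤ 1 := by
      have h5 : 0 ≤ 1 - Real.tanh t ^ 2 := by rw [one_sub_tanh_sq]; positivity
      nlinarith
    nlinarith
  have h2 : Tendsto (fun t : ℝ => 1 - 1 / (1 + t ^ 2)) atTop (𝓝 1) := by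
    have h3 : Tendsto (fun t : ℝ => 1 + t ^ 2) atTop atTop :=
      tendsto_atTop_add_const_left _ _ (tendsto_pow_atTop two_ne_zero)
    have h4 := (tendsto_const_nhds (x := (1 : ℝ))).sub (h3.inv_tendsto_atTop)
    simpa [one_div] using h4
  refine tendsto_of_tendsto_of_tendsto_of_le_of_le' h2 tendsto_const_nhds ?_ ?_
  · filter_upwards [eventually_ge_atTop 0] with t ht using h1 t ht
  · refine Eventually.of_forall fun t => ?_
    have h5 : 0 ≤ 1 - Real.tanh t ^ 2 := by rw [one_sub_tanh_sq]; positivity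
    nlinarith [sq_nonneg (1 - Real.tanh t)]

lemma tendsto_tanh_atBot : Tendsto Real.tanh atBot (𝓝 (-1)) := by
  have h := (tendsto_tanh_atTop.comp tendsto_neg_atBot_atTop).neg
  refine h.congr fun t => ?_
  simp [Real.tanh_neg]

lemma integrable_w4 : Integrable w4 := by
  refine integrable_inv_one_add_sq.mono' continuous_w4.aestronglyMeasurable ?_
  refine Eventually.of_forall fun t => ?_
  rw [Real.norm_eq_abs, ← one_div]
  exact abs_w4_le t

lemma integral_w4 : ∫ t, w4 t = 4 / 3 := by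
  have hd : ∀ t, HasDerivAt (fun t => Real.tanh t - Real.tanh t ^ 3 / 3) (w4 t) t := by
    intro t
    have h1 := hasDerivAt_tanh t
    have h2 := h1.sub ((h1.pow 3).div_const 3)
    have e : (1 - Real.tanh t ^ 2) - (((3 : ℕ) : ℝ) * Real.tanh t ^ (3 - 1) *
        (1 - Real.tanh t ^ 2)) / 3 = w4 t := by
      unfold w4
      push_cast
      ring
    rw [← e]
    exact h2
  have h1 : Tendsto (fun t => Real.tanh t - Real.tanh t ^ 3 / 3) atTop (𝓝 (1 - 1 ^ 3 / 3)) :=
    tendsto_tanh_atTop.sub ((tendsto_tanh_atTop.pow 3).div_const 3)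
  have h2 : Tendsto (fun t => Real.tanh t - Real.tanh t ^ 3 / 3) atBot
      (𝓝 ((-1) - (-1) ^ 3 / 3)) :=
    tendsto_tanh_atBot.sub ((tendsto_tanh_atBot.pow 3).div_const 3)
  rw [integral_of_hasDerivAt_of_tendsto hd integrable_w4 h2 h1]
  norm_num

/-! ### the profile maps -/

lemma abs_arctan_ge {b : ℝ} {τ : ℝ} (h : |τ| < b) :
    (Real.sqrt (1 + b ^ 2))⁻¹ * |τ| ≤ |Real.arctan τ| := by
  have h1 : |Real.sin (Real.arctan τ)| ≤ |Real.arctan τ| := Real.abs_sin_le_abs
  rw [Real.sin_arctan, abs_div, abs_of_nonneg (Real.sqrt_nonneg _)] at h1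
  refine le_trans ?_ h1
  rw [div_eq_inv_mul]
  refine mul_le_mul_of_nonneg_right ?_ (abs_nonneg _)
  have h2 : τ ^ 2 ≤ b ^ 2 := by
    rw [← sq_abs τ]
    exact pow_le_pow_left₀ (abs_nonneg _) h.le 2
  exact inv_anti₀ (Real.sqrt_pos.2 (by positivity)) (Real.sqrt_le_sqrt (by linarith))

lemma abs_sin_arctan_ge {b : ℝ} {τ : ℝ} (h : |τ| < b) :
    (Real.sqrt (1 + b ^ 2))⁻¹ * |τ| ≤ |Real.sin (Real.arctan τ)| := by
  rw [Real.sin_arctan, abs_div, abs_of_nonneg (Real.sqrt_nonneg _), div_eq_inv_mul]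
  refine mul_le_mul_of_nonneg_right ?_ (abs_nonneg _)
  have h2 : τ ^ 2 ≤ b ^ 2 := by
    rw [← sq_abs τ]
    exact pow_le_pow_left₀ (abs_nonneg _) h.le 2
  exact inv_anti₀ (Real.sqrt_pos.2 (by positivity)) (Real.sqrt_le_sqrt (by linarith))

section tube

variable {φ : E → ℝ} {b : ℝ} (hT : Tube φ b)
include hT

lemma phi_eq_sin {y : E} (hy : ‖y‖ = 1) : φ y = Real.sin (Real.arctan (ta φ y)) := by
  have hy0 : y ≠ 0 := by rintro rfl; simp at hy
  have hr := hT.rr_pos hy0
  have h1 := hT.rr_sq y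
  rw [hy, one_pow] at h1
  rw [Real.sin_arctan]
  have h2 : Real.sqrt (1 + ta φ y ^ 2) = (rr φ y)⁻¹ := by
    rw [Real.sqrt_eq_iff_mul_self_eq (by positivity) (by positivity), ta]
    have := hr.ne'
    field_simp
    nlinarith
  rw [h2, div_inv_eq_mul, ta, div_mul_cancel₀ _ hr.ne']

lemma arcsin_phi {y : E} (hy : ‖y‖ = 1) : Real.arcsin (φ y) = Real.arctan (ta φ y) := by
  rw [phi_eq_sin hT hy, Real.arcsin_sin (Real.neg_pi_div_two_lt_arctan _).le
    (Real.arctan_lt_pi_div_two _).le]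

lemma mem_TT_iff {y : E} (hy : y ≠ 0) : y ∈ TT φ b ↔ |ta φ y| < b := by
  have hr := hT.rr_pos hy
  constructor
  · exact hT.abs_ta_lt
  · intro h
    refine ⟨hr, ?_⟩
    rwa [ta, abs_div, abs_of_pos hr, div_lt_iff₀ hr] at h

lemma continuousAt_ta {y : E} (hy : y ≠ 0) : ContinuousAt (ta φ) y :=
  hT.lip.continuous.continuousAt.div hT.continuous_rr.continuousAt (hT.rr_pos hy).ne'

/-- angle form, general profile -/
theorem sphere_limit_angle [Nontrivial E] {F : E → ℝ} (hFm : Measurable F) {M : ℝ}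
    (hFM : ∀ y, ‖y‖ = 1 → y ∈ TT φ b → |F y| ≤ M)
    (hFc : ∀ p ∈ Lk φ, ContinuousWithinAt F (sphere (0 : E) 1) p)
    {w : ℝ → ℝ} (hw : Continuous w) {C : ℝ} (hwC : ∀ u, |w u| ≤ C / (1 + u ^ 2)) :
    Tendsto (fun ε : ℝ => ∫ q in ST φ b,
        (1 / ε) * w (Real.arctan (ta φ (q : E)) / ε) * F q ∂(sig E))
      (𝓝[>] 0) (𝓝 ((∫ u, w u) * ∫ p, F p ∂(mu φ b))) := by
  refine sphere_limit hT hFm hFM hFc hw hwC (θ := Real.arctan) (c0 := (Real.sqrt (1 + b ^ 2))⁻¹)
    Real.continuous_arctan.measurable Real.arctan_zero ?_ (by positivity) (fun τ h => abs_arctan_ge h)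
  have := Real.hasDerivAt_arctan 0
  simpa using this

/-- extension of the sphere integral by a cut-off -/
lemma integral_cut {c : ℝ} (hcb : c < b) {χ : ℝ → ℝ} (hχ : ∀ t, c ≤ |t| → χ t = 0)
    (G : sphere (0 : E) 1 → ℝ) :
    ∫ y : sphere (0 : E) 1, χ (ta φ (y : E)) * G y ∂(sig E)
      = ∫ y in ST φ b, χ (ta φ (y : E)) * G y ∂(sig E) := by
  rw [← integral_indicator (measurableSet_ST hT)]
  refine integral_congr_ae (Eventually.of_forall fun y => ?_)
  simp only [indicator]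
  split_ifs with h
  · rfl
  · have hy0 : (y : E) ≠ 0 := by
      have : ‖(y : E)‖ = 1 := by simp
      rintro h0
      rw [h0, norm_zero] at this
      exact zero_ne_one this
    rw [hχ, zero_mul]
    by_contra h2
    push Not at h2
    exact h ((mem_TT_iff hT hy0).2 (by linarith))

/-- **200's form (N3).** -/
theorem sphere_limit_cut [Nontrivial E] {F : E → ℝ} (hF : ∀ x, x ≠ 0 → ContinuousAt F x)
    {c : ℝ} (hcb : c < b) {χ : ℝ → ℝ} (hχc : Continuous χ) (hχ : ∀ t, c ≤ |t| → χ t = 0)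
    {w : ℝ → ℝ} (hw : Continuous w) {C : ℝ} (hwC : ∀ u, |w u| ≤ C / (1 + u ^ 2)) :
    Tendsto (fun ε : ℝ => ∫ y : sphere (0 : E) 1,
        χ (ta φ (y : E)) * ((1 / ε) * w (Real.arctan (ta φ (y : E)) / ε)) * F y
          ∂(volume : Measure E).toSphere)
      (𝓝[>] 0) (𝓝 (χ 0 * ((∫ u, w u) * ∫ p, F p ∂(mu φ b)))) := by
  have hFm : Measurable F := measurable_of_continuousOn_compl_singleton 0
    fun x hx => (hF x hx).continuousWithinAt
  -- bounds
  have hFcs : ContinuousOn (fun y => |F y|) (sphere (0 : E) 1) := fun x hx =>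
    ((hF x (by rintro rfl; simp at hx)).abs).continuousWithinAt
  obtain ⟨M1, hM1⟩ := (isCompact_sphere (0 : E) 1).bddAbove_image hFcs
  obtain ⟨M2, hM2⟩ := (isCompact_Icc (a := -b) (b := b)).bddAbove_image
    (f := fun t => |χ t|) hχc.abs.continuousOn
  have hne : (sphere (0 : E) 1).Nonempty := NormedSpace.sphere_nonempty.2 zero_le_one
  have hM10 : 0 ≤ M1 := by
    obtain ⟨x, hx⟩ := hne
    exact (abs_nonneg _).trans (hM1 (mem_image_of_mem _ hx))
  have hM20 : 0 ≤ M2 := by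
    have hb := hT.hb
    exact (abs_nonneg _).trans (hM2 (mem_image_of_mem _ (show (0 : ℝ) ∈ Icc (-b) b from
      ⟨by linarith, hb.le⟩)))
  have h := sphere_limit_angle hT (F := fun y => χ (ta φ y) * F y)
    ((hχc.measurable.comp hT.measurable_ta).mul hFm) (M := M2 * M1) ?_ ?_ hw hwC
  · have e1 : ∫ p, χ (ta φ p) * F p ∂(mu φ b) = χ 0 * ∫ p, F p ∂(mu φ b) := by
      rw [← integral_const_mul]
      refine integral_congr_ae ?_
      filter_upwards [hT.ae_mem_Lk] with p hp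
      have : ta φ p = 0 := by rw [ta, hp.2, zero_div]
      rw [this]
    rw [e1] at h
    rw [show χ 0 * ((∫ u, w u) * ∫ p, F p ∂(mu φ b))
      = (∫ u, w u) * (χ 0 * ∫ p, F p ∂(mu φ b)) by ring]
    refine h.congr fun ε => ?_
    have e2 := integral_cut hT hcb hχ
      (fun y => (1 / ε) * w (Real.arctan (ta φ (y : E)) / ε) * F y)
    calc ∫ q in ST φ b, (1 / ε) * w (Real.arctan (ta φ (q : E)) / ε) *
          (χ (ta φ (q : E)) * F q) ∂(sig E)
        = ∫ y in ST φ b, χ (ta φ (y : E)) *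
            ((1 / ε) * w (Real.arctan (ta φ (y : E)) / ε) * F y) ∂(sig E) := by
          refine integral_congr_ae (Eventually.of_forall fun y => ?_)
          simp only; ring
      _ = ∫ y : sphere (0 : E) 1, χ (ta φ (y : E)) *
            ((1 / ε) * w (Real.arctan (ta φ (y : E)) / ε) * F y) ∂(sig E) := e2.symm
      _ = _ := by
          refine integral_congr_ae (Eventually.of_forall fun y => ?_)
          simp only; ring
  · intro y hy hyT
    rw [abs_mul]
    refine mul_le_mul (hM2 (mem_image_of_mem _ (show ta φ y ∈ Icc (-b) b from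
      abs_le.1 (hT.abs_ta_lt hyT).le))) (hM1 (mem_image_of_mem _ ?_)) (abs_nonneg _) hM20
    simpa using hy
  · intro p hp
    have hp0 := hT.ne_zero_of_Lk hp
    exact ((hχc.continuousAt.comp (continuousAt_ta hT hp0)).mul (hF p hp0)).continuousWithinAt

/-- **200's form (N3)** for `sech⁴`. -/
theorem sphere_limit_sech [Nontrivial E] {F : E → ℝ} (hF : ∀ x, x ≠ 0 → ContinuousAt F x)
    {c : ℝ} (hcb : c < b) {χ : ℝ → ℝ} (hχc : Continuous χ) (hχ : ∀ t, c ≤ |t| → χ t = 0)
    (hχ0 : χ 0 = 1) :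
    Tendsto (fun ε : ℝ => ∫ y : sphere (0 : E) 1,
        χ (ta φ (y : E)) *
          ((1 / ε) * (1 - Real.tanh (Real.arctan (ta φ (y : E)) / ε) ^ 2) ^ 2) * F y
          ∂(volume : Measure E).toSphere)
      (𝓝[>] 0) (𝓝 ((4 / 3) * ∫ p, F p ∂(mu φ b))) := by
  have h := sphere_limit_cut hT hF hcb hχc hχ continuous_w4 (C := 1) abs_w4_le
  rw [integral_w4, hχ0, one_mul] at h
  exact h

/-- far part of the sphere in the `w (K φ)` form -/
lemma tendsto_far {F : E → ℝ} (hFm : Measurable F) {M : ℝ} (hFM : ∀ y, ‖y‖ = 1 → |F y| ≤ M)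
    {w : ℝ → ℝ} (hw : Continuous w) {C : ℝ} (hwC : ∀ u, |w u| ≤ C / (1 + u ^ 2)) :
    Tendsto (fun ε : ℝ => ∫ q in (ST φ b)ᶜ, (1 / ε) * w (φ (q : E) / ε) * F q ∂(sig E))
      (𝓝[>] 0) (𝓝 0) := by
  have hb := hT.hb
  have hC0 : 0 ≤ C := by
    have := (abs_nonneg _).trans (hwC 0)
    simpa using this
  set a := b * (Real.sqrt (1 + b ^ 2))⁻¹ with ha
  have ha0 : 0 < a := by positivity
  -- off the tube `a ≤ |φ|`
  have hfar : ∀ q : sphere (0 : E) 1, q ∉ ST φ b → a ≤ |φ (q : E)| := by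
    intro q hq
    have hq1 : ‖(q : E)‖ = 1 := by simp
    have hq0 : (q : E) ≠ 0 := by
      rintro h0
      rw [h0, norm_zero] at hq1
      exact zero_ne_one hq1
    have h1 : ¬ |ta φ (q : E)| < b := fun h => hq ((mem_TT_iff hT hq0).2 h)
    push Not at h1
    rw [phi_eq_sin hT hq1, Real.sin_arctan, abs_div, abs_of_nonneg (Real.sqrt_nonneg _), ha,
      ← div_eq_mul_inv, div_le_div_iff₀ (Real.sqrt_pos.2 (by positivity))
        (Real.sqrt_pos.2 (by positivity))]
    have h2 : 0 ≤ |ta φ (q : E)| := abs_nonneg _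
    have h3 : b ^ 2 ≤ ta φ (q : E) ^ 2 := by
      rw [← sq_abs (ta φ (q : E))]
      exact pow_le_pow_left₀ hb.le h1 2
    apply (pow_le_pow_iff_left₀ (by positivity) (by positivity) two_ne_zero).1
    rw [mul_pow, mul_pow, Real.sq_sqrt (by positivity), Real.sq_sqrt (by positivity), sq_abs]
    nlinarith
  have hlim : Tendsto (fun ε : ℝ => ε * (C / a ^ 2 * |M|) * (sig E).real univ) (𝓝[>] 0) (𝓝 0) := by
    have h1 : Tendsto (fun ε : ℝ => ε * (C / a ^ 2 * |M|) * (sig E).real univ) (𝓝 0)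
        (𝓝 (0 * (C / a ^ 2 * |M|) * (sig E).real univ)) :=
      ((continuous_id.mul continuous_const).mul continuous_const).tendsto 0
    rw [zero_mul, zero_mul] at h1
    exact h1.mono_left nhdsWithin_le_nhds
  refine squeeze_zero_norm' ?_ hlim
  filter_upwards [self_mem_nhdsWithin] with ε hε
  have hε' : 0 < ε := hε
  have hb1 : ∀ q : sphere (0 : E) 1, q ∈ (ST φ b)ᶜ →
      ‖(1 / ε) * w (φ (q : E) / ε) * F q‖ ≤ ε * (C / a ^ 2 * |M|) := by
    intro q hq
    have hq1 : ‖(q : E)‖ = 1 := by simp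
    have h1 := hfar q hq
    have h2 := hwC (φ (q : E) / ε)
    have h3 : C / (1 + (φ (q : E) / ε) ^ 2) ≤ ε ^ 2 * (C / a ^ 2) := by
      rw [show ε ^ 2 * (C / a ^ 2) = C / (a ^ 2 / ε ^ 2) by field_simp]
      apply div_le_div_of_nonneg_left hC0 (by positivity)
      rw [div_pow]
      have h4 : a ^ 2 ≤ φ (q : E) ^ 2 := by
        rw [← sq_abs (φ (q : E))]
        exact pow_le_pow_left₀ ha0.le h1 2
      have h5 : a ^ 2 / ε ^ 2 ≤ φ (q : E) ^ 2 / ε ^ 2 :=
        div_le_div_of_nonneg_right h4 (by positivity)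
      linarith
    rw [Real.norm_eq_abs, abs_mul, abs_mul, abs_of_pos (show (0 : ℝ) < 1 / ε by positivity)]
    calc 1 / ε * |w (φ (q : E) / ε)| * |F q|
        ≤ 1 / ε * (ε ^ 2 * (C / a ^ 2)) * |M| := by
          refine mul_le_mul (mul_le_mul_of_nonneg_left (h2.trans h3) (by positivity))
            ((hFM _ hq1).trans (le_abs_self M)) (abs_nonneg _) (by positivity)
      _ = ε * (C / a ^ 2 * |M|) := by field_simp
  calc ‖∫ q in (ST φ b)ᶜ, (1 / ε) * w (φ (q : E) / ε) * F q ∂(sig E)‖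
      ≤ ε * (C / a ^ 2 * |M|) * ((sig E).restrict (ST φ b)ᶜ).real univ := by
        refine norm_integral_le_of_norm_le_const ?_
        filter_upwards [ae_restrict_mem (measurableSet_ST hT).compl] with q hq using hb1 q hq
    _ ≤ ε * (C / a ^ 2 * |M|) * (sig E).real univ := by
        refine mul_le_mul_of_nonneg_left ?_ (by positivity)
        rw [measureReal_restrict_apply_univ]
        exact measureReal_mono (subset_univ _)

/-- **436's form**: `w (φ/ε)` on the whole sphere -/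
theorem sphere_limit_phi [Nontrivial E] {F : E → ℝ} (hFm : Measurable F) {M : ℝ}
    (hFM : ∀ y, ‖y‖ = 1 → |F y| ≤ M)
    (hFc : ∀ p ∈ Lk φ, ContinuousWithinAt F (sphere (0 : E) 1) p)
    {w : ℝ → ℝ} (hw : Continuous w) {C : ℝ} (hwC : ∀ u, |w u| ≤ C / (1 + u ^ 2)) :
    Tendsto (fun ε : ℝ => ∫ q : sphere (0 : E) 1, (1 / ε) * w (φ (q : E) / ε) * F q
        ∂(volume : Measure E).toSphere)
      (𝓝[>] 0) (𝓝 ((∫ u, w u) * ∫ p, F p ∂(mu φ b))) := by
  have hb := hT.hb
  have hne : (sphere (0 : E) 1).Nonempty := NormedSpace.sphere_nonempty.2 zero_le_one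
  have hM0 : 0 ≤ M := by
    obtain ⟨x, hx⟩ := hne
    exact (abs_nonneg _).trans (hFM x (by simpa using hx))
  have hC0 : 0 ≤ C := by
    have := (abs_nonneg _).trans (hwC 0)
    simpa using this
  have h1 := sphere_limit hT hFm (fun y hy _ => hFM y hy) hFc hw hwC
    (θ := fun τ => Real.sin (Real.arctan τ)) (c0 := (Real.sqrt (1 + b ^ 2))⁻¹)
    (Real.measurable_sin.comp Real.continuous_arctan.measurable) (by simp) (by
      have h2 := (Real.hasDerivAt_sin (Real.arctan 0)).comp (0 : ℝ) (Real.hasDerivAt_arctan 0)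
      simpa [Function.comp_def] using h2) (by positivity) (fun τ h => abs_sin_arctan_ge h)
  have h2 := h1.add (tendsto_far hT hFm hFM hw hwC)
  rw [add_zero] at h2
  refine h2.congr' ?_
  filter_upwards [self_mem_nhdsWithin] with ε hε
  have hε' : 0 < ε := hε
  have e1 : ∫ q in ST φ b, (1 / ε) * w (Real.sin (Real.arctan (ta φ (q : E))) / ε) * F q ∂(sig E)
      = ∫ q in ST φ b, (1 / ε) * w (φ (q : E) / ε) * F q ∂(sig E) := by
    refine integral_congr_ae (Eventually.of_forall fun q => ?_)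
    have hq1 : ‖(q : E)‖ = 1 := by simp
    simp only
    rw [← phi_eq_sin hT hq1]
  rw [e1]
  have hint : Integrable (fun q : sphere (0 : E) 1 => (1 / ε) * w (φ (q : E) / ε) * F q)
      (sig E) := by
    have hm : Measurable (fun q : sphere (0 : E) 1 => (1 / ε) * w (φ (q : E) / ε) * F q) :=
      (((hw.measurable.comp (hT.measurable_phi.div_const ε)).const_mul _).mul hFm).comp
        measurable_subtype_coe
    refine (integrable_const ((1 / ε) * C * M)).mono' hm.aestronglyMeasurable ?_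
    refine Eventually.of_forall fun q => ?_
    have hq1 : ‖(q : E)‖ = 1 := by simp
    have hwC' : |w (φ (q : E) / ε)| ≤ C := (hwC _).trans
      (div_le_self hC0 (by nlinarith [sq_nonneg (φ (q : E) / ε)]))
    rw [Real.norm_eq_abs, abs_mul, abs_mul, abs_of_pos (show (0 : ℝ) < 1 / ε by positivity)]
    exact mul_le_mul (mul_le_mul_of_nonneg_left hwC' (by positivity)) (hFM _ hq1)
      (abs_nonneg _) (by positivity)
  exact integral_add_compl (measurableSet_ST hT) hint

/-- **436's form**, `K → ∞` -/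
theorem sphere_limit_K [Nontrivial E] {F : E → ℝ} (hFm : Measurable F) {M : ℝ}
    (hFM : ∀ y, ‖y‖ = 1 → |F y| ≤ M)
    (hFc : ∀ p ∈ Lk φ, ContinuousWithinAt F (sphere (0 : E) 1) p)
    {w : ℝ → ℝ} (hw : Continuous w) {C : ℝ} (hwC : ∀ u, |w u| ≤ C / (1 + u ^ 2)) :
    Tendsto (fun K : ℝ => K * ∫ q : sphere (0 : E) 1, w (K * φ (q : E)) * F q
        ∂(volume : Measure E).toSphere)
      atTop (𝓝 ((∫ u, w u) * ∫ p, F p ∂(mu φ b))) := by
  have h := (sphere_limit_phi hT hFm hFM hFc hw hwC).comp tendsto_inv_atTop_nhdsGT_zero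
  refine h.congr' ?_
  filter_upwards [eventually_gt_atTop 0] with K hK
  simp only [Function.comp_apply]
  rw [← integral_const_mul]
  refine integral_congr_ae (Eventually.of_forall fun q => ?_)
  simp only
  rw [one_div, inv_inv, div_inv_eq_mul, mul_comm (φ (q : E)) K, mul_assoc]

end tube

end Crest.Agent.R246.SMS651
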