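import Crest.Agent.R246.IN10_200
import Crest.Agent.R246.BoostExp_797
import Crest.Agent.R246.SMS2_651

/-!
Row 246, block I(I) (helper200), part 11: LEMMA N = `near_HN`.
-/

set_option autoImplicit false

open MeasureTheory Filter Topology Metric Set
open scoped ContDiff RealInnerProductSpace
open Crest.Agent.R246.D2x782
open Crest.Agent.R246.H990 (NullCone boost)

noncomputable section

namespace Crest.Agent.R246.IN200

theorem boostHyp {n : ℕ} {φ : EuclideanSpace ℝ (Fin n) → ℝ} {b : ℝ} (hT : SM436.Tube φ b) :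
    ∃ d0 C : ℝ, 0 < d0 ∧ d0 < 1 ∧ 0 ≤ C ∧ BoostHyp φ b d0 C := by
  have hb := hT.hb
  obtain ⟨d0, C, h1, h2, h3, h4⟩ := BoostExp797.boost_expand hT (c := 3 * b / 4) (by linarith)
  refine ⟨d0, C, h1, h2, h3, fun z hz y hy hta => ?_⟩
  obtain ⟨g1, g2, g3, g4⟩ := h4 z hz y hy hta
  exact ⟨g1.of_le (by norm_num), g2, g3, g4⟩

theorem limHyp {n : ℕ} (hn : 0 < n) {φ : EuclideanSpace ℝ (Fin n) → ℝ} {b : ℝ}
    (hT : SM436.Tube φ b) : LimHyp φ b hT.hb := by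
  intro F hF
  have hb := hT.hb
  have : Nonempty (Fin n) := ⟨⟨0, hn⟩⟩
  exact SMS651.sphere_limit_sech hT hF (c := b / 4) (by linarith)
    (χ := fun t => chE hT.hb t) (chE_sm hT.hb).continuous (fun t ht => chE_zero hT.hb ht)
    (chE_one hT.hb (by rw [abs_zero]; linarith))

/-- **LEMMA N** -/
theorem near_HN {m : ℕ} {φ : EuclideanSpace ℝ (Fin (m + 2)) → ℝ} {b : ℝ} (S : SM436.SmoothMin φ)
    (hT : SM436.Tube φ b) {G : EuclideanSpace ℝ (Fin (m + 2)) → ℝ}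
    (hG : ∀ p ∈ SM436.Lk φ, ContDiffAt ℝ ∞ G p) :
    ∃ (gt : EuclideanSpace ℝ (Fin (m + 2)) → ℝ) (t0 d0 C : ℝ) (om : ℝ → ℝ), SmHom0 gt ∧ 0 < t0 ∧
      0 < d0 ∧ 0 ≤ C ∧ Tendsto om (𝓝[>] 0) (𝓝 0) ∧
      (∀ z : EuclideanSpace ℝ (Fin (m + 2)), ‖z‖ ≤ d0 → ∀ y : EuclideanSpace ℝ (Fin (m + 2)),
        ‖y‖ = 1 → |φ y| < t0 → ContDiffAt ℝ 1 (boost φ z) y) ∧
      ∀ ε : ℝ, 0 < ε → ε ≤ 1 → ∀ (s : ℝ) (z : EuclideanSpace ℝ (Fin (m + 2))) (θ : ℝ),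
        |s| ≤ d0 → ‖z‖ ≤ d0 → |θ| ≤ d0 →
        ∫ y in {y : sphere (0 : EuclideanSpace ℝ (Fin (m + 2))) 1 | |φ y| < t0},
          eden ε (fun x => Real.arcsin (boost φ z x * ‖x‖⁻¹) - θ - s * gt x) y
            ∂(volume : Measure (EuclideanSpace ℝ (Fin (m + 2)))).toSphere
          ≤ 4 / 3 * ((SM436.mu φ b).real univ + 1 / 2 *
              (∫ x, Hersch900.T (gradient φ) (fun x => s * G x + θ - ⟪z, x⟫) x ∂(SM436.mu φ b)
              - ∫ x, HerschSM900.A2 φ x * (s * G x + θ - ⟪z, x⟫) ^ 2 ∂(SM436.mu φ b)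
              - m * ∫ x, (s * G x + θ - ⟪z, x⟫) ^ 2 ∂(SM436.mu φ b)))
            + C * (|s| + ‖z‖ + |θ|) ^ 3 + om ε := by
  obtain ⟨dB, CB, h1, h2, h3, h4⟩ := boostHyp hT
  obtain ⟨t0, d0, C, om, g1, g2, g3, g4, g5, g6, g7⟩ :=
    near_core (by omega) S.nc hT S.trace_Lk hG h1 h2 h3 h4 (limHyp (by omega) hT)
  refine ⟨ext φ hT.hb G, t0, d0, C, om, ext_sm hT hG, g1, g2, g4, g5, g6, ?_⟩
  intro ε hε hε1 s z θ hs hz hθ
  have h := g7 ε hε hε1 s z θ hs hz hθ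
  have e : (((m + 2 : ℕ) : ℝ) - 2) = m := by push_cast; ring
  rw [e] at h
  exact h

end Crest.Agent.R246.IN200
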