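import Crest.Agent.R246.D2Energy_782

/-!
Row 246, block I(I) (helper200), part 1: calculus on the sphere with a tube function.
Profile functions `GG ε` (approximate delta function `ε⁻¹ sech⁴(t/ε)`), its primitive `XX ε`, the bilinear
form `sdot` (product and chain rules), the tube bound (TB).
-/

set_option autoImplicit false

open MeasureTheory Filter Topology Metric Set
open scoped ContDiff
open Crest.GeometryTopology.CoordMetric Crest.GeometryTopology.AffineMaximal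
open Crest.Agent.R236.Jet Crest.Agent.R202.SphDiv Crest.Agent.R246.D2x782

noncomputable section

namespace Crest.Agent.R246.IN200

/-! ### profile functions -/

/-- `ε⁻¹ sech⁴(t/ε)` -/
def GG (ε t : ℝ) : ℝ := 1 / ε * (1 - Real.tanh (t / ε) ^ 2) ^ 2

/-- primitive of `GG ε` -/
def XX (ε t : ℝ) : ℝ := Real.tanh (t / ε) - Real.tanh (t / ε) ^ 3 / 3

theorem GG_nonneg {ε : ℝ} (hε : 0 < ε) (t : ℝ) : 0 ≤ GG ε t := by
  unfold GG; positivity

theorem tanh_mono : Monotone Real.tanh :=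
  monotone_of_deriv_nonneg (fun t => (hasDerivAt_tanh t).differentiableAt) fun t => by
    rw [(hasDerivAt_tanh t).deriv]; have := tanh_sq_lt_one t; linarith

theorem tanh_nonneg {s : ℝ} (hs : 0 ≤ s) : 0 ≤ Real.tanh s := by
  have := tanh_mono hs
  simpa using this

theorem hasDerivAt_tdiv {ε : ℝ} (t : ℝ) :
    HasDerivAt (fun s : ℝ => Real.tanh (s / ε)) ((1 - Real.tanh (t / ε) ^ 2) * (1 / ε)) t := by
  have h2 : HasDerivAt (fun t : ℝ => t / ε) (1 / ε) t := (hasDerivAt_id _).div_const ε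
  exact HasDerivAt.comp (h₂ := Real.tanh) (h := fun t : ℝ => t / ε) t (hasDerivAt_tanh (t / ε)) h2

theorem hasDerivAt_XX {ε : ℝ} (t : ℝ) : HasDerivAt (XX ε) (GG ε t) t := by
  have h3 := hasDerivAt_tdiv (ε := ε) t
  have h4 := h3.fun_sub ((h3.fun_pow 3).div_const 3)
  refine h4.congr_deriv ?_
  unfold GG
  push_cast
  ring

theorem XX_mono {ε : ℝ} (hε : 0 < ε) : Monotone (XX ε) :=
  monotone_of_deriv_nonneg (fun t => (hasDerivAt_XX t).differentiableAt) fun t => by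
    rw [(hasDerivAt_XX t).deriv]; exact GG_nonneg hε t

theorem XX_neg (ε t : ℝ) : XX ε (-t) = - XX ε t := by
  unfold XX
  rw [neg_div, Real.tanh_neg]
  ring

theorem XX_le {ε : ℝ} (t : ℝ) : XX ε t ≤ 2 / 3 := by
  have h := abs_lt.1 (abs_tanh_lt_one (t / ε))
  unfold XX
  nlinarith [mul_nonneg (sq_nonneg (1 - Real.tanh (t / ε)))
    (by linarith : 0 ≤ 2 + Real.tanh (t / ε))]

theorem XX_abs_le (ε t : ℝ) : |XX ε t| ≤ 2 / 3 := by
  rw [abs_le]
  have h1 := XX_le (ε := ε) t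
  have h2 := XX_le (ε := ε) (-t)
  rw [XX_neg] at h2
  constructor <;> linarith

theorem one_sub_tanh_le {s : ℝ} (hs : 0 < s) : 1 - Real.tanh s ≤ 1 / s := by
  have hc := Real.cosh_pos s
  have h1 : 1 - Real.tanh s = Real.exp (-s) / Real.cosh s := by
    rw [Real.tanh_eq_sinh_div_cosh, ← Real.cosh_sub_sinh]
    field_simp
  rw [h1, div_le_div_iff₀ hc hs]
  have h2 : Real.exp (-s) * s ≤ 1 := by
    have h3 : s ≤ Real.exp s := by linarith [Real.add_one_le_exp s]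
    have h4 : Real.exp (-s) * Real.exp s = 1 := by rw [← Real.exp_add]; simp
    have h5 : 0 < Real.exp (-s) := Real.exp_pos _
    nlinarith
  linarith [Real.one_le_cosh s]

/-- `2/3 - Ξ(t) ≤ ε / t` -/
theorem XX_tail {ε t : ℝ} (hε : 0 < ε) (ht : 0 < t) : 2 / 3 - XX ε t ≤ ε / t := by
  have h := abs_lt.1 (abs_tanh_lt_one (t / ε))
  have h1 := one_sub_tanh_le (div_pos ht hε)
  have h2 : 1 / (t / ε) = ε / t := by rw [one_div_div]
  rw [h2] at h1
  have h3 : 2 / 3 - XX ε t = (1 - Real.tanh (t / ε)) ^ 2 * (2 + Real.tanh (t / ε)) / 3 := by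
    unfold XX; ring
  have h4 : 0 ≤ 1 - Real.tanh (t / ε) := by linarith
  have hp : 0 ≤ Real.tanh (t / ε) := tanh_nonneg (div_pos ht hε).le
  rw [h3]
  nlinarith [mul_nonneg h4 h4]

/-- `t² G_ε(t) ≤ ε sech²(t/ε)` -/
theorem sq_GG_le {ε : ℝ} (hε : 0 < ε) (t : ℝ) :
    t ^ 2 * GG ε t ≤ ε * (1 - Real.tanh (t / ε) ^ 2) := by
  set s := t / ε with hs
  have ht : t = s * ε := by rw [hs]; field_simp
  have h1 : 1 - Real.tanh s ^ 2 = 1 / Real.cosh s ^ 2 := by
    rw [Real.tanh_eq_sinh_div_cosh]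
    have hc := (Real.cosh_pos s).ne'
    have h2 := Real.cosh_sq s
    field_simp
    linarith
  have h3 : s ^ 2 * (1 - Real.tanh s ^ 2) ≤ 1 := by
    rw [h1, mul_one_div, div_le_one (pow_pos (Real.cosh_pos s) 2)]
    have h4 : |s| ≤ Real.cosh s := by
      rw [← Real.cosh_abs]
      have h5 : |s| ≤ Real.sinh |s| := Real.self_le_sinh_iff.2 (abs_nonneg s)
      have h6 : Real.sinh |s| < Real.cosh |s| := Real.sinh_lt_cosh _
      linarith
    calc s ^ 2 = |s| ^ 2 := (sq_abs s).symm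
      _ ≤ Real.cosh s ^ 2 := by gcongr
  have h0 : 0 ≤ 1 - Real.tanh s ^ 2 := by have := tanh_sq_lt_one s; linarith
  unfold GG
  rw [← hs]
  calc t ^ 2 * (1 / ε * (1 - Real.tanh s ^ 2) ^ 2)
      = ε * (1 - Real.tanh s ^ 2) * (s ^ 2 * (1 - Real.tanh s ^ 2)) := by
        rw [ht]; field_simp
    _ ≤ ε * (1 - Real.tanh s ^ 2) * 1 := by gcongr
    _ = ε * (1 - Real.tanh s ^ 2) := mul_one _

theorem GG_even (ε t : ℝ) : GG ε (-t) = GG ε t := by
  unfold GG
  rw [neg_div, Real.tanh_neg]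
  ring

theorem GG_anti {ε a b : ℝ} (hε : 0 < ε) (ha : 0 ≤ a) (hab : a ≤ b) : GG ε b ≤ GG ε a := by
  have h1 : 0 ≤ Real.tanh (a / ε) := tanh_nonneg (div_nonneg ha hε.le)
  have h2 : Real.tanh (a / ε) ≤ Real.tanh (b / ε) := tanh_mono (by gcongr)
  have h3 : Real.tanh (a / ε) ^ 2 ≤ Real.tanh (b / ε) ^ 2 := by gcongr
  have h4 := tanh_sq_lt_one (b / ε)
  unfold GG
  have h5 : 0 ≤ 1 - Real.tanh (b / ε) ^ 2 := by linarith
  gcongr

theorem GG_abs (ε t : ℝ) : GG ε |t| = GG ε t := by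
  rcases abs_choice t with h | h <;> rw [h]
  exact GG_even ε t

/-- window of `Ξ` -/
def WW (ε b t : ℝ) : ℝ := XX ε (t + b) - XX ε (t - b)

theorem WW_nonneg {ε b : ℝ} (hε : 0 < ε) (hb : 0 ≤ b) (t : ℝ) : 0 ≤ WW ε b t :=
  sub_nonneg.2 (XX_mono hε (by linarith))

theorem abs_XX_sub_le {ε b : ℝ} (hε : 0 < ε) {s t : ℝ} (h : |s - t| ≤ b) :
    |XX ε s - XX ε t| ≤ WW ε b t := by
  rw [abs_le] at h ⊢
  have hm := XX_mono hε
  have h1 : XX ε s ≤ XX ε (t + b) := hm (by linarith)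
  have h2 : XX ε (t - b) ≤ XX ε s := hm (by linarith)
  have h3 : XX ε t ≤ XX ε (t + b) := hm (by linarith)
  have h4 : XX ε (t - b) ≤ XX ε t := hm (by linarith)
  unfold WW
  constructor <;> linarith

/-- `t² W(t) ≤ 4 b² W(t) + 8 b ε sech²(t/(2ε))` -/
theorem sq_WW_le {ε b : ℝ} (hε : 0 < ε) (hb : 0 ≤ b) (t : ℝ) :
    t ^ 2 * WW ε b t ≤ 4 * b ^ 2 * WW ε b t + 8 * b * (ε * (1 - Real.tanh (t / (2 * ε)) ^ 2)) := by
  have hW := WW_nonneg hε hb t
  have h0 : 0 ≤ 1 - Real.tanh (t / (2 * ε)) ^ 2 := by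
    have := tanh_sq_lt_one (t / (2 * ε)); linarith
  by_cases ht : |t| ≤ 2 * b
  · have h1 : t ^ 2 ≤ 4 * b ^ 2 := by
      calc t ^ 2 = |t| ^ 2 := (sq_abs t).symm
        _ ≤ (2 * b) ^ 2 := by gcongr
        _ = 4 * b ^ 2 := by ring
    have h2 : t ^ 2 * WW ε b t ≤ 4 * b ^ 2 * WW ε b t := by gcongr
    have h3 : 0 ≤ 8 * b * (ε * (1 - Real.tanh (t / (2 * ε)) ^ 2)) := by positivity
    linarith
  · push Not at ht
    -- mean value theorem
    have h1 : WW ε b t ≤ 2 * b * GG ε (t / 2) := by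
      rcases hb.eq_or_lt with hb0 | hb0
      · rw [← hb0]; simp [WW]
      obtain ⟨ξ, hξ, h2⟩ := exists_hasDerivAt_eq_slope (XX ε) (GG ε)
        (show t - b < t + b by linarith)
        (fun x _ => (hasDerivAt_XX x).continuousAt.continuousWithinAt)
        (fun x _ => hasDerivAt_XX x)
      have h3 : WW ε b t = 2 * b * GG ε ξ := by
        unfold WW
        rw [h2, show t + b - (t - b) = 2 * b by ring]
        field_simp
      have h4 : |t| / 2 ≤ |ξ| := by
        have h5 : |t| - |ξ| ≤ |t - ξ| := abs_sub_abs_le_abs_sub t ξ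
        have h6 : |t - ξ| ≤ b := by rw [abs_le]; constructor <;> linarith [hξ.1, hξ.2]
        linarith
      have h7 : GG ε ξ ≤ GG ε (t / 2) := by
        rw [← GG_abs ε ξ, ← GG_abs ε (t / 2)]
        refine GG_anti hε (abs_nonneg _) ?_
        rw [abs_div, abs_two]; exact h4
      rw [h3]
      gcongr
    have h2 := sq_GG_le hε (t / 2)
    have h3 : t / 2 / ε = t / (2 * ε) := by rw [div_div]
    rw [h3] at h2
    have h4 : t ^ 2 * WW ε b t ≤ t ^ 2 * (2 * b * GG ε (t / 2)) := by gcongr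
    have h5 : t ^ 2 * (2 * b * GG ε (t / 2)) = 8 * b * ((t / 2) ^ 2 * GG ε (t / 2)) := by ring
    have h6 : 8 * b * ((t / 2) ^ 2 * GG ε (t / 2))
        ≤ 8 * b * (ε * (1 - Real.tanh (t / (2 * ε)) ^ 2)) := by gcongr
    have h7 : 0 ≤ 4 * b ^ 2 * WW ε b t := by positivity
    linarith

/-- bounded primitive of the window -/
theorem exists_prim_WW {ε b : ℝ} (hb : 0 ≤ b) :
    ∃ P : ℝ → ℝ, (∀ t, HasDerivAt P (WW ε b t) t) ∧ ∀ t, |P t| ≤ 4 / 3 * b := by
  set Q : ℝ → ℝ := fun t => ∫ s in (0 : ℝ)..t, XX ε s with hQ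
  have hc : Continuous (XX ε) :=
    continuous_iff_continuousAt.2 fun t => (hasDerivAt_XX t).continuousAt
  have hQd : ∀ t, HasDerivAt Q (XX ε t) t := fun t =>
    (hc.integral_hasStrictDerivAt 0 t).hasDerivAt
  refine ⟨fun t => Q (t + b) - Q (t - b), fun t => ?_, fun t => ?_⟩
  · have h1 : HasDerivAt (fun t => Q (t + b)) (XX ε (t + b)) t := (hQd (t + b)).comp_add_const t b
    have h2 : HasDerivAt (fun t => Q (t - b)) (XX ε (t - b)) t := (hQd (t - b)).comp_sub_const t b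
    exact h1.fun_sub h2
  · have h1 : ‖Q (t + b) - Q (t - b)‖ ≤ 2 / 3 * ‖(t + b) - (t - b)‖ := by
      refine Convex.norm_image_sub_le_of_norm_hasDerivWithin_le (s := univ)
        (fun x _ => (hQd x).hasDerivWithinAt) (fun x _ => ?_) convex_univ (mem_univ _) (mem_univ _)
      exact XX_abs_le ε x
    rw [Real.norm_eq_abs, Real.norm_eq_abs, show (t + b) - (t - b) = 2 * b by ring,
      abs_of_nonneg (by linarith : (0 : ℝ) ≤ 2 * b)] at h1
    show |Q (t + b) - Q (t - b)| ≤ 4 / 3 * b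
    linarith

end Crest.Agent.R246.IN200
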