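import Crest.Agent.R246.IN1_200

/-!
Row 246, block I(I) (helper200), part 2: the bilinear form `sdot` and the TUBE BOUND.
-/

set_option autoImplicit false

open MeasureTheory Filter Topology Metric Set
open scoped ContDiff
open Crest.GeometryTopology.CoordMetric Crest.GeometryTopology.AffineMaximal
open Crest.Agent.R236.Jet Crest.Agent.R202.SphDiv Crest.Agent.R246.D2x782

noncomputable section

namespace Crest.Agent.R246.IN200

variable {n : ℕ}

local notation "EE" => EuclideanSpace ℝ (Fin n)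

/-- `C¹` away from the origin -/
def C1 (f : EuclideanSpace ℝ (Fin n) → ℝ) : Prop :=
  ∀ x : EuclideanSpace ℝ (Fin n), x ≠ 0 → ContDiffAt ℝ 1 f x

theorem C1.diff {f : EE → ℝ} (h : C1 f) {x : EE} (hx : x ≠ 0) : DifferentiableAt ℝ f x :=
  (h x hx).differentiableAt one_ne_zero

theorem C1.cont {f : EE → ℝ} (h : C1 f) {x : EE} (hx : x ≠ 0) : ContinuousAt f x :=
  (h x hx).continuousAt

theorem C1.cont_pderiv {f : EE → ℝ} (h : C1 f) {x : EE} (hx : x ≠ 0) (j : Fin n) :
    ContinuousAt (fun y => pderiv j f y) x := by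
  have h1 : ContDiffAt ℝ 0 (fderiv ℝ f) x := (h x hx).fderiv_right (by norm_num)
  exact (h1.clm_apply contDiffAt_const).continuousAt

theorem C1.cont_sdot {f g : EE → ℝ} (h : C1 f) (hg : C1 g) {x : EE} (hx : x ≠ 0) :
    ContinuousAt (sdot f g) x := by
  refine ((smooth_nsq x).continuousAt).mul ?_
  exact tendsto_finsetSum _ fun j _ => (h.cont_pderiv hx j).mul (hg.cont_pderiv hx j)

theorem C1.mul {f g : EE → ℝ} (h : C1 f) (hg : C1 g) : C1 (fun x => f x * g x) :=
  fun x hx => (h x hx).mul (hg x hx)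

theorem C1.add {f g : EE → ℝ} (h : C1 f) (hg : C1 g) : C1 (fun x => f x + g x) :=
  fun x hx => (h x hx).add (hg x hx)

theorem C1.sub {f g : EE → ℝ} (h : C1 f) (hg : C1 g) : C1 (fun x => f x - g x) :=
  fun x hx => (h x hx).sub (hg x hx)

theorem C1.const (c : ℝ) : C1 (fun _ : EE => c) := fun _ _ => contDiffAt_const

theorem C1.comp {f : EE → ℝ} (h : C1 f) {F : ℝ → ℝ} (hF : ContDiff ℝ 1 F) :
    C1 (fun x => F (f x)) := fun x hx => hF.contDiffAt.comp x (h x hx)

theorem _root_.Crest.Agent.R246.D2x782.SmHom0.c1 {R : EE → ℝ} (h : SmHom0 R) : C1 R :=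
  fun x hx => (h.smooth x hx).of_le (by exact_mod_cast le_top)

theorem _root_.Crest.Agent.R246.D2x782.SmHom0.c1_slap {R : EE → ℝ} (h : SmHom0 R) :
    C1 (slap R) := fun x hx => (h.smooth_slap hx).of_le (by exact_mod_cast le_top)

/-! ### algebra of `sdot` -/

theorem sdot_comm (a b : EE → ℝ) (x : EE) : sdot a b x = sdot b a x := by
  unfold sdot
  congr 1
  exact Finset.sum_congr rfl fun j _ => mul_comm _ _

theorem sgsq_eq (a : EE → ℝ) (x : EE) : sgsq a x = sdot a a x := rfl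

theorem sdot_mul {a b c : EE → ℝ} {x : EE} (ha : DifferentiableAt ℝ a x)
    (hb : DifferentiableAt ℝ b x) :
    sdot (fun y => a y * b y) c x = a x * sdot b c x + b x * sdot a c x := by
  unfold sdot
  rw [show a x * (nsq x * ∑ j, pderiv j b x * pderiv j c x)
      + b x * (nsq x * ∑ j, pderiv j a x * pderiv j c x)
    = nsq x * (∑ j, (a x * (pderiv j b x * pderiv j c x) + b x * (pderiv j a x * pderiv j c x))) by
      rw [Finset.sum_add_distrib, ← Finset.mul_sum, ← Finset.mul_sum]; ring]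
  congr 1
  refine Finset.sum_congr rfl fun j _ => ?_
  rw [pderiv_mul ha hb]
  ring

theorem sdot_add {a b c : EE → ℝ} {x : EE} (ha : DifferentiableAt ℝ a x)
    (hb : DifferentiableAt ℝ b x) :
    sdot (fun y => a y + b y) c x = sdot a c x + sdot b c x := by
  unfold sdot
  rw [← mul_add, ← Finset.sum_add_distrib]
  congr 1
  refine Finset.sum_congr rfl fun j _ => ?_
  rw [pderiv_add ha hb]
  ring

theorem sdot_sub {a b c : EE → ℝ} {x : EE} (ha : DifferentiableAt ℝ a x)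
    (hb : DifferentiableAt ℝ b x) :
    sdot (fun y => a y - b y) c x = sdot a c x - sdot b c x := by
  unfold sdot
  rw [← mul_sub, ← Finset.sum_sub_distrib]
  congr 1
  refine Finset.sum_congr rfl fun j _ => ?_
  rw [pderiv_sub ha hb]
  ring

theorem sdot_comp {F : ℝ → ℝ} {F' : ℝ} {a c : EE → ℝ} {x : EE} (hF : HasDerivAt F F' (a x))
    (ha : DifferentiableAt ℝ a x) :
    sdot (fun y => F (a y)) c x = F' * sdot a c x := by
  unfold sdot
  rw [show F' * (nsq x * ∑ j, pderiv j a x * pderiv j c x)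
    = nsq x * ∑ j, F' * pderiv j a x * pderiv j c x by
      rw [← mul_assoc, mul_comm F', mul_assoc, Finset.mul_sum]
      congr 1
      exact Finset.sum_congr rfl fun j _ => by ring]
  congr 1
  refine Finset.sum_congr rfl fun j _ => ?_
  rw [pderiv_comp (φ := F) hF ha]

theorem sdot_const (k : ℝ) (c : EE → ℝ) (x : EE) : sdot (fun _ => k) c x = 0 := by
  unfold sdot
  simp [pderiv_const]

theorem sdot_smul {k : ℝ} {a c : EE → ℝ} {x : EE} (ha : DifferentiableAt ℝ a x) :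
    sdot (fun y => k * a y) c x = k * sdot a c x := by
  have h := sdot_mul (c := c) (differentiableAt_const k : DifferentiableAt ℝ (fun _ : EE => k) x) ha
  rw [h, sdot_const]
  ring

theorem sdot_sq_le (a b : EE → ℝ) (x : EE) : sdot a b x ^ 2 ≤ sgsq a x * sgsq b x := by
  unfold sdot sgsq gsq
  have h := Finset.sum_mul_sq_le_sq_mul_sq Finset.univ (fun j => pderiv j a x)
    (fun j => pderiv j b x)
  have h1 : 0 ≤ nsq x ^ 2 := sq_nonneg _
  calc (nsq x * ∑ j, pderiv j a x * pderiv j b x) ^ 2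
      = nsq x ^ 2 * (∑ j, pderiv j a x * pderiv j b x) ^ 2 := by ring
    _ ≤ nsq x ^ 2 * ((∑ j, pderiv j a x ^ 2) * ∑ j, pderiv j b x ^ 2) := by gcongr
    _ = _ := by
      simp only [← sq]
      ring

theorem sdot_abs_le {a b : EE → ℝ} {x : EE} {α β : ℝ} (hα : 0 ≤ α) (hβ : 0 ≤ β)
    (ha : sgsq a x ≤ α ^ 2) (hb : sgsq b x ≤ β ^ 2) : |sdot a b x| ≤ α * β := by
  refine abs_le_of_sq_le_sq ?_ (mul_nonneg hα hβ)
  have h := sdot_sq_le a b x
  have h1 : 0 ≤ sgsq b x := by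
    rw [sgsq_eq]; unfold sdot
    rw [nsq_eq]
    exact mul_nonneg (sq_nonneg _) (Finset.sum_nonneg fun _ _ => mul_self_nonneg _)
  calc sdot a b x ^ 2 ≤ sgsq a x * sgsq b x := h
    _ ≤ α ^ 2 * β ^ 2 := by gcongr
    _ = (α * β) ^ 2 := by ring

theorem sgsq_nonneg (a : EE → ℝ) (x : EE) : 0 ≤ sgsq a x := by
  rw [sgsq_eq]; unfold sdot
  rw [nsq_eq]
  exact mul_nonneg (sq_nonneg _) (Finset.sum_nonneg fun _ _ => mul_self_nonneg _)

/-- continuous functions on the sphere are bounded -/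
theorem exists_bound {f : EE → ℝ} (hf : ∀ x : EE, x ≠ 0 → ContinuousAt f x) :
    ∃ K : ℝ, 0 ≤ K ∧ ∀ z : Sph n, |f z| ≤ K := by
  have h1 : Continuous fun z : Sph n => |f (z : EE)| := (continuous_sph hf).abs
  rcases isEmpty_or_nonempty (Sph n) with h | h
  · exact ⟨0, le_rfl, fun z => (h.false z).elim⟩
  · obtain ⟨z, -, hz⟩ := isCompact_univ.exists_isMaxOn univ_nonempty h1.continuousOn
    exact ⟨|f z|, abs_nonneg _, fun w => hz (mem_univ w)⟩

/-! ### the tube -/

/-- Data of a tube around `{r = 0}`: `r` is eikonal on the region `T`, `η` is a cut-off supported in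
`T`, its gradient lives where `|r| ≥ t1`, and `Δ_S r = - q r + O(r²)` there. -/
structure Tube (r η q : EuclideanSpace ℝ (Fin n) → ℝ) (T : Set (EuclideanSpace ℝ (Fin n)))
    (t1 K : ℝ) : Prop where
  r_sm : SmHom0 r
  η_sm : SmHom0 η
  q_sm : C1 q
  t1_pos : 0 < t1
  K_nonneg : 0 ≤ K
  η_nonneg : ∀ z : Sph n, 0 ≤ η z
  η_le : ∀ z : Sph n, η z ≤ 1
  supp : ∀ z : Sph n, (z : EuclideanSpace ℝ (Fin n)) ∉ T → η z = 0
  supp' : ∀ z : Sph n, (z : EuclideanSpace ℝ (Fin n)) ∉ T → ∀ j, pderiv j η z = 0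
  eik : ∀ z : Sph n, (z : EuclideanSpace ℝ (Fin n)) ∈ T → sgsq r z = 1
  far : ∀ z : Sph n, (z : EuclideanSpace ℝ (Fin n)) ∈ T → |r z| < t1 → ∀ j, pderiv j η z = 0
  ric : ∀ z : Sph n, (z : EuclideanSpace ℝ (Fin n)) ∈ T → |slap r z + q z * r z| ≤ K * r z ^ 2

variable {r η q : EuclideanSpace ℝ (Fin n) → ℝ} {T : Set (EuclideanSpace ℝ (Fin n))} {t1 K : ℝ}

theorem Tube.sdot_η_zero (h : Tube r η q T t1 K) {z : Sph n} (hz : (z : EE) ∉ T)
    (c : EE → ℝ) : sdot η c z = 0 := by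
  unfold sdot
  simp [h.supp' z hz]

theorem Tube.sdot_η_near (h : Tube r η q T t1 K) {z : Sph n} (hz : (z : EE) ∈ T)
    (hr : |r z| < t1) (c : EE → ℝ) : sdot η c z = 0 := by
  unfold sdot
  simp [h.far z hz hr]

/-- the constant of the tube bound -/
def TBc (r η : EuclideanSpace ℝ (Fin n) → ℝ) : ℝ :=
  ∫ z : Sph n, |η z * slap r z + sdot η r z| ∂(sig n)

theorem TBc_nonneg (r η : EE → ℝ) : 0 ≤ TBc r η := integral_nonneg fun _ => abs_nonneg _

/-- TUBE BOUND -/
theorem Tube.bound (h : Tube r η q T t1 K) (hn : 0 < n) {ρ : EE → ℝ} (hρ : C1 ρ)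
    (hρr : ∀ z : Sph n, (z : EE) ∈ T → 1 / 2 ≤ sdot ρ r z) {F P : ℝ → ℝ} {B : ℝ}
    (hF : ∀ t, 0 ≤ F t) (hFc : Continuous F) (hP : ∀ t, HasDerivAt P (F t) t) (hB : ∀ t, |P t| ≤ B) :
    ∫ z : Sph n, η z * F (ρ z) ∂(sig n) ≤ 2 * B * TBc r η := by
  have hPC : ContDiff ℝ 1 P := by
    rw [contDiff_one_iff_deriv]
    refine ⟨fun t => (hP t).differentiableAt, ?_⟩
    rwa [show deriv P = F from funext fun t => (hP t).deriv]
  have hζ : C1 (fun x => η x * P (ρ x)) := h.η_sm.c1.mul (hρ.comp hPC)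
  have hibp := sphere_ibp hn h.r_sm (ζ := fun x => η x * P (ρ x)) hζ
  have hpt : ∀ z : Sph n, (η z * P (ρ z)) * slap r z + sdot (fun x => η x * P (ρ x)) r z
      = P (ρ z) * (η z * slap r z + sdot η r z) + η z * F (ρ z) * sdot ρ r z := by
    intro z
    have hz := sph_ne z
    rw [sdot_mul (h.η_sm.c1.diff hz) ((hρ.comp hPC).diff hz), sdot_comp (hP (ρ z)) (hρ.diff hz)]
    ring
  have hηc : ∀ x : EE, x ≠ 0 → ContinuousAt η x := fun x hx => h.η_sm.c1.cont hx
  have c1 : ∀ x : EE, x ≠ 0 → ContinuousAt (fun x => η x * slap r x + sdot η r x) x :=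
    fun x hx => ((hηc x hx).mul (h.r_sm.c1_slap.cont hx)).add (h.η_sm.c1.cont_sdot h.r_sm.c1 hx)
  have c2 : ∀ x : EE, x ≠ 0 → ContinuousAt (fun x => P (ρ x)) x :=
    fun x hx => (hρ.comp hPC).cont hx
  have c3 : ∀ x : EE, x ≠ 0 → ContinuousAt (fun x => F (ρ x)) x :=
    fun x hx => (hFc.continuousAt).comp (hρ.cont hx)
  have i1 : Integrable (fun z : Sph n => P (ρ z) * (η z * slap r z + sdot η r z)) (sig n) :=
    integrable_sph (f := fun x => P (ρ x) * (η x * slap r x + sdot η r x))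
      fun x hx => (c2 x hx).mul (c1 x hx)
  have i2 : Integrable (fun z : Sph n => η z * F (ρ z) * sdot ρ r z) (sig n) :=
    integrable_sph (f := fun x => η x * F (ρ x) * sdot ρ r x)
      fun x hx => ((hηc x hx).mul (c3 x hx)).mul (hρ.cont_sdot h.r_sm.c1 hx)
  have i3 : Integrable (fun z : Sph n => |η z * slap r z + sdot η r z|) (sig n) :=
    integrable_sph (f := fun x => |η x * slap r x + sdot η r x|) fun x hx => (c1 x hx).abs
  have i4 : Integrable (fun z : Sph n => η z * F (ρ z)) (sig n) :=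
    integrable_sph (f := fun x => η x * F (ρ x)) fun x hx => (hηc x hx).mul (c3 x hx)
  have e1 : ∫ z : Sph n, η z * F (ρ z) * sdot ρ r z ∂(sig n)
      = - ∫ z : Sph n, P (ρ z) * (η z * slap r z + sdot η r z) ∂(sig n) := by
    have e2 : ∫ z : Sph n, (P (ρ z) * (η z * slap r z + sdot η r z)
        + η z * F (ρ z) * sdot ρ r z) ∂(sig n) = 0 := by
      rw [← hibp]
      exact integral_congr_ae (Eventually.of_forall fun z => (hpt z).symm)
    rw [integral_add i1 i2] at e2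
    linarith
  have e3 : |∫ z : Sph n, P (ρ z) * (η z * slap r z + sdot η r z) ∂(sig n)| ≤ B * TBc r η := by
    have e4 : ∀ z : Sph n, |P (ρ z) * (η z * slap r z + sdot η r z)|
        ≤ B * |η z * slap r z + sdot η r z| := fun z => by
      rw [abs_mul]
      exact mul_le_mul_of_nonneg_right (hB _) (abs_nonneg _)
    calc |∫ z : Sph n, P (ρ z) * (η z * slap r z + sdot η r z) ∂(sig n)|
        ≤ ∫ z : Sph n, |P (ρ z) * (η z * slap r z + sdot η r z)| ∂(sig n) :=
          abs_integral_le_integral_abs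
      _ ≤ ∫ z : Sph n, B * |η z * slap r z + sdot η r z| ∂(sig n) :=
          integral_mono i1.abs (i3.const_mul B) e4
      _ = B * TBc r η := integral_const_mul _ _
  have e5 : ∫ z : Sph n, η z * F (ρ z) ∂(sig n)
      ≤ ∫ z : Sph n, 2 * (η z * F (ρ z) * sdot ρ r z) ∂(sig n) := by
    refine integral_mono i4 (i2.const_mul 2) fun z => ?_
    show η z * F (ρ z) ≤ 2 * (η z * F (ρ z) * sdot ρ r z)
    by_cases hz : (z : EE) ∈ T
    · have h1 := hρr z hz
      have h2 : 0 ≤ η z * F (ρ z) := mul_nonneg (h.η_nonneg z) (hF _)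
      nlinarith
    · rw [h.supp z hz]; simp
  rw [integral_const_mul, e1] at e5
  have e6 := (abs_le.1 e3).1
  linarith

theorem Tube.bound_GG (h : Tube r η q T t1 K) (hn : 0 < n) {ρ : EE → ℝ} (hρ : C1 ρ)
    (hρr : ∀ z : Sph n, (z : EE) ∈ T → 1 / 2 ≤ sdot ρ r z) {ε : ℝ} (hε : 0 < ε) :
    ∫ z : Sph n, η z * GG ε (ρ z) ∂(sig n) ≤ 4 / 3 * TBc r η := by
  have hc : Continuous (GG ε) := by
    unfold GG
    have h1 : Continuous fun t : ℝ => Real.tanh (t / ε) :=
      continuous_iff_continuousAt.2 fun t => (hasDerivAt_tdiv t).continuousAt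
    fun_prop
  have := h.bound hn hρ hρr (GG_nonneg hε) hc hasDerivAt_XX (XX_abs_le ε)
  linarith

theorem Tube.bound_sech (h : Tube r η q T t1 K) (hn : 0 < n) {ρ : EE → ℝ} (hρ : C1 ρ)
    (hρr : ∀ z : Sph n, (z : EE) ∈ T → 1 / 2 ≤ sdot ρ r z) {ε : ℝ} (hε : 0 < ε) :
    ∫ z : Sph n, η z * (ε * (1 - Real.tanh (ρ z / ε) ^ 2)) ∂(sig n) ≤ 2 * ε ^ 2 * TBc r η := by
  have h1 : Continuous fun t : ℝ => Real.tanh (t / ε) :=
    continuous_iff_continuousAt.2 fun t => (hasDerivAt_tdiv t).continuousAt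
  refine h.bound hn hρ hρr (F := fun t => ε * (1 - Real.tanh (t / ε) ^ 2))
    (P := fun t => ε ^ 2 * Real.tanh (t / ε)) ?_ (by fun_prop) ?_ ?_
  · intro t
    have := tanh_sq_lt_one (t / ε)
    have h1 : 0 ≤ 1 - Real.tanh (t / ε) ^ 2 := by linarith
    positivity
  · intro t
    refine ((hasDerivAt_tdiv t).const_mul (ε ^ 2)).congr_deriv ?_
    field_simp
  · intro t
    rw [abs_mul, abs_of_nonneg (sq_nonneg ε)]
    have := (abs_tanh_lt_one (t / ε)).le
    nlinarith [sq_nonneg ε]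

end Crest.Agent.R246.IN200
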