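import Crest.Agent.R246.IN2_200

/-!
Row 246, block I(I) (helper200), part 3: LEMMA N, the second order expansion of the Allen–Cahn energy of
`tanh ((r - f + h)/ε)` in a tube around a minimal hypersurface `{r = 0}`.
-/

set_option autoImplicit false

open MeasureTheory Filter Topology Metric Set
open scoped ContDiff
open Crest.GeometryTopology.CoordMetric Crest.GeometryTopology.AffineMaximal
open Crest.Agent.R236.Jet Crest.Agent.R202.SphDiv Crest.Agent.R246.D2x782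

noncomputable section

namespace Crest.Agent.R246.IN200

variable {n : ℕ}

local notation "EE" => EuclideanSpace ℝ (Fin n)

/-- smallness of the deformation `r ↦ r - f + h` on the region `T` -/
structure Small (T : Set (EuclideanSpace ℝ (Fin n))) (δ : ℝ)
    (r f h : EuclideanSpace ℝ (Fin n) → ℝ) : Prop where
  f_sm : SmHom0 f
  h_c1 : C1 h
  perp : ∀ z : Sph n, (z : EuclideanSpace ℝ (Fin n)) ∈ T → sdot f r z = 0
  f0 : ∀ z : Sph n, (z : EuclideanSpace ℝ (Fin n)) ∈ T → |f z| ≤ δ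
  f1 : ∀ z : Sph n, (z : EuclideanSpace ℝ (Fin n)) ∈ T → sgsq f z ≤ δ ^ 2
  f2 : ∀ z : Sph n, (z : EuclideanSpace ℝ (Fin n)) ∈ T → |slap f z| ≤ δ
  f3 : ∀ z : Sph n, (z : EuclideanSpace ℝ (Fin n)) ∈ T → sgsq (slap f) z ≤ δ ^ 2
  h0 : ∀ z : Sph n, (z : EuclideanSpace ℝ (Fin n)) ∈ T → |h z| ≤ δ ^ 2
  h1 : ∀ z : Sph n, (z : EuclideanSpace ℝ (Fin n)) ∈ T → sgsq h z ≤ δ ^ 4

theorem eden_eq {ε : ℝ} (R : EE → ℝ) (x : EE) :
    eden ε R x = GG ε (R x) * ((1 + sgsq R x) / 2) := by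
  unfold eden GG
  by_cases h : ε = 0
  · simp [h]
  · field_simp

/-- real estimate for the difference `a - F` -/
theorem est_aF {q r f L δ Kq : ℝ} (hδ : 0 ≤ δ) (hq : |q| ≤ Kq) (hf : |f| ≤ δ) (hL : |L| ≤ δ) :
    |-(q * r ^ 2 + r * L) / 2 - -(q * f ^ 2 + f * L) / 2|
      ≤ |r - f| * (Kq * (|r - f| + 2 * δ) + δ) / 2 := by
  have hK : 0 ≤ Kq := (abs_nonneg q).trans hq
  have h1 : -(q * r ^ 2 + r * L) / 2 - -(q * f ^ 2 + f * L) / 2
      = -((r - f) * (q * (r + f) + L)) / 2 := by ring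
  rw [h1, abs_div, abs_neg, abs_mul, abs_two]
  have h2 : |q * (r + f) + L| ≤ Kq * (|r - f| + 2 * δ) + δ := by
    calc |q * (r + f) + L| ≤ |q * (r + f)| + |L| := abs_add_le _ _
      _ = |q| * |r + f| + |L| := by rw [abs_mul]
      _ ≤ Kq * (|r - f| + 2 * δ) + δ := by
        have h3 : |r + f| ≤ |r - f| + 2 * δ := by
          calc |r + f| = |(r - f) + 2 * f| := by ring_nf
            _ ≤ |r - f| + |2 * f| := abs_add_le _ _
            _ ≤ |r - f| + 2 * δ := by rw [abs_mul, abs_two]; linarith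
        have h4 := mul_le_mul hq h3 (abs_nonneg _) hK
        linarith
  gcongr

/-- the tail of `Ξ` differences -/
theorem XX_far {ε t1 s t : ℝ} (hε : 0 < ε) (ht1 : 0 < t1) (ht : t1 ≤ |t|)
    (hst : |s - t| ≤ t1 / 2) : |XX ε s - XX ε t| ≤ 2 * ε / t1 := by
  have key : ∀ s t : ℝ, t1 ≤ t → |s - t| ≤ t1 / 2 → |XX ε s - XX ε t| ≤ 2 * ε / t1 := by
    intro s t ht hst
    rw [abs_le] at hst
    have h1 := XX_tail hε (show 0 < s by linarith)
    have h2 := XX_tail hε (show 0 < t by linarith)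
    have h3 := XX_le (ε := ε) s
    have h4 := XX_le (ε := ε) t
    have h5 : ε / s ≤ 2 * ε / t1 := by
      rw [div_le_div_iff₀ (by linarith) ht1]
      nlinarith
    have h6 : ε / t ≤ 2 * ε / t1 := by
      rw [div_le_div_iff₀ (by linarith) ht1]
      nlinarith
    rw [abs_le]
    constructor <;> linarith
  rcases le_abs.1 ht with h | h
  · exact key s t h hst
  · have h1 := key (-s) (-t) h (by rw [show -s - -t = -(s - t) by ring, abs_neg]; exact hst)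
    rw [XX_neg, XX_neg, show -XX ε s - -XX ε t = -(XX ε s - XX ε t) by ring, abs_neg] at h1
    exact h1

theorem continuous_XX (ε : ℝ) : Continuous (XX ε) :=
  continuous_iff_continuousAt.2 fun t => (hasDerivAt_XX t).continuousAt

theorem continuous_GG (ε : ℝ) : Continuous (GG ε) := by
  unfold GG
  have h1 : Continuous fun t : ℝ => Real.tanh (t / ε) :=
    continuous_iff_continuousAt.2 fun t => (hasDerivAt_tdiv t).continuousAt
  fun_prop

theorem contDiff_XX (ε : ℝ) : ContDiff ℝ 1 (XX ε) := by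
  rw [contDiff_one_iff_deriv]
  refine ⟨fun t => (hasDerivAt_XX t).differentiableAt, ?_⟩
  rw [show deriv (XX ε) = GG ε from funext fun t => (hasDerivAt_XX t).deriv]
  exact continuous_GG ε

variable {r η q : EuclideanSpace ℝ (Fin n) → ℝ} {T : Set (EuclideanSpace ℝ (Fin n))} {t1 K : ℝ}

/-- moment bounds -/
theorem Tube.moment (h : Tube r η q T t1 K) (hn : 0 < n) {ρ : EE → ℝ} (hρ : C1 ρ)
    (hρr : ∀ z : Sph n, (z : EE) ∈ T → 1 / 2 ≤ sdot ρ r z) {ε δ : ℝ} (hε : 0 < ε) (hε1 : ε ≤ 1)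
    (hδ : 0 ≤ δ) :
    ∫ z : Sph n, η z * GG ε (ρ z) * (ρ z ^ 2 + |ρ z| + δ) ∂(sig n)
      ≤ 4 * TBc r η * (ε + δ) := by
  have hT := TBc_nonneg r η
  have hηc : ∀ x : EE, x ≠ 0 → ContinuousAt η x := fun x hx => h.η_sm.c1.cont hx
  have cG : ∀ x : EE, x ≠ 0 → ContinuousAt (fun x => GG ε (ρ x)) x :=
    fun x hx => ((continuous_GG ε).continuousAt).comp (hρ.cont hx)
  have cS : ∀ x : EE, x ≠ 0 → ContinuousAt (fun x => ε * (1 - Real.tanh (ρ x / ε) ^ 2)) x := by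
    intro x hx
    have h1 : Continuous fun t : ℝ => ε * (1 - Real.tanh (t / ε) ^ 2) := by
      have h1 : Continuous fun t : ℝ => Real.tanh (t / ε) :=
        continuous_iff_continuousAt.2 fun t => (hasDerivAt_tdiv t).continuousAt
      fun_prop
    exact (h1.continuousAt).comp (hρ.cont hx)
  have i1 : Integrable (fun z : Sph n => η z * GG ε (ρ z)) (sig n) :=
    integrable_sph (f := fun x => η x * GG ε (ρ x)) fun x hx => (hηc x hx).mul (cG x hx)
  have i2 : Integrable (fun z : Sph n => η z * (ε * (1 - Real.tanh (ρ z / ε) ^ 2))) (sig n) :=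
    integrable_sph (f := fun x => η x * (ε * (1 - Real.tanh (ρ x / ε) ^ 2)))
      fun x hx => (hηc x hx).mul (cS x hx)
  have i3 : Integrable (fun z : Sph n => η z * GG ε (ρ z) * (ρ z ^ 2 + |ρ z| + δ)) (sig n) :=
    integrable_sph (f := fun x => η x * GG ε (ρ x) * (ρ x ^ 2 + |ρ x| + δ)) fun x hx =>
      ((hηc x hx).mul (cG x hx)).mul
        ((((hρ.cont hx).pow 2).add (hρ.cont hx).abs).add continuousAt_const)
  have b1 := h.bound_GG hn hρ hρr hε
  have b2 := h.bound_sech hn hρ hρr hε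
  have hpt : ∀ z : Sph n, η z * GG ε (ρ z) * (ρ z ^ 2 + |ρ z| + δ)
      ≤ (ε / 2 + δ) * (η z * GG ε (ρ z))
        + (1 + 1 / (2 * ε)) * (η z * (ε * (1 - Real.tanh (ρ z / ε) ^ 2))) := by
    intro z
    have h1 := sq_GG_le hε (ρ z)
    have h2 : |ρ z| ≤ ε / 2 + ρ z ^ 2 / (2 * ε) := by
      have h3 : 0 ≤ (|ρ z| - ε) ^ 2 := sq_nonneg _
      have h4 : |ρ z| ^ 2 = ρ z ^ 2 := sq_abs _
      rw [div_add_div _ _ two_ne_zero (by positivity), le_div_iff₀ (by positivity)]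
      nlinarith
    have h5 := GG_nonneg hε (ρ z)
    have h6 := h.η_nonneg z
    have h7 : GG ε (ρ z) * (ρ z ^ 2 + |ρ z| + δ)
        ≤ (ε / 2 + δ) * GG ε (ρ z) + (1 + 1 / (2 * ε)) * (ε * (1 - Real.tanh (ρ z / ε) ^ 2)) := by
      calc GG ε (ρ z) * (ρ z ^ 2 + |ρ z| + δ)
          ≤ GG ε (ρ z) * (ρ z ^ 2 + (ε / 2 + ρ z ^ 2 / (2 * ε)) + δ) := by gcongr
        _ = (ε / 2 + δ) * GG ε (ρ z) + (1 + 1 / (2 * ε)) * (ρ z ^ 2 * GG ε (ρ z)) := by ring
        _ ≤ _ := by gcongr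
    calc η z * GG ε (ρ z) * (ρ z ^ 2 + |ρ z| + δ)
        = η z * (GG ε (ρ z) * (ρ z ^ 2 + |ρ z| + δ)) := by ring
      _ ≤ η z * ((ε / 2 + δ) * GG ε (ρ z)
          + (1 + 1 / (2 * ε)) * (ε * (1 - Real.tanh (ρ z / ε) ^ 2))) := by gcongr
      _ = _ := by ring
  have e1 := integral_mono i3 ((i1.const_mul (ε / 2 + δ)).add (i2.const_mul (1 + 1 / (2 * ε)))) hpt
  rw [integral_add' (i1.const_mul (ε / 2 + δ)) (i2.const_mul (1 + 1 / (2 * ε))),
    integral_const_mul, integral_const_mul] at e1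
  have e2 : (ε / 2 + δ) * ∫ z : Sph n, η z * GG ε (ρ z) ∂(sig n)
      ≤ (ε / 2 + δ) * (4 / 3 * TBc r η) := by gcongr
  have e3 : (1 + 1 / (2 * ε)) * ∫ z : Sph n, η z * (ε * (1 - Real.tanh (ρ z / ε) ^ 2)) ∂(sig n)
      ≤ (1 + 1 / (2 * ε)) * (2 * ε ^ 2 * TBc r η) := by gcongr
  have e4 : (1 + 1 / (2 * ε)) * (2 * ε ^ 2 * TBc r η) = (2 * ε ^ 2 + ε) * TBc r η := by
    field_simp
  have e5 : (2 * ε ^ 2 + ε) * TBc r η ≤ 3 * ε * TBc r η := by
    have : 2 * ε ^ 2 + ε ≤ 3 * ε := by nlinarith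
    gcongr
  calc _ ≤ _ := e1
    _ ≤ (ε / 2 + δ) * (4 / 3 * TBc r η) + 3 * ε * TBc r η := by linarith
    _ ≤ 4 * TBc r η * (ε + δ) := by nlinarith [mul_nonneg hT hε.le, mul_nonneg hT hδ]

/-- window bound -/
theorem Tube.window (h : Tube r η q T t1 K) (hn : 0 < n) {ε δ : ℝ} (hε : 0 < ε) (hε1 : ε ≤ 1)
    (hδ : 0 ≤ δ) (hδ1 : δ ≤ 1) :
    ∫ z : Sph n, η z * (WW ε (2 * δ) (r z) * (r z ^ 2 + δ ^ 2)) ∂(sig n)
      ≤ 160 * TBc r η * (δ ^ 3 + ε) := by
  have hT := TBc_nonneg r η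
  have hr : ∀ z : Sph n, (z : EE) ∈ T → 1 / 2 ≤ sdot r r z := fun z hz => by
    rw [← sgsq_eq, h.eik z hz]; norm_num
  obtain ⟨P, hP, hPb⟩ := exists_prim_WW (ε := ε) (b := 2 * δ) (by linarith)
  have cW : Continuous (WW ε (2 * δ)) := by
    unfold WW
    have := continuous_XX ε
    fun_prop
  have b1 := h.bound hn h.r_sm.c1 hr (WW_nonneg hε (by linarith : (0 : ℝ) ≤ 2 * δ)) cW hP hPb
  have b2 := h.bound_sech hn h.r_sm.c1 hr (show 0 < 2 * ε by linarith)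
  have hηc : ∀ x : EE, x ≠ 0 → ContinuousAt η x := fun x hx => h.η_sm.c1.cont hx
  have hrc : ∀ x : EE, x ≠ 0 → ContinuousAt r x := fun x hx => h.r_sm.c1.cont hx
  have i1 : Integrable (fun z : Sph n => η z * WW ε (2 * δ) (r z)) (sig n) :=
    integrable_sph (f := fun x => η x * WW ε (2 * δ) (r x))
      fun x hx => (hηc x hx).mul ((cW.continuousAt).comp (hrc x hx))
  have cS : ∀ x : EE, x ≠ 0 →
      ContinuousAt (fun x => 2 * ε * (1 - Real.tanh (r x / (2 * ε)) ^ 2)) x := by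
    intro x hx
    have h1 : Continuous fun t : ℝ => 2 * ε * (1 - Real.tanh (t / (2 * ε)) ^ 2) := by
      have h1 : Continuous fun t : ℝ => Real.tanh (t / (2 * ε)) :=
        continuous_iff_continuousAt.2 fun t => (hasDerivAt_tdiv t).continuousAt
      fun_prop
    exact (h1.continuousAt).comp (hrc x hx)
  have i2 : Integrable (fun z : Sph n => η z * (2 * ε * (1 - Real.tanh (r z / (2 * ε)) ^ 2)))
      (sig n) :=
    integrable_sph (f := fun x => η x * (2 * ε * (1 - Real.tanh (r x / (2 * ε)) ^ 2)))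
      fun x hx => (hηc x hx).mul (cS x hx)
  have i3 : Integrable (fun z : Sph n => η z * (WW ε (2 * δ) (r z) * (r z ^ 2 + δ ^ 2))) (sig n) :=
    integrable_sph (f := fun x => η x * (WW ε (2 * δ) (r x) * (r x ^ 2 + δ ^ 2))) fun x hx =>
      (hηc x hx).mul (((cW.continuousAt).comp (hrc x hx)).mul
        (((hrc x hx).pow 2).add continuousAt_const))
  have hpt : ∀ z : Sph n, η z * (WW ε (2 * δ) (r z) * (r z ^ 2 + δ ^ 2))
      ≤ 17 * δ ^ 2 * (η z * WW ε (2 * δ) (r z))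
        + 8 * δ * (η z * (2 * ε * (1 - Real.tanh (r z / (2 * ε)) ^ 2))) := by
    intro z
    have h1 := sq_WW_le hε (by linarith : (0 : ℝ) ≤ 2 * δ) (r z)
    have h6 := h.η_nonneg z
    have h7 : WW ε (2 * δ) (r z) * (r z ^ 2 + δ ^ 2) ≤ 17 * δ ^ 2 * WW ε (2 * δ) (r z)
        + 8 * δ * (2 * ε * (1 - Real.tanh (r z / (2 * ε)) ^ 2)) := by linarith
    calc _ ≤ η z * (17 * δ ^ 2 * WW ε (2 * δ) (r z)
        + 8 * δ * (2 * ε * (1 - Real.tanh (r z / (2 * ε)) ^ 2))) := by gcongr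
      _ = _ := by ring
  have e1 := integral_mono i3 ((i1.const_mul (17 * δ ^ 2)).add (i2.const_mul (8 * δ))) hpt
  rw [integral_add' (i1.const_mul (17 * δ ^ 2)) (i2.const_mul (8 * δ)),
    integral_const_mul, integral_const_mul] at e1
  have e2 : 17 * δ ^ 2 * ∫ z : Sph n, η z * WW ε (2 * δ) (r z) ∂(sig n)
      ≤ 17 * δ ^ 2 * (2 * (4 / 3 * (2 * δ)) * TBc r η) := by gcongr
  have e3 : 8 * δ * ∫ z : Sph n, η z * (2 * ε * (1 - Real.tanh (r z / (2 * ε)) ^ 2)) ∂(sig n)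
      ≤ 8 * δ * (2 * (2 * ε) ^ 2 * TBc r η) := by gcongr
  have e4 : 8 * δ * (2 * (2 * ε) ^ 2 * TBc r η) ≤ 64 * ε * TBc r η := by
    have h1 : δ * ε ^ 2 ≤ ε := by
      have : δ * ε ^ 2 ≤ 1 * (1 * ε) := by
        have h2 : ε ^ 2 ≤ 1 * ε := by nlinarith
        gcongr
      linarith
    calc 8 * δ * (2 * (2 * ε) ^ 2 * TBc r η) = 64 * (δ * ε ^ 2) * TBc r η := by ring
      _ ≤ 64 * ε * TBc r η := by gcongr
  have h3 : 0 ≤ TBc r η * δ ^ 3 := by positivity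
  have h4 : 0 ≤ TBc r η * ε := by positivity
  nlinarith

end Crest.Agent.R246.IN200
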