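import Crest.Agent.R246.IN3_200

/-!
Row 246, block I(I) (helper200), part 4: LEMMA N (energy expansion).
-/

set_option autoImplicit false

open MeasureTheory Filter Topology Metric Set
open scoped ContDiff
open Crest.GeometryTopology.CoordMetric Crest.GeometryTopology.AffineMaximal
open Crest.Agent.R236.Jet Crest.Agent.R202.SphDiv Crest.Agent.R246.D2x782

noncomputable section

namespace Crest.Agent.R246.IN200

variable {n : ℕ}

local notation "EE" => EuclideanSpace ℝ (Fin n)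

/-- first error term -/
theorem est1 {Kq δ ρ r f hv q Lf hr hh hf : ℝ} (hK : 1 ≤ Kq) (hδ : 0 ≤ δ) (hδ1 : δ ≤ 1)
    (hq : |q| ≤ Kq) (hf0 : |f| ≤ δ) (hL : |Lf| ≤ δ) (hρ : ρ = r - f + hv) (hhv : |hv| ≤ δ ^ 2)
    (hhr : |hr| ≤ δ ^ 2) (hhh0 : 0 ≤ hh) (hhh : hh ≤ δ ^ 4) (hhf : |hf| ≤ δ ^ 2 * δ) :
    |(-(q * r ^ 2 + r * Lf) / 2 - -(q * f ^ 2 + f * Lf) / 2) * (1 + hr) + hh / 2 - hf / 2|
      ≤ (4 * Kq + 2) * (ρ ^ 2 + |ρ| + δ ^ 3) := by
  have h1 := est_aF (r := r) hδ hq hf0 hL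
  set A := -(q * r ^ 2 + r * Lf) / 2 - -(q * f ^ 2 + f * Lf) / 2
  have hd2 : δ ^ 2 ≤ 1 := by nlinarith
  have hrf : |r - f| ≤ |ρ| + δ ^ 2 := by
    calc |r - f| = |ρ - hv| := by rw [hρ]; ring_nf
      _ ≤ |ρ| + |hv| := abs_sub _ _
      _ ≤ |ρ| + δ ^ 2 := by linarith
  have hp := abs_nonneg ρ
  have h2 : |1 + hr| ≤ 2 := by
    have := abs_le.1 hhr
    rw [abs_le]; constructor <;> linarith
  have h3 : |A * (1 + hr)| ≤ (|ρ| + δ ^ 2) * (Kq * (|ρ| + δ ^ 2 + 2 * δ) + δ) := by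
    rw [abs_mul]
    have h4 : |A| ≤ (|ρ| + δ ^ 2) * (Kq * (|ρ| + δ ^ 2 + 2 * δ) + δ) / 2 := by
      refine h1.trans ?_
      have hK0 : 0 ≤ Kq := by linarith
      gcongr
    calc |A| * |1 + hr| ≤ ((|ρ| + δ ^ 2) * (Kq * (|ρ| + δ ^ 2 + 2 * δ) + δ) / 2) * 2 := by
          gcongr
      _ = _ := by ring
  have h5 : (|ρ| + δ ^ 2) * (Kq * (|ρ| + δ ^ 2 + 2 * δ) + δ)
      ≤ (4 * Kq + 1) * (ρ ^ 2 + |ρ| + δ ^ 3) := by
    have e1 : Kq * (|ρ| + δ ^ 2 + 2 * δ) + δ ≤ Kq * |ρ| + (3 * Kq + 1) * δ := by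
      nlinarith [mul_nonneg hδ (by linarith : 0 ≤ 1 - δ)]
    have e2 : (|ρ| + δ ^ 2) * (Kq * |ρ| + (3 * Kq + 1) * δ)
        = Kq * ρ ^ 2 + ((3 * Kq + 1) * δ + Kq * δ ^ 2) * |ρ| + (3 * Kq + 1) * δ ^ 3 := by
      have : |ρ| ^ 2 = ρ ^ 2 := sq_abs ρ
      rw [← this]; ring
    have e3 : (3 * Kq + 1) * δ + Kq * δ ^ 2 ≤ 4 * Kq + 1 := by nlinarith
    have e4 : ((3 * Kq + 1) * δ + Kq * δ ^ 2) * |ρ| ≤ (4 * Kq + 1) * |ρ| := by gcongr
    have e5 : 0 ≤ ρ ^ 2 := sq_nonneg _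
    have e6 : 0 ≤ δ ^ 3 := by positivity
    calc _ ≤ (|ρ| + δ ^ 2) * (Kq * |ρ| + (3 * Kq + 1) * δ) := by gcongr
      _ ≤ _ := by rw [e2]; nlinarith
  have h6 : |hh / 2| ≤ δ ^ 3 / 2 := by
    rw [abs_of_nonneg (by linarith)]
    have : δ ^ 4 ≤ δ ^ 3 := by
      calc δ ^ 4 = δ ^ 3 * δ := by ring
        _ ≤ δ ^ 3 * 1 := by gcongr
        _ = _ := mul_one _
    linarith
  have h7 : |hf / 2| ≤ δ ^ 3 / 2 := by
    rw [abs_div, abs_two]
    have : δ ^ 2 * δ = δ ^ 3 := by ring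
    linarith
  have h8 : |A * (1 + hr) + hh / 2 - hf / 2| ≤ |A * (1 + hr)| + |hh / 2| + |hf / 2| :=
    (abs_sub _ _).trans (add_le_add (abs_add_le _ _) le_rfl)
  have e5 : 0 ≤ ρ ^ 2 := sq_nonneg _
  nlinarith

/-- second error term -/
theorem est2 {Kq δ r q Lf : ℝ} (hK : 1 ≤ Kq) (hδ1 : δ ≤ 1) (hq : |q| ≤ Kq) (hL : |Lf| ≤ δ) :
    |-(q * r ^ 2 + r * Lf) / 2| ≤ Kq * (r ^ 2 + |r|) := by
  rw [abs_div, abs_neg, abs_two]
  have h1 : |q * r ^ 2 + r * Lf| ≤ Kq * r ^ 2 + |r| * 1 := by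
    calc |q * r ^ 2 + r * Lf| ≤ |q * r ^ 2| + |r * Lf| := abs_add_le _ _
      _ = |q| * r ^ 2 + |r| * |Lf| := by rw [abs_mul, abs_mul, abs_of_nonneg (sq_nonneg r)]
      _ ≤ Kq * r ^ 2 + |r| * 1 := by gcongr; linarith
  have h2 := abs_nonneg r
  have h3 := sq_nonneg r
  nlinarith

/-- third error term -/
theorem est3 {Kq K δ r f q L Lf qr sr : ℝ} (hK : 1 ≤ Kq) (hK0 : 0 ≤ K) (hδ : 0 ≤ δ)
    (hq : |q| ≤ Kq) (hqr : |qr| ≤ Kq) (hLL : |L| ≤ Kq) (hf0 : |f| ≤ δ) (hL : |Lf| ≤ δ)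
    (hsr : |sr| ≤ δ) (hric : |L + q * r| ≤ K * r ^ 2) :
    |(L + q * r) + (r ^ 2 - f ^ 2) * qr / 2 + (r - f) * sr / 2
        - (-(q * r ^ 2 + r * Lf) / 2 - -(q * f ^ 2 + f * Lf) / 2) * L|
      ≤ (K + 5 * Kq ^ 2 + 2) * (r ^ 2 + δ ^ 2) := by
  have h1 := est_aF (r := r) hδ hq hf0 hL
  set A := -(q * r ^ 2 + r * Lf) / 2 - -(q * f ^ 2 + f * Lf) / 2
  have hr := abs_nonneg r
  have hrf : |r - f| ≤ |r| + δ := (abs_sub _ _).trans (by linarith)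
  have hr2 : |r| ^ 2 = r ^ 2 := sq_abs r
  have hsum : (|r| + δ) ^ 2 ≤ 2 * (r ^ 2 + δ ^ 2) := by nlinarith [sq_nonneg (|r| - δ)]
  have h2 : |A| ≤ 4 * Kq * (r ^ 2 + δ ^ 2) := by
    have e1 : |r - f| * (Kq * (|r - f| + 2 * δ) + δ) / 2
        ≤ (|r| + δ) * (4 * Kq * (|r| + δ)) / 2 := by
      have e2 : Kq * (|r - f| + 2 * δ) + δ ≤ 4 * Kq * (|r| + δ) := by
        have e3 : Kq * (|r - f| + 2 * δ) ≤ Kq * ((|r| + δ) + 2 * δ) := by gcongr
        nlinarith [mul_nonneg (by linarith : 0 ≤ Kq) hr, mul_nonneg (by linarith : 0 ≤ Kq - 1) hδ]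
      have e4 : 0 ≤ Kq * (|r - f| + 2 * δ) + δ := by positivity
      gcongr
    have e5 : (|r| + δ) * (4 * Kq * (|r| + δ)) / 2 = 2 * Kq * (|r| + δ) ^ 2 := by ring
    have e6 : 2 * Kq * (|r| + δ) ^ 2 ≤ 2 * Kq * (2 * (r ^ 2 + δ ^ 2)) := by gcongr
    linarith
  have h3 : |A * L| ≤ 4 * Kq ^ 2 * (r ^ 2 + δ ^ 2) := by
    rw [abs_mul]
    calc |A| * |L| ≤ (4 * Kq * (r ^ 2 + δ ^ 2)) * Kq := by
          gcongr
      _ = _ := by ring
  have h4 : |(r ^ 2 - f ^ 2) * qr / 2| ≤ Kq ^ 2 * (r ^ 2 + δ ^ 2) := by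
    rw [abs_div, abs_mul, abs_two]
    have e1 : |r ^ 2 - f ^ 2| ≤ r ^ 2 + δ ^ 2 := by
      have e2 : f ^ 2 ≤ δ ^ 2 := by
        rw [← sq_abs f]; gcongr
      have e3 := sq_nonneg f
      have e4 := sq_nonneg r
      rw [abs_le]; constructor <;> nlinarith
    have e5 : |r ^ 2 - f ^ 2| * |qr| ≤ (r ^ 2 + δ ^ 2) * Kq := by gcongr
    have e6 : 0 ≤ r ^ 2 + δ ^ 2 := by positivity
    nlinarith [mul_nonneg e6 (by nlinarith : 0 ≤ Kq ^ 2 - Kq)]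
  have h5 : |(r - f) * sr / 2| ≤ r ^ 2 + δ ^ 2 := by
    rw [abs_div, abs_mul, abs_two]
    have e1 : |r - f| * |sr| ≤ (|r| + δ) * δ := by gcongr
    nlinarith [sq_nonneg (|r| - δ)]
  have h6 : |(L + q * r) + (r ^ 2 - f ^ 2) * qr / 2 + (r - f) * sr / 2 - A * L|
      ≤ |L + q * r| + |(r ^ 2 - f ^ 2) * qr / 2| + |(r - f) * sr / 2| + |A * L| :=
    (abs_sub _ _).trans (add_le_add ((abs_add_le _ _).trans
      (add_le_add (abs_add_le _ _) le_rfl)) le_rfl)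
  have e6 : 0 ≤ K * δ ^ 2 := by positivity
  have e7 : 0 ≤ r ^ 2 + δ ^ 2 := by positivity
  nlinarith

/-- fourth error term -/
theorem est4 {Kq δ r f q Lf ηr ηf : ℝ} (hK : 1 ≤ Kq) (hδ : 0 ≤ δ) (hδ1 : δ ≤ 1)
    (hq : |q| ≤ Kq) (hr : |r| ≤ Kq) (hf0 : |f| ≤ δ) (hL : |Lf| ≤ δ)
    (h1 : |ηr| ≤ Kq) (h2 : |ηf| ≤ Kq) :
    |(1 - -(q * r ^ 2 + r * Lf) / 2 + -(q * f ^ 2 + f * Lf) / 2) * ηr - ηf / 2|
      ≤ 6 * Kq ^ 4 := by
  have ha := est2 (r := r) hK hδ1 hq hL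
  have hF : |-(q * f ^ 2 + f * Lf) / 2| ≤ Kq * (f ^ 2 + |f|) := est2 hK hδ1 hq hL
  have hf2 : f ^ 2 ≤ 1 := by rw [← sq_abs f]; nlinarith [abs_nonneg f]
  have hr2 : r ^ 2 ≤ Kq ^ 2 := by rw [← sq_abs r]; nlinarith [abs_nonneg r]
  set a := -(q * r ^ 2 + r * Lf) / 2
  set F := -(q * f ^ 2 + f * Lf) / 2
  have e1 : |1 - a + F| ≤ 1 + Kq * (Kq ^ 2 + Kq) + Kq * (1 + 1) := by
    calc |1 - a + F| ≤ |1 - a| + |F| := abs_add_le _ _
      _ ≤ (|(1 : ℝ)| + |a|) + |F| := add_le_add (abs_sub _ _) le_rfl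
      _ ≤ (1 + Kq * (Kq ^ 2 + Kq)) + Kq * (1 + 1) := by
        rw [abs_one]
        have e2 : Kq * (r ^ 2 + |r|) ≤ Kq * (Kq ^ 2 + Kq) := by gcongr
        have e3 : Kq * (f ^ 2 + |f|) ≤ Kq * (1 + 1) := by gcongr; linarith
        linarith
  have e2 : |(1 - a + F) * ηr - ηf / 2|
      ≤ (1 + Kq * (Kq ^ 2 + Kq) + Kq * (1 + 1)) * Kq + Kq / 2 := by
    refine (abs_sub _ _).trans ?_
    rw [abs_mul, abs_div, abs_two]
    gcongr
  have k2 : Kq ≤ Kq ^ 2 := by nlinarith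
  have k3 : Kq ^ 2 ≤ Kq ^ 3 := by nlinarith [mul_nonneg (sq_nonneg Kq) (by linarith : 0 ≤ Kq - 1)]
  have k4 : Kq ^ 3 ≤ Kq ^ 4 := by
    nlinarith [mul_nonneg (by positivity : 0 ≤ Kq ^ 3) (by linarith : 0 ≤ Kq - 1)]
  nlinarith

/-- the deformed function -/
def rhoF (r f hh : EuclideanSpace ℝ (Fin n) → ℝ) (x : EuclideanSpace ℝ (Fin n)) : ℝ :=
  r x - f x + hh x

/-- difference of primitives -/
def DF (ε : ℝ) (r f hh : EuclideanSpace ℝ (Fin n) → ℝ) (x : EuclideanSpace ℝ (Fin n)) : ℝ :=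
  XX ε (rhoF r f hh x) - XX ε (r x)

/-- second order correction -/
def aF (q f g : EuclideanSpace ℝ (Fin n) → ℝ) (x : EuclideanSpace ℝ (Fin n)) : ℝ :=
  -1 / 2 * (q x * (g x * g x) + g x * slap f x)

/-- coefficient of the calibrating field -/
def bF (q r f : EuclideanSpace ℝ (Fin n) → ℝ) (x : EuclideanSpace ℝ (Fin n)) : ℝ :=
  1 - aF q f r x + aF q f f x

/-- first divergence -/
def I1 (ε : ℝ) (η q r f hh : EuclideanSpace ℝ (Fin n) → ℝ) (x : EuclideanSpace ℝ (Fin n)) : ℝ :=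
  (η x * (DF ε r f hh x * bF q r f x)) * slap r x
    + sdot (fun x => η x * (DF ε r f hh x * bF q r f x)) r x

/-- second divergence -/
def I2 (ε : ℝ) (η r f hh : EuclideanSpace ℝ (Fin n) → ℝ) (x : EuclideanSpace ℝ (Fin n)) : ℝ :=
  (η x * DF ε r f hh x) * slap f x + sdot (fun x => η x * DF ε r f hh x) f x

/-- third integrand -/
def J3 (ε : ℝ) (η q r f : EuclideanSpace ℝ (Fin n) → ℝ) (x : EuclideanSpace ℝ (Fin n)) : ℝ :=
  η x * GG ε (r x) * (q x * f x ^ 2 + f x * slap f x)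

theorem c1_rhoF {r f hh : EE → ℝ} (rc : C1 r) (fc : C1 f) (hc : C1 hh) : C1 (rhoF r f hh) :=
  (rc.sub fc).add hc

theorem c1_DF {ε : ℝ} {r f hh : EE → ℝ} (rc : C1 r) (fc : C1 f) (hc : C1 hh) :
    C1 (DF ε r f hh) := ((c1_rhoF rc fc hc).comp (contDiff_XX ε)).sub (rc.comp (contDiff_XX ε))

theorem c1_aF {q f g : EE → ℝ} (qc : C1 q) (Lc : C1 (slap f)) (gc : C1 g) : C1 (aF q f g) :=
  (C1.const (-1 / 2)).mul ((qc.mul (gc.mul gc)).add (gc.mul Lc))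

theorem c1_bF {q r f : EE → ℝ} (qc : C1 q) (rc : C1 r) (fc : C1 f) (Lc : C1 (slap f)) :
    C1 (bF q r f) := ((C1.const 1).sub (c1_aF qc Lc rc)).add (c1_aF qc Lc fc)

theorem sdot_aF {q f g r : EE → ℝ} (qc : C1 q) (Lc : C1 (slap f)) (gc : C1 g) {x : EE}
    (hx : x ≠ 0) : sdot (aF q f g) r x = -1 / 2 * (q x * (2 * g x * sdot g r x)
      + g x * g x * sdot q r x + (g x * sdot (slap f) r x + slap f x * sdot g r x)) := by
  have h1 : sdot (aF q f g) r x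
      = -1 / 2 * sdot (fun x => q x * (g x * g x) + g x * slap f x) r x :=
    sdot_smul (((qc.mul (gc.mul gc)).add (gc.mul Lc)).diff hx)
  rw [h1, sdot_add ((qc.mul (gc.mul gc)).diff hx) ((gc.mul Lc).diff hx),
    sdot_mul (qc.diff hx) ((gc.mul gc).diff hx), sdot_mul (gc.diff hx) (gc.diff hx),
    sdot_mul (gc.diff hx) (Lc.diff hx)]
  ring

theorem sdot_bF {q r f : EE → ℝ} (qc : C1 q) (rc : C1 r) (fc : C1 f) (Lc : C1 (slap f)) {x : EE}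
    (hx : x ≠ 0) : sdot (bF q r f) r x = - sdot (aF q f r) r x + sdot (aF q f f) r x := by
  have h1 : sdot (bF q r f) r x = sdot (fun x => 1 - aF q f r x) r x + sdot (aF q f f) r x :=
    sdot_add (((C1.const 1).sub (c1_aF qc Lc rc)).diff hx) ((c1_aF qc Lc fc).diff hx)
  rw [h1, sdot_sub ((C1.const 1).diff hx) ((c1_aF qc Lc rc).diff hx), sdot_const]
  ring

theorem sdot_rhoF {r f hh : EE → ℝ} (rc : C1 r) (fc : C1 f) (hc : C1 hh) {x : EE} (hx : x ≠ 0)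
    (c : EE → ℝ) : sdot (rhoF r f hh) c x = sdot r c x - sdot f c x + sdot hh c x := by
  have h1 : sdot (rhoF r f hh) c x = sdot (fun x => r x - f x) c x + sdot hh c x :=
    sdot_add ((rc.sub fc).diff hx) (hc.diff hx)
  rw [h1, sdot_sub (rc.diff hx) (fc.diff hx)]

theorem sdot_DF {ε : ℝ} {r f hh : EE → ℝ} (rc : C1 r) (fc : C1 f) (hc : C1 hh) {x : EE}
    (hx : x ≠ 0) (c : EE → ℝ) : sdot (DF ε r f hh) c x
      = GG ε (rhoF r f hh x) * sdot (rhoF r f hh) c x - GG ε (r x) * sdot r c x := by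
  have h1 : sdot (DF ε r f hh) c x
      = sdot (fun x => XX ε (rhoF r f hh x)) c x - sdot (fun x => XX ε (r x)) c x :=
    sdot_sub (((c1_rhoF rc fc hc).comp (contDiff_XX ε)).diff hx)
      ((rc.comp (contDiff_XX ε)).diff hx)
  rw [h1, sdot_comp (hasDerivAt_XX _) ((c1_rhoF rc fc hc).diff hx),
    sdot_comp (hasDerivAt_XX (r x)) (rc.diff hx)]

/-- the pointwise identity -/
theorem key_identity {ε : ℝ} {η q r f hh : EE → ℝ} (ηc : C1 η) (qc : C1 q) (rc : C1 r) (fc : C1 f)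
    (Lc : C1 (slap f)) (hc : C1 hh) {x : EE} (hx : x ≠ 0) (srr : sdot r r x = 1)
    (sfr : sdot f r x = 0) :
    η x * eden ε (rhoF r f hh) x - η x * eden ε r x + 1 / 2 * J3 ε η q r f x
        - I1 ε η q r f hh x + 1 / 2 * I2 ε η r f hh x
      = η x * GG ε (rhoF r f hh x) * ((-(q x * r x ^ 2 + r x * slap f x) / 2
            - -(q x * f x ^ 2 + f x * slap f x) / 2) * (1 + sdot hh r x) + sdot hh hh x / 2
              - sdot hh f x / 2)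
          - η x * GG ε (r x) * (-(q x * r x ^ 2 + r x * slap f x) / 2)
          - η x * DF ε r f hh x * ((slap r x + q x * r x) + (r x ^ 2 - f x ^ 2) * sdot q r x / 2
              + (r x - f x) * sdot (slap f) r x / 2
              - (-(q x * r x ^ 2 + r x * slap f x) / 2
                - -(q x * f x ^ 2 + f x * slap f x) / 2) * slap r x)
          - DF ε r f hh x * ((1 - -(q x * r x ^ 2 + r x * slap f x) / 2
              + -(q x * f x ^ 2 + f x * slap f x) / 2) * sdot η r x - sdot η f x / 2) := by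
  have bc := c1_bF qc rc fc Lc
  have Dc := c1_DF (ε := ε) rc fc hc
  have srf : sdot r f x = 0 := by rw [sdot_comm]; exact sfr
  have srh : sdot r hh x = sdot hh r x := sdot_comm _ _ _
  have sfh : sdot f hh x = sdot hh f x := sdot_comm _ _ _
  have e1 : sgsq (rhoF r f hh) x = 1 + sdot f f x + sdot hh hh x
        + 2 * sdot hh r x - 2 * sdot hh f x := by
    rw [sgsq_eq, sdot_rhoF rc fc hc hx, sdot_comm r, sdot_comm f, sdot_comm hh,
      sdot_rhoF rc fc hc hx, sdot_rhoF rc fc hc hx, sdot_rhoF rc fc hc hx, srr, sfr, srf, srh, sfh]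
    ring
  unfold J3 I1 I2
  rw [eden_eq, eden_eq, e1, sgsq_eq r, srr, sdot_mul (ηc.diff hx) ((Dc.mul bc).diff hx),
    sdot_mul (ηc.diff hx) (Dc.diff hx), sdot_mul (Dc.diff hx) (bc.diff hx),
    sdot_DF rc fc hc hx, sdot_DF rc fc hc hx, sdot_rhoF rc fc hc hx, sdot_rhoF rc fc hc hx,
    sdot_bF qc rc fc Lc hx, sdot_aF qc Lc rc hx, sdot_aF qc Lc fc hx, srr, sfr, srf]
  unfold bF aF
  ring

variable {r η q : EuclideanSpace ℝ (Fin n) → ℝ} {T : Set (EuclideanSpace ℝ (Fin n))} {t1 K : ℝ}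

/-- pointwise error bound inside the region, with all constants explicit -/
theorem Tube.err_in (h : Tube r η q T t1 K) {Kq ε δ : ℝ} {f hh : EE → ℝ} (hK1 : 1 ≤ Kq)
    (hε : 0 < ε) (hδ : 0 ≤ δ) (hδ1 : δ ≤ 1) (hδt : δ ≤ t1 / 4) (hS : Small T δ r f hh)
    {z : Sph n} (hz : (z : EE) ∈ T)
    (bq : |q z| ≤ Kq) (bqr : |sdot q r z| ≤ Kq) (bL : |slap r z| ≤ Kq) (br : |r z| ≤ Kq)
    (bηr : |sdot η r z| ≤ Kq) (bη : sgsq η z ≤ Kq) :
    |η z * eden ε (rhoF r f hh) z - η z * eden ε r z + 1 / 2 * J3 ε η q r f z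
        - I1 ε η q r f hh z + 1 / 2 * I2 ε η r f hh z|
      ≤ (4 * Kq + 2) * (η z * GG ε (rhoF r f hh z)
          * (rhoF r f hh z ^ 2 + |rhoF r f hh z| + δ ^ 3))
        + Kq * (η z * GG ε (r z) * (r z ^ 2 + |r z| + 0))
        + (K + 5 * Kq ^ 2 + 2) * (η z * (WW ε (2 * δ) (r z) * (r z ^ 2 + δ ^ 2)))
        + 12 * Kq ^ 4 / t1 * ε := by
  have hz0 := sph_ne z
  have ht1 := h.t1_pos
  have hK0 := h.K_nonneg
  rw [key_identity h.η_sm.c1 h.q_sm h.r_sm.c1 hS.f_sm.c1 hS.f_sm.c1_slap hS.h_c1 hz0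
    (h.eik z hz) (hS.perp z hz)]
  have hG1 := GG_nonneg hε (rhoF r f hh z)
  have hG0 := GG_nonneg hε (r z)
  have hη := h.η_nonneg z
  have hWW := WW_nonneg hε (by linarith : (0 : ℝ) ≤ 2 * δ) (r z)
  have htail : 0 ≤ 12 * Kq ^ 4 / t1 * ε := by positivity
  have hd2 : δ ^ 2 ≤ δ := by nlinarith
  have bηf : |sdot η f z| ≤ Kq := by
    have h1 := sdot_sq_le η f z
    have h3 : sgsq f z ≤ 1 := (hS.f1 z hz).trans (by nlinarith)
    have h4 := sgsq_nonneg η z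
    have h5 := sgsq_nonneg f z
    refine abs_le_of_sq_le_sq ?_ (by linarith)
    have h6 : sgsq η z * sgsq f z ≤ Kq * 1 := by gcongr
    have h7 : Kq ≤ Kq ^ 2 := by nlinarith
    linarith
  have bhr : |sdot hh r z| ≤ δ ^ 2 := by
    have h1 := sdot_abs_le (a := hh) (b := r) (x := z) (α := δ ^ 2) (β := 1) (sq_nonneg _)
      zero_le_one (by rw [← pow_mul]; exact hS.h1 z hz) (by rw [h.eik z hz]; norm_num)
    linarith
  have bf := hS.f0 z hz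
  have bLf := hS.f2 z hz
  have bh := hS.h0 z hz
  have bsr : |sdot (slap f) r z| ≤ δ := by
    have := sdot_abs_le (a := slap f) (b := r) (x := z) (α := δ) (β := 1) hδ
      zero_le_one (hS.f3 z hz) (by rw [h.eik z hz]; norm_num)
    linarith
  have bhf : |sdot hh f z| ≤ δ ^ 2 * δ :=
    sdot_abs_le (sq_nonneg _) hδ (by rw [← pow_mul]; exact hS.h1 z hz) (hS.f1 z hz)
  have bhh : sdot hh hh z ≤ δ ^ 4 := hS.h1 z hz
  have bhh0 : 0 ≤ sdot hh hh z := sgsq_nonneg hh z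
  have hρz : rhoF r f hh z = r z - f z + hh z := rfl
  have E1 := est1 hK1 hδ hδ1 bq bf bLf hρz bh bhr bhh0 bhh bhf
  have E2 := est2 (r := r z) hK1 hδ1 bq bLf
  have E3 := est3 hK1 hK0 hδ bq bqr bL bf bLf bsr (h.ric z hz)
  have E4 := est4 hK1 hδ hδ1 bq br bf bLf bηr bηf
  have hdiff : |rhoF r f hh z - r z| ≤ 2 * δ := by
    rw [hρz, show r z - f z + hh z - r z = hh z - f z by ring]
    exact (abs_sub _ _).trans (by linarith)
  have hDW : |DF ε r f hh z| ≤ WW ε (2 * δ) (r z) := abs_XX_sub_le hε hdiff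
  have hDt : t1 ≤ |r z| → |DF ε r f hh z| ≤ 2 * ε / t1 := fun hr =>
    XX_far hε ht1 hr (hdiff.trans (by linarith))
  generalize (-(q z * r z ^ 2 + r z * slap f z) / 2
            - -(q z * f z ^ 2 + f z * slap f z) / 2) * (1 + sdot hh r z) + sdot hh hh z / 2
              - sdot hh f z / 2 = t1' at E1 ⊢
  generalize (slap r z + q z * r z) + (r z ^ 2 - f z ^ 2) * sdot q r z / 2
              + (r z - f z) * sdot (slap f) r z / 2
              - (-(q z * r z ^ 2 + r z * slap f z) / 2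
                - -(q z * f z ^ 2 + f z * slap f z) / 2) * slap r z = t3' at E3 ⊢
  have F4 : |DF ε r f hh z * ((1 - -(q z * r z ^ 2 + r z * slap f z) / 2
      + -(q z * f z ^ 2 + f z * slap f z) / 2) * sdot η r z
      - sdot η f z / 2)| ≤ 12 * Kq ^ 4 / t1 * ε := by
    by_cases hr : |r z| < t1
    · rw [h.sdot_η_near hz hr r, h.sdot_η_near hz hr f]
      simpa using htail
    · push Not at hr
      rw [abs_mul]
      calc |DF ε r f hh z| * _ ≤ (2 * ε / t1) * (6 * Kq ^ 4) := by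
            gcongr
            exact hDt hr
        _ = _ := by ring
  generalize (1 - -(q z * r z ^ 2 + r z * slap f z) / 2
      + -(q z * f z ^ 2 + f z * slap f z) / 2) * sdot η r z
      - sdot η f z / 2 = t4' at F4 ⊢
  generalize -(q z * r z ^ 2 + r z * slap f z) / 2 = t2' at E2 ⊢
  generalize rhoF r f hh z = ρz at *
  generalize DF ε r f hh z = Dz at *
  have F1 : |η z * GG ε ρz * t1'| ≤ (4 * Kq + 2) * (η z * GG ε ρz * (ρz ^ 2 + |ρz| + δ ^ 3)) := by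
    rw [abs_mul, abs_of_nonneg (mul_nonneg hη hG1)]
    calc η z * GG ε ρz * |t1'| ≤ η z * GG ε ρz * ((4 * Kq + 2) * (ρz ^ 2 + |ρz| + δ ^ 3)) := by
          gcongr
      _ = _ := by ring
  have F2 : |η z * GG ε (r z) * t2'| ≤ Kq * (η z * GG ε (r z) * (r z ^ 2 + |r z| + 0)) := by
    rw [abs_mul, abs_of_nonneg (mul_nonneg hη hG0), add_zero]
    calc η z * GG ε (r z) * |t2'| ≤ η z * GG ε (r z) * (Kq * (r z ^ 2 + |r z|)) := by
          gcongr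
      _ = _ := by ring
  have F3 : |η z * Dz * t3'|
      ≤ (K + 5 * Kq ^ 2 + 2) * (η z * (WW ε (2 * δ) (r z) * (r z ^ 2 + δ ^ 2))) := by
    rw [abs_mul, abs_mul, abs_of_nonneg hη]
    calc η z * |Dz| * |t3'|
        ≤ η z * WW ε (2 * δ) (r z) * ((K + 5 * Kq ^ 2 + 2) * (r z ^ 2 + δ ^ 2)) := by
          gcongr
      _ = _ := by ring
  refine (abs_sub _ _).trans ?_
  refine le_trans (add_le_add (abs_sub _ _) le_rfl) ?_
  refine le_trans (add_le_add (add_le_add (abs_sub _ _) le_rfl) le_rfl) ?_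
  exact add_le_add (add_le_add (add_le_add F1 F2) F3) F4

/-- off the region everything vanishes -/
theorem Tube.err_out (h : Tube r η q T t1 K) {ε : ℝ} {f hh : EE → ℝ} (fc : C1 f)
    (Lc : C1 (slap f)) (hc : C1 hh) {z : Sph n} (hz : (z : EE) ∉ T) :
    η z * eden ε (rhoF r f hh) z - η z * eden ε r z + 1 / 2 * J3 ε η q r f z
        - I1 ε η q r f hh z + 1 / 2 * I2 ε η r f hh z = 0 := by
  have hz0 := sph_ne z
  have rc := h.r_sm.c1
  have ηc := h.η_sm.c1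
  have bc := c1_bF h.q_sm rc fc Lc
  have Dc := c1_DF (ε := ε) rc fc hc
  have e0 : η z = 0 := h.supp z hz
  unfold J3 I1 I2
  rw [sdot_mul (ηc.diff hz0) ((Dc.mul bc).diff hz0), sdot_mul (ηc.diff hz0) (Dc.diff hz0),
    h.sdot_η_zero hz, h.sdot_η_zero hz, e0]
  ring

end Crest.Agent.R246.IN200
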