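import Crest.Agent.R246.IN4_200

/-!
Row 246, block I(I) (helper200), part 5: LEMMA N (energy expansion), integrated form.
-/

set_option autoImplicit false

open MeasureTheory Filter Topology Metric Set
open scoped ContDiff
open Crest.GeometryTopology.CoordMetric Crest.GeometryTopology.AffineMaximal
open Crest.Agent.R236.Jet Crest.Agent.R202.SphDiv Crest.Agent.R246.D2x782

noncomputable section

namespace Crest.Agent.R246.IN200

variable {n : ℕ}

local notation "EE" => EuclideanSpace ℝ (Fin n)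

variable {r η q : EuclideanSpace ℝ (Fin n) → ℝ} {T : Set (EuclideanSpace ℝ (Fin n))} {t1 K : ℝ}

/-- LEMMA N: second order expansion of the energy -/
theorem Tube.energy_expand (h : Tube r η q T t1 K) (hn : 0 < n) :
    ∃ C δ0 : ℝ, 0 ≤ C ∧ 0 < δ0 ∧ δ0 ≤ 1 / 2 ∧ δ0 ≤ t1 / 4 ∧
      ∀ (ε δ : ℝ) (f hh : EuclideanSpace ℝ (Fin n) → ℝ),
      0 < ε → ε ≤ 1 → 0 ≤ δ → δ ≤ δ0 → Small T δ r f hh →
      |(∫ z : Sph n, η z * eden ε (rhoF r f hh) z ∂(sig n))
        - (∫ z : Sph n, η z * eden ε r z ∂(sig n))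
        + 1 / 2 * ∫ z : Sph n, η z * GG ε (r z) * (q z * f z ^ 2 + f z * slap f z) ∂(sig n)|
        ≤ C * (δ ^ 3 + ε) := by
  -- the constants
  obtain ⟨k1, k1n, hk1⟩ := exists_bound (f := q) fun x hx => h.q_sm.cont hx
  obtain ⟨k2, k2n, hk2⟩ := exists_bound (f := sdot q r) fun x hx =>
    h.q_sm.cont_sdot h.r_sm.c1 hx
  obtain ⟨k3, k3n, hk3⟩ := exists_bound (f := slap r) fun x hx => h.r_sm.c1_slap.cont hx
  obtain ⟨k4, k4n, hk4⟩ := exists_bound (f := r) fun x hx => h.r_sm.c1.cont hx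
  obtain ⟨k5, k5n, hk5⟩ := exists_bound (f := sdot η r) fun x hx =>
    h.η_sm.c1.cont_sdot h.r_sm.c1 hx
  obtain ⟨k6, k6n, hk6⟩ := exists_bound (f := sgsq η) fun x hx =>
    h.η_sm.c1.cont_sdot h.η_sm.c1 hx
  obtain ⟨Kq, hK1, g1, g2, g3, g4, g5, g6⟩ : ∃ Kq : ℝ, 1 ≤ Kq ∧ k1 ≤ Kq ∧ k2 ≤ Kq ∧ k3 ≤ Kq ∧
      k4 ≤ Kq ∧ k5 ≤ Kq ∧ k6 ≤ Kq :=
    ⟨1 + k1 + k2 + k3 + k4 + k5 + k6, by linarith, by linarith, by linarith, by linarith,
      by linarith, by linarith, by linarith⟩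
  have hTB := TBc_nonneg r η
  have hK0 := h.K_nonneg
  have ht1 := h.t1_pos
  set MS : ℝ := (sig n).real univ with hMS
  have hMS0 : 0 ≤ MS := measureReal_nonneg
  refine ⟨(4 * Kq + 2) * (4 * TBc r η) + Kq * (4 * TBc r η)
    + (K + 5 * Kq ^ 2 + 2) * (160 * TBc r η) + 12 * Kq ^ 4 / t1 * MS,
    min (1 / 2) (t1 / 4), by positivity, by positivity, min_le_left _ _, min_le_right _ _, ?_⟩
  intro ε δ f hh hε hε1 hδ hδ0 hS
  have hδ2 : δ ≤ 1 / 2 := hδ0.trans (min_le_left _ _)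
  have hδ1 : δ ≤ 1 := by linarith
  have hδt : δ ≤ t1 / 4 := hδ0.trans (min_le_right _ _)
  have hd2 : δ ^ 2 ≤ 1 / 2 := by nlinarith
  have hd3 : 0 ≤ δ ^ 3 := by positivity
  have rc := h.r_sm.c1
  have fc := hS.f_sm.c1
  have hc := hS.h_c1
  have ηc := h.η_sm.c1
  have Lc := hS.f_sm.c1_slap
  have qc := h.q_sm
  have ρc := c1_rhoF rc fc hc
  have Dc := c1_DF (ε := ε) rc fc hc
  have bc := c1_bF qc rc fc Lc
  have ζ1c : C1 (fun x => η x * (DF ε r f hh x * bF q r f x)) := ηc.mul (Dc.mul bc)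
  have ζ2c : C1 (fun x => η x * DF ε r f hh x) := ηc.mul Dc
  have ibp1 : ∫ z : Sph n, I1 ε η q r f hh z ∂(sig n) = 0 := sphere_ibp hn h.r_sm ζ1c
  have ibp2 : ∫ z : Sph n, I2 ε η r f hh z ∂(sig n) = 0 := sphere_ibp hn hS.f_sm ζ2c
  -- continuity
  have cG : ∀ g : EE → ℝ, C1 g → ∀ x : EE, x ≠ 0 → ContinuousAt (fun x => GG ε (g x)) x :=
    fun g gc x hx => ((continuous_GG ε).continuousAt).comp (gc.cont hx)
  have cE : ∀ g : EE → ℝ, C1 g → ∀ x : EE, x ≠ 0 →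
      ContinuousAt (fun x => η x * eden ε g x) x := by
    intro g gc x hx
    have h1 : (fun x => η x * eden ε g x) = fun x => η x * (GG ε (g x) * ((1 + sgsq g x) / 2)) := by
      funext x; rw [eden_eq]
    rw [h1]
    exact (ηc.cont hx).mul ((cG g gc x hx).mul
      ((continuousAt_const.add (gc.cont_sdot gc hx)).div_const 2))
  have iJ1 : Integrable (fun z : Sph n => η z * eden ε (rhoF r f hh) z) (sig n) :=
    integrable_sph (f := fun x => η x * eden ε (rhoF r f hh) x) (cE _ ρc)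
  have iJ2 : Integrable (fun z : Sph n => η z * eden ε r z) (sig n) :=
    integrable_sph (f := fun x => η x * eden ε r x) (cE _ rc)
  have iJ3 : Integrable (fun z : Sph n => J3 ε η q r f z) (sig n) :=
    integrable_sph (f := J3 ε η q r f) fun x hx =>
      ((ηc.cont hx).mul (cG r rc x hx)).mul
        (((qc.cont hx).mul ((fc.cont hx).pow 2)).add ((fc.cont hx).mul (Lc.cont hx)))
  have iI1 : Integrable (fun z : Sph n => I1 ε η q r f hh z) (sig n) :=
    integrable_sph (f := I1 ε η q r f hh) fun x hx =>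
      ((ζ1c.cont hx).mul (h.r_sm.c1_slap.cont hx)).add (ζ1c.cont_sdot rc hx)
  have iI2 : Integrable (fun z : Sph n => I2 ε η r f hh z) (sig n) :=
    integrable_sph (f := I2 ε η r f hh) fun x hx =>
      ((ζ2c.cont hx).mul (Lc.cont hx)).add (ζ2c.cont_sdot fc hx)
  have iM1 : Integrable (fun z : Sph n => η z * GG ε (rhoF r f hh z)
      * (rhoF r f hh z ^ 2 + |rhoF r f hh z| + δ ^ 3)) (sig n) :=
    integrable_sph (f := fun x => η x * GG ε (rhoF r f hh x)
      * (rhoF r f hh x ^ 2 + |rhoF r f hh x| + δ ^ 3)) fun x hx =>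
      ((ηc.cont hx).mul (cG _ ρc x hx)).mul
        ((((ρc.cont hx).pow 2).add (ρc.cont hx).abs).add continuousAt_const)
  have iM2 : Integrable (fun z : Sph n => η z * GG ε (r z) * (r z ^ 2 + |r z| + 0)) (sig n) :=
    integrable_sph (f := fun x => η x * GG ε (r x) * (r x ^ 2 + |r x| + 0)) fun x hx =>
      ((ηc.cont hx).mul (cG _ rc x hx)).mul
        ((((rc.cont hx).pow 2).add (rc.cont hx).abs).add continuousAt_const)
  have cW : Continuous (WW ε (2 * δ)) := by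
    unfold WW
    have := continuous_XX ε
    fun_prop
  have iM3 : Integrable (fun z : Sph n => η z * (WW ε (2 * δ) (r z) * (r z ^ 2 + δ ^ 2))) (sig n) :=
    integrable_sph (f := fun x => η x * (WW ε (2 * δ) (r x) * (r x ^ 2 + δ ^ 2))) fun x hx =>
      (ηc.cont hx).mul (((cW.continuousAt).comp (rc.cont hx)).mul
        (((rc.cont hx).pow 2).add continuousAt_const))
  -- tube conditions
  have hρr2 : ∀ z : Sph n, (z : EE) ∈ T → 1 / 2 ≤ sdot (rhoF r f hh) r z := by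
    intro z hz
    have hz0 := sph_ne z
    rw [sdot_rhoF rc fc hc hz0, hS.perp z hz, ← sgsq_eq r, h.eik z hz]
    have h1 := sdot_abs_le (a := hh) (b := r) (x := z) (α := δ ^ 2) (β := 1) (sq_nonneg _)
      zero_le_one (by rw [← pow_mul]; exact hS.h1 z hz) (by rw [h.eik z hz]; norm_num)
    have h2 := (abs_le.1 h1).1
    linarith
  have hrr2 : ∀ z : Sph n, (z : EE) ∈ T → 1 / 2 ≤ sdot r r z := fun z hz => by
    rw [← sgsq_eq, h.eik z hz]; norm_num
  have B1 := h.moment hn ρc hρr2 hε hε1 hd3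
  have B2 := h.moment hn rc hrr2 hε hε1 (le_refl (0 : ℝ))
  have B3 := h.window hn hε hε1 hδ hδ1
  -- the pointwise bound
  have htail : 0 ≤ 12 * Kq ^ 4 / t1 * ε := by positivity
  have hpt : ∀ z : Sph n, |η z * eden ε (rhoF r f hh) z - η z * eden ε r z
        + 1 / 2 * J3 ε η q r f z - I1 ε η q r f hh z + 1 / 2 * I2 ε η r f hh z|
      ≤ (4 * Kq + 2) * (η z * GG ε (rhoF r f hh z)
          * (rhoF r f hh z ^ 2 + |rhoF r f hh z| + δ ^ 3))
        + Kq * (η z * GG ε (r z) * (r z ^ 2 + |r z| + 0))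
        + (K + 5 * Kq ^ 2 + 2) * (η z * (WW ε (2 * δ) (r z) * (r z ^ 2 + δ ^ 2)))
        + 12 * Kq ^ 4 / t1 * ε := by
    intro z
    by_cases hz : (z : EE) ∈ T
    · exact h.err_in hK1 hε hδ hδ1 hδt hS hz ((hk1 z).trans g1) ((hk2 z).trans g2)
        ((hk3 z).trans g3) ((hk4 z).trans g4) ((hk5 z).trans g5)
        (((le_abs_self _).trans (hk6 z)).trans g6)
    · rw [h.err_out fc Lc hc hz, abs_zero]
      have hG1 := GG_nonneg hε (rhoF r f hh z)
      have hG0 := GG_nonneg hε (r z)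
      have hη := h.η_nonneg z
      have hWW := WW_nonneg hε (by linarith : (0 : ℝ) ≤ 2 * δ) (r z)
      positivity
  -- integrate
  have iL1 := (iJ1.sub iJ2).add (iJ3.const_mul (1 / 2))
  have iL2 := (iL1.sub iI1).add (iI2.const_mul (1 / 2))
  have iR1 := ((iM1.const_mul (4 * Kq + 2)).add (iM2.const_mul Kq)).add
    (iM3.const_mul (K + 5 * Kq ^ 2 + 2))
  have iR2 := iR1.add (integrable_const (μ := sig n) (12 * Kq ^ 4 / t1 * ε))
  have e1 : |∫ z : Sph n, (η z * eden ε (rhoF r f hh) z - η z * eden ε r z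
        + 1 / 2 * J3 ε η q r f z - I1 ε η q r f hh z + 1 / 2 * I2 ε η r f hh z) ∂(sig n)|
      ≤ ∫ z : Sph n, ((4 * Kq + 2) * (η z * GG ε (rhoF r f hh z)
          * (rhoF r f hh z ^ 2 + |rhoF r f hh z| + δ ^ 3))
        + Kq * (η z * GG ε (r z) * (r z ^ 2 + |r z| + 0))
        + (K + 5 * Kq ^ 2 + 2) * (η z * (WW ε (2 * δ) (r z) * (r z ^ 2 + δ ^ 2)))
        + 12 * Kq ^ 4 / t1 * ε) ∂(sig n) :=
    abs_integral_le_integral_abs.trans (integral_mono iL2.abs iR2 hpt)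
  have e2 : ∫ z : Sph n, (η z * eden ε (rhoF r f hh) z - η z * eden ε r z
        + 1 / 2 * J3 ε η q r f z - I1 ε η q r f hh z + 1 / 2 * I2 ε η r f hh z) ∂(sig n)
      = (∫ z : Sph n, η z * eden ε (rhoF r f hh) z ∂(sig n))
        - (∫ z : Sph n, η z * eden ε r z ∂(sig n))
        + 1 / 2 * ∫ z : Sph n, J3 ε η q r f z ∂(sig n) := by
    have f1 := integral_add' (iL1.sub iI1) (iI2.const_mul (1 / 2))
    have f2 := integral_sub' iL1 iI1
    have f3 := integral_add' (iJ1.sub iJ2) (iJ3.const_mul (1 / 2))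
    have f4 := integral_sub' iJ1 iJ2
    rw [integral_const_mul, ibp2] at f1
    rw [ibp1] at f2
    rw [integral_const_mul] at f3
    have f5 : ∫ z : Sph n, (η z * eden ε (rhoF r f hh) z - η z * eden ε r z
        + 1 / 2 * J3 ε η q r f z - I1 ε η q r f hh z + 1 / 2 * I2 ε η r f hh z) ∂(sig n)
        = ∫ a : Sph n, ((((fun z : Sph n => η z * eden ε (rhoF r f hh) z)
          - fun z : Sph n => η z * eden ε r z)
          + fun z : Sph n => 1 / 2 * J3 ε η q r f z) - (fun z : Sph n => I1 ε η q r f hh z)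
          + fun z : Sph n => 1 / 2 * I2 ε η r f hh z) a ∂(sig n) := rfl
    rw [f5, f1, f2, f3, f4]
    ring
  have e3 : ∫ z : Sph n, ((4 * Kq + 2) * (η z * GG ε (rhoF r f hh z)
          * (rhoF r f hh z ^ 2 + |rhoF r f hh z| + δ ^ 3))
        + Kq * (η z * GG ε (r z) * (r z ^ 2 + |r z| + 0))
        + (K + 5 * Kq ^ 2 + 2) * (η z * (WW ε (2 * δ) (r z) * (r z ^ 2 + δ ^ 2)))
        + 12 * Kq ^ 4 / t1 * ε) ∂(sig n)
      = (4 * Kq + 2) * (∫ z : Sph n, η z * GG ε (rhoF r f hh z)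
          * (rhoF r f hh z ^ 2 + |rhoF r f hh z| + δ ^ 3) ∂(sig n))
        + Kq * (∫ z : Sph n, η z * GG ε (r z) * (r z ^ 2 + |r z| + 0) ∂(sig n))
        + (K + 5 * Kq ^ 2 + 2) * (∫ z : Sph n, η z * (WW ε (2 * δ) (r z)
            * (r z ^ 2 + δ ^ 2)) ∂(sig n))
        + 12 * Kq ^ 4 / t1 * ε * MS := by
    have f1 := integral_add' iR1 (integrable_const (μ := sig n) (12 * Kq ^ 4 / t1 * ε))
    have f2 := integral_add' ((iM1.const_mul (4 * Kq + 2)).add (iM2.const_mul Kq))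
      (iM3.const_mul (K + 5 * Kq ^ 2 + 2))
    have f3 := integral_add' (iM1.const_mul (4 * Kq + 2)) (iM2.const_mul Kq)
    rw [integral_const_mul, integral_const_mul] at f3
    rw [integral_const_mul] at f2
    rw [integral_const] at f1
    refine Eq.trans ?_ (f1.trans ?_)
    · rfl
    · rw [f2, f3, smul_eq_mul]
      ring
  rw [e2] at e1
  rw [e3] at e1
  have e4 : (∫ z : Sph n, J3 ε η q r f z ∂(sig n))
      = ∫ z : Sph n, η z * GG ε (r z) * (q z * f z ^ 2 + f z * slap f z) ∂(sig n) := rfl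
  rw [e4] at e1
  refine e1.trans ?_
  have g1' : (4 * Kq + 2) * (∫ z : Sph n, η z * GG ε (rhoF r f hh z)
          * (rhoF r f hh z ^ 2 + |rhoF r f hh z| + δ ^ 3) ∂(sig n))
      ≤ (4 * Kq + 2) * (4 * TBc r η * (ε + δ ^ 3)) := by gcongr
  have g2' : Kq * (∫ z : Sph n, η z * GG ε (r z) * (r z ^ 2 + |r z| + 0) ∂(sig n))
      ≤ Kq * (4 * TBc r η * (ε + 0)) := by gcongr
  have g3' : (K + 5 * Kq ^ 2 + 2) * (∫ z : Sph n, η z * (WW ε (2 * δ) (r z)
            * (r z ^ 2 + δ ^ 2)) ∂(sig n))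
      ≤ (K + 5 * Kq ^ 2 + 2) * (160 * TBc r η * (δ ^ 3 + ε)) := by gcongr
  have g4' : Kq * (4 * TBc r η * (ε + 0)) ≤ Kq * (4 * TBc r η * (δ ^ 3 + ε)) := by
    have : ε + 0 ≤ δ ^ 3 + ε := by linarith
    gcongr
  have g5' : 12 * Kq ^ 4 / t1 * ε * MS ≤ 12 * Kq ^ 4 / t1 * MS * (δ ^ 3 + ε) := by
    have : 0 ≤ 12 * Kq ^ 4 / t1 * MS * δ ^ 3 := by positivity
    nlinarith
  have g6' := add_le_add (add_le_add (add_le_add g1' (g2'.trans g4')) g3') g5'
  refine g6'.trans (le_of_eq ?_)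
  ring

end Crest.Agent.R246.IN200
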