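import Crest.Agent.R246.SM4_436
import Crest.Agent.R246.HerschSM_900

/-!
# Smooth minimal hypercones: the area measure, Green's identities (helper436)
-/

set_option autoImplicit false
set_option linter.unusedSectionVars false
set_option linter.unusedSimpArgs false
noncomputable section
open MeasureTheory Set Filter Topology Module
open scoped RealInnerProductSpace ContDiff

namespace Crest.Agent.R246.SM436

open Crest.Agent.R246.H990

variable {E : Type*} [NormedAddCommGroup E] [InnerProductSpace ℝ E] [FiniteDimensional ℝ E]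
  [MeasurableSpace E] [BorelSpace E]

/-! ### the tangential projection -/

lemma PT_symm (φ : E → ℝ) (p v w : E) : ⟪PT φ p v, w⟫ = ⟪v, PT φ p w⟫ := by
  simp only [PT_apply, inner_sub_left, inner_sub_right, real_inner_smul_left,
    real_inner_smul_right]
  rw [real_inner_comm v (gradient φ p), real_inner_comm v p]
  ring

lemma tr_comp_comm (L M : E →L[ℝ] E) : tr (L.comp M) = tr (M.comp L) := by
  rw [tr, tr]
  exact LinearMap.trace_mul_comm ℝ (L : E →ₗ[ℝ] E) (M : E →ₗ[ℝ] E)

namespace Tube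

variable {φ : E → ℝ} {b : ℝ} (hT : Tube φ b)
include hT

lemma PT_PT {p : E} (hp : p ∈ Lk φ) (v : E) : PT φ p (PT φ p v) = PT φ p v := by
  conv_lhs => rw [PT_apply φ p v]
  rw [map_sub, map_sub, map_smul, map_smul, hT.PT_self hp, hT.PT_gradient hp]
  simp

lemma PT_comp_PT {p : E} (hp : p ∈ Lk φ) : (PT φ p).comp (PT φ p) = PT φ p := by
  ext v; exact hT.PT_PT hp v

lemma trace_comp_PT {ι : Type*} [Fintype ι] {p : E} (hp : p ∈ Lk φ) (L : E →L[ℝ] E)
    (e : OrthonormalBasis ι ℝ E) :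
    tr (L.comp (PT φ p)) = ∑ i, ⟪PT φ p (e i), L (PT φ p (e i))⟫ := by
  have h1 : L.comp (PT φ p) = (L.comp (PT φ p)).comp (PT φ p) := by
    rw [ContinuousLinearMap.comp_assoc, hT.PT_comp_PT hp]
  rw [h1, tr_comp_comm, tr_eq_sum _ e]
  refine Finset.sum_congr rfl fun i _ => ?_
  rw [ContinuousLinearMap.comp_apply, ContinuousLinearMap.comp_apply, PT_symm]

/-! ### integrability -/

lemma restrict_Lk : (mu φ b).restrict (Lk φ) = mu φ b :=
  Measure.restrict_eq_self_of_ae_mem hT.ae_mem_Lk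

lemma aesm_mu {F : Type*} [TopologicalSpace F]
    [TopologicalSpace.PseudoMetrizableSpace F] [SecondCountableTopology F] {f : E → F}
    (hf : ContinuousOn f (Lk φ)) : AEStronglyMeasurable f (mu φ b) := by
  have h := hf.aestronglyMeasurable (μ := mu φ b) hT.isCompact_Lk.isClosed.measurableSet
  rwa [hT.restrict_Lk] at h

lemma integrable_mu {f : E → ℝ} (hf : ContinuousOn f (Lk φ)) : Integrable f (mu φ b) := by
  have := hT.isFiniteMeasure_mu
  obtain ⟨K, hK⟩ := hT.isCompact_Lk.bddAbove_image hf.abs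
  refine Integrable.of_bound (hT.aesm_mu hf) K ?_
  filter_upwards [hT.ae_mem_Lk] with x hx
  exact hK ⟨x, hx, rfl⟩

lemma continuousOn_gradient_Lk : ContinuousOn (gradient φ) (Lk φ) := fun _ hp =>
  (hT.continuousAt_gradient (hT.TT_of_Lk hp)).continuousWithinAt

lemma continuousOn_hs_Lk : ContinuousOn (hs φ) (Lk φ) := fun _ hp =>
  (hT.continuousAt_hs (hT.TT_of_Lk hp)).continuousWithinAt

lemma continuousOn_PT_apply {v : E → E} (hv : ContinuousOn v (Lk φ)) :
    ContinuousOn (fun p => PT φ p (v p)) (Lk φ) := by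
  have h := hT.continuousOn_gradient_Lk
  simp only [PT_apply]
  exact (hv.sub ((h.inner hv).smul h)).sub ((continuousOn_id.inner hv).smul continuousOn_id)

/-! ### atoms and positivity -/

lemma lam_pos_of_mem {s : Set E} (hs : MeasurableSet s) (hsT : s ⊆ TT φ b) {y : E}
    (hy : s ∈ 𝓝 y) : 0 < lam φ b s := by
  have hjm := hT.measurable_jj
  have hv : 0 < volume s := by
    obtain ⟨t, ht, hto, hyt⟩ := mem_nhds_iff.1 hy
    exact (hto.measure_pos volume ⟨y, hyt⟩).trans_le (measure_mono ht)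
  rw [lam, withDensity_apply _ hs, Measure.restrict_restrict hs, inter_eq_self_of_subset_left hsT,
    setLIntegral_pos_iff (by fun_prop)]
  refine hv.trans_le (measure_mono fun z hz => ⟨?_, hz⟩)
  simp only [Function.mem_support, ne_eq, ENNReal.ofReal_eq_zero, not_le, inv_pos]
  exact abs_pos.2 (hT.jj_ne_zero (hsT hz))

lemma mu_pos {p : E} (hp : p ∈ Lk φ) {U : Set E} (hU : IsOpen U) (hpU : p ∈ U) :
    0 < mu φ b U := by
  have hb := hT.hb
  have hpT := hT.TT_of_Lk hp
  rw [hT.mu_apply hU.measurableSet]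
  have hn : 0 < (finrank ℝ E : ℝ) := by
    have : Nontrivial E := ⟨p, 0, hT.ne_zero_of_Lk hp⟩
    exact_mod_cast finrank_pos (R := ℝ) (M := E)
  have hyT : (2⁻¹ : ℝ) • p ∈ TT φ b := (hT.mem_TT_smul (by norm_num)).2 hpT
  have hnb : SS φ b U 1 b ∈ 𝓝 ((2⁻¹ : ℝ) • p) := by
    have h1 : ∀ᶠ y in 𝓝 ((2⁻¹ : ℝ) • p), y ∈ TT φ b := hT.isOpen_TT.mem_nhds hyT
    have h2 : ∀ᶠ y in 𝓝 ((2⁻¹ : ℝ) • p), pp φ y ∈ U := by
      have hc : ContinuousAt (pp φ) ((2⁻¹ : ℝ) • p) := (hT.contDiffAt_pp hyT).continuousAt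
      apply hc.eventually
      rw [hT.pp_smul p (by norm_num : (0 : ℝ) < 2⁻¹), hT.pp_Lk hp]
      exact hU.mem_nhds hpU
    have h3 : ∀ᶠ y in 𝓝 ((2⁻¹ : ℝ) • p), rr φ y < 1 := by
      have hc : ContinuousAt (rr φ) ((2⁻¹ : ℝ) • p) := hT.continuous_rr.continuousAt
      have h4 : rr φ ((2⁻¹ : ℝ) • p) < 1 := by
        rw [hT.rr_smul p (by norm_num : (0 : ℝ) ≤ 2⁻¹), hT.rr_Lk hp]; norm_num
      exact hc.eventually (gt_mem_nhds h4)
    filter_upwards [h1, h2, h3] with y h1 h2 h3
    exact ⟨h1, h2, h3, (_root_.abs_lt.1 (hT.abs_ta_lt h1)).2⟩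
  have h1 : 0 < lam φ b (SS φ b U 1 b) :=
    hT.lam_pos_of_mem (hT.measurableSet_SS hU.measurableSet 1 b) (fun y hy => hy.1) hnb
  exact ENNReal.mul_pos (by simpa using by positivity) h1.ne'

lemma mu_singleton (hn : 3 ≤ finrank ℝ E) (p : E) : mu φ b {p} = 0 := by
  rw [hT.mu_apply (measurableSet_singleton p)]
  set W : Submodule ℝ E := Submodule.span ℝ {p, gradient φ p} with hW
  have hWt : W ≠ ⊤ := by
    intro h
    have h1 : finrank ℝ W ≤ 2 := by
      have h2 := finrank_range_le_card (R := ℝ) ![p, gradient φ p]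
      rw [Matrix.range_cons_cons_empty] at h2
      simpa [Set.finrank, hW] using h2
    rw [h, finrank_top] at h1
    omega
  have h0 : volume (W : Set E) = 0 := Measure.addHaar_submodule _ W hWt
  have hsub : SS φ b {p} 1 b ⊆ (W : Set E) := by
    rintro y ⟨h1, h2, -, -⟩
    have h2' : pp φ y = p := h2
    have h3 := hT.recon_pp h1
    rw [h2'] at h3
    rw [← h3]
    refine W.smul_mem _ (W.add_mem (Submodule.subset_span (by simp)) (W.smul_mem _
      (Submodule.subset_span (by simp))))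
  have h4 : lam φ b (SS φ b {p} 1 b) = 0 := by
    have hac : lam φ b ≪ volume := by
      rw [lam]
      exact (withDensity_absolutelyContinuous _ _).trans Measure.absolutelyContinuous_restrict
    exact hac (measure_mono_null hsub h0)
  rw [h4, mul_zero]

/-! ### first variation, various forms -/

/-- first variation for `X = h e`. -/
theorem fv_scalar {h : E → ℝ} (hh : ∀ p ∈ Lk φ, ContDiffAt ℝ 1 h p)
    (hmin : ∀ p ∈ Lk φ, LinearMap.trace ℝ E (hs φ p : E →ₗ[ℝ] E) = 0) (e : E) :
    ∫ x, (fderiv ℝ h x e - ⟪x, e⟫ * fderiv ℝ h x x -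
      ⟪gradient φ x, e⟫ * fderiv ℝ h x (gradient φ x)) ∂(mu φ b)
      = (finrank ℝ E - 2) * ∫ x, ⟪x, e⟫ * h x ∂(mu φ b) := by
  rcases subsingleton_or_nontrivial E with hE | hE
  · have h0 : ∀ x : E, x = 0 := fun x => Subsingleton.elim _ _
    have h1 : mu φ b = 0 := by
      have h2 := hT.mu_compl_Lk
      have h3 : (Lk φ)ᶜ = univ := by
        ext x
        simp only [mem_compl_iff, mem_univ, iff_true]
        rintro ⟨hx, -⟩
        rw [h0 x, norm_zero] at hx
        exact zero_ne_one hx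
      rw [h3] at h2
      exact Measure.measure_univ_eq_zero.1 h2
    rw [h1]; simp
  · have hfd : ContinuousOn (fderiv ℝ h) (Lk φ) := fun p hp =>
      ((hh p hp).fderiv_right (m := 0) (by simp)).continuousAt.continuousWithinAt
    have hhc : ContinuousOn h (Lk φ) := fun p hp => (hh p hp).continuousAt.continuousWithinAt
    have hg := hT.continuousOn_gradient_Lk
    have key := hT.first_variation (X := fun y => h y • e)
      (fun p hp => (hh p hp).smul contDiffAt_const) hmin
    have e1 : ∀ p ∈ Lk φ, tr ((fderiv ℝ (fun y => h y • e) p).comp (PT φ p))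
        - (finrank ℝ E - 2) * ⟪p, h p • e⟫
        = (fderiv ℝ h p e - ⟪p, e⟫ * fderiv ℝ h p p -
      ⟪gradient φ p, e⟫ * fderiv ℝ h p (gradient φ p)) - (finrank ℝ E - 2) * (⟪p, e⟫ * h p) := by
      intro p hp
      have h1 : HasFDerivAt (fun y => h y • e) ((fderiv ℝ h p).smulRight e) p :=
        ((hh p hp).differentiableAt (by simp)).hasFDerivAt.smul_const e
      have h2 : ((fderiv ℝ h p).smulRight e).comp (PT φ p)
          = ((fderiv ℝ h p).comp (PT φ p)).smulRight e := by
        ext v; simp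
      rw [h1.fderiv, h2, tr_smulRight, ContinuousLinearMap.comp_apply, PT_apply, map_sub, map_sub,
        map_smul, map_smul, real_inner_smul_right]
      simp only [smul_eq_mul]
      ring
    have i1 : Integrable (fun x => fderiv ℝ h x e - ⟪x, e⟫ * fderiv ℝ h x x -
      ⟪gradient φ x, e⟫ * fderiv ℝ h x (gradient φ x)) (mu φ b) := by
      apply hT.integrable_mu
      refine ((hfd.clm_apply continuousOn_const).sub
        ((continuousOn_id.inner continuousOn_const).mul (hfd.clm_apply continuousOn_id))).sub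
        ((hg.inner continuousOn_const).mul (hfd.clm_apply hg))
    have i2 : Integrable (fun x => (finrank ℝ E - 2 : ℝ) * (⟪x, e⟫ * h x)) (mu φ b) := by
      apply hT.integrable_mu
      exact continuousOn_const.mul ((continuousOn_id.inner continuousOn_const).mul hhc)
    have h3 : ∫ p, (tr ((fderiv ℝ (fun y => h y • e) p).comp (PT φ p))
        - (finrank ℝ E - 2) * ⟪p, h p • e⟫) ∂(mu φ b)
        = ∫ p, ((fderiv ℝ h p e - ⟪p, e⟫ * fderiv ℝ h p p -
      ⟪gradient φ p, e⟫ * fderiv ℝ h p (gradient φ p)) - (finrank ℝ E - 2) * (⟪p, e⟫ * h p))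
        ∂(mu φ b) := by
      refine integral_congr_ae ?_
      filter_upwards [hT.ae_mem_Lk] with p hp
      exact e1 p hp
    rw [h3, integral_sub i1 i2, integral_const_mul] at key
    linarith

end Tube

/-! ### the measure of a `SmoothMin` -/

lemma SmoothMin.exists_Tube {φ : E → ℝ} (S : SmoothMin φ) : ∃ b, Tube φ b := by
  refine SM436.exists_Tube S.nc.hom S.nc.lip ?_ S.good
  intro x hx
  obtain ⟨c, hc0, hc1, hc⟩ := S.nc.bd
  have := norm_pos_iff.2 hx
  exact (hc x).trans_lt (by nlinarith)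

lemma SmoothMin.trace_Lk {φ : E → ℝ} (S : SmoothMin φ) : ∀ p ∈ Lk φ,
    LinearMap.trace ℝ E (hs φ p : E →ₗ[ℝ] E) = 0 := by
  rintro p ⟨hp1, hp2⟩
  exact S.min p (by rintro rfl; simp at hp1) hp2

/-- **The area measure of `M'` exists.** -/
theorem areaMeas {φ : E → ℝ} (S : SmoothMin φ) {b : ℝ} (hT : Tube φ b) {m : ℕ} (hm : 1 ≤ m)
    (hE : finrank ℝ E = m + 2) : HerschSM900.AreaMeas m φ (mu φ b) where
  fin := hT.isFiniteMeasure_mu
  supp := hT.ae_mem_Lk
  atom := fun x => hT.mu_singleton (by omega) x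
  pos := fun x hx hx0 r hr => hT.mu_pos ⟨hx, hx0⟩ Metric.isOpen_ball (Metric.mem_ball_self hr)
  fv := by
    intro h hh e
    have h1 := hT.fv_scalar (h := h) (fun p hp => (hh p hp.1).of_le (by simp)) S.trace_Lk e
    rw [h1, hE]
    push_cast
    ring_nf

end Crest.Agent.R246.SM436
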