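import Crest.Agent.R246.IN5_200
import Crest.Agent.R246.SM5_436
import Mathlib.Analysis.SpecialFunctions.Trigonometric.ArctanDeriv
import Mathlib.Analysis.Calculus.BumpFunction.Basic

/-!
Row 246, block I(I) (helper200), part 6: the angular distance function of a smooth hypercone.
-/

set_option autoImplicit false

open MeasureTheory Filter Topology Metric Set
open scoped ContDiff RealInnerProductSpace
open Crest.GeometryTopology.CoordMetric Crest.GeometryTopology.AffineMaximal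
open Crest.Agent.R236.Jet Crest.Agent.R202.SphDiv Crest.Agent.R246.D2x782

noncomputable section

namespace Crest.Agent.R246.IN200

variable {n : ℕ}

local notation "EE" => EuclideanSpace ℝ (Fin n)

/-! ### coordinates and gradients -/

theorem pderiv_eq_gradient (a : EE → ℝ) (x : EE) (j : Fin n) : pderiv j a x = gradient a x j := by
  have h : ⟪gradient a x, EuclideanSpace.single j (1 : ℝ)⟫
      = fderiv ℝ a x (EuclideanSpace.single j 1) := SM436.inner_gradient a x _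
  rw [EuclideanSpace.inner_single_right] at h
  unfold pderiv
  rw [← h]
  simp

theorem sdot_eq_inner (a b : EE → ℝ) (x : EE) :
    sdot a b x = ‖x‖ ^ 2 * ⟪gradient a x, gradient b x⟫ := by
  unfold sdot
  rw [nsq_eq]
  congr 1
  simp only [PiLp.inner_apply, pderiv_eq_gradient]
  exact Finset.sum_congr rfl fun j _ => by simp [mul_comm]

theorem sdot_sph (a b : EE → ℝ) (z : Sph n) :
    sdot a b z = ⟪gradient a z, gradient b z⟫ := by
  rw [sdot_eq_inner, ← nsq_eq, nsq_sph, one_mul]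

theorem hess_eq_inner {R : EE → ℝ} {x : EE} {L : EE →L[ℝ] EE} (h : HasFDerivAt (gradient R) L x)
    (i j : Fin n) :
    hessianMat R x i j = ⟪L (EuclideanSpace.single i 1), EuclideanSpace.single j (1 : ℝ)⟫ := by
  unfold hessianMat
  have h1 : (fun y => pderiv j R y)
      = fun y => ⟪gradient R y, EuclideanSpace.single j (1 : ℝ)⟫ := by
    funext y
    rw [SM436.inner_gradient]; rfl
  rw [h1]
  unfold pderiv
  have h2 := h.inner ℝ (hasFDerivAt_const (EuclideanSpace.single j (1 : ℝ)) x)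
  rw [h2.fderiv]
  simp

theorem lapl_eq_tr {R : EE → ℝ} {x : EE} {L : EE →L[ℝ] EE} (h : HasFDerivAt (gradient R) L x) :
    lapl R x = SM436.tr L := by
  unfold lapl
  rw [SM436.tr_eq_sum L (EuclideanSpace.basisFun (Fin n) ℝ)]
  refine Finset.sum_congr rfl fun i _ => ?_
  rw [hess_eq_inner h, real_inner_comm]
  simp

theorem hess_sq_eq {R : EE → ℝ} {x : EE} {L : EE →L[ℝ] EE} (h : HasFDerivAt (gradient R) L x) :
    ∑ i, ∑ j, hessianMat R x i j ^ 2 = ∑ i, ‖L (EuclideanSpace.basisFun (Fin n) ℝ i)‖ ^ 2 := by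
  refine Finset.sum_congr rfl fun i _ => ?_
  rw [EuclideanSpace.real_norm_sq_eq]
  refine Finset.sum_congr rfl fun j _ => ?_
  rw [hess_eq_inner h, EuclideanSpace.inner_single_right]
  simp

theorem gradient_congr {a b : EE → ℝ} {x : EE} (h : a =ᶠ[𝓝 x] b) : gradient a x = gradient b x := by
  simp only [SM436.gradient_eq_comp, h.fderiv_eq]

theorem sdot_congr_left {a b c : EE → ℝ} {x : EE} (h : a =ᶠ[𝓝 x] b) : sdot a c x = sdot b c x := by
  rw [sdot_eq_inner, sdot_eq_inner, gradient_congr h]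

theorem sdot_congr_right {a b c : EE → ℝ} {x : EE} (h : a =ᶠ[𝓝 x] b) : sdot c a x = sdot c b x := by
  rw [sdot_eq_inner, sdot_eq_inner, gradient_congr h]

theorem hasFDerivAt_gradient_eq {a : EE → ℝ} {x g : EE} (h : HasFDerivAt a (innerSL ℝ g) x) :
    gradient a x = g := by
  rw [SM436.gradient_eq_comp]
  apply (InnerProductSpace.toDual ℝ EE).injective
  show (InnerProductSpace.toDual ℝ EE) ((InnerProductSpace.toDual ℝ EE).symm (fderiv ℝ a x)) = _
  rw [LinearIsometryEquiv.apply_symm_apply, h.fderiv]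
  ext v
  simp

/-! ### cut-offs in the tube -/

/-- cut-off function on the line -/
def bmp (c1 c2 : ℝ) (h1 : 0 < c1) (h2 : c1 < c2) : ContDiffBump (0 : ℝ) := ⟨c1, c2, h1, h2⟩

section tube

variable {φ : EuclideanSpace ℝ (Fin n) → ℝ} {b : ℝ}

theorem continuousAt_ta (hT : SM436.Tube φ b) {x : EE} (hx : x ≠ 0) :
    ContinuousAt (SM436.ta φ) x :=
  (hT.lip.continuous.continuousAt).div (hT.continuous_rr.continuousAt) (hT.rr_pos hx).ne'

theorem mem_TT_iff (hT : SM436.Tube φ b) {x : EE} (hx : x ≠ 0) :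
    x ∈ SM436.TT φ b ↔ |SM436.ta φ x| < b := by
  have h := hT.rr_pos hx
  constructor
  · exact fun h => hT.abs_ta_lt h
  · intro h1
    refine ⟨h, ?_⟩
    rwa [SM436.ta, abs_div, abs_of_pos h, div_lt_iff₀ h] at h1

/-- smoothness of cut-off functions -/
theorem contDiffAt_cut (hT : SM436.Tube φ b) {χ : ℝ → ℝ} (hχ : ContDiff ℝ ∞ χ) {c : ℝ} (hc : c < b)
    (hχ0 : ∀ t, c ≤ |t| → χ t = 0) {k : WithTop ℕ∞} (hk : k ≤ ∞) {F : EE → ℝ} {x : EE} (hx : x ≠ 0)
    (hF : |SM436.ta φ x| ≤ c → ContDiffAt ℝ k F x) :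
    ContDiffAt ℝ k (fun x => χ (SM436.ta φ x) * F x) x := by
  by_cases h : |SM436.ta φ x| ≤ c
  · have hxT := (mem_TT_iff hT hx).2 (h.trans_lt hc)
    exact ((hχ.contDiffAt.comp x (hT.contDiffAt_ta hxT)).of_le hk).mul (hF h)
  · have h1 : c < |SM436.ta φ x| := not_le.1 h
    have h2 : ∀ᶠ y in 𝓝 x, c < |SM436.ta φ y| :=
      (continuousAt_ta hT hx).abs.eventually (lt_mem_nhds h1)
    have h3 : (fun x => χ (SM436.ta φ x) * F x) =ᶠ[𝓝 x] fun _ => 0 := by
      filter_upwards [h2] with y hy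
      rw [hχ0 _ hy.le, zero_mul]
    exact contDiffAt_const.congr_of_eventuallyEq h3

theorem smHom0_cut (hT : SM436.Tube φ b) {χ : ℝ → ℝ} (hχ : ContDiff ℝ ∞ χ) {c : ℝ} (hc : c < b)
    (hχ0 : ∀ t, c ≤ |t| → χ t = 0) {F : EE → ℝ}
    (hF : ∀ x ∈ SM436.TT φ b, ContDiffAt ℝ ∞ F x)
    (hh : ∀ x ∈ SM436.TT φ b, ∀ t : ℝ, 0 < t → F (t • x) = F x) :
    SmHom0 (fun x => χ (SM436.ta φ x) * F x) where
  smooth := fun x hx => contDiffAt_cut hT hχ hc hχ0 le_rfl hx fun h =>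
    hF x ((mem_TT_iff hT hx).2 (h.trans_lt hc))
  hom := by
    intro t x ht
    show χ (SM436.ta φ (t • x)) * F (t • x) = χ (SM436.ta φ x) * F x
    rw [hT.ta_smul x ht]
    rcases eq_or_ne x 0 with rfl | hx
    · rw [smul_zero]
    · by_cases h : |SM436.ta φ x| < b
      · rw [hh x ((mem_TT_iff hT hx).2 h) t ht]
      · rw [hχ0 _ (hc.le.trans (not_lt.1 h)), zero_mul, zero_mul]

/-! ### the angular distance -/

/-- angular distance (in the tube) -/
def r0 (φ : EuclideanSpace ℝ (Fin n) → ℝ) (x : EuclideanSpace ℝ (Fin n)) : ℝ :=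
  Real.arctan (SM436.ta φ x)

/-- its gradient -/
def gr (φ : EuclideanSpace ℝ (Fin n) → ℝ) (y : EuclideanSpace ℝ (Fin n)) :
    EuclideanSpace ℝ (Fin n) :=
  (‖y‖ ^ 2)⁻¹ • (SM436.rr φ y • gradient φ y - SM436.ta φ y • SM436.ft φ y)

theorem hasFDerivAt_r0 (hT : SM436.Tube φ b) {y : EE} (hy : y ∈ SM436.TT φ b) :
    HasFDerivAt (r0 φ) (innerSL ℝ (gr φ y)) y := by
  have h1 := (hT.good hy).hasFDerivAt
  have h2 := hT.hasFDerivAt_rr hy
  have hr := hy.1
  have hr0 := hy.1.ne'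
  have h3 : HasFDerivAt (fun y => (SM436.rr φ y)⁻¹)
      ((-(SM436.rr φ y ^ 2)⁻¹) • ((SM436.rr φ y)⁻¹ • innerSL ℝ (SM436.ft φ y))) y :=
    (hasDerivAt_inv hr0).comp_hasFDerivAt y h2
  have h4 := h1.mul h3
  have h5 : HasFDerivAt (SM436.ta φ) (φ y • ((-(SM436.rr φ y ^ 2)⁻¹) •
      ((SM436.rr φ y)⁻¹ • innerSL ℝ (SM436.ft φ y)))
      + (SM436.rr φ y)⁻¹ • innerSL ℝ (gradient φ y)) y := by
    refine h4.congr_of_eventuallyEq (Eventually.of_forall fun x => ?_)
    show φ x / SM436.rr φ x = φ x * (SM436.rr φ x)⁻¹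
    rw [div_eq_mul_inv]
  have h6 : HasFDerivAt (r0 φ) _ y := h5.arctan
  refine h6.congr_fderiv ?_
  have hy2 : ‖y‖ ^ 2 = SM436.rr φ y ^ 2 + φ y ^ 2 := by rw [hT.rr_sq]; ring
  have hpos : 0 < ‖y‖ ^ 2 := by rw [hy2]; positivity
  have ht : 1 + SM436.ta φ y ^ 2 = ‖y‖ ^ 2 / SM436.rr φ y ^ 2 := by
    rw [hy2, SM436.ta]; field_simp
  ext v
  simp only [smul_apply, add_apply, innerSL_apply_apply,
    smul_eq_mul, gr, inner_sub_left, real_inner_smul_left, ht]
  rw [SM436.ta]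
  field_simp
  ring

theorem gradient_r0 (hT : SM436.Tube φ b) {y : EE} (hy : y ∈ SM436.TT φ b) :
    gradient (r0 φ) y = gr φ y := hasFDerivAt_gradient_eq (hasFDerivAt_r0 hT hy)

theorem norm_gr_sq (hT : SM436.Tube φ b) {y : EE} (hy : y ∈ SM436.TT φ b) :
    ‖gr φ y‖ ^ 2 = (‖y‖ ^ 2)⁻¹ := by
  have hr := hy.1
  have hy2 : ‖y‖ ^ 2 = SM436.rr φ y ^ 2 + φ y ^ 2 := by rw [hT.rr_sq]; ring
  have hpos : 0 < ‖y‖ ^ 2 := by rw [hy2]; positivity
  have h1 : ‖SM436.rr φ y • gradient φ y - SM436.ta φ y • SM436.ft φ y‖ ^ 2 = ‖y‖ ^ 2 := by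
    rw [norm_sub_sq_real, norm_smul, norm_smul, (hT.good hy).norm_gradient, hT.norm_ft hy,
      inner_smul_left, inner_smul_right, hT.inner_gradient_ft hy, Real.norm_eq_abs,
      Real.norm_eq_abs, mul_one, mul_pow, sq_abs, sq_abs, hy2, SM436.ta]
    field_simp
    simp
    ring
  unfold gr
  rw [norm_smul, mul_pow, h1, Real.norm_eq_abs, abs_inv, abs_of_pos hpos]
  field_simp

/-- derivative of the gradient at the link -/
theorem hasFDerivAt_gr_Lk (hT : SM436.Tube φ b) {p : EE} (hp : p ∈ SM436.Lk φ) :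
    HasFDerivAt (gr φ) (SM436.hs φ p - (innerSL ℝ p).smulRight (gradient φ p)
      - (innerSL ℝ (gradient φ p)).smulRight p) p := by
  have hpT := hT.TT_of_Lk hp
  have h1 := (hT.good hpT).hasFDerivAt_gradient
  have h2 := hT.hasFDerivAt_rr_Lk hp
  have hr := hT.rr_Lk hp
  have hf := hT.ft_Lk hp
  have hta : SM436.ta φ p = 0 := by rw [SM436.ta, hp.2, zero_div]
  have h3 : HasFDerivAt (SM436.ta φ) (innerSL ℝ (gradient φ p)) p := by
    have h4 : HasFDerivAt (fun y => (SM436.rr φ y)⁻¹)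
        ((-(SM436.rr φ p ^ 2)⁻¹) • innerSL ℝ p) p :=
      (hasDerivAt_inv (x := SM436.rr φ p) (by rw [hr]; norm_num)).comp_hasFDerivAt p h2
    have h5 := ((hT.good hpT).hasFDerivAt).mul h4
    have h6 : φ p • ((-(SM436.rr φ p ^ 2)⁻¹) • innerSL ℝ p)
        + (SM436.rr φ p)⁻¹ • innerSL ℝ (gradient φ p) = innerSL ℝ (gradient φ p) := by
      rw [hp.2, hr]; simp
    rw [h6] at h5
    refine h5.congr_of_eventuallyEq (Eventually.of_forall fun x => ?_)
    show φ x / SM436.rr φ x = φ x * (SM436.rr φ x)⁻¹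
    rw [div_eq_mul_inv]
  have h7 := hT.hasFDerivAt_ft hpT
  have h8 : HasFDerivAt (fun y : EE => (‖y‖ ^ 2)⁻¹) ((-2 : ℝ) • innerSL ℝ p) p := by
    have h9 : HasFDerivAt (fun y : EE => ‖y‖ ^ 2) ((2 : ℝ) • innerSL ℝ p) p := by
      refine ((hasStrictFDerivAt_norm_sq p).hasFDerivAt).congr_fderiv ?_
      ext v; simp
    have h10 := (hasDerivAt_inv (x := ‖p‖ ^ 2) (by rw [hp.1]; norm_num)).comp_hasFDerivAt p h9
    rw [hp.1] at h10
    refine h10.congr_fderiv ?_
    ext v; simp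
  have h11 := h8.smul ((h2.smul h1).sub (h3.smul h7))
  refine h11.congr_fderiv ?_
  ext1 v
  simp only [Pi.sub_apply, Pi.smul_apply', hr, hf, hta, hp.1, hp.2, smul_apply, add_apply, sub_apply,
    ContinuousLinearMap.smulRight_apply, innerSL_apply_apply, smul_eq_mul, one_smul, zero_smul,
    one_pow, inv_one, zero_apply]
  module

end tube

end Crest.Agent.R246.IN200
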