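import Crest.Agent.R246.IN6_200

/-!
Row 246, block I(I) (helper200), part 7: the tube of a smooth minimal hypercone.
-/

set_option autoImplicit false

open MeasureTheory Filter Topology Metric Set
open scoped ContDiff RealInnerProductSpace
open Crest.GeometryTopology.CoordMetric Crest.GeometryTopology.AffineMaximal
open Crest.Agent.R236.Jet Crest.Agent.R202.SphDiv Crest.Agent.R246.D2x782

noncomputable section

namespace Crest.Agent.R246.IN200

variable {n : ℕ}

local notation "EE" => EuclideanSpace ℝ (Fin n)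

/-! ### cut-off functions -/

/-- outer cut-off -/
def chR {b : ℝ} (hb : 0 < b) : ContDiffBump (0 : ℝ) :=
  bmp (b / 2) (3 * b / 4) (by linarith) (by linarith)

/-- inner cut-off -/
def chE {b : ℝ} (hb : 0 < b) : ContDiffBump (0 : ℝ) :=
  bmp (b / 8) (b / 4) (by linarith) (by linarith)

section cutoffs

variable {b : ℝ} (hb : 0 < b)

theorem chR_one {t : ℝ} (ht : |t| ≤ b / 2) : chR hb t = 1 :=
  (chR hb).one_of_mem_closedBall (by simpa [chR, bmp] using ht)

theorem chR_zero {t : ℝ} (ht : 3 * b / 4 ≤ |t|) : chR hb t = 0 :=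
  (chR hb).zero_of_le_dist (by simpa [chR, bmp] using ht)

theorem chE_one {t : ℝ} (ht : |t| ≤ b / 8) : chE hb t = 1 :=
  (chE hb).one_of_mem_closedBall (by simpa [chE, bmp] using ht)

theorem chE_zero {t : ℝ} (ht : b / 4 ≤ |t|) : chE hb t = 0 :=
  (chE hb).zero_of_le_dist (by simpa [chE, bmp] using ht)

theorem chR_sm : ContDiff ℝ ∞ (chR hb) := (chR hb).contDiff

theorem chE_sm : ContDiff ℝ ∞ (chE hb) := (chE hb).contDiff

theorem chE_nonneg (t : ℝ) : 0 ≤ chE hb t := (chE hb).nonneg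

theorem chE_le (t : ℝ) : chE hb t ≤ 1 := (chE hb).le_one

end cutoffs

section tube

variable {φ : EuclideanSpace ℝ (Fin n) → ℝ} {b : ℝ}

/-- the region where the cut-off is one -/
def TR (φ : EuclideanSpace ℝ (Fin n) → ℝ) (b : ℝ) : Set (EuclideanSpace ℝ (Fin n)) :=
  {x | x ∈ SM436.TT φ b ∧ |SM436.ta φ x| < b / 2}

theorem isOpen_TR (hT : SM436.Tube φ b) : IsOpen (TR φ b) := by
  rw [isOpen_iff_mem_nhds]
  rintro x ⟨hx, hx2⟩
  filter_upwards [hT.isOpen_TT.mem_nhds hx,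
    (continuousAt_ta hT (hT.ne_zero hx)).abs.eventually (gt_mem_nhds hx2)] with y h1 h2
  exact ⟨h1, h2⟩

theorem mem_TR_iff (hT : SM436.Tube φ b) {x : EE} (hx : x ≠ 0) :
    x ∈ TR φ b ↔ |SM436.ta φ x| < b / 2 := by
  have hb := hT.hb
  refine ⟨fun h => h.2, fun h => ⟨(mem_TT_iff hT hx).2 (by linarith), h⟩⟩

theorem Lk_TR (hT : SM436.Tube φ b) {p : EE} (hp : p ∈ SM436.Lk φ) : p ∈ TR φ b := by
  refine ⟨hT.TT_of_Lk hp, ?_⟩
  have hb := hT.hb
  rw [SM436.ta, hp.2, zero_div, abs_zero]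
  linarith

/-- the (cut off) angular distance -/
def rF (φ : EuclideanSpace ℝ (Fin n) → ℝ) {b : ℝ} (hb : 0 < b) (x : EuclideanSpace ℝ (Fin n)) : ℝ :=
  chR hb (SM436.ta φ x) * r0 φ x

/-- the cut-off function -/
def eF (φ : EuclideanSpace ℝ (Fin n) → ℝ) {b : ℝ} (hb : 0 < b) (x : EuclideanSpace ℝ (Fin n)) : ℝ :=
  chE hb (SM436.ta φ x) * 1

theorem rF_sm (hT : SM436.Tube φ b) : SmHom0 (rF φ hT.hb) := by
  refine smHom0_cut hT (chR_sm hT.hb) (c := 3 * b / 4) (by have := hT.hb; linarith)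
    (fun t ht => chR_zero hT.hb ht) (F := r0 φ) ?_ ?_
  · intro x hx
    exact Real.contDiff_arctan.contDiffAt.comp x (hT.contDiffAt_ta hx)
  · intro x _ t ht
    show Real.arctan _ = Real.arctan _
    rw [hT.ta_smul x ht]

theorem eF_sm (hT : SM436.Tube φ b) : SmHom0 (eF φ hT.hb) := by
  refine smHom0_cut hT (chE_sm hT.hb) (c := b / 4) (by have := hT.hb; linarith)
    (fun t ht => chE_zero hT.hb ht) (F := fun _ => 1) ?_ ?_
  · intro x hx
    exact contDiffAt_const
  · intro x _ t ht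
    rfl

theorem rF_eq (hT : SM436.Tube φ b) {x : EE} (hx : x ∈ TR φ b) : rF φ hT.hb x = r0 φ x := by
  unfold rF
  rw [chR_one hT.hb hx.2.le, one_mul]

theorem rF_ev (hT : SM436.Tube φ b) {x : EE} (hx : x ∈ TR φ b) : rF φ hT.hb =ᶠ[𝓝 x] r0 φ := by
  filter_upwards [(isOpen_TR hT).mem_nhds hx] with y hy using rF_eq hT hy

theorem gradient_rF (hT : SM436.Tube φ b) {x : EE} (hx : x ∈ TR φ b) :
    gradient (rF φ hT.hb) x = gr φ x := by
  rw [gradient_congr (rF_ev hT hx), gradient_r0 hT hx.1]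

theorem sgsq_rF (hT : SM436.Tube φ b) {x : EE} (hx : x ∈ TR φ b) : sgsq (rF φ hT.hb) x = 1 := by
  rw [sgsq_eq, sdot_eq_inner, gradient_rF hT hx, real_inner_self_eq_norm_sq, norm_gr_sq hT hx.1]
  have := norm_pos_iff.2 (hT.ne_zero hx.1)
  field_simp

theorem hasFDerivAt_gradient_rF_Lk (hT : SM436.Tube φ b) {p : EE} (hp : p ∈ SM436.Lk φ) :
    HasFDerivAt (gradient (rF φ hT.hb)) (SM436.hs φ p - (innerSL ℝ p).smulRight (gradient φ p)
      - (innerSL ℝ (gradient φ p)).smulRight p) p := by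
  refine (hasFDerivAt_gr_Lk hT hp).congr_of_eventuallyEq ?_
  filter_upwards [(isOpen_TR hT).mem_nhds (Lk_TR hT hp)] with y hy using gradient_rF hT hy

theorem nsq_Lk {p : EE} (hp : p ∈ SM436.Lk φ) : nsq p = 1 := by
  rw [nsq_eq, hp.1]; norm_num

theorem slap_rF_Lk (hT : SM436.Tube φ b) {p : EE} (hp : p ∈ SM436.Lk φ)
    (hmin : LinearMap.trace ℝ EE (SM436.hs φ p : EE →ₗ[ℝ] EE) = 0) :
    slap (rF φ hT.hb) p = 0 := by
  unfold slap
  rw [nsq_Lk hp, one_mul, lapl_eq_tr (hasFDerivAt_gradient_rF_Lk hT hp), SM436.tr_sub,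
    SM436.tr_sub, SM436.tr_smulRight, SM436.tr_smulRight]
  have h1 : SM436.tr (SM436.hs φ p) = 0 := hmin
  rw [h1, innerSL_apply_apply, innerSL_apply_apply, real_inner_comm, hT.inner_gradient_Lk hp]
  ring

/-- the potential -/
def qF (φ : EuclideanSpace ℝ (Fin n) → ℝ) {b : ℝ} (hb : 0 < b) (x : EuclideanSpace ℝ (Fin n)) : ℝ :=
  - sdot (slap (rF φ hb)) (rF φ hb) x

theorem slap_sm {R : EE → ℝ} (h : SmHom0 R) {x : EE} (hx : x ≠ 0) : ContDiffAt ℝ ∞ (slap R) x :=
  h.smooth_slap hx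

theorem sdot_smooth {a c : EE → ℝ} {x : EE} (ha : ContDiffAt ℝ ∞ a x) (hc : ContDiffAt ℝ ∞ c x) :
    ContDiffAt ℝ ∞ (sdot a c) x := by
  unfold sdot
  exact (smooth_nsq x).mul (ContDiffAt.sum fun j _ => (sm_pderiv ha j).mul (sm_pderiv hc j))

theorem qF_sm (hT : SM436.Tube φ b) : C1 (qF φ hT.hb) := fun x hx =>
  ((sdot_smooth (slap_sm (rF_sm hT) hx) ((rF_sm hT).smooth x hx)).neg).of_le
    (by exact_mod_cast le_top)

theorem sum_norm_L (hT : SM436.Tube φ b) {p : EE} (hp : p ∈ SM436.Lk φ) :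
    ∑ i, ‖(SM436.hs φ p - (innerSL ℝ p).smulRight (gradient φ p)
      - (innerSL ℝ (gradient φ p)).smulRight p) (EuclideanSpace.basisFun (Fin n) ℝ i)‖ ^ 2
      = HerschSM900.A2 φ p + 2 := by
  set e := EuclideanSpace.basisFun (Fin n) ℝ with he
  have hg := hT.good (hT.TT_of_Lk hp)
  have h1 : ∀ v : EE, ‖(SM436.hs φ p - (innerSL ℝ p).smulRight (gradient φ p)
      - (innerSL ℝ (gradient φ p)).smulRight p) v‖ ^ 2
      = ‖SM436.hs φ p v‖ ^ 2 + ⟪p, v⟫ ^ 2 + ⟪gradient φ p, v⟫ ^ 2 := by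
    intro v
    have a1 : ⟪SM436.hs φ p v, gradient φ p⟫ = 0 := by
      rw [hg.hs_symm, hT.hs_gradient_Lk hp, inner_zero_right]
    have a2 : ⟪SM436.hs φ p v, p⟫ = 0 := by
      rw [hg.hs_symm, hT.hs_self_Lk hp, inner_zero_right]
    have a3 : ⟪gradient φ p, p⟫ = 0 := hT.inner_gradient_Lk hp
    have a4 : ⟪gradient φ p, gradient φ p⟫ = 1 := by
      rw [real_inner_self_eq_norm_sq, hT.norm_gradient_Lk hp]; norm_num
    have a5 : ⟪p, p⟫ = (1 : ℝ) := by rw [real_inner_self_eq_norm_sq, hp.1]; norm_num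
    have a6 : ⟪p, gradient φ p⟫ = 0 := by rw [real_inner_comm]; exact a3
    have a7 : ⟪gradient φ p, SM436.hs φ p v⟫ = 0 := by rw [real_inner_comm]; exact a1
    have a8 : ⟪p, SM436.hs φ p v⟫ = 0 := by rw [real_inner_comm]; exact a2
    rw [← real_inner_self_eq_norm_sq, ← real_inner_self_eq_norm_sq]
    simp only [sub_apply, ContinuousLinearMap.smulRight_apply, innerSL_apply_apply,
      inner_sub_left, inner_sub_right, real_inner_smul_left, real_inner_smul_right, a1, a2, a3, a4,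
      a5, a6, a7, a8]
    ring
  have h2 : ∀ w : EE, ∑ i, ⟪w, e i⟫ ^ 2 = ‖w‖ ^ 2 := by
    intro w
    have := e.sum_sq_norm_inner_left w
    rw [← this]
    refine Finset.sum_congr rfl fun i _ => ?_
    rw [Real.norm_eq_abs, sq_abs]
  rw [Finset.sum_congr rfl fun i _ => h1 (e i), Finset.sum_add_distrib, Finset.sum_add_distrib,
    h2, h2, hp.1, hT.norm_gradient_Lk hp, HerschSM900.A2_eq_sum hg e]
  norm_num
  ring

theorem qF_Lk (hT : SM436.Tube φ b) {p : EE} (hp : p ∈ SM436.Lk φ) :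
    qF φ hT.hb p = HerschSM900.A2 φ p + ((n : ℝ) - 2) := by
  set r := rF φ hT.hb with hr
  have hsm := rF_sm hT
  have hp0 : p ≠ 0 := hT.ne_zero_of_Lk hp
  have h1 := hsm.lapl_sgsq hp0
  have h2 : lapl (sgsq r) p = 0 := by
    have h3 : sgsq r =ᶠ[𝓝 p] fun _ => 1 := by
      filter_upwards [(isOpen_TR hT).mem_nhds (Lk_TR hT hp)] with y hy using sgsq_rF hT hy
    unfold lapl
    refine Finset.sum_eq_zero fun i _ => ?_
    have h4 := hess_congr h3 i i
    rw [h4]
    exact hess_const _ _ _ _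
  have h5 : gsq r p = 1 := by
    have := sgsq_rF hT (Lk_TR hT hp)
    unfold sgsq at this
    rw [nsq_Lk hp, one_mul] at this
    exact this
  rw [h2, h5, nsq_Lk hp, hess_sq_eq (hasFDerivAt_gradient_rF_Lk hT hp), sum_norm_L hT hp] at h1
  have h6 : sdot (slap r) r p = ∑ j, pderiv j r p * pderiv j (lapl r) p := by
    unfold sdot
    rw [nsq_Lk hp, one_mul]
    have h7 : ∀ j, pderiv j (slap r) p = pderiv j (lapl r) p + 2 * p j * lapl r p := by
      intro j
      have : pderiv j (slap r) p = pderiv j (fun y => nsq y * lapl r y) p := rfl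
      rw [this, pderiv_mul (sm_diff (smooth_nsq p)) (sm_diff (hsm.smooth_lapl hp0)), nsq_Lk hp,
        SmHom0.pderiv_nsq]
      ring
    have h8 : ∑ j, p j * pderiv j r p = 0 := hsm.euler hp0
    have h9 : ∑ j, pderiv j (slap r) p * pderiv j r p
        = ∑ j, pderiv j r p * pderiv j (lapl r) p + 2 * lapl r p * ∑ j, p j * pderiv j r p := by
      rw [Finset.mul_sum, ← Finset.sum_add_distrib]
      refine Finset.sum_congr rfl fun j _ => ?_
      rw [h7]; ring
    rw [h9, h8]; ring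
  show - sdot (slap r) r p = _
  rw [h6]
  linarith

/-! ### the normal geodesics -/

/-- normal geodesic -/
def geo (φ : EuclideanSpace ℝ (Fin n) → ℝ) (p : EuclideanSpace ℝ (Fin n)) (s : ℝ) :
    EuclideanSpace ℝ (Fin n) := Real.cos s • p + Real.sin s • gradient φ p

theorem hasDerivAt_geo (φ : EE → ℝ) (p : EE) (s : ℝ) :
    HasDerivAt (geo φ p) (Real.cos s • gradient φ p - Real.sin s • p) s := by
  have h := ((Real.hasDerivAt_cos s).smul_const p).add
    ((Real.hasDerivAt_sin s).smul_const (gradient φ p))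
  refine h.congr_deriv ?_
  module

theorem tan_lt {c s : ℝ} (hs : |s| < Real.arctan c) : |Real.tan s| < c ∧ 0 < Real.cos s := by
  have h1 := abs_lt.1 hs
  have h2 := Real.arctan_lt_pi_div_two c
  have h3 : 0 < Real.cos s := Real.cos_pos_of_mem_Ioo ⟨by linarith, by linarith⟩
  refine ⟨?_, h3⟩
  rw [abs_lt]
  constructor
  · have h4 := Real.tan_lt_tan_of_lt_of_lt_pi_div_two (x := -s) (y := Real.arctan c)
      (by linarith) h2 (by linarith)
    rw [Real.tan_neg, Real.tan_arctan] at h4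
    linarith
  · have h4 := Real.tan_lt_tan_of_lt_of_lt_pi_div_two (x := s) (y := Real.arctan c)
      (by linarith) h2 (by linarith)
    rwa [Real.tan_arctan] at h4

theorem geo_props (hT : SM436.Tube φ b) {p : EE} (hp : p ∈ SM436.Lk φ) {s : ℝ}
    (hs : |s| < Real.arctan (b / 2)) :
    geo φ p s ∈ TR φ b ∧ ‖geo φ p s‖ = 1 ∧ r0 φ (geo φ p s) = s ∧ SM436.pp φ (geo φ p s) = p ∧
      gr φ (geo φ p s) = Real.cos s • gradient φ p - Real.sin s • p := by
  have hb := hT.hb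
  obtain ⟨h1, h2⟩ := tan_lt hs
  have h3 : geo φ p s = Real.cos s • (p + Real.tan s • gradient φ p) := by
    unfold geo
    rw [smul_add, smul_smul, mul_comm (Real.cos s) (Real.tan s), Real.tan_mul_cos h2.ne']
  obtain ⟨g1, g2, g3, g4⟩ := hT.seg' hp.1 hp.2 h2 (τ := Real.tan s) (by linarith)
  rw [← h3] at g1 g2 g3 g4
  have hmem : geo φ p s ∈ TR φ b := ⟨g1, by rw [g4]; exact h1⟩
  have hgrad : gradient φ (geo φ p s) = gradient φ p := by
    rw [← hT.gradient_pp g1, g2]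
  have hn : ‖geo φ p s‖ = 1 := by
    have h4 : ‖geo φ p s‖ ^ 2 = 1 := by
      unfold geo
      rw [norm_add_sq_real, norm_smul, norm_smul, hp.1, hT.norm_gradient_Lk hp,
        real_inner_smul_left, real_inner_smul_right, real_inner_comm, hT.inner_gradient_Lk hp]
      simp
    exact (pow_left_inj₀ (norm_nonneg _) zero_le_one two_ne_zero).1 (by rw [h4]; norm_num)
  refine ⟨hmem, hn, ?_, g2, ?_⟩
  · unfold r0
    rw [g4]
    have h5 := abs_lt.1 hs
    have h6 := Real.arctan_lt_pi_div_two (b / 2)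
    exact Real.arctan_tan (by linarith) (by linarith)
  · have hft : SM436.ft φ (geo φ p s) = Real.cos s • p := by
      have : SM436.ft φ (geo φ p s)
          = SM436.rr φ (geo φ p s) • SM436.pp φ (geo φ p s) := by
        unfold SM436.pp
        rw [smul_smul, mul_inv_cancel₀ g1.1.ne', one_smul]
      rw [this, g2, g3]
    unfold gr
    rw [hn, hft, g3, g4, hgrad, one_pow, inv_one, one_smul, smul_smul, Real.tan_mul_cos h2.ne']

theorem geo_surj (hT : SM436.Tube φ b) {z : EE} (hz : z ∈ TR φ b) (hz1 : ‖z‖ = 1) :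
    SM436.pp φ z ∈ SM436.Lk φ ∧ |r0 φ z| < Real.arctan (b / 2) ∧
      geo φ (SM436.pp φ z) (r0 φ z) = z := by
  refine ⟨hT.mem_Lk_pp hz.1, ?_, ?_⟩
  · unfold r0
    have h := abs_lt.1 hz.2
    rw [abs_lt, ← Real.arctan_neg]
    exact ⟨Real.arctan_strictMono h.1, Real.arctan_strictMono h.2⟩
  · have h1 := hT.recon_pp hz.1
    have h2 : SM436.rr φ z = Real.cos (r0 φ z) := by
      unfold r0
      rw [Real.cos_arctan]
      have h3 : 1 + SM436.ta φ z ^ 2 = (SM436.rr φ z ^ 2)⁻¹ := by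
        have h4 := hT.rr_sq z
        rw [hz1] at h4
        have h5 := hz.1.1
        rw [SM436.ta]
        field_simp
        linarith
      rw [h3, Real.sqrt_inv, Real.sqrt_sq hz.1.1.le]
      simp
    have h3 : SM436.rr φ z * SM436.ta φ z = Real.sin (r0 φ z) := by
      have h4 : SM436.ta φ z = Real.tan (r0 φ z) := by
        unfold r0; rw [Real.tan_arctan]
      have h5 : 0 < Real.cos (r0 φ z) := by rw [← h2]; exact hz.1.1
      rw [h2, h4, mul_comm, Real.tan_mul_cos h5.ne']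
    unfold geo
    rw [← h3, ← h2]
    conv_rhs => rw [← h1]
    rw [smul_add, smul_smul]

end tube

end Crest.Agent.R246.IN200
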