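import Crest.Agent.R246.IN7_200

/-!
Row 246, block I(I) (helper200), part 8: the tube structure and finite dimensional families.
-/

set_option autoImplicit false

open MeasureTheory Filter Topology Metric Set
open scoped ContDiff RealInnerProductSpace
open Crest.GeometryTopology.CoordMetric Crest.GeometryTopology.AffineMaximal
open Crest.Agent.R236.Jet Crest.Agent.R202.SphDiv Crest.Agent.R246.D2x782

noncomputable section

namespace Crest.Agent.R246.IN200

variable {n : ℕ}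

local notation "EE" => EuclideanSpace ℝ (Fin n)

section tube

variable {φ : EuclideanSpace ℝ (Fin n) → ℝ} {b : ℝ}

/-- derivative along the normal geodesics -/
theorem hasDerivAt_along (hT : SM436.Tube φ b) {u : EE → ℝ} (hu : C1 u) {p : EE}
    (hp : p ∈ SM436.Lk φ) {s : ℝ} (hs : |s| < Real.arctan (b / 2)) :
    HasDerivAt (fun s => u (geo φ p s)) (sdot u (rF φ hT.hb) (geo φ p s)) s := by
  obtain ⟨h1, h2, h3, h4, h5⟩ := geo_props hT hp hs
  have h0 : geo φ p s ≠ 0 := by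
    intro h; rw [h, norm_zero] at h2; exact zero_ne_one h2
  have h6 := ((hu.diff h0).hasFDerivAt).comp_hasDerivAt s (hasDerivAt_geo φ p s)
  refine h6.congr_deriv ?_
  rw [sdot_eq_inner, h2, gradient_rF hT h1, h5, SM436.inner_gradient]
  ring

/-- the Riccati-type bound -/
theorem ric_bound (hT : SM436.Tube φ b)
    (hmin : ∀ p ∈ SM436.Lk φ, LinearMap.trace ℝ EE (SM436.hs φ p : EE →ₗ[ℝ] EE) = 0) :
    ∃ K : ℝ, 0 ≤ K ∧ ∀ z : Sph n, (z : EE) ∈ TR φ b →
      |slap (rF φ hT.hb) z + qF φ hT.hb z * rF φ hT.hb z| ≤ K * rF φ hT.hb z ^ 2 := by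
  set r := rF φ hT.hb with hr
  set q := qF φ hT.hb with hq
  have rc : C1 r := (rF_sm hT).c1
  have qc : C1 q := qF_sm hT
  have sc : C1 (slap r) := (rF_sm hT).c1_slap
  obtain ⟨K, hK0, hK⟩ := exists_bound (f := sdot q r) fun x hx => qc.cont_sdot rc hx
  refine ⟨K, hK0, fun z hz => ?_⟩
  have hz1 : ‖(z : EE)‖ = 1 := by simpa using z.2
  obtain ⟨hp, hs, hg⟩ := geo_surj hT hz hz1
  set p := SM436.pp φ (z : EE) with hpdef
  set s0 := r0 φ (z : EE) with hs0
  set u : EE → ℝ := fun x => slap r x + q x * r x with hu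
  have uc : C1 u := sc.add (qc.mul rc)
  have hle : ∀ σ ∈ uIcc 0 s0, |σ| ≤ |s0| := by
    intro σ hσ
    have := abs_sub_left_of_mem_uIcc hσ
    simpa using this
  have hd : ∀ σ ∈ uIcc 0 s0, HasDerivWithinAt (fun s => u (geo φ p s))
      (sdot u r (geo φ p σ)) (uIcc 0 s0) σ := fun σ hσ =>
    (hasDerivAt_along hT uc hp ((hle σ hσ).trans_lt hs)).hasDerivWithinAt
  have hb : ∀ σ ∈ uIcc 0 s0, ‖sdot u r (geo φ p σ)‖ ≤ K * |s0| := by
    intro σ hσ
    obtain ⟨h1, h2, h3, h4, h5⟩ := geo_props hT hp ((hle σ hσ).trans_lt hs)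
    have h0 : geo φ p σ ≠ 0 := by
      intro h; rw [h, norm_zero] at h2; exact zero_ne_one h2
    have h6 : sdot u r (geo φ p σ) = σ * sdot q r (geo φ p σ) := by
      have e1 : sdot u r (geo φ p σ)
          = sdot (slap r) r (geo φ p σ) + sdot (fun x => q x * r x) r (geo φ p σ) :=
        sdot_add (sc.diff h0) ((qc.mul rc).diff h0)
      have e3 : r (geo φ p σ) = σ := (rF_eq hT h1).trans h3
      rw [e1, sdot_mul (qc.diff h0) (rc.diff h0), ← sgsq_eq, sgsq_rF hT h1, e3]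
      have e2 : q (geo φ p σ) = - sdot (slap r) r (geo φ p σ) := rfl
      rw [e2]; ring
    rw [h6, Real.norm_eq_abs, abs_mul, mul_comm]
    have h7 := hK ⟨geo φ p σ, by simpa using h2⟩
    exact mul_le_mul h7 (hle σ hσ) (abs_nonneg _) hK0
  have h8 := (convex_uIcc (0 : ℝ) s0).norm_image_sub_le_of_norm_hasDerivWithin_le hd hb
    left_mem_uIcc right_mem_uIcc
  have h9 : geo φ p 0 = p := by simp [geo]
  have h10 : u p = 0 := by
    have e1 : r p = 0 := by
      rw [hr, rF_eq hT (Lk_TR hT hp)]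
      unfold r0
      rw [SM436.ta, hp.2, zero_div, Real.arctan_zero]
    show slap r p + q p * r p = 0
    rw [slap_rF_Lk hT hp (hmin p hp), e1, mul_zero, add_zero]
  simp only [h9, h10, hg, sub_zero, Real.norm_eq_abs] at h8
  have h11 : r z = s0 := rF_eq hT hz
  rw [h11]
  calc |slap r z + q z * s0| = |u z| := by rw [hu]; simp only [h11]
    _ ≤ K * |s0| * |s0| := h8
    _ = K * s0 ^ 2 := by rw [mul_assoc, abs_mul_abs_self, sq]

/-- the tube structure -/
theorem exists_tube (hT : SM436.Tube φ b)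
    (hmin : ∀ p ∈ SM436.Lk φ, LinearMap.trace ℝ EE (SM436.hs φ p : EE →ₗ[ℝ] EE) = 0) :
    ∃ K : ℝ, Tube (rF φ hT.hb) (eF φ hT.hb) (qF φ hT.hb) (TR φ b) (Real.arctan (b / 8)) K := by
  obtain ⟨K, hK0, hK⟩ := ric_bound hT hmin
  have hb := hT.hb
  have hη : ∀ x : EE, x ≠ 0 → x ∉ TR φ b → eF φ hT.hb =ᶠ[𝓝 x] fun _ => 0 := by
    intro x hx hxT
    have h1 : b / 4 < |SM436.ta φ x| := by
      by_contra h
      exact hxT ((mem_TR_iff hT hx).2 (by linarith))
    have h2 : ∀ᶠ y in 𝓝 x, b / 4 < |SM436.ta φ y| :=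
      (continuousAt_ta hT hx).abs.eventually (lt_mem_nhds h1)
    filter_upwards [h2] with y hy
    unfold eF
    rw [chE_zero hT.hb hy.le, zero_mul]
  refine ⟨K, rF_sm hT, eF_sm hT, qF_sm hT, Real.arctan_pos.2 (by linarith), hK0, ?_, ?_, ?_, ?_, ?_,
    ?_, hK⟩
  · intro z
    unfold eF
    rw [mul_one]
    exact chE_nonneg _ _
  · intro z
    unfold eF
    rw [mul_one]
    exact chE_le _ _
  · intro z hz
    exact (hη z (sph_ne z) hz).eq_of_nhds
  · intro z hz j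
    rw [pderiv_congr (hη z (sph_ne z) hz) j, pderiv_const]
  · intro z hz
    exact sgsq_rF hT hz
  · intro z hz hr j
    rw [rF_eq hT hz] at hr
    have h1 : |SM436.ta φ (z : EE)| < b / 8 := by
      unfold r0 at hr
      rw [abs_lt] at hr ⊢
      have h2 : Real.arctan (-(b / 8)) < Real.arctan (SM436.ta φ (z : EE)) := by
        rw [Real.arctan_neg]; exact hr.1
      exact ⟨Real.arctan_strictMono.lt_iff_lt.1 h2, Real.arctan_strictMono.lt_iff_lt.1 hr.2⟩
    have h2 : ∀ᶠ y in 𝓝 (z : EE), |SM436.ta φ y| < b / 8 :=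
      (continuousAt_ta hT (sph_ne z)).abs.eventually (gt_mem_nhds h1)
    have h3 : eF φ hT.hb =ᶠ[𝓝 (z : EE)] fun _ => 1 := by
      filter_upwards [h2] with y hy
      unfold eF
      rw [chE_one hT.hb hy.le, one_mul]
    rw [pderiv_congr h3 j, pderiv_const]

/-- functions constant along the normal geodesics -/
def NC (φ : EuclideanSpace ℝ (Fin n) → ℝ) (b : ℝ) (F : EuclideanSpace ℝ (Fin n) → ℝ) : Prop :=
  ∀ p ∈ SM436.Lk φ, ∀ s : ℝ, |s| < Real.arctan (b / 2) → F (geo φ p s) = F p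

theorem sdot_NC (hT : SM436.Tube φ b) {F : EE → ℝ} (hF : C1 F) (hN : NC φ b F) {z : EE}
    (hz : z ∈ TR φ b) (hz1 : ‖z‖ = 1) : sdot F (rF φ hT.hb) z = 0 := by
  obtain ⟨hp, hs, hg⟩ := geo_surj hT hz hz1
  have h1 := hasDerivAt_along hT hF hp hs
  have h2 : (fun s => F (geo φ (SM436.pp φ z) s)) =ᶠ[𝓝 (r0 φ z)] fun _ => F (SM436.pp φ z) := by
    have h3 : ∀ᶠ s in 𝓝 (r0 φ z), |s| < Real.arctan (b / 2) :=
      (continuous_abs.continuousAt).eventually (gt_mem_nhds hs)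
    filter_upwards [h3] with s hs' using hN _ hp s hs'
  have h3 := (h1.congr_of_eventuallyEq h2.symm).unique (hasDerivAt_const _ _)
  rwa [hg] at h3

/-- normal extension of a function on the link -/
def ext (φ : EuclideanSpace ℝ (Fin n) → ℝ) {b : ℝ} (hb : 0 < b) (G : EuclideanSpace ℝ (Fin n) → ℝ)
    (x : EuclideanSpace ℝ (Fin n)) : ℝ := chR hb (SM436.ta φ x) * G (SM436.pp φ x)

theorem ext_sm (hT : SM436.Tube φ b) {G : EE → ℝ} (hG : ∀ p ∈ SM436.Lk φ, ContDiffAt ℝ ∞ G p) :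
    SmHom0 (ext φ hT.hb G) := by
  refine smHom0_cut hT (chR_sm hT.hb) (c := 3 * b / 4) (by have := hT.hb; linarith)
    (fun t ht => chR_zero hT.hb ht) (F := fun x => G (SM436.pp φ x)) ?_ ?_
  · intro x hx
    exact (hG _ (hT.mem_Lk_pp hx)).comp x (hT.contDiffAt_pp hx)
  · intro x _ t ht
    show G _ = G _
    rw [hT.pp_smul x ht]

theorem ext_eq (hT : SM436.Tube φ b) (G : EE → ℝ) {x : EE} (hx : x ∈ TR φ b) :
    ext φ hT.hb G x = G (SM436.pp φ x) := by
  unfold ext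
  rw [chR_one hT.hb hx.2.le, one_mul]

theorem ext_NC (hT : SM436.Tube φ b) (G : EE → ℝ) : NC φ b (ext φ hT.hb G) := by
  intro p hp s hs
  obtain ⟨h1, h2, h3, h4, h5⟩ := geo_props hT hp hs
  rw [ext_eq hT G h1, h4, ext_eq hT G (Lk_TR hT hp), hT.pp_Lk hp]

end tube

/-! ### finite families -/

section fam

variable {ι : Type} [Fintype ι] {F : ι → EuclideanSpace ℝ (Fin n) → ℝ}

/-- linear combination -/
def comb (F : ι → EuclideanSpace ℝ (Fin n) → ℝ) (c : ι → ℝ) (x : EuclideanSpace ℝ (Fin n)) : ℝ :=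
  ∑ i, c i * F i x

theorem comb_sm (hF : ∀ i, SmHom0 (F i)) (c : ι → ℝ) : SmHom0 (comb F c) where
  smooth := by
    intro x hx
    unfold comb
    exact ContDiffAt.sum fun i _ => contDiffAt_const.mul ((hF i).smooth x hx)
  hom := by
    intro t x ht
    unfold comb
    exact Finset.sum_congr rfl fun i _ => by rw [(hF i).hom t x ht]

theorem pderiv_comb (hF : ∀ i, SmHom0 (F i)) (c : ι → ℝ) {x : EE} (hx : x ≠ 0) (j : Fin n) :
    pderiv j (comb F c) x = ∑ i, c i * pderiv j (F i) x := by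
  have h1 : comb F c = fun x => ∑ i ∈ Finset.univ, c i * F i x := rfl
  rw [h1, pderiv_sum (f := fun (i : ι) (x : EE) => c i * F i x)
    (fun i _ => (sm_diff ((hF i).smooth x hx)).const_mul _)]
  refine Finset.sum_congr rfl fun i _ => ?_
  rw [pderiv_cmul (sm_diff ((hF i).smooth x hx))]

theorem slap_comb (hF : ∀ i, SmHom0 (F i)) (c : ι → ℝ) {x : EE} (hx : x ≠ 0) :
    slap (comb F c) x = ∑ i, c i * slap (F i) x := by
  have h1 : ∀ j, hessianMat (comb F c) x j j = ∑ i, c i * hessianMat (F i) x j j := by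
    intro j
    have h2 : comb F c = fun x => ∑ i ∈ Finset.univ, c i * F i x := rfl
    rw [h2, hess_sum (f := fun (i : ι) (x : EE) => c i * F i x)
      (fun i _ => contDiffAt_const.mul ((hF i).smooth x hx))]
    refine Finset.sum_congr rfl fun i _ => ?_
    rw [hess_cmul ((hF i).smooth x hx)]
  unfold slap lapl
  rw [Finset.sum_congr rfl fun j _ => h1 j, Finset.sum_comm, Finset.mul_sum]
  refine Finset.sum_congr rfl fun i _ => ?_
  rw [← Finset.mul_sum]
  ring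

theorem pderiv_slap_comb (hF : ∀ i, SmHom0 (F i)) (c : ι → ℝ) {x : EE} (hx : x ≠ 0) (j : Fin n) :
    pderiv j (slap (comb F c)) x = ∑ i, c i * pderiv j (slap (F i)) x := by
  have h1 : slap (comb F c) =ᶠ[𝓝 x] fun x => ∑ i ∈ Finset.univ, c i * slap (F i) x := by
    filter_upwards [ev_ne hx] with y hy using slap_comb hF c hy
  rw [pderiv_congr h1, pderiv_sum (f := fun (i : ι) (x : EE) => c i * slap (F i) x)
    (fun i _ => (sm_diff ((hF i).smooth_slap hx)).const_mul _)]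
  refine Finset.sum_congr rfl fun i _ => ?_
  rw [pderiv_cmul (sm_diff ((hF i).smooth_slap hx))]

theorem sum_abs_le {c : ι → ℝ} {δ : ℝ} (hc : ∀ i, |c i| ≤ δ) {a K : ι → ℝ}
    (ha : ∀ i, |a i| ≤ K i) : |∑ i, c i * a i| ≤ (∑ i, K i) * δ := by
  rw [Finset.sum_mul]
  refine (Finset.abs_sum_le_sum_abs _ _).trans (Finset.sum_le_sum fun i _ => ?_)
  rw [abs_mul, mul_comm]
  exact mul_le_mul (ha i) (hc i) (abs_nonneg _) ((abs_nonneg _).trans (ha i))

theorem sgsq_le_of_pderiv {f : EE → ℝ} {z : Sph n} {B : ℝ} (hB : ∀ j, |pderiv j f z| ≤ B) :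
    sgsq f z ≤ (((n : ℝ) + 1) * B) ^ 2 := by
  rcases Nat.eq_zero_or_pos n with hn | hn
  · subst hn
    have : sgsq f z = 0 := by unfold sgsq gsq; simp
    rw [this]; positivity
  have hB0 : 0 ≤ B := (abs_nonneg _).trans (hB ⟨0, hn⟩)
  unfold sgsq gsq
  rw [nsq_sph, one_mul]
  have h1 : ∑ j, pderiv j f z * pderiv j f z ≤ ∑ _j : Fin n, B ^ 2 := by
    refine Finset.sum_le_sum fun j _ => ?_
    rw [← sq, ← sq_abs]
    exact pow_le_pow_left₀ (abs_nonneg _) (hB j) 2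
  rw [Finset.sum_const, Finset.card_univ, Fintype.card_fin, nsmul_eq_mul] at h1
  have h2 : (n : ℝ) * B ^ 2 ≤ (((n : ℝ) + 1) * B) ^ 2 := by
    have : 0 ≤ (n : ℝ) := Nat.cast_nonneg n
    have h3 : (n : ℝ) ≤ ((n : ℝ) + 1) ^ 2 := by nlinarith
    rw [mul_pow]
    exact mul_le_mul_of_nonneg_right h3 (sq_nonneg B)
  exact h1.trans h2

/-- uniform bounds for linear combinations -/
theorem comb_bounds (hF : ∀ i, SmHom0 (F i)) : ∃ K : ℝ, 0 ≤ K ∧ ∀ (c : ι → ℝ) (δ : ℝ),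
    (∀ i, |c i| ≤ δ) → ∀ z : Sph n, |comb F c z| ≤ K * δ ∧ sgsq (comb F c) z ≤ (K * δ) ^ 2 ∧
      |slap (comb F c) z| ≤ K * δ ∧ sgsq (slap (comb F c)) z ≤ (K * δ) ^ 2 := by
  have h1 : ∀ i, ∃ K : ℝ, 0 ≤ K ∧ ∀ z : Sph n, |F i z| ≤ K := fun i =>
    exists_bound fun x hx => (hF i).c1.cont hx
  have h2 : ∀ i, ∃ K : ℝ, 0 ≤ K ∧ ∀ z : Sph n, |slap (F i) z| ≤ K := fun i =>
    exists_bound fun x hx => (hF i).c1_slap.cont hx
  have h3 : ∀ i j, ∃ K : ℝ, 0 ≤ K ∧ ∀ z : Sph n, |pderiv j (F i) z| ≤ K := fun i j =>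
    exists_bound (f := fun x => pderiv j (F i) x) fun x hx => (hF i).c1.cont_pderiv hx j
  have h4 : ∀ i j, ∃ K : ℝ, 0 ≤ K ∧ ∀ z : Sph n, |pderiv j (slap (F i)) z| ≤ K := fun i j =>
    exists_bound (f := fun x => pderiv j (slap (F i)) x) fun x hx =>
      (hF i).c1_slap.cont_pderiv hx j
  choose K1 p1 k1 using h1
  choose K2 p2 k2 using h2
  choose K3 p3 k3 using h3
  choose K4 p4 k4 using h4
  set A1 := ∑ i, K1 i with hA1
  set A2 := ∑ i, K2 i with hA2
  set A3 := ∑ i, ∑ j, K3 i j with hA3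
  set A4 := ∑ i, ∑ j, K4 i j with hA4
  have a1 : 0 ≤ A1 := Finset.sum_nonneg fun i _ => p1 i
  have a2 : 0 ≤ A2 := Finset.sum_nonneg fun i _ => p2 i
  have a3 : 0 ≤ A3 := Finset.sum_nonneg fun i _ => Finset.sum_nonneg fun j _ => p3 i j
  have a4 : 0 ≤ A4 := Finset.sum_nonneg fun i _ => Finset.sum_nonneg fun j _ => p4 i j
  have hn : 0 ≤ (n : ℝ) := Nat.cast_nonneg n
  have hn1 : (1 : ℝ) ≤ (n : ℝ) + 1 := by linarith
  refine ⟨((n : ℝ) + 1) * (A1 + A2 + A3 + A4), by positivity, fun c δ hc z => ?_⟩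
  have hz := sph_ne z
  by_cases hι : Nonempty ι
  swap
  · have hι' : IsEmpty ι := not_nonempty_iff.1 hι
    have e1 : comb F c = fun _ => 0 := by funext x; unfold comb; simp
    have e2 : A1 = 0 := by rw [hA1]; simp
    have e3 : A2 = 0 := by rw [hA2]; simp
    have e4 : A3 = 0 := by rw [hA3]; simp
    have e5 : A4 = 0 := by rw [hA4]; simp
    have s1 : ∀ x : EE, slap (fun _ : EE => (0 : ℝ)) x = 0 := by
      intro x
      unfold slap lapl
      simp [hess_const]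
    have s2 : slap (fun _ : EE => (0 : ℝ)) = fun _ => 0 := by funext x; exact s1 x
    have s3 : ∀ x : EE, sgsq (fun _ : EE => (0 : ℝ)) x = 0 := by
      intro x
      rw [sgsq_eq, sdot_const]
    rw [e1, s2, s3, e2, e3, e4, e5]
    simp
  obtain ⟨i0⟩ := hι
  have hδ : 0 ≤ δ := (abs_nonneg _).trans (hc i0)
  have b1 : |comb F c z| ≤ A1 * δ := sum_abs_le hc fun i => k1 i z
  have b2 : |slap (comb F c) z| ≤ A2 * δ := by
    rw [slap_comb hF c hz]
    exact sum_abs_le hc fun i => k2 i z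
  have b3 : ∀ j, |pderiv j (comb F c) z| ≤ A3 * δ := by
    intro j
    rw [pderiv_comb hF c hz]
    refine sum_abs_le hc fun i => (k3 i j z).trans ?_
    exact Finset.single_le_sum (f := fun j => K3 i j) (fun j _ => p3 i j) (Finset.mem_univ j)
  have b4 : ∀ j, |pderiv j (slap (comb F c)) z| ≤ A4 * δ := by
    intro j
    rw [pderiv_slap_comb hF c hz]
    refine sum_abs_le hc fun i => (k4 i j z).trans ?_
    exact Finset.single_le_sum (f := fun j => K4 i j) (fun j _ => p4 i j) (Finset.mem_univ j)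
  have hS : ∀ {A : ℝ}, 0 ≤ A → A ≤ A1 + A2 + A3 + A4 →
      ((n : ℝ) + 1) * (A * δ) ≤ ((n : ℝ) + 1) * (A1 + A2 + A3 + A4) * δ := by
    intro A hA h
    rw [mul_assoc]
    gcongr
  have hS' : ∀ {A : ℝ}, 0 ≤ A → A ≤ A1 + A2 + A3 + A4 →
      A * δ ≤ ((n : ℝ) + 1) * (A1 + A2 + A3 + A4) * δ := by
    intro A hA h
    refine le_trans ?_ (hS hA h)
    have : 0 ≤ A * δ := mul_nonneg hA hδ
    nlinarith
  refine ⟨b1.trans (hS' a1 (by linarith)), ?_, b2.trans (hS' a2 (by linarith)), ?_⟩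
  · refine (sgsq_le_of_pderiv b3).trans ?_
    have h5 := hS a3 (by linarith)
    exact pow_le_pow_left₀ (by positivity) h5 2
  · refine (sgsq_le_of_pderiv b4).trans ?_
    have h5 := hS a4 (by linarith)
    exact pow_le_pow_left₀ (by positivity) h5 2

theorem sdot_comb (hF : ∀ i, SmHom0 (F i)) (c : ι → ℝ) {x : EE} (hx : x ≠ 0) :
    sgsq (comb F c) x = ∑ i, ∑ k, c i * c k * sdot (F i) (F k) x := by
  have h1 : sgsq (comb F c) x = nsq x * ∑ j, (∑ i, c i * pderiv j (F i) x)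
      * (∑ k, c k * pderiv j (F k) x) := by
    unfold sgsq gsq
    congr 1
    exact Finset.sum_congr rfl fun j _ => by rw [pderiv_comb hF c hx]
  rw [h1]
  have h2 : ∀ j, (∑ i, c i * pderiv j (F i) x) * (∑ k, c k * pderiv j (F k) x)
      = ∑ i, ∑ k, c i * c k * (pderiv j (F i) x * pderiv j (F k) x) := by
    intro j
    rw [Finset.sum_mul_sum]
    exact Finset.sum_congr rfl fun i _ => Finset.sum_congr rfl fun k _ => by ring
  rw [Finset.sum_congr rfl fun j _ => h2 j, Finset.sum_comm, Finset.mul_sum]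
  refine Finset.sum_congr rfl fun i _ => ?_
  rw [Finset.sum_comm, Finset.mul_sum]
  refine Finset.sum_congr rfl fun k _ => ?_
  rw [← Finset.mul_sum]
  unfold sdot
  ring

theorem sq_comb (F : ι → EE → ℝ) (c : ι → ℝ) (x : EE) :
    comb F c x ^ 2 = ∑ i, ∑ k, c i * c k * (F i x * F k x) := by
  unfold comb
  rw [sq, Finset.sum_mul_sum]
  exact Finset.sum_congr rfl fun i _ => Finset.sum_congr rfl fun k _ => by ring

end fam

end Crest.Agent.R246.IN200
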