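import Crest.Agent.R246.IN8_200

/-!
Row 246, block I(I) (helper200), part 9: Lemma N for a smooth minimal hypercone.
-/

set_option autoImplicit false

open MeasureTheory Filter Topology Metric Set
open scoped ContDiff RealInnerProductSpace
open Crest.GeometryTopology.CoordMetric Crest.GeometryTopology.AffineMaximal
open Crest.Agent.R236.Jet Crest.Agent.R202.SphDiv Crest.Agent.R246.D2x782
open Crest.Agent.R246.H990 (NullCone boost)

noncomputable section

namespace Crest.Agent.R246.IN200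

variable {n : ℕ}

local notation "EE" => EuclideanSpace ℝ (Fin n)

variable {φ : EuclideanSpace ℝ (Fin n) → ℝ} {b : ℝ}

/-! ### the family -/

/-- index type -/
abbrev Ix (n : ℕ) : Type := Option (Option (Fin n))

/-- basis functions `1`, `G`, `x_j`, extended along the normals -/
def FF (φ : EuclideanSpace ℝ (Fin n) → ℝ) {b : ℝ} (hb : 0 < b)
    (G : EuclideanSpace ℝ (Fin n) → ℝ) : Ix n → EuclideanSpace ℝ (Fin n) → ℝ
  | none => fun _ => 1
  | some none => ext φ hb G
  | some (some j) => ext φ hb (fun x => x j)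

/-- coefficients -/
def cc (s θ : ℝ) (z : EuclideanSpace ℝ (Fin n)) : Ix n → ℝ
  | none => θ
  | some none => s
  | some (some j) => - z j

/-- the direction -/
def uu (G : EuclideanSpace ℝ (Fin n) → ℝ) (s θ : ℝ) (z x : EuclideanSpace ℝ (Fin n)) : ℝ :=
  s * G x + θ - ⟪z, x⟫

theorem smHom0_const (k : ℝ) : SmHom0 (fun _ : EE => k) where
  smooth := fun _ _ => contDiffAt_const
  hom := fun _ _ _ => rfl

theorem FF_sm (hT : SM436.Tube φ b) {G : EE → ℝ} (hG : ∀ p ∈ SM436.Lk φ, ContDiffAt ℝ ∞ G p)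
    (i : Ix n) : SmHom0 (FF φ hT.hb G i) := by
  match i with
  | none => exact smHom0_const 1
  | some none => exact ext_sm hT hG
  | some (some j) => exact ext_sm hT fun p _ => smooth_coord j p

theorem FF_NC (hT : SM436.Tube φ b) (G : EE → ℝ) (i : Ix n) : NC φ b (FF φ hT.hb G i) := by
  match i with
  | none => exact fun _ _ _ _ => rfl
  | some none => exact ext_NC hT G
  | some (some j) => exact ext_NC hT (fun x => x j)

theorem comb_NC {ι : Type} [Fintype ι] {F : ι → EE → ℝ} (hF : ∀ i, NC φ b (F i)) (c : ι → ℝ) :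
    NC φ b (comb F c) := by
  intro p hp s hs
  unfold comb
  exact Finset.sum_congr rfl fun i _ => by rw [hF i p hp s hs]

theorem inner_eq_sum (z x : EE) : ⟪z, x⟫ = ∑ j, z j * x j := by
  rw [PiLp.inner_apply]
  exact Finset.sum_congr rfl fun j _ => by simp [mul_comm]

theorem comb_FF (hT : SM436.Tube φ b) (G : EE → ℝ) (s θ : ℝ) (z : EE) {x : EE}
    (hx : x ∈ TR φ b) : comb (FF φ hT.hb G) (cc s θ z) x = uu G s θ z (SM436.pp φ x) := by
  unfold comb uu
  rw [Fintype.sum_option, Fintype.sum_option]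
  simp only [FF, cc, ext_eq hT _ hx, inner_eq_sum]
  have : ∑ j, -z j * SM436.pp φ x j = - ∑ j, z j * SM436.pp φ x j := by
    rw [← Finset.sum_neg_distrib]
    exact Finset.sum_congr rfl fun j _ => by ring
  rw [this]
  ring

theorem abs_coord_le (z : EE) (j : Fin n) : |z j| ≤ ‖z‖ := by
  have := PiLp.norm_apply_le z j
  rwa [Real.norm_eq_abs] at this

theorem abs_cc_le (s θ : ℝ) (z : EE) (i : Ix n) : |cc s θ z i| ≤ |s| + ‖z‖ + |θ| := by
  have h1 := abs_nonneg s
  have h2 := abs_nonneg θ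
  have h3 := norm_nonneg z
  match i with
  | none => simp only [cc]; linarith
  | some none => simp only [cc]; linarith
  | some (some j) =>
    simp only [cc, abs_neg]
    have := abs_coord_le z j
    linarith

/-- gradient of the extended direction at the link -/
theorem sgsq_comb_Lk (hT : SM436.Tube φ b) {G : EE → ℝ}
    (hG : ∀ p ∈ SM436.Lk φ, ContDiffAt ℝ ∞ G p) (s θ : ℝ) (z : EE) {p : EE}
    (hp : p ∈ SM436.Lk φ) :
    sgsq (comb (FF φ hT.hb G) (cc s θ z)) p = Hersch900.T (gradient φ) (uu G s θ z) p := by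
  have hpT := Lk_TR hT hp
  have h1 : comb (FF φ hT.hb G) (cc s θ z) =ᶠ[𝓝 p] fun x => uu G s θ z (SM436.pp φ x) := by
    filter_upwards [(isOpen_TR hT).mem_nhds hpT] with y hy using comb_FF hT G s θ z hy
  have hud : DifferentiableAt ℝ (uu G s θ z) p := by
    unfold uu
    exact (((sm_diff (hG p hp)).const_mul s).add_const θ).sub
      ((innerSL ℝ z).differentiableAt)
  set u := uu G s θ z with hu
  have h2 : HasFDerivAt (fun x => u (SM436.pp φ x)) ((fderiv ℝ u p).comp (SM436.PT φ p)) p := by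
    have h3 : HasFDerivAt u (fderiv ℝ u p) (SM436.pp φ p) := by
      rw [hT.pp_Lk hp]; exact hud.hasFDerivAt
    exact h3.comp p (hT.hasFDerivAt_pp_Lk hp)
  have h4 : gradient (comb (FF φ hT.hb G) (cc s θ z)) p = SM436.PT φ p (gradient u p) := by
    rw [gradient_congr h1]
    apply hasFDerivAt_gradient_eq
    refine h2.congr_fderiv ?_
    ext v
    rw [ContinuousLinearMap.comp_apply, innerSL_apply_apply, SM436.PT_symm, SM436.inner_gradient]
  have h5 : ‖fderiv ℝ u p‖ = ‖gradient u p‖ := by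
    rw [SM436.gradient_eq_comp]
    exact (LinearIsometryEquiv.norm_map _ _).symm
  rw [sgsq_eq, sdot_eq_inner, h4, hp.1, SM436.PT_symm, hT.PT_PT hp, SM436.PT_apply]
  unfold Hersch900.T
  rw [h5, ← SM436.inner_gradient, ← SM436.inner_gradient]
  simp only [inner_sub_right, real_inner_smul_right, real_inner_self_eq_norm_sq]
  rw [real_inner_comm (gradient u p) (gradient φ p), real_inner_comm (gradient u p) p]
  ring

/-- the quadratic form -/
def QQ (φ : EuclideanSpace ℝ (Fin n) → ℝ) (b m : ℝ) (u : EuclideanSpace ℝ (Fin n) → ℝ) : ℝ :=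
  ∫ x, Hersch900.T (gradient φ) u x ∂(SM436.mu φ b)
    - ∫ x, HerschSM900.A2 φ x * u x ^ 2 ∂(SM436.mu φ b) - m * ∫ x, u x ^ 2 ∂(SM436.mu φ b)

theorem integral_quad (hT : SM436.Tube φ b) {G : EE → ℝ}
    (hG : ∀ p ∈ SM436.Lk φ, ContDiffAt ℝ ∞ G p) (s θ : ℝ) (z : EE) :
    ∫ x, (sgsq (comb (FF φ hT.hb G) (cc s θ z)) x
      - qF φ hT.hb x * comb (FF φ hT.hb G) (cc s θ z) x ^ 2) ∂(SM436.mu φ b)
      = QQ φ b ((n : ℝ) - 2) (uu G s θ z) := by
  set f := comb (FF φ hT.hb G) (cc s θ z) with hf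
  set u := uu G s θ z with hu
  have fsm : SmHom0 f := comb_sm (FF_sm hT hG) _
  have hfu : ∀ p ∈ SM436.Lk φ, f p = u p := by
    intro p hp
    rw [hf, comb_FF hT G s θ z (Lk_TR hT hp), hT.pp_Lk hp]
  have c1 : ContinuousOn (sgsq f) (SM436.Lk φ) := fun p hp =>
    ((fsm.smooth_sgsq (hT.ne_zero_of_Lk hp)).continuousAt).continuousWithinAt
  have c2 : ContinuousOn f (SM436.Lk φ) := fun p hp =>
    (fsm.c1.cont (hT.ne_zero_of_Lk hp)).continuousWithinAt
  have c3 : ContinuousOn (qF φ hT.hb) (SM436.Lk φ) := fun p hp =>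
    ((qF_sm hT).cont (hT.ne_zero_of_Lk hp)).continuousWithinAt
  have i1 : Integrable (Hersch900.T (gradient φ) u) (SM436.mu φ b) :=
    hT.integrable_mu (c1.congr fun p hp => (sgsq_comb_Lk hT hG s θ z hp).symm)
  have i2 : Integrable (fun x => HerschSM900.A2 φ x * u x ^ 2) (SM436.mu φ b) := by
    have c4 : ContinuousOn (fun x => (qF φ hT.hb x - ((n : ℝ) - 2)) * f x ^ 2) (SM436.Lk φ) :=
      (c3.sub continuousOn_const).mul (c2.pow 2)
    refine hT.integrable_mu (c4.congr fun p hp => ?_)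
    show HerschSM900.A2 φ p * u p ^ 2 = (qF φ hT.hb p - ((n : ℝ) - 2)) * f p ^ 2
    rw [qF_Lk hT hp, hfu p hp]; ring
  have i3 : Integrable (fun x => u x ^ 2) (SM436.mu φ b) := by
    have c4 : ContinuousOn (fun x => f x ^ 2) (SM436.Lk φ) := c2.pow 2
    refine hT.integrable_mu (c4.congr fun p hp => ?_)
    show u p ^ 2 = f p ^ 2
    rw [hfu p hp]
  have h1 : ∫ x, (sgsq f x - qF φ hT.hb x * f x ^ 2) ∂(SM436.mu φ b)
      = ∫ x, (Hersch900.T (gradient φ) u x - HerschSM900.A2 φ x * u x ^ 2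
        - ((n : ℝ) - 2) * u x ^ 2) ∂(SM436.mu φ b) := by
    refine integral_congr_ae ?_
    filter_upwards [hT.ae_mem_Lk] with p hp
    rw [sgsq_comb_Lk hT hG s θ z hp, qF_Lk hT hp, hfu p hp]
    ring
  have i12 : Integrable (fun x => Hersch900.T (gradient φ) u x
      - HerschSM900.A2 φ x * u x ^ 2) (SM436.mu φ b) := i1.sub i2
  have i3' : Integrable (fun x => ((n : ℝ) - 2) * u x ^ 2) (SM436.mu φ b) := i3.const_mul _
  rw [h1, integral_sub i12 i3', integral_sub i1 i2, integral_const_mul]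
  rfl

/-! ### the second order term -/

theorem hasDerivAt_GG (ε t : ℝ) : ∃ G' : ℝ, HasDerivAt (GG ε) G' t := by
  have h1 := ((((hasDerivAt_tdiv (ε := ε) t).pow 2).const_sub 1).pow 2).const_mul (1 / ε)
  exact ⟨_, h1⟩

theorem sdot_eF (hT : SM436.Tube φ b) {f : EE → ℝ} {z : EE} (hz : z ∈ TR φ b)
    (hf : sdot (rF φ hT.hb) f z = 0) : sdot (eF φ hT.hb) f z = 0 := by
  have hz0 := hT.ne_zero hz.1
  have hr : |r0 φ z| < Real.pi / 2 := by
    unfold r0
    rw [abs_lt]
    exact ⟨Real.neg_pi_div_two_lt_arctan _, Real.arctan_lt_pi_div_two _⟩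
  have hcos : Real.cos (r0 φ z) ≠ 0 :=
    (Real.cos_pos_of_mem_Ioo ⟨(abs_lt.1 hr).1, (abs_lt.1 hr).2⟩).ne'
  have h1 : eF φ hT.hb =ᶠ[𝓝 z] fun x => (fun t => chE hT.hb (Real.tan t) * 1) (r0 φ x) := by
    refine Eventually.of_forall fun x => ?_
    show chE hT.hb (SM436.ta φ x) * 1 = chE hT.hb (Real.tan (Real.arctan (SM436.ta φ x))) * 1
    rw [Real.tan_arctan]
  have h2 : DifferentiableAt ℝ (fun t => chE hT.hb (Real.tan t) * 1) (r0 φ z) := by
    have h3 : DifferentiableAt ℝ (chE hT.hb) (Real.tan (r0 φ z)) :=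
      ((chE_sm hT.hb).contDiffAt).differentiableAt (by simp)
    exact (h3.comp (r0 φ z) (Real.differentiableAt_tan.2 hcos)).mul_const 1
  rw [sdot_congr_left h1, sdot_comp h2.hasDerivAt
    ((hasFDerivAt_r0 hT hz.1).differentiableAt)]
  have h4 : sdot (r0 φ) f z = sdot (rF φ hT.hb) f z := (sdot_congr_left (rF_ev hT hz)).symm
  rw [h4, hf, mul_zero]

theorem second_term (hT : SM436.Tube φ b) (hn : 0 < n) {K t1 : ℝ}
    (h : Tube (rF φ hT.hb) (eF φ hT.hb) (qF φ hT.hb) (TR φ b) t1 K) {f : EE → ℝ} (hf : SmHom0 f)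
    (hN : NC φ b f) (ε : ℝ) :
    ∫ z : Sph n, eF φ hT.hb z * GG ε (rF φ hT.hb z) * (qF φ hT.hb z * f z ^ 2 + f z * slap f z)
      ∂(sig n)
      = - ∫ z : Sph n, eF φ hT.hb z * GG ε (rF φ hT.hb z)
        * (sgsq f z - qF φ hT.hb z * f z ^ 2) ∂(sig n) := by
  set r := rF φ hT.hb with hr
  set η := eF φ hT.hb with hη
  set q := qF φ hT.hb with hq
  have rc : C1 r := (rF_sm hT).c1
  have ηc : C1 η := (eF_sm hT).c1
  have qc : C1 q := qF_sm hT
  have fc : C1 f := hf.c1
  have Lc : C1 (slap f) := hf.c1_slap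
  have hGC : ContDiff ℝ 1 (GG ε) := by
    unfold GG
    have h1 : ContDiff ℝ 1 fun t : ℝ => Real.tanh (t / ε) :=
      (tanh_contDiff.of_le (by exact_mod_cast le_top)).comp (contDiff_id.div_const ε)
    exact contDiff_const.mul ((contDiff_const.sub (h1.pow 2)).pow 2)
  have Gc : C1 (fun x => GG ε (r x)) := rc.comp hGC
  have wc : C1 (fun x => η x * GG ε (r x)) := ηc.mul Gc
  have ζc : C1 (fun x => (η x * GG ε (r x)) * f x) := wc.mul fc
  have hibp := sphere_ibp hn hf (ζ := fun x => (η x * GG ε (r x)) * f x) ζc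
  have hpt : ∀ z : Sph n, (η z * GG ε (r z)) * f z * slap f z
      + sdot (fun x => (η x * GG ε (r x)) * f x) f z
      = η z * GG ε (r z) * (q z * f z ^ 2 + f z * slap f z)
        + η z * GG ε (r z) * (sgsq f z - q z * f z ^ 2) := by
    intro z
    have hz := sph_ne z
    have hz1 : ‖(z : EE)‖ = 1 := by simp
    have h1 : sdot (fun x => η x * GG ε (r x)) f z = 0 := by
      rw [sdot_mul (ηc.diff hz) (Gc.diff hz)]
      by_cases hzT : (z : EE) ∈ TR φ b
      · have h2 : sdot r f z = 0 := by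
          rw [sdot_comm]
          exact sdot_NC hT fc hN hzT hz1
        obtain ⟨G', hG'⟩ := hasDerivAt_GG ε (r z)
        rw [sdot_comp hG' (rc.diff hz), h2, sdot_eF hT hzT h2]
        ring
      · rw [h.supp z hzT, h.sdot_η_zero hzT]
        ring
    rw [sdot_mul (wc.diff hz) (fc.diff hz), h1, ← sgsq_eq]
    ring
  have hc1 : ∀ x : EE, x ≠ 0 → ContinuousAt (fun x => η x * GG ε (r x)
      * (q x * f x ^ 2 + f x * slap f x)) x := fun x hx =>
    (wc.cont hx).mul (((qc.cont hx).mul ((fc.cont hx).pow 2)).add ((fc.cont hx).mul (Lc.cont hx)))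
  have hc2 : ∀ x : EE, x ≠ 0 → ContinuousAt (fun x => η x * GG ε (r x)
      * (sgsq f x - q x * f x ^ 2)) x := fun x hx =>
    (wc.cont hx).mul ((fc.cont_sdot fc hx).sub ((qc.cont hx).mul ((fc.cont hx).pow 2)))
  have i1 := integrable_sph hc1
  have i2 := integrable_sph hc2
  have h3 : ∫ z : Sph n, (η z * GG ε (r z) * (q z * f z ^ 2 + f z * slap f z)
        + η z * GG ε (r z) * (sgsq f z - q z * f z ^ 2)) ∂(sig n) = 0 := by
    rw [← hibp]
    exact integral_congr_ae (Eventually.of_forall fun z => (hpt z).symm)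
  rw [integral_add i1 i2] at h3
  linarith

end Crest.Agent.R246.IN200
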