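import Crest.Agent.R246.HerschSM_900

/-!
R246, part I (B), equality block, calculus (helper718): third and fourth derivatives of the signed
distance at good points, in ambient form.
-/

set_option autoImplicit false
set_option linter.unusedSectionVars false
set_option linter.unusedVariables false
set_option linter.unusedSimpArgs false

open MeasureTheory Filter Topology Set
open scoped RealInnerProductSpace ContDiff

noncomputable section

namespace Crest.Agent.R246.NC718

open Crest.Agent.R246.H990 Crest.Agent.R246.SM436 Crest.Agent.R246.HerschSM900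

variable {E : Type*} [NormedAddCommGroup E] [InnerProductSpace ℝ E] [FiniteDimensional ℝ E]
variable {F : Type*} [NormedAddCommGroup F] [NormedSpace ℝ F]

/-- third derivative: `D(hs φ)(x)` -/
def d3 (φ : E → ℝ) (x : E) : E →L[ℝ] E →L[ℝ] E := fderiv ℝ (hs φ) x

/-- fourth derivative: `D(d3 φ)(x)` -/
def d4 (φ : E → ℝ) (x : E) : E →L[ℝ] E →L[ℝ] E →L[ℝ] E := fderiv ℝ (d3 φ) x

lemma cdA_hs {φ : E → ℝ} {x : E} (h : Good φ x) : ContDiffAt ℝ ∞ (hs φ) x :=
  h.contDiffAt_gradient.fderiv_right (m := ∞) (by simp)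

lemma cdA_d3 {φ : E → ℝ} {x : E} (h : Good φ x) : ContDiffAt ℝ ∞ (d3 φ) x :=
  (cdA_hs h).fderiv_right (m := ∞) (by simp)

lemma fd_hs {φ : E → ℝ} {x : E} (h : Good φ x) : HasFDerivAt (hs φ) (d3 φ x) x :=
  ((cdA_hs h).differentiableAt (by simp)).hasFDerivAt

lemma fd_d3 {φ : E → ℝ} {x : E} (h : Good φ x) : HasFDerivAt (d3 φ) (d4 φ x) x :=
  ((cdA_d3 h).differentiableAt (by simp)).hasFDerivAt

lemma two_le_infty : (2 : WithTop ℕ∞) ≤ ∞ :=
  (WithTop.coe_le_coe.2 le_top : ((2 : ℕ∞) : WithTop ℕ∞) ≤ ((⊤ : ℕ∞) : WithTop ℕ∞))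

/-- derivative of a composition with a curve -/
lemma along {f : E → F} {f' : E →L[ℝ] F} {x v : E} {c : ℝ → E}
    (hf : HasFDerivAt f f' x) (hc : HasDerivAt c v 0) (hc0 : c 0 = x) :
    HasDerivAt (fun t => f (c t)) (f' v) 0 := by
  have h : HasFDerivAt f f' (c 0) := by rw [hc0]; exact hf
  exact h.comp_hasDerivAt 0 hc

/-- the line -/
def ln (x a : E) : ℝ → E := fun t => x + t • a

lemma ln_zero (x a : E) : ln x a 0 = x := by simp [ln]

lemma ln_deriv (x a : E) (t : ℝ) : HasDerivAt (ln x a) a t := by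
  have h2 : HasDerivAt (fun t : ℝ => t • a) ((1 : ℝ) • a) t := (hasDerivAt_id t).smul_const a
  rw [one_smul] at h2
  exact h2.const_add x

lemma curve_eventually {x v : E} {c : ℝ → E} {P : E → Prop} (hP : ∀ᶠ y in 𝓝 x, P y)
    (hc : ContinuousAt c 0) (hc0 : c 0 = x) : ∀ᶠ t in 𝓝 (0 : ℝ), P (c t) := by
  have h : Tendsto c (𝓝 0) (𝓝 x) := by rw [← hc0]; exact hc
  exact h.eventually hP

lemma good_nhds {φ : E → ℝ} {x : E} (h : Good φ x) : ∀ᶠ y in 𝓝 x, Good φ y :=
  (isOpen_good φ).mem_nhds h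

lemma zero_deriv {f : ℝ → F} {v : F} (hf : HasDerivAt f v 0) (h0 : ∀ᶠ t in 𝓝 (0 : ℝ), f t = 0) :
    v = 0 :=
  hf.unique ((hasDerivAt_const (0 : ℝ) (0 : F)).congr_of_eventuallyEq h0)

section sym
variable {φ : E → ℝ} {x : E} (h : Good φ x)
include h

lemma d3_symm (a b : E) : d3 φ x a b = d3 φ x b a := by
  have h2 : IsSymmSndFDerivAt ℝ (gradient φ) x :=
    h.contDiffAt_gradient.isSymmSndFDerivAt (by
      rw [minSmoothness_of_isRCLikeNormedField]; exact two_le_infty)
  exact h2 a b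

lemma d4_symm (a b : E) : d4 φ x a b = d4 φ x b a := by
  have h2 : IsSymmSndFDerivAt ℝ (hs φ) x :=
    (cdA_hs h).isSymmSndFDerivAt (by
      rw [minSmoothness_of_isRCLikeNormedField]; exact two_le_infty)
  exact h2 a b

lemma d3_inner (a b c : E) : ⟪d3 φ x a b, c⟫ = ⟪b, d3 φ x a c⟫ := by
  have h1 := along (fd_hs h) (ln_deriv x a 0) (ln_zero x a)
  have h2 := (h1.clm_apply (hasDerivAt_const (0 : ℝ) b)).inner ℝ (hasDerivAt_const (0 : ℝ) c)
  have h3 := (hasDerivAt_const (0 : ℝ) b).inner ℝ (h1.clm_apply (hasDerivAt_const (0 : ℝ) c))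
  have h4 := zero_deriv (h2.sub h3) (by
    filter_upwards [curve_eventually (v := a) (good_nhds h) (ln_deriv x a 0).continuousAt
      (ln_zero x a)] with t ht
    simp only [Pi.sub_apply]
    rw [ht.hs_symm, sub_self])
  simp only [map_zero, add_zero, inner_zero_right, zero_add, inner_zero_left] at h4
  linarith [h4]

lemma d4_symm' (a b c : E) : d4 φ x a b c = d4 φ x a c b := by
  have h1 := along (F := E →L[ℝ] E →L[ℝ] E) (fd_d3 h) (ln_deriv x a 0) (ln_zero x a)
  have h2 := (h1.clm_apply (hasDerivAt_const (0 : ℝ) b)).clm_apply (hasDerivAt_const (0 : ℝ) c)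
  have h3 := (h1.clm_apply (hasDerivAt_const (0 : ℝ) c)).clm_apply (hasDerivAt_const (0 : ℝ) b)
  have h4 := zero_deriv (h2.sub h3) (by
    filter_upwards [curve_eventually (v := a) (good_nhds h) (ln_deriv x a 0).continuousAt
      (ln_zero x a)] with t ht
    simp only [Pi.sub_apply]
    rw [d3_symm ht, sub_self])
  simp only [map_zero, add_zero] at h4
  exact sub_eq_zero.1 h4

lemma d4_inner (a b c d : E) : ⟪d4 φ x a b c, d⟫ = ⟪c, d4 φ x a b d⟫ := by
  have h1 := along (F := E →L[ℝ] E →L[ℝ] E) (fd_d3 h) (ln_deriv x a 0) (ln_zero x a)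
  have h2 := ((h1.clm_apply (hasDerivAt_const (0 : ℝ) b)).clm_apply
    (hasDerivAt_const (0 : ℝ) c)).inner ℝ (hasDerivAt_const (0 : ℝ) d)
  have h3 := (hasDerivAt_const (0 : ℝ) c).inner ℝ ((h1.clm_apply
    (hasDerivAt_const (0 : ℝ) b)).clm_apply (hasDerivAt_const (0 : ℝ) d))
  have h4 := zero_deriv (h2.sub h3) (by
    filter_upwards [curve_eventually (v := a) (good_nhds h) (ln_deriv x a 0).continuousAt
      (ln_zero x a)] with t ht
    simp only [Pi.sub_apply]
    rw [d3_inner ht, sub_self])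
  simp only [map_zero, add_zero, inner_zero_right, zero_add, inner_zero_left] at h4
  linarith [h4]

/-- `DH[a] N = - H² a` -/
lemma d3_gradient (a : E) : d3 φ x a (gradient φ x) = - hs φ x (hs φ x a) := by
  have h1 := along (fd_hs h) (ln_deriv x a 0) (ln_zero x a)
  have h0 := along h.hasFDerivAt_gradient (ln_deriv x a 0) (ln_zero x a)
  have h2 := h1.clm_apply h0
  have h4 := zero_deriv h2 (by
    filter_upwards [curve_eventually (v := a) (good_nhds h) (ln_deriv x a 0).continuousAt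
      (ln_zero x a)] with t ht
    exact ht.hs_gradient)
  simp only [ln_zero] at h4
  exact eq_neg_of_add_eq_zero_left h4

/-- `D²H[a][b] N = - DH[b] (H a) - DH[a] (H b) - H (DH[a] b)` -/
lemma d4_gradient (a b : E) : d4 φ x a b (gradient φ x) =
    - d3 φ x b (hs φ x a) - d3 φ x a (hs φ x b) - hs φ x (d3 φ x a b) := by
  have h1 := along (fd_hs h) (ln_deriv x a 0) (ln_zero x a)
  have h1' := along (F := E →L[ℝ] E →L[ℝ] E) (fd_d3 h) (ln_deriv x a 0) (ln_zero x a)
  have h0 := along h.hasFDerivAt_gradient (ln_deriv x a 0) (ln_zero x a)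
  have h2 := (h1'.clm_apply (hasDerivAt_const (0 : ℝ) b)).clm_apply h0
  have h3 := h1.clm_apply (h1.clm_apply (hasDerivAt_const (0 : ℝ) b))
  have h4 := zero_deriv (h2.add h3) (by
    filter_upwards [curve_eventually (v := a) (good_nhds h) (ln_deriv x a 0).continuousAt
      (ln_zero x a)] with t ht
    simp only [Pi.add_apply]
    rw [d3_gradient ht, neg_add_cancel])
  simp only [ln_zero, map_zero, add_zero] at h4
  have h5 : d4 φ x a b (gradient φ x) + (d3 φ x b (hs φ x a) + (d3 φ x a (hs φ x b) +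
    hs φ x (d3 φ x a b))) = 0 := by
    rw [← h4]; abel
  rw [eq_neg_of_add_eq_zero_left h5]
  abel

section hom
variable (hom : ∀ t : ℝ, 0 ≤ t → ∀ x, φ (t • x) = t * φ x)
include hom

/-- `DH[a] x = - H a` -/
lemma d3_self (a : E) : d3 φ x a x = - hs φ x a := by
  have h1 := along (fd_hs h) (ln_deriv x a 0) (ln_zero x a)
  have h2 := h1.clm_apply (ln_deriv x a 0)
  have h4 := zero_deriv h2 (by
    filter_upwards [curve_eventually (v := a) (good_nhds h) (ln_deriv x a 0).continuousAt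
      (ln_zero x a)] with t ht
    exact ht.hs_self hom)
  simp only [ln_zero] at h4
  exact eq_neg_of_add_eq_zero_left h4

/-- `D²H[a][b] x = - 2 DH[a] b` -/
lemma d4_self (a b : E) : d4 φ x a b x = - (2 : ℝ) • d3 φ x a b := by
  have h1 := along (fd_hs h) (ln_deriv x a 0) (ln_zero x a)
  have h1' := along (F := E →L[ℝ] E →L[ℝ] E) (fd_d3 h) (ln_deriv x a 0) (ln_zero x a)
  have h2 := (h1'.clm_apply (hasDerivAt_const (0 : ℝ) b)).clm_apply (ln_deriv x a 0)
  have h3 := h1.clm_apply (hasDerivAt_const (0 : ℝ) b)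
  have h4 := zero_deriv (h2.add h3) (by
    filter_upwards [curve_eventually (v := a) (good_nhds h) (ln_deriv x a 0).continuousAt
      (ln_zero x a)] with t ht
    simp only [Pi.add_apply]
    rw [d3_self ht hom, neg_add_cancel])
  simp only [ln_zero, map_zero, add_zero] at h4
  rw [d3_symm h b a] at h4
  have h5 : d4 φ x a b x + (2 : ℝ) • d3 φ x a b = 0 := by
    rw [← h4, two_smul]; abel
  rw [eq_neg_of_add_eq_zero_left h5, neg_smul]

end hom

end sym

/-! ### curves in the cone -/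

/-- the curve `t ↦ foot (x + t v)` -/
def cv (φ : E → ℝ) (x v : E) : ℝ → E :=
  fun t => ln x v t - φ (ln x v t) • gradient φ (ln x v t)

/-- its derivative -/
def cv' (φ : E → ℝ) (x v : E) : ℝ → E :=
  fun t => v - (⟪gradient φ (ln x v t), v⟫ • gradient φ (ln x v t) +
    φ (ln x v t) • hs φ (ln x v t) v)

lemma cv_zero {φ : E → ℝ} {x : E} (h0 : φ x = 0) (v : E) : cv φ x v 0 = x := by
  simp [cv, ln_zero, h0]

lemma cv'_zero {φ : E → ℝ} {x : E} (h0 : φ x = 0) {v : E} (hv : ⟪gradient φ x, v⟫ = 0) :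
    cv' φ x v 0 = v := by
  simp [cv', ln_zero, h0, hv]

lemma cv_deriv {φ : E → ℝ} {x v : E} {t : ℝ} (h : Good φ (ln x v t)) :
    HasDerivAt (cv φ x v) (cv' φ x v t) t := by
  have h1 := h.hasFDerivAt_gradient.comp_hasDerivAt t (ln_deriv x v t)
  have h2 := h.hasFDerivAt.comp_hasDerivAt t (ln_deriv x v t)
  have h3 := (ln_deriv x v t).sub (h2.smul h1)
  refine HasDerivAt.congr_deriv (f := cv φ x v) h3 ?_
  simp only [cv', Function.comp, innerSL_apply_apply]
  abel

lemma cv'_deriv {φ : E → ℝ} {x v : E} (h : Good φ x) (h0 : φ x = 0)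
    (hv : ⟪gradient φ x, v⟫ = 0) :
    HasDerivAt (cv' φ x v) (- (⟪hs φ x v, v⟫ • gradient φ x)) 0 := by
  have h1 := along h.hasFDerivAt_gradient (ln_deriv x v 0) (ln_zero x v)
  have h2 := along h.hasFDerivAt (ln_deriv x v 0) (ln_zero x v)
  have h3 := along (fd_hs h) (ln_deriv x v 0) (ln_zero x v)
  have h4 := (h1.inner ℝ (hasDerivAt_const (0 : ℝ) v)).smul h1
  have h5 := h2.smul (h3.clm_apply (hasDerivAt_const (0 : ℝ) v))
  have h6 := (h4.add h5).const_sub v
  refine HasDerivAt.congr_deriv (f := cv' φ x v) h6 ?_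
  simp only [ln_zero, h0, innerSL_apply_apply, hv, inner_zero_right, zero_add, zero_smul, map_zero,
    add_zero]

/-- the curve lies in the cone -/
lemma cv_mem {φ : E → ℝ} {x v : E} (h : Good φ x) (h0 : φ x = 0) :
    ∀ᶠ t in 𝓝 (0 : ℝ), φ (cv φ x v t) = 0 := by
  obtain ⟨r, hr, hball⟩ := Metric.isOpen_iff.1 (isOpen_good φ) x h
  have h1 : ContinuousAt (fun t => |φ (ln x v t)| + ‖ln x v t - x‖) 0 := by
    have h2 : ContinuousAt (ln x v) 0 := (ln_deriv x v 0).continuousAt
    have h3 : ContinuousAt φ (ln x v 0) := by rw [ln_zero]; exact h.differentiableAt.continuousAt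
    have h4 : ContinuousAt (fun t => φ (ln x v t)) 0 := ContinuousAt.comp (g := φ) h3 h2
    exact h4.abs.add (h2.sub continuousAt_const).norm
  have h5 : ∀ᶠ t in 𝓝 (0 : ℝ), |φ (ln x v t)| + ‖ln x v t - x‖ < r := by
    apply h1.eventually_lt continuousAt_const
    simp [ln_zero, h0, hr]
  filter_upwards [h5, curve_eventually (v := v) (good_nhds h) (ln_deriv x v 0).continuousAt
      (ln_zero x v)] with t ht hg
  obtain ⟨-, e2⟩ := normal_line (φ := φ) (y := ln x v t) (abs_nonneg (φ (ln x v t))) (by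
    intro s hs'
    apply hball
    rw [Metric.mem_ball, dist_eq_norm]
    have e1 : ln x v t + s • gradient φ (ln x v t) - x =
        (ln x v t - x) + s • gradient φ (ln x v t) := by abel
    rw [e1]
    refine (norm_add_le _ _).trans_lt ?_
    rw [norm_smul, hg.norm_gradient, mul_one, Real.norm_eq_abs]
    linarith) (- φ (ln x v t)) (by rw [abs_neg])
  rw [neg_smul, ← sub_eq_add_neg] at e2
  rw [cv, e2]; ring

/-- second derivative along the cone of a function vanishing on the cone -/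
lemma second_cone {φ : E → ℝ} {x v : E} (h : Good φ x) (h0 : φ x = 0)
    (hv : ⟪gradient φ x, v⟫ = 0) {g : E → F} {g' : E → E →L[ℝ] F} {g'' : E →L[ℝ] E →L[ℝ] F}
    (hg : ∀ᶠ y in 𝓝 x, HasFDerivAt g (g' y) y) (hg' : HasFDerivAt g' g'' x)
    (hz : ∀ᶠ y in 𝓝 x, φ y = 0 → g y = 0) :
    g' x v = 0 ∧ g'' v v = ⟪hs φ x v, v⟫ • g' x (gradient φ x) := by
  have hgl : ∀ᶠ t in 𝓝 (0 : ℝ), Good φ (ln x v t) :=
    curve_eventually (v := v) (good_nhds h) (ln_deriv x v 0).continuousAt (ln_zero x v)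
  have hcd : ∀ᶠ t in 𝓝 (0 : ℝ), HasDerivAt (cv φ x v) (cv' φ x v t) t := by
    filter_upwards [hgl] with t ht
    exact cv_deriv ht
  have hc0 : HasDerivAt (cv φ x v) v 0 := by
    have := hcd.self_of_nhds
    rwa [cv'_zero h0 hv] at this
  have hd1 : ∀ᶠ t in 𝓝 (0 : ℝ),
      HasDerivAt (fun t => g (cv φ x v t)) (g' (cv φ x v t) (cv' φ x v t)) t := by
    filter_upwards [hcd, curve_eventually (v := v) hg hc0.continuousAt (cv_zero h0 v)] with t h1 h2
    exact h2.comp_hasDerivAt t h1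
  have hzero : ∀ᶠ t in 𝓝 (0 : ℝ), g (cv φ x v t) = 0 := by
    filter_upwards [cv_mem (v := v) h h0,
      curve_eventually (v := v) hz hc0.continuousAt (cv_zero h0 v)] with t h1 h2
    exact h2 h1
  have hd2 : ∀ᶠ t in 𝓝 (0 : ℝ), g' (cv φ x v t) (cv' φ x v t) = 0 := by
    filter_upwards [hd1, hzero.eventually_nhds] with t h1 h2
    exact h1.unique ((hasDerivAt_const t (0 : F)).congr_of_eventuallyEq h2)
  have e1 : g' x v = 0 := by
    have := hd2.self_of_nhds
    rwa [cv_zero h0, cv'_zero h0 hv] at this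
  refine ⟨e1, ?_⟩
  have h3 := (along hg' hc0 (cv_zero h0 v)).clm_apply (cv'_deriv h h0 hv)
  have h4 := zero_deriv h3 hd2
  rw [cv_zero h0, cv'_zero h0 hv, map_neg, map_smul, ← sub_eq_add_neg] at h4
  exact sub_eq_zero.1 h4

end Crest.Agent.R246.NC718
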