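import Crest.Agent.R246.SM5_436
import Crest.Agent.R246.Visc_475

/-!
# Smooth minimal hypercones: Green's identities (helper436)
-/

set_option autoImplicit false
set_option linter.unusedSectionVars false
set_option linter.unusedSimpArgs false
noncomputable section
open MeasureTheory Set Filter Topology Module
open scoped RealInnerProductSpace ContDiff

namespace Crest.Agent.R246.SM436

open Crest.Agent.R246.H990

variable {E : Type*} [NormedAddCommGroup E] [InnerProductSpace ℝ E] [FiniteDimensional ℝ E]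
  [MeasurableSpace E] [BorelSpace E]

/-- the Laplacian of the link `M'` (`m = dim M'`). -/
def Lap (m : ℝ) (φ g : E → ℝ) (p : E) : ℝ :=
  tr ((fderiv ℝ (gradient g) p).comp (PT φ p)) - m * ⟪p, gradient g p⟫

lemma gradient_eq_comp' (g : E → ℝ) :
    gradient g = fun x => (InnerProductSpace.toDual ℝ E).symm (fderiv ℝ g x) := rfl

lemma contDiffAt_gradient' {g : E → ℝ} {p : E} {k : WithTop ℕ∞} (hg : ContDiffAt ℝ (k + 1) g p) :
    ContDiffAt ℝ k (gradient g) p := by
  rw [gradient_eq_comp']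
  exact (InnerProductSpace.toDual ℝ E).symm.toContinuousLinearEquiv.contDiff.contDiffAt.comp p
    (hg.fderiv_right (m := k) le_rfl)

lemma fderiv_gradient_inner {g : E → ℝ} {p : E} (hg : ContDiffAt ℝ 2 g p) (v w : E) :
    ⟪w, fderiv ℝ (gradient g) p v⟫ = fderiv ℝ (fderiv ℝ g) p v w := by
  have h1 : HasFDerivAt (fderiv ℝ g) (fderiv ℝ (fderiv ℝ g) p) p :=
    ((hg.fderiv_right (m := 1) (by norm_num)).differentiableAt (by norm_num)).hasFDerivAt
  have h2 : HasFDerivAt (gradient g) (fderiv ℝ (gradient g) p) p :=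
    ((contDiffAt_gradient' (k := 1) (by simpa [one_add_one_eq_two] using hg)).differentiableAt
      (by simp)).hasFDerivAt
  have h3 : HasFDerivAt (fun x => ⟪w, gradient g x⟫)
      ((innerSL ℝ w).comp (fderiv ℝ (gradient g) p)) p := (innerSL ℝ w).hasFDerivAt.comp p h2
  have h4 : (fun x => ⟪w, gradient g x⟫) = fun x => fderiv ℝ g x w := by
    funext x
    rw [real_inner_comm, SM436.inner_gradient]
  rw [h4] at h3
  have h5 : HasFDerivAt (fun x => fderiv ℝ g x w) ((fderiv ℝ (fderiv ℝ g) p).flip w) p := by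
    simpa using h1.clm_apply (hasFDerivAt_const w p)
  have h6 := h3.unique h5
  have h7 := congrArg (fun L : E →L[ℝ] ℝ => L v) h6
  simpa using h7

namespace Tube

variable {φ : E → ℝ} {b : ℝ} (hT : Tube φ b)
include hT

lemma PT_adj (p : E) (v w : E) : ⟪PT φ p v, w⟫ = ⟪v, PT φ p w⟫ := PT_symm φ p v w

/-- 475's operator -/
lemma Lop_eq {ι : Type*} [Fintype ι] (e : OrthonormalBasis ι ℝ E) (m : ℝ) {f : E → ℝ} {p : E}
    (hp : p ∈ Lk φ) (hf : ContDiffAt ℝ 2 f p) :
    Visc475.Lop (fun i x => PT φ x (e i)) (fun x => -m • x) f p = Lap m φ f p := by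
  rw [Visc475.Lop, Lap, hT.trace_comp_PT hp _ e, map_smul, smul_eq_mul,
    ← SM436.inner_gradient f p p, real_inner_comm p (gradient f p)]
  have h1 : ∀ i, fderiv ℝ (fderiv ℝ f) p (PT φ p (e i)) (PT φ p (e i))
      = ⟪PT φ p (e i), fderiv ℝ (gradient f) p (PT φ p (e i))⟫ := fun i =>
    (fderiv_gradient_inner hf _ _).symm
  simp only [h1]
  ring

lemma continuousOn_fderiv_Lk {f : E → ℝ} (hf : ∀ p ∈ Lk φ, ContDiffAt ℝ 1 f p) :
    ContinuousOn (fderiv ℝ f) (Lk φ) := fun p hp =>
  ((hf p hp).fderiv_right (m := 0) (by simp)).continuousAt.continuousWithinAt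

lemma continuousOn_grad_Lk {f : E → ℝ} (hf : ∀ p ∈ Lk φ, ContDiffAt ℝ 1 f p) :
    ContinuousOn (gradient f) (Lk φ) := fun p hp =>
  (contDiffAt_gradient' (k := 0) (by simpa using hf p hp)).continuousAt.continuousWithinAt

lemma continuousOn_PT : ContinuousOn (PT φ) (Lk φ) := by
  have h := hT.continuousOn_gradient_Lk
  have h1 : ContinuousOn (fun p => innerSL ℝ (gradient φ p)) (Lk φ) :=
    (innerSL ℝ).continuous.comp_continuousOn h
  have h2 : ContinuousOn (fun p : E => innerSL ℝ p) (Lk φ) := (innerSL ℝ).continuous.continuousOn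
  have h3 : ContinuousOn (fun p => ContinuousLinearMap.smulRightL ℝ E E
      (innerSL ℝ (gradient φ p)) (gradient φ p)) (Lk φ) :=
    ((ContinuousLinearMap.smulRightL ℝ E E).continuous.comp_continuousOn h1).clm_apply h
  have h4 : ContinuousOn (fun p : E => ContinuousLinearMap.smulRightL ℝ E E
      (innerSL ℝ p) p) (Lk φ) :=
    ((ContinuousLinearMap.smulRightL ℝ E E).continuous.comp_continuousOn h2).clm_apply
      continuousOn_id
  exact (continuousOn_const.sub h3).sub h4

lemma continuousOn_Lap (m : ℝ) {g : E → ℝ} (hg : ∀ p ∈ Lk φ, ContDiffAt ℝ 2 g p) :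
    ContinuousOn (Lap m φ g) (Lk φ) := by
  have h1 : ContinuousOn (fderiv ℝ (gradient g)) (Lk φ) := fun p hp =>
    ((contDiffAt_gradient' (k := 1) (by simpa [one_add_one_eq_two] using hg p hp)).fderiv_right
      (m := 0) (by simp)).continuousAt.continuousWithinAt
  have h2 : ContinuousOn (gradient g) (Lk φ) :=
    hT.continuousOn_grad_Lk fun p hp => (hg p hp).of_le (by norm_num)
  have h3 := h1.clm_comp hT.continuousOn_PT
  exact (continuous_tr.comp_continuousOn h3).sub
    (continuousOn_const.mul (continuousOn_id.inner h2))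

/-- **Green's identity on `M'`.** -/
theorem green {m : ℕ} (hE : finrank ℝ E = m + 2)
    (hmin : ∀ p ∈ Lk φ, LinearMap.trace ℝ E (hs φ p : E →ₗ[ℝ] E) = 0)
    {f g : E → ℝ} (hf : ∀ p ∈ Lk φ, ContDiffAt ℝ 1 f p) (hg : ∀ p ∈ Lk φ, ContDiffAt ℝ 2 g p) :
    ∫ p, f p * Lap m φ g p ∂(mu φ b)
      = -∫ p, ⟪PT φ p (gradient f p), PT φ p (gradient g p)⟫ ∂(mu φ b) := by
  have hNt : Nontrivial E := by
    apply Module.nontrivial_of_finrank_pos (R := ℝ)
    omega
  have hg1 : ∀ p ∈ Lk φ, ContDiffAt ℝ 1 (gradient g) p := fun p hp =>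
    contDiffAt_gradient' (by simpa [one_add_one_eq_two] using hg p hp)
  have key := hT.first_variation (X := fun y => f y • gradient g y)
    (fun p hp => (hf p hp).smul (hg1 p hp)) hmin
  have hgf := hT.continuousOn_grad_Lk hf
  have hgg := hT.continuousOn_grad_Lk fun p hp => (hg p hp).of_le (by norm_num)
  have hfc : ContinuousOn f (Lk φ) := fun p hp => (hf p hp).continuousAt.continuousWithinAt
  have i1 : Integrable (fun p => f p * Lap m φ g p) (mu φ b) :=
    hT.integrable_mu (hfc.mul (hT.continuousOn_Lap m hg))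
  have i2 : Integrable (fun p => ⟪PT φ p (gradient f p), PT φ p (gradient g p)⟫) (mu φ b) :=
    hT.integrable_mu ((hT.continuousOn_PT_apply hgf).inner (hT.continuousOn_PT_apply hgg))
  have e1 : ∫ p, (tr ((fderiv ℝ (fun y => f y • gradient g y) p).comp (PT φ p))
        - (finrank ℝ E - 2) * ⟪p, f p • gradient g p⟫) ∂(mu φ b)
      = ∫ p, (f p * Lap m φ g p + ⟪PT φ p (gradient f p), PT φ p (gradient g p)⟫) ∂(mu φ b) := by
    refine integral_congr_ae ?_
    filter_upwards [hT.ae_mem_Lk] with p hp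
    have d1 : HasFDerivAt f (fderiv ℝ f p) p := ((hf p hp).differentiableAt (by simp)).hasFDerivAt
    have d2 : HasFDerivAt (gradient g) (fderiv ℝ (gradient g) p) p :=
      ((hg1 p hp).differentiableAt (by simp)).hasFDerivAt
    have d3 := d1.smul d2
    have h1 : fderiv ℝ (fun y => f y • gradient g y) p
        = f p • fderiv ℝ (gradient g) p + (fderiv ℝ f p).smulRight (gradient g p) := by
      have h2 : (fun y => f y • gradient g y) = f • gradient g := rfl
      rw [h2]
      exact d3.fderiv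
    have h2 : (f p • fderiv ℝ (gradient g) p + (fderiv ℝ f p).smulRight (gradient g p)).comp
        (PT φ p) = f p • ((fderiv ℝ (gradient g) p).comp (PT φ p))
          + ((fderiv ℝ f p).comp (PT φ p)).smulRight (gradient g p) := by
      ext v; simp
    rw [h1, h2, tr_add, tr_smul, tr_smulRight, ContinuousLinearMap.comp_apply,
      PT_symm, hT.PT_PT hp, SM436.inner_gradient f, Lap, real_inner_smul_right, hE]
    push_cast
    ring
  rw [e1, integral_add i1 i2] at key
  linarith

/-- `∫ Δ g = 0`. -/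
theorem integral_Lap_zero {m : ℕ} (hE : finrank ℝ E = m + 2)
    (hmin : ∀ p ∈ Lk φ, LinearMap.trace ℝ E (hs φ p : E →ₗ[ℝ] E) = 0)
    {g : E → ℝ} (hg : ∀ p ∈ Lk φ, ContDiffAt ℝ 2 g p) :
    ∫ p, Lap m φ g p ∂(mu φ b) = 0 := by
  have h := hT.green hE hmin (f := fun _ => 1) (fun p _ => contDiffAt_const) hg
  have h1 : ∀ p : E, gradient (fun _ : E => (1 : ℝ)) p = 0 := by
    intro p
    rw [gradient_eq_comp']
    simp
  simpa [h1] using h

/-- 475's form. -/
theorem integral_Lop_zero {m : ℕ} (hE : finrank ℝ E = m + 2) {ι : Type*} [Fintype ι]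
    (e : OrthonormalBasis ι ℝ E)
    (hmin : ∀ p ∈ Lk φ, LinearMap.trace ℝ E (hs φ p : E →ₗ[ℝ] E) = 0)
    {f : E → ℝ} (hf : ContDiff ℝ 2 f) :
    ∫ p, Visc475.Lop (fun i x => PT φ x (e i)) (fun x => -(m : ℝ) • x) f p ∂(mu φ b) = 0 := by
  rw [← hT.integral_Lap_zero hE hmin (g := f) (fun p _ => hf.contDiffAt)]
  refine integral_congr_ae ?_
  filter_upwards [hT.ae_mem_Lk] with p hp
  exact hT.Lop_eq e _ hp hf.contDiffAt

end Tube

end Crest.Agent.R246.SM436
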