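import Crest.Agent.R246.IdxL_149
import Crest.Agent.R246.SM6_436
import Crest.Agent.R246.NC1_718

/-!
# Step 4 (I): Lemma L for smooth minimal hypercones, part 1: pointwise facts

* `lap_nu` : `L ⟨a, ν⟩ = -|A|² ⟨a, ν⟩` on the link;
* `flat_of_plane` : an open piece of the link in a hyperplane section is totally geodesic.
-/

set_option autoImplicit false
noncomputable section
open MeasureTheory Set Filter Topology Module
open scoped RealInnerProductSpace ContDiff

namespace Crest.Agent.R246.IdxG149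

open Crest.Agent.R246.H990 Crest.Agent.R246.SM436 Crest.Agent.R246.HerschSM900
  Crest.Agent.R246.NC718

variable {E : Type*} [NormedAddCommGroup E] [InnerProductSpace ℝ E] [FiniteDimensional ℝ E]
  [MeasurableSpace E] [BorelSpace E]

variable {φ : E → ℝ} {b : ℝ}

/-- trace of `L ∘ PT` -/
lemma tr_comp_PT' (L : E →L[ℝ] E) (p : E) :
    tr (L.comp (PT φ p)) = tr L - ⟪gradient φ p, L (gradient φ p)⟫ - ⟪p, L p⟫ := by
  have e : L.comp (PT φ p) = L - (innerSL ℝ (gradient φ p)).smulRight (L (gradient φ p)) -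
      (innerSL ℝ p).smulRight (L p) := by
    ext v
    simp [PT_apply]
  rw [e, tr_sub, tr_sub, tr_smulRight, tr_smulRight, innerSL_apply_apply, innerSL_apply_apply]

/-- trace of the Hessian in the tube -/
lemma trace_hs_tube (hT : Tube φ b)
    (hmin : ∀ x, x ≠ 0 → φ x = 0 → LinearMap.trace ℝ E (hs φ x : E →ₗ[ℝ] E) = 0) {y : E}
    (hy : y ∈ TT φ b) : tr (hs φ y) = φ y * (- tr ((hs φ (ft φ y)).comp (hs φ y))) := by
  have h0 : tr (hs φ (ft φ y)) = 0 := hmin _ (hT.ft_ne_zero hy) (hT.phi_ft hy)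
  have h1 : hs φ y = hs φ (ft φ y) - φ y • (hs φ (ft φ y)).comp (hs φ y) := by
    conv_lhs => rw [hT.hs_eq_comp hy]
    ext v
    simp only [ContinuousLinearMap.comp_apply, hT.dft_apply, map_sub, map_add, map_smul, sub_apply,
      smul_apply, hT.hs_ft_gradient hy, smul_zero, add_zero]
  conv_lhs => rw [h1]
  rw [tr_sub, tr_smul, h0]
  ring

/-- derivative of the trace of the Hessian at the link -/
lemma trace_d3 (hT : Tube φ b)
    (hmin : ∀ x, x ≠ 0 → φ x = 0 → LinearMap.trace ℝ E (hs φ x : E →ₗ[ℝ] E) = 0) {p : E}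
    (hp : p ∈ Lk φ) (a : E) : tr (d3 φ p a) = - (A2 φ p * ⟪gradient φ p, a⟫) := by
  have hpT := hT.TT_of_Lk hp
  have hg := hT.good hpT
  let trL : (E →L[ℝ] E) →L[ℝ] ℝ := LinearMap.toContinuousLinearMap
    { toFun := fun L => tr L
      map_add' := tr_add
      map_smul' := fun c L => tr_smul c L }
  have htrL : ∀ L : E →L[ℝ] E, trL L = tr L := fun L => rfl
  have h1 : HasFDerivAt (fun y => tr (hs φ y)) (trL.comp (d3 φ p)) p := by
    have := trL.hasFDerivAt.comp p (fd_hs hg)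
    exact this
  have hR : ContDiffAt ℝ ∞ (fun y => - tr ((hs φ (ft φ y)).comp (hs φ y))) p := by
    have c1 : ContDiffAt ℝ ∞ (fun y => hs φ (ft φ y)) p := by
      have c0 : ContDiffAt ℝ ∞ (hs φ) (ft φ p) := cdA_hs (hT.good (hT.ft_mem_TT hpT))
      exact c0.comp p (hT.contDiffAt_ft hpT)
    have c2 : ContDiffAt ℝ ∞ (fun y => (hs φ (ft φ y)).comp (hs φ y)) p := c1.clm_comp (cdA_hs hg)
    exact (trL.contDiff.contDiffAt.comp p c2).neg
  have h2 : HasFDerivAt (fun y => φ y * (- tr ((hs φ (ft φ y)).comp (hs φ y))))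
      (φ p • fderiv ℝ (fun y => - tr ((hs φ (ft φ y)).comp (hs φ y))) p +
        (- tr ((hs φ (ft φ p)).comp (hs φ p))) • innerSL ℝ (gradient φ p)) p :=
    hg.hasFDerivAt.mul (hR.differentiableAt (by simp)).hasFDerivAt
  have h3 : (fun y => tr (hs φ y)) =ᶠ[𝓝 p]
      fun y => φ y * (- tr ((hs φ (ft φ y)).comp (hs φ y))) := by
    filter_upwards [hT.isOpen_TT.mem_nhds hpT] with y hy
    exact trace_hs_tube hT hmin hy
  have h4 := DFunLike.congr_fun (h1.unique (h2.congr_of_eventuallyEq h3)) a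
  rw [hT.ft_Lk hp, hp.2, zero_smul, zero_add] at h4
  have h5 : tr (d3 φ p a) = (-tr ((hs φ p).comp (hs φ p))) * ⟪gradient φ p, a⟫ := by
    simpa [htrL] using h4
  rw [h5]
  have h6 : tr ((hs φ p).comp (hs φ p)) = A2 φ p := rfl
  rw [h6]
  ring

omit [MeasurableSpace E] [BorelSpace E] in
/-- gradient of `⟨a, ν⟩` -/
lemma gradient_nu {p : E} (hg : Good φ p) (a : E) :
    gradient (fun x => ⟪a, gradient φ x⟫) p = hs φ p a := by
  refine ext_inner_right ℝ fun v => ?_
  rw [SM436.inner_gradient]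
  have h1 : HasFDerivAt (fun x => ⟪a, gradient φ x⟫) ((innerSL ℝ a).comp (hs φ p)) p :=
    (innerSL ℝ a).hasFDerivAt.comp p hg.hasFDerivAt_gradient
  rw [h1.fderiv, ContinuousLinearMap.comp_apply, innerSL_apply_apply, hg.hs_symm]

/-- `L ⟨a, ν⟩ = -|A|² ⟨a, ν⟩`. -/
theorem lap_nu (hT : Tube φ b)
    (hmin : ∀ x, x ≠ 0 → φ x = 0 → LinearMap.trace ℝ E (hs φ x : E →ₗ[ℝ] E) = 0) {p : E}
    (hp : p ∈ Lk φ) (m : ℝ) (a : E) :
    Lap m φ (fun x => ⟪a, gradient φ x⟫) p = - (A2 φ p * ⟪a, gradient φ p⟫) := by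
  have hg := hT.good (hT.TT_of_Lk hp)
  have e1 : gradient (fun x => ⟪a, gradient φ x⟫) =ᶠ[𝓝 p] fun x => hs φ x a := by
    filter_upwards [good_nhds hg] with y hy using gradient_nu hy a
  have e2 : fderiv ℝ (gradient (fun x => ⟪a, gradient φ x⟫)) p = d3 φ p a := by
    rw [e1.fderiv_eq]
    have h1 : HasFDerivAt (fun x => hs φ x a) ((d3 φ p).flip a) p := by
      simpa using (fd_hs hg).clm_apply (hasFDerivAt_const a p)
    rw [h1.fderiv]
    ext v
    rw [ContinuousLinearMap.flip_apply, d3_symm hg]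
  rw [Lap, e2, e1.self_of_nhds, tr_comp_PT', trace_d3 hT hmin hp a, d3_gradient hg,
    d3_self hg hT.hom]
  have e3 : ⟪gradient φ p, -(hs φ p) ((hs φ p) a)⟫ = 0 := by
    rw [inner_neg_right, ← hg.hs_symm, hg.hs_gradient, inner_zero_left, neg_zero]
  have e4 : ⟪p, -(hs φ p) a⟫ = 0 := by
    rw [inner_neg_right, ← hg.hs_symm, hg.hs_self hT.hom, inner_zero_left, neg_zero]
  have e5 : ⟪p, (hs φ p) a⟫ = 0 := by
    rw [← hg.hs_symm, hg.hs_self hT.hom, inner_zero_left]
  rw [e3, e4, e5, real_inner_comm]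
  ring

omit [MeasurableSpace E] [BorelSpace E] in
/-- gradient of `⟨a, x⟩` -/
lemma gradient_lin (a p : E) : gradient (fun x : E => ⟪a, x⟫) p = a := by
  refine ext_inner_right ℝ fun v => ?_
  rw [SM436.inner_gradient]
  have h1 : HasFDerivAt (fun x : E => ⟪a, x⟫) (innerSL ℝ a) p := (innerSL ℝ a).hasFDerivAt
  rw [h1.fderiv, innerSL_apply_apply]

omit [MeasurableSpace E] [BorelSpace E] in
lemma lap_lin (m : ℝ) (a p : E) : Lap m φ (fun x : E => ⟪a, x⟫) p = - (m * ⟪a, p⟫) := by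
  have e : gradient (fun x : E => ⟪a, x⟫) = fun _ => a := funext fun p => gradient_lin a p
  rw [Lap, e, real_inner_comm]
  simp [tr]

omit [MeasurableSpace E] [BorelSpace E] in
/-- the inner product as a bilinear continuous map -/
def JJ : E →L[ℝ] E →L[ℝ] ℝ := LinearMap.toContinuousLinearMap
  { toFun := fun y => innerSL ℝ y
    map_add' := fun x y => by simp
    map_smul' := fun c x => by ext v; simp }

omit [MeasurableSpace E] [BorelSpace E] in
lemma JJ_apply (x y : E) : (JJ : E →L[ℝ] E →L[ℝ] ℝ) x y = ⟪x, y⟫ := rfl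

/-- an open piece of the link contained in a hyperplane section is totally geodesic -/
theorem flat_of_plane (hT : Tube φ b) {m : ℕ} (hm : 1 ≤ m) (hE : finrank ℝ E = m + 2) {p : E}
    (hp : p ∈ Lk φ) (htr : LinearMap.trace ℝ E (hs φ p : E →ₗ[ℝ] E) = 0) {z : E} (hz : z ≠ 0)
    {θ : ℝ} (h : ∀ᶠ y in 𝓝 p, φ y = 0 → ⟪z, y⟫ = θ * ‖y‖) : hs φ p = 0 := by
  have hg := hT.good (hT.TT_of_Lk hp)
  by_cases hθ : θ = 0
  · subst hθ
    have hsec : ∀ v, ⟪gradient φ p, v⟫ = 0 → ⟪z, v⟫ = 0 ∧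
        (0 : ℝ) = ⟪hs φ p v, v⟫ * ⟪z, gradient φ p⟫ := by
      intro v hv
      have := second_cone (F := ℝ) hg hp.2 hv (g := fun x => ⟪z, x⟫) (g' := fun _ => innerSL ℝ z)
        (g'' := 0) (Eventually.of_forall fun y => (innerSL ℝ z).hasFDerivAt)
        (hasFDerivAt_const _ _) (by
          filter_upwards [h] with y hy hy0
          rw [hy hy0, zero_mul])
      simpa using this
    have hzν : ⟪z, gradient φ p⟫ ≠ 0 := by
      intro h0
      apply hz
      have h1 : ⟪gradient φ p, z⟫ = 0 := by rw [real_inner_comm]; exact h0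
      exact inner_self_eq_zero.1 (hsec z h1).1
    have hq : ∀ v, ⟪gradient φ p, v⟫ = 0 → ⟪hs φ p v, v⟫ = 0 := fun v hv => by
      have := (hsec v hv).2
      rcases mul_eq_zero.1 this.symm with h1 | h1
      · exact h1
      · exact absurd h1 hzν
    -- all vectors
    have hq' : ∀ v, ⟪hs φ p v, v⟫ = 0 := by
      intro v
      set w := v - ⟪gradient φ p, v⟫ • gradient φ p with hw
      have hw0 : ⟪gradient φ p, w⟫ = 0 := by
        rw [hw, inner_sub_right, real_inner_smul_right, real_inner_self_eq_norm_sq,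
          hg.norm_gradient]
        ring
      have hv : v = w + ⟪gradient φ p, v⟫ • gradient φ p := by rw [hw]; abel
      have h1 : hs φ p v = hs φ p w := by
        conv_lhs => rw [hv]
        rw [map_add, map_smul, hg.hs_gradient, smul_zero, add_zero]
      rw [h1]
      conv_lhs => rw [hv]
      rw [inner_add_right, hq w hw0, real_inner_smul_right, hg.hs_symm, hg.hs_gradient,
        inner_zero_right]
      ring
    ext v
    rw [zero_apply]
    refine ext_inner_right ℝ fun w => ?_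
    rw [inner_zero_left]
    have h1 := hq' (v + w)
    have h2 : ⟪hs φ p w, v⟫ = ⟪hs φ p v, w⟫ := by rw [hg.hs_symm w v, real_inner_comm]
    rw [map_add, inner_add_left, inner_add_right, inner_add_right, hq' v, hq' w, h2] at h1
    linarith
  · exfalso
    have hθp : ⟪z, p⟫ = θ := by
      have := h.self_of_nhds hp.2
      rwa [hp.1, mul_one] at this
    have hd1 : ∀ y : E, HasFDerivAt (fun x : E => ⟪z, x⟫ ^ 2 - θ ^ 2 * ‖x‖ ^ 2)
        ((2 * ⟪z, y⟫) • innerSL ℝ z - (2 * θ ^ 2) • innerSL ℝ y) y := by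
      intro y
      have a1 : HasFDerivAt (fun x : E => ⟪z, x⟫ ^ 2) ((2 * ⟪z, y⟫) • innerSL ℝ z) y := by
        have := ((innerSL ℝ z).hasFDerivAt (x := y)).pow 2
        refine this.congr_fderiv ?_
        ext v; simp
      have a2 : HasFDerivAt (fun x : E => ‖x‖ ^ 2) ((2 : ℝ) • innerSL ℝ y) y := by
        have := (hasStrictFDerivAt_norm_sq y).hasFDerivAt
        refine this.congr_fderiv ?_
        ext v; simp
      refine (a1.sub (a2.const_mul (θ ^ 2))).congr_fderiv ?_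
      ext v
      simp
      ring
    have hd2 : HasFDerivAt (fun y : E => (2 * ⟪z, y⟫) • innerSL ℝ z - (2 * θ ^ 2) • innerSL ℝ y)
        (((2 : ℝ) • innerSL ℝ z).smulRight (innerSL ℝ z) -
          (2 * θ ^ 2) • JJ) p := by
      have a2 : HasFDerivAt (fun y : E => (2 * ⟪z, y⟫) • innerSL ℝ z)
          (((2 : ℝ) • innerSL ℝ z).smulRight (innerSL ℝ z)) p :=
        (((2 : ℝ) • innerSL ℝ z).smulRight (innerSL ℝ z) : E →L[ℝ] E →L[ℝ] ℝ).hasFDerivAt
      have a3 : HasFDerivAt (fun y : E => innerSL ℝ y) (JJ : E →L[ℝ] E →L[ℝ] ℝ) p :=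
        (JJ : E →L[ℝ] E →L[ℝ] ℝ).hasFDerivAt
      exact a2.sub (a3.const_smul (2 * θ ^ 2))
    have hsec : ∀ v, ⟪gradient φ p, v⟫ = 0 → θ * ⟪z, v⟫ = θ ^ 2 * ⟪p, v⟫ ∧
        2 * ⟪z, v⟫ * ⟪z, v⟫ - 2 * θ ^ 2 * ⟪v, v⟫ =
          ⟪hs φ p v, v⟫ * (2 * θ * ⟪z, gradient φ p⟫) := by
      intro v hv
      have := second_cone (F := ℝ) hg hp.2 hv (g := fun x => ⟪z, x⟫ ^ 2 - θ ^ 2 * ‖x‖ ^ 2)
        (g' := fun y => (2 * ⟪z, y⟫) • innerSL ℝ z - (2 * θ ^ 2) • innerSL ℝ y)
        (Eventually.of_forall hd1) hd2 (by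
          filter_upwards [h] with y hy hy0
          rw [hy hy0]; ring)
      obtain ⟨h1, h2⟩ := this
      simp only [sub_apply, smul_apply, innerSL_apply_apply, smul_eq_mul,
        ContinuousLinearMap.smulRight_apply, hθp, JJ_apply] at h1 h2
      have hpν : ⟪p, gradient φ p⟫ = 0 := by
        rw [real_inner_comm, hT.inner_gradient_Lk hp]
      rw [hpν] at h2
      constructor
      · linarith
      · linarith
    -- trace
    set c := ⟪z, gradient φ p⟫ with hc
    have hv : ∀ v, -(θ * ⟪PT φ p v, PT φ p v⟫) = c * ⟪PT φ p v, hs φ p (PT φ p v)⟫ := by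
      intro v
      have g1 : ⟪gradient φ p, PT φ p v⟫ = 0 := by
        rw [← PT_symm, hT.PT_gradient hp, inner_zero_left]
      have g2 : ⟪p, PT φ p v⟫ = 0 := by
        rw [← PT_symm, hT.PT_self hp, inner_zero_left]
      obtain ⟨k1, k2⟩ := hsec _ g1
      rw [g2, mul_zero] at k1
      have k3 : ⟪z, PT φ p v⟫ = 0 := (mul_eq_zero.1 k1).resolve_left hθ
      rw [k3] at k2
      rw [real_inner_comm (hs φ p (PT φ p v)) (PT φ p v)]
      have : θ * (-(θ * ⟪PT φ p v, PT φ p v⟫)) = θ * (c * ⟪hs φ p (PT φ p v), PT φ p v⟫) := by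
        linarith
      exact mul_left_cancel₀ hθ this
    have e := stdOrthonormalBasis ℝ E
    have s1 : tr ((ContinuousLinearMap.id ℝ E).comp (PT φ p)) = ∑ i, ⟪PT φ p (e i), PT φ p (e i)⟫ :=
      hT.trace_comp_PT hp _ e
    have s2 : tr ((hs φ p).comp (PT φ p)) = ∑ i, ⟪PT φ p (e i), hs φ p (PT φ p (e i))⟫ :=
      hT.trace_comp_PT hp _ e
    have hE' : (finrank ℝ E : ℝ) = m + 2 := by exact_mod_cast hE
    rw [tr_comp_PT', tr_id, hE', ContinuousLinearMap.id_apply, ContinuousLinearMap.id_apply,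
      real_inner_self_eq_norm_sq, real_inner_self_eq_norm_sq, hg.norm_gradient, hp.1] at s1
    rw [tr_comp_PT', hg.hs_gradient, hg.hs_self hT.hom, inner_zero_right, inner_zero_right,
      show tr (hs φ p) = 0 from htr] at s2
    have s3 : -(θ * ∑ i, ⟪PT φ p (e i), PT φ p (e i)⟫) =
        c * ∑ i, ⟪PT φ p (e i), hs φ p (PT φ p (e i))⟫ := by
      rw [Finset.mul_sum, Finset.mul_sum, ← Finset.sum_neg_distrib]
      exact Finset.sum_congr rfl fun i _ => hv (e i)
    rw [← s1, ← s2] at s3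
    have hmr : (1 : ℝ) ≤ m := by exact_mod_cast hm
    have : θ * m = 0 := by linarith
    rcases mul_eq_zero.1 this with h1 | h1
    · exact hθ h1
    · linarith

end Crest.Agent.R246.IdxG149
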