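import Crest.Agent.R246.IdxG_149

/-!
# Step 4 (I): Lemma L for smooth minimal hypercones, part 2

`exists_dir` : (HL) of helper101.  `exists_curved_pairing` : (hsp).
-/

set_option autoImplicit false
noncomputable section
open MeasureTheory Set Filter Topology Module
open scoped RealInnerProductSpace ContDiff

namespace Crest.Agent.R246.IdxG149

open Crest.Agent.R246.H990 Crest.Agent.R246.SM436 Crest.Agent.R246.HerschSM900
  Crest.Agent.R246.NC718 Crest.Agent.R246.Hersch900

variable {E : Type*} [NormedAddCommGroup E] [InnerProductSpace ℝ E] [FiniteDimensional ℝ E]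

/-- functions smooth at the link -/
def VV (φ : E → ℝ) : Submodule ℝ (E → ℝ) where
  carrier := {f | ∀ p ∈ Lk φ, ContDiffAt ℝ ∞ f p}
  add_mem' := fun hf hg p hp => (hf p hp).add (hg p hp)
  zero_mem' := fun _ _ => contDiffAt_const
  smul_mem' := fun _ _ hf p hp => contDiffAt_const.smul (hf p hp)

lemma gradient_add' {f g : E → ℝ} {p : E} (hf : DifferentiableAt ℝ f p)
    (hg : DifferentiableAt ℝ g p) : gradient (f + g) p = gradient f p + gradient g p := by
  rw [gradient, gradient, gradient, fderiv_add hf hg, map_add]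

lemma gradient_smul' (c : ℝ) {f : E → ℝ} {p : E} (hf : DifferentiableAt ℝ f p) :
    gradient (c • f) p = c • gradient f p := by
  rw [gradient, gradient, fderiv_const_smul hf, map_smulₛₗ]
  simp

lemma gradient_const' (c : ℝ) (p : E) : gradient (fun _ : E => c) p = 0 := by
  rw [gradient]; simp

variable [MeasurableSpace E] [BorelSpace E]
variable {φ : E → ℝ} {b : ℝ}

section forms

variable (hT : Tube φ b)
include hT

lemma good_Lk {p : E} (hp : p ∈ Lk φ) : Good φ p := hT.good (hT.TT_of_Lk hp)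

omit [FiniteDimensional ℝ E] [MeasurableSpace E] [BorelSpace E] hT in
lemma contOn (f : VV φ) : ContinuousOn (f : E → ℝ) (Lk φ) := fun p hp =>
  (f.2 p hp).continuousAt.continuousWithinAt

lemma contOn_grad (f : VV φ) :
    ContinuousOn (fun p => PT φ p (gradient (f : E → ℝ) p)) (Lk φ) :=
  hT.continuousOn_PT_apply
    (hT.continuousOn_grad_Lk fun p hp => (f.2 p hp).of_le (by simp))

lemma contOn_A2 : ContinuousOn (A2 φ) (Lk φ) := fun _ hp =>
  (continuousAt_A2 (good_Lk hT hp)).continuousWithinAt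

/-- Dirichlet form -/
def DD : VV φ →ₗ[ℝ] VV φ →ₗ[ℝ] ℝ :=
  LinearMap.mk₂ ℝ
    (fun f g => ∫ p, ⟪PT φ p (gradient (f : E → ℝ) p), PT φ p (gradient (g : E → ℝ) p)⟫ ∂(mu φ b))
    (fun f f' g => by
      rw [← integral_add (hT.integrable_mu ((contOn_grad hT f).inner (contOn_grad hT g)))
        (hT.integrable_mu ((contOn_grad hT f').inner (contOn_grad hT g)))]
      refine integral_congr_ae ?_
      filter_upwards [hT.ae_mem_Lk] with p hp
      rw [Submodule.coe_add, gradient_add' ((f.2 p hp).differentiableAt (by simp))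
        ((f'.2 p hp).differentiableAt (by simp)), map_add, inner_add_left])
    (fun c f g => by
      rw [smul_eq_mul, ← integral_const_mul]
      refine integral_congr_ae ?_
      filter_upwards [hT.ae_mem_Lk] with p hp
      rw [Submodule.coe_smul, gradient_smul' c ((f.2 p hp).differentiableAt (by simp)),
        map_smul, real_inner_smul_left])
    (fun f g g' => by
      rw [← integral_add (hT.integrable_mu ((contOn_grad hT f).inner (contOn_grad hT g)))
        (hT.integrable_mu ((contOn_grad hT f).inner (contOn_grad hT g')))]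
      refine integral_congr_ae ?_
      filter_upwards [hT.ae_mem_Lk] with p hp
      rw [Submodule.coe_add, gradient_add' ((g.2 p hp).differentiableAt (by simp))
        ((g'.2 p hp).differentiableAt (by simp)), map_add, inner_add_right])
    (fun c f g => by
      rw [smul_eq_mul, ← integral_const_mul]
      refine integral_congr_ae ?_
      filter_upwards [hT.ae_mem_Lk] with p hp
      rw [Submodule.coe_smul, gradient_smul' c ((g.2 p hp).differentiableAt (by simp)),
        map_smul, real_inner_smul_right])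

lemma int_w {w : E → ℝ} (hw : ContinuousOn w (Lk φ)) (f g : VV φ) :
    Integrable (fun p => w p * ((f : E → ℝ) p * (g : E → ℝ) p)) (mu φ b) :=
  hT.integrable_mu (hw.mul ((contOn f).mul (contOn g)))

/-- weighted `L²` form -/
def WF (w : E → ℝ) (hw : ContinuousOn w (Lk φ)) : VV φ →ₗ[ℝ] VV φ →ₗ[ℝ] ℝ :=
  LinearMap.mk₂ ℝ (fun f g => ∫ p, w p * ((f : E → ℝ) p * (g : E → ℝ) p) ∂(mu φ b))
    (fun f f' g => by
      rw [← integral_add (int_w hT hw f g) (int_w hT hw f' g)]
      refine integral_congr_ae (Eventually.of_forall fun p => ?_)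
      simp only [Submodule.coe_add, Pi.add_apply]; ring)
    (fun c f g => by
      rw [smul_eq_mul, ← integral_const_mul]
      refine integral_congr_ae (Eventually.of_forall fun p => ?_)
      simp only [Submodule.coe_smul, Pi.smul_apply, smul_eq_mul]; ring)
    (fun f g g' => by
      rw [← integral_add (int_w hT hw f g) (int_w hT hw f g')]
      refine integral_congr_ae (Eventually.of_forall fun p => ?_)
      simp only [Submodule.coe_add, Pi.add_apply]; ring)
    (fun c f g => by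
      rw [smul_eq_mul, ← integral_const_mul]
      refine integral_congr_ae (Eventually.of_forall fun p => ?_)
      simp only [Submodule.coe_smul, Pi.smul_apply, smul_eq_mul]; ring)

/-- a function continuous at the link which vanishes a.e. vanishes on the link -/
lemma zero_on_Lk {f : E → ℝ} (hf : ∀ p ∈ Lk φ, ContinuousAt f p)
    (hae : ∀ᵐ x ∂(mu φ b), f x = 0) {p : E} (hp : p ∈ Lk φ) : f p = 0 := by
  by_contra hne
  have h1 : ∀ᶠ y in 𝓝 p, f y ≠ 0 := (hf p hp).eventually_ne hne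
  obtain ⟨U, hU1, hU, hpU⟩ := eventually_nhds_iff.1 h1
  have h2 := hT.mu_pos hp hU hpU
  have h3 : mu φ b U = 0 := measure_mono_null (fun y hy => hU1 y hy) (ae_iff.1 hae)
  exact h2.ne' h3

/-- positivity: a nonnegative continuous integrand with zero integral vanishes on the link -/
lemma zero_of_integral {f : E → ℝ} (hf : ∀ p ∈ Lk φ, ContinuousAt f p)
    (h0 : ∀ p ∈ Lk φ, 0 ≤ f p) (hint : ∫ p, f p ∂(mu φ b) ≤ 0) {p : E} (hp : p ∈ Lk φ) :
    f p = 0 := by
  have hnn : 0 ≤ᵐ[mu φ b] f := by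
    filter_upwards [hT.ae_mem_Lk] with x hx using h0 x hx
  have hi : Integrable f (mu φ b) :=
    hT.integrable_mu fun p hp => (hf p hp).continuousWithinAt
  have h1 : ∫ p, f p ∂(mu φ b) = 0 := le_antisymm hint (integral_nonneg_of_ae hnn)
  have h2 := (integral_eq_zero_iff_of_nonneg_ae hnn hi).1 h1
  exact zero_on_Lk hT hf h2 hp

/-- (AX) -/
theorem pos_AX (hmin : ∀ x, x ≠ 0 → φ x = 0 → LinearMap.trace ℝ E (hs φ x : E →ₗ[ℝ] E) = 0)
    {m : ℕ} (hm : 1 ≤ m) (hE : finrank ℝ E = m + 2) {p₀ : E} (hp₀ : p₀ ∈ Lk φ)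
    (hA0 : A2 φ p₀ ≠ 0) {z : E} (hz : z ≠ 0) (θ : ℝ) :
    0 < ∫ p, A2 φ p * (θ - ⟪z, p⟫) ^ 2 ∂(mu φ b) := by
  by_contra hcon
  push Not at hcon
  have hc : ∀ p ∈ Lk φ, ContinuousAt (fun p => A2 φ p * (θ - ⟪z, p⟫) ^ 2) p := fun p hp =>
    (continuousAt_A2 (good_Lk hT hp)).mul (by fun_prop)
  have hz0 : ∀ p ∈ Lk φ, A2 φ p * (θ - ⟪z, p⟫) ^ 2 = 0 := fun p hp =>
    zero_of_integral hT hc (fun p hp => mul_nonneg (A2_nonneg (good_Lk hT hp)) (sq_nonneg _))
      hcon hp
  have h1 : ∀ᶠ y in 𝓝 p₀, A2 φ y ≠ 0 :=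
    (continuousAt_A2 (good_Lk hT hp₀)).eventually_ne hA0
  have hp0 : p₀ ≠ 0 := by rintro rfl; simpa using hp₀.1
  have hn : Tendsto (fun y : E => ‖y‖⁻¹ • y) (𝓝 p₀) (𝓝 p₀) := by
    have : ContinuousAt (fun y : E => ‖y‖⁻¹ • y) p₀ :=
      (continuousAt_id.norm.inv₀ (by simpa using hp0)).smul continuousAt_id
    have h := this.tendsto
    simpa [hp₀.1] using h
  have h2 : ∀ᶠ y in 𝓝 p₀, φ y = 0 → ⟪z, y⟫ = θ * ‖y‖ := by
    filter_upwards [hn.eventually h1, isOpen_ne.mem_nhds hp0] with y hy hyne hy0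
    have hyn : 0 < ‖y‖ := norm_pos_iff.2 hyne
    have hy1 : ‖y‖⁻¹ • y ∈ Lk φ := by
      refine ⟨by rw [norm_smul, norm_inv, norm_norm, inv_mul_cancel₀ hyn.ne'], ?_⟩
      rw [hT.hom _ (by positivity), hy0, mul_zero]
    have h3 := hz0 _ hy1
    have h4 : (θ - ⟪z, ‖y‖⁻¹ • y⟫) = 0 := by
      rcases mul_eq_zero.1 h3 with h | h
      · exact absurd h hy
      · exact pow_eq_zero_iff (two_ne_zero) |>.1 h
    rw [real_inner_smul_right] at h4
    have h5 : ‖y‖⁻¹ * ⟪z, y⟫ = θ := by linarith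
    rw [← h5]; field_simp
  have h3 := flat_of_plane hT hm hE hp₀ (hmin p₀ hp0 hp₀.2) hz h2
  apply hA0
  simp [A2, h3]

/-- (IN) -/
theorem pos_IN (hom : ∀ t : ℝ, 0 ≤ t → ∀ x, φ (t • x) = t * φ x)
    (hgood : ∀ x, x ≠ 0 → φ x = 0 → Good φ x) {p₀ : E} (hp₀ : p₀ ∈ Lk φ)
    (hA0 : A2 φ p₀ ≠ 0) {a : E} (ha : a ≠ 0) :
    0 < ∫ p, ⟪a, gradient φ p⟫ ^ 2 ∂(mu φ b) := by
  by_contra hcon
  push Not at hcon
  have hc : ∀ p ∈ Lk φ, ContinuousAt (fun p => ⟪a, gradient φ p⟫ ^ 2) p := fun p hp =>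
    (continuousAt_const.inner (good_Lk hT hp).contDiffAt_gradient.continuousAt).pow 2
  have hz0 : ∀ p ∈ Lk φ, ⟪a, gradient φ p⟫ ^ 2 = 0 := fun p hp =>
    zero_of_integral hT hc (fun p _ => sq_nonneg _) hcon hp
  have han : 0 < ‖a‖ := norm_pos_iff.2 ha
  have h1 : ∀ x, x ≠ 0 → φ x = 0 → ⟪gradient φ x, ‖a‖⁻¹ • a⟫ = 0 := by
    intro x hx hx0
    have hxn : 0 < ‖x‖ := norm_pos_iff.2 hx
    have hx1 : ‖x‖⁻¹ • x ∈ Lk φ := by
      refine ⟨by rw [norm_smul, norm_inv, norm_norm, inv_mul_cancel₀ hxn.ne'], ?_⟩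
      rw [hom _ (by positivity), hx0, mul_zero]
    have h2 := pow_eq_zero_iff (two_ne_zero) |>.1 (hz0 _ hx1)
    rw [gradient_smul_of_hom hom x (by positivity)] at h2
    rw [real_inner_smul_right, real_inner_comm, h2, mul_zero]
  have hp0 : p₀ ≠ 0 := by rintro rfl; simpa using hp₀.1
  have h3 := hs_eq_zero hT.lip hom hgood (a := ‖a‖⁻¹ • a)
    (by rw [norm_smul, norm_inv, norm_norm, inv_mul_cancel₀ han.ne']) h1 hp0 hp₀.2
  apply hA0
  simp [A2, h3]

end forms

/-- `T` is the square of the tangential gradient -/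
lemma T_eq (hT : Tube φ b) {u : E → ℝ} {p : E} (hp : p ∈ Lk φ) :
    T (gradient φ) u p = ⟪PT φ p (gradient u p), PT φ p (gradient u p)⟫ := by
  have h1 : ‖fderiv ℝ u p‖ = ‖gradient u p‖ := by
    rw [gradient, LinearIsometryEquiv.norm_map]
  rw [PT_symm, hT.PT_PT hp, T, h1, ← SM436.inner_gradient, ← SM436.inner_gradient, PT_apply,
    inner_sub_right, inner_sub_right, real_inner_smul_right, real_inner_smul_right,
    real_inner_self_eq_norm_sq, real_inner_comm (gradient φ p) (gradient u p),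
    real_inner_comm p (gradient u p)]
  ring

/-- the second variation form -/
def QQ (m : ℕ) (φ : E → ℝ) (b : ℝ) (u : E → ℝ) : ℝ :=
  ∫ x, T (gradient φ) u x ∂(mu φ b) - ∫ x, A2 φ x * u x ^ 2 ∂(mu φ b) -
    m * ∫ x, u x ^ 2 ∂(mu φ b)

/-- (hsp) -/
theorem exists_curved_pairing (hT : Tube φ b)
    (hmin : ∀ x, x ≠ 0 → φ x = 0 → LinearMap.trace ℝ E (hs φ x : E →ₗ[ℝ] E) = 0)
    {m : ℕ} (hm : 1 ≤ m) (hE : finrank ℝ E = m + 2) {p₀ : E} (hp₀ : p₀ ∈ Lk φ)
    (hA0 : A2 φ p₀ ≠ 0) {w : E} (hw : w ≠ 0) :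
    ∃ p, φ p = 0 ∧ ‖p‖ = 1 ∧ hs φ p ≠ 0 ∧ ⟪w, p⟫ ≠ 0 := by
  have h := pos_AX hT hmin hm hE hp₀ hA0 hw 0
  by_contra hcon
  push Not at hcon
  have : ∫ p, A2 φ p * (0 - ⟪w, p⟫) ^ 2 ∂(mu φ b) = 0 := by
    refine integral_eq_zero_of_ae ?_
    filter_upwards [hT.ae_mem_Lk] with p hp
    by_cases h0 : hs φ p = 0
    · simp [A2, h0]
    · rw [hcon p hp.2 hp.1 h0]; simp
  linarith

/-- **(HL)**: Lemma L for smooth minimal hypercones. -/
theorem exists_dir (hT : Tube φ b) (hgood : ∀ x, x ≠ 0 → φ x = 0 → Good φ x)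
    (hmin : ∀ x, x ≠ 0 → φ x = 0 → LinearMap.trace ℝ E (hs φ x : E →ₗ[ℝ] E) = 0)
    {m : ℕ} (hm : 1 ≤ m) (hE : finrank ℝ E = m + 2) {h : E → ℝ}
    (hh : ∀ p ∈ Lk φ, ContDiffAt ℝ ∞ h p) (h1 : ∫ x, A2 φ x * h x ∂(mu φ b) = 0)
    (h2 : ∫ x, T (gradient φ) h x ∂(mu φ b) < ∫ x, A2 φ x * h x ^ 2 ∂(mu φ b)) :
    (∃ (α β : ℝ) (a : E) (c : ℝ), 0 < c ∧ ∀ (s θ : ℝ) (z : E),
      QQ m φ b (fun x => s * (α * h x + β + ⟪a, gradient φ x⟫) + θ - ⟪z, x⟫) ≤
        -c * (s ^ 2 + θ ^ 2 + ‖z‖ ^ 2)) ∧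
    ∀ w : E, w ≠ 0 → ∃ p, φ p = 0 ∧ ‖p‖ = 1 ∧ hs φ p ≠ 0 ∧ ⟪w, p⟫ ≠ 0 := by
  have hmin' : ∀ p ∈ Lk φ, LinearMap.trace ℝ E (hs φ p : E →ₗ[ℝ] E) = 0 := fun p hp =>
    hmin p (by rintro rfl; simpa using hp.1) hp.2
  -- a point with `A ≠ 0`
  obtain ⟨p₀, hp₀, hA0⟩ : ∃ p₀ ∈ Lk φ, A2 φ p₀ ≠ 0 := by
    by_contra hcon
    push Not at hcon
    have e1 : ∫ x, A2 φ x * h x ^ 2 ∂(mu φ b) = 0 := by
      refine integral_eq_zero_of_ae ?_
      filter_upwards [hT.ae_mem_Lk] with p hp
      rw [hcon p hp]; simp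
    have e2 : 0 ≤ ∫ x, T (gradient φ) h x ∂(mu φ b) := by
      refine integral_nonneg_of_ae ?_
      filter_upwards [hT.ae_mem_Lk] with p hp
      rw [T_eq hT hp]
      exact real_inner_self_nonneg
    linarith
  refine ⟨?_, fun w hw => exists_curved_pairing hT hmin hm hE hp₀ hA0 hw⟩
  -- data
  let one : VV φ := ⟨fun _ => 1, fun _ _ => contDiffAt_const⟩
  let X : E →ₗ[ℝ] VV φ :=
    { toFun := fun a => ⟨fun x => ⟪a, x⟫, fun p _ => contDiffAt_const.inner ℝ contDiffAt_id⟩
      map_add' := fun a a' => by ext x; simp [inner_add_left]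
      map_smul' := fun c a => by ext x; simp [real_inner_smul_left] }
  let N : E →ₗ[ℝ] VV φ :=
    { toFun := fun a => ⟨fun x => ⟪a, gradient φ x⟫, fun p hp =>
        contDiffAt_const.inner ℝ (good_Lk hT hp).contDiffAt_gradient⟩
      map_add' := fun a a' => by ext x; simp [inner_add_left]
      map_smul' := fun c a => by ext x; simp [real_inner_smul_left] }
  let g₀ : VV φ := ⟨h, hh⟩
  have hA2c := contOn_A2 hT
  set D := DD hT with hD
  set I := WF hT (fun _ => 1) continuousOn_const with hI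
  set A := WF hT (A2 φ) hA2c with hA
  have Dap : ∀ f g : VV φ, D f g =
      ∫ p, ⟪PT φ p (gradient (f : E → ℝ) p), PT φ p (gradient (g : E → ℝ) p)⟫ ∂(mu φ b) :=
    fun f g => rfl
  have Iap : ∀ f g : VV φ, I f g = ∫ p, 1 * ((f : E → ℝ) p * (g : E → ℝ) p) ∂(mu φ b) :=
    fun f g => rfl
  have Aap : ∀ f g : VV φ, A f g = ∫ p, A2 φ p * ((f : E → ℝ) p * (g : E → ℝ) p) ∂(mu φ b) :=
    fun f g => rfl
  have A2nn : ∀ p ∈ Lk φ, 0 ≤ A2 φ p := fun p hp => A2_nonneg (good_Lk hT hp)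
  have hgr1 : ∀ p : E, gradient ((one : VV φ) : E → ℝ) p = 0 := fun p => gradient_const' 1 p
  obtain ⟨α, β, a, c, hc, hcc⟩ := Idx149.exists_direction (m : ℝ) (by exact_mod_cast hm) D I A
    (fun f g => by
      rw [Dap, Dap]
      exact integral_congr_ae (Eventually.of_forall fun p => real_inner_comm _ _))
    (fun f g => by
      rw [Iap, Iap]
      exact integral_congr_ae (Eventually.of_forall fun p => by simp only [mul_comm]))
    (fun f g => by
      rw [Aap, Aap]
      refine integral_congr_ae (Eventually.of_forall fun p => ?_)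
      simp only; ring)
    (fun f => by
      rw [Iap]
      exact integral_nonneg fun p => mul_nonneg zero_le_one (mul_self_nonneg _))
    (fun f => by
      rw [Aap]
      refine integral_nonneg_of_ae ?_
      filter_upwards [hT.ae_mem_Lk] with p hp
      exact mul_nonneg (A2nn p hp) (mul_self_nonneg _))
    one X N
    (fun f => by
      rw [Dap]
      refine integral_eq_zero_of_ae (Eventually.of_forall fun p => ?_)
      simp only [hgr1, map_zero, inner_zero_left, Pi.zero_apply])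
    (fun a f => by
      have hgr := hT.green hE hmin' (f := (f : E → ℝ)) (g := fun x : E => ⟪a, x⟫)
        (fun p hp => (f.2 p hp).of_le (by simp))
        (fun p _ => contDiffAt_const.inner ℝ contDiffAt_id)
      have e1 : D (X a) f = ∫ p, ⟪PT φ p (gradient (f : E → ℝ) p),
          PT φ p (gradient (fun x : E => ⟪a, x⟫) p)⟫ ∂(mu φ b) := by
        rw [Dap]
        exact integral_congr_ae (Eventually.of_forall fun p => real_inner_comm _ _)
      have e2 : ∫ p, (f : E → ℝ) p * Lap m φ (fun x : E => ⟪a, x⟫) p ∂(mu φ b) =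
          - (m * I (X a) f) := by
        rw [Iap, ← integral_const_mul, ← integral_neg]
        refine integral_congr_ae (Eventually.of_forall fun p => ?_)
        simp only [lap_lin]
        change (f : E → ℝ) p * -((m : ℝ) * ⟪a, p⟫) = -((m : ℝ) * (1 * (⟪a, p⟫ * (f : E → ℝ) p)))
        ring
      rw [e2, ← e1] at hgr
      linarith)
    (fun a f => by
      have hgr := hT.green hE hmin' (f := (f : E → ℝ)) (g := fun x : E => ⟪a, gradient φ x⟫)
        (fun p hp => (f.2 p hp).of_le (by simp))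
        (fun p hp => ((N a).2 p hp).of_le (WithTop.coe_le_coe.2 (le_top : (2 : ℕ∞) ≤ ⊤)))
      have e1 : D (N a) f = ∫ p, ⟪PT φ p (gradient (f : E → ℝ) p),
          PT φ p (gradient (fun x : E => ⟪a, gradient φ x⟫) p)⟫ ∂(mu φ b) := by
        rw [Dap]
        exact integral_congr_ae (Eventually.of_forall fun p => real_inner_comm _ _)
      have e2 : ∫ p, (f : E → ℝ) p * Lap m φ (fun x : E => ⟪a, gradient φ x⟫) p ∂(mu φ b) =
          - A (N a) f := by
        rw [Aap, ← integral_neg]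
        refine integral_congr_ae ?_
        filter_upwards [hT.ae_mem_Lk] with p hp
        rw [lap_nu hT hmin hp]
        change (f : E → ℝ) p * -(A2 φ p * ⟪a, gradient φ p⟫) =
          -(A2 φ p * (⟪a, gradient φ p⟫ * (f : E → ℝ) p))
        ring
      rw [e2, ← e1] at hgr
      linarith)
    (by
      by_contra hcon
      push Not at hcon
      rw [Iap] at hcon
      have := zero_of_integral hT (f := fun p : E => (1 : ℝ) * (1 * 1))
        (fun p _ => continuousAt_const) (fun p _ => by norm_num) hcon hp₀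
      norm_num at this)
    (by
      by_contra hcon
      push Not at hcon
      rw [Aap] at hcon
      have := zero_of_integral hT (f := fun p : E => A2 φ p * (1 * 1))
        (fun p hp => (continuousAt_A2 (good_Lk hT hp)).mul continuousAt_const)
        (fun p hp => by simpa using A2nn p hp) hcon hp₀
      apply hA0
      simpa using this)
    (fun a ha => by
      rw [Iap]
      have := pos_IN hT hT.hom hgood hp₀ hA0 ha
      convert this using 2
      ext p
      change 1 * (⟪a, gradient φ p⟫ * ⟪a, gradient φ p⟫) = ⟪a, gradient φ p⟫ ^ 2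
      ring)
    (fun z hz θ => by
      rw [Aap]
      have := pos_AX hT hmin hm hE hp₀ hA0 hz θ
      convert this using 2
      ext p
      change A2 φ p * ((θ * 1 - ⟪z, p⟫) * (θ * 1 - ⟪z, p⟫)) = A2 φ p * (θ - ⟪z, p⟫) ^ 2
      ring)
    g₀
    (by
      rw [Aap, ← h1]
      refine integral_congr_ae (Eventually.of_forall fun p => ?_)
      change A2 φ p * (1 * h p) = A2 φ p * h p
      ring)
    (by
      rw [Dap, Aap]
      have e1 : ∫ p, ⟪PT φ p (gradient (g₀ : E → ℝ) p), PT φ p (gradient (g₀ : E → ℝ) p)⟫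
          ∂(mu φ b) = ∫ x, T (gradient φ) h x ∂(mu φ b) := by
        refine integral_congr_ae ?_
        filter_upwards [hT.ae_mem_Lk] with p hp
        rw [T_eq hT hp]
      have e2 : ∫ p, A2 φ p * ((g₀ : E → ℝ) p * (g₀ : E → ℝ) p) ∂(mu φ b) =
          ∫ x, A2 φ x * h x ^ 2 ∂(mu φ b) := by
        refine integral_congr_ae (Eventually.of_forall fun p => ?_)
        change A2 φ p * (h p * h p) = A2 φ p * h p ^ 2
        ring
      rw [e1, e2]
      exact h2)
  refine ⟨α, β, a, c, hc, fun s θ z => ?_⟩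
  have hk := hcc s θ z
  simp only at hk
  set u : VV φ := s • (α • g₀ + β • one + N a) + (θ • one - X z) with hu
  have hu' : (u : E → ℝ) = fun x => s * (α * h x + β + ⟪a, gradient φ x⟫) + θ - ⟪z, x⟫ := by
    funext x
    change s * (α * h x + β * 1 + ⟪a, gradient φ x⟫) + (θ * 1 - ⟪z, x⟫) = _
    ring
  have e1 : D u u = ∫ x, T (gradient φ) (u : E → ℝ) x ∂(mu φ b) := by
    rw [Dap]
    refine integral_congr_ae ?_
    filter_upwards [hT.ae_mem_Lk] with p hp
    rw [T_eq hT hp]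
  have e2 : A u u = ∫ x, A2 φ x * (u : E → ℝ) x ^ 2 ∂(mu φ b) := by
    rw [Aap]
    refine integral_congr_ae (Eventually.of_forall fun p => ?_)
    simp only; ring
  have e3 : I u u = ∫ x, (u : E → ℝ) x ^ 2 ∂(mu φ b) := by
    rw [Iap]
    refine integral_congr_ae (Eventually.of_forall fun p => ?_)
    simp only; ring
  rw [e1, e2, e3, hu'] at hk
  exact hk

end Crest.Agent.R246.IdxG149
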