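import Mathlib.Analysis.InnerProductSpace.PiL2
import Mathlib.Topology.Algebra.Module.FiniteDimension
import Mathlib.LinearAlgebra.FiniteDimensional.Lemmas
import Mathlib.LinearAlgebra.BilinearForm.Basic

/-!
# Step 4 (I), linear algebra part ("Lemma L")

`D f g = ∫ ⟨∇f, ∇g⟩`, `I f g = ∫ f g`, `A f g = ∫ |A|² f g` as abstract symmetric bilinear forms
on a function space `V`; `Q f = D f f - A f f - m I f f`.
If `B = D - A` is negative on `span {1, g₀}` then some `g ∈ span {1, ν_a, g₀}` makes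
`Q (t g + θ - ⟨z,x⟩)` negative definite in `(t, θ, z)`.
-/

set_option autoImplicit false
noncomputable section
open Module

namespace Crest.Agent.R246.Idx149

variable {V E : Type*} [AddCommGroup V] [Module ℝ V]
  [NormedAddCommGroup E] [InnerProductSpace ℝ E] [FiniteDimensional ℝ E]

/-- a quadratic form (given by a bilinear one) which is negative off zero on a finite dimensional
space is `≤ -c ‖·‖²`. -/
theorem exists_neg_bound {W : Type*} [NormedAddCommGroup W] [NormedSpace ℝ W]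
    [FiniteDimensional ℝ W] (b : W →ₗ[ℝ] W →ₗ[ℝ] ℝ) (hb : ∀ w, w ≠ 0 → b w w < 0) :
    ∃ c : ℝ, 0 < c ∧ ∀ w, b w w ≤ -c * ‖w‖ ^ 2 := by
  have hcont : Continuous fun w : W => b w w := by
    let b' : W →ₗ[ℝ] (W →L[ℝ] ℝ) :=
      (LinearMap.toContinuousLinearMap : (W →ₗ[ℝ] ℝ) ≃ₗ[ℝ] (W →L[ℝ] ℝ)).toLinearMap ∘ₗ b
    have hb' : Continuous b' := b'.continuous_of_finiteDimensional
    have : (fun w : W => b w w) = fun w => b' w w := rfl
    rw [this]
    exact hb'.clm_apply continuous_id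
  rcases subsingleton_or_nontrivial W with hW | hW
  · refine ⟨1, one_pos, fun w => ?_⟩
    have : w = 0 := Subsingleton.elim _ _
    subst this; simp
  · have hne : (Metric.sphere (0 : W) 1).Nonempty := NormedSpace.sphere_nonempty.2 zero_le_one
    obtain ⟨w0, hw0, hmax⟩ :=
      (isCompact_sphere (0 : W) 1).exists_isMaxOn hne hcont.continuousOn
    have hw0' : w0 ≠ 0 := by
      intro h; subst h; simp at hw0
    refine ⟨-(b w0 w0), by linarith [hb w0 hw0'], fun w => ?_⟩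
    by_cases hw : w = 0
    · subst hw; simp
    · have hn : 0 < ‖w‖ := norm_pos_iff.2 hw
      have h1 : (‖w‖⁻¹ • w) ∈ Metric.sphere (0 : W) 1 := by
        simp [norm_smul, hn.ne']
      have h2 := hmax h1
      simp only [Set.mem_ofPred_eq, map_smul, LinearMap.smul_apply, smul_eq_mul] at h2
      have h3 : b w w = ‖w‖ ^ 2 * (‖w‖⁻¹ * (‖w‖⁻¹ * b w w)) := by field_simp
      rw [h3]
      have := mul_le_mul_of_nonneg_left h2 (sq_nonneg ‖w‖)
      linarith

/-- **Lemma L.** -/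
theorem exists_direction (m : ℝ) (hm : 0 < m) (D I A : V →ₗ[ℝ] V →ₗ[ℝ] ℝ)
    (Dsymm : ∀ f g, D f g = D g f) (Isymm : ∀ f g, I f g = I g f) (Asymm : ∀ f g, A f g = A g f)
    (Ipos : ∀ f, 0 ≤ I f f) (Apos : ∀ f, 0 ≤ A f f)
    (one : V) (X N : E →ₗ[ℝ] V)
    (D1 : ∀ f, D one f = 0) (DX : ∀ a f, D (X a) f = m * I (X a) f)
    (DN : ∀ a f, D (N a) f = A (N a) f)
    (I1 : 0 < I one one) (A1 : 0 < A one one)
    (IN : ∀ b, b ≠ 0 → 0 < I (N b) (N b))
    (AX : ∀ z, z ≠ 0 → ∀ θ : ℝ, 0 < A (θ • one - X z) (θ • one - X z))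
    (g₀ : V) (hg1 : A one g₀ = 0) (hg2 : D g₀ g₀ < A g₀ g₀) :
    ∃ (α β : ℝ) (b : E) (c : ℝ), 0 < c ∧ ∀ (t θ : ℝ) (z : E),
      let u : V := t • (α • g₀ + β • one + N b) + (θ • one - X z)
      D u u - A u u - m * I u u ≤ -c * (t ^ 2 + θ ^ 2 + ‖z‖ ^ 2) := by
  classical
  -- the bilinear form `Q`
  set Q : V →ₗ[ℝ] V →ₗ[ℝ] ℝ := D - A - m • I with hQ
  have Qap : ∀ f g, Q f g = D f g - A f g - m * I f g := fun f g => by
    simp [hQ]
  have Qsymm : ∀ f g, Q f g = Q g f := fun f g => by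
    rw [Qap, Qap, Dsymm, Isymm, Asymm]
  -- the maps `(α, β, b) ↦ α g₀ + β 1 + N b` and `(θ, z) ↦ θ 1 - X z`
  let P : (ℝ × ℝ × E) →ₗ[ℝ] V :=
    (LinearMap.toSpanSingleton ℝ V g₀).coprod ((LinearMap.toSpanSingleton ℝ V one).coprod N)
  have Pap : ∀ α β b, P (α, β, b) = α • g₀ + β • one + N b := fun α β b => by
    simp [P, add_assoc]
  let F : (ℝ × E) →ₗ[ℝ] V := (LinearMap.toSpanSingleton ℝ V one).coprod (-X)
  have Fap : ∀ θ z, F (θ, z) = θ • one - X z := fun θ z => by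
    simp [F, sub_eq_add_neg]
  -- orthogonality system
  let Λ : (ℝ × ℝ × E) →ₗ[ℝ] ((ℝ × E) →ₗ[ℝ] ℝ) :=
    { toFun := fun p => (Q (P p)) ∘ₗ F
      map_add' := fun p q => by ext <;> simp
      map_smul' := fun c p => by ext <;> simp }
  have hdim : finrank ℝ ((ℝ × E) →ₗ[ℝ] ℝ) < finrank ℝ (ℝ × ℝ × E) := by
    have e1 : finrank ℝ ((ℝ × E) →ₗ[ℝ] ℝ) = finrank ℝ (ℝ × E) :=
      Subspace.dual_finrank_eq (K := ℝ) (V := ℝ × E)
    rw [e1]
    simp
  obtain ⟨p, hpk, hp0⟩ := (Submodule.ne_bot_iff _).1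
    (LinearMap.ker_ne_bot_of_finrank_lt (f := Λ) hdim)
  have hp : ∀ θ z, Q (P p) (F (θ, z)) = 0 := fun θ z => by
    have := LinearMap.congr_fun (LinearMap.mem_ker.1 hpk) (θ, z)
    simpa [Λ] using this
  obtain ⟨α, β, b⟩ := p
  set g : V := P (α, β, b) with hg
  have Ione : ∀ z, I one (X z) = 0 := fun z => by
    have h1 := DX z one
    rw [Dsymm, D1, Isymm] at h1
    have : m ≠ 0 := hm.ne'
    simpa [this] using h1.symm
  have D1' : ∀ f, D f one = 0 := fun f => by rw [Dsymm]; exact D1 f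
  have Qg : Q g g < 0 := by
    have e : Q g g = α ^ 2 * (D g₀ g₀ - A g₀ g₀) - β ^ 2 * A one one - m * I g g := by
      rw [Qap]
      have hg' : g = (α • g₀ + β • one) + N b := by rw [hg, Pap]
      set f := α • g₀ + β • one with hf
      have e1 : D g g = D f f + 2 * A (N b) f + A (N b) (N b) := by
        rw [hg']
        simp only [map_add, LinearMap.add_apply, DN, Dsymm f (N b)]
        ring
      have e2 : A g g = A f f + 2 * A (N b) f + A (N b) (N b) := by
        rw [hg']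
        simp only [map_add, LinearMap.add_apply, Asymm f (N b)]
        ring
      have e3 : D f f = α ^ 2 * D g₀ g₀ := by
        simp only [hf, map_add, map_smul, LinearMap.add_apply, LinearMap.smul_apply, smul_eq_mul,
          D1, D1']
        ring
      have e4 : A f f = α ^ 2 * A g₀ g₀ + β ^ 2 * A one one := by
        simp only [hf, map_add, map_smul, LinearMap.add_apply, LinearMap.smul_apply, smul_eq_mul,
          Asymm g₀ one, hg1]
        ring
      rw [e1, e2, e3, e4]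
      ring
    rw [e]
    have i1 := Ipos g
    have i2 : 0 ≤ m * I g g := mul_nonneg hm.le i1
    by_cases hα : α = 0
    · by_cases hβ : β = 0
      · have hb : b ≠ 0 := by
          rintro rfl; apply hp0; simp [hα, hβ]
        have h3 : g = N b := by rw [hg, Pap, hα, hβ]; simp
        have h4 := mul_pos hm (IN b hb)
        rw [h3, hα, hβ]
        nlinarith
      · have : 0 < β ^ 2 * A one one := mul_pos (by positivity) A1
        rw [hα]; nlinarith
    · have h5 : α ^ 2 * (D g₀ g₀ - A g₀ g₀) < 0 :=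
        mul_neg_of_pos_of_neg (by positivity) (by linarith)
      have : 0 ≤ β ^ 2 * A one one := mul_nonneg (by positivity) A1.le
      linarith
  have QF : ∀ θ z, Q (F (θ, z)) (F (θ, z))
      = - A (θ • one - X z) (θ • one - X z) - m * (θ ^ 2 * I one one) := fun θ z => by
    rw [Qap, Fap]
    have e1 : D (θ • one - X z) (θ • one - X z) = m * I (X z) (X z) := by
      simp only [map_sub, map_smul, LinearMap.sub_apply, LinearMap.smul_apply, smul_eq_mul,
        D1, D1', DX]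
      ring
    have e2 : I (θ • one - X z) (θ • one - X z) = θ ^ 2 * I one one + I (X z) (X z) := by
      simp only [map_sub, map_smul, LinearMap.sub_apply, LinearMap.smul_apply, smul_eq_mul,
        Isymm (X z) one, Ione]
      ring
    rw [e1, e2]; ring
  have QFneg : ∀ θ z, (θ, z) ≠ (0 : ℝ × E) → Q (F (θ, z)) (F (θ, z)) < 0 := fun θ z h => by
    rw [QF]
    by_cases hz : z = 0
    · have hθ : θ ≠ 0 := by rintro rfl; apply h; simp [hz]
      have h1 : 0 < m * (θ ^ 2 * I one one) := by positivity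
      have := Apos (θ • one - X z)
      linarith
    · have h1 : 0 ≤ m * (θ ^ 2 * I one one) := by positivity
      have := AX z hz θ
      linarith
  -- the form on `(t, θ, z)`
  let Ψ : (ℝ × ℝ × E) →ₗ[ℝ] V := (LinearMap.toSpanSingleton ℝ V g).coprod F
  have Ψap : ∀ t θ z, Ψ (t, θ, z) = t • g + F (θ, z) := fun t θ z => by simp [Ψ]
  let bb : (ℝ × ℝ × E) →ₗ[ℝ] (ℝ × ℝ × E) →ₗ[ℝ] ℝ :=
    { toFun := fun w => (Q (Ψ w)) ∘ₗ Ψ
      map_add' := fun p q => by ext <;> simp
      map_smul' := fun c p => by ext <;> simp }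
  have bbap : ∀ t θ z, bb (t, θ, z) (t, θ, z) = t ^ 2 * Q g g + Q (F (θ, z)) (F (θ, z)) :=
    fun t θ z => by
      change Q (Ψ (t, θ, z)) (Ψ (t, θ, z)) = _
      rw [Ψap]
      simp only [map_add, map_smul, LinearMap.add_apply, LinearMap.smul_apply, smul_eq_mul,
        hp θ z, Qsymm (F (θ, z)) g]
      ring
  have hneg : ∀ w, w ≠ 0 → bb w w < 0 := by
    rintro ⟨t, θ, z⟩ hw
    rw [bbap]
    by_cases h : (θ, z) = (0 : ℝ × E)
    · have ht : t ≠ 0 := by
        rintro rfl; apply hw; rw [Prod.ext_iff] at h ⊢; exact ⟨rfl, Prod.ext h.1 h.2⟩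
      have h1 : t ^ 2 * Q g g < 0 := mul_neg_of_pos_of_neg (by positivity) Qg
      rw [h]; simpa using h1
    · have h1 : t ^ 2 * Q g g ≤ 0 := mul_nonpos_of_nonneg_of_nonpos (by positivity) Qg.le
      have := QFneg θ z h
      linarith
  obtain ⟨c, hc, hcb⟩ := exists_neg_bound bb hneg
  refine ⟨α, β, b, c / 3, by positivity, fun t θ z => ?_⟩
  have h1 := hcb (t, θ, z)
  have e : bb (t, θ, z) (t, θ, z) = Q (t • (α • g₀ + β • one + N b) + (θ • one - X z))
      (t • (α • g₀ + β • one + N b) + (θ • one - X z)) := by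
    change Q (Ψ (t, θ, z)) (Ψ (t, θ, z)) = _
    rw [Ψap, Fap, hg, Pap]
  rw [e, Qap] at h1
  refine h1.trans ?_
  have hM : ‖((t, θ, z) : ℝ × ℝ × E)‖ = max ‖t‖ (max ‖θ‖ ‖z‖) := rfl
  have n1 : |t| ≤ ‖((t, θ, z) : ℝ × ℝ × E)‖ := by
    rw [hM, ← Real.norm_eq_abs]; exact le_max_left _ _
  have n2 : |θ| ≤ ‖((t, θ, z) : ℝ × ℝ × E)‖ := by
    rw [hM, ← Real.norm_eq_abs]; exact (le_max_left _ _).trans (le_max_right _ _)
  have n3 : ‖z‖ ≤ ‖((t, θ, z) : ℝ × ℝ × E)‖ := by
    rw [hM]; exact (le_max_right _ _).trans (le_max_right _ _)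
  set M := ‖((t, θ, z) : ℝ × ℝ × E)‖
  have s1 : t ^ 2 ≤ M ^ 2 := by rw [← sq_abs]; exact pow_le_pow_left₀ (abs_nonneg _) n1 2
  have s2 : θ ^ 2 ≤ M ^ 2 := by rw [← sq_abs]; exact pow_le_pow_left₀ (abs_nonneg _) n2 2
  have s3 : ‖z‖ ^ 2 ≤ M ^ 2 := pow_le_pow_left₀ (norm_nonneg _) n3 2
  nlinarith

end Crest.Agent.R246.Idx149
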