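import Crest.Agent.R246.J0_816
import Crest.Prelude.Def_SphereImmersion

/-!
Row 246, part J, file J1: from the hypotheses of S0380 to `Imm` and `ProjBound`.
-/

set_option autoImplicit false

open scoped ContDiff Manifold Topology ENNReal NNReal
open Bundle MeasureTheory Set Crest.GeometryTopology.CoordMetric
  Crest.GeometryTopology.ChartCurvature Crest.GeometryTopology.SphereImmersion

noncomputable section

namespace Crest.Agent.R246.J816

universe u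

variable {m : ℕ} {M : Type u}

section Smooth

variable [TopologicalSpace M] [ChartedSpace (EuclideanSpace ℝ (Fin m)) M]
  [IsManifold 𝓘(ℝ, EuclideanSpace ℝ (Fin m)) ∞ M]
  [RiemannianBundle (fun x : M => TangentSpace 𝓘(ℝ, EuclideanSpace ℝ (Fin m)) x)]
  [IsContMDiffRiemannianBundle 𝓘(ℝ, EuclideanSpace ℝ (Fin m)) ∞ (EuclideanSpace ℝ (Fin m))
      (fun x : M => TangentSpace 𝓘(ℝ, EuclideanSpace ℝ (Fin m)) x)]

/-- smoothness of the coordinate expression. -/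
theorem loc_contDiffAt {F : M → Eu (m + 2)}
    (hF : ContMDiff 𝓘(ℝ, EuclideanSpace ℝ (Fin m)) 𝓘(ℝ, EuclideanSpace ℝ (Fin (m + 2))) ∞ F)
    (x : M) {y : Eu m} (hy : y ∈ (chartAt (Eu m) x).target) :
    ContDiffAt ℝ ∞ (loc F x) y := by
  have h1 : ContMDiffOn 𝓘(ℝ, EuclideanSpace ℝ (Fin m)) 𝓘(ℝ, EuclideanSpace ℝ (Fin m)) ∞
      (chartAt (Eu m) x).symm (chartAt (Eu m) x).target := contMDiffOn_chart_symm
  have h2 : ContMDiffOn 𝓘(ℝ, EuclideanSpace ℝ (Fin m)) 𝓘(ℝ, EuclideanSpace ℝ (Fin (m + 2))) ∞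
      (F ∘ (chartAt (Eu m) x).symm) (chartAt (Eu m) x).target :=
    hF.comp_contMDiffOn h1
  exact (contMDiffOn_iff_contDiffOn.1 h2).contDiffAt
    ((chartAt (Eu m) x).open_target.mem_nhds hy)

/-- chain rule for the coordinate expression. -/
theorem fderiv_loc {F : M → Eu (m + 2)}
    (hF : ContMDiff 𝓘(ℝ, EuclideanSpace ℝ (Fin m)) 𝓘(ℝ, EuclideanSpace ℝ (Fin (m + 2))) ∞ F)
    (x : M) {y : Eu m} (hy : y ∈ (chartAt (Eu m) x).target) (v : Eu m) :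
    fderiv ℝ (loc F x) y v =
      mfderiv 𝓘(ℝ, EuclideanSpace ℝ (Fin m)) 𝓘(ℝ, EuclideanSpace ℝ (Fin (m + 2))) F
        ((chartAt (Eu m) x).symm y)
        (mfderiv 𝓘(ℝ, EuclideanSpace ℝ (Fin m)) 𝓘(ℝ, EuclideanSpace ℝ (Fin m))
          (chartAt (EuclideanSpace ℝ (Fin m)) x).symm y v) := by
  have h1 : MDifferentiableAt 𝓘(ℝ, EuclideanSpace ℝ (Fin m)) 𝓘(ℝ, EuclideanSpace ℝ (Fin m))
      (chartAt (Eu m) x).symm y :=
    (mdifferentiable_chart (I := 𝓘(ℝ, EuclideanSpace ℝ (Fin m))) x).mdifferentiableAt_symm hy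
  have h2 : MDifferentiableAt 𝓘(ℝ, EuclideanSpace ℝ (Fin m))
      𝓘(ℝ, EuclideanSpace ℝ (Fin (m + 2))) F ((chartAt (Eu m) x).symm y) :=
    (hF _).mdifferentiableAt (by simp)
  have h3 := mfderiv_comp y h2 h1
  rw [mfderiv_eq_fderiv] at h3
  have h4 := congrArg (fun L => L v) h3
  exact h4

/-- the chart metric is the Gram matrix of the coordinate expression. -/
theorem chartMetric_eq {F : M → Eu (m + 2)}
    (hF : ContMDiff 𝓘(ℝ, EuclideanSpace ℝ (Fin m)) 𝓘(ℝ, EuclideanSpace ℝ (Fin (m + 2))) ∞ F)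
    (hiso : IsIsometricMap m (m + 2) M F)
    (x : M) {y : Eu m} (hy : y ∈ (chartAt (Eu m) x).target) (i j : Fin m) :
    chartMetric m M x y i j =
      inner ℝ (fderiv ℝ (loc F x) y (EuclideanSpace.single i 1))
        (fderiv ℝ (loc F x) y (EuclideanSpace.single j 1)) := by
  rw [fderiv_loc hF x hy, fderiv_loc hF x hy]
  exact hiso _ _ _

theorem loc_inj {F : M → Eu (m + 2)}
    (hF : ContMDiff 𝓘(ℝ, EuclideanSpace ℝ (Fin m)) 𝓘(ℝ, EuclideanSpace ℝ (Fin (m + 2))) ∞ F)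
    (hiso : IsIsometricMap m (m + 2) M F)
    (x : M) {y : Eu m} (hy : y ∈ (chartAt (Eu m) x).target) :
    Function.Injective (fderiv ℝ (loc F x) y) := by
  refine (injective_iff_map_eq_zero _).2 fun v hv => ?_
  rw [fderiv_loc hF x hy] at hv
  set w := mfderiv 𝓘(ℝ, EuclideanSpace ℝ (Fin m)) 𝓘(ℝ, EuclideanSpace ℝ (Fin m))
          (chartAt (EuclideanSpace ℝ (Fin m)) x).symm y v with hw
  have h1 := hiso _ w w
  have h2 : inner ℝ w w = 0 := by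
    rw [h1, hv]
    exact inner_zero_left _
  have h3 : w = 0 := inner_self_eq_zero.1 h2
  have h4 := (mdifferentiable_chart (I := 𝓘(ℝ, EuclideanSpace ℝ (Fin m))) x).comp_symm_deriv hy
  have h5 := congrArg (fun L => L v) h4
  have h6 : mfderiv 𝓘(ℝ, EuclideanSpace ℝ (Fin m)) 𝓘(ℝ, EuclideanSpace ℝ (Fin m))
      (chartAt (Eu m) x) ((chartAt (Eu m) x).symm y) w = v := h5
  rw [h3, map_zero] at h6
  exact h6.symm

theorem imm_of {F : M → Eu (m + 2)}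
    (hF : ContMDiff 𝓘(ℝ, EuclideanSpace ℝ (Fin m)) 𝓘(ℝ, EuclideanSpace ℝ (Fin (m + 2))) ∞ F)
    (hS : ∀ x, ‖F x‖ = 1) (hiso : IsIsometricMap m (m + 2) M F) : Imm F :=
  ⟨hF.continuous, hS, fun x _ hy => loc_contDiffAt hF x hy, fun x _ hy => loc_inj hF hiso x hy⟩

end Smooth

section Lip

variable [MetricSpace M] [ChartedSpace (EuclideanSpace ℝ (Fin m)) M]
  [IsManifold 𝓘(ℝ, EuclideanSpace ℝ (Fin m)) ∞ M]
  [RiemannianBundle (fun x : M => TangentSpace 𝓘(ℝ, EuclideanSpace ℝ (Fin m)) x)]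
  [IsContMDiffRiemannianBundle 𝓘(ℝ, EuclideanSpace ℝ (Fin m)) ∞ (EuclideanSpace ℝ (Fin m))
      (fun x : M => TangentSpace 𝓘(ℝ, EuclideanSpace ℝ (Fin m)) x)]
  [IsRiemannianManifold 𝓘(ℝ, EuclideanSpace ℝ (Fin m)) M]

theorem enorm_mfderiv_eq {F : M → Eu (m + 2)} (hiso : IsIsometricMap m (m + 2) M F) (x : M)
    (v : TangentSpace 𝓘(ℝ, EuclideanSpace ℝ (Fin m)) x) (w : EuclideanSpace ℝ (Fin (m + 2)))
    (hw : w = mfderiv 𝓘(ℝ, EuclideanSpace ℝ (Fin m)) 𝓘(ℝ, EuclideanSpace ℝ (Fin (m + 2))) F x v) :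
    ‖w‖ₑ = ‖v‖ₑ := by
  have h1 : inner ℝ v v = inner ℝ w w := by
    rw [hw]
    exact hiso x v v
  have h2 : ‖v‖ ^ 2 = ‖w‖ ^ 2 := by
    rw [← real_inner_self_eq_norm_sq, ← real_inner_self_eq_norm_sq]
    exact h1
  have h3 : ‖v‖ = ‖w‖ := by
    rw [← abs_of_nonneg (norm_nonneg v), ← Real.sqrt_sq_eq_abs, h2, Real.sqrt_sq (norm_nonneg _)]
  rw [← ofReal_norm, ← ofReal_norm, h3]

attribute [local instance] normedAddCommGroupTangentSpaceVectorSpace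
attribute [local instance] normedSpaceTangentSpaceVectorSpace

set_option backward.isDefEq.respectTransparency false in
theorem lipschitz_of {F : M → Eu (m + 2)}
    (hF : ContMDiff 𝓘(ℝ, EuclideanSpace ℝ (Fin m)) 𝓘(ℝ, EuclideanSpace ℝ (Fin (m + 2))) ∞ F)
    (hiso : IsIsometricMap m (m + 2) M F) : LipschitzWith 1 F := by
  intro x y
  rw [ENNReal.coe_one, one_mul]
  rw [IsRiemannianManifold.out (I := 𝓘(ℝ, EuclideanSpace ℝ (Fin m))) x y]
  refine le_of_forall_gt fun δ hδ => ?_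
  obtain ⟨γ, hγ0, hγ1, γ_smooth, hγ⟩ := Manifold.exists_lt_of_riemannianEDist_lt hδ
  refine lt_of_le_of_lt ?_ hγ
  let γ' := F ∘ γ
  have hF1 : ContMDiff 𝓘(ℝ, EuclideanSpace ℝ (Fin m)) 𝓘(ℝ, EuclideanSpace ℝ (Fin (m + 2))) 1 F :=
    hF.of_le (by simp)
  have hC : ContMDiffOn 𝓘(ℝ, ℝ) 𝓘(ℝ, EuclideanSpace ℝ (Fin (m + 2))) 1 γ' (Icc 0 1) :=
    hF1.comp_contMDiffOn γ_smooth
  have key : ‖γ' 1 - γ' 0‖ₑ ≤
      Manifold.pathELength 𝓘(ℝ, EuclideanSpace ℝ (Fin m)) γ 0 1 := by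
    calc
      ‖γ' 1 - γ' 0‖ₑ
    _ ≤ ∫⁻ t' in Icc 0 1, ‖derivWithin γ' (Icc 0 1) t'‖ₑ := by
      apply enorm_sub_le_lintegral_derivWithin_Icc_of_contDiffOn_Icc _ zero_le_one
      rwa [← contMDiffOn_iff_contDiffOn]
    _ = ∫⁻ t' in Icc 0 1, ‖mfderivWithin 𝓘(ℝ, ℝ) 𝓘(ℝ, EuclideanSpace ℝ (Fin (m + 2)))
          γ' (Icc 0 1) t' 1‖ₑ := by
      simp_rw [← fderivWithin_derivWithin, mfderivWithin_eq_fderivWithin]
      rfl
    _ ≤ ∫⁻ t' in Icc 0 1, ‖mfderivWithin 𝓘(ℝ, ℝ) 𝓘(ℝ, EuclideanSpace ℝ (Fin m))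
          γ (Icc 0 1) t' 1‖ₑ := by
      apply setLIntegral_mono' measurableSet_Icc (fun t' ht' ↦ ?_)
      have h1 : mfderivWithin 𝓘(ℝ, ℝ) 𝓘(ℝ, EuclideanSpace ℝ (Fin (m + 2))) γ' (Icc 0 1) t' =
          (mfderiv 𝓘(ℝ, EuclideanSpace ℝ (Fin m)) 𝓘(ℝ, EuclideanSpace ℝ (Fin (m + 2)))
            F (γ t')) ∘L
          (mfderivWithin 𝓘(ℝ, ℝ) 𝓘(ℝ, EuclideanSpace ℝ (Fin m)) γ (Icc 0 1) t') := by
        apply mfderiv_comp_mfderivWithin
        · exact (hF _).mdifferentiableAt (by simp)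
        · exact γ_smooth.mdifferentiableOn one_ne_zero _ ht'
        · rw [uniqueMDiffWithinAt_iff_uniqueDiffWithinAt]
          exact uniqueDiffOn_Icc zero_lt_one _ ht'
      have h2 : mfderivWithin 𝓘(ℝ, ℝ) 𝓘(ℝ, EuclideanSpace ℝ (Fin (m + 2))) γ' (Icc 0 1) t' 1 =
          (mfderiv 𝓘(ℝ, EuclideanSpace ℝ (Fin m)) 𝓘(ℝ, EuclideanSpace ℝ (Fin (m + 2)))
            F (γ t'))
          (mfderivWithin 𝓘(ℝ, ℝ) 𝓘(ℝ, EuclideanSpace ℝ (Fin m)) γ (Icc 0 1) t' 1) :=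
        congr($h1 1)
      exact (enorm_mfderiv_eq hiso _ _ _ h2).le
    _ = Manifold.pathELength 𝓘(ℝ, EuclideanSpace ℝ (Fin m)) γ 0 1 := by
      rw [Manifold.pathELength_eq_lintegral_mfderivWithin_Icc]
  rw [← hγ0, ← hγ1, edist_comm, edist_eq_enorm_sub]
  exact key

end Lip

section Proj

variable [MetricSpace M] [MeasurableSpace M] [BorelSpace M]

/-- Lipschitz maps with constant `1` do not increase the Euclidean Hausdorff measure. -/
theorem euclideanHausdorff_image_le {G : M → Eu m} (hG : LipschitzWith 1 G) (s : Set M) :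
    Measure.euclideanHausdorffMeasure m (G '' s) ≤ Measure.euclideanHausdorffMeasure m s := by
  rw [Measure.euclideanHausdorffMeasure_def, Measure.euclideanHausdorffMeasure_def,
    Measure.smul_apply, Measure.smul_apply]
  have h := hG.hausdorffMeasure_image_le (d := (m : ℝ)) (Nat.cast_nonneg m) s
  rw [ENNReal.coe_one, ENNReal.one_rpow, one_mul] at h
  gcongr

theorem projBound_of {F : M → Eu (m + 2)} (hF : LipschitzWith 1 F) :
    ProjBound F (Measure.euclideanHausdorffMeasure m) := by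
  intro p hp P _
  have h1 : LipschitzWith 1 (fun x => p (F x)) := by
    have h2 : LipschitzWith ‖p‖₊ p := p.lipschitz
    have h3 : LipschitzWith 1 p := h2.weaken (by exact_mod_cast hp)
    have h5 := h3.comp hF
    rw [mul_one] at h5
    exact h5
  have h4 := euclideanHausdorff_image_le h1 P
  rw [EuclideanSpace.euclideanHausdorffMeasure_eq_volume] at h4
  rwa [Set.image_image]

end Proj

end Crest.Agent.R246.J816
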