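import Crest.Agent.R246.JC3_816
import Mathlib.Analysis.Calculus.LocalExtr.Basic

/-!
Row 246, part JC, file 4: geometry of nearest points on the cone, multiple points, normals.
-/

set_option autoImplicit false

open scoped ContDiff Topology ENNReal
open MeasureTheory Set Filter

noncomputable section

namespace Crest.Agent.R246.J816

variable {m : ℕ}

/-- a vector orthogonal to the frame is a multiple of the unit normal. -/
theorem GoodAt.eq_smul_nrm {f : Eu m → Eu (m + 2)} {t : Eu m} (h : GoodAt f t)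
    {w : Eu (m + 2)} (h0 : inner ℝ (f t) w = 0)
    (h1 : ∀ v, inner ℝ (fderiv ℝ f t v) w = 0) :
    w = inner ℝ (nrm f t) w • nrm f t := by
  have hnorth : ∀ u ∈ Submodule.span ℝ (Set.range (frame f t)), inner ℝ (nrm f t) u = 0 := by
    intro u hu
    induction hu using Submodule.span_induction with
    | mem x hx =>
      obtain ⟨i, rfl⟩ := hx
      refine Fin.cases ?_ (fun i => ?_) i
      · exact nrm_orth_f f t
      · exact nrm_orth_df f t _
    | zero => exact inner_zero_right _
    | add x y _ _ hx hy => rw [inner_add_right, hx, hy, add_zero]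
    | smul c x _ hx => rw [real_inner_smul_right, hx, mul_zero]
  have hnot : nrm f t ∉ Submodule.span ℝ (Set.range (frame f t)) := by
    intro hcon
    have := hnorth _ hcon
    rw [real_inner_self_eq_norm_sq, h.norm_nrm] at this
    norm_num at this
  have hli : LinearIndependent ℝ (Fin.cons (nrm f t) (frame f t) : Fin (m + 2) → Eu (m + 2)) :=
    linearIndependent_finCons.2 ⟨h.linInd, hnot⟩
  have htop : Submodule.span ℝ
      (Set.range (Fin.cons (nrm f t) (frame f t) : Fin (m + 2) → Eu (m + 2))) = ⊤ :=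
    hli.span_eq_top_of_card_eq_finrank' (by simp)
  set w' := w - inner ℝ (nrm f t) w • nrm f t with hw'
  have horth : ∀ u ∈ Submodule.span ℝ
      (Set.range (Fin.cons (nrm f t) (frame f t) : Fin (m + 2) → Eu (m + 2))),
      inner ℝ u w' = 0 := by
    intro u hu
    induction hu using Submodule.span_induction with
    | mem x hx =>
      obtain ⟨i, rfl⟩ := hx
      refine Fin.cases ?_ (fun i => ?_) i
      · show inner ℝ (nrm f t) w' = 0
        rw [hw', inner_sub_right, real_inner_smul_right, real_inner_self_eq_norm_sq, h.norm_nrm]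
        ring
      · show inner ℝ (frame f t i) w' = 0
        rw [hw', inner_sub_right, real_inner_smul_right]
        refine Fin.cases ?_ (fun i => ?_) i
        · have e1 : inner ℝ (f t) (nrm f t) = 0 := by
            rw [real_inner_comm]; exact nrm_orth_f f t
          show inner ℝ (f t) w - _ * inner ℝ (f t) (nrm f t) = 0
          rw [h0, e1, mul_zero, sub_zero]
        · have e1 : inner ℝ (fderiv ℝ f t (EuclideanSpace.single i 1)) (nrm f t) = 0 := by
            rw [real_inner_comm]; exact nrm_orth_df f t _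
          show inner ℝ (fderiv ℝ f t (EuclideanSpace.single i 1)) w -
            _ * inner ℝ (fderiv ℝ f t (EuclideanSpace.single i 1)) (nrm f t) = 0
          rw [h1, e1, mul_zero, sub_zero]
    | zero => exact inner_zero_left _
    | add x y _ _ hx hy => rw [inner_add_left, hx, hy, add_zero]
    | smul c x _ hx => rw [real_inner_smul_left, hx, mul_zero]
  have hz : inner ℝ w' w' = 0 := horth w' (by rw [htop]; trivial)
  have hz' : w' = 0 := inner_self_eq_zero.1 hz
  exact sub_eq_zero.1 hz'

/-- first order condition at a nearest point of a family of curves. -/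
theorem orth_of_min {V : Type*} [NormedAddCommGroup V] [NormedSpace ℝ V]
    {f : V → Eu (m + 2)} {t : V} (hf : DifferentiableAt ℝ f t) {q : Eu (m + 2)}
    {ρ : ℝ} (hρ : 0 < ρ) (hmin : ∀ᶠ u in 𝓝 t, ‖q - ρ • f t‖ ≤ ‖q - ρ • f u‖) (v : V) :
    inner ℝ (fderiv ℝ f t v) (q - ρ • f t) = 0 := by
  have h1 : HasFDerivAt (fun u => q - ρ • f u) (-(ρ • fderiv ℝ f t)) t := by
    have := (hf.hasFDerivAt.const_smul ρ).const_sub q
    exact this
  have h2 : HasFDerivAt (fun u => inner ℝ (q - ρ • f u) (q - ρ • f u))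
      ((fderivInnerCLM ℝ (q - ρ • f t, q - ρ • f t)).comp
        ((-(ρ • fderiv ℝ f t)).prod (-(ρ • fderiv ℝ f t)))) t := h1.inner ℝ h1
  have h3 : IsLocalMin (fun u => inner ℝ (q - ρ • f u) (q - ρ • f u)) t := by
    filter_upwards [hmin] with u hu
    rw [real_inner_self_eq_norm_sq, real_inner_self_eq_norm_sq]
    exact pow_le_pow_left₀ (norm_nonneg _) hu 2
  have h4 := h3.hasFDerivAt_eq_zero h2
  have h5 := DFunLike.congr_fun h4 v
  simp only [ContinuousLinearMap.comp_apply, ContinuousLinearMap.prod_apply,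
    fderivInnerCLM_apply, _root_.zero_apply, _root_.neg_apply,
    _root_.smul_apply, inner_neg_right, inner_neg_left, real_inner_smul_left,
    real_inner_smul_right] at h5
  rw [real_inner_comm (fderiv ℝ f t v) (q - ρ • f t)] at h5
  have h6 : ρ * inner ℝ (fderiv ℝ f t v) (q - ρ • f t) = 0 := by linarith
  exact (mul_eq_zero.1 h6).resolve_left hρ.ne'

section Man

variable {M : Type*} [TopologicalSpace M] [ChartedSpace (Eu m) M]

theorem Imm.goodAt {F : M → Eu (m + 2)} (hF : Imm F) (x : M) {y : Eu m}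
    (hy : y ∈ (chartAt (Eu m) x).target) : GoodAt (loc F x) y :=
  ⟨hF.smooth x y hy, hF.inj x y hy, Eventually.of_forall fun _ => hF.norm_one _⟩

/-- structure of the normal segment through a point near the cone. -/
theorem exists_normal_repr {F : M → Eu (m + 2)} (hF : Imm F)
    {q : Eu (m + 2)} {ρ : ℝ} {x : M} (hρ : 0 < ρ)
    (hmin : Metric.infDist q (cone F) = ‖q - ρ • F x‖) (x₀ : M)
    (hx : x ∈ (chartAt (Eu m) x₀).source) :
    ∃ s : ℝ, q = tube (loc F x₀) (chartAt (Eu m) x₀ x, ρ, s) ∧
      ‖q‖ ^ 2 = ρ ^ 2 * (1 + s ^ 2) ∧ Metric.infDist q (cone F) = ρ * |s| := by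
  set e := chartAt (Eu m) x₀ with he
  set f := loc F x₀ with hf
  set t := e x with ht
  have htt : t ∈ e.target := e.map_source hx
  have hft : f t = F x := by
    show F (e.symm (e x)) = F x
    rw [e.left_inv hx]
  have hg : GoodAt f t := hF.goodAt x₀ htt
  have hle : ∀ z ∈ cone F, ‖q - ρ • F x‖ ≤ ‖q - z‖ := by
    intro z hz
    rw [← hmin, ← dist_eq_norm]
    exact Metric.infDist_le_dist_of_mem hz
  -- radial optimality
  have hrad : inner ℝ (f t) (q - ρ • f t) = 0 := by
    have h1 : DifferentiableAt ℝ (fun u : ℝ => (1 + u) • F x) 0 := by fun_prop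
    have h2 : ∀ᶠ u : ℝ in 𝓝 0, ‖q - ρ • ((1 + (0:ℝ)) • F x)‖ ≤ ‖q - ρ • ((1 + u) • F x)‖ := by
      have : Ioi (-1 : ℝ) ∈ 𝓝 (0:ℝ) := Ioi_mem_nhds (by norm_num)
      filter_upwards [this] with u hu
      have hu' : -1 < u := hu
      rw [add_zero, one_smul]
      refine hle _ (smul_mem_cone hρ.le (mem_cone F (by linarith) x))
    have h3 := orth_of_min h1 hρ h2 1
    have h4 : fderiv ℝ (fun u : ℝ => (1 + u) • F x) 0 1 = F x := by
      have : HasDerivAt (fun u : ℝ => (1 + u) • F x) ((1:ℝ) • F x) 0 :=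
        ((hasDerivAt_id (0:ℝ)).const_add 1).smul_const (F x)
      rw [this.hasFDerivAt.fderiv]
      simp
    rw [h4, add_zero, one_smul] at h3
    rw [hft]
    exact h3
  have htan : ∀ v, inner ℝ (fderiv ℝ f t v) (q - ρ • f t) = 0 := by
    intro v
    refine orth_of_min hg.differentiableAt hρ (Eventually.of_forall fun u => ?_) v
    rw [hft]
    exact hle _ (mem_cone F hρ.le (e.symm u))
  have hw := hg.eq_smul_nrm hrad htan
  set c := inner ℝ (nrm f t) (q - ρ • f t) with hc
  have hρne := hρ.ne'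
  have hq : q = ρ • f t + c • nrm f t := by
    rw [← hw]; abel
  refine ⟨c / ρ, ?_, ?_, ?_⟩
  · show q = ρ • (f t + (c / ρ) • nrm f t)
    rw [smul_add, smul_smul, mul_div_cancel₀ _ hρne]
    exact hq
  · have h5 : inner ℝ q q = ρ ^ 2 * (1 + (c / ρ) ^ 2) := by
      have e1 : inner ℝ (f t) (nrm f t) = 0 := by
        rw [real_inner_comm]; exact nrm_orth_f f t
      rw [hq]
      simp only [inner_add_left, inner_add_right, real_inner_smul_left, real_inner_smul_right,
        e1, nrm_orth_f]
      rw [real_inner_self_eq_norm_sq, real_inner_self_eq_norm_sq, hg.norm_eq, hg.norm_nrm]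
      field_simp
      ring
    rw [← real_inner_self_eq_norm_sq, h5]
  · rw [hmin, ← hft, hw, norm_smul, hg.norm_nrm, mul_one, Real.norm_eq_abs, abs_div,
      abs_of_pos hρ, mul_div_cancel₀ _ hρne]

/-- local injectivity of the immersion. -/
theorem Imm.exists_injOn {F : M → Eu (m + 2)} (hF : Imm F) (x : M) :
    ∃ V : Set M, IsOpen V ∧ x ∈ V ∧ InjOn F V := by
  set e := chartAt (Eu m) x with he
  have hx : x ∈ e.source := mem_chart_source (Eu m) x
  have hg := hF.goodAt x (e.map_source hx)
  obtain ⟨c, hc, h⟩ := exists_lower (hg.smooth.hasStrictFDerivAt (by simp)) hg.inj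
  rw [Metric.eventually_nhds_iff_ball] at h
  obtain ⟨r, hr, h⟩ := h
  refine ⟨e.source ∩ e ⁻¹' Metric.ball (e x) r, e.isOpen_inter_preimage Metric.isOpen_ball,
    ⟨hx, Metric.mem_ball_self hr⟩, ?_⟩
  rintro y ⟨hy, hyr⟩ z ⟨hz, hzr⟩ hyz
  have hmem : (e y, e z) ∈ Metric.ball (e x, e x) r := by
    rw [Metric.mem_ball, Prod.dist_eq, max_lt_iff]
    exact ⟨hyr, hzr⟩
  have h1 := h _ hmem
  have h2 : loc F x (e y) = F y := by
    show F (e.symm (e y)) = F y
    rw [e.left_inv hy]
  have h3 : loc F x (e z) = F z := by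
    show F (e.symm (e z)) = F z
    rw [e.left_inv hz]
  simp only [h2, h3, hyz, sub_self, norm_zero] at h1
  have h4 : ‖e y - e z‖ ≤ 0 := by nlinarith [norm_nonneg (e y - e z)]
  have h5 : e y = e z := sub_eq_zero.1 (norm_le_zero_iff.1 h4)
  exact e.injOn hy hz h5

/-- points of `M` whose image has another preimage. -/
def Mul (F : M → Eu (m + 2)) : Set M := {x | ∃ x', F x' = F x ∧ x' ≠ x}

theorem isClosed_Mul [CompactSpace M] [T2Space M] {F : M → Eu (m + 2)} (hF : Imm F) :
    IsClosed (Mul F) := by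
  choose V hVo hxV hVinj using hF.exists_injOn
  set K : Set (M × M) := {p | F p.1 = F p.2} ∩ (⋃ x, V x ×ˢ V x)ᶜ with hK
  have hKc : IsClosed K := by
    refine (isClosed_eq (hF.cont.comp continuous_fst) (hF.cont.comp continuous_snd)).inter ?_
    rw [isClosed_compl_iff]
    exact isOpen_iUnion fun x => (hVo x).prod (hVo x)
  have h1 : Mul F = Prod.fst '' K := by
    ext x
    constructor
    · rintro ⟨x', h2, h3⟩
      refine ⟨(x, x'), ⟨h2.symm, ?_⟩, rfl⟩
      simp only [mem_compl_iff, mem_iUnion, mem_prod, not_exists]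
      rintro z ⟨h4, h5⟩
      exact h3 (hVinj z h5 h4 h2)
    · rintro ⟨⟨y, y'⟩, ⟨h2, h3⟩, rfl⟩
      refine ⟨y', Eq.symm h2, ?_⟩
      intro h4
      refine h3 (mem_iUnion.2 ⟨y, ?_⟩)
      simp only at h4
      rw [h4]
      exact ⟨hxV y, hxV y⟩
  rw [h1]
  exact (hKc.isCompact.image continuous_fst).isClosed

end Man

/-- orthogonality to the image of the derivative does not depend on the parametrisation. -/
theorem normal_indep {f g : Eu m → Eu (m + 2)} {τ : Eu m → Eu m} {t u : Eu m}
    (hf : HasStrictFDerivAt f (fderiv ℝ f t) t) (hinj : Function.Injective (fderiv ℝ f t))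
    (hg : DifferentiableAt ℝ g u) (hτ : ContinuousAt τ u) (hτu : τ u = t)
    (hgf : ∀ᶠ w in 𝓝 u, g w = f (τ w)) {ν : Eu (m + 2)}
    (hν : ∀ v, inner ℝ ν (fderiv ℝ f t v) = 0) (v : Eu m) :
    inner ℝ ν (fderiv ℝ g u v) = 0 := by
  have hτ' : Tendsto τ (𝓝 u) (𝓝 t) := by rw [← hτu]; exact hτ
  obtain ⟨c, hc, hlow⟩ := exists_lower hf hinj
  -- `τ w - t = O (w - u)`
  have hO : (fun w => τ w - t) =O[𝓝 u] fun w => w - u := by
    have h1 : (fun w => τ w - t) =O[𝓝 u] fun w => g w - g u := by
      refine Asymptotics.IsBigO.of_bound c⁻¹ ?_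
      have h2 : Tendsto (fun w => (τ w, t)) (𝓝 u) (𝓝 (t, t)) :=
        hτ'.prodMk_nhds tendsto_const_nhds
      filter_upwards [h2.eventually hlow, hgf] with w hw hw2
      rw [hw2, hgf.self_of_nhds, hτu, ← div_eq_inv_mul, le_div_iff₀' hc]
      exact hw
    exact h1.trans hg.hasFDerivAt.isBigO_sub
  have ho : (fun w => f (τ w) - f t - fderiv ℝ f t (τ w - t)) =o[𝓝 u] fun w => w - u :=
    (hf.hasFDerivAt.isLittleO.comp_tendsto hτ').trans_isBigO hO
  have h3 : HasFDerivAt (fun w => inner ℝ ν (g w)) ((innerSL ℝ ν).comp (fderiv ℝ g u)) u :=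
    (innerSL ℝ ν).hasFDerivAt.comp u hg.hasFDerivAt
  have h4 : HasFDerivAt (fun w => inner ℝ ν (g w)) (0 : Eu m →L[ℝ] ℝ) u := by
    rw [hasFDerivAt_iff_isLittleO]
    have h5 : (fun w => inner ℝ ν (f (τ w) - f t - fderiv ℝ f t (τ w - t))) =o[𝓝 u]
        fun w => w - u := by
      refine Asymptotics.IsBigO.trans_isLittleO ?_ ho
      exact (innerSL ℝ ν).isBigO_comp _ _
    refine h5.congr' ?_ Filter.EventuallyEq.rfl
    filter_upwards [hgf] with w hw
    rw [hw, hgf.self_of_nhds, hτu, inner_sub_right, inner_sub_right, hν]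
    simp
  have h6 := h3.unique h4
  have h7 := DFunLike.congr_fun h6 v
  simpa using h7

section Man2

variable {M : Type*} [TopologicalSpace M] [ChartedSpace (Eu m) M]

/-- the unit normal computed in any chart is a unit normal in the sense of `IsNormal`. -/
theorem isNormal_nrm {F : M → Eu (m + 2)} (hF : Imm F) (x₀ x : M)
    (hx : x ∈ (chartAt (Eu m) x₀).source) :
    IsNormal F x (nrm (loc F x₀) (chartAt (Eu m) x₀ x)) := by
  set e := chartAt (Eu m) x₀ with he
  set e' := chartAt (Eu m) x with he'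
  have hx' : x ∈ e'.source := mem_chart_source (Eu m) x
  have htt : e x ∈ e.target := e.map_source hx
  have hg : GoodAt (loc F x₀) (e x) := hF.goodAt x₀ htt
  have hft : loc F x₀ (e x) = F x := by
    show F (e.symm (e x)) = F x
    rw [e.left_inv hx]
  refine ⟨hg.norm_nrm, ?_, fun v => ?_⟩
  · rw [← hft]; exact nrm_orth_f _ _
  · have hc : ContinuousAt (fun w => e (e'.symm w)) (ctr x) := by
      have h1 : ContinuousAt e'.symm (e' x) := e'.continuousAt_symm (e'.map_source hx')
      have h2 : ContinuousAt e (e'.symm (e' x)) := by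
        rw [e'.left_inv hx']
        exact e.continuousAt hx
      exact ContinuousAt.comp (g := e) h2 h1
    refine normal_indep (f := loc F x₀) (g := loc F x) (τ := fun w => e (e'.symm w))
      (t := e x) (u := ctr x) (hg.smooth.hasStrictFDerivAt (by simp)) hg.inj ?_ hc ?_ ?_
      (nrm_orth_df _ _) v
    · exact (hF.goodAt x (e'.map_source hx')).differentiableAt
    · show e (e'.symm (e' x)) = e x
      rw [e'.left_inv hx']
    · have h1 : ContinuousAt e'.symm (e' x) := e'.continuousAt_symm (e'.map_source hx')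
      have h2 : e.source ∈ 𝓝 (e'.symm (e' x)) := by
        rw [e'.left_inv hx']
        exact e.open_source.mem_nhds hx
      filter_upwards [h1.preimage_mem_nhds h2] with w hw
      show F (e'.symm w) = F (e.symm (e (e'.symm w)))
      rw [e.left_inv hw]

end Man2

end Crest.Agent.R246.J816
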