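import Crest.Agent.R246.J1_816
import Crest.Agent.R246.JC4_816

/-!
Row 246, part J, file J2: from the hypotheses of S0380 to `MinAt`; great hyperspheres are
totally geodesic.
-/

set_option autoImplicit false

open scoped ContDiff Manifold Topology ENNReal NNReal
open Bundle MeasureTheory Set Crest.GeometryTopology.CoordMetric
  Crest.GeometryTopology.ChartCurvature Crest.GeometryTopology.SphereImmersion

noncomputable section

namespace Crest.Agent.R246.J816

variable {m : ℕ}

/-- standard basis vector. -/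
abbrev eb (i : Fin m) : Eu m := EuclideanSpace.single i (1:ℝ)

theorem eu_sum (v : Eu m) : v = ∑ i, v i • eb i := by
  ext j
  simp [Finset.sum_apply, Pi.single_apply]

theorem bilin_sum {W : Type*} [NormedAddCommGroup W] [NormedSpace ℝ W]
    (D : Eu m →L[ℝ] Eu m →L[ℝ] W) (v w : Eu m) :
    D v w = ∑ i, ∑ j, (v i * w j) • D (eb i) (eb j) := by
  have h1 : D v = ∑ i, v i • D (eb i) := by
    conv_lhs => rw [eu_sum v]
    rw [map_sum]
    exact Finset.sum_congr rfl fun i _ => map_smul _ _ _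
  rw [h1, _root_.sum_apply]
  refine Finset.sum_congr rfl fun i _ => ?_
  rw [_root_.smul_apply]
  conv_lhs => rw [eu_sum w]
  rw [map_sum, Finset.smul_sum]
  refine Finset.sum_congr rfl fun j _ => ?_
  rw [map_smul, smul_smul]

/-- Gram matrix field of a parametrisation. -/
def gram (f : Eu m → Eu (m + 2)) : MetricField m := fun y =>
  Matrix.of fun i j => inner ℝ (fderiv ℝ f y (eb i)) (fderiv ℝ f y (eb j))

theorem gram_apply (f : Eu m → Eu (m + 2)) (y : Eu m) (i j : Fin m) :
    gram f y i j = inner ℝ (fderiv ℝ f y (eb i)) (fderiv ℝ f y (eb j)) := rfl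

theorem inner_fderiv_gram (f : Eu m → Eu (m + 2)) (y v w : Eu m) :
    inner ℝ (fderiv ℝ f y v) (fderiv ℝ f y w) = ∑ i, ∑ j, v i * (gram f y i j * w j) := by
  conv_lhs => rw [eu_sum v, eu_sum w]
  rw [map_sum, map_sum, sum_inner]
  refine Finset.sum_congr rfl fun i _ => ?_
  rw [inner_sum]
  refine Finset.sum_congr rfl fun j _ => ?_
  rw [map_smul, map_smul, real_inner_smul_left, real_inner_smul_right, gram_apply]
  ring

/-- an orthonormal family of the tangent space and the inverse Gram matrix. -/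
theorem exists_onf {f : Eu m → Eu (m + 2)} {t : Eu m}
    (hinj : Function.Injective (fderiv ℝ f t)) :
    ∃ ξ : Fin m → Eu m, Orthonormal ℝ (fun k => fderiv ℝ f t (ξ k)) ∧
      0 < (gram f t).det ∧ ∀ i j, (gram f t)⁻¹ i j = ∑ k, ξ k i * ξ k j := by
  set L : Eu m →ₗ[ℝ] Eu (m + 2) := (fderiv ℝ f t : Eu m →ₗ[ℝ] Eu (m + 2)) with hL
  have hfr : Module.finrank ℝ (LinearMap.range L) = m := by
    rw [LinearMap.finrank_range_of_inj hinj, finrank_euclideanSpace_fin]
  let ob : OrthonormalBasis (Fin m) ℝ (LinearMap.range L) :=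
    (stdOrthonormalBasis ℝ (LinearMap.range L)).reindex (finCongr hfr)
  have hex : ∀ k, ∃ v : Eu m, L v = ob k := fun k => (ob k).2
  choose ξ hξ using hex
  have hon : Orthonormal ℝ (fun k => fderiv ℝ f t (ξ k)) := by
    have h1 := ob.orthonormal
    rw [orthonormal_iff_ite] at h1 ⊢
    intro i j
    have h2 := h1 i j
    rw [← h2]
    show inner ℝ (L (ξ i)) (L (ξ j)) = _
    rw [hξ, hξ]
    rfl
  -- the matrix identity
  set Ξ : Matrix (Fin m) (Fin m) ℝ := Matrix.of fun i k => ξ k i with hΞ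
  have hmat : Ξ.transpose * (gram f t * Ξ) = 1 := by
    ext k l
    rw [Matrix.one_apply, Matrix.mul_apply]
    have h3 := (orthonormal_iff_ite.1 hon) k l
    rw [inner_fderiv_gram] at h3
    rw [← h3]
    refine Finset.sum_congr rfl fun i _ => ?_
    rw [Matrix.mul_apply, Matrix.transpose_apply, Finset.mul_sum]
    rfl
  have hmat2 : gram f t * (Ξ * Ξ.transpose) = 1 := by
    rw [← Matrix.mul_assoc]
    exact mul_eq_one_comm.1 hmat
  refine ⟨ξ, hon, ?_, ?_⟩
  · have h4 := congrArg Matrix.det hmat2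
    rw [Matrix.det_mul, Matrix.det_mul, Matrix.det_transpose, Matrix.det_one] at h4
    by_contra hcon
    push Not at hcon
    nlinarith [mul_self_nonneg Ξ.det]
  · intro i j
    rw [Matrix.inv_eq_right_inv hmat2, Matrix.mul_apply]
    rfl

theorem contDiffAt_gram {f : Eu m → Eu (m + 2)} {t : Eu m} (hf : ContDiffAt ℝ ∞ f t)
    (i j : Fin m) : ContDiffAt ℝ ∞ (fun y => gram f y i j) t := by
  have h1 : ContDiffAt ℝ ∞ (fderiv ℝ f) t := hf.fderiv_right (by simp)
  exact (h1.clm_apply contDiffAt_const).inner ℝ (h1.clm_apply contDiffAt_const)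

theorem contDiffAt_inv {A : Eu m → Matrix (Fin m) (Fin m) ℝ} {t : Eu m}
    (hA : ∀ i j, ContDiffAt ℝ ∞ (fun y => A y i j) t) (hdet : (A t).det ≠ 0) (i j : Fin m) :
    ContDiffAt ℝ ∞ (fun y => (A y)⁻¹ i j) t := by
  have h1 : ContDiffAt ℝ ∞ (fun y => (A y).det) t := contDiffAt_det hA
  have h2 : ContDiffAt ℝ ∞ (fun y => (A y).adjugate i j) t := by
    have h3 : (fun y => (A y).adjugate i j) =
        fun y => ((A y).updateRow j (Pi.single i 1)).det := by
      ext y
      rw [Matrix.adjugate_apply]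
    rw [h3]
    refine contDiffAt_det fun k l => ?_
    by_cases hk : k = j
    · subst hk
      simp only [Matrix.updateRow_self]
      exact contDiffAt_const
    · simp only [Matrix.updateRow_ne hk]
      exact hA k l
  have h4 : (fun y => (A y)⁻¹ i j) = fun y => ((A y).det)⁻¹ * (A y).adjugate i j := by
    ext y
    rw [Matrix.inv_def, Matrix.smul_apply, smul_eq_mul, Ring.inverse_eq_inv']
  rw [h4]
  exact (h1.inv hdet).mul h2

/-- coordinate derivative of a component. -/
theorem pderiv_comp {f : Eu m → Eu (m + 2)} {y : Eu m} (hf : DifferentiableAt ℝ f y)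
    (j : Fin m) (a : Fin (m + 2)) : pderiv j (fun z => f z a) y = (fderiv ℝ f y (eb j)) a := by
  have h1 : HasFDerivAt (fun z => f z a)
      ((EuclideanSpace.proj a : Eu (m + 2) →L[ℝ] ℝ).comp (fderiv ℝ f y)) y :=
    (EuclideanSpace.proj a : Eu (m + 2) →L[ℝ] ℝ).hasFDerivAt.comp y hf.hasFDerivAt
  rw [pderiv, h1.fderiv]
  rfl

theorem pderiv_pderiv {f : Eu m → Eu (m + 2)} {t : Eu m} (hf : ContDiffAt ℝ ∞ f t)
    (i j : Fin m) (a : Fin (m + 2)) :
    pderiv i (fun y => pderiv j (fun z => f z a) y) t =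
      (fderiv ℝ (fderiv ℝ f) t (eb i) (eb j)) a := by
  have h1 : (fun y => pderiv j (fun z => f z a) y) =ᶠ[𝓝 t]
      fun y => (fderiv ℝ f y (eb j)) a := by
    filter_upwards [(hf.of_le (m := 1) (by exact_mod_cast le_top)).eventually (by norm_num)] with y hy
    exact pderiv_comp (hy.differentiableAt (by simp)) j a
  have h2 : HasFDerivAt (fderiv ℝ f) (fderiv ℝ (fderiv ℝ f) t) t :=
    ((hf.fderiv_right (m := ∞) (by simp)).differentiableAt (by simp)).hasFDerivAt
  have h3 : HasFDerivAt (fun y => (fderiv ℝ f y (eb j)) a)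
      ((EuclideanSpace.proj a : Eu (m + 2) →L[ℝ] ℝ).comp
        ((ContinuousLinearMap.apply ℝ (Eu (m + 2)) (eb j)).comp (fderiv ℝ (fderiv ℝ f) t))) t :=
    (EuclideanSpace.proj a : Eu (m + 2) →L[ℝ] ℝ).hasFDerivAt.comp t
      ((ContinuousLinearMap.apply ℝ (Eu (m + 2)) (eb j)).hasFDerivAt.comp t h2)
  rw [pderiv, h1.fderiv_eq, h3.fderiv]
  rfl

/-- expansion of the Laplace–Beltrami operator at a point, with first order coefficients
independent of the component. -/
theorem exists_laplace {f : Eu m → Eu (m + 2)} {t : Eu m} (hf : ContDiffAt ℝ ∞ f t)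
    (hinj : Function.Injective (fderiv ℝ f t)) {g : MetricField m}
    (hg : ∀ᶠ y in 𝓝 t, g y = gram f y) :
    ∃ B : Eu m, ∀ a : Fin (m + 2), laplaceBeltrami g (fun y => f y a) t =
      (fderiv ℝ f t B) a +
        ∑ i, ∑ j, (gram f t)⁻¹ i j * (fderiv ℝ (fderiv ℝ f) t (eb i) (eb j)) a := by
  obtain ⟨ξ, -, hdet, -⟩ := exists_onf hinj
  set A : Fin m → Fin m → Eu m → ℝ := fun i j y =>
    Real.sqrt (gram f y).det * (gram f y)⁻¹ i j with hA
  have hAd : ∀ i j, DifferentiableAt ℝ (A i j) t := by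
    intro i j
    have h1 : ContDiffAt ℝ ∞ (fun y => (gram f y).det) t :=
      contDiffAt_det (contDiffAt_gram hf)
    have h2 := contDiffAt_inv (contDiffAt_gram hf) hdet.ne' i j
    exact ((h1.sqrt hdet.ne').mul h2).differentiableAt (by simp)
  set s := Real.sqrt (gram f t).det with hs
  have hs0 : s ≠ 0 := (Real.sqrt_pos.2 hdet).ne'
  refine ⟨WithLp.toLp 2 fun j => (1 / s) * ∑ i, pderiv i (A i j) t, fun a => ?_⟩
  have h3 : ∀ i, pderiv i (fun y => Real.sqrt (g y).det *
      ∑ j, inverseField g y i j * pderiv j (fun z => f z a) y) t =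
      ∑ j, (pderiv i (A i j) t * (fderiv ℝ f t (eb j)) a +
        A i j t * (fderiv ℝ (fderiv ℝ f) t (eb i) (eb j)) a) := by
    intro i
    have e1 : (fun y => Real.sqrt (g y).det *
        ∑ j, inverseField g y i j * pderiv j (fun z => f z a) y) =ᶠ[𝓝 t]
        fun y => ∑ j, A i j y * (fderiv ℝ f y (eb j)) a := by
      filter_upwards [hg, (hf.of_le (m := 1) (by exact_mod_cast le_top)).eventually (by norm_num)] with y hy hy2
      rw [hy, Finset.mul_sum]
      refine Finset.sum_congr rfl fun j _ => ?_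
      rw [pderiv_comp (hy2.differentiableAt (by simp)) j a, inverseField, hy, ← mul_assoc]
    have h2 : HasFDerivAt (fderiv ℝ f) (fderiv ℝ (fderiv ℝ f) t) t :=
      ((hf.fderiv_right (m := ∞) (by simp)).differentiableAt (by simp)).hasFDerivAt
    have h4 : ∀ j, HasFDerivAt (fun y => (fderiv ℝ f y (eb j)) a)
        ((EuclideanSpace.proj a : Eu (m + 2) →L[ℝ] ℝ).comp
          ((ContinuousLinearMap.apply ℝ (Eu (m + 2)) (eb j)).comp
            (fderiv ℝ (fderiv ℝ f) t))) t := fun j =>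
      (EuclideanSpace.proj a : Eu (m + 2) →L[ℝ] ℝ).hasFDerivAt.comp t
        ((ContinuousLinearMap.apply ℝ (Eu (m + 2)) (eb j)).hasFDerivAt.comp t h2)
    have h5 : HasFDerivAt (fun y => ∑ j, A i j y * (fderiv ℝ f y (eb j)) a) _ t :=
      HasFDerivAt.fun_sum fun j (_ : j ∈ Finset.univ) => (hAd i j).hasFDerivAt.mul (h4 j)
    rw [pderiv, e1.fderiv_eq, h5.fderiv]
    simp only [_root_.sum_apply, _root_.add_apply,
      _root_.smul_apply, ContinuousLinearMap.comp_apply, smul_eq_mul]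
    refine Finset.sum_congr rfl fun j _ => ?_
    rw [pderiv]
    simp only [ContinuousLinearMap.apply_apply, PiLp.proj_apply]
    ring
  have hgt : g t = gram f t := hg.self_of_nhds
  have e4 : (fderiv ℝ f t (WithLp.toLp 2 fun j => (1 / s) * ∑ i, pderiv i (A i j) t)) a =
      ∑ j, ((1 / s) * ∑ i, pderiv i (A i j) t) * (fderiv ℝ f t (eb j)) a := by
    rw [eu_sum (WithLp.toLp 2 fun j => (1 / s) * ∑ i, pderiv i (A i j) t), map_sum]
    simp
  rw [laplaceBeltrami, hgt, ← hs, e4]
  simp only [h3]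
  simp only [Finset.sum_add_distrib, mul_add, Finset.mul_sum, Finset.sum_mul]
  congr 1
  · rw [Finset.sum_comm]
    refine Finset.sum_congr rfl fun j _ => Finset.sum_congr rfl fun i _ => by ring
  · refine Finset.sum_congr rfl fun i _ => Finset.sum_congr rfl fun j _ => ?_
    simp only [hA]
    rw [← hs]
    field_simp

section Man

universe u

variable {M : Type u} [TopologicalSpace M] [ChartedSpace (EuclideanSpace ℝ (Fin m)) M]
  [IsManifold 𝓘(ℝ, EuclideanSpace ℝ (Fin m)) ∞ M]
  [Bundle.RiemannianBundle (fun x : M => TangentSpace 𝓘(ℝ, EuclideanSpace ℝ (Fin m)) x)]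
  [IsContMDiffRiemannianBundle 𝓘(ℝ, EuclideanSpace ℝ (Fin m)) ∞ (EuclideanSpace ℝ (Fin m))
      (fun x : M => TangentSpace 𝓘(ℝ, EuclideanSpace ℝ (Fin m)) x)]

theorem eventually_chartMetric {F : M → Eu (m + 2)}
    (hF : ContMDiff 𝓘(ℝ, EuclideanSpace ℝ (Fin m)) 𝓘(ℝ, EuclideanSpace ℝ (Fin (m + 2))) ∞ F)
    (hiso : IsIsometricMap m (m + 2) M F) (x : M) :
    ∀ᶠ y in 𝓝 (ctr x : Eu m), chartMetric m M x y = gram (loc F x) y := by
  filter_upwards [(chartAt (Eu m) x).open_target.mem_nhds (mem_chart_target (Eu m) x)] with y hy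
  ext i j
  exact chartMetric_eq hF hiso x hy i j

/-- minimality in the orthonormal form. -/
theorem minAt_of {F : M → Eu (m + 2)}
    (hF : ContMDiff 𝓘(ℝ, EuclideanSpace ℝ (Fin m)) 𝓘(ℝ, EuclideanSpace ℝ (Fin (m + 2))) ∞ F)
    (hiso : IsIsometricMap m (m + 2) M F) (hmin : IsMinimalInSphere m (m + 2) M F) (x : M) :
    MinAt F x := by
  have ht : (ctr x : Eu m) ∈ (chartAt (Eu m) x).target := mem_chart_target (Eu m) x
  have hf := loc_contDiffAt hF x ht
  have hinj := loc_inj hF hiso x ht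
  obtain ⟨B, hB⟩ := exists_laplace hf hinj (eventually_chartMetric hF hiso x)
  obtain ⟨ξ, hon, -, hinv⟩ := exists_onf hinj
  refine ⟨ξ, -B, hon, ?_⟩
  ext a
  have h1 := hmin x a
  rw [sphereTension] at h1
  have h2 : laplaceBeltrami (chartMetric m M x) (chartComponent m (m + 2) M F x a)
      (chartCentre m M x) = laplaceBeltrami (chartMetric m M x) (fun y => loc F x y a)
        (ctr x) := rfl
  rw [h2, hB a] at h1
  have h3 : ∑ k, fderiv ℝ (fderiv ℝ (loc F x)) (ctr x) (ξ k) (ξ k) =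
      ∑ i, ∑ j, (gram (loc F x) (ctr x))⁻¹ i j •
        fderiv ℝ (fderiv ℝ (loc F x)) (ctr x) (eb i) (eb j) := by
    have h4 : ∀ k, fderiv ℝ (fderiv ℝ (loc F x)) (ctr x) (ξ k) (ξ k) =
        ∑ i, ∑ j, (ξ k i * ξ k j) •
          fderiv ℝ (fderiv ℝ (loc F x)) (ctr x) (eb i) (eb j) := by
      intro k
      exact bilin_sum _ _ _
    simp only [h4, hinv, Finset.sum_smul]
    rw [Finset.sum_comm]
    refine Finset.sum_congr rfl fun i _ => ?_
    rw [Finset.sum_comm]
  rw [h3, map_neg]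
  simp only [PiLp.add_apply, PiLp.smul_apply, PiLp.neg_apply, smul_eq_mul]
  have h5 : (∑ i, ∑ j, (gram (loc F x) (ctr x))⁻¹ i j •
        fderiv ℝ (fderiv ℝ (loc F x)) (ctr x) (eb i) (eb j)) a =
      ∑ i, ∑ j, (gram (loc F x) (ctr x))⁻¹ i j *
        (fderiv ℝ (fderiv ℝ (loc F x)) (ctr x) (eb i) (eb j)) a := by
    simp
  rw [h5]
  linarith

end Man

end Crest.Agent.R246.J816
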