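import Crest.Agent.R246.J2_816

/-!
Row 246, part J, file J3: an immersion whose image lies in a great hypersphere is totally
geodesic.
-/

set_option autoImplicit false

open scoped ContDiff Manifold Topology ENNReal NNReal
open Bundle MeasureTheory Set Crest.GeometryTopology.CoordMetric
  Crest.GeometryTopology.ChartCurvature Crest.GeometryTopology.SphereImmersion

noncomputable section

namespace Crest.Agent.R246.J816

variable {m : ℕ}

theorem hasFDerivAt_fderiv_apply {f : Eu m → Eu (m + 2)} {t : Eu m} (hf : ContDiffAt ℝ ∞ f t)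
    (v : Eu m) : HasFDerivAt (fun y => fderiv ℝ f y v)
      ((ContinuousLinearMap.apply ℝ (Eu (m + 2)) v).comp (fderiv ℝ (fderiv ℝ f) t)) t := by
  have h2 : HasFDerivAt (fderiv ℝ f) (fderiv ℝ (fderiv ℝ f) t) t :=
    ((hf.fderiv_right (m := ∞) (by simp)).differentiableAt (by simp)).hasFDerivAt
  exact (ContinuousLinearMap.apply ℝ (Eu (m + 2)) v).hasFDerivAt.comp t h2

theorem pderiv_gram {f : Eu m → Eu (m + 2)} {t : Eu m} (hf : ContDiffAt ℝ ∞ f t)
    (i j l : Fin m) : pderiv i (fun y => gram f y j l) t =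
      inner ℝ (fderiv ℝ (fderiv ℝ f) t (eb i) (eb j)) (fderiv ℝ f t (eb l)) +
        inner ℝ (fderiv ℝ f t (eb j)) (fderiv ℝ (fderiv ℝ f) t (eb i) (eb l)) := by
  have h1 := (hasFDerivAt_fderiv_apply hf (eb j)).inner ℝ (hasFDerivAt_fderiv_apply hf (eb l))
  have h2 : (fun y => gram f y j l) =
      fun y => inner ℝ (fderiv ℝ f y (eb j)) (fderiv ℝ f y (eb l)) := rfl
  rw [pderiv, h2, h1.fderiv]
  simp only [ContinuousLinearMap.comp_apply, ContinuousLinearMap.prod_apply,
    fderivInnerCLM_apply, ContinuousLinearMap.apply_apply]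
  ring

section Man

universe u

variable {M : Type u} [TopologicalSpace M] [ChartedSpace (EuclideanSpace ℝ (Fin m)) M]
  [IsManifold 𝓘(ℝ, EuclideanSpace ℝ (Fin m)) ∞ M]
  [RiemannianBundle (fun x : M => TangentSpace 𝓘(ℝ, EuclideanSpace ℝ (Fin m)) x)]
  [IsContMDiffRiemannianBundle 𝓘(ℝ, EuclideanSpace ℝ (Fin m)) ∞ (EuclideanSpace ℝ (Fin m))
      (fun x : M => TangentSpace 𝓘(ℝ, EuclideanSpace ℝ (Fin m)) x)]

theorem tg_of_hyper {F : M → Eu (m + 2)}
    (hF : ContMDiff 𝓘(ℝ, EuclideanSpace ℝ (Fin m)) 𝓘(ℝ, EuclideanSpace ℝ (Fin (m + 2))) ∞ F)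
    (hS : ∀ x, ‖F x‖ = 1) (hiso : IsIsometricMap m (m + 2) M F)
    {e : Eu (m + 2)} (he : ‖e‖ = 1) (hFe : ∀ x, inner ℝ (F x) e = 0) :
    IsTotallyGeodesicInSphere m (m + 2) M F := by
  intro x i j a
  have hImm := imm_of hF hS hiso
  have ht : (ctr x : Eu m) ∈ (chartAt (Eu m) x).target := mem_chart_target (Eu m) x
  set f := loc F x with hf
  set t : Eu m := ctr x with htdef
  have hg : GoodAt f t := hImm.goodAt x ht
  have hsm := hg.smooth
  obtain ⟨ξ, -, hdet, -⟩ := exists_onf hg.inj
  have hgr := eventually_chartMetric hF hiso x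
  have hgrt : chartMetric m M x t = gram f t := hgr.self_of_nhds
  set D2 := fderiv ℝ (fderiv ℝ f) t with hD2
  have hft : f t = F x := by
    show F ((chartAt (Eu m) x).symm (chartAt (Eu m) x x)) = F x
    rw [(chartAt (Eu m) x).left_inv (mem_chart_source (Eu m) x)]
  -- symmetry of the second derivative
  have hsymm : ∀ v w, D2 v w = D2 w v := by
    have h1 : IsSymmSndFDerivAt ℝ f t := hsm.isSymmSndFDerivAt (by simp; decide)
    exact fun v w => h1.eq v w
  -- the Christoffel symbols
  have hchr : ∀ k, christoffel (chartMetric m M x) t k i j =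
      ∑ l, (gram f t)⁻¹ k l * inner ℝ (D2 (eb i) (eb j)) (fderiv ℝ f t (eb l)) := by
    intro k
    have hpd : ∀ i j l : Fin m, pderiv i (fun y => chartMetric m M x y j l) t =
        inner ℝ (D2 (eb i) (eb j)) (fderiv ℝ f t (eb l)) +
          inner ℝ (fderiv ℝ f t (eb j)) (D2 (eb i) (eb l)) := by
      intro i j l
      have h1 : (fun y => chartMetric m M x y j l) =ᶠ[𝓝 t] fun y => gram f y j l := by
        filter_upwards [hgr] with y hy
        rw [hy]
      rw [pderiv, h1.fderiv_eq]
      exact pderiv_gram hsm i j l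
    rw [christoffel, Finset.mul_sum]
    refine Finset.sum_congr rfl fun l _ => ?_
    rw [hpd, hpd, hpd, inverseField, hgrt, hsymm (eb j) (eb i), hsymm (eb l) (eb i),
      hsymm (eb l) (eb j), real_inner_comm (fderiv ℝ f t (eb j)) (D2 (eb i) (eb l))]
    generalize (gram f t)⁻¹ k l = G
    generalize inner ℝ ((D2 (eb i)) (eb j)) ((fderiv ℝ f t) (eb l)) = a1
    generalize inner ℝ ((fderiv ℝ f t) (eb j)) ((D2 (eb i)) (eb l)) = a2
    generalize inner ℝ ((fderiv ℝ f t) (eb i)) ((D2 (eb j)) (eb l)) = a3
    ring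
  -- the residual vector
  set w := D2 (eb i) (eb j) - ∑ k, christoffel (chartMetric m M x) t k i j •
    fderiv ℝ f t (eb k) + gram f t i j • F x with hw
  have hdf_f : ∀ v, inner ℝ (fderiv ℝ f t v) (F x) = 0 := by
    intro v
    rw [← hft, real_inner_comm]
    exact hg.orth v
  -- orthogonality to `f t`
  have hD2f : inner ℝ (D2 (eb i) (eb j)) (F x) = - gram f t i j := by
    have h1 : HasFDerivAt (fun y => inner ℝ (f y) (fderiv ℝ f y (eb j))) _ t :=
      hg.differentiableAt.hasFDerivAt.inner ℝ (hasFDerivAt_fderiv_apply hsm (eb j))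
    have h2 : (fun y => inner ℝ (f y) (fderiv ℝ f y (eb j))) =ᶠ[𝓝 t] fun _ => (0:ℝ) := by
      filter_upwards [(chartAt (Eu m) x).open_target.mem_nhds ht] with y hy
      exact (hImm.goodAt x hy).orth (eb j)
    have h3 := (h1.congr_of_eventuallyEq h2.symm).unique (hasFDerivAt_const (0:ℝ) t)
    have h4 := DFunLike.congr_fun h3 (eb i)
    simp only [ContinuousLinearMap.comp_apply, ContinuousLinearMap.prod_apply,
      fderivInnerCLM_apply, ContinuousLinearMap.apply_apply, _root_.zero_apply] at h4
    rw [hft] at h4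
    rw [gram_apply, real_inner_comm]
    linarith
  have hw1 : inner ℝ (f t) w = 0 := by
    rw [hft, real_inner_comm, hw, inner_add_left, inner_sub_left, sum_inner, hD2f,
      real_inner_smul_left, real_inner_self_eq_norm_sq, hS]
    simp only [real_inner_smul_left, hdf_f]
    simp
  -- orthogonality to the tangent space
  have hw2' : ∀ l, inner ℝ (fderiv ℝ f t (eb l)) w = 0 := by
    intro l
    have h1 : ∑ k, christoffel (chartMetric m M x) t k i j * gram f t k l =
        inner ℝ (D2 (eb i) (eb j)) (fderiv ℝ f t (eb l)) := by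
      simp only [hchr, Finset.sum_mul]
      rw [Finset.sum_comm]
      have h2 : ∀ l', ∑ k, (gram f t)⁻¹ k l' *
          inner ℝ (D2 (eb i) (eb j)) (fderiv ℝ f t (eb l')) * gram f t k l =
          inner ℝ (D2 (eb i) (eb j)) (fderiv ℝ f t (eb l')) *
            (if l = l' then 1 else 0) := by
        intro l'
        have h3 : ∑ k, gram f t l k * (gram f t)⁻¹ k l' = if l = l' then 1 else 0 := by
          have h4 := Matrix.mul_nonsing_inv (gram f t) (isUnit_iff_ne_zero.2 hdet.ne')
          have h5 := congrFun (congrFun h4 l) l'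
          rw [Matrix.mul_apply, Matrix.one_apply] at h5
          exact h5
        rw [← h3, Finset.mul_sum]
        refine Finset.sum_congr rfl fun k _ => ?_
        have h6 : gram f t k l = gram f t l k := by
          rw [gram_apply, gram_apply, real_inner_comm]
        rw [h6]
        ring
      simp only [h2]
      simp
    rw [real_inner_comm, hw, inner_add_left, inner_sub_left, sum_inner, real_inner_smul_left,
      real_inner_comm (fderiv ℝ f t (eb l)) (F x), hdf_f]
    simp only [real_inner_smul_left]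
    have h7 : ∑ k, christoffel (chartMetric m M x) t k i j *
        inner ℝ (fderiv ℝ f t (eb k)) (fderiv ℝ f t (eb l)) =
        ∑ k, christoffel (chartMetric m M x) t k i j * gram f t k l := rfl
    rw [h7, h1]
    ring
  have hw2 : ∀ v, inner ℝ (fderiv ℝ f t v) w = 0 := by
    intro v
    rw [eu_sum v, map_sum, sum_inner]
    refine Finset.sum_eq_zero fun l _ => ?_
    rw [map_smul, real_inner_smul_left, hw2', mul_zero]
  -- orthogonality to `e`
  have hfe : ∀ y ∈ (chartAt (Eu m) x).target, ∀ v, inner ℝ (fderiv ℝ f y v) e = 0 := by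
    intro y hy v
    have h1 : HasFDerivAt (fun z => inner ℝ (f z) e)
        ((fderivInnerCLM ℝ (f y, e)).comp ((fderiv ℝ f y).prod 0)) y :=
      (hImm.goodAt x hy).differentiableAt.hasFDerivAt.inner ℝ (hasFDerivAt_const e y)
    have h2 : (fun z => inner ℝ (f z) e) = fun _ => (0:ℝ) := by
      ext z
      exact hFe _
    rw [h2] at h1
    have h3 := h1.unique (hasFDerivAt_const (0:ℝ) y)
    have h4 := DFunLike.congr_fun h3 v
    simp only [ContinuousLinearMap.comp_apply, ContinuousLinearMap.prod_apply,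
      fderivInnerCLM_apply, _root_.zero_apply, inner_zero_right, zero_add] at h4
    exact h4
  have hD2e : inner ℝ (D2 (eb i) (eb j)) e = 0 := by
    have h1 : HasFDerivAt (fun y => inner ℝ (fderiv ℝ f y (eb j)) e) _ t :=
      (hasFDerivAt_fderiv_apply hsm (eb j)).inner ℝ (hasFDerivAt_const e t)
    have h2 : (fun y => inner ℝ (fderiv ℝ f y (eb j)) e) =ᶠ[𝓝 t] fun _ => (0:ℝ) := by
      filter_upwards [(chartAt (Eu m) x).open_target.mem_nhds ht] with y hy
      exact hfe y hy _
    have h3 := (h1.congr_of_eventuallyEq h2.symm).unique (hasFDerivAt_const (0:ℝ) t)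
    have h4 := DFunLike.congr_fun h3 (eb i)
    simp only [ContinuousLinearMap.comp_apply, ContinuousLinearMap.prod_apply,
      fderivInnerCLM_apply, ContinuousLinearMap.apply_apply, _root_.zero_apply,
      inner_zero_right, zero_add] at h4
    exact h4
  have hwe : inner ℝ w e = 0 := by
    rw [hw, inner_add_left, inner_sub_left, sum_inner, real_inner_smul_left, hD2e, hFe]
    simp only [real_inner_smul_left, hfe t ht]
    simp
  -- conclusion
  have hee := hg.eq_smul_nrm (w := e) (by rw [hft]; exact hFe x) (hfe t ht)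
  have hww := hg.eq_smul_nrm hw1 hw2
  have hw0 : w = 0 := by
    have h1 : inner ℝ (nrm f t) e ≠ 0 := by
      intro h
      rw [h, zero_smul] at hee
      rw [hee, norm_zero] at he
      norm_num at he
    rw [hww, hee, real_inner_smul_left, real_inner_smul_right, real_inner_self_eq_norm_sq,
      hg.norm_nrm] at hwe
    have h2 : inner ℝ (nrm f t) w = 0 := by
      rw [one_pow, mul_one] at hwe
      exact (mul_eq_zero.1 hwe).resolve_right h1
    rw [hww, h2, zero_smul]
  have hcomp : w a = 0 := by rw [hw0]; rfl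
  rw [hw] at hcomp
  have hsum : (∑ k, christoffel (chartMetric m M x) t k i j • fderiv ℝ f t (eb k)) a =
      ∑ k, christoffel (chartMetric m M x) t k i j * (fderiv ℝ f t (eb k)) a := by
    simp
  simp only [PiLp.add_apply, PiLp.sub_apply, PiLp.smul_apply, smul_eq_mul, hsum] at hcomp
  have e1 : pderiv i (fun y => pderiv j (chartComponent m (m + 2) M F x a) y)
      (chartCentre m M x) = (D2 (eb i) (eb j)) a := pderiv_pderiv hsm i j a
  have e2 : ∀ k, pderiv k (chartComponent m (m + 2) M F x a) (chartCentre m M x) =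
      (fderiv ℝ f t (eb k)) a := fun k => pderiv_comp hg.differentiableAt k a
  have e3 : chartMetric m M x (chartCentre m M x) i j = gram f t i j := by
    have : chartMetric m M x (chartCentre m M x) = gram f t := hgrt
    rw [this]
  have e4 : (chartCentre m M x : Eu m) = t := rfl
  rw [e1, e3]
  simp only [e2]
  rw [e4]
  linarith

end Man

end Crest.Agent.R246.J816
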