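import Crest.Agent.R246.J3_816

/-!
Row 246, part J, file J4: the hypotheses of S0380 give all the inputs of the interface `J0_816`.
-/

set_option autoImplicit false

open scoped ContDiff Manifold Topology ENNReal NNReal
open Bundle MeasureTheory Set Crest.GeometryTopology.CoordMetric
  Crest.GeometryTopology.ChartCurvature Crest.GeometryTopology.SphereImmersion

noncomputable section

namespace Crest.Agent.R246.J816

universe u

theorem data_of (m : ℕ) (M : Type u) [MetricSpace M]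
    [ChartedSpace (EuclideanSpace ℝ (Fin m)) M]
    [IsManifold 𝓘(ℝ, EuclideanSpace ℝ (Fin m)) ∞ M]
    [RiemannianBundle (fun x : M => TangentSpace 𝓘(ℝ, EuclideanSpace ℝ (Fin m)) x)]
    [IsContMDiffRiemannianBundle 𝓘(ℝ, EuclideanSpace ℝ (Fin m)) ∞ (EuclideanSpace ℝ (Fin m))
      (fun x : M => TangentSpace 𝓘(ℝ, EuclideanSpace ℝ (Fin m)) x)]
    [IsRiemannianManifold 𝓘(ℝ, EuclideanSpace ℝ (Fin m)) M] [MeasurableSpace M] [BorelSpace M]
    (F : M → EuclideanSpace ℝ (Fin (m + 2)))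
    (hF : ContMDiff 𝓘(ℝ, EuclideanSpace ℝ (Fin m)) 𝓘(ℝ, EuclideanSpace ℝ (Fin (m + 2))) ∞ F)
    (hS : ∀ x, ‖F x‖ = 1) (hiso : IsIsometricMap m (m + 2) M F)
    (hmin : IsMinimalInSphere m (m + 2) M F) (hntg : ¬ IsTotallyGeodesicInSphere m (m + 2) M F) :
    Imm F ∧ (∀ x, MinAt F x) ∧ ProjBound F (Measure.euclideanHausdorffMeasure m) ∧
      ¬ ∃ e : Eu (m + 2), ‖e‖ = 1 ∧ ∀ x, inner ℝ (F x) e = 0 :=
  ⟨imm_of hF hS hiso, fun x => minAt_of hF hiso hmin x, projBound_of (lipschitz_of hF hiso),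
    fun ⟨_, he, h⟩ => hntg (tg_of_hyper hF hS hiso he h)⟩

end Crest.Agent.R246.J816
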