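import Crest.Agent.R246.JA2_939
import Crest.Agent.R246.J0_816
import Mathlib.Analysis.Calculus.InverseFunctionTheorem.ContDiff
import Mathlib.Analysis.InnerProductSpace.Projection.FiniteDimensional

/-!
# Row 246, part JA, 3: the two-colouring of the complement of an immersed minimal cone
-/

set_option autoImplicit false
set_option linter.deprecated false
set_option linter.unusedSectionVars false

open Set Filter Topology Metric
open scoped ContDiff

namespace Crest.Agent.R246.JA939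

section Chart

variable {E N K : Type*} [NormedAddCommGroup E] [TopologicalSpace N]
  [NormedAddCommGroup K] [NormedSpace ℝ K]

/-- a coordinate of a local homeomorphism is two-sided. -/
theorem twoSided_of_homeo (e : OpenPartialHomeomorph (K × ℝ) E) {q : E} (hq : q ∈ e.target)
    (h0 : (e.symm q).2 = 0) : TwoSided (fun q => (e.symm q).2) q := by
  have hp : e.symm q ∈ e.source := e.map_target hq
  rcases hpa : e.symm q with ⟨a, s⟩
  have hs : s = 0 := by rw [hpa] at h0; exact h0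
  subst hs
  rw [hpa] at hp
  have hea : e (a, 0) = q := by rw [← hpa, e.right_inv hq]
  have hcurve : Tendsto (fun s : ℝ => e (a, s)) (𝓝 0) (𝓝 q) := by
    have h1 : ContinuousAt e (a, (0 : ℝ)) := e.continuousAt hp
    have h2 : Tendsto (fun s : ℝ => (a, s)) (𝓝 0) (𝓝 (a, (0 : ℝ))) :=
      (Continuous.prodMk continuous_const continuous_id).tendsto 0
    have h3 := h1.tendsto.comp h2
    rw [hea] at h3
    exact h3
  have hsrc : ∀ᶠ s : ℝ in 𝓝 0, (a, s) ∈ e.source := by
    have h2 : Tendsto (fun s : ℝ => (a, s)) (𝓝 0) (𝓝 (a, (0 : ℝ))) :=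
      (Continuous.prodMk continuous_const continuous_id).tendsto 0
    exact h2.eventually (e.open_source.mem_nhds hp)
  refine ⟨?_, ?_, ?_⟩
  · have h1 : ∃ᶠ s : ℝ in 𝓝 0, 0 < (e.symm (e (a, s))).2 := by
      have h2 : ∃ᶠ s : ℝ in 𝓝 0, 0 < s := by
        have : ∀ᶠ s : ℝ in 𝓝[>] 0, 0 < s := self_mem_nhdsWithin
        exact this.frequently.filter_mono nhdsWithin_le_nhds
      refine (h2.and_eventually hsrc).mono ?_
      rintro s ⟨h3, h4⟩
      rw [e.left_inv h4]; exact h3
    exact hcurve.frequently h1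
  · have h1 : ∃ᶠ s : ℝ in 𝓝 0, (e.symm (e (a, s))).2 < 0 := by
      have h2 : ∃ᶠ s : ℝ in 𝓝 0, s < 0 := by
        have : ∀ᶠ s : ℝ in 𝓝[<] 0, s < 0 := self_mem_nhdsWithin
        exact this.frequently.filter_mono nhdsWithin_le_nhds
      refine (h2.and_eventually hsrc).mono ?_
      rintro s ⟨h3, h4⟩
      rw [e.left_inv h4]; exact h3
    exact hcurve.frequently h1
  · intro U hU
    have h1 : e ⁻¹' U ∩ e.source ∈ 𝓝 (a, (0 : ℝ)) :=
      inter_mem ((e.continuousAt hp).preimage_mem_nhds (by rw [hea]; exact hU))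
        (e.open_source.mem_nhds hp)
    obtain ⟨r, hr, hrs⟩ := Metric.mem_nhds_iff.1 h1
    have hball : ball (a, (0 : ℝ)) r = ball a r ×ˢ ball (0 : ℝ) r := (ball_prod_same _ _ _).symm
    have hsub : ball a r ×ˢ ball (0 : ℝ) r ⊆ e.source := fun x hx => (hrs (hball ▸ hx)).2
    have hpre : ∀ J : Set ℝ, Convex ℝ J →
        IsPreconnected (e '' (ball a r ×ˢ (ball (0 : ℝ) r ∩ J))) := by
      intro J hJ
      refine IsPreconnected.image
        ((convex_ball a r).prod ((convex_ball (0 : ℝ) r).inter hJ)).isPreconnected _ ?_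
      exact e.continuousOn.mono fun x hx => hsub ⟨hx.1, hx.2.1⟩
    have hset : ∀ J : Set ℝ, e '' (ball a r ×ˢ ball (0 : ℝ) r) ∩ {q | (e.symm q).2 ∈ J} =
        e '' (ball a r ×ˢ (ball (0 : ℝ) r ∩ J)) := by
      intro J
      ext x
      constructor
      · rintro ⟨⟨p, hpm, rfl⟩, hx⟩
        refine ⟨p, ⟨hpm.1, hpm.2, ?_⟩, rfl⟩
        have hx' : (e.symm (e p)).2 ∈ J := hx
        rwa [e.left_inv (hsub hpm)] at hx'
      · rintro ⟨p, hpm, rfl⟩
        refine ⟨⟨p, ⟨hpm.1, hpm.2.1⟩, rfl⟩, ?_⟩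
        show (e.symm (e p)).2 ∈ J
        rw [e.left_inv (hsub ⟨hpm.1, hpm.2.1⟩)]
        exact hpm.2.2
    refine ⟨e '' (ball a r ×ˢ ball (0 : ℝ) r), ?_, ?_, ?_, ?_⟩
    · rw [← hea, ← hball]
      exact e.image_mem_nhds hp (ball_mem_nhds _ hr)
    · rintro x ⟨p, hpm, rfl⟩
      exact (hrs (hball ▸ hpm)).1
    · have := hset (Ioi 0)
      simp only [mem_Ioi] at this
      rw [this]
      exact hpre _ (convex_Ioi 0)
    · have := hset (Iio 0)
      simp only [mem_Iio] at this
      rw [this]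
      exact hpre _ (convex_Iio 0)

/-- a chart in which the sheet is `{s = 0}` gives a defining function. -/
theorem isDef_of_chart {G : N → E} {y : N} (φ : OpenPartialHomeomorph N K)
    (e : OpenPartialHomeomorph (K × ℝ) E) (hy : y ∈ φ.source) (hye : (φ y, (0 : ℝ)) ∈ e.source)
    (hG : ∀ k ∈ φ.target, (k, (0 : ℝ)) ∈ e.source → e (k, 0) = G (φ.symm k)) :
    IsDef G y (fun q => (e.symm q).2) ∧ ∃ V ∈ 𝓝 y, InjOn G V := by
  have hV0 : ∀ᶠ y' in 𝓝 y, y' ∈ φ.source ∧ (φ y', (0 : ℝ)) ∈ e.source := by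
    have h1 : ContinuousAt (fun y' => (φ y', (0 : ℝ))) y :=
      (φ.continuousAt hy).prodMk continuousAt_const
    exact Filter.Eventually.and (φ.open_source.mem_nhds hy) (h1.eventually (e.open_source.mem_nhds hye))
  have hGe : ∀ y', y' ∈ φ.source → (φ y', (0 : ℝ)) ∈ e.source → G y' = e (φ y', 0) := by
    intro y' h1 h2
    rw [hG _ (φ.map_source h1) h2, φ.left_inv h1]
  have htarget : ∀ᶠ q in 𝓝 (G y), q ∈ e.target := by
    rw [hGe y hy hye]
    exact e.open_target.mem_nhds (e.map_source hye)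
  refine ⟨⟨?_, ?_, ?_, ?_⟩, ?_⟩
  · filter_upwards [hV0] with y' h
    rw [hGe y' h.1 h.2, e.left_inv h.2]
  · filter_upwards [hV0] with y' h V hV
    have hmem : e (φ y', 0) ∈ e.target := e.map_source h.2
    have hcont : Tendsto e.symm (𝓝 (e (φ y', 0))) (𝓝 (φ y', (0 : ℝ))) := by
      have := (e.symm.continuousAt (x := e (φ y', 0)) hmem).tendsto
      rwa [e.left_inv h.2] at this
    have hcont1 : Tendsto (fun q => (e.symm q).1) (𝓝 (e (φ y', 0))) (𝓝 (φ y')) :=
      (continuous_fst.tendsto _).comp hcont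
    have h3 : ∀ᶠ k in 𝓝 (φ y'), k ∈ φ.target ∧ φ.symm k ∈ V := by
      refine (Filter.Eventually.and (φ.open_target.mem_nhds (φ.map_source h.1)) ?_)
      have := (φ.symm.continuousAt (x := φ y') (φ.map_source h.1)).tendsto
      rw [φ.left_inv h.1] at this
      exact this.eventually hV
    rw [hGe y' h.1 h.2]
    filter_upwards [hcont1.eventually h3, e.open_target.mem_nhds hmem] with q hq hqt h0
    refine ⟨φ.symm (e.symm q).1, hq.2, ?_⟩
    have h4 : ((e.symm q).1, (0 : ℝ)) = e.symm q := Prod.ext rfl h0.symm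
    rw [← hG _ hq.1 (by rw [h4]; exact e.map_target hqt), h4, e.right_inv hqt]
  · filter_upwards [htarget] with q hq
    exact continuous_snd.continuousAt.comp (e.symm.continuousAt hq)
  · filter_upwards [htarget] with q hq h0
    exact twoSided_of_homeo e hq h0
  · refine ⟨_, hV0, ?_⟩
    rintro y₁ ⟨h1, h2⟩ y₂ ⟨h3, h4⟩ h
    rw [hGe y₁ h1 h2, hGe y₂ h3 h4] at h
    have h5 := e.injOn h2 h4 h
    exact φ.injOn h1 h3 (congrArg Prod.fst h5)

end Chart

section Linear

variable {E : Type*} [NormedAddCommGroup E] [InnerProductSpace ℝ E] [FiniteDimensional ℝ E]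

/-- a proper subspace has a nonzero normal vector. -/
theorem exists_normal (W : Submodule ℝ E) (hW : Module.finrank ℝ W < Module.finrank ℝ E) :
    ∃ w : E, w ≠ 0 ∧ ∀ a ∈ W, inner ℝ a w = 0 := by
  have h1 := W.finrank_add_finrank_orthogonal
  have h2 : 0 < Module.finrank ℝ Wᗮ := by omega
  obtain ⟨w, hw⟩ := (Module.finrank_pos_iff_exists_ne_zero (R := ℝ) (M := Wᗮ)).1 h2
  refine ⟨w, fun h => hw (Subtype.ext h), fun a ha => ?_⟩
  exact (Submodule.mem_orthogonal W (w : E)).1 w.2 a ha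

theorem exists_normal_three (hE : 4 ≤ Module.finrank ℝ E) (a b c : E) :
    ∃ w : E, w ≠ 0 ∧ inner ℝ a w = 0 ∧ inner ℝ b w = 0 ∧ inner ℝ c w = 0 := by
  classical
  have h1 : Module.finrank ℝ (Submodule.span ℝ (({a, b, c} : Finset E) : Set E)) <
      Module.finrank ℝ E := by
    refine lt_of_le_of_lt (finrank_span_finset_le_card _) ?_
    have := Finset.card_le_three (a := a) (b := b) (c := c)
    omega
  obtain ⟨w, hw, hw'⟩ := exists_normal _ h1
  exact ⟨w, hw, hw' a (Submodule.subset_span (by simp)), hw' b (Submodule.subset_span (by simp)),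
    hw' c (Submodule.subset_span (by simp))⟩

end Linear

section Sheet

open J816

variable {m : ℕ} {M : Type*} [TopologicalSpace M] [ChartedSpace (Eu m) M]
  {F : M → Eu (m + 2)}

theorem mem_target (x : M) : ctr x ∈ (chartAt (Eu m) x).target := mem_chart_target _ _

theorem loc_ctr (F : M → Eu (m + 2)) (x : M) : loc F x (ctr x) = F x := by
  simp only [loc, ctr, Function.comp_apply]
  rw [(chartAt (Eu m) x).left_inv (mem_chart_source _ _)]

theorem hasFDerivAt_loc (hF : Imm F) (x : M) :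
    HasFDerivAt (loc F x) (fderiv ℝ (loc F x) (ctr x)) (ctr x) :=
  ((hF.smooth x _ (mem_target x)).differentiableAt (by simp)).hasFDerivAt

theorem inner_fderiv_loc (hF : Imm F) (x : M) (a : Eu m) :
    inner ℝ (F x) (fderiv ℝ (loc F x) (ctr x) a) = 0 := by
  have h1 := (hasFDerivAt_loc hF x).inner ℝ (hasFDerivAt_loc hF x)
  have h2 : (fun t => inner ℝ (loc F x t) (loc F x t)) = fun _ => (1 : ℝ) := by
    funext t
    rw [real_inner_self_eq_norm_sq]
    simp only [loc, Function.comp_apply, hF.norm_one]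
    norm_num
  rw [h2] at h1
  have h3 := h1.unique (hasFDerivAt_const (1 : ℝ) (ctr x))
  have h4 := congrArg (fun L => L a) h3
  simp only [ContinuousLinearMap.comp_apply, ContinuousLinearMap.prod_apply, fderivInnerCLM_apply,
    loc_ctr, ContinuousLinearMap.zero_apply] at h4
  rw [real_inner_comm (F x)] at h4
  linarith

/-- unit normals exist. -/
theorem exists_isNormal (_hF : Imm F) (x : M) : ∃ ν, IsNormal F x ν := by
  set L : Eu m × ℝ →ₗ[ℝ] Eu (m + 2) :=
    (fderiv ℝ (loc F x) (ctr x)).toLinearMap.coprod (LinearMap.toSpanSingleton ℝ _ (F x)) with hL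
  have h1 : Module.finrank ℝ (LinearMap.range L) < Module.finrank ℝ (Eu (m + 2)) := by
    refine lt_of_le_of_lt (LinearMap.finrank_range_le L) ?_
    rw [Module.finrank_prod, finrank_euclideanSpace_fin, finrank_euclideanSpace_fin,
      Module.finrank_self]
    omega
  obtain ⟨w, hw, hw'⟩ := exists_normal _ h1
  have hwn : ‖w‖ ≠ 0 := norm_ne_zero_iff.2 hw
  refine ⟨‖w‖⁻¹ • w, ?_, ?_, ?_⟩
  · rw [norm_smul, norm_inv, norm_norm, inv_mul_cancel₀ hwn]
  · have h2 := hw' (L (0, 1)) ⟨_, rfl⟩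
    simp only [hL, LinearMap.coprod_apply, map_zero, LinearMap.toSpanSingleton_apply, one_smul,
      zero_add] at h2
    rw [inner_smul_left, real_inner_comm, h2]; simp
  · intro v
    have h2 := hw' (L (v, 0)) ⟨_, rfl⟩
    simp only [hL, LinearMap.coprod_apply, LinearMap.toSpanSingleton_apply, zero_smul,
      add_zero, ContinuousLinearMap.coe_coe] at h2
    rw [inner_smul_left, real_inner_comm, h2]; simp

/-- the exponential cone map. -/
noncomputable def GG (F : M → Eu (m + 2)) (y : M × ℝ) : Eu (m + 2) := Real.exp y.2 • F y.1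

theorem norm_GG (hF : Imm F) (y : M × ℝ) : ‖GG F y‖ = Real.exp y.2 := by
  rw [GG, norm_smul, hF.norm_one, mul_one, Real.norm_of_nonneg (Real.exp_pos _).le]

theorem exists_homeo (hF : Imm F) (x : M) (τ : ℝ) {ν : Eu (m + 2)} (hν : IsNormal F x ν) :
    ∃ e : OpenPartialHomeomorph ((Eu m × ℝ) × ℝ) (Eu (m + 2)), ((ctr x, τ), (0 : ℝ)) ∈ e.source ∧
      ∀ p, e p = Real.exp p.1.2 • loc F x p.1.1 + p.2 • ν := by
  obtain ⟨hν1, hν2, hν3⟩ := hν
  set Φ : (Eu m × ℝ) × ℝ → Eu (m + 2) := fun p =>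
    Real.exp p.1.2 • loc F x p.1.1 + p.2 • ν with hΦ
  set p₀ : (Eu m × ℝ) × ℝ := ((ctr x, τ), 0) with hp₀
  set A : (Eu m × ℝ) × ℝ →L[ℝ] Eu m :=
    (ContinuousLinearMap.fst ℝ (Eu m) ℝ).comp (ContinuousLinearMap.fst ℝ (Eu m × ℝ) ℝ) with hA
  set B : (Eu m × ℝ) × ℝ →L[ℝ] ℝ :=
    (ContinuousLinearMap.snd ℝ (Eu m) ℝ).comp (ContinuousLinearMap.fst ℝ (Eu m × ℝ) ℝ) with hB
  set C : (Eu m × ℝ) × ℝ →L[ℝ] ℝ := ContinuousLinearMap.snd ℝ (Eu m × ℝ) ℝ with hC
  have h1 : HasFDerivAt (fun p : (Eu m × ℝ) × ℝ => Real.exp p.1.2) (Real.exp τ • B) p₀ :=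
    (B.hasFDerivAt (x := p₀)).exp
  have h2 : HasFDerivAt (fun p : (Eu m × ℝ) × ℝ => loc F x p.1.1)
      ((fderiv ℝ (loc F x) (ctr x)).comp A) p₀ :=
    HasFDerivAt.comp p₀ (show HasFDerivAt (loc F x) _ (A p₀) from hasFDerivAt_loc hF x)
      A.hasFDerivAt
  have h4 : HasFDerivAt (fun p : (Eu m × ℝ) × ℝ => p.2 • ν) (C.smulRight ν) p₀ :=
    (C.smulRight ν).hasFDerivAt
  have h5 := (h1.smul h2).add h4
  set L := Real.exp τ • (fderiv ℝ (loc F x) (ctr x)).comp A +
    (Real.exp τ • B).smulRight (loc F x (ctr x)) + C.smulRight ν with hL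
  have hLapp : ∀ (a : Eu m) (b c : ℝ), L ((a, b), c) =
      Real.exp τ • (fderiv ℝ (loc F x) (ctr x) a + b • F x) + c • ν := by
    intro a b c
    simp only [hL, hA, hB, hC, ContinuousLinearMap.add_apply, ContinuousLinearMap.smul_apply,
      ContinuousLinearMap.comp_apply, ContinuousLinearMap.smulRight_apply,
      ContinuousLinearMap.coe_fst', ContinuousLinearMap.coe_snd', loc_ctr, smul_eq_mul]
    rw [smul_add, smul_smul]
  have hinj : Function.Injective L := by
    rw [injective_iff_map_eq_zero]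
    rintro ⟨⟨a, b⟩, c⟩ h0
    rw [hLapp] at h0
    have hc : c = 0 := by
      have h6 := congrArg (fun v => inner ℝ ν v) h0
      simp only [inner_add_right, inner_smul_right, hν2, hν3, real_inner_self_eq_norm_sq, hν1,
        inner_zero_right] at h6
      simpa using h6
    subst hc
    rw [zero_smul, add_zero, smul_eq_zero] at h0
    have h7 := h0.resolve_left (Real.exp_pos _).ne'
    have hb : b = 0 := by
      have h6 := congrArg (fun v => inner ℝ (F x) v) h7
      simp only [inner_add_right, inner_smul_right, inner_fderiv_loc hF,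
        real_inner_self_eq_norm_sq, hF.norm_one, inner_zero_right] at h6
      simpa using h6
    subst hb
    rw [zero_smul, add_zero] at h7
    have ha : a = 0 := hF.inj x _ (mem_target x) (by rw [h7, map_zero])
    subst ha
    rfl
  have hdim : Module.finrank ℝ ((Eu m × ℝ) × ℝ) = Module.finrank ℝ (Eu (m + 2)) := by
    rw [Module.finrank_prod, Module.finrank_prod, finrank_euclideanSpace_fin,
      finrank_euclideanSpace_fin, Module.finrank_self]
  set L' : ((Eu m × ℝ) × ℝ) ≃L[ℝ] Eu (m + 2) :=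
    (LinearMap.linearEquivOfInjective L.toLinearMap hinj hdim).toContinuousLinearEquiv with hL'
  have hLL' : (L' : (Eu m × ℝ) × ℝ →L[ℝ] Eu (m + 2)) = L := by
    exact ContinuousLinearMap.ext fun v => rfl
  have hfd : HasFDerivAt Φ (L' : (Eu m × ℝ) × ℝ →L[ℝ] Eu (m + 2)) p₀ := by
    rw [hLL']
    exact h5
  have hcd : ContDiffAt ℝ ∞ Φ p₀ := by
    have c1 : ContDiffAt ℝ ∞ (fun p : (Eu m × ℝ) × ℝ => Real.exp p.1.2) p₀ :=
      (B.contDiff.contDiffAt (x := p₀)).exp
    have c2 : ContDiffAt ℝ ∞ (fun p : (Eu m × ℝ) × ℝ => loc F x p.1.1) p₀ :=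
      ContDiffAt.comp (g := loc F x) (f := A) p₀ (show ContDiffAt ℝ ∞ (loc F x) (A p₀) from
        hF.smooth x _ (mem_target x)) A.contDiff.contDiffAt
    have c3 : ContDiffAt ℝ ∞ (fun p : (Eu m × ℝ) × ℝ => p.2 • ν) p₀ :=
      (C.smulRight ν).contDiff.contDiffAt
    exact (c1.smul c2).add c3
  refine ⟨hcd.toOpenPartialHomeomorph Φ hfd (by simp), ?_, fun p => ?_⟩
  · exact hcd.mem_toOpenPartialHomeomorph_source hfd (by simp)
  · rw [hcd.toOpenPartialHomeomorph_coe hfd (by simp)]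

/-- adapted defining functions. -/
theorem exists_isDef (hF : Imm F) (x : M) (τ : ℝ) {ν : Eu (m + 2)} (hν : IsNormal F x ν) :
    ∃ h : Eu (m + 2) → ℝ, IsDef (GG F) (x, τ) h ∧ (∃ V ∈ 𝓝 (x, τ), InjOn (GG F) V) ∧
      ∀ᶠ s in 𝓝 (0 : ℝ), h (GG F (x, τ) + s • ν) = s := by
  obtain ⟨e, hsrc, he⟩ := exists_homeo hF x τ hν
  have h1 := isDef_of_chart (N := M × ℝ) (K := Eu m × ℝ) (G := GG F) (y := (x, τ))
    ((chartAt (Eu m) x).prod (OpenPartialHomeomorph.refl ℝ)) e
    ⟨mem_chart_source _ _, mem_univ _⟩ hsrc (by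
      rintro ⟨t, σ⟩ _ _
      rw [he]
      simp [GG, loc])
  refine ⟨_, h1.1, h1.2, ?_⟩
  have h2 : Tendsto (fun s : ℝ => ((ctr (m := m) x, τ), s)) (𝓝 0)
      (𝓝 ((ctr (m := m) x, τ), (0 : ℝ))) :=
    (Continuous.prodMk continuous_const continuous_id).tendsto 0
  filter_upwards [h2.eventually (e.open_source.mem_nhds hsrc)] with s hs
  have h3 : GG F (x, τ) + s • ν = e ((ctr x, τ), s) := by
    rw [he]
    simp [GG, loc_ctr]
  rw [h3, e.left_inv hs]

end Sheet

section Final

open J816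

variable {m : ℕ} {M : Type*} [MetricSpace M] [ChartedSpace (Eu m) M] [CompactSpace M]
  {F : M → Eu (m + 2)}

omit [CompactSpace M] in
theorem continuous_GG (hF : Imm F) : Continuous (GG F) :=
  (Real.continuous_exp.comp continuous_snd).smul (hF.cont.comp continuous_fst)

omit [CompactSpace M] in
theorem GG_eq (hF : Imm F) {y : M × ℝ} {z : Eu (m + 2)} (h : GG F y = z) :
    y.2 = Real.log ‖z‖ := by
  rw [← h, norm_GG hF, Real.log_exp]

omit [CompactSpace M] in
theorem locInj (hF : Imm F) (y : M × ℝ) : ∃ V ∈ 𝓝 y, InjOn (GG F) V := by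
  obtain ⟨ν, hν⟩ := exists_isNormal hF y.1
  obtain ⟨h, -, h2, -⟩ := exists_isDef hF y.1 y.2 hν
  exact h2

theorem finite_fib (hF : Imm F) (z : Eu (m + 2)) : (GG F ⁻¹' {z}).Finite := by
  have hcomp : IsCompact (GG F ⁻¹' {z}) := by
    refine IsCompact.of_isClosed_subset
      (isCompact_univ.prod (isCompact_singleton (x := Real.log ‖z‖)))
      (isClosed_singleton.preimage (continuous_GG hF)) ?_
    intro y hy
    exact ⟨mem_univ _, GG_eq hF hy⟩
  choose V hV hinj using locInj hF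
  obtain ⟨t, -, ht⟩ := hcomp.elim_nhds_subcover V (fun y _ => hV y)
  refine (t.finite_toSet.biUnion (t := fun y => GG F ⁻¹' {z} ∩ V y) fun y _ => ?_).subset ?_
  · exact Set.Subsingleton.finite
      (fun a ha b hb => hinj y ha.2 hb.2 ((show GG F a = z from ha.1).trans
        (show GG F b = z from hb.1).symm))
  · intro y hy
    obtain ⟨i, hi, hyi⟩ := mem_iUnion₂.1 (ht hy)
    exact mem_biUnion (Finset.mem_coe.2 hi) ⟨hy, hyi⟩

theorem closed_fib (hF : Imm F) {z : Eu (m + 2)} (hz : z ≠ 0) {V : Set (M × ℝ)} (hV : IsOpen V)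
    (h : ∀ y, GG F y = z → y ∈ V) : ∀ᶠ z' in 𝓝 z, ∀ y, GG F y = z' → y ∈ V := by
  set K : Set (M × ℝ) :=
    (univ ×ˢ Icc (Real.log ‖z‖ - 1) (Real.log ‖z‖ + 1)) ∩ Vᶜ with hK
  have hKc : IsCompact K := (isCompact_univ.prod isCompact_Icc).inter_right hV.isClosed_compl
  have hKi : IsClosed (GG F '' K) := (hKc.image (continuous_GG hF)).isClosed
  have hzK : z ∉ GG F '' K := by
    rintro ⟨y, hy, hyz⟩
    exact hy.2 (h y hyz)
  have h1 : ∀ᶠ z' in 𝓝 z, z' ∉ GG F '' K := hKi.isOpen_compl.mem_nhds hzK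
  have h2 : ∀ᶠ z' in 𝓝 z, Real.log ‖z'‖ ∈ Icc (Real.log ‖z‖ - 1) (Real.log ‖z‖ + 1) := by
    have h3 : ContinuousAt (fun z' : Eu (m + 2) => Real.log ‖z'‖) z :=
      continuous_norm.continuousAt.log (norm_ne_zero_iff.2 hz)
    exact h3.eventually (Icc_mem_nhds (by linarith) (by linarith))
  filter_upwards [h1, h2] with z' h3 h4 y hy
  by_contra hyV
  refine h3 ⟨y, ⟨⟨mem_univ _, ?_⟩, hyV⟩, hy⟩
  rw [GG_eq hF hy]
  exact h4

omit [CompactSpace M] in
theorem mem_cone_iff (_hF : Imm F) {z : Eu (m + 2)} (hz : z ≠ 0) :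
    z ∈ cone F ↔ ∃ y, GG F y = z := by
  constructor
  · rintro ⟨ρ, hρ, x, rfl⟩
    have hρ' : 0 < ρ := lt_of_le_of_ne hρ fun h => hz (by rw [← h, zero_smul])
    exact ⟨(x, Real.log ρ), by rw [GG, Real.exp_log hρ']⟩
  · rintro ⟨y, rfl⟩
    exact mem_cone F (Real.exp_pos _).le _

/-- **JA**: existence of the two-colouring. -/
theorem exists_colour [Nonempty M] (hm : 2 ≤ m) (hF : Imm F) :
    ∃ c : Eu (m + 2) → ℝ, Colour F c := by
  classical
  choose ν hν using exists_isNormal hF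
  have hdef0 : ∀ y : M × ℝ, ∃ h : Eu (m + 2) → ℝ, IsDef (GG F) y h := fun y => by
    obtain ⟨h, h1, -⟩ := exists_isDef hF y.1 y.2 (hν y.1)
    exact ⟨h, h1⟩
  choose h hdef using hdef0
  set fib : Eu (m + 2) → Finset (M × ℝ) := fun z => (finite_fib hF z).toFinset with hfib
  have hmem : ∀ z y, y ∈ fib z ↔ GG F y = z := fun z y => by
    simp only [hfib, Set.Finite.mem_toFinset, mem_preimage, mem_singleton_iff]
  have hS : Sheets (GG F) fib h ({0}ᶜ : Set (Eu (m + 2))) :=
    { isDef := hdef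
      inj := locInj hF
      cont := continuous_GG hF
      isOpen := isOpen_compl_singleton
      mem_fib := fun z _ y => hmem z y
      closed := fun z hz V hV hV' => closed_fib hF hz hV fun y hy => hV' y ((hmem z y).2 hy) }
  have hdim : 4 ≤ Module.finrank ℝ (Eu (m + 2)) := by
    rw [finrank_euclideanSpace_fin]; omega
  obtain ⟨c, hc⟩ := hS.model.exists_compl_zero (exists_normal_three hdim)
  have hne0 : ∀ z : Eu (m + 2), z ∉ cone F → z ≠ 0 := by
    rintro z hz rfl
    exact hz (zero_mem_cone F)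
  -- `c` is locally `±1` off the cone
  have hoff : ∀ z, z ∉ cone F → ∃ ε : ℝ, ε * ε = 1 ∧ ∀ᶠ q in 𝓝 z, c q = ε := by
    intro z hz
    obtain ⟨ε, h1, h2⟩ := hc z (hne0 z hz)
    refine ⟨ε, h1, h2.mono fun q hq => ?_⟩
    have h3 : fib z = ∅ := by
      rw [Finset.eq_empty_iff_forall_notMem]
      intro y hy
      exact hz ((mem_cone_iff hF (hne0 z hz)).2 ⟨y, (hmem z y).1 hy⟩)
    rw [hq, kk, h3, Finset.prod_empty, mul_one]
  -- `c` vanishes on the cone
  have hon : ∀ z, z ≠ 0 → z ∈ cone F → c z = 0 := by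
    intro z hz hzc
    obtain ⟨ε, -, h2⟩ := hc z hz
    obtain ⟨y, hy⟩ := (mem_cone_iff hF hz).1 hzc
    rw [h2.self_of_nhds, kk, Finset.prod_eq_zero ((hmem z y).2 hy), mul_zero]
    rw [← hy, (hdef y).van.self_of_nhds, Real.sign_zero]
  have hcl : IsClosed (cone F) := isClosed_cone hF
  have hoff' : ∀ z, z ∉ cone F → ∃ ε : ℝ, ε * ε = 1 ∧
      ∀ᶠ q in 𝓝 z, (if q ∈ cone F then (1 : ℝ) else c q) = ε := by
    intro z hz
    obtain ⟨ε, h1, h2⟩ := hoff z hz
    refine ⟨ε, h1, ?_⟩
    filter_upwards [h2, hcl.isOpen_compl.mem_nhds hz] with q hq hq'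
    rw [if_neg hq', hq]
  have hpm : ∀ q, (if q ∈ cone F then (1 : ℝ) else c q) = 1 ∨
      (if q ∈ cone F then (1 : ℝ) else c q) = -1 := by
    intro q
    by_cases hq : q ∈ cone F
    · left; rw [if_pos hq]
    · obtain ⟨ε, h1, h2⟩ := hoff' q hq
      rw [h2.self_of_nhds]
      exact sq_one h1
  refine ⟨fun q => if q ∈ cone F then 1 else c q, hpm, ?_, ?_, ?_⟩
  · -- homogeneity
    intro t ht q
    by_cases hq : q ∈ cone F
    · simp only [hq, smul_mem_cone ht.le hq, if_true]
    · set f : ℝ → ℝ := fun t => if t • q ∈ cone F then (1 : ℝ) else c (t • q) with hf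
      have hcont : ContinuousOn f (Ioi 0) := by
        intro s hs
        obtain ⟨ε, -, h2⟩ := hoff' (s • q) (fun hcon => hq ((smul_mem_cone_iff hs).1 hcon))
        have h3 : ∀ᶠ s' in 𝓝 s, f s' = ε := by
          have h4 : Tendsto (fun s' : ℝ => s' • q) (𝓝 s) (𝓝 (s • q)) :=
            (continuous_id.smul continuous_const).tendsto s
          exact h4.eventually h2
        have h5 : ContinuousAt f s := by
          refine (continuousAt_const (y := ε)).congr ?_
          exact h3.mono fun s' hs' => hs'.symm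
        exact h5.continuousWithinAt
      have hne : ∀ s ∈ Ioi (0 : ℝ), f s ≠ 0 := by
        intro s _ h0
        rcases hpm (s • q) with h6 | h6 <;> rw [hf] at h0 <;> simp only at h0 <;>
          rw [h6] at h0 <;> norm_num at h0
      have h7 : f t = f 1 := by
        rcases sign_const (convex_Ioi (0 : ℝ)).isPreconnected hcont hne with h8 | h8
        · have h9 := h8 t ht
          have h10 := h8 1 (mem_Ioi.2 one_pos)
          rcases hpm (t • q) with h6 | h6 <;> rcases hpm ((1 : ℝ) • q) with h6' | h6' <;>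
            simp only [hf] at h9 h10 ⊢ <;> rw [h6] at h9 ⊢ <;> rw [h6'] at h10 ⊢ <;> linarith
        · have h9 := h8 t ht
          have h10 := h8 1 (mem_Ioi.2 one_pos)
          rcases hpm (t • q) with h6 | h6 <;> rcases hpm ((1 : ℝ) • q) with h6' | h6' <;>
            simp only [hf] at h9 h10 ⊢ <;> rw [h6] at h9 ⊢ <;> rw [h6'] at h10 ⊢ <;> linarith
      have h11 : f 1 = if q ∈ cone F then (1 : ℝ) else c q := by
        simp only [hf, one_smul]
      rw [← h11, ← h7]
  · -- locally constant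
    intro q hq
    obtain ⟨ε, -, h2⟩ := hoff' q hq
    filter_upwards [h2] with q' hq'
    rw [hq', ← h2.self_of_nhds]
  · -- flip
    intro x hx ν' hν'
    obtain ⟨h', h1, -, h3⟩ := exists_isDef hF x 0 hν'
    have hFx : GG F (x, 0) = F x := by simp [GG]
    have hFx0 : F x ≠ 0 := by
      intro h0
      have := hF.norm_one x
      rw [h0, norm_zero] at this
      exact zero_ne_one this
    have hfibx : fib (F x) = {(x, 0)} := by
      ext y
      rw [hmem, Finset.mem_singleton]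
      constructor
      · intro hy
        have h4 : y.2 = 0 := by rw [GG_eq hF hy, hF.norm_one, Real.log_one]
        have h5 : F y.1 = F x := by rw [← hy, GG, h4, Real.exp_zero, one_smul]
        exact Prod.ext (hx _ h5) h4
      · rintro rfl
        exact hFx
    obtain ⟨ε, h4, h5⟩ := hc (F x) hFx0
    obtain ⟨ε', h6, h7⟩ := (hdef (x, 0)).ratio h1
    rw [hFx] at h7 h3
    have h8 : ∀ᶠ q in 𝓝 (F x), c q = (ε * ε') * Real.sign (h' q) := by
      filter_upwards [h5, h7] with q hq hq'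
      rw [hq, kk, hfibx, Finset.prod_singleton, hq', mul_assoc]
    have hεε : (ε * ε') * (ε * ε') = 1 := by rw [mul_mul_mul_comm, h4, h6, one_mul]
    have ht1 : Tendsto (fun s : ℝ => F x + s • ν') (𝓝 0) (𝓝 (F x)) := by
      have h9 : Tendsto (fun s : ℝ => F x + s • ν') (𝓝 0) (𝓝 (F x + (0 : ℝ) • ν')) :=
        (continuous_const.add (continuous_id.smul continuous_const)).tendsto 0
      simpa using h9
    have ht2 : Tendsto (fun s : ℝ => F x - s • ν') (𝓝 0) (𝓝 (F x)) := by
      have h9 : Tendsto (fun s : ℝ => F x - s • ν') (𝓝 0) (𝓝 (F x - (0 : ℝ) • ν')) :=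
        (continuous_const.sub (continuous_id.smul continuous_const)).tendsto 0
      simpa using h9
    have ht3 : Tendsto (fun s : ℝ => -s) (𝓝 0) (𝓝 (0 : ℝ)) := by
      have h9 : Tendsto (fun s : ℝ => -s) (𝓝 0) (𝓝 (-(0 : ℝ))) := continuous_neg.tendsto 0
      simpa using h9
    have ha := ht1.eventually h8
    have hb := ht2.eventually h8
    have ha0 := ht1.eventually (isOpen_compl_singleton.mem_nhds hFx0)
    have hb0 := ht2.eventually (isOpen_compl_singleton.mem_nhds hFx0)
    have hd := ht3.eventually h3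
    have hall := ha.and (hb.and (ha0.and (hb0.and (h3.and hd))))
    filter_upwards [nhdsWithin_le_nhds hall, self_mem_nhdsWithin] with s hs hs0
    obtain ⟨k1, k2, k3, k4, k5, k6⟩ := hs
    have hs0' : (0 : ℝ) < s := hs0
    have k6' : h' (F x - s • ν') = -s := by
      rw [← k6, neg_smul, sub_eq_add_neg]
    rw [k5, Real.sign_of_pos hs0', mul_one] at k1
    rw [k6', Real.sign_of_neg (by linarith)] at k2
    have hne : ε * ε' ≠ 0 := by
      intro h0
      rw [h0] at hεε
      norm_num at hεε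
    have k7 : F x + s • ν' ∉ cone F := by
      intro hcon
      have := hon _ k3 hcon
      rw [k1] at this
      exact hne this
    have k8 : F x - s • ν' ∉ cone F := by
      intro hcon
      have := hon _ k4 hcon
      rw [k2] at this
      apply hne
      linarith
    simp only [k7, k8, if_false]
    rw [k1, k2]
    ring

/-- statement `StJA` of the interface. -/
theorem stJA.{u} (m : ℕ) (hm : 2 ≤ m) : StJA.{u} m := by
  intro M _ _ _ _ F hF
  exact exists_colour hm hF

end Final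

end Crest.Agent.R246.JA939
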