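import Mathlib.Analysis.InnerProductSpace.PiL2
import Mathlib.Analysis.Calculus.Rademacher
import Mathlib.Analysis.Calculus.LHopital
import Mathlib.Analysis.Calculus.Gradient.Basic
import Mathlib.MeasureTheory.Measure.Haar.InnerProductSpace
import Mathlib.MeasureTheory.Integral.DominatedConvergence
import Mathlib.MeasureTheory.Group.Integral
import Mathlib.Topology.MetricSpace.HausdorffDistance

/-!
Row 246, part JB, analysis: a Lipschitz function whose (coordinate) second differences are
asymptotically nonpositive, with a uniform upper bound on the support of the test function,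
is weakly superharmonic.
-/

set_option autoImplicit false

open scoped Topology ENNReal NNReal RealInnerProductSpace
open MeasureTheory Filter Set

noncomputable section

namespace Crest.Agent.R246.JBa364

variable {E : Type*} [NormedAddCommGroup E] [InnerProductSpace ℝ E] [FiniteDimensional ℝ E]
  [MeasurableSpace E] [BorelSpace E]

/-- one-sided difference quotients converge at a point of differentiability. -/
theorem tendsto_quot {f : E → ℝ} {q : E} (h : DifferentiableAt ℝ f q) (e : E) :
    Tendsto (fun t : ℝ => (f (q + t • e) - f q) / t) (𝓝[>] 0) (𝓝 (fderiv ℝ f q e)) := by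
  have h1 : HasDerivAt (fun t : ℝ => f (q + t • e)) (fderiv ℝ f q e) 0 := by
    have h2 : HasDerivAt (fun t : ℝ => q + t • e) e 0 := by
      simpa using ((hasDerivAt_id (0 : ℝ)).smul_const e).const_add q
    have h3 : HasFDerivAt f (fderiv ℝ f q) (q + (0 : ℝ) • e) := by
      simpa using h.hasFDerivAt
    exact h3.comp_hasDerivAt 0 h2
  have h4 := (hasDerivAt_iff_tendsto_slope_zero.1 h1).mono_left
    (nhdsWithin_mono (0 : ℝ) (fun t (ht : 0 < t) => ht.ne'))
  refine h4.congr fun t => ?_
  simp only [zero_add, zero_smul, add_zero, smul_eq_mul]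
  rw [inv_mul_eq_div]

/-- integrability of `f · g` with `f` continuous and `g` continuous of compact support. -/
theorem integrable_mul_cc {f g : E → ℝ} (hf : Continuous f) (hg : Continuous g)
    (hgc : HasCompactSupport g) : Integrable (fun q => f q * g q) (volume : Measure E) :=
  (hf.mul hg).integrable_of_hasCompactSupport hgc.mul_left

/-- discrete integration by parts. -/
theorem discrete_ibp {f g : E → ℝ} (hf : Continuous f) (hg : Continuous g)
    (hgc : HasCompactSupport g) (v : E) :
    ∫ q, (f (q + v) - f q) * (g (q + v) - g q) =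
      - ∫ q, g q * (f (q + v) + f (q - v) - 2 * f q) := by
  have hfv : Continuous fun q => f (q + v) := by fun_prop
  have hfm : Continuous fun q => f (q - v) := by fun_prop
  have hgv : Continuous fun q => g (q + v) := by fun_prop
  have hgvc : HasCompactSupport fun q => g (q + v) :=
    hgc.comp_homeomorph (Homeomorph.addRight v)
  have i1 : Integrable (fun q => f (q + v) * g (q + v)) := integrable_mul_cc hfv hgv hgvc
  have i2 : Integrable (fun q => f (q + v) * g q) := integrable_mul_cc hfv hg hgc
  have i3 : Integrable (fun q => f q * g (q + v)) := integrable_mul_cc hf hgv hgvc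
  have i4 : Integrable (fun q => f q * g q) := integrable_mul_cc hf hg hgc
  have i5 : Integrable (fun q => f (q - v) * g q) := integrable_mul_cc hfm hg hgc
  have e1 : ∫ q, f (q + v) * g (q + v) = ∫ q, f q * g q :=
    integral_add_right_eq_self (fun q => f q * g q) v
  have e3 : ∫ q, f q * g (q + v) = ∫ q, f (q - v) * g q := by
    have := integral_add_right_eq_self (μ := (volume : Measure E))
      (fun q => f (q - v) * g q) v
    rw [← this]
    simp
  have l1 : ∫ q, (f (q + v) - f q) * (g (q + v) - g q) =
      (∫ q, f (q + v) * g (q + v)) - (∫ q, f (q + v) * g q) - (∫ q, f q * g (q + v))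
        + (∫ q, f q * g q) := by
    have h : ∀ q, (f (q + v) - f q) * (g (q + v) - g q) =
        ((f (q + v) * g (q + v) - f (q + v) * g q) - f q * g (q + v)) + f q * g q := by
      intro q; ring
    simp_rw [h]
    rw [integral_add (by exact (i1.sub i2).sub i3) i4, integral_sub (by exact i1.sub i2) i3,
      integral_sub i1 i2]
  have l2 : ∫ q, g q * (f (q + v) + f (q - v) - 2 * f q) =
      (∫ q, f (q + v) * g q) + (∫ q, f (q - v) * g q) - 2 * (∫ q, f q * g q) := by
    have h : ∀ q, g q * (f (q + v) + f (q - v) - 2 * f q) =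
        (f (q + v) * g q + f (q - v) * g q) - 2 * (f q * g q) := by
      intro q; ring
    simp_rw [h]
    rw [integral_sub (by exact i2.add i5) (i4.const_mul 2), integral_add i2 i5,
      integral_const_mul]
  rw [l1, l2, e1, e3]
  ring

/-- the limit of the discrete Dirichlet form in one direction. -/
theorem tendsto_form {f g : E → ℝ} {K L : ℝ≥0} (hf : LipschitzWith K f)
    (hg : LipschitzWith L g) (hgc : HasCompactSupport g) (e : E) :
    Tendsto (fun t : ℝ => ∫ q, ((f (q + t • e) - f q) / t) * ((g (q + t • e) - g q) / t))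
      (𝓝[>] 0) (𝓝 (∫ q, fderiv ℝ f q e * fderiv ℝ g q e)) := by
  obtain ⟨R, hR⟩ := hgc.isCompact.isBounded.subset_closedBall (0 : E)
  have hsupp : ∀ q, g q ≠ 0 → ‖q‖ ≤ R := fun q hq => by
    have := hR (subset_tsupport g hq)
    simpa using this
  have hquot : ∀ {k : ℝ≥0} {h : E → ℝ}, LipschitzWith k h → ∀ t : ℝ, 0 < t → ∀ q,
      |(h (q + t • e) - h q) / t| ≤ k * ‖e‖ := by
    intro k h hh t ht q
    rw [abs_div, abs_of_pos ht, div_le_iff₀ ht]
    have := hh.dist_le_mul (q + t • e) q
    rw [Real.dist_eq, dist_eq_norm, add_sub_cancel_left, norm_smul,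
      Real.norm_of_nonneg ht.le] at this
    linarith
  have hf' : ∀ᵐ q : E, DifferentiableAt ℝ f q := hf.ae_differentiableAt
  have hg' : ∀ᵐ q : E, DifferentiableAt ℝ g q := hg.ae_differentiableAt
  refine tendsto_integral_filter_of_dominated_convergence
    (fun q => (Metric.closedBall (0 : E) (R + ‖e‖)).indicator
      (fun _ => (K * ‖e‖) * (L * ‖e‖)) q) ?_ ?_ ?_ ?_
  · refine Eventually.of_forall fun t => Continuous.aestronglyMeasurable ?_
    have := hf.continuous
    have := hg.continuous
    fun_prop
  · have h1 : ∀ᶠ t : ℝ in 𝓝[>] 0, t ∈ Ioo (0 : ℝ) 1 := Ioo_mem_nhdsGT one_pos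
    filter_upwards [h1] with t ht
    refine Eventually.of_forall fun q => ?_
    by_cases hq : q ∈ Metric.closedBall (0 : E) (R + ‖e‖)
    · rw [indicator_of_mem hq, Real.norm_eq_abs, abs_mul]
      exact mul_le_mul (hquot hf t ht.1 q) (hquot hg t ht.1 q) (abs_nonneg _) (by positivity)
    · rw [indicator_of_notMem hq]
      have hqn : R + ‖e‖ < ‖q‖ := by simpa using hq
      have g0 : g q = 0 := by
        by_contra h
        have := hsupp q h
        have := norm_nonneg e
        linarith
      have g1 : g (q + t • e) = 0 := by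
        by_contra h
        have h2 := hsupp _ h
        have h3 : ‖q‖ ≤ ‖q + t • e‖ + ‖t • e‖ := by
          have := norm_sub_le (q + t • e) (t • e)
          simpa using this
        rw [norm_smul, Real.norm_of_nonneg ht.1.le] at h3
        have : t * ‖e‖ ≤ 1 * ‖e‖ := mul_le_mul_of_nonneg_right ht.2.le (norm_nonneg e)
        linarith
      simp [g0, g1]
  · refine (integrable_indicator_iff measurableSet_closedBall).2 ?_
    exact integrableOn_const (hs := measure_closedBall_lt_top.ne) (hC := enorm_ne_top)
  · filter_upwards [hf', hg'] with q h1 h2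
    exact (tendsto_quot h1 e).mul (tendsto_quot h2 e)

theorem integrable_form {f g : E → ℝ} {K L : ℝ≥0} (hf : LipschitzWith K f)
    (hg : LipschitzWith L g) (hgc : HasCompactSupport g) (e : E) :
    Integrable (fun q => fderiv ℝ f q e * fderiv ℝ g q e) (volume : Measure E) := by
  have hcs : HasCompactSupport (fun q => fderiv ℝ g q) := hgc.fderiv ℝ
  refine Integrable.mono' (g := (tsupport (fun q => fderiv ℝ g q)).indicator
      (fun _ => (K * ‖e‖) * (L * ‖e‖))) ?_ ?_ ?_
  · refine (integrable_indicator_iff (isClosed_tsupport _).measurableSet).2 ?_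
    exact integrableOn_const (hs := hcs.isCompact.measure_lt_top.ne) (hC := enorm_ne_top)
  · exact ((measurable_fderiv_apply_const ℝ f e).mul
      (measurable_fderiv_apply_const ℝ g e)).aestronglyMeasurable
  · refine Eventually.of_forall fun q => ?_
    by_cases hq : q ∈ tsupport (fun q => fderiv ℝ g q)
    · rw [indicator_of_mem hq, norm_mul]
      have a1 : ‖fderiv ℝ f q e‖ ≤ K * ‖e‖ :=
        ((fderiv ℝ f q).le_opNorm e).trans
          (mul_le_mul_of_nonneg_right (norm_fderiv_le_of_lipschitz ℝ hf) (norm_nonneg e))
      have a2 : ‖fderiv ℝ g q e‖ ≤ L * ‖e‖ :=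
        ((fderiv ℝ g q).le_opNorm e).trans
          (mul_le_mul_of_nonneg_right (norm_fderiv_le_of_lipschitz ℝ hg) (norm_nonneg e))
      exact mul_le_mul a1 a2 (norm_nonneg _) (by positivity)
    · have : fderiv ℝ g q = 0 := image_eq_zero_of_notMem_tsupport hq
      rw [indicator_of_notMem hq, this]
      simp

/-- sum of second differences in the directions of an orthonormal basis. -/
def sd {ι : Type*} [Fintype ι] (b : OrthonormalBasis ι ℝ E) (f : E → ℝ) (t : ℝ) (q : E) : ℝ :=
  ∑ i, (f (q + t • b i) + f (q - t • b i) - 2 * f q) / t ^ 2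

/-- **Weak superharmonicity from second differences.** -/
theorem weak_superharmonic {ι : Type*} [Fintype ι] (b : OrthonormalBasis ι ℝ E)
    {f g : E → ℝ} {K L : ℝ≥0} (hf : LipschitzWith K f) (hg : LipschitzWith L g)
    (hgc : HasCompactSupport g) (hg0 : ∀ q, 0 ≤ g q) (C : ℝ)
    (hC : ∀ q ∈ tsupport g, ∀ t : ℝ, 0 < t → sd b f t q ≤ C)
    (hlim : ∀ᵐ q : E, q ∈ tsupport g →
      Tendsto (fun t : ℝ => max (sd b f t q) 0) (𝓝[>] 0) (𝓝 0)) :
    0 ≤ ∫ q, inner ℝ (gradient f q) (gradient g q) := by
  classical
  -- the integral as a sum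
  have e1 : ∀ q, inner ℝ (gradient f q) (gradient g q) =
      ∑ i, fderiv ℝ f q (b i) * fderiv ℝ g q (b i) := by
    intro q
    rw [← b.sum_inner_mul_inner]
    refine Finset.sum_congr rfl fun i _ => ?_
    rw [gradient, gradient, InnerProductSpace.toDual_symm_apply, real_inner_comm,
      InnerProductSpace.toDual_symm_apply]
  have e2 : ∫ q, inner ℝ (gradient f q) (gradient g q) =
      ∑ i, ∫ q, fderiv ℝ f q (b i) * fderiv ℝ g q (b i) := by
    simp_rw [e1]
    exact integral_finsetSum _ fun i _ => integrable_form hf hg hgc (b i)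
  -- the discrete approximations
  have h1 : Tendsto (fun t : ℝ => ∑ i, ∫ q,
      ((f (q + t • b i) - f q) / t) * ((g (q + t • b i) - g q) / t)) (𝓝[>] 0)
      (𝓝 (∑ i, ∫ q, fderiv ℝ f q (b i) * fderiv ℝ g q (b i))) :=
    tendsto_finsetSum _ fun i _ => tendsto_form hf hg hgc (b i)
  have h2 : ∀ᶠ t : ℝ in 𝓝[>] 0, (∑ i, ∫ q,
      ((f (q + t • b i) - f q) / t) * ((g (q + t • b i) - g q) / t)) =
      - ∫ q, g q * sd b f t q := by
    filter_upwards [self_mem_nhdsWithin] with t ht
    have ht : 0 < t := ht
    have h3 : ∀ i, ∫ q, ((f (q + t • b i) - f q) / t) * ((g (q + t • b i) - g q) / t) =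
        - ∫ q, g q * ((f (q + t • b i) + f (q - t • b i) - 2 * f q) / t ^ 2) := by
      intro i
      have h4 := discrete_ibp hf.continuous hg.continuous hgc (t • b i)
      have h5 : ∀ q, ((f (q + t • b i) - f q) / t) * ((g (q + t • b i) - g q) / t) =
          (t ^ 2)⁻¹ * ((f (q + t • b i) - f q) * (g (q + t • b i) - g q)) := by
        intro q; field_simp
      have h6 : ∀ q, g q * ((f (q + t • b i) + f (q - t • b i) - 2 * f q) / t ^ 2) =
          (t ^ 2)⁻¹ * (g q * (f (q + t • b i) + f (q - t • b i) - 2 * f q)) := by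
        intro q; field_simp
      simp_rw [h5, h6]
      rw [integral_const_mul, integral_const_mul, h4]
      ring
    simp_rw [h3]
    rw [Finset.sum_neg_distrib, ← integral_finsetSum]
    · simp_rw [← Finset.mul_sum]
      rfl
    · intro i _
      have := hf.continuous
      have h7 : Continuous fun q =>
          (f (q + t • b i) + f (q - t • b i) - 2 * f q) / t ^ 2 := by fun_prop
      exact (hg.continuous.mul h7).integrable_of_hasCompactSupport hgc.mul_right
  -- the comparison
  have h3 : Tendsto (fun t : ℝ => ∫ q, g q * max (sd b f t q) 0) (𝓝[>] 0) (𝓝 0) := by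
    have hz : (∫ q : E, (fun _ => (0 : ℝ)) q) = 0 := by simp
    suffices hs : Tendsto (fun t : ℝ => ∫ q, g q * max (sd b f t q) 0) (𝓝[>] 0)
        (𝓝 (∫ q : E, (fun _ => (0 : ℝ)) q)) by rwa [hz] at hs
    refine tendsto_integral_filter_of_dominated_convergence
      (fun q => g q * max C 0) ?_ ?_ ?_ ?_
    · refine Eventually.of_forall fun t => Continuous.aestronglyMeasurable ?_
      have := hf.continuous
      have := hg.continuous
      unfold sd
      fun_prop
    · filter_upwards [self_mem_nhdsWithin] with t ht
      refine Eventually.of_forall fun q => ?_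
      by_cases hq : q ∈ tsupport g
      · rw [Real.norm_of_nonneg (mul_nonneg (hg0 q) (le_max_right _ _))]
        exact mul_le_mul_of_nonneg_left (max_le_max (hC q hq t ht) le_rfl) (hg0 q)
      · have : g q = 0 := image_eq_zero_of_notMem_tsupport hq
        simp [this]
    · exact (hg.continuous.integrable_of_hasCompactSupport hgc).mul_const _
    · filter_upwards [hlim] with q hq
      by_cases hqs : q ∈ tsupport g
      · have := (hq hqs).const_mul (g q)
        simpa using this
      · have : g q = 0 := image_eq_zero_of_notMem_tsupport hqs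
        simp [this]
  have h4 : ∀ t : ℝ, - ∫ q, g q * max (sd b f t q) 0 ≤ - ∫ q, g q * sd b f t q := by
    intro t
    rw [neg_le_neg_iff]
    have hc : Continuous (sd b f t) := by
      have := hf.continuous
      unfold sd
      fun_prop
    refine integral_mono ?_ ?_ fun q => ?_
    · exact (hg.continuous.mul hc).integrable_of_hasCompactSupport hgc.mul_right
    · exact (hg.continuous.mul (hc.max continuous_const)).integrable_of_hasCompactSupport
        hgc.mul_right
    · exact mul_le_mul_of_nonneg_left (le_max_left _ _) (hg0 q)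
  rw [e2]
  have h5 : Tendsto (fun t : ℝ => - ∫ q, g q * max (sd b f t q) 0) (𝓝[>] 0) (𝓝 0) := by
    simpa using h3.neg
  refine le_of_tendsto_of_tendsto h5 h1 ?_
  filter_upwards [h2] with t ht
  rw [ht]
  exact h4 t

end Crest.Agent.R246.JBa364
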