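import Crest.Agent.R246.J0_816
import Crest.Agent.R246.JBa_364
import Mathlib.Analysis.Convex.Measure

/-!
Row 246, part JB: the distance to the cone over a minimal immersed hypersurface of the sphere is
weakly superharmonic off the cone.
-/

set_option autoImplicit false

open scoped Topology NNReal RealInnerProductSpace ContDiff
open MeasureTheory Filter Set

noncomputable section

namespace Crest.Agent.R246.JB364

open Crest.Agent.R246.J816 Crest.Agent.R246.JBa364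

theorem two_le : (2 : WithTop ℕ∞) ≤ ∞ := by
  have h : ((2 : ℕ∞) : WithTop ℕ∞) ≤ ∞ := mod_cast le_top
  exact h

theorem one_one_le : (1 : WithTop ℕ∞) + 1 ≤ ∞ := by
  have h : ((2 : ℕ∞) : WithTop ℕ∞) ≤ ∞ := mod_cast le_top
  have e : (1 : WithTop ℕ∞) + 1 = ((2 : ℕ∞) : WithTop ℕ∞) := by norm_num
  rw [e]
  exact h

/-! ### one-variable facts -/

theorem gt_le_ne : 𝓝[>] (0 : ℝ) ≤ 𝓝[≠] 0 :=
  nhdsWithin_mono _ fun _ ht => ne_of_gt ht

/-- second differences converge to the second derivative. -/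
theorem second_diff {p p' : ℝ → ℝ} {c : ℝ} (h1 : ∀ᶠ t in 𝓝 (0 : ℝ), HasDerivAt p (p' t) t)
    (h2 : HasDerivAt p' c 0) :
    Tendsto (fun t => (p t + p (-t) - 2 * p 0) / t ^ 2) (𝓝[>] 0) (𝓝 c) := by
  have hneg : Tendsto (fun t : ℝ => -t) (𝓝 0) (𝓝 0) := by
    simpa using (continuous_neg.tendsto (0 : ℝ))
  have hcont : ContinuousAt p 0 := h1.self_of_nhds.continuousAt
  have h3 : ∀ᶠ t in 𝓝 (0 : ℝ), HasDerivAt p (p' (-t)) (-t) := hneg.eventually h1
  have hle : 𝓝[>] (0 : ℝ) ≤ 𝓝 0 := nhdsWithin_le_nhds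
  refine HasDerivAt.lhopital_zero_nhdsGT (f' := fun t => p' t - p' (-t)) (g' := fun t => 2 * t)
    ?_ ?_ ?_ ?_ ?_ ?_
  · filter_upwards [hle h1, hle h3] with t a1 a2
    have a3 : HasDerivAt (fun t => p (-t)) (-(p' (-t))) t := by
      have := a2.comp t (hasDerivAt_neg t)
      simpa [Function.comp_def] using this
    have := (a1.add a3).sub_const (2 * p 0)
    simpa [sub_eq_add_neg] using this
  · refine Eventually.of_forall fun t => ?_
    simpa using hasDerivAt_pow 2 t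
  · filter_upwards [self_mem_nhdsWithin] with t ht
    have : (0 : ℝ) < t := ht
    positivity
  · have a1 : Tendsto p (𝓝[>] 0) (𝓝 (p 0)) := hcont.tendsto.mono_left hle
    have a2 : Tendsto (fun t => p (-t)) (𝓝[>] 0) (𝓝 (p 0)) :=
      hcont.tendsto.comp (hneg.mono_left hle)
    have := (a1.add a2).sub_const (2 * p 0)
    have e : p 0 + p 0 - 2 * p 0 = 0 := by ring
    rwa [e] at this
  · have : Tendsto (fun t : ℝ => t ^ 2) (𝓝 0) (𝓝 ((0 : ℝ) ^ 2)) :=
      (continuous_pow 2).tendsto 0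
    simpa using this.mono_left hle
  · have b1 : Tendsto (fun t => t⁻¹ * (p' t - p' 0)) (𝓝[>] 0) (𝓝 c) := by
      have := (hasDerivAt_iff_tendsto_slope_zero.1 h2).mono_left gt_le_ne
      simpa using this
    have b2 : Tendsto (fun t => (-t)⁻¹ * (p' (-t) - p' 0)) (𝓝[>] 0) (𝓝 c) := by
      have h4 : Tendsto (fun t : ℝ => -t) (𝓝[>] 0) (𝓝[≠] 0) := by
        refine tendsto_nhdsWithin_iff.2 ⟨hneg.mono_left hle, ?_⟩
        filter_upwards [self_mem_nhdsWithin] with t ht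
        have : (0 : ℝ) < t := ht
        simpa using this.ne'
      have := (hasDerivAt_iff_tendsto_slope_zero.1 h2).comp h4
      simpa [Function.comp_def] using this
    have b3 := (b1.add b2).div_const 2
    have e : (c + c) / 2 = c := by ring
    rw [e] at b3
    refine b3.congr' ?_
    filter_upwards [self_mem_nhdsWithin] with t ht
    have : t ≠ 0 := (show (0 : ℝ) < t from ht).ne'
    field_simp
    ring

/-- symmetric first differences. -/
theorem first_diff {p : ℝ → ℝ} {c : ℝ} (h : HasDerivAt p c 0) :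
    Tendsto (fun t => (p t - p (-t)) / t) (𝓝[>] 0) (𝓝 (2 * c)) := by
  have hneg : Tendsto (fun t : ℝ => -t) (𝓝 0) (𝓝 0) := by
    simpa using (continuous_neg.tendsto (0 : ℝ))
  have hle : 𝓝[>] (0 : ℝ) ≤ 𝓝 0 := nhdsWithin_le_nhds
  have b1 : Tendsto (fun t => t⁻¹ * (p t - p 0)) (𝓝[>] 0) (𝓝 c) := by
    have := (hasDerivAt_iff_tendsto_slope_zero.1 h).mono_left gt_le_ne
    simpa using this
  have b2 : Tendsto (fun t => (-t)⁻¹ * (p (-t) - p 0)) (𝓝[>] 0) (𝓝 c) := by
    have h4 : Tendsto (fun t : ℝ => -t) (𝓝[>] 0) (𝓝[≠] 0) := by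
      refine tendsto_nhdsWithin_iff.2 ⟨hneg.mono_left hle, ?_⟩
      filter_upwards [self_mem_nhdsWithin] with t ht
      have : (0 : ℝ) < t := ht
      simpa using this.ne'
    have := (hasDerivAt_iff_tendsto_slope_zero.1 h).comp h4
    simpa [Function.comp_def] using this
  have b3 := b1.add b2
  rw [← two_mul] at b3
  refine b3.congr' ?_
  filter_upwards [self_mem_nhdsWithin] with t ht
  have : t ≠ 0 := (show (0 : ℝ) < t from ht).ne'
  field_simp
  ring

section Vec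

variable {E : Type*} [NormedAddCommGroup E] [InnerProductSpace ℝ E]

/-- the part of a curve orthogonal to `ν` is `o(t)` if its velocity is parallel to `ν`. -/
theorem perp_small {k : ℝ → E} {k' ν : E} (h : HasDerivAt k k' 0) (h0 : k 0 = 0)
    (hk : k' - ⟪k', ν⟫ • ν = 0) :
    Tendsto (fun t => ‖k t - ⟪k t, ν⟫ • ν‖ ^ 2 / t ^ 2) (𝓝[≠] 0) (𝓝 0) := by
  have h1 : Tendsto (fun t => t⁻¹ • k t) (𝓝[≠] 0) (𝓝 k') := by
    have := hasDerivAt_iff_tendsto_slope_zero.1 h
    simpa [h0] using this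
  have hc : Continuous fun v : E => ‖v - ⟪v, ν⟫ • ν‖ ^ 2 := by fun_prop
  have h2 := (hc.tendsto k').comp h1
  simp only [hk, norm_zero] at h2
  rw [show ((0 : ℝ) ^ 2) = 0 by norm_num] at h2
  refine h2.congr' ?_
  filter_upwards [self_mem_nhdsWithin] with t ht
  have ht : t ≠ 0 := ht
  simp only [Function.comp_apply]
  rw [real_inner_smul_left, ← smul_smul, ← smul_sub, norm_smul, mul_pow]
  simp only [norm_inv, Real.norm_eq_abs, inv_pow, sq_abs]
  field_simp

/-- expansion of the norm around a nonzero vector. -/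
theorem norm_expand {ν k : E} {d : ℝ} (hν : ‖ν‖ = 1) (hd : 0 < d) (hk : ‖k‖ ≤ d / 2) :
    ‖d • ν + k‖ ≤ d + ⟪k, ν⟫ + ‖k - ⟪k, ν⟫ • ν‖ ^ 2 / d := by
  set a := ⟪k, ν⟫ with ha
  set w := k - a • ν with hw
  have hνν : ⟪ν, ν⟫ = (1 : ℝ) := by rw [real_inner_self_eq_norm_sq, hν]; norm_num
  have hwν : ⟪w, ν⟫ = (0 : ℝ) := by
    rw [hw, inner_sub_left, inner_smul_left, hνν, ha]
    simp
  have haabs : |a| ≤ d / 2 := by
    have := abs_real_inner_le_norm k ν
    rw [hν, mul_one] at this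
    exact this.trans hk
  have hpos : d / 2 ≤ d + a := by linarith [neg_le_of_abs_le haabs]
  have e1 : d • ν + k = (d + a) • ν + w := by
    rw [hw, add_smul]; abel
  have e2 : ‖d • ν + k‖ ^ 2 = (d + a) ^ 2 + ‖w‖ ^ 2 := by
    rw [e1, norm_add_sq_real, norm_smul, hν, inner_smul_left, real_inner_comm, hwν,
      Real.norm_eq_abs, mul_one, sq_abs]
    simp
  have hw0 : 0 ≤ ‖w‖ ^ 2 := by positivity
  have h3 : 0 ≤ d + a + ‖w‖ ^ 2 / d := add_nonneg (by linarith) (by positivity)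
  refine abs_le_of_sq_le_sq' ?_ h3 |>.2
  rw [e2]
  have h4 : ‖w‖ ^ 2 ≤ 2 * (d + a) * (‖w‖ ^ 2 / d) := by
    have : d ≤ 2 * (d + a) := by linarith
    calc ‖w‖ ^ 2 = d * (‖w‖ ^ 2 / d) := by field_simp
      _ ≤ 2 * (d + a) * (‖w‖ ^ 2 / d) := mul_le_mul_of_nonneg_right this (by positivity)
  nlinarith [sq_nonneg (‖w‖ ^ 2 / d)]

/-- uniform semiconcavity of the distance function. -/
theorem infDist_second {Z : Set E} {q y : E} (hy : y ∈ Z)
    (hd : Metric.infDist q Z = ‖q - y‖) (hpos : 0 < ‖q - y‖) (h : E) :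
    Metric.infDist (q + h) Z + Metric.infDist (q - h) Z - 2 * Metric.infDist q Z ≤
      ‖h‖ ^ 2 / ‖q - y‖ := by
  set v := q - y with hv
  have a1 : Metric.infDist (q + h) Z ≤ ‖v + h‖ := by
    refine (Metric.infDist_le_dist_of_mem hy).trans_eq ?_
    rw [dist_eq_norm, hv]; congr 1; abel
  have a2 : Metric.infDist (q - h) Z ≤ ‖v - h‖ := by
    refine (Metric.infDist_le_dist_of_mem hy).trans_eq ?_
    rw [dist_eq_norm, hv]; congr 1; abel
  have a3 : ‖v + h‖ ^ 2 + ‖v - h‖ ^ 2 = 2 * (‖v‖ ^ 2 + ‖h‖ ^ 2) := by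
    have := parallelogram_law_with_norm ℝ v h
    nlinarith [this]
  have a4 : ‖v + h‖ + ‖v - h‖ ≤ 2 * ‖v‖ + ‖h‖ ^ 2 / ‖v‖ := by
    have h3 : 0 ≤ 2 * ‖v‖ + ‖h‖ ^ 2 / ‖v‖ := by positivity
    refine abs_le_of_sq_le_sq' ?_ h3 |>.2
    have e : 2 * ‖v‖ * (‖h‖ ^ 2 / ‖v‖) = 2 * ‖h‖ ^ 2 := by field_simp
    nlinarith [sq_nonneg (‖v + h‖ - ‖v - h‖), sq_nonneg (‖h‖ ^ 2 / ‖v‖)]
  rw [hd]
  linarith

end Vec

/-! ### geometry of the cone -/

section Geo

variable {m : ℕ} {M : Type*} [TopologicalSpace M] [ChartedSpace (Eu m) M]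
  {F : M → Eu (m + 2)}

theorem ctr_mem (x : M) : ctr x ∈ (chartAt (Eu m) x).target :=
  (chartAt (Eu m) x).map_source (mem_chart_source _ x)

theorem loc_ctr (F : M → Eu (m + 2)) (x : M) : loc F x (ctr x) = F x := by
  simp [loc, ctr, (chartAt (Eu m) x).left_inv (mem_chart_source _ x)]

theorem loc_mem (F : M → Eu (m + 2)) (x : M) (y : Eu m) {ρ : ℝ} (hρ : 0 ≤ ρ) :
    ρ • loc F x y ∈ cone F := ⟨ρ, hρ, _, rfl⟩

theorem smooth_ctr (hF : Imm F) (x : M) : ContDiffAt ℝ ∞ (loc F x) (ctr x) :=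
  hF.smooth x _ (ctr_mem x)

/-- derivative of the local parametrisation along a line, near the centre. -/
theorem hasDeriv_line (hF : Imm F) (x : M) (v : Eu m) :
    ∀ᶠ t in 𝓝 (0 : ℝ), HasDerivAt (fun t : ℝ => loc F x (ctr x + t • v))
      (fderiv ℝ (loc F x) (ctr x + t • v) v) t := by
  have h1 : ∀ᶠ y in 𝓝 (ctr x), ContDiffAt ℝ 2 (loc F x) y :=
    ((smooth_ctr hF x).of_le two_le).eventually (by simp)
  have h2 : Tendsto (fun t : ℝ => ctr x + t • v) (𝓝 0) (𝓝 (ctr x)) := by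
    have : Continuous fun t : ℝ => ctr x + t • v := by fun_prop
    simpa using this.tendsto 0
  filter_upwards [h2.eventually h1] with t ht
  have h3 : HasDerivAt (fun t : ℝ => ctr x + t • v) v t := by
    simpa using ((hasDerivAt_id t).smul_const v).const_add (ctr x)
  exact (ht.differentiableAt (by norm_num)).hasFDerivAt.comp_hasDerivAt t h3

theorem hasDeriv_line0 (hF : Imm F) (x : M) (v : Eu m) :
    HasDerivAt (fun t : ℝ => loc F x (ctr x + t • v))
      (fderiv ℝ (loc F x) (ctr x) v) 0 := by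
  have := (hasDeriv_line hF x v).self_of_nhds
  simpa using this

/-- second derivative of the local parametrisation along a line at the centre. -/
theorem hasDeriv_line2 (hF : Imm F) (x : M) (v : Eu m) :
    HasDerivAt (fun t : ℝ => fderiv ℝ (loc F x) (ctr x + t • v) v)
      (fderiv ℝ (fderiv ℝ (loc F x)) (ctr x) v v) 0 := by
  have h1 : ContDiffAt ℝ 1 (fderiv ℝ (loc F x)) (ctr x) :=
    (smooth_ctr hF x).fderiv_right (m := 1) one_one_le
  have h2 : HasFDerivAt (fderiv ℝ (loc F x)) (fderiv ℝ (fderiv ℝ (loc F x)) (ctr x))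
      (ctr x + (0 : ℝ) • v) := by
    simpa using (h1.differentiableAt (by norm_num)).hasFDerivAt
  have h3 : HasDerivAt (fun t : ℝ => ctr x + t • v) v 0 := by
    simpa using ((hasDerivAt_id (0 : ℝ)).smul_const v).const_add (ctr x)
  have h4 := h2.comp_hasDerivAt 0 h3
  exact h4.clm_apply (hasDerivAt_const (0 : ℝ) v) |>.congr_deriv (by simp)

/-- first order optimality at a nearest point. -/
theorem first_order (hF : Imm F) {q : Eu (m + 2)} {x : M} {ρ : ℝ} (hρ : 0 < ρ)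
    (hd : Metric.infDist q (cone F) = ‖q - ρ • F x‖) (a : ℝ) (v : Eu m) :
    ⟪q - ρ • F x, a • F x + ρ • fderiv ℝ (loc F x) (ctr x) v⟫ = 0 := by
  set c : ℝ → Eu (m + 2) := fun s => (ρ + s * a) • loc F x (ctr x + s • v) with hc
  have hc0 : c 0 = ρ • F x := by simp [hc, loc_ctr]
  have h1 : HasDerivAt c (a • F x + ρ • fderiv ℝ (loc F x) (ctr x) v) 0 := by
    have h2 : HasDerivAt (fun s : ℝ => ρ + s * a) a 0 := by
      simpa using ((hasDerivAt_id (0 : ℝ)).mul_const a).const_add ρ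
    have h3 := h2.smul (hasDeriv_line0 hF x v)
    refine h3.congr_deriv ?_
    simp only [zero_mul, add_zero, zero_smul, loc_ctr]
    abel
  have h4 : HasDerivAt (fun s => ‖q - c s‖ ^ 2)
      (2 * ⟪q - c 0, -(a • F x + ρ • fderiv ℝ (loc F x) (ctr x) v)⟫) 0 :=
    (h1.const_sub q).norm_sq
  have h5 : IsLocalMin (fun s => ‖q - c s‖ ^ 2) 0 := by
    have h6 : ∀ᶠ s in 𝓝 (0 : ℝ), 0 < ρ + s * a := by
      have : Continuous fun s : ℝ => ρ + s * a := by fun_prop
      have h7 := this.tendsto 0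
      simp only [zero_mul, add_zero] at h7
      exact h7.eventually (lt_mem_nhds hρ)
    filter_upwards [h6] with s hs
    have h8 : c s ∈ cone F := loc_mem F x _ hs.le
    have h9 := Metric.infDist_le_dist_of_mem (x := q) h8
    rw [dist_eq_norm, hd] at h9
    simp only [hc0]
    exact pow_le_pow_left₀ (norm_nonneg _) h9 2
  have h6 := h5.hasDerivAt_eq_zero h4
  rw [hc0, inner_neg_right] at h6
  linarith

theorem normal_F (hF : Imm F) {q : Eu (m + 2)} {x : M} {ρ : ℝ} (hρ : 0 < ρ)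
    (hd : Metric.infDist q (cone F) = ‖q - ρ • F x‖) : ⟪q - ρ • F x, F x⟫ = 0 := by
  have := first_order hF hρ hd 1 0
  simpa using this

theorem normal_D (hF : Imm F) {q : Eu (m + 2)} {x : M} {ρ : ℝ} (hρ : 0 < ρ)
    (hd : Metric.infDist q (cone F) = ‖q - ρ • F x‖) (v : Eu m) :
    ⟪q - ρ • F x, fderiv ℝ (loc F x) (ctr x) v⟫ = 0 := by
  have := first_order hF hρ hd 0 v
  rw [zero_smul, zero_add, inner_smul_right] at this
  exact (mul_eq_zero.1 this).resolve_left hρ.ne'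

/-- `F x` is orthogonal to the tangent space. -/
theorem F_perp (hF : Imm F) (x : M) (v : Eu m) :
    ⟪F x, fderiv ℝ (loc F x) (ctr x) v⟫ = 0 := by
  have h1 := (hasDeriv_line0 hF x v).norm_sq
  have h2 : (fun t : ℝ => ‖loc F x (ctr x + t • v)‖ ^ 2) = fun _ => (1 : ℝ) := by
    funext t
    simp [loc, hF.norm_one]
  rw [h2] at h1
  have h3 := h1.unique (hasDerivAt_const (0 : ℝ) (1 : ℝ))
  simp only [zero_smul, add_zero, loc_ctr] at h3
  linarith

/-- the orthonormal expansion in the adapted frame. -/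
theorem expand {w : Fin m → Eu (m + 2)} {a ν : Eu (m + 2)} (hw : Orthonormal ℝ w)
    (ha : ‖a‖ = 1) (hν : ‖ν‖ = 1) (haw : ∀ k, ⟪a, w k⟫ = 0) (hνw : ∀ k, ⟪ν, w k⟫ = 0)
    (hνa : ⟪ν, a⟫ = 0) (e : Eu (m + 2)) :
    (∑ k, ⟪w k, e⟫ • w k) + (⟪a, e⟫ • a + ⟪ν, e⟫ • ν) = e := by
  classical
  set v : Fin m ⊕ Fin 2 → Eu (m + 2) := Sum.elim w ![a, ν] with hv
  have hvo : Orthonormal ℝ v := by
    rw [orthonormal_iff_ite]
    have hw' := orthonormal_iff_ite.1 hw
    rintro (k | j) (k' | j')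
    · simpa [hv] using hw' k k'
    · fin_cases j'
      · have h1 : ⟪w k, a⟫ = (0 : ℝ) := by rw [real_inner_comm]; exact haw k
        simp [hv, h1]
      · have h1 : ⟪w k, ν⟫ = (0 : ℝ) := by rw [real_inner_comm]; exact hνw k
        simp [hv, h1]
    · fin_cases j
      · simp [hv, haw k']
      · simp [hv, hνw k']
    · have hνa' : ⟪a, ν⟫ = (0 : ℝ) := by rw [real_inner_comm]; exact hνa
      fin_cases j <;> fin_cases j'
      · simp [hv, ha]
      · simp [hv, hνa']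
      · simp [hv, hνa]
      · simp [hv, hν]
  have hcard : Module.finrank ℝ (Eu (m + 2)) = Fintype.card (Fin m ⊕ Fin 2) := by
    simp [Eu]
  obtain ⟨b, hb⟩ := Orthonormal.exists_orthonormalBasis_extension_of_card_eq (𝕜 := ℝ) hcard
    (v := v) (s := univ) (hvo.comp _ Subtype.val_injective)
  have h1 := b.sum_repr' e
  have h2 : ∀ i, b i = v i := fun i => hb i (mem_univ i)
  simp only [h2] at h1
  rw [Fintype.sum_sum_type, Fin.sum_univ_two] at h1
  simpa [hv] using h1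

/-- directional second difference bound at a nearest point. -/
theorem dir_bound (hF : Imm F) {q : Eu (m + 2)} {x : M} {ρ : ℝ} (hρ : 0 < ρ)
    (hd : Metric.infDist q (cone F) = ‖q - ρ • F x‖) (hpos : 0 < ‖q - ρ • F x‖)
    {ξ : Fin m → Eu m} (hw : Orthonormal ℝ (fun k => fderiv ℝ (loc F x) (ctr x) (ξ k)))
    (e : Eu (m + 2)) :
    ∃ U : ℝ → ℝ,
      (∀ᶠ t in 𝓝[>] (0 : ℝ), (Metric.infDist (q + t • e) (cone F) +
        Metric.infDist (q - t • e) (cone F) - 2 * Metric.infDist q (cone F)) / t ^ 2 ≤ U t) ∧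
      Tendsto U (𝓝[>] 0) (𝓝 (-(ρ⁻¹ * ⟪fderiv ℝ (fderiv ℝ (loc F x)) (ctr x)
        (∑ k, ⟪fderiv ℝ (loc F x) (ctr x) (ξ k), e⟫ • ξ k)
        (∑ k, ⟪fderiv ℝ (loc F x) (ctr x) (ξ k), e⟫ • ξ k),
        ‖q - ρ • F x‖⁻¹ • (q - ρ • F x)⟫))) := by
  set d := ‖q - ρ • F x‖ with hdd
  set ν := d⁻¹ • (q - ρ • F x) with hν
  set w : Fin m → Eu (m + 2) := fun k => fderiv ℝ (loc F x) (ctr x) (ξ k) with hwdef
  set ξe : Eu m := ∑ k, ⟪w k, e⟫ • ξ k with hξe
  set α : ℝ := ⟪F x, e⟫ with hα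
  have hdν : d • ν = q - ρ • F x := by
    rw [hν, smul_smul, mul_inv_cancel₀ hpos.ne', one_smul]
  have hν1 : ‖ν‖ = 1 := by
    rw [hν, norm_smul, norm_inv, norm_norm, ← hdd, inv_mul_cancel₀ hpos.ne']
  have hνF : ⟪ν, F x⟫ = 0 := by
    rw [hν, real_inner_smul_left, normal_F hF hρ hd, mul_zero]
  have hνD : ∀ v, ⟪ν, fderiv ℝ (loc F x) (ctr x) v⟫ = 0 := fun v => by
    rw [hν, real_inner_smul_left, normal_D hF hρ hd, mul_zero]
  clear_value ν
  have hDξ : fderiv ℝ (loc F x) (ctr x) ξe = ∑ k, ⟪w k, e⟫ • w k := by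
    rw [hξe, map_sum]
    exact Finset.sum_congr rfl fun k _ => by rw [map_smul]
  -- the comparison curve
  set g : ℝ → Eu (m + 2) := fun t => loc F x (ctr x + t • (ρ⁻¹ • ξe)) with hg
  have hg0 : g 0 = F x := by simp [hg, loc_ctr]
  have hgd : ∀ᶠ t in 𝓝 (0 : ℝ), HasDerivAt g
      (fderiv ℝ (loc F x) (ctr x + t • (ρ⁻¹ • ξe)) (ρ⁻¹ • ξe)) t := hasDeriv_line hF x _
  have hgd0 : HasDerivAt g (ρ⁻¹ • ∑ k, ⟪w k, e⟫ • w k) 0 := by
    have := hasDeriv_line0 hF x (ρ⁻¹ • ξe)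
    rwa [map_smul, hDξ] at this
  set c : ℝ → Eu (m + 2) := fun t => (ρ + t * α) • g t with hc
  have hc0 : c 0 = ρ • F x := by simp [hc, hg0]
  set k : ℝ → Eu (m + 2) := fun t => t • e - (c t - ρ • F x) with hk
  have hk0 : k 0 = 0 := by simp [hk, hc0]
  have hcd : HasDerivAt c (α • F x + ∑ k, ⟪w k, e⟫ • w k) 0 := by
    have h2 : HasDerivAt (fun s : ℝ => ρ + s * α) α 0 := by
      simpa using ((hasDerivAt_id (0 : ℝ)).mul_const α).const_add ρ
    refine (h2.smul hgd0).congr_deriv ?_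
    rw [hg0]
    simp only [zero_mul, add_zero]
    rw [smul_smul, mul_inv_cancel₀ hρ.ne', one_smul]
    first
      | rfl
      | exact add_comm _ _
  have hexp := expand hw (hF.norm_one x) hν1 (fun k => F_perp hF x (ξ k))
    (fun k => hνD (ξ k)) hνF e
  have hkd : HasDerivAt k (⟪ν, e⟫ • ν) 0 := by
    have h1 : HasDerivAt (fun t : ℝ => t • e) e 0 := by
      simpa using (hasDerivAt_id (0 : ℝ)).smul_const e
    refine (h1.sub (hcd.sub_const (ρ • F x))).congr_deriv ?_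
    have : (⟪ν, e⟫ • ν : Eu (m + 2)) = e - ((∑ k, ⟪w k, e⟫ • w k) + ⟪F x, e⟫ • F x) := by
      symm
      calc e - ((∑ k, ⟪w k, e⟫ • w k) + ⟪F x, e⟫ • F x) =
          ((∑ k, ⟪w k, e⟫ • w k) + (⟪F x, e⟫ • F x + ⟪ν, e⟫ • ν)) -
            ((∑ k, ⟪w k, e⟫ • w k) + ⟪F x, e⟫ • F x) := by rw [hexp]
        _ = ⟪ν, e⟫ • ν := by abel
    rw [this, hα]
    abel
  have hperp : Tendsto (fun t => ‖k t - ⟪k t, ν⟫ • ν‖ ^ 2 / t ^ 2) (𝓝[≠] 0) (𝓝 0) := by
    refine perp_small hkd hk0 ?_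
    rw [real_inner_smul_left, real_inner_self_eq_norm_sq, hν1]
    simp
  -- the scalar function
  set p : ℝ → ℝ := fun t => ⟪g t, ν⟫ with hp
  have hp0 : p 0 = 0 := by
    rw [hp]; simp only [hg0]; rw [real_inner_comm]; exact hνF
  have hpd : ∀ᶠ t in 𝓝 (0 : ℝ), HasDerivAt p
      (⟪fderiv ℝ (loc F x) (ctr x + t • (ρ⁻¹ • ξe)) (ρ⁻¹ • ξe), ν⟫) t := by
    filter_upwards [hgd] with t ht
    have := ht.inner ℝ (hasDerivAt_const t ν)
    simpa using this
  have hpd0 : HasDerivAt p 0 0 := by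
    have := hgd0.inner ℝ (hasDerivAt_const (0 : ℝ) ν)
    refine this.congr_deriv ?_
    rw [inner_zero_right, zero_add, real_inner_smul_left, ← hDξ, real_inner_comm, hνD, mul_zero]
  have hpd2 : HasDerivAt (fun t : ℝ => ⟪fderiv ℝ (loc F x) (ctr x + t • (ρ⁻¹ • ξe)) (ρ⁻¹ • ξe), ν⟫)
      (⟪fderiv ℝ (fderiv ℝ (loc F x)) (ctr x) (ρ⁻¹ • ξe) (ρ⁻¹ • ξe), ν⟫) 0 := by
    have := (hasDeriv_line2 hF x (ρ⁻¹ • ξe)).inner ℝ (hasDerivAt_const (0 : ℝ) ν)
    simpa using this
  have hS := second_diff hpd hpd2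
  have hFd := first_diff hpd0
  -- membership and small size
  have hle : 𝓝[>] (0 : ℝ) ≤ 𝓝 0 := nhdsWithin_le_nhds
  have hneg : Tendsto (fun t : ℝ => -t) (𝓝 0) (𝓝 0) := by
    simpa using (continuous_neg.tendsto (0 : ℝ))
  have hA : ∀ᶠ t in 𝓝 (0 : ℝ), Metric.infDist (q + t • e) (cone F) ≤
      d + ⟪k t, ν⟫ + ‖k t - ⟪k t, ν⟫ • ν‖ ^ 2 / d := by
    have h6 : ∀ᶠ s in 𝓝 (0 : ℝ), 0 < ρ + s * α := by
      have : Continuous fun s : ℝ => ρ + s * α := by fun_prop
      have h7 := this.tendsto 0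
      simp only [zero_mul, add_zero] at h7
      exact h7.eventually (lt_mem_nhds hρ)
    have h7 : ∀ᶠ s in 𝓝 (0 : ℝ), ‖k s‖ < d / 2 := by
      have h8 := hkd.continuousAt.norm.tendsto
      rw [hk0, norm_zero] at h8
      exact h8.eventually (gt_mem_nhds (by positivity))
    filter_upwards [h6, h7] with t h8 h9
    have h10 : c t ∈ cone F := loc_mem F x _ h8.le
    have h11 := Metric.infDist_le_dist_of_mem (x := q + t • e) h10
    rw [dist_eq_norm] at h11
    have h12 : q + t • e - c t = d • ν + k t := by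
      rw [hdν, hk]; module
    rw [h12] at h11
    exact h11.trans (norm_expand hν1 hpos h9.le)
  -- the upper bound
  refine ⟨fun t => -(ρ * ((p t + p (-t) - 2 * p 0) / t ^ 2)) - α * ((p t - p (-t)) / t) +
    (‖k t - ⟪k t, ν⟫ • ν‖ ^ 2 / t ^ 2 + ‖k (-t) - ⟪k (-t), ν⟫ • ν‖ ^ 2 / (-t) ^ 2) / d, ?_, ?_⟩
  · filter_upwards [hle hA, hle (hneg.eventually hA), self_mem_nhdsWithin] with t h1 h2 h3
    have ht : (0 : ℝ) < t := h3
    rw [neg_smul, ← sub_eq_add_neg] at h2
    have h4 : ⟪k t, ν⟫ + ⟪k (-t), ν⟫ = -(ρ * (p t + p (-t))) - t * (α * (p t - p (-t))) := by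
      have e1 : ∀ s : ℝ, ⟪k s, ν⟫ = s * ⟪e, ν⟫ - (ρ + s * α) * p s := by
        intro s
        rw [hk]
        simp only [inner_sub_left, real_inner_smul_left]
        rw [hc]
        simp only [real_inner_smul_left]
        rw [real_inner_comm ν (F x), hνF, hp]
        ring
      rw [e1, e1]
      ring
    have h5 : Metric.infDist (q + t • e) (cone F) + Metric.infDist (q - t • e) (cone F) -
        2 * Metric.infDist q (cone F) ≤ -(ρ * (p t + p (-t))) - t * (α * (p t - p (-t))) +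
        (‖k t - ⟪k t, ν⟫ • ν‖ ^ 2 + ‖k (-t) - ⟪k (-t), ν⟫ • ν‖ ^ 2) / d := by
      rw [hd, add_div]
      linarith
    rw [div_le_iff₀ (by positivity)]
    refine h5.trans_eq ?_
    rw [hp0]
    have hd0 : d ≠ 0 := hpos.ne'
    field_simp
    ring
  · have hperp2 : Tendsto (fun t => ‖k (-t) - ⟪k (-t), ν⟫ • ν‖ ^ 2 / (-t) ^ 2) (𝓝[>] 0)
        (𝓝 0) := by
      have h4 : Tendsto (fun t : ℝ => -t) (𝓝[>] 0) (𝓝[≠] 0) := by
        refine tendsto_nhdsWithin_iff.2 ⟨hneg.mono_left hle, ?_⟩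
        filter_upwards [self_mem_nhdsWithin] with t ht
        have : (0 : ℝ) < t := ht
        simpa using this.ne'
      exact hperp.comp h4
    have h5 := ((hS.const_mul ρ).neg.sub (hFd.const_mul α)).add
      (((hperp.mono_left gt_le_ne).add hperp2).div_const d)
    convert h5 using 2
    have e1 : fderiv ℝ (fderiv ℝ (loc F x)) (ctr x) (ρ⁻¹ • ξe) (ρ⁻¹ • ξe) =
        (ρ⁻¹ * ρ⁻¹) • fderiv ℝ (fderiv ℝ (loc F x)) (ctr x) ξe ξe := by
      rw [map_smul, map_smul, smul_apply, smul_smul]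
    rw [e1, real_inner_smul_left]
    field_simp
    ring

/-- change of orthonormal frame in the trace. -/
theorem trace_frame {w : Fin m → Eu (m + 2)} (hw : Orthonormal ℝ w) (ξ : Fin m → Eu m)
    {ι : Type*} [Fintype ι] (b : OrthonormalBasis ι ℝ (Eu (m + 2)))
    (B : Eu m →L[ℝ] Eu m →L[ℝ] Eu (m + 2)) :
    ∑ i, B (∑ k, ⟪w k, b i⟫ • ξ k) (∑ k, ⟪w k, b i⟫ • ξ k) = ∑ k, B (ξ k) (ξ k) := by
  classical
  have h1 : ∀ i, B (∑ k, ⟪w k, b i⟫ • ξ k) (∑ k, ⟪w k, b i⟫ • ξ k) =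
      ∑ k, ∑ l, (⟪w k, b i⟫ * ⟪b i, w l⟫) • B (ξ k) (ξ l) := by
    intro i
    rw [map_sum, Finset.sum_comm]
    refine Finset.sum_congr rfl fun l _ => ?_
    rw [map_smul, map_sum, sum_apply, Finset.smul_sum]
    refine Finset.sum_congr rfl fun k _ => ?_
    rw [map_smul, smul_apply, smul_smul, real_inner_comm (w l) (b i), mul_comm]
  simp_rw [h1]
  rw [Finset.sum_comm]
  refine Finset.sum_congr rfl fun k _ => ?_
  rw [Finset.sum_comm]
  have h2 : ∀ l, ∑ i, (⟪w k, b i⟫ * ⟪b i, w l⟫) • B (ξ k) (ξ l) =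
      (if k = l then (1 : ℝ) else 0) • B (ξ k) (ξ l) := by
    intro l
    rw [← Finset.sum_smul, b.sum_inner_mul_inner, orthonormal_iff_ite.1 hw k l]
  simp_rw [h2]
  simp

/-- the positive part of the sum of second differences tends to zero. -/
theorem sd_tendsto (hF : Imm F) {q : Eu (m + 2)} {x : M} (hmin : MinAt F x) {ρ : ℝ}
    (hρ : 0 < ρ) (hd : Metric.infDist q (cone F) = ‖q - ρ • F x‖)
    (hpos : 0 < ‖q - ρ • F x‖) {ι : Type*} [Fintype ι]
    (b : OrthonormalBasis ι ℝ (Eu (m + 2))) :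
    Tendsto (fun t : ℝ => max (sd b (fun p => Metric.infDist p (cone F)) t q) 0)
      (𝓝[>] 0) (𝓝 0) := by
  obtain ⟨ξ, β, hw, htr⟩ := hmin
  choose U hU1 hU2 using fun i => dir_bound hF hρ hd hpos hw (b i)
  have h1 : ∀ᶠ t in 𝓝[>] (0 : ℝ), sd b (fun p => Metric.infDist p (cone F)) t q ≤
      ∑ i, U i t := by
    have := (eventually_all (l := 𝓝[>] (0 : ℝ))).2 hU1
    filter_upwards [this] with t ht
    exact Finset.sum_le_sum fun i _ => ht i
  have h2 := tendsto_finsetSum Finset.univ fun i _ => hU2 i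
  have h3 : ∑ i, -(ρ⁻¹ * ⟪fderiv ℝ (fderiv ℝ (loc F x)) (ctr x)
      (∑ k, ⟪fderiv ℝ (loc F x) (ctr x) (ξ k), b i⟫ • ξ k)
      (∑ k, ⟪fderiv ℝ (loc F x) (ctr x) (ξ k), b i⟫ • ξ k),
      ‖q - ρ • F x‖⁻¹ • (q - ρ • F x)⟫) = 0 := by
    rw [Finset.sum_neg_distrib, ← Finset.mul_sum, ← sum_inner, trace_frame hw, htr,
      real_inner_smul_right, inner_add_left, real_inner_smul_left,
      real_inner_comm _ (F x), normal_F hF hρ hd,
      real_inner_comm _ (fderiv ℝ (loc F x) (ctr x) β), normal_D hF hρ hd]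
    simp
  rw [h3] at h2
  have h4 : Tendsto (fun t => max (∑ i, U i t) 0) (𝓝[>] (0 : ℝ)) (𝓝 0) := by
    simpa using h2.max (tendsto_const_nhds (x := (0 : ℝ)))
  refine tendsto_of_tendsto_of_tendsto_of_le_of_le' tendsto_const_nhds h4 ?_ ?_
  · exact Eventually.of_forall fun t => le_max_right _ _
  · filter_upwards [h1] with t ht
    exact max_le_max ht le_rfl

/-- minimality forces the image to meet every closed hemisphere. -/
theorem exists_nonneg_inner (hm : 1 ≤ m) [CompactSpace M] [Nonempty M] (hF : Imm F)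
    (hmin : ∀ x, MinAt F x) (q : Eu (m + 2)) : ∃ x, 0 ≤ ⟪F x, q⟫ := by
  have hcont : Continuous fun x => ⟪F x, q⟫ := by
    have := hF.cont
    fun_prop
  obtain ⟨x, -, hx⟩ := isCompact_univ.exists_isMaxOn (univ_nonempty (α := M))
    hcont.continuousOn
  have hmax : ∀ y, ⟪F y, q⟫ ≤ ⟪F x, q⟫ := fun y => hx (mem_univ y)
  refine ⟨x, ?_⟩
  obtain ⟨ξ, β, hw, htr⟩ := hmin x
  have hline : ∀ (v : Eu m) (t : ℝ), ⟪loc F x (ctr x + t • v), q⟫ ≤ ⟪F x, q⟫ :=
    fun v t => hmax _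
  -- first order
  have h1 : ∀ v, ⟪fderiv ℝ (loc F x) (ctr x) v, q⟫ = 0 := by
    intro v
    have h2 : HasDerivAt (fun t : ℝ => ⟪loc F x (ctr x + t • v), q⟫)
        ⟪fderiv ℝ (loc F x) (ctr x) v, q⟫ 0 := by
      have := (hasDeriv_line0 hF x v).inner ℝ (hasDerivAt_const (0 : ℝ) q)
      simpa using this
    refine IsLocalMax.hasDerivAt_eq_zero ?_ h2
    refine Eventually.of_forall fun t => ?_
    simpa [loc_ctr] using hline v t
  -- second order
  have h2 : ∀ v, ⟪fderiv ℝ (fderiv ℝ (loc F x)) (ctr x) v v, q⟫ ≤ 0 := by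
    intro v
    have a1 : ∀ᶠ t in 𝓝 (0 : ℝ), HasDerivAt (fun t : ℝ => ⟪loc F x (ctr x + t • v), q⟫)
        ⟪fderiv ℝ (loc F x) (ctr x + t • v) v, q⟫ t := by
      filter_upwards [hasDeriv_line hF x v] with t ht
      have := ht.inner ℝ (hasDerivAt_const t q)
      simpa using this
    have a2 : HasDerivAt (fun t : ℝ => ⟪fderiv ℝ (loc F x) (ctr x + t • v) v, q⟫)
        ⟪fderiv ℝ (fderiv ℝ (loc F x)) (ctr x) v v, q⟫ 0 := by
      have := (hasDeriv_line2 hF x v).inner ℝ (hasDerivAt_const (0 : ℝ) q)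
      simpa using this
    refine le_of_tendsto (second_diff a1 a2) ?_
    filter_upwards [self_mem_nhdsWithin] with t ht
    refine div_nonpos_of_nonpos_of_nonneg ?_ (by positivity)
    have b1 := hline v t
    have b2 := hline v (-t)
    simp only [zero_smul, add_zero, loc_ctr]
    linarith
  have h3 : ∑ k, ⟪fderiv ℝ (fderiv ℝ (loc F x)) (ctr x) (ξ k) (ξ k), q⟫ ≤ 0 :=
    Finset.sum_nonpos fun k _ => h2 _
  rw [← sum_inner, htr, inner_add_left, real_inner_smul_left, h1, add_zero] at h3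
  have hm' : (1 : ℝ) ≤ m := by exact_mod_cast hm
  nlinarith

/-- almost every point sees some point of the image under an acute angle. -/
theorem ae_exists_pos (hm : 1 ≤ m) [CompactSpace M] [Nonempty M] (hF : Imm F)
    (hmin : ∀ x, MinAt F x) : ∀ᵐ q : Eu (m + 2), ∃ x, 0 < ⟪F x, q⟫ := by
  set K : Set (Eu (m + 2)) := {q | ∀ x, ⟪F x, q⟫ ≤ 0} with hK
  have hKc : Convex ℝ K := by
    intro a ha b hb s t hs ht _ x
    rw [inner_add_right, real_inner_smul_right, real_inner_smul_right]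
    exact add_nonpos (mul_nonpos_of_nonneg_of_nonpos hs (ha x))
      (mul_nonpos_of_nonneg_of_nonpos ht (hb x))
  have hKi : interior K = ∅ := by
    rw [eq_empty_iff_forall_notMem]
    intro q hq
    obtain ⟨ε, hε, hball⟩ := Metric.isOpen_iff.1 isOpen_interior q hq
    obtain ⟨x, hx⟩ := exists_nonneg_inner hm hF hmin q
    have h1 : q + (ε / 2) • F x ∈ K := by
      refine interior_subset (hball ?_)
      rw [Metric.mem_ball, dist_eq_norm, add_sub_cancel_left, norm_smul, hF.norm_one, mul_one,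
        Real.norm_of_nonneg (by positivity)]
      linarith
    have h2 := h1 x
    rw [inner_add_right, real_inner_smul_right, real_inner_self_eq_norm_sq, hF.norm_one] at h2
    nlinarith
  have hcl : IsClosed K := by
    have : K = ⋂ x, {q | ⟪F x, q⟫ ≤ 0} := by
      ext q; simp [hK]
    rw [this]
    exact isClosed_iInter fun x => isClosed_le (by fun_prop) continuous_const
  have hfr : frontier K = K := by
    rw [hcl.frontier_eq, hKi, sdiff_empty]
  have h0 : volume K = 0 := by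
    have := hKc.addHaar_frontier (volume : Measure (Eu (m + 2)))
    rwa [hfr] at this
  have : ∀ᵐ q : Eu (m + 2), q ∉ K := measure_eq_zero_iff_ae_notMem.1 h0
  filter_upwards [this] with q hq
  by_contra h
  push Not at h
  exact hq h

/-- if the distance is attained at the apex then all angles are obtuse. -/
theorem rho_pos [Nonempty M] {q : Eu (m + 2)} {x₁ : M} (hF : Imm F)
    (hx₁ : 0 < ⟪F x₁, q⟫) {ρ : ℝ} {x : M} (hρ : 0 ≤ ρ)
    (hd : Metric.infDist q (cone F) = ‖q - ρ • F x‖) : 0 < ρ := by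
  rcases hρ.lt_or_eq with h | h
  · exact h
  · exfalso
    rw [← h, zero_smul, sub_zero] at hd
    set a := ⟪F x₁, q⟫ with ha
    have h1 := Metric.infDist_le_dist_of_mem (x := q) (mem_cone F hx₁.le x₁)
    rw [hd, dist_eq_norm] at h1
    have h2 : ‖q - a • F x₁‖ ^ 2 = ‖q‖ ^ 2 - a ^ 2 := by
      rw [norm_sub_sq_real, norm_smul, hF.norm_one, real_inner_smul_right, real_inner_comm,
        ← ha, Real.norm_eq_abs, mul_one, sq_abs]
      ring
    have h3 := pow_le_pow_left₀ (norm_nonneg _) h1 2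
    rw [h2] at h3
    have : 0 < a ^ 2 := by positivity
    linarith

end Geo

universe u

/-- **JB**: the distance to a minimal cone is weakly superharmonic off the cone. -/
theorem stJB (m : ℕ) (hm : 1 ≤ m) : StJB.{u} m := by
  intro M _ _ _ _ F hF hmin ψ hψ hc hsub h0
  obtain ⟨L, hL⟩ := hψ
  set b := EuclideanSpace.basisFun (Fin (m + 2)) ℝ with hb
  have hlip : LipschitzWith 1 fun p => Metric.infDist p (cone F) :=
    Metric.lipschitz_infDist_pt _
  have hcl := isClosed_cone hF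
  have hpos : ∀ q ∈ tsupport ψ, 0 < Metric.infDist q (cone F) := fun q hq =>
    (hcl.notMem_iff_infDist_pos (cone_nonempty F)).1 (hsub hq)
  obtain ⟨C, hC⟩ : BddAbove ((fun q => ((m : ℝ) + 2) / Metric.infDist q (cone F)) ''
      tsupport ψ) := by
    refine IsCompact.bddAbove_image hc.isCompact ?_
    exact continuousOn_const.div hlip.continuous.continuousOn fun q hq => (hpos q hq).ne'
  refine weak_superharmonic b hlip hL hc h0 C ?_ ?_
  · intro q hq t ht
    refine le_trans ?_ (hC (mem_image_of_mem _ hq))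
    obtain ⟨ρ, x, hρ, hd⟩ := exists_nearest hF q
    have hp : 0 < ‖q - ρ • F x‖ := hd ▸ hpos q hq
    have h1 : ∀ i, (Metric.infDist (q + t • b i) (cone F) +
        Metric.infDist (q - t • b i) (cone F) - 2 * Metric.infDist q (cone F)) / t ^ 2 ≤
        1 / Metric.infDist q (cone F) := by
      intro i
      have h2 := infDist_second (mem_cone F hρ x) hd hp (t • b i)
      rw [norm_smul, b.norm_eq_one, mul_one, Real.norm_eq_abs, sq_abs] at h2
      rw [div_le_iff₀ (by positivity), hd] at *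
      refine h2.trans_eq ?_
      ring
    calc sd b (fun p => Metric.infDist p (cone F)) t q
        ≤ ∑ _i : Fin (m + 2), 1 / Metric.infDist q (cone F) :=
          Finset.sum_le_sum fun i _ => h1 i
      _ = ((m : ℝ) + 2) / Metric.infDist q (cone F) := by
          rw [Finset.sum_const, Finset.card_univ, Fintype.card_fin, nsmul_eq_mul]
          push_cast
          ring
  · filter_upwards [ae_exists_pos hm hF hmin] with q ⟨x₁, hx₁⟩ hq
    obtain ⟨ρ, x, hρ, hd⟩ := exists_nearest hF q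
    have hp : 0 < ‖q - ρ • F x‖ := hd ▸ hpos q hq
    exact sd_tendsto hF (hmin x) (rho_pos hF hx₁ hρ hd) hd hp b


end Crest.Agent.R246.JB364
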