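import Crest.Agent.R246.JC6_816

/-!
Row 246, part JC, file 7: proof of `StJC`.
-/

set_option autoImplicit false

open scoped ContDiff Topology ENNReal
open MeasureTheory Set Filter

noncomputable section

namespace Crest.Agent.R246.J816

universe u

variable {m : ℕ}

/-- disjointification of a finite open cover. -/
theorem exists_disjoint_cover {M : Type u} [TopologicalSpace M] [MeasurableSpace M]
    [BorelSpace M] {ι : Type u} [DecidableEq ι] {U : ι → Set M} (hU : ∀ i, IsOpen (U i))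
    (T : Finset ι) :
    ∃ P : ι → Set M, (∀ i, MeasurableSet (P i)) ∧ (∀ i, P i ⊆ U i) ∧
      (∀ i ∈ T, ∀ j ∈ T, i ≠ j → Disjoint (P i) (P j)) ∧
      (⋃ i ∈ T, U i) ⊆ ⋃ i ∈ T, P i := by
  induction T using Finset.induction_on with
  | empty => exact ⟨fun _ => ∅, by simp, by simp, by simp, by simp⟩
  | insert a T ha ih =>
    obtain ⟨P, h1, h2, h3, h4⟩ := ih
    refine ⟨Function.update P a (U a \ ⋃ i ∈ T, P i), ?_, ?_, ?_, ?_⟩
    · intro i
      by_cases hi : i = a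
      · subst hi
        rw [Function.update_self]
        exact (hU i).measurableSet.diff (T.measurableSet_biUnion fun i _ => h1 i)
      · rw [Function.update_of_ne hi]; exact h1 i
    · intro i
      by_cases hi : i = a
      · subst hi
        rw [Function.update_self]
        exact sdiff_subset
      · rw [Function.update_of_ne hi]; exact h2 i
    · intro i hi j hj hij
      rw [Finset.mem_insert] at hi hj
      by_cases hia : i = a
      · subst hia
        have hja : j ≠ i := hij.symm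
        have hjT : j ∈ T := hj.resolve_left hja
        rw [Function.update_self, Function.update_of_ne hja]
        rw [Set.disjoint_left]
        rintro x ⟨_, hx⟩ hxj
        exact hx (mem_iUnion₂.2 ⟨j, hjT, hxj⟩)
      · have hiT : i ∈ T := hi.resolve_left hia
        by_cases hja : j = a
        · subst hja
          rw [Function.update_self, Function.update_of_ne hia]
          rw [Set.disjoint_left]
          rintro x hxi ⟨_, hx⟩
          exact hx (mem_iUnion₂.2 ⟨i, hiT, hxi⟩)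
        · rw [Function.update_of_ne hia, Function.update_of_ne hja]
          exact h3 i hiT j (hj.resolve_left hja) hij
    · intro x hx
      by_cases hxT : x ∈ ⋃ i ∈ T, P i
      · obtain ⟨i, hi, hxi⟩ := mem_iUnion₂.1 hxT
        refine mem_iUnion₂.2 ⟨i, Finset.mem_insert_of_mem hi, ?_⟩
        have hne : i ≠ a := by
          rintro rfl
          exact ha hi
        rw [Function.update_of_ne hne]
        exact hxi
      · have hxa : x ∈ U a := by
          obtain ⟨i, hi, hxi⟩ := mem_iUnion₂.1 hx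
          rcases Finset.mem_insert.1 hi with rfl | hi
          · exact hxi
          · exact absurd (h4 (mem_iUnion₂.2 ⟨i, hi, hxi⟩)) hxT
        refine mem_iUnion₂.2 ⟨a, Finset.mem_insert_self _ _, ?_⟩
        rw [Function.update_self]
        exact ⟨hxa, hxT⟩

section Main

variable {M : Type u} [MetricSpace M] [ChartedSpace (Eu m) M] [MeasurableSpace M] [BorelSpace M]

/-- the tube over a piece. -/
def tb (F : M → Eu (m + 2)) (x₀ : M) (r η σ : ℝ) (P : Set M) : Set (Eu (m + 2)) :=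
  tube (loc F x₀) '' (crd x₀ r P ×ˢ (Ioo (1 - σ) (1 + η) ×ˢ Ioo (-σ) σ))

theorem measurableSet_tb {F : M → Eu (m + 2)} {x₀ : M} {r η σ : ℝ} (hη : η ≤ r) (hσ : σ ≤ r)
    (hgood : ∀ t ∈ Metric.ball (ctr x₀ : Eu m) r, GoodAt (loc F x₀) t)
    (hinj : InjOn (tube (loc F x₀))
      (Metric.ball (ctr x₀ : Eu m) r ×ˢ (Ioo (1 - r) (1 + r) ×ˢ Ioo (-r) r)))
    {P : Set M} (hP : MeasurableSet P) : MeasurableSet (tb F x₀ r η σ P) := by
  have hsub : crd x₀ r P ×ˢ (Ioo (1 - σ) (1 + η) ×ˢ Ioo (-σ) σ) ⊆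
      Metric.ball (ctr x₀ : Eu m) r ×ˢ (Ioo (1 - r) (1 + r) ×ˢ Ioo (-r) r) := by
    refine prod_mono (crd_subset (m := m) x₀ r P) (prod_mono (Ioo_subset_Ioo ?_ ?_)
      (Ioo_subset_Ioo ?_ hσ)) <;> linarith
  refine MeasurableSet.image_of_continuousOn_injOn
    ((measurableSet_crd (m := m) x₀ r hP).prod (measurableSet_Ioo.prod measurableSet_Ioo)) ?_
    (hinj.mono hsub)
  intro z hz
  exact (hgood z.1 (hsub hz).1).contDiffAt_tube.continuousAt.continuousWithinAt

omit [MeasurableSpace M] [BorelSpace M] in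
/-- points near the cone lie in the tubes over all preimages of their nearest point. -/
theorem mem_tb [Nonempty M] {F : M → Eu (m + 2)} (hF : Imm F) {q : Eu (m + 2)} {δ η : ℝ}
    (hδ : 0 < δ) (hδ2 : δ ≤ 1 / 2) (hσ1 : sg δ < 1) (hq1 : 1 ≤ ‖q‖) (hq2 : ‖q‖ < 1 + η)
    (hq : q ∈ Reg F δ) {ρ : ℝ} {x : M} (hρ : 0 ≤ ρ)
    (hmin : Metric.infDist q (cone F) = ‖q - ρ • F x‖) {x₀ : M} {r : ℝ} {P : Set M}
    (hxP : x ∈ P) (hx : x ∈ (chartAt (Eu m) x₀).source)
    (hxb : chartAt (Eu m) x₀ x ∈ Metric.ball (ctr x₀ : Eu m) r) :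
    q ∈ tb F x₀ r η (sg δ) P := by
  have hρ' : 0 < ρ := by
    rcases hρ.lt_or_eq with h | h
    · exact h
    · exfalso
      have h1 := hq.2
      rw [hmin, ← h, zero_smul, sub_zero] at h1
      nlinarith
  obtain ⟨s, h1, h2, h3⟩ := exists_normal_repr hF hρ' hmin x₀ hx
  have h4 : s ^ 2 < δ ^ 2 * (1 + s ^ 2) := by
    have h5 := hq.2
    rw [h3] at h5
    have h6 : (ρ * |s|) ^ 2 < (δ * ‖q‖) ^ 2 :=
      pow_lt_pow_left₀ h5 (by positivity) (by norm_num)
    rw [mul_pow, mul_pow, h2, sq_abs] at h6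
    have h7 : ρ ^ 2 * s ^ 2 < ρ ^ 2 * (δ ^ 2 * (1 + s ^ 2)) := by linarith
    exact lt_of_mul_lt_mul_left h7 (sq_nonneg ρ)
  have h5 := abs_lt_sg hδ hδ2 h4
  have h6 := one_sub_lt h5 hσ1 hρ' hq1 h2
  have h7 : ρ < 1 + η := by
    have : ρ ≤ ‖q‖ := by
      have h8 : ρ ^ 2 ≤ ‖q‖ ^ 2 := by rw [h2]; nlinarith [sq_nonneg (ρ * s)]
      exact le_of_sq_le_sq h8 (norm_nonneg _)
    linarith
  refine ⟨(chartAt (Eu m) x₀ x, ρ, s), ⟨⟨?_, hxb, ?_⟩, ⟨h6, h7⟩, ?_⟩, h1.symm⟩
  · exact (chartAt (Eu m) x₀).map_source hx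
  · rw [(chartAt (Eu m) x₀).left_inv hx]; exact hxP
  · exact abs_lt.1 h5

omit [MeasurableSpace M] [BorelSpace M] in
theorem covering [CompactSpace M] [Nonempty M] {F : M → Eu (m + 2)} (hF : Imm F)
    {Θ : Eu (m + 2) → ℝ≥0∞} {r : M → ℝ} {π : M → Eu (m + 2) →L[ℝ] Eu m}
    (hinj : ∀ x₀, InjOn (fun t => π x₀ (loc F x₀ t)) (Metric.ball (ctr x₀ : Eu m) (r x₀)))
    {T : Finset M} {P : M → Set M}
    (hPU : ∀ i, P i ⊆ (chartAt (Eu m) i).source ∩
      (chartAt (Eu m) i) ⁻¹' Metric.ball (ctr i) (r i))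
    (hcov : ∀ x : M, ∃ i ∈ T, x ∈ P i) {δ η : ℝ} (hδ : 0 < δ) (hδ2 : δ ≤ 1 / 2)
    (hσ1 : sg δ < 1) {q : Eu (m + 2)} (hq1 : 1 ≤ ‖q‖) (hq2 : ‖q‖ < 1 + η)
    (hq : q ∈ Reg F δ) :
    Θ q ≤ ∑ i ∈ T, ((tb F i (r i) η (sg δ) (P i ∩ (Mul F)ᶜ)).indicator Θ q +
      2⁻¹ * (tb F i (r i) η (sg δ) (P i ∩ Mul F)).indicator Θ q) := by
  classical
  obtain ⟨ρ, x, hρ, hmin⟩ := exists_nearest hF q
  obtain ⟨i, hiT, hxi⟩ := hcov x
  by_cases hxM : x ∈ Mul F
  · obtain ⟨x', hFx, hne⟩ := hxM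
    obtain ⟨j, hjT, hxj⟩ := hcov x'
    have hij : i ≠ j := by
      rintro rfl
      have hs := (hPU i hxi).1
      have hs' := (hPU i hxj).1
      have h1 := hinj i (hPU i hxi).2 (hPU i hxj).2 (by
        show π i (F ((chartAt (Eu m) i).symm (chartAt (Eu m) i x))) =
          π i (F ((chartAt (Eu m) i).symm (chartAt (Eu m) i x')))
        rw [(chartAt (Eu m) i).left_inv hs, (chartAt (Eu m) i).left_inv hs', hFx])
      exact hne ((chartAt (Eu m) i).injOn hs' hs h1.symm)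
    have hxM' : x ∈ Mul F := ⟨x', hFx, hne⟩
    have hxM'' : x' ∈ Mul F := ⟨x, hFx.symm, hne.symm⟩
    have hmin' : Metric.infDist q (cone F) = ‖q - ρ • F x'‖ := by rw [hFx]; exact hmin
    have hm1 : q ∈ tb F i (r i) η (sg δ) (P i ∩ Mul F) :=
      mem_tb hF hδ hδ2 hσ1 hq1 hq2 hq hρ hmin ⟨hxi, hxM'⟩ (hPU i hxi).1 (hPU i hxi).2
    have hm2 : q ∈ tb F j (r j) η (sg δ) (P j ∩ Mul F) :=
      mem_tb hF hδ hδ2 hσ1 hq1 hq2 hq hρ hmin' ⟨hxj, hxM''⟩ (hPU j hxj).1 (hPU j hxj).2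
    have hsub : ({i, j} : Finset M) ⊆ T := by
      intro k hk
      rcases Finset.mem_insert.1 hk with rfl | hk
      · exact hiT
      · rw [Finset.mem_singleton] at hk; rw [hk]; exact hjT
    refine le_trans ?_ (Finset.sum_le_sum_of_subset hsub)
    rw [Finset.sum_pair hij, indicator_of_mem hm1, indicator_of_mem hm2]
    calc Θ q = (2⁻¹ + 2⁻¹) * Θ q := by rw [ENNReal.inv_two_add_inv_two, one_mul]
      _ = 2⁻¹ * Θ q + 2⁻¹ * Θ q := add_mul _ _ _
      _ ≤ _ := add_le_add le_add_self le_add_self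
  · have hm1 : q ∈ tb F i (r i) η (sg δ) (P i ∩ (Mul F)ᶜ) :=
      mem_tb hF hδ hδ2 hσ1 hq1 hq2 hq hρ hmin ⟨hxi, hxM⟩ (hPU i hxi).1 (hPU i hxi).2
    refine le_trans ?_ (Finset.single_le_sum (fun k _ => zero_le) hiT)
    rw [indicator_of_mem hm1]
    exact le_self_add

end Main

theorem stJC (m : ℕ) : StJC.{u} m := by
  intro M _ _ _ _ _ _ F μ _ hF hμ c hc ζ h0 h1 hh hζ ε hε
  classical
  set V := (μ univ).toReal with hV
  have hV0 : 0 ≤ V := ENNReal.toReal_nonneg
  -- the Jacobian defect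
  obtain ⟨ε₁, hε₁, hε₁V⟩ : ∃ ε₁ : ℝ, 0 < ε₁ ∧ (1 + ε₁) * V ≤ V + ε / 4 := by
    refine ⟨ε / (4 * (V + 1)), by positivity, ?_⟩
    have : ε / (4 * (V + 1)) * V ≤ ε / 4 := by
      rw [div_mul_eq_mul_div, div_le_div_iff₀ (by positivity) (by norm_num)]
      nlinarith
    linarith
  have hev : ∀ x₀ : M, ∀ᶠ t in 𝓝 (ctr x₀ : Eu m), GoodAt (loc F x₀) t := by
    intro x₀
    have hmem : (ctr x₀ : Eu m) ∈ (chartAt (Eu m) x₀).target := mem_chart_target (Eu m) x₀
    filter_upwards [(chartAt (Eu m) x₀).open_target.mem_nhds hmem] with t ht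
    exact hF.goodAt x₀ ht
  choose π r hπ hr0 hr1 hgood hinj1 hinj2 hloc using fun x₀ : M => exists_local (hev x₀) hε₁
  let U : M → Set M := fun x₀ => (chartAt (Eu m) x₀).source ∩
    (chartAt (Eu m) x₀) ⁻¹' Metric.ball (ctr x₀ : Eu m) (r x₀)
  have hUo : ∀ x₀, IsOpen (U x₀) := fun x₀ =>
    (chartAt (Eu m) x₀).isOpen_inter_preimage Metric.isOpen_ball
  have hxU : ∀ x₀, x₀ ∈ U x₀ := fun x₀ =>
    ⟨mem_chart_source (Eu m) x₀, Metric.mem_ball_self (hr0 x₀)⟩
  obtain ⟨T, hT⟩ := isCompact_univ.elim_finite_subcover U hUo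
    (fun x _ => mem_iUnion.2 ⟨x, hxU x⟩)
  obtain ⟨P, hPm, hPU, hPd, hPc⟩ := exists_disjoint_cover hUo T
  have hcov : ∀ x : M, ∃ i ∈ T, x ∈ P i := by
    intro x
    obtain ⟨i, hi, hxi⟩ := mem_iUnion₂.1 (hPc (hT (mem_univ x)))
    exact ⟨i, hi, hxi⟩
  set N : ℝ := (T.card : ℝ) with hN
  obtain ⟨ε₂, hε₂, hε₂N⟩ : ∃ ε₂ : ℝ, 0 < ε₂ ∧ (1 + ε₁) * (N * ε₂) ≤ ε / 4 := by
    have hN0 : 0 ≤ N := Nat.cast_nonneg _
    refine ⟨ε / (4 * ((1 + ε₁) * (N + 1))), by positivity, ?_⟩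
    rw [← mul_assoc, mul_div_assoc', div_le_div_iff₀ (by positivity) (by norm_num)]
    nlinarith [mul_nonneg (mul_nonneg (by linarith : (0:ℝ) ≤ 1 + ε₁) hN0) hε.le,
      mul_nonneg (by linarith : (0:ℝ) ≤ 1 + ε₁) hε.le]
  -- the weight
  set Θ := Th F c ζ with hΘ
  have hΘm : Measurable Θ := measurable_Th hF hc hζ
  have hΘ1 : ∀ q, Θ q ≤ 1 := Th_le_one F c h0 h1
  have hΘh : ∀ l : ℝ, 0 < l → ∀ q, Θ (l • q) = Θ q := fun l hl q => Th_smul hc hh l hl q
  have hMulm : MeasurableSet (Mul F) := (isClosed_Mul hF).measurableSet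
  have hJ1 : ∀ i : M, ∀ S : Set M, MeasurableSet S →
      ∫⁻ t in crd i (r i) S, jac (π i) (loc F i) t ≤ μ S := fun i S hS =>
    lintegral_jac_le hμ (hπ i) (hgood i) (hinj1 i) hS
  -- eventually in `σ`
  have hE : ∀ᶠ σ in 𝓝[>] (0:ℝ), ∀ i ∈ T,
      ∫⁻ t in crd i (r i) (P i ∩ (Mul F)ᶜ), jac (π i) (loc F i) t * lineInt (loc F i) Θ σ t ≤
        ENNReal.ofReal σ * ((∫⁻ t in crd i (r i) (P i ∩ (Mul F)ᶜ), jac (π i) (loc F i) t) +
          ENNReal.ofReal ε₂) := by
    rw [Filter.eventually_all_finset]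
    intro i hi
    refine eventually_piece (hgood i) (crd_subset _ _ _)
      (measurableSet_crd _ _ ((hPm i).inter hMulm.compl)) hΘm hΘ1 ?_ ?_ hε₂
    · exact ne_top_of_le_ne_top (measure_ne_top μ _) (hJ1 i _ ((hPm i).inter hMulm.compl))
    · rintro t ⟨ht, htb, htP, htM⟩ ε' hε'
      set x := (chartAt (Eu m) i).symm t with hx
      have hxs : x ∈ (chartAt (Eu m) i).source := (chartAt (Eu m) i).map_target ht
      have htx : chartAt (Eu m) i x = t := (chartAt (Eu m) i).right_inv ht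
      have hft : loc F i t = F x := rfl
      have huniq : ∀ x', F x' = F x → x' = x := by
        intro x' hx'
        by_contra hne
        exact htM ⟨x', hx', hne⟩
      have hnorm := isNormal_nrm hF i x hxs
      rw [htx] at hnorm
      rw [hft]
      exact Th_flip hF hc h0 h1 hζ huniq hnorm hε'
  -- thickness of the shell
  obtain ⟨η, hη, hηr⟩ : ∃ η : ℝ, 0 < η ∧ ∀ i ∈ T, η ≤ r i := by
    have h2 : ∀ᶠ η in 𝓝[>] (0:ℝ), ∀ i ∈ T, η ≤ r i := by
      rw [Filter.eventually_all_finset]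
      intro i hi
      have : Iic (r i) ∈ 𝓝 (0:ℝ) := Iic_mem_nhds (hr0 i)
      exact mem_nhdsWithin_of_mem_nhds this
    obtain ⟨η, h3, h4⟩ := (h2.and self_mem_nhdsWithin).exists
    exact ⟨η, h4, h3⟩
  -- limit of the elementary bound
  have hsg : Tendsto sg (𝓝[>] (0:ℝ)) (𝓝[>] (0:ℝ)) := by
    refine tendsto_nhdsWithin_iff.2 ⟨?_, ?_⟩
    · have : Continuous sg := by unfold sg; fun_prop
      have h2 := (this.tendsto 0).mono_left (nhdsWithin_le_nhds (s := Ioi (0:ℝ)))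
      simpa [sg] using h2
    · filter_upwards [self_mem_nhdsWithin] with δ hδ
      exact sg_pos hδ
  have hlimb : ∀ᶠ δ in 𝓝[>] (0:ℝ),
      (1 + ε₁) * (1 + sg δ / η) * (1 + δ) * (V + N * ε₂) < V + ε := by
    have h2 : Continuous fun δ : ℝ =>
        (1 + ε₁) * (1 + sg δ / η) * (1 + δ) * (V + N * ε₂) := by
      unfold sg; fun_prop
    have h3 : (1 + ε₁) * (1 + sg 0 / η) * (1 + 0) * (V + N * ε₂) < V + ε := by
      simp only [sg, zero_mul, zero_div, add_zero, mul_one]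
      nlinarith
    have h4 := (h2.tendsto 0).eventually (gt_mem_nhds h3)
    exact h4.filter_mono nhdsWithin_le_nhds
  have hsm : ∀ᶠ δ in 𝓝[>] (0:ℝ), δ ≤ 1 / 2 := by
    have : Iic (1 / 2 : ℝ) ∈ 𝓝 (0:ℝ) := Iic_mem_nhds (by norm_num)
    exact mem_nhdsWithin_of_mem_nhds this
  have hsm2 : ∀ᶠ δ in 𝓝[>] (0:ℝ), sg δ ≤ η := by
    have : Iic η ∈ 𝓝 (0:ℝ) := Iic_mem_nhds hη
    exact hsg.eventually (mem_nhdsWithin_of_mem_nhds this)
  filter_upwards [hsg.eventually hE, hlimb, hsm, hsm2, self_mem_nhdsWithin]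
    with δ hEδ hb hδ2 hση hδ0
  have hδ : (0:ℝ) < δ := hδ0
  have hσ0 := sg_pos hδ
  have hσ1 : sg δ < 1 := by
    obtain ⟨i, hi, -⟩ := hcov (Classical.arbitrary M)
    exact lt_of_le_of_lt (hση.trans (hηr i hi)) (hr1 i)
  -- the weight restricted to the region
  set G := (Reg F δ).indicator Θ with hG
  have hGm : Measurable G := hΘm.indicator (measurableSet_Reg F δ)
  have hGh : ∀ a : ℝ, 0 < a → ∀ q, G (a • q) = G q := by
    intro a ha q
    by_cases hq : q ∈ Reg F δ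
    · rw [hG, indicator_of_mem hq, indicator_of_mem ((smul_mem_Reg F δ ha q).2 hq), hΘh a ha]
    · rw [hG, indicator_of_notMem hq,
        indicator_of_notMem fun h => hq ((smul_mem_Reg F δ ha q).1 h)]
  have hG1 : ∀ q, G q ≤ 1 := by
    intro q
    by_cases hq : q ∈ Reg F δ
    · rw [hG, indicator_of_mem hq]; exact hΘ1 q
    · rw [hG, indicator_of_notMem hq]; exact zero_le_one
  have hshell := ball_le_shell hGm hGh hG1 hη
  -- bound of the shell integral
  have hm1 : ∀ i ∈ T, MeasurableSet (tb F i (r i) η (sg δ) (P i ∩ (Mul F)ᶜ)) := fun i hi =>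
    measurableSet_tb (hηr i hi) (hση.trans (hηr i hi)) (hgood i) (hinj2 i)
      ((hPm i).inter hMulm.compl)
  have hm2 : ∀ i ∈ T, MeasurableSet (tb F i (r i) η (sg δ) (P i ∩ Mul F)) := fun i hi =>
    measurableSet_tb (hηr i hi) (hση.trans (hηr i hi)) (hgood i) (hinj2 i)
      ((hPm i).inter hMulm)
  have hK : ∫⁻ q in {q : Eu (m + 2) | 1 ≤ ‖q‖ ∧ ‖q‖ < 1 + η}, G q ≤
      ENNReal.ofReal ((1 + ε₁) * (η + sg δ) * sg δ * (V + N * ε₂)) := by
    have s1 : ∫⁻ q in {q : Eu (m + 2) | 1 ≤ ‖q‖ ∧ ‖q‖ < 1 + η}, G q ≤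
        ∫⁻ q, ∑ i ∈ T, ((tb F i (r i) η (sg δ) (P i ∩ (Mul F)ᶜ)).indicator Θ q +
          2⁻¹ * (tb F i (r i) η (sg δ) (P i ∩ Mul F)).indicator Θ q) := by
      have hms : MeasurableSet {q : Eu (m + 2) | 1 ≤ ‖q‖ ∧ ‖q‖ < 1 + η} :=
        (measurableSet_le measurable_const measurable_norm).inter
          (measurableSet_lt measurable_norm measurable_const)
      rw [← lintegral_indicator hms]
      refine lintegral_mono fun q => ?_
      by_cases hq : q ∈ {q : Eu (m + 2) | 1 ≤ ‖q‖ ∧ ‖q‖ < 1 + η}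
      · rw [indicator_of_mem hq]
        by_cases hqR : q ∈ Reg F δ
        · rw [hG, indicator_of_mem hqR]
          exact covering hF hinj1 hPU hcov hδ hδ2 hσ1 hq.1 hq.2 hqR
        · rw [hG, indicator_of_notMem hqR]
          exact bot_le
      · rw [indicator_of_notMem hq]
        exact bot_le
    have s2 : ∀ i ∈ T, (∫⁻ q, ((tb F i (r i) η (sg δ) (P i ∩ (Mul F)ᶜ)).indicator Θ q +
          2⁻¹ * (tb F i (r i) η (sg δ) (P i ∩ Mul F)).indicator Θ q)) ≤
        ENNReal.ofReal ((1 + ε₁) * (η + sg δ) * sg δ) * (μ (P i) + ENNReal.ofReal ε₂) := by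
      intro i hi
      rw [lintegral_add_left (hΘm.indicator (hm1 i hi)), lintegral_indicator (hm1 i hi),
        lintegral_const_mul _ (hΘm.indicator (hm2 i hi)), lintegral_indicator (hm2 i hi)]
      have hηi := hηr i hi
      have hσi := hση.trans hηi
      have p1 := piece_bound (hr1 i) (hgood i) (hloc i)
        (crd_subset (m := m) i (r i) (P i ∩ (Mul F)ᶜ))
        (measurableSet_crd (m := m) i (r i) ((hPm i).inter hMulm.compl)) hΘm hΘh
        (a := 1 - sg δ) (b := 1 + η) (σ := sg δ) (by linarith) (by linarith) hσi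
      have p2 := piece_bound (hr1 i) (hgood i) (hloc i)
        (crd_subset (m := m) i (r i) (P i ∩ Mul F))
        (measurableSet_crd (m := m) i (r i) ((hPm i).inter hMulm)) hΘm hΘh
        (a := 1 - sg δ) (b := 1 + η) (σ := sg δ) (by linarith) (by linarith) hσi
      have e1 : (1 + η) - (1 - sg δ) = η + sg δ := by ring
      rw [e1] at p1 p2
      have q1 : ∫⁻ q in tb F i (r i) η (sg δ) (P i ∩ (Mul F)ᶜ), Θ q ≤
          ENNReal.ofReal ((1 + ε₁) * (η + sg δ) * sg δ) *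
            (μ (P i ∩ (Mul F)ᶜ) + ENNReal.ofReal ε₂) := by
        refine p1.trans ?_
        rw [ENNReal.ofReal_mul (by positivity), ENNReal.ofReal_mul (by positivity), mul_assoc,
          mul_assoc]
        gcongr
        refine (hEδ i hi).trans ?_
        gcongr
        exact hJ1 i _ ((hPm i).inter hMulm.compl)
      have q2 : 2⁻¹ * ∫⁻ q in tb F i (r i) η (sg δ) (P i ∩ Mul F), Θ q ≤
          ENNReal.ofReal ((1 + ε₁) * (η + sg δ) * sg δ) * μ (P i ∩ Mul F) := by
        have q3 : ∫⁻ t in crd i (r i) (P i ∩ Mul F),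
            jac (π i) (loc F i) t * lineInt (loc F i) Θ (sg δ) t ≤
            (2 * ENNReal.ofReal (sg δ)) * μ (P i ∩ Mul F) := by
          calc _ ≤ ∫⁻ t in crd i (r i) (P i ∩ Mul F),
                jac (π i) (loc F i) t * ENNReal.ofReal (2 * sg δ) := by
                refine lintegral_mono fun t => ?_
                gcongr
                exact lineInt_le hΘ1 _ _
            _ = ENNReal.ofReal (2 * sg δ) *
                ∫⁻ t in crd i (r i) (P i ∩ Mul F), jac (π i) (loc F i) t := by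
                rw [lintegral_mul_const' _ _ ENNReal.ofReal_ne_top, mul_comm]
            _ ≤ _ := by
                rw [ENNReal.ofReal_mul (by norm_num)]
                have : ENNReal.ofReal 2 = 2 := by norm_num
                rw [this]
                gcongr
                exact hJ1 i _ ((hPm i).inter hMulm)
        calc 2⁻¹ * ∫⁻ q in tb F i (r i) η (sg δ) (P i ∩ Mul F), Θ q
            ≤ 2⁻¹ * (ENNReal.ofReal (1 + ε₁) * (ENNReal.ofReal (η + sg δ) *
                ((2 * ENNReal.ofReal (sg δ)) * μ (P i ∩ Mul F)))) := by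
              gcongr
              exact p2.trans (by gcongr)
          _ = (2⁻¹ * 2) * (ENNReal.ofReal ((1 + ε₁) * (η + sg δ) * sg δ) *
                μ (P i ∩ Mul F)) := by
              rw [ENNReal.ofReal_mul (by positivity), ENNReal.ofReal_mul (by positivity)]
              ring
          _ = _ := by
              rw [ENNReal.inv_mul_cancel (by norm_num) (by norm_num), one_mul]
      calc _ ≤ ENNReal.ofReal ((1 + ε₁) * (η + sg δ) * sg δ) *
            (μ (P i ∩ (Mul F)ᶜ) + ENNReal.ofReal ε₂) +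
            ENNReal.ofReal ((1 + ε₁) * (η + sg δ) * sg δ) * μ (P i ∩ Mul F) :=
            add_le_add q1 q2
        _ = ENNReal.ofReal ((1 + ε₁) * (η + sg δ) * sg δ) *
            ((μ (P i ∩ Mul F) + μ (P i ∩ (Mul F)ᶜ)) + ENNReal.ofReal ε₂) := by ring
        _ = _ := by
            have : μ (P i ∩ Mul F) + μ (P i ∩ (Mul F)ᶜ) = μ (P i) := by
              rw [← Set.sdiff_eq_compl_inter.trans (Set.inter_comm _ _)]
              exact measure_inter_add_sdiff _ hMulm
            rw [this]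
    have s3 : ∑ i ∈ T, (μ (P i) + ENNReal.ofReal ε₂) ≤ ENNReal.ofReal (V + N * ε₂) := by
      rw [Finset.sum_add_distrib, ENNReal.ofReal_add hV0 (by positivity)]
      refine add_le_add ?_ ?_
      · rw [← measure_biUnion_finset (fun i hi j hj hij => hPd i hi j hj hij)
          (fun i _ => hPm i), hV, ENNReal.ofReal_toReal (measure_ne_top μ _)]
        exact measure_mono (subset_univ _)
      · rw [Finset.sum_const, nsmul_eq_mul, hN, ENNReal.ofReal_mul (Nat.cast_nonneg _),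
          ENNReal.ofReal_natCast]
    calc _ ≤ _ := s1
      _ = ∑ i ∈ T, ∫⁻ q, ((tb F i (r i) η (sg δ) (P i ∩ (Mul F)ᶜ)).indicator Θ q +
          2⁻¹ * (tb F i (r i) η (sg δ) (P i ∩ Mul F)).indicator Θ q) :=
          lintegral_finsetSum' _ fun i hi =>
            ((hΘm.indicator (hm1 i hi)).add
              ((hΘm.indicator (hm2 i hi)).const_mul _)).aemeasurable
      _ ≤ ∑ i ∈ T, ENNReal.ofReal ((1 + ε₁) * (η + sg δ) * sg δ) *
          (μ (P i) + ENNReal.ofReal ε₂) := Finset.sum_le_sum s2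
      _ = ENNReal.ofReal ((1 + ε₁) * (η + sg δ) * sg δ) *
          ∑ i ∈ T, (μ (P i) + ENNReal.ofReal ε₂) := by rw [Finset.mul_sum]
      _ ≤ ENNReal.ofReal ((1 + ε₁) * (η + sg δ) * sg δ) * ENNReal.ofReal (V + N * ε₂) := by
          gcongr
      _ = _ := by rw [← ENNReal.ofReal_mul (by positivity)]
  -- conversion to real integrals
  set I := ∫⁻ q in Metric.ball (0 : Eu (m + 2)) 1, G q with hI
  have hIfin : I ≠ ⊤ := by
    refine ne_of_lt (lt_of_le_of_lt (lintegral_mono hG1) ?_)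
    rw [setLIntegral_const, one_mul]
    exact measure_ball_lt_top
  have hreal : ((m:ℝ) + 2) * η * I.toReal ≤ (1 + ε₁) * (η + sg δ) * sg δ * (V + N * ε₂) := by
    have h2 := hshell.trans hK
    rw [← ENNReal.ofReal_toReal hIfin, ← ENNReal.ofReal_mul (by positivity)] at h2
    rwa [ENNReal.ofReal_le_ofReal_iff (by positivity)] at h2
  have hint : ∫ q in {q : Eu (m + 2) | ‖q‖ < 1 ∧ 0 < Metric.infDist q (cone F) ∧
            Metric.infDist q (cone F) < δ * ‖q‖},
          (if 0 < c q then 1 - ζ q else ζ q) = I.toReal := by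
    have hset : {q : Eu (m + 2) | ‖q‖ < 1 ∧ 0 < Metric.infDist q (cone F) ∧
            Metric.infDist q (cone F) < δ * ‖q‖} = Metric.ball 0 1 ∩ Reg F δ := by
      ext q
      simp only [Reg, mem_inter_iff, mem_ball_zero_iff, mem_ofPred_eq]
    have hms : MeasurableSet (Metric.ball (0 : Eu (m + 2)) 1 ∩ Reg F δ) :=
      measurableSet_ball.inter (measurableSet_Reg F δ)
    have hI2 : I = ∫⁻ q in Metric.ball (0 : Eu (m + 2)) 1 ∩ Reg F δ, Θ q := by
      rw [hI, hG, setLIntegral_indicator (measurableSet_Reg F δ), inter_comm]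
    rw [hset, hI2, ← integral_toReal hΘm.aemeasurable
      (ae_of_all _ fun q => lt_of_le_of_lt (hΘ1 q) (by norm_num))]
    refine setIntegral_congr_fun hms ?_
    rintro q ⟨_, hq, _⟩
    have hqc : q ∉ cone F := by
      intro hcon
      rw [Metric.infDist_zero_of_mem hcon] at hq
      exact lt_irrefl _ hq
    simp only [hΘ, Th, if_neg hqc]
    rw [ENNReal.toReal_ofReal]
    split_ifs
    · linarith [h1 q]
    · exact h0 q
  rw [hint]
  have hfin : ((m:ℝ) + 2) * I.toReal ≤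
      δ * ((1 + ε₁) * (1 + sg δ / η) * (1 + δ) * (V + N * ε₂)) := by
    have h2 : ((m:ℝ) + 2) * I.toReal * η ≤
        δ * ((1 + ε₁) * (1 + sg δ / η) * (1 + δ) * (V + N * ε₂)) * η := by
      have h3 : δ * ((1 + ε₁) * (1 + sg δ / η) * (1 + δ) * (V + N * ε₂)) * η =
          (1 + ε₁) * (η + sg δ) * sg δ * (V + N * ε₂) := by
        unfold sg
        field_simp
      rw [h3]
      linarith
    exact le_of_mul_le_mul_right h2 hη
  refine hfin.trans ?_
  exact mul_le_mul_of_nonneg_left hb.le hδ.le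

end Crest.Agent.R246.J816
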