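import Crest.Agent.R246.J0_816
import Mathlib.Analysis.SpecialFunctions.ExpDeriv
import Mathlib.Analysis.Calculus.Deriv.MeanValue
import Mathlib.Analysis.Calculus.MeanValue
import Mathlib.Analysis.InnerProductSpace.Calculus
import Mathlib.Analysis.Normed.Module.FiniteDimension
import Mathlib.Topology.MetricSpace.Thickening
import Mathlib.Analysis.InnerProductSpace.PiL2

/-!
# Row 246, part JD (Frankel property by a barrier)

A closed connected immersed minimal hypersurface of the sphere which is not contained in a great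
hypersphere meets every open hemisphere.
-/

set_option autoImplicit false

open scoped ContDiff Topology
open Filter Set Crest.Agent.R246.J816

noncomputable section

namespace Crest.Agent.R246.JD480

universe u

/-- second derivative test. -/
theorem second_deriv_nonpos {ψ ψ' : ℝ → ℝ} {d : ℝ}
    (h1 : ∀ᶠ s in 𝓝 (0 : ℝ), HasDerivAt ψ (ψ' s) s) (h2 : HasDerivAt ψ' d 0)
    (hmax : IsLocalMax ψ 0) : d ≤ 0 := by
  by_contra hd
  push Not at hd
  have h0 : ψ' 0 = 0 := hmax.hasDerivAt_eq_zero h1.self_of_nhds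
  have h3 : ∀ᶠ s in 𝓝[>] (0 : ℝ), 0 < ψ' s := by
    have h4 : Tendsto (slope ψ' 0) (𝓝[≠] 0) (𝓝 d) := hasDerivAt_iff_tendsto_slope.1 h2
    have h5 : ∀ᶠ s in 𝓝[≠] (0 : ℝ), 0 < slope ψ' 0 s := h4.eventually (lt_mem_nhds hd)
    have h6 : ∀ᶠ s in 𝓝[>] (0 : ℝ), 0 < slope ψ' 0 s :=
      h5.filter_mono (nhdsWithin_mono _ fun s hs => ne_of_gt hs)
    filter_upwards [h6, self_mem_nhdsWithin] with s hs hs0
    rw [slope_def_field, h0, sub_zero, sub_zero] at hs
    have : 0 < s := hs0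
    have h7 := mul_pos hs this
    rwa [div_mul_cancel₀ _ this.ne'] at h7
  have h8 : ∀ᶠ s in 𝓝[>] (0 : ℝ), HasDerivAt ψ (ψ' s) s := h1.filter_mono nhdsWithin_le_nhds
  have h9 : ∀ᶠ s in 𝓝[>] (0 : ℝ), ψ s ≤ ψ 0 := hmax.filter_mono nhdsWithin_le_nhds
  obtain ⟨δ, hδ, hall⟩ := (mem_nhdsGT_iff_exists_Ioo_subset.1 ((h3.and (h8.and h9))))
  have hδ' : (0 : ℝ) < δ := hδ
  have hm : StrictMonoOn ψ (Icc 0 (δ / 2)) := by
    apply strictMonoOn_of_deriv_pos (convex_Icc _ _)
    · intro s hs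
      rcases eq_or_lt_of_le hs.1 with h | h
      · rw [← h]
        exact h1.self_of_nhds.continuousAt.continuousWithinAt
      · exact (hall ⟨h, by linarith [hs.2]⟩).2.1.continuousAt.continuousWithinAt
    · intro s hs
      rw [interior_Icc] at hs
      have h10 := hall ⟨hs.1, by linarith [hs.2]⟩
      rw [h10.2.1.deriv]
      exact h10.1
  have h11 := hm (left_mem_Icc.2 (by linarith)) (right_mem_Icc.2 (by linarith))
    (by linarith : (0 : ℝ) < δ / 2)
  have h12 := (hall ⟨by linarith, by linarith⟩ : (δ / 2) ∈ _).2.2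
  linarith

section Curve

variable {E : Type*} [NormedAddCommGroup E] [InnerProductSpace ℝ E]

/-- the barrier function along a curve: first derivative. -/
theorem barrier_deriv {c c1 : ℝ → E} {s : ℝ} (hc : HasDerivAt c (c1 s) s) (e p : E) (ε α : ℝ) :
    HasDerivAt (fun s => inner ℝ (c s) e + ε * Real.exp (-α * ‖c s - p‖ ^ 2))
      (inner ℝ (c1 s) e +
        ε * (Real.exp (-α * ‖c s - p‖ ^ 2) * (-α * (2 * inner ℝ (c s - p) (c1 s))))) s := by
  have h1 : HasDerivAt (fun s => inner ℝ (c s) e) (inner ℝ (c1 s) e) s := by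
    have := hc.inner ℝ (hasDerivAt_const s e)
    simpa using this
  have h2 : HasDerivAt (fun s => ‖c s - p‖ ^ 2) (2 * inner ℝ (c s - p) (c1 s)) s := by
    have := (hc.sub_const p).norm_sq
    simpa using this
  exact h1.add (((h2.const_mul (-α)).exp).const_mul ε)

/-- the barrier function along a curve: second derivative at `0`. -/
theorem barrier_deriv2 {c c1 : ℝ → E} {c2 : E} (hc : HasDerivAt c (c1 0) 0)
    (hc1 : HasDerivAt c1 c2 0) (e p : E) (ε α : ℝ) :
    HasDerivAt (fun s => inner ℝ (c1 s) e +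
        ε * (Real.exp (-α * ‖c s - p‖ ^ 2) * (-α * (2 * inner ℝ (c s - p) (c1 s)))))
      (inner ℝ c2 e + ε * Real.exp (-α * ‖c 0 - p‖ ^ 2) *
        (4 * α ^ 2 * inner ℝ (c 0 - p) (c1 0) ^ 2
          - 2 * α * (‖c1 0‖ ^ 2 + inner ℝ (c 0 - p) c2))) 0 := by
  have h1 : HasDerivAt (fun s => inner ℝ (c1 s) e) (inner ℝ c2 e) 0 := by
    have := hc1.inner ℝ (hasDerivAt_const (0 : ℝ) e)
    simpa using this
  have h2 : HasDerivAt (fun s => ‖c s - p‖ ^ 2) (2 * inner ℝ (c 0 - p) (c1 0)) 0 := by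
    have := (hc.sub_const p).norm_sq
    simpa using this
  have h3 : HasDerivAt (fun s => inner ℝ (c s - p) (c1 s))
      (inner ℝ (c 0 - p) c2 + inner ℝ (c1 0) (c1 0)) 0 := (hc.sub_const p).inner ℝ hc1
  have h4 := (h2.const_mul (-α)).exp
  have h5 := (h3.const_mul 2).const_mul (-α)
  have h6 := h1.add ((h4.mul h5).const_mul ε)
  rw [real_inner_self_eq_norm_sq] at h6
  have h7 : inner ℝ c2 e + ε * (Real.exp (-α * ‖c 0 - p‖ ^ 2) * (-α * (2 * inner ℝ (c 0 - p) (c1 0)))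
        * (-α * (2 * inner ℝ (c 0 - p) (c1 0))) + Real.exp (-α * ‖c 0 - p‖ ^ 2) *
          (-α * (2 * (inner ℝ (c 0 - p) c2 + ‖c1 0‖ ^ 2))))
      = (inner ℝ c2 e + ε * Real.exp (-α * ‖c 0 - p‖ ^ 2) *
        (4 * α ^ 2 * inner ℝ (c 0 - p) (c1 0) ^ 2
          - 2 * α * (‖c1 0‖ ^ 2 + inner ℝ (c 0 - p) c2))) := by ring
  rw [← h7]
  exact h6

end Curve

section Tangent

variable {m : ℕ} {M : Type*} [TopologicalSpace M] [ChartedSpace (Eu m) M]

theorem loc_ctr {F : M → Eu (m + 2)} (x : M) : loc F x (ctr x) = F x := by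
  simp [loc, ctr]

theorem ctr_mem (x : M) : ctr x ∈ (chartAt (Eu m) x).target := by
  simp [ctr]

theorem diff_at {F : M → Eu (m + 2)} (hF : Imm F) (x : M) {y : Eu m}
    (hy : y ∈ (chartAt (Eu m) x).target) : DifferentiableAt ℝ (loc F x) y :=
  (hF.smooth x y hy).differentiableAt (by norm_num)

theorem diff_fderiv_at {F : M → Eu (m + 2)} (hF : Imm F) (x : M) {y : Eu m}
    (hy : y ∈ (chartAt (Eu m) x).target) : DifferentiableAt ℝ (fderiv ℝ (loc F x)) y :=
  ((hF.smooth x y hy).fderiv_right (m := 1) (by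
    have : (1 : WithTop ℕ∞) + 1 = ((2 : ℕ∞) : WithTop ℕ∞) := by norm_num
    rw [this]
    exact_mod_cast le_top)).differentiableAt (by norm_num)

/-- the specialised maximum principle at one point. -/
theorem maxp {F : M → Eu (m + 2)} (hF : Imm F) {x : M} (hmin : MinAt F x)
    {e p : Eu (m + 2)} {ε α : ℝ}
    (hloc : IsLocalMax (fun x' => inner ℝ (F x') e + ε * Real.exp (-α * ‖F x' - p‖ ^ 2)) x) :
    ∃ w : Fin m → Eu (m + 2), Orthonormal ℝ w ∧
      (∀ k, w k ∈ LinearMap.range (fderiv ℝ (loc F x) (ctr x)).toLinearMap) ∧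
      -(m : ℝ) * inner ℝ (F x) e + ε * Real.exp (-α * ‖F x - p‖ ^ 2) *
        (4 * α ^ 2 * ∑ k, inner ℝ (F x - p) (w k) ^ 2 - 2 * α * m
          + 2 * α * m * inner ℝ (F x - p) (F x)) ≤ 0 := by
  obtain ⟨ξ, b, hon, hsum⟩ := hmin
  set f : Eu m → Eu (m + 2) := loc F x with hf
  set t0 : Eu m := ctr (m := m) x with ht0
  have hft0 : f t0 = F x := loc_ctr x
  -- local max in the chart
  have hmax : IsLocalMax (fun t => inner ℝ (f t) e + ε * Real.exp (-α * ‖f t - p‖ ^ 2)) t0 := by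
    have hc : ContinuousAt (chartAt (Eu m) x).symm t0 :=
      (chartAt (Eu m) x).continuousAt_symm (ctr_mem x)
    have hx : (chartAt (Eu m) x).symm t0 = x := by simp [ht0, ctr]
    have h1 : Tendsto (chartAt (Eu m) x).symm (𝓝 t0) (𝓝 x) := by
      have := hc.tendsto
      rwa [hx] at this
    have h2 := h1.eventually hloc
    filter_upwards [h2] with t ht
    simp only [hft0]
    exact ht
  -- restriction to lines
  have hline : ∀ ξ : Eu m, ∀ s : ℝ, HasDerivAt (fun s : ℝ => t0 + s • ξ) ξ s := by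
    intro ξ s
    have := ((hasDerivAt_id s).smul_const ξ).const_add t0
    simpa using this
  have hlcont : ∀ ξ : Eu m, Tendsto (fun s : ℝ => t0 + s • ξ) (𝓝 0) (𝓝 t0) := by
    intro ξ
    have h := (hline ξ 0).continuousAt.tendsto
    simpa using h
  have hder : ∀ ξ : Eu m, ∀ᶠ s in 𝓝 (0 : ℝ),
      HasDerivAt (fun s : ℝ => f (t0 + s • ξ)) (fderiv ℝ f (t0 + s • ξ) ξ) s := by
    intro ξ
    have h1 : ∀ᶠ s in 𝓝 (0 : ℝ), t0 + s • ξ ∈ (chartAt (Eu m) x).target :=
      (hlcont ξ).eventually ((chartAt (Eu m) x).open_target.mem_nhds (ctr_mem x))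
    filter_upwards [h1] with s hs
    exact (diff_at hF x hs).hasFDerivAt.comp_hasDerivAt s (hline ξ s)
  have hder0 : ∀ ξ : Eu m, HasDerivAt (fun s : ℝ => f (t0 + s • ξ)) (fderiv ℝ f t0 ξ) 0 := by
    intro ξ
    have := (hder ξ).self_of_nhds
    simpa using this
  have hder2 : ∀ ξ : Eu m, HasDerivAt (fun s : ℝ => fderiv ℝ f (t0 + s • ξ) ξ)
      (fderiv ℝ (fderiv ℝ f) t0 ξ ξ) 0 := by
    intro ξ
    have h1 : HasFDerivAt (fderiv ℝ f) (fderiv ℝ (fderiv ℝ f) t0) (t0 + (0 : ℝ) • ξ) := by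
      rw [zero_smul, add_zero]
      exact (diff_fderiv_at hF x (ctr_mem x)).hasFDerivAt
    have h2 := h1.comp_hasDerivAt (0 : ℝ) (hline ξ 0)
    have h3 := h2.clm_apply (hasDerivAt_const (0 : ℝ) ξ)
    simpa [Function.comp_def] using h3
  have hmaxl : ∀ ξ : Eu m, IsLocalMax
      (fun s : ℝ => inner ℝ (f (t0 + s • ξ)) e
        + ε * Real.exp (-α * ‖f (t0 + s • ξ) - p‖ ^ 2)) 0 := by
    intro ξ
    have h2 := (hlcont ξ).eventually hmax
    filter_upwards [h2] with s hs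
    simpa using hs
  -- first order condition
  have hfirst : ∀ ξ : Eu m, inner ℝ (fderiv ℝ f t0 ξ) e +
      ε * (Real.exp (-α * ‖F x - p‖ ^ 2) * (-α * (2 * inner ℝ (F x - p) (fderiv ℝ f t0 ξ))))
        = 0 := by
    intro ξ
    have h1 := barrier_deriv (c := fun s : ℝ => f (t0 + s • ξ))
      (c1 := fun _ => fderiv ℝ f t0 ξ) (hder0 ξ) e p ε α
    have h2 := (hmaxl ξ).hasDerivAt_eq_zero h1
    simpa [hft0] using h2
  -- second order condition
  have hsecond : ∀ ξ : Eu m, inner ℝ (fderiv ℝ (fderiv ℝ f) t0 ξ ξ) e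
      + ε * Real.exp (-α * ‖F x - p‖ ^ 2) *
        (4 * α ^ 2 * inner ℝ (F x - p) (fderiv ℝ f t0 ξ) ^ 2
          - 2 * α * (‖fderiv ℝ f t0 ξ‖ ^ 2
            + inner ℝ (F x - p) (fderiv ℝ (fderiv ℝ f) t0 ξ ξ))) ≤ 0 := by
    intro ξ
    have h1 := (hder ξ).mono fun s hs => barrier_deriv (c := fun s : ℝ => f (t0 + s • ξ))
      (c1 := fun s => fderiv ℝ f (t0 + s • ξ) ξ) hs e p ε α
    have h2 := barrier_deriv2 (c := fun s : ℝ => f (t0 + s • ξ))
      (c1 := fun s => fderiv ℝ f (t0 + s • ξ) ξ) (by simpa using hder0 ξ) (hder2 ξ) e p ε α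
    have h3 := second_deriv_nonpos h1 h2 (hmaxl ξ)
    simpa [hft0] using h3
  refine ⟨fun k => fderiv ℝ f t0 (ξ k), hon, fun k => ⟨ξ k, rfl⟩, ?_⟩
  have hs := Finset.sum_nonpos (fun k (_ : k ∈ Finset.univ) => hsecond (ξ k))
  have hn : ∀ k, ‖fderiv ℝ f t0 (ξ k)‖ ^ 2 = 1 := fun k => by rw [hon.1 k]; norm_num
  have e1 : ∑ k, inner ℝ (fderiv ℝ (fderiv ℝ f) t0 (ξ k) (ξ k)) e
      = -(m : ℝ) * inner ℝ (F x) e + inner ℝ (fderiv ℝ f t0 b) e := by
    rw [← sum_inner, hsum, inner_add_left, inner_smul_left]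
    simp
  have e2 : ∑ k, inner ℝ (F x - p) (fderiv ℝ (fderiv ℝ f) t0 (ξ k) (ξ k))
      = -(m : ℝ) * inner ℝ (F x - p) (F x) + inner ℝ (F x - p) (fderiv ℝ f t0 b) := by
    rw [← inner_sum, hsum, inner_add_right, inner_smul_right]
  set Ψ := Real.exp (-α * ‖F x - p‖ ^ 2) with hΨ
  have e3 : ∑ k, (inner ℝ (fderiv ℝ (fderiv ℝ f) t0 (ξ k) (ξ k)) e
      + ε * Ψ * (4 * α ^ 2 * inner ℝ (F x - p) (fderiv ℝ f t0 (ξ k)) ^ 2
          - 2 * α * (‖fderiv ℝ f t0 (ξ k)‖ ^ 2
            + inner ℝ (F x - p) (fderiv ℝ (fderiv ℝ f) t0 (ξ k) (ξ k)))))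
      = ∑ k, inner ℝ (fderiv ℝ (fderiv ℝ f) t0 (ξ k) (ξ k)) e
        + ε * Ψ * (4 * α ^ 2 * ∑ k, inner ℝ (F x - p) (fderiv ℝ f t0 (ξ k)) ^ 2
          - 2 * α * (m + ∑ k, inner ℝ (F x - p) (fderiv ℝ (fderiv ℝ f) t0 (ξ k) (ξ k)))) := by
    simp only [hn, Finset.sum_add_distrib, ← Finset.mul_sum, Finset.sum_sub_distrib,
      Finset.sum_const, Finset.card_univ, Fintype.card_fin, nsmul_eq_mul, mul_one]
  rw [e3, e1, e2] at hs
  have h1 := hfirst b
  nlinarith [hs, h1]


/-- the differential of the coordinate expression in one chart has its range in the range of the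
differential of the coordinate expression in another chart. -/
theorem fderiv_mem_range {F : M → Eu (m + 2)} (hF : Imm F) (x₀ x : M)
    (hx : x ∈ (chartAt (Eu m) x₀).source) (v : Eu m) :
    fderiv ℝ (loc F x₀) (chartAt (Eu m) x₀ x) v ∈
      LinearMap.range (fderiv ℝ (loc F x) (ctr (m := m) x)).toLinearMap := by
  set φ := chartAt (Eu m) x₀ with hφ
  set χ := chartAt (Eu m) x with hχ
  set f : Eu m → Eu (m + 2) := loc F x₀ with hf
  set g : Eu m → Eu (m + 2) := loc F x with hg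
  set t : Eu m := φ x with ht
  have htm : t ∈ φ.target := φ.map_source hx
  set T := fderiv ℝ g (ctr (m := m) x) with hT
  have hTinj : Function.Injective T := hF.inj x _ (ctr_mem x)
  obtain ⟨K, hK, hanti⟩ := T.exists_antilipschitzWith (LinearMap.ker_eq_bot.2 hTinj)
  -- the curve
  set κ : ℝ → Eu m := fun s => χ (φ.symm (t + s • v)) with hκ
  have hφt : φ.symm t = x := φ.left_inv hx
  have hline : HasDerivAt (fun s : ℝ => t + s • v) v 0 := by
    have := ((hasDerivAt_id (0 : ℝ)).smul_const v).const_add t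
    simpa using this
  have hlc : Tendsto (fun s : ℝ => t + s • v) (𝓝 0) (𝓝 t) := by
    have h := hline.continuousAt.tendsto
    simpa using h
  have hsymm : Tendsto (fun s : ℝ => φ.symm (t + s • v)) (𝓝 0) (𝓝 x) := by
    have h := (φ.continuousAt_symm htm).tendsto
    rw [hφt] at h
    exact h.comp hlc
  have hκ0 : Tendsto κ (𝓝 0) (𝓝 (ctr (m := m) x)) :=
    (χ.continuousAt (mem_chart_source (Eu m) x)).tendsto.comp hsymm
  have hgκ : ∀ᶠ s in 𝓝 (0 : ℝ), g (κ s) = f (t + s • v) := by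
    have h1 : ∀ᶠ s in 𝓝 (0 : ℝ), φ.symm (t + s • v) ∈ χ.source :=
      hsymm.eventually (χ.open_source.mem_nhds (mem_chart_source (Eu m) x))
    filter_upwards [h1] with s hs
    simp only [hg, hκ, hf, loc, Function.comp_apply]
    rw [χ.left_inv hs]
  have hg0 : g (ctr (m := m) x) = F x := loc_ctr x
  have hf0 : f t = F x := by
    simp only [hf, loc, Function.comp_apply]
    rw [hφt]
  have hgd : HasFDerivAt g T (ctr (m := m) x) := (diff_at hF x (ctr_mem x)).hasFDerivAt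
  have hfd : HasDerivAt (fun s : ℝ => f (t + s • v)) (fderiv ℝ f t v) 0 := by
    have h1 : HasFDerivAt f (fderiv ℝ f t) (t + (0 : ℝ) • v) := by
      rw [zero_smul, add_zero]
      exact (diff_at hF x₀ htm).hasFDerivAt
    exact h1.comp_hasDerivAt (0 : ℝ) hline
  -- asymptotics
  have hO1 : (fun s : ℝ => κ s - ctr (m := m) x) =O[𝓝 0] fun s => g (κ s) - g (ctr (m := m) x) :=
    (hgd.isTheta_sub (hanti.isInducing T.continuous)).2.comp_tendsto hκ0
  have hfo : (fun s : ℝ => f (t + s • v) - f t - s • fderiv ℝ f t v) =o[𝓝 0] fun s => s := by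
    have h := hfd.isLittleO
    simpa using h
  have hfO : (fun s : ℝ => f (t + s • v) - f t) =O[𝓝 0] fun s => s := by
    have h := hfd.isBigO_sub
    simpa using h
  have hO2 : (fun s : ℝ => κ s - ctr (m := m) x) =O[𝓝 0] fun s => s := by
    refine hO1.trans (hfO.congr' ?_ (EventuallyEq.refl _ _))
    filter_upwards [hgκ] with s hs
    rw [hs, hg0, hf0]
  have hgo : (fun s : ℝ => g (κ s) - g (ctr (m := m) x) - T (κ s - ctr (m := m) x)) =o[𝓝 0]
      fun s => s := by
    have h := (hgd.isLittleO.comp_tendsto hκ0).trans_isBigO hO2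
    exact h
  have hdiff : (fun s : ℝ => T (κ s - ctr (m := m) x) - s • fderiv ℝ f t v) =o[𝓝 0]
      fun s => s := by
    have h := hfo.sub hgo
    refine h.congr' ?_ (EventuallyEq.refl _ _)
    filter_upwards [hgκ] with s hs
    rw [hs, hg0, hf0]
    abel
  have hlim := (hdiff.mono nhdsWithin_le_nhds :
    (fun s : ℝ => T (κ s - ctr (m := m) x) - s • fderiv ℝ f t v) =o[𝓝[≠] 0]
      fun s => s).tendsto_inv_smul_nhds_zero
  have hlim2 : Tendsto (fun s : ℝ => T (s⁻¹ • (κ s - ctr (m := m) x))) (𝓝[≠] 0)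
      (𝓝 (fderiv ℝ f t v)) := by
    have h := hlim.add_const (fderiv ℝ f t v)
    rw [zero_add] at h
    refine h.congr' ?_
    filter_upwards [self_mem_nhdsWithin] with s hs
    have hs0 : s ≠ 0 := hs
    rw [smul_sub, smul_smul, inv_mul_cancel₀ hs0, one_smul, map_smul]
    abel
  have hclosed : IsClosed (LinearMap.range T.toLinearMap : Set (Eu (m + 2))) :=
    Submodule.closed_of_finiteDimensional _
  exact hclosed.mem_of_tendsto hlim2 (Eventually.of_forall fun s => ⟨_, rfl⟩)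

end Tangent

/-- Bessel type inequality. -/
theorem bessel {m : ℕ} {E : Type*} [NormedAddCommGroup E] [InnerProductSpace ℝ E]
    {w : Fin m → E} (hw : Orthonormal ℝ w) (T : Eu m →ₗ[ℝ] E)
    (hwT : ∀ k, w k ∈ LinearMap.range T) {τ : E} (hτ : τ ∈ LinearMap.range T) (u : E) :
    inner ℝ u τ ^ 2 ≤ (∑ k, inner ℝ u (w k) ^ 2) * ‖τ‖ ^ 2 := by
  have hspan : Submodule.span ℝ (Set.range w) = LinearMap.range T := by
    apply Submodule.eq_of_le_of_finrank_le
    · rw [Submodule.span_le]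
      rintro _ ⟨k, rfl⟩
      exact hwT k
    · rw [finrank_span_eq_card hw.linearIndependent]
      refine (LinearMap.finrank_range_le T).trans ?_
      simp
  rw [← hspan] at hτ
  obtain ⟨c, rfl⟩ := (Submodule.mem_span_range_iff_exists_fun ℝ).1 hτ
  have h1 : inner ℝ u (∑ k, c k • w k) = ∑ k, inner ℝ u (w k) * c k := by
    rw [inner_sum]
    refine Finset.sum_congr rfl fun k _ => ?_
    rw [inner_smul_right]
    ring
  have h2 : ‖∑ k, c k • w k‖ ^ 2 = ∑ k, c k ^ 2 := by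
    rw [← real_inner_self_eq_norm_sq, hw.inner_sum]
    refine Finset.sum_congr rfl fun k _ => ?_
    simp [sq]
  rw [h1, h2]
  exact Finset.sum_mul_sq_le_sq_mul_sq _ _ _

/-- local injectivity package for an immersion. -/
theorem local_pack {n : ℕ} {m : ℕ} {f : Eu m → Eu n} {t : Eu m} {U : Set (Eu m)} (hU : U ∈ 𝓝 t)
    (hd : ∀ y ∈ U, DifferentiableAt ℝ f y) (hc : ContinuousAt (fderiv ℝ f) t)
    (hinj : Function.Injective (fderiv ℝ f t)) :
    ∃ ρ > 0, ∃ c > 0, Metric.closedBall t ρ ⊆ U ∧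
      (∀ y ∈ Metric.closedBall t ρ, ∀ z ∈ Metric.closedBall t ρ, c * ‖y - z‖ ≤ ‖f y - f z‖) ∧
      (∀ y ∈ Metric.closedBall t ρ, ∀ z ∈ Metric.closedBall t ρ, ∀ x ∈ Metric.closedBall t ρ,
        c * ‖y - z‖ ^ 2 ≤ inner ℝ (f y - f z) (fderiv ℝ f x (y - z))) := by
  set L := fderiv ℝ f t with hL
  obtain ⟨K, hK, hanti⟩ := L.exists_antilipschitzWith (LinearMap.ker_eq_bot.2 hinj)
  have hKr : (0 : ℝ) < K := by exact_mod_cast hK
  set a : ℝ := (K : ℝ)⁻¹ with ha
  have ha0 : 0 < a := inv_pos.2 hKr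
  have hLa : ∀ v, a * ‖v‖ ≤ ‖L v‖ := by
    intro v
    have h := hanti.le_mul_dist v 0
    rw [dist_zero_right, map_zero, dist_zero_right] at h
    rw [ha, inv_mul_le_iff₀ hKr]
    exact h
  have h1 : ∀ᶠ y in 𝓝 t, y ∈ U ∧ ‖fderiv ℝ f y - L‖ ≤ a / 4 := by
    have h2 : ∀ᶠ y in 𝓝 t, dist (fderiv ℝ f y) L < a / 4 :=
      hc.eventually (Metric.ball_mem_nhds _ (by positivity))
    filter_upwards [hU, h2] with y hy1 hy2
    refine ⟨hy1, ?_⟩
    rw [← dist_eq_norm]
    exact hy2.le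
  obtain ⟨ρ, hρ, hball⟩ := Metric.nhds_basis_closedBall.mem_iff.1 h1
  have hmv : ∀ y ∈ Metric.closedBall t ρ, ∀ z ∈ Metric.closedBall t ρ,
      ‖f y - f z - L (y - z)‖ ≤ a / 4 * ‖y - z‖ := by
    intro y hy z hz
    exact (convex_closedBall t ρ).norm_image_sub_le_of_norm_hasFDerivWithin_le'
      (fun w hw => (hd w (hball hw).1).hasFDerivAt.hasFDerivWithinAt)
      (fun w hw => (hball hw).2) hz hy
  refine ⟨ρ, hρ, min (3 / 4 * a) (7 / 16 * a ^ 2), by positivity,
    fun y hy => (hball hy).1, ?_, ?_⟩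
  · intro y hy z hz
    have h2 := hmv y hy z hz
    have h3 := hLa (y - z)
    have h4 : ‖L (y - z)‖ ≤ ‖f y - f z‖ + ‖f y - f z - L (y - z)‖ := by
      have := norm_sub_le (f y - f z) (f y - f z - L (y - z))
      rwa [sub_sub_cancel] at this
    have h5 : min (3 / 4 * a) (7 / 16 * a ^ 2) * ‖y - z‖ ≤ 3 / 4 * a * ‖y - z‖ :=
      mul_le_mul_of_nonneg_right (min_le_left _ _) (norm_nonneg _)
    linarith
  · intro y hy z hz x hx
    set d := y - z with hd'
    have h2 := hmv y hy z hz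
    have h3 := hLa d
    have h4 : ‖fderiv ℝ f x d - L d‖ ≤ a / 4 * ‖d‖ := by
      have := (fderiv ℝ f x - L).le_opNorm d
      exact this.trans (mul_le_mul_of_nonneg_right (hball hx).2 (norm_nonneg _))
    set r1 := f y - f z - L d with hr1
    set r2 := fderiv ℝ f x d - L d with hr2
    have e1 : f y - f z = L d + r1 := by rw [hr1]; abel
    have e2 : fderiv ℝ f x d = L d + r2 := by rw [hr2]; abel
    rw [e1, e2, inner_add_left, inner_add_right, inner_add_right, real_inner_self_eq_norm_sq]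
    have i1 : -(‖L d‖ * (a / 4 * ‖d‖)) ≤ inner ℝ (L d) r2 := by
      have h := neg_le_of_abs_le (abs_real_inner_le_norm (L d) r2)
      have h' : ‖L d‖ * ‖r2‖ ≤ ‖L d‖ * (a / 4 * ‖d‖) :=
        mul_le_mul_of_nonneg_left h4 (norm_nonneg _)
      linarith
    have i2 : -(‖L d‖ * (a / 4 * ‖d‖)) ≤ inner ℝ r1 (L d) := by
      have h := neg_le_of_abs_le (abs_real_inner_le_norm r1 (L d))
      have h' : ‖r1‖ * ‖L d‖ ≤ (a / 4 * ‖d‖) * ‖L d‖ :=
        mul_le_mul_of_nonneg_right h2 (norm_nonneg _)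
      linarith
    have i3 : -((a / 4 * ‖d‖) * (a / 4 * ‖d‖)) ≤ inner ℝ r1 r2 := by
      have h := neg_le_of_abs_le (abs_real_inner_le_norm r1 r2)
      have h' : ‖r1‖ * ‖r2‖ ≤ (a / 4 * ‖d‖) * (a / 4 * ‖d‖) :=
        mul_le_mul h2 h4 (norm_nonneg _) (by positivity)
      linarith
    have i4 : min (3 / 4 * a) (7 / 16 * a ^ 2) * ‖d‖ ^ 2 ≤ 7 / 16 * a ^ 2 * ‖d‖ ^ 2 :=
      mul_le_mul_of_nonneg_right (min_le_right _ _) (by positivity)
    have i5 : 0 ≤ (‖L d‖ - a * ‖d‖) * (‖L d‖ + a * ‖d‖ / 2) :=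
      mul_nonneg (by linarith) (by positivity)
    nlinarith [i5, sq_nonneg (‖L d‖), mul_nonneg ha0.le (norm_nonneg d)]

/-- parallelogram identity. -/
theorem par {E : Type*} [NormedAddCommGroup E] [InnerProductSpace ℝ E] (a b : E) :
    ‖(1 / 2 : ℝ) • (a + b)‖ ^ 2 = (1 / 2) * ‖a‖ ^ 2 + (1 / 2) * ‖b‖ ^ 2
      - (1 / 4) * ‖a - b‖ ^ 2 := by
  rw [norm_smul, mul_pow, norm_add_sq_real, norm_sub_sq_real]
  norm_num
  ring

set_option maxHeartbeats 1600000 in
/-- the touching set is open. -/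
theorem touch {m : ℕ} (hm : 1 ≤ m) {M : Type*} [TopologicalSpace M] [ChartedSpace (Eu m) M]
    {F : M → Eu (m + 2)} (hF : Imm F) (hmin : ∀ x, MinAt F x) {e : Eu (m + 2)}
    (hle : ∀ x, inner ℝ (F x) e ≤ 0) {x₀ : M} (hx₀ : inner ℝ (F x₀) e = 0) :
    ∀ᶠ x in 𝓝 x₀, inner ℝ (F x) e = 0 := by
  by_contra hcon
  set φ := chartAt (Eu m) x₀ with hφ
  set f : Eu m → Eu (m + 2) := loc F x₀ with hf
  set t₀ : Eu m := ctr (m := m) x₀ with ht₀
  have ht₀m : t₀ ∈ φ.target := ctr_mem x₀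
  have hfx : ∀ t, f t = F (φ.symm t) := fun t => rfl
  have hft₀ : f t₀ = F x₀ := loc_ctr x₀
  obtain ⟨ρ, hρ, c, hc, hsub, hlow, hang⟩ := local_pack (f := f) (t := t₀) (U := φ.target)
    (φ.open_target.mem_nhds ht₀m) (fun y hy => diff_at hF x₀ hy)
    (diff_fderiv_at hF x₀ ht₀m).continuousAt (hF.inj x₀ _ ht₀m)
  have hfc : ∀ t ∈ Metric.closedBall t₀ ρ, ContinuousAt f t := fun t ht =>
    (diff_at hF x₀ (hsub ht)).continuousAt
  have hfle : ∀ t, inner ℝ (f t) e ≤ 0 := fun t => hle _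
  -- nonzero points near `t₀`
  have hfreq : ¬ ∀ᶠ t in 𝓝 t₀, inner ℝ (f t) e = 0 := by
    intro h
    apply hcon
    have h1 : Tendsto φ (𝓝 x₀) (𝓝 t₀) := φ.continuousAt (mem_chart_source (Eu m) x₀)
    filter_upwards [h1.eventually h, φ.open_source.mem_nhds (mem_chart_source (Eu m) x₀)]
      with x hx hxs
    rwa [hfx, φ.left_inv hxs] at hx
  have hev : ∀ᶠ t in 𝓝 t₀, ‖t - t₀‖ < ρ / 2 ∧ ‖f t₀ - f t‖ < c * (ρ / 2) := by
    have h1 : ∀ᶠ t in 𝓝 t₀, dist t t₀ < ρ / 2 := Metric.ball_mem_nhds _ (by positivity)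
    have h2 : ∀ᶠ t in 𝓝 t₀, dist (f t) (f t₀) < c * (ρ / 2) :=
      (hfc t₀ (Metric.mem_closedBall_self hρ.le)).eventually
        (Metric.ball_mem_nhds _ (by positivity))
    filter_upwards [h1, h2] with t h3 h4
    exact ⟨by rwa [dist_eq_norm] at h3, by rwa [dist_comm, dist_eq_norm] at h4⟩
  obtain ⟨ty, hty0, hty1, hty2⟩ := (Filter.not_eventually.1 hfreq |>.and_eventually hev).exists
  -- nearest point
  set A : Set (Eu m) := Metric.closedBall t₀ ρ ∩ (fun t => inner ℝ (f t) e) ⁻¹' {0} with hA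
  have hfcon : ContinuousOn f (Metric.closedBall t₀ ρ) := fun t ht =>
    (hfc t ht).continuousWithinAt
  have hAc : IsCompact A := by
    refine (isCompact_closedBall t₀ ρ).of_isClosed_subset ?_ inter_subset_left
    exact (hfcon.inner continuousOn_const).preimage_isClosed_of_isClosed
      Metric.isClosed_closedBall isClosed_singleton
  have ht₀A : t₀ ∈ A := ⟨Metric.mem_closedBall_self hρ.le, by
    show inner ℝ (f t₀) e = 0
    rw [hft₀, hx₀]⟩
  obtain ⟨tz, htzA, htzmin⟩ := hAc.exists_isMinOn ⟨t₀, ht₀A⟩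
    (f := fun t => ‖f t - f ty‖)
    (((hfcon.mono inter_subset_left).sub continuousOn_const).norm)
  have hmin' : ∀ t ∈ A, ‖f tz - f ty‖ ≤ ‖f t - f ty‖ := fun t ht => htzmin ht
  have hze : inner ℝ (f tz) e = 0 := htzA.2
  have htyB : ty ∈ Metric.closedBall t₀ ρ := by
    rw [Metric.mem_closedBall, dist_eq_norm]; linarith
  have h1 : ‖tz - ty‖ < ρ / 2 := by
    have h2 := hlow tz htzA.1 ty htyB
    have h3 := hmin' t₀ ht₀A
    have h4 : c * ‖tz - ty‖ < c * (ρ / 2) := by linarith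
    exact lt_of_mul_lt_mul_left h4 hc.le
  have htzB : tz ∈ Metric.ball t₀ ρ := by
    rw [Metric.mem_ball, dist_eq_norm]
    have : ‖tz - t₀‖ ≤ ‖tz - ty‖ + ‖ty - t₀‖ := norm_sub_le_norm_sub_add_norm_sub _ _ _
    linarith
  have hne : tz ≠ ty := by
    rintro rfl
    exact hty0 hze
  have hdpos : 0 < ‖tz - ty‖ := norm_pos_iff.2 (sub_ne_zero.2 hne)
  set y := f ty with hy
  set z := f tz with hz
  set p : Eu (m + 2) := (1 / 2 : ℝ) • (y + z) with hp
  set d := tz - ty with hd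
  have hzp : z - p = (1 / 2 : ℝ) • (z - y) := by
    rw [hp]
    module
  -- the transversality constant
  set κ : ℝ := c / 4 * ‖d‖ ^ 2 with hκ
  have hκ0 : 0 < κ := by positivity
  have hκz : κ < inner ℝ (f tz - p) (fderiv ℝ f tz d) := by
    have h2 := hang tz htzA.1 ty htyB tz htzA.1
    rw [← hz, hzp, inner_smul_left]
    simp only [conj_trivial]
    have h3 : 0 < c * ‖d‖ ^ 2 := by positivity
    nlinarith
  set B : ℝ := ‖fderiv ℝ f tz d‖ + 1 with hB
  have hB0 : 0 < B := by positivity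
  have hdf : ContinuousAt (fun t => fderiv ℝ f t d) tz :=
    (diff_fderiv_at hF x₀ (hsub htzA.1)).continuousAt.clm_apply continuousAt_const
  have hev2 : ∀ᶠ t in 𝓝 tz, t ∈ Metric.ball t₀ ρ ∧ κ < inner ℝ (f t - p) (fderiv ℝ f t d) ∧
      ‖fderiv ℝ f t d‖ < B := by
    have h2 : ContinuousAt (fun t => inner ℝ (f t - p) (fderiv ℝ f t d)) tz :=
      ((hfc tz htzA.1).sub continuousAt_const).inner hdf
    have h3 : ∀ᶠ t in 𝓝 tz, κ < inner ℝ (f t - p) (fderiv ℝ f t d) :=
      h2.eventually (lt_mem_nhds hκz)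
    have h4 : ∀ᶠ t in 𝓝 tz, ‖fderiv ℝ f t d‖ < B :=
      hdf.norm.eventually (gt_mem_nhds (by rw [hB]; linarith))
    filter_upwards [Metric.isOpen_ball.mem_nhds htzB, h3, h4] with t a1 a2 a3
    exact ⟨a1, a2, a3⟩
  obtain ⟨r, hr, hball⟩ := Metric.nhds_basis_closedBall.mem_iff.1 hev2
  have hrB : ∀ t ∈ Metric.closedBall tz r, t ∈ Metric.closedBall t₀ ρ := fun t ht =>
    Metric.ball_subset_closedBall (hball ht).1
  have hmR : (1 : ℝ) ≤ m := by exact_mod_cast hm
  set α : ℝ := m * B ^ 2 / κ ^ 2 with hα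
  have hα0 : 0 < α := by positivity
  set G : Eu m → ℝ := fun t => Real.exp (-α * ‖f t - p‖ ^ 2) - Real.exp (-α * ‖z - p‖ ^ 2) with hG
  have hGc : ContinuousOn G (Metric.closedBall tz r) := by
    have h2 : ContinuousOn f (Metric.closedBall tz r) := hfcon.mono hrB
    exact (Real.continuous_exp.comp_continuousOn
      (((h2.sub continuousOn_const).norm.pow 2).const_smul (-α))).sub continuousOn_const
  have hfe : ContinuousOn (fun t => inner ℝ (f t) e) (Metric.closedBall tz r) :=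
    (hfcon.mono hrB).inner continuousOn_const
  have hG1 : ∀ t, G t < 1 := by
    intro t
    have h2 : Real.exp (-α * ‖f t - p‖ ^ 2) ≤ 1 := by
      rw [Real.exp_le_one_iff]
      have : 0 ≤ α * ‖f t - p‖ ^ 2 := by positivity
      linarith
    have h3 := Real.exp_pos (-α * ‖z - p‖ ^ 2)
    simp only [hG]
    linarith
  -- on the sphere
  have hGneg : ∀ t ∈ Metric.sphere tz r, inner ℝ (f t) e = 0 → G t < 0 := by
    intro t ht hte
    have htc : t ∈ Metric.closedBall t₀ ρ := hrB t (Metric.sphere_subset_closedBall ht)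
    have htA : t ∈ A := ⟨htc, hte⟩
    have h2 := hmin' t htA
    have h3 := hlow t htc tz htzA.1
    have h4 : ‖t - tz‖ = r := by rw [← dist_eq_norm]; exact ht
    rw [h4] at h3
    have h5 : 0 < ‖f t - z‖ := lt_of_lt_of_le (by positivity) h3
    -- parallelogram
    have h6 : ‖f t - p‖ ^ 2 = (1 / 2) * ‖f t - y‖ ^ 2 + (1 / 2) * ‖f t - z‖ ^ 2
        - (1 / 4) * ‖z - y‖ ^ 2 := by
      have e1 : f t - p = (1 / 2 : ℝ) • ((f t - y) + (f t - z)) := by rw [hp]; module
      have e2 : z - y = (f t - y) - (f t - z) := by abel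
      rw [e1, e2]
      exact par _ _
    have h7 : ‖z - p‖ ^ 2 = (1 / 4) * ‖z - y‖ ^ 2 := by
      rw [hzp, norm_smul, mul_pow]
      norm_num
    have h8 : ‖z - y‖ ^ 2 ≤ ‖f t - y‖ ^ 2 := by
      have := norm_nonneg (z - y)
      exact pow_le_pow_left₀ this h2 2
    have h9 : ‖z - p‖ ^ 2 < ‖f t - p‖ ^ 2 := by
      rw [h6, h7]
      have : 0 < ‖f t - z‖ ^ 2 := by positivity
      linarith
    simp only [hG, sub_neg]
    apply Real.exp_lt_exp.2
    have := mul_lt_mul_of_pos_left h9 hα0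
    linarith
  have hε : ∃ ε > 0, ∀ t ∈ Metric.sphere tz r, inner ℝ (f t) e + ε * G t < 0 := by
    set K : Set (Eu m) := Metric.sphere tz r ∩ G ⁻¹' (Ici 0) with hK
    have hKc : IsCompact K := by
      refine (isCompact_sphere tz r).of_isClosed_subset ?_ inter_subset_left
      exact (hGc.mono Metric.sphere_subset_closedBall).preimage_isClosed_of_isClosed
        Metric.isClosed_sphere isClosed_Ici
    rcases K.eq_empty_or_nonempty with hKe | hKn
    · refine ⟨1, one_pos, fun t ht => ?_⟩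
      have h2 : ¬ 0 ≤ G t := fun h => by
        have : t ∈ K := ⟨ht, h⟩
        rw [hKe] at this
        exact this
      push Not at h2
      have := hfle t
      linarith
    · obtain ⟨t2, ht2K, ht2max⟩ := hKc.exists_isMaxOn hKn (f := fun t => inner ℝ (f t) e)
        (hfe.mono (inter_subset_left.trans Metric.sphere_subset_closedBall))
      have h2 : inner ℝ (f t2) e < 0 := by
        rcases lt_or_eq_of_le (hfle t2) with h | h
        · exact h
        · exact absurd (hGneg t2 ht2K.1 h) (not_lt.2 ht2K.2)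
      refine ⟨-(inner ℝ (f t2) e) / 2, by linarith, fun t ht => ?_⟩
      by_cases hGt : 0 ≤ G t
      · have h3 : inner ℝ (f t) e ≤ inner ℝ (f t2) e := ht2max (show t ∈ K from ⟨ht, hGt⟩)
        have h4 := hG1 t
        nlinarith
      · push Not at hGt
        have h3 := hfle t
        nlinarith
  obtain ⟨ε, hε0, hεneg⟩ := hε
  -- interior maximum
  obtain ⟨t1, ht1B, ht1max⟩ := (isCompact_closedBall tz r).exists_isMaxOn
    ⟨tz, Metric.mem_closedBall_self hr.le⟩ (f := fun t => inner ℝ (f t) e + ε * G t)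
    (hfe.add (continuousOn_const.mul hGc))
  have hv1 : 0 ≤ inner ℝ (f t1) e + ε * G t1 := by
    have h2 : inner ℝ (f tz) e + ε * G tz ≤ inner ℝ (f t1) e + ε * G t1 :=
      ht1max (Metric.mem_closedBall_self hr.le)
    have h3 : G tz = 0 := by simp only [hG, ← hz, sub_self]
    rw [h3, hze] at h2
    linarith
  have ht1b : t1 ∈ Metric.ball tz r := by
    rcases lt_or_eq_of_le (Metric.mem_closedBall.1 ht1B) with h | h
    · exact h
    · exact absurd (hεneg t1 h) (not_lt.2 hv1)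
  have ht1t : t1 ∈ φ.target := hsub (hrB t1 ht1B)
  set x1 := φ.symm t1 with hx1
  have hx1s : x1 ∈ φ.source := φ.map_target ht1t
  have hφx1 : φ x1 = t1 := φ.right_inv ht1t
  have hloc : IsLocalMax
      (fun x' => inner ℝ (F x') e + ε * Real.exp (-α * ‖F x' - p‖ ^ 2)) x1 := by
    have h2 : Tendsto φ (𝓝 x1) (𝓝 t1) := by
      have := (φ.continuousAt hx1s).tendsto
      rwa [hφx1] at this
    filter_upwards [h2.eventually (Metric.isOpen_ball.mem_nhds ht1b),
      φ.open_source.mem_nhds hx1s] with x' hx' hx's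
    have h3 : inner ℝ (f (φ x')) e + ε * G (φ x') ≤ inner ℝ (f t1) e + ε * G t1 :=
      ht1max (Metric.ball_subset_closedBall hx')
    have h4 : f (φ x') = F x' := by rw [hfx, φ.left_inv hx's]
    have h5 : f t1 = F x1 := hfx t1
    simp only [hG] at h3
    rw [h4, h5] at h3
    linarith
  obtain ⟨w, hw, hwr, hineq⟩ := maxp hF (hmin x1) hloc
  have hτ := fderiv_mem_range hF x₀ x1 hx1s d
  rw [← hφ, hφx1, ← hf] at hτ
  have hbes := bessel hw _ hwr hτ (F x1 - p)
  set S : ℝ := ∑ k, inner ℝ (F x1 - p) (w k) ^ 2 with hS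
  have h5 : f t1 = F x1 := hfx t1
  have hk1 := (hball ht1B).2.1
  have hk2 := (hball ht1B).2.2
  rw [h5] at hk1
  have hS0 : 0 ≤ S := Finset.sum_nonneg fun k _ => sq_nonneg _
  have hkS : κ ^ 2 ≤ S * B ^ 2 := by
    have a1 : κ ^ 2 ≤ inner ℝ (F x1 - p) (fderiv ℝ f t1 d) ^ 2 :=
      pow_le_pow_left₀ hκ0.le hk1.le 2
    have a2 : ‖fderiv ℝ f t1 d‖ ^ 2 ≤ B ^ 2 := pow_le_pow_left₀ (norm_nonneg _) hk2.le 2
    have a3 := mul_le_mul_of_nonneg_left a2 hS0
    linarith
  have hαS : (m : ℝ) ≤ α * S := by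
    have a1 : α * κ ^ 2 = m * B ^ 2 := by
      rw [hα]; field_simp
    have a2 : m * B ^ 2 ≤ (α * S) * B ^ 2 := by
      have := mul_le_mul_of_nonneg_left hkS hα0.le
      linarith
    exact le_of_mul_le_mul_right a2 (by positivity)
  have hpn : ‖p‖ ≤ 1 := by
    have a1 : ‖y‖ = 1 := hF.norm_one _
    have a2 : ‖z‖ = 1 := hF.norm_one _
    rw [hp, norm_smul]
    have := norm_add_le y z
    norm_num
    linarith
  have hpos : 0 ≤ inner ℝ (F x1 - p) (F x1) := by
    rw [inner_sub_left, real_inner_self_eq_norm_sq, hF.norm_one]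
    have := real_inner_le_norm p (F x1)
    rw [hF.norm_one] at this
    linarith
  have hfirst : 0 ≤ -(m : ℝ) * inner ℝ (F x1) e := by
    have := hle x1
    nlinarith
  have hbr : 0 < 4 * α ^ 2 * S - 2 * α * m + 2 * α * m * inner ℝ (F x1 - p) (F x1) := by
    have a1 : 0 ≤ 2 * α * m * inner ℝ (F x1 - p) (F x1) := by positivity
    have a2 : α * m ≤ α * (α * S) := mul_le_mul_of_nonneg_left hαS hα0.le
    have a3 : 0 < α * m := by positivity
    nlinarith
  have hΨ : 0 < ε * Real.exp (-α * ‖F x1 - p‖ ^ 2) := mul_pos hε0 (Real.exp_pos _)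
  have := mul_pos hΨ hbr
  linarith

/-- JD, for `m ≥ 1`. -/
theorem stJD (m : ℕ) (hm : 1 ≤ m) : StJD.{u} m := by
  intro M _ _ _ _ F hF hmin hgs
  have hmR : (1 : ℝ) ≤ m := by exact_mod_cast hm
  have first : ∀ e : Eu (m + 2), ‖e‖ = 1 → ∃ x, 0 < inner ℝ (F x) e := by
    intro e he
    by_contra hcon
    push Not at hcon
    -- the maximum is zero
    obtain ⟨x0, -, hx0⟩ := isCompact_univ.exists_isMaxOn (univ_nonempty (α := M))
      (f := fun x => inner ℝ (F x) e) (hF.cont.inner continuous_const).continuousOn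
    have hloc : IsLocalMax
        (fun x' => inner ℝ (F x') e + 0 * Real.exp (-0 * ‖F x' - 0‖ ^ 2)) x0 := by
      refine Eventually.of_forall fun x' => ?_
      have : inner ℝ (F x') e ≤ inner ℝ (F x0) e := hx0 (mem_univ x')
      simpa using this
    obtain ⟨w, -, -, hineq⟩ := maxp hF (hmin x0) hloc
    have hx00 : inner ℝ (F x0) e = 0 := by
      have h1 := hcon x0
      have h2 : -(m : ℝ) * inner ℝ (F x0) e ≤ 0 := by
        simpa using hineq
      nlinarith
    have hopen : IsOpen {x | inner ℝ (F x) e = 0} := by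
      rw [isOpen_iff_mem_nhds]
      intro x hx
      exact touch hm hF hmin hcon hx
    have hclosed : IsClosed {x | inner ℝ (F x) e = 0} :=
      isClosed_eq (hF.cont.inner continuous_const) continuous_const
    have huniv : {x | inner ℝ (F x) e = 0} = univ :=
      IsClopen.eq_univ ⟨hclosed, hopen⟩ ⟨x0, hx00⟩
    exact hgs ⟨e, he, fun x => by
      have : x ∈ {x | inner ℝ (F x) e = 0} := by rw [huniv]; trivial
      exact this⟩
  refine ⟨first, ?_⟩
  -- compactness
  have hlt : ∀ q : Eu (m + 2), ‖q‖ = 1 → Metric.infDist q (cone F) < 1 := by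
    intro q hq
    obtain ⟨x, hx⟩ := first q hq
    have h1 : Metric.infDist q (cone F) ≤ dist q (inner ℝ (F x) q • F x) :=
      Metric.infDist_le_dist_of_mem (mem_cone F hx.le x)
    have h2 : dist q (inner ℝ (F x) q • F x) ^ 2 < 1 := by
      rw [dist_eq_norm, norm_sub_sq_real, hq, norm_smul, hF.norm_one, inner_smul_right,
        real_inner_comm (F x) q]
      have : 0 < inner ℝ (F x) q ^ 2 := by positivity
      simp only [mul_one, Real.norm_eq_abs, sq_abs]
      nlinarith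
    have h3 : dist q (inner ℝ (F x) q • F x) < 1 := by
      have := dist_nonneg (x := q) (y := inner ℝ (F x) q • F x)
      nlinarith
    linarith
  have hne : (Metric.sphere (0 : Eu (m + 2)) 1).Nonempty := by
    refine ⟨EuclideanSpace.single 0 1, ?_⟩
    simp
  obtain ⟨q0, hq0, hmax⟩ := (isCompact_sphere (0 : Eu (m + 2)) 1).exists_isMaxOn hne
    (f := fun q => Metric.infDist q (cone F)) (Metric.continuous_infDist_pt _).continuousOn
  refine ⟨Metric.infDist q0 (cone F), hlt q0 (by simpa using hq0), fun q => ?_⟩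
  by_cases hq : q = 0
  · subst hq
    rw [norm_zero, mul_zero]
    exact (Metric.infDist_zero_of_mem (zero_mem_cone F)).le
  · have hqn : 0 < ‖q‖ := norm_pos_iff.2 hq
    have h1 : q = ‖q‖ • (‖q‖⁻¹ • q) := by
      rw [smul_smul, mul_inv_cancel₀ hqn.ne', one_smul]
    have h2 : ‖q‖⁻¹ • q ∈ Metric.sphere (0 : Eu (m + 2)) 1 := by
      rw [mem_sphere_zero_iff_norm, norm_smul, norm_inv, norm_norm, inv_mul_cancel₀ hqn.ne']
    have h3 : Metric.infDist (‖q‖⁻¹ • q) (cone F) ≤ Metric.infDist q0 (cone F) := hmax h2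
    calc Metric.infDist q (cone F) = Metric.infDist (‖q‖ • (‖q‖⁻¹ • q)) (cone F) := by rw [← h1]
      _ = ‖q‖ * Metric.infDist (‖q‖⁻¹ • q) (cone F) := infDist_smul F hqn _
      _ ≤ ‖q‖ * Metric.infDist q0 (cone F) := mul_le_mul_of_nonneg_left h3 hqn.le
      _ = Metric.infDist q0 (cone F) * ‖q‖ := mul_comm _ _

end Crest.Agent.R246.JD480
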