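import Crest.Agent.R246.JE5_364
import Crest.Agent.R246.JA_939
import Crest.Agent.R246.JB_364
import Crest.Agent.R246.JC7_816
import Crest.Agent.R246.JD_480

/-!
Row 246, part JE: from a minimal immersed hypersurface of the sphere, not contained in a great
hypersphere, to a null cone function `φ` with `V(φ) ≤ μ(M)`.
-/

set_option autoImplicit false

open scoped Topology NNReal RealInnerProductSpace ContDiff
open MeasureTheory Filter Set

noncomputable section

namespace Crest.Agent.R246.JE364

open Crest.Agent.R246.J816 Crest.Agent.R246.H990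

universe u

/-- **JE**: the flux bound for the signed distance to the cone. -/
theorem vb_sdist {m : ℕ} (hm : 1 ≤ m) {M : Type u} [MetricSpace M] [ChartedSpace (Eu m) M]
    [CompactSpace M] [Nonempty M] [MeasurableSpace M] [BorelSpace M] {F : M → Eu (m + 2)}
    (μ : Measure M) [IsFiniteMeasure μ] (hF : Imm F) (hmin : ∀ x, MinAt F x)
    (hμ : ProjBound F μ) {c : Eu (m + 2) → ℝ} (hc : Colour F c) (hN : NullCone (sdist F c)) :
    VB (sdist F c) (μ univ).toReal := by
  have hfr : Module.finrank ℝ (Eu (m + 2)) = m + 2 := finrank_euclideanSpace_fin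
  have hJB := Crest.Agent.R246.JB364.stJB.{u} m hm M F hF hmin
  have hZ : ∀ᵐ q : Eu (m + 2), q ∉ cone F := measure_eq_zero_iff_ae_notMem.1 (volume_cone hF)
  refine VB_of_tube (by omega) hN ?_ ?_ ?_ ?_
  · have := sup_sdist hc 1 (Or.inl rfl) hJB
    simpa only [one_mul] using this
  · have := sup_sdist hc (-1) (Or.inr rfl) hJB
    simpa only [neg_mul, one_mul] using this
  · filter_upwards [hZ] with q hq h0
    have h1 := abs_sdist hc q
    rw [h0, abs_zero] at h1
    exact (infDist_pos hF hq).ne h1
  · intro ζ hζ ε hε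
    have hJC := stJC.{u} m M F μ hF hμ c hc ζ hζ.nonneg hζ.le_one hζ.hom
      (Test.continuousOn hζ) ε hε
    filter_upwards [hJC] with δ hδ
    have hset : {q : Eu (m + 2) | ‖q‖ < 1 ∧ 0 < |sdist F c q| ∧ |sdist F c q| < δ * ‖q‖} =
        {q : Eu (m + 2) | ‖q‖ < 1 ∧ 0 < Metric.infDist q (cone F) ∧
            Metric.infDist q (cone F) < δ * ‖q‖} := by
      ext q
      simp only [mem_setOf_eq, abs_sdist hc]
    have hcont : Continuous fun q : Eu (m + 2) => Metric.infDist q (cone F) :=
      Metric.continuous_infDist_pt _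
    have hmeas : MeasurableSet {q : Eu (m + 2) | ‖q‖ < 1 ∧ 0 < Metric.infDist q (cone F) ∧
            Metric.infDist q (cone F) < δ * ‖q‖} := by
      refine (measurableSet_lt measurable_norm measurable_const).inter
        ((measurableSet_lt measurable_const hcont.measurable).inter ?_)
      exact measurableSet_lt hcont.measurable (measurable_norm.const_mul δ)
    rw [hset, hfr]
    have hint : ∫ x in {q : Eu (m + 2) | ‖q‖ < 1 ∧ 0 < Metric.infDist q (cone F) ∧
            Metric.infDist q (cone F) < δ * ‖q‖}, (if 0 < sdist F c x then 1 - ζ x else ζ x) =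
        ∫ x in {q : Eu (m + 2) | ‖q‖ < 1 ∧ 0 < Metric.infDist q (cone F) ∧
            Metric.infDist q (cone F) < δ * ‖q‖}, (if 0 < c x then 1 - ζ x else ζ x) := by
      refine setIntegral_congr_fun hmeas fun q hq => ?_
      have h1 := sdist_pos_iff (F := F) (c := c) hq.2.1
      by_cases h : 0 < c q
      · simp only [if_pos h, if_pos (h1.2 h)]
      · have h2 : ¬ 0 < sdist F c q := fun h3 => h (h1.1 h3)
        simp only [if_neg h, if_neg h2]
    rw [hint]
    push_cast
    exact hδ

/-- **J, cone form**: a compact connected minimal immersed hypersurface of the sphere, not in a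
great hypersphere, produces a null cone function with flux bound `μ(M)`. -/
theorem stJE {m : ℕ} (hm : 2 ≤ m) (M : Type u) [MetricSpace M] [ChartedSpace (Eu m) M]
    [CompactSpace M] [ConnectedSpace M] [MeasurableSpace M] [BorelSpace M] (F : M → Eu (m + 2))
    (μ : Measure M) [IsFiniteMeasure μ] (hF : Imm F) (hmin : ∀ x, MinAt F x)
    (hgs : ¬ ∃ e : Eu (m + 2), ‖e‖ = 1 ∧ ∀ x, inner ℝ (F x) e = 0)
    (hμ : ProjBound F μ) :
    ∃ φ : Eu (m + 2) → ℝ, NullCone φ ∧ VB φ (μ univ).toReal := by
  have hm1 : 1 ≤ m := by omega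
  obtain ⟨c, hc⟩ := Crest.Agent.R246.JA939.stJA.{u} m hm M F hF
  obtain ⟨-, c₀, h0, hb⟩ := Crest.Agent.R246.JD480.stJD.{u} m hm1 M F hF hmin hgs
  have hN := nullCone_sdist hF hc h0 hb
  exact ⟨sdist F c, hN, vb_sdist hm1 μ hF hmin hμ hc hN⟩

end Crest.Agent.R246.JE364
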