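import Crest.Agent.R246.Skel_656
import Crest.Agent.R246.J4_816
import Crest.Agent.R246.JE_364

/-!
Row 246, part J, final glue: the literal block statement `StJ` of the skeleton.
-/

set_option autoImplicit false

open scoped ContDiff Manifold Topology ENNReal NNReal
open Bundle MeasureTheory Set Crest.GeometryTopology.CoordMetric
  Crest.GeometryTopology.ChartCurvature Crest.GeometryTopology.SphereImmersion
open Crest.Agent.R246.H990 (NullCone VB)

noncomputable section

namespace Crest.Agent.R246.J816

universe u

/-- **Block J**: from the hypotheses of S0380 to a null cone. -/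
theorem stJ {m : ℕ} (hm : 2 ≤ m) : Crest.Agent.R246.Skel656.StJ.{u} m := by
  intro M _ _ _ _ _ _ _ _ _ _ F hF hS hiso hmin hntg htop
  obtain ⟨h1, h2, h3, h4⟩ := data_of m M F hF hS hiso hmin hntg
  have : IsFiniteMeasure (Measure.euclideanHausdorffMeasure m : Measure M) :=
    ⟨lt_top_iff_ne_top.2 htop⟩
  exact Crest.Agent.R246.JE364.stJE hm M F (Measure.euclideanHausdorffMeasure m) h1 h2 h4 h3

end Crest.Agent.R246.J816
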