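import Mathlib.Analysis.InnerProductSpace.Continuous
import Mathlib.Analysis.Normed.Module.Convex
import Mathlib.Topology.MetricSpace.Thickening
import Mathlib.Analysis.Normed.Affine.AddTorsor
import Mathlib.Topology.Connected.Basic

/-!
# Row 246, part JA, 1: gluing of sign functions (`ℤ/2` local systems) on convex sets and on `E \ {0}`

`k z` is a local model near `z`; `Good k O c`: near every point `z` of `O`, `c = ± k z`.
-/

set_option autoImplicit false
set_option linter.deprecated false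
set_option linter.unusedSectionVars false

open Set Filter Topology Metric

namespace Crest.Agent.R246.JA939

section Normed

variable {E : Type*} [NormedAddCommGroup E] [NormedSpace ℝ E]

/-- `c` agrees up to sign with the local model `k z` near every point `z` of `O`. -/
def Good (k : E → E → ℝ) (O : Set E) (c : E → ℝ) : Prop :=
  ∀ z ∈ O, ∃ ε : ℝ, ε * ε = 1 ∧ ∀ᶠ q in 𝓝 z, c q = ε * k z q

/-- compatible local models. -/
structure Model (k : E → E → ℝ) (Ω : Set E) : Prop where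
  comp : ∀ z ∈ Ω, ∀ᶠ z' in 𝓝 z, ∃ ε : ℝ, ε * ε = 1 ∧ ∀ᶠ q in 𝓝 z', k z q = ε * k z' q
  nz : ∀ z ∈ Ω, ∃ᶠ q in 𝓝 z, k z q ≠ 0

variable {k : E → E → ℝ} {O O' Ω : Set E} {c c' : E → ℝ}

theorem Good.mono (h : Good k O c) (hO : O' ⊆ O) : Good k O' c := fun z hz => h z (hO hz)

theorem Good.neg (h : Good k O c) : Good k O (fun q => -c q) := fun z hz => by
  obtain ⟨ε, h1, h2⟩ := h z hz
  exact ⟨-ε, by rw [neg_mul_neg, h1], h2.mono fun q hq => by
    show -c q = -ε * k z q
    rw [hq]; ring⟩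

theorem Good.congr (hO : IsOpen O) (h : Good k O c) (hc : ∀ q ∈ O, c' q = c q) : Good k O c' :=
  fun z hz => by
    obtain ⟨ε, h1, h2⟩ := h z hz
    refine ⟨ε, h1, ?_⟩
    filter_upwards [h2, hO.mem_nhds hz] with q hq hqO
    rw [hc q hqO, hq]

theorem sq_one {ε : ℝ} (h : ε * ε = 1) : ε = 1 ∨ ε = -1 := mul_self_eq_one_iff.1 h

/-- a good function is nonzero somewhere near every point. -/
theorem Good.nz (hk : Model k Ω) (hO : O ⊆ Ω) (h : Good k O c) {z : E} (hz : z ∈ O) :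
    ∃ᶠ q in 𝓝 z, c q ≠ 0 := by
  obtain ⟨ε, h1, h2⟩ := h z hz
  refine ((hk.nz z (hO hz)).and_eventually h2).mono ?_
  rintro q ⟨hq, hq'⟩
  rw [hq']
  refine mul_ne_zero ?_ hq
  rintro rfl
  simp at h1

/-- two good functions on a preconnected set agree up to one sign. -/
theorem Good.ratio (hk : Model k Ω) (hOΩ : O ⊆ Ω) (hO : IsPreconnected O)
    (h : Good k O c) (h' : Good k O c') :
    (∀ q ∈ O, c q = c' q) ∨ (∀ q ∈ O, c q = -c' q) := by
  by_contra hcon
  rw [not_or] at hcon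
  obtain ⟨hc1, hc2⟩ := hcon
  push Not at hc1 hc2
  have hcov : O ⊆ {z | ∀ᶠ q in 𝓝 z, c q = c' q} ∪ {z | ∀ᶠ q in 𝓝 z, c q = -c' q} := by
    intro z hz
    obtain ⟨ε, h1, h2⟩ := h z hz
    obtain ⟨ε', h1', h2'⟩ := h' z hz
    rcases sq_one h1 with rfl | rfl <;> rcases sq_one h1' with rfl | rfl
    · left
      filter_upwards [h2, h2'] with q hq hq'
      rw [hq, hq']
    · right
      filter_upwards [h2, h2'] with q hq hq'
      rw [hq, hq']; ring
    · right
      filter_upwards [h2, h2'] with q hq hq'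
      rw [hq, hq']; ring
    · left
      filter_upwards [h2, h2'] with q hq hq'
      rw [hq, hq']
  obtain ⟨a, haO, ha⟩ := hc1
  obtain ⟨b, hbO, hb⟩ := hc2
  have hne1 : (O ∩ {z | ∀ᶠ q in 𝓝 z, c q = c' q}).Nonempty := by
    refine ⟨b, hbO, ?_⟩
    rcases hcov hbO with h3 | h3
    · exact h3
    · exact absurd h3.self_of_nhds hb
  have hne2 : (O ∩ {z | ∀ᶠ q in 𝓝 z, c q = -c' q}).Nonempty := by
    refine ⟨a, haO, ?_⟩
    rcases hcov haO with h3 | h3
    · exact absurd h3.self_of_nhds ha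
    · exact h3
  obtain ⟨z, hzO, hz1, hz2⟩ := hO _ _ isOpen_setOf_eventually_nhds isOpen_setOf_eventually_nhds
    hcov hne1 hne2
  have hz3 : ∀ᶠ q in 𝓝 z, c q = 0 := by
    have hz1' : ∀ᶠ q in 𝓝 z, c q = c' q := hz1
    have hz2' : ∀ᶠ q in 𝓝 z, c q = -c' q := hz2
    filter_upwards [hz1', hz2'] with q hq hq'
    linarith
  exact (h.nz hk hOΩ hzO) (hz3.mono fun q hq => by simpa using hq)

/-- two good functions on a preconnected set which agree near a point agree everywhere. -/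
theorem Good.unique (hk : Model k Ω) (hOΩ : O ⊆ Ω) (hO : IsPreconnected O)
    (h : Good k O c) (h' : Good k O c') {p : E} (hp : p ∈ O)
    (hpc : ∀ᶠ q in 𝓝 p, q ∈ O → c q = c' q) (hOp : O ∈ 𝓝 p) : ∀ q ∈ O, c q = c' q := by
  rcases h.ratio hk hOΩ hO h' with h1 | h1
  · exact h1
  · exfalso
    refine (h.nz hk hOΩ hp) ?_
    filter_upwards [hpc, hOp] with q hq hqO
    have := h1 q hqO
    have := hq hqO
    simp only [ne_eq, not_not]
    linarith

/-- gluing two good functions over a preconnected intersection. -/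
theorem Good.glue (hk : Model k Ω) (hOΩ : O ⊆ Ω) (hoO : IsOpen O) (hoO' : IsOpen O')
    (hc : IsPreconnected (O ∩ O')) (h : Good k O c) (h' : Good k O' c') :
    ∃ c'' : E → ℝ, Good k (O ∪ O') c'' := by
  classical
  have key : ∀ d : E → ℝ, Good k O' d → (∀ q ∈ O ∩ O', c q = d q) →
      ∃ c'' : E → ℝ, Good k (O ∪ O') c'' := by
    intro d hd hcd
    refine ⟨fun q => if q ∈ O then c q else d q, ?_⟩
    rintro z (hz | hz)
    · obtain ⟨ε, h1, h2⟩ := h z hz
      refine ⟨ε, h1, ?_⟩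
      filter_upwards [h2, hoO.mem_nhds hz] with q hq hqO
      rw [if_pos hqO, hq]
    · obtain ⟨ε, h1, h2⟩ := hd z hz
      refine ⟨ε, h1, ?_⟩
      filter_upwards [h2, hoO'.mem_nhds hz] with q hq hqO
      by_cases hqO' : q ∈ O
      · rw [if_pos hqO', ← hq, hcd q ⟨hqO', hqO⟩]
      · rw [if_neg hqO', hq]
  rcases (h.mono inter_subset_left).ratio hk (inter_subset_left.trans hOΩ) hc
    (h'.mono inter_subset_right) with h1 | h1
  · exact key c' h' h1
  · exact key _ h'.neg h1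

/-- good functions exist near every point. -/
theorem Model.exists_ball (hk : Model k Ω) {z : E} (hz : z ∈ Ω) :
    ∃ r > 0, Good k (ball z r) (k z) := by
  obtain ⟨r, hr, h⟩ := Metric.eventually_nhds_iff_ball.1 (hk.comp z hz)
  exact ⟨r, hr, fun z' hz' => h z' hz'⟩

/-- good functions exist near segments. -/
theorem Model.exists_tube (hk : Model k Ω) {D : Set E} (hD : IsOpen D) (hDΩ : D ⊆ Ω) {a b : E}
    (hab : segment ℝ a b ⊆ D) :
    ∃ (T : Set E) (c : E → ℝ), IsOpen T ∧ Convex ℝ T ∧ T ⊆ D ∧ a ∈ T ∧ b ∈ T ∧ Good k T c := by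
  classical
  have hcomp : IsCompact (segment ℝ a b) := by
    rw [segment_eq_image_lineMap]
    exact isCompact_Icc.image AffineMap.lineMap_continuous
  choose! r hr hgood using fun (z : E) (hz : z ∈ Ω) => hk.exists_ball hz
  obtain ⟨δ, hδ, hcov⟩ := lebesgue_number_lemma_of_metric (ι := segment ℝ a b) hcomp
    (c := fun z => ball (z : E) (r z) ∩ D) (fun z => isOpen_ball.inter hD) (by
      intro z hz
      exact mem_iUnion.2 ⟨⟨z, hz⟩, mem_ball_self (hr z (hDΩ (hab hz))), hab hz⟩)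
  obtain ⟨N, hN0, hN⟩ : ∃ N : ℕ, 0 < N ∧ dist a b / N < δ / 2 := by
    obtain ⟨N, hN⟩ := exists_nat_gt (dist a b / (δ / 2))
    have hN0 : (0 : ℝ) < N := lt_of_le_of_lt (by positivity) hN
    refine ⟨N, by exact_mod_cast hN0, ?_⟩
    rw [div_lt_iff₀ hN0]
    rw [div_lt_iff₀ (by positivity)] at hN
    linarith
  have hN0' : (0 : ℝ) < N := by exact_mod_cast hN0
  set γ : ℝ → E := fun t => (AffineMap.lineMap a b : ℝ →ᵃ[ℝ] E) t with hγ
  have hγc : Continuous γ := AffineMap.lineMap_continuous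
  have hγseg : ∀ t ∈ Icc (0 : ℝ) 1, γ t ∈ segment ℝ a b := fun t ht => by
    rw [segment_eq_image_lineMap]; exact ⟨t, ht, rfl⟩
  have hconv : ∀ s t : ℝ, Convex ℝ (thickening (δ / 2) (γ '' Icc s t)) := fun s t =>
    ((convex_Icc s t).affine_image (AffineMap.lineMap a b : ℝ →ᵃ[ℝ] E)).thickening _
  have hdist : ∀ s t : ℝ, dist (γ s) (γ t) = |s - t| * dist a b := fun s t => by
    simp only [hγ, dist_lineMap_lineMap, Real.dist_eq]
  -- local pieces
  have hloc : ∀ i : ℕ, i < N → ∃ c : E → ℝ,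
      Good k (thickening (δ / 2) (γ '' Icc ((i : ℝ) / N) ((i + 1 : ℝ) / N))) c ∧
      thickening (δ / 2) (γ '' Icc ((i : ℝ) / N) ((i + 1 : ℝ) / N)) ⊆ D := by
    intro i hi
    have hi' : (i : ℝ) + 1 ≤ N := by exact_mod_cast hi
    have hmem : (i : ℝ) / N ∈ Icc (0 : ℝ) 1 :=
      ⟨by positivity, by rw [div_le_one hN0']; linarith⟩
    obtain ⟨z, hz⟩ := hcov _ (hγseg _ hmem)
    have hsub : thickening (δ / 2) (γ '' Icc ((i : ℝ) / N) ((i + 1 : ℝ) / N)) ⊆
        ball (γ ((i : ℝ) / N)) δ := by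
      intro x hx
      rw [mem_thickening_iff] at hx
      obtain ⟨y, ⟨t, ht, rfl⟩, hxy⟩ := hx
      rw [mem_ball]
      have h1 : dist (γ t) (γ ((i : ℝ) / N)) ≤ dist a b / N := by
        rw [hdist, abs_of_nonneg (by linarith [ht.1])]
        have h2 : t - (i : ℝ) / N ≤ 1 / N := by
          have h3 := ht.2
          rw [add_div] at h3
          linarith
        calc (t - (i : ℝ) / N) * dist a b ≤ 1 / N * dist a b :=
              mul_le_mul_of_nonneg_right h2 dist_nonneg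
          _ = dist a b / N := by ring
      calc dist x (γ ((i : ℝ) / N)) ≤ dist x (γ t) + dist (γ t) (γ ((i : ℝ) / N)) :=
            dist_triangle _ _ _
        _ < δ := by linarith
    refine ⟨k z, ?_, ?_⟩
    · exact (hgood z (hDΩ (hab z.2))).mono ((hsub.trans hz).trans inter_subset_left)
    · exact (hsub.trans hz).trans inter_subset_right
  have key : ∀ i : ℕ, i < N → ∃ c : E → ℝ,
      Good k (thickening (δ / 2) (γ '' Icc 0 ((i + 1 : ℝ) / N))) c ∧
      thickening (δ / 2) (γ '' Icc 0 ((i + 1 : ℝ) / N)) ⊆ D := by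
    intro i
    induction i with
    | zero => intro hi; simpa using hloc 0 hi
    | succ i ih =>
      intro hi
      obtain ⟨c, hc, hcD⟩ := ih (by omega)
      obtain ⟨d, hd, hdD⟩ := hloc (i + 1) hi
      have hunion : thickening (δ / 2) (γ '' Icc 0 ((((i + 1 : ℕ) : ℝ) + 1) / N)) =
          thickening (δ / 2) (γ '' Icc 0 ((i + 1 : ℝ) / N)) ∪
          thickening (δ / 2) (γ '' Icc (((i + 1 : ℕ) : ℝ) / N)
            ((((i + 1 : ℕ) : ℝ) + 1) / N)) := by
        rw [← thickening_union, ← image_union]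
        push_cast
        rw [Icc_union_Icc_eq_Icc (by positivity)]
        rw [div_le_div_iff_of_pos_right hN0']
        linarith
      rw [hunion]
      obtain ⟨e, he⟩ := hc.glue hk (hcD.trans hDΩ) isOpen_thickening isOpen_thickening
        (((hconv _ _).inter (hconv _ _)).isPreconnected) hd
      exact ⟨e, he, union_subset hcD hdD⟩
  obtain ⟨c, hc, hcD⟩ := key (N - 1) (by omega)
  have hcast : (((N - 1 : ℕ) : ℝ) + 1) / N = 1 := by
    rw [Nat.cast_sub (by omega : 1 ≤ N)]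
    push_cast
    rw [sub_add_cancel, div_self hN0'.ne']
  rw [hcast] at hc hcD
  refine ⟨thickening (δ / 2) (γ '' Icc 0 1), c, isOpen_thickening, hconv _ _, hcD, ?_, ?_, hc⟩
  · exact self_subset_thickening (by positivity) _ ⟨0, by simp, by simp [hγ]⟩
  · exact self_subset_thickening (by positivity) _ ⟨1, by simp, by simp [hγ]⟩

/-- good functions exist on convex open sets. -/
theorem Model.exists_convex (hk : Model k Ω) {D : Set E} (hD : IsOpen D) (hDΩ : D ⊆ Ω)
    (hDc : Convex ℝ D) : ∃ c : E → ℝ, Good k D c := by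
  classical
  rcases D.eq_empty_or_nonempty with rfl | ⟨p, hp⟩
  · exact ⟨0, fun z hz => absurd hz (notMem_empty z)⟩
  have h0 : ∀ q ∈ D, ∃ (T : Set E) (c : E → ℝ), (IsOpen T ∧ Convex ℝ T ∧ T ⊆ D ∧ p ∈ T ∧ q ∈ T ∧
      Good k T c) ∧ ∀ᶠ x in 𝓝 p, c x = k p x := by
    intro q hq
    obtain ⟨T, c, h1, h2, h3, h4, h5, h6⟩ := hk.exists_tube hD hDΩ (hDc.segment_subset hp hq)
    obtain ⟨ε, h7, h8⟩ := h6 p h4
    rcases sq_one h7 with rfl | rfl
    · exact ⟨T, c, ⟨h1, h2, h3, h4, h5, h6⟩, by simpa using h8⟩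
    · exact ⟨T, fun x => -c x, ⟨h1, h2, h3, h4, h5, h6.neg⟩, h8.mono fun x hx => by
        show -c x = k p x
        rw [hx]; ring⟩
  choose! T c h1 h2 using h0
  refine ⟨fun q => c q q, ?_⟩
  intro q hq
  obtain ⟨ho, hcv, hsub, hpT, hqT, hg⟩ := h1 q hq
  obtain ⟨ε, h3, h4⟩ := hg q hqT
  refine ⟨ε, h3, ?_⟩
  filter_upwards [h4, ho.mem_nhds hqT] with x hx hxT
  obtain ⟨ho', hcv', hsub', hpT', hqT', hg'⟩ := h1 x (hsub hxT)
  have h5 : ∀ y ∈ T x ∩ T q, c x y = c q y := by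
    refine Good.unique hk ((inter_subset_left.trans hsub').trans hDΩ)
      (hcv'.inter hcv).isPreconnected (hg'.mono inter_subset_left) (hg.mono inter_subset_right)
      ⟨hpT', hpT⟩ ?_ ((ho'.inter ho).mem_nhds ⟨hpT', hpT⟩)
    filter_upwards [h2 x (hsub hxT), h2 q hq] with y hy hy' _
    rw [hy, hy']
  rw [h5 x ⟨hqT', hxT⟩, hx]

end Normed

section Inner

variable {E : Type*} [NormedAddCommGroup E] [InnerProductSpace ℝ E] {k : E → E → ℝ}

/-- open half space. -/
def Hs (e : E) : Set E := {q | 0 < inner ℝ e q}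

theorem isOpen_Hs (e : E) : IsOpen (Hs e) :=
  isOpen_lt continuous_const (continuous_const.inner continuous_id)

theorem convex_Hs (e : E) : Convex ℝ (Hs e) := by
  intro x hx y hy a b ha hb hab
  simp only [Hs, mem_setOf_eq] at hx hy ⊢
  rw [inner_add_right, inner_smul_right, inner_smul_right]
  rcases ha.eq_or_lt with rfl | ha'
  · have : b = 1 := by linarith
    subst this; simpa using hy
  · have : 0 ≤ b * inner ℝ e y := mul_nonneg hb hy.le
    have : 0 < a * inner ℝ e x := mul_pos ha' hx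
    linarith

theorem Hs_subset (e : E) : Hs e ⊆ {0}ᶜ := by
  intro q hq h
  rw [mem_singleton_iff] at h
  subst h
  simp [Hs] at hq

/-- a vector orthogonal to `e`, `e'` gives a half space meeting the (nonempty) intersection. -/
theorem Hs_inter {e e' w : E} (hw : w ≠ 0) (h1 : inner ℝ e w = 0) (h2 : inner ℝ e' w = 0)
    (h : (Hs e ∩ Hs e').Nonempty) : (Hs e ∩ Hs e' ∩ Hs w).Nonempty := by
  obtain ⟨q, hq, hq'⟩ := h
  simp only [Hs, mem_setOf_eq] at hq hq'
  have hww : 0 < inner ℝ w w := real_inner_self_pos.2 hw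
  refine ⟨q + ((|inner ℝ w q| + 1) / inner ℝ w w) • w, ⟨?_, ?_⟩, ?_⟩ <;>
    simp only [Hs, mem_setOf_eq, inner_add_right, inner_smul_right]
  · rw [h1]; linarith
  · rw [h2]; linarith
  · rw [div_mul_cancel₀ _ hww.ne']
    have := neg_abs_le (inner ℝ w q)
    linarith

/-- global good functions on `E \ {0}` in dimension `≥ 4` (every three vectors have a common
normal). -/
theorem Model.exists_compl_zero (hdim : ∀ a b c : E, ∃ w : E, w ≠ 0 ∧ inner ℝ a w = 0 ∧
    inner ℝ b w = 0 ∧ inner ℝ c w = 0) (hk : Model k ({0}ᶜ : Set E)) :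
    ∃ c : E → ℝ, Good k ({0}ᶜ : Set E) c := by
  classical
  obtain ⟨e₀, he₀, -⟩ := hdim 0 0 0
  have hg0 : ∀ e : E, ∃ c : E → ℝ, Good k (Hs e) c := fun e =>
    hk.exists_convex (isOpen_Hs e) (Hs_subset e) (convex_Hs e)
  choose g hg using hg0
  -- normalisation
  have hn : ∀ e : E, ∃ c : E → ℝ, Good k (Hs e) c ∧ ∀ q ∈ Hs e ∩ Hs e₀, c q = g e₀ q := by
    intro e
    rcases ((hg e).mono (inter_subset_left (t := Hs e₀))).ratio hk
      (inter_subset_left.trans (Hs_subset e)) ((convex_Hs e).inter (convex_Hs e₀)).isPreconnected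
      ((hg e₀).mono inter_subset_right) with h | h
    · exact ⟨g e, hg e, h⟩
    · exact ⟨fun q => -g e q, (hg e).neg, fun q hq => by
        show -g e q = g e₀ q
        rw [h q hq, neg_neg]⟩
  choose c hc hc0 using hn
  -- agreement under triple intersections
  have hag : ∀ e e' : E, (∃ U : Set E, U.Nonempty ∧ IsOpen U ∧ U ⊆ Hs e ∩ Hs e' ∧
      ∀ q ∈ U, c e q = c e' q) → ∀ q ∈ Hs e ∩ Hs e', c e q = c e' q := by
    rintro e e' ⟨U, ⟨p, hp⟩, hUo, hU, hUc⟩
    refine Good.unique hk (inter_subset_left.trans (Hs_subset e))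
      ((convex_Hs e).inter (convex_Hs e')).isPreconnected ((hc e).mono inter_subset_left)
      ((hc e').mono inter_subset_right) (hU hp) ?_
      (((isOpen_Hs e).inter (isOpen_Hs e')).mem_nhds (hU hp))
    filter_upwards [hUo.mem_nhds hp] with q hq _
    exact hUc q hq
  have hcomp : ∀ e e' : E, (Hs e ∩ Hs e₀).Nonempty → (Hs e' ∩ Hs e₀).Nonempty →
      ∀ q ∈ Hs e ∩ Hs e', c e q = c e' q := by
    intro e e' he he' q hq
    obtain ⟨w, hw, hw1, hw2, hw3⟩ := hdim e e' e₀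
    have key : ∀ f : E, inner ℝ f w = 0 → (Hs f ∩ Hs e₀).Nonempty →
        ∀ q ∈ Hs f ∩ Hs w, c f q = c w q := by
      intro f hf hfn
      refine hag f w ⟨Hs f ∩ Hs e₀ ∩ Hs w, Hs_inter hw hf hw3 hfn,
        ((isOpen_Hs f).inter (isOpen_Hs e₀)).inter (isOpen_Hs w), ?_, ?_⟩
      · exact fun x hx => ⟨hx.1.1, hx.2⟩
      · intro x hx
        rw [hc0 f x hx.1, hc0 w x ⟨hx.2, hx.1.2⟩]
    refine hag e e' ⟨Hs e ∩ Hs e' ∩ Hs w, Hs_inter hw hw1 hw2 ⟨q, hq⟩,
        ((isOpen_Hs e).inter (isOpen_Hs e')).inter (isOpen_Hs w), inter_subset_left, ?_⟩ q hq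
    intro x hx
    rw [key e hw1 he x ⟨hx.1.1, hx.2⟩, key e' hw2 he' x ⟨hx.1.2, hx.2⟩]
  have hex : ∀ q : E, q ≠ 0 → ∃ e : E, q ∈ Hs e ∧ (Hs e ∩ Hs e₀).Nonempty := by
    intro q hq
    obtain ⟨w, hw, hw1, hw2, -⟩ := hdim q e₀ 0
    have hqq : 0 < inner ℝ q q := real_inner_self_pos.2 hq
    have hww : 0 < inner ℝ w w := real_inner_self_pos.2 hw
    have h00 : 0 < inner ℝ e₀ e₀ := real_inner_self_pos.2 he₀
    have hw1' : inner ℝ w q = 0 := by rw [real_inner_comm]; exact hw1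
    have hw2' : inner ℝ w e₀ = 0 := by rw [real_inner_comm]; exact hw2
    refine ⟨q + w, ?_, e₀ + ((|inner ℝ q e₀| + 1) / inner ℝ w w) • w, ?_, ?_⟩ <;>
      simp only [Hs, mem_setOf_eq, inner_add_right, inner_smul_right, inner_add_left]
    · rw [hw1']; linarith
    · rw [hw1, hw2', mul_zero, div_mul_cancel₀ _ hww.ne']
      have := neg_abs_le (inner ℝ q e₀)
      linarith
    · rw [hw2]; linarith
  choose! e hqe hne using hex
  refine ⟨fun q => c (e q) q, ?_⟩
  intro q hq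
  have hq' : q ≠ 0 := hq
  obtain ⟨ε, h1, h2⟩ := hc (e q) q (hqe q hq')
  refine ⟨ε, h1, ?_⟩
  filter_upwards [h2, (isOpen_Hs (e q)).mem_nhds (hqe q hq')] with x hx hxe
  have hx0 : x ≠ 0 := Hs_subset (e q) hxe
  rw [hcomp (e x) (e q) (hne x hx0) (hne q hq') x ⟨hqe x hx0, hxe⟩, hx]

end Inner

end Crest.Agent.R246.JA939
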