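import Crest.Agent.R246.JA1_939
import Mathlib.Data.Real.Sign
import Mathlib.Topology.Separation.Hausdorff
import Mathlib.Topology.Order.IntermediateValue
import Mathlib.Topology.OpenPartialHomeomorph.Basic

/-!
# Row 246, part JA, 2: local models from defining functions of the sheets

`G : N → E` is a locally injective map which is locally a two-sided topological hypersurface;
`h y` is a defining function of the sheet through `y`.  `kk fib h z = ∏ sign (h y)` over the
fibre of `z` is a compatible family of local models.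
-/

set_option autoImplicit false
set_option linter.deprecated false
set_option linter.unusedSectionVars false

open Set Filter Topology Metric

namespace Crest.Agent.R246.JA939

section Two

variable {E : Type*} [TopologicalSpace E]

/-- `h` takes both signs near `z`, and its two sides are locally connected near `z`. -/
structure TwoSided (h : E → ℝ) (z : E) : Prop where
  pos : ∃ᶠ q in 𝓝 z, 0 < h q
  neg : ∃ᶠ q in 𝓝 z, h q < 0
  conn : ∀ U ∈ 𝓝 z, ∃ B ∈ 𝓝 z, B ⊆ U ∧ IsPreconnected (B ∩ {q | 0 < h q}) ∧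
    IsPreconnected (B ∩ {q | h q < 0})

theorem sign_const {S : Set E} {f : E → ℝ} (hS : IsPreconnected S) (hf : ContinuousOn f S)
    (h0 : ∀ q ∈ S, f q ≠ 0) : (∀ q ∈ S, 0 < f q) ∨ (∀ q ∈ S, f q < 0) := by
  by_contra hcon
  rw [not_or] at hcon
  obtain ⟨h1, h2⟩ := hcon
  push Not at h1 h2
  obtain ⟨a, ha, ha'⟩ := h1
  obtain ⟨b, hb, hb'⟩ := h2
  obtain ⟨q, hq, hq'⟩ := hS.intermediate_value ha hb hf ⟨ha', hb'⟩
  exact h0 q hq hq'

/-- two defining functions of the same two-sided set have locally constant sign ratio. -/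
theorem sign_ratio {h h' : E → ℝ} {z : E} (hc' : ∀ᶠ q in 𝓝 z, ContinuousAt h' q)
    (hz : ∀ᶠ q in 𝓝 z, (h q = 0 ↔ h' q = 0)) (ht : TwoSided h z) (ht' : TwoSided h' z) :
    ∃ ε : ℝ, ε * ε = 1 ∧ ∀ᶠ q in 𝓝 z, Real.sign (h q) = ε * Real.sign (h' q) := by
  obtain ⟨B, hB, hBU, hBp, hBn⟩ := ht.conn _ (hc'.and hz)
  have hcont : ∀ S : Set E, S ⊆ B → ContinuousOn h' S := fun S hS q hq =>
    (hBU (hS hq)).1.continuousWithinAt
  have h1 : (∀ q ∈ B ∩ {q | 0 < h q}, 0 < h' q) ∨ (∀ q ∈ B ∩ {q | 0 < h q}, h' q < 0) :=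
    sign_const hBp (hcont _ inter_subset_left) fun q hq h0 =>
      (ne_of_gt hq.2) ((hBU hq.1).2.2 h0)
  have h2 : (∀ q ∈ B ∩ {q | h q < 0}, 0 < h' q) ∨ (∀ q ∈ B ∩ {q | h q < 0}, h' q < 0) :=
    sign_const hBn (hcont _ inter_subset_left) fun q hq h0 =>
      (ne_of_lt hq.2) ((hBU hq.1).2.2 h0)
  rcases h1 with h1 | h1 <;> rcases h2 with h2 | h2
  · exfalso
    refine ht'.neg ?_
    filter_upwards [hB] with q hq
    rcases lt_trichotomy (h q) 0 with h3 | h3 | h3
    · exact not_lt.2 (h2 q ⟨hq, h3⟩).le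
    · rw [(hBU hq).2.1 h3]; exact lt_irrefl _
    · exact not_lt.2 (h1 q ⟨hq, h3⟩).le
  · refine ⟨1, by norm_num, ?_⟩
    filter_upwards [hB] with q hq
    rcases lt_trichotomy (h q) 0 with h3 | h3 | h3
    · rw [Real.sign_of_neg h3, Real.sign_of_neg (h2 q ⟨hq, h3⟩)]; norm_num
    · rw [h3, (hBU hq).2.1 h3, Real.sign_zero]; norm_num
    · rw [Real.sign_of_pos h3, Real.sign_of_pos (h1 q ⟨hq, h3⟩)]; norm_num
  · refine ⟨-1, by norm_num, ?_⟩
    filter_upwards [hB] with q hq
    rcases lt_trichotomy (h q) 0 with h3 | h3 | h3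
    · rw [Real.sign_of_neg h3, Real.sign_of_pos (h2 q ⟨hq, h3⟩)]; norm_num
    · rw [h3, (hBU hq).2.1 h3, Real.sign_zero]; norm_num
    · rw [Real.sign_of_pos h3, Real.sign_of_neg (h1 q ⟨hq, h3⟩)]; norm_num
  · exfalso
    refine ht'.pos ?_
    filter_upwards [hB] with q hq
    rcases lt_trichotomy (h q) 0 with h3 | h3 | h3
    · exact not_lt.2 (h2 q ⟨hq, h3⟩).le
    · rw [(hBU hq).2.1 h3]; exact lt_irrefl _
    · exact not_lt.2 (h1 q ⟨hq, h3⟩).le

/-- the sign of a function is locally constant where it does not vanish. -/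
theorem sign_eventually {h : E → ℝ} {z : E} (hc : ContinuousAt h z) (hz : h z ≠ 0) :
    ∃ ε : ℝ, ε * ε = 1 ∧ ∀ᶠ q in 𝓝 z, Real.sign (h q) = ε * 1 := by
  rcases lt_or_gt_of_ne hz with h0 | h0
  · refine ⟨-1, by norm_num, ?_⟩
    filter_upwards [hc.eventually (gt_mem_nhds h0)] with q hq
    rw [Real.sign_of_neg hq]; norm_num
  · refine ⟨1, by norm_num, ?_⟩
    filter_upwards [hc.eventually (lt_mem_nhds h0)] with q hq
    rw [Real.sign_of_pos hq]; norm_num

theorem prod_ratio {ι : Type*} (A : Finset ι) {l : Filter E} {f g : ι → E → ℝ}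
    (h : ∀ i ∈ A, ∃ ε : ℝ, ε * ε = 1 ∧ ∀ᶠ q in l, f i q = ε * g i q) :
    ∃ ε : ℝ, ε * ε = 1 ∧ ∀ᶠ q in l, ∏ i ∈ A, f i q = ε * ∏ i ∈ A, g i q := by
  classical
  induction A using Finset.induction_on with
  | empty => exact ⟨1, by norm_num, Eventually.of_forall fun q => by simp⟩
  | insert a A ha ih =>
    obtain ⟨ε, h1, h2⟩ := ih fun i hi => h i (Finset.mem_insert_of_mem hi)
    obtain ⟨η, h3, h4⟩ := h a (Finset.mem_insert_self _ _)
    refine ⟨η * ε, by rw [mul_mul_mul_comm, h1, h3, one_mul], ?_⟩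
    filter_upwards [h2, h4] with q hq hq'
    rw [Finset.prod_insert ha, Finset.prod_insert ha, hq, hq']
    ring

/-- finitely many two-sided functions are simultaneously nonzero somewhere in each open set. -/
theorem exists_ne_zero {ι : Type*} (A : Finset ι) {h : ι → E → ℝ} {U : Set E} (hU : IsOpen U)
    (hne : U.Nonempty) (hc : ∀ i ∈ A, ∀ q ∈ U, ContinuousAt (h i) q)
    (ht : ∀ i ∈ A, ∀ q ∈ U, h i q = 0 → TwoSided (h i) q) :
    ∃ q ∈ U, ∀ i ∈ A, h i q ≠ 0 := by
  classical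
  induction A using Finset.induction_on with
  | empty =>
    obtain ⟨q, hq⟩ := hne
    exact ⟨q, hq, fun i hi => absurd hi (Finset.notMem_empty i)⟩
  | insert a A ha ih =>
    obtain ⟨q, hq, hqA⟩ := ih (fun i hi => hc i (Finset.mem_insert_of_mem hi))
      (fun i hi => ht i (Finset.mem_insert_of_mem hi))
    by_cases h0 : h a q = 0
    · have h1 := (ht a (Finset.mem_insert_self _ _) q hq h0).pos
      have h2 : ∀ᶠ q' in 𝓝 q, ∀ i ∈ A, h i q' ≠ 0 := by
        rw [Filter.eventually_all_finset]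
        intro i hi
        exact (hc i (Finset.mem_insert_of_mem hi) q hq).eventually_ne (hqA i hi)
      obtain ⟨q', h3, h4, h5⟩ := (h1.and_eventually (h2.and (hU.mem_nhds hq))).exists
      refine ⟨q', h5, fun i hi => ?_⟩
      rcases Finset.mem_insert.1 hi with rfl | hi
      · exact h3.ne'
      · exact h4 i hi
    · refine ⟨q, hq, fun i hi => ?_⟩
      rcases Finset.mem_insert.1 hi with rfl | hi
      · exact h0
      · exact hqA i hi

end Two

section Def

variable {E N : Type*} [TopologicalSpace E] [TopologicalSpace N]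

/-- `h` is a defining function of the sheet of `G` through `y`. -/
structure IsDef (G : N → E) (y : N) (h : E → ℝ) : Prop where
  van : ∀ᶠ y' in 𝓝 y, h (G y') = 0
  surj : ∀ᶠ y' in 𝓝 y, ∀ V ∈ 𝓝 y', ∀ᶠ q in 𝓝 (G y'), h q = 0 → q ∈ G '' V
  cont : ∀ᶠ q in 𝓝 (G y), ContinuousAt h q
  two : ∀ᶠ q in 𝓝 (G y), h q = 0 → TwoSided h q

variable {G : N → E} {y : N} {h h' : E → ℝ}

theorem IsDef.eventually (hG : Continuous G) (H : IsDef G y h) :
    ∀ᶠ y' in 𝓝 y, IsDef G y' h := by
  have h1 := hG.continuousAt.eventually (eventually_eventually_nhds.2 H.cont)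
  have h2 := hG.continuousAt.eventually (eventually_eventually_nhds.2 H.two)
  filter_upwards [eventually_eventually_nhds.2 H.van, eventually_eventually_nhds.2 H.surj, h1, h2]
    with y' a b c d
  exact ⟨a, b, c, d⟩

theorem IsDef.ratio (H : IsDef G y h) (H' : IsDef G y h') :
    ∃ ε : ℝ, ε * ε = 1 ∧ ∀ᶠ q in 𝓝 (G y), Real.sign (h q) = ε * Real.sign (h' q) := by
  refine sign_ratio H'.cont ?_ (H.two.self_of_nhds H.van.self_of_nhds)
    (H'.two.self_of_nhds H'.van.self_of_nhds)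
  filter_upwards [H.surj.self_of_nhds _ H'.van, H'.surj.self_of_nhds _ H.van] with q h1 h2
  constructor
  · intro h0
    obtain ⟨y', hy', rfl⟩ := h1 h0
    exact hy'
  · intro h0
    obtain ⟨y', hy', rfl⟩ := h2 h0
    exact hy'

end Def

section Sheets

variable {E N : Type*} [TopologicalSpace E] [TopologicalSpace N]

/-- a proper family of sheets over the open set `Ω`, with finite fibres `fib`. -/
structure Sheets (G : N → E) (fib : E → Finset N) (h : N → E → ℝ) (Ω : Set E) : Prop where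
  isDef : ∀ y, IsDef G y (h y)
  inj : ∀ y, ∃ V ∈ 𝓝 y, InjOn G V
  cont : Continuous G
  isOpen : IsOpen Ω
  mem_fib : ∀ z ∈ Ω, ∀ y, y ∈ fib z ↔ G y = z
  closed : ∀ z ∈ Ω, ∀ V : Set N, IsOpen V → (∀ y ∈ fib z, y ∈ V) →
    ∀ᶠ z' in 𝓝 z, ∀ y, G y = z' → y ∈ V

/-- the local models. -/
noncomputable def kk (fib : E → Finset N) (h : N → E → ℝ) (z q : E) : ℝ :=
  ∏ y ∈ fib z, Real.sign (h y q)

end Sheets

theorem Sheets.model {E N : Type*} [NormedAddCommGroup E] [TopologicalSpace N] [T2Space N]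
    {G : N → E} {fib : E → Finset N} {h : N → E → ℝ} {Ω : Set E} (S : Sheets G fib h Ω) :
    Model (kk fib h) Ω := by
  classical
  have hGy : ∀ z ∈ Ω, ∀ y ∈ fib z, G y = z := fun z hz y hy => (S.mem_fib z hz y).1 hy
  refine ⟨fun z hz => ?_, fun z hz => ?_⟩
  · -- compatibility
    obtain ⟨U, hU, hUd⟩ := (fib z).finite_toSet.t2_separation
    -- neighbourhoods of the points of the fibre
    have hV0 : ∀ y, ∃ V : Set N, IsOpen V ∧ y ∈ V ∧ V ⊆ U y ∧ InjOn G V ∧
        (∀ y' ∈ V, h y (G y') = 0) ∧ ∀ y' ∈ V, IsDef G y' (h y) := by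
      intro y
      obtain ⟨V₁, hV₁, hinj⟩ := S.inj y
      obtain ⟨V, hV, hVo, hyV⟩ := mem_nhds_iff.1 (inter_mem (inter_mem hV₁
        ((hU y).2.mem_nhds (hU y).1)) ((S.isDef y).van.and ((S.isDef y).eventually S.cont)))
      exact ⟨V, hVo, hyV, fun y' hy' => (hV hy').1.2, hinj.mono fun y' hy' => (hV hy').1.1,
        fun y' hy' => (hV hy').2.1, fun y' hy' => (hV hy').2.2⟩
    choose V hVo hyV hVU hVinj hVvan hVdef using hV0
    have hVdisj : ∀ y ∈ fib z, ∀ y' ∈ fib z, ∀ x, x ∈ V y → x ∈ V y' → y = y' := by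
      intro y hy y' hy' x hx hx'
      by_contra hne
      exact (Set.disjoint_left.1 (hUd (Finset.mem_coe.2 hy) (Finset.mem_coe.2 hy') hne))
        (hVU y hx) (hVU y' hx')
    have e1 : ∀ᶠ z' in 𝓝 z, ∀ y, G y = z' → y ∈ ⋃ y ∈ fib z, V y :=
      S.closed z hz _ (isOpen_biUnion fun y _ => hVo y) fun y hy => mem_biUnion hy (hyV y)
    have e2 : ∀ᶠ z' in 𝓝 z, ∀ y ∈ fib z, ContinuousAt (h y) z' ∧ (h y z' = 0 → z' ∈ G '' V y) := by
      rw [Filter.eventually_all_finset]
      intro y hy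
      have h1 := (S.isDef y).cont
      have h2 := (S.isDef y).surj.self_of_nhds (V y) ((hVo y).mem_nhds (hyV y))
      rw [hGy z hz y hy] at h1 h2
      exact h1.and h2
    filter_upwards [e1, e2, S.isOpen.mem_nhds hz] with z' hz1 hz2 hz3
    -- points over z'
    have hσ : ∀ y ∈ fib z, h y z' = 0 → ∃ y', y' ∈ V y ∧ G y' = z' := fun y hy h0 =>
      (hz2 y hy).2 h0
    choose! σ hσV hσG using hσ
    have hfib : fib z' = ((fib z).filter fun y => h y z' = 0).image σ := by
      ext y'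
      rw [S.mem_fib z' hz3, Finset.mem_image]
      constructor
      · intro hy'
        obtain ⟨y, hy, hyy'⟩ : ∃ y, y ∈ fib z ∧ y' ∈ V y := by
          have := hz1 y' hy'
          simpa only [mem_iUnion, exists_prop] using this
        have h0 : h y z' = 0 := by rw [← hy']; exact hVvan y y' hyy'
        exact ⟨y, Finset.mem_filter.2 ⟨hy, h0⟩,
          hVinj y (hσV y hy h0) hyy' (by rw [hσG y hy h0, hy'])⟩
      · rintro ⟨y, hy, rfl⟩
        rw [Finset.mem_filter] at hy
        exact hσG y hy.1 hy.2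
    have hkk : ∀ q, kk fib h z' q = ∏ y ∈ fib z, if h y z' = 0 then Real.sign (h (σ y) q) else 1 := by
      intro q
      rw [kk, hfib, Finset.prod_image, Finset.prod_filter]
      intro y hy y' hy' he
      rw [Finset.mem_coe, Finset.mem_filter] at hy hy'
      exact hVdisj y hy.1 y' hy'.1 (σ y) (hσV y hy.1 hy.2) (he ▸ hσV y' hy'.1 hy'.2)
    simp only [hkk]
    refine prod_ratio (fib z) (f := fun y q => Real.sign (h y q)) fun y hy => ?_
    by_cases h0 : h y z' = 0
    · simp only [h0, if_true]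
      have h3 := (hVdef y (σ y) (hσV y hy h0)).ratio (S.isDef (σ y))
      rwa [hσG y hy h0] at h3
    · simp only [h0, if_false]
      exact sign_eventually (hz2 y hy).1 h0
  · -- nonvanishing
    rw [Filter.frequently_iff]
    intro W hW
    have e1 : ∀ᶠ q in 𝓝 z, ∀ y ∈ fib z, ContinuousAt (h y) q ∧ (h y q = 0 → TwoSided (h y) q) := by
      rw [Filter.eventually_all_finset]
      intro y hy
      have h1 := (S.isDef y).cont
      have h2 := (S.isDef y).two
      rw [hGy z hz y hy] at h1 h2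
      exact h1.and h2
    obtain ⟨U, hU, hUo, hzU⟩ := _root_.mem_nhds_iff.1 (inter_mem hW e1)
    obtain ⟨q, hqU, hq⟩ := exists_ne_zero (fib z) (h := h) hUo ⟨z, hzU⟩
      (fun y hy q hq => ((hU hq).2 y hy).1) (fun y hy q hq => ((hU hq).2 y hy).2)
    refine ⟨q, (hU hqU).1, ?_⟩
    rw [kk, Finset.prod_ne_zero_iff]
    intro y hy h0
    exact hq y hy (Real.sign_eq_zero_iff.1 h0)

end Crest.Agent.R246.JA939
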