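import Crest.Agent.R246.J0_816
import Mathlib.LinearAlgebra.Matrix.Determinant.Basic
import Mathlib.LinearAlgebra.Matrix.Basis
import Mathlib.Analysis.InnerProductSpace.Calculus
import Mathlib.Analysis.Calculus.ContDiff.Operations
import Mathlib.Analysis.SpecialFunctions.Pow.NNReal

/-!
Row 246, part JC, file 1: a smooth unit normal along a parametrised immersed hypersurface cone,
built from a generalised cross product.
-/

set_option autoImplicit false

open scoped ContDiff Topology

noncomputable section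

namespace Crest.Agent.R246.J816

variable {m : ℕ}

/-- the matrix with rows `v, a 0, …, a m`. -/
def crossMat (v : Eu (m + 2)) (a : Fin (m + 1) → Eu (m + 2)) :
    Matrix (Fin (m + 2)) (Fin (m + 2)) ℝ :=
  Matrix.of (Fin.cons (fun j => v j) (fun i j => a i j))

/-- generalised cross product of `m + 1` vectors of `ℝᵐ⁺²`. -/
def cross (a : Fin (m + 1) → Eu (m + 2)) : Eu (m + 2) :=
  WithLp.toLp 2 fun j => (crossMat (EuclideanSpace.single j 1) a).det

theorem det_crossMat_eq (v : Eu (m + 2)) (a : Fin (m + 1) → Eu (m + 2)) :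
    (crossMat v a).det = inner ℝ v (cross a) := by
  have h1 : ∀ w : Eu (m + 2), (crossMat w a) =
      Matrix.updateRow (crossMat 0 a) 0 (fun j => w j) := by
    intro w
    ext i j
    refine Fin.cases ?_ (fun i => ?_) i
    · simp [crossMat, Matrix.updateRow_apply]
    · simp [crossMat, Matrix.updateRow_apply, Fin.succ_ne_zero]
  rw [EuclideanSpace.inner_eq_star_dotProduct]
  simp only [star_trivial, dotProduct, cross]
  have h2 : (fun j => v j) = ∑ k, v k • (Pi.single k (1:ℝ) : Fin (m+2) → ℝ) := by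
    ext j
    simp [Finset.sum_apply, Pi.single_apply]
  rw [h1 v, h2]
  have h3 := (Matrix.detRowAlternating (n := Fin (m+2)) (R := ℝ)).toMultilinearMap.map_update_sum
    Finset.univ (0 : Fin (m+2)) (fun k => v k • (Pi.single k (1:ℝ) : Fin (m+2) → ℝ))
    (crossMat 0 a)
  have h4 : ∀ (w : Fin (m+2) → ℝ), (Matrix.updateRow (crossMat 0 a) 0 w).det =
      (Matrix.detRowAlternating (n := Fin (m+2)) (R := ℝ)).toMultilinearMap
        (Function.update (crossMat 0 a) 0 w) := fun w => rfl
  rw [h4, h3]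
  refine Finset.sum_congr rfl fun k _ => ?_
  rw [MultilinearMap.map_update_smul, ← h4, h1 (EuclideanSpace.single k 1), smul_eq_mul, mul_comm]
  rfl

theorem cross_orth (a : Fin (m + 1) → Eu (m + 2)) (i : Fin (m + 1)) :
    inner ℝ (a i) (cross a) = 0 := by
  rw [← det_crossMat_eq]
  refine Matrix.det_zero_of_row_eq (i := 0) (j := i.succ) (Fin.succ_ne_zero i).symm ?_
  ext j
  simp [crossMat]

theorem cross_ne_zero {a : Fin (m + 1) → Eu (m + 2)} (ha : LinearIndependent ℝ a) :
    cross a ≠ 0 := by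
  intro h0
  have h1 : ∀ v : Eu (m + 2), (crossMat v a).det = 0 := fun v => by
    rw [det_crossMat_eq, h0, inner_zero_right]
  -- there is `v` outside the span of `a`
  have h2 : ∃ v : Eu (m + 2), v ∉ Submodule.span ℝ (Set.range a) := by
    by_contra hcon
    push Not at hcon
    have h3 : Submodule.span ℝ (Set.range a) = ⊤ := by
      rw [eq_top_iff]
      exact fun v _ => hcon v
    have h4 := finrank_span_eq_card ha
    rw [h3, finrank_top, finrank_euclideanSpace_fin] at h4
    simp at h4
  obtain ⟨v, hv⟩ := h2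
  have h5 : LinearIndependent ℝ (Fin.cons v a : Fin (m + 2) → Eu (m + 2)) :=
    linearIndependent_finCons.2 ⟨ha, hv⟩
  have h6 : LinearIndependent ℝ (crossMat v a).row := by
    have h7 : LinearIndependent ℝ
        (fun i => (WithLp.linearEquiv 2 ℝ (Fin (m+2) → ℝ))
          ((Fin.cons v a : Fin (m + 2) → Eu (m + 2)) i)) :=
      h5.map' (WithLp.linearEquiv 2 ℝ (Fin (m+2) → ℝ)).toLinearMap
        (LinearEquiv.ker _)
    convert h7 using 1
    ext i j
    refine Fin.cases ?_ (fun i => ?_) i
    · simp [crossMat, Matrix.row]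
    · simp [crossMat, Matrix.row]
  have h8 := Matrix.linearIndependent_rows_iff_isUnit.1 h6
  rw [Matrix.isUnit_iff_isUnit_det, h1 v] at h8
  exact not_isUnit_zero h8

/-- the frame `f t, ∂₁ f, …, ∂ₘ f`. -/
def frame (f : Eu m → Eu (m + 2)) (t : Eu m) : Fin (m + 1) → Eu (m + 2) :=
  Fin.cons (f t) fun i => fderiv ℝ f t (EuclideanSpace.single i 1)

/-- the unit normal. -/
def nrm (f : Eu m → Eu (m + 2)) (t : Eu m) : Eu (m + 2) :=
  ‖cross (frame f t)‖⁻¹ • cross (frame f t)

/-- `f` is a `C^∞` immersion into the unit sphere near `t`. -/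
structure GoodAt (f : Eu m → Eu (m + 2)) (t : Eu m) : Prop where
  smooth : ContDiffAt ℝ ∞ f t
  inj : Function.Injective (fderiv ℝ f t)
  norm_one : ∀ᶠ u in 𝓝 t, ‖f u‖ = 1

theorem GoodAt.norm_eq {f : Eu m → Eu (m + 2)} {t : Eu m} (h : GoodAt f t) : ‖f t‖ = 1 :=
  h.norm_one.self_of_nhds

theorem GoodAt.differentiableAt {f : Eu m → Eu (m + 2)} {t : Eu m} (h : GoodAt f t) :
    DifferentiableAt ℝ f t := h.smooth.differentiableAt (by simp)

theorem GoodAt.orth {f : Eu m → Eu (m + 2)} {t : Eu m} (h : GoodAt f t) (v : Eu m) :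
    inner ℝ (f t) (fderiv ℝ f t v) = 0 := by
  have h1 : HasFDerivAt (fun u => inner ℝ (f u) (f u))
      ((fderivInnerCLM ℝ (f t, f t)).comp ((fderiv ℝ f t).prod (fderiv ℝ f t))) t :=
    h.differentiableAt.hasFDerivAt.inner ℝ h.differentiableAt.hasFDerivAt
  have h2 : (fun u => inner ℝ (f u) (f u)) =ᶠ[𝓝 t] fun _ => (1 : ℝ) := by
    filter_upwards [h.norm_one] with u hu
    rw [real_inner_self_eq_norm_sq, hu, one_pow]
  have h3 := (h1.congr_of_eventuallyEq h2.symm).unique (hasFDerivAt_const (1:ℝ) t)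
  have h4 := DFunLike.congr_fun h3 v
  simp only [ContinuousLinearMap.comp_apply, ContinuousLinearMap.prod_apply,
    fderivInnerCLM_apply, _root_.zero_apply] at h4
  rw [real_inner_comm (f t)] at h4
  linarith [real_inner_comm (f t) (fderiv ℝ f t v)]

theorem GoodAt.linInd {f : Eu m → Eu (m + 2)} {t : Eu m} (h : GoodAt f t) :
    LinearIndependent ℝ (frame f t) := by
  refine linearIndependent_finCons.2 ⟨?_, ?_⟩
  · have h1 : LinearIndependent ℝ (fun i : Fin m => (EuclideanSpace.single i (1:ℝ) : Eu m)) := by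
      have := (EuclideanSpace.basisFun (Fin m) ℝ).orthonormal.linearIndependent
      have h2 : (fun i : Fin m => (EuclideanSpace.single i (1:ℝ) : Eu m)) =
          ⇑(EuclideanSpace.basisFun (Fin m) ℝ) := by
        funext i
        simp
      rw [h2]
      exact this
    exact h1.map' (fderiv ℝ f t).toLinearMap (LinearMap.ker_eq_bot.2 h.inj)
  · intro hcon
    have h2 : Submodule.span ℝ (Set.range fun i : Fin m =>
        fderiv ℝ f t (EuclideanSpace.single i (1:ℝ))) ≤
        LinearMap.range (fderiv ℝ f t).toLinearMap := by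
      rw [Submodule.span_le]
      rintro _ ⟨i, rfl⟩
      exact ⟨_, rfl⟩
    obtain ⟨v, hv⟩ := h2 hcon
    have h3 := h.orth v
    have h4 : fderiv ℝ f t v = f t := hv
    rw [h4, real_inner_self_eq_norm_sq, h.norm_eq] at h3
    norm_num at h3

theorem GoodAt.norm_nrm {f : Eu m → Eu (m + 2)} {t : Eu m} (h : GoodAt f t) :
    ‖nrm f t‖ = 1 := by
  have h1 : ‖cross (frame f t)‖ ≠ 0 := norm_ne_zero_iff.2 (cross_ne_zero h.linInd)
  rw [nrm, norm_smul, norm_inv, norm_norm, inv_mul_cancel₀ h1]

theorem nrm_orth_f (f : Eu m → Eu (m + 2)) (t : Eu m) : inner ℝ (nrm f t) (f t) = 0 := by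
  have h := cross_orth (frame f t) 0
  rw [nrm, real_inner_smul_left, real_inner_comm]
  rw [show frame f t 0 = f t from rfl] at h
  rw [h, mul_zero]

theorem nrm_orth_df (f : Eu m → Eu (m + 2)) (t : Eu m) (v : Eu m) :
    inner ℝ (nrm f t) (fderiv ℝ f t v) = 0 := by
  have h : ∀ i : Fin m, inner ℝ (fderiv ℝ f t (EuclideanSpace.single i 1)) (cross (frame f t)) =
      0 := by
    intro i
    have := cross_orth (frame f t) i.succ
    rwa [show frame f t i.succ = fderiv ℝ f t (EuclideanSpace.single i 1) from rfl] at this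
  have hv : v = ∑ i, v i • (EuclideanSpace.single i (1:ℝ) : Eu m) := by
    ext j
    simp [Finset.sum_apply, Pi.single_apply]
  rw [nrm, real_inner_smul_left, real_inner_comm, hv, map_sum, sum_inner]
  simp [real_inner_smul_left, h]

/-- the determinant of a matrix of smooth functions is smooth. -/
theorem contDiffAt_det {ι : Type*} [Fintype ι] [DecidableEq ι] {V : Type*}
    [NormedAddCommGroup V] [NormedSpace ℝ V] {A : V → Matrix ι ι ℝ} {v : V}
    (h : ∀ i j, ContDiffAt ℝ ∞ (fun u => A u i j) v) :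
    ContDiffAt ℝ ∞ (fun u => (A u).det) v := by
  simp only [Matrix.det_apply]
  refine ContDiffAt.sum fun σ _ => ?_
  refine ContDiffAt.const_smul _ ?_
  exact contDiffAt_prod fun i _ => h _ _

theorem contDiffAt_cross {V : Type*} [NormedAddCommGroup V] [NormedSpace ℝ V]
    {a : V → Fin (m + 1) → Eu (m + 2)} {v : V}
    (h : ∀ i, ContDiffAt ℝ ∞ (fun u => a u i) v) :
    ContDiffAt ℝ ∞ (fun u => cross (a u)) v := by
  rw [contDiffAt_euclidean]
  intro j
  have h1 : (fun u => (cross (a u)) j) =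
      fun u => (crossMat (EuclideanSpace.single j 1) (a u)).det := rfl
  rw [h1]
  refine contDiffAt_det fun i k => ?_
  refine Fin.cases ?_ (fun i => ?_) i
  · exact contDiffAt_const
  · exact contDiffAt_euclidean.1 (h i) k

theorem GoodAt.contDiffAt_frame {f : Eu m → Eu (m + 2)} {t : Eu m} (h : GoodAt f t)
    (i : Fin (m + 1)) : ContDiffAt ℝ ∞ (fun u => frame f u i) t := by
  refine Fin.cases ?_ (fun i => ?_) i
  · exact h.smooth
  · have h1 : ContDiffAt ℝ ∞ (fderiv ℝ f) t := h.smooth.fderiv_right (by simp)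
    exact h1.clm_apply contDiffAt_const

theorem GoodAt.contDiffAt_nrm {f : Eu m → Eu (m + 2)} {t : Eu m} (h : GoodAt f t) :
    ContDiffAt ℝ ∞ (nrm f) t := by
  have h1 : ContDiffAt ℝ ∞ (fun u => cross (frame f u)) t :=
    contDiffAt_cross h.contDiffAt_frame
  have h2 : cross (frame f t) ≠ 0 := cross_ne_zero h.linInd
  exact ((h1.norm ℝ h2).inv (norm_ne_zero_iff.2 h2)).smul h1

end Crest.Agent.R246.J816
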