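import Crest.Agent.R246.JC1_816
import Mathlib.MeasureTheory.Function.Jacobian
import Mathlib.MeasureTheory.Measure.Haar.InnerProductSpace
import Mathlib.MeasureTheory.Measure.Lebesgue.EqHaar
import Mathlib.Analysis.Calculus.ContDiff.RCLike
import Mathlib.Analysis.Normed.Module.FiniteDimension

/-!
Row 246, part JC, file 2: the tube map `(t, ρ, s) ↦ ρ (f t + s ν(t))` of a cone over an immersed
hypersurface of the sphere; local injectivity and comparison of its Jacobian with that of an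
orthogonal projection of `f`.
-/

set_option autoImplicit false

open scoped ContDiff Topology ENNReal
open MeasureTheory

noncomputable section

namespace Crest.Agent.R246.J816

variable {m : ℕ}

/-- local lower Lipschitz bound of a map with injective strict derivative. -/
theorem exists_lower {V W : Type*} [NormedAddCommGroup V] [NormedSpace ℝ V]
    [FiniteDimensional ℝ V] [NormedAddCommGroup W] [NormedSpace ℝ W]
    {f : V → W} {f' : V →L[ℝ] W} {a : V} (hf : HasStrictFDerivAt f f' a)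
    (hinj : Function.Injective f') :
    ∃ c : ℝ, 0 < c ∧ ∀ᶠ p : V × V in 𝓝 (a, a), c * ‖p.1 - p.2‖ ≤ ‖f p.1 - f p.2‖ := by
  obtain ⟨K, hK, hanti⟩ := LinearMap.exists_antilipschitzWith (f' : V →ₗ[ℝ] W)
    (LinearMap.ker_eq_bot.2 hinj)
  have hKpos : (0:ℝ) < K := by exact_mod_cast hK
  refine ⟨(2 * K)⁻¹, by positivity, ?_⟩
  have h1 := hf.isLittleO.def (c := (2 * (K:ℝ))⁻¹) (by positivity)
  filter_upwards [h1] with p hp
  have h2 : ‖p.1 - p.2‖ ≤ K * ‖f' (p.1 - p.2)‖ := by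
    have := hanti.le_mul_dist p.1 p.2
    simpa [dist_eq_norm, ← map_sub] using this
  have h3 : (K:ℝ)⁻¹ * ‖p.1 - p.2‖ ≤ ‖f' (p.1 - p.2)‖ := by
    rw [inv_mul_le_iff₀ hKpos]
    exact h2
  have h4 : ‖f' (p.1 - p.2)‖ ≤ ‖f p.1 - f p.2‖ + ‖f p.1 - f p.2 - f' (p.1 - p.2)‖ := by
    have := norm_sub_le (f p.1 - f p.2) (f p.1 - f p.2 - f' (p.1 - p.2))
    rwa [sub_sub_cancel] at this
  have h5 : (2 * (K:ℝ))⁻¹ = (K:ℝ)⁻¹ / 2 := by
    rw [mul_inv, mul_comm, div_eq_mul_inv]
  rw [h5] at hp ⊢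
  linarith

/-- parameter space of the tube. -/
abbrev Xs (m : ℕ) : Type := Eu m × ℝ × ℝ

/-- the tube map. -/
def tube (f : Eu m → Eu (m + 2)) (z : Xs m) : Eu (m + 2) :=
  z.2.1 • (f z.1 + z.2.2 • nrm f z.1)

/-- adapted orthonormal basis. -/
theorem GoodAt.exists_adapted {f : Eu m → Eu (m + 2)} {t : Eu m} (h : GoodAt f t) :
    ∃ b : OrthonormalBasis (Fin m ⊕ Fin 2) ℝ (Eu (m + 2)),
      b (Sum.inr 0) = f t ∧ b (Sum.inr 1) = nrm f t := by
  let v : Fin m ⊕ Fin 2 → Eu (m + 2) := Sum.elim (fun _ => 0) ![f t, nrm f t]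
  have hv : Orthonormal ℝ ((Set.range Sum.inr : Set (Fin m ⊕ Fin 2)).domRestrict v) := by
    rw [orthonormal_iff_ite]
    rintro ⟨_, i, rfl⟩ ⟨_, j, rfl⟩
    have e : ∀ i j : Fin 2, inner ℝ ((![f t, nrm f t] : Fin 2 → Eu (m+2)) i)
        ((![f t, nrm f t] : Fin 2 → Eu (m+2)) j) = if i = j then (1:ℝ) else 0 := by
      intro i j
      fin_cases i <;> fin_cases j
      · simp [h.norm_eq]
      · simpa [real_inner_comm] using nrm_orth_f f t
      · simp [nrm_orth_f]
      · simp [h.norm_nrm]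
    simpa [v, Set.domRestrict] using e i j
  obtain ⟨b, hb⟩ := hv.exists_orthonormalBasis_extension_of_card_eq (by simp)
  exact ⟨b, by simpa [v] using hb (Sum.inr 0) ⟨0, rfl⟩,
    by simpa [v] using hb (Sum.inr 1) ⟨1, rfl⟩⟩

variable (b : OrthonormalBasis (Fin m ⊕ Fin 2) ℝ (Eu (m + 2)))

/-- the measurable splitting attached to an orthonormal basis. -/
def splitM : Eu (m + 2) ≃ᵐ Xs m :=
  b.measurableEquiv.trans <|
    (MeasurableEquiv.toLp 2 (Fin m ⊕ Fin 2 → ℝ)).symm.trans <|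
      (MeasurableEquiv.sumPiEquivProdPi (fun _ : Fin m ⊕ Fin 2 => ℝ)).trans <|
        MeasurableEquiv.prodCongr (MeasurableEquiv.toLp 2 (Fin m → ℝ))
          MeasurableEquiv.finTwoArrow

theorem splitM_preserving : MeasurePreserving (splitM b) volume volume := by
  refine (b.measurePreserving_measurableEquiv).trans ?_
  refine (EuclideanSpace.volume_preserving_symm_measurableEquiv_toLp _).trans ?_
  refine (volume_measurePreserving_sumPiEquivProdPi _).trans ?_
  refine MeasurePreserving.prod ?_ ?_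
  · exact (EuclideanSpace.volume_preserving_symm_measurableEquiv_toLp _).symm
  · exact volume_preserving_finTwoArrow ℝ

/-- the tangential projection. -/
def prj : Eu (m + 2) →L[ℝ] Eu m :=
  LinearMap.toContinuousLinearMap
    { toFun := fun q => WithLp.toLp 2 fun k => inner ℝ (b (Sum.inl k)) q
      map_add' := fun p q => by ext k; simp [inner_add_right]
      map_smul' := fun c q => by ext k; simp [real_inner_smul_right] }

theorem prj_apply (q : Eu (m + 2)) (k : Fin m) : prj b q k = inner ℝ (b (Sum.inl k)) q := rfl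

/-- the linear splitting. -/
def splitL : Eu (m + 2) →L[ℝ] Xs m :=
  (prj b).prod ((innerSL ℝ (b (Sum.inr 0))).prod (innerSL ℝ (b (Sum.inr 1))))

theorem splitL_apply (q : Eu (m + 2)) :
    splitL b q = (prj b q, inner ℝ (b (Sum.inr 0)) q, inner ℝ (b (Sum.inr 1)) q) := rfl

theorem splitM_apply (q : Eu (m + 2)) : splitM b q = splitL b q := by
  rw [splitL_apply]
  refine Prod.ext ?_ (Prod.ext ?_ ?_)
  · ext k
    rw [prj_apply]
    exact b.repr_apply_apply q (Sum.inl k)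
  · exact b.repr_apply_apply q (Sum.inr 0)
  · exact b.repr_apply_apply q (Sum.inr 1)

theorem norm_prj_le : ‖prj b‖ ≤ 1 := by
  refine ContinuousLinearMap.opNorm_le_bound _ zero_le_one fun q => ?_
  rw [one_mul]
  refine le_of_sq_le_sq ?_ (norm_nonneg _)
  rw [EuclideanSpace.norm_sq_eq, ← b.repr.norm_map q, EuclideanSpace.norm_sq_eq,
    Fintype.sum_sum_type]
  refine le_add_of_le_of_nonneg (Finset.sum_le_sum fun k _ => ?_)
    (Finset.sum_nonneg fun i _ => sq_nonneg _)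
  rw [prj_apply, b.repr_apply_apply]

instance instHaarXs : (volume : Measure (Xs m)).IsAddHaarMeasure := by
  have : (volume : Measure (ℝ × ℝ)).IsAddHaarMeasure :=
    Measure.prod.instIsAddHaarMeasure volume volume
  exact Measure.prod.instIsAddHaarMeasure (volume : Measure (Eu m)) (volume : Measure (ℝ × ℝ))

/-- the area formula for a map into `ℝᵐ⁺²` from `ℝᵐ × ℝ × ℝ`. -/
theorem lintegral_image_split {T : Xs m → Eu (m + 2)} {T' : Xs m → Xs m →L[ℝ] Eu (m + 2)}
    {A : Set (Xs m)} (hA : MeasurableSet A) (hT : ∀ z ∈ A, HasFDerivAt T (T' z) z)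
    (hinj : Set.InjOn T A) (g : Eu (m + 2) → ℝ≥0∞) :
    ∫⁻ q in T '' A, g q =
      ∫⁻ z in A, ENNReal.ofReal |((splitL b).comp (T' z)).det| * g (T z) := by
  have h1 : ∫⁻ q in T '' A, g q =
      ∫⁻ x in splitM b '' (T '' A), g ((splitM b).symm x) := by
    rw [← (splitM_preserving b).setLIntegral_comp_emb (splitM b).measurableEmbedding]
    simp
  have h2 : splitM b '' (T '' A) = (⇑(splitL b) ∘ T) '' A := by
    rw [Set.image_image]
    exact Set.image_congr fun z _ => splitM_apply b _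
  rw [h1, h2, lintegral_image_eq_lintegral_abs_det_fderiv_mul volume hA
    (f' := fun z => (splitL b).comp (T' z))
    (fun z hz => ((splitL b).hasFDerivAt.comp z (hT z hz)).hasFDerivWithinAt)
    (fun z hz z' hz' hzz => hinj hz hz' ((splitM b).injective (by
      rw [splitM_apply, splitM_apply]; exact hzz)))]
  refine setLIntegral_congr_fun hA fun z _ => ?_
  simp only [Function.comp_apply]
  congr 2
  rw [MeasurableEquiv.symm_apply_eq, splitM_apply]

theorem GoodAt.contDiffAt_tube {f : Eu m → Eu (m + 2)} {z : Xs m} (h : GoodAt f z.1) :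
    ContDiffAt ℝ ∞ (tube f) z := by
  have h1 : ContDiffAt ℝ ∞ (fun z : Xs m => f z.1) z := h.smooth.comp z contDiffAt_fst
  have h2 : ContDiffAt ℝ ∞ (fun z : Xs m => nrm f z.1) z :=
    h.contDiffAt_nrm.comp z contDiffAt_fst
  have h3 : ContDiffAt ℝ ∞ (fun z : Xs m => z.2.1) z := contDiffAt_snd.fst
  have h4 : ContDiffAt ℝ ∞ (fun z : Xs m => z.2.2) z := contDiffAt_snd.snd
  exact h3.smul (h1.add (h4.smul h2))

theorem GoodAt.fderiv_tube_base {f : Eu m → Eu (m + 2)} {t : Eu m} (h : GoodAt f t)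
    (v : Xs m) :
    fderiv ℝ (tube f) (t, 1, 0) v = fderiv ℝ f t v.1 + v.2.1 • f t + v.2.2 • nrm f t := by
  have hf : HasFDerivAt (fun z : Xs m => f z.1)
      ((fderiv ℝ f t).comp (ContinuousLinearMap.fst ℝ (Eu m) (ℝ × ℝ))) (t, (1:ℝ), (0:ℝ)) :=
    HasFDerivAt.comp (t, (1:ℝ), (0:ℝ)) (f := Prod.fst) h.differentiableAt.hasFDerivAt
      hasFDerivAt_fst
  have hn : HasFDerivAt (fun z : Xs m => nrm f z.1)
      ((fderiv ℝ (nrm f) t).comp (ContinuousLinearMap.fst ℝ (Eu m) (ℝ × ℝ)))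
      (t, (1:ℝ), (0:ℝ)) :=
    HasFDerivAt.comp (t, (1:ℝ), (0:ℝ)) (f := Prod.fst)
      (h.contDiffAt_nrm.differentiableAt (by simp)).hasFDerivAt hasFDerivAt_fst
  have hρ : HasFDerivAt (fun z : Xs m => z.2.1)
      ((ContinuousLinearMap.fst ℝ ℝ ℝ).comp (ContinuousLinearMap.snd ℝ (Eu m) (ℝ × ℝ)))
      (t, (1:ℝ), (0:ℝ)) :=
    ((ContinuousLinearMap.fst ℝ ℝ ℝ).comp
      (ContinuousLinearMap.snd ℝ (Eu m) (ℝ × ℝ))).hasFDerivAt
  have hs : HasFDerivAt (fun z : Xs m => z.2.2)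
      ((ContinuousLinearMap.snd ℝ ℝ ℝ).comp (ContinuousLinearMap.snd ℝ (Eu m) (ℝ × ℝ)))
      (t, (1:ℝ), (0:ℝ)) :=
    ((ContinuousLinearMap.snd ℝ ℝ ℝ).comp
      (ContinuousLinearMap.snd ℝ (Eu m) (ℝ × ℝ))).hasFDerivAt
  have hT : HasFDerivAt (tube f) _ (t, (1:ℝ), (0:ℝ)) := hρ.smul (hf.add (hs.smul hn))
  rw [hT.fderiv]
  simp
  abel

/-- local structure of the tube near a point of the immersed hypersurface. -/
theorem exists_local {f : Eu m → Eu (m + 2)} {t₀ : Eu m} (h : ∀ᶠ t in 𝓝 t₀, GoodAt f t)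
    {ε : ℝ} (hε : 0 < ε) :
    ∃ (π : Eu (m + 2) →L[ℝ] Eu m) (r : ℝ), ‖π‖ ≤ 1 ∧ 0 < r ∧ r < 1 ∧
      (∀ t ∈ Metric.ball t₀ r, GoodAt f t) ∧
      Set.InjOn (fun t => π (f t)) (Metric.ball t₀ r) ∧
      Set.InjOn (tube f) (Metric.ball t₀ r ×ˢ (Set.Ioo (1 - r) (1 + r) ×ˢ Set.Ioo (-r) r)) ∧
      ∀ A ⊆ Metric.ball t₀ r ×ˢ (Set.Ioo (1 - r) (1 + r) ×ˢ Set.Ioo (-r) r),
        MeasurableSet A → ∀ g : Eu (m + 2) → ℝ≥0∞,
        ∫⁻ q in tube f '' A, g q ≤ ENNReal.ofReal (1 + ε) *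
          ∫⁻ z in A, ENNReal.ofReal |(π.comp (fderiv ℝ f z.1)).det| * g (tube f z) := by
  have h0 : GoodAt f t₀ := h.self_of_nhds
  obtain ⟨b, hb0, hb1⟩ := h0.exists_adapted
  set π := prj b with hπ
  -- the projected derivative is injective
  have hπinj : Function.Injective (π.comp (fderiv ℝ f t₀)) := by
    refine (injective_iff_map_eq_zero _).2 fun v hv => ?_
    refine h0.inj ?_
    rw [map_zero]
    have hz : ∀ i, inner ℝ (b i) (fderiv ℝ f t₀ v) = 0 := by
      rintro (k | i)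
      · have : prj b (fderiv ℝ f t₀ v) k = 0 := by
          have h1 : prj b (fderiv ℝ f t₀ v) = 0 := hv
          rw [h1]; rfl
        rwa [prj_apply] at this
      · fin_cases i
        · show inner ℝ (b (Sum.inr 0)) _ = 0
          rw [hb0]; exact h0.orth v
        · show inner ℝ (b (Sum.inr 1)) _ = 0
          rw [hb1]; exact nrm_orth_df f t₀ v
    have h2 := b.sum_repr (fderiv ℝ f t₀ v)
    rw [← h2]
    refine Finset.sum_eq_zero fun i _ => ?_
    rw [b.repr_apply_apply, hz i, zero_smul]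
  -- derivative of the split tube at the base point
  set z₀ : Xs m := (t₀, 1, 0) with hz₀
  have hder : ∀ v : Xs m, (splitL b).comp (fderiv ℝ (tube f) z₀) v =
      (π (fderiv ℝ f t₀ v.1), v.2.1, v.2.2) := by
    intro v
    rw [ContinuousLinearMap.comp_apply, hz₀, h0.fderiv_tube_base, splitL_apply]
    have hf0 : prj b (f t₀) = 0 := by
      ext k
      rw [prj_apply, ← hb0, b.inner_eq_ite, if_neg (by simp)]
      rfl
    have hn0 : prj b (nrm f t₀) = 0 := by
      ext k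
      rw [prj_apply, ← hb1, b.inner_eq_ite, if_neg (by simp)]
      rfl
    refine Prod.ext ?_ (Prod.ext ?_ ?_)
    · simp [hf0, hn0, hπ]
    · simp only [hb0, inner_add_right, real_inner_smul_right, h0.orth,
        real_inner_self_eq_norm_sq, h0.norm_eq]
      rw [real_inner_comm, nrm_orth_f]
      ring
    · simp only [hb1, inner_add_right, real_inner_smul_right, nrm_orth_df, nrm_orth_f,
        real_inner_self_eq_norm_sq, h0.norm_nrm]
      ring
  have hprod : (splitL b).comp (fderiv ℝ (tube f) z₀) =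
      (π.comp (fderiv ℝ f t₀)).prodMap (ContinuousLinearMap.id ℝ (ℝ × ℝ)) := by
    ext v <;> simp [hder]
  have hdet : ((splitL b).comp (fderiv ℝ (tube f) z₀)).det = (π.comp (fderiv ℝ f t₀)).det := by
    rw [hprod]
    show LinearMap.det (((π.comp (fderiv ℝ f t₀)) : Eu m →ₗ[ℝ] Eu m).prodMap
      (LinearMap.id : (ℝ × ℝ) →ₗ[ℝ] (ℝ × ℝ))) = _
    rw [LinearMap.det_prodMap, LinearMap.det_id, mul_one]
  have hdet0 : (π.comp (fderiv ℝ f t₀)).det ≠ 0 := by
    intro hd
    have h1 : LinearMap.det ((π.comp (fderiv ℝ f t₀)) : Eu m →ₗ[ℝ] Eu m) = 0 := hd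
    have h2 := LinearMap.bot_lt_ker_of_det_eq_zero h1
    rw [LinearMap.ker_eq_bot.2 hπinj] at h2
    exact lt_irrefl _ h2
  -- continuity of the two determinants
  have hc1 : ContinuousAt (fun z : Xs m => |((splitL b).comp (fderiv ℝ (tube f) z)).det|) z₀ := by
    have h1 : ContinuousAt (fderiv ℝ (tube f)) z₀ :=
      ((h0.contDiffAt_tube (z := z₀)).fderiv_right (m := 0) (by simp)).continuousAt
    have h2 : ContinuousAt (fun z : Xs m => (splitL b).comp (fderiv ℝ (tube f) z)) z₀ :=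
      (ContinuousLinearMap.compL ℝ (Xs m) (Eu (m+2)) (Xs m) (splitL b)).continuous.continuousAt.comp
        h1
    exact (ContinuousLinearMap.continuous_det.continuousAt.comp h2).abs
  have hc2 : ContinuousAt (fun t : Eu m => |(π.comp (fderiv ℝ f t)).det|) t₀ := by
    have h1 : ContinuousAt (fderiv ℝ f) t₀ :=
      (h0.smooth.fderiv_right (m := 0) (by simp)).continuousAt
    have h2 : ContinuousAt (fun t : Eu m => π.comp (fderiv ℝ f t)) t₀ :=
      (ContinuousLinearMap.compL ℝ (Eu m) (Eu (m+2)) (Eu m) π).continuous.continuousAt.comp h1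
    exact (ContinuousLinearMap.continuous_det.continuousAt.comp h2).abs
  have hcomp : ∀ᶠ z : Xs m in 𝓝 z₀, |((splitL b).comp (fderiv ℝ (tube f) z)).det| ≤
      (1 + ε) * |(π.comp (fderiv ℝ f z.1)).det| := by
    have h1 : ContinuousAt (fun z : Xs m => (1 + ε) * |(π.comp (fderiv ℝ f z.1)).det|) z₀ :=
      continuousAt_const.mul (ContinuousAt.comp (f := Prod.fst) (x := z₀) hc2
        continuousAt_fst)
    have h2 : |((splitL b).comp (fderiv ℝ (tube f) z₀)).det| <
        (1 + ε) * |(π.comp (fderiv ℝ f z₀.1)).det| := by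
      rw [hdet]
      have : 0 < |(π.comp (fderiv ℝ f t₀)).det| := abs_pos.2 hdet0
      show |(π.comp (fderiv ℝ f t₀)).det| < (1 + ε) * |(π.comp (fderiv ℝ f t₀)).det|
      nlinarith
    exact (hc1.eventually_lt h1 h2).mono fun z hz => hz.le
  -- injectivity
  have hi1 : ∃ c : ℝ, 0 < c ∧ ∀ᶠ p : Xs m × Xs m in 𝓝 (z₀, z₀),
      c * ‖p.1 - p.2‖ ≤ ‖tube f p.1 - tube f p.2‖ := by
    refine exists_lower ((h0.contDiffAt_tube (z := z₀)).hasStrictFDerivAt (by simp)) ?_
    refine (injective_iff_map_eq_zero _).2 fun v hv => ?_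
    have h1 := hder v
    rw [ContinuousLinearMap.comp_apply, hv, map_zero] at h1
    have h2 : (0 : Eu m) = π (fderiv ℝ f t₀ v.1) := (Prod.ext_iff.1 h1).1
    have h3 := (Prod.ext_iff.1 (Prod.ext_iff.1 h1).2)
    refine Prod.ext (hπinj ?_) (Prod.ext h3.1.symm h3.2.symm)
    rw [ContinuousLinearMap.comp_apply, ← h2]
    simp
  have hi2 : ∃ c : ℝ, 0 < c ∧ ∀ᶠ p : Eu m × Eu m in 𝓝 (t₀, t₀),
      c * ‖p.1 - p.2‖ ≤ ‖π (f p.1) - π (f p.2)‖ := by
    have h1 : HasStrictFDerivAt (fun t => π (f t)) (π.comp (fderiv ℝ f t₀)) t₀ :=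
      π.hasStrictFDerivAt.comp t₀ (h0.smooth.hasStrictFDerivAt (by simp))
    exact exists_lower h1 hπinj
  obtain ⟨c1, hc1pos, hi1⟩ := hi1
  obtain ⟨c2, hc2pos, hi2⟩ := hi2
  -- choose the radius
  rw [Metric.eventually_nhds_iff_ball] at h hcomp hi1 hi2
  obtain ⟨r1, hr1, H1⟩ := h
  obtain ⟨r2, hr2, H2⟩ := hcomp
  obtain ⟨r3, hr3, H3⟩ := hi1
  obtain ⟨r4, hr4, H4⟩ := hi2
  set r := min (min r1 r2) (min (min r3 r4) (1/2)) with hr
  have hrpos : 0 < r := by
    simp only [hr, lt_min_iff]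
    exact ⟨⟨hr1, hr2⟩, ⟨⟨hr3, hr4⟩, by norm_num⟩⟩
  have hb : ∀ z ∈ Metric.ball t₀ r ×ˢ (Set.Ioo (1 - r) (1 + r) ×ˢ Set.Ioo (-r) r),
      ∀ r' : ℝ, r ≤ r' → z ∈ Metric.ball z₀ r' := by
    rintro ⟨t, ρ, s⟩ ⟨ht, ⟨h1, h2⟩, ⟨h3, h4⟩⟩ r' hr'
    refine Metric.ball_subset_ball hr' ?_
    rw [Metric.mem_ball, hz₀, Prod.dist_eq, Prod.dist_eq, max_lt_iff, max_lt_iff]
    refine ⟨ht, ?_, ?_⟩
    · show dist ρ 1 < r
      rw [Real.dist_eq, abs_lt]
      constructor <;> simp only at h1 h2 <;> linarith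
    · show dist s 0 < r
      rw [Real.dist_eq, abs_lt]
      constructor <;> simp only at h3 h4 <;> linarith
  refine ⟨π, r, norm_prj_le b, hrpos, ?_, ?_, ?_, ?_, ?_⟩
  · have : r ≤ 1/2 := le_trans (min_le_right _ _) (min_le_right _ _)
    linarith
  · intro t ht
    exact H1 t (Metric.ball_subset_ball (le_trans (min_le_left _ _) (min_le_left _ _)) ht)
  · intro t ht t' ht' htt
    have hr4' : r ≤ r4 := le_trans (min_le_right _ _)
      (le_trans (min_le_left _ _) (min_le_right _ _))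
    have hmem : (t, t') ∈ Metric.ball (t₀, t₀) r4 := by
      rw [Metric.mem_ball, Prod.dist_eq, max_lt_iff]
      exact ⟨lt_of_lt_of_le ht hr4', lt_of_lt_of_le ht' hr4'⟩
    have h1 := H4 _ hmem
    simp only at htt h1
    rw [htt, sub_self, norm_zero] at h1
    have h2 : ‖t - t'‖ ≤ 0 := by nlinarith [norm_nonneg (t - t')]
    exact sub_eq_zero.1 (norm_le_zero_iff.1 h2)
  · intro z hz z' hz' hzz
    have hr3' : r ≤ r3 := le_trans (min_le_right _ _)
      (le_trans (min_le_left _ _) (min_le_left _ _))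
    have hmem : (z, z') ∈ Metric.ball (z₀, z₀) r3 := by
      rw [Metric.mem_ball, Prod.dist_eq, max_lt_iff]
      exact ⟨hb z hz r3 hr3', hb z' hz' r3 hr3'⟩
    have h1 := H3 _ hmem
    simp only at hzz h1
    rw [hzz, sub_self, norm_zero] at h1
    have h2 : ‖z - z'‖ ≤ 0 := by nlinarith [norm_nonneg (z - z')]
    exact sub_eq_zero.1 (norm_le_zero_iff.1 h2)
  · intro A hA hAm g
    have hr1' : r ≤ r1 := le_trans (min_le_left _ _) (min_le_left _ _)
    have hr2' : r ≤ r2 := le_trans (min_le_left _ _) (min_le_right _ _)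
    have hr3' : r ≤ r3 := le_trans (min_le_right _ _)
      (le_trans (min_le_left _ _) (min_le_left _ _))
    have hgood : ∀ z ∈ A, GoodAt f z.1 := fun z hz =>
      H1 z.1 (Metric.ball_subset_ball hr1' (hA hz).1)
    have hinjA : Set.InjOn (tube f) A := by
      intro z hz z' hz' hzz
      have hmem : (z, z') ∈ Metric.ball (z₀, z₀) r3 := by
        rw [Metric.mem_ball, Prod.dist_eq, max_lt_iff]
        exact ⟨hb z (hA hz) r3 hr3', hb z' (hA hz') r3 hr3'⟩
      have h1 := H3 _ hmem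
      simp only at hzz h1
      rw [hzz, sub_self, norm_zero] at h1
      have h2 : ‖z - z'‖ ≤ 0 := by nlinarith [norm_nonneg (z - z')]
      exact sub_eq_zero.1 (norm_le_zero_iff.1 h2)
    rw [lintegral_image_split b hAm
      (fun z hz => ((hgood z hz).contDiffAt_tube.differentiableAt (by simp)).hasFDerivAt) hinjA g,
      ← lintegral_const_mul' _ _ ENNReal.ofReal_ne_top]
    refine setLIntegral_mono' hAm fun z hz => ?_
    rw [← mul_assoc, ← ENNReal.ofReal_mul (by linarith)]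
    gcongr
    exact H2 z (hb z (hA hz) r2 hr2')

end Crest.Agent.R246.J816
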