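import Crest.Agent.R246.JC2_816
import Mathlib.MeasureTheory.Measure.Prod
import Mathlib.MeasureTheory.Integral.Lebesgue.DominatedConvergence
import Mathlib.MeasureTheory.Group.Measure
import Mathlib.MeasureTheory.Measure.Haar.Unique
import Mathlib.MeasureTheory.Measure.Haar.NormedSpace

/-!
Row 246, part JC, file 3: integral bounds for the tube over one small piece.
-/

set_option autoImplicit false

open scoped ContDiff Topology ENNReal
open MeasureTheory Set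

noncomputable section

namespace Crest.Agent.R246.J816

variable {m : ℕ}

/-- integral of `Θ` along the normal segment of half-length `σ`. -/
def lineInt (f : Eu m → Eu (m + 2)) (Θ : Eu (m + 2) → ℝ≥0∞) (σ : ℝ) (t : Eu m) : ℝ≥0∞ :=
  ∫⁻ s in Ioo (-σ) σ, Θ (f t + s • nrm f t)

/-- Jacobian of the projected parametrisation. -/
def jac (π : Eu (m + 2) →L[ℝ] Eu m) (f : Eu m → Eu (m + 2)) (t : Eu m) : ℝ≥0∞ :=
  ENNReal.ofReal |(π.comp (fderiv ℝ f t)).det|

theorem measurable_jac (π : Eu (m + 2) →L[ℝ] Eu m) (f : Eu m → Eu (m + 2)) :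
    Measurable (jac π f) := by
  have h1 : Measurable (fderiv ℝ f) := measurable_fderiv ℝ f
  have h2 : Measurable (fun t => π.comp (fderiv ℝ f t)) :=
    ((ContinuousLinearMap.compL ℝ (Eu m) (Eu (m+2)) (Eu m) π).continuous.measurable).comp h1
  have h3 : Measurable (fun t => (π.comp (fderiv ℝ f t)).det) :=
    ContinuousLinearMap.continuous_det.measurable.comp h2
  exact (ENNReal.measurable_ofReal).comp (continuous_abs.measurable.comp h3)

/-- measurable version of the line integral. -/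
theorem exists_measurable_lineInt {f : Eu m → Eu (m + 2)} {t₀ : Eu m} {r : ℝ}
    (hgood : ∀ t ∈ Metric.ball t₀ r, GoodAt f t) {Θ : Eu (m + 2) → ℝ≥0∞} (hΘ : Measurable Θ) :
    ∃ Fh Nh : Eu m → Eu (m + 2), Measurable Fh ∧ Measurable Nh ∧
      (∀ t ∈ Metric.ball t₀ r, Fh t = f t ∧ Nh t = nrm f t) ∧
      Measurable (fun p : Eu m × ℝ => Θ (Fh p.1 + p.2 • Nh p.1)) := by
  classical
  have hf : ContinuousOn f (Metric.ball t₀ r) := fun t ht =>
    (hgood t ht).smooth.continuousAt.continuousWithinAt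
  have hn : ContinuousOn (nrm f) (Metric.ball t₀ r) := fun t ht =>
    (hgood t ht).contDiffAt_nrm.continuousAt.continuousWithinAt
  have h1 : Measurable ((Metric.ball t₀ r).piecewise f (fun _ => 0)) :=
    hf.measurable_piecewise continuousOn_const measurableSet_ball
  have h2 : Measurable ((Metric.ball t₀ r).piecewise (nrm f) (fun _ => 0)) :=
    hn.measurable_piecewise continuousOn_const measurableSet_ball
  refine ⟨_, _, h1, h2, fun t ht => ⟨?_, ?_⟩, ?_⟩
  · exact Set.piecewise_eq_of_mem _ _ _ ht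
  · exact Set.piecewise_eq_of_mem _ _ _ ht
  · exact hΘ.comp ((h1.comp measurable_fst).add (measurable_snd.smul (h2.comp measurable_fst)))

theorem piece_bound {f : Eu m → Eu (m + 2)} {t₀ : Eu m} {r ε : ℝ}
    {π : Eu (m + 2) →L[ℝ] Eu m} (hr1 : r < 1)
    (hgood : ∀ t ∈ Metric.ball t₀ r, GoodAt f t)
    (hloc : ∀ A ⊆ Metric.ball t₀ r ×ˢ (Set.Ioo (1 - r) (1 + r) ×ˢ Set.Ioo (-r) r),
        MeasurableSet A → ∀ g : Eu (m + 2) → ℝ≥0∞,
        ∫⁻ q in tube f '' A, g q ≤ ENNReal.ofReal (1 + ε) *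
          ∫⁻ z in A, ENNReal.ofReal |(π.comp (fderiv ℝ f z.1)).det| * g (tube f z))
    {Q : Set (Eu m)} (hQ : Q ⊆ Metric.ball t₀ r) (hQm : MeasurableSet Q)
    {Θ : Eu (m + 2) → ℝ≥0∞} (hΘ : Measurable Θ)
    (hh : ∀ l : ℝ, 0 < l → ∀ q, Θ (l • q) = Θ q) {a b σ : ℝ} (ha : 1 - r ≤ a)
    (hb : b ≤ 1 + r) (hσ : σ ≤ r) :
    ∫⁻ q in tube f '' (Q ×ˢ (Ioo a b ×ˢ Ioo (-σ) σ)), Θ q ≤
      ENNReal.ofReal (1 + ε) * (ENNReal.ofReal (b - a) *
        ∫⁻ t in Q, jac π f t * lineInt f Θ σ t) := by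
  obtain ⟨Fh, Nh, hFh, hNh, hFN, hmeas⟩ := exists_measurable_lineInt hgood hΘ
  have hsub : Q ×ˢ (Ioo a b ×ˢ Ioo (-σ) σ) ⊆
      Metric.ball t₀ r ×ˢ (Set.Ioo (1 - r) (1 + r) ×ˢ Set.Ioo (-r) r) := by
    refine Set.prod_mono hQ (Set.prod_mono (Ioo_subset_Ioo ha hb) (Ioo_subset_Ioo ?_ hσ))
    linarith
  have hAm : MeasurableSet (Q ×ˢ (Ioo a b ×ˢ Ioo (-σ) σ)) :=
    hQm.prod (measurableSet_Ioo.prod measurableSet_Ioo)
  refine (hloc _ hsub hAm Θ).trans (mul_le_mul_right ?_ _)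
  have e1 : ∫⁻ z in Q ×ˢ (Ioo a b ×ˢ Ioo (-σ) σ),
      ENNReal.ofReal |(π.comp (fderiv ℝ f z.1)).det| * Θ (tube f z) =
      ∫⁻ z in Q ×ˢ (Ioo a b ×ˢ Ioo (-σ) σ),
        jac π f z.1 * Θ (Fh z.1 + z.2.2 • Nh z.1) := by
    refine setLIntegral_congr_fun hAm ?_
    rintro ⟨t, ρ, s⟩ ⟨ht, hρ, hs⟩
    simp only at ht hρ hs
    have h1 : 0 < ρ := by
      have := hρ.1
      linarith
    simp only [jac, tube]
    rw [hh ρ h1, (hFN t (hQ ht)).1, (hFN t (hQ ht)).2]
  have hG : Measurable (fun z : Xs m => Θ (Fh z.1 + z.2.2 • Nh z.1)) :=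
    hmeas.comp (measurable_fst.prodMk (measurable_snd.comp measurable_snd))
  have hJ := measurable_jac π f
  have hJG : Measurable (fun z : Xs m => jac π f z.1 * Θ (Fh z.1 + z.2.2 • Nh z.1)) :=
    (hJ.comp measurable_fst).mul hG
  rw [e1, Measure.volume_eq_prod, setLIntegral_prod _ hJG.aemeasurable,
    ← lintegral_const_mul' _ _ ENNReal.ofReal_ne_top]
  refine le_of_eq (setLIntegral_congr_fun hQm fun t ht => ?_)
  simp only
  have hGt : Measurable (fun p : ℝ × ℝ => Θ (Fh t + p.2 • Nh t)) :=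
    hmeas.comp (measurable_const.prodMk measurable_snd)
  rw [lintegral_const_mul _ hGt, Measure.volume_eq_prod, setLIntegral_prod _ hGt.aemeasurable]
  have e2 : ∫⁻ (x : ℝ) in Ioo a b, ∫⁻ (y : ℝ) in Ioo (-σ) σ, Θ (Fh t + (x, y).2 • Nh t) =
      ∫⁻ (_ : ℝ) in Ioo a b, lineInt f Θ σ t := by
    rw [lineInt, (hFN t (hQ ht)).1, (hFN t (hQ ht)).2]
  rw [e2, setLIntegral_const, Real.volume_Ioo]
  ring

theorem lineInt_le {f : Eu m → Eu (m + 2)} {Θ : Eu (m + 2) → ℝ≥0∞} (h1 : ∀ q, Θ q ≤ 1)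
    (σ : ℝ) (t : Eu m) : lineInt f Θ σ t ≤ ENNReal.ofReal (2 * σ) := by
  calc lineInt f Θ σ t ≤ ∫⁻ _ in Ioo (-σ) σ, (1 : ℝ≥0∞) :=
        lintegral_mono fun s => h1 _
    _ = ENNReal.ofReal (2 * σ) := by
        rw [setLIntegral_const, Real.volume_Ioo, one_mul]
        congr 1
        ring

theorem lineInt_half {f : Eu m → Eu (m + 2)} {Θ : Eu (m + 2) → ℝ≥0∞}
    (hΘ : Measurable Θ) {C : ℝ≥0∞} {σ : ℝ} (t : Eu m)
    (h : ∀ s ∈ Ioo 0 σ, Θ (f t + s • nrm f t) + Θ (f t - s • nrm f t) ≤ C) :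
    lineInt f Θ σ t ≤ C * ENNReal.ofReal σ := by
  have hm : Measurable (fun s : ℝ => Θ (f t + s • nrm f t)) :=
    hΘ.comp (measurable_const.add (measurable_id.smul_const _))
  have e0 : Ioo (-σ) σ ⊆ (Ioo (-σ) 0 ∪ Ioo 0 σ) ∪ {0} := by
    intro s hs
    rcases lt_trichotomy s 0 with h0 | h0 | h0
    · exact Or.inl (Or.inl ⟨hs.1, h0⟩)
    · exact Or.inr h0
    · exact Or.inl (Or.inr ⟨h0, hs.2⟩)
  have e1 : ∫⁻ s in Ioo (-σ) 0, Θ (f t + s • nrm f t) =
      ∫⁻ s in Ioo 0 σ, Θ (f t - s • nrm f t) := by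
    have h1 := (Measure.measurePreserving_neg (volume : Measure ℝ)).setLIntegral_comp_preimage_emb
      (MeasurableEquiv.neg ℝ).measurableEmbedding (fun s => Θ (f t + s • nrm f t)) (Ioo (-σ) 0)
    rw [← h1]
    have h2 : (Neg.neg ⁻¹' (Ioo (-σ) 0) : Set ℝ) = Ioo 0 σ := by
      ext s
      simp only [mem_preimage, mem_Ioo]
      constructor <;> rintro ⟨h3, h4⟩ <;> constructor <;> linarith
    rw [h2]
    simp only [neg_smul, sub_eq_add_neg]
  calc lineInt f Θ σ t ≤ ∫⁻ s in (Ioo (-σ) 0 ∪ Ioo 0 σ) ∪ {0}, Θ (f t + s • nrm f t) :=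
        lintegral_mono_set e0
    _ ≤ (∫⁻ s in Ioo (-σ) 0, Θ (f t + s • nrm f t)) +
        (∫⁻ s in Ioo 0 σ, Θ (f t + s • nrm f t)) +
        ∫⁻ s in {0}, Θ (f t + s • nrm f t) :=
        (lintegral_union_le _ _ _).trans (add_le_add_left (lintegral_union_le _ _ _) _)
    _ = ∫⁻ s in Ioo 0 σ, (Θ (f t + s • nrm f t) + Θ (f t - s • nrm f t)) := by
        have h3 : ∫⁻ s in ({0} : Set ℝ), Θ (f t + s • nrm f t) = 0 :=
          setLIntegral_measure_zero _ _ (by simp)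
        rw [h3, add_zero, e1, lintegral_add_left hm, add_comm]
    _ ≤ ∫⁻ _ in Ioo 0 σ, C := setLIntegral_mono' measurableSet_Ioo h
    _ = C * ENNReal.ofReal σ := by
        rw [setLIntegral_const, Real.volume_Ioo, sub_zero]

theorem aemeasurable_lineInt {f : Eu m → Eu (m + 2)} {t₀ : Eu m} {r : ℝ}
    (hgood : ∀ t ∈ Metric.ball t₀ r, GoodAt f t) {Θ : Eu (m + 2) → ℝ≥0∞} (hΘ : Measurable Θ)
    {Q : Set (Eu m)} (hQ : Q ⊆ Metric.ball t₀ r) (hQm : MeasurableSet Q) (σ : ℝ) :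
    AEMeasurable (lineInt f Θ σ) (volume.restrict Q) := by
  obtain ⟨Fh, Nh, hFh, hNh, hFN, hmeas⟩ := exists_measurable_lineInt hgood hΘ
  refine ⟨fun t => ∫⁻ s in Ioo (-σ) σ, Θ (Fh t + s • Nh t), ?_, ?_⟩
  · exact Measurable.lintegral_prod_right' hmeas
  · filter_upwards [ae_restrict_mem hQm] with t ht
    rw [lineInt, (hFN t (hQ ht)).1, (hFN t (hQ ht)).2]

/-- the pieces over points with a unique preimage. -/
theorem eventually_piece {f : Eu m → Eu (m + 2)} {t₀ : Eu m} {r : ℝ}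
    {π : Eu (m + 2) →L[ℝ] Eu m}
    (hgood : ∀ t ∈ Metric.ball t₀ r, GoodAt f t)
    {Q : Set (Eu m)} (hQ : Q ⊆ Metric.ball t₀ r) (hQm : MeasurableSet Q)
    {Θ : Eu (m + 2) → ℝ≥0∞} (hΘ : Measurable Θ) (h1 : ∀ q, Θ q ≤ 1)
    (hfin : ∫⁻ t in Q, jac π f t ≠ ⊤)
    (hflip : ∀ t ∈ Q, ∀ ε' : ℝ, 0 < ε' → ∀ᶠ s in 𝓝[>] (0:ℝ),
      Θ (f t + s • nrm f t) + Θ (f t - s • nrm f t) ≤ 1 + ENNReal.ofReal ε')
    {ε'' : ℝ} (hε'' : 0 < ε'') :
    ∀ᶠ σ in 𝓝[>] (0:ℝ), ∫⁻ t in Q, jac π f t * lineInt f Θ σ t ≤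
      ENNReal.ofReal σ * ((∫⁻ t in Q, jac π f t) + ENNReal.ofReal ε'') := by
  have hlim : Filter.Tendsto
      (fun σ : ℝ => ∫⁻ t in Q, jac π f t * max (lineInt f Θ σ t / ENNReal.ofReal σ) 1)
      (𝓝[>] (0:ℝ)) (𝓝 (∫⁻ t in Q, jac π f t * 1)) := by
    refine tendsto_lintegral_filter_of_dominated_convergence' (fun t => jac π f t * 2) ?_ ?_ ?_ ?_
    · refine Filter.Eventually.of_forall fun σ => ?_
      exact (measurable_jac π f).aemeasurable.mul
        (((aemeasurable_lineInt hgood hΘ hQ hQm σ).div_const _).max aemeasurable_const)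
    · filter_upwards [self_mem_nhdsWithin] with σ hσ
      refine Filter.Eventually.of_forall fun t => ?_
      have hσ' : (0:ℝ) < σ := hσ
      gcongr
      refine max_le ?_ (by norm_num)
      refine ENNReal.div_le_of_le_mul ?_
      refine (lineInt_le h1 σ t).trans (le_of_eq ?_)
      rw [ENNReal.ofReal_mul (by norm_num)]
      norm_num
    · rw [lintegral_mul_const' _ _ (by norm_num)]
      exact ENNReal.mul_ne_top hfin (by norm_num)
    · filter_upwards [ae_restrict_mem hQm] with t ht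
      have h2 : Filter.Tendsto (fun σ : ℝ => max (lineInt f Θ σ t / ENNReal.ofReal σ) 1)
          (𝓝[>] (0:ℝ)) (𝓝 1) := by
        rw [ENNReal.tendsto_nhds (by norm_num)]
        intro e he
        by_cases hetop : e = ⊤
        · refine Filter.Eventually.of_forall fun σ => ⟨?_, ?_⟩
          · exact le_trans tsub_le_self (le_max_right _ _)
          · rw [hetop]; simp
        have hepos : 0 < e.toReal := ENNReal.toReal_pos he.ne' hetop
        have h3 := hflip t ht e.toReal hepos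
        rw [eventually_nhdsWithin_iff, Metric.eventually_nhds_iff] at h3
        obtain ⟨d, hd, h3⟩ := h3
        have h4 : ∀ᶠ σ in 𝓝[>] (0:ℝ), σ < d := by
          have : Iio d ∈ 𝓝 (0:ℝ) := Iio_mem_nhds hd
          exact mem_nhdsWithin_of_mem_nhds this
        filter_upwards [h4, self_mem_nhdsWithin] with σ hσd hσ
        have hσ' : (0:ℝ) < σ := hσ
        refine ⟨le_trans tsub_le_self (le_max_right _ _), ?_⟩
        refine max_le ?_ le_self_add
        refine ENNReal.div_le_of_le_mul ?_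
        refine lineInt_half hΘ t fun s hs => ?_
        have h5 := h3 (y := s) (by rw [Real.dist_eq, sub_zero, abs_of_pos hs.1]; linarith [hs.2])
          hs.1
        rwa [ENNReal.ofReal_toReal hetop] at h5
      exact ENNReal.Tendsto.const_mul h2 (Or.inl (by norm_num))
  simp only [mul_one] at hlim
  have h2 : ∫⁻ t in Q, jac π f t < (∫⁻ t in Q, jac π f t) + ENNReal.ofReal ε'' :=
    ENNReal.lt_add_right hfin (ENNReal.ofReal_pos.2 hε'').ne'
  filter_upwards [hlim.eventually (gt_mem_nhds h2), self_mem_nhdsWithin] with σ hσ hσ0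
  have hσ' : (0:ℝ) < σ := hσ0
  have hs0 : ENNReal.ofReal σ ≠ 0 := by simpa using hσ'
  calc ∫⁻ t in Q, jac π f t * lineInt f Θ σ t
      ≤ ∫⁻ t in Q, ENNReal.ofReal σ *
          (jac π f t * max (lineInt f Θ σ t / ENNReal.ofReal σ) 1) := by
        refine lintegral_mono fun t => ?_
        have h3 : lineInt f Θ σ t = ENNReal.ofReal σ * (lineInt f Θ σ t / ENNReal.ofReal σ) :=
          (ENNReal.mul_div_cancel hs0 ENNReal.ofReal_ne_top).symm
        calc jac π f t * lineInt f Θ σ t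
            = ENNReal.ofReal σ * (jac π f t * (lineInt f Θ σ t / ENNReal.ofReal σ)) := by
              conv_lhs => rw [h3]
              ring
          _ ≤ _ := by
              gcongr
              exact le_max_left _ _
    _ = ENNReal.ofReal σ * ∫⁻ t in Q,
          jac π f t * max (lineInt f Θ σ t / ENNReal.ofReal σ) 1 :=
        lintegral_const_mul' _ _ ENNReal.ofReal_ne_top
    _ ≤ _ := by gcongr

end Crest.Agent.R246.J816
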