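import Crest.Agent.R246.JC4_816

/-!
Row 246, part JC, file 5: the weight function and its scaling.
-/

set_option autoImplicit false

open scoped ContDiff Topology ENNReal
open MeasureTheory Set Filter

noncomputable section

namespace Crest.Agent.R246.J816

variable {m : ℕ}

section Man

variable {M : Type*} [TopologicalSpace M] [ChartedSpace (Eu m) M]

open Classical in
/-- the weight, as an extended nonnegative function vanishing on the cone. -/
def Th (F : M → Eu (m + 2)) (c ζ : Eu (m + 2) → ℝ) (q : Eu (m + 2)) : ℝ≥0∞ :=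
  if q ∈ cone F then 0 else ENNReal.ofReal (if 0 < c q then 1 - ζ q else ζ q)

omit [TopologicalSpace M] [ChartedSpace (Eu m) M] in
theorem Th_le_one (F : M → Eu (m + 2)) (c : Eu (m + 2) → ℝ) {ζ : Eu (m + 2) → ℝ}
    (h0 : ∀ q, 0 ≤ ζ q) (h1 : ∀ q, ζ q ≤ 1) (q : Eu (m + 2)) : Th F c ζ q ≤ 1 := by
  unfold Th
  split_ifs
  · exact zero_le_one
  · exact ENNReal.ofReal_le_one.2 (by linarith [h0 q])
  · exact ENNReal.ofReal_le_one.2 (h1 q)

theorem Th_smul {F : M → Eu (m + 2)} {c ζ : Eu (m + 2) → ℝ} (hc : Colour F c)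
    (hh : ∀ t : ℝ, 0 < t → ∀ q, ζ (t • q) = ζ q) (l : ℝ) (hl : 0 < l) (q : Eu (m + 2)) :
    Th F c ζ (l • q) = Th F c ζ q := by
  unfold Th
  rw [hc.hom l hl, hh l hl]
  by_cases h : q ∈ cone F
  · rw [if_pos h, if_pos ((smul_mem_cone_iff hl).2 h)]
  · rw [if_neg h, if_neg fun h' => h ((smul_mem_cone_iff hl).1 h')]

theorem measurable_Th [CompactSpace M] {F : M → Eu (m + 2)} (hF : Imm F)
    {c ζ : Eu (m + 2) → ℝ} (hc : Colour F c) (hζ : ContinuousOn ζ {0}ᶜ) :
    Measurable (Th F c ζ) := by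
  classical
  have hcl : IsClosed (cone F) := isClosed_cone hF
  have hζm : Measurable ζ := by
    have h1 := hζ.measurable_piecewise (g := fun _ => ζ 0) continuousOn_const
      (measurableSet_singleton (0 : Eu (m + 2))).compl
    convert h1 using 1
    ext q
    by_cases hq : q = 0
    · rw [Set.piecewise_eq_of_notMem _ _ _ (by simpa using hq), hq]
    · rw [Set.piecewise_eq_of_mem _ _ _ (by simpa using hq)]
  have hA : IsOpen {q | q ∉ cone F ∧ 0 < c q} := by
    rw [isOpen_iff_mem_nhds]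
    rintro q ⟨hq, hcq⟩
    filter_upwards [hcl.isOpen_compl.mem_nhds hq, hc.loc_const q hq] with p hp hp2
    exact ⟨hp, by rw [hp2]; exact hcq⟩
  have e : Th F c ζ = fun q => if q ∈ cone F then 0 else
      if q ∈ {q | q ∉ cone F ∧ 0 < c q} then ENNReal.ofReal (1 - ζ q) else
        ENNReal.ofReal (ζ q) := by
    ext q
    unfold Th
    by_cases h : q ∈ cone F
    · simp [h]
    · by_cases h2 : 0 < c q
      · simp [h, h2]
      · simp [h, h2]
  rw [e]
  refine Measurable.ite hcl.measurableSet measurable_const ?_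
  refine Measurable.ite hA.measurableSet ?_ ?_
  · exact (measurable_const.sub hζm).ennreal_ofReal
  · exact hζm.ennreal_ofReal

/-- flip property of the weight along the normal at a point with a unique preimage. -/
theorem Th_flip {F : M → Eu (m + 2)} (hF : Imm F)
    {c ζ : Eu (m + 2) → ℝ} (hc : Colour F c)
    (h0 : ∀ q, 0 ≤ ζ q) (h1 : ∀ q, ζ q ≤ 1) (hζ : ContinuousOn ζ {0}ᶜ)
    {x : M} (hx : ∀ x', F x' = F x → x' = x) {ν : Eu (m + 2)} (hν : IsNormal F x ν)
    {ε : ℝ} (hε : 0 < ε) :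
    ∀ᶠ s in 𝓝[>] (0:ℝ), Th F c ζ (F x + s • ν) + Th F c ζ (F x - s • ν) ≤
      1 + ENNReal.ofReal ε := by
  have hx0 : F x ≠ 0 := by
    intro h
    have := hF.norm_one x
    rw [h, norm_zero] at this
    norm_num at this
  have hcz : ContinuousAt ζ (F x) := hζ.continuousAt (isOpen_compl_singleton.mem_nhds hx0)
  have hp : Tendsto (fun s : ℝ => F x + s • ν) (𝓝[>] 0) (𝓝 (F x)) := by
    have : Continuous fun s : ℝ => F x + s • ν := by fun_prop
    have h2 := (this.tendsto 0).mono_left (nhdsWithin_le_nhds (s := Ioi (0:ℝ)))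
    simpa using h2
  have hm : Tendsto (fun s : ℝ => F x - s • ν) (𝓝[>] 0) (𝓝 (F x)) := by
    have : Continuous fun s : ℝ => F x - s • ν := by fun_prop
    have h2 := (this.tendsto 0).mono_left (nhdsWithin_le_nhds (s := Ioi (0:ℝ)))
    simpa using h2
  have hd : Tendsto (fun s : ℝ => ζ (F x + s • ν) - ζ (F x - s • ν)) (𝓝[>] 0) (𝓝 0) := by
    have := (hcz.tendsto.comp hp).sub (hcz.tendsto.comp hm)
    simpa using this
  have hd' : ∀ᶠ s in 𝓝[>] (0:ℝ), |ζ (F x + s • ν) - ζ (F x - s • ν)| < ε := by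
    have := hd.eventually (Metric.ball_mem_nhds (0:ℝ) hε)
    filter_upwards [this] with s hs
    simpa [Real.dist_eq] using hs
  filter_upwards [hc.flip x hx ν hν, hd'] with s hs hs2
  rw [abs_lt] at hs2
  set p := F x + s • ν
  set p' := F x - s • ν
  have key : ∀ a b : ℝ, 0 ≤ a → 0 ≤ b → a + b ≤ 1 + ε →
      ENNReal.ofReal a + ENNReal.ofReal b ≤ 1 + ENNReal.ofReal ε := by
    intro a b ha hb hab
    rw [← ENNReal.ofReal_add ha hb, ← ENNReal.ofReal_one, ← ENNReal.ofReal_add zero_le_one hε.le]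
    exact ENNReal.ofReal_le_ofReal hab
  have hle : ∀ q, Th F c ζ q ≤ ENNReal.ofReal (if 0 < c q then 1 - ζ q else ζ q) := by
    intro q
    unfold Th
    split_ifs
    · exact bot_le
    · exact bot_le
    · exact le_refl _
    · exact le_refl _
  refine (add_le_add (hle p) (hle p')).trans ?_
  rcases hc.pm p with h2 | h2
  · have h3 : c p' = -1 := by rw [h2] at hs; linarith
    rw [if_pos (by rw [h2]; norm_num), if_neg (by rw [h3]; norm_num)]
    exact key _ _ (by linarith [h1 p]) (h0 p') (by linarith)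
  · have h3 : c p' = 1 := by rw [h2] at hs; linarith
    rw [if_neg (by rw [h2]; norm_num), if_pos (by rw [h3]; norm_num)]
    exact key _ _ (h0 p) (by linarith [h1 p']) (by linarith)

/-- the region near the cone. -/
def Reg (F : M → Eu (m + 2)) (δ : ℝ) : Set (Eu (m + 2)) :=
  {q | 0 < Metric.infDist q (cone F) ∧ Metric.infDist q (cone F) < δ * ‖q‖}

omit [TopologicalSpace M] [ChartedSpace (Eu m) M] in
theorem measurableSet_Reg (F : M → Eu (m + 2)) (δ : ℝ) : MeasurableSet (Reg F δ) := by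
  have h1 : Continuous fun q : Eu (m + 2) => Metric.infDist q (cone F) :=
    Metric.continuous_infDist_pt _
  refine (measurableSet_lt measurable_const h1.measurable).inter
    (measurableSet_lt h1.measurable ?_)
  exact (continuous_const.mul continuous_norm).measurable

omit [TopologicalSpace M] [ChartedSpace (Eu m) M] in
theorem smul_mem_Reg [Nonempty M] (F : M → Eu (m + 2)) (δ : ℝ) {a : ℝ} (ha : 0 < a)
    (q : Eu (m + 2)) : a • q ∈ Reg F δ ↔ q ∈ Reg F δ := by
  unfold Reg
  simp only [mem_ofPred_eq]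
  rw [infDist_smul F ha, norm_smul, Real.norm_of_nonneg ha.le]
  constructor
  · rintro ⟨h1, h2⟩
    refine ⟨pos_of_mul_pos_right h1 ha.le, ?_⟩
    have : a * Metric.infDist q (cone F) < a * (δ * ‖q‖) := by linarith
    exact lt_of_mul_lt_mul_left this ha.le
  · rintro ⟨h1, h2⟩
    refine ⟨mul_pos ha h1, ?_⟩
    have : a * Metric.infDist q (cone F) < a * (δ * ‖q‖) := mul_lt_mul_of_pos_left h2 ha
    linarith

/-- scaling of integrals of `0`-homogeneous functions over cones. -/
theorem lintegral_ball_scale {G : Eu (m + 2) → ℝ≥0∞} (hG : Measurable G)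
    (hh : ∀ a : ℝ, 0 < a → ∀ q, G (a • q) = G q) {a : ℝ} (ha : 0 < a) :
    ∫⁻ q in Metric.ball (0 : Eu (m + 2)) a, G q =
      ENNReal.ofReal (a ^ (m + 2)) * ∫⁻ q in Metric.ball (0 : Eu (m + 2)) 1, G q := by
  have hb : ∀ r : ℝ, MeasurableSet (Metric.ball (0 : Eu (m + 2)) r) := fun r =>
    measurableSet_ball
  rw [← lintegral_indicator (hb a), ← lintegral_indicator (hb 1)]
  have ha' : a⁻¹ ≠ 0 := inv_ne_zero ha.ne'
  have h1 := Measure.map_addHaar_smul (volume : Measure (Eu (m + 2))) ha'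
  have h2 : ∫⁻ q, (Metric.ball (0 : Eu (m + 2)) 1).indicator G (a⁻¹ • q) =
      ∫⁻ q, (Metric.ball (0 : Eu (m + 2)) 1).indicator G q
        ∂(Measure.map (a⁻¹ • ·) (volume : Measure (Eu (m + 2)))) := by
    rw [lintegral_map (hG.indicator (hb 1)) (measurable_const_smul a⁻¹)]
  rw [h1, lintegral_smul_measure] at h2
  have h3 : (fun q => (Metric.ball (0 : Eu (m + 2)) 1).indicator G (a⁻¹ • q)) =
      (Metric.ball (0 : Eu (m + 2)) a).indicator G := by
    ext q
    by_cases hq : q ∈ Metric.ball (0 : Eu (m + 2)) a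
    · have hq' : a⁻¹ • q ∈ Metric.ball (0 : Eu (m + 2)) 1 := by
        rw [mem_ball_zero_iff, norm_smul, norm_inv, Real.norm_of_nonneg ha.le,
          inv_mul_lt_iff₀ ha, mul_one]
        simpa using hq
      rw [indicator_of_mem hq, indicator_of_mem hq', hh _ (inv_pos.2 ha)]
    · have hq' : a⁻¹ • q ∉ Metric.ball (0 : Eu (m + 2)) 1 := by
        rw [mem_ball_zero_iff, norm_smul, norm_inv, Real.norm_of_nonneg ha.le,
          inv_mul_lt_iff₀ ha, mul_one]
        simpa using hq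
      rw [indicator_of_notMem hq, indicator_of_notMem hq']
  rw [h3] at h2
  rw [h2, smul_eq_mul]
  congr 2
  rw [finrank_euclideanSpace_fin, inv_pow, inv_inv, abs_of_pos (pow_pos ha _)]

/-- reduction of the ball integral to a thin shell. -/
theorem ball_le_shell {G : Eu (m + 2) → ℝ≥0∞} (hG : Measurable G)
    (hh : ∀ a : ℝ, 0 < a → ∀ q, G (a • q) = G q) (h1 : ∀ q, G q ≤ 1) {η : ℝ} (hη : 0 < η) :
    ENNReal.ofReal (((m : ℝ) + 2) * η) * ∫⁻ q in Metric.ball (0 : Eu (m + 2)) 1, G q ≤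
      ∫⁻ q in {q : Eu (m + 2) | 1 ≤ ‖q‖ ∧ ‖q‖ < 1 + η}, G q := by
  set I := ∫⁻ q in Metric.ball (0 : Eu (m + 2)) 1, G q with hI
  set J := ∫⁻ q in {q : Eu (m + 2) | 1 ≤ ‖q‖ ∧ ‖q‖ < 1 + η}, G q with hJ
  have hfin : I ≠ ⊤ := by
    refine ne_of_lt (lt_of_le_of_lt (lintegral_mono h1) ?_)
    rw [setLIntegral_const, one_mul]
    exact measure_ball_lt_top
  have hsc := lintegral_ball_scale hG hh (a := 1 + η) (by linarith)
  have hun : Metric.ball (0 : Eu (m + 2)) (1 + η) ⊆
      Metric.ball (0 : Eu (m + 2)) 1 ∪ {q : Eu (m + 2) | 1 ≤ ‖q‖ ∧ ‖q‖ < 1 + η} := by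
    intro q hq
    rw [mem_ball_zero_iff] at hq
    by_cases h : ‖q‖ < 1
    · left; rwa [mem_ball_zero_iff]
    · right; exact ⟨not_lt.1 h, hq⟩
  have h2 : ENNReal.ofReal ((1 + η) ^ (m + 2)) * I ≤ I + J := by
    rw [← hsc]
    exact (lintegral_mono_set hun).trans (lintegral_union_le _ _ _)
  have h3 : ENNReal.ofReal (1 + ((m : ℝ) + 2) * η) ≤ ENNReal.ofReal ((1 + η) ^ (m + 2)) := by
    refine ENNReal.ofReal_le_ofReal ?_
    have := one_add_mul_le_pow (a := η) (by linarith) (m + 2)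
    push_cast at this
    exact this
  have h4 : I + ENNReal.ofReal (((m : ℝ) + 2) * η) * I ≤ I + J := by
    refine le_trans (le_of_eq ?_) ((mul_le_mul_left h3 I).trans h2)
    rw [ENNReal.ofReal_add zero_le_one (by positivity), ENNReal.ofReal_one,
      add_mul (1 : ℝ≥0∞), one_mul]
  exact (ENNReal.add_le_add_iff_left hfin).1 h4

end Man

end Crest.Agent.R246.J816
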