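import Crest.Agent.R246.JC5_816
import Mathlib.MeasureTheory.Constructions.Polish.Basic
import Mathlib.Topology.MetricSpace.Polish

/-!
Row 246, part JC, file 6: the localised Minkowski content bound `StJC`.
-/

set_option autoImplicit false

open scoped ContDiff Topology ENNReal
open MeasureTheory Set Filter

noncomputable section

namespace Crest.Agent.R246.J816

universe u

variable {m : ℕ}

section Piece

variable {M : Type u} [MetricSpace M] [ChartedSpace (Eu m) M] [MeasurableSpace M] [BorelSpace M]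

/-- coordinates of a Borel piece of `M` inside a small ball of the chart at `x₀`. -/
def crd (x₀ : M) (r : ℝ) (P : Set M) : Set (Eu m) :=
  {t | t ∈ (chartAt (Eu m) x₀).target ∧ t ∈ Metric.ball (ctr x₀ : Eu m) r ∧
    (chartAt (Eu m) x₀).symm t ∈ P}

theorem measurableSet_crd (x₀ : M) (r : ℝ) {P : Set M} (hP : MeasurableSet P) :
    MeasurableSet (crd (m := m) x₀ r P) := by
  classical
  set e := chartAt (Eu m) x₀ with he
  have h1 : Measurable (e.target.piecewise e.symm (fun _ => x₀)) :=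
    e.symm.continuousOn.measurable_piecewise continuousOn_const e.open_target.measurableSet
  have h2 : crd (m := m) x₀ r P = e.target ∩ (Metric.ball (ctr x₀ : Eu m) r ∩
      (e.target.piecewise e.symm (fun _ => x₀)) ⁻¹' P) := by
    ext t
    constructor
    · rintro ⟨ht, htb, htP⟩
      refine ⟨ht, htb, ?_⟩
      rw [mem_preimage, Set.piecewise_eq_of_mem _ _ _ ht]
      exact htP
    · rintro ⟨ht, htb, htP⟩
      rw [mem_preimage, Set.piecewise_eq_of_mem _ _ _ ht] at htP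
      exact ⟨ht, htb, htP⟩
  rw [h2]
  exact e.open_target.measurableSet.inter (measurableSet_ball.inter (h1 hP))

omit [MeasurableSpace M] [BorelSpace M] in
theorem crd_subset (x₀ : M) (r : ℝ) (P : Set M) :
    crd (m := m) x₀ r P ⊆ Metric.ball (ctr x₀) r := fun _ ht => ht.2.1

/-- volume of the projected piece. -/
theorem lintegral_jac_le {F : M → Eu (m + 2)} {μ : Measure M} (hμ : ProjBound F μ)
    {x₀ : M} {r : ℝ} {π : Eu (m + 2) →L[ℝ] Eu m} (hπ : ‖π‖ ≤ 1)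
    (hgood : ∀ t ∈ Metric.ball (ctr x₀ : Eu m) r, GoodAt (loc F x₀) t)
    (hinj : InjOn (fun t => π (loc F x₀ t)) (Metric.ball (ctr x₀ : Eu m) r))
    {P : Set M} (hP : MeasurableSet P) :
    ∫⁻ t in crd x₀ r P, jac π (loc F x₀) t ≤ μ P := by
  have hsub := crd_subset (m := m) x₀ r P
  have h1 := lintegral_abs_det_fderiv_eq_addHaar_image (volume : Measure (Eu m))
    (f := fun t => π (loc F x₀ t)) (f' := fun t => π.comp (fderiv ℝ (loc F x₀) t))
    (measurableSet_crd (m := m) x₀ r hP)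
    (fun t ht => (π.hasFDerivAt.comp t
      (hgood t (hsub ht)).differentiableAt.hasFDerivAt).hasFDerivWithinAt)
    (hinj.mono hsub)
  have h2 : ∫⁻ t in crd x₀ r P, jac π (loc F x₀) t =
      volume ((fun t => π (loc F x₀ t)) '' (crd x₀ r P)) := h1
  rw [h2]
  refine (measure_mono ?_).trans (hμ π hπ P hP)
  rintro _ ⟨t, ⟨ht, htb, htP⟩, rfl⟩
  exact ⟨_, ⟨_, htP, rfl⟩, rfl⟩

end Piece

/-- the choice of the half-length of the normal segments. -/
def sg (δ : ℝ) : ℝ := δ * (1 + δ)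

theorem sg_pos {δ : ℝ} (h : 0 < δ) : 0 < sg δ := mul_pos h (by linarith)

theorem abs_lt_sg {δ s : ℝ} (hδ : 0 < δ) (hδ2 : δ ≤ 1 / 2)
    (h : s ^ 2 < δ ^ 2 * (1 + s ^ 2)) : |s| < sg δ := by
  have h1 : s ^ 2 * (1 - δ ^ 2) < δ ^ 2 := by nlinarith
  have h2 : 1 ≤ (1 - δ ^ 2) * (1 + δ) ^ 2 := by nlinarith [mul_pos hδ hδ, mul_pos (mul_pos hδ hδ) hδ]
  have h3 : 0 < 1 - δ ^ 2 := by nlinarith
  have h4 : s ^ 2 < (sg δ) ^ 2 := by
    have h5 : s ^ 2 * (1 - δ ^ 2) < (sg δ) ^ 2 * (1 - δ ^ 2) := by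
      refine lt_of_lt_of_le h1 ?_
      unfold sg
      have : (δ * (1 + δ)) ^ 2 * (1 - δ ^ 2) = δ ^ 2 * ((1 - δ ^ 2) * (1 + δ) ^ 2) := by ring
      rw [this]
      nlinarith [mul_pos hδ hδ]
    exact lt_of_mul_lt_mul_right h5 h3.le
  exact abs_lt_of_sq_lt_sq h4 (sg_pos hδ).le

theorem one_sub_lt {s ρ σ Q : ℝ} (hs : |s| < σ) (hσ : σ < 1) (hρ : 0 < ρ) (hQ : 1 ≤ Q)
    (h : Q ^ 2 = ρ ^ 2 * (1 + s ^ 2)) : 1 - σ < ρ := by
  by_contra hcon
  push Not at hcon
  have h0 : 0 ≤ |s| := abs_nonneg s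
  have hs2 : s ^ 2 = |s| ^ 2 := (sq_abs s).symm
  have h1 : ρ < 1 - |s| := by linarith
  have h2 : ρ ^ 2 * (1 + s ^ 2) < (1 - |s|) ^ 2 * (1 + |s| ^ 2) := by
    rw [hs2]
    have : ρ ^ 2 < (1 - |s|) ^ 2 := by
      apply pow_lt_pow_left₀ h1 hρ.le (by norm_num)
    nlinarith [sq_nonneg |s|]
  have h3 : (1 - |s|) ^ 2 * (1 + |s| ^ 2) ≤ 1 := by
    have h5 : |s| ≤ 1 := by linarith
    nlinarith [mul_nonneg h0 h0, mul_nonneg (mul_nonneg h0 h0) h0,
      mul_nonneg h0 (sub_nonneg.2 h5), mul_nonneg (mul_nonneg h0 h0) (sub_nonneg.2 h5)]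
  nlinarith

end Crest.Agent.R246.J816
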