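import Crest.Agent.R246.Slice_990
import Mathlib.Analysis.Calculus.ContDiff.RCLike
import Mathlib.Analysis.Calculus.BumpFunction.FiniteDimension
import Mathlib.Analysis.Calculus.BumpFunction.InnerProduct
import Mathlib.MeasureTheory.Integral.DominatedConvergence

/-!
Row 246, part JE (1): one-sided positivity of the flux.

If `φ` is weakly superharmonic on `{φ > 0}` then `0 ≤ flux φ η` for every `0`-homogeneous test
function `η` vanishing on `{φ ≤ a ‖x‖}`, `a > 0`.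
-/

set_option autoImplicit false
set_option linter.unusedSectionVars false
noncomputable section
open MeasureTheory Set Filter Topology Metric Measure
open scoped RealInnerProductSpace NNReal

namespace Crest.Agent.R246.JE364

open Crest.Agent.R246.H990

variable {E : Type*} [NormedAddCommGroup E] [InnerProductSpace ℝ E]
variable [FiniteDimensional ℝ E] [MeasurableSpace E] [BorelSpace E]

/-- weak superharmonicity on an open set, tested with Lipschitz functions. -/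
def Sup (U : Set E) (φ : E → ℝ) : Prop :=
  ∀ ψ : E → ℝ, (∃ K, LipschitzWith K ψ) → HasCompactSupport ψ → tsupport ψ ⊆ U →
    (∀ x, 0 ≤ ψ x) → 0 ≤ ∫ x, ⟪gradient φ x, gradient ψ x⟫

/-! ### the Gaussian weight -/

/-- Gaussian weight. -/
def Gw (φ : E → ℝ) (x : E) : ℝ := Real.exp (-(‖x‖ ^ 2 - φ x ^ 2))

omit [FiniteDimensional ℝ E] [MeasurableSpace E] [BorelSpace E] in
theorem Gw_pos (φ : E → ℝ) (x : E) : 0 < Gw φ x := Real.exp_pos _

theorem sq_le_of_nullCone {φ : E → ℝ} (h : NullCone φ) (x : E) : φ x ^ 2 ≤ ‖x‖ ^ 2 := by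
  rw [← sq_abs]
  exact pow_le_pow_left₀ (abs_nonneg _) (h.abs_le x) 2

theorem Gw_le_one {φ : E → ℝ} (h : NullCone φ) (x : E) : Gw φ x ≤ 1 := by
  unfold Gw
  rw [Real.exp_le_one_iff]
  linarith [sq_le_of_nullCone h x]

theorem Gw_le {φ : E → ℝ} (h : NullCone φ) : ∃ b : ℝ, 0 < b ∧ ∀ x, Gw φ x ≤
    Real.exp (-b * ‖x‖ ^ 2) := by
  obtain ⟨c, hc0, hc1, hc⟩ := h.bd
  refine ⟨1 - c ^ 2, by nlinarith, fun x => ?_⟩
  unfold Gw
  apply Real.exp_le_exp.2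
  have h1 : φ x ^ 2 ≤ (c * ‖x‖) ^ 2 := by
    rw [← sq_abs]
    exact pow_le_pow_left₀ (abs_nonneg _) (hc x) 2
  nlinarith

theorem exp_sub_le {u v : ℝ} (hu : u ≤ 0) (hv : v ≤ 0) :
    |Real.exp u - Real.exp v| ≤ |u - v| := by
  wlog h : v ≤ u generalizing u v
  · rw [abs_sub_comm, abs_sub_comm u v]
    exact this hv hu (le_of_not_ge h)
  rw [abs_of_nonneg (sub_nonneg.2 (Real.exp_le_exp.2 h)), abs_of_nonneg (sub_nonneg.2 h)]
  have h1 : Real.exp v = Real.exp u * Real.exp (v - u) := by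
    rw [← Real.exp_add]; congr 1; ring
  have h2 := Real.add_one_le_exp (v - u)
  have h3 : Real.exp u ≤ 1 := Real.exp_le_one_iff.2 hu
  have h4 : 0 < Real.exp u := Real.exp_pos u
  rw [h1]
  nlinarith

theorem Gw_sub_le {φ : E → ℝ} (h : NullCone φ) (a b : E) :
    |Gw φ a - Gw φ b| ≤ 2 * (‖a‖ + ‖b‖) * ‖a - b‖ := by
  unfold Gw
  have h1 := sq_le_of_nullCone h a
  have h2 := sq_le_of_nullCone h b
  refine (exp_sub_le (by linarith) (by linarith)).trans ?_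
  have e : -(‖a‖ ^ 2 - φ a ^ 2) - -(‖b‖ ^ 2 - φ b ^ 2) =
      (φ a + φ b) * (φ a - φ b) - (‖a‖ + ‖b‖) * (‖a‖ - ‖b‖) := by ring
  rw [e]
  have h3 : |φ a + φ b| ≤ ‖a‖ + ‖b‖ :=
    (abs_add_le _ _).trans (add_le_add (h.abs_le a) (h.abs_le b))
  have h4 : |φ a - φ b| ≤ ‖a - b‖ := lip_abs h.lip a b
  have h5 : |‖a‖ - ‖b‖| ≤ ‖a - b‖ := abs_norm_sub_norm_le a b
  have h6 : 0 ≤ ‖a‖ + ‖b‖ := by positivity
  calc |(φ a + φ b) * (φ a - φ b) - (‖a‖ + ‖b‖) * (‖a‖ - ‖b‖)|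
      ≤ |(φ a + φ b) * (φ a - φ b)| + |(‖a‖ + ‖b‖) * (‖a‖ - ‖b‖)| := abs_sub _ _
    _ = |φ a + φ b| * |φ a - φ b| + (‖a‖ + ‖b‖) * |‖a‖ - ‖b‖| := by
        rw [abs_mul, abs_mul, abs_of_nonneg h6]
    _ ≤ (‖a‖ + ‖b‖) * ‖a - b‖ + (‖a‖ + ‖b‖) * ‖a - b‖ := by gcongr
    _ = 2 * (‖a‖ + ‖b‖) * ‖a - b‖ := by ring

theorem hasFDerivAt_Gw {φ : E → ℝ} {x : E} (hd : DifferentiableAt ℝ φ x) :
    HasFDerivAt (Gw φ) (Gw φ x • (-(2 • innerSL ℝ x - (2 * φ x) • fderiv ℝ φ x))) x := by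
  have h1 : HasFDerivAt (fun x : E => ‖x‖ ^ 2) (2 • (innerSL ℝ x)) x := by
    have := (hasFDerivAt_id x).norm_sq
    simpa using this
  have h2 : HasFDerivAt (fun x : E => φ x ^ 2) ((2 * φ x) • fderiv ℝ φ x) x := by
    have := hd.hasFDerivAt.pow 2
    simpa using this
  have h3 := ((h1.sub h2).neg).exp
  exact h3

/-- the derivative of the Gaussian weight along the null direction vanishes. -/
theorem fderiv_Gw_grad {φ : E → ℝ} (h : NullCone φ) {x : E} (hd : DifferentiableAt ℝ φ x)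
    (hg : ‖fderiv ℝ φ x‖ = 1) :
    (Gw φ x • (-(2 • innerSL ℝ x - (2 * φ x) • fderiv ℝ φ x))) (gradient φ x) = 0 := by
  have e1 : fderiv ℝ φ x (gradient φ x) = 1 := by
    rw [← cv_inner (fderiv ℝ φ x) (gradient φ x), gradient_eq_cv, real_inner_self_eq_norm_sq,
      cv_norm, hg, one_pow]
  have e2 : ⟪x, gradient φ x⟫ = φ x := by
    rw [real_inner_comm, gradient_eq_cv, cv_inner, h.euler hd.hasFDerivAt]
  simp only [_root_.smul_apply, _root_.neg_apply, _root_.sub_apply, innerSL_apply_apply,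
    smul_eq_mul, nsmul_eq_mul, e1, e2]
  push_cast
  ring

/-! ### the radial cut-off -/

/-- fixed bump. -/
def kb (E : Type*) [NormedAddCommGroup E] [InnerProductSpace ℝ E] : ContDiffBump (0 : E) :=
  ⟨1, 2, one_pos, one_lt_two⟩

/-- radial cut-off `κ_R`. -/
def kap' (R : ℝ) (x : E) : ℝ := kb E (R⁻¹ • x) - kb E (R • x)

theorem kb_contDiff : ContDiff ℝ 1 (kb E : E → ℝ) := (kb E).contDiff

theorem kb_lip : ∃ C : ℝ≥0, LipschitzWith C (kb E : E → ℝ) :=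
  ContDiff.lipschitzWith_of_hasCompactSupport (kb E).hasCompactSupport kb_contDiff one_ne_zero

theorem kb_one {x : E} (hx : ‖x‖ ≤ 1) : kb E x = 1 :=
  (kb E).one_of_mem_closedBall (by simpa [kb] using hx)

theorem kb_zero {x : E} (hx : 2 ≤ ‖x‖) : kb E x = 0 :=
  (kb E).zero_of_le_dist (by simpa [kb] using hx)

theorem kap'_contDiff (R : ℝ) : ContDiff ℝ 1 (kap' R : E → ℝ) := by
  unfold kap'
  exact (kb_contDiff.comp (contDiff_const_smul _)).sub (kb_contDiff.comp (contDiff_const_smul _))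

theorem norm_smul_R {R : ℝ} (hR : 0 < R) (x : E) : ‖R • x‖ = R * ‖x‖ := by
  rw [norm_smul, Real.norm_of_nonneg hR.le]

theorem kap'_nonneg {R : ℝ} (hR : 2 ≤ R) (x : E) : 0 ≤ kap' R x := by
  have hR0 : 0 < R := by linarith
  unfold kap'
  by_cases hx : 2 ≤ ‖R • x‖
  · rw [kb_zero hx, sub_zero]; exact (kb E).nonneg
  · push Not at hx
    rw [norm_smul_R hR0] at hx
    have : ‖R⁻¹ • x‖ ≤ 1 := by
      rw [norm_smul_R (inv_pos.2 hR0), inv_mul_le_iff₀ hR0]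
      nlinarith [norm_nonneg x]
    rw [kb_one this]
    linarith [(kb E).le_one (x := R • x)]

theorem kap'_le_one (R : ℝ) (x : E) : kap' R x ≤ 1 := by
  unfold kap'
  linarith [(kb E).le_one (x := R⁻¹ • x), (kb E).nonneg (x := R • x)]

theorem kap'_small {R : ℝ} (hR : 2 ≤ R) {x : E} (hx : ‖x‖ ≤ R⁻¹) : kap' R x = 0 := by
  have hR0 : 0 < R := by linarith
  have h1 : ‖R • x‖ ≤ 1 := by
    rw [norm_smul_R hR0]
    calc R * ‖x‖ ≤ R * R⁻¹ := by gcongr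
      _ = 1 := mul_inv_cancel₀ hR0.ne'
  have h2 : ‖R⁻¹ • x‖ ≤ 1 := by
    rw [norm_smul_R (inv_pos.2 hR0)]
    have : R⁻¹ ≤ 1 := inv_le_one_of_one_le₀ (by linarith)
    have h3 : 0 < R⁻¹ := inv_pos.2 hR0
    nlinarith [norm_nonneg x]
  unfold kap'
  rw [kb_one h1, kb_one h2, sub_self]

theorem kap'_large {R : ℝ} (hR : 2 ≤ R) {x : E} (hx : 2 * R ≤ ‖x‖) : kap' R x = 0 := by
  have hR0 : 0 < R := by linarith
  have h1 : 2 ≤ ‖R • x‖ := by
    rw [norm_smul_R hR0]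
    nlinarith
  have h2 : 2 ≤ ‖R⁻¹ • x‖ := by
    rw [norm_smul_R (inv_pos.2 hR0), le_inv_mul_iff₀ hR0]
    linarith
  unfold kap'
  rw [kb_zero h1, kb_zero h2, sub_self]

theorem kap'_lip {R : ℝ} (hR : 2 ≤ R) : ∃ L : ℝ, 0 ≤ L ∧ ∀ a b : E,
    |kap' R a - kap' R b| ≤ L * ‖a - b‖ := by
  obtain ⟨C, hC⟩ := kb_lip (E := E)
  have hR0 : 0 < R := by linarith
  refine ⟨C * R⁻¹ + C * R, by positivity, fun a b => ?_⟩
  have h1 := hC.dist_le_mul (R⁻¹ • a) (R⁻¹ • b)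
  have h2 := hC.dist_le_mul (R • a) (R • b)
  rw [Real.dist_eq, dist_eq_norm, ← smul_sub, norm_smul_R (inv_pos.2 hR0)] at h1
  rw [Real.dist_eq, dist_eq_norm, ← smul_sub, norm_smul_R hR0] at h2
  unfold kap'
  have e : kb E (R⁻¹ • a) - kb E (R • a) - (kb E (R⁻¹ • b) - kb E (R • b)) =
    (kb E (R⁻¹ • a) - kb E (R⁻¹ • b)) - (kb E (R • a) - kb E (R • b)) := by ring
  rw [e]
  refine (abs_sub _ _).trans ?_
  linarith

/-- uniform bound for the gradient of the cut-off. -/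
theorem kap'_fderiv_le : ∃ C : ℝ, 0 ≤ C ∧ ∀ R : ℝ, 2 ≤ R → ∀ x : E, x ≠ 0 →
    ‖fderiv ℝ (kap' R) x‖ ≤ C * (1 + 2 * ‖x‖⁻¹) := by
  obtain ⟨C, hC⟩ := kb_lip (E := E)
  refine ⟨C, C.2, fun R hR x hx => ?_⟩
  have hR0 : 0 < R := by linarith
  have hd : Differentiable ℝ (kb E : E → ℝ) := kb_contDiff.differentiable (by norm_num)
  have hs : ∀ s : ℝ, HasFDerivAt (fun x : E => kb E (s • x))
      ((fderiv ℝ (kb E : E → ℝ) (s • x)).comp (s • ContinuousLinearMap.id ℝ E)) x := by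
    intro s
    have h1 : HasFDerivAt (fun x : E => s • x) (s • ContinuousLinearMap.id ℝ E) x :=
      (hasFDerivAt_id x).const_smul s
    exact (hd (s • x)).hasFDerivAt.comp x h1
  have hb : ∀ y : E, ‖fderiv ℝ (kb E : E → ℝ) y‖ ≤ C := fun y =>
    norm_fderiv_le_of_lipschitz ℝ hC
  have hns : ∀ s : ℝ, 0 < s → ‖(fderiv ℝ (kb E : E → ℝ) (s • x)).comp
      (s • ContinuousLinearMap.id ℝ E)‖ ≤ ‖fderiv ℝ (kb E : E → ℝ) (s • x)‖ * s := by
    intro s hs'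
    refine (ContinuousLinearMap.opNorm_comp_le _ _).trans ?_
    gcongr
    rw [norm_smul, Real.norm_of_nonneg hs'.le]
    have := ContinuousLinearMap.norm_id_le (𝕜 := ℝ) (E := E)
    nlinarith
  have hsub : fderiv ℝ (kap' R) x = (fderiv ℝ (kb E : E → ℝ) (R⁻¹ • x)).comp
      (R⁻¹ • ContinuousLinearMap.id ℝ E) - (fderiv ℝ (kb E : E → ℝ) (R • x)).comp
      (R • ContinuousLinearMap.id ℝ E) := ((hs R⁻¹).sub (hs R)).fderiv
  rw [hsub]
  refine (norm_sub_le _ _).trans ?_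
  have hxn : 0 < ‖x‖ := norm_pos_iff.2 hx
  have h1 : ‖(fderiv ℝ (kb E : E → ℝ) (R⁻¹ • x)).comp (R⁻¹ • ContinuousLinearMap.id ℝ E)‖ ≤
      C * 1 := by
    refine (hns _ (inv_pos.2 hR0)).trans ?_
    gcongr
    · exact hb _
    · exact inv_le_one_of_one_le₀ (by linarith)
  have h2 : ‖(fderiv ℝ (kb E : E → ℝ) (R • x)).comp (R • ContinuousLinearMap.id ℝ E)‖ ≤
      C * (2 * ‖x‖⁻¹) := by
    refine (hns _ hR0).trans ?_
    by_cases hx2 : 2 < ‖R • x‖
    · have : fderiv ℝ (kb E : E → ℝ) (R • x) = 0 := by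
        have : (kb E : E → ℝ) =ᶠ[𝓝 (R • x)] fun _ => (0 : ℝ) := by
          filter_upwards [(continuous_norm.tendsto (R • x)).eventually (lt_mem_nhds hx2)] with y hy
          exact kb_zero hy.le
        rw [this.fderiv_eq]; simp
      rw [this, norm_zero, zero_mul]
      positivity
    · push Not at hx2
      rw [norm_smul_R hR0] at hx2
      have : R ≤ 2 * ‖x‖⁻¹ := by
        rw [← div_eq_mul_inv, le_div_iff₀ hxn]; exact hx2
      gcongr
      exact hb _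
  calc _ ≤ C * 1 + C * (2 * ‖x‖⁻¹) := add_le_add h1 h2
    _ = C * (1 + 2 * ‖x‖⁻¹) := by ring

/-- eventually the cut-off is locally constant one. -/
theorem kap'_eventually {x : E} (hx : x ≠ 0) : ∀ᶠ R : ℝ in atTop,
    kap' R x = 1 ∧ fderiv ℝ (kap' R) x = 0 := by
  have hxn : 0 < ‖x‖ := norm_pos_iff.2 hx
  filter_upwards [eventually_gt_atTop ‖x‖, eventually_gt_atTop (2 / ‖x‖),
    eventually_gt_atTop 0] with R h1 h2 h3
  have h4 : kap' R =ᶠ[𝓝 x] fun _ : E => (1 : ℝ) := by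
    have a1 : ∀ᶠ y in 𝓝 x, ‖y‖ < R := (continuous_norm.tendsto x).eventually (gt_mem_nhds h1)
    have a2 : ∀ᶠ y in 𝓝 x, 2 / R < ‖y‖ := by
      refine (continuous_norm.tendsto x).eventually (lt_mem_nhds ?_)
      rw [div_lt_iff₀ h3]
      rw [div_lt_iff₀ hxn] at h2
      linarith
    filter_upwards [a1, a2] with y hy1 hy2
    unfold kap'
    rw [kb_one, kb_zero, sub_zero]
    · rw [norm_smul_R h3]
      rw [div_lt_iff₀ h3] at hy2
      linarith
    · rw [norm_smul_R (inv_pos.2 h3), inv_mul_le_iff₀ h3]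
      linarith
  exact ⟨h4.self_of_nhds, by rw [h4.fderiv_eq]; simp⟩

end Crest.Agent.R246.JE364
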