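import Crest.Agent.R246.JE1_364

/-!
Row 246, part JE (2): one-sided positivity of the flux.
-/

set_option autoImplicit false
set_option linter.unusedSectionVars false
noncomputable section
open MeasureTheory Set Filter Topology Metric Measure
open scoped RealInnerProductSpace NNReal

namespace Crest.Agent.R246.JE364

open Crest.Agent.R246.H990

variable {E : Type*} [NormedAddCommGroup E] [InnerProductSpace ℝ E]
variable [FiniteDimensional ℝ E] [MeasurableSpace E] [BorelSpace E]

/-- the truncated test function. -/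
def Psi (φ η : E → ℝ) (R : ℝ) (x : E) : ℝ := Gw φ x * kap' R x * η x

theorem Psi_nonneg {φ η : E → ℝ} (hη : ∀ x, 0 ≤ η x) {R : ℝ} (hR : 2 ≤ R) (x : E) :
    0 ≤ Psi φ η R x :=
  mul_nonneg (mul_nonneg (Gw_pos φ x).le (kap'_nonneg hR x)) (hη x)

theorem tsupport_Psi {φ η : E → ℝ} (h : NullCone φ) {a : ℝ}
    (h0 : ∀ x, φ x ≤ a * ‖x‖ → η x = 0) {R : ℝ} (hR : 2 ≤ R) :
    tsupport (Psi φ η R) ⊆ {x | a * ‖x‖ ≤ φ x} ∩ {x | R⁻¹ ≤ ‖x‖} ∩ closedBall 0 (2 * R) := by
  have hφc := h.lip.continuous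
  refine closure_minimal ?_ (((isClosed_le (by fun_prop) hφc).inter
    (isClosed_le continuous_const continuous_norm)).inter isClosed_closedBall)
  intro x hx
  have h1 : kap' R x ≠ 0 := by
    intro h; apply hx; simp [Psi, h]
  have h2 : η x ≠ 0 := by
    intro h; apply hx; simp [Psi, h]
  refine ⟨⟨?_, ?_⟩, ?_⟩
  · by_contra hc
    exact h2 (h0 x (le_of_lt (not_le.1 hc)))
  · by_contra hc
    exact h1 (kap'_small hR (le_of_lt (not_le.1 hc)))
  · rw [mem_closedBall_zero_iff]
    by_contra hc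
    exact h1 (kap'_large hR (le_of_lt (not_le.1 hc)))

theorem Psi_lip {φ η : E → ℝ} (h : NullCone φ) (hη : Test η) {R : ℝ} (hR : 2 ≤ R) :
    ∃ K, LipschitzWith K (Psi φ η R) := by
  have hR0 : 0 < R := by linarith
  obtain ⟨L, hL0, hL⟩ := kap'_lip (E := E) hR
  obtain ⟨K, hK0, hK⟩ := hη.sub_le
  have hG : ∀ a b : E, ‖a‖ ≤ 2 * R → |Gw φ a - Gw φ b| ≤ (8 * R + 2) * ‖a - b‖ := by
    intro a b ha
    rcases le_or_gt 1 ‖a - b‖ with h1 | h1
    · have g1 := Gw_pos φ a
      have g2 := Gw_pos φ b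
      have g3 := Gw_le_one h a
      have g4 := Gw_le_one h b
      have : |Gw φ a - Gw φ b| ≤ 1 := abs_le.2 ⟨by linarith, by linarith⟩
      nlinarith
    · have hb : ‖b‖ ≤ 2 * R + 1 := by
        have := norm_sub_norm_le b a
        rw [norm_sub_rev] at this
        linarith
      refine (Gw_sub_le h a b).trans ?_
      have : 2 * (‖a‖ + ‖b‖) ≤ 8 * R + 2 := by linarith
      gcongr
  have hη1 : ∀ x, |η x| ≤ 1 := fun x => abs_le.2 ⟨by linarith [hη.nonneg x], hη.le_one x⟩
  set C : ℝ := K * R + L + (8 * R + 2) + L with hC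
  have hC0 : 0 ≤ C := by positivity
  -- the one-sided estimate
  have key : ∀ a b : E, kap' R a ≠ 0 → |Psi φ η R a - Psi φ η R b| ≤ C * ‖a - b‖ := by
    intro a b ha
    have ha1 : R⁻¹ ≤ ‖a‖ := by
      by_contra hc
      exact ha (kap'_small hR (le_of_lt (not_le.1 hc)))
    have ha2 : ‖a‖ ≤ 2 * R := by
      by_contra hc
      exact ha (kap'_large hR (le_of_lt (not_le.1 hc)))
    have hapos : 0 < ‖a‖ := lt_of_lt_of_le (inv_pos.2 hR0) ha1
    have hane : a ≠ 0 := norm_pos_iff.1 hapos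
    have ka0 := kap'_nonneg hR a
    have ka1 := kap'_le_one R a
    have kb0 := kap'_nonneg hR b
    have kb1 := kap'_le_one R b
    have g1 := Gw_pos φ a
    have g3 := Gw_le_one h a
    have g2 := Gw_pos φ b
    have g4 := Gw_le_one h b
    rcases eq_or_ne b 0 with rfl | hb
    · have hk0 : kap' R (0 : E) = 0 := kap'_small hR (by rw [norm_zero]; positivity)
      have e : Psi φ η R (0 : E) = 0 := by simp [Psi, hk0]
      rw [e, sub_zero]
      have h1 : |Psi φ η R a| ≤ kap' R a := by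
        unfold Psi
        rw [abs_mul, abs_mul, abs_of_pos g1, abs_of_nonneg ka0]
        calc Gw φ a * kap' R a * |η a| ≤ 1 * kap' R a * 1 := by gcongr; exact hη1 a
          _ = kap' R a := by ring
      have h2 := hL a 0
      rw [hk0, sub_zero, abs_of_nonneg ka0] at h2
      refine h1.trans (h2.trans ?_)
      have : L ≤ C := by
        have : 0 ≤ K * R := by positivity
        linarith
      gcongr
    · have e : Psi φ η R a - Psi φ η R b = Gw φ a * kap' R a * (η a - η b) +
          (kap' R a * (Gw φ a - Gw φ b) + (kap' R a - kap' R b) * Gw φ b) * η b := by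
        unfold Psi; ring
      rw [e]
      have t1 : |Gw φ a * kap' R a * (η a - η b)| ≤ K * R * ‖a - b‖ := by
        rw [abs_mul, abs_mul, abs_of_pos g1, abs_of_nonneg ka0]
        have h1 := hK a b hane hb
        have h2 : K / ‖a‖ ≤ K * R := by
          rw [div_le_iff₀ hapos]
          have : 1 ≤ R * ‖a‖ := by
            rw [inv_le_iff_one_le_mul₀ hR0] at ha1
            linarith
          nlinarith
        calc Gw φ a * kap' R a * |η a - η b| ≤ 1 * 1 * (K / ‖a‖ * ‖a - b‖) := by gcongr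
          _ ≤ K * R * ‖a - b‖ := by rw [one_mul, one_mul]; gcongr
      have t2 : |(kap' R a * (Gw φ a - Gw φ b) + (kap' R a - kap' R b) * Gw φ b) * η b| ≤
          ((8 * R + 2) + L) * ‖a - b‖ := by
        rw [abs_mul]
        have h1 : |kap' R a * (Gw φ a - Gw φ b)| ≤ (8 * R + 2) * ‖a - b‖ := by
          rw [abs_mul, abs_of_nonneg ka0]
          calc kap' R a * |Gw φ a - Gw φ b| ≤ 1 * ((8 * R + 2) * ‖a - b‖) := by
                gcongr; exact hG a b ha2
            _ = _ := one_mul _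
        have h2 : |(kap' R a - kap' R b) * Gw φ b| ≤ L * ‖a - b‖ := by
          rw [abs_mul, abs_of_pos g2]
          calc |kap' R a - kap' R b| * Gw φ b ≤ (L * ‖a - b‖) * 1 := by
                gcongr; exact hL a b
            _ = _ := mul_one _
        have h3 := (abs_add_le (kap' R a * (Gw φ a - Gw φ b))
          ((kap' R a - kap' R b) * Gw φ b)).trans (add_le_add h1 h2)
        calc _ ≤ ((8 * R + 2) * ‖a - b‖ + L * ‖a - b‖) * 1 := by
              gcongr; exact hη1 b
          _ = _ := by ring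
      refine (abs_add_le _ _).trans ((add_le_add t1 t2).trans ?_)
      rw [hC, ← add_mul]
      have : K * R + (8 * R + 2 + L) ≤ K * R + L + (8 * R + 2) + L := by linarith
      gcongr
  refine ⟨C.toNNReal, LipschitzWith.of_dist_le_mul fun a b => ?_⟩
  rw [Real.coe_toNNReal _ hC0, Real.dist_eq, dist_eq_norm]
  by_cases ha : kap' R a = 0
  · by_cases hb : kap' R b = 0
    · have e1 : Psi φ η R a = 0 := by simp [Psi, ha]
      have e2 : Psi φ η R b = 0 := by simp [Psi, hb]
      rw [e1, e2, sub_zero, abs_zero]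
      positivity
    · rw [abs_sub_comm, norm_sub_rev]
      exact key b a hb
  · exact key a b ha

/-- the derivative of the truncated test function along the null direction. -/
theorem fderiv_Psi {φ η : E → ℝ} (h : NullCone φ) (R : ℝ) {x : E}
    (hd : DifferentiableAt ℝ φ x) (hg : ‖fderiv ℝ φ x‖ = 1) (hη : DifferentiableAt ℝ η x) :
    ⟪gradient φ x, gradient (Psi φ η R) x⟫ =
      Gw φ x * (kap' R x * fderiv ℝ η x (gradient φ x) +
        η x * fderiv ℝ (kap' R) x (gradient φ x)) := by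
  have h1 := hasFDerivAt_Gw hd
  have h2 : HasFDerivAt (kap' R : E → ℝ) (fderiv ℝ (kap' R) x) x :=
    (((kap'_contDiff (E := E) R).differentiable (by norm_num)) x).hasFDerivAt
  have h3 := (h1.mul h2).mul hη.hasFDerivAt
  have e1 : ⟪gradient φ x, gradient (Psi φ η R) x⟫ =
      fderiv ℝ (Psi φ η R) x (gradient φ x) := by
    rw [real_inner_comm, gradient_eq_cv (Psi φ η R), cv_inner]
  rw [e1]
  have h4 : fderiv ℝ (Psi φ η R) x = (Gw φ x * kap' R x) • fderiv ℝ η x + η x •
      (Gw φ x • fderiv ℝ (kap' R) x + kap' R x •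
        (Gw φ x • (-(2 • innerSL ℝ x - (2 * φ x) • fderiv ℝ φ x)))) := h3.fderiv
  have h5 := fderiv_Gw_grad h hd hg
  set B : E →L[ℝ] ℝ := Gw φ x • (-(2 • innerSL ℝ x - (2 * φ x) • fderiv ℝ φ x)) with hB
  rw [h4]
  simp only [_root_.add_apply, _root_.smul_apply, smul_eq_mul, h5]
  ring

/-- integrability of the dominating function. -/
theorem integrable_dom (hn : 2 ≤ Module.finrank ℝ E) {b : ℝ} (hb : 0 < b) (C : ℝ) :
    Integrable (fun x : E => Real.exp (-b * ‖x‖ ^ 2) * (C * (1 + 2 * ‖x‖⁻¹)))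
      (volume : Measure E) := by
  have hnt : Nontrivial E := by
    apply Module.nontrivial_of_finrank_pos (R := ℝ); omega
  obtain ⟨m, hm⟩ : ∃ m, Module.finrank ℝ E = m + 2 := ⟨_, (Nat.sub_add_cancel hn).symm⟩
  refine (integrable_fun_norm_addHaar (E := E) volume
    (f := fun t : ℝ => Real.exp (-b * t ^ 2) * (C * (1 + 2 * t⁻¹)))).2 ?_
  have h1 := (integrableOn_gauss (m + 1) hb).const_mul C
  have h2 := (integrableOn_gauss m hb).const_mul (2 * C)
  have h3 : IntegrableOn (fun t : ℝ => C * (t ^ (m + 1) * Real.exp (-b * t ^ 2)) +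
      2 * C * (t ^ m * Real.exp (-b * t ^ 2))) (Ioi 0) := Integrable.add h1 h2
  refine h3.congr_fun (fun t ht => ?_) measurableSet_Ioi
  have ht0 : t ≠ 0 := ne_of_gt ht
  have e : Module.finrank ℝ E - 1 = m + 1 := by omega
  simp only [smul_eq_mul]
  rw [e, pow_succ]
  field_simp

/-- **One-sided positivity.** -/
theorem flux_nonneg (hn : 2 ≤ Module.finrank ℝ E) {φ : E → ℝ} (h : NullCone φ)
    (hS : Sup {x | 0 < φ x} φ) {η : E → ℝ} (hη : Test η) {a : ℝ} (ha : 0 < a)
    (h0 : ∀ x, φ x ≤ a * ‖x‖ → η x = 0) : 0 ≤ flux φ η := by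
  have hnt : Nontrivial E := by
    apply Module.nontrivial_of_finrank_pos (R := ℝ); omega
  obtain ⟨K, hK0, hK⟩ := hη.fderiv_le
  obtain ⟨C, hC0, hC⟩ := kap'_fderiv_le (E := E)
  obtain ⟨b, hb, hGb⟩ := Gw_le h
  have hne : ∀ᵐ x : E, x ≠ 0 := by
    have : volume ({0} : Set E) = 0 := measure_singleton 0
    exact measure_eq_zero_iff_ae_notMem.1 this
  have hpos : ∀ j : ℕ, 0 ≤ ∫ x, ⟪gradient φ x, gradient (Psi φ η ((j : ℝ) + 2)) x⟫ := by
    intro j
    have hR : (2 : ℝ) ≤ (j : ℝ) + 2 := by have := Nat.cast_nonneg (α := ℝ) j; linarith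
    have hR0 : (0 : ℝ) < (j : ℝ) + 2 := by linarith
    have hts := tsupport_Psi h h0 hR
    refine hS _ (Psi_lip h hη hR) ?_ ?_ (Psi_nonneg hη.nonneg hR)
    · exact (isCompact_closedBall (0 : E) (2 * ((j : ℝ) + 2))).of_isClosed_subset
        (isClosed_tsupport _) (hts.trans inter_subset_right)
    · intro x hx
      obtain ⟨⟨h1, h2⟩, -⟩ := hts hx
      have h3 : 0 < ‖x‖ := lt_of_lt_of_le (inv_pos.2 hR0) h2
      exact lt_of_lt_of_le (mul_pos ha h3) h1
  have hlim : Tendsto (fun j : ℕ => ∫ x, ⟪gradient φ x, gradient (Psi φ η ((j : ℝ) + 2)) x⟫)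
      atTop (𝓝 (flux φ η)) := by
    unfold flux
    refine tendsto_integral_of_dominated_convergence
      (fun x => Real.exp (-b * ‖x‖ ^ 2) * ((K + C) * (1 + 2 * ‖x‖⁻¹))) ?_
      (integrable_dom hn hb _) ?_ ?_
    · intro j
      have : (fun x => ⟪gradient φ x, gradient (Psi φ η ((j : ℝ) + 2)) x⟫) =
          fun x => fderiv ℝ (Psi φ η ((j : ℝ) + 2)) x (gradient φ x) := by
        funext x
        rw [real_inner_comm, gradient_eq_cv (Psi φ η _), cv_inner]
      rw [this]
      exact (measurable_fD φ _).aestronglyMeasurable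
    · intro j
      have hR : (2 : ℝ) ≤ (j : ℝ) + 2 := by have := Nat.cast_nonneg (α := ℝ) j; linarith
      filter_upwards [hne, h.lip.ae_differentiableAt, h.grad, hη.ae_differentiableAt]
        with x hx hd hg hηd
      rw [fderiv_Psi h _ hd hg (hηd hx), Real.norm_eq_abs, abs_mul, abs_of_pos (Gw_pos φ x)]
      have hxn : 0 < ‖x‖ := norm_pos_iff.2 hx
      have hgr : ‖gradient φ x‖ ≤ 1 := gradient_norm_le h.lip x
      have t1 : |kap' ((j : ℝ) + 2) x * fderiv ℝ η x (gradient φ x)| ≤ K * ‖x‖⁻¹ := by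
        rw [abs_mul, abs_of_nonneg (kap'_nonneg hR x)]
        have h4 := ContinuousLinearMap.le_opNorm (fderiv ℝ η x) (gradient φ x)
        rw [Real.norm_eq_abs] at h4
        have h5 := hK x hx
        calc kap' ((j : ℝ) + 2) x * |fderiv ℝ η x (gradient φ x)|
            ≤ 1 * (‖fderiv ℝ η x‖ * ‖gradient φ x‖) := by
              gcongr
              exact kap'_le_one _ _
          _ ≤ 1 * ((K / ‖x‖) * 1) := by gcongr
          _ = K * ‖x‖⁻¹ := by rw [div_eq_mul_inv]; ring
      have t2 : |η x * fderiv ℝ (kap' ((j : ℝ) + 2)) x (gradient φ x)| ≤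
          C * (1 + 2 * ‖x‖⁻¹) := by
        rw [abs_mul, abs_of_nonneg (hη.nonneg x)]
        have h4 := ContinuousLinearMap.le_opNorm (fderiv ℝ (kap' ((j : ℝ) + 2)) x)
          (gradient φ x)
        rw [Real.norm_eq_abs] at h4
        have h5 := hC _ hR x hx
        calc η x * |fderiv ℝ (kap' ((j : ℝ) + 2)) x (gradient φ x)|
            ≤ 1 * (‖fderiv ℝ (kap' ((j : ℝ) + 2)) x‖ * ‖gradient φ x‖) := by
              gcongr
              exact hη.le_one x
          _ ≤ 1 * ((C * (1 + 2 * ‖x‖⁻¹)) * 1) := by gcongr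
          _ = C * (1 + 2 * ‖x‖⁻¹) := by ring
      have t3 := (abs_add_le (kap' ((j : ℝ) + 2) x * fderiv ℝ η x (gradient φ x))
        (η x * fderiv ℝ (kap' ((j : ℝ) + 2)) x (gradient φ x))).trans (add_le_add t1 t2)
      have hinv : 0 < ‖x‖⁻¹ := inv_pos.2 hxn
      refine mul_le_mul (hGb x) (t3.trans ?_) (abs_nonneg _) (Real.exp_pos _).le
      nlinarith
    · filter_upwards [hne, h.lip.ae_differentiableAt, h.grad, hη.ae_differentiableAt]
        with x hx hd hg hηd
      have h1 : Tendsto (fun j : ℕ => (j : ℝ) + 2) atTop atTop :=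
        tendsto_atTop_add_const_right _ _ tendsto_natCast_atTop_atTop
      have h2 := h1.eventually (kap'_eventually hx)
      refine tendsto_nhds_of_eventually_eq ?_
      filter_upwards [h2] with j hj
      rw [fderiv_Psi h _ hd hg (hηd hx), hj.1, hj.2]
      simp [Gw]
  exact ge_of_tendsto' hlim hpos

end Crest.Agent.R246.JE364
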