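import Crest.Agent.R246.JE2_364

/-!
Row 246, part JE (3): a tube bound and one-sided superharmonicity give the flux bound `VB`.
-/

set_option autoImplicit false
set_option linter.unusedSectionVars false
noncomputable section
open MeasureTheory Set Filter Topology Metric Measure
open scoped RealInnerProductSpace NNReal

namespace Crest.Agent.R246.JE364

open Crest.Agent.R246.H990

/-! ### the profile -/

/-- trapezoid. -/
def trap (δ s : ℝ) : ℝ := max 0 (min 1 (min ((s - δ ^ 2) / δ ^ 2) ((δ - s) / δ ^ 2)))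

theorem trap_cont (δ : ℝ) : Continuous (trap δ) := by unfold trap; fun_prop

theorem trap_nonneg (δ s : ℝ) : 0 ≤ trap δ s := le_max_left _ _

theorem trap_le_one (δ s : ℝ) : trap δ s ≤ 1 := max_le zero_le_one (min_le_left _ _)

theorem trap_left {δ s : ℝ} (hδ : 0 < δ) (hs : s ≤ δ ^ 2) : trap δ s = 0 := by
  refine max_eq_left ((min_le_right _ _).trans ((min_le_left _ _).trans ?_))
  exact div_nonpos_of_nonpos_of_nonneg (by linarith) (by positivity)

theorem trap_right {δ s : ℝ} (hδ : 0 < δ) (hs : δ ≤ s) : trap δ s = 0 := by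
  refine max_eq_left ((min_le_right _ _).trans ((min_le_right _ _).trans ?_))
  exact div_nonpos_of_nonpos_of_nonneg (by linarith) (by positivity)

theorem trap_mid {δ s : ℝ} (hδ : 0 < δ) (h1 : 2 * δ ^ 2 ≤ s) (h2 : s ≤ δ - δ ^ 2) :
    trap δ s = 1 := by
  have hp : 0 < δ ^ 2 := by positivity
  have a1 : 1 ≤ (s - δ ^ 2) / δ ^ 2 := by rw [le_div_iff₀ hp]; linarith
  have a2 : 1 ≤ (δ - s) / δ ^ 2 := by rw [le_div_iff₀ hp]; linarith
  unfold trap
  rw [min_eq_left (le_min a1 a2)]
  exact max_eq_right zero_le_one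

theorem profile {δ : ℝ} (hδ : 0 < δ) (hδ' : δ < 1 / 4) : ∃ P p : ℝ → ℝ, Continuous p ∧
    (∀ s, HasDerivAt P (p s) s) ∧ (∀ s, s ≤ δ ^ 2 → P s = 0) ∧ (∀ s, δ ≤ s → P s = 1) ∧
    (∀ s, 0 ≤ P s) ∧ (∀ s, P s ≤ 1) ∧ (∀ s, 0 ≤ p s) ∧
    (∀ s, p s ≤ (δ * (1 - 3 * δ))⁻¹) ∧ (∀ s, s ≤ δ ^ 2 → p s = 0) ∧
    (∀ s, δ ≤ s → p s = 0) := by
  set I := ∫ s in (0 : ℝ)..δ, trap δ s with hI
  have hint : ∀ a b : ℝ, IntervalIntegrable (trap δ) volume a b := fun a b =>
    (trap_cont δ).intervalIntegrable a b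
  have hd2 : 2 * δ ^ 2 ≤ δ - δ ^ 2 := by nlinarith
  have hI1 : δ * (1 - 3 * δ) ≤ I := by
    have h1 : I = (∫ s in (0 : ℝ)..(2 * δ ^ 2), trap δ s) +
        (∫ s in (2 * δ ^ 2)..(δ - δ ^ 2), trap δ s) + ∫ s in (δ - δ ^ 2)..δ, trap δ s := by
      rw [intervalIntegral.integral_add_adjacent_intervals (hint _ _) (hint _ _),
        intervalIntegral.integral_add_adjacent_intervals (hint _ _) (hint _ _)]
    have h2 : 0 ≤ ∫ s in (0 : ℝ)..(2 * δ ^ 2), trap δ s :=
      intervalIntegral.integral_nonneg (by positivity) fun s _ => trap_nonneg δ s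
    have h3 : 0 ≤ ∫ s in (δ - δ ^ 2)..δ, trap δ s :=
      intervalIntegral.integral_nonneg (by nlinarith) fun s _ => trap_nonneg δ s
    have h4 : ∫ s in (2 * δ ^ 2)..(δ - δ ^ 2), trap δ s = δ - δ ^ 2 - 2 * δ ^ 2 := by
      have : ∫ s in (2 * δ ^ 2)..(δ - δ ^ 2), trap δ s =
          ∫ _s in (2 * δ ^ 2)..(δ - δ ^ 2), (1 : ℝ) := by
        refine intervalIntegral.integral_congr fun s hs => ?_
        rw [uIcc_of_le hd2] at hs
        exact trap_mid hδ hs.1 hs.2
      rw [this]; simp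
    rw [h1, h4]
    nlinarith
  have hL : 0 < δ * (1 - 3 * δ) := mul_pos hδ (by linarith)
  have hI0 : 0 < I := lt_of_lt_of_le hL hI1
  have hder : ∀ u, HasDerivAt (fun u => ∫ s in (0 : ℝ)..u, trap δ s) (trap δ u) u := fun u =>
    intervalIntegral.integral_hasDerivAt_right (hint _ _)
      ((trap_cont δ).stronglyMeasurableAtFilter _ _) (trap_cont δ).continuousAt
  have hleft : ∀ s, s ≤ δ ^ 2 → ∫ u in (0 : ℝ)..s, trap δ u = 0 := by
    intro s hs
    have : ∫ u in (0 : ℝ)..s, trap δ u = ∫ _u in (0 : ℝ)..s, (0 : ℝ) := by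
      refine intervalIntegral.integral_congr fun u hu => ?_
      refine trap_left hδ ?_
      have hp : 0 ≤ δ ^ 2 := by positivity
      rcases le_total 0 s with h | h
      · rw [uIcc_of_le h] at hu; exact hu.2.trans hs
      · rw [uIcc_of_ge h] at hu; exact hu.2.trans hp
    rw [this]; simp
  have hright : ∀ s, δ ≤ s → ∫ u in (0 : ℝ)..s, trap δ u = I := by
    intro s hs
    rw [← intervalIntegral.integral_add_adjacent_intervals (hint 0 δ) (hint δ s)]
    have : ∫ u in δ..s, trap δ u = ∫ _u in δ..s, (0 : ℝ) := by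
      refine intervalIntegral.integral_congr fun u hu => ?_
      rw [uIcc_of_le hs] at hu
      exact trap_right hδ hu.1
    rw [this]; simp [hI]
  have hmono : Monotone fun u => ∫ s in (0 : ℝ)..u, trap δ s := by
    refine monotone_of_deriv_nonneg (fun u => (hder u).differentiableAt) fun u => ?_
    rw [(hder u).deriv]
    exact trap_nonneg δ u
  have hδ2 : δ ^ 2 ≤ δ := by nlinarith
  refine ⟨fun u => (∫ s in (0 : ℝ)..u, trap δ s) / I, fun u => trap δ u / I,
    (trap_cont δ).div_const I, fun s => (hder s).div_const I, ?_, ?_, ?_, ?_, ?_, ?_, ?_, ?_⟩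
  · intro s hs
    simp only [hleft s hs, zero_div]
  · intro s hs
    simp only [hright s hs]
    exact div_self hI0.ne'
  · intro s
    refine div_nonneg ?_ hI0.le
    rcases le_total s (δ ^ 2) with h | h
    · rw [hleft s h]
    · have := hmono h
      simp only [hleft _ le_rfl] at this
      exact this
  · intro s
    rw [div_le_one hI0]
    rcases le_total s δ with h | h
    · have := hmono h
      simp only [hright _ le_rfl] at this
      exact this
    · rw [hright s h]
  · intro s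
    exact div_nonneg (trap_nonneg δ s) hI0.le
  · intro s
    show trap δ s / I ≤ _
    rw [div_eq_mul_inv]
    calc trap δ s * I⁻¹ ≤ 1 * I⁻¹ := by
          have := inv_pos.2 hI0
          gcongr
          exact trap_le_one δ s
      _ = I⁻¹ := one_mul _
      _ ≤ (δ * (1 - 3 * δ))⁻¹ := inv_anti₀ hL hI1
  · intro s hs
    simp only [trap_left hδ hs, zero_div]
  · intro s hs
    simp only [trap_right hδ hs, zero_div]

variable {E : Type*} [NormedAddCommGroup E] [InnerProductSpace ℝ E]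
variable [FiniteDimensional ℝ E] [MeasurableSpace E] [BorelSpace E]

/-! ### algebra of test functions -/

theorem Test.one_sub {ζ : E → ℝ} (h : Test ζ) : Test (fun x => 1 - ζ x) where
  hom := fun t ht x => by rw [h.hom t ht]
  nonneg := fun x => sub_nonneg.2 (h.le_one x)
  le_one := fun x => by linarith [h.nonneg x]
  lip := by
    obtain ⟨K, hK⟩ := h.lip
    refine ⟨K, LipschitzOnWith.of_dist_le_mul fun a ha b hb => ?_⟩
    have := hK.dist_le_mul a ha b hb
    rw [Real.dist_eq] at this ⊢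
    have e : 1 - ζ a - (1 - ζ b) = -(ζ a - ζ b) := by ring
    rwa [e, abs_neg]

theorem Test.mul {ζ η : E → ℝ} (h : Test ζ) (h' : Test η) : Test (fun x => ζ x * η x) where
  hom := fun t ht x => by rw [h.hom t ht, h'.hom t ht]
  nonneg := fun x => mul_nonneg (h.nonneg x) (h'.nonneg x)
  le_one := fun x => mul_le_one₀ (h.le_one x) (h'.nonneg x) (h'.le_one x)
  lip := by
    obtain ⟨K, hK⟩ := h.lip
    obtain ⟨K', hK'⟩ := h'.lip
    refine ⟨K + K', LipschitzOnWith.of_dist_le_mul fun a ha b hb => ?_⟩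
    have h1 := hK.dist_le_mul a ha b hb
    have h2 := hK'.dist_le_mul a ha b hb
    rw [Real.dist_eq] at h1 h2 ⊢
    have e : ζ a * η a - ζ b * η b = ζ a * (η a - η b) + (ζ a - ζ b) * η b := by ring
    rw [e]
    have a1 : |ζ a * (η a - η b)| ≤ 1 * (K' * dist a b) := by
      rw [abs_mul, abs_of_nonneg (h.nonneg a)]
      exact mul_le_mul (h.le_one a) h2 (abs_nonneg _) zero_le_one
    have a2 : |(ζ a - ζ b) * η b| ≤ (K * dist a b) * 1 := by
      rw [abs_mul, abs_of_nonneg (h'.nonneg b)]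
      exact mul_le_mul h1 (h'.le_one b) (h'.nonneg b) (by positivity)
    refine (abs_add_le _ _).trans ((add_le_add a1 a2).trans ?_)
    push_cast
    linarith

theorem Test.continuousOn {ζ : E → ℝ} (h : Test ζ) : ContinuousOn ζ {0}ᶜ := by
  obtain ⟨K, hK0, hK⟩ := h.sub_le
  intro a ha
  refine ContinuousAt.continuousWithinAt ?_
  rw [Metric.continuousAt_iff]
  intro ε hε
  have hane : a ≠ 0 := ha
  have hap : 0 < ‖a‖ := norm_pos_iff.2 hane
  refine ⟨min (ε / (K / ‖a‖ + 1)) ‖a‖, lt_min (by positivity) hap, fun {b} hb => ?_⟩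
  have hb1 := lt_of_lt_of_le hb (min_le_left _ _)
  have hb2 := lt_of_lt_of_le hb (min_le_right _ _)
  have hbne : b ≠ 0 := by
    rintro rfl
    rw [dist_zero_left] at hb2
    exact lt_irrefl _ hb2
  have h1 := hK a b hane hbne
  rw [dist_comm, Real.dist_eq]
  rw [dist_comm, dist_eq_norm, lt_div_iff₀ (by positivity)] at hb1
  refine h1.trans_lt ?_
  nlinarith [norm_nonneg (a - b)]

theorem Test.measurable {ζ : E → ℝ} (h : Test ζ) : Measurable ζ := by
  classical
  have h1 := (Test.continuousOn h).measurable_piecewise (g := fun _ : E => ζ 0) (s := {0}ᶜ)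
    continuousOn_const (measurableSet_singleton (0 : E)).compl
  have h2 : ({0}ᶜ : Set E).piecewise ζ (fun _ => ζ 0) = ζ := by
    funext x
    by_cases hx : x = 0
    · subst hx; simp
    · rw [Set.piecewise_eq_of_mem _ _ _ (by simpa using hx)]
  rwa [h2] at h1

theorem NullCone.neg {φ : E → ℝ} (h : NullCone φ) : NullCone (fun x => -φ x) where
  hom := fun t ht x => by rw [h.hom t ht]; ring
  lip := h.lip.neg
  grad := by
    filter_upwards [h.grad] with x hx
    rw [fderiv_fun_neg, norm_neg, hx]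
  bd := by
    obtain ⟨c, hc0, hc1, hc⟩ := h.bd
    exact ⟨c, hc0, hc1, fun x => by rw [abs_neg]; exact hc x⟩

theorem gradient_neg' (φ : E → ℝ) (x : E) : gradient (fun x => -φ x) x = -gradient φ x := by
  unfold gradient
  rw [fderiv_fun_neg, map_neg]

/-! ### the sphere and the ball -/

theorem sphere_ball (hn : 1 ≤ Module.finrank ℝ E) {Θ : E → ℝ} (hΘ : Measurable Θ)
    (hom : ∀ t : ℝ, 0 < t → ∀ x, Θ (t • x) = Θ x) :
    (Module.finrank ℝ E : ℝ) * ∫ x in {x : E | ‖x‖ < 1}, Θ x =
      ∫ q : sphere (0 : E) 1, Θ q ∂(sig E) := by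
  have hnt : Nontrivial E := Module.nontrivial_of_finrank_pos (R := ℝ) (by omega)
  set n := Module.finrank ℝ E with hndef
  have hmp := measurePreserving_polar (E := E)
  have hms : MeasurableSet {x : E | ‖x‖ < 1} := measurableSet_lt measurable_norm measurable_const
  rw [← integral_indicator hms]
  set F : E → ℝ := {x : E | ‖x‖ < 1}.indicator Θ with hF
  have hFm : Measurable F := hΘ.indicator hms
  have h1 : ∫ x, F x = ∫ p : sphere (0 : E) 1 × ℝ, F (p.2 • (p.1 : E))
      ∂((sig E).prod (radial (n - 1))) := by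
    conv_lhs => rw [← hmp.map_eq]
    rw [integral_map hmp.measurable.aemeasurable hFm.aestronglyMeasurable]
  have hpos : ∀ᵐ p ∂((sig E).prod (radial (n - 1))), 0 < p.2 :=
    (Measure.quasiMeasurePreserving_snd (μ := sig E) (ν := radial (n - 1))).ae (radial_ae_pos _)
  have h2 : ∫ p : sphere (0 : E) 1 × ℝ, F (p.2 • (p.1 : E)) ∂((sig E).prod (radial (n - 1))) =
      ∫ p : sphere (0 : E) 1 × ℝ, Θ p.1 * (Iio (1 : ℝ)).indicator (fun _ => (1 : ℝ)) p.2
        ∂((sig E).prod (radial (n - 1))) := by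
    refine integral_congr_ae ?_
    filter_upwards [hpos] with p hp
    have hq : ‖(p.1 : E)‖ = 1 := mem_sphere_zero_iff_norm.1 p.1.2
    have hnn : ‖p.2 • (p.1 : E)‖ = p.2 := by
      rw [norm_smul, hq, mul_one, Real.norm_of_nonneg hp.le]
    simp only [hF]
    by_cases h3 : p.2 < 1
    · rw [indicator_of_mem (show p.2 • (p.1 : E) ∈ {x : E | ‖x‖ < 1} by
        show ‖p.2 • (p.1 : E)‖ < 1; rw [hnn]; exact h3), hom _ hp,
        indicator_of_mem (show p.2 ∈ Iio (1 : ℝ) from h3), mul_one]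
    · rw [indicator_of_notMem (show p.2 • (p.1 : E) ∉ {x : E | ‖x‖ < 1} by
        show ¬ (‖p.2 • (p.1 : E)‖ < 1); rw [hnn]; exact h3),
        indicator_of_notMem (show p.2 ∉ Iio (1 : ℝ) from h3), mul_zero]
  rw [h1, h2, integral_prod_mul (fun q : sphere (0 : E) 1 => Θ q)
    (fun t => (Iio (1 : ℝ)).indicator (fun _ => (1 : ℝ)) t), integral_radial]
  have h4 : ∫ t in Ioi (0 : ℝ), t ^ (n - 1) * (Iio (1 : ℝ)).indicator (fun _ => (1 : ℝ)) t =
      1 / n := by
    have e : ∀ t : ℝ, t ^ (n - 1) * (Iio (1 : ℝ)).indicator (fun _ => (1 : ℝ)) t =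
        (Iio (1 : ℝ)).indicator (fun t => t ^ (n - 1)) t := by
      intro t
      by_cases h : t ∈ Iio (1 : ℝ)
      · rw [indicator_of_mem h, indicator_of_mem h, mul_one]
      · rw [indicator_of_notMem h, indicator_of_notMem h, mul_zero]
    simp_rw [e]
    rw [setIntegral_indicator measurableSet_Iio, Ioi_inter_Iio, ← integral_Ioc_eq_integral_Ioo,
      ← intervalIntegral.integral_of_le zero_le_one, integral_pow]
    have : ((n - 1 : ℕ) : ℝ) + 1 = n := by
      have h5 : n - 1 + 1 = n := by omega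
      exact_mod_cast h5
    rw [this]
    have h6 : n - 1 + 1 ≠ 0 := by omega
    rw [one_pow, zero_pow h6, sub_zero]
  rw [h4]
  have hn0 : (n : ℝ) ≠ 0 := by
    have : n ≠ 0 := by omega
    exact_mod_cast this
  field_simp

end Crest.Agent.R246.JE364
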