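import Crest.Agent.R246.JE3_364

/-!
Row 246, part JE (4): **tube bound + superharmonicity off the zero set ⟹ `VB φ A`**.
-/

set_option autoImplicit false
set_option linter.unusedSectionVars false
noncomputable section
open MeasureTheory Set Filter Topology Metric Measure
open scoped RealInnerProductSpace NNReal

namespace Crest.Agent.R246.JE364

open Crest.Agent.R246.H990

variable {E : Type*} [NormedAddCommGroup E] [InnerProductSpace ℝ E]
variable [FiniteDimensional ℝ E] [MeasurableSpace E] [BorelSpace E]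

/-- the weight on the sphere. -/
def ww (φ : E → ℝ) (q : E) : ℝ := (Real.sqrt (1 - φ q ^ 2) ^ (Module.finrank ℝ E - 1))⁻¹

theorem ww_nonneg (φ : E → ℝ) (q : E) : 0 ≤ ww φ q :=
  inv_nonneg.2 (pow_nonneg (Real.sqrt_nonneg _) _)

theorem measurable_ww {φ : E → ℝ} (h : NullCone φ) : Measurable (ww φ) := by
  have := h.lip.continuous.measurable
  unfold ww
  exact (((measurable_const.sub (this.pow_const 2)).sqrt).pow_const _).inv

theorem ww_le {φ : E → ℝ} (h : NullCone φ) : ∃ C : ℝ, ∀ q : sphere (0 : E) 1, ww φ q ≤ C := by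
  obtain ⟨c, hc0, hc1, hc⟩ := h.bd'
  refine ⟨(Real.sqrt (1 - c) ^ (Module.finrank ℝ E - 1))⁻¹, fun q => ?_⟩
  unfold ww
  have h1 : 0 < Real.sqrt (1 - c) := Real.sqrt_pos.2 (by linarith)
  refine inv_anti₀ (pow_pos h1 _) (pow_le_pow_left₀ h1.le (Real.sqrt_le_sqrt ?_) _)
  have := hc q
  linarith

theorem ww_le_of_small {φ : E → ℝ} {δ : ℝ} (hδ : δ ^ 2 < 1) {q : E} (hq : |φ q| < δ) :
    ww φ q ≤ (Real.sqrt (1 - δ ^ 2) ^ (Module.finrank ℝ E - 1))⁻¹ := by
  unfold ww
  have h1 : 0 < Real.sqrt (1 - δ ^ 2) := Real.sqrt_pos.2 (by linarith)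
  refine inv_anti₀ (pow_pos h1 _) (pow_le_pow_left₀ h1.le (Real.sqrt_le_sqrt ?_) _)
  have : φ q ^ 2 ≤ δ ^ 2 := by
    rw [← sq_abs]
    exact pow_le_pow_left₀ (abs_nonneg _) hq.le 2
  linarith

/-- derivative of the profile test function along the null direction, on the sphere. -/
theorem fderiv_prod {φ : E → ℝ} (h : NullCone φ) {ζ : E → ℝ} {P p : ℝ → ℝ}
    (hP : ∀ s, HasDerivAt P (p s) s) {q : E} (hq : ‖q‖ = 1) (hd : DifferentiableAt ℝ φ q)
    (hg : ‖fderiv ℝ φ q‖ = 1) (hζ : DifferentiableAt ℝ ζ q) :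
    fderiv ℝ (fun x => ζ x * P (φ x * ‖x‖⁻¹)) q (gradient φ q) =
      P (φ q) * fderiv ℝ ζ q (gradient φ q) + ζ q * (p (φ q) * (1 - φ q ^ 2)) := by
  have h1 : DifferentiableAt ℝ (fun x => P (φ x * ‖x‖⁻¹)) q := by
    have h2 := hd.hasFDerivAt.mul (hasFDerivAt_inv_norm hq)
    exact ((hP _).comp_hasFDerivAt q h2).differentiableAt
  rw [fderiv_fun_mul hζ h1, _root_.add_apply, _root_.smul_apply, _root_.smul_apply,
    fD_slice h hq hd hg (hP (φ q)), hq, inv_one, mul_one]
  simp only [smul_eq_mul]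
  ring

theorem ae_good_test (hn : 1 ≤ Module.finrank ℝ E) {ζ : E → ℝ} (hζ : Test ζ) :
    ∀ᵐ q : sphere (0 : E) 1 ∂(sig E), DifferentiableAt ℝ ζ q := by
  have hnt : Nontrivial E := Module.nontrivial_of_finrank_pos (R := ℝ) (by omega)
  refine ae_sphere_of_ae (P := fun x => DifferentiableAt ℝ ζ x) ?_ ?_
  · have hne : ∀ᵐ x : E, x ≠ 0 := by
      have : volume ({0} : Set E) = 0 := measure_singleton 0
      exact measure_eq_zero_iff_ae_notMem.1 this
    filter_upwards [hζ.ae_differentiableAt, hne] with x h1 h2 using h1 h2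
  · intro t ht x hx
    exact differentiableAt_hom hζ.hom' ht hx

theorem profile_lip {P p : ℝ → ℝ} (hp : Continuous p) (hP : ∀ s, HasDerivAt P (p s) s) :
    ∃ K : NNReal, LipschitzOnWith K P (Icc (-1) 1) := by
  obtain ⟨B, hB⟩ := (isCompact_Icc (a := (-1 : ℝ)) (b := 1)).exists_bound_of_continuousOn
    hp.continuousOn
  refine ⟨B.toNNReal, ?_⟩
  refine Convex.lipschitzOnWith_of_nnnorm_hasDerivWithin_le (convex_Icc _ _)
    (fun u hu => (hP u).hasDerivWithinAt) fun u hu => ?_
  rw [← NNReal.coe_le_coe, coe_nnnorm]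
  exact (hB u hu).trans (Real.le_coe_toNNReal B)

/-- the one-sided inequality on the sphere. -/
theorem sphere_one_side (hn : 2 ≤ Module.finrank ℝ E) {φ : E → ℝ} (h : NullCone φ)
    (hS : Sup {x | 0 < φ x} φ) {ζ : E → ℝ} (hζ : Test ζ) {a : ℝ} (ha : 0 < a)
    {P p : ℝ → ℝ} (hp : Continuous p) (hP : ∀ s, HasDerivAt P (p s) s)
    (hPa : ∀ s, s ≤ a → P s = 0) (hP0 : ∀ s, 0 ≤ P s) (hP1 : ∀ s, P s ≤ 1) :
    0 ≤ ∫ q : sphere (0 : E) 1, ww φ q * (P (φ q) * fderiv ℝ ζ q (gradient φ q) +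
      ζ q * (p (φ q) * (1 - φ q ^ 2))) ∂(sig E) := by
  obtain ⟨K, hK⟩ := profile_lip hp hP
  have hT : Test (fun x => ζ x * P (φ x * ‖x‖⁻¹)) :=
    Test.mul hζ (slice_test h (fun u _ => hP0 u) (fun u _ => hP1 u) hK)
  have h1 := flux_nonneg hn h hS hT ha (fun x hx => by
    have : φ x * ‖x‖⁻¹ ≤ a := by
      rcases eq_or_ne x 0 with rfl | hx0
      · simp [ha.le]
      · rw [← div_eq_mul_inv, div_le_iff₀ (norm_pos_iff.2 hx0)]; exact hx
    rw [hPa _ this, mul_zero])
  rw [flux_eq_sphere hn h hT] at h1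
  have h2 := nonneg_of_mul_nonneg_right (a := cV E) h1 (cV_pos E)
  refine h2.trans_eq ?_
  refine integral_congr_ae ?_
  filter_upwards [h.ae_good (by omega), ae_good_test (by omega) hζ] with q hq hq2
  have hq1 : ‖(q : E)‖ = 1 := mem_sphere_zero_iff_norm.1 q.2
  rw [fderiv_prod h hP hq1 hq.1 hq.2 hq2]
  rfl

/-- a bounded measurable function is integrable on the sphere. -/
theorem integrable_sphere {f : E → ℝ} (hf : Measurable f) {C : ℝ}
    (hC : ∀ q : sphere (0 : E) 1, |f q| ≤ C) :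
    Integrable (fun q : sphere (0 : E) 1 => f q) (sig E) := by
  refine Integrable.mono' (integrable_const C)
    (hf.comp measurable_subtype_coe).aestronglyMeasurable ?_
  exact Eventually.of_forall fun q => hC q

/-- **Tube bound implies the flux bound.** -/
theorem VB_of_tube (hn : 2 ≤ Module.finrank ℝ E) {φ : E → ℝ} (h : NullCone φ)
    (hS1 : Sup {x | 0 < φ x} φ) (hS2 : Sup {x | 0 < -φ x} (fun x => -φ x))
    (hZ : ∀ᵐ x : E, φ x ≠ 0) {A : ℝ}
    (hT : ∀ ζ : E → ℝ, Test ζ → ∀ ε > 0, ∀ᶠ δ in 𝓝[>] (0 : ℝ),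
      (Module.finrank ℝ E : ℝ) * ∫ x in {x : E | ‖x‖ < 1 ∧ 0 < |φ x| ∧ |φ x| < δ * ‖x‖},
        (if 0 < φ x then 1 - ζ x else ζ x) ≤ δ * (A + ε)) : VB φ A := by
  have hnt : Nontrivial E := Module.nontrivial_of_finrank_pos (R := ℝ) (by omega)
  intro ζ hζ
  rw [flux_eq_sphere hn h hζ, mul_comm A]
  refine mul_le_mul_of_nonneg_left ?_ (cV_pos E).le
  have hφm : Measurable φ := h.lip.continuous.measurable
  have hζm : Measurable ζ := Test.measurable hζ
  have hwm := measurable_ww h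
  obtain ⟨W, hW⟩ := ww_le h
  obtain ⟨K, hK0, hK⟩ := hζ.fderiv_le
  have hn' := NullCone.neg h
  set D : E → ℝ := fun x => fderiv ℝ ζ x (gradient φ x) with hD
  have hDm : Measurable D := measurable_fD φ ζ
  have hW0 : ∀ q : sphere (0 : E) 1, 0 ≤ ww φ q := fun q => ww_nonneg φ q
  have hq1 : ∀ q : sphere (0 : E) 1, ‖(q : E)‖ = 1 := fun q => mem_sphere_zero_iff_norm.1 q.2
  have hDb : ∀ q : sphere (0 : E) 1, |D q| ≤ K := by
    intro q
    have hq0 : (q : E) ≠ 0 := by
      intro h0; have := hq1 q; rw [h0, norm_zero] at this; exact zero_ne_one this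
    have h4 := ContinuousLinearMap.le_opNorm (fderiv ℝ ζ q) (gradient φ q)
    rw [Real.norm_eq_abs] at h4
    refine h4.trans ?_
    have h5 := hK q hq0
    rw [hq1 q, div_one] at h5
    calc ‖fderiv ℝ ζ q‖ * ‖gradient φ q‖ ≤ K * 1 :=
          mul_le_mul h5 (gradient_norm_le h.lip _) (norm_nonneg _) hK0
      _ = K := mul_one K
  have hWpos : 0 ≤ W := by
    obtain ⟨q⟩ : Nonempty (sphere (0 : E) 1) := (NormedSpace.sphere_nonempty.2 zero_le_one).to_subtype
    exact (hW0 q).trans (hW q)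
  -- reduction to `ε`
  suffices hmain : ∀ ε > 0, ∫ q : sphere (0 : E) 1, ww φ q * D q ∂(sig E) ≤ A + ε from
    le_of_forall_pos_le_add hmain
  intro ε hε
  -- choice of profiles
  have hprof : ∀ δ : ℝ, ∃ P p : ℝ → ℝ, 0 < δ → δ < 1 / 4 → (Continuous p ∧
    (∀ s, HasDerivAt P (p s) s) ∧ (∀ s, s ≤ δ ^ 2 → P s = 0) ∧ (∀ s, δ ≤ s → P s = 1) ∧
    (∀ s, 0 ≤ P s) ∧ (∀ s, P s ≤ 1) ∧ (∀ s, 0 ≤ p s) ∧
    (∀ s, p s ≤ (δ * (1 - 3 * δ))⁻¹) ∧ (∀ s, s ≤ δ ^ 2 → p s = 0) ∧
    (∀ s, δ ≤ s → p s = 0)) := by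
    intro δ
    by_cases h1 : 0 < δ ∧ δ < 1 / 4
    · obtain ⟨P, p, hPp⟩ := profile h1.1 h1.2
      exact ⟨P, p, fun _ _ => hPp⟩
    · exact ⟨fun _ => 0, fun _ => 0, fun a b => (h1 ⟨a, b⟩).elim⟩
  choose P p hPp using hprof
  have hev : ∀ᶠ δ in 𝓝[>] (0 : ℝ), 0 < δ ∧ δ < 1 / 4 := Ioo_mem_nhdsGT (by norm_num)
  -- the inequality at level `δ`
  have key : ∀ᶠ δ in 𝓝[>] (0 : ℝ),
      ∫ q : sphere (0 : E) 1, ww φ q * ((P δ (φ q) + P δ (-φ q)) * D q) ∂(sig E) ≤
      (Real.sqrt (1 - δ ^ 2) ^ (Module.finrank ℝ E - 1))⁻¹ * (1 - 3 * δ)⁻¹ * (A + ε) := by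
    filter_upwards [hev, hT ζ hζ ε hε] with δ hδ htube
    obtain ⟨hδ0, hδ1⟩ := hδ
    obtain ⟨hpc, hP, hPa, hPb, hP0, hP1, hp0, hpL, hpa, hpb⟩ := hPp δ hδ0 hδ1
    have hPc : Continuous (P δ) := continuous_iff_continuousAt.2 fun s => (hP s).continuousAt
    have hδ2 : δ ^ 2 < 1 := by nlinarith
    have I1 := sphere_one_side hn h hS1 (Test.one_sub hζ) (by positivity : 0 < δ ^ 2) hpc hP hPa
      hP0 hP1
    have I2 := sphere_one_side hn hn' hS2 hζ (by positivity : 0 < δ ^ 2) hpc hP hPa hP0 hP1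
    set L := (δ * (1 - 3 * δ))⁻¹ with hL
    have hL0 : 0 ≤ L := inv_nonneg.2 (mul_nonneg hδ0.le (by linarith))
    -- rewrite the two integrands
    set f1 : E → ℝ := fun q => ww φ q * (-(P δ (φ q) * D q) +
      (1 - ζ q) * (p δ (φ q) * (1 - φ q ^ 2))) with hf1
    set f2 : E → ℝ := fun q => ww φ q * (-(P δ (-φ q) * D q) +
      ζ q * (p δ (-φ q) * (1 - φ q ^ 2))) with hf2
    have I1' : 0 ≤ ∫ q : sphere (0 : E) 1, f1 q ∂(sig E) := by
      refine I1.trans_eq (integral_congr_ae (Eventually.of_forall fun q => ?_))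
      simp only [hf1, hD]
      have : fderiv ℝ (fun x => 1 - ζ x) (q : E) = -fderiv ℝ ζ (q : E) := by
        rw [fderiv_const_sub]
      rw [this, _root_.neg_apply]
      ring
    have I2' : 0 ≤ ∫ q : sphere (0 : E) 1, f2 q ∂(sig E) := by
      refine I2.trans_eq (integral_congr_ae (Eventually.of_forall fun q => ?_))
      simp only [hf2, hD, ww]
      rw [gradient_neg', map_neg, neg_sq]
      ring
    have m1 : Measurable f1 := by
      refine hwm.mul ((((hPc.measurable.comp hφm).mul hDm).neg).add ?_)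
      exact (measurable_const.sub hζm).mul ((hpc.measurable.comp hφm).mul
        (measurable_const.sub (hφm.pow_const 2)))
    have m2 : Measurable f2 := by
      refine hwm.mul ((((hPc.measurable.comp hφm.neg).mul hDm).neg).add ?_)
      exact hζm.mul ((hpc.measurable.comp hφm.neg).mul
        (measurable_const.sub (hφm.pow_const 2)))
    have hφb : ∀ q : sphere (0 : E) 1, 0 ≤ 1 - φ q ^ 2 ∧ 1 - φ q ^ 2 ≤ 1 := by
      intro q
      have := sq_le_of_nullCone h (q : E)
      rw [hq1 q] at this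
      exact ⟨by linarith, by nlinarith [sq_nonneg (φ q)]⟩
    have b1 : ∀ q : sphere (0 : E) 1, |f1 q| ≤ W * (K + L) := by
      intro q
      simp only [hf1]
      rw [abs_mul, abs_of_nonneg (hW0 q)]
      refine mul_le_mul (hW q) ?_ (abs_nonneg _) hWpos
      refine (abs_add_le _ _).trans (add_le_add ?_ ?_)
      · rw [abs_neg, abs_mul, abs_of_nonneg (hP0 _)]
        calc P δ (φ q) * |D q| ≤ 1 * K := mul_le_mul (hP1 _) (hDb q) (abs_nonneg _) zero_le_one
          _ = K := one_mul K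
      · have a1 : 0 ≤ 1 - ζ (q : E) := sub_nonneg.2 (hζ.le_one _)
        have a2 : 1 - ζ (q : E) ≤ 1 := by linarith [hζ.nonneg (q : E)]
        rw [abs_mul, abs_mul, abs_of_nonneg a1, abs_of_nonneg (hp0 _),
          abs_of_nonneg (hφb q).1]
        calc (1 - ζ (q : E)) * (p δ (φ q) * (1 - φ q ^ 2)) ≤ 1 * (L * 1) := by
              gcongr
              · exact mul_nonneg (hp0 _) (hφb q).1
              · exact (hφb q).1
              · exact hpL _
              · exact (hφb q).2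
          _ = L := by ring
    have b2 : ∀ q : sphere (0 : E) 1, |f2 q| ≤ W * (K + L) := by
      intro q
      simp only [hf2]
      rw [abs_mul, abs_of_nonneg (hW0 q)]
      refine mul_le_mul (hW q) ?_ (abs_nonneg _) hWpos
      refine (abs_add_le _ _).trans (add_le_add ?_ ?_)
      · rw [abs_neg, abs_mul, abs_of_nonneg (hP0 _)]
        calc P δ (-φ q) * |D q| ≤ 1 * K := mul_le_mul (hP1 _) (hDb q) (abs_nonneg _) zero_le_one
          _ = K := one_mul K
      · rw [abs_mul, abs_mul, abs_of_nonneg (hζ.nonneg _), abs_of_nonneg (hp0 _),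
          abs_of_nonneg (hφb q).1]
        calc ζ (q : E) * (p δ (-φ q) * (1 - φ q ^ 2)) ≤ 1 * (L * 1) := by
              gcongr
              · exact mul_nonneg (hp0 _) (hφb q).1
              · exact hζ.le_one _
              · exact (hφb q).1
              · exact hpL _
              · exact (hφb q).2
          _ = L := by ring
    have i1 := integrable_sphere m1 b1
    have i2 := integrable_sphere m2 b2
    -- the main term
    set g : E → ℝ := fun q => ww φ q * ((P δ (φ q) + P δ (-φ q)) * D q) with hg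
    set Θ : E → ℝ := fun q => {x : E | 0 < |φ x| ∧ |φ x| < δ * ‖x‖}.indicator
      (fun x => if 0 < φ x then 1 - ζ x else ζ x) q with hΘ
    have mset : MeasurableSet {x : E | 0 < |φ x| ∧ |φ x| < δ * ‖x‖} := by
      have hab : Measurable fun x => |φ x| := h.lip.continuous.abs.measurable
      exact (measurableSet_lt measurable_const hab).inter
        (measurableSet_lt hab (measurable_const.mul measurable_norm))
    have mθ : Measurable (fun x : E => if 0 < φ x then 1 - ζ x else ζ x) :=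
      Measurable.ite (measurableSet_lt measurable_const hφm) (measurable_const.sub hζm) hζm
    have mΘ : Measurable Θ := mθ.indicator mset
    have homΘ : ∀ t : ℝ, 0 < t → ∀ x, Θ (t • x) = Θ x := by
      intro t ht x
      have e1 : φ (t • x) = t * φ x := h.hom t ht.le x
      have e2 : ‖t • x‖ = t * ‖x‖ := by rw [norm_smul, Real.norm_of_nonneg ht.le]
      have e3 : (t • x ∈ {x : E | 0 < |φ x| ∧ |φ x| < δ * ‖x‖}) ↔
          (x ∈ {x : E | 0 < |φ x| ∧ |φ x| < δ * ‖x‖}) := by
        show (0 < |φ (t • x)| ∧ |φ (t • x)| < δ * ‖t • x‖) ↔ (0 < |φ x| ∧ |φ x| < δ * ‖x‖)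
        rw [e1, e2, abs_mul, abs_of_pos ht]
        constructor
        · rintro ⟨a1, a2⟩
          refine ⟨pos_of_mul_pos_right a1 ht.le, ?_⟩
          have : t * |φ x| < t * (δ * ‖x‖) := by linarith
          exact lt_of_mul_lt_mul_left this ht.le
        · rintro ⟨a1, a2⟩
          refine ⟨mul_pos ht a1, ?_⟩
          have := mul_lt_mul_of_pos_left a2 ht
          linarith
      simp only [hΘ]
      by_cases hx : x ∈ {x : E | 0 < |φ x| ∧ |φ x| < δ * ‖x‖}
      · rw [indicator_of_mem hx, indicator_of_mem (e3.2 hx), hζ.hom t ht, e1]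
        have : (0 < t * φ x) ↔ (0 < φ x) := by
          constructor
          · intro h5; exact pos_of_mul_pos_right h5 ht.le
          · intro h5; exact mul_pos ht h5
        simp only [this]
      · rw [indicator_of_notMem hx, indicator_of_notMem (fun h6 => hx (e3.1 h6))]
    have hΘ01 : ∀ x, 0 ≤ Θ x ∧ Θ x ≤ 1 := by
      intro x
      simp only [hΘ]
      by_cases hx : x ∈ {x : E | 0 < |φ x| ∧ |φ x| < δ * ‖x‖}
      · rw [indicator_of_mem hx]
        split_ifs
        · exact ⟨sub_nonneg.2 (hζ.le_one x), by linarith [hζ.nonneg x]⟩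
        · exact ⟨hζ.nonneg x, hζ.le_one x⟩
      · rw [indicator_of_notMem hx]
        exact ⟨le_rfl, zero_le_one⟩
    have tube : ∫ q : sphere (0 : E) 1, Θ q ∂(sig E) ≤ δ * (A + ε) := by
      rw [← sphere_ball (by omega) mΘ homΘ]
      refine le_trans (le_of_eq ?_) htube
      congr 1
      have hms : MeasurableSet {x : E | ‖x‖ < 1} :=
        measurableSet_lt measurable_norm measurable_const
      simp only [hΘ]
      rw [setIntegral_indicator mset]
      congr 1
    set Cδ := (Real.sqrt (1 - δ ^ 2) ^ (Module.finrank ℝ E - 1))⁻¹ with hCδ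
    have hCδ0 : 0 ≤ Cδ := inv_nonneg.2 (pow_nonneg (Real.sqrt_nonneg _) _)
    -- pointwise inequality
    have hpt : ∀ q : sphere (0 : E) 1, f1 q + f2 q + g q ≤ Cδ * L * Θ q := by
      intro q
      have e : f1 q + f2 q + g q = ww φ q * ((1 - φ q ^ 2) *
          ((1 - ζ q) * p δ (φ q) + ζ q * p δ (-φ q))) := by
        simp only [hf1, hf2, hg]; ring
      rw [e]
      have hd2 : 0 < δ ^ 2 := by positivity
      by_cases hqs : |φ q| < δ
      · have hw := ww_le_of_small (E := E) hδ2 hqs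
        rcases lt_trichotomy (φ q) 0 with h1 | h1 | h1
        · -- negative side
          have e1 : p δ (φ q) = 0 := hpa _ (by linarith)
          have e2 : Θ q = ζ q := by
            simp only [hΘ]
            rw [indicator_of_mem]
            · rw [if_neg (not_lt.2 h1.le)]
            · exact ⟨abs_pos.2 h1.ne, by rw [hq1 q, mul_one]; exact hqs⟩
          rw [e1, e2, mul_zero, zero_add]
          have hz := hζ.nonneg (q : E)
          calc ww φ q * ((1 - φ q ^ 2) * (ζ q * p δ (-φ q)))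
              ≤ Cδ * (1 * (ζ q * L)) := by
                gcongr
                · exact mul_nonneg (hφb q).1 (mul_nonneg hz (hp0 _))
                · exact mul_nonneg hz (hp0 _)
                · exact (hφb q).2
                · exact hpL _
            _ = Cδ * L * ζ q := by ring
        · have e1 : p δ (φ q) = 0 := hpa _ (by rw [h1]; exact hd2.le)
          have e2 : p δ (-φ q) = 0 := hpa _ (by rw [h1, neg_zero]; exact hd2.le)
          rw [e1, e2, mul_zero, mul_zero, add_zero, mul_zero, mul_zero]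
          exact mul_nonneg (mul_nonneg hCδ0 hL0) (hΘ01 _).1
        · have e1 : p δ (-φ q) = 0 := hpa _ (by linarith)
          have e2 : Θ q = 1 - ζ q := by
            simp only [hΘ]
            rw [indicator_of_mem]
            · rw [if_pos h1]
            · exact ⟨abs_pos.2 h1.ne', by rw [hq1 q, mul_one]; exact hqs⟩
          rw [e1, e2, mul_zero, add_zero]
          have hz : 0 ≤ 1 - ζ (q : E) := sub_nonneg.2 (hζ.le_one _)
          calc ww φ q * ((1 - φ q ^ 2) * ((1 - ζ q) * p δ (φ q)))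
              ≤ Cδ * (1 * ((1 - ζ q) * L)) := by
                gcongr
                · exact mul_nonneg (hφb q).1 (mul_nonneg hz (hp0 _))
                · exact mul_nonneg hz (hp0 _)
                · exact (hφb q).2
                · exact hpL _
            _ = Cδ * L * (1 - ζ q) := by ring
      · push Not at hqs
        have e12 : p δ (φ q) = 0 ∧ p δ (-φ q) = 0 := by
          rcases le_abs.1 hqs with h1 | h1
          · exact ⟨hpb _ h1, hpa _ (by linarith)⟩
          · exact ⟨hpa _ (by linarith), hpb _ h1⟩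
        rw [e12.1, e12.2, mul_zero, mul_zero, add_zero, mul_zero, mul_zero]
        exact mul_nonneg (mul_nonneg hCδ0 hL0) (hΘ01 _).1
    have mg : Measurable g := hwm.mul (((hPc.measurable.comp hφm).add
      (hPc.measurable.comp hφm.neg)).mul hDm)
    have bg : ∀ q : sphere (0 : E) 1, |g q| ≤ W * (2 * K) := by
      intro q
      simp only [hg]
      rw [abs_mul, abs_of_nonneg (hW0 q)]
      refine mul_le_mul (hW q) ?_ (abs_nonneg _) hWpos
      rw [abs_mul, abs_of_nonneg (add_nonneg (hP0 _) (hP0 _))]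
      refine mul_le_mul ?_ (hDb q) (abs_nonneg _) (by norm_num)
      linarith [hP1 (φ q), hP1 (-φ q)]
    have ig := integrable_sphere mg bg
    have iΘ : Integrable (fun q : sphere (0 : E) 1 => Θ q) (sig E) :=
      integrable_sphere mΘ (C := 1) fun q => by
        rw [abs_of_nonneg (hΘ01 _).1]; exact (hΘ01 _).2
    have hsum : (∫ q : sphere (0 : E) 1, f1 q ∂(sig E)) +
        (∫ q : sphere (0 : E) 1, f2 q ∂(sig E)) + ∫ q : sphere (0 : E) 1, g q ∂(sig E) ≤
        Cδ * L * ∫ q : sphere (0 : E) 1, Θ q ∂(sig E) := by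
      have i12 : Integrable (fun q : sphere (0 : E) 1 => f1 q + f2 q) (sig E) := i1.add i2
      have i123 : Integrable (fun q : sphere (0 : E) 1 => f1 q + f2 q + g q) (sig E) :=
        i12.add ig
      rw [← integral_add i1 i2, ← integral_add i12 ig, ← integral_const_mul]
      exact integral_mono i123 (iΘ.const_mul _) hpt
    have hfin : Cδ * L * (δ * (A + ε)) = Cδ * (1 - 3 * δ)⁻¹ * (A + ε) := by
      rw [hL, mul_inv]
      have := hδ0.ne'
      field_simp
    calc ∫ q : sphere (0 : E) 1, g q ∂(sig E)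
        ≤ Cδ * L * ∫ q : sphere (0 : E) 1, Θ q ∂(sig E) := by linarith
      _ ≤ Cδ * L * (δ * (A + ε)) := by
          refine mul_le_mul_of_nonneg_left tube (mul_nonneg hCδ0 hL0)
      _ = Cδ * (1 - 3 * δ)⁻¹ * (A + ε) := hfin
  -- the limit
  have hZs : ∀ᵐ q : sphere (0 : E) 1 ∂(sig E), φ q ≠ 0 := by
    refine ae_sphere_of_ae (P := fun x => φ x ≠ 0) hZ ?_
    intro t ht x hx hx0
    apply hx
    rw [h.hom t ht.le, hx0, mul_zero]
  have hL1 : Tendsto (fun δ : ℝ => ∫ q : sphere (0 : E) 1,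
      ww φ q * ((P δ (φ q) + P δ (-φ q)) * D q) ∂(sig E)) (𝓝[>] 0)
      (𝓝 (∫ q : sphere (0 : E) 1, ww φ q * D q ∂(sig E))) := by
    refine tendsto_integral_filter_of_dominated_convergence (fun _ => W * (2 * K)) ?_ ?_
      (integrable_const _) ?_
    · filter_upwards [hev] with δ hδ
      obtain ⟨hpc, hP, -⟩ := hPp δ hδ.1 hδ.2
      have hPc : Continuous (P δ) := continuous_iff_continuousAt.2 fun s => (hP s).continuousAt
      have mg : Measurable fun q : E => ww φ q * ((P δ (φ q) + P δ (-φ q)) * D q) :=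
        hwm.mul (((hPc.measurable.comp hφm).add (hPc.measurable.comp hφm.neg)).mul hDm)
      exact (mg.comp measurable_subtype_coe).aestronglyMeasurable
    · filter_upwards [hev] with δ hδ
      obtain ⟨hpc, hP, hPa, hPb, hP0, hP1, -⟩ := hPp δ hδ.1 hδ.2
      refine Eventually.of_forall fun q => ?_
      rw [Real.norm_eq_abs, abs_mul, abs_of_nonneg (hW0 q)]
      refine mul_le_mul (hW q) ?_ (abs_nonneg _) hWpos
      rw [abs_mul, abs_of_nonneg (add_nonneg (hP0 _) (hP0 _))]
      refine mul_le_mul ?_ (hDb q) (abs_nonneg _) (by norm_num)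
      linarith [hP1 (φ q), hP1 (-φ q)]
    · filter_upwards [hZs] with q hq
      refine tendsto_nhds_of_eventually_eq ?_
      have hpos : 0 < |φ q| := abs_pos.2 hq
      have h2 : ∀ᶠ δ in 𝓝[>] (0 : ℝ), δ < |φ q| :=
        (nhdsWithin_le_nhds (gt_mem_nhds hpos))
      filter_upwards [hev, h2] with δ hδ hδ2
      obtain ⟨hpc, hP, hPa, hPb, hP0, hP1, -⟩ := hPp δ hδ.1 hδ.2
      have hd2 : 0 < δ ^ 2 := by have := hδ.1; positivity
      have : P δ (φ q) + P δ (-φ q) = 1 := by
        rcases lt_abs.1 hδ2 with h3 | h3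
        · rw [hPb _ h3.le, hPa _ (by linarith [hδ.1]), add_zero]
        · rw [hPb _ h3.le, hPa _ (by linarith [hδ.1]), zero_add]
      rw [this, one_mul]
  have hL2 : Tendsto (fun δ : ℝ => (Real.sqrt (1 - δ ^ 2) ^ (Module.finrank ℝ E - 1))⁻¹ *
      (1 - 3 * δ)⁻¹ * (A + ε)) (𝓝[>] 0) (𝓝 (A + ε)) := by
    have hc : ContinuousAt (fun δ : ℝ => (Real.sqrt (1 - δ ^ 2) ^ (Module.finrank ℝ E - 1))⁻¹ *
      (1 - 3 * δ)⁻¹ * (A + ε)) 0 := by
      refine ContinuousAt.mul (ContinuousAt.mul (ContinuousAt.inv₀ ?_ ?_)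
        (ContinuousAt.inv₀ ?_ ?_)) continuousAt_const
      · fun_prop
      · simp
      · fun_prop
      · simp
    have h3 := hc.tendsto
    simp only [ne_eq, OfNat.ofNat_ne_zero, not_false_eq_true, zero_pow, sub_zero, Real.sqrt_one,
      one_pow, inv_one, mul_zero, one_mul] at h3
    exact h3.mono_left nhdsWithin_le_nhds
  exact le_of_tendsto_of_tendsto hL1 hL2 key

end Crest.Agent.R246.JE364
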