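import Crest.Agent.R246.J0_816
import Crest.Agent.R246.JE4_364
import Mathlib.Topology.MetricSpace.HausdorffDimension
import Mathlib.Analysis.Calculus.Rademacher
import Mathlib.Analysis.Normed.Affine.Convex
import Mathlib.Geometry.Euclidean.Volume.Measure

/-!
Row 246, part JE (5): the signed distance to the cone is a null cone function.
-/

set_option autoImplicit false

open scoped Topology NNReal RealInnerProductSpace ContDiff
open MeasureTheory Filter Set

noncomputable section

namespace Crest.Agent.R246.JE364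

open Crest.Agent.R246.J816 Crest.Agent.R246.H990

variable {m : ℕ} {M : Type*} [MetricSpace M] [ChartedSpace (Eu m) M]

/-- locally, the cone has dimension at most `m + 1`. -/
theorem dimH_local {F : M → Eu (m + 2)} (hF : Imm F) (x : M) :
    ∃ U ∈ 𝓝 x, dimH {q : Eu (m + 2) | ∃ ρ : ℝ, ∃ x' ∈ U, q = ρ • F x'} ≤ (m + 1 : ℕ) := by
  set e := chartAt (Eu m) x with he
  obtain ⟨r, hr, hball⟩ := Metric.isOpen_iff.1 e.open_target (e x)
    (e.map_source (mem_chart_source _ x))
  refine ⟨e.source ∩ e ⁻¹' Metric.ball (e x) r, ?_, ?_⟩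
  · refine inter_mem (chart_source_mem_nhds _ x) ?_
    exact (e.continuousAt (mem_chart_source _ x)).preimage_mem_nhds (Metric.ball_mem_nhds _ hr)
  · set g : ℝ × Eu m → Eu (m + 2) := fun z => z.1 • loc F x z.2 with hg
    set s : Set (ℝ × Eu m) := univ ×ˢ Metric.ball (e x) r with hs
    have hconv : Convex ℝ s := convex_univ.prod (convex_ball _ _)
    have hgs : ContDiffOn ℝ 1 g s := by
      intro z hz
      have hz2 : z.2 ∈ e.target := hball hz.2
      have h1 : ContDiffAt ℝ ∞ (loc F x) z.2 := hF.smooth x z.2 hz2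
      have h2 : ContDiffAt ℝ 1 (loc F x) z.2 := h1.of_le (by exact_mod_cast le_top)
      have h3 : ContDiffAt ℝ 1 (fun z : ℝ × Eu m => loc F x z.2) z :=
        h2.comp z contDiffAt_snd
      exact (contDiffAt_fst.smul h3).contDiffWithinAt
    have h1 : {q : Eu (m + 2) | ∃ ρ : ℝ, ∃ x' ∈ e.source ∩ e ⁻¹' Metric.ball (e x) r,
        q = ρ • F x'} ⊆ g '' s := by
      rintro q ⟨ρ, x', ⟨hx1, hx2⟩, rfl⟩
      refine ⟨(ρ, e x'), ⟨mem_univ _, hx2⟩, ?_⟩
      simp only [hg, loc, Function.comp_apply]
      rw [e.left_inv hx1]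
    calc dimH {q : Eu (m + 2) | ∃ ρ : ℝ, ∃ x' ∈ e.source ∩ e ⁻¹' Metric.ball (e x) r,
          q = ρ • F x'} ≤ dimH (g '' s) := dimH_mono h1
      _ ≤ dimH s := hgs.dimH_image_le hconv Subset.rfl
      _ ≤ dimH (univ : Set (ℝ × Eu m)) := dimH_mono (subset_univ _)
      _ = (m + 1 : ℕ) := by
          rw [Real.dimH_univ_eq_finrank]
          simp [add_comm]

/-- the cone is a null set. -/
theorem volume_cone [CompactSpace M] {F : M → Eu (m + 2)} (hF : Imm F) :
    volume (cone F) = 0 := by
  choose U hU hd using dimH_local hF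
  obtain ⟨t, ht⟩ := CompactSpace.elim_nhds_subcover U hU
  have h1 : cone F ⊆ ⋃ x ∈ (t : Set M), {q : Eu (m + 2) | ∃ ρ : ℝ, ∃ x' ∈ U x, q = ρ • F x'} := by
    rintro q ⟨ρ, -, x, rfl⟩
    have hx : x ∈ ⋃ y ∈ t, U y := by rw [ht]; exact mem_univ _
    simp only [mem_iUnion] at hx ⊢
    obtain ⟨y, hy, hxy⟩ := hx
    exact ⟨y, hy, ρ, x, hxy, rfl⟩
  have h2 : dimH (cone F) < ((m + 2 : ℕ) : ℝ≥0) := by
    refine lt_of_le_of_lt (dimH_mono h1) ?_
    rw [dimH_bUnion t.countable_toSet]
    refine lt_of_le_of_lt (iSup₂_le fun x _ => hd x) ?_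
    have : (m + 1 : ℕ) < m + 2 := by omega
    exact_mod_cast this
  have h3 : Measure.hausdorffMeasure (((m + 2 : ℕ) : ℝ≥0) : ℝ) (cone F) = 0 :=
    hausdorffMeasure_of_dimH_lt h2
  have h4 : (Measure.hausdorffMeasure (Module.finrank ℝ (Eu (m + 2)) : ℝ) :
      Measure (Eu (m + 2))) (cone F) = 0 := by
    rw [finrank_euclideanSpace_fin]
    exact_mod_cast h3
  exact Measure.absolutelyContinuous_isAddHaarMeasure (volume : Measure (Eu (m + 2)))
    (Measure.hausdorffMeasure (Module.finrank ℝ (Eu (m + 2)) : ℝ)) h4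

section Colour

variable {F : M → Eu (m + 2)} {c : Eu (m + 2) → ℝ}

theorem abs_sdist (hc : Colour F c) (q : Eu (m + 2)) :
    |sdist F c q| = Metric.infDist q (cone F) := by
  unfold sdist
  rw [abs_mul, abs_of_nonneg (Metric.infDist_nonneg (x := q))]
  rcases hc.pm q with h | h <;> simp [h]

theorem infDist_pos [CompactSpace M] [Nonempty M] (hF : Imm F) {q : Eu (m + 2)}
    (hq : q ∉ cone F) : 0 < Metric.infDist q (cone F) :=
  ((isClosed_cone hF).notMem_iff_infDist_pos (cone_nonempty F)).1 hq

omit [MetricSpace M] [ChartedSpace (Eu m) M] in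
theorem sdist_pos_iff {q : Eu (m + 2)}
    (hq : 0 < Metric.infDist q (cone F)) : 0 < sdist F c q ↔ 0 < c q := by
  unfold sdist
  exact mul_pos_iff_of_pos_right hq

theorem sdist_hom [Nonempty M] (hc : Colour F c) (t : ℝ) (ht : 0 ≤ t) (q : Eu (m + 2)) :
    sdist F c (t • q) = t * sdist F c q := by
  rcases ht.eq_or_lt with rfl | ht
  · have : Metric.infDist (0 : Eu (m + 2)) (cone F) = 0 :=
      Metric.infDist_zero_of_mem (zero_mem_cone F)
    simp [sdist, this]
  · unfold sdist
    rw [hc.hom t ht, infDist_smul F ht]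
    ring

theorem continuousOn_colour (hc : Colour F c) : ContinuousOn c (cone F)ᶜ := fun q hq =>
  (continuousAt_const.congr (f := fun _ => c q)
    ((hc.loc_const q hq).mono fun _ h => h.symm)).continuousWithinAt

theorem colour_eq_of_segment (hc : Colour F c) {q q' : Eu (m + 2)}
    (h : segment ℝ q q' ⊆ (cone F)ᶜ) : c q = c q' := by
  by_contra hne
  have hpre : IsPreconnected (c '' segment ℝ q q') :=
    (convex_segment q q').isPreconnected.image c ((continuousOn_colour hc).mono h)
  have hq : c q ∈ c '' segment ℝ q q' := mem_image_of_mem c (left_mem_segment ℝ q q')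
  have hq' : c q' ∈ c '' segment ℝ q q' := mem_image_of_mem c (right_mem_segment ℝ q q')
  have h0 : (0 : ℝ) ∈ c '' segment ℝ q q' := by
    rcases hc.pm q with h1 | h1 <;> rcases hc.pm q' with h2 | h2
    · exact absurd (h1.trans h2.symm) hne
    · exact hpre.Icc_subset hq' hq ⟨by rw [h2]; norm_num, by rw [h1]; norm_num⟩
    · exact hpre.Icc_subset hq hq' ⟨by rw [h1]; norm_num, by rw [h2]; norm_num⟩
    · exact absurd (h1.trans h2.symm) hne
  obtain ⟨y, -, hy⟩ := h0
  rcases hc.pm y with h1 | h1 <;> rw [hy] at h1 <;> norm_num at h1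

theorem sdist_lip (hc : Colour F c) : LipschitzWith 1 (sdist F c) := by
  refine LipschitzWith.of_dist_le_mul fun q q' => ?_
  rw [NNReal.coe_one, one_mul, Real.dist_eq]
  have h1 : |Metric.infDist q (cone F) - Metric.infDist q' (cone F)| ≤ dist q q' := by
    have := (Metric.lipschitz_infDist_pt (cone F)).dist_le_mul q q'
    simpa [Real.dist_eq] using this
  by_cases hseg : segment ℝ q q' ⊆ (cone F)ᶜ
  · have hcc := colour_eq_of_segment hc hseg
    unfold sdist
    rw [hcc, ← mul_sub, abs_mul]
    rcases hc.pm q' with h | h <;> rw [h] <;> simpa using h1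
  · rw [not_subset] at hseg
    obtain ⟨y, hy, hyc⟩ := hseg
    rw [notMem_compl_iff] at hyc
    have h2 := dist_add_dist_of_mem_segment hy
    have h3 := Metric.infDist_le_dist_of_mem (x := q) hyc
    have h4 := Metric.infDist_le_dist_of_mem (x := q') hyc
    rw [dist_comm q' y] at h4
    calc |sdist F c q - sdist F c q'| ≤ |sdist F c q| + |sdist F c q'| := abs_sub _ _
      _ = Metric.infDist q (cone F) + Metric.infDist q' (cone F) := by
          rw [abs_sdist hc, abs_sdist hc]
      _ ≤ dist q q' := by linarith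

/-- the eikonal equation off the cone. -/
theorem sdist_grad [CompactSpace M] [Nonempty M] (hF : Imm F) (hc : Colour F c)
    {q : Eu (m + 2)} (hq : q ∉ cone F) (hd : DifferentiableAt ℝ (sdist F c) q) :
    ‖fderiv ℝ (sdist F c) q‖ = 1 := by
  have hle : ‖fderiv ℝ (sdist F c) q‖ ≤ 1 := by
    simpa using norm_fderiv_le_of_lipschitz ℝ (x₀ := q) (sdist_lip hc)
  refine le_antisymm hle ?_
  obtain ⟨ρ, x, hρ, hmin⟩ := exists_nearest hF q
  set y : Eu (m + 2) := ρ • F x with hy
  have hyc : y ∈ cone F := mem_cone F hρ x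
  set D := Metric.infDist q (cone F) with hD
  have hDpos : 0 < D := infDist_pos hF hq
  set v : Eu (m + 2) := D⁻¹ • (q - y) with hv
  have hvn : ‖v‖ = 1 := by
    rw [hv, norm_smul, Real.norm_of_nonneg (inv_nonneg.2 hDpos.le), ← hmin,
      inv_mul_cancel₀ hDpos.ne']
  -- the distance along the ray
  have hdist : ∀ s : ℝ, 0 ≤ s → s ≤ D → Metric.infDist (q - s • v) (cone F) = D - s := by
    intro s hs0 hs1
    refine le_antisymm ?_ ?_
    · have h1 := Metric.infDist_le_dist_of_mem (x := q - s • v) hyc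
      have h2 : q - s • v - y = (D - s) • v := by
        have h3 : q - y = D • v := by rw [hv, smul_smul, mul_inv_cancel₀ hDpos.ne', one_smul]
        have h4 : q - s • v - y = (q - y) - s • v := by abel
        rw [h4, h3, sub_smul]
      rw [dist_eq_norm, h2, norm_smul, hvn, mul_one, Real.norm_of_nonneg (by linarith)] at h1
      exact h1
    · have h1 := Metric.infDist_le_infDist_add_dist (s := cone F) (x := q) (y := q - s • v)
      rw [dist_eq_norm, sub_sub_cancel, norm_smul, hvn, mul_one, Real.norm_of_nonneg hs0] at h1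
      linarith
  -- the derivative along the ray
  have hline : HasDerivAt (fun s : ℝ => q - s • v) (-v) 0 := by
    have := ((hasDerivAt_id (0 : ℝ)).smul_const v).const_sub q
    simpa using this
  have hcomp : HasDerivAt (fun s : ℝ => sdist F c (q - s • v)) (fderiv ℝ (sdist F c) q (-v)) 0 := by
    have h1 : HasFDerivAt (sdist F c) (fderiv ℝ (sdist F c) q) (q - (0 : ℝ) • v) := by
      rw [zero_smul, sub_zero]; exact hd.hasFDerivAt
    exact h1.comp_hasDerivAt (0 : ℝ) hline
  have hev : ∀ᶠ s in 𝓝[>] (0 : ℝ), sdist F c (q - s • v) = c q * (D - s) := by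
    have h1 : Tendsto (fun s : ℝ => q - s • v) (𝓝[>] 0) (𝓝 q) := by
      have h2 : Continuous fun s : ℝ => q - s • v := by fun_prop
      have h3 := h2.tendsto 0
      rw [zero_smul, sub_zero] at h3
      exact h3.mono_left nhdsWithin_le_nhds
    filter_upwards [h1.eventually (hc.loc_const q hq), self_mem_nhdsWithin,
      nhdsWithin_le_nhds (Iio_mem_nhds hDpos)] with s h2 h3 h4
    unfold sdist
    rw [h2, hdist s (le_of_lt h3) (le_of_lt h4)]
  have hright : HasDerivWithinAt (fun s : ℝ => c q * (D - s)) (fderiv ℝ (sdist F c) q (-v))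
      (Ioi 0) 0 := by
    refine hcomp.hasDerivWithinAt.congr_of_eventuallyEq ?_ ?_
    · exact hev.mono fun s h => h.symm
    · simp [sdist, hD]
  have hright2 : HasDerivWithinAt (fun s : ℝ => c q * (D - s)) (-c q) (Ioi 0) 0 := by
    have := (((hasDerivAt_id (0 : ℝ)).const_sub D).const_mul (c q)).hasDerivWithinAt
      (s := Ioi (0 : ℝ))
    simpa using this
  have hval : fderiv ℝ (sdist F c) q (-v) = -c q :=
    (uniqueDiffWithinAt_Ioi (0 : ℝ)).eq_deriv _ hright hright2
  have h5 : |fderiv ℝ (sdist F c) q (-v)| ≤ ‖fderiv ℝ (sdist F c) q‖ * ‖-v‖ :=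
    (fderiv ℝ (sdist F c) q).le_opNorm (-v)
  rw [hval, norm_neg, hvn, mul_one, abs_neg] at h5
  rcases hc.pm q with h | h <;> rw [h] at h5 <;> simpa using h5

/-- the signed distance is a null cone function. -/
theorem nullCone_sdist [CompactSpace M] [Nonempty M] (hF : Imm F) (hc : Colour F c)
    {c₀ : ℝ} (h0 : c₀ < 1) (hb : ∀ q, Metric.infDist q (cone F) ≤ c₀ * ‖q‖) :
    NullCone (sdist F c) where
  hom := fun t ht q => sdist_hom hc t ht q
  lip := sdist_lip hc
  grad := by
    have h1 : ∀ᵐ q : Eu (m + 2), q ∉ cone F := measure_eq_zero_iff_ae_notMem.1 (volume_cone hF)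
    filter_upwards [h1, (sdist_lip hc).ae_differentiableAt] with q h2 h3
    exact sdist_grad hF hc h2 h3
  bd := by
    refine ⟨max c₀ 0, le_max_right _ _, max_lt h0 one_pos, fun q => ?_⟩
    rw [abs_sdist hc]
    refine (hb q).trans ?_
    gcongr
    exact le_max_left _ _

/-- superharmonicity of the signed distance on one side. -/
theorem sup_sdist (hc : Colour F c) (σ : ℝ) (hσ : σ = 1 ∨ σ = -1)
    (hJB : ∀ ψ : Eu (m + 2) → ℝ, (∃ K, LipschitzWith K ψ) → HasCompactSupport ψ →
      tsupport ψ ⊆ (cone F)ᶜ → (∀ q, 0 ≤ ψ q) →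
      0 ≤ ∫ q, inner ℝ (gradient (fun p => Metric.infDist p (cone F)) q) (gradient ψ q)) :
    Sup {q | 0 < σ * sdist F c q} (fun q => σ * sdist F c q) := by
  intro ψ hψ hcs hts h0
  have hcont : Continuous fun q => σ * sdist F c q := continuous_const.mul (sdist_lip hc).continuous
  have hop : IsOpen {q | 0 < σ * sdist F c q} := isOpen_lt continuous_const hcont
  have hsub : tsupport ψ ⊆ (cone F)ᶜ := by
    intro q hq hqc
    have h1 : 0 < σ * sdist F c q := hts hq
    have h2 : sdist F c q = 0 := by simp [sdist, Metric.infDist_zero_of_mem hqc]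
    rw [h2, mul_zero] at h1
    exact lt_irrefl _ h1
  have h1 := hJB ψ hψ hcs hsub h0
  have heq : ∀ q ∈ {q | 0 < σ * sdist F c q}, σ * sdist F c q = Metric.infDist q (cone F) := by
    intro q hq
    have hq' : 0 < σ * (c q * Metric.infDist q (cone F)) := hq
    have hi := Metric.infDist_nonneg (x := q) (s := cone F)
    unfold sdist
    rcases hσ with rfl | rfl <;> rcases hc.pm q with h | h <;> rw [h] at hq' ⊢ <;>
      first | ring1 | (exfalso; linarith)
  have h2 : ∫ q, ⟪gradient (fun q => σ * sdist F c q) q, gradient ψ q⟫ =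
      ∫ q, inner ℝ (gradient (fun p => Metric.infDist p (cone F)) q) (gradient ψ q) := by
    congr 1
    funext q
    by_cases hq : q ∈ tsupport ψ
    · have h3 : (fun q => σ * sdist F c q) =ᶠ[𝓝 q] fun p => Metric.infDist p (cone F) := by
        filter_upwards [hop.mem_nhds (hts hq)] with p hp
        exact heq p hp
      have h4 : gradient (fun q => σ * sdist F c q) q =
          gradient (fun p => Metric.infDist p (cone F)) q := by
        unfold gradient
        rw [h3.fderiv_eq]
      rw [h4]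
    · have h3 : gradient ψ q = 0 := by
        unfold gradient
        have h4 : ψ =ᶠ[𝓝 q] fun _ => (0 : ℝ) := notMem_tsupport_iff_eventuallyEq.1 hq
        rw [h4.fderiv_eq]
        simp
      rw [h3, inner_zero_right, inner_zero_right]
  rw [h2]
  exact h1

end Colour

end Crest.Agent.R246.JE364
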