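import Crest.Agent.R246.Mo3_873
import Crest.Agent.R246.G4b_386

/-!
# L5: homogeneity of the function from homogeneity of the measure
-/

set_option autoImplicit false
set_option linter.unusedSectionVars false
set_option linter.unusedVariables false
noncomputable section
open MeasureTheory Set Filter Topology
open scoped RealInnerProductSpace ContDiff
open Crest.Agent.R246.G4x386 Crest.Agent.R246.G4b386

namespace Crest.Agent.R246.G873

variable {E : Type} [NormedAddCommGroup E] [InnerProductSpace ℝ E] [FiniteDimensional ℝ E]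
  [MeasurableSpace E] [BorelSpace E]

/-- zeros of `R` are in the support of the measure. -/
theorem ball_pos_of_zero {R : E → ℝ} {μ : Measure E} (hD : ClassD R) (hV : VAR R μ univ)
    {x₀ : E} (hx : R x₀ = 0) {ε : ℝ} (hε : 0 < ε) : μ (Metric.ball x₀ ε) ≠ 0 := by
  intro h0
  have hS := supW_abs_of_VAR hV (measurableSet_ball (x := x₀) (ε := ε)) h0
  have hz : ∀ z ∈ Metric.ball x₀ ε, R z = 0 := fun z hz =>
    eq_zero_of_SupW_abs hD.lip Metric.isOpen_ball (convex_ball x₀ ε).isPreconnected hS
      (Metric.mem_ball_self hε) hx hz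
  have hfd : ∀ z ∈ Metric.ball x₀ ε, fderiv ℝ R z = 0 := by
    intro z hz'
    have : R =ᶠ[𝓝 z] fun _ => 0 := by
      filter_upwards [Metric.isOpen_ball.mem_nhds hz'] with w hw using hz w hw
    rw [this.fderiv_eq]; simp
  have hvol : (volume : Measure E) (Metric.ball x₀ ε) = 0 := by
    apply measure_mono_null _ (ae_iff.1 hD.grad)
    intro z hz'
    simp only [mem_ofPred_eq]
    rw [hfd z hz', norm_zero]
    norm_num
  exact (Metric.measure_ball_pos volume x₀ hε).ne' hvol

/-- homogeneous measures: null balls are dilation invariant -/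
lemma HomM.null_ball {μ : Measure E} [IsFiniteMeasureOnCompacts μ] (hμ : HomM μ) {x₀ : E}
    {ε t : ℝ} (hε : 0 < ε) (ht : 0 < t) (h0 : μ (Metric.ball (t • x₀) (t * ε)) = 0) :
    μ (Metric.ball x₀ ε) = 0 := by
  set f : E → ℝ := fun x => max (ε - ‖x - x₀‖) 0 with hf
  have hfc : Continuous f := by fun_prop
  have hfs : HasCompactSupport f := by
    refine HasCompactSupport.intro (isCompact_closedBall x₀ ε) ?_
    intro x hx
    rw [Metric.mem_closedBall, dist_eq_norm, not_le] at hx
    simp only [hf]
    exact max_eq_right (by linarith)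
  have h1 := hμ t ht f hfc hfs
  have h2 : ∫ x, f (t⁻¹ • x) ∂μ = 0 := by
    rw [integral_eq_zero_of_ae]
    have : ∀ᵐ x ∂μ, x ∉ Metric.ball (t • x₀) (t * ε) := by
      rw [ae_iff]; simp only [not_not]; exact h0
    filter_upwards [this] with x hx
    rw [Metric.mem_ball, dist_eq_norm, not_lt] at hx
    simp only [hf, Pi.zero_apply]
    apply max_eq_right
    have e1 : t⁻¹ • x - x₀ = t⁻¹ • (x - t • x₀) := by
      rw [smul_sub, smul_smul, inv_mul_cancel₀ ht.ne', one_smul]
    rw [e1, norm_smul, norm_inv, Real.norm_eq_abs, abs_of_pos ht, sub_nonpos,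
      le_inv_mul_iff₀ ht]
    exact hx
  rw [h2] at h1
  have h3 : ∫ x, f x ∂μ = 0 := by
    have : (t ^ (Module.finrank ℝ E - 1) : ℝ) ≠ 0 := by positivity
    rcases mul_eq_zero.1 h1.symm with h | h
    · exact absurd h this
    · exact h
  have h4 : f =ᵐ[μ] 0 := (integral_eq_zero_iff_of_nonneg (fun x => le_max_right _ _)
    (hfc.integrable_of_hasCompactSupport hfs)).1 h3
  apply measure_mono_null _ (ae_iff.1 h4)
  intro x hx
  rw [Metric.mem_ball, dist_eq_norm] at hx
  simp only [mem_ofPred_eq, Pi.zero_apply, hf]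
  apply ne_of_gt
  exact lt_max_of_lt_left (by linarith)

theorem stL5 (F : Type) [NormedAddCommGroup F] [InnerProductSpace ℝ F] [FiniteDimensional ℝ F]
    [MeasurableSpace F] [BorelSpace F] : StL5 F := by
  intro hn R μ hfin hD hV hconc hμ hR0 t ht x
  have := hfin
  have : Nontrivial F := by
    apply Module.nontrivial_of_finrank_pos (R := ℝ)
    omega
  have hz : ∀ t : ℝ, 0 < t → ∀ x, R x = 0 → R (t • x) = 0 := by
    intro t ht x hx
    by_contra hne
    have hopen : IsOpen {y | R y ≠ 0} := isOpen_ne_fun hD.lip.continuous continuous_const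
    obtain ⟨δ, hδ, hsub⟩ := Metric.isOpen_iff.1 hopen (t • x) hne
    have h1 : μ (Metric.ball (t • x) δ) = 0 := measure_mono_null hsub hconc
    have h2 : δ = t * (δ / t) := by field_simp
    rw [h2] at h1
    exact ball_pos_of_zero hD hV hx (by positivity : 0 < δ / t)
      (hμ.null_ball (by positivity) ht h1)
  rcases ht.eq_or_lt with h | h
  · rw [← h, zero_smul, zero_mul, hR0]
  · exact (toSD hD).homogeneous hz h x

end Crest.Agent.R246.G873
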