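import Crest.Agent.R246.Inv_990
import Mathlib.Analysis.InnerProductSpace.Laplacian
import Mathlib.Analysis.InnerProductSpace.Trace
import Mathlib.MeasureTheory.Integral.RieszMarkovKakutani.Real
import Mathlib.MeasureTheory.Measure.Lebesgue.VolumeOfBalls
import Mathlib.Analysis.SpecialFunctions.Trigonometric.DerivHyp
import Mathlib.Order.Filter.Ultrafilter.Basic

/-!
# R246, blocks E + G : the limit object (interface)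

Everything is flat: `E` is a finite dimensional real inner product space (`= ℝ^{m+2}` in the
application), `φ : E → ℝ` is (a blow-up of) the 1-homogeneous cone function `|x| sin r(x/|x|)`,
`V` is a generalised varifold: a measure on `E × (E →L[ℝ] E)`.

* `LO φ V`     : the class of limit objects (closed under limits, translations, dilations)
* `StE..`, `StG..` : the statements to be proved (one owner per statement).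
-/

set_option autoImplicit false
noncomputable section
open MeasureTheory Set Filter Topology Laplacian InnerProductSpace
open scoped RealInnerProductSpace ContDiff

namespace Crest.Agent.R246.LO549

/-- trace of an endomorphism -/
def tr {E : Type*} [NormedAddCommGroup E] [InnerProductSpace ℝ E] (A : E →L[ℝ] E) : ℝ :=
  LinearMap.trace ℝ E (A : E →ₗ[ℝ] E)

/-- volume of the unit ball of `ℝ^d` -/
def omg (d : ℕ) : ℝ := (volume (Metric.ball (0 : EuclideanSpace ℝ (Fin d)) 1)).toReal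

/-- `Q_s(t) = 0` for `t ≤ 0`, `t - t²/(2s)` for `0 ≤ t ≤ s`, `s/2` for `t ≥ s`. -/
def Qs (s t : ℝ) : ℝ := max 0 (min t s) - (max 0 (min t s)) ^ 2 / (2 * s)

variable {E : Type*} [NormedAddCommGroup E] [InnerProductSpace ℝ E] [FiniteDimensional ℝ E]
  [MeasurableSpace E] [BorelSpace E]

/-- nonnegative compactly supported `C²` test functions -/
structure Tst (ζ : E → ℝ) : Prop where
  smooth : ContDiff ℝ 2 ζ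
  cpt : HasCompactSupport ζ
  nonneg : ∀ x, 0 ≤ ζ x

/-- admissible matrices of a generalised varifold of dimension `dim E - 1` : symmetric,
`0 ≤ A ≤ 1`, `tr A ≥ dim E - 1`. -/
structure GMat (A : E →L[ℝ] E) : Prop where
  symm : ∀ v w, ⟪A v, w⟫ = ⟪v, A w⟫
  nonneg : ∀ v, 0 ≤ ⟪A v, v⟫
  le : ∀ v, ⟪A v, v⟫ ≤ ‖v‖ ^ 2
  trace : (Module.finrank ℝ E : ℝ) - 1 ≤ tr A

/-- **Limit objects.** -/
structure LO (φ : E → ℝ) (V : Measure (E × (E →L[ℝ] E))) : Prop where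
  lip : LipschitzWith 1 φ
  foot : ∀ x, ∃ z, φ z = 0 ∧ ‖x - z‖ = |φ x|
  sup : ∀ ζ : E → ℝ, Tst ζ → tsupport ζ ⊆ {x | 0 < φ x} → ∫ x, φ x * Δ ζ x ≤ 0
  sub : ∀ ζ : E → ℝ, Tst ζ → tsupport ζ ⊆ {x | φ x < 0} → 0 ≤ ∫ x, φ x * Δ ζ x
  fin : ∀ R : ℝ, V (Metric.closedBall (0 : E) R ×ˢ univ) < ⊤
  mat : ∀ᵐ p ∂V, GMat p.2
  supp : ∀ᵐ p ∂V, φ p.1 = 0
  stat : ∀ X : E → E, ContDiff ℝ 1 X → HasCompactSupport X →
    ∫ p, tr (p.2 ∘L fderiv ℝ X p.1) ∂V = 0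
  flp : ∀ ζ : E → ℝ, Tst ζ → ∀ s : ℝ, 0 < s →
    (1 / s) * ∫ x in {x | 0 < φ x ∧ φ x < s}, ζ x + ∫ x, Qs s (φ x) * Δ ζ x ≤ ∫ p, ζ p.1 ∂V
  flm : ∀ ζ : E → ℝ, Tst ζ → ∀ s : ℝ, 0 < s →
    (1 / s) * ∫ x in {x | 0 < -φ x ∧ -φ x < s}, ζ x + ∫ x, Qs s (-φ x) * Δ ζ x ≤ ∫ p, ζ p.1 ∂V
  fla : ∀ ζ : E → ℝ, Tst ζ → ∀ s : ℝ, 0 < s →
    (1 / s) * ∫ x in {x | |φ x| < s}, ζ x + ∫ x, Qs s |φ x| * Δ ζ x ≤ 2 * ∫ p, ζ p.1 ∂V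

/-- mass of the ball `B_ρ(p)` -/
def ms (V : Measure (E × (E →L[ℝ] E))) (p : E) (ρ : ℝ) : ℝ :=
  (V (Metric.ball p ρ ×ˢ univ)).toReal

/-- density ratio `Θ(p,ρ) = μ(B_ρ(p)) / (ω_d ρ^d)`, `d = dim E - 1`. -/
def Th (V : Measure (E × (E →L[ℝ] E))) (p : E) (ρ : ℝ) : ℝ :=
  ms V p ρ / (omg (Module.finrank ℝ E - 1) * ρ ^ (Module.finrank ℝ E - 1))

/-- blow-up of the function at `p`, scale `l` -/
def bup (φ : E → ℝ) (p : E) (l : ℝ) : E → ℝ := fun y => φ (p + l • y) / l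

/-- blow-up of the varifold at `p`, scale `l` -/
def bupV (V : Measure (E × (E →L[ℝ] E))) (p : E) (l : ℝ) : Measure (E × (E →L[ℝ] E)) :=
  ENNReal.ofReal (l ^ (Module.finrank ℝ E - 1))⁻¹ •
    V.map (fun q => (l⁻¹ • (q.1 - p), q.2))

/-- convergence of (indexed) limit objects along a filter: pointwise for `φ` (hence locally
uniform), vague for `V`. -/
def Conv {ι : Type*} (F : Filter ι) (φk : ι → E → ℝ) (Vk : ι → Measure (E × (E →L[ℝ] E)))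
    (φ : E → ℝ) (V : Measure (E × (E →L[ℝ] E))) : Prop :=
  (∀ x, Tendsto (fun k => φk k x) F (𝓝 (φ x))) ∧
  ∀ f : E × (E →L[ℝ] E) → ℝ, Continuous f → HasCompactSupport f →
    Tendsto (fun k => ∫ q, f q ∂(Vk k)) F (𝓝 (∫ q, f q ∂V))

/-- conical objects with density `θ` -/
structure ConeLO (φ : E → ℝ) (V : Measure (E × (E →L[ℝ] E))) (θ : ℝ) : Prop where
  lo : LO φ V
  hom : ∀ t : ℝ, 0 ≤ t → ∀ x, φ (t • x) = t * φ x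
  dens : ∀ ρ : ℝ, 0 < ρ → Th V 0 ρ = θ

/-- translation invariance in direction `p` -/
structure TI (p : E) (φ : E → ℝ) (V : Measure (E × (E →L[ℝ] E))) : Prop where
  fn : ∀ (s : ℝ) x, φ (x + s • p) = φ x
  ms : ∀ (s : ℝ) (ζ : E → ℝ), Continuous ζ → HasCompactSupport ζ →
    ∫ q, ζ (q.1 + s • p) ∂V = ∫ q, ζ q.1 ∂V
  mat : ∀ᵐ q ∂V, q.2 p = p

/-! ### The Allen–Cahn side (flat balls) -/

/-- `sech⁴` energy density `(1/2ε) sech⁴(r/ε) (h + |∇r|²)`. -/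
def eD (ε : ℝ) (h r : E → ℝ) (x : E) : ℝ :=
  (1 / (2 * ε)) * (1 - Real.tanh (r x / ε) ^ 2) ^ 2 * (h x + ‖fderiv ℝ r x‖ ^ 2)

/-- Allen–Cahn solution `u = tanh(r/ε)` on the ball `B_R(0)` with weight `h` close to `1`:
`ε Δ r = - 2 tanh(r/ε) (h - |∇r|²)`, `|∇r|² ≤ h`. -/
structure ACB (ε η R : ℝ) (h r : E → ℝ) : Prop where
  eps : 0 < ε
  eps_le : ε ≤ η ^ 2
  smooth_r : ContDiffOn ℝ ∞ r (Metric.ball 0 R)
  smooth_h : ContDiffOn ℝ ∞ h (Metric.ball 0 R)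
  eqn : ∀ x ∈ Metric.ball (0 : E) R,
    ε * Δ r x = - 2 * Real.tanh (r x / ε) * (h x - ‖fderiv ℝ r x‖ ^ 2)
  modica : ∀ x ∈ Metric.ball (0 : E) R, ‖fderiv ℝ r x‖ ^ 2 ≤ h x
  h_near : ∀ x ∈ Metric.ball (0 : E) R, |h x - 1| ≤ η
  h_grad : ∀ x ∈ Metric.ball (0 : E) R, ‖fderiv ℝ h x‖ ≤ η

/-- `(φ, V)` is approximated by Allen–Cahn solutions in balls. -/
def App (φ : E → ℝ) (V : Measure (E × (E →L[ℝ] E))) : Prop :=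
  ∀ η : ℝ, 0 < η → ∀ R : ℝ, 0 < R → ∀ ζ₁ ζ₂ : E → ℝ, Continuous ζ₁ → Continuous ζ₂ →
    tsupport ζ₁ ⊆ Metric.ball 0 R → tsupport ζ₂ ⊆ Metric.ball 0 R →
    ∃ (ε : ℝ) (h r : E → ℝ), ACB ε η R h r ∧ (∀ x ∈ Metric.ball (0 : E) R, |r x - φ x| ≤ η) ∧
      |3 / 4 * (∫ x, ζ₁ x * eD ε h r x) - ∫ q, ζ₁ q.1 ∂V| ≤ η ∧
      |3 / 4 * (∫ x, ζ₂ x * eD ε h r x) - ∫ q, ζ₂ q.1 ∂V| ≤ η

/-! ### Statements -/

variable (E)

/-- **StE2 (compactness).** Along any ultrafilter, limit objects with `φ 0 = 0` and locally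
uniformly bounded mass have a limit object. -/
def StE2 : Prop :=
  ∀ {ι : Type} (F : Ultrafilter ι) (φk : ι → E → ℝ) (Vk : ι → Measure (E × (E →L[ℝ] E)))
    (C : ℝ → ℝ), (∀ k, LO (φk k) (Vk k)) → (∀ k, φk k 0 = 0) →
    (∀ k R, 0 < R → (Vk k (Metric.closedBall (0 : E) R ×ˢ univ)).toReal ≤ C R) →
    ∃ φ V, LO φ V ∧ φ 0 = 0 ∧ Conv (F : Filter ι) φk Vk φ V

/-- **StE2b (semicontinuity of the mass).** -/
def StE2b : Prop :=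
  ∀ {ι : Type} (F : Ultrafilter ι) (φk : ι → E → ℝ) (Vk : ι → Measure (E × (E →L[ℝ] E)))
    (φ : E → ℝ) (V : Measure (E × (E →L[ℝ] E))), (∀ k, LO (φk k) (Vk k)) → LO φ V →
    Conv (F : Filter ι) φk Vk φ V → ∀ (p : E) (ρ ρ' c : ℝ), 0 < ρ → ρ < ρ' →
    ((∀ᶠ k in (F : Filter ι), ms (Vk k) p ρ ≤ c) → ms V p ρ ≤ c) ∧
    ((∀ᶠ k in (F : Filter ι), c ≤ ms (Vk k) p ρ) → c ≤ ms V p ρ')

/-- **StE2a.** `App` passes to limits. -/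
def StE2a : Prop :=
  ∀ {ι : Type} (F : Ultrafilter ι) (φk : ι → E → ℝ) (Vk : ι → Measure (E × (E →L[ℝ] E)))
    (φ : E → ℝ) (V : Measure (E × (E →L[ℝ] E))), (∀ k, LO (φk k) (Vk k)) → LO φ V →
    Conv (F : Filter ι) φk Vk φ V → (∀ k, App (φk k) (Vk k)) → App φ V

/-- **StE3s (scaling).** -/
def StE3s : Prop :=
  ∀ (φ : E → ℝ) (V : Measure (E × (E →L[ℝ] E))) (p : E) (l : ℝ), LO φ V → 0 < l →
    LO (bup φ p l) (bupV V p l) ∧ ∀ q ρ, 0 < ρ → Th (bupV V p l) q ρ = Th V (p + l • q) (l * ρ)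

/-- **StE3 (monotonicity).** -/
def StE3 : Prop :=
  ∀ (φ : E → ℝ) (V : Measure (E × (E →L[ℝ] E))), LO φ V → ∀ p : E,
    ∀ ρ ρ' : ℝ, 0 < ρ → ρ ≤ ρ' → Th V p ρ ≤ Th V p ρ'

/-- **StE3c (constant density ratio).** -/
def StE3c : Prop :=
  ∀ (φ : E → ℝ) (V : Measure (E × (E →L[ℝ] E))) (θ : ℝ), LO φ V →
    (∀ ρ : ℝ, 0 < ρ → Th V 0 ρ = θ) →
    (∀ᵐ q ∂V, q.2 q.1 = q.1 ∧ tr q.2 = (Module.finrank ℝ E : ℝ) - 1) ∧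
    (∀ t : ℝ, 0 < t → ∀ ζ : E → ℝ, Continuous ζ → HasCompactSupport ζ →
      ∫ q, ζ (t • q.1) ∂V = (t ^ (Module.finrank ℝ E - 1))⁻¹ * ∫ q, ζ q.1 ∂V)

/-- **StE4 (support).** The zero set is contained in the support of the mass. -/
def StE4 : Prop :=
  ∀ (φ : E → ℝ) (V : Measure (E × (E →L[ℝ] E))), LO φ V → ∀ p, φ p = 0 →
    ∀ ρ : ℝ, 0 < ρ → 0 < ms V p ρ

/-- **StE5 (constant density ratio implies homogeneous function).** Uses StE3c, StE4. -/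
def StE5 : Prop :=
  ∀ (φ : E → ℝ) (V : Measure (E × (E →L[ℝ] E))) (θ : ℝ), LO φ V → φ 0 = 0 →
    (∀ ρ : ℝ, 0 < ρ → Th V 0 ρ = θ) → ConeLO φ V θ

/-- **StE6 (null set, gradient).** -/
def StE6 : Prop :=
  ∀ (φ : E → ℝ) (V : Measure (E × (E →L[ℝ] E))), LO φ V →
    volume {x | φ x = 0} = 0 ∧ ∀ᵐ x, ‖fderiv ℝ φ x‖ = 1

/-- **StE7 (slab volume, the hypothesis (A) of H1).** For balls `B_t(p) ⊆ B_t'(p)`. -/
def StE7 : Prop :=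
  ∃ C : ℝ, ∀ (φ : E → ℝ) (V : Measure (E × (E →L[ℝ] E))), LO φ V →
    ∀ (p : E) (s t t' : ℝ), 0 < s → 0 < t → t < t' → φ p = 0 →
      (volume (Metric.ball p t ∩ {x | |φ x| < s})).toReal ≤
        2 * s * ms V p t' + C * s ^ 2 * t' ^ (Module.finrank ℝ E) / (t' - t) ^ 2

/-- **StG1 (half space).** A conical object touching `|φ(x₀)| = ‖x₀‖` is planar. -/
def StG1 : Prop :=
  ∀ (φ : E → ℝ) (V : Measure (E × (E →L[ℝ] E))) (θ : ℝ), 2 ≤ Module.finrank ℝ E →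
    ConeLO φ V θ → ∀ x₀ : E, x₀ ≠ 0 → |φ x₀| = ‖x₀‖ → θ < 2 →
    ∃ e : E, ‖e‖ = 1 ∧ (∀ x, φ x = ⟪e, x⟫) ∧ 1 ≤ θ ∧
      (∀ᵐ q ∂V, ∀ v, q.2 v = v - ⟪e, v⟫ • e)

/-- **StG2 (flux bound).** A conical object which is a null cone has `V(φ) ≤ θ |S^{d-1}|`,
`d = dim E - 1` (`d ω_d = |S^{d-1}|`). -/
def StG2 : Prop :=
  ∀ (φ : E → ℝ) (V : Measure (E × (E →L[ℝ] E))) (θ : ℝ), 3 ≤ Module.finrank ℝ E →
    ConeLO φ V θ → (∀ x, x ≠ 0 → |φ x| < ‖x‖) →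
    H990.NullCone φ ∧
      H990.VB φ (θ * ((Module.finrank ℝ E - 1 : ℕ) * omg (Module.finrank ℝ E - 1)))

/-- **StG3 (slicing).** A conical object invariant in the direction `p`, restricted to `p^⊥`. -/
def StG3 : Prop :=
  ∀ (F : Type) [NormedAddCommGroup F] [InnerProductSpace ℝ F] [FiniteDimensional ℝ F]
    [MeasurableSpace F] [BorelSpace F] (J : F →ₗᵢ[ℝ] E) (p : E),
    Module.finrank ℝ E = Module.finrank ℝ F + 1 → ‖p‖ = 1 → (∀ x, ⟪J x, p⟫ = 0) →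
    ∀ (φ : E → ℝ) (V : Measure (E × (E →L[ℝ] E))) (θ : ℝ), ConeLO φ V θ → TI p φ V →
    ∃ V' : Measure (F × (F →L[ℝ] F)), ConeLO (fun x => φ (J x)) V' θ

/-- **StG4 (blow-up of a cone is translation invariant).** -/
def StG4 : Prop :=
  ∀ (φ : E → ℝ) (V : Measure (E × (E →L[ℝ] E))) (θ : ℝ), ConeLO φ V θ →
    ∀ {ι : Type} (F : Ultrafilter ι) (pk : ι → E) (lk : ι → ℝ) (p : E) (R : E → ℝ)
      (VR : Measure (E × (E →L[ℝ] E))),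
      (∀ k, ‖pk k‖ = 1) → (∀ k, φ (pk k) = 0) → (∀ k, 0 < lk k) →
      Tendsto pk F (𝓝 p) → Tendsto lk F (𝓝 0) → LO R VR →
      Conv (F : Filter ι) (fun k => bup φ (pk k) (lk k)) (fun k => bupV V (pk k) (lk k)) R VR →
      TI p R VR

/-- The induction hypothesis `T_l` : `V ≥ W_l` on null cones of `ℝ^{l+2}`. -/
def TT (l : ℕ) (W : ℝ) : Prop :=
  ∀ ψ : EuclideanSpace ℝ (Fin (l + 2)) → ℝ, H990.NullCone ψ → ∀ A : ℝ, H990.VB ψ A → W ≤ A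

/-- **StG5 (classification).** `E = ℝ^{l+3}` (so `l = m-1`), `T_l` with constant `W`. -/
def StG5 (l : ℕ) (W : ℝ) : Prop :=
  TT l W → Module.finrank ℝ E = l + 3 →
  ∀ (φ : E → ℝ) (V : Measure (E × (E →L[ℝ] E))) (θ : ℝ) (p : E), ConeLO φ V θ → ‖p‖ = 1 →
    TI p φ V → θ < 2 → θ * ((l + 1 : ℕ) * omg (l + 1)) < W →
    ∃ e : E, ‖e‖ = 1 ∧ (∀ x, φ x = ⟪e, x⟫) ∧ 1 ≤ θ ∧
      (∀ᵐ q ∂V, ∀ v, q.2 v = v - ⟪e, v⟫ • e)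

/-- **MS (Lemma MS of helper852, flat form).** -/
def StMS : Prop :=
  ∀ d0 : ℝ, 0 < d0 → ∃ η ρ1 : ℝ, 0 < η ∧ 0 < ρ1 ∧ ρ1 < 1 ∧
    ∀ (ε : ℝ) (h r : E → ℝ) (e : E), ‖e‖ = 1 → ACB ε η 2 h r →
      (∀ x ∈ Metric.ball (0 : E) 2, |r x - ⟪e, x⟫| ≤ η) →
      (∫ x in Metric.ball (0 : E) 1, eD ε h r x) ≤
        (2 - d0) * (4 / 3) * omg (Module.finrank ℝ E - 1) →
      (∫ x in Metric.ball (0 : E) ρ1, eD ε h r x) ≤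
        (1 + d0) * (4 / 3) * omg (Module.finrank ℝ E - 1) * ρ1 ^ (Module.finrank ℝ E - 1)

/-- **StG6 (density one).** Uses `StMS`. -/
def StG6 : Prop :=
  StMS E → ∀ (φ : E → ℝ) (V : Measure (E × (E →L[ℝ] E))) (θ : ℝ) (e : E), ConeLO φ V θ →
    App φ V → ‖e‖ = 1 → (∀ x, φ x = ⟪e, x⟫) → θ < 2 → θ ≤ 1

/-- Global objects: a cone, all of whose blow-ups at unit zeros are approximable. -/
def AppS (φ : E → ℝ) (V : Measure (E × (E →L[ℝ] E))) : Prop :=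
  ∀ {ι : Type} (F : Ultrafilter ι) (pk : ι → E) (lk : ι → ℝ) (R : E → ℝ)
      (VR : Measure (E × (E →L[ℝ] E))),
      (∀ k, ‖pk k‖ = 1) → (∀ k, φ (pk k) = 0) → (∀ k, 0 < lk k) →
      Tendsto lk F (𝓝 0) → LO R VR →
      Conv (F : Filter ι) (fun k => bup φ (pk k) (lk k)) (fun k => bupV V (pk k) (lk k)) R VR →
      App R VR

/-- **StG7 (uniform flatness and density).** `E = ℝ^{l+3}`, `θ` = density at infinity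
`= V_*/|S^m|` (`m = l+1`). -/
def StG7 (l : ℕ) (W : ℝ) : Prop :=
  TT l W → StMS E → Module.finrank ℝ E = l + 3 →
  ∀ (φ : E → ℝ) (V : Measure (E × (E →L[ℝ] E))) (θ : ℝ), ConeLO φ V θ → AppS E φ V → θ < 2 →
    θ * ((l + 1 : ℕ) * omg (l + 1)) < W →
    ∀ δ : ℝ, 0 < δ → ∃ ρ₀ : ℝ, 0 < ρ₀ ∧ ∀ p : E, ‖p‖ = 1 → φ p = 0 → ∀ ρ : ℝ, 0 < ρ → ρ ≤ ρ₀ →
      Th V p ρ ≤ 1 + δ ∧ 1 ≤ Th V p ρ ∧
      ∃ e : E, ‖e‖ = 1 ∧ ∀ y : E, ‖y‖ ≤ ρ → |φ (p + y) - ⟪e, y⟫| ≤ δ * ρ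

/-! ### From Allen–Cahn on the sphere to the cone object -/

variable {E}

/-- Smooth Allen–Cahn solution `u = tanh(ρ/ε)` on the unit sphere of `E`, `ρ` extended
0-homogeneously: `ε |x|² Δρ = - 2 tanh(ρ/ε) (1 - |x|² |∇ρ|²)`, `|x|²|∇ρ|² ≤ 1`, `ρ` vanishes
somewhere. -/
structure ACS (ε : ℝ) (ρ : E → ℝ) : Prop where
  eps : 0 < ε
  smooth : ContDiffOn ℝ ∞ ρ {0}ᶜ
  hom : ∀ t : ℝ, 0 < t → ∀ x, ρ (t • x) = ρ x
  eqn : ∀ x, x ≠ 0 → ε * (‖x‖ ^ 2 * Δ ρ x) =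
    - 2 * Real.tanh (ρ x / ε) * (1 - ‖x‖ ^ 2 * ‖fderiv ℝ ρ x‖ ^ 2)
  modica : ∀ x, x ≠ 0 → ‖x‖ ^ 2 * ‖fderiv ℝ ρ x‖ ^ 2 ≤ 1
  zero : ∃ x, x ≠ 0 ∧ ρ x = 0

/-- energy on the unit sphere, `∫_S (1/2ε) sech⁴(ρ/ε) (1 + |∇ρ|²) dσ = ∫ ε|∇u|²/2 + W(u)/ε`. -/
def EnS (ε : ℝ) (ρ : E → ℝ) : ℝ :=
  ∫ x : Metric.sphere (0 : E) 1, eD ε (fun _ => 1) ρ (x : E) ∂(volume.toSphere)

variable (E)

/-- **StRIC (uniform Riccati bound; helpers 118 / 67).** `m = dim E - 2`. -/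
def StRIC : Prop :=
  ∀ τ δ : ℝ, 0 < τ → 0 < δ → δ < (Module.finrank ℝ E - 2 : ℕ) → ∃ ε₀ : ℝ, 0 < ε₀ ∧
    ∀ (ε : ℝ) (ρ : E → ℝ), ε < ε₀ → ACS ε ρ → ∀ x : E, ‖x‖ = 1 → τ ≤ ρ x →
      Real.sqrt ((((Module.finrank ℝ E - 2 : ℕ) : ℝ) - δ) / (Module.finrank ℝ E - 2 : ℕ)) *
        (ρ x - τ) < Real.pi / 2 ∧
      Real.sqrt ((Module.finrank ℝ E - 2 : ℕ) * (((Module.finrank ℝ E - 2 : ℕ) : ℝ) - δ)) *
        Real.tan (Real.sqrt ((((Module.finrank ℝ E - 2 : ℕ) : ℝ) - δ) /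
          (Module.finrank ℝ E - 2 : ℕ)) * (ρ x - τ)) ≤ - Δ ρ x

/-- **StE1 (extraction of the cone object).** -/
def StE1 : Prop :=
  StRIC E → 4 ≤ Module.finrank ℝ E →
  ∀ (εj : ℕ → ℝ) (ρj : ℕ → E → ℝ) (a : ℝ), (∀ j, ACS (εj j) (ρj j)) →
    Tendsto εj atTop (𝓝 0) → Tendsto (fun j => 3 / 4 * EnS (εj j) (ρj j)) atTop (𝓝 a) →
    ∃ (φ : E → ℝ) (V : Measure (E × (E →L[ℝ] E))) (θ : ℝ), ConeLO φ V θ ∧ AppS E φ V ∧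
      θ * ((Module.finrank ℝ E - 1 : ℕ) * omg (Module.finrank ℝ E - 1)) = a

/-- **StE8 (main output of E + G).** `E = ℝ^{l+3}`, `m = l+1`; `a` = `(3/4)` limit energy,
`|S^m| < a < 2|S^m|`, `a |S^{m-1}| / |S^m| < W_{m-1}`. The limit object is a null cone with
`V(φ) ≤ a`, uniformly flat with density ratio `→ 1`. -/
def StE8 (l : ℕ) (W : ℝ) : Prop :=
  TT l W → StMS E → StRIC E → 1 ≤ l → Module.finrank ℝ E = l + 3 →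
  ∀ (εj : ℕ → ℝ) (ρj : ℕ → E → ℝ) (a θ : ℝ), (∀ j, ACS (εj j) (ρj j)) →
    Tendsto εj atTop (𝓝 0) → Tendsto (fun j => 3 / 4 * EnS (εj j) (ρj j)) atTop (𝓝 a) →
    θ * ((l + 2 : ℕ) * omg (l + 2)) = a → 1 < θ → θ < 2 →
    θ * ((l + 1 : ℕ) * omg (l + 1)) < W →
    ∃ (φ : E → ℝ) (V : Measure (E × (E →L[ℝ] E))), ConeLO φ V θ ∧ H990.NullCone φ ∧
      H990.VB φ a ∧
      ∀ δ : ℝ, 0 < δ → ∃ ρ₀ : ℝ, 0 < ρ₀ ∧ ∀ p : E, ‖p‖ = 1 → φ p = 0 →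
        ∀ ρ : ℝ, 0 < ρ → ρ ≤ ρ₀ → Th V p ρ ≤ 1 + δ ∧ 1 ≤ Th V p ρ ∧
        ∃ e : E, ‖e‖ = 1 ∧ ∀ y : E, ‖y‖ ≤ ρ → |φ (p + y) - ⟪e, y⟫| ≤ δ * ρ

end Crest.Agent.R246.LO549
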