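import Crest.Agent.R246.LimDef_538

/-!
Row 246, block E1 (helper538): ε-level integral identities and inequalities for Allen–Cahn solutions in
the flat weighted form, with a cut-off.
-/

set_option autoImplicit false

open Filter Topology Metric Set MeasureTheory
open scoped ContDiff
open Crest.GeometryTopology.CoordMetric Crest.GeometryTopology.AffineMaximal
open Crest.Agent.R236.Jet Crest.Agent.R246.D2x782

noncomputable section

namespace Crest.Agent.R246.Lim538

variable {n : ℕ}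

local notation "EE" => EuclideanSpace ℝ (Fin n)

/-! ### scalar facts -/

theorem hasDerivAt_tanh (s : ℝ) : HasDerivAt Real.tanh (1 - Real.tanh s ^ 2) s := by
  have h : Real.tanh = fun x => Real.sinh x / Real.cosh x := by
    funext x; exact Real.tanh_eq_sinh_div_cosh x
  have h1 : HasDerivAt (fun x => Real.sinh x / Real.cosh x)
      ((Real.cosh s * Real.cosh s - Real.sinh s * Real.sinh s) / Real.cosh s ^ 2) s :=
    (Real.hasDerivAt_sinh s).div (Real.hasDerivAt_cosh s) (Real.cosh_pos s).ne'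
  have h2 : (Real.cosh s * Real.cosh s - Real.sinh s * Real.sinh s) / Real.cosh s ^ 2 =
      1 - Real.tanh s ^ 2 := by
    have := (Real.cosh_pos s).ne'
    rw [Real.tanh_eq_sinh_div_cosh]
    field_simp
  rw [h2, ← h] at h1
  exact h1

theorem continuous_tanh : Continuous Real.tanh :=
  continuous_iff_continuousAt.2 fun s => (hasDerivAt_tanh s).continuousAt

theorem tanh_sq_lt (s : ℝ) : Real.tanh s ^ 2 < 1 := by
  rw [Real.tanh_eq_sinh_div_cosh, div_pow, div_lt_one (by positivity)]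
  have := Real.cosh_sq s
  linarith

theorem abs_tanh_lt (s : ℝ) : |Real.tanh s| < 1 := by
  rw [← sq_lt_one_iff_abs_lt_one]; exact tanh_sq_lt s

theorem tanh_nonneg {s : ℝ} (hs : 0 ≤ s) : 0 ≤ Real.tanh s := by
  rw [Real.tanh_eq_sinh_div_cosh]
  exact div_nonneg (Real.sinh_nonneg_iff.2 hs) (Real.cosh_pos s).le

theorem tanh_nonpos {s : ℝ} (hs : s ≤ 0) : Real.tanh s ≤ 0 := by
  rw [Real.tanh_eq_sinh_div_cosh]
  exact div_nonpos_of_nonpos_of_nonneg (Real.sinh_nonpos_iff.2 hs) (Real.cosh_pos s).le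

theorem hasDerivAt_T0 (s : ℝ) : HasDerivAt T0 ((1 - Real.tanh s ^ 2) ^ 2) s := by
  have h := hasDerivAt_tanh s
  have h1 : HasDerivAt (fun x => Real.tanh x - Real.tanh x ^ 3 / 3)
      ((1 - Real.tanh s ^ 2) - (3 : ℕ) * Real.tanh s ^ (3 - 1) * (1 - Real.tanh s ^ 2) / 3) s :=
    h.sub ((h.pow 3).div_const 3)
  have h2 : T0 = fun x => Real.tanh x - Real.tanh x ^ 3 / 3 := rfl
  have h3 : (1 - Real.tanh s ^ 2) - (3 : ℕ) * Real.tanh s ^ (3 - 1) * (1 - Real.tanh s ^ 2) / 3 =
      (1 - Real.tanh s ^ 2) ^ 2 := by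
    push_cast; ring
  rw [h3, ← h2] at h1
  exact h1

theorem continuous_T0 : Continuous T0 :=
  continuous_iff_continuousAt.2 fun s => (hasDerivAt_T0 s).continuousAt

theorem abs_T0_le (s : ℝ) : |T0 s| ≤ 2 / 3 := by
  have h := abs_lt.1 (abs_tanh_lt s)
  unfold T0
  generalize Real.tanh s = t at *
  rw [abs_le]
  constructor
  · nlinarith [sq_nonneg (t + 1), sq_nonneg (t - 1), mul_nonneg (sq_nonneg (t + 1)) (by linarith : 0 ≤ 2 - t)]
  · nlinarith [sq_nonneg (t + 1), sq_nonneg (t - 1), mul_nonneg (sq_nonneg (t - 1)) (by linarith : 0 ≤ 2 + t)]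

/-! ### smoothness on `U` -/

variable {U : Set (EuclideanSpace ℝ (Fin n))} {h r : EuclideanSpace ℝ (Fin n) → ℝ} {ε : ℝ}
  {ζ η : EuclideanSpace ℝ (Fin n) → ℝ}

theorem contDiffOn_pderiv (hU : IsOpen U) {f : EE → ℝ} (hf : ContDiffOn ℝ ∞ f U) (i : Fin n) :
    ContDiffOn ℝ ∞ (fun x => pderiv i f x) U := by
  intro x hx
  exact (sm_pderiv (hf.contDiffAt (hU.mem_nhds hx)) i).contDiffWithinAt

theorem contDiffOn_gsq (hU : IsOpen U) {f : EE → ℝ} (hf : ContDiffOn ℝ ∞ f U) :
    ContDiffOn ℝ ∞ (gsq f) U := by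
  unfold gsq
  exact ContDiffOn.sum fun i _ => (contDiffOn_pderiv hU hf i).mul (contDiffOn_pderiv hU hf i)

theorem contDiffOn_lapl (hU : IsOpen U) {f : EE → ℝ} (hf : ContDiffOn ℝ ∞ f U) :
    ContDiffOn ℝ ∞ (lapl f) U := by
  unfold lapl hessianMat
  exact ContDiffOn.sum fun i _ => contDiffOn_pderiv hU (contDiffOn_pderiv hU hf i) i

/-- continuity of `⟨∇r,∇ζ⟩`-type products is handled through the sum -/
theorem integrable_mul_dot (hU : IsOpen U) {F f : EE → ℝ} (hF : ContinuousOn F U)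
    (hf : ContDiffOn ℝ ∞ f U) (hζ : Cut U ζ) : Integrable fun x => F x * dot f ζ x := by
  have : (fun x => F x * dot f ζ x) = fun x => ∑ i, (F x * pderiv i f x) * pderiv i ζ x := by
    funext x; unfold dot; rw [Finset.mul_sum]; exact Finset.sum_congr rfl fun _ _ => by ring
  rw [this]
  refine integrable_finsetSum _ fun i _ => ?_
  exact integrable_mul_of_tsupport hU (hF.mul (contDiffOn_pderiv hU hf i).continuousOn)
    (hζ.cont_pd i) (hζ.cs_pd i) ((Cut.tsupport_pd i).trans hζ.sub)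

/-- the divergence theorem for `ζ A(r) ∇r` -/
theorem div_id (hU : IsOpen U) (hr : ContDiffOn ℝ ∞ r U) (hζ : Cut U ζ) {A A' : ℝ → ℝ}
    (hA : ∀ s, HasDerivAt A (A' s) s) (hA' : Continuous A') :
    ∫ x, A (r x) * dot r ζ x = - ∫ x, (A' (r x) * gsq r x + A (r x) * lapl r x) * ζ x := by
  have hAc : Continuous A := continuous_iff_continuousAt.2 fun s => (hA s).continuousAt
  have hAd : ContDiff ℝ 1 A := by
    rw [contDiff_one_iff_deriv]
    refine ⟨fun s => (hA s).differentiableAt, ?_⟩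
    have : deriv A = A' := funext fun s => (hA s).deriv
    rw [this]; exact hA'
  have hF : ∀ i : Fin n, ContDiffOn ℝ 1 (fun x => A (r x) * pderiv i r x) U := fun i =>
    (hAd.comp_contDiffOn (hr.of_le (by norm_num))).mul ((contDiffOn_pderiv hU hr i).of_le (by norm_num))
  have e1 : (fun x => A (r x) * dot r ζ x) =
      fun x => ∑ i, (A (r x) * pderiv i r x) * pderiv i ζ x := by
    funext x; unfold dot; rw [Finset.mul_sum]; exact Finset.sum_congr rfl fun _ _ => by ring
  have hpd : ∀ (i : Fin n), ∀ x ∈ U, pderiv i (fun x => A (r x) * pderiv i r x) x =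
      A' (r x) * pderiv i r x * pderiv i r x + A (r x) * hessianMat r x i i := by
    intro i x hx
    have hrx := hr.contDiffAt (hU.mem_nhds hx)
    have d1 : DifferentiableAt ℝ r x := sm_diff hrx
    have d2 : DifferentiableAt ℝ (fun y => pderiv i r y) x := sm_diff (sm_pderiv hrx i)
    have d3 : HasFDerivAt (fun y => A (r y)) (A' (r x) • fderiv ℝ r x) x :=
      (hA (r x)).comp_hasFDerivAt x d1.hasFDerivAt
    have := pderiv_mul (i := i) d3.differentiableAt d2
    rw [this]
    unfold hessianMat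
    have e : pderiv i (fun y => A (r y)) x = A' (r x) * pderiv i r x := by
      unfold pderiv
      rw [d3.fderiv]; simp
    rw [e]
    try ring
  have hint : ∀ i : Fin n, Integrable fun x => (A (r x) * pderiv i r x) * pderiv i ζ x := fun i =>
    integrable_mul_of_tsupport hU (hF i).continuousOn (hζ.cont_pd i) (hζ.cs_pd i)
      ((Cut.tsupport_pd i).trans hζ.sub)
  have hint2 : ∀ i : Fin n, Integrable fun x =>
      pderiv i (fun x => A (r x) * pderiv i r x) x * ζ x := fun i => by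
    refine integrable_mul_of_tsupport hU ?_ hζ.cd.continuous hζ.cs hζ.sub
    unfold pderiv
    have hFi := hF i
    unfold pderiv at hFi
    exact (hFi.continuousOn_fderiv_of_isOpen hU le_rfl).clm_apply continuousOn_const
  rw [e1, integral_finsetSum _ fun i _ => hint i]
  rw [Finset.sum_congr rfl fun i _ => ibp hU (hF i) hζ i, Finset.sum_neg_distrib,
    ← integral_finsetSum _ fun i _ => hint2 i]
  congr 1
  apply integral_congr_ae
  refine Eventually.of_forall fun x => ?_
  by_cases hx : x ∈ U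
  · simp only
    rw [← Finset.sum_mul]
    congr 1
    rw [Finset.sum_congr rfl fun i _ => hpd i x hx, Finset.sum_add_distrib, gsq, lapl,
      Finset.mul_sum, Finset.mul_sum]
    congr 1
    exact Finset.sum_congr rfl fun _ _ => by ring
  · simp only [hζ.zero_out hx, mul_zero, Finset.sum_const_zero]

/-! ### pointwise inequalities -/

theorem var_pointwise {t h g ε : ℝ} (ht : |t| ≤ 1) (hg : g ≤ h) (hε : 0 < ε) :
    |-(2 / ε) * t * (h - g)| + 3 / 2 * (1 / ε * (1 - t ^ 2) ^ 2 * g +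
      (t - t ^ 3 / 3) * (-(2 / ε) * t * (h - g))) ≤
    3 / 2 * (1 / (2 * ε) * (1 - t ^ 2) ^ 2 * (h + g)) := by
  have hd : 0 ≤ h - g := sub_nonneg.2 hg
  have e1 : |-(2 / ε) * t * (h - g)| = 2 / ε * |t| * (h - g) := by
    rw [abs_mul, abs_mul, abs_neg, abs_of_nonneg hd, abs_of_pos (by positivity)]
  rw [e1]
  have e2 : 3 / 2 * (1 / (2 * ε) * (1 - t ^ 2) ^ 2 * (h + g)) - (2 / ε * |t| * (h - g) +
      3 / 2 * (1 / ε * (1 - t ^ 2) ^ 2 * g + (t - t ^ 3 / 3) * (-(2 / ε) * t * (h - g)))) =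
      1 / (4 * ε) * ((h - g) * ((1 - |t|) ^ 3 * (3 + |t|))) := by
    have h2 : t ^ 2 = |t| ^ 2 := (sq_abs t).symm
    have h4 : t ^ 4 = |t| ^ 4 := by
      rw [show t ^ 4 = (t ^ 2) ^ 2 by ring, h2]; ring
    field_simp
    ring_nf
    rw [h2, h4]
    ring
  have h3 : 0 ≤ (1 - |t|) ^ 3 * (3 + |t|) :=
    mul_nonneg (pow_nonneg (by linarith) 3) (by positivity)
  have : 0 ≤ 1 / (4 * ε) * ((h - g) * ((1 - |t|) ^ 3 * (3 + |t|))) :=
    mul_nonneg (by positivity) (mul_nonneg hd h3)
  linarith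

end Crest.Agent.R246.Lim538
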