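import Crest.Agent.R246.Lim1_538

/-!
Row 246, block E1 (helper538): the (VAR) inequality, the mass bound, the bulk bound and the slab
inequality for Allen–Cahn solutions in the flat weighted form.
-/

set_option autoImplicit false

open Filter Topology Metric Set MeasureTheory
open scoped ContDiff
open Crest.GeometryTopology.CoordMetric Crest.GeometryTopology.AffineMaximal
open Crest.Agent.R236.Jet Crest.Agent.R246.D2x782

noncomputable section

namespace Crest.Agent.R246.Lim538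

variable {n : ℕ} {U : Set (EuclideanSpace ℝ (Fin n))} {h r : EuclideanSpace ℝ (Fin n) → ℝ} {ε : ℝ}
  {ζ η : EuclideanSpace ℝ (Fin n) → ℝ}

local notation "EE" => EuclideanSpace ℝ (Fin n)

namespace ACSol

theorem cont_r (H : ACSol U h r ε) : ContinuousOn r U := H.smooth_r.continuousOn
theorem cont_h (H : ACSol U h r ε) : ContinuousOn h U := H.smooth_h.continuousOn
theorem cont_gsq (H : ACSol U h r ε) : ContinuousOn (gsq r) U :=
  (contDiffOn_gsq H.isOpen H.smooth_r).continuousOn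
theorem cont_lapl (H : ACSol U h r ε) : ContinuousOn (lapl r) U :=
  (contDiffOn_lapl H.isOpen H.smooth_r).continuousOn

theorem cont_comp (H : ACSol U h r ε) {A : ℝ → ℝ} (hA : Continuous A) :
    ContinuousOn (fun x => A (r x)) U := hA.comp_continuousOn H.cont_r

theorem cont_tanh (H : ACSol U h r ε) : ContinuousOn (fun x => Real.tanh (r x / ε)) U :=
  H.cont_comp (A := fun s => Real.tanh (s / ε)) (continuous_tanh.comp (continuous_id.div_const ε))

theorem cont_qq (H : ACSol U h r ε) : ContinuousOn (qq h r ε) U := by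
  unfold qq
  exact (continuousOn_const.mul ((continuousOn_const.sub (H.cont_tanh.pow 2)).pow 2)).mul
    (H.cont_h.add H.cont_gsq)

theorem h_nonneg (H : ACSol U h r ε) {x : EE} (hx : x ∈ U) : 0 ≤ h x :=
  (gsq_nonneg r x).trans (H.modica x hx)

theorem qq_nonneg (H : ACSol U h r ε) {x : EE} (hx : x ∈ U) : 0 ≤ qq h r ε x := by
  unfold qq
  have := H.eps_pos
  have := H.h_nonneg hx
  have := gsq_nonneg r x
  positivity

/-- `(1/ε) sech⁴ |∇r|² ≤ q` -/
theorem sech_gsq_le (H : ACSol U h r ε) {x : EE} (hx : x ∈ U) :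
    1 / ε * (1 - Real.tanh (r x / ε) ^ 2) ^ 2 * gsq r x ≤ qq h r ε x := by
  unfold qq
  have h1 := H.eps_pos
  have h2 := H.modica x hx
  have e : 1 / (2 * ε) * (1 - Real.tanh (r x / ε) ^ 2) ^ 2 * (h x + gsq r x) -
      1 / ε * (1 - Real.tanh (r x / ε) ^ 2) ^ 2 * gsq r x =
      1 / (2 * ε) * (1 - Real.tanh (r x / ε) ^ 2) ^ 2 * (h x - gsq r x) := by
    field_simp; ring
  have h3 : 0 ≤ 1 / (2 * ε) * (1 - Real.tanh (r x / ε) ^ 2) ^ 2 * (h x - gsq r x) :=
    mul_nonneg (by positivity) (by linarith)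
  linarith

/-- `|Δr| = (2/ε) |tanh| (h - g)` -/
theorem abs_lapl (H : ACSol U h r ε) {x : EE} (hx : x ∈ U) :
    |lapl r x| = 2 / ε * |Real.tanh (r x / ε)| * (h x - gsq r x) := by
  have h1 := H.eps_pos
  have h2 := H.modica x hx
  rw [H.pde x hx, abs_mul, abs_mul, abs_neg, abs_of_nonneg (sub_nonneg.2 h2),
    abs_of_pos (by positivity)]

/-- `∫ ⟨∇r,∇ζ⟩ = - ∫ Δr ζ` -/
theorem int_dot (H : ACSol U h r ε) (hζ : Cut U ζ) :
    ∫ x, dot r ζ x = - ∫ x, lapl r x * ζ x := by
  have := div_id H.isOpen H.smooth_r hζ (A := fun _ => 1) (A' := fun _ => 0)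
    (fun s => hasDerivAt_const s 1) continuous_const
  simpa using this

theorem hasDerivAt_T0_div (s : ℝ) : HasDerivAt (fun s => T0 (s / ε))
    (1 / ε * (1 - Real.tanh (s / ε) ^ 2) ^ 2) s := by
  have h1 : HasDerivAt (fun s => s / ε) (1 / ε) s := (hasDerivAt_id s).div_const ε
  have := (hasDerivAt_T0 (s / ε)).comp s h1
  rw [mul_comm] at this
  exact this

theorem continuous_sech (ε : ℝ) : Continuous fun s : ℝ => 1 / ε * (1 - Real.tanh (s / ε) ^ 2) ^ 2 :=
  continuous_const.mul ((continuous_const.sub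
    ((continuous_tanh.comp (continuous_id.div_const ε)).pow 2)).pow 2)

/-- `∫ T₀(r/ε)⟨∇r,∇ζ⟩ = - ∫ ((1/ε) sech⁴ g + T₀ Δr) ζ` -/
theorem int_T0_dot (H : ACSol U h r ε) (hζ : Cut U ζ) :
    ∫ x, T0 (r x / ε) * dot r ζ x =
      - ∫ x, (1 / ε * (1 - Real.tanh (r x / ε) ^ 2) ^ 2 * gsq r x + T0 (r x / ε) * lapl r x) * ζ x :=
  div_id H.isOpen H.smooth_r hζ hasDerivAt_T0_div (continuous_sech ε)

theorem int_abs_lapl (H : ACSol U h r ε) (hζ : Cut U ζ) :
    Integrable fun x => |lapl r x| * ζ x :=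
  integrable_mul_of_tsupport H.isOpen H.cont_lapl.abs hζ.cd.continuous hζ.cs hζ.sub

theorem int_qq (H : ACSol U h r ε) (hζ : Cut U ζ) : Integrable fun x => qq h r ε x * ζ x :=
  integrable_mul_of_tsupport H.isOpen H.cont_qq hζ.cd.continuous hζ.cs hζ.sub

theorem integrable_dot (H : ACSol U h r ε) (hζ : Cut U ζ) : Integrable fun x => dot r ζ x := by
  have := integrable_mul_dot H.isOpen (F := fun _ => 1) continuousOn_const H.smooth_r hζ
  simpa using this

theorem cont_T0 (H : ACSol U h r ε) : ContinuousOn (fun x => T0 (r x / ε)) U :=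
  H.cont_comp (A := fun s => T0 (s / ε)) (continuous_T0.comp (continuous_id.div_const ε))

theorem cont_sech (H : ACSol U h r ε) :
    ContinuousOn (fun x => 1 / ε * (1 - Real.tanh (r x / ε) ^ 2) ^ 2) U :=
  H.cont_comp (continuous_sech ε)

/-- The ε-level form of `2μ = Δ|φ| + |Δφ|`: for `|ζ| ≤ η`,
`∫⟨∇r,∇ζ⟩ - (3/2)∫ T₀(r/ε)⟨∇r,∇η⟩ ≤ 2 · (3/4) ∫ q η`. -/
theorem VAR_eps (H : ACSol U h r ε) (hζ : Cut U ζ) (hη : Cut U η) (hle : ∀ x, |ζ x| ≤ η x) :
    (∫ x, dot r ζ x) - 3 / 2 * ∫ x, T0 (r x / ε) * dot r η x ≤ 3 / 2 * ∫ x, qq h r ε x * η x := by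
  rw [H.int_dot hζ, H.int_T0_dot hη]
  have i1 : Integrable fun x => lapl r x * ζ x :=
    integrable_mul_of_tsupport H.isOpen H.cont_lapl hζ.cd.continuous hζ.cs hζ.sub
  have i2 : Integrable fun x => (1 / ε * (1 - Real.tanh (r x / ε) ^ 2) ^ 2 * gsq r x +
      T0 (r x / ε) * lapl r x) * η x :=
    integrable_mul_of_tsupport H.isOpen
      ((H.cont_sech.mul H.cont_gsq).add (H.cont_T0.mul H.cont_lapl)) hη.cd.continuous hη.cs hη.sub
  have i3 := H.int_qq hη
  have i1' : Integrable fun x => -(lapl r x * ζ x) := i1.neg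
  have key : ∫ x, (-(lapl r x * ζ x) + 3 / 2 * ((1 / ε * (1 - Real.tanh (r x / ε) ^ 2) ^ 2 * gsq r x +
      T0 (r x / ε) * lapl r x) * η x)) ≤ ∫ x, 3 / 2 * (qq h r ε x * η x) := by
    refine integral_mono (i1'.add (i2.const_mul _)) (i3.const_mul _) fun x => ?_
    by_cases hx : x ∈ U
    · have h0 : 0 ≤ η x := (abs_nonneg _).trans (hle x)
      have h1 := var_pointwise (t := Real.tanh (r x / ε)) (abs_tanh_lt _).le (H.modica x hx) H.eps_pos
      rw [← H.pde x hx] at h1
      have h2 : -(lapl r x * ζ x) ≤ |lapl r x| * η x := by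
        calc -(lapl r x * ζ x) ≤ |lapl r x * ζ x| := neg_le_abs _
          _ = |lapl r x| * |ζ x| := abs_mul _ _
          _ ≤ |lapl r x| * η x := mul_le_mul_of_nonneg_left (hle x) (abs_nonneg _)
      have h3 := mul_le_mul_of_nonneg_right h1 h0
      simp only [qq, T0]
      linarith [h2, h3]
    · simp only [hζ.zero_out hx, hη.zero_out hx, mul_zero, neg_zero, add_zero, le_refl]
  rw [integral_add i1' (i2.const_mul _), integral_neg, integral_const_mul, integral_const_mul] at key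
  linarith

/-- `(2/ε) ∫ tanh² (h-g) ζ ≤ ∫ |⟨∇r,∇ζ⟩| + (3/2) ∫ q ζ` -/
theorem int_tanh_sq (H : ACSol U h r ε) (hζ : Cut U ζ) (h0 : ∀ x, 0 ≤ ζ x) :
    ∫ x, (2 / ε * Real.tanh (r x / ε) ^ 2 * (h x - gsq r x)) * ζ x ≤
      (∫ x, |dot r ζ x|) + 3 / 2 * ∫ x, qq h r ε x * ζ x := by
  have e := H.int_T0_dot hζ
  have i0 : Integrable fun x => (2 / ε * Real.tanh (r x / ε) ^ 2 * (h x - gsq r x)) * ζ x :=
    integrable_mul_of_tsupport H.isOpen ((continuousOn_const.mul (H.cont_tanh.pow 2)).mul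
      (H.cont_h.sub H.cont_gsq)) hζ.cd.continuous hζ.cs hζ.sub
  have i2 : Integrable fun x => (1 / ε * (1 - Real.tanh (r x / ε) ^ 2) ^ 2 * gsq r x +
      T0 (r x / ε) * lapl r x) * ζ x :=
    integrable_mul_of_tsupport H.isOpen
      ((H.cont_sech.mul H.cont_gsq).add (H.cont_T0.mul H.cont_lapl)) hζ.cd.continuous hζ.cs hζ.sub
  have i3 := H.int_qq hζ
  have i4 : Integrable fun x => T0 (r x / ε) * dot r ζ x :=
    integrable_mul_dot H.isOpen H.cont_T0 H.smooth_r hζ
  have i5 := (H.integrable_dot hζ).abs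
  have a1 : ∫ x, T0 (r x / ε) * dot r ζ x ≤ ∫ x, 2 / 3 * |dot r ζ x| := by
    apply integral_mono i4 (i5.const_mul _)
    intro x
    calc T0 (r x / ε) * dot r ζ x ≤ |T0 (r x / ε) * dot r ζ x| := le_abs_self _
      _ = |T0 (r x / ε)| * |dot r ζ x| := abs_mul _ _
      _ ≤ 2 / 3 * |dot r ζ x| := mul_le_mul_of_nonneg_right (abs_T0_le _) (abs_nonneg _)
  have a2 : ∫ x, 2 / 3 * ((2 / ε * Real.tanh (r x / ε) ^ 2 * (h x - gsq r x)) * ζ x) ≤
      ∫ x, (qq h r ε x * ζ x - (1 / ε * (1 - Real.tanh (r x / ε) ^ 2) ^ 2 * gsq r x +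
      T0 (r x / ε) * lapl r x) * ζ x) := by
    refine integral_mono (i0.const_mul _) (i3.sub i2) fun x => ?_
    by_cases hx : x ∈ U
    · have b1 := H.sech_gsq_le hx
      have b2 := h0 x
      have b3 := H.modica x hx
      have b4 := H.eps_pos
      have b5 := tanh_sq_lt (r x / ε)
      have b6 : 2 / 3 * (2 / ε * Real.tanh (r x / ε) ^ 2 * (h x - gsq r x)) ≤
          -(T0 (r x / ε) * lapl r x) := by
        rw [H.pde x hx]
        unfold T0
        generalize Real.tanh (r x / ε) = t at *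
        have c : -((t - t ^ 3 / 3) * (-(2 / ε) * t * (h x - gsq r x))) -
            2 / 3 * (2 / ε * t ^ 2 * (h x - gsq r x)) =
            2 / (3 * ε) * (t ^ 2 * (1 - t ^ 2)) * (h x - gsq r x) := by
          field_simp; ring
        have c2 : 0 ≤ 2 / (3 * ε) * (t ^ 2 * (1 - t ^ 2)) * (h x - gsq r x) :=
          mul_nonneg (mul_nonneg (by positivity) (mul_nonneg (sq_nonneg t) (by linarith)))
            (by linarith)
        linarith
      have b7 : 2 / 3 * (2 / ε * Real.tanh (r x / ε) ^ 2 * (h x - gsq r x)) ≤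
          qq h r ε x - (1 / ε * (1 - Real.tanh (r x / ε) ^ 2) ^ 2 * gsq r x +
            T0 (r x / ε) * lapl r x) := by linarith
      have b8 := mul_le_mul_of_nonneg_right b7 b2
      linarith
    · simp only [hζ.zero_out hx, mul_zero, sub_zero, le_refl]
  rw [integral_const_mul] at a1
  rw [integral_const_mul, integral_sub i3 i2] at a2
  linarith

/-- MASS: `∫ |Δr| ζ ≤ 7 ∫ q ζ + 2 ∫ |⟨∇r,∇ζ⟩|` -/
theorem mass (H : ACSol U h r ε) (hζ : Cut U ζ) (h0 : ∀ x, 0 ≤ ζ x) :
    ∫ x, |lapl r x| * ζ x ≤ 7 * (∫ x, qq h r ε x * ζ x) + 2 * ∫ x, |dot r ζ x| := by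
  have h1 := H.int_tanh_sq hζ h0
  have i0 : Integrable fun x => (2 / ε * Real.tanh (r x / ε) ^ 2 * (h x - gsq r x)) * ζ x :=
    integrable_mul_of_tsupport H.isOpen ((continuousOn_const.mul (H.cont_tanh.pow 2)).mul
      (H.cont_h.sub H.cont_gsq)) hζ.cd.continuous hζ.cs hζ.sub
  have i3 := H.int_qq hζ
  have a : ∫ x, |lapl r x| * ζ x ≤ ∫ x, (4 * (qq h r ε x * ζ x) +
      2 * ((2 / ε * Real.tanh (r x / ε) ^ 2 * (h x - gsq r x)) * ζ x)) := by
    refine integral_mono (H.int_abs_lapl hζ) ((i3.const_mul _).add (i0.const_mul _)) fun x => ?_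
    by_cases hx : x ∈ U
    · have b2 := h0 x
      have b3 := H.modica x hx
      have b4 := H.eps_pos
      have b5 := abs_tanh_lt (r x / ε)
      have b6 := gsq_nonneg r x
      have b7 : |lapl r x| ≤ 4 * qq h r ε x +
          2 * (2 / ε * Real.tanh (r x / ε) ^ 2 * (h x - gsq r x)) := by
        rw [H.abs_lapl hx]
        unfold qq
        have hsq : Real.tanh (r x / ε) ^ 2 = |Real.tanh (r x / ε)| ^ 2 := (sq_abs _).symm
        rw [hsq]
        have b8 := abs_nonneg (Real.tanh (r x / ε))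
        generalize |Real.tanh (r x / ε)| = t at *
        have c : 4 * (1 / (2 * ε) * (1 - t ^ 2) ^ 2 * (h x + gsq r x)) +
            2 * (2 / ε * t ^ 2 * (h x - gsq r x)) - 2 / ε * t * (h x - gsq r x) =
            2 / ε * ((1 + t ^ 4 - t) * (h x - gsq r x)) +
              4 / ε * ((1 - t ^ 2) ^ 2 * gsq r x) := by
          field_simp; ring
        have c2 : 0 ≤ 2 / ε * ((1 + t ^ 4 - t) * (h x - gsq r x)) :=
          mul_nonneg (by positivity) (mul_nonneg (by nlinarith [pow_nonneg b8 4]) (by linarith))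
        have c3 : 0 ≤ 4 / ε * ((1 - t ^ 2) ^ 2 * gsq r x) := by positivity
        linarith
      have b9 := mul_le_mul_of_nonneg_right b7 b2
      linarith
    · simp only [hζ.zero_out hx, mul_zero, add_zero, le_refl]
  rw [integral_add (i3.const_mul _) (i0.const_mul _), integral_const_mul, integral_const_mul] at a
  linarith

theorem tanh_one_pos : 0 < Real.tanh 1 := by
  rw [Real.tanh_eq_sinh_div_cosh]
  exact div_pos (Real.sinh_pos_iff.2 one_pos) (Real.cosh_pos 1)

theorem tanh_mono : Monotone Real.tanh := by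
  apply monotone_of_deriv_nonneg
  · exact fun s => (hasDerivAt_tanh s).differentiableAt
  · intro s
    rw [(hasDerivAt_tanh s).deriv]
    linarith [tanh_sq_lt s]

/-- absolute constant in the bulk bound -/
def CB : ℝ := 1 / (2 * Real.tanh 1) + 2 / (1 - Real.tanh 1 ^ 2) ^ 2

theorem CB_pos : 0 < CB := by
  unfold CB
  have h1 := tanh_one_pos
  have h2 := tanh_sq_lt 1
  have h3 : 0 < 1 - Real.tanh 1 ^ 2 := by linarith
  positivity

/-- pointwise bulk bound `h - |∇r|² ≤ ε C (|Δr| + q)` -/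
theorem bulk_pointwise (H : ACSol U h r ε) {x : EE} (hx : x ∈ U) :
    h x - gsq r x ≤ ε * CB * (|lapl r x| + qq h r ε x) := by
  have b3 := H.modica x hx
  have b4 := H.eps_pos
  have b6 := gsq_nonneg r x
  have b1 := tanh_one_pos
  have b2 := tanh_sq_lt 1
  have b7 : 0 < 1 - Real.tanh 1 ^ 2 := by linarith
  have b8 := H.qq_nonneg hx
  have b9 := abs_nonneg (lapl r x)
  have c1 : 0 < 1 / (2 * Real.tanh 1) := by positivity
  have c2 : 0 < 2 / (1 - Real.tanh 1 ^ 2) ^ 2 := by positivity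
  rcases le_total |r x| ε with h1 | h1
  · -- inner region
    have e1 : |r x / ε| ≤ 1 := by rw [abs_div, abs_of_pos b4]; exact (div_le_one b4).2 h1
    have e2 : |Real.tanh (r x / ε)| ≤ Real.tanh 1 := by
      rw [abs_le]
      constructor
      · rw [← Real.tanh_neg]; exact tanh_mono (abs_le.1 e1).1
      · exact tanh_mono (abs_le.1 e1).2
    have e3 : Real.tanh (r x / ε) ^ 2 ≤ Real.tanh 1 ^ 2 := by
      rw [← sq_abs (Real.tanh (r x / ε))]; gcongr
    have e4 : (1 - Real.tanh 1 ^ 2) ^ 2 ≤ (1 - Real.tanh (r x / ε) ^ 2) ^ 2 := by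
      have : 1 - Real.tanh 1 ^ 2 ≤ 1 - Real.tanh (r x / ε) ^ 2 := by linarith
      gcongr
    have e5 : 1 / (2 * ε) * (1 - Real.tanh 1 ^ 2) ^ 2 * (h x - gsq r x) ≤ qq h r ε x := by
      unfold qq
      have : 0 ≤ h x - gsq r x := by linarith
      have : h x - gsq r x ≤ h x + gsq r x := by linarith
      gcongr
    have e6 : h x - gsq r x ≤ ε * (2 / (1 - Real.tanh 1 ^ 2) ^ 2) * qq h r ε x := by
      calc h x - gsq r x = ε * (2 / (1 - Real.tanh 1 ^ 2) ^ 2) *
            (1 / (2 * ε) * (1 - Real.tanh 1 ^ 2) ^ 2 * (h x - gsq r x)) := by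
            field_simp
        _ ≤ _ := by gcongr
    calc h x - gsq r x ≤ ε * (2 / (1 - Real.tanh 1 ^ 2) ^ 2) * qq h r ε x := e6
      _ ≤ ε * CB * (|lapl r x| + qq h r ε x) := by
        have f1 : 2 / (1 - Real.tanh 1 ^ 2) ^ 2 ≤ CB := by unfold CB; linarith
        have f2 : qq h r ε x ≤ |lapl r x| + qq h r ε x := by linarith
        gcongr
        exact mul_nonneg b4.le CB_pos.le
  · have e1 : 1 ≤ |r x / ε| := by rw [abs_div, abs_of_pos b4]; exact (one_le_div b4).2 h1
    have e2 : Real.tanh 1 ≤ |Real.tanh (r x / ε)| := by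
      rcases le_total 0 (r x / ε) with h0 | h0
      · rw [abs_of_nonneg h0] at e1
        exact (tanh_mono e1).trans (le_abs_self _)
      · rw [abs_of_nonpos h0] at e1
        have := tanh_mono e1
        rw [Real.tanh_neg] at this
        exact this.trans (neg_le_abs _)
    have e3 : h x - gsq r x ≤ ε * (1 / (2 * Real.tanh 1)) * |lapl r x| := by
      rw [H.abs_lapl hx]
      have : 0 ≤ h x - gsq r x := by linarith
      calc h x - gsq r x = ε * (1 / (2 * Real.tanh 1)) * (2 / ε * Real.tanh 1 * (h x - gsq r x)) := by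
            field_simp
        _ ≤ _ := by gcongr
    calc h x - gsq r x ≤ ε * (1 / (2 * Real.tanh 1)) * |lapl r x| := e3
      _ ≤ ε * CB * (|lapl r x| + qq h r ε x) := by
        have f1 : 1 / (2 * Real.tanh 1) ≤ CB := by unfold CB; linarith
        have f2 : |lapl r x| ≤ |lapl r x| + qq h r ε x := by linarith
        gcongr
        exact mul_nonneg b4.le CB_pos.le

/-- BULK: `∫ (h - |∇r|²) ζ ≤ ε C (8 ∫ q ζ + 2 ∫ |⟨∇r,∇ζ⟩|)` -/
theorem bulk (H : ACSol U h r ε) (hζ : Cut U ζ) (h0 : ∀ x, 0 ≤ ζ x) :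
    ∫ x, (h x - gsq r x) * ζ x ≤
      ε * CB * (8 * (∫ x, qq h r ε x * ζ x) + 2 * ∫ x, |dot r ζ x|) := by
  have i0 : Integrable fun x => (h x - gsq r x) * ζ x :=
    integrable_mul_of_tsupport H.isOpen (H.cont_h.sub H.cont_gsq) hζ.cd.continuous hζ.cs hζ.sub
  have i3 := H.int_qq hζ
  have i4 := H.int_abs_lapl hζ
  have a : ∫ x, (h x - gsq r x) * ζ x ≤
      ∫ x, ε * CB * (|lapl r x| * ζ x + qq h r ε x * ζ x) := by
    refine integral_mono i0 ((i4.add i3).const_mul _) fun x => ?_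
    by_cases hx : x ∈ U
    · have := mul_le_mul_of_nonneg_right (H.bulk_pointwise hx) (h0 x)
      linarith
    · simp only [hζ.zero_out hx, mul_zero, add_zero, le_refl]
  rw [integral_const_mul, integral_add i4 i3] at a
  have m := H.mass hζ h0
  have hc : 0 ≤ ε * CB := mul_nonneg H.eps_pos.le CB_pos.le
  calc _ ≤ _ := a
    _ ≤ _ := by
      apply mul_le_mul_of_nonneg_left _ hc
      linarith

end ACSol

end Crest.Agent.R246.Lim538
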