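import Crest.Agent.R246.Lim2_538

/-!
Row 246, block E1 (helper538): the SLAB inequality for Allen–Cahn solutions (flat weighted form).
-/

set_option autoImplicit false

open Filter Topology Metric Set MeasureTheory
open scoped ContDiff
open Crest.GeometryTopology.CoordMetric Crest.GeometryTopology.AffineMaximal
open Crest.Agent.R236.Jet Crest.Agent.R246.D2x782

noncomputable section

namespace Crest.Agent.R246.Lim538

variable {n : ℕ} {U : Set (EuclideanSpace ℝ (Fin n))} {h r : EuclideanSpace ℝ (Fin n) → ℝ} {ε : ℝ}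
  {ζ η : EuclideanSpace ℝ (Fin n) → ℝ}

local notation "EE" => EuclideanSpace ℝ (Fin n)

/-! ### properties of `T₀` -/

theorem T0_zero : T0 0 = 0 := by simp [T0]

theorem T0_neg (s : ℝ) : T0 (-s) = -T0 s := by
  simp only [T0, Real.tanh_neg]; ring

theorem T0_mono : Monotone T0 := by
  apply monotone_of_deriv_nonneg
  · exact fun s => (hasDerivAt_T0 s).differentiableAt
  · intro s; rw [(hasDerivAt_T0 s).deriv]; positivity

theorem T0_nonneg {s : ℝ} (hs : 0 ≤ s) : 0 ≤ T0 s := by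
  rw [← T0_zero]; exact T0_mono hs

theorem T0_pos {s : ℝ} (hs : 0 < s) : 0 < T0 s := by
  have h1 : 0 < Real.tanh s := by
    rw [Real.tanh_eq_sinh_div_cosh]
    exact div_pos (Real.sinh_pos_iff.2 hs) (Real.cosh_pos s)
  have h2 := tanh_sq_lt s
  unfold T0
  nlinarith [mul_pos h1 (show 0 < 1 - Real.tanh s ^ 2 by linarith)]

theorem T0_le (s : ℝ) : T0 s ≤ 2 / 3 := (le_abs_self _).trans (abs_T0_le s)

theorem T0_concave : ConcaveOn ℝ (Ici 0) T0 := by
  apply AntitoneOn.concaveOn_of_deriv (convex_Ici 0) continuous_T0.continuousOn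
  · exact fun s _ => (hasDerivAt_T0 s).differentiableAt.differentiableWithinAt
  · intro a ha b _ hab
    rw [interior_Ici] at ha
    rw [(hasDerivAt_T0 a).deriv, (hasDerivAt_T0 b).deriv]
    have h1 : 0 ≤ Real.tanh a := ACSol.tanh_mono ha.le |>.trans' (by simp)
    have h2 : Real.tanh a ≤ Real.tanh b := ACSol.tanh_mono hab
    have h3 := tanh_sq_lt b
    have h4 : Real.tanh a ^ 2 ≤ Real.tanh b ^ 2 := by gcongr
    have h5 : 0 ≤ 1 - Real.tanh b ^ 2 := by linarith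
    gcongr

/-- `T₀(s) ≥ (s/S) T₀(S)` for `0 ≤ s ≤ S` -/
theorem T0_chord {s S : ℝ} (hs : 0 ≤ s) (hsS : s ≤ S) (hS : 0 < S) : s / S * T0 S ≤ T0 s := by
  have h := T0_concave.2 (mem_Ici.2 le_rfl : (0 : ℝ) ∈ Ici (0 : ℝ)) (mem_Ici.2 hS.le : S ∈ Ici (0 : ℝ))
    (show 0 ≤ 1 - s / S by rw [sub_nonneg]; exact (div_le_one hS).2 hsS)
    (show 0 ≤ s / S by positivity) (by ring)
  simp only [smul_eq_mul, mul_zero, zero_add, T0_zero] at h
  rwa [div_mul_cancel₀ _ hS.ne'] at h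

/-- the constant `c = 1/((3/2) T₀(δ/ε)) → 1` as `ε → 0` -/
def cS (s : ℝ) : ℝ := 1 / (3 / 2 * T0 s)

theorem one_le_cS {s : ℝ} (hs : 0 < s) : 1 ≤ cS s := by
  unfold cS
  rw [one_le_div (by have := T0_pos hs; positivity)]
  linarith [T0_le s]

/-! ### the trapezoid -/

/-- trapezoid profile of height `1/(2δ)` -/
def bT (δ κ s : ℝ) : ℝ := 1 / (2 * δ) * max 0 (min 1 ((δ - |s|) / κ))

theorem continuous_bT (δ κ : ℝ) : Continuous (bT δ κ) := by
  unfold bT
  fun_prop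

theorem bT_nonneg {δ κ : ℝ} (hδ : 0 < δ) (s : ℝ) : 0 ≤ bT δ κ s := by
  unfold bT; positivity

theorem bT_le {δ κ : ℝ} (hδ : 0 < δ) (s : ℝ) : bT δ κ s ≤ 1 / (2 * δ) := by
  unfold bT
  have : max 0 (min 1 ((δ - |s|) / κ)) ≤ 1 := max_le zero_le_one (min_le_left _ _)
  calc _ ≤ 1 / (2 * δ) * 1 := by gcongr
    _ = _ := mul_one _

theorem bT_out {δ κ s : ℝ} (hκ : 0 < κ) (hs : δ ≤ |s|) : bT δ κ s = 0 := by
  unfold bT
  have : (δ - |s|) / κ ≤ 0 := div_nonpos_of_nonpos_of_nonneg (by linarith) hκ.le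
  rw [max_eq_left ((min_le_right _ _).trans this), mul_zero]

theorem bT_in {δ κ s : ℝ} (hκ : 0 < κ) (hs : |s| ≤ δ - κ) : bT δ κ s = 1 / (2 * δ) := by
  unfold bT
  have : 1 ≤ (δ - |s|) / κ := (one_le_div hκ).2 (by linarith)
  rw [min_eq_left this, max_eq_right zero_le_one, mul_one]

theorem bT_even (δ κ s : ℝ) : bT δ κ (-s) = bT δ κ s := by simp [bT]

/-- its primitive -/
def BT (δ κ s : ℝ) : ℝ := ∫ u in (0 : ℝ)..s, bT δ κ u

theorem hasDerivAt_BT (δ κ s : ℝ) : HasDerivAt (BT δ κ) (bT δ κ s) s :=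
  intervalIntegral.integral_hasDerivAt_right ((continuous_bT δ κ).intervalIntegrable _ _)
    ((continuous_bT δ κ).stronglyMeasurableAtFilter _ _) (continuous_bT δ κ).continuousAt

theorem BT_odd (δ κ s : ℝ) : BT δ κ (-s) = -BT δ κ s := by
  unfold BT
  have h := intervalIntegral.integral_comp_neg (a := 0) (b := s) (f := bT δ κ)
  simp only [bT_even, neg_zero] at h
  rw [h, intervalIntegral.integral_symm]

theorem BT_nonneg {δ κ : ℝ} (hδ : 0 < δ) {s : ℝ} (hs : 0 ≤ s) : 0 ≤ BT δ κ s :=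
  intervalIntegral.integral_nonneg hs fun u _ => bT_nonneg hδ u

theorem BT_le_lin {δ κ : ℝ} (hδ : 0 < δ) {s : ℝ} (hs : 0 ≤ s) : BT δ κ s ≤ s / (2 * δ) := by
  have h : ∫ u in (0 : ℝ)..s, bT δ κ u ≤ ∫ _u in (0 : ℝ)..s, 1 / (2 * δ) :=
    intervalIntegral.integral_mono_on hs ((continuous_bT δ κ).intervalIntegrable 0 s)
    (continuous_const.intervalIntegrable 0 s) fun u _ => bT_le hδ u
  rw [intervalIntegral.integral_const, smul_eq_mul, sub_zero] at h
  unfold BT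
  calc _ ≤ _ := h
    _ = _ := by ring

theorem BT_mono {δ κ : ℝ} (hδ : 0 < δ) : Monotone (BT δ κ) := by
  apply monotone_of_deriv_nonneg
  · exact fun s => (hasDerivAt_BT δ κ s).differentiableAt
  · intro s; rw [(hasDerivAt_BT δ κ s).deriv]; exact bT_nonneg hδ s

theorem BT_const {δ κ : ℝ} (hκ : 0 < κ) {s : ℝ} (hs : δ ≤ s) : BT δ κ s = BT δ κ δ := by
  unfold BT
  rw [← intervalIntegral.integral_add_adjacent_intervals
    ((continuous_bT δ κ).intervalIntegrable 0 δ) ((continuous_bT δ κ).intervalIntegrable δ s)]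
  have : ∫ u in δ..s, bT δ κ u = ∫ u in δ..s, (0 : ℝ) := by
    apply intervalIntegral.integral_congr
    intro u hu
    rw [uIcc_of_le hs] at hu
    exact bT_out hκ (hu.1.trans (le_abs_self u))
  rw [this]; simp

theorem BT_le_half {δ κ : ℝ} (hδ : 0 < δ) (hκ : 0 < κ) {s : ℝ} (hs : 0 ≤ s) : BT δ κ s ≤ 1 / 2 := by
  rcases le_total s δ with h | h
  · calc _ ≤ s / (2 * δ) := BT_le_lin hδ hs
      _ ≤ δ / (2 * δ) := by gcongr
      _ = 1 / 2 := by field_simp
  · rw [BT_const hκ h]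
    calc _ ≤ δ / (2 * δ) := BT_le_lin hδ hδ.le
      _ = 1 / 2 := by field_simp

theorem BT_ge {δ κ : ℝ} (hδ : 0 < δ) (hκ : 0 < κ) (hκδ : κ ≤ δ) {s : ℝ} (hs : δ ≤ s) :
    1 / 2 - κ / (2 * δ) ≤ BT δ κ s := by
  have h1 : BT δ κ (δ - κ) = (δ - κ) / (2 * δ) := by
    unfold BT
    have : ∫ u in (0 : ℝ)..(δ - κ), bT δ κ u = ∫ u in (0 : ℝ)..(δ - κ), (1 / (2 * δ)) := by
      apply intervalIntegral.integral_congr
      intro u hu
      rw [uIcc_of_le (by linarith)] at hu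
      exact bT_in hκ (by rw [abs_of_nonneg hu.1]; exact hu.2)
    rw [this, intervalIntegral.integral_const, smul_eq_mul]
    ring
  have h2 : BT δ κ (δ - κ) ≤ BT δ κ s := BT_mono hδ (by linarith)
  rw [h1] at h2
  calc 1 / 2 - κ / (2 * δ) = (δ - κ) / (2 * δ) := by field_simp
    _ ≤ _ := h2

/-- the test profile `K = c (3/4) T₀(·/ε) - B` -/
def KT (δ κ ε s : ℝ) : ℝ := cS (δ / ε) * (3 / 4) * T0 (s / ε) - BT δ κ s

theorem KT_odd (δ κ ε s : ℝ) : KT δ κ ε (-s) = -KT δ κ ε s := by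
  unfold KT; rw [BT_odd, neg_div, T0_neg]; ring

theorem cS_mul {δ ε : ℝ} (hδ : 0 < δ) (hε : 0 < ε) : cS (δ / ε) * (3 / 4) * T0 (δ / ε) = 1 / 2 := by
  have := T0_pos (div_pos hδ hε)
  unfold cS; field_simp; norm_num

theorem KT_nonneg {δ κ ε : ℝ} (hδ : 0 < δ) (hκ : 0 < κ) (hε : 0 < ε) {s : ℝ} (hs : 0 ≤ s) :
    0 ≤ KT δ κ ε s := by
  have hc := one_le_cS (div_pos hδ hε)
  have hc' : 0 ≤ cS (δ / ε) * (3 / 4) := by linarith
  unfold KT
  rw [sub_nonneg]
  rcases le_total s δ with h | h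
  · calc BT δ κ s ≤ s / (2 * δ) := BT_le_lin hδ hs
      _ = cS (δ / ε) * (3 / 4) * ((s / ε) / (δ / ε) * T0 (δ / ε)) := by
        rw [show cS (δ / ε) * (3 / 4) * ((s / ε) / (δ / ε) * T0 (δ / ε)) =
          (s / ε) / (δ / ε) * (cS (δ / ε) * (3 / 4) * T0 (δ / ε)) by ring, cS_mul hδ hε]
        field_simp
      _ ≤ _ := by
        apply mul_le_mul_of_nonneg_left _ hc'
        exact T0_chord (by positivity) (by gcongr) (by positivity)
  · calc BT δ κ s ≤ 1 / 2 := BT_le_half hδ hκ hs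
      _ = cS (δ / ε) * (3 / 4) * T0 (δ / ε) := (cS_mul hδ hε).symm
      _ ≤ _ := by
        apply mul_le_mul_of_nonneg_left _ hc'
        exact T0_mono (by gcongr)

theorem KT_le_in {δ κ ε : ℝ} (hδ : 0 < δ) (hε : 0 < ε) {s : ℝ} (hs : 0 ≤ s) (hsδ : s ≤ δ) :
    KT δ κ ε s ≤ 1 / 2 := by
  have hc := one_le_cS (div_pos hδ hε)
  have hc' : 0 ≤ cS (δ / ε) * (3 / 4) := by linarith
  unfold KT
  have h1 := BT_nonneg (κ := κ) hδ hs
  have h2 : cS (δ / ε) * (3 / 4) * T0 (s / ε) ≤ cS (δ / ε) * (3 / 4) * T0 (δ / ε) :=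
    mul_le_mul_of_nonneg_left (T0_mono (by gcongr)) hc'
  rw [cS_mul hδ hε] at h2
  linarith

theorem KT_le_out {δ κ ε : ℝ} (hδ : 0 < δ) (hκ : 0 < κ) (hκδ : κ ≤ δ) (hε : 0 < ε) {s : ℝ}
    (hs : δ ≤ s) : KT δ κ ε s ≤ (cS (δ / ε) - 1) / 2 + κ / (2 * δ) := by
  have hc := one_le_cS (div_pos hδ hε)
  have hc' : 0 ≤ cS (δ / ε) * (3 / 4) := by linarith
  unfold KT
  have h1 := BT_ge hδ hκ hκδ hs
  have h2 : cS (δ / ε) * (3 / 4) * T0 (s / ε) ≤ cS (δ / ε) * (3 / 4) * (2 / 3) :=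
    mul_le_mul_of_nonneg_left (T0_le _) hc'
  linarith

/-- bound of `|K|` -/
theorem abs_KT_le {δ κ ε : ℝ} (hδ : 0 < δ) (hκ : 0 < κ) (hκδ : κ ≤ δ) (hε : 0 < ε) (s : ℝ) :
    |KT δ κ ε s| ≤ 1 / 2 * (if |s| < δ then 1 else 0) + ((cS (δ / ε) - 1) / 2 + κ / (2 * δ)) := by
  have hc := one_le_cS (div_pos hδ hε)
  have hk : 0 ≤ κ / (2 * δ) := by positivity
  have main : ∀ u, 0 ≤ u → |KT δ κ ε u| ≤
      1 / 2 * (if |u| < δ then 1 else 0) + ((cS (δ / ε) - 1) / 2 + κ / (2 * δ)) := by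
    intro u hu
    rw [abs_of_nonneg (KT_nonneg hδ hκ hε hu), abs_of_nonneg hu]
    split_ifs with h
    · have := KT_le_in (κ := κ) hδ hε hu h.le
      linarith
    · have := KT_le_out hδ hκ hκδ hε (not_lt.1 h)
      linarith
  rcases le_total 0 s with hs | hs
  · exact main s hs
  · have := main (-s) (by linarith)
    rw [KT_odd, abs_neg, abs_neg] at this
    exact this

theorem hasDerivAt_KT (δ κ ε s : ℝ) : HasDerivAt (KT δ κ ε)
    (cS (δ / ε) * (3 / 4) * (1 / ε * (1 - Real.tanh (s / ε) ^ 2) ^ 2) - bT δ κ s) s :=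
  ((ACSol.hasDerivAt_T0_div (ε := ε) s).const_mul _).sub (hasDerivAt_BT δ κ s)

namespace ACSol

theorem KT_mul_lapl_nonpos (H : ACSol U h r ε) {δ κ : ℝ} (hδ : 0 < δ) (hκ : 0 < κ) {x : EE}
    (hx : x ∈ U) : KT δ κ ε (r x) * lapl r x ≤ 0 := by
  have b3 := H.modica x hx
  have b4 := H.eps_pos
  rw [H.pde x hx]
  rcases le_total 0 (r x) with h0 | h0
  · have h1 := KT_nonneg hδ hκ b4 h0
    have h2 : 0 ≤ Real.tanh (r x / ε) := tanh_nonneg (by positivity)
    have h3 : 0 ≤ KT δ κ ε (r x) * (2 / ε * Real.tanh (r x / ε) * (h x - gsq r x)) :=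
      mul_nonneg h1 (mul_nonneg (by positivity) (by linarith))
    linarith
  · have h1 : KT δ κ ε (r x) ≤ 0 := by
      have := KT_nonneg (κ := κ) hδ hκ b4 (s := -r x) (by linarith)
      rw [KT_odd] at this; linarith
    have h2 : Real.tanh (r x / ε) ≤ 0 :=
      tanh_nonpos (div_nonpos_of_nonpos_of_nonneg h0 b4.le)
    have h3 : 0 ≤ (-KT δ κ ε (r x)) * (2 / ε * (-Real.tanh (r x / ε)) * (h x - gsq r x)) :=
      mul_nonneg (by linarith) (mul_nonneg (mul_nonneg (by positivity) (by linarith)) (by linarith))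
    linarith

/-- slab inequality, trapezoid version -/
theorem slab_trap (H : ACSol U h r ε) (hζ : Cut U ζ) (h0 : ∀ x, 0 ≤ ζ x) {δ κ : ℝ} (hδ : 0 < δ)
    (hκ : 0 < κ) (hκδ : κ ≤ δ) :
    ∫ x, (bT δ κ (r x) * gsq r x) * ζ x ≤
      cS (δ / ε) * (3 / 4) * (∫ x, qq h r ε x * ζ x) +
      ∫ x, (1 / 2 * (if |r x| < δ then 1 else 0) + ((cS (δ / ε) - 1) / 2 + κ / (2 * δ))) *
        |dot r ζ x| := by
  have hKc : Continuous fun s => cS (δ / ε) * (3 / 4) * (1 / ε * (1 - Real.tanh (s / ε) ^ 2) ^ 2) -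
      bT δ κ s := (continuous_const.mul (continuous_sech ε)).sub (continuous_bT δ κ)
  have hKcont : Continuous (KT δ κ ε) :=
    continuous_iff_continuousAt.2 fun s => (hasDerivAt_KT δ κ ε s).continuousAt
  have e := div_id H.isOpen H.smooth_r hζ (hasDerivAt_KT δ κ ε) hKc
  have hb : ContinuousOn (fun x => bT δ κ (r x) * gsq r x) U :=
    (H.cont_comp (continuous_bT δ κ)).mul H.cont_gsq
  have i1 : Integrable fun x => (bT δ κ (r x) * gsq r x) * ζ x :=
    integrable_mul_of_tsupport H.isOpen hb hζ.cd.continuous hζ.cs hζ.sub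
  have i2 : Integrable fun x => (((cS (δ / ε) * (3 / 4) * (1 / ε *
      (1 - Real.tanh (r x / ε) ^ 2) ^ 2) - bT δ κ (r x)) * gsq r x + KT δ κ ε (r x) * lapl r x)) *
      ζ x :=
    integrable_mul_of_tsupport H.isOpen (((H.cont_comp hKc).mul H.cont_gsq).add
      ((H.cont_comp hKcont).mul H.cont_lapl)) hζ.cd.continuous hζ.cs hζ.sub
  have i3 := H.int_qq hζ
  have i4 : Integrable fun x => KT δ κ ε (r x) * dot r ζ x :=
    integrable_mul_dot H.isOpen (H.cont_comp hKcont) H.smooth_r hζ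
  have i5 := (H.integrable_dot hζ).abs
  have hcs := one_le_cS (div_pos hδ H.eps_pos)
  -- measurability of the indicator weight times |dot|
  have i6 : Integrable fun x => (1 / 2 * (if |r x| < δ then (1 : ℝ) else 0) +
      ((cS (δ / ε) - 1) / 2 + κ / (2 * δ))) * |dot r ζ x| := by
    have hset : MeasurableSet {x | x ∈ U ∧ |r x| < δ} := by
      have : IsOpen (U ∩ (fun x => |r x|) ⁻¹' Iio δ) :=
        H.cont_r.abs.isOpen_inter_preimage H.isOpen isOpen_Iio
      exact this.measurableSet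
    have e6 : (fun x => (1 / 2 * (if |r x| < δ then (1 : ℝ) else 0) +
        ((cS (δ / ε) - 1) / 2 + κ / (2 * δ))) * |dot r ζ x|) =
        fun x => {x | x ∈ U ∧ |r x| < δ}.indicator (fun x => 1 / 2 * |dot r ζ x|) x +
        ((cS (δ / ε) - 1) / 2 + κ / (2 * δ)) * |dot r ζ x| := by
      funext x
      by_cases hx : x ∈ U
      · by_cases h1 : |r x| < δ
        · rw [indicator_of_mem (show x ∈ {x | x ∈ U ∧ |r x| < δ} from ⟨hx, h1⟩), if_pos h1]; ring
        · rw [indicator_of_notMem (fun h' => h1 h'.2), if_neg h1]; ring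
      · have : dot r ζ x = 0 := by
          unfold dot
          exact Finset.sum_eq_zero fun i _ => by
            rw [Cut.pd_zero (fun h' => hx (hζ.sub h')), mul_zero]
        rw [this, indicator_of_notMem (fun h' => hx h'.1)]; simp
    rw [e6]
    exact ((i5.const_mul _).indicator hset).add (i5.const_mul _)
  have a1 : ∫ x, KT δ κ ε (r x) * dot r ζ x ≤ ∫ x, (1 / 2 * (if |r x| < δ then (1 : ℝ) else 0) +
      ((cS (δ / ε) - 1) / 2 + κ / (2 * δ))) * |dot r ζ x| := by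
    refine integral_mono i4 i6 fun x => ?_
    have h1 := abs_KT_le hδ hκ hκδ H.eps_pos (r x)
    calc KT δ κ ε (r x) * dot r ζ x ≤ |KT δ κ ε (r x) * dot r ζ x| := le_abs_self _
      _ = |KT δ κ ε (r x)| * |dot r ζ x| := abs_mul _ _
      _ ≤ _ := mul_le_mul_of_nonneg_right h1 (abs_nonneg _)
  have a2 : ∫ x, ((((cS (δ / ε) * (3 / 4) * (1 / ε *
      (1 - Real.tanh (r x / ε) ^ 2) ^ 2) - bT δ κ (r x)) * gsq r x + KT δ κ ε (r x) * lapl r x)) *
      ζ x + (bT δ κ (r x) * gsq r x) * ζ x) ≤ ∫ x, cS (δ / ε) * (3 / 4) * (qq h r ε x * ζ x) := by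
    refine integral_mono (i2.add i1) (i3.const_mul _) fun x => ?_
    by_cases hx : x ∈ U
    · have c1 := H.KT_mul_lapl_nonpos hδ hκ hx
      have c2 := H.sech_gsq_le hx
      have c3 := h0 x
      have c4 : (cS (δ / ε) * (3 / 4)) * (1 / ε * (1 - Real.tanh (r x / ε) ^ 2) ^ 2 * gsq r x) ≤
          (cS (δ / ε) * (3 / 4)) * qq h r ε x := mul_le_mul_of_nonneg_left c2 (by linarith)
      have c5 : ((cS (δ / ε) * (3 / 4) * (1 / ε *
          (1 - Real.tanh (r x / ε) ^ 2) ^ 2) - bT δ κ (r x)) * gsq r x + KT δ κ ε (r x) * lapl r x) +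
          (bT δ κ (r x) * gsq r x) ≤ cS (δ / ε) * (3 / 4) * qq h r ε x := by linarith
      have c6 := mul_le_mul_of_nonneg_right c5 c3
      linarith
    · simp only [hζ.zero_out hx, mul_zero, add_zero, le_refl]
  rw [integral_add i2 i1, integral_const_mul] at a2
  linarith

/-- the weight `1_{|r|<δ} |⟨∇r,∇ζ⟩|` is integrable -/
theorem integrable_slab_dot (H : ACSol U h r ε) (hζ : Cut U ζ) (δ : ℝ) :
    Integrable fun x => (if |r x| < δ then (1 : ℝ) else 0) * |dot r ζ x| := by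
  have i5 := (H.integrable_dot hζ).abs
  have hset : MeasurableSet {x | x ∈ U ∧ |r x| < δ} := by
    have : IsOpen (U ∩ (fun x => |r x|) ⁻¹' Iio δ) :=
      H.cont_r.abs.isOpen_inter_preimage H.isOpen isOpen_Iio
    exact this.measurableSet
  have e6 : (fun x => (if |r x| < δ then (1 : ℝ) else 0) * |dot r ζ x|) =
      {x | x ∈ U ∧ |r x| < δ}.indicator (fun x => |dot r ζ x|) := by
    funext x
    by_cases hx : x ∈ U
    · by_cases h1 : |r x| < δ
      · rw [indicator_of_mem (show x ∈ {x | x ∈ U ∧ |r x| < δ} from ⟨hx, h1⟩), if_pos h1]; ring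
      · rw [indicator_of_notMem (fun h' => h1 h'.2), if_neg h1]; ring
    · have : dot r ζ x = 0 := by
        unfold dot
        exact Finset.sum_eq_zero fun i _ => by
          rw [Cut.pd_zero (fun h' => hx (hζ.sub h')), mul_zero]
      rw [this, indicator_of_notMem (fun h' => hx h'.1)]; simp
  rw [e6]
  exact i5.indicator hset

/-- `1_{|r|<δ} |∇r|² ζ` is integrable -/
theorem integrable_slab_gsq (H : ACSol U h r ε) (hζ : Cut U ζ) (δ : ℝ) :
    Integrable fun x => (if |r x| < δ then (1 : ℝ) else 0) * (gsq r x * ζ x) := by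
  have i5 : Integrable fun x => gsq r x * ζ x :=
    integrable_mul_of_tsupport H.isOpen H.cont_gsq hζ.cd.continuous hζ.cs hζ.sub
  have hset : MeasurableSet {x | x ∈ U ∧ |r x| < δ} := by
    have : IsOpen (U ∩ (fun x => |r x|) ⁻¹' Iio δ) :=
      H.cont_r.abs.isOpen_inter_preimage H.isOpen isOpen_Iio
    exact this.measurableSet
  have e6 : (fun x => (if |r x| < δ then (1 : ℝ) else 0) * (gsq r x * ζ x)) =
      {x | x ∈ U ∧ |r x| < δ}.indicator (fun x => gsq r x * ζ x) := by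
    funext x
    by_cases hx : x ∈ U
    · by_cases h1 : |r x| < δ
      · rw [indicator_of_mem (show x ∈ {x | x ∈ U ∧ |r x| < δ} from ⟨hx, h1⟩), if_pos h1]; ring
      · rw [indicator_of_notMem (fun h' => h1 h'.2), if_neg h1]; ring
    · rw [hζ.zero_out hx, indicator_of_notMem (fun h' => hx h'.1)]; simp
  rw [e6]
  exact i5.indicator hset

/-- SLAB INEQUALITY (ε-level, indicator form) -/
theorem slab (H : ACSol U h r ε) (hζ : Cut U ζ) (h0 : ∀ x, 0 ≤ ζ x) {δ : ℝ} (hδ : 0 < δ) :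
    1 / (2 * δ) * ∫ x, (if |r x| < δ then (1 : ℝ) else 0) * (gsq r x * ζ x) ≤
      cS (δ / ε) * (3 / 4) * (∫ x, qq h r ε x * ζ x) +
      1 / 2 * (∫ x, (if |r x| < δ then (1 : ℝ) else 0) * |dot r ζ x|) +
      (cS (δ / ε) - 1) / 2 * ∫ x, |dot r ζ x| := by
  have i5 := (H.integrable_dot hζ).abs
  have i7 := H.integrable_slab_dot hζ δ
  have i8 := H.integrable_slab_gsq hζ δ
  have i9 : Integrable fun x => gsq r x * ζ x :=
    integrable_mul_of_tsupport H.isOpen H.cont_gsq hζ.cd.continuous hζ.cs hζ.sub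
  set κ : ℕ → ℝ := fun j => δ / (j + 1) with hκdef
  have hκ0 : ∀ j, 0 < κ j := fun j => by positivity
  have hκδ : ∀ j, κ j ≤ δ := fun j => by
    rw [hκdef]; exact div_le_self hδ.le (by linarith [Nat.cast_nonneg (α := ℝ) j])
  have hκt : Tendsto κ atTop (𝓝 0) := by
    have h1 : Tendsto (fun j : ℕ => δ * (1 / ((j : ℝ) + 1))) atTop (𝓝 (δ * 0)) :=
      tendsto_one_div_add_atTop_nhds_zero_nat.const_mul δ
    rw [mul_zero] at h1
    exact h1.congr fun j => by rw [hκdef]; ring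
  -- right-hand side rewritten
  have key : ∀ j, ∫ x, (bT δ (κ j) (r x) * gsq r x) * ζ x ≤
      cS (δ / ε) * (3 / 4) * (∫ x, qq h r ε x * ζ x) +
      1 / 2 * (∫ x, (if |r x| < δ then (1 : ℝ) else 0) * |dot r ζ x|) +
      (cS (δ / ε) - 1) / 2 * (∫ x, |dot r ζ x|) + κ j * (1 / (2 * δ) * ∫ x, |dot r ζ x|) := by
    intro j
    have h1 := H.slab_trap hζ h0 hδ (hκ0 j) (hκδ j)
    have h2 : ∫ x, (1 / 2 * (if |r x| < δ then (1 : ℝ) else 0) +
        ((cS (δ / ε) - 1) / 2 + κ j / (2 * δ))) * |dot r ζ x| =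
        1 / 2 * (∫ x, (if |r x| < δ then (1 : ℝ) else 0) * |dot r ζ x|) +
        ((cS (δ / ε) - 1) / 2 + κ j / (2 * δ)) * (∫ x, |dot r ζ x|) := by
      rw [← integral_const_mul, ← integral_const_mul, ← integral_add (i7.const_mul _) (i5.const_mul _)]
      exact integral_congr_ae (Eventually.of_forall fun x => by simp only; ring)
    rw [h2] at h1
    calc _ ≤ _ := h1
      _ = _ := by ring
  have hlim : Tendsto (fun j => ∫ x, (bT δ (κ j) (r x) * gsq r x) * ζ x) atTop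
      (𝓝 (∫ x, 1 / (2 * δ) * ((if |r x| < δ then (1 : ℝ) else 0) * (gsq r x * ζ x)))) := by
    apply tendsto_integral_of_dominated_convergence (fun x => 1 / (2 * δ) * |gsq r x * ζ x|)
    · intro j
      exact (integrable_mul_of_tsupport H.isOpen ((H.cont_comp (continuous_bT δ (κ j))).mul
        H.cont_gsq) hζ.cd.continuous hζ.cs hζ.sub).aestronglyMeasurable
    · exact i9.abs.const_mul _
    · intro j
      refine Eventually.of_forall fun x => ?_
      rw [Real.norm_eq_abs, mul_assoc, abs_mul, abs_of_nonneg (bT_nonneg hδ _)]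
      exact mul_le_mul_of_nonneg_right (bT_le hδ _) (abs_nonneg _)
    · refine Eventually.of_forall fun x => ?_
      by_cases hx : |r x| < δ
      · have : ∀ᶠ j in atTop, (bT δ (κ j) (r x) * gsq r x) * ζ x =
            1 / (2 * δ) * ((if |r x| < δ then (1 : ℝ) else 0) * (gsq r x * ζ x)) := by
          have h1 : ∀ᶠ j in atTop, κ j < δ - |r x| :=
            hκt.eventually (gt_mem_nhds (by linarith))
          filter_upwards [h1] with j hj
          rw [bT_in (hκ0 j) (by linarith), if_pos hx]; ring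
        exact tendsto_const_nhds.congr' (this.mono fun j hj => hj.symm)
      · have : ∀ j, (bT δ (κ j) (r x) * gsq r x) * ζ x =
            1 / (2 * δ) * ((if |r x| < δ then (1 : ℝ) else 0) * (gsq r x * ζ x)) := by
          intro j
          rw [bT_out (hκ0 j) (not_lt.1 hx), if_neg hx]; ring
        exact tendsto_const_nhds.congr fun j => (this j).symm
  have hR : Tendsto (fun j => cS (δ / ε) * (3 / 4) * (∫ x, qq h r ε x * ζ x) +
      1 / 2 * (∫ x, (if |r x| < δ then (1 : ℝ) else 0) * |dot r ζ x|) +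
      (cS (δ / ε) - 1) / 2 * (∫ x, |dot r ζ x|) + κ j * (1 / (2 * δ) * ∫ x, |dot r ζ x|)) atTop
      (𝓝 (cS (δ / ε) * (3 / 4) * (∫ x, qq h r ε x * ζ x) +
      1 / 2 * (∫ x, (if |r x| < δ then (1 : ℝ) else 0) * |dot r ζ x|) +
      (cS (δ / ε) - 1) / 2 * (∫ x, |dot r ζ x|) + 0 * (1 / (2 * δ) * ∫ x, |dot r ζ x|))) :=
    tendsto_const_nhds.add (hκt.mul_const _)
  have := le_of_tendsto_of_tendsto' hlim hR key
  rw [integral_const_mul, zero_mul, add_zero] at this
  exact this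

end ACSol

end Crest.Agent.R246.Lim538
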