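import Crest.Agent.R246.D2Modica_782

/-!
Row 246, block E1 (helper538): Allen–Cahn solutions in the flat weighted form on open subsets of `ℝⁿ`,
energy density, dot product of gradients and the basic integration by parts with a cut-off.
-/

set_option autoImplicit false

open Filter Topology Metric Set MeasureTheory
open scoped ContDiff
open Crest.GeometryTopology.CoordMetric Crest.GeometryTopology.AffineMaximal
open Crest.Agent.R236.Jet Crest.Agent.R246.D2x782

noncomputable section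

namespace Crest.Agent.R246.Lim538

variable {n : ℕ}

local notation "EE" => EuclideanSpace ℝ (Fin n)

/-- `⟨∇f, ∇g⟩` -/
def dot (f g : EuclideanSpace ℝ (Fin n) → ℝ) (x : EuclideanSpace ℝ (Fin n)) : ℝ :=
  ∑ i, pderiv i f x * pderiv i g x

/-- Allen–Cahn solution `u = tanh (r/ε)` in the flat weighted form `ε² Δu = h W'(u)` on the open set `U`,
written for `r`; `modica` is the pointwise bound `|∇r|² ≤ h`. -/
structure ACSol (U : Set (EuclideanSpace ℝ (Fin n))) (h r : EuclideanSpace ℝ (Fin n) → ℝ) (ε : ℝ) :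
    Prop where
  isOpen : IsOpen U
  eps_pos : 0 < ε
  smooth_h : ContDiffOn ℝ ∞ h U
  smooth_r : ContDiffOn ℝ ∞ r U
  pde : ∀ x ∈ U, lapl r x = -(2 / ε) * Real.tanh (r x / ε) * (h x - gsq r x)
  modica : ∀ x ∈ U, gsq r x ≤ h x

/-- energy density `(1/2ε) sech⁴(r/ε) (h + |∇r|²) = ε|∇u|²/2 + h W(u)/ε` -/
def qq (h r : EuclideanSpace ℝ (Fin n) → ℝ) (ε : ℝ) (x : EuclideanSpace ℝ (Fin n)) : ℝ :=
  1 / (2 * ε) * (1 - Real.tanh (r x / ε) ^ 2) ^ 2 * (h x + gsq r x)

/-- `T₀ = tanh - tanh³/3`, the primitive of `sech⁴` -/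
def T0 (s : ℝ) : ℝ := Real.tanh s - Real.tanh s ^ 3 / 3

theorem gsq_eq_dot (f : EE → ℝ) (x : EE) : gsq f x = dot f f x := rfl

theorem dot_comm (f g : EE → ℝ) (x : EE) : dot f g x = dot g f x :=
  Finset.sum_congr rfl fun _ _ => mul_comm _ _

/-- Cauchy–Schwarz -/
theorem abs_dot_le (f g : EE → ℝ) (x : EE) :
    |dot f g x| ≤ Real.sqrt (gsq f x) * Real.sqrt (gsq g x) := by
  rw [← Real.sqrt_mul (gsq_nonneg f x), ← Real.sqrt_sq_eq_abs]
  apply Real.sqrt_le_sqrt
  have := Finset.sum_mul_sq_le_sq_mul_sq Finset.univ (fun i => pderiv i f x) (fun i => pderiv i g x)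
  simpa [dot, gsq, sq] using this

theorem continuous_mul_of_tsupport {U : Set EE} (hU : IsOpen U) {F ζ : EE → ℝ}
    (hF : ContinuousOn F U) (hζ : Continuous ζ) (hs : tsupport ζ ⊆ U) :
    Continuous fun x => F x * ζ x := by
  rw [continuous_iff_continuousAt]
  intro x
  by_cases hx : x ∈ tsupport ζ
  · exact ((hF.continuousAt (hU.mem_nhds (hs hx))).mul hζ.continuousAt)
  · have h0 : (fun x => F x * ζ x) =ᶠ[𝓝 x] fun _ => 0 := by
      have : (tsupport ζ)ᶜ ∈ 𝓝 x := (isClosed_tsupport ζ).isOpen_compl.mem_nhds hx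
      filter_upwards [this] with y hy
      rw [image_eq_zero_of_notMem_tsupport hy, mul_zero]
    exact (continuousAt_congr h0).2 continuousAt_const

theorem integrable_mul_of_tsupport {U : Set EE} (hU : IsOpen U) {F ζ : EE → ℝ}
    (hF : ContinuousOn F U) (hζ : Continuous ζ) (hc : HasCompactSupport ζ) (hs : tsupport ζ ⊆ U) :
    Integrable (fun x => F x * ζ x) :=
  (continuous_mul_of_tsupport hU hF hζ hs).integrable_of_hasCompactSupport hc.mul_left

/-- a `C¹` cut-off function with compact support in `U` -/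
structure Cut (U : Set (EuclideanSpace ℝ (Fin n))) (ζ : EuclideanSpace ℝ (Fin n) → ℝ) : Prop where
  cd : ContDiff ℝ 1 ζ
  cs : HasCompactSupport ζ
  sub : tsupport ζ ⊆ U

namespace Cut
variable {U : Set (EuclideanSpace ℝ (Fin n))} {ζ : EuclideanSpace ℝ (Fin n) → ℝ}

theorem cont_pd (h : Cut U ζ) (i : Fin n) : Continuous fun x => pderiv i ζ x := by
  unfold pderiv
  exact (h.cd.continuous_fderiv one_ne_zero).clm_apply continuous_const

theorem pd_zero {x : EE} (hx : x ∉ tsupport ζ) (i : Fin n) : pderiv i ζ x = 0 := by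
  have h0 : ζ =ᶠ[𝓝 x] fun _ => 0 := by
    have : (tsupport ζ)ᶜ ∈ 𝓝 x := (isClosed_tsupport ζ).isOpen_compl.mem_nhds hx
    filter_upwards [this] with y hy
    rw [image_eq_zero_of_notMem_tsupport hy]
  unfold pderiv
  rw [h0.fderiv_eq]; simp

theorem tsupport_pd (i : Fin n) : tsupport (fun x => pderiv i ζ x) ⊆ tsupport ζ := by
  apply closure_minimal _ (isClosed_tsupport ζ)
  intro x hx
  by_contra h
  exact hx (pd_zero h i)

theorem cs_pd (h : Cut U ζ) (i : Fin n) : HasCompactSupport fun x => pderiv i ζ x :=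
  h.cs.of_isClosed_subset (isClosed_tsupport _) (tsupport_pd i)

theorem zero_out (h : Cut U ζ) {x : EE} (hx : x ∉ U) : ζ x = 0 :=
  image_eq_zero_of_notMem_tsupport fun h' => hx (h.sub h')

end Cut

/-- Integration by parts with a cut-off: `∫ F ∂ᵢζ = - ∫ ∂ᵢF ζ` for `F ∈ C¹(U)`. -/
theorem ibp {U : Set EE} (hU : IsOpen U) {F ζ : EE → ℝ} (hF : ContDiffOn ℝ 1 F U) (hζ : Cut U ζ)
    (i : Fin n) : ∫ x, F x * pderiv i ζ x = - ∫ x, pderiv i F x * ζ x := by
  have hF' : ContinuousOn (fun x => pderiv i F x) U := by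
    unfold pderiv
    exact (hF.continuousOn_fderiv_of_isOpen hU le_rfl).clm_apply continuousOn_const
  unfold pderiv
  apply integral_mul_fderiv_eq_neg_fderiv_mul_of_integrable
  · exact integrable_mul_of_tsupport hU hF' hζ.cd.continuous hζ.cs hζ.sub
  · exact integrable_mul_of_tsupport hU hF.continuousOn (hζ.cont_pd i) (hζ.cs_pd i)
      ((Cut.tsupport_pd i).trans hζ.sub)
  · exact integrable_mul_of_tsupport hU hF.continuousOn hζ.cd.continuous hζ.cs hζ.sub
  · intro x hx
    exact ((hF.contDiffAt (hU.mem_nhds (hζ.sub hx))).differentiableAt one_ne_zero)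
  · intro x _
    exact hζ.cd.differentiable one_ne_zero x

end Crest.Agent.R246.Lim538
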