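import Crest.Agent.R246.LimO1_538
import Crest.Agent.R246.Mass_872

/-!
Row 246, block E3 (helper538): locally bounded masses, trace defect, homogeneity, mass and
concentration of the limit measure.
-/

set_option autoImplicit false

open Filter Topology Metric Set MeasureTheory
open scoped ContDiff RealInnerProductSpace
open Crest.GeometryTopology.CoordMetric Crest.GeometryTopology.AffineMaximal
open Crest.Agent.R236.Jet Crest.Agent.R246.D2x782 Crest.Agent.R246.G873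
open Crest.Agent.R246.Stress638
open Crest.Agent.R246.H990 (cV cV_pos)

noncomputable section

namespace Crest.Agent.R246.Lim538

variable {n : ℕ}

local notation "EE" => EuclideanSpace ℝ (Fin n)

theorem hcs_smul_id {E : Type*} [NormedAddCommGroup E] [InnerProductSpace ℝ E] {f : E → ℝ}
    (hc : HasCompactSupport f) :
    HasCompactSupport (fun x => f x • ContinuousLinearMap.id ℝ E) := hc.smul_right

theorem den_eq_wq (R : EE → ℝ) (ε : ℝ) (x : EE) : Vb872.den R ε x = wq R ε x := by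
  unfold Vb872.den wq hw
  ring

theorem mu_eq (R : EE → ℝ) (ε : ℝ) : Sol.mu R ε = Vb872.mu R ε := by
  unfold Sol.mu Vb872.mu
  congr 1
  funext x
  rw [den_eq_wq]

/-- spherical energy -/
def sen (R : EuclideanSpace ℝ (Fin n) → ℝ) (ε : ℝ) : ℝ :=
  ∫ z, eden ε R (z : EuclideanSpace ℝ (Fin n)) ∂(Crest.Agent.R246.H990.sig (EuclideanSpace ℝ (Fin n)))

/-- equipartition defect, the interface (Q) -/
def Qd (R : EuclideanSpace ℝ (Fin n) → ℝ) (ε : ℝ) : ℝ :=
  ∫ x, Real.exp (-‖x‖ ^ 2) * (‖x‖ * (sg R ε x * (hw x - gsq R x)))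

section one

variable {R : EuclideanSpace ℝ (Fin n) → ℝ} {ε : ℝ}

theorem Qd_eq (R : EE → ℝ) (ε : ℝ) : Qd R ε = 8 / 3 * ∫ x, Real.exp (-‖x‖ ^ 2) * wd R ε x := by
  unfold Qd
  rw [← integral_const_mul]
  refine integral_congr_ae (Eventually.of_forall fun x => ?_)
  simp only [wd]; ring

namespace Sol

theorem sen_nonneg (H : Sol R ε) : 0 ≤ sen R ε :=
  integral_nonneg fun _ => Vb872.eden_nonneg H.pos R _

theorem mu_closedBall_le (hn : 2 ≤ n) (H : Sol R ε) (ρ : ℝ) :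
    mu R ε (closedBall 0 ρ) ≤
      ENNReal.ofReal (Real.exp (ρ ^ 2) * (cV EE * (3 / 4 * sen R ε))) := by
  rw [mu_eq]
  exact Vb872.mu_closedBall_le hn H.pos H.sm ρ

theorem integral_exp_le (hn : 2 ≤ n) (H : Sol R ε) {f : EE → ℝ} (hf : Continuous f)
    (hf0 : ∀ x, 0 ≤ f x) (hf1 : ∀ x, f x ≤ Real.exp (-‖x‖ ^ 2)) :
    ∫ x, wq R ε x * f x ≤ cV EE * (3 / 4 * sen R ε) := by
  rw [← H.integral_mu, mu_eq]
  exact Vb872.integral_exp_le hn H.pos H.sm hf hf0 hf1

theorem wd_le_wq (H : Sol R ε) (x : EE) : wd R ε x ≤ wq R ε x := by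
  rw [wq_eq]
  have := H.ws_nonneg x
  have := gsq_nonneg R x
  nlinarith [mul_nonneg (H.ws_nonneg x) (gsq_nonneg R x)]

theorem integrable_exp_wd (hn : 2 ≤ n) (H : Sol R ε) :
    Integrable fun x : EE => Real.exp (-‖x‖ ^ 2) * wd R ε x := by
  have hfin : 2 ≤ Module.finrank ℝ EE := by simpa using hn
  have h1 := (Crest.Agent.R246.Vb872.integrable_gauss_radial hfin (b := 1) one_pos).const_mul
    (3 / (4 * ε))
  refine h1.mono' ?_ (Eventually.of_forall fun x => ?_)
  · exact ((Real.measurable_exp.comp (measurable_norm.pow_const 2).neg).mul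
      H.measurable_wd).aestronglyMeasurable
  · have h2 := H.wd_nonneg x
    have h3 := (H.wd_le_wq x).trans (H.wq_le x)
    have h4 := H.pos
    have h5 : 0 < Real.exp (-‖x‖ ^ 2) := Real.exp_pos _
    have h6 : 0 ≤ ‖x‖⁻¹ := by positivity
    have h7 : 0 ≤ ‖x‖ := norm_nonneg x
    rw [Real.norm_eq_abs, abs_of_nonneg (mul_nonneg h5.le h2)]
    calc Real.exp (-‖x‖ ^ 2) * wd R ε x ≤ Real.exp (-‖x‖ ^ 2) * (3 / (4 * ε) * ‖x‖⁻¹) := by
          gcongr
      _ ≤ Real.exp (-‖x‖ ^ 2) * (3 / (4 * ε) * (2 * ‖x‖⁻¹ + 1 + ‖x‖)) := by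
          gcongr; linarith
      _ = 3 / (4 * ε) * (Real.exp (-1 * ‖x‖ ^ 2) * (2 * ‖x‖⁻¹ + 1 + ‖x‖)) := by
          rw [neg_one_mul]; ring

/-- any function dominated by the Gaussian, integrated against the discrepancy -/
theorem abs_integral_wd_le (hn : 2 ≤ n) (H : Sol R ε) {g : EE → ℝ} {M : ℝ}
    (hg : ∀ x, |g x| ≤ M * Real.exp (-‖x‖ ^ 2)) :
    |∫ x, wd R ε x * g x| ≤ M * (3 / 8 * Qd R ε) := by
  have hi := (H.integrable_exp_wd hn).const_mul M
  have h1 : |∫ x, wd R ε x * g x| ≤ ∫ x, M * (Real.exp (-‖x‖ ^ 2) * wd R ε x) := by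
    have := norm_integral_le_of_norm_le hi (f := fun x => wd R ε x * g x)
      (Eventually.of_forall fun x => by
        rw [Real.norm_eq_abs, abs_mul, abs_of_nonneg (H.wd_nonneg x)]
        calc wd R ε x * |g x| ≤ wd R ε x * (M * Real.exp (-‖x‖ ^ 2)) := by
              have := H.wd_nonneg x
              have := hg x
              gcongr
          _ = _ := by ring)
    simpa [Real.norm_eq_abs] using this
  rw [integral_const_mul] at h1
  rw [Qd_eq]
  calc _ ≤ _ := h1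
    _ = _ := by ring

theorem Qd_nonneg (H : Sol R ε) : 0 ≤ Qd R ε := by
  rw [Qd_eq]
  have : 0 ≤ ∫ x, Real.exp (-‖x‖ ^ 2) * wd R ε x :=
    integral_nonneg fun x => mul_nonneg (Real.exp_pos _).le (H.wd_nonneg x)
  positivity

theorem pgv_S (hn : 2 ≤ n) (H : Sol R ε) (F : EE → EE →L[ℝ] EE) :
    (H.pgv hn).S F = ∫ x, ws R ε x * ⟪F x (gradient R x), gradient R x⟫ := rfl

theorem pgv_μ (hn : 2 ≤ n) (H : Sol R ε) : (H.pgv hn).μ = mu R ε := rfl

/-- the integrand of `S (f • id)` -/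
theorem trace_defect (hn : 2 ≤ n) (H : Sol R ε) {f : EE → ℝ} (hf : Continuous f)
    (hc : HasCompactSupport f) :
    (H.pgv hn).S (fun x => f x • ContinuousLinearMap.id ℝ EE) - ∫ x, f x ∂(H.pgv hn).μ
      = - ∫ x, wd R ε x * f x := by
  have hF : Continuous (fun x => f x • ContinuousLinearMap.id ℝ EE) := hf.smul continuous_const
  have hcF : HasCompactSupport (fun x => f x • ContinuousLinearMap.id ℝ EE) := hcs_smul_id hc
  rw [pgv_S, pgv_μ, H.integral_mu, ← integral_sub (H.integrable_integrand hn hF hcF) (H.integrable_wq_mul hn hf hc),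
    ← integral_neg]
  refine integral_congr_ae (Eventually.of_forall fun x => ?_)
  simp only [smul_apply, ContinuousLinearMap.id_apply, real_inner_smul_left,
    real_inner_self_eq_norm_sq, norm_gradient_sq]
  rw [wq_eq]; ring

/-- homogeneity of the weight measures -/
theorem integral_wq_dil (hn : 2 ≤ n) (H : Sol R ε) (f : EE → ℝ) {t : ℝ} (ht : 0 < t) :
    ∫ x, wq R ε x * f (t⁻¹ • x) = t ^ (n - 1) * ∫ x, wq R ε x * f x := by
  have h1 := Measure.integral_comp_smul_of_nonneg (μ := (volume : Measure EE))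
    (fun x : EE => wq R ε x * f (t⁻¹ • x)) t (hR := ht.le)
  simp only [finrank_euclideanSpace, Fintype.card_fin, smul_eq_mul] at h1
  have h2 : ∫ x : EE, wq R ε (t • x) * f (t⁻¹ • (t • x)) = t⁻¹ * ∫ x : EE, wq R ε x * f x := by
    rw [← integral_const_mul]
    refine integral_congr_ae (Eventually.of_forall fun x => ?_)
    simp only
    rw [smul_smul, inv_mul_cancel₀ ht.ne', one_smul, H.wq_smul ht]
    ring
  rw [h2] at h1
  have h3 : (t ^ n) = t ^ (n - 1) * t := by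
    rw [← pow_succ]; congr 1; omega
  have h4 : ∫ x : EE, wq R ε x * f (t⁻¹ • x) = t ^ n * (t⁻¹ * ∫ x : EE, wq R ε x * f x) := by
    rw [h1]; field_simp
  rw [h4, h3]; field_simp

end Sol

end one

/-! ### sequences -/

section seq

variable {ι : Type*} {l : Filter ι} {R : ι → EuclideanSpace ℝ (Fin n) → ℝ} {ε : ι → ℝ}

/-- `μ` is the limit measure along `l`. -/
def MLim (l : Filter ι) (R : ι → EuclideanSpace ℝ (Fin n) → ℝ) (ε : ι → ℝ)
    (μ : Measure (EuclideanSpace ℝ (Fin n))) : Prop :=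
  ∀ f : EuclideanSpace ℝ (Fin n) → ℝ, Continuous f → HasCompactSupport f →
    Tendsto (fun k => ∫ x, wq (R k) (ε k) x * f x) l (𝓝 (∫ x, f x ∂μ))

theorem locBdd (U : Ultrafilter ι) (hn : 2 ≤ n) (H : ∀ k, Sol (R k) (ε k)) {C : ℝ}
    (hC : ∀ᶠ k in (U : Filter ι), sen (R k) (ε k) ≤ C) :
    LocBdd U (fun k => (H k).pgv hn) := by
  intro K hK
  obtain ⟨ρ, hρ⟩ := hK.isBounded.subset_closedBall 0
  refine ⟨Real.exp (ρ ^ 2) * (cV EE * (3 / 4 * max C 0)), ?_⟩
  filter_upwards [hC] with k hk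
  have hcV := cV_pos EE
  have h0 : 0 ≤ Real.exp (ρ ^ 2) * (cV EE * (3 / 4 * max C 0)) := by
    have : 0 ≤ max C 0 := le_max_right _ _
    positivity
  apply ENNReal.toReal_le_of_le_ofReal h0
  refine (measure_mono hρ).trans (((H k).mu_closedBall_le hn ρ).trans ?_)
  apply ENNReal.ofReal_le_ofReal
  have : sen (R k) (ε k) ≤ max C 0 := hk.trans (le_max_left _ _)
  gcongr

theorem gauss_dom {f : EE → ℝ} (hf : Continuous f) (hc : HasCompactSupport f) :
    ∃ M : ℝ, 0 ≤ M ∧ ∀ x, |f x| ≤ M * Real.exp (-‖x‖ ^ 2) := by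
  obtain ⟨C, hC⟩ := hf.bounded_above_of_compact_support hc
  obtain ⟨ρ, hρ⟩ := hc.isCompact.isBounded.subset_closedBall 0
  have hC0 : 0 ≤ C := (norm_nonneg _).trans (hC 0)
  refine ⟨C * Real.exp (ρ ^ 2), by positivity, fun x => ?_⟩
  by_cases hx : x ∈ tsupport f
  · have h1 := hρ hx
    rw [mem_closedBall, dist_zero_right] at h1
    have h2 : (1 : ℝ) ≤ Real.exp (ρ ^ 2) * Real.exp (-‖x‖ ^ 2) := by
      rw [← Real.exp_add]
      apply Real.one_le_exp
      have : ‖x‖ ^ 2 ≤ ρ ^ 2 := by gcongr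
      linarith
    calc |f x| ≤ C * 1 := by rw [mul_one]; exact hC x
      _ ≤ C * (Real.exp (ρ ^ 2) * Real.exp (-‖x‖ ^ 2)) := by gcongr
      _ = _ := by ring
  · rw [image_eq_zero_of_notMem_tsupport hx, abs_zero]; positivity

/-- discrepancies against test functions tend to zero -/
theorem tendsto_wd (hn : 2 ≤ n) (H : ∀ k, Sol (R k) (ε k))
    (hQ : Tendsto (fun k => Qd (R k) (ε k)) l (𝓝 0)) {f : EE → ℝ} (hf : Continuous f)
    (hc : HasCompactSupport f) :
    Tendsto (fun k => ∫ x, wd (R k) (ε k) x * f x) l (𝓝 0) := by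
  obtain ⟨M, hM, hfM⟩ := gauss_dom hf hc
  have h1 : Tendsto (fun k => M * (3 / 8 * Qd (R k) (ε k))) l (𝓝 (M * (3 / 8 * 0))) :=
    (hQ.const_mul _).const_mul _
  rw [mul_zero, mul_zero] at h1
  exact squeeze_zero_norm (fun k => (H k).abs_integral_wd_le hn hfM) h1

theorem trace_tendsto (hn : 2 ≤ n) (H : ∀ k, Sol (R k) (ε k))
    (hQ : Tendsto (fun k => Qd (R k) (ε k)) l (𝓝 0)) (f : EE → ℝ) (hf : Continuous f)
    (hc : HasCompactSupport f) :
    Tendsto (fun k => ((H k).pgv hn).S (fun x => f x • ContinuousLinearMap.id ℝ EE)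
      - ∫ x, f x ∂((H k).pgv hn).μ) l (𝓝 0) := by
  have h1 := (tendsto_wd hn H hQ hf hc).neg
  rw [neg_zero] at h1
  exact h1.congr fun k => ((H k).trace_defect hn hf hc).symm

/-- the ultralimit -/
theorem exists_GV (U : Ultrafilter ι) (hn : 2 ≤ n) (H : ∀ k, Sol (R k) (ε k)) {C : ℝ}
    (hC : ∀ᶠ k in (U : Filter ι), sen (R k) (ε k) ≤ C)
    (hQ : Tendsto (fun k => Qd (R k) (ε k)) (U : Filter ι) (𝓝 0)) :
    ∃ G : GV EE, MLim (U : Filter ι) R ε G.μ ∧
      ∀ F : EE → EE →L[ℝ] EE, Continuous F → HasCompactSupport F →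
        Tendsto (fun k => ∫ x, ws (R k) (ε k) x * ⟪F x (gradient (R k) x), gradient (R k) x⟫)
          (U : Filter ι) (𝓝 (G.S F)) := by
  obtain ⟨G, h1, h2⟩ := exists_ultralimit U (fun k => (H k).pgv hn) (locBdd U hn H hC)
    (trace_tendsto hn H hQ)
  refine ⟨G, fun f hf hc => ?_, h2⟩
  exact (h1 f hf hc).congr fun k => (H k).integral_mu f

variable [l.NeBot]

theorem MLim.homμ {μ : Measure EE} (hM : MLim l R ε μ) (hn : 2 ≤ n) (H : ∀ k, Sol (R k) (ε k))
    {t : ℝ} (ht : 0 < t) {f : EE → ℝ} (hf : Continuous f) (hc : HasCompactSupport f) :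
    ∫ x, f (t⁻¹ • x) ∂μ = t ^ (n - 1) * ∫ x, f x ∂μ := by
  have hf' : Continuous fun x : EE => f (t⁻¹ • x) := hf.comp (continuous_const_smul _)
  have hc' : HasCompactSupport fun x : EE => f (t⁻¹ • x) :=
    hc.comp_homeomorph (Homeomorph.smulOfNeZero t⁻¹ (inv_ne_zero ht.ne'))
  have h1 := hM _ hf' hc'
  have h2 := (hM f hf hc).const_mul (t ^ (n - 1))
  exact tendsto_nhds_unique h1 (h2.congr fun k => ((H k).integral_wq_dil hn f ht).symm)

theorem MLim.mass {μ : Measure EE} [IsFiniteMeasureOnCompacts μ] (hM : MLim l R ε μ)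
    (hn : 2 ≤ n) (H : ∀ k, Sol (R k) (ε k)) {a : ℝ}
    (ha : Tendsto (fun k => 3 / 4 * sen (R k) (ε k)) l (𝓝 a)) :
    ∫⁻ x, ENNReal.ofReal (Real.exp (-‖x‖ ^ 2)) ∂μ ≤ ENNReal.ofReal (a * cV EE) := by
  apply Vb872.mass_le_of_tests
  intro f hf hc hf0 hf1
  have h2 : Tendsto (fun k => cV EE * (3 / 4 * sen (R k) (ε k))) l (𝓝 (cV EE * a)) :=
    ha.const_mul _
  rw [mul_comm a]
  exact le_of_tendsto_of_tendsto' (hM f hf hc) h2 fun k => (H k).integral_exp_le hn hf hf0 hf1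

/-- no mass on the open set where `|r|` stays away from zero -/
theorem MLim.zero_of_compact {μ : Measure EE} [IsFiniteMeasureOnCompacts μ] (hM : MLim l R ε μ)
    (H : ∀ k, Sol (R k) (ε k)) (hε : Tendsto ε l (𝓝 0)) {K : Set EE} (hK : IsCompact K)
    (h0 : (0 : EE) ∉ K) {δ : ℝ} (hδ : 0 < δ) (hR : ∀ᶠ k in l, ∀ x ∈ K, δ ≤ |R k x|)
    {f : EE → ℝ} (hf : Continuous f) (hf0 : ∀ x, 0 ≤ f x) (hfK : ∀ x, x ∉ K → f x = 0) :
    ∫ x, f x ∂μ = 0 := by
  have hc : HasCompactSupport f := HasCompactSupport.intro hK hfK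
  obtain ⟨C, hC⟩ := hf.bounded_above_of_compact_support hc
  have hC0 : 0 ≤ C := (norm_nonneg _).trans (hC 0)
  -- lower bound of the norm on `K`
  obtain ⟨c, hc0, hcK⟩ : ∃ c : ℝ, 0 < c ∧ ∀ x ∈ K, c ≤ ‖x‖ := by
    rcases K.eq_empty_or_nonempty with hE | hne
    · exact ⟨1, one_pos, by simp [hE]⟩
    · obtain ⟨y, hy, hmin⟩ := hK.exists_isMinOn hne continuous_norm.continuousOn
      refine ⟨‖y‖, norm_pos_iff.2 fun h => h0 (h ▸ hy), fun x hx => hmin hx⟩
  have hKv : volume K < ⊤ := hK.measure_lt_top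
  -- bound
  have hb : ∀ᶠ k in l, |∫ x, wq (R k) (ε k) x * f x| ≤
      (12 * c⁻¹ * C * (volume K).toReal) * (1 / ε k * Real.exp (-(4 * δ / ε k))) := by
    filter_upwards [hR] with k hk
    have hek := (H k).pos
    have h1 : ∫ x, wq (R k) (ε k) x * f x = ∫ x in K, wq (R k) (ε k) x * f x := by
      rw [setIntegral_eq_integral_of_forall_compl_eq_zero]
      intro x hx; rw [hfK x hx, mul_zero]
    rw [h1]
    have h2 := norm_setIntegral_le_of_norm_le_const hKv
      (f := fun x => wq (R k) (ε k) x * f x)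
      (C := 12 * c⁻¹ * C * (1 / ε k * Real.exp (-(4 * δ / ε k)))) (fun x hx => by
        have hx0 : x ≠ 0 := fun h => h0 (h ▸ hx)
        have h3 := Mon638.qq_le_exp (H k).acsol (x := x) hx0 (hk x hx)
        have h4 : 0 < ‖x‖ := norm_pos_iff.2 hx0
        have h5 := hcK x hx
        have h6 := hC x
        rw [Real.norm_eq_abs, abs_of_nonneg (hf0 x)] at h6
        rw [Real.norm_eq_abs, abs_of_nonneg (mul_nonneg ((H k).wq_nonneg x) (hf0 x))]
        have h7 : wq (R k) (ε k) x ≤ 12 * c⁻¹ * (1 / ε k * Real.exp (-(4 * δ / ε k))) := by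
          unfold wq
          calc 3 / 4 * ‖x‖ * qq hw (R k) (ε k) x
              ≤ 3 / 4 * ‖x‖ * (16 / ε k * Real.exp (-(4 * δ / ε k)) * hw x) := by gcongr
            _ = 12 * ‖x‖⁻¹ * (1 / ε k * Real.exp (-(4 * δ / ε k))) := by
                unfold hw; field_simp; ring
            _ ≤ _ := by gcongr
        calc wq (R k) (ε k) x * f x
            ≤ (12 * c⁻¹ * (1 / ε k * Real.exp (-(4 * δ / ε k)))) * C := by
              apply mul_le_mul h7 h6 (hf0 x); positivity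
          _ = _ := by ring)
    rw [Real.norm_eq_abs] at h2
    refine h2.trans (le_of_eq ?_)
    simp only [Measure.real]
    ring
  -- the exponential factor tends to zero
  have hpos : ∀ k, 0 < ε k := fun k => (H k).pos
  have hinv : Tendsto (fun k => (ε k)⁻¹) l atTop := by
    apply Tendsto.inv_tendsto_nhdsGT_zero
    exact tendsto_nhdsWithin_iff.2 ⟨hε, Eventually.of_forall fun k => hpos k⟩
  have hexp : Tendsto (fun s : ℝ => s ^ (1 : ℝ) * Real.exp (-(4 * δ) * s)) atTop (𝓝 0) :=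
    tendsto_rpow_mul_exp_neg_mul_atTop_nhds_zero _ _ (by positivity)
  have h8 : Tendsto (fun k => 1 / ε k * Real.exp (-(4 * δ / ε k))) l (𝓝 0) := by
    refine (hexp.comp hinv).congr fun k => ?_
    simp only [Function.comp, Real.rpow_one, one_div]
    congr 2
    field_simp
  have h9 := h8.const_mul (12 * c⁻¹ * C * (volume K).toReal)
  rw [mul_zero] at h9
  have h10 : Tendsto (fun k => ∫ x, wq (R k) (ε k) x * f x) l (𝓝 0) :=
    squeeze_zero_norm' (by simpa [Real.norm_eq_abs] using hb) h9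
  exact tendsto_nhds_unique (hM f hf hc) h10

end seq

end Crest.Agent.R246.Lim538
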