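import Crest.Agent.R246.LimO2_538

/-!
Row 246, block E3 (helper538): concentration of the limit measure on the zero set.
-/

set_option autoImplicit false

open Filter Topology Metric Set MeasureTheory
open scoped ContDiff RealInnerProductSpace
open Crest.GeometryTopology.CoordMetric Crest.GeometryTopology.AffineMaximal
open Crest.Agent.R236.Jet Crest.Agent.R246.D2x782 Crest.Agent.R246.G873
open Crest.Agent.R246.Stress638
open Crest.Agent.R246.H990 (cV cV_pos)

noncomputable section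

namespace Crest.Agent.R246.Lim538

variable {n : ℕ}

local notation "EE" => EuclideanSpace ℝ (Fin n)

theorem measure_zero_of_open {μ : Measure EE} [IsFiniteMeasureOnCompacts μ] {W : Set EE}
    (hW : IsOpen W)
    (h : ∀ K : Set EE, IsCompact K → K ⊆ W → ∀ f : EE → ℝ, Continuous f → (∀ x, 0 ≤ f x) →
      (∀ x, x ∉ K → f x = 0) → ∫ x, f x ∂μ = 0) : μ W = 0 := by
  rw [hW.measure_eq_iSup_isCompact μ]
  simp only [ENNReal.iSup_eq_zero]
  intro K' hK'W hK'
  obtain ⟨K, hK, hK'K, hKW⟩ := exists_compact_between hK' hW hK'W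
  obtain ⟨f, hf1, hf0, hfc, hf01⟩ := exists_continuous_one_zero_of_isCompact hK'
    (isOpen_interior (s := K)).isClosed_compl
    (Set.disjoint_compl_right_iff_subset.2 hK'K)
  have h1 := h K hK hKW f f.continuous (fun x => (hf01 x).1)
    (fun x hx => hf0 (fun h => hx (interior_subset h)))
  have h2 := ofReal_integral_eq_lintegral_ofReal
    (f.continuous.integrable_of_hasCompactSupport (μ := μ) hfc)
    (Eventually.of_forall fun x => (hf01 x).1)
  rw [h1, ENNReal.ofReal_zero] at h2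
  have h3 : μ K' ≤ ∫⁻ x, ENNReal.ofReal (f x) ∂μ := by
    rw [← lintegral_indicator_one hK'.measurableSet]
    refine lintegral_mono fun x => ?_
    by_cases hx : x ∈ K'
    · rw [indicator_of_mem hx, Pi.one_apply, hf1 hx]; simp
    · rw [indicator_of_notMem hx]; exact zero_le
  rw [← h2] at h3
  exact le_antisymm h3 zero_le

section seq

variable {ι : Type*} {l : Filter ι} {R : ι → EuclideanSpace ℝ (Fin n) → ℝ} {ε : ι → ℝ}

/-- uniform convergence on the sphere gives uniform convergence of the 0-homogeneous extensions -/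
theorem conv_cone {φ : EE → ℝ} (H : ∀ k, Sol (R k) (ε k))
    (hhom : ∀ t : ℝ, 0 ≤ t → ∀ x, φ (t • x) = t * φ x)
    (hconv : TendstoUniformlyOn (fun k x => Real.sin (R k x)) φ l (sphere (0 : EE) 1))
    {δ : ℝ} (hδ : 0 < δ) : ∀ᶠ k in l, ∀ x : EE, x ≠ 0 → |‖x‖⁻¹ * φ x - Real.sin (R k x)| < δ := by
  filter_upwards [Metric.tendstoUniformlyOn_iff.1 hconv δ hδ] with k hk x hx
  have hx' : 0 < ‖x‖ := norm_pos_iff.2 hx
  have h1 : ‖x‖⁻¹ • x ∈ sphere (0 : EE) 1 := by
    rw [mem_sphere_zero_iff_norm, norm_smul, norm_inv, norm_norm, inv_mul_cancel₀ hx'.ne']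
  have h2 := hk _ h1
  rw [hhom _ (inv_nonneg.2 hx'.le), (H k).sm.hom _ x (inv_pos.2 hx'), Real.dist_eq] at h2
  exact h2

variable [l.NeBot]

theorem MLim.conc {μ : Measure EE} [IsFiniteMeasureOnCompacts μ] (hM : MLim l R ε μ)
    (H : ∀ k, Sol (R k) (ε k)) (hε : Tendsto ε l (𝓝 0)) {φ : EE → ℝ} (hφ : Continuous φ)
    (hhom : ∀ t : ℝ, 0 ≤ t → ∀ x, φ (t • x) = t * φ x)
    (hconv : TendstoUniformlyOn (fun k x => Real.sin (R k x)) φ l (sphere (0 : EE) 1)) :
    μ {x | φ x ≠ 0} = 0 := by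
  have hφ0 : φ 0 = 0 := by
    have := hhom 0 le_rfl 0
    simpa using this
  refine measure_zero_of_open (isOpen_ne_fun hφ continuous_const) fun K hK hKW f hf hf0 hfK => ?_
  have h0 : (0 : EE) ∉ K := fun h => hKW h hφ0
  obtain ⟨δ, hδ, hδK⟩ : ∃ δ : ℝ, 0 < δ ∧ ∀ x ∈ K, 2 * δ ≤ |‖x‖⁻¹ * φ x| := by
    rcases K.eq_empty_or_nonempty with hE | hne
    · exact ⟨1, one_pos, by simp [hE]⟩
    · have hc : ContinuousOn (fun x : EE => |‖x‖⁻¹ * φ x|) K := by
        intro x hx
        have hx0 : x ≠ 0 := fun h => h0 (h ▸ hx)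
        exact (((continuous_norm.continuousAt.inv₀ (norm_ne_zero_iff.2 hx0)).mul
          hφ.continuousAt).abs).continuousWithinAt
      obtain ⟨y, hy, hmin⟩ := hK.exists_isMinOn hne hc
      have hy0 : y ≠ 0 := fun h => h0 (h ▸ hy)
      have hp : 0 < |‖y‖⁻¹ * φ y| :=
        abs_pos.2 (mul_ne_zero (inv_ne_zero (norm_ne_zero_iff.2 hy0)) (hKW hy))
      refine ⟨|‖y‖⁻¹ * φ y| / 2, by linarith, fun x hx => ?_⟩
      have := hmin hx
      simp only [mem_ofPred_eq] at this
      linarith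
  refine hM.zero_of_compact H hε hK h0 hδ ?_ hf hf0 hfK
  filter_upwards [conv_cone H hhom hconv hδ] with k hk x hx
  have hx0 : x ≠ 0 := fun h => h0 (h ▸ hx)
  have h1 := hk x hx0
  have h2 := hδK x hx
  have h3 : |Real.sin (R k x)| ≤ |R k x| := by
    have := Real.lipschitzWith_sin.dist_le_mul (R k x) 0
    simpa [Real.dist_eq] using this
  have h4 := abs_sub_abs_le_abs_sub (‖x‖⁻¹ * φ x) (Real.sin (R k x))
  linarith

end seq

end Crest.Agent.R246.Lim538
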