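import Crest.Agent.R246.LimO3_538
import Crest.Agent.R246.D3LimB_67

/-!
Row 246, block E3 (helper538): stationarity of the limit varifold off the origin.
-/

set_option autoImplicit false

open Filter Topology Metric Set MeasureTheory
open scoped ContDiff RealInnerProductSpace
open Crest.GeometryTopology.CoordMetric Crest.GeometryTopology.AffineMaximal
open Crest.Agent.R236.Jet Crest.Agent.R246.D2x782 Crest.Agent.R246.G873
open Crest.Agent.R246.Stress638
open Crest.Agent.R246.D3Lim67 (pderiv_norm smooth_norm)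

noncomputable section

namespace Crest.Agent.R246.Lim538

variable {n : ℕ}

local notation "EE" => EuclideanSpace ℝ (Fin n)

theorem pderiv_hw {x : EE} (hx : x ≠ 0) (i : Fin n) :
    pderiv i hw x = -2 * x i * (‖x‖⁻¹) ^ 4 := by
  have hn : ‖x‖ ≠ 0 := norm_ne_zero_iff.2 hx
  have h1 : HasDerivAt (fun t : ℝ => (t ^ 2)⁻¹) (-(2 * ‖x‖) / (‖x‖ ^ 2) ^ 2) ‖x‖ := by
    have := ((hasDerivAt_pow 2 ‖x‖).fun_inv (pow_ne_zero 2 hn))
    refine this.congr_deriv ?_
    push_cast; ring
  have h2 := pderiv_comp h1 (sm_diff (smooth_norm hx)) i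
  have e : (fun y : EE => (fun t : ℝ => (t ^ 2)⁻¹) ‖y‖) = hw := by funext y; rfl
  rw [e] at h2
  rw [h2, pderiv_norm hx]
  field_simp

theorem grad_apply (R : EE → ℝ) (x : EE) (i : Fin n) : (gradient R x) i = pderiv i R x := by
  have h1 : ⟪gradient R x, EuclideanSpace.single i (1 : ℝ)⟫ =
      fderiv ℝ R x (EuclideanSpace.single i 1) := by
    unfold gradient
    exact InnerProductSpace.toDual_symm_apply
  rw [EuclideanSpace.inner_single_right] at h1
  simpa [pderiv] using h1

theorem grad_eq_sum (R : EE → ℝ) (x : EE) :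
    gradient R x = ∑ j, pderiv j R x • EuclideanSpace.single j (1 : ℝ) := by
  ext i
  rw [grad_apply]
  simp [Finset.sum_apply, Pi.single_apply]

section field

variable {X : EuclideanSpace ℝ (Fin n) → EuclideanSpace ℝ (Fin n)}

theorem pderiv_comp_i (hX : ContDiff ℝ 1 X) (i j : Fin n) (x : EE) :
    pderiv j (fun y => X y i) x = (fderiv ℝ X x (EuclideanSpace.single j 1)) i := by
  have h1 := (hX.differentiable one_ne_zero x).hasFDerivAt
  have h2 := (EuclideanSpace.proj (𝕜 := ℝ) i).hasFDerivAt.comp x h1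
  unfold pderiv
  rw [show (fun y => X y i) = (EuclideanSpace.proj (𝕜 := ℝ) i) ∘ X from rfl, h2.fderiv]
  rfl

theorem dv_eq (hX : ContDiff ℝ 1 X) (x : EE) : dv X x = ∑ i, pderiv i (fun y => X y i) x := by
  unfold dv
  rw [LinearMap.trace_eq_sum_inner _ (EuclideanSpace.basisFun (Fin n) ℝ)]
  refine Finset.sum_congr rfl fun i _ => ?_
  rw [pderiv_comp_i hX, EuclideanSpace.basisFun_apply, EuclideanSpace.inner_single_left]
  simp

theorem inner_fderiv_grad (hX : ContDiff ℝ 1 X) (R : EE → ℝ) (x : EE) :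
    ⟪fderiv ℝ X x (gradient R x), gradient R x⟫ =
      ∑ i, ∑ j, (pderiv i R x * pderiv j R x) * pderiv j (fun y => X y i) x := by
  have h1 : ⟪fderiv ℝ X x (gradient R x), gradient R x⟫ =
      ∑ i, (fderiv ℝ X x (gradient R x)) i * pderiv i R x := by
    rw [PiLp.inner_apply]
    refine Finset.sum_congr rfl fun i _ => ?_
    rw [grad_apply]; simp [mul_comm]
  rw [h1]
  refine Finset.sum_congr rfl fun i _ => ?_
  have h2 : (fderiv ℝ X x (gradient R x)) i = ∑ j, pderiv j R x * pderiv j (fun y => X y i) x := by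
    conv_lhs => rw [grad_eq_sum R x]
    rw [map_sum, WithLp.ofLp_sum, Finset.sum_apply]
    refine Finset.sum_congr rfl fun j _ => ?_
    rw [map_smul, pderiv_comp_i hX]
    simp
  rw [h2, Finset.sum_mul]
  refine Finset.sum_congr rfl fun j _ => ?_
  ring

theorem cut_comp (hX : ContDiff ℝ 1 X) (hc : HasCompactSupport X) (hs : tsupport X ⊆ {0}ᶜ)
    (i : Fin n) : Cut ({0}ᶜ : Set EE) (fun y => ‖y‖ * X y i) := by
  have hsup : tsupport (fun y => ‖y‖ * X y i) ⊆ tsupport X := by
    apply closure_minimal _ (isClosed_tsupport X)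
    intro y hy
    apply subset_tsupport X
    intro h
    apply hy
    simp [h]
  refine ⟨?_, hc.of_isClosed_subset (isClosed_tsupport _) hsup, hsup.trans hs⟩
  rw [contDiff_iff_contDiffAt]
  intro x
  by_cases hx : x = 0
  · have h0 : (fun y : EE => ‖y‖ * X y i) =ᶠ[𝓝 x] fun _ => 0 := by
      have : (tsupport X)ᶜ ∈ 𝓝 x := by
        apply (isClosed_tsupport X).isOpen_compl.mem_nhds
        intro h
        exact hs h hx
      filter_upwards [this] with y hy
      rw [image_eq_zero_of_notMem_tsupport hy]; simp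
    exact contDiffAt_const.congr_of_eventuallyEq h0
  · have h1 : ContDiffAt ℝ 1 (fun y : EE => X y i) x :=
      ((EuclideanSpace.proj (𝕜 := ℝ) i).contDiff.comp hX).contDiffAt
    exact ((smooth_norm hx).of_le (by simp)).mul h1

theorem pderiv_cut (hX : ContDiff ℝ 1 X) {x : EE} (hx : x ≠ 0) (i j : Fin n) :
    pderiv j (fun y => ‖y‖ * X y i) x =
      ‖x‖ * pderiv j (fun y => X y i) x + X x i * (x j * ‖x‖⁻¹) := by
  have h1 : DifferentiableAt ℝ (fun y : EE => X y i) x :=
    ((EuclideanSpace.proj (𝕜 := ℝ) i).contDiff.comp hX).differentiable one_ne_zero x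
  rw [pderiv_mul (sm_diff (smooth_norm hx)) h1, pderiv_norm hx]

/-- the test function of the defect -/
def gX (X : EuclideanSpace ℝ (Fin n) → EuclideanSpace ℝ (Fin n)) (x : EuclideanSpace ℝ (Fin n)) :
    ℝ := ⟪x, X x⟫ * (‖x‖ ^ 2)⁻¹

theorem gX_cs (hc : HasCompactSupport X) : HasCompactSupport (gX X) := by
  refine hc.mono' ?_
  intro x hx
  apply subset_tsupport X
  intro h
  apply hx
  simp [gX, h]

theorem gX_cont (hX : Continuous X) (hs : tsupport X ⊆ {0}ᶜ) : Continuous (gX X) := by
  rw [continuous_iff_continuousAt]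
  intro x
  by_cases hx : x = 0
  · have h0 : gX X =ᶠ[𝓝 x] fun _ => 0 := by
      have : (tsupport X)ᶜ ∈ 𝓝 x := by
        apply (isClosed_tsupport X).isOpen_compl.mem_nhds
        intro h
        exact hs h hx
      filter_upwards [this] with y hy
      unfold gX
      rw [image_eq_zero_of_notMem_tsupport hy]; simp
    exact (continuousAt_congr h0).2 continuousAt_const
  · have h1 : ContinuousAt (fun y : EE => (‖y‖ ^ 2)⁻¹) x :=
      (continuous_norm.continuousAt.pow 2).inv₀ (pow_ne_zero 2 (norm_ne_zero_iff.2 hx))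
    unfold gX
    exact (continuousAt_id.inner hX.continuousAt).mul h1

end field

namespace Sol

variable {R : EuclideanSpace ℝ (Fin n) → ℝ} {ε : ℝ}

theorem integrable_wd_mul (hn : 2 ≤ n) (H : Sol R ε) {f : EE → ℝ} (hf : Continuous f)
    (hc : HasCompactSupport f) : Integrable fun x => wd R ε x * f x := by
  refine (H.integrable_wq_mul hn hf hc).mono
    (H.measurable_wd.mul hf.measurable).aestronglyMeasurable (Eventually.of_forall fun x => ?_)
  simp only [norm_mul, Real.norm_eq_abs]
  rw [abs_of_nonneg (H.wd_nonneg x), abs_of_nonneg (H.wq_nonneg x)]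
  gcongr
  exact H.wd_le_wq x

/-- **first variation of the Allen–Cahn varifold** -/
theorem stat_defect (hn : 2 ≤ n) (H : Sol R ε) {X : EE → EE} (hX : ContDiff ℝ 1 X)
    (hc : HasCompactSupport X) (hs : tsupport X ⊆ {0}ᶜ) :
    (∫ x, wq R ε x * dv X x) - ∫ x, ws R ε x * ⟪fderiv ℝ X x (gradient R x), gradient R x⟫
      = ∫ x, wd R ε x * gX X x := by
  have key := stress_identity H.acsol (fun i => cut_comp hX hc hs i)
  have hF : Continuous (fderiv ℝ X) := hX.continuous_fderiv one_ne_zero
  have hcF : HasCompactSupport (fderiv ℝ X) := hc.fderiv ℝ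
  have hdv : Continuous (dv X) := by
    have : dv X = fun x => ∑ i, (fderiv ℝ X x (EuclideanSpace.single i 1)) i := by
      funext x; rw [dv_eq hX]; exact Finset.sum_congr rfl fun i _ => pderiv_comp_i hX i i x
    rw [this]
    refine continuous_finsetSum _ fun i _ => ?_
    exact (EuclideanSpace.proj (𝕜 := ℝ) i).continuous.comp (hF.clm_apply continuous_const)
  have hcdv : HasCompactSupport (dv X) := by
    refine hcF.mono' ?_
    intro x hx
    apply subset_tsupport
    intro h
    apply hx
    simp [dv, h]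
  have hg := gX_cont hX.continuous hs
  have hgc := gX_cs (X := X) hc
  have i1 := H.integrable_wq_mul hn hdv hcdv
  have i2 := H.integrable_integrand hn hF hcF
  have i3 := H.integrable_wq_mul hn hg hgc
  have i4 := H.integrable_wd_mul hn hg hgc
  have e1 : ∫ x, (qq hw R ε x * ∑ i, pderiv i (fun y => ‖y‖ * X y i) x
        - ∑ i, ∑ j, SS R ε i j x * pderiv j (fun y => ‖y‖ * X y i) x)
      = ∫ x, 4 / 3 * (wq R ε x * dv X x
        - ws R ε x * ⟪fderiv ℝ X x (gradient R x), gradient R x⟫ + wq R ε x * gX X x) := by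
    have hae : ∀ᵐ x ∂(volume : Measure EE), x ≠ 0 := by
      have : Nontrivial EE := by
        apply Module.nontrivial_of_finrank_pos (R := ℝ)
        simp; omega
      exact compl_mem_ae_iff.2 (measure_singleton 0)
    refine integral_congr_ae ?_
    filter_upwards [hae] with x hx
    have hx' : ‖x‖ ≠ 0 := norm_ne_zero_iff.2 hx
    have a1 : ∑ i, pderiv i (fun y => ‖y‖ * X y i) x = ‖x‖ * dv X x + ‖x‖⁻¹ * ⟪x, X x⟫ := by
      rw [dv_eq hX, Finset.mul_sum, PiLp.inner_apply, Finset.mul_sum, ← Finset.sum_add_distrib]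
      refine Finset.sum_congr rfl fun i _ => ?_
      rw [pderiv_cut hX hx]
      simp; ring
    have a2 : ∑ i, ∑ j, SS R ε i j x * pderiv j (fun y => ‖y‖ * X y i) x =
        sg R ε x * ‖x‖ * ⟪fderiv ℝ X x (gradient R x), gradient R x⟫ := by
      rw [inner_fderiv_grad hX, Finset.mul_sum]
      refine Finset.sum_congr rfl fun i _ => ?_
      have b1 : ∀ j, SS R ε i j x * pderiv j (fun y => ‖y‖ * X y i) x =
          sg R ε x * ‖x‖ * (pderiv i R x * pderiv j R x * pderiv j (fun y => X y i) x)
          + sg R ε x * pderiv i R x * X x i * ‖x‖⁻¹ * (x j * pderiv j R x) := by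
        intro j
        rw [pderiv_cut hX hx]; unfold SS; ring
      rw [Finset.sum_congr rfl fun j _ => b1 j, Finset.sum_add_distrib, ← Finset.mul_sum,
        ← Finset.mul_sum, H.sm.euler hx, mul_zero, add_zero]
    rw [a1, a2]
    unfold wq ws gX
    field_simp
    ring
  have e2 : ∫ x, 1 / 2 * sg R ε x * ∑ i, pderiv i hw x * (‖x‖ * X x i)
      = ∫ x, -(4 / 3 * (wq R ε x * gX X x + wd R ε x * gX X x)) := by
    have hae : ∀ᵐ x ∂(volume : Measure EE), x ≠ 0 := by
      have : Nontrivial EE := by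
        apply Module.nontrivial_of_finrank_pos (R := ℝ)
        simp; omega
      exact compl_mem_ae_iff.2 (measure_singleton 0)
    refine integral_congr_ae ?_
    filter_upwards [hae] with x hx
    have hx' : ‖x‖ ≠ 0 := norm_ne_zero_iff.2 hx
    have a1 : ∑ i, pderiv i hw x * (‖x‖ * X x i) = -2 * (‖x‖⁻¹) ^ 3 * ⟪x, X x⟫ := by
      rw [PiLp.inner_apply, Finset.mul_sum]
      refine Finset.sum_congr rfl fun i _ => ?_
      rw [pderiv_hw hx]
      simp; field_simp
    rw [a1, wq_eq]
    unfold ws wd gX hw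
    field_simp
    ring
  have i12 : Integrable fun x => wq R ε x * dv X x
      - ws R ε x * ⟪fderiv ℝ X x (gradient R x), gradient R x⟫ := i1.sub i2
  rw [e1, e2, integral_neg, neg_neg, integral_const_mul, integral_const_mul,
    integral_add i12 i3, integral_sub i1 i2, integral_add i3 i4] at key
  linarith

end Sol

section seq

variable {ι : Type*} {l : Filter ι} {R : ι → EuclideanSpace ℝ (Fin n) → ℝ} {ε : ι → ℝ}

/-- **stationarity of the limit** -/
theorem statOn [l.NeBot] (hn : 2 ≤ n) (H : ∀ k, Sol (R k) (ε k))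
    (hQ : Tendsto (fun k => Qd (R k) (ε k)) l (𝓝 0)) {G : GV EE} (hM : MLim l R ε G.μ)
    (hS : ∀ F : EE → EE →L[ℝ] EE, Continuous F → HasCompactSupport F →
      Tendsto (fun k => ∫ x, ws (R k) (ε k) x * ⟪F x (gradient (R k) x), gradient (R k) x⟫)
        l (𝓝 (G.S F))) : G.StatOn {0}ᶜ := by
  intro X hX hc hs
  have hF : Continuous (fderiv ℝ X) := hX.continuous_fderiv one_ne_zero
  have hcF : HasCompactSupport (fderiv ℝ X) := hc.fderiv ℝ
  have hdv : Continuous (dv X) := by
    have : dv X = fun x => ∑ i, (fderiv ℝ X x (EuclideanSpace.single i 1)) i := by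
      funext x; rw [dv_eq hX]; exact Finset.sum_congr rfl fun i _ => pderiv_comp_i hX i i x
    rw [this]
    refine continuous_finsetSum _ fun i _ => ?_
    exact (EuclideanSpace.proj (𝕜 := ℝ) i).continuous.comp (hF.clm_apply continuous_const)
  have hcdv : HasCompactSupport (dv X) := by
    refine hcF.mono' ?_
    intro x hx
    apply subset_tsupport
    intro h
    apply hx
    simp [dv, h]
  have h1 := (hM _ hdv hcdv).sub (hS _ hF hcF)
  have h2 := tendsto_wd hn H hQ (gX_cont hX.continuous hs) (gX_cs hc)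
  have h3 := h1.congr fun k => (H k).stat_defect hn hX hc hs
  have := tendsto_nhds_unique h3 h2
  linarith

end seq

end Crest.Agent.R246.Lim538
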