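import Crest.Agent.R246.Psi3_348
import Crest.Agent.R246.C5_378
import Crest.Agent.R246.ThetaK_688
import Crest.Agent.Lib.BorsukUlam

/-!
# The lower bound for odd families (Borsuk-Ulam + kernel inequality)
-/

set_option autoImplicit false
set_option linter.unusedSectionVars false
set_option linter.unusedSimpArgs false
noncomputable section
open MeasureTheory Set Filter Topology Metric
open scoped RealInnerProductSpace ContDiff NNReal

namespace Crest.Agent.R246.Low348

open Fam348 Psi348 C378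
open Crest.GeometryTopology.SphereImmersion

/-! ### generalities -/

section gen

variable {E : Type*} [NormedAddCommGroup E] [InnerProductSpace ℝ E]

/-- `Φ(u) = u - u³/3`. -/
def phiC (u : C(sphere (0 : E) 1, ℝ)) : C(sphere (0 : E) 1, ℝ) :=
  u - (1 / 3 : ℝ) • (u * (u * u))

@[simp] lemma phiC_apply (u : C(sphere (0 : E) 1, ℝ)) (y : sphere (0 : E) 1) :
    phiC u y = u y - 1 / 3 * (u y * (u y * u y)) := by
  simp [phiC]

lemma phiC_neg (u : C(sphere (0 : E) 1, ℝ)) : phiC (-u) = - phiC u := by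
  ext y
  simp only [phiC_apply, ContinuousMap.neg_apply]
  ring

lemma ext_phiC (u : C(sphere (0 : E) 1, ℝ)) (x : E) :
    ext (phiC u) x = ext u x - 1 / 3 * (ext u x * (ext u x * ext u x)) := by
  by_cases hx : x = 0
  · rw [hx, ext_zero, ext_zero]; ring
  · rw [ext_of_ne _ hx, ext_of_ne _ hx, phiC_apply]

variable [FiniteDimensional ℝ E] [MeasurableSpace E] [BorelSpace E]

lemma continuous_phiC : Continuous fun u : C(sphere (0 : E) 1, ℝ) => phiC u := by
  have h : Continuous fun u : C(sphere (0 : E) 1, ℝ) => u := continuous_id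
  exact h.sub ((h.mul (h.mul h)).const_smul (1 / 3 : ℝ))

lemma C1_phiC {u : C(sphere (0 : E) 1, ℝ)} (hu : C1 u) : C1 (phiC u) := by
  unfold C1 at hu ⊢
  have : ext (phiC u) = fun x => ext u x - 1 / 3 * (ext u x * (ext u x * ext u x)) := by
    funext x; exact ext_phiC u x
  rw [this]
  exact hu.sub (contDiffOn_const.mul (hu.mul (hu.mul hu)))

lemma gradient_phiC {u : C(sphere (0 : E) 1, ℝ)} (hu : C1 u) (y : sphere (0 : E) 1) :
    gradient (ext (phiC u)) (y : E) = (1 - u y ^ 2) • gradient (ext u) (y : E) := by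
  have h1 : ext (phiC u) = fun x => ext u x - 1 / 3 * (ext u x * (ext u x * ext u x)) := by
    funext x; exact ext_phiC u x
  have hd := (hu.differentiableAt y).hasFDerivAt
  have h2 : HasFDerivAt (fun x => ext u x - 1 / 3 * (ext u x * (ext u x * ext u x)))
      (fderiv ℝ (ext u) y - (1 / 3 : ℝ) • (ext u y • (ext u y • fderiv ℝ (ext u) y +
        ext u y • fderiv ℝ (ext u) y) + (ext u y * ext u y) • fderiv ℝ (ext u) y)) (y : E) :=
    hd.sub ((hd.mul (hd.mul hd)).const_mul (1 / 3 : ℝ))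
  unfold gradient
  rw [h1, h2.fderiv, ext_coe, ← map_smul]
  congr 1
  ext v
  simp only [sub_apply, smul_apply,
    add_apply, smul_eq_mul]
  ring

/-- continuity of the moments -/
lemma continuous_moment {F : Type*} [NormedAddCommGroup F] [NormedSpace ℝ F] [CompleteSpace F]
    (g : sphere (0 : E) 1 → F) (hg : Continuous g) (hg1 : ∀ y, ‖g y‖ ≤ 1) :
    Continuous fun f : C(sphere (0 : E) 1, ℝ) => ∫ y : sphere (0 : E) 1, f y • g y ∂(sg E) := by
  refine (LipschitzWith.of_dist_le_mul (K := ((sg E).real univ).toNNReal)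
    fun f h => ?_).continuous
  have hi : ∀ f : C(sphere (0 : E) 1, ℝ), Integrable (fun y => f y • g y) (sg E) := by
    intro f
    have hc : Continuous fun y => f y • g y := f.continuous.smul hg
    have h2 := hc.continuousOn.integrableOn_compact (μ := sg E) isCompact_univ
    rwa [integrableOn_univ] at h2
  rw [Real.coe_toNNReal _ measureReal_nonneg, dist_eq_norm, ← integral_sub (hi f) (hi h), mul_comm]
  have hb : ∀ᵐ y ∂(sg E), ‖f y • g y - h y • g y‖ ≤ dist f h := by
    refine Filter.Eventually.of_forall fun y => ?_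
    rw [← sub_smul, norm_smul, ← dist_eq_norm]
    calc dist (f y) (h y) * ‖g y‖ ≤ dist (f y) (h y) * 1 :=
          mul_le_mul_of_nonneg_left (hg1 y) dist_nonneg
      _ ≤ dist f h := by rw [mul_one]; exact ContinuousMap.dist_apply_le_dist y
  exact norm_integral_le_of_norm_le_const (μ := sg E) hb

/-- Borsuk-Ulam: some member is balanced. -/
lemma exists_balanced {V : Type*} [NormedAddCommGroup V] [NormedSpace ℝ V] [FiniteDimensional ℝ V]
    (hV : Module.finrank ℝ E + 1 < Module.finrank ℝ V)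
    (U : C(sphere (0 : V) 1, C(sphere (0 : E) 1, ℝ))) (hodd : ∀ p, U (-p) = - U p) :
    ∃ p, ∫ y : sphere (0 : E) 1, phiC (U p) y ∂(sg E) = 0 ∧
      ∫ y : sphere (0 : E) 1, phiC (U p) y • (y : E) ∂(sg E) = 0 := by
  have c1 : Continuous fun p => ∫ y : sphere (0 : E) 1, phiC (U p) y • (1 : ℝ) ∂(sg E) :=
    (continuous_moment (fun _ => (1 : ℝ)) continuous_const (fun _ => by simp)).comp
      (continuous_phiC.comp U.continuous)
  have c2 : Continuous fun p => ∫ y : sphere (0 : E) 1, phiC (U p) y • (y : E) ∂(sg E) :=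
    (continuous_moment (fun y : sphere (0 : E) 1 => (y : E)) continuous_subtype_val
      (fun y => by simp)).comp
      (continuous_phiC.comp U.continuous)
  obtain ⟨p, hp⟩ := Crest.Agent.Lib.BorsukUlam.exists_zero_of_odd_sphere (W := V) (E := ℝ × E)
    (by rw [Module.finrank_prod, Module.finrank_self]; omega)
    (fun p => (∫ y : sphere (0 : E) 1, phiC (U p) y • (1 : ℝ) ∂(sg E),
      ∫ y : sphere (0 : E) 1, phiC (U p) y • (y : E) ∂(sg E))) (c1.prodMk c2) (by
      intro p
      rw [hodd, phiC_neg]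
      ext
      · simp only [ContinuousMap.neg_apply, neg_smul, integral_neg, Prod.neg_mk]
      · simp only [ContinuousMap.neg_apply, neg_smul, integral_neg, Prod.neg_mk])
  refine ⟨p, ?_, ?_⟩
  · have := congrArg Prod.fst hp
    simpa using this
  · have := congrArg Prod.snd hp
    simpa using this

end gen

/-! ### the energy lower bound -/

section low

variable {m : ℕ}

lemma toSphere_real (n : ℕ) : (muS (n + 1)).real univ = unitSphereArea n := by
  unfold muS
  rw [measureReal_def, ThetaK688.toSphere_univ, ENNReal.toReal_ofReal]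
  exact (ThetaK688.unitSphereArea_pos n).le

lemma slip {u : C(sphere (0 : En (m + 3)) 1, ℝ)} (hu : C1 u) :
    SLip (ext u) (gradient (ext u)) := by
  have hcont := hu.continuous_gradient
  obtain ⟨D, hD⟩ := isCompact_univ.exists_bound_of_continuousOn hcont.continuousOn
  obtain ⟨M, hM⟩ := isCompact_univ.exists_bound_of_continuousOn u.continuous.continuousOn
  have hD' : ∀ y : sphere (0 : En (m + 3)) 1, ‖fderiv ℝ (ext u) (y : En (m + 3))‖ ≤ max D 0 := by
    intro y
    rw [← norm_gradient]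
    exact (hD y (mem_univ y)).trans (le_max_left _ _)
  have hM' : ∀ y : sphere (0 : En (m + 3)) 1, |u y| ≤ max M 0 := fun y =>
    (hM y (mem_univ y)).trans (le_max_left _ _)
  have hl := lip_of_grad hu (le_max_right D 0) (le_max_right M 0) hD' hM'
  refine ⟨⟨(2 * max D 0 + 2 * max M 0).toNNReal, ?_⟩, ?_, ⟨D, ?_⟩, ?_⟩
  · refine LipschitzOnWith.of_dist_le_mul fun x hx y hy => ?_
    have := hl ⟨x, hx⟩ ⟨y, hy⟩
    rw [Real.coe_toNNReal _ (by positivity), Real.dist_eq]
    rw [← ext_coe, ← ext_coe] at this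
    exact this
  · exact (InnerProductSpace.toDual ℝ (En (m + 3))).symm.continuous.measurable.comp
      (measurable_fderiv ℝ (ext u))
  · exact Filter.Eventually.of_forall fun y => hD y (mem_univ y)
  · refine Filter.Eventually.of_forall fun y => ?_
    have h1 := (hu.differentiableAt y).hasGradientAt
    exact h1.hasFDerivAt.hasFDerivWithinAt

lemma scal1 {S I J : ℝ} (hS : S ≠ 0) :
    J - 2 * (I / S) * I + S * (I / S) ^ 2 = J - I ^ 2 / S := by
  field_simp
  ring

lemma scal2 {v : ℝ} (h4 : |v| ≤ 1) : 2 / 3 * (1 - (1 - v ^ 2)) ≤ |v - 1 / 3 * (v * (v * v))| := by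
  have h3 : v - 1 / 3 * (v * (v * v)) = v * (1 - v ^ 2 / 3) := by ring
  rw [h3, abs_mul]
  set t := |v| with ht
  have h5 : v ^ 2 = t ^ 2 := (sq_abs _).symm
  have h6 : 0 ≤ t := abs_nonneg _
  have h7 : |1 - v ^ 2 / 3| = 1 - t ^ 2 / 3 := by
    rw [h5, abs_of_nonneg]; nlinarith
  rw [h7, h5]
  nlinarith [mul_nonneg h6 (mul_nonneg (by linarith : 0 ≤ 1 - t) (by linarith : 0 ≤ 3 + t))]

lemma scal3 {S κ a s I X Y e : ℝ} (hS : 0 < S) (hκ : 0 < κ) (ha : 0 < a) (hI : I ≤ S * s)
    (hX : 2 / 3 * (S - I) ≤ X) (hb : 2 * κ * a * X ≤ S * Y) (hY : Y ≤ e) :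
    4 / 3 * κ * a * (1 - s) ≤ e := by
  have h1 : 2 / 3 * (S * (1 - s)) ≤ X := by linarith
  have h2 : 2 * κ * a * (2 / 3 * (S * (1 - s))) ≤ S * e :=
    (mul_le_mul_of_nonneg_left h1 (by positivity)).trans
      (hb.trans (mul_le_mul_of_nonneg_left hY hS.le))
  have h3 : S * (4 / 3 * κ * a * (1 - s)) ≤ S * e := by
    refine le_trans (le_of_eq ?_) h2
    ring
  exact le_of_mul_le_mul_left h3 hS

/-- **Energy lower bound** for balanced functions. -/
theorem energy_lower {ε A : ℝ} (hε : 0 < ε) {u : C(sphere (0 : En (m + 3)) 1, ℝ)} (hu : C1 u)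
    (hub : ∀ y, |u y| ≤ 1) (hA : Psi348.En ε u ≤ A)
    (h0 : ∫ y : sphere (0 : En (m + 3)) 1, phiC u y ∂(sg (En (m + 3))) = 0)
    (h1 : ∫ y : sphere (0 : En (m + 3)) 1, phiC u y • (y : En (m + 3)) ∂(sg (En (m + 3))) = 0) :
    4 / 3 * kapm (m + 1) * unitSphereArea (m + 1) *
      (1 - Real.sqrt (2 * ε * A / unitSphereArea (m + 2))) ≤ Psi348.En ε u := by
  set S := unitSphereArea (m + 2) with hS
  have hS0 : 0 < S := ThetaK688.unitSphereArea_pos _
  have hS1 : (muS (m + 3)).real univ = S := toSphere_real (m + 2)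
  have hS2 : (muS (m + 2)).real univ = unitSphereArea (m + 1) := toSphere_real (m + 1)
  have hw := slip (C1_phiC hu)
  have hb := balanced_ineq hw (by
      simpa only [ext_coe] using h0) (by simpa only [ext_coe] using h1)
  simp only [ext_coe] at hb
  rw [hS1, hS2] at hb
  -- gradient term
  have cg := hu.continuous_gradient
  have cgw := (C1_phiC hu).continuous_gradient
  have hIE : Integrable (fun y : sphere (0 : En (m + 3)) 1 =>
      ε / 2 * ‖gradient (ext u) (y : En (m + 3))‖ ^ 2 + (1 - u y ^ 2) ^ 2 / (2 * ε))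
      (sg (En (m + 3))) := by
    apply integrable_cont
    exact (continuous_const.mul (cg.norm.pow 2)).add
      (((continuous_const.sub (u.continuous.pow 2)).pow 2).div_const _)
  have hgrad : ∫ y : S1 (m + 3), ‖C378.gT (gradient (ext (phiC u))) (y : En (m + 3))‖ ∂(muS (m + 3))
      ≤ Psi348.En ε u := by
    rw [Psi348.En_eq]
    refine integral_mono_of_nonneg (Filter.Eventually.of_forall fun y => norm_nonneg _) hIE
      (Filter.Eventually.of_forall fun y => ?_)
    have hy : ‖(y : En (m + 3))‖ = 1 := by simp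
    refine (norm_gT_le _ hy).trans ?_
    rw [gradient_phiC hu y, norm_smul, Real.norm_eq_abs]
    have h2 : |1 - u y ^ 2| * ‖gradient (ext u) (y : En (m + 3))‖ ≤
        ε / 2 * ‖gradient (ext u) (y : En (m + 3))‖ ^ 2 + (1 - u y ^ 2) ^ 2 / (2 * ε) := by
      set a := ‖gradient (ext u) (y : En (m + 3))‖
      set b := |1 - u y ^ 2| with hbdef
      have hb2 : (1 - u y ^ 2) ^ 2 = b ^ 2 := (sq_abs _).symm
      rw [hb2]
      have h3 : 0 ≤ (ε * a - b) ^ 2 / (2 * ε) := by positivity
      have h4 : (ε * a - b) ^ 2 / (2 * ε) = ε / 2 * a ^ 2 + b ^ 2 / (2 * ε) - b * a := by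
        field_simp
        ring
      linarith
    exact h2
  -- the potential
  set I := ∫ y : sphere (0 : En (m + 3)) 1, (1 - u y ^ 2) ∂(sg (En (m + 3))) with hI
  set J := ∫ y : sphere (0 : En (m + 3)) 1, (1 - u y ^ 2) ^ 2 ∂(sg (En (m + 3))) with hJ
  have cI : Continuous fun y : sphere (0 : En (m + 3)) 1 => 1 - u y ^ 2 :=
    continuous_const.sub (u.continuous.pow 2)
  have hIi := integrable_cont cI
  have hJi : Integrable (fun y : sphere (0 : En (m + 3)) 1 => (1 - u y ^ 2) ^ 2)
      (sg (En (m + 3))) := integrable_cont (cI.pow 2)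
  have hJA : J ≤ 2 * ε * A := by
    have h2 : J / (2 * ε) ≤ Psi348.En ε u := by
      rw [Psi348.En_eq, hJ, ← integral_div]
      refine integral_mono (hJi.div_const _) hIE fun y => ?_
      have : 0 ≤ ε / 2 * ‖gradient (ext u) (y : En (m + 3))‖ ^ 2 := by positivity
      show (1 - u y ^ 2) ^ 2 / (2 * ε) ≤ _
      linarith
    have h3 := h2.trans hA
    rw [div_le_iff₀ (by positivity)] at h3
    linarith
  have hI0 : 0 ≤ I := integral_nonneg fun y => by
    have := hub y
    have h2 : u y ^ 2 ≤ 1 := by rw [sq_le_one_iff_abs_le_one]; exact this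
    show 0 ≤ 1 - u y ^ 2
    linarith
  have hsgS : (sg (En (m + 3))).real univ = S := hS1
  have hIJ : I ^ 2 ≤ S * J := by
    have h2 : 0 ≤ ∫ y : sphere (0 : En (m + 3)) 1, ((1 - u y ^ 2) - I / S) ^ 2
        ∂(sg (En (m + 3))) := integral_nonneg fun y => sq_nonneg _
    have h3 : ∫ y : sphere (0 : En (m + 3)) 1, ((1 - u y ^ 2) - I / S) ^ 2
        ∂(sg (En (m + 3))) = J - I ^ 2 / S := by
      have e1 : ∀ y : sphere (0 : En (m + 3)) 1, ((1 - u y ^ 2) - I / S) ^ 2 =
          (1 - u y ^ 2) ^ 2 - (2 * (I / S)) * (1 - u y ^ 2) + (I / S) ^ 2 := by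
        intro y; ring
      simp_rw [e1]
      have hs1 : Integrable (fun y : sphere (0 : En (m + 3)) 1 =>
          (2 * (I / S)) * (1 - u y ^ 2)) (sg (En (m + 3))) := hIi.const_mul _
      have hs2 : Integrable (fun y : sphere (0 : En (m + 3)) 1 => (1 - u y ^ 2) ^ 2 -
          (2 * (I / S)) * (1 - u y ^ 2)) (sg (En (m + 3))) := hJi.sub hs1
      rw [integral_add hs2 (integrable_const _),
        integral_sub hJi hs1, integral_const_mul, integral_const, hsgS, smul_eq_mul]
      exact scal1 hS0.ne'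
    rw [h3] at h2
    have h4 : I ^ 2 / S ≤ J := by linarith
    rw [div_le_iff₀ hS0] at h4
    linarith
  have hIle : I ≤ S * Real.sqrt (2 * ε * A / S) := by
    have h2 : I ^ 2 ≤ S * (2 * ε * A) := hIJ.trans (mul_le_mul_of_nonneg_left hJA hS0.le)
    have h3 : S * (2 * ε * A) = (S * Real.sqrt (2 * ε * A / S)) ^ 2 := by
      rw [mul_pow, Real.sq_sqrt]
      · field_simp
      · have : 0 ≤ 2 * ε * A := by nlinarith [sq_nonneg I]
        positivity
    rw [h3] at h2
    exact (pow_le_pow_iff_left₀ hI0 (by positivity) two_ne_zero).1 h2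
  -- lower bound of `∫ |w|`
  have hwl : 2 / 3 * (S - I) ≤ ∫ y : S1 (m + 3), |phiC u y| ∂(muS (m + 3)) := by
    have h2 : 2 / 3 * (S - I) = ∫ y : S1 (m + 3), 2 / 3 * (1 - (1 - u y ^ 2)) ∂(muS (m + 3)) := by
      rw [integral_const_mul, integral_sub (integrable_const _) hIi, integral_const]
      rw [hS1, smul_eq_mul, mul_one]
    rw [h2]
    refine integral_mono (((integrable_const _).sub hIi).const_mul _)
      (integrable_cont (phiC u).continuous.abs) fun y => ?_
    show 2 / 3 * (1 - (1 - u y ^ 2)) ≤ |phiC u y|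
    rw [phiC_apply]
    exact scal2 (hub y)
  -- conclusion
  have hk : 1 < kapm (m + 1) := one_lt_kapm _
  have hk2 : 0 < unitSphereArea (m + 1) := ThetaK688.unitSphereArea_pos _
  exact scal3 hS0 (by linarith) hk2 hIle hwl hb hgrad

/-- **Lower bound for odd families**. -/
theorem lower_bound {ε A : ℝ} (hε : 0 < ε) {V : Type*} [NormedAddCommGroup V] [NormedSpace ℝ V]
    [FiniteDimensional ℝ V] (hV : Module.finrank ℝ V = m + 5)
    (U : C(sphere (0 : V) 1, C(sphere (0 : En (m + 3)) 1, ℝ))) (hodd : ∀ p, U (-p) = - U p)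
    (hU : ∀ p y, |U p y| ≤ 1) (hC : ∀ p, C1 (U p)) (hA : ∀ p, Psi348.En ε (U p) ≤ A) :
    ∃ p, 4 / 3 * kapm (m + 1) * unitSphereArea (m + 1) *
      (1 - Real.sqrt (2 * ε * A / unitSphereArea (m + 2))) ≤ Psi348.En ε (U p) := by
  obtain ⟨p, h0, h1⟩ := exists_balanced (E := En (m + 3)) (V := V)
    (by rw [finrank_euclideanSpace_fin, hV]; omega) U hodd
  exact ⟨p, energy_lower hε (hC p) (hU p) (hA p) h0 h1⟩

end low

end Crest.Agent.R246.Low348
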