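import Crest.Agent.R246.MSMain_852

/-!
# R246-F (helper852): Lemma MS from its leaves
-/

set_option autoImplicit false
set_option linter.unusedSectionVars false

namespace Crest.Agent.R246.MS852

open MeasureTheory Metric Set InnerProductSpace Filter Topology
open scoped RealInnerProductSpace Gradient ENNReal

section
variable {E : Type*} [NormedAddCommGroup E] [InnerProductSpace ℝ E] [FiniteDimensional ℝ E]
  [MeasurableSpace E] [BorelSpace E] {a : E} {ε η : ℝ} {h r : E → ℝ}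

/-- decomposition of `J 0 ρ1` -/
theorem Hyp.J_split (H : Hyp a ε η h r) {ρ1 : ℝ} (hρ0 : 0 < ρ1) (hρ1 : ρ1 ≤ 1 / 10)
    {B T : Set E} (hB : MeasurableSet B) (hT : MeasurableSet T) (hB1 : B ⊆ ball 0 (4 / 5)) :
    J ε h r 0 ρ1 ≤ (∫ x in ball 0 ρ1 \ (B ∪ T), q ε h r x * psi (‖x‖ ^ 2 / ρ1 ^ 2)) +
      En ε h r (ball 0 (4 / 5) ∩ T) + ∫ x in B, q ε h r x := by
  have hct : Continuous fun x : E => ‖x‖ ^ 2 / ρ1 ^ 2 := by fun_prop
  have hc : Continuous fun x : E => q ε h r x * psi (‖x‖ ^ 2 / ρ1 ^ 2) :=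
    H.contq.mul (continuous_psi.comp hct)
  set A : Set E := ball 0 ρ1 \ (B ∪ T) with hA
  have hAm : MeasurableSet A := measurableSet_ball.diff (hB.union hT)
  have hA2 : A ⊆ ball 0 2 := sdiff_subset.trans (ball_subset_ball (by linarith))
  have hT2 : ball (0 : E) (4 / 5) ∩ T ⊆ ball 0 2 :=
    inter_subset_left.trans (ball_subset_ball (by norm_num))
  have hTm : MeasurableSet (ball (0 : E) (4 / 5) ∩ T) := measurableSet_ball.inter hT
  have hB2 : B ⊆ ball 0 2 := hB1.trans (ball_subset_ball (by norm_num))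
  have e1 : ∀ {f : E → ℝ} {s : Set E}, s ⊆ ball 0 2 → MeasurableSet s →
      ∫ x in s, f x = ∫ x in ball 0 2, s.indicator f x := by
    intro f s hs hm
    rw [setIntegral_indicator hm, inter_eq_self_of_subset_right hs]
  unfold En
  rw [e1 hA2 hAm, e1 hT2 hTm, e1 hB2 hB]
  have i1 : IntegrableOn (A.indicator fun x => q ε h r x * psi (‖x‖ ^ 2 / ρ1 ^ 2)) (ball 0 2) :=
    (integrableOn_ball hc 0 2).indicator hAm
  have i2 : IntegrableOn ((ball (0 : E) (4 / 5) ∩ T).indicator fun x => q ε h r x) (ball 0 2) :=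
    (integrableOn_ball H.contq 0 2).indicator hTm
  have i3 : IntegrableOn (B.indicator fun x => q ε h r x) (ball 0 2) :=
    (integrableOn_ball H.contq 0 2).indicator hB
  have hadd : ∫ x in ball (0 : E) 2,
      (A.indicator (fun x => q ε h r x * psi (‖x‖ ^ 2 / ρ1 ^ 2)) x +
      (ball (0 : E) (4 / 5) ∩ T).indicator (fun x => q ε h r x) x +
      B.indicator (fun x => q ε h r x) x) =
      (∫ x in ball (0 : E) 2, A.indicator (fun x => q ε h r x * psi (‖x‖ ^ 2 / ρ1 ^ 2)) x) +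
      (∫ x in ball (0 : E) 2, (ball (0 : E) (4 / 5) ∩ T).indicator (fun x => q ε h r x) x) +
      ∫ x in ball (0 : E) 2, B.indicator (fun x => q ε h r x) x := by
    have u1 := integral_add i1 i2
    have u2 := integral_add (i1.add i2) i3
    simp only [Pi.add_apply] at u2
    rw [u2, u1]
  refine le_trans ?_ hadd.le
  unfold J
  have hc0 : Continuous fun x : E => q ε h r x * psi (‖x - 0‖ ^ 2 / ρ1 ^ 2) := by
    simpa only [sub_zero] using hc
  apply setIntegral_mono_on (integrableOn_ball hc0 0 2) ((i1.add i2).add i3) measurableSet_ball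
  intro x hx
  show q ε h r x * psi (‖x - 0‖ ^ 2 / ρ1 ^ 2) ≤
    A.indicator (fun x => q ε h r x * psi (‖x‖ ^ 2 / ρ1 ^ 2)) x +
      (ball (0 : E) (4 / 5) ∩ T).indicator (fun x => q ε h r x) x +
      B.indicator (fun x => q ε h r x) x
  have q0 := H.q_nonneg hx
  have n1 : 0 ≤ A.indicator (fun x => q ε h r x * psi (‖x‖ ^ 2 / ρ1 ^ 2)) x := by
    by_cases h' : x ∈ A
    · rw [indicator_of_mem h']; exact mul_nonneg q0 (psi_nonneg _)
    · rw [indicator_of_notMem h']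
  have n2 : 0 ≤ (ball (0 : E) (4 / 5) ∩ T).indicator (fun x => q ε h r x) x := by
    by_cases h' : x ∈ ball (0 : E) (4 / 5) ∩ T
    · rw [indicator_of_mem h']; exact q0
    · rw [indicator_of_notMem h']
  have n3 : 0 ≤ B.indicator (fun x => q ε h r x) x := by
    by_cases h' : x ∈ B
    · rw [indicator_of_mem h']; exact q0
    · rw [indicator_of_notMem h']
  have p1 := psi_le_one (show 0 ≤ ‖x - 0‖ ^ 2 / ρ1 ^ 2 by positivity)
  have p0 := psi_nonneg (‖x - 0‖ ^ 2 / ρ1 ^ 2)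
  have hle : q ε h r x * psi (‖x - 0‖ ^ 2 / ρ1 ^ 2) ≤ q ε h r x := mul_le_of_le_one_right q0 p1
  by_cases hxρ : x ∈ ball (0 : E) ρ1
  · by_cases hxB : x ∈ B
    · have : B.indicator (fun x => q ε h r x) x = q ε h r x := indicator_of_mem hxB _
      linarith
    · by_cases hxT : x ∈ T
      · have : (ball (0 : E) (4 / 5) ∩ T).indicator (fun x => q ε h r x) x = q ε h r x :=
          indicator_of_mem (show x ∈ ball (0 : E) (4 / 5) ∩ T from
            ⟨ball_subset_ball (by linarith) hxρ, hxT⟩) _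
        linarith
      · have hxA : x ∈ A := ⟨hxρ, fun h' => h'.elim hxB hxT⟩
        have : A.indicator (fun x => q ε h r x * psi (‖x‖ ^ 2 / ρ1 ^ 2)) x =
          q ε h r x * psi (‖x - 0‖ ^ 2 / ρ1 ^ 2) := by
            rw [indicator_of_mem hxA, sub_zero]
        linarith
  · rw [psin_eq_zero hρ0 hxρ, mul_zero]
    linarith

end

set_option maxHeartbeats 2000000 in
/-- LEMMA MS from the leaves -/
theorem stMS_of (E : Type*) [NormedAddCommGroup E] [InnerProductSpace ℝ E]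
    [FiniteDimensional ℝ E] [MeasurableSpace E] [BorelSpace E] (d : ℕ)
    (hDef : StDefect E) (hTail : StTail E) (hVit : StVit E d) (hLow : StLow E d)
    (hVert : StVert E d) (hSlab : StSlab E d) (hSlice : StSlice E d) : StMS E d := by
  intro hd δ0 hδ0
  have hcp := cpsi_pos d
  obtain ⟨Cd, hCd, hdef⟩ := hDef
  obtain ⟨Ct, hCt, htail⟩ := hTail
  obtain ⟨Cs, hCs, hslab⟩ := hSlab hd
  obtain ⟨c, hc⟩ : ∃ x : ℝ, x = 4 / 3 * cpsi d := ⟨_, rfl⟩
  rw [← hc]
  have hc0 : 0 < c := by rw [hc]; linarith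
  obtain ⟨δ, hδ⟩ : ∃ x : ℝ, x = min δ0 1 := ⟨_, rfl⟩
  have hδp : 0 < δ := by rw [hδ]; exact lt_min hδ0 one_pos
  have hδ1 : δ ≤ 1 := by rw [hδ]; exact min_le_right _ _
  have hδδ : δ ≤ δ0 := by rw [hδ]; exact min_le_left _ _
  have hδc : 0 < δ * c := mul_pos hδp hc0
  obtain ⟨M, hM⟩ : ∃ x : ℝ, x = 56 * c := ⟨_, rfl⟩
  have hM0 : 0 < M := by rw [hM]; linarith
  obtain ⟨G, hG⟩ : ∃ x : ℝ, x = 3 * 20 ^ d * M + 1 := ⟨_, rfl⟩
  have hG1 : 1 ≤ G := by
    have : 0 ≤ 3 * 20 ^ d * M := by positivity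
    rw [hG]; linarith
  have hG0 : 0 < G := by linarith
  -- choice of ρ1
  obtain ⟨P, hP⟩ : ∃ x : ℝ, x = 22 * 2 ^ d * M := ⟨_, rfl⟩
  have hP0 : 0 < P := by rw [hP]; positivity
  obtain ⟨ρ1, hρ⟩ : ∃ x : ℝ, x = min (1 / 10) (δ * c / (8 * P)) := ⟨_, rfl⟩
  have hρ0 : 0 < ρ1 := by
    rw [hρ]; exact lt_min (by norm_num) (div_pos hδc (by positivity))
  have hρ1 : ρ1 ≤ 1 / 10 := by rw [hρ]; exact min_le_left _ _
  have c1 : 22 * 2 ^ d * ρ1 * M ≤ δ * c / 8 := by
    have h1 : ρ1 ≤ δ * c / (8 * P) := by rw [hρ]; exact min_le_right _ _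
    rw [le_div_iff₀ (by positivity)] at h1
    have : 22 * 2 ^ d * ρ1 * M = ρ1 * P := by rw [hP]; ring
    rw [this]; linarith
  -- choice of K
  have hCG : 0 < Cs * G := mul_pos hCs hG0
  obtain ⟨K, hK⟩ : ∃ x : ℝ, x = 1 + 8 * (Cs * G) / (δ * c) := ⟨_, rfl⟩
  have hK1 : 1 ≤ K := by
    have : 0 ≤ 8 * (Cs * G) / (δ * c) := by positivity
    rw [hK]; linarith
  have hK0 : 0 < K := by linarith
  have c2 : Cs * G * (1 / K ^ 2) ≤ δ * c / 8 := by
    have h1 : 8 * (Cs * G) / (δ * c) ≤ K ^ 2 := by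
      have : 8 * (Cs * G) / (δ * c) ≤ K := by rw [hK]; linarith
      nlinarith
    rw [div_le_iff₀ hδc] at h1
    rw [mul_one_div, div_le_iff₀ (by positivity)]
    linarith
  -- choice of S
  have hρd : 0 < ρ1 ^ d := pow_pos hρ0 d
  have hM1 : 0 < M + 1 := by linarith
  obtain ⟨S, hS⟩ : ∃ x : ℝ, x = 1 + 4 * (Ct * (M + 1)) / (δ * c * ρ1 ^ d) := ⟨_, rfl⟩
  have hS1 : 1 ≤ S := by
    have : 0 ≤ 4 * (Ct * (M + 1)) / (δ * c * ρ1 ^ d) := by positivity
    rw [hS]; linarith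
  have hS0 : 0 < S := by linarith
  have cS : Ct * (M + 1) / S ≤ δ * c * ρ1 ^ d / 4 := by
    have h1 : 4 * (Ct * (M + 1)) / (δ * c * ρ1 ^ d) ≤ S := by rw [hS]; linarith
    rw [div_le_iff₀ (by positivity)] at h1
    rw [div_le_iff₀ hS0]
    linarith
  obtain ⟨ω, hω⟩ : ∃ x : ℝ, x = δ / 16 := ⟨_, rfl⟩
  have hω0 : 0 < ω := by rw [hω]; linarith
  obtain ⟨L2, hL2, lamL, hlamL, ηL, hηL, hlow⟩ := hLow hd S ω hS1 hω0
  obtain ⟨lamV, hlamV, ηV, hηV, hvert⟩ := hVert hd S ω (4 * L2) hS1 hω0 (by linarith)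
  -- choice of lam
  obtain ⟨e0, he0⟩ : ∃ x : ℝ, x = δ * c / (8 * (Cs * G * K ^ 2)) := ⟨_, rfl⟩
  have he0p : 0 < e0 := by rw [he0]; positivity
  obtain ⟨lam, hlamdef⟩ : ∃ x : ℝ, x = min (min lamL lamV) (min 1 (e0 ^ 2)) := ⟨_, rfl⟩
  have hlam0 : 0 < lam := by
    rw [hlamdef]; exact lt_min (lt_min hlamL hlamV) (lt_min one_pos (by positivity))
  have hlam1 : lam ≤ 1 := by rw [hlamdef]; exact (min_le_right _ _).trans (min_le_left _ _)
  have hlamLL : lam ≤ lamL := by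
    rw [hlamdef]; exact (min_le_left _ _).trans (min_le_left _ _)
  have hlamVV : lam ≤ lamV := by
    rw [hlamdef]; exact (min_le_left _ _).trans (min_le_right _ _)
  have hsq : Real.sqrt lam ≤ e0 := by
    rw [Real.sqrt_le_left he0p.le, hlamdef]
    exact (min_le_right _ _).trans (min_le_right _ _)
  have hCGK : 0 < Cs * G * K ^ 2 := by positivity
  have ce0 : Cs * G * K ^ 2 * e0 = δ * c / 8 := by
    rw [he0]; field_simp
  have c3 : Cs * G * (K ^ 2 * Real.sqrt lam) ≤ δ * c / 8 := by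
    rw [← ce0, ← mul_assoc]
    exact mul_le_mul_of_nonneg_left hsq hCGK.le
  -- choice of η0
  obtain ⟨e1, he1⟩ : ∃ x : ℝ, x = lam * (δ * c * ρ1 ^ d) / (4 * (5 ^ d * G * (Cd * (M + 1)))) := ⟨_, rfl⟩
  have he1p : 0 < e1 := by rw [he1]; positivity
  obtain ⟨η0, hη0def⟩ : ∃ x : ℝ, x = min (min (min ηL ηV) (min e0 (δ / 256)))
    (min (min (1 / (1200 * K)) (1 / S)) e1) := ⟨_, rfl⟩
  have hη0p : 0 < η0 := by
    rw [hη0def]
    exact lt_min (lt_min (lt_min hηL hηV) (lt_min he0p (by linarith)))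
      (lt_min (lt_min (by positivity) (by positivity)) he1p)
  have m1 : η0 ≤ ηL := by
    rw [hη0def]; exact (min_le_left _ _).trans ((min_le_left _ _).trans (min_le_left _ _))
  have m2 : η0 ≤ ηV := by
    rw [hη0def]; exact (min_le_left _ _).trans ((min_le_left _ _).trans (min_le_right _ _))
  have m3 : η0 ≤ e0 := by
    rw [hη0def]; exact (min_le_left _ _).trans ((min_le_right _ _).trans (min_le_left _ _))
  have m4 : η0 ≤ δ / 256 := by
    rw [hη0def]; exact (min_le_left _ _).trans ((min_le_right _ _).trans (min_le_right _ _))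
  have m5 : η0 ≤ 1 / (1200 * K) := by
    rw [hη0def]; exact (min_le_right _ _).trans ((min_le_left _ _).trans (min_le_left _ _))
  have m6 : η0 ≤ 1 / S := by
    rw [hη0def]; exact (min_le_right _ _).trans ((min_le_left _ _).trans (min_le_right _ _))
  have m7 : η0 ≤ e1 := by
    rw [hη0def]; exact (min_le_right _ _).trans (min_le_right _ _)
  refine ⟨η0, hη0p, ρ1, hρ0, by linarith, ?_⟩
  intro a ε η h r hη H hJ
  have hηp := H.hη0
  have k1 := hη.trans m1
  have k2 := hη.trans m2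
  have k3 := hη.trans m3
  have k4 := hη.trans m4
  have k5 := hη.trans m5
  have k6 := hη.trans m6
  have k7 := hη.trans m7
  have hJδ : J ε h r 0 1 ≤ (2 - δ) * c := by
    refine hJ.trans ?_
    exact mul_le_mul_of_nonneg_right (by linarith) hc0.le
  have hEn : En ε h r (ball 0 (9 / 10)) ≤ M := by
    have h1 := H.En_ball_le
    have h3 : (2 - δ) * c = 2 * c - δ * c := by ring
    rw [hM]; linarith
  have hGr : Growth ε h r d G :=
    (stGrowth E d hd a ε η h r H M hEn).mono (by rw [hG]; linarith)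
  have c4 : Cs * G * (K ^ 2 * η) ≤ δ * c / 8 := by
    rw [← ce0, ← mul_assoc]
    exact mul_le_mul_of_nonneg_left k3 hCGK.le
  have c5 : 32 * η ≤ δ / 8 := by linarith
  have c6 : 12 * K * η ≤ 1 / 100 := by
    rw [le_div_iff₀ (by positivity)] at k5
    linarith
  have hSε : S * ε ≤ η := by
    rw [le_div_iff₀ hS0] at k6
    have h1 := H.hεη
    have h2 : S * η ^ 3 ≤ η := by
      have h3 : η ^ 2 ≤ η := by nlinarith [H.hη]
      have h4 : η * S * η ^ 2 ≤ 1 * η := mul_le_mul k6 h3 (by positivity) (by norm_num)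
      calc S * η ^ 3 = η * S * η ^ 2 := by ring
        _ ≤ _ := h4
        _ = η := one_mul _
    exact (mul_le_mul_of_nonneg_left h1 hS0.le).trans h2
  -- Vitali
  obtain ⟨B, hBm, hB1, hBgood, hBint⟩ := hVit (q ε h r) (kap a ε h r) H.contq H.contkap
    (fun x hx => H.q_nonneg (ball_subset_ball (by norm_num) hx))
    (fun x hx => H.kap_nonneg (ball_subset_ball (by norm_num) hx)) G lam hG0.le hlam0 hGr
  set T : Set E := {x | S ≤ |r x / ε|} with hT
  have hTm : MeasurableSet T := by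
    have : Continuous fun x => |r x / ε| := (H.cr.continuous.div_const ε).abs
    exact measurableSet_le measurable_const this.measurable
  set A : Set E := ball 0 ρ1 \ (B ∪ T) with hA
  have hAm : MeasurableSet A := measurableSet_ball.diff (hBm.union hTm)
  have hA1 : A ⊆ ball 0 1 := sdiff_subset.trans (ball_subset_ball (by linarith))
  have hAgood : ∀ x ∈ A, Good a ε h r d lam x := by
    intro x hx
    have hx1 : x ∈ ball (0 : E) (3 / 5) := ball_subset_ball (by linarith) hx.1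
    exact ⟨hx1, hBgood x hx1 fun h' => hx.2 (Or.inl h')⟩
  have hAr : ∀ x ∈ A, |r x / ε| ≤ S := by
    intro x hx
    by_contra h'
    push Not at h'
    exact hx.2 (Or.inr h'.le)
  have hlow' : ∀ x0 : E, Good a ε h r d lam x0 → |r x0 / ε| ≤ S → L2 * ε ≤ 1 / 100 ∧
      (1 - ω) * c * (L2 * ε) ^ d ≤ J ε h r x0 (L2 * ε) := by
    rw [hc]
    exact fun x0 hg hr => hlow a ε η h r k1 H x0 (hg.mono hlamLL) hr
  have hvert' : ∀ x0 : E, Good a ε h r d lam x0 → |r x0 / ε| ≤ S → 4 * L2 * ε ≤ 1 / 100 ∧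
      ∫ t in Icc (-(4 * L2 * ε)) (4 * L2 * ε), q ε h r (x0 + t • a) ≤ (1 + ω) * (4 / 3) :=
    fun x0 hg hr => hvert a ε η h r k2 H x0 (hg.mono hlamVV) hr
  have hno : ∀ (x : E) (D : ℝ), x ∈ A → x + D • a ∈ A → 0 < D → D < 4 * L2 * ε := by
    intro x D hx hxD hD
    have := no_two E hd H hc hδp hω hρ0 hρ1 hM hJδ hδ1 c1 hK1 hlam0 hlam1 c2 c3 c4 c5 c6 hSε hL2
      (fun lam K D k1 k2 k3 k4 k5 x1 k6 k7 k8 =>
        hslab a ε η h r H G lam K D hG1 hGr k1 k2 k3 k4 k5 x1 k6 k7 k8)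
      hlow' hx.1 hxD.1 (hAgood _ hx) (hAgood _ hxD) (hAr _ hx) (hAr _ hxD) hD
    linarith
  have hLε : 0 ≤ 4 * L2 * ε := mul_nonneg (by linarith) H.hε.le
  have hmain : ∫ x in A, q ε h r x * psi (‖x‖ ^ 2 / ρ1 ^ 2) ≤
      (1 + ω) * (4 / 3) * (ρ1 ^ d * cpsi d) := by
    by_cases hne : A = ∅
    · rw [hne]
      simp only [Measure.restrict_empty, integral_zero_measure]
      positivity
    · obtain ⟨xA, hxA⟩ := nonempty_iff_ne_empty.2 hne
      have hl : 4 * L2 * ε ≤ 1 / 2 := by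
        have := (hvert' xA (hAgood _ hxA) (hAr _ hxA)).1
        linarith
      exact slice_le hSlice hd H.ha H.contq hAm
        (fun x hx => H.q_nonneg (ball_subset_ball (by norm_num) (hA1 hx))) hρ0 (by positivity)
        (H.line_bound hA1 hLε hl hno fun x0 hx0 => (hvert' x0 (hAgood _ hx0) (hAr _ hx0)).2)
  have hsplit := H.J_split hρ0 hρ1 hBm hTm hB1
  have htl := htail a ε η h r H M hEn S hS1
  have hdf := hdef a ε η h r H M hEn
  have hBi : ∫ x in B, q ε h r x ≤ δ * c * ρ1 ^ d / 4 := by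
    refine hBint.trans ?_
    have h1 : 5 ^ d * G / lam * (∫ x in ball (0 : E) (4 / 5), kap a ε h r x) ≤
        5 ^ d * G / lam * (Cd * (M + 1) * η) :=
      mul_le_mul_of_nonneg_left hdf (by positivity)
    refine h1.trans ?_
    have h2 : 5 ^ d * G / lam * (Cd * (M + 1) * η) ≤ 5 ^ d * G / lam * (Cd * (M + 1) * e1) :=
      mul_le_mul_of_nonneg_left (mul_le_mul_of_nonneg_left k7 (by positivity)) (by positivity)
    refine h2.trans (le_of_eq ?_)
    rw [he1]
    field_simp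
  calc J ε h r 0 ρ1 ≤ _ := hsplit
    _ ≤ (1 + ω) * (4 / 3) * (ρ1 ^ d * cpsi d) + Ct * (M + 1) / S + δ * c * ρ1 ^ d / 4 :=
        add_le_add (add_le_add hmain htl) hBi
    _ ≤ (1 + ω) * (4 / 3) * (ρ1 ^ d * cpsi d) + δ * c * ρ1 ^ d / 4 + δ * c * ρ1 ^ d / 4 := by
        gcongr
    _ = (1 + (9 / 16) * δ) * c * ρ1 ^ d := by
        rw [hω, hc]; ring
    _ ≤ (1 + δ0) * c * ρ1 ^ d := by
        have : (1 + (9 / 16) * δ) ≤ 1 + δ0 := by linarith
        gcongr

end Crest.Agent.R246.MS852
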