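import Crest.Agent.R246.MSBasic_852

/-!
# R246-F (helper598): leaf `StGrowth` of Lemma MS from `StMono`
-/

set_option autoImplicit false

namespace Crest.Agent.R246.MSGrowth598

open MeasureTheory Metric Set Module
open Crest.Agent.R246.MS852

variable {E : Type*} [NormedAddCommGroup E] [InnerProductSpace ℝ E] [FiniteDimensional ℝ E]
  [MeasurableSpace E] [BorelSpace E] {d : ℕ}

theorem stGrowth (hmono : StMono E d) : StGrowth E d := by
  intro hfin a ε η h r H M hM p hp ρ hρ hρ1
  have hp' : ‖p‖ < 4 / 5 := by simpa using hp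
  have hsubR : ∀ R : ℝ, R ≤ 1 / 10 → closedBall p R ⊆ ball (0 : E) (9 / 10) := by
    intro R hR x hx
    have h2 : dist x p ≤ R := hx
    rw [mem_ball_zero_iff]
    have h4 : ‖x‖ ≤ dist x p + ‖p‖ := by
      rw [dist_eq_norm]
      calc ‖x‖ = ‖(x - p) + p‖ := by rw [sub_add_cancel]
        _ ≤ ‖x - p‖ + ‖p‖ := norm_add_le _ _
    linarith
  have h92 : ball (0 : E) (9 / 10) ⊆ ball (0 : E) 2 := ball_subset_ball (by norm_num)
  have hq : Continuous (q ε h r) := H.contq
  -- weight
  have hwc : ∀ R : ℝ, Continuous fun x : E => psi (‖x - p‖ ^ 2 / R ^ 2) := by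
    intro R
    exact continuous_psi.comp ((((continuous_id.sub continuous_const).norm).pow 2).div_const _)
  have hint : ∀ R : ℝ, IntegrableOn (fun x => q ε h r x * psi (‖x - p‖ ^ 2 / R ^ 2))
      (ball (0 : E) 2) := fun R => integrableOn_ball (hq.mul (hwc R)) _ _
  -- lower bound of `J`
  have hlow : 9 / 16 * En ε h r (closedBall p ρ) ≤ J ε h r p (2 * ρ) := by
    unfold En J
    rw [← integral_const_mul]
    calc ∫ x in closedBall p ρ, 9 / 16 * q ε h r x
        ≤ ∫ x in closedBall p ρ, q ε h r x * psi (‖x - p‖ ^ 2 / (2 * ρ) ^ 2) := by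
          refine setIntegral_mono_on (integrableOn_closedBall (continuous_const.mul hq) _ _)
            (integrableOn_closedBall (hq.mul (hwc _)) _ _) measurableSet_closedBall ?_
          intro x hx
          have hxb : x ∈ ball (0 : E) 2 := h92 (hsubR ρ (by linarith) hx)
          have hq0 := H.q_nonneg hxb
          have hx1 : ‖x - p‖ ≤ ρ := by rw [← dist_eq_norm]; exact hx
          have hx2 : ‖x - p‖ ^ 2 / (2 * ρ) ^ 2 ≤ 1 / 4 := by
            rw [div_le_iff₀ (by positivity)]
            nlinarith [norm_nonneg (x - p)]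
          have hx3 : 0 ≤ ‖x - p‖ ^ 2 / (2 * ρ) ^ 2 := by positivity
          have hps : 9 / 16 ≤ psi (‖x - p‖ ^ 2 / (2 * ρ) ^ 2) := by
            rw [psi_of_le_one (by linarith)]
            nlinarith
          nlinarith
      _ ≤ ∫ x in ball (0 : E) 2, q ε h r x * psi (‖x - p‖ ^ 2 / (2 * ρ) ^ 2) := by
          refine setIntegral_mono_set (hint _) ?_ ?_
          · refine (ae_restrict_iff' measurableSet_ball).2 (Filter.Eventually.of_forall ?_)
            intro x hx
            exact mul_nonneg (H.q_nonneg hx) (psi_nonneg _)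
          · exact LE.le.eventuallyLE ((hsubR ρ (by linarith)).trans h92)
  -- upper bound at scale `1/10`
  have hup : J ε h r p (1 / 10) ≤ M := by
    refine le_trans ?_ hM
    unfold En J
    have hsplit : ∫ x in ball (0 : E) 2, q ε h r x * psi (‖x - p‖ ^ 2 / (1 / 10) ^ 2) =
        ∫ x in ball (0 : E) (9 / 10), q ε h r x * psi (‖x - p‖ ^ 2 / (1 / 10) ^ 2) := by
      refine (setIntegral_eq_of_subset_of_forall_sdiff_eq_zero measurableSet_ball h92 ?_)
      intro x hx
      have hx1 : x ∉ closedBall p (1 / 10) := fun h => hx.2 (hsubR _ le_rfl h)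
      have hx2 : 1 / 10 < ‖x - p‖ := by
        rw [← dist_eq_norm]; simpa using hx1
      have hx3 : 1 ≤ ‖x - p‖ ^ 2 / (1 / 10) ^ 2 := by
        rw [le_div_iff₀ (by norm_num)]
        nlinarith
      rw [psi_of_one_le hx3, mul_zero]
    rw [hsplit]
    refine setIntegral_mono_on ((hint _).mono_set h92) (integrableOn_ball hq _ _)
      measurableSet_ball ?_
    intro x hx
    have hq0 := H.q_nonneg (h92 hx)
    have hps : psi (‖x - p‖ ^ 2 / (1 / 10) ^ 2) ≤ 1 := psi_le_one (by positivity)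
    nlinarith
  have hm := hmono hfin a ε η h r H p (2 * ρ) (1 / 10) (by linarith) (by linarith)
    ((hsubR _ le_rfl).trans h92)
  have hη := H.hη
  have hη0 := H.hη0
  have hM0 : 0 ≤ M := by
    refine le_trans ?_ hM
    exact setIntegral_nonneg measurableSet_ball (fun x hx => H.q_nonneg (h92 hx))
  -- combine
  have e1 : J ε h r p (1 / 10) / (1 / 10) ^ d ≤ 10 ^ d * M := by
    rw [div_le_iff₀ (by positivity)]
    calc J ε h r p (1 / 10) ≤ M := hup
      _ = 10 ^ d * M * (1 / 10) ^ d := by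
        rw [mul_comm (10 ^ d) M, mul_assoc, ← mul_pow]; norm_num
  have e2 : J ε h r p (2 * ρ) / (2 * ρ) ^ d ≤ (1 + 5 * η) * (10 ^ d * M) :=
    hm.trans (mul_le_mul_of_nonneg_left e1 (by linarith))
  have e3 : J ε h r p (2 * ρ) ≤ (1 + 5 * η) * (10 ^ d * M) * (2 * ρ) ^ d := by
    rwa [div_le_iff₀ (by positivity)] at e2
  have e4 : (10 : ℝ) ^ d * (2 * ρ) ^ d = 20 ^ d * ρ ^ d := by
    rw [← mul_pow, ← mul_pow]; ring_nf
  have e5 : (1 + 5 * η) * (10 ^ d * M) * (2 * ρ) ^ d = (1 + 5 * η) * (20 ^ d * ρ ^ d * M) := by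
    rw [← e4]; ring
  have e6 : 0 ≤ (20 : ℝ) ^ d * ρ ^ d * M := by positivity
  have e7 : (1 + 5 * η) * (20 ^ d * ρ ^ d * M) ≤ 105 / 100 * (20 ^ d * ρ ^ d * M) :=
    mul_le_mul_of_nonneg_right (by linarith) e6
  have e8 : 3 * 20 ^ d * M * ρ ^ d = 3 * (20 ^ d * ρ ^ d * M) := by ring
  rw [e8]
  linarith

end Crest.Agent.R246.MSGrowth598
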