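import Crest.Agent.R246.MSL5a_579

/-!
# R246-F (helper579): Lemma L5 (`StL5`): the slope is close to `±1`, conclusion
-/

set_option autoImplicit false
set_option linter.unusedSectionVars false

namespace Crest.Agent.R246.L5x579

open MeasureTheory Metric Set InnerProductSpace Filter Topology
open scoped RealInnerProductSpace Gradient
open Crest.Agent.R246.MS852

section
variable {E : Type*} [NormedAddCommGroup E] [InnerProductSpace ℝ E] [FiniteDimensional ℝ E]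
  [MeasurableSpace E] [BorelSpace E]

variable {a : E} {L τ : ℝ} {R : E → ℝ}

/-- energy identity: the slope `β` satisfies `β² ≈ 1` -/
theorem slope_sq (H : HypL5 a L τ R) {ζ : E → ℝ} (hζ : ContDiff ℝ 1 ζ) {l : ℝ} (hl : l < L)
    (hs : tsupport ζ ⊆ closedBall 0 l) (h0 : ∀ x, 0 ≤ ζ x) (h1 : ∀ x, ζ x ≤ 1) {β κ : ℝ}
    (hβ : |β| ≤ 2)
    (hc : ∀ x ∈ closedBall (0 : E) l, |R x - R 0 - β * ⟪a, x⟫_ℝ| ≤ κ) (hκ0 : 0 ≤ κ) :
    |1 - β ^ 2| * (∫ x, ζ x) ≤ τ + κ * (τ + 4 * ∫ x, ‖fderiv ℝ ζ x‖) := by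
  have hcs := hcs_of_tsupport hs
  set w : E → ℝ := fun x => R x - R 0 - β * ⟪a, x⟫_ℝ with hw
  have hlin : ContDiff ℝ 1 fun x : E => ⟪a, x⟫_ℝ := contDiff_const.inner ℝ contDiff_id
  have hwc : ContDiff ℝ 1 w := (H.cR.sub contDiff_const).sub (contDiff_const.mul hlin)
  have hsub : closedBall (0 : E) l ⊆ ball 0 L := closedBall_subset_ball hl
  have hz0 : ∀ x, x ∉ closedBall (0 : E) l → ζ x = 0 := fun x hx =>
    image_eq_zero_of_notMem_tsupport fun h => hx (hs h)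
  have hdz0 : ∀ x, x ∉ closedBall (0 : E) l → fderiv ℝ ζ x = 0 := by
    intro x hx
    have h2 : ζ =ᶠ[𝓝 x] fun _ => 0 := by
      filter_upwards [isClosed_closedBall.isOpen_compl.mem_nhds hx] with z hz
      exact hz0 z hz
    rw [h2.fderiv_eq]; simp
  have hfw : ∀ x v, fderiv ℝ w x v = fderiv ℝ R x v - β * ⟪a, v⟫_ℝ := by
    intro x v
    have e1 : HasFDerivAt (fun x : E => ⟪a, x⟫_ℝ) (innerSL ℝ a) x := (innerSL ℝ a).hasFDerivAt
    have e2 := ((H.cR.differentiable one_ne_zero x).hasFDerivAt.sub_const (R 0)).sub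
      (e1.const_mul β)
    have e3 : HasFDerivAt w (fderiv ℝ R x - β • innerSL ℝ a) x := e2
    rw [e3.fderiv]; simp
  -- the test function
  have hφc : ContDiff ℝ 1 fun x => ζ x * w x := hζ.mul hwc
  have hφs : tsupport (fun x => ζ x * w x) ⊆ ball (0 : E) L :=
    ((closure_mono (Function.support_mul_subset_left ζ w)).trans hs).trans hsub
  have hfφ : ∀ x v, fderiv ℝ (fun x => ζ x * w x) x v = ζ x * fderiv ℝ w x v + w x * fderiv ℝ ζ x v := by
    intro x v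
    rw [fderiv_fun_mul (hζ.differentiable one_ne_zero x) (hwc.differentiable one_ne_zero x)]
    simp
  have hweak := H.weak (fun x => ζ x * w x) hφc hφs κ fun x => by
    by_cases hx : x ∈ closedBall (0 : E) l
    · rw [abs_mul, abs_of_nonneg (h0 x)]
      have := hc x hx
      exact (mul_le_mul (h1 x) this (abs_nonneg _) zero_le_one).trans (by rw [one_mul])
    · rw [hz0 x hx, zero_mul, abs_zero]; exact hκ0
  have hcg := continuous_grad H.cR
  have hcζ := hζ.continuous_fderiv one_ne_zero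
  -- integrability of continuous functions vanishing outside of `closedBall 0 l`
  have hint : ∀ f : E → ℝ, Continuous f → (∀ x, x ∉ closedBall (0 : E) l → f x = 0) →
      Integrable f := fun f hf hf0 =>
    hf.integrable_of_hasCompactSupport (HasCompactSupport.intro (isCompact_closedBall 0 l) hf0)
  have cA : Continuous fun x => ζ x * ‖∇ R x‖ ^ 2 := hζ.continuous.mul (hcg.norm.pow 2)
  have cB : Continuous fun x => ζ x * fderiv ℝ R x a :=
    hζ.continuous.mul (continuous_fderiv_apply' H.cR a)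
  have cC : Continuous fun x => w x * fderiv ℝ ζ x (∇ R x) :=
    hwc.continuous.mul (hcζ.clm_apply hcg)
  have cD : Continuous fun x => w x * fderiv ℝ ζ x a :=
    hwc.continuous.mul (continuous_fderiv_apply' hζ a)
  have iA := hint _ cA fun x hx => by rw [hz0 x hx, zero_mul]
  have iB := hint _ cB fun x hx => by rw [hz0 x hx, zero_mul]
  have iC := hint _ cC fun x hx => by rw [hdz0 x hx]; simp
  have iD := hint _ cD fun x hx => by rw [hdz0 x hx]; simp
  have iZ := hint _ hζ.continuous hz0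
  have iN := hint (fun x => ‖fderiv ℝ ζ x‖) hcζ.norm fun x hx => by rw [hdz0 x hx, norm_zero]
  -- first identity
  have id1 : ∫ x, fderiv ℝ (fun x => ζ x * w x) x (∇ R x) =
      (∫ x, ζ x * ‖∇ R x‖ ^ 2) - β * (∫ x, ζ x * fderiv ℝ R x a) +
        ∫ x, w x * fderiv ℝ ζ x (∇ R x) := by
    have iAB : Integrable (fun x => ζ x * ‖∇ R x‖ ^ 2 - β * (ζ x * fderiv ℝ R x a)) :=
      iA.sub (iB.const_mul β)
    rw [← integral_const_mul, ← integral_sub iA (iB.const_mul β), ← integral_add iAB iC]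
    refine integral_congr_ae (Eventually.of_forall fun x => ?_)
    show fderiv ℝ (fun x => ζ x * w x) x (∇ R x) =
      ζ x * ‖∇ R x‖ ^ 2 - β * (ζ x * fderiv ℝ R x a) + w x * fderiv ℝ ζ x (∇ R x)
    rw [hfφ, hfw, fderiv_grad_self, ← real_inner_comm, ← grad_eq]; ring
  -- second identity
  have id2 : ∫ x, ζ x * fderiv ℝ R x a = β * (∫ x, ζ x) - ∫ x, w x * fderiv ℝ ζ x a := by
    have e1 := ibp hwc hζ hcs a
    have e2 : ∫ x, fderiv ℝ w x a * ζ x = (∫ x, ζ x * fderiv ℝ R x a) - β * ∫ x, ζ x := by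
      rw [← integral_const_mul, ← integral_sub iB (iZ.const_mul β)]
      refine integral_congr_ae (Eventually.of_forall fun x => ?_)
      show fderiv ℝ w x a * ζ x = ζ x * fderiv ℝ R x a - β * ζ x
      rw [hfw, real_inner_self_eq_norm_sq, H.ha]; ring
    rw [e2] at e1; linarith
  -- estimates
  have bC : |∫ x, w x * fderiv ℝ ζ x (∇ R x)| ≤ (2 * κ) * ∫ x, ‖fderiv ℝ ζ x‖ := by
    rw [← integral_const_mul]
    refine abs_integral_le_integral_abs.trans (integral_mono iC.abs (iN.const_mul _) fun x => ?_)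
    show |w x * fderiv ℝ ζ x (∇ R x)| ≤ 2 * κ * ‖fderiv ℝ ζ x‖
    by_cases hx : x ∈ closedBall (0 : E) l
    · rw [abs_mul]
      have e1 := hc x hx
      have e2 : |fderiv ℝ ζ x (∇ R x)| ≤ ‖fderiv ℝ ζ x‖ * ‖∇ R x‖ := by
        rw [← Real.norm_eq_abs]; exact ContinuousLinearMap.le_opNorm _ _
      have e3 : ‖∇ R x‖ ≤ 2 := by
        have := H.lip x (hsub hx); have := H.hτ1
        nlinarith [norm_nonneg (∇ R x)]
      calc |w x| * |fderiv ℝ ζ x (∇ R x)| ≤ κ * (‖fderiv ℝ ζ x‖ * 2) :=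
            mul_le_mul e1 (e2.trans (mul_le_mul_of_nonneg_left e3 (norm_nonneg _)))
              (abs_nonneg _) hκ0
        _ = 2 * κ * ‖fderiv ℝ ζ x‖ := by ring
    · rw [hdz0 x hx]; simp
  have bD : |∫ x, w x * fderiv ℝ ζ x a| ≤ κ * ∫ x, ‖fderiv ℝ ζ x‖ := by
    rw [← integral_const_mul]
    refine abs_integral_le_integral_abs.trans (integral_mono iD.abs (iN.const_mul _) fun x => ?_)
    show |w x * fderiv ℝ ζ x a| ≤ κ * ‖fderiv ℝ ζ x‖
    by_cases hx : x ∈ closedBall (0 : E) l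
    · rw [abs_mul]
      have e1 := hc x hx
      have e2 : |fderiv ℝ ζ x a| ≤ ‖fderiv ℝ ζ x‖ * ‖a‖ := by
        rw [← Real.norm_eq_abs]; exact ContinuousLinearMap.le_opNorm _ _
      rw [H.ha, mul_one] at e2
      exact mul_le_mul e1 e2 (abs_nonneg _) hκ0
    · rw [hdz0 x hx]; simp
  have bU : |∫ x, ζ x * (1 - ‖∇ R x‖ ^ 2)| ≤ τ := by
    have e1 := abs_int_le (L := L) (C := 1) (f := fun x => ζ x * (1 - ‖∇ R x‖ ^ 2))
      (G := fun x => |1 - ‖∇ R x‖ ^ 2|)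
      (hζ.continuous.mul (continuous_const.sub (hcg.norm.pow 2)))
      (continuous_const.sub (hcg.norm.pow 2)).abs
      (fun x hx => by rw [hz0 x fun h => hx (hsub h), zero_mul])
      (fun x _ => by
        rw [abs_mul, abs_of_nonneg (h0 x)]
        exact mul_le_mul_of_nonneg_right (h1 x) (abs_nonneg _))
    rw [one_mul] at e1
    exact e1.trans H.unit
  have id3 : ∫ x, ζ x * (1 - ‖∇ R x‖ ^ 2) = (∫ x, ζ x) - ∫ x, ζ x * ‖∇ R x‖ ^ 2 := by
    rw [← integral_sub iZ iA]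
    refine integral_congr_ae (Eventually.of_forall fun x => ?_)
    show ζ x * (1 - ‖∇ R x‖ ^ 2) = ζ x - ζ x * ‖∇ R x‖ ^ 2
    ring
  have hZ : 0 ≤ ∫ x, ζ x := integral_nonneg h0
  have hN : 0 ≤ ∫ x, ‖fderiv ℝ ζ x‖ := integral_nonneg fun x => norm_nonneg _
  set Z0 := ∫ x, ζ x
  set Z1 := ∫ x, ‖fderiv ℝ ζ x‖
  set IA := ∫ x, ζ x * ‖∇ R x‖ ^ 2
  set IB := ∫ x, ζ x * fderiv ℝ R x a
  set IC := ∫ x, w x * fderiv ℝ ζ x (∇ R x)
  set ID := ∫ x, w x * fderiv ℝ ζ x a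
  rw [id1] at hweak
  rw [id3] at bU
  have key : (1 - β ^ 2) * Z0 = (Z0 - IA) + (IA - β * IB + IC) - IC - β * ID := by
    rw [id2]; ring
  have bβ : |β * ID| ≤ 2 * (κ * Z1) := by
    rw [abs_mul]
    exact mul_le_mul hβ bD (abs_nonneg _) (by norm_num)
  have e9 : |1 - β ^ 2| * Z0 = |(1 - β ^ 2) * Z0| := by rw [abs_mul, abs_of_nonneg hZ]
  rw [e9, key]
  have t1 := abs_sub ((Z0 - IA) + (IA - β * IB + IC) - IC) (β * ID)
  have t2 := abs_sub ((Z0 - IA) + (IA - β * IB + IC)) IC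
  have t3 := abs_add_le (Z0 - IA) (IA - β * IB + IC)
  nlinarith [mul_nonneg hκ0 hN]

theorem exists_sign {β e : ℝ} (h : |1 - β ^ 2| ≤ e) :
    ∃ s : ℝ, (s = 1 ∨ s = -1) ∧ |β - s| ≤ e := by
  rcases le_total 0 β with hb | hb
  · refine ⟨1, Or.inl rfl, le_trans ?_ h⟩
    have h1 : 1 - β ^ 2 = (1 - β) * (1 + β) := by ring
    rw [h1, abs_mul, abs_sub_comm]
    have h2 : 1 ≤ |1 + β| := by rw [abs_of_nonneg (by linarith)]; linarith
    nlinarith [abs_nonneg (1 - β)]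
  · refine ⟨-1, Or.inr rfl, le_trans ?_ h⟩
    have h1 : 1 - β ^ 2 = (β - -1) * (1 - β) := by ring
    rw [h1, abs_mul]
    have h2 : 1 ≤ |1 - β| := by rw [abs_of_nonneg (by linarith)]; linarith
    nlinarith [abs_nonneg (β - -1)]

variable (E) in
/-- LEAF 5: Lemma L5, with `τ ≤ 1` -/
theorem stL5' (L ω : ℝ) (hL : 4 ≤ L) (hω : 0 < ω) : ∃ τ > 0, τ ≤ 1 ∧
    ∀ (a : E) (R : E → ℝ), HypL5 a L τ R → ∃ s : ℝ, (s = 1 ∨ s = -1) ∧
      ∀ z ∈ ball (0 : E) (L / 2), |R z - R 0 - s * ⟪a, z⟫_ℝ| ≤ ω := by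
  -- the fixed cut-off
  let f : ContDiffBump (0 : E) := ⟨L / 4, L / 2, by linarith, by linarith⟩
  have hζ : ContDiff ℝ 1 f := f.contDiff
  have hζs : tsupport f ⊆ closedBall (0 : E) (L / 2) := by rw [f.tsupport_eq]
  have hζ0 : ∀ x, 0 ≤ f x := fun x => f.nonneg
  have hζ1 : ∀ x, f x ≤ 1 := fun x => f.le_one
  have hZ0 : 0 < ∫ x, f x := f.integral_pos
  set Z0 := ∫ x, f x with hZ0d
  set Z1 := ∫ x, ‖fderiv ℝ f x‖ with hZ1d
  have hZ1 : 0 ≤ Z1 := integral_nonneg fun x => norm_nonneg _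
  -- the small parameters
  set κ : ℝ := ω / (2 * (1 + L / 2 * (1 + 4 * Z1) / Z0)) with hκ
  have hκd : 0 < 1 + L / 2 * (1 + 4 * Z1) / Z0 := by positivity
  have hκ0 : 0 < κ := by rw [hκ]; positivity
  have hκe : κ * (1 + L / 2 * (1 + 4 * Z1) / Z0) = ω / 2 := by rw [hκ]; field_simp
  set σ : ℝ := min 1 (κ / 8) with hσ
  have hσ0 : 0 < σ := lt_min one_pos (by positivity)
  have hσ1 : σ ≤ 1 := min_le_left _ _
  have hσκ : σ ≤ κ / 8 := min_le_right _ _
  obtain ⟨M0, M, ρ, K⟩ := exists_ker (E := E) hσ0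
  have hM0 := K.hM0
  have hM := K.hM
  set V : ℝ := volume.real (ball (0 : E) L) with hV
  have hV0 : 0 ≤ V := measureReal_nonneg
  set Cc : ℝ := M0 * (L / 2) * (V + 1) + L / 2 * (L / 2 * (M0 + M * (V + 1))) with hCc
  have hCc0 : 0 ≤ Cc := by rw [hCc]; positivity
  set t : ℝ := min 1 (min (κ / (2 * (Cc + 1))) (ω * Z0 / L)) with ht
  have ht0 : 0 < t := lt_min one_pos (lt_min (by positivity) (by positivity))
  have ht1 : t ≤ 1 := min_le_left _ _
  have ht2 : t ≤ κ / (2 * (Cc + 1)) := (min_le_right _ _).trans (min_le_left _ _)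
  have ht3 : t ≤ ω * Z0 / L := (min_le_right _ _).trans (min_le_right _ _)
  have htt : t ^ 2 ≤ t := by nlinarith
  refine ⟨t ^ 2, by positivity, by linarith, fun a R H => ?_⟩
  have hsq : Real.sqrt (t ^ 2) = t := Real.sqrt_sq ht0.le
  have hI := int_tg_le H
  rw [hsq] at hI
  set I1 := ∫ x in ball (0 : E) L, tg a R x with hI1
  have hI0 : 0 ≤ I1 := tg_int_nonneg
  set β := mol ρ (fun x => fderiv ℝ R x a) 0 with hβ
  have hβ2 : |β| ≤ 2 := abs_beta_le H K (closedBall_subset_ball (by linarith))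
  have haff : ∀ x ∈ closedBall (0 : E) (L / 2), |R x - R 0 - β * ⟪a, x⟫_ℝ| ≤ κ := by
    intro x hx
    rw [mem_closedBall_zero_iff] at hx
    have h1 := affine_close H K hσ0.le (l := L / 2) (by linarith) (by linarith) hx
    refine h1.trans ?_
    have h2 : M0 * (L / 2) * I1 ≤ M0 * (L / 2) * (t * (V + 1)) :=
      mul_le_mul_of_nonneg_left hI (by positivity)
    have h3 : L / 2 * (L / 2 * (t ^ 2 * M0 + M * I1)) ≤
        L / 2 * (L / 2 * (t * M0 + M * (t * (V + 1)))) := by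
      have h4 : t ^ 2 * M0 ≤ t * M0 := mul_le_mul_of_nonneg_right htt hM0
      have h5 : M * I1 ≤ M * (t * (V + 1)) := mul_le_mul_of_nonneg_left hI hM
      have h6 : (0 : ℝ) ≤ L / 2 := by linarith
      exact mul_le_mul_of_nonneg_left (mul_le_mul_of_nonneg_left (by linarith) h6) h6
    have h4 : M0 * (L / 2) * (t * (V + 1)) + L / 2 * (L / 2 * (t * M0 + M * (t * (V + 1))))
        = t * Cc := by rw [hCc]; ring
    have h5 : t * Cc ≤ κ / 2 := by
      have h6 : t * (2 * (Cc + 1)) ≤ κ := by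
        rwa [le_div_iff₀ (by positivity)] at ht2
      nlinarith
    linarith
  have hs := slope_sq H hζ (l := L / 2) (by linarith) hζs hζ0 hζ1 hβ2 haff hκ0.le
  have hsl : |1 - β ^ 2| ≤ (t + κ * (1 + 4 * Z1)) / Z0 := by
    rw [le_div_iff₀ hZ0]
    refine hs.trans ?_
    have h6 : κ * (t ^ 2 + 4 * Z1) ≤ κ * (1 + 4 * Z1) :=
      mul_le_mul_of_nonneg_left (by nlinarith) hκ0.le
    linarith
  obtain ⟨s, hs1, hs2⟩ := exists_sign hsl
  refine ⟨s, hs1, fun z hz => ?_⟩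
  rw [mem_ball_zero_iff] at hz
  have h1 := haff z (by rw [mem_closedBall_zero_iff]; exact hz.le)
  have h2 : |⟪a, z⟫_ℝ| ≤ L / 2 := by
    refine (abs_real_inner_le_norm a z).trans ?_
    rw [H.ha, one_mul]; exact hz.le
  have h3 : R z - R 0 - s * ⟪a, z⟫_ℝ = (R z - R 0 - β * ⟪a, z⟫_ℝ) + (β - s) * ⟪a, z⟫_ℝ := by ring
  rw [h3]
  refine (abs_add_le _ _).trans ?_
  rw [abs_mul]
  have h4 : |β - s| * |⟪a, z⟫_ℝ| ≤ (t + κ * (1 + 4 * Z1)) / Z0 * (L / 2) :=
    mul_le_mul hs2 h2 (abs_nonneg _) (by positivity)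
  have h5 : (t + κ * (1 + 4 * Z1)) / Z0 * (L / 2) = t * L / (2 * Z0) + κ * (L / 2 * (1 + 4 * Z1) / Z0) := by
    field_simp
  have h6 : t * L / (2 * Z0) ≤ ω / 2 := by
    rw [le_div_iff₀ (by linarith)] at ht3
    rw [div_le_div_iff₀ (by positivity) (by positivity)]
    nlinarith
  nlinarith

variable (E) in
/-- LEAF 5: Lemma L5 -/
theorem stL5 : StL5 E := by
  intro L w hL hw
  obtain ⟨τ, h0, _, h⟩ := stL5' E L w hL hw
  exact ⟨τ, h0, h⟩

end

end Crest.Agent.R246.L5x579
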