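import Crest.Agent.R246.MSMol_579

/-!
# R246-F (helper579): Lemma L5, part a: `R` is close to an affine function of `⟨a, z⟩`
-/

set_option autoImplicit false
set_option linter.unusedSectionVars false

namespace Crest.Agent.R246.L5x579

open MeasureTheory Metric Set InnerProductSpace Filter Topology
open scoped RealInnerProductSpace Gradient ContDiff
open Crest.Agent.R246.MS852

section
variable {E : Type*} [NormedAddCommGroup E] [InnerProductSpace ℝ E] [FiniteDimensional ℝ E]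
  [MeasurableSpace E] [BorelSpace E]

/-- norm of the tangential gradient -/
noncomputable def tg (a : E) (R : E → ℝ) (x : E) : ℝ :=
  Real.sqrt (‖∇ R x‖ ^ 2 - (fderiv ℝ R x a) ^ 2)

theorem continuous_tg {a : E} {R : E → ℝ} (hR : ContDiff ℝ 1 R) : Continuous (tg a R) := by
  unfold tg
  exact ((continuous_grad hR).norm.pow 2 |>.sub ((continuous_fderiv_apply' hR a).pow 2)).sqrt

theorem tg_nonneg (a : E) (R : E → ℝ) (x : E) : 0 ≤ tg a R x := Real.sqrt_nonneg _

theorem tg_eq_norm {a : E} (ha : ‖a‖ = 1) (R : E → ℝ) (x : E) :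
    ‖∇ R x - (fderiv ℝ R x a) • a‖ = tg a R x := by
  unfold tg
  rw [← Real.sqrt_sq (norm_nonneg (∇ R x - (fderiv ℝ R x a) • a))]
  congr 1
  rw [@norm_sub_sq_real, real_inner_smul_right, norm_smul, ha, ← grad_eq, mul_one,
    Real.norm_eq_abs, sq_abs]
  ring

theorem tg_sq {a : E} (ha : ‖a‖ = 1) (R : E → ℝ) (x : E) :
    tg a R x ^ 2 = ‖∇ R x‖ ^ 2 - (fderiv ℝ R x a) ^ 2 := by
  unfold tg
  exact Real.sq_sqrt (by linarith [sq_fderiv_le ha R x])

theorem abs_fderiv_orth {a : E} (ha : ‖a‖ = 1) (R : E → ℝ) (x : E) {v : E} (hv : ⟪a, v⟫_ℝ = 0) :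
    |fderiv ℝ R x v| ≤ tg a R x * ‖v‖ := by
  have h1 : fderiv ℝ R x v = ⟪∇ R x - (fderiv ℝ R x a) • a, v⟫_ℝ := by
    rw [inner_sub_left, real_inner_smul_left, hv, mul_zero, sub_zero, grad_eq]
  rw [h1, ← tg_eq_norm ha]
  exact abs_real_inner_le_norm _ _

theorem abs_cross {a : E} (ha : ‖a‖ = 1) (R φ : E → ℝ) (x : E) :
    |fderiv ℝ φ x (∇ R x) - fderiv ℝ R x a * fderiv ℝ φ x a| ≤ tg a R x * ‖fderiv ℝ φ x‖ := by
  have h1 : fderiv ℝ φ x (∇ R x) - fderiv ℝ R x a * fderiv ℝ φ x a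
      = fderiv ℝ φ x (∇ R x - (fderiv ℝ R x a) • a) := by
    rw [map_sub, map_smul, smul_eq_mul]
  rw [h1, ← tg_eq_norm ha, mul_comm, ← Real.norm_eq_abs]
  exact ContinuousLinearMap.le_opNorm _ _

/-- bound of an integral of a function vanishing outside of a ball -/
theorem abs_int_le {f G : E → ℝ} {L C : ℝ} (hf : Continuous f) (hG : Continuous G)
    (h0 : ∀ x, x ∉ ball (0 : E) L → f x = 0) (h1 : ∀ x ∈ ball (0 : E) L, |f x| ≤ C * G x) :
    |∫ x, f x| ≤ C * ∫ x in ball (0 : E) L, G x := by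
  rw [← setIntegral_eq_integral_of_forall_compl_eq_zero h0, ← integral_const_mul]
  refine (abs_integral_le_integral_abs).trans ?_
  refine setIntegral_mono_on (integrableOn_ball hf.abs 0 L)
    (integrableOn_ball (hG.const_mul C) 0 L) measurableSet_ball h1

variable {a : E} {L τ σ M0 M : ℝ} {R ρ : E → ℝ}

/-- the total tangential gradient -/
theorem int_tg_le (H : HypL5 a L τ R) :
    ∫ x in ball (0 : E) L, tg a R x ≤ Real.sqrt τ * (volume.real (ball (0 : E) L) + 1) := by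
  have hs : 0 < Real.sqrt τ := Real.sqrt_pos.2 H.hτ
  have hss : Real.sqrt τ * Real.sqrt τ = τ := Real.mul_self_sqrt H.hτ.le
  have hct := continuous_tg (a := a) H.cR
  have h1 : ∀ x ∈ ball (0 : E) L, tg a R x ≤ Real.sqrt τ + (Real.sqrt τ)⁻¹ *
      (‖∇ R x‖ ^ 2 - (fderiv ℝ R x a) ^ 2) := by
    intro x _
    rw [← tg_sq H.ha]
    have h2 : 0 ≤ (Real.sqrt τ)⁻¹ * (tg a R x - Real.sqrt τ) ^ 2 := by positivity
    have h3 : (Real.sqrt τ)⁻¹ * (tg a R x - Real.sqrt τ) ^ 2
        = Real.sqrt τ + (Real.sqrt τ)⁻¹ * tg a R x ^ 2 - 2 * tg a R x := by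
      field_simp; ring
    have h4 := tg_nonneg a R x
    linarith
  have hcg : Continuous fun x => ‖∇ R x‖ ^ 2 - (fderiv ℝ R x a) ^ 2 :=
    ((continuous_grad H.cR).norm.pow 2).sub ((continuous_fderiv_apply' H.cR a).pow 2)
  have h2 := setIntegral_mono_on (μ := volume) (integrableOn_ball hct 0 L)
    (integrableOn_ball (continuous_const.add (hcg.const_mul (Real.sqrt τ)⁻¹)) 0 L)
    measurableSet_ball h1
  have h3 : ∫ x in ball (0 : E) L, (Real.sqrt τ + (Real.sqrt τ)⁻¹ *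
      (‖∇ R x‖ ^ 2 - (fderiv ℝ R x a) ^ 2)) = Real.sqrt τ * volume.real (ball (0 : E) L) +
      (Real.sqrt τ)⁻¹ * ∫ x in ball (0 : E) L, (‖∇ R x‖ ^ 2 - (fderiv ℝ R x a) ^ 2) := by
    rw [integral_add (integrableOn_ball continuous_const 0 L)
      (integrableOn_ball (hcg.const_mul (Real.sqrt τ)⁻¹) 0 L), integral_const_mul,
      setIntegral_const, smul_eq_mul]
    ring
  simp only [Pi.add_apply] at h2
  rw [h3] at h2
  have h4 : (Real.sqrt τ)⁻¹ * ∫ x in ball (0 : E) L, (‖∇ R x‖ ^ 2 - (fderiv ℝ R x a) ^ 2)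
      ≤ (Real.sqrt τ)⁻¹ * τ := mul_le_mul_of_nonneg_left H.tilt (by positivity)
  have h5 : (Real.sqrt τ)⁻¹ * τ = Real.sqrt τ := by
    nth_rewrite 2 [← hss]
    field_simp
  linarith [mul_add (Real.sqrt τ) (volume.real (ball (0 : E) L)) 1]

theorem tg_int_nonneg : 0 ≤ ∫ x in ball (0 : E) L, tg a R x :=
  integral_nonneg fun x => tg_nonneg a R x

theorem Ker.outside (K : Ker σ M0 M ρ) {w : E} (hw : closedBall w σ ⊆ ball (0 : E) L) {x : E}
    (hx : x ∉ ball (0 : E) L) : tr ρ w x = 0 := tr_zero K.supp fun h => hx (hw h)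

theorem Ker.fderiv_outside (K : Ker σ M0 M ρ) {w : E} (hw : closedBall w σ ⊆ ball (0 : E) L) {x : E}
    (hx : x ∉ ball (0 : E) L) : fderiv ℝ (tr ρ w) x = 0 := fderiv_tr_zero K.supp fun h => hx (hw h)

theorem Ker.hcs (K : Ker σ M0 M ρ) (w : E) : HasCompactSupport (tr ρ w) :=
  hcs_of_tsupport (tr_tsupport K.supp w)

theorem Ker.abs_le (K : Ker σ M0 M ρ) (w x : E) : |tr ρ w x| ≤ M0 := by
  unfold tr
  rw [abs_of_nonneg (K.nonneg _)]
  exact K.le _

theorem Ker.norm_fderiv_le (K : Ker σ M0 M ρ) (w x : E) : ‖fderiv ℝ (tr ρ w) x‖ ≤ M := by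
  rw [fderiv_tr]; exact K.grad _

/-- vertical second derivative of the mollification -/
theorem vert_le (H : HypL5 a L τ R) (K : Ker σ M0 M ρ) {w : E}
    (hw : closedBall w σ ⊆ ball (0 : E) L) :
    |∫ x, fderiv ℝ R x a * fderiv ℝ (tr ρ w) x a| ≤
      τ * M0 + M * ∫ x in ball (0 : E) L, tg a R x := by
  have hcd := tr_cd K.cd w
  have h1 := H.weak (tr ρ w) hcd ((tr_tsupport K.supp w).trans hw) M0 (K.abs_le w)
  have hc1 : Continuous fun x => fderiv ℝ (tr ρ w) x (∇ R x) :=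
    (hcd.continuous_fderiv one_ne_zero).clm_apply (continuous_grad H.cR)
  have hc2 : Continuous fun x => fderiv ℝ R x a * fderiv ℝ (tr ρ w) x a :=
    (continuous_fderiv_apply' H.cR a).mul (continuous_fderiv_apply' hcd a)
  have hi1 : Integrable fun x => fderiv ℝ (tr ρ w) x (∇ R x) := by
    refine hc1.integrable_of_hasCompactSupport ?_
    refine HasCompactSupport.intro (isCompact_closedBall w σ) fun x hx => ?_
    rw [fderiv_tr_zero K.supp hx]; simp
  have hi2 : Integrable fun x => fderiv ℝ R x a * fderiv ℝ (tr ρ w) x a := by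
    refine hc2.integrable_of_hasCompactSupport ?_
    refine HasCompactSupport.intro (isCompact_closedBall w σ) fun x hx => ?_
    rw [fderiv_tr_zero K.supp hx]; simp
  have h2 : |∫ x, (fderiv ℝ (tr ρ w) x (∇ R x) - fderiv ℝ R x a * fderiv ℝ (tr ρ w) x a)| ≤
      M * ∫ x in ball (0 : E) L, tg a R x := by
    refine abs_int_le (hc1.sub hc2) (continuous_tg H.cR) (fun x hx => ?_) fun x _ => ?_
    · rw [K.fderiv_outside hw hx]; simp
    · refine (abs_cross H.ha R (tr ρ w) x).trans ?_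
      rw [mul_comm]
      exact mul_le_mul_of_nonneg_right (K.norm_fderiv_le w x) (tg_nonneg a R x)
  rw [integral_sub hi1 hi2] at h2
  have h3 := abs_sub_abs_le_abs_sub (∫ x, fderiv ℝ R x a * fderiv ℝ (tr ρ w) x a)
    (∫ x, fderiv ℝ (tr ρ w) x (∇ R x))
  rw [abs_sub_comm] at h3
  linarith

/-- mean value inequality on `[0,1]` -/
theorem mvt01 {f f' : ℝ → ℝ} {C : ℝ} (hf : ∀ t, HasDerivAt f (f' t) t)
    (hb : ∀ t ∈ Icc (0 : ℝ) 1, |f' t| ≤ C) : |f 1 - f 0| ≤ C := by
  have := norm_image_sub_le_of_norm_deriv_le_segment_01' (f := f) (f' := f') (C := C)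
    (fun t _ => (hf t).hasDerivWithinAt) (fun t ht => hb t ⟨ht.1, ht.2.le⟩)
  exact this

/-- horizontal variation of the mollification -/
theorem mol_orth (H : HypL5 a L τ R) (K : Ker σ M0 M ρ) {w v : E} (hv : ⟪a, v⟫_ℝ = 0)
    (hw : ∀ t ∈ Icc (0 : ℝ) 1, closedBall (w + t • v) σ ⊆ ball (0 : E) L) :
    |mol ρ R (w + v) - mol ρ R w| ≤ M0 * ‖v‖ * ∫ x in ball (0 : E) L, tg a R x := by
  have h1 := mvt01 (f := fun t => mol ρ R (w + t • v))
    (f' := fun t => - ∫ y, R y * fderiv ℝ (tr ρ (w + t • v)) y v)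
    (C := M0 * ‖v‖ * ∫ x in ball (0 : E) L, tg a R x)
    (fun t => hasDerivAt_mol K.cd K.supp H.cR.continuous w v t) ?_
  · simpa using h1
  · intro t ht
    show |- ∫ y, R y * fderiv ℝ (tr ρ (w + t • v)) y v| ≤ _
    rw [ibp H.cR (tr_cd K.cd _) (K.hcs _) v, neg_neg]
    refine abs_int_le ((continuous_fderiv_apply' H.cR v).mul (tr_cd K.cd _).continuous)
      (continuous_tg H.cR) (fun x hx => ?_) fun x _ => ?_
    · rw [K.outside (hw t ht) hx, mul_zero]
    · rw [abs_mul]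
      have h2 := abs_fderiv_orth H.ha R x hv
      have h3 := K.abs_le (w + t • v) x
      calc |fderiv ℝ R x v| * |tr ρ (w + t • v) x| ≤ (tg a R x * ‖v‖) * M0 :=
            mul_le_mul h2 h3 (abs_nonneg _) (mul_nonneg (tg_nonneg a R x) (norm_nonneg _))
        _ = M0 * ‖v‖ * tg a R x := by ring

theorem cb_axis (ha : ‖a‖ = 1) {b t : ℝ} (hb : |b| + σ < L) (ht : t ∈ Icc (0 : ℝ) 1) :
    closedBall (t • (b • a)) σ ⊆ ball (0 : E) L := by
  intro y hy
  rw [mem_closedBall, dist_eq_norm] at hy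
  rw [mem_ball_zero_iff]
  have h1 : ‖t • (b • a)‖ ≤ |b| := by
    rw [norm_smul, norm_smul, ha, mul_one, Real.norm_eq_abs, Real.norm_eq_abs, abs_of_nonneg ht.1]
    exact mul_le_of_le_one_left (abs_nonneg b) ht.2
  have h2 : ‖y‖ ≤ ‖y - t • (b • a)‖ + ‖t • (b • a)‖ := by
    have := norm_add_le (y - t • (b • a)) (t • (b • a))
    rwa [sub_add_cancel] at this
  linarith

/-- variation of the vertical derivative along the axis -/
theorem mol_axis' (H : HypL5 a L τ R) (K : Ker σ M0 M ρ) {b : ℝ} (hb : |b| + σ < L) :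
    |mol ρ (fun x => fderiv ℝ R x a) (b • a) - mol ρ (fun x => fderiv ℝ R x a) 0| ≤
      |b| * (τ * M0 + M * ∫ x in ball (0 : E) L, tg a R x) := by
  have h1 := mvt01 (f := fun t => mol ρ (fun x => fderiv ℝ R x a) (0 + t • (b • a)))
    (f' := fun t => - ∫ y, fderiv ℝ R y a * fderiv ℝ (tr ρ (0 + t • (b • a))) y (b • a))
    (C := |b| * (τ * M0 + M * ∫ x in ball (0 : E) L, tg a R x))
    (fun t => hasDerivAt_mol K.cd K.supp (continuous_fderiv_apply' H.cR a) 0 (b • a) t) ?_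
  · simpa using h1
  · intro t ht
    show |- ∫ y, fderiv ℝ R y a * fderiv ℝ (tr ρ (0 + t • (b • a))) y (b • a)| ≤ _
    have h2 : ∀ y, fderiv ℝ R y a * fderiv ℝ (tr ρ (0 + t • (b • a))) y (b • a)
        = b * (fderiv ℝ R y a * fderiv ℝ (tr ρ (t • (b • a))) y a) := by
      intro y
      rw [map_smul, smul_eq_mul, zero_add]; ring
    simp only [h2]
    rw [integral_const_mul, abs_neg, abs_mul]
    exact mul_le_mul_of_nonneg_left (vert_le H K (cb_axis H.ha hb ht)) (abs_nonneg b)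

/-- affine behaviour of the mollification along the axis -/
theorem mol_axis (H : HypL5 a L τ R) (K : Ker σ M0 M ρ) {b : ℝ} (hb : |b| + σ < L) :
    |mol ρ R (b • a) - mol ρ R 0 - b * mol ρ (fun x => fderiv ℝ R x a) 0| ≤
      |b| * (|b| * (τ * M0 + M * ∫ x in ball (0 : E) L, tg a R x)) := by
  set β := mol ρ (fun x => fderiv ℝ R x a) 0 with hβ
  have h1 := mvt01 (f := fun t => mol ρ R (0 + t • (b • a)) - t * (b * β))
    (f' := fun t => (- ∫ y, R y * fderiv ℝ (tr ρ (0 + t • (b • a))) y (b • a)) - 1 * (b * β))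
    (C := |b| * (|b| * (τ * M0 + M * ∫ x in ball (0 : E) L, tg a R x)))
    (fun t => (hasDerivAt_mol K.cd K.supp H.cR.continuous 0 (b • a) t).sub
      ((hasDerivAt_id t).mul_const (b * β))) ?_
  · simp only [zero_add, one_smul, zero_smul, one_mul, zero_mul, sub_zero] at h1
    rw [show mol ρ R (b • a) - b * β - mol ρ R 0 = mol ρ R (b • a) - mol ρ R 0 - b * β by ring] at h1
    exact h1
  · intro t ht
    show |(- ∫ y, R y * fderiv ℝ (tr ρ (0 + t • (b • a))) y (b • a)) - 1 * (b * β)| ≤ _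
    rw [ibp H.cR (tr_cd K.cd _) (K.hcs _) (b • a), neg_neg]
    have h2 : ∀ y, fderiv ℝ R y (b • a) * tr ρ (0 + t • (b • a)) y
        = b * (fderiv ℝ R y a * tr ρ ((t * b) • a) y) := by
      intro y
      rw [map_smul, smul_eq_mul, zero_add, smul_smul]; ring
    simp only [h2]
    rw [integral_const_mul]
    have h3 : b * (∫ y, fderiv ℝ R y a * tr ρ ((t * b) • a) y) - 1 * (b * β)
        = b * (mol ρ (fun x => fderiv ℝ R x a) ((t * b) • a) - β) := by
      unfold mol; ring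
    rw [h3, abs_mul]
    have htb : |t * b| ≤ |b| := by
      rw [abs_mul, abs_of_nonneg ht.1]
      exact mul_le_of_le_one_left (abs_nonneg b) ht.2
    have h4 := mol_axis' H K (b := t * b) (by linarith)
    have h5 : 0 ≤ τ * M0 + M * ∫ x in ball (0 : E) L, tg a R x :=
      add_nonneg (mul_nonneg H.hτ.le K.hM0) (mul_nonneg K.hM tg_int_nonneg)
    exact mul_le_mul_of_nonneg_left (h4.trans (mul_le_mul_of_nonneg_right htb h5)) (abs_nonneg b)

theorem lip2 (H : HypL5 a L τ R) {x y : E} (hx : x ∈ ball (0 : E) L) (hy : y ∈ ball (0 : E) L) :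
    |R y - R x| ≤ 2 * ‖y - x‖ := by
  have h := Convex.norm_image_sub_le_of_norm_fderiv_le (𝕜 := ℝ) (f := R) (s := ball (0 : E) L)
    (C := 2) (fun z _ => H.cR.differentiable one_ne_zero z) (fun z hz => ?_) (convex_ball _ _) hx hy
  · exact h
  · rw [← norm_grad]
    have := H.lip z hz
    have h1 := H.hτ1
    nlinarith [norm_nonneg (∇ R z)]

/-- `mol ρ R z` is close to `R z` -/
theorem mol_sub_le (H : HypL5 a L τ R) (K : Ker σ M0 M ρ) (hσ : 0 ≤ σ) {w : E}
    (hw : closedBall w σ ⊆ ball (0 : E) L) : |mol ρ R w - R w| ≤ 2 * σ := by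
  have hcd := tr_cd K.cd w
  have h0 : ∫ y, tr ρ w y = 1 := by
    unfold tr
    rw [integral_sub_right_eq_self ρ w]; exact K.int
  have hi1 : Integrable fun y => R y * tr ρ w y :=
    (H.cR.continuous.mul hcd.continuous).integrable_of_hasCompactSupport (K.hcs w).mul_left
  have hi2 : Integrable fun y => tr ρ w y :=
    hcd.continuous.integrable_of_hasCompactSupport (K.hcs w)
  have h1 : mol ρ R w - R w = ∫ y, (R y - R w) * tr ρ w y := by
    have h2 : ∀ y, (R y - R w) * tr ρ w y = R y * tr ρ w y - R w * tr ρ w y := fun y => by ring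
    simp only [h2]
    rw [integral_sub hi1 (hi2.const_mul _), integral_const_mul, h0, mul_one]; rfl
  rw [h1]
  refine (abs_integral_le_integral_abs).trans ?_
  have h3 : ∀ y, |(R y - R w) * tr ρ w y| ≤ (2 * σ) * tr ρ w y := by
    intro y
    have hn : 0 ≤ tr ρ w y := K.nonneg _
    by_cases hy : y ∈ closedBall w σ
    · rw [abs_mul, abs_of_nonneg hn]
      refine mul_le_mul_of_nonneg_right ?_ hn
      have h4 := lip2 H (hw (mem_closedBall_self hσ)) (hw hy)
      rw [mem_closedBall, dist_eq_norm] at hy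
      linarith
    · rw [tr_zero K.supp hy]; simp
  calc ∫ y, |(R y - R w) * tr ρ w y| ≤ ∫ y, (2 * σ) * tr ρ w y := by
        refine integral_mono ?_ (hi2.const_mul _) h3
        have : Integrable fun y => (R y - R w) * tr ρ w y :=
          ((H.cR.continuous.sub continuous_const).mul
            hcd.continuous).integrable_of_hasCompactSupport (K.hcs w).mul_left
        exact this.abs
    _ = 2 * σ := by rw [integral_const_mul, h0, mul_one]

theorem abs_beta_le (H : HypL5 a L τ R) (K : Ker σ M0 M ρ)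
    (hw : closedBall (0 : E) σ ⊆ ball (0 : E) L) : |mol ρ (fun x => fderiv ℝ R x a) 0| ≤ 2 := by
  have hcd := tr_cd K.cd (0 : E)
  have h0 : ∫ y, tr ρ (0 : E) y = 1 := by
    unfold tr
    rw [integral_sub_right_eq_self ρ (0 : E)]; exact K.int
  have hi2 : Integrable fun y => tr ρ (0 : E) y :=
    hcd.continuous.integrable_of_hasCompactSupport (K.hcs 0)
  unfold mol
  refine (abs_integral_le_integral_abs).trans ?_
  have h3 : ∀ y, |fderiv ℝ R y a * tr ρ (0 : E) y| ≤ 2 * tr ρ (0 : E) y := by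
    intro y
    have hn : 0 ≤ tr ρ (0 : E) y := K.nonneg _
    by_cases hy : y ∈ closedBall (0 : E) σ
    · rw [abs_mul, abs_of_nonneg hn]
      refine mul_le_mul_of_nonneg_right ?_ hn
      have h5 := H.lip y (hw hy)
      have h6 := abs_fderiv_le R y a
      rw [H.ha, mul_one] at h6
      have h1 := H.hτ1
      nlinarith [norm_nonneg (∇ R y)]
    · rw [tr_zero K.supp hy]; simp
  calc ∫ y, |fderiv ℝ R y a * tr ρ (0 : E) y| ≤ ∫ y, 2 * tr ρ (0 : E) y := by
        refine integral_mono ?_ (hi2.const_mul _) h3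
        have : Integrable fun y => fderiv ℝ R y a * tr ρ (0 : E) y :=
          ((continuous_fderiv_apply' H.cR a).mul
            hcd.continuous).integrable_of_hasCompactSupport (K.hcs 0).mul_left
        exact this.abs
    _ = 2 := by rw [integral_const_mul, h0, mul_one]

theorem cb_sub {w : E} {l : ℝ} (hw : ‖w‖ ≤ l) (hl : l + σ < L) :
    closedBall w σ ⊆ ball (0 : E) L := by
  intro y hy
  rw [mem_closedBall, dist_eq_norm] at hy
  rw [mem_ball_zero_iff]
  have h2 : ‖y‖ ≤ ‖y - w‖ + ‖w‖ := by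
    have := norm_add_le (y - w) w
    rwa [sub_add_cancel] at this
  linarith

/-- `R` is close to an affine function of `⟨a, z⟩` on `closedBall 0 l`, `l + σ < L` -/
theorem affine_close (H : HypL5 a L τ R) (K : Ker σ M0 M ρ) (hσ : 0 ≤ σ) {l : ℝ} (hl0 : 0 ≤ l)
    (hl : l + σ < L) {z : E} (hz : ‖z‖ ≤ l) :
    |R z - R 0 - mol ρ (fun x => fderiv ℝ R x a) 0 * ⟪a, z⟫_ℝ| ≤
      4 * σ + M0 * l * (∫ x in ball (0 : E) L, tg a R x) +
        l * (l * (τ * M0 + M * ∫ x in ball (0 : E) L, tg a R x)) := by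
  set I1 := ∫ x in ball (0 : E) L, tg a R x with hI1
  have hI1n : 0 ≤ I1 := tg_int_nonneg
  set b := ⟪a, z⟫_ℝ with hb
  set v := z - b • a with hv
  have hav : ⟪a, v⟫_ℝ = 0 := by
    rw [hv, inner_sub_right, inner_smul_right, real_inner_self_eq_norm_sq, H.ha, ← hb]; ring
  have hbl : |b| ≤ l := by
    refine (abs_real_inner_le_norm a z).trans ?_
    rw [H.ha, one_mul]; exact hz
  have hzeq : z = b • a + v := by rw [hv]; abel
  have hnz : ∀ t ∈ Icc (0 : ℝ) 1, ‖b • a + t • v‖ ≤ l := by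
    intro t ht
    refine le_trans ?_ hz
    have h1 : ‖b • a + t • v‖ ^ 2 ≤ ‖z‖ ^ 2 := by
      have h2 : ∀ s : ℝ, ‖b • a + s • v‖ ^ 2 = b ^ 2 + s ^ 2 * ‖v‖ ^ 2 := by
        intro s
        rw [@norm_add_sq_real, real_inner_smul_left, real_inner_smul_right, hav, norm_smul,
          norm_smul, H.ha, mul_one, mul_pow, Real.norm_eq_abs, Real.norm_eq_abs, sq_abs, sq_abs]
        ring
      have h3 := h2 1
      rw [one_smul, ← hzeq] at h3
      rw [h2 t, h3]
      have : t ^ 2 ≤ 1 := by nlinarith [ht.1, ht.2]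
      nlinarith [sq_nonneg ‖v‖]
    exact (sq_le_sq₀ (norm_nonneg _) (norm_nonneg _)).1 h1
  have hnv : ‖v‖ ≤ l := by
    refine le_trans ?_ hz
    have h1 : ‖v‖ ^ 2 ≤ ‖z‖ ^ 2 := by
      have h3 : ‖z‖ ^ 2 = b ^ 2 + ‖v‖ ^ 2 := by
        nth_rewrite 1 [hzeq]
        rw [@norm_add_sq_real, real_inner_smul_left, hav, norm_smul, H.ha, mul_one,
          Real.norm_eq_abs, sq_abs]
        ring
      rw [h3]; nlinarith [sq_nonneg b]
    exact (sq_le_sq₀ (norm_nonneg _) (norm_nonneg _)).1 h1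
  have e1 := mol_orth H K (w := b • a) hav fun t ht => cb_sub (hnz t ht) hl
  rw [← hzeq] at e1
  have e2 := mol_axis H K (b := b) (by linarith)
  have e3 := mol_sub_le H K hσ (w := z) (cb_sub hz hl)
  have e4 := mol_sub_le H K hσ (w := 0) (cb_sub (by rw [norm_zero]; exact hl0) hl)
  have h5 : 0 ≤ τ * M0 + M * I1 :=
    add_nonneg (mul_nonneg H.hτ.le K.hM0) (mul_nonneg K.hM hI1n)
  have e5 : M0 * ‖v‖ * I1 ≤ M0 * l * I1 :=
    mul_le_mul_of_nonneg_right (mul_le_mul_of_nonneg_left hnv K.hM0) hI1n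
  have e6 : |b| * (|b| * (τ * M0 + M * I1)) ≤ l * (l * (τ * M0 + M * I1)) :=
    mul_le_mul hbl (mul_le_mul_of_nonneg_right hbl h5) (mul_nonneg (abs_nonneg _) h5) hl0
  set β := mol ρ (fun x => fderiv ℝ R x a) 0 with hβ
  have h7 : R z - R 0 - β * b = (mol ρ R 0 - R 0) - (mol ρ R z - R z) +
      (mol ρ R z - mol ρ R (b • a)) + (mol ρ R (b • a) - mol ρ R 0 - b * β) := by ring
  rw [h7]
  have t1 := abs_add_le ((mol ρ R 0 - R 0) - (mol ρ R z - R z) +
      (mol ρ R z - mol ρ R (b • a))) (mol ρ R (b • a) - mol ρ R 0 - b * β)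
  have t2 := abs_add_le ((mol ρ R 0 - R 0) - (mol ρ R z - R z)) (mol ρ R z - mol ρ R (b • a))
  have t3 := abs_sub (mol ρ R 0 - R 0) (mol ρ R z - R z)
  linarith

end

end Crest.Agent.R246.L5x579
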