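import Crest.Agent.R246.MSSliceInt_852

/-!
# R246-F (helper852): assembly of Lemma MS
-/

set_option autoImplicit false
set_option linter.unusedSectionVars false

namespace Crest.Agent.R246.MS852

open MeasureTheory Metric Set InnerProductSpace Filter Topology
open scoped RealInnerProductSpace Gradient ENNReal

section
variable {E : Type*} [NormedAddCommGroup E] [InnerProductSpace ℝ E] [FiniteDimensional ℝ E]
  [MeasurableSpace E] [BorelSpace E] {a : E} {ε η : ℝ} {h r : E → ℝ}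

theorem Growth.mono {d : ℕ} {G G' : ℝ} (hG : Growth ε h r d G) (h1 : G ≤ G') :
    Growth ε h r d G' := fun p hp ρ h0 hρ1 =>
  (hG p hp ρ h0 hρ1).trans (mul_le_mul_of_nonneg_right h1 (by positivity))

theorem Good.mono {d : ℕ} {lam lam' : ℝ} {x : E} (hG : Good a ε h r d lam x) (h1 : lam ≤ lam') :
    Good a ε h r d lam' x := ⟨hG.1, fun ρ h0 hρ1 =>
  (hG.2 ρ h0 hρ1).trans (mul_le_mul_of_nonneg_right h1 (by positivity))⟩

/-- comparison of centres at radius `1/2` -/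
theorem Hyp.center (H : Hyp a ε η h r) {x1 : E} {ρ1 : ℝ} (hρ1 : ρ1 ≤ 1 / 10)
    (hx : ‖x1‖ ≤ ρ1) : J ε h r x1 (1 / 2) ≤
      J ε h r 0 (1 / 2) + 11 * ρ1 * En ε h r (ball 0 (9 / 10)) := by
  have hρ0 : 0 ≤ ρ1 := (norm_nonneg _).trans hx
  have hb : ball (0 : E) (9 / 10) ⊆ ball 0 2 := ball_subset_ball (by norm_num)
  have hct : ∀ p : E, Continuous fun x : E => ‖x - p‖ ^ 2 / (1 / 2 : ℝ) ^ 2 := fun p => by fun_prop
  have hc : ∀ p : E, Continuous fun x : E => q ε h r x * psi (‖x - p‖ ^ 2 / (1 / 2) ^ 2) :=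
    fun p => H.contq.mul (continuous_psi.comp (hct p))
  have hJ : ∀ p : E, ‖p‖ ≤ 1 / 10 → J ε h r p (1 / 2) =
      ∫ x in ball (0 : E) (9 / 10), q ε h r x * psi (‖x - p‖ ^ 2 / (1 / 2) ^ 2) := by
    intro p hp
    unfold J
    apply setIntegral_eq_of_subset_of_forall_sdiff_eq_zero measurableSet_ball hb
    intro x hx
    have hx2 : x ∉ ball p (1 / 2) := by
      intro h'
      apply hx.2
      rw [mem_ball, dist_eq_norm] at h'
      rw [mem_ball, dist_zero_right]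
      have : ‖x‖ ≤ ‖x - p‖ + ‖p‖ := by
        calc ‖x‖ = ‖(x - p) + p‖ := by rw [sub_add_cancel]
          _ ≤ _ := norm_add_le _ _
      linarith
    rw [psin_eq_zero (by norm_num) hx2, mul_zero]
  rw [hJ x1 (hx.trans hρ1), hJ 0 (by rw [norm_zero]; norm_num)]
  unfold En
  rw [← integral_const_mul, ← integral_add (integrableOn_ball (hc 0) _ _)
    ((integrableOn_ball H.contq _ _).const_mul _)]
  apply setIntegral_mono_on (integrableOn_ball (hc x1) _ _)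
    ((integrableOn_ball (hc 0) _ _).add ((integrableOn_ball H.contq _ _).const_mul _))
    measurableSet_ball
  intro x hxb
  show q ε h r x * psi (‖x - x1‖ ^ 2 / (1 / 2) ^ 2) ≤
    q ε h r x * psi (‖x - 0‖ ^ 2 / (1 / 2) ^ 2) + 11 * ρ1 * q ε h r x
  have q0 := H.q_nonneg (hb hxb)
  have hxn : ‖x‖ < 9 / 10 := by simpa using hxb
  by_cases hbig : ‖x‖ ≤ 6 / 10
  · have h1 : psi (‖x - x1‖ ^ 2 / (1 / 2) ^ 2) - psi (‖x - 0‖ ^ 2 / (1 / 2) ^ 2) ≤ 11 * ρ1 := by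
      have h2 := psi_sub_le (s := ‖x - x1‖ ^ 2 / (1 / 2 : ℝ) ^ 2)
        (t := ‖x - 0‖ ^ 2 / (1 / 2 : ℝ) ^ 2) (by positivity) (by positivity)
      have h3 : |‖x - x1‖ ^ 2 / (1 / 2 : ℝ) ^ 2 - ‖x - 0‖ ^ 2 / (1 / 2 : ℝ) ^ 2| ≤
          11 / 2 * ρ1 := by
        have e : ‖x - x1‖ ^ 2 / (1 / 2 : ℝ) ^ 2 - ‖x - 0‖ ^ 2 / (1 / 2 : ℝ) ^ 2 =
            4 * (‖x1‖ ^ 2 - 2 * ⟪x, x1⟫_ℝ) := by
          rw [sub_zero, @norm_sub_sq_real]; ring
        rw [e, abs_le]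
        have hi := abs_le.1 (abs_real_inner_le_norm x x1)
        have h5 : ‖x‖ * ‖x1‖ ≤ 6 / 10 * ρ1 := mul_le_mul hbig hx (norm_nonneg _) (by norm_num)
        have h6 : ‖x1‖ ^ 2 ≤ 1 / 10 * ρ1 := by nlinarith [norm_nonneg x1]
        constructor
        · nlinarith [sq_nonneg ‖x1‖]
        · nlinarith
      linarith
    nlinarith
  · have hx2 : x ∉ ball x1 (1 / 2) := by
      intro h'
      rw [mem_ball, dist_eq_norm] at h'
      have : ‖x‖ ≤ ‖x - x1‖ + ‖x1‖ := by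
        calc ‖x‖ = ‖(x - x1) + x1‖ := by rw [sub_add_cancel]
          _ ≤ _ := norm_add_le _ _
      linarith
    rw [psin_eq_zero (by norm_num) hx2, mul_zero]
    have := psi_nonneg (‖x - 0‖ ^ 2 / (1 / 2) ^ 2)
    positivity

theorem closedBall_sub {p : E} {s R : ℝ} (h : ‖p‖ + s < R) : closedBall p s ⊆ ball (0 : E) R := by
  intro x hx
  rw [mem_closedBall, dist_eq_norm] at hx
  rw [mem_ball, dist_zero_right]
  have : ‖x‖ ≤ ‖x - p‖ + ‖p‖ := by
    calc ‖x‖ = ‖(x - p) + p‖ := by rw [sub_add_cancel]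
      _ ≤ _ := norm_add_le _ _
  linarith

/-- height difference of two points with `|r| ≤ S ε` on a vertical line -/
theorem Hyp.height (H : Hyp a ε η h r) {x1 : E} {D S : ℝ} (hS : S * ε ≤ η)
    (h1 : x1 ∈ ball (0 : E) 2) (h2 : x1 + D • a ∈ ball (0 : E) 2)
    (hr1 : |r x1 / ε| ≤ S) (hr2 : |r (x1 + D • a) / ε| ≤ S) : D ≤ 4 * η := by
  have e1 := abs_le.1 (H.flat _ h1)
  have e2 := abs_le.1 (H.flat _ h2)
  rw [inner_add_right, inner_smul_right, real_inner_self_eq_norm_sq, H.ha] at e2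
  have hb : ∀ {t : ℝ}, |t / ε| ≤ S → |t| ≤ η := by
    intro t ht
    rw [abs_div, abs_of_pos H.hε, div_le_iff₀ H.hε] at ht
    linarith
  have e3 := abs_le.1 (hb hr1)
  have e4 := abs_le.1 (hb hr2)
  nlinarith

end

theorem numeric {δ η c ω X K lam Cs G A B Jk : ℝ} (hδ0 : 0 < δ) (hδ1 : δ ≤ 1) (hη0 : 0 < η)
    (hη1 : η ≤ 1 / 100) (hc0 : 0 < c) (hω : ω = δ / 16) (c5 : 32 * η ≤ δ / 8) (hP : 0 ≤ X)
    (hP2 : X ≤ δ * c / 16)
    (c2 : Cs * G * (1 / K ^ 2) ≤ δ * c / 8)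
    (c3 : Cs * G * (K ^ 2 * Real.sqrt lam) ≤ δ * c / 8)
    (c4 : Cs * G * (K ^ 2 * η) ≤ δ * c / 8)
    (f1 : (1 - ω) * c ≤ (1 + 5 * η) * A) (f2 : (1 - ω) * c ≤ (1 + 5 * η) * B)
    (f3 : A + B ≤ Jk + Cs * G * (K ^ 2 * (Real.sqrt lam + η) + 1 / K ^ 2))
    (f4 : Jk ≤ (1 + 5 * η) * ((1 + 5 * η) * ((2 - δ) * c) + X)) : False := by
  have s1 : 2 * ((1 - ω) * c) ≤ (1 + 5 * η) * (Jk +
      Cs * G * (K ^ 2 * (Real.sqrt lam + η) + 1 / K ^ 2)) := by
    have := mul_le_mul_of_nonneg_left f3 (show 0 ≤ 1 + 5 * η by linarith)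
    linarith
  have s3 : Cs * G * (K ^ 2 * (Real.sqrt lam + η) + 1 / K ^ 2) ≤ 3 * (δ * c / 8) := by
    have : Cs * G * (K ^ 2 * (Real.sqrt lam + η) + 1 / K ^ 2) =
      Cs * G * (K ^ 2 * Real.sqrt lam) + Cs * G * (K ^ 2 * η) + Cs * G * (1 / K ^ 2) := by ring
    rw [this]; linarith
  have s4 : 2 * ((1 - ω) * c) ≤ (1 + 5 * η) * ((1 + 5 * η) * ((1 + 5 * η) * ((2 - δ) * c) + X) +
      3 * (δ * c / 8)) := by
    refine s1.trans (mul_le_mul_of_nonneg_left ?_ (by linarith))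
    linarith
  have hη4 : η ≤ δ / 256 := by linarith
  have t1 : (1 + 5 * η) * (1 + 5 * η) ≤ 1 + 12 * η := by nlinarith
  have t2 : (1 + 5 * η) * ((1 + 5 * η) * (1 + 5 * η)) ≤ 1 + 18 * η := by
    have := mul_le_mul_of_nonneg_left t1 (show 0 ≤ 1 + 5 * η by linarith)
    nlinarith
  have hδc : 0 < δ * c := by positivity
  have t3 : (1 + 5 * η) * ((1 + 5 * η) * ((1 + 5 * η) * ((2 - δ) * c) + X) + 3 * (δ * c / 8)) ≤
      (1 + 18 * η) * ((2 - δ) * c) + (1 + 12 * η) * (δ * c / 16) +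
        (1 + 5 * η) * (3 * (δ * c / 8)) := by
    have e : (1 + 5 * η) * ((1 + 5 * η) * ((1 + 5 * η) * ((2 - δ) * c) + X) + 3 * (δ * c / 8)) =
      ((1 + 5 * η) * ((1 + 5 * η) * (1 + 5 * η))) * ((2 - δ) * c) +
      ((1 + 5 * η) * (1 + 5 * η)) * X + (1 + 5 * η) * (3 * (δ * c / 8)) := by ring
    rw [e]
    have u1 : ((1 + 5 * η) * ((1 + 5 * η) * (1 + 5 * η))) * ((2 - δ) * c) ≤
        (1 + 18 * η) * ((2 - δ) * c) :=
      mul_le_mul_of_nonneg_right t2 (mul_nonneg (by linarith) hc0.le)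
    have u2 : ((1 + 5 * η) * (1 + 5 * η)) * X ≤ (1 + 12 * η) * (δ * c / 16) :=
      mul_le_mul t1 hP2 hP (by linarith)
    linarith
  have t4 := s4.trans t3
  rw [hω] at t4
  have t5 : 2 * (1 - δ / 16) ≤ (1 + 18 * η) * (2 - δ) + (1 + 12 * η) * (δ / 16) +
      (1 + 5 * η) * (3 * δ / 8) := by
    have : (2 * (1 - δ / 16)) * c ≤ ((1 + 18 * η) * (2 - δ) + (1 + 12 * η) * (δ / 16) +
      (1 + 5 * η) * (3 * δ / 8)) * c := by linarith
    exact le_of_mul_le_mul_right this hc0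
  have hηδ : η * δ ≤ η := by nlinarith
  nlinarith [mul_pos hη0 hδ0]

theorem half_bound {d : ℕ} {η ρ1 M c δ J1 J2 J3 En' : ℝ} (hη0 : 0 < η) (hρ0 : 0 < ρ1)
    (hJ : J3 ≤ (2 - δ) * c) (f5 : J1 ≤ J2 + 11 * ρ1 * En')
    (f6 : J2 / (1 / 2) ^ d ≤ (1 + 5 * η) * J3) (f7 : En' ≤ M) :
    J1 / (1 / 2) ^ d ≤ (1 + 5 * η) * ((2 - δ) * c) + 2 ^ d * (11 * ρ1 * M) := by
  have hpow : (0 : ℝ) < (1 / 2) ^ d := by positivity
  have g1 : J1 ≤ J2 + 11 * ρ1 * M := by
    refine f5.trans ?_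
    have : 11 * ρ1 * En' ≤ 11 * ρ1 * M := mul_le_mul_of_nonneg_left f7 (by positivity)
    linarith
  have g2 : J1 / (1 / 2) ^ d ≤ J2 / (1 / 2) ^ d + 2 ^ d * (11 * ρ1 * M) := by
    have e : (11 * ρ1 * M) / (1 / 2) ^ d = 2 ^ d * (11 * ρ1 * M) := by
      rw [div_pow, one_pow]; field_simp
    rw [← e, ← add_div]
    exact div_le_div_of_nonneg_right g1 hpow.le
  have g3 : (1 + 5 * η) * J3 ≤ (1 + 5 * η) * ((2 - δ) * c) :=
    mul_le_mul_of_nonneg_left hJ (by linarith)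
  linarith

/-- step 6: two far good points on a vertical line are impossible -/
theorem no_two (E : Type*) [NormedAddCommGroup E] [InnerProductSpace ℝ E] [FiniteDimensional ℝ E]
    [MeasurableSpace E] [BorelSpace E] {d : ℕ} (hd : Module.finrank ℝ E = d + 1)
    {a : E} {ε η : ℝ} {h r : E → ℝ} (H : Hyp a ε η h r)
    {c δ ω ρ1 M G K Cs lam S L2 : ℝ} (hcdef : c = 4 / 3 * cpsi d) (hδ0 : 0 < δ)
    (hω : ω = δ / 16) (hρ0 : 0 < ρ1) (hρ1 : ρ1 ≤ 1 / 10)
    (hM : M = 56 * c) (hJ : J ε h r 0 1 ≤ (2 - δ) * c)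
    (hδ1 : δ ≤ 1)
    (c1 : 22 * 2 ^ d * ρ1 * M ≤ δ * c / 8)
    (hK : 1 ≤ K)
    (hlam : 0 < lam) (hlam1 : lam ≤ 1)
    (c2 : Cs * G * (1 / K ^ 2) ≤ δ * c / 8)
    (c3 : Cs * G * (K ^ 2 * Real.sqrt lam) ≤ δ * c / 8)
    (c4 : Cs * G * (K ^ 2 * η) ≤ δ * c / 8)
    (c5 : 32 * η ≤ δ / 8) (c6 : 12 * K * η ≤ 1 / 100)
    (hS : S * ε ≤ η) (hL2 : 4 ≤ L2)
    (hslab : ∀ lam K D : ℝ, 0 < lam → lam ≤ 1 → 1 ≤ K → 0 < D →
      3 * K * D ≤ 1 / 100 →
      ∀ x1 : E, x1 ∈ ball (0 : E) (1 / 2) → Good a ε h r d lam x1 →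
        Good a ε h r d lam (x1 + D • a) →
      J ε h r x1 (D / 4) / (D / 4) ^ d + J ε h r (x1 + D • a) (D / 4) / (D / 4) ^ d ≤
        J ε h r x1 (K * D) / (K * D) ^ d + Cs * G * (K ^ 2 * (Real.sqrt lam + η) + 1 / K ^ 2))
    (hlow : ∀ x0 : E, Good a ε h r d lam x0 → |r x0 / ε| ≤ S → L2 * ε ≤ 1 / 100 ∧
      (1 - ω) * c * (L2 * ε) ^ d ≤ J ε h r x0 (L2 * ε))
    {x1 : E} {D : ℝ} (hx1 : x1 ∈ ball (0 : E) ρ1) (hx2 : x1 + D • a ∈ ball (0 : E) ρ1)
    (g1 : Good a ε h r d lam x1) (g2 : Good a ε h r d lam (x1 + D • a))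
    (r1 : |r x1 / ε| ≤ S) (r2 : |r (x1 + D • a) / ε| ≤ S) (hD : 0 < D) :
    D < 4 * (L2 * ε) := by
  by_contra hcon
  push Not at hcon
  have hη0 := H.hη0
  have hη1 := H.hη
  have hε := H.hε
  have hc := cpsi_pos d
  have hc0 : 0 < c := by rw [hcdef]; positivity
  have hn1 : ‖x1‖ < ρ1 := by simpa using hx1
  have hn2 : ‖x1 + D • a‖ < ρ1 := by simpa using hx2
  have hb2 : ball (0 : E) ρ1 ⊆ ball 0 2 := ball_subset_ball (by linarith)
  have hD4 : D ≤ 4 * η := H.height hS (hb2 hx1) (hb2 hx2) r1 r2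
  have hK0 : 0 < K := lt_of_lt_of_le one_pos hK
  have hKD : 3 * K * D ≤ 1 / 100 := by
    calc 3 * K * D ≤ 3 * K * (4 * η) := mul_le_mul_of_nonneg_left hD4 (by linarith)
      _ = 12 * K * η := by ring
      _ ≤ _ := c6
  have hKD3 : 3 * (K * D) ≤ 1 / 100 := by rw [← mul_assoc]; exact hKD
  have hKD0 : 0 < K * D := mul_pos hK0 hD
  have hKD1 : K * D ≤ 1 / 2 := by linarith
  have hDK : D ≤ K * D := le_mul_of_one_le_left hD.le hK
  have hD1 : D ≤ 1 / 100 := by linarith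
  -- lower bounds at scale `D/4`
  have hlowD : ∀ x : E, ‖x‖ < ρ1 → Good a ε h r d lam x → |r x / ε| ≤ S →
      (1 - ω) * c ≤ (1 + 5 * η) * (J ε h r x (D / 4) / (D / 4) ^ d) := by
    intro x hx hg hr
    obtain ⟨l1, l2⟩ := hlow x hg hr
    have hLε : 0 < L2 * ε := mul_pos (by linarith) hε
    have hm := stMono E d hd a ε η h r H x (L2 * ε) (D / 4) hLε (by linarith)
      (closedBall_sub (by linarith))
    refine le_trans ?_ hm
    rw [le_div_iff₀ (pow_pos hLε d)]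
    exact l2
  have f1 := hlowD x1 hn1 g1 r1
  have f2 := hlowD (x1 + D • a) hn2 g2 r2
  have f3 := hslab lam K D hlam hlam1 hK hD hKD x1 (by
    rw [mem_ball, dist_zero_right]; linarith) g1 g2
  -- from `K D` to `1/2`
  have f4 := stMono E d hd a ε η h r H x1 (K * D) (1 / 2) hKD0 hKD1
    (closedBall_sub (by linarith))
  have f5 := H.center hρ1 hn1.le
  have f6 := stMono E d hd a ε η h r H 0 (1 / 2) 1 (by norm_num) (by norm_num)
    (closedBall_sub (by rw [norm_zero]; norm_num))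
  have f7 : En ε h r (ball 0 (9 / 10)) ≤ M := by
    have h1 := H.En_ball_le
    have h2 : 0 ≤ δ * c := mul_nonneg hδ0.le hc0.le
    have h3 : (2 - δ) * c = 2 * c - δ * c := by ring
    rw [hM]; linarith
  rw [one_pow, div_one] at f6
  have hJx1 : J ε h r x1 (1 / 2) / (1 / 2) ^ d ≤ (1 + 5 * η) * ((2 - δ) * c) +
      2 ^ d * (11 * ρ1 * M) := half_bound hη0 hρ0 hJ f5 f6 f7
  have hM0 : 0 ≤ M := by rw [hM]; linarith
  have hP : 0 ≤ 2 ^ d * (11 * ρ1 * M) :=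
    mul_nonneg (by positivity) (mul_nonneg (by linarith) hM0)
  have c1' : 2 ^ d * (11 * ρ1 * M) ≤ δ * c / 16 := by
    have : 22 * 2 ^ d * ρ1 * M = 2 * (2 ^ d * (11 * ρ1 * M)) := by ring
    linarith
  exact numeric hδ0 hδ1 hη0 hη1 hc0 hω c5 hP c1' c2 c3 c4 f1 f2 f3 (f4.trans
    (mul_le_mul_of_nonneg_left hJx1 (by linarith)))

section
variable {E : Type*} [NormedAddCommGroup E] [InnerProductSpace ℝ E] [FiniteDimensional ℝ E]
  [MeasurableSpace E] [BorelSpace E] {a : E} {ε η : ℝ} {h r : E → ℝ}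

/-- line integrals over the good set -/
theorem Hyp.line_bound (H : Hyp a ε η h r) {A : Set E} (hA1 : A ⊆ ball 0 1) {l V : ℝ}
    (hl0 : 0 ≤ l) (hl : l ≤ 1 / 2)
    (hno : ∀ (x : E) (D : ℝ), x ∈ A → x + D • a ∈ A → 0 < D → D < l)
    (hvert : ∀ x0 ∈ A, ∫ t in Icc (-l) l, q ε h r (x0 + t • a) ≤ V) (y : E) :
    ∫⁻ t : ℝ, A.indicator (fun x => ENNReal.ofReal (q ε h r x)) (t • a + y) ≤
      ENNReal.ofReal V := by
  by_cases hex : ∃ t0 : ℝ, t0 • a + y ∈ A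
  · obtain ⟨t0, ht0⟩ := hex
    set x0 := t0 • a + y with hx0
    have hx01 : ‖x0‖ < 1 := by simpa using hA1 ht0
    set g : ℝ → ℝ≥0∞ := (Icc (-l) l).indicator
      (fun s => ENNReal.ofReal (q ε h r (x0 + s • a))) with hg
    have h1 : ∀ t : ℝ, A.indicator (fun x => ENNReal.ofReal (q ε h r x)) (t • a + y) ≤
        g (t - t0) := by
      intro t
      by_cases ht : t • a + y ∈ A
      · have e1 : t • a + y = x0 + (t - t0) • a := by rw [hx0]; module
        have hmem : t - t0 ∈ Icc (-l) l := by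
          rcases lt_trichotomy t t0 with h' | h' | h'
          · have e2 : (t • a + y) + (t0 - t) • a = x0 := by rw [hx0]; module
            have := hno (t • a + y) (t0 - t) ht (by rw [e2]; exact ht0) (by linarith)
            constructor <;> linarith
          · subst h'
            rw [sub_self]
            exact ⟨by linarith, hl0⟩
          · have := hno x0 (t - t0) ht0 (by rw [← e1]; exact ht) (by linarith)
            constructor <;> linarith
        rw [indicator_of_mem ht, hg, indicator_of_mem hmem, e1]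
      · rw [indicator_of_notMem ht]; exact bot_le
    have hc : Continuous fun s : ℝ => q ε h r (x0 + s • a) := H.contq.comp (by fun_prop)
    calc _ ≤ ∫⁻ t : ℝ, g (t - t0) := lintegral_mono h1
      _ = ∫⁻ t : ℝ, g t := lintegral_sub_right_eq_self g t0
      _ = ∫⁻ t in Icc (-l) l, ENNReal.ofReal (q ε h r (x0 + t • a)) :=
          lintegral_indicator measurableSet_Icc _
      _ = ENNReal.ofReal (∫ t in Icc (-l) l, q ε h r (x0 + t • a)) := by
          rw [ofReal_integral_eq_lintegral_ofReal]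
          · exact hc.continuousOn.integrableOn_compact isCompact_Icc
          · rw [EventuallyLE, ae_restrict_iff' measurableSet_Icc]
            refine Eventually.of_forall fun s hs => H.q_nonneg ?_
            rw [mem_ball, dist_zero_right]
            have h3 : ‖s • a‖ ≤ 1 / 2 := by
              rw [norm_smul, H.ha, mul_one, Real.norm_eq_abs, abs_le]
              constructor <;> linarith [hs.1, hs.2]
            have := norm_add_le x0 (s • a)
            linarith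
      _ ≤ ENNReal.ofReal V := ENNReal.ofReal_le_ofReal (hvert x0 ht0)
  · push Not at hex
    have : ∀ t : ℝ, A.indicator (fun x => ENNReal.ofReal (q ε h r x)) (t • a + y) = 0 :=
      fun t => indicator_of_notMem (hex t) _
    simp only [this, lintegral_zero]
    exact bot_le

end

end Crest.Agent.R246.MS852
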