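import Crest.Agent.R246.MSBasic_852

/-!
# R246-F (helper579): mollification tools for Lemma L5

`mol ρ F w = ∫ F y ρ(y - w) dy`: derivative in `w`, integration by parts, and the test function
`ρ(· - w)`.
-/

set_option autoImplicit false
set_option linter.unusedSectionVars false

namespace Crest.Agent.R246.L5x579

open MeasureTheory Metric Set InnerProductSpace Filter Topology
open scoped RealInnerProductSpace Gradient ContDiff
open Crest.Agent.R246.MS852

section
variable {E : Type*} [NormedAddCommGroup E] [InnerProductSpace ℝ E] [FiniteDimensional ℝ E]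
  [MeasurableSpace E] [BorelSpace E]

/-- differentiation under the integral sign, everything supported in a compact set -/
theorem hasDerivAt_int {Φ Φ' : ℝ → E → ℝ} {t0 : ℝ} {K : Set E} (hK : IsCompact K)
    (h0 : ∀ t ∈ Icc (t0 - 1) (t0 + 1), ∀ y, y ∉ K → Φ t y = 0)
    (h0' : ∀ t ∈ Icc (t0 - 1) (t0 + 1), ∀ y, y ∉ K → Φ' t y = 0)
    (hc : Continuous (Function.uncurry Φ)) (hc' : Continuous (Function.uncurry Φ'))
    (hd : ∀ t y, HasDerivAt (fun s => Φ s y) (Φ' t y) t) :
    HasDerivAt (fun t => ∫ y, Φ t y) (∫ y, Φ' t0 y) t0 := by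
  obtain ⟨C, hC⟩ := (isCompact_Icc.prod hK).exists_bound_of_continuousOn
    (f := Function.uncurry Φ') hc'.continuousOn (s := Icc (t0 - 1) (t0 + 1) ×ˢ K)
  have ht0 : t0 ∈ Icc (t0 - 1) (t0 + 1) := ⟨by linarith, by linarith⟩
  have hs : Icc (t0 - 1) (t0 + 1) ∈ 𝓝 t0 := Icc_mem_nhds (by linarith) (by linarith)
  have hct : ∀ t, Continuous (Φ t) := fun t => hc.comp (by fun_prop : Continuous fun y => (t, y))
  have hct' : ∀ t, Continuous (Φ' t) := fun t => hc'.comp (by fun_prop : Continuous fun y => (t, y))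
  refine (hasDerivAt_integral_of_dominated_loc_of_deriv_le (μ := volume) (F := Φ) (F' := Φ')
    (bound := K.indicator fun _ => |C|) hs ?_ ?_ ?_ ?_ ?_ ?_).2
  · exact Eventually.of_forall fun t => (hct t).aestronglyMeasurable
  · refine (hct t0).integrable_of_hasCompactSupport ?_
    exact HasCompactSupport.intro hK fun y hy => h0 t0 ht0 y hy
  · exact (hct' t0).aestronglyMeasurable
  · refine Eventually.of_forall fun y t ht => ?_
    by_cases hy : y ∈ K
    · rw [indicator_of_mem hy]
      exact (hC (t, y) ⟨ht, hy⟩).trans (le_abs_self C)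
    · rw [indicator_of_notMem hy, h0' t ht y hy, norm_zero]
  · exact (integrable_indicator_iff hK.measurableSet).2 (integrableOn_const hK.measure_lt_top.ne)
  · exact Eventually.of_forall fun y t _ => hd t y

/-- mollifier data -/
structure Ker (σ M0 M : ℝ) (ρ : E → ℝ) : Prop where
  cd : ContDiff ℝ 1 ρ
  nonneg : ∀ x, 0 ≤ ρ x
  supp : tsupport ρ ⊆ closedBall 0 σ
  int : ∫ x, ρ x = 1
  le : ∀ x, ρ x ≤ M0
  grad : ∀ x, ‖fderiv ℝ ρ x‖ ≤ M
  hM0 : 0 ≤ M0
  hM : 0 ≤ M

theorem exists_ker {σ : ℝ} (hσ : 0 < σ) : ∃ (M0 M : ℝ) (ρ : E → ℝ), Ker σ M0 M ρ := by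
  let f : ContDiffBump (0 : E) := ⟨σ / 2, σ, by linarith, by linarith⟩
  have hcd : ContDiff ℝ 1 (f.normed volume) := f.contDiff_normed (n := 1)
  have hcs : HasCompactSupport (f.normed volume) := f.hasCompactSupport_normed
  obtain ⟨M0, hM0⟩ := hcs.exists_bound_of_continuous hcd.continuous
  obtain ⟨M, hM⟩ := (hcs.fderiv ℝ).exists_bound_of_continuous (hcd.continuous_fderiv one_ne_zero)
  refine ⟨M0, M, f.normed volume, hcd, f.nonneg_normed, ?_, f.integral_normed, ?_, hM, ?_, ?_⟩
  · rw [f.tsupport_normed_eq]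
  · exact fun x => (le_abs_self _).trans (hM0 x)
  · exact (norm_nonneg _).trans (hM0 0)
  · exact (norm_nonneg _).trans (hM 0)

/-- `ρ(· - w)` -/
def tr (ρ : E → ℝ) (w : E) (y : E) : ℝ := ρ (y - w)

theorem tr_cd {ρ : E → ℝ} (h : ContDiff ℝ 1 ρ) (w : E) : ContDiff ℝ 1 (tr ρ w) := by
  unfold tr; exact h.comp (contDiff_id.sub contDiff_const)

theorem fderiv_tr (ρ : E → ℝ) (w y : E) : fderiv ℝ (tr ρ w) y = fderiv ℝ ρ (y - w) := by
  show fderiv ℝ (fun y => ρ (y - w)) y = _
  rw [fderiv_comp_sub]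

theorem tr_zero {ρ : E → ℝ} {σ : ℝ} (hs : tsupport ρ ⊆ closedBall 0 σ) {w y : E}
    (hy : y ∉ closedBall w σ) : tr ρ w y = 0 := by
  show ρ (y - w) = 0
  refine image_eq_zero_of_notMem_tsupport fun h => hy ?_
  have := hs h
  rwa [mem_closedBall_zero_iff, ← dist_eq_norm, ← mem_closedBall] at this

theorem tr_tsupport {ρ : E → ℝ} {σ : ℝ} (hs : tsupport ρ ⊆ closedBall 0 σ) (w : E) :
    tsupport (tr ρ w) ⊆ closedBall w σ := by
  refine closure_minimal ?_ isClosed_closedBall
  intro y hy
  by_contra h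
  exact hy (tr_zero hs h)

theorem fderiv_tr_zero {ρ : E → ℝ} {σ : ℝ} (hs : tsupport ρ ⊆ closedBall 0 σ) {w y : E}
    (hy : y ∉ closedBall w σ) : fderiv ℝ (tr ρ w) y = 0 := by
  have h1 : (fun z => tr ρ w z) =ᶠ[𝓝 y] fun _ => 0 := by
    filter_upwards [isClosed_closedBall.isOpen_compl.mem_nhds hy] with z hz
    exact tr_zero hs hz
  have h2 := h1.fderiv_eq (𝕜 := ℝ)
  rw [show (fun z => tr ρ w z) = tr ρ w from rfl] at h2
  rw [h2]; simp

/-- mollification at `w` -/
noncomputable def mol (ρ F : E → ℝ) (w : E) : ℝ := ∫ y, F y * tr ρ w y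

/-- derivative of the mollification along a line -/
theorem hasDerivAt_mol {ρ F : E → ℝ} {σ : ℝ} (hρ : ContDiff ℝ 1 ρ)
    (hs : tsupport ρ ⊆ closedBall 0 σ) (hF : Continuous F) (w v : E) (t : ℝ) :
    HasDerivAt (fun t => mol ρ F (w + t • v))
      (- ∫ y, F y * fderiv ℝ (tr ρ (w + t • v)) y v) t := by
  have hf' : Continuous (fderiv ℝ ρ) := hρ.continuous_fderiv one_ne_zero
  have key := hasDerivAt_int (t0 := t) (K := closedBall (w + t • v) (σ + ‖v‖))
    (Φ := fun s y => F y * ρ (y - (w + s • v)))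
    (Φ' := fun s y => F y * - fderiv ℝ ρ (y - (w + s • v)) v)
    (isCompact_closedBall _ _) ?_ ?_ ?_ ?_ ?_
  · refine key.congr_deriv ?_
    rw [← integral_neg]
    refine integral_congr_ae (Eventually.of_forall fun y => ?_)
    show F y * -(fderiv ℝ ρ (y - (w + t • v))) v = -(F y * (fderiv ℝ (tr ρ (w + t • v)) y) v)
    rw [fderiv_tr]; ring
  · intro s hs' y hy
    have h1 : tr ρ (w + s • v) y = 0 := by
      refine tr_zero hs fun h => hy ?_
      rw [mem_closedBall] at h ⊢
      have h2 : dist (w + s • v) (w + t • v) ≤ ‖v‖ := by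
        rw [dist_eq_norm, add_sub_add_left_eq_sub, ← sub_smul, norm_smul, Real.norm_eq_abs]
        have : |s - t| ≤ 1 := by rw [abs_le]; constructor <;> linarith [hs'.1, hs'.2]
        nlinarith [norm_nonneg v]
      linarith [dist_triangle y (w + s • v) (w + t • v)]
    show F y * tr ρ (w + s • v) y = 0
    rw [h1, mul_zero]
  · intro s hs' y hy
    have h1 : fderiv ℝ (tr ρ (w + s • v)) y = 0 := by
      refine fderiv_tr_zero hs fun h => hy ?_
      rw [mem_closedBall] at h ⊢
      have h2 : dist (w + s • v) (w + t • v) ≤ ‖v‖ := by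
        rw [dist_eq_norm, add_sub_add_left_eq_sub, ← sub_smul, norm_smul, Real.norm_eq_abs]
        have : |s - t| ≤ 1 := by rw [abs_le]; constructor <;> linarith [hs'.1, hs'.2]
        nlinarith [norm_nonneg v]
      linarith [dist_triangle y (w + s • v) (w + t • v)]
    rw [fderiv_tr] at h1
    show F y * - fderiv ℝ ρ (y - (w + s • v)) v = 0
    rw [h1]; simp
  · show Continuous fun p : ℝ × E => F p.2 * ρ (p.2 - (w + p.1 • v))
    have := hρ.continuous
    fun_prop
  · show Continuous fun p : ℝ × E => F p.2 * - fderiv ℝ ρ (p.2 - (w + p.1 • v)) v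
    refine (hF.comp continuous_snd).mul (Continuous.neg ?_)
    exact (hf'.comp (by fun_prop : Continuous fun p : ℝ × E => p.2 - (w + p.1 • v))).clm_apply
      continuous_const
  · intro s y
    have h1 : HasDerivAt (fun s : ℝ => y - (w + s • v)) (-v) s := by
      have h2 : HasDerivAt (fun s : ℝ => s • v) ((1 : ℝ) • v) s := (hasDerivAt_id s).smul_const v
      rw [one_smul] at h2
      exact (h2.const_add w).const_sub y
    have h3 : HasFDerivAt ρ (fderiv ℝ ρ (y - (w + s • v))) (y - (w + s • v)) :=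
      (hρ.differentiable one_ne_zero _).hasFDerivAt
    have h4 := (h3.comp_hasDerivAt s h1).const_mul (F y)
    refine h4.congr_deriv ?_
    rw [map_neg]

/-- integration by parts for `C^1` functions, one of them with compact support -/
theorem ibp {F φ : E → ℝ} (hF : ContDiff ℝ 1 F) (hφ : ContDiff ℝ 1 φ) (hc : HasCompactSupport φ)
    (v : E) : ∫ x, F x * fderiv ℝ φ x v = - ∫ x, fderiv ℝ F x v * φ x := by
  have hF' := continuous_fderiv_apply' hF v
  have hφ' := continuous_fderiv_apply' hφ v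
  apply integral_mul_fderiv_eq_neg_fderiv_mul_of_integrable
  · exact (hF'.mul hφ.continuous).integrable_of_hasCompactSupport hc.mul_left
  · exact (hF.continuous.mul hφ').integrable_of_hasCompactSupport
      ((hc.fderiv_apply (𝕜 := ℝ) v).mul_left)
  · exact (hF.continuous.mul hφ.continuous).integrable_of_hasCompactSupport hc.mul_left
  · exact fun x _ => hF.differentiable one_ne_zero x
  · exact fun x _ => hφ.differentiable one_ne_zero x

theorem hcs_of_tsupport {φ : E → ℝ} {p : E} {L : ℝ} (h : tsupport φ ⊆ closedBall p L) :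
    HasCompactSupport φ :=
  (isCompact_closedBall p L).of_isClosed_subset (isClosed_tsupport φ) h

end

end Crest.Agent.R246.L5x579
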