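import Crest.Agent.R246.MSStat_852

/-!
# R246-F (helper852): monotonicity formula and energy growth
-/

set_option autoImplicit false
set_option linter.unusedSectionVars false

namespace Crest.Agent.R246.MS852

open MeasureTheory Metric Set InnerProductSpace Filter Topology
open scoped RealInnerProductSpace Gradient

/-- derivative in `ρ` of `∫ G psi(f/ρ²)` -/
theorem hasDerivAt_psi_integral {α : Type*} [MeasurableSpace α] {μ : Measure α} {G f : α → ℝ}
    (hG : Integrable G μ) (hf : Measurable f) (hf0 : ∀ x, 0 ≤ f x) {ρ : ℝ} (hρ : 0 < ρ) :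
    HasDerivAt (fun s => ∫ x, G x * psi (f x / s ^ 2) ∂μ)
      (∫ x, G x * (dpsi (f x / ρ ^ 2) * (-2 * f x / ρ ^ 3)) ∂μ) ρ := by
  have hs : Ioi (ρ / 2) ∈ 𝓝 ρ := Ioi_mem_nhds (by linarith)
  have hpm : ∀ s : ℝ, Measurable fun x => psi (f x / s ^ 2) := fun s =>
    continuous_psi.measurable.comp (hf.div_const _)
  have key := hasDerivAt_integral_of_dominated_loc_of_deriv_le (μ := μ) (𝕜 := ℝ)
    (F := fun s x => G x * psi (f x / s ^ 2))
    (F' := fun s x => G x * (dpsi (f x / s ^ 2) * (-2 * f x / s ^ 3)))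
    (bound := fun x => ‖G x‖ * (2 / ρ)) (x₀ := ρ) hs
    (Eventually.of_forall fun s => hG.aestronglyMeasurable.mul (hpm s).aestronglyMeasurable)
    ?_ ?_ ?_ (hG.norm.mul_const _) ?_
  · exact key.2
  · refine Integrable.mono hG (hG.aestronglyMeasurable.mul (hpm ρ).aestronglyMeasurable) ?_
    refine Eventually.of_forall fun x => ?_
    rw [norm_mul]
    have h1 : ‖psi (f x / ρ ^ 2)‖ ≤ 1 := by
      rw [Real.norm_eq_abs, abs_of_nonneg (psi_nonneg _)]
      exact psi_le_one (div_nonneg (hf0 x) (by positivity))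
    calc ‖G x‖ * ‖psi (f x / ρ ^ 2)‖ ≤ ‖G x‖ * 1 := by gcongr
      _ = _ := mul_one _
  · refine hG.aestronglyMeasurable.mul (Measurable.aestronglyMeasurable ?_)
    exact (continuous_dpsi.measurable.comp (hf.div_const _)).mul
      ((hf.const_mul _).div_const _)
  · refine Eventually.of_forall fun x s hs' => ?_
    have hs1 : ρ / 2 < s := hs'
    have hs0 : 0 < s := by linarith
    rw [norm_mul]
    apply mul_le_mul_of_nonneg_left _ (norm_nonneg _)
    have ht : 0 ≤ f x / s ^ 2 := div_nonneg (hf0 x) (by positivity)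
    have e1 : dpsi (f x / s ^ 2) * (-2 * f x / s ^ 3)
        = -(f x / s ^ 2 * dpsi (f x / s ^ 2)) * (2 / s) := by
      field_simp
    rw [e1, Real.norm_eq_abs, abs_of_nonneg (mul_nonneg (mul_dpsi_nonneg ht) (by positivity))]
    have h2 : 2 / s ≤ 4 / ρ := by
      rw [div_le_div_iff₀ hs0 hρ]; linarith
    calc _ ≤ 1 / 2 * (4 / ρ) := mul_le_mul (mul_dpsi_bound ht) h2 (by positivity) (by norm_num)
      _ = _ := by ring
  · refine Eventually.of_forall fun x s hs' => ?_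
    have hs1 : ρ / 2 < s := hs'
    have hs0 : 0 < s := by linarith
    apply HasDerivAt.const_mul
    have h1 : HasDerivAt (fun s : ℝ => f x / s ^ 2) (-2 * f x / s ^ 3) s := by
      have h2 : HasDerivAt (fun s : ℝ => s ^ 2) (2 * s) s := by
        simpa using hasDerivAt_pow 2 s
      have h3 := (hasDerivAt_const s (f x)).fun_div h2 (by positivity)
      refine h3.congr_deriv ?_
      field_simp
      ring
    exact (hasDerivAt_psi _).comp s h1

section
variable {E : Type*} [NormedAddCommGroup E] [InnerProductSpace ℝ E] [FiniteDimensional ℝ E]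
  [MeasurableSpace E] [BorelSpace E] {a : E} {ε η : ℝ} {h r : E → ℝ}

theorem hasFDerivAt_normsq (p : E) (ρ : ℝ) (x : E) :
    HasFDerivAt (fun x => ‖x - p‖ ^ 2 / ρ ^ 2) ((2 / ρ ^ 2) • innerSL ℝ (x - p)) x := by
  have h1 : HasFDerivAt (fun x : E => x - p) (ContinuousLinearMap.id ℝ E) x :=
    (hasFDerivAt_id x).sub_const p
  have h2 := h1.norm_sq
  have h3 := h2.mul_const (1 / ρ ^ 2)
  refine (h3.congr_fderiv ?_).congr_of_eventuallyEq (Eventually.of_forall fun y => ?_)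
  · ext v
    simp
    ring
  · simp only [mul_one_div]

theorem hasFDerivAt_psin (p : E) (ρ : ℝ) (x : E) :
    HasFDerivAt (fun x => psi (‖x - p‖ ^ 2 / ρ ^ 2))
      (dpsi (‖x - p‖ ^ 2 / ρ ^ 2) • ((2 / ρ ^ 2) • innerSL ℝ (x - p))) x :=
  (hasDerivAt_psi _).comp_hasFDerivAt x (hasFDerivAt_normsq p ρ x)

theorem contDiff_psin (p : E) (ρ : ℝ) : ContDiff ℝ 1 (fun x : E => psi (‖x - p‖ ^ 2 / ρ ^ 2)) :=
  contDiff_psi.comp (((contDiff_norm_sq ℝ).comp (contDiff_id.sub contDiff_const)).div_const _)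

theorem psin_eq_zero {p x : E} {ρ : ℝ} (hρ : 0 < ρ) (hx : x ∉ ball p ρ) :
    psi (‖x - p‖ ^ 2 / ρ ^ 2) = 0 := by
  apply psi_of_one_le
  rw [one_le_div (by positivity)]
  rw [mem_ball, dist_eq_norm, not_lt] at hx
  exact pow_le_pow_left₀ hρ.le hx 2

theorem dpsin_eq_zero {p x : E} {ρ : ℝ} (hρ : 0 < ρ) (hx : x ∉ ball p ρ) :
    dpsi (‖x - p‖ ^ 2 / ρ ^ 2) = 0 := by
  apply dpsi_of_one_le
  rw [one_le_div (by positivity)]
  rw [mem_ball, dist_eq_norm, not_lt] at hx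
  exact pow_le_pow_left₀ hρ.le hx 2

theorem tsupport_psin_smul {p : E} {ρ : ℝ} (hρ : 0 < ρ) (V : E → E) :
    tsupport (fun x => psi (‖x - p‖ ^ 2 / ρ ^ 2) • V x) ⊆ closedBall p ρ := by
  apply closure_minimal _ isClosed_closedBall
  intro x hx
  by_contra hx'
  apply hx
  have : x ∉ ball p ρ := fun h' => hx' (ball_subset_closedBall h')
  simp only [psin_eq_zero hρ this, zero_smul]

/-- the radial inequality `∫ q (-2 t ψ'(t)) ≥ (d - 2ηρ) ∫ q ψ(t)`, `t = |x-p|²/ρ²` -/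
theorem Hyp.radial (H : Hyp a ε η h r) {d : ℕ} (hd : Module.finrank ℝ E = d + 1) {p : E} {ρ : ℝ}
    (hρ : 0 < ρ) (hp : closedBall p ρ ⊆ ball (0 : E) 2) :
    ((d : ℝ) - 2 * η * ρ) * J ε h r p ρ ≤
      ∫ x in ball (0 : E) 2, q ε h r x *
        (-(2 * (‖x - p‖ ^ 2 / ρ ^ 2) * dpsi (‖x - p‖ ^ 2 / ρ ^ 2))) := by
  set b := stdOrthonormalBasis ℝ E with hb
  set X : E → E := fun x => psi (‖x - p‖ ^ 2 / ρ ^ 2) • (x - p) with hX
  have hsX : tsupport X ⊆ closedBall p ρ := tsupport_psin_smul hρ _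
  have hcX : ContDiff ℝ 1 X := (contDiff_psin p ρ).smul (contDiff_id.sub contDiff_const)
  have hfd : ∀ x v, fderiv ℝ X x v = ((dpsi (‖x - p‖ ^ 2 / ρ ^ 2) * (2 / ρ ^ 2)) *
      ⟪x - p, v⟫_ℝ) • (x - p) + psi (‖x - p‖ ^ 2 / ρ ^ 2) • v := by
    intro x v
    have h1 : HasFDerivAt (fun x : E => x - p) (ContinuousLinearMap.id ℝ E) x :=
      (hasFDerivAt_id x).sub_const p
    have h2 := (hasFDerivAt_psin p ρ x).fun_smul h1
    rw [hX, h2.fderiv]
    simp only [add_apply, FunLike.coe_smul, Pi.smul_apply, ContinuousLinearMap.smulRight_apply,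
      innerSL_apply_apply, smul_eq_mul, ContinuousLinearMap.id_apply]
    rw [add_comm, mul_assoc]
  have hst := H.stat_vec b hcX (hsX.trans hp)
  have htr : ∀ x, ∑ i, ⟪b i, fderiv ℝ X x (b i)⟫_ℝ =
      (dpsi (‖x - p‖ ^ 2 / ρ ^ 2) * (2 / ρ ^ 2)) * ‖x - p‖ ^ 2
        + psi (‖x - p‖ ^ 2 / ρ ^ 2) * (d + 1) := by
    intro x
    simp_rw [hfd]
    rw [sum_inner_field b (x - p) (x - p) _ _, real_inner_self_eq_norm_sq]
    simp [hd]
  have hin : ∀ x, ⟪∇ r x, fderiv ℝ X x (∇ r x)⟫_ℝ =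
      dpsi (‖x - p‖ ^ 2 / ρ ^ 2) * (2 / ρ ^ 2) * ⟪x - p, ∇ r x⟫_ℝ ^ 2
        + psi (‖x - p‖ ^ 2 / ρ ^ 2) * ‖∇ r x‖ ^ 2 := by
    intro x
    rw [hfd, inner_add_right, inner_smul_right, inner_smul_right, real_inner_self_eq_norm_sq,
      real_inner_comm (x - p) (∇ r x)]
    ring
  have hK := isCompact_tsupport_of_ball (hsX.trans hp)
  have hKc : IsCompact (closedBall p ρ) := isCompact_closedBall p ρ
  have hcq := H.contq
  have hcS := continuous_S4 (ε := ε) H.cr.continuous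
  have hcg := continuous_grad H.cr
  have hct : Continuous fun x : E => ‖x - p‖ ^ 2 / ρ ^ 2 := by fun_prop
  have hcpsi : Continuous fun x : E => psi (‖x - p‖ ^ 2 / ρ ^ 2) := continuous_psi.comp hct
  have hcdpsi : Continuous fun x : E => dpsi (‖x - p‖ ^ 2 / ρ ^ 2) := continuous_dpsi.comp hct
  have hoff : ∀ {x}, x ∉ closedBall p ρ → x ∉ ball p ρ := fun h1 h2 =>
    h1 (ball_subset_closedBall h2)
  -- the four integrands
  set A : E → ℝ := fun x => q ε h r x * ∑ i, ⟪b i, fderiv ℝ X x (b i)⟫_ℝ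
        - S4 ε r x / ε * ⟪∇ r x, fderiv ℝ X x (∇ r x)⟫_ℝ with hA
  set B : E → ℝ := fun x => S4 ε r x / (2 * ε) * fderiv ℝ h x (X x) with hB
  have hAi : Integrable A := by
    apply integrable_of_zero_off _ hKc
    · intro x hx
      rw [hA]
      simp only [htr, hin, psin_eq_zero hρ (hoff hx), dpsin_eq_zero hρ (hoff hx)]
      ring
    · rw [hA]
      simp only [htr, hin]
      fun_prop
  have hBi : Integrable B := by
    apply integrable_of_zero_off _ hKc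
    · intro x hx
      simp only [hB, hX, psin_eq_zero hρ (hoff hx), zero_smul, map_zero, mul_zero]
    · have h1 := (H.ch.continuous_fderiv one_ne_zero).clm_apply hcX.continuous
      exact (hcS.div_const _).mul h1
  have hF1 : Integrable (fun x => q ε h r x *
        (-(2 * (‖x - p‖ ^ 2 / ρ ^ 2) * dpsi (‖x - p‖ ^ 2 / ρ ^ 2)))) := by
    apply integrable_of_zero_off _ hKc
    · intro x hx
      rw [dpsin_eq_zero hρ (hoff hx)]; ring
    · fun_prop
  have hF2 : Integrable (fun x => q ε h r x * psi (‖x - p‖ ^ 2 / ρ ^ 2)) := by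
    apply integrable_of_zero_off _ hKc
    · intro x hx
      rw [psin_eq_zero hρ (hoff hx)]; ring
    · fun_prop
  have hzero : ∫ x, (-A x - B x) = 0 := by
    have h1 : Integrable fun x => -A x := hAi.neg
    rw [integral_sub h1 hBi, integral_neg]
    have : ∫ x, A x = -∫ x, B x := hst
    rw [this]; ring
  have hout : ∀ {x}, x ∉ ball (0 : E) 2 → x ∉ closedBall p ρ := fun h1 h2 => h1 (hp h2)
  have eJ : J ε h r p ρ = ∫ x, q ε h r x * psi (‖x - p‖ ^ 2 / ρ ^ 2) := by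
    unfold J
    apply setIntegral_eq_integral_of_forall_compl_eq_zero
    intro x hx
    rw [psin_eq_zero hρ (hoff (hout hx))]; ring
  have eJ' : ∫ x in ball (0 : E) 2, q ε h r x *
        (-(2 * (‖x - p‖ ^ 2 / ρ ^ 2) * dpsi (‖x - p‖ ^ 2 / ρ ^ 2))) =
      ∫ x, q ε h r x * (-(2 * (‖x - p‖ ^ 2 / ρ ^ 2) * dpsi (‖x - p‖ ^ 2 / ρ ^ 2))) := by
    apply setIntegral_eq_integral_of_forall_compl_eq_zero
    intro x hx
    rw [dpsin_eq_zero hρ (hoff (hout hx))]; ring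
  rw [eJ, eJ', ← integral_const_mul, ← sub_nonneg, ← integral_sub hF1 (hF2.const_mul _), ← hzero]
  apply integral_mono (hAi.neg.sub hBi) (hF1.sub (hF2.const_mul _))
  intro x
  by_cases hx : x ∈ closedBall p ρ
  · have hx2 : x ∈ ball (0 : E) 2 := hp hx
    have hxn : ‖x - p‖ ≤ ρ := by rwa [mem_closedBall, dist_eq_norm] at hx
    have q0 := H.q_nonneg hx2
    have p0 := psi_nonneg (‖x - p‖ ^ 2 / ρ ^ 2)
    have g1 := H.Sg_le_q hx2
    have s1 := H.S_le_q hx2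
    have S0 : 0 ≤ S4 ε r x / ε := div_nonneg (S4_nonneg ε r x) H.hε.le
    have S0' : 0 ≤ S4 ε r x / (2 * ε) := div_nonneg (S4_nonneg ε r x) (by linarith [H.hε])
    have d0 := dpsi_nonpos (‖x - p‖ ^ 2 / ρ ^ 2)
    have hBx : -(2 * η * ρ * (q ε h r x * psi (‖x - p‖ ^ 2 / ρ ^ 2))) ≤ B x := by
      have e1 : B x = psi (‖x - p‖ ^ 2 / ρ ^ 2) * (S4 ε r x / (2 * ε) * fderiv ℝ h x (x - p)) := by
        simp only [hB, hX, map_smul, smul_eq_mul]; ring
      have e2 : |fderiv ℝ h x (x - p)| ≤ η * ρ := by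
        calc |fderiv ℝ h x (x - p)| ≤ ‖fderiv ℝ h x‖ * ‖x - p‖ := by
              rw [← Real.norm_eq_abs]; exact (fderiv ℝ h x).le_opNorm _
          _ ≤ η * ρ := mul_le_mul (H.dh x hx2) hxn (norm_nonneg _) H.hη0.le
      have e3 : |S4 ε r x / (2 * ε) * fderiv ℝ h x (x - p)| ≤ 2 * q ε h r x * (η * ρ) := by
        rw [abs_mul, abs_of_nonneg S0']
        exact mul_le_mul s1 e2 (abs_nonneg _) (by linarith)
      have e4 := (abs_le.1 e3).1
      rw [e1]
      have e5 := mul_le_mul_of_nonneg_left e4 p0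
      calc _ = psi (‖x - p‖ ^ 2 / ρ ^ 2) * -(2 * q ε h r x * (η * ρ)) := by ring
        _ ≤ _ := e5
    have hAx : A x = q ε h r x * ((dpsi (‖x - p‖ ^ 2 / ρ ^ 2) * (2 / ρ ^ 2)) * ‖x - p‖ ^ 2
        + psi (‖x - p‖ ^ 2 / ρ ^ 2) * (d + 1))
        - S4 ε r x / ε * (dpsi (‖x - p‖ ^ 2 / ρ ^ 2) * (2 / ρ ^ 2) * ⟪x - p, ∇ r x⟫_ℝ ^ 2
        + psi (‖x - p‖ ^ 2 / ρ ^ 2) * ‖∇ r x‖ ^ 2) := by
      simp only [hA, htr, hin]
    have g2 : 0 ≤ psi (‖x - p‖ ^ 2 / ρ ^ 2) * (q ε h r x - S4 ε r x / ε * ‖∇ r x‖ ^ 2) :=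
      mul_nonneg p0 (by linarith)
    have g3 : 0 ≤ S4 ε r x / ε *
        (-(dpsi (‖x - p‖ ^ 2 / ρ ^ 2)) * (2 / ρ ^ 2) * ⟪x - p, ∇ r x⟫_ℝ ^ 2) := by
      have : 0 ≤ -(dpsi (‖x - p‖ ^ 2 / ρ ^ 2)) := by linarith
      positivity
    show -A x - B x ≤ q ε h r x * (-(2 * (‖x - p‖ ^ 2 / ρ ^ 2) * dpsi (‖x - p‖ ^ 2 / ρ ^ 2)))
      - (↑d - 2 * η * ρ) * (q ε h r x * psi (‖x - p‖ ^ 2 / ρ ^ 2))
    rw [hAx]
    have e6 : q ε h r x * ((dpsi (‖x - p‖ ^ 2 / ρ ^ 2) * (2 / ρ ^ 2)) * ‖x - p‖ ^ 2)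
        = q ε h r x * (2 * (‖x - p‖ ^ 2 / ρ ^ 2) * dpsi (‖x - p‖ ^ 2 / ρ ^ 2)) := by
      ring
    nlinarith [e6, g2, g3, hBx]
  · have hx2 := hoff hx
    have hA0 : A x = 0 := by
      simp only [hA, htr, hin, psin_eq_zero hρ hx2, dpsin_eq_zero hρ hx2]; ring
    have hB0 : B x = 0 := by
      simp only [hB, hX, psin_eq_zero hρ hx2, zero_smul, map_zero, mul_zero]
    show -A x - B x ≤ q ε h r x * (-(2 * (‖x - p‖ ^ 2 / ρ ^ 2) * dpsi (‖x - p‖ ^ 2 / ρ ^ 2)))
      - (↑d - 2 * η * ρ) * (q ε h r x * psi (‖x - p‖ ^ 2 / ρ ^ 2))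
    rw [hA0, hB0, psin_eq_zero hρ hx2, dpsin_eq_zero hρ hx2]
    ring_nf
    exact le_rfl

/-! ### elementary facts on `En`, `J` -/

theorem Hyp.En_nonneg (H : Hyp a ε η h r) {A : Set E} (hA : A ⊆ ball (0 : E) 2)
    (hAm : MeasurableSet A) : 0 ≤ En ε h r A :=
  setIntegral_nonneg hAm fun _ hx => H.q_nonneg (hA hx)

theorem Hyp.Kp_nonneg (H : Hyp a ε η h r) {A : Set E} (hA : A ⊆ ball (0 : E) 2)
    (hAm : MeasurableSet A) : 0 ≤ Kp a ε h r A :=
  setIntegral_nonneg hAm fun _ hx => H.kap_nonneg (hA hx)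

theorem Hyp.En_mono (H : Hyp a ε η h r) {A B : Set E} (hAB : A ⊆ B) (hB : B ⊆ ball (0 : E) 2)
    (hBm : MeasurableSet B) : En ε h r A ≤ En ε h r B :=
  setIntegral_mono_of_ball H.contq hAB hB hBm fun _ hx => H.q_nonneg (hB hx)

theorem Hyp.Kp_mono (H : Hyp a ε η h r) {A B : Set E} (hAB : A ⊆ B) (hB : B ⊆ ball (0 : E) 2)
    (hBm : MeasurableSet B) : Kp a ε h r A ≤ Kp a ε h r B :=
  setIntegral_mono_of_ball H.contkap hAB hB hBm fun _ hx => H.kap_nonneg (hB hx)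

theorem Hyp.J_nonneg (H : Hyp a ε η h r) (p : E) (ρ : ℝ) : 0 ≤ J ε h r p ρ :=
  setIntegral_nonneg measurableSet_ball fun _ hx => mul_nonneg (H.q_nonneg hx) (psi_nonneg _)

theorem Hyp.J_eq (H : Hyp a ε η h r) {p : E} {ρ : ℝ} (hρ : 0 < ρ)
    (hp : closedBall p ρ ⊆ ball (0 : E) 2) :
    J ε h r p ρ = ∫ x in closedBall p ρ, q ε h r x * psi (‖x - p‖ ^ 2 / ρ ^ 2) := by
  unfold J
  apply setIntegral_eq_of_subset_of_forall_sdiff_eq_zero measurableSet_ball hp
  intro x hx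
  rw [psin_eq_zero hρ (fun h' => hx.2 (ball_subset_closedBall h')), mul_zero]

theorem Hyp.J_le_En (H : Hyp a ε η h r) {p : E} {ρ : ℝ} (hρ : 0 < ρ)
    (hp : closedBall p ρ ⊆ ball (0 : E) 2) : J ε h r p ρ ≤ En ε h r (closedBall p ρ) := by
  rw [H.J_eq hρ hp]
  have hct : Continuous fun x : E => ‖x - p‖ ^ 2 / ρ ^ 2 := by fun_prop
  apply setIntegral_mono_on
  · exact integrableOn_closedBall (H.contq.mul (continuous_psi.comp hct)) p ρ
  · exact integrableOn_closedBall H.contq p ρ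
  · exact measurableSet_closedBall
  · intro x hx
    have := H.q_nonneg (hp hx)
    have h1 := psi_le_one (show 0 ≤ ‖x - p‖ ^ 2 / ρ ^ 2 by positivity)
    nlinarith

theorem Hyp.En_le_J (H : Hyp a ε η h r) {p : E} {ρ : ℝ} (hρ : 0 < ρ)
    (hp : closedBall p ρ ⊆ ball (0 : E) 2) :
    En ε h r (closedBall p ρ) ≤ 16 / 9 * J ε h r p (2 * ρ) := by
  have hct : Continuous fun x : E => ‖x - p‖ ^ 2 / (2 * ρ) ^ 2 := by fun_prop
  have hc : Continuous fun x : E => q ε h r x * psi (‖x - p‖ ^ 2 / (2 * ρ) ^ 2) :=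
    H.contq.mul (continuous_psi.comp hct)
  have h1 : ∫ x in closedBall p ρ, q ε h r x * psi (‖x - p‖ ^ 2 / (2 * ρ) ^ 2) ≤
      J ε h r p (2 * ρ) := by
    unfold J
    exact setIntegral_mono_of_ball hc hp le_rfl measurableSet_ball
      fun x hx => mul_nonneg (H.q_nonneg hx) (psi_nonneg _)
  refine le_trans ?_ (mul_le_mul_of_nonneg_left h1 (by norm_num))
  rw [← integral_const_mul]
  unfold En
  apply setIntegral_mono_on
  · exact integrableOn_closedBall H.contq p ρ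
  · exact (integrableOn_closedBall hc p ρ).const_mul _
  · exact measurableSet_closedBall
  · intro x hx
    have q0 := H.q_nonneg (hp hx)
    rw [mem_closedBall, dist_eq_norm] at hx
    have h2 : ‖x - p‖ ^ 2 / (2 * ρ) ^ 2 ≤ 1 / 4 := by
      rw [div_le_div_iff₀ (by positivity) (by norm_num)]
      nlinarith [norm_nonneg (x - p)]
    have h3 : psi (1 / 4) ≤ psi (‖x - p‖ ^ 2 / (2 * ρ) ^ 2) := psi_antitone h2
    have h4 : psi (1 / 4) = 9 / 16 := by rw [psi_of_le_one (by norm_num)]; norm_num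
    rw [h4] at h3
    nlinarith

theorem Hyp.hasDerivAt_J (H : Hyp a ε η h r) (p : E) {s : ℝ} (hs : 0 < s) :
    HasDerivAt (fun s => J ε h r p s) (∫ x in ball (0 : E) 2, q ε h r x *
      (dpsi (‖x - p‖ ^ 2 / s ^ 2) * (-2 * ‖x - p‖ ^ 2 / s ^ 3))) s := by
  unfold J
  exact hasDerivAt_psi_integral (integrableOn_ball H.contq 0 2)
    (f := fun x => ‖x - p‖ ^ 2) (by fun_prop) (fun x => by positivity) hs

/-- the weighted density with exponential correction is nondecreasing -/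
theorem Hyp.monotoneOn (H : Hyp a ε η h r) {d : ℕ} (hd : Module.finrank ℝ E = d + 1) {p : E}
    {ρ' : ℝ} (hp : closedBall p ρ' ⊆ ball (0 : E) 2) :
    MonotoneOn (fun s => Real.exp (2 * η * s) * J ε h r p s / s ^ d) (Ioc 0 ρ') := by
  have hder : ∀ s, 0 < s → HasDerivAt (fun s => Real.exp (2 * η * s) * J ε h r p s / s ^ d)
      (((Real.exp (2 * η * s) * (2 * η) * J ε h r p s + Real.exp (2 * η * s) *
        (∫ x in ball (0 : E) 2, q ε h r x *
      (dpsi (‖x - p‖ ^ 2 / s ^ 2) * (-2 * ‖x - p‖ ^ 2 / s ^ 3)))) * s ^ d -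
        Real.exp (2 * η * s) * J ε h r p s * (d * s ^ (d - 1))) / (s ^ d) ^ 2) s := by
    intro s hs
    have h1 : HasDerivAt (fun s => Real.exp (2 * η * s)) (Real.exp (2 * η * s) * (2 * η)) s := by
      have : HasDerivAt (fun s : ℝ => 2 * η * s) (2 * η) s := by
        simpa using (hasDerivAt_id s).const_mul (2 * η)
      exact this.exp
    have h2 := (h1.fun_mul (H.hasDerivAt_J p hs)).fun_div (hasDerivAt_pow d s) (by positivity)
    exact h2
  apply monotoneOn_of_deriv_nonneg (convex_Ioc 0 ρ')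
  · intro s hs
    exact (hder s hs.1).continuousAt.continuousWithinAt
  · intro s hs
    rw [interior_Ioc] at hs
    exact (hder s hs.1).differentiableAt.differentiableWithinAt
  · intro s hs
    rw [interior_Ioc] at hs
    rw [(hder s hs.1).deriv]
    apply div_nonneg _ (by positivity)
    have hs0 : 0 < s := hs.1
    have hps : closedBall p s ⊆ ball (0 : E) 2 := (closedBall_subset_closedBall hs.2.le).trans hp
    have hrad := H.radial hd hs0 hps
    have e1 : s * (∫ x in ball (0 : E) 2, q ε h r x *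
      (dpsi (‖x - p‖ ^ 2 / s ^ 2) * (-2 * ‖x - p‖ ^ 2 / s ^ 3))) =
      ∫ x in ball (0 : E) 2, q ε h r x *
        (-(2 * (‖x - p‖ ^ 2 / s ^ 2) * dpsi (‖x - p‖ ^ 2 / s ^ 2))) := by
      rw [← integral_const_mul]
      congr 1; ext x
      field_simp
    rw [← e1] at hrad
    set I := ∫ x in ball (0 : E) 2, q ε h r x *
      (dpsi (‖x - p‖ ^ 2 / s ^ 2) * (-2 * ‖x - p‖ ^ 2 / s ^ 3)) with hI
    set Jv := J ε h r p s with hJv
    have e2 : s * ((d : ℝ) * s ^ (d - 1)) = d * s ^ d := by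
      rcases Nat.eq_zero_or_pos d with h0 | h0
      · subst h0; simp
      · obtain ⟨k, rfl⟩ : ∃ k, d = k + 1 := ⟨d - 1, by omega⟩
        simp only [Nat.add_sub_cancel]; ring
    have e3 : s * ((Real.exp (2 * η * s) * (2 * η) * Jv + Real.exp (2 * η * s) * I) * s ^ d -
        Real.exp (2 * η * s) * Jv * (d * s ^ (d - 1))) =
        Real.exp (2 * η * s) * s ^ d * (s * I - (d - 2 * η * s) * Jv) := by
      have : s * (Real.exp (2 * η * s) * Jv * (d * s ^ (d - 1))) =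
          Real.exp (2 * η * s) * Jv * (d * s ^ d) := by rw [← e2]; ring
      rw [mul_sub, this]; ring
    have e4 : 0 ≤ s * ((Real.exp (2 * η * s) * (2 * η) * Jv + Real.exp (2 * η * s) * I) * s ^ d -
        Real.exp (2 * η * s) * Jv * (d * s ^ (d - 1))) := by
      rw [e3]
      apply mul_nonneg (by positivity)
      linarith
    exact nonneg_of_mul_nonneg_right e4 hs0

theorem radius_le {p : E} (ha : ‖a‖ = 1) {ρ : ℝ} (hρ : 0 < ρ)
    (hp : closedBall p ρ ⊆ ball (0 : E) 2) : ρ < 2 := by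
  have h1 : p + ρ • a ∈ ball (0 : E) 2 := hp (by
    rw [mem_closedBall, dist_eq_norm, add_sub_cancel_left, norm_smul, ha, mul_one,
      Real.norm_eq_abs, abs_of_pos hρ])
  have h2 : p - ρ • a ∈ ball (0 : E) 2 := hp (by
    rw [mem_closedBall, dist_eq_norm, sub_sub_cancel_left, norm_neg, norm_smul, ha, mul_one,
      Real.norm_eq_abs, abs_of_pos hρ])
  rw [mem_ball, dist_zero_right] at h1 h2
  have h3 : ‖(p + ρ • a) - (p - ρ • a)‖ ≤ ‖p + ρ • a‖ + ‖p - ρ • a‖ := norm_sub_le _ _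
  have h4 : (p + ρ • a) - (p - ρ • a) = (2 * ρ) • a := by module
  rw [h4, norm_smul, ha, mul_one, Real.norm_eq_abs, abs_of_pos (by linarith)] at h3
  linarith

/-- LEAF 1 -/
theorem stMono (E : Type*) [NormedAddCommGroup E] [InnerProductSpace ℝ E] [FiniteDimensional ℝ E]
    [MeasurableSpace E] [BorelSpace E] (d : ℕ) : StMono E d := by
  intro hd a ε η h r H p ρ ρ' hρ hρρ' hp
  have hρ' : 0 < ρ' := lt_of_lt_of_le hρ hρρ'
  have h2 := radius_le H.ha hρ' hp
  have hm := H.monotoneOn hd hp (show ρ ∈ Ioc 0 ρ' from ⟨hρ, hρρ'⟩)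
    (show ρ' ∈ Ioc 0 ρ' from ⟨hρ', le_rfl⟩) hρρ'
  simp only [mul_div_assoc] at hm
  set A := J ε h r p ρ / ρ ^ d with hA
  set B := J ε h r p ρ' / ρ' ^ d with hB
  have hA0 : 0 ≤ A := div_nonneg (H.J_nonneg p ρ) (by positivity)
  have hB0 : 0 ≤ B := div_nonneg (H.J_nonneg p ρ') (by positivity)
  have hη := H.hη0
  have hη1 := H.hη
  have h3 : A ≤ Real.exp (2 * η * ρ) * A := by
    have : 1 ≤ Real.exp (2 * η * ρ) := Real.one_le_exp (by positivity)
    nlinarith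
  have h4 : Real.exp (2 * η * ρ') ≤ 1 + 5 * η := by
    have h5 : Real.exp (2 * η * ρ') ≤ Real.exp (4 * η) := Real.exp_le_exp.2 (by nlinarith)
    have h6 : 1 - 4 * η ≤ Real.exp (-(4 * η)) := by
      have := Real.add_one_le_exp (-(4 * η)); linarith
    have h7 : Real.exp (4 * η) * Real.exp (-(4 * η)) = 1 := by
      rw [← Real.exp_add]; simp
    have h8 := Real.exp_pos (4 * η)
    have h9 : Real.exp (4 * η) * (1 - 4 * η) ≤ 1 := by
      calc _ ≤ Real.exp (4 * η) * Real.exp (-(4 * η)) := mul_le_mul_of_nonneg_left h6 h8.le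
        _ = 1 := h7
    have h10 : 1 ≤ (1 + 5 * η) * (1 - 4 * η) := by nlinarith
    have h11 : 0 < 1 - 4 * η := by linarith
    have h12 : Real.exp (4 * η) * (1 - 4 * η) ≤ (1 + 5 * η) * (1 - 4 * η) := h9.trans h10
    exact h5.trans (le_of_mul_le_mul_right h12 h11)
  calc A ≤ Real.exp (2 * η * ρ) * A := h3
    _ ≤ Real.exp (2 * η * ρ') * B := hm
    _ ≤ (1 + 5 * η) * B := mul_le_mul_of_nonneg_right h4 hB0

/-- LEAF 1b -/
theorem stGrowth (E : Type*) [NormedAddCommGroup E] [InnerProductSpace ℝ E]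
    [FiniteDimensional ℝ E] [MeasurableSpace E] [BorelSpace E] (d : ℕ) : StGrowth E d := by
  intro hd a ε η h r H M hM p hp ρ hρ hρ1
  have hpn : ‖p‖ < 4 / 5 := by simpa using hp
  have hsub : ∀ s : ℝ, s ≤ 1 / 10 → closedBall p s ⊆ ball (0 : E) (9 / 10) := by
    intro s hs x hx
    rw [mem_closedBall, dist_eq_norm] at hx
    rw [mem_ball, dist_zero_right]
    have : ‖x‖ ≤ ‖x - p‖ + ‖p‖ := by
      calc ‖x‖ = ‖(x - p) + p‖ := by rw [sub_add_cancel]
        _ ≤ _ := norm_add_le _ _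
    linarith
  have hb : ball (0 : E) (9 / 10) ⊆ ball 0 2 := ball_subset_ball (by norm_num)
  have h1 := H.En_le_J hρ ((hsub ρ (by linarith)).trans hb)
  have h2 := stMono E d hd a ε η h r H p (2 * ρ) (1 / 10) (by linarith) (by linarith)
    ((hsub _ le_rfl).trans hb)
  have h3 := H.J_le_En (p := p) (ρ := 1 / 10) (by norm_num) ((hsub _ le_rfl).trans hb)
  have h4 := H.En_mono (hsub (1 / 10) le_rfl) hb measurableSet_ball
  have h5 : J ε h r p (1 / 10) ≤ M := h3.trans (h4.trans hM)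
  have hJ0 := H.J_nonneg p (1 / 10)
  rw [div_le_iff₀ (by positivity)] at h2
  have hη := H.hη
  have hη0 := H.hη0
  have e1 : (1 + 5 * η) * (J ε h r p (1 / 10) / (1 / 10) ^ d) * (2 * ρ) ^ d =
      (1 + 5 * η) * J ε h r p (1 / 10) * (20 ^ d * ρ ^ d) := by
    have : (2 * ρ) ^ d / (1 / 10) ^ d = 20 ^ d * ρ ^ d := by
      rw [← div_pow, ← mul_pow]; congr 1; ring
    rw [← this]; ring
  rw [e1] at h2
  calc En ε h r (closedBall p ρ) ≤ 16 / 9 * J ε h r p (2 * ρ) := h1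
    _ ≤ 16 / 9 * ((1 + 5 * η) * J ε h r p (1 / 10) * (20 ^ d * ρ ^ d)) := by gcongr
    _ ≤ 16 / 9 * ((3 / 2) * M * (20 ^ d * ρ ^ d)) := by
        gcongr
        · linarith
    _ ≤ 3 * 20 ^ d * M * ρ ^ d := by
        have : 0 ≤ M * (20 ^ d * ρ ^ d) := mul_nonneg (hJ0.trans h5) (by positivity)
        nlinarith

/-- energy of `B_{0.9}` from `J 0 1` -/
theorem Hyp.En_ball_le (H : Hyp a ε η h r) :
    En ε h r (ball 0 (9 / 10)) ≤ 28 * J ε h r 0 1 := by
  have hct : Continuous fun x : E => ‖x - 0‖ ^ 2 / (1 : ℝ) ^ 2 := by fun_prop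
  have hc : Continuous fun x : E => q ε h r x * psi (‖x - 0‖ ^ 2 / 1 ^ 2) :=
    H.contq.mul (continuous_psi.comp hct)
  have hb : ball (0 : E) (9 / 10) ⊆ ball 0 2 := ball_subset_ball (by norm_num)
  have h1 : ∫ x in ball (0 : E) (9 / 10), q ε h r x * psi (‖x - 0‖ ^ 2 / 1 ^ 2) ≤
      J ε h r 0 1 := by
    unfold J
    exact setIntegral_mono_of_ball hc hb le_rfl measurableSet_ball
      fun x hx => mul_nonneg (H.q_nonneg hx) (psi_nonneg _)
  refine le_trans ?_ (mul_le_mul_of_nonneg_left h1 (by norm_num))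
  rw [← integral_const_mul]
  unfold En
  apply setIntegral_mono_on
  · exact integrableOn_ball H.contq _ _
  · exact (integrableOn_ball hc _ _).const_mul _
  · exact measurableSet_ball
  · intro x hx
    have q0 := H.q_nonneg (hb hx)
    rw [mem_ball, dist_zero_right] at hx
    have h2 : ‖x - 0‖ ^ 2 / 1 ^ 2 ≤ 81 / 100 := by
      rw [sub_zero, one_pow, div_one]
      nlinarith [norm_nonneg x]
    have h3 : psi (81 / 100) ≤ psi (‖x - 0‖ ^ 2 / 1 ^ 2) := psi_antitone h2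
    have h4 : psi (81 / 100) = 361 / 10000 := by rw [psi_of_le_one (by norm_num)]; norm_num
    rw [h4] at h3
    nlinarith

end

end Crest.Agent.R246.MS852
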