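import Crest.Agent.R246.MSBasic_852

/-!
# R246-F (helper598): one-dimensional facts for the leaves `StLow`, `StVert` of Lemma MS
-/

set_option autoImplicit false

namespace Crest.Agent.R246.MSPsi598

open MeasureTheory Metric Set Module
open Crest.Agent.R246.MS852

/-- primitive of `sech⁴` -/
noncomputable def P4 (x : ℝ) : ℝ := Real.tanh x - Real.tanh x ^ 3 / 3

theorem hasDerivAt_tanh (x : ℝ) : HasDerivAt Real.tanh (1 / Real.cosh x ^ 2) x := by
  have h1 : HasDerivAt (fun y => Real.sinh y / Real.cosh y)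
      ((Real.cosh x * Real.cosh x - Real.sinh x * Real.sinh x) / Real.cosh x ^ 2) x :=
    (Real.hasDerivAt_sinh x).div (Real.hasDerivAt_cosh x) (Real.cosh_pos x).ne'
  have h2 : (fun y => Real.sinh y / Real.cosh y) = Real.tanh := by
    funext y; rw [Real.tanh_eq_sinh_div_cosh]
  rw [h2] at h1
  refine h1.congr_deriv ?_
  have := Real.cosh_sq x
  congr 1
  nlinarith

theorem one_sub_tanh_sq (x : ℝ) : 1 - Real.tanh x ^ 2 = 1 / Real.cosh x ^ 2 := by
  rw [Real.tanh_eq_sinh_div_cosh]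
  have := Real.cosh_pos x
  have h := Real.cosh_sq x
  field_simp
  linarith

theorem hasDerivAt_P4 (x : ℝ) : HasDerivAt P4 (1 / Real.cosh x ^ 4) x := by
  have h1 := hasDerivAt_tanh x
  have h3 := (h1.fun_pow 3).div_const 3
  have h2 := h1.fun_sub h3
  have h5 : (fun y : ℝ => Real.tanh y - Real.tanh y ^ 3 / 3) = P4 := rfl
  rw [h5] at h2
  refine h2.congr_deriv ?_
  have h4 : 1 / Real.cosh x ^ 4 = (1 / Real.cosh x ^ 2) * (1 / Real.cosh x ^ 2) := by
    field_simp
  rw [h4, ← one_sub_tanh_sq x]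
  ring

theorem tanh_lt_one' (x : ℝ) : Real.tanh x < 1 := by
  rw [Real.tanh_eq_sinh_div_cosh, div_lt_one (Real.cosh_pos x)]
  exact Real.sinh_lt_cosh x

theorem neg_one_lt_tanh' (x : ℝ) : -1 < Real.tanh x := by
  have h := tanh_lt_one' (-x)
  rw [Real.tanh_neg] at h
  linarith

theorem P4_neg (x : ℝ) : P4 (-x) = -P4 x := by
  unfold P4; rw [Real.tanh_neg]; ring

theorem P4_le (x : ℝ) : P4 x ≤ 2 / 3 := by
  unfold P4
  have h1 := tanh_lt_one' x
  have h2 := neg_one_lt_tanh' x
  nlinarith [sq_nonneg (1 - Real.tanh x)]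

theorem neg_le_P4 (x : ℝ) : -(2 / 3) ≤ P4 x := by
  have := P4_le (-x)
  rw [P4_neg] at this
  linarith

theorem one_sub_tanh_le {x : ℝ} (hx : 0 < x) : 1 - Real.tanh x ≤ 1 / x := by
  have h1 : 1 - Real.tanh x = Real.exp (-x) / Real.cosh x := by
    rw [Real.tanh_eq_sinh_div_cosh, ← Real.cosh_sub_sinh]
    field_simp
  rw [h1, div_le_div_iff₀ (Real.cosh_pos x) hx, one_mul]
  have h2 : Real.exp x / 2 ≤ Real.cosh x := by
    rw [Real.cosh_eq]
    have := Real.exp_pos (-x)
    linarith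
  refine le_trans ?_ h2
  have h3 : Real.exp (-x) * Real.exp x = 1 := by rw [← Real.exp_add]; simp
  have h4 : 1 + x ≤ Real.exp x := by have := Real.add_one_le_exp x; linarith
  have h5 := Real.exp_pos x
  have h6 := Real.exp_pos (-x)
  have h7 : 2 * x ≤ Real.exp x * Real.exp x := by nlinarith
  have h8 : Real.exp (-x) * x * 2 ≤ Real.exp x := by
    have : Real.exp (-x) * (2 * x) ≤ Real.exp (-x) * (Real.exp x * Real.exp x) :=
      mul_le_mul_of_nonneg_left h7 h6.le
    rw [← mul_assoc, ← mul_assoc, h3, one_mul] at this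
    linarith
  linarith

theorem P4_ge {x : ℝ} (hx : 0 < x) : 2 / 3 - 1 / x ≤ P4 x := by
  unfold P4
  have h1 := tanh_lt_one' x
  have h2 := one_sub_tanh_le hx
  have h3 : 0 < Real.tanh x := by
    rw [Real.tanh_eq_sinh_div_cosh]
    exact div_pos (Real.sinh_pos_iff.2 hx) (Real.cosh_pos x)
  nlinarith [sq_nonneg (1 - Real.tanh x), mul_pos h3 (sub_pos.2 h1)]

theorem P4_mono : Monotone P4 := by
  refine monotone_of_hasDerivAt_nonneg hasDerivAt_P4 (fun x => ?_)
  positivity

/-- `sech⁴ (x + δ) ≤ e^{4|δ|} sech⁴ x` in the form needed -/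
theorem sech_le {x y w : ℝ} (h : |x - y| ≤ w) :
    1 / Real.cosh x ^ 4 ≤ Real.exp (4 * w) * (1 / Real.cosh y ^ 4) := by
  have h1 : Real.cosh y ≤ Real.exp w * Real.cosh x := by
    have h2 := abs_le.1 h
    rw [Real.cosh_eq, Real.cosh_eq]
    have e1 : Real.exp y ≤ Real.exp w * Real.exp x := by
      rw [← Real.exp_add]; exact Real.exp_le_exp.2 (by linarith)
    have e2 : Real.exp (-y) ≤ Real.exp w * Real.exp (-x) := by
      rw [← Real.exp_add]; exact Real.exp_le_exp.2 (by linarith)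
    linarith
  have h3 : Real.cosh y ^ 4 ≤ Real.exp (4 * w) * Real.cosh x ^ 4 := by
    calc Real.cosh y ^ 4 ≤ (Real.exp w * Real.cosh x) ^ 4 :=
          pow_le_pow_left₀ (Real.cosh_pos y).le h1 4
      _ = Real.exp (4 * w) * Real.cosh x ^ 4 := by
          rw [mul_pow, ← Real.exp_nat_mul]; norm_num
  have h4 : 0 < Real.cosh x ^ 4 := by positivity
  have h5 : 0 < Real.cosh y ^ 4 := by positivity
  rw [mul_one_div, div_le_div_iff₀ h4 h5]
  linarith

theorem continuous_sech4 : Continuous fun x : ℝ => 1 / Real.cosh x ^ 4 := by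
  refine continuous_const.div (Real.continuous_cosh.pow 4) (fun x => ?_)
  have := Real.cosh_pos x
  positivity

end Crest.Agent.R246.MSPsi598
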