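import Crest.Agent.R246.MSMono_852

/-!
# R246-F (helper852): slicing estimates
-/

set_option autoImplicit false
set_option linter.unusedSectionVars false

namespace Crest.Agent.R246.MS852

open MeasureTheory Metric Set InnerProductSpace Filter Topology
open scoped RealInnerProductSpace Gradient ENNReal

theorem integrable_psi_scaled (d : ℕ) {ρ : ℝ} (hρ : 0 < ρ) :
    Integrable fun y : EuclideanSpace ℝ (Fin d) => psi (‖y‖ ^ 2 / ρ ^ 2) := by
  have hct : Continuous fun x : EuclideanSpace ℝ (Fin d) => ‖x‖ ^ 2 / ρ ^ 2 := by fun_prop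
  apply (continuous_psi.comp hct).integrable_of_hasCompactSupport
  refine HasCompactSupport.intro (isCompact_closedBall 0 ρ) ?_
  intro x hx
  rw [mem_closedBall, dist_zero_right, not_le] at hx
  apply psi_of_one_le
  rw [one_le_div (by positivity)]
  exact pow_le_pow_left₀ hρ.le hx.le 2

theorem integral_psi_scaled (d : ℕ) {ρ : ℝ} (hρ : 0 < ρ) :
    ∫ y : EuclideanSpace ℝ (Fin d), psi (‖y‖ ^ 2 / ρ ^ 2) = ρ ^ d * cpsi d := by
  have h := Measure.integral_comp_smul (volume : Measure (EuclideanSpace ℝ (Fin d)))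
    (fun y => psi (‖y‖ ^ 2)) ρ⁻¹
  have e : ∀ y : EuclideanSpace ℝ (Fin d), psi (‖ρ⁻¹ • y‖ ^ 2) = psi (‖y‖ ^ 2 / ρ ^ 2) := by
    intro y
    rw [norm_smul, Real.norm_eq_abs, abs_of_pos (inv_pos.2 hρ)]
    congr 1; field_simp
  simp_rw [e] at h
  rw [h, finrank_euclideanSpace_fin, inv_pow, inv_inv, abs_of_pos (by positivity), smul_eq_mul]
  rfl

theorem cpsi_pos (d : ℕ) : 0 < cpsi d := by
  unfold cpsi
  have h1 := integrable_psi_scaled d one_pos
  simp only [one_pow, div_one] at h1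
  have hct : Continuous fun x : EuclideanSpace ℝ (Fin d) => psi (‖x‖ ^ 2) :=
    continuous_psi.comp (by fun_prop)
  rw [integral_pos_iff_support_of_nonneg (fun y => psi_nonneg _) h1]
  apply hct.isOpen_support.measure_pos (volume : Measure (EuclideanSpace ℝ (Fin d)))
  refine ⟨0, ?_⟩
  rw [Function.mem_support]
  rw [norm_zero, psi_of_le_one (by norm_num)]
  norm_num

section
variable {E : Type*} [NormedAddCommGroup E] [InnerProductSpace ℝ E] [FiniteDimensional ℝ E]
  [MeasurableSpace E] [BorelSpace E]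

/-- integral over a set, sliced along vertical lines with uniformly bounded line integrals -/
theorem slice_le {d : ℕ} (hsl : StSlice E d) (hd : Module.finrank ℝ E = d + 1) {a : E}
    (ha : ‖a‖ = 1) {Q : E → ℝ} (hQ : Continuous Q) {A : Set E} (hA : MeasurableSet A)
    (hQ0 : ∀ x ∈ A, 0 ≤ Q x) {ρ V : ℝ} (hρ : 0 < ρ) (hV0 : 0 ≤ V)
    (hV : ∀ y : E, ∫⁻ t : ℝ, A.indicator (fun x => ENNReal.ofReal (Q x)) (t • a + y) ≤
      ENNReal.ofReal V) :
    ∫ x in A, Q x * psi (‖x‖ ^ 2 / ρ ^ 2) ≤ V * (ρ ^ d * cpsi d) := by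
  obtain ⟨ι, hι, hmp⟩ := hsl hd a ha
  have hct : Continuous fun x : E => ‖x‖ ^ 2 / ρ ^ 2 := by fun_prop
  have hcf : Continuous fun x : E => Q x * psi (‖x‖ ^ 2 / ρ ^ 2) :=
    hQ.mul (continuous_psi.comp hct)
  rw [integral_eq_lintegral_of_nonneg_ae]
  · have hV1 : 0 ≤ V * (ρ ^ d * cpsi d) := by have := cpsi_pos d; positivity
    apply ENNReal.toReal_le_of_le_ofReal hV1
    rw [← lintegral_indicator hA]
    set F : E → ℝ≥0∞ := A.indicator (fun x => ENNReal.ofReal (Q x * psi (‖x‖ ^ 2 / ρ ^ 2)))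
      with hF
    have hFm : Measurable F := (hcf.measurable.ennreal_ofReal).indicator hA
    have hmp' := hmp.measurable
    rw [← hmp.lintegral_comp hFm]
    have hsym : ∫⁻ p : ℝ × EuclideanSpace ℝ (Fin d), F (p.1 • a + ι p.2) ∂(volume.prod volume) =
        ∫⁻ y : EuclideanSpace ℝ (Fin d), ∫⁻ t : ℝ, F (t • a + ι y) :=
      lintegral_prod_symm' (fun p : ℝ × EuclideanSpace ℝ (Fin d) => F (p.1 • a + ι p.2))
        (hFm.comp hmp')
    rw [hsym]
    have hin : ∀ y : EuclideanSpace ℝ (Fin d), ∫⁻ t : ℝ, F (t • a + ι y) ≤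
        ENNReal.ofReal (V * psi (‖y‖ ^ 2 / ρ ^ 2)) := by
      intro y
      have h1 : ∀ t : ℝ, F (t • a + ι y) ≤ ENNReal.ofReal (psi (‖y‖ ^ 2 / ρ ^ 2)) *
          A.indicator (fun x => ENNReal.ofReal (Q x)) (t • a + ι y) := by
        intro t
        by_cases hx : t • a + ι y ∈ A
        · rw [hF, indicator_of_mem hx, indicator_of_mem hx, ← ENNReal.ofReal_mul (psi_nonneg _)]
          apply ENNReal.ofReal_le_ofReal
          have h2 : ‖y‖ ^ 2 / ρ ^ 2 ≤ ‖t • a + ι y‖ ^ 2 / ρ ^ 2 := by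
            apply div_le_div_of_nonneg_right _ (by positivity)
            rw [@norm_add_sq_real, real_inner_smul_left, hι, ι.norm_map]
            nlinarith [sq_nonneg ‖t • a‖]
          have h3 := psi_antitone h2
          have h4 := hQ0 _ hx
          nlinarith
        · rw [hF, indicator_of_notMem hx]
          exact bot_le
      calc ∫⁻ t : ℝ, F (t • a + ι y) ≤ ∫⁻ t : ℝ, ENNReal.ofReal (psi (‖y‖ ^ 2 / ρ ^ 2)) *
          A.indicator (fun x => ENNReal.ofReal (Q x)) (t • a + ι y) := lintegral_mono h1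
        _ = ENNReal.ofReal (psi (‖y‖ ^ 2 / ρ ^ 2)) *
            ∫⁻ t : ℝ, A.indicator (fun x => ENNReal.ofReal (Q x)) (t • a + ι y) :=
            lintegral_const_mul' _ _ ENNReal.ofReal_ne_top
        _ ≤ ENNReal.ofReal (psi (‖y‖ ^ 2 / ρ ^ 2)) * ENNReal.ofReal V := by
            gcongr
            exact hV _
        _ = _ := by
            rw [← ENNReal.ofReal_mul (psi_nonneg _), mul_comm]
    calc ∫⁻ y : EuclideanSpace ℝ (Fin d), ∫⁻ t : ℝ, F (t • a + ι y)
        ≤ ∫⁻ y : EuclideanSpace ℝ (Fin d), ENNReal.ofReal (V * psi (‖y‖ ^ 2 / ρ ^ 2)) :=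
          lintegral_mono hin
      _ = ENNReal.ofReal (∫ y : EuclideanSpace ℝ (Fin d), V * psi (‖y‖ ^ 2 / ρ ^ 2)) := by
          rw [ofReal_integral_eq_lintegral_ofReal ((integrable_psi_scaled d hρ).const_mul V)]
          exact Eventually.of_forall fun y => mul_nonneg hV0 (psi_nonneg _)
      _ = ENNReal.ofReal (V * (ρ ^ d * cpsi d)) := by
          rw [integral_const_mul, integral_psi_scaled d hρ]
  · rw [EventuallyLE, ae_restrict_iff' hA]
    exact Eventually.of_forall fun x hx => mul_nonneg (hQ0 x hx) (psi_nonneg _)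
  · exact hcf.aestronglyMeasurable

end

end Crest.Agent.R246.MS852
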