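import Crest.Agent.R246.MSBasic_852

/-!
# R246-F (helper852): stationarity for vector fields
-/

set_option autoImplicit false
set_option linter.unusedSectionVars false

namespace Crest.Agent.R246.MS852

open MeasureTheory Metric Set InnerProductSpace Filter Topology
open scoped RealInnerProductSpace Gradient

variable {E : Type*} [NormedAddCommGroup E] [InnerProductSpace ℝ E] [FiniteDimensional ℝ E]
  [MeasurableSpace E] [BorelSpace E] {a : E} {ε η : ℝ} {h r : E → ℝ}

theorem isCompact_tsupport_of_ball {F : Type*} [NormedAddCommGroup F] {X : E → F} {R : ℝ}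
    (hs : tsupport X ⊆ ball (0 : E) R) : IsCompact (tsupport X) :=
  Metric.isCompact_of_isClosed_isBounded (isClosed_tsupport X) (isBounded_ball.subset hs)

theorem fderiv_zero_of_notMem {F : Type*} [NormedAddCommGroup F] [NormedSpace ℝ F] {X : E → F}
    {x : E} (hx : x ∉ tsupport X) : fderiv ℝ X x = 0 := by
  have h0 : X =ᶠ[𝓝 x] fun _ => 0 := by
    have : (tsupport X)ᶜ ∈ 𝓝 x := (isClosed_tsupport X).isOpen_compl.mem_nhds hx
    filter_upwards [this] with y hy
    exact image_eq_zero_of_notMem_tsupport hy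
  rw [h0.fderiv_eq]; simp

/-- a continuous function vanishing off a compact set is integrable -/
theorem integrable_of_zero_off {f : E → ℝ} (hf : Continuous f) {K : Set E} (hK : IsCompact K)
    (h0 : ∀ x, x ∉ K → f x = 0) : Integrable f :=
  hf.integrable_of_hasCompactSupport (HasCompactSupport.intro hK h0)

/-- stationarity for vector fields -/
theorem Hyp.stat_vec (H : Hyp a ε η h r) {ι : Type*} [Fintype ι] (b : OrthonormalBasis ι ℝ E)
    {X : E → E} (hX : ContDiff ℝ 1 X) (hs : tsupport X ⊆ ball (0 : E) 2) :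
    ∫ x, (q ε h r x * ∑ i, ⟪b i, fderiv ℝ X x (b i)⟫_ℝ
        - S4 ε r x / ε * ⟪∇ r x, fderiv ℝ X x (∇ r x)⟫_ℝ) =
      - ∫ x, S4 ε r x / (2 * ε) * fderiv ℝ h x (X x) := by
  have hK := isCompact_tsupport_of_ball hs
  have hXd : ∀ x, DifferentiableAt ℝ X x := fun x => hX.differentiable one_ne_zero x
  have hcX := hX.continuous_fderiv one_ne_zero
  have hfd : ∀ i x v, fderiv ℝ (fun x => ⟪b i, X x⟫_ℝ) x v = ⟪b i, fderiv ℝ X x v⟫_ℝ := by
    intro i x v
    have h1 : HasFDerivAt (fun x => ⟪b i, X x⟫_ℝ)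
        ((innerSL ℝ (b i)).comp (fderiv ℝ X x)) x := by
      have := (innerSL ℝ (b i)).hasFDerivAt.comp x (hXd x).hasFDerivAt
      simpa [Function.comp_def] using this
    rw [h1.fderiv]; simp
  have hsub : ∀ i, tsupport (fun x => ⟪b i, X x⟫_ℝ) ⊆ tsupport X := by
    intro i
    apply closure_mono
    intro x hx
    rw [Function.mem_support] at hx ⊢
    intro h0
    exact hx (by simp only [h0, inner_zero_right])
  have key : ∀ i, ∫ x, (q ε h r x * ⟪b i, fderiv ℝ X x (b i)⟫_ℝ
        - S4 ε r x / ε * fderiv ℝ r x (b i) * ⟪b i, fderiv ℝ X x (∇ r x)⟫_ℝ) =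
      - ∫ x, S4 ε r x / (2 * ε) * fderiv ℝ h x (b i) * ⟪b i, X x⟫_ℝ := by
    intro i
    have := H.stat (fun x => ⟪b i, X x⟫_ℝ) (b i) (contDiff_const.inner ℝ hX)
      ((hsub i).trans hs)
    simpa only [hfd] using this
  have hcq := H.contq
  have hcS := continuous_S4 (ε := ε) H.cr.continuous
  have hcg := continuous_grad H.cr
  have int1 : ∀ i, Integrable (fun x => q ε h r x * ⟪b i, fderiv ℝ X x (b i)⟫_ℝ
        - S4 ε r x / ε * fderiv ℝ r x (b i) * ⟪b i, fderiv ℝ X x (∇ r x)⟫_ℝ) := by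
    intro i
    apply integrable_of_zero_off _ hK
    · intro x hx
      simp [fderiv_zero_of_notMem hx]
    · refine (hcq.mul (continuous_const.inner (hcX.clm_apply continuous_const))).sub
        (((hcS.div_const _).mul (continuous_fderiv_apply' H.cr _)).mul
          (continuous_const.inner (hcX.clm_apply hcg)))
  have int2 : ∀ i, Integrable
      (fun x => S4 ε r x / (2 * ε) * fderiv ℝ h x (b i) * ⟪b i, X x⟫_ℝ) := by
    intro i
    apply integrable_of_zero_off _ hK
    · intro x hx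
      simp [image_eq_zero_of_notMem_tsupport hx]
    · exact ((hcS.div_const _).mul (continuous_fderiv_apply' H.ch _)).mul
        (continuous_const.inner hX.continuous)
  have hsum := Finset.sum_congr rfl (fun i (_ : i ∈ Finset.univ) => key i)
  rw [← integral_finsetSum _ (fun i _ => int1 i), Finset.sum_neg_distrib,
    ← integral_finsetSum _ (fun i _ => int2 i)] at hsum
  have e1 : ∀ x, ∑ i, (q ε h r x * ⟪b i, fderiv ℝ X x (b i)⟫_ℝ
        - S4 ε r x / ε * fderiv ℝ r x (b i) * ⟪b i, fderiv ℝ X x (∇ r x)⟫_ℝ) =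
      q ε h r x * ∑ i, ⟪b i, fderiv ℝ X x (b i)⟫_ℝ
        - S4 ε r x / ε * ⟪∇ r x, fderiv ℝ X x (∇ r x)⟫_ℝ := by
    intro x
    rw [Finset.sum_sub_distrib, ← Finset.mul_sum]
    congr 1
    simp_rw [mul_assoc]
    rw [← Finset.mul_sum, ← b.sum_inner_mul_inner (∇ r x) (fderiv ℝ X x (∇ r x))]
    simp_rw [grad_eq]
  have e2 : ∀ x, ∑ i, S4 ε r x / (2 * ε) * fderiv ℝ h x (b i) * ⟪b i, X x⟫_ℝ =
      S4 ε r x / (2 * ε) * fderiv ℝ h x (X x) := by
    intro x
    simp_rw [mul_assoc]
    rw [← Finset.mul_sum, grad_eq h x (X x), ← b.sum_inner_mul_inner (∇ h x) (X x)]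
    simp_rw [grad_eq]
  simp_rw [e1, e2] at hsum
  exact hsum

/-- trace of `v ↦ c ⟨u,v⟩ w + s v` -/
theorem sum_inner_field {ι : Type*} [Fintype ι] (b : OrthonormalBasis ι ℝ E) (u w : E) (c s : ℝ) :
    ∑ i, ⟪b i, (c * ⟪u, b i⟫_ℝ) • w + s • b i⟫_ℝ = c * ⟪u, w⟫_ℝ + s * Fintype.card ι := by
  simp_rw [inner_add_right, inner_smul_right]
  rw [Finset.sum_add_distrib]
  congr 1
  · rw [← b.sum_inner_mul_inner u w, Finset.mul_sum]
    exact Finset.sum_congr rfl fun i _ => by ring
  · have : ∀ i, ⟪b i, b i⟫_ℝ = 1 := fun i => by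
      rw [real_inner_self_eq_norm_sq, b.norm_eq_one]; norm_num
    simp only [this, mul_one, Finset.sum_const, Finset.card_univ, nsmul_eq_mul]
    ring

end Crest.Agent.R246.MS852
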