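import Mathlib.Analysis.Calculus.Rademacher
import Mathlib.Analysis.Calculus.Gradient.Basic
import Mathlib.Analysis.InnerProductSpace.Calculus
import Mathlib.Analysis.SpecialFunctions.SmoothTransition
import Mathlib.Analysis.Calculus.ParametricIntegral
import Mathlib.Analysis.Calculus.Deriv.MeanValue
import Mathlib.MeasureTheory.Measure.Lebesgue.EqHaar
import Mathlib.MeasureTheory.Integral.Bochner.Basic

/-!
# Mean value inequality and strong maximum principle (weak form, smooth tests)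

`SupW φ U`: the Lipschitz function `φ` is weakly superharmonic on `U` (smooth tests).
* `SupW.mean_le`: mean value inequality with the radial kernel `gk (1 - ‖y‖²)`.
* `SupW.eq_of_min`: strong maximum principle on a ball.
* `SupW.eq_of_min_conn`: strong maximum principle on a preconnected open set.
-/

set_option autoImplicit false
set_option linter.unusedSectionVars false
set_option linter.unusedSimpArgs false
noncomputable section
open MeasureTheory Set Filter Topology Metric
open scoped RealInnerProductSpace ContDiff NNReal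

namespace Crest.Agent.R246.MV386

/-! ### the profile -/

/-- the derivative of `expNegInvGlue` -/
def gk (s : ℝ) : ℝ := (s⁻¹) ^ 2 * expNegInvGlue s

lemma gk_nonneg (s : ℝ) : 0 ≤ gk s := by
  unfold gk; have := expNegInvGlue.nonneg s; positivity

lemma gk_pos {s : ℝ} (hs : 0 < s) : 0 < gk s := by
  unfold gk; have := expNegInvGlue.pos_of_pos hs; positivity

lemma gk_zero {s : ℝ} (hs : s ≤ 0) : gk s = 0 := by
  unfold gk; rw [expNegInvGlue.zero_of_nonpos hs, mul_zero]

lemma hasDerivAt_glue (s : ℝ) : HasDerivAt expNegInvGlue (gk s) s := by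
  have h := expNegInvGlue.hasDerivAt_polynomial_eval_inv_mul 1 s
  simpa [gk] using h

lemma continuous_gk : Continuous gk := by
  have h := expNegInvGlue.continuous_polynomial_eval_inv_mul (Polynomial.X ^ 2)
  have e : gk = fun x => (x ^ 2)⁻¹ * expNegInvGlue x := by
    funext x; simp [gk]
  rw [e]
  simpa using h

variable {E : Type*} [NormedAddCommGroup E] [InnerProductSpace ℝ E] [FiniteDimensional ℝ E]
  [CompleteSpace E] [MeasurableSpace E] [BorelSpace E]

/-- `φ` (Lipschitz) is weakly superharmonic on `U`. -/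
def SupW (φ : E → ℝ) (U : Set E) : Prop :=
  ∀ ζ : E → ℝ, ContDiff ℝ ∞ ζ → HasCompactSupport ζ → tsupport ζ ⊆ U → (∀ x, 0 ≤ ζ x) →
    0 ≤ ∫ x, fderiv ℝ ζ x (gradient φ x)

lemma SupW.mono {φ : E → ℝ} {U V : Set E} (h : SupW φ U) (hV : V ⊆ U) : SupW φ V :=
  fun ζ h1 h2 h3 h4 => h ζ h1 h2 (h3.trans hV) h4

lemma inner_gradient (φ : E → ℝ) (x v : E) : ⟪gradient φ x, v⟫ = fderiv ℝ φ x v := by
  unfold gradient
  rw [InnerProductSpace.toDual_symm_apply]

/-! ### the bump -/

/-- the bump at `x₀` of radius `t`. -/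
def bmp (x₀ : E) (t : ℝ) (x : E) : ℝ := expNegInvGlue (1 - ‖x - x₀‖ ^ 2 / t ^ 2)

lemma bmp_nonneg (x₀ : E) (t : ℝ) (x : E) : 0 ≤ bmp x₀ t x := expNegInvGlue.nonneg _

lemma contDiff_bmp (x₀ : E) (t : ℝ) : ContDiff ℝ ∞ (bmp x₀ t) := by
  unfold bmp
  apply expNegInvGlue.contDiff.comp
  apply contDiff_const.sub
  apply ContDiff.div_const
  exact (contDiff_id.sub contDiff_const).norm_sq ℝ

lemma bmp_support {x₀ : E} {t : ℝ} (ht : 0 < t) {x : E} (hx : bmp x₀ t x ≠ 0) :
    x ∈ closedBall x₀ t := by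
  by_contra hcon
  apply hx
  unfold bmp
  apply expNegInvGlue.zero_of_nonpos
  rw [mem_closedBall, dist_eq_norm, not_le] at hcon
  have h1 : t ^ 2 ≤ ‖x - x₀‖ ^ 2 := by
    have := norm_nonneg (x - x₀)
    nlinarith
  have h2 : (1 : ℝ) ≤ ‖x - x₀‖ ^ 2 / t ^ 2 := by
    rw [le_div_iff₀ (by positivity)]; linarith
  linarith

lemma tsupport_bmp {x₀ : E} {t : ℝ} (ht : 0 < t) : tsupport (bmp x₀ t) ⊆ closedBall x₀ t :=
  closure_minimal (fun _ hx => bmp_support ht hx) isClosed_closedBall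

lemma hasCompactSupport_bmp {x₀ : E} {t : ℝ} (ht : 0 < t) : HasCompactSupport (bmp x₀ t) :=
  (isCompact_closedBall x₀ t).of_isClosed_subset (isClosed_tsupport _) (tsupport_bmp ht)

lemma hasFDerivAt_bmp (x₀ : E) (t : ℝ) (x : E) :
    HasFDerivAt (bmp x₀ t)
      ((-(2 / t ^ 2) * gk (1 - ‖x - x₀‖ ^ 2 / t ^ 2)) • (innerSL ℝ (x - x₀))) x := by
  have h1 : HasFDerivAt (fun x : E => ‖x - x₀‖ ^ 2) ((2 : ℝ) • (innerSL ℝ (x - x₀))) x := by
    have := ((hasStrictFDerivAt_norm_sq (x - x₀)).hasFDerivAt).comp x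
      ((hasFDerivAt_id x).sub_const x₀)
    refine HasFDerivAt.congr_fderiv this ?_
    ext v
    simp [two_mul]
  have h2 : HasFDerivAt (fun x : E => 1 - ‖x - x₀‖ ^ 2 / t ^ 2)
      (-((1 / t ^ 2) • ((2 : ℝ) • (innerSL ℝ (x - x₀))))) x := by
    have h1' := (h1.const_mul (1 / t ^ 2)).const_sub 1
    have e : (fun x : E => 1 - ‖x - x₀‖ ^ 2 / t ^ 2)
        = fun x : E => 1 - 1 / t ^ 2 * ‖x - x₀‖ ^ 2 := by
      funext x; ring
    rw [e]
    exact h1'
  have h3 := (hasDerivAt_glue (1 - ‖x - x₀‖ ^ 2 / t ^ 2)).comp_hasFDerivAt x h2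
  refine HasFDerivAt.congr_fderiv h3 ?_
  ext v
  simp only [ContinuousLinearMap.smul_apply, ContinuousLinearMap.neg_apply, smul_eq_mul,
    innerSL_apply_apply]
  ring

lemma fderiv_bmp (x₀ : E) (t : ℝ) (x v : E) :
    fderiv ℝ (bmp x₀ t) x v = -(2 / t ^ 2) * gk (1 - ‖x - x₀‖ ^ 2 / t ^ 2) * ⟪x - x₀, v⟫ := by
  rw [(hasFDerivAt_bmp x₀ t x).fderiv]
  simp only [ContinuousLinearMap.smul_apply, smul_eq_mul, innerSL_apply_apply]

/-! ### the mean -/

/-- kernel -/
def ker (y : E) : ℝ := gk (1 - ‖y‖ ^ 2)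

lemma continuous_ker : Continuous (ker : E → ℝ) := by
  unfold ker
  exact continuous_gk.comp (by fun_prop)

lemma ker_nonneg (y : E) : 0 ≤ ker y := gk_nonneg _

lemma ker_pos {y : E} (hy : ‖y‖ < 1) : 0 < ker y := by
  unfold ker
  apply gk_pos
  have := norm_nonneg y
  nlinarith

lemma ker_zero {y : E} (hy : 1 ≤ ‖y‖) : ker y = 0 := by
  unfold ker
  apply gk_zero
  nlinarith

lemma hasCompactSupport_ker : HasCompactSupport (ker : E → ℝ) := by
  apply HasCompactSupport.of_support_subset_isCompact (isCompact_closedBall (0 : E) 1)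
  intro y hy
  rw [mem_closedBall_zero_iff]
  by_contra hcon
  exact hy (ker_zero (not_le.1 hcon).le)

/-- the weighted mean -/
def MM (φ : E → ℝ) (x₀ : E) (t : ℝ) : ℝ := ∫ y, φ (x₀ + t • y) * ker y

lemma ae_diff {K : ℝ≥0} {φ : E → ℝ} (hφ : LipschitzWith K φ) (x₀ : E) {t : ℝ} (ht : t ≠ 0) :
    ∀ᵐ y : E, DifferentiableAt ℝ φ (x₀ + t • y) := by
  have h1 : ∀ᵐ x : E, DifferentiableAt ℝ φ x := hφ.ae_differentiableAt
  rw [ae_iff] at h1 ⊢
  have h2 : {a : E | ¬DifferentiableAt ℝ φ (x₀ + t • a)}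
      = (fun a => t • a) ⁻¹' ((fun a => x₀ + a) ⁻¹' {a | ¬DifferentiableAt ℝ φ a}) := rfl
  rw [h2, Measure.addHaar_preimage_smul _ ht, measure_preimage_add, h1, mul_zero]

lemma hasDerivAt_MM {K : ℝ≥0} {φ : E → ℝ} (hφ : LipschitzWith K φ) (x₀ : E) {t : ℝ}
    (ht : t ≠ 0) :
    HasDerivAt (MM φ x₀) (∫ y, fderiv ℝ φ (x₀ + t • y) y * ker y) t := by
  unfold MM
  have hc : ∀ s : ℝ, Continuous (fun y : E => φ (x₀ + s • y) * ker y) := fun s =>
    (hφ.continuous.comp (by fun_prop)).mul continuous_ker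
  have hcs : ∀ s : ℝ, HasCompactSupport (fun y : E => φ (x₀ + s • y) * ker y) := fun s =>
    hasCompactSupport_ker.mul_left
  refine (hasDerivAt_integral_of_dominated_loc_of_lip (s := univ) (μ := volume)
    (F := fun s y => φ (x₀ + s • y) * ker y)
    (bound := fun y => K * ‖y‖ * ker y) univ_mem ?_ ?_ ?_ ?_ ?_ ?_).2
  · exact Eventually.of_forall fun s => (hc s).aestronglyMeasurable
  · exact (hc t).integrable_of_hasCompactSupport (hcs t)
  · apply AEStronglyMeasurable.mul _ continuous_ker.aestronglyMeasurable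
    apply Measurable.aestronglyMeasurable
    have h1 : Measurable (fderiv ℝ φ) := measurable_fderiv ℝ φ
    have h2 : Measurable (fun y : E => fderiv ℝ φ (x₀ + t • y)) :=
      h1.comp (by fun_prop)
    exact (ContinuousLinearMap.apply ℝ ℝ).continuous₂.measurable.comp
      (measurable_id.prodMk h2)
  · refine Eventually.of_forall fun y => ?_
    apply LipschitzOnWith.of_dist_le_mul
    intro a _ b _
    have hb : ((Real.nnabs (K * ‖y‖ * ker y) : ℝ≥0) : ℝ) = K * ‖y‖ * ker y := by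
      rw [Real.coe_nnabs, abs_of_nonneg]
      have := ker_nonneg y
      positivity
    rw [hb, Real.dist_eq, ← sub_mul, abs_mul, abs_of_nonneg (ker_nonneg y)]
    have h1 := hφ.dist_le_mul (x₀ + a • y) (x₀ + b • y)
    rw [Real.dist_eq, dist_eq_norm] at h1
    have h2 : x₀ + a • y - (x₀ + b • y) = (a - b) • y := by module
    rw [h2, norm_smul] at h1
    rw [Real.dist_eq]
    have h3 := ker_nonneg y
    calc |φ (x₀ + a • y) - φ (x₀ + b • y)| * ker y ≤ (K * (‖a - b‖ * ‖y‖)) * ker y :=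
          mul_le_mul_of_nonneg_right h1 h3
      _ = K * ‖y‖ * ker y * |a - b| := by rw [Real.norm_eq_abs]; ring
  · exact ((continuous_const.mul continuous_norm).mul continuous_ker).integrable_of_hasCompactSupport
      hasCompactSupport_ker.mul_left
  · filter_upwards [ae_diff hφ x₀ ht] with y hy
    apply HasDerivAt.mul_const
    have h1 : HasDerivAt (fun s : ℝ => x₀ + s • y) y t := by
      simpa using ((hasDerivAt_id t).smul_const y).const_add x₀
    exact hy.hasFDerivAt.comp_hasDerivAt t h1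

lemma deriv_MM_eq (φ : E → ℝ) (x₀ : E) {t : ℝ} (ht : 0 < t) :
    ∫ y, fderiv ℝ φ (x₀ + t • y) y * ker y
      = -(|(t ^ Module.finrank ℝ E)⁻¹| * (t / 2)) *
        ∫ x, fderiv ℝ (bmp x₀ t) x (gradient φ x) := by
  set G : E → ℝ := fun x => fderiv ℝ φ (x₀ + x) (t⁻¹ • x) * gk (1 - ‖x‖ ^ 2 / t ^ 2) with hG
  have e1 : ∀ y, fderiv ℝ φ (x₀ + t • y) y * ker y = G (t • y) := by
    intro y
    simp only [hG, ker]
    rw [smul_smul, inv_mul_cancel₀ ht.ne', one_smul, norm_smul, Real.norm_eq_abs, abs_of_pos ht]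
    congr 3
    field_simp
  simp_rw [e1]
  rw [Measure.integral_comp_smul volume G t]
  have e2 : ∫ x, G x = ∫ x, G (x - x₀) := (integral_sub_right_eq_self G x₀).symm
  rw [e2]
  have e3 : ∀ x, G (x - x₀) = -(t / 2) * fderiv ℝ (bmp x₀ t) x (gradient φ x) := by
    intro x
    simp only [hG]
    rw [fderiv_bmp, real_inner_comm, inner_gradient, map_smul, add_sub_cancel, smul_eq_mul]
    field_simp
  simp_rw [e3]
  rw [integral_const_mul, smul_eq_mul]
  ring

theorem SupW.antitone_MM {K : ℝ≥0} {φ : E → ℝ} (hφ : LipschitzWith K φ) {U : Set E}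
    (h : SupW φ U) {x₀ : E} {r : ℝ} (hr : closedBall x₀ r ⊆ U) :
    AntitoneOn (MM φ x₀) (Icc 0 r) := by
  apply antitoneOn_of_deriv_nonpos (convex_Icc 0 r)
  · unfold MM
    apply MeasureTheory.continuousOn_of_dominated (bound := fun y => (|φ x₀| + K * (r * ‖y‖)) * ker y)
    · intro t _
      exact ((hφ.continuous.comp (by fun_prop)).mul continuous_ker).aestronglyMeasurable
    · intro t ht
      refine Eventually.of_forall fun y => ?_
      rw [norm_mul, Real.norm_eq_abs, Real.norm_eq_abs, abs_of_nonneg (ker_nonneg y)]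
      apply mul_le_mul_of_nonneg_right _ (ker_nonneg y)
      have h1 := hφ.dist_le_mul (x₀ + t • y) x₀
      rw [Real.dist_eq, dist_eq_norm, add_sub_cancel_left, norm_smul, Real.norm_eq_abs,
        abs_of_nonneg ht.1] at h1
      have h2 : (K : ℝ) * (t * ‖y‖) ≤ K * (r * ‖y‖) := by
        apply mul_le_mul_of_nonneg_left _ K.2
        exact mul_le_mul_of_nonneg_right ht.2 (norm_nonneg _)
      have h3 := abs_sub_abs_le_abs_sub (φ (x₀ + t • y)) (φ x₀)
      linarith
    · apply Continuous.integrable_of_hasCompactSupport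
      · exact (continuous_const.add (continuous_const.mul
          (continuous_const.mul continuous_norm))).mul continuous_ker
      · exact hasCompactSupport_ker.mul_left
    · refine Eventually.of_forall fun y => ?_
      apply Continuous.continuousOn
      exact (hφ.continuous.comp (by fun_prop)).mul continuous_const
  · intro t ht
    rw [interior_Icc] at ht
    exact (hasDerivAt_MM hφ x₀ ht.1.ne').differentiableAt.differentiableWithinAt
  · intro t ht
    rw [interior_Icc] at ht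
    rw [(hasDerivAt_MM hφ x₀ ht.1.ne').deriv, deriv_MM_eq φ x₀ ht.1]
    have h1 := h (bmp x₀ t) (contDiff_bmp x₀ t) (hasCompactSupport_bmp ht.1)
      ((tsupport_bmp ht.1).trans ((closedBall_subset_closedBall ht.2.le).trans hr))
      (bmp_nonneg x₀ t)
    have h2 : 0 ≤ |(t ^ Module.finrank ℝ E)⁻¹| * (t / 2) := by
      have := ht.1
      positivity
    nlinarith [mul_nonneg h2 h1]

/-- Mean value inequality. -/
theorem SupW.mean_le {K : ℝ≥0} {φ : E → ℝ} (hφ : LipschitzWith K φ) {U : Set E}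
    (h : SupW φ U) {x₀ : E} {r : ℝ} (hr0 : 0 ≤ r) (hr : closedBall x₀ r ⊆ U) :
    ∫ y, φ (x₀ + r • y) * ker y ≤ φ x₀ * ∫ y : E, ker y := by
  have h1 := h.antitone_MM hφ hr ⟨le_rfl, hr0⟩ ⟨hr0, le_rfl⟩ hr0
  unfold MM at h1
  simpa [integral_const_mul] using h1

/-- Strong maximum principle on a ball. -/
theorem SupW.eq_of_min {K : ℝ≥0} {φ : E → ℝ} (hφ : LipschitzWith K φ) {U : Set E}
    (h : SupW φ U) {x₀ : E} {r : ℝ} (hr : closedBall x₀ r ⊆ U)
    (hmin : ∀ y ∈ ball x₀ r, φ x₀ ≤ φ y) {y : E} (hy : y ∈ ball x₀ r) : φ y = φ x₀ := by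
  have hr0 : 0 < r := (dist_nonneg.trans_lt (mem_ball.1 hy))
  have h1 := h.mean_le hφ hr0.le hr
  have hc : Continuous (fun z : E => (φ (x₀ + r • z) - φ x₀) * ker z) :=
    ((hφ.continuous.comp (by fun_prop)).sub continuous_const).mul continuous_ker
  have hcs : HasCompactSupport (fun z : E => (φ (x₀ + r • z) - φ x₀) * ker z) :=
    hasCompactSupport_ker.mul_left
  have hmem : ∀ z : E, ‖z‖ < 1 → x₀ + r • z ∈ ball x₀ r := by
    intro z hz
    rw [mem_ball, dist_eq_norm, add_sub_cancel_left, norm_smul, Real.norm_eq_abs, abs_of_pos hr0]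
    nlinarith
  have hnn : ∀ z : E, 0 ≤ (φ (x₀ + r • z) - φ x₀) * ker z := by
    intro z
    rcases lt_or_ge ‖z‖ 1 with hz | hz
    · exact mul_nonneg (sub_nonneg.2 (hmin _ (hmem z hz))) (ker_nonneg z)
    · rw [ker_zero hz, mul_zero]
  have hint : ∫ z : E, (φ (x₀ + r • z) - φ x₀) * ker z ≤ 0 := by
    have e : ∀ z : E, (φ (x₀ + r • z) - φ x₀) * ker z
        = φ (x₀ + r • z) * ker z - φ x₀ * ker z := fun z => by ring
    simp_rw [e]
    rw [integral_sub, integral_const_mul]
    · linarith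
    · exact ((hφ.continuous.comp (by fun_prop)).mul
        continuous_ker).integrable_of_hasCompactSupport hasCompactSupport_ker.mul_left
    · exact (continuous_const.mul continuous_ker).integrable_of_hasCompactSupport
        hasCompactSupport_ker.mul_left
  -- evaluate at `z = r⁻¹ (y - x₀)`
  by_contra hne
  set z : E := r⁻¹ • (y - x₀) with hz
  have hz1 : ‖z‖ < 1 := by
    rw [hz, norm_smul, norm_inv, Real.norm_eq_abs, abs_of_pos hr0, ← dist_eq_norm,
      inv_mul_lt_iff₀ hr0, mul_one]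
    exact hy
  have hz2 : x₀ + r • z = y := by
    rw [hz, smul_smul, mul_inv_cancel₀ hr0.ne', one_smul]; abel
  have hz3 : (φ (x₀ + r • z) - φ x₀) * ker z ≠ 0 := by
    rw [hz2]
    exact mul_ne_zero (sub_ne_zero.2 hne) (ker_pos hz1).ne'
  have := hc.integral_pos_of_hasCompactSupport_nonneg_nonzero (μ := volume) hcs hnn hz3
  linarith

/-- Strong maximum principle on a preconnected open set. -/
theorem SupW.eq_of_min_conn {K : ℝ≥0} {φ : E → ℝ} (hφ : LipschitzWith K φ) {U : Set E}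
    (h : SupW φ U) (hU : IsOpen U) (hU' : IsPreconnected U) {x₀ : E} (hx₀ : x₀ ∈ U)
    (hmin : ∀ y ∈ U, φ x₀ ≤ φ y) {y : E} (hy : y ∈ U) : φ y = φ x₀ := by
  set c := φ x₀ with hc
  set u : Set E := interior {x | φ x = c} ∩ U with hu
  have key : ∀ x ∈ U, φ x = c → x ∈ u := by
    intro x hx hxc
    obtain ⟨r, hr, hrU⟩ := Metric.isOpen_iff.1 hU x hx
    have hr2 : closedBall x (r / 2) ⊆ U :=
      (closedBall_subset_ball (by linarith)).trans hrU
    refine ⟨mem_interior.2 ⟨ball x (r / 2), ?_, isOpen_ball, mem_ball_self (by linarith)⟩, hx⟩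
    intro z hz
    have := h.eq_of_min hφ hr2 (fun w hw => by
      rw [hxc]; exact hmin w (hr2 (ball_subset_closedBall hw))) hz
    simpa [hxc] using this
  have h1 : U ⊆ u := by
    apply hU'.subset_of_closure_inter_subset (isOpen_interior.inter hU)
    · exact ⟨x₀, hx₀, key x₀ hx₀ rfl⟩
    · rintro x ⟨hx1, hx2⟩
      apply key x hx2
      have h2 : IsClosed {x | φ x = c} := isClosed_eq hφ.continuous continuous_const
      have h3 : closure (interior {x | φ x = c} ∩ U) ⊆ {x | φ x = c} :=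
        closure_minimal (inter_subset_left.trans interior_subset) h2
      exact h3 hx1
  exact (interior_subset (h1 hy).1 : y ∈ {x | φ x = c})

end Crest.Agent.R246.MV386
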