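import Crest.Agent.R246.Mg4_295
import Mathlib.MeasureTheory.Integral.Prod
import Mathlib.MeasureTheory.Integral.IntegralEqImproper
import Mathlib.Analysis.SpecialFunctions.Pow.Continuity
import Mathlib.Analysis.Calculus.FDeriv.Measurable
import Mathlib.MeasureTheory.Function.SpecialFunctions.Inner
import Mathlib.Analysis.Calculus.Rademacher
import Mathlib.Analysis.Calculus.BumpFunction.Normed

/-!
# R246, block H2a: the weak minimal surface equation

`φ` is a signed distance function, superharmonic on `{φ > 0}` and subharmonic on `{φ < 0}`, whose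
zero set is a `C^{1,α}` graph with `α > 1/2`.  Then the graph solves the minimal surface equation
weakly.
-/

set_option autoImplicit false
set_option linter.unusedSectionVars false
noncomputable section
open Metric Set Filter Topology MeasureTheory
open scoped RealInnerProductSpace ContDiff

namespace Crest.Agent.R246.Mg295

variable {E : Type*} [NormedAddCommGroup E] [InnerProductSpace ℝ E]

/-- the coordinates as an isometry. -/
def crdI (e : E) (he : ‖e‖ = 1) : WithLp 2 ((ℝ ∙ e)ᗮ × ℝ) ≃ₗᵢ[ℝ] E :=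
  { (WithLp.linearEquiv 2 ℝ ((ℝ ∙ e)ᗮ × ℝ)).trans (crd e he).toLinearEquiv with
    norm_map' := by
      intro x
      show ‖crd e he (WithLp.ofLp x)‖ = ‖x‖
      have h1 : ‖crd e he (WithLp.ofLp x)‖ ^ 2 = ‖x‖ ^ 2 := by
        rw [crd_apply, WithLp.prod_norm_sq_eq_of_L2, norm_add_sq_real, norm_smul, he,
          inner_smul_right, real_inner_comm, inner_orth]
        simp
      exact (sq_eq_sq₀ (norm_nonneg _) (norm_nonneg _)).1 h1 }

lemma crdI_apply (e : E) (he : ‖e‖ = 1) (q : (ℝ ∙ e)ᗮ × ℝ) :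
    crdI e he (WithLp.toLp 2 q) = crd e he q := rfl

/-- affine coordinates `(y, t) ↦ p0 + y + t e`. -/
def Ph0 (p0 e : E) (q : (ℝ ∙ e)ᗮ × ℝ) : E := p0 + ((q.1 : E) + q.2 • e)

lemma pr_Ph0 {e : E} (he : ‖e‖ = 1) (p0 : E) (q : (ℝ ∙ e)ᗮ × ℝ) :
    pr e he (Ph0 p0 e q - p0) = q.1 := by
  unfold Ph0
  rw [add_sub_cancel_left, pr_of]

lemma inner_Ph0 {e : E} (he : ‖e‖ = 1) (p0 : E) (q : (ℝ ∙ e)ᗮ × ℝ) :
    ⟪e, Ph0 p0 e q - p0⟫ = q.2 := by
  unfold Ph0
  rw [add_sub_cancel_left, inner_add_right, inner_orth, inner_smul_right,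
    real_inner_self_eq_norm_sq, he]
  ring

lemma Ph0_pr {e : E} (he : ‖e‖ = 1) (p0 x : E) :
    Ph0 p0 e (pr e he (x - p0), ⟪e, x - p0⟫) = x := by
  unfold Ph0
  simp only
  rw [pr_add]; abel

section Meas

variable [FiniteDimensional ℝ E] [MeasurableSpace E] [BorelSpace E]

lemma mp_crd (e : E) (he : ‖e‖ = 1) : MeasurePreserving (crd e he) := by
  have h1 := (crdI e he).measurePreserving
  have h2 := WithLp.volume_preserving_toLp (U := (ℝ ∙ e)ᗮ) (V := ℝ)
  exact h1.comp h2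

lemma mp_Ph0 (p0 e : E) (he : ‖e‖ = 1) : MeasurePreserving (Ph0 p0 e) :=
  (measurePreserving_add_left volume p0).comp (mp_crd e he)

lemma me_Ph0 (p0 e : E) (he : ‖e‖ = 1) : MeasurableEmbedding (Ph0 p0 e) :=
  ((crd e he).toHomeomorph.trans (Homeomorph.addLeft p0)).measurableEmbedding

end Meas

/-! ### the normal field -/

lemma norm_unit_sub_le {a b : E} (ha : 1 ≤ ‖a‖) (hb : 1 ≤ ‖b‖) :
    ‖‖a‖⁻¹ • a - ‖b‖⁻¹ • b‖ ≤ 2 * ‖a - b‖ := by
  have ha0 : 0 < ‖a‖ := by linarith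
  have hb0 : 0 < ‖b‖ := by linarith
  have h1 : ‖a‖⁻¹ • a - ‖b‖⁻¹ • b = ‖a‖⁻¹ • (a - b) + (‖a‖⁻¹ - ‖b‖⁻¹) • b := by
    rw [smul_sub, sub_smul]; abel
  rw [h1]
  refine (norm_add_le _ _).trans ?_
  rw [norm_smul, norm_smul, norm_inv, norm_norm, Real.norm_eq_abs]
  have h2 : |‖a‖⁻¹ - ‖b‖⁻¹| * ‖b‖ = ‖a‖⁻¹ * |‖b‖ - ‖a‖| := by
    have : ‖a‖⁻¹ - ‖b‖⁻¹ = ‖a‖⁻¹ * ‖b‖⁻¹ * (‖b‖ - ‖a‖) := by
      field_simp
    rw [this, abs_mul, abs_of_pos (by positivity)]
    field_simp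
  have h3 : |‖b‖ - ‖a‖| ≤ ‖a - b‖ := by
    rw [norm_sub_rev]; exact abs_norm_sub_norm_le _ _
  have h4 : ‖a‖⁻¹ ≤ 1 := inv_le_one_of_one_le₀ ha
  have h5 : 0 ≤ ‖a‖⁻¹ := by positivity
  rw [h2]
  have h6 : ‖a‖⁻¹ * ‖a - b‖ ≤ 1 * ‖a - b‖ := mul_le_mul_of_nonneg_right h4 (norm_nonneg _)
  have h7 : ‖a‖⁻¹ * |‖b‖ - ‖a‖| ≤ 1 * ‖a - b‖ := mul_le_mul h4 h3 (abs_nonneg _) (by norm_num)
  linarith

section Tub

variable [FiniteDimensional ℝ E] {e p0 : E}

lemma nn_eq (he : ‖e‖ = 1) (w : (ℝ ∙ e)ᗮ → ℝ) (y : (ℝ ∙ e)ᗮ) :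
    nn w y = ‖e - ((gradient w y : (ℝ ∙ e)ᗮ) : E)‖⁻¹ • (e - ((gradient w y : (ℝ ∙ e)ᗮ) : E)) := by
  rw [norm_sub_coe he]; rfl

lemma one_le_norm_sub_coe (he : ‖e‖ = 1) (g : (ℝ ∙ e)ᗮ) : 1 ≤ ‖e - (g : E)‖ := by
  rw [norm_sub_coe he]
  rw [Real.one_le_sqrt]
  have := sq_nonneg ‖g‖
  linarith

lemma norm_nn_sub_le (he : ‖e‖ = 1) (w : (ℝ ∙ e)ᗮ → ℝ) (y y' : (ℝ ∙ e)ᗮ) :
    ‖nn w y - nn w y'‖ ≤ 2 * ‖fderiv ℝ w y - fderiv ℝ w y'‖ := by
  rw [nn_eq he, nn_eq he]
  refine (norm_unit_sub_le (one_le_norm_sub_coe he _) (one_le_norm_sub_coe he _)).trans ?_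
  have h1 : e - ((gradient w y : (ℝ ∙ e)ᗮ) : E) - (e - ((gradient w y' : (ℝ ∙ e)ᗮ) : E)) =
      -(((gradient w y - gradient w y' : (ℝ ∙ e)ᗮ)) : E) := by
    push_cast; abel
  rw [h1, norm_neg]
  change 2 * ‖(gradient w y - gradient w y' : (ℝ ∙ e)ᗮ)‖ ≤ _
  rw [gradient, gradient, ← map_sub, LinearIsometryEquiv.norm_map]

/-- data of a `C^{1,α}` graph bounding the signed distance function `φ`. -/
structure GData [MeasurableSpace E] [BorelSpace E] (φ : E → ℝ) (p0 e : E) (r K α R : ℝ)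
    (w : (ℝ ∙ e)ᗮ → ℝ) : Prop where
  he : ‖e‖ = 1
  hr : 0 < r
  hK : 0 ≤ K
  hα : 0 < α
  hR : 0 < R
  lip : LipschitzWith 1 φ
  w0 : w 0 = 0
  dw0 : fderiv ℝ w 0 = 0
  wd : ∀ y ∈ ball (0 : (ℝ ∙ e)ᗮ) r, DifferentiableAt ℝ w y ∧ ‖fderiv ℝ w y‖ ≤ 1 / 4
  wl : ∀ y ∈ ball (0 : (ℝ ∙ e)ᗮ) r, ∀ y' ∈ ball (0 : (ℝ ∙ e)ᗮ) r, |w y - w y'| ≤ ‖y - y'‖ / 4
  wh : ∀ y ∈ ball (0 : (ℝ ∙ e)ᗮ) r, ∀ y' ∈ ball (0 : (ℝ ∙ e)ᗮ) r,
    ‖fderiv ℝ w y - fderiv ℝ w y'‖ ≤ K * ‖y - y'‖ ^ α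
  sgn : ∀ y ∈ ball (0 : (ℝ ∙ e)ᗮ) r, ∀ t : ℝ, |t| < r →
    SignType.sign (φ (p0 + y + t • e)) = SignType.sign (t - w y)
  dst : ∀ x ∈ ball p0 R, |φ x| = infDist x {x | φ x = 0}
  eik : ∀ᵐ x, x ∈ ball p0 R → ‖gradient φ x‖ = 1

variable [MeasurableSpace E] [BorelSpace E] {φ : E → ℝ} {r K α R : ℝ} {w : (ℝ ∙ e)ᗮ → ℝ}

lemma GData.sgn' (H : GData φ p0 e r K α R w) {y : (ℝ ∙ e)ᗮ} (hy : ‖y‖ < r) {t : ℝ} (ht : |t| < r) :
    SignType.sign (φ (Ph0 p0 e (y, t))) = SignType.sign (t - w y) := by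
  have := H.sgn y (by rwa [mem_ball_zero_iff]) t ht
  rwa [add_assoc] at this

lemma GData.phi_p0 (H : GData φ p0 e r K α R w) : φ p0 = 0 := by
  have h1 := H.sgn' (y := 0) (by simpa using H.hr) (t := 0) (by simpa using H.hr)
  simp only [H.w0, sub_zero, sign_zero, Ph0] at h1
  simpa using sign_eq_zero_iff.1 h1

/-- at a point of differentiability the gradient is the normal at the foot point. -/
lemma grad_foot (he : ‖e‖ = 1) (hφ : LipschitzWith 1 φ) {x : E} {y : (ℝ ∙ e)ᗮ}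
    (hx : x = Ph p0 w (y, φ x)) (hz : φ (p0 + (y : E) + w y • e) = 0) (h0 : φ x ≠ 0)
    (hd : DifferentiableAt ℝ φ x) : gradient φ x = nn w y := by
  set z := p0 + (y : E) + w y • e with hzdef
  set n := nn w y with hn
  set s := φ x with hs
  have hxz : x = z + s • n := hx
  have hn1 : ‖n‖ = 1 := norm_nn he w y
  have hline : HasDerivAt (fun τ : ℝ => x + τ • n) n 0 := by
    have := ((hasDerivAt_id (0:ℝ)).smul_const n).const_add x
    simpa using this
  have hder : HasDerivAt (fun τ : ℝ => φ (x + τ • n) - τ) (⟪gradient φ x, n⟫ - 1) 0 := by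
    have h1 : HasFDerivAt φ (fderiv ℝ φ x) (x + (0:ℝ) • n) := by
      rw [zero_smul, add_zero]; exact hd.hasFDerivAt
    have h2 := h1.comp_hasDerivAt (0:ℝ) hline
    rw [inner_grad']
    exact h2.sub (hasDerivAt_id (0:ℝ))
  have hb : ∀ τ : ℝ, |φ (x + τ • n)| ≤ |s + τ| := by
    intro τ
    have h1 := hφ.dist_le_mul (x + τ • n) z
    rw [Real.dist_eq, hz, sub_zero, dist_eq_norm] at h1
    have h2 : x + τ • n - z = (s + τ) • n := by
      rw [hxz, add_smul]; abel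
    rw [h2, norm_smul, hn1, mul_one, Real.norm_eq_abs] at h1
    simpa using h1
  have hzero : ⟪gradient φ x, n⟫ - 1 = 0 := by
    rcases lt_or_gt_of_ne h0 with hneg | hpos
    · have hmin : IsLocalMin (fun τ : ℝ => φ (x + τ • n) - τ) 0 := by
        have : ∀ᶠ τ : ℝ in 𝓝 0, τ < -s := eventually_lt_nhds (by linarith)
        filter_upwards [this] with τ hτ
        have h1 := hb τ
        rw [abs_of_neg (by linarith : s + τ < 0)] at h1
        have h2 := (abs_le.1 h1).1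
        simp only [zero_smul, add_zero, sub_zero]
        linarith
      exact hmin.hasDerivAt_eq_zero hder
    · have hmax : IsLocalMax (fun τ : ℝ => φ (x + τ • n) - τ) 0 := by
        have : ∀ᶠ τ : ℝ in 𝓝 0, -s < τ := eventually_gt_nhds (by linarith)
        filter_upwards [this] with τ hτ
        have h1 := hb τ
        rw [abs_of_pos (by linarith : 0 < s + τ)] at h1
        have h2 := (abs_le.1 h1).2
        simp only [zero_smul, add_zero, sub_zero]
        linarith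
      exact hmax.hasDerivAt_eq_zero hder
  have hg : ‖gradient φ x‖ ≤ 1 := by
    rw [gradient, LinearIsometryEquiv.norm_map]
    simpa using norm_fderiv_le_of_lipschitz ℝ hφ (x₀ := x)
  have h3 := norm_sub_sq_real (gradient φ x) n
  rw [hn1] at h3
  have h4 : ‖gradient φ x - n‖ ^ 2 ≤ 0 := by
    have := norm_nonneg (gradient φ x)
    nlinarith
  have h5 : ‖gradient φ x - n‖ = 0 := by
    have := norm_nonneg (gradient φ x - n)
    nlinarith
  exact sub_eq_zero.1 (norm_eq_zero.1 h5)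

/-- in the slab `|t - w y| ≤ d` the gradient of `φ` is close to the normal field. -/
lemma GData.close (H : GData φ p0 e r K α R w) {y : (ℝ ∙ e)ᗮ} {t d : ℝ}
    (h4 : 4 * (‖y‖ + |t|) < r) (hR : ‖y‖ + |t| < R) (htd : |t - w y| ≤ d) (hne : t ≠ w y)
    (hdf : DifferentiableAt ℝ φ (Ph0 p0 e (y, t))) :
    ‖gradient φ (Ph0 p0 e (y, t)) - nn w y‖ ≤ 2 * K * d ^ α := by
  have he := H.he
  set x := Ph0 p0 e (y, t) with hx
  have hxn : ‖x - p0‖ ≤ ‖y‖ + |t| := by
    rw [hx]; unfold Ph0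
    rw [add_sub_cancel_left]
    refine (norm_add_le _ _).trans ?_
    rw [norm_smul, he, mul_one, Real.norm_eq_abs]
    exact le_rfl
  have hyr : ‖y‖ < r := by
    have := norm_nonneg y; have := abs_nonneg t; linarith
  have htr : |t| < r := by
    have := norm_nonneg y; have := abs_nonneg t; linarith
  obtain ⟨y', hy'1, hy'2⟩ := exists_coord he H.lip H.hr H.w0 H.wl H.wd H.sgn (x := x)
    (H.dst x (by rw [mem_ball, dist_eq_norm]; linarith)) (by linarith)
  have hy'r : ‖y'‖ < r := by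
    have := norm_nonneg y; have := abs_nonneg t; have := norm_nonneg (x - p0)
    linarith
  have hw'r : |w y'| < r := by
    have h1 := H.wl y' (by rwa [mem_ball_zero_iff]) 0 (by simpa using H.hr)
    rw [H.w0, sub_zero, sub_zero] at h1
    have := norm_nonneg y'
    linarith
  have hz : φ (p0 + (y' : E) + w y' • e) = 0 := by
    have h1 := H.sgn y' (by rwa [mem_ball_zero_iff]) (w y') hw'r
    rw [sub_self, sign_zero] at h1
    exact sign_eq_zero_iff.1 h1
  have hφ0 : φ x ≠ 0 := by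
    intro h0
    have h1 := H.sgn' hyr htr
    rw [← hx, h0, sign_zero] at h1
    have h2 := sign_eq_zero_iff.1 h1.symm
    exact hne (by linarith)
  rw [grad_foot he H.lip hy'2 hz hφ0 hdf]
  -- distance of the foot points
  have hwr : |w y| < r := by
    have h1 := H.wl y (by rwa [mem_ball_zero_iff]) 0 (by simpa using H.hr)
    rw [H.w0, sub_zero, sub_zero] at h1
    have := norm_nonneg y
    linarith
  have hφd : |φ x| ≤ d := by
    have h1 : φ (Ph0 p0 e (y, w y)) = 0 := by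
      have h1 := H.sgn' hyr hwr
      rw [sub_self, sign_zero] at h1
      exact sign_eq_zero_iff.1 h1
    have h2 := H.lip.dist_le_mul x (Ph0 p0 e (y, w y))
    rw [Real.dist_eq, h1, sub_zero, dist_eq_norm, hx] at h2
    have h3 : Ph0 p0 e (y, t) - Ph0 p0 e (y, w y) = (t - w y) • e := by
      unfold Ph0; rw [sub_smul]; simp only; abel
    rw [h3, norm_smul, he, mul_one, Real.norm_eq_abs, ← hx] at h2
    refine le_trans ?_ htd
    simpa using h2
  have hyy : ‖y' - y‖ ≤ d := by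
    have h1 : y' - y = pr e he ((p0 + (y' : E) + w y' • e) - x) := by
      have h2 : (p0 + (y' : E) + w y' • e) - x
          = ((y' - y : (ℝ ∙ e)ᗮ) : E) + (w y' - t) • e := by
        rw [hx]; unfold Ph0; rw [sub_smul, Submodule.coe_sub]; simp only; abel
      rw [h2, pr_of]
    rw [h1]
    refine (norm_pr_le he _).trans ?_
    have h3 : (p0 + (y' : E) + w y' • e) - x = -(φ x • nn w y') := by
      conv_lhs => rw [hy'2]
      unfold Ph; simp only; abel
    rw [h3, norm_neg, norm_smul, norm_nn he, mul_one, Real.norm_eq_abs]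
    exact hφd
  refine (norm_nn_sub_le he w y' y).trans ?_
  have h5 := H.wh y' (by rwa [mem_ball_zero_iff]) y (by rwa [mem_ball_zero_iff])
  have h6 : ‖y' - y‖ ^ α ≤ d ^ α := Real.rpow_le_rpow (norm_nonneg _) hyy H.hα.le
  have h7 := mul_le_mul_of_nonneg_left h6 H.hK
  linarith

/-! ### test functions -/

/-- `ζ(y, t) = ψ(y) χ((t - w y)/d)`. -/
def zt (he : ‖e‖ = 1) (p0 : E) (w ψ : (ℝ ∙ e)ᗮ → ℝ) (χ : ℝ → ℝ) (d : ℝ) (x : E) : ℝ :=
  ψ (pr e he (x - p0)) * χ (d⁻¹ * (⟪e, x - p0⟫ - w (pr e he (x - p0))))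

lemma zt_Ph0 (he : ‖e‖ = 1) (p0 : E) (w ψ : (ℝ ∙ e)ᗮ → ℝ) (χ : ℝ → ℝ) (d : ℝ)
    (q : (ℝ ∙ e)ᗮ × ℝ) : zt he p0 w ψ χ d (Ph0 p0 e q) = ψ q.1 * χ (d⁻¹ * (q.2 - w q.1)) := by
  unfold zt
  rw [pr_Ph0 he, inner_Ph0 he]

variable {ψ : (ℝ ∙ e)ᗮ → ℝ} {χ : ℝ → ℝ} {d : ℝ}

lemma hasFDerivAt_zt (he : ‖e‖ = 1) {x : E} (hψ : DifferentiableAt ℝ ψ (pr e he (x - p0)))
    (hw : DifferentiableAt ℝ w (pr e he (x - p0))) (hχ : Differentiable ℝ χ) :
    HasFDerivAt (zt he p0 w ψ χ d)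
      (ψ (pr e he (x - p0)) •
        (deriv χ (d⁻¹ * (⟪e, x - p0⟫ - w (pr e he (x - p0)))) •
          (d⁻¹ • (innerSL ℝ e - (fderiv ℝ w (pr e he (x - p0))).comp (pr e he))))
        + χ (d⁻¹ * (⟪e, x - p0⟫ - w (pr e he (x - p0)))) •
          ((fderiv ℝ ψ (pr e he (x - p0))).comp (pr e he))) x := by
  have h1 : HasFDerivAt (fun x : E => x - p0) (ContinuousLinearMap.id ℝ E) x :=
    (hasFDerivAt_id x).sub_const p0
  have h2 : HasFDerivAt (fun x : E => pr e he (x - p0)) (pr e he) x := by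
    have := (pr e he).hasFDerivAt.comp x h1
    exact this
  have h3 : HasFDerivAt (fun x : E => ⟪e, x - p0⟫) (innerSL ℝ e) x := by
    have := (innerSL ℝ e).hasFDerivAt.comp x h1
    exact this
  have h4 : HasFDerivAt (fun x : E => ψ (pr e he (x - p0)))
      ((fderiv ℝ ψ (pr e he (x - p0))).comp (pr e he)) x :=
    hψ.hasFDerivAt.comp x h2
  have h5 : HasFDerivAt (fun x : E => w (pr e he (x - p0)))
      ((fderiv ℝ w (pr e he (x - p0))).comp (pr e he)) x :=
    hw.hasFDerivAt.comp x h2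
  have h6 := (h3.sub h5).const_mul d⁻¹
  have h7 := (hχ _).hasDerivAt.comp_hasFDerivAt x h6
  exact h4.mul h7

lemma fderiv_zt_apply (he : ‖e‖ = 1) {y : (ℝ ∙ e)ᗮ} (t : ℝ) (hψ : DifferentiableAt ℝ ψ y)
    (hw : DifferentiableAt ℝ w y) (hχ : Differentiable ℝ χ) (v : E) :
    fderiv ℝ (zt he p0 w ψ χ d) (Ph0 p0 e (y, t)) v =
      ψ y * (deriv χ (d⁻¹ * (t - w y)) * (d⁻¹ * (⟪e, v⟫ - fderiv ℝ w y (pr e he v))))
        + χ (d⁻¹ * (t - w y)) * fderiv ℝ ψ y (pr e he v) := by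
  have h1 : pr e he (Ph0 p0 e (y, t) - p0) = y := pr_Ph0 he p0 (y, t)
  have h2 : ⟪e, Ph0 p0 e (y, t) - p0⟫ = t := inner_Ph0 he p0 (y, t)
  have h3 := hasFDerivAt_zt (p0 := p0) (d := d) he (x := Ph0 p0 e (y, t)) (ψ := ψ) (w := w)
    (by rw [h1]; exact hψ) (by rw [h1]; exact hw) hχ
  rw [h3.fderiv, h1, h2]
  simp

lemma tsupport_zt (he : ‖e‖ = 1) (hwc : ContinuousOn w (tsupport ψ)) {x : E}
    (hx : x ∈ tsupport (zt he p0 w ψ χ d)) :
    pr e he (x - p0) ∈ tsupport ψ ∧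
      d⁻¹ * (⟪e, x - p0⟫ - w (pr e he (x - p0))) ∈ tsupport χ := by
  have hc1 : Continuous fun x : E => pr e he (x - p0) := by fun_prop
  have hc2 : Continuous fun x : E => ⟪e, x - p0⟫ := by fun_prop
  set A : Set E := {x | pr e he (x - p0) ∈ tsupport ψ} with hA
  have hAc : IsClosed A := (isClosed_tsupport ψ).preimage hc1
  have hgc : ContinuousOn (fun x : E => d⁻¹ * (⟪e, x - p0⟫ - w (pr e he (x - p0)))) A :=
    continuousOn_const.mul (hc2.continuousOn.sub (hwc.comp hc1.continuousOn fun x hx => hx))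
  have hBc : IsClosed (A ∩ (fun x : E => d⁻¹ * (⟪e, x - p0⟫ - w (pr e he (x - p0)))) ⁻¹'
      (tsupport χ)) := hgc.preimage_isClosed_of_isClosed hAc (isClosed_tsupport χ)
  have hsub : tsupport (zt he p0 w ψ χ d) ⊆
      A ∩ (fun x : E => d⁻¹ * (⟪e, x - p0⟫ - w (pr e he (x - p0)))) ⁻¹' (tsupport χ) := by
    refine closure_minimal ?_ hBc
    intro x hx
    rw [Function.mem_support] at hx
    unfold zt at hx
    exact ⟨subset_tsupport _ (left_ne_zero_of_mul hx), subset_tsupport _ (right_ne_zero_of_mul hx)⟩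
  exact hsub hx

lemma contDiff_zt (he : ‖e‖ = 1) (hψ : ContDiff ℝ 1 ψ)
    (hw : ∀ y ∈ tsupport ψ, ContDiffAt ℝ 1 w y) (hχ : ContDiff ℝ 1 χ) :
    ContDiff ℝ 1 (zt he p0 w ψ χ d) := by
  rw [contDiff_iff_contDiffAt]
  intro x
  by_cases hx : pr e he (x - p0) ∈ tsupport ψ
  · have h2 : ContDiffAt ℝ 1 (fun x : E => pr e he (x - p0)) x := by fun_prop
    have h3 : ContDiffAt ℝ 1 (fun x : E => ⟪e, x - p0⟫) x :=
      contDiffAt_const.inner ℝ (contDiffAt_id.sub contDiffAt_const)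
    have h4 : ContDiffAt ℝ 1 (fun x : E => w (pr e he (x - p0))) x :=
      ContDiffAt.comp (g := w) x (hw _ hx) h2
    have h5 : ContDiffAt ℝ 1 (fun x : E => ψ (pr e he (x - p0))) x :=
      ContDiffAt.comp (g := ψ) x hψ.contDiffAt h2
    have h6 : ContDiffAt ℝ 1 (fun x : E => d⁻¹ * (⟪e, x - p0⟫ - w (pr e he (x - p0)))) x :=
      contDiffAt_const.mul (h3.sub h4)
    exact h5.mul (ContDiffAt.comp (g := χ) x hχ.contDiffAt h6)
  · have hc1 : Continuous fun x : E => pr e he (x - p0) := by fun_prop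
    have h1 : ∀ᶠ x' in 𝓝 x, pr e he (x' - p0) ∉ tsupport ψ :=
      hc1.continuousAt.eventually ((isClosed_tsupport ψ).isOpen_compl.mem_nhds hx)
    have h2 : zt he p0 w ψ χ d =ᶠ[𝓝 x] fun _ => 0 := by
      filter_upwards [h1] with x' hx'
      unfold zt
      rw [image_eq_zero_of_notMem_tsupport hx', zero_mul]
    exact contDiffAt_const.congr_of_eventuallyEq h2

lemma hasCompactSupport_zt (he : ‖e‖ = 1) (hψc : HasCompactSupport ψ)
    (hwc : ContinuousOn w (tsupport ψ)) (hχ : tsupport χ ⊆ Icc (-1) 1) (hd : 0 < d) :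
    HasCompactSupport (zt he p0 w ψ χ d) := by
  obtain ⟨M, hM⟩ := (hψc.isCompact.image_of_continuousOn hwc).isBounded.exists_norm_le
  obtain ⟨M', hM'⟩ := hψc.isCompact.isBounded.exists_norm_le
  refine HasCompactSupport.of_support_subset_isCompact
    (isCompact_closedBall p0 (M' + (M + d))) ?_
  intro x hx
  obtain ⟨h1, h2⟩ := tsupport_zt he hwc (subset_tsupport _ hx)
  have h3 := hχ h2
  rw [mem_closedBall, dist_eq_norm]
  have h4 : x - p0 = (pr e he (x - p0) : E) + ⟪e, x - p0⟫ • e := (pr_add he (x - p0)).symm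
  rw [h4]
  refine (norm_add_le _ _).trans ?_
  rw [norm_smul, he, mul_one, Real.norm_eq_abs]
  have h5 : ‖w (pr e he (x - p0))‖ ≤ M := hM _ (mem_image_of_mem _ h1)
  have h6 : ‖pr e he (x - p0)‖ ≤ M' := hM' _ h1
  have h7 : |⟪e, x - p0⟫ - w (pr e he (x - p0))| ≤ d := by
    have h8 : |d⁻¹ * (⟪e, x - p0⟫ - w (pr e he (x - p0)))| ≤ 1 := abs_le.2 ⟨h3.1, h3.2⟩
    rw [abs_mul, abs_of_pos (inv_pos.2 hd), inv_mul_le_iff₀ hd, mul_one] at h8
    exact h8
  rw [Real.norm_eq_abs] at h5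
  have h9 : |⟪e, x - p0⟫| ≤ |⟪e, x - p0⟫ - w (pr e he (x - p0))| + |w (pr e he (x - p0))| := by
    have := abs_add_le (⟪e, x - p0⟫ - w (pr e he (x - p0))) (w (pr e he (x - p0)))
    simpa using this
  have h10 : ‖((pr e he (x - p0) : (ℝ ∙ e)ᗮ) : E)‖ ≤ M' := h6
  linarith

lemma GData.contDiffAt_w (H : GData φ p0 e r K α R w) {y : (ℝ ∙ e)ᗮ}
    (hy : y ∈ ball (0 : (ℝ ∙ e)ᗮ) r) : ContDiffAt ℝ 1 w y := by
  rw [contDiffAt_one_iff]
  refine ⟨fderiv ℝ w, ball 0 r, isOpen_ball.mem_nhds hy, ?_, fun y hy => (H.wd y hy).1.hasFDerivAt⟩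
  intro y hy
  refine ContinuousAt.continuousWithinAt ?_
  rw [Metric.continuousAt_iff']
  intro ε hε
  have h1 : Tendsto (fun y' : (ℝ ∙ e)ᗮ => K * ‖y' - y‖ ^ α) (𝓝 y) (𝓝 0) := by
    have h3 : Continuous (fun y' : (ℝ ∙ e)ᗮ => K * ‖y' - y‖ ^ α) :=
      continuous_const.mul ((continuous_norm.comp (continuous_id.sub continuous_const)).rpow_const
        (fun _ => Or.inr H.hα.le))
    have h4 := h3.tendsto y
    simpa [Real.zero_rpow H.hα.ne'] using h4
  filter_upwards [h1.eventually_lt_const hε, isOpen_ball.mem_nhds hy] with y' h5 h6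
  rw [dist_eq_norm]
  exact (H.wh y' h6 y hy).trans_lt h5

lemma continuousAt_nn {y : (ℝ ∙ e)ᗮ} (hw : ContDiffAt ℝ 1 w y) : ContinuousAt (nn w) y := by
  have h1 : ContinuousAt (fderiv ℝ w) y := (hw.fderiv_right (m := 0) (by simp)).continuousAt
  have h2 : ContinuousAt (gradient w) y :=
    (InnerProductSpace.toDual ℝ (ℝ ∙ e)ᗮ).symm.continuous.continuousAt.comp h1
  have h3 : ContinuousAt (aa w) y := by
    unfold aa
    refine ContinuousAt.inv₀ ?_ (by positivity)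
    exact (continuousAt_const.add (h2.norm.pow 2)).sqrt
  have h4 : ContinuousAt (fun y => ((gradient w y : (ℝ ∙ e)ᗮ) : E)) y :=
    continuous_subtype_val.continuousAt.comp h2
  exact h3.smul (continuousAt_const.sub h4)

lemma inner_nn (he : ‖e‖ = 1) (y : (ℝ ∙ e)ᗮ) (v : E) :
    ⟪e, v⟫ - fderiv ℝ w y (pr e he v) =
      ‖e - ((gradient w y : (ℝ ∙ e)ᗮ) : E)‖ * ⟪nn w y, v⟫ := by
  have h1 : fderiv ℝ w y (pr e he v) = ⟪((gradient w y : (ℝ ∙ e)ᗮ) : E), v⟫ := by
    rw [← inner_grad', Submodule.coe_inner, pr_coe, inner_sub_right, inner_smul_right,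
      real_inner_comm e, inner_orth]
    ring
  have h2 : (0 : ℝ) < ‖e - ((gradient w y : (ℝ ∙ e)ᗮ) : E)‖ := by
    have := one_le_norm_sub_coe he (gradient w y)
    linarith
  rw [h1, ← inner_sub_left, nn_eq he, inner_smul_left]
  simp only [conj_trivial]
  rw [mul_inv_cancel_left₀ h2.ne']

lemma gnorm_le {y : (ℝ ∙ e)ᗮ} (he : ‖e‖ = 1) (hw : ‖fderiv ℝ w y‖ ≤ 1 / 4) :
    ‖e - ((gradient w y : (ℝ ∙ e)ᗮ) : E)‖ ≤ 2 := by
  refine (norm_sub_le _ _).trans ?_
  have h1 : ‖((gradient w y : (ℝ ∙ e)ᗮ) : E)‖ ≤ 1 / 4 := by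
    change ‖(gradient w y : (ℝ ∙ e)ᗮ)‖ ≤ 1 / 4
    rw [gradient, LinearIsometryEquiv.norm_map]; exact hw
  rw [he]; linarith

/-- pointwise bound of the error. -/
lemma err_bound (he : ‖e‖ = 1) {y : (ℝ ∙ e)ᗮ} {t : ℝ} (hψ : DifferentiableAt ℝ ψ y)
    (hw : DifferentiableAt ℝ w y) (hw4 : ‖fderiv ℝ w y‖ ≤ 1 / 4) (hχ : Differentiable ℝ χ)
    {Cψ Cψ' Cχ Cχ' κ : ℝ} (hCψ : |ψ y| ≤ Cψ) (hCψ' : ‖fderiv ℝ ψ y‖ ≤ Cψ')
    (hCχ : ∀ s, |χ s| ≤ Cχ) (hCχ' : ∀ s, |deriv χ s| ≤ Cχ') (hd : 0 < d)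
    {v : E} (hv : ‖v‖ = 1) (hκ : ‖v - nn w y‖ ≤ κ) :
    |fderiv ℝ (zt he p0 w ψ χ d) (Ph0 p0 e (y, t)) (v - nn w y)| ≤
      Cψ * (Cχ' * (d⁻¹ * κ ^ 2)) + Cχ * (Cψ' * κ) := by
  rw [fderiv_zt_apply he t hψ hw hχ]
  have hκ0 : 0 ≤ κ := (norm_nonneg _).trans hκ
  have h1 : |⟪e, v - nn w y⟫ - fderiv ℝ w y (pr e he (v - nn w y))| ≤ κ ^ 2 := by
    rw [inner_nn he]
    have h2 : ⟪nn w y, v - nn w y⟫ = -(‖v - nn w y‖ ^ 2 / 2) := by
      have h3 := norm_sub_sq_real v (nn w y)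
      rw [hv, norm_nn he] at h3
      rw [inner_sub_right, real_inner_self_eq_norm_sq, norm_nn he, real_inner_comm]
      linarith
    rw [h2, abs_mul, abs_neg, abs_of_nonneg (norm_nonneg _), abs_of_nonneg (by positivity)]
    have h4 := gnorm_le he hw4
    have h5 : ‖v - nn w y‖ ^ 2 ≤ κ ^ 2 := pow_le_pow_left₀ (norm_nonneg _) hκ 2
    calc _ ≤ 2 * (κ ^ 2 / 2) := by
          apply mul_le_mul h4 (by linarith) (by positivity) (by norm_num)
      _ = κ ^ 2 := by ring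
  have h6 : |fderiv ℝ ψ y (pr e he (v - nn w y))| ≤ Cψ' * κ := by
    rw [← Real.norm_eq_abs]
    refine ((fderiv ℝ ψ y).le_opNorm _).trans ?_
    have h7 : 0 ≤ Cψ' := (norm_nonneg (fderiv ℝ ψ y)).trans hCψ'
    exact mul_le_mul hCψ' ((norm_pr_le he _).trans hκ) (norm_nonneg _) h7
  refine (abs_add_le _ _).trans ?_
  have a1 : |ψ y * (deriv χ (d⁻¹ * (t - w y)) *
      (d⁻¹ * (⟪e, v - nn w y⟫ - fderiv ℝ w y (pr e he (v - nn w y)))))| ≤
      Cψ * (Cχ' * (d⁻¹ * κ ^ 2)) := by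
    rw [abs_mul, abs_mul, abs_mul, abs_of_pos (inv_pos.2 hd)]
    have b0 : 0 ≤ Cψ := (abs_nonneg _).trans hCψ
    have b1 : 0 ≤ Cχ' := (abs_nonneg _).trans (hCχ' 0)
    have b2 : 0 ≤ d⁻¹ := (inv_pos.2 hd).le
    gcongr
    exact hCχ' _
  have a2 : |χ (d⁻¹ * (t - w y)) * fderiv ℝ ψ y (pr e he (v - nn w y))| ≤ Cχ * (Cψ' * κ) := by
    rw [abs_mul]
    exact mul_le_mul (hCχ _) h6 (abs_nonneg _) ((abs_nonneg _).trans (hCχ 0))
  linarith

/-- the slab. -/
def slab (w ψ : (ℝ ∙ e)ᗮ → ℝ) (d : ℝ) : Set ((ℝ ∙ e)ᗮ × ℝ) :=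
  {q | q.1 ∈ tsupport ψ ∧ |q.2 - w q.1| ≤ d}

lemma isClosed_slab (hwc : ContinuousOn w (tsupport ψ)) : IsClosed (slab w ψ d) := by
  have h1 : IsClosed {q : (ℝ ∙ e)ᗮ × ℝ | q.1 ∈ tsupport ψ} :=
    (isClosed_tsupport ψ).preimage continuous_fst
  have h2 : ContinuousOn (fun q : (ℝ ∙ e)ᗮ × ℝ => |q.2 - w q.1|)
      {q : (ℝ ∙ e)ᗮ × ℝ | q.1 ∈ tsupport ψ} :=
    (continuous_snd.continuousOn.sub (hwc.comp continuous_fst.continuousOn fun q hq => hq)).abs
  exact h2.preimage_isClosed_of_isClosed h1 isClosed_Iic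

lemma volume_slab (hwc : ContinuousOn w (tsupport ψ)) :
    volume (slab w ψ d) ≤ ENNReal.ofReal (2 * d) * volume (tsupport ψ) := by
  have hm : MeasurableSet (slab w ψ d) := (isClosed_slab hwc).measurableSet
  rw [Measure.volume_eq_prod, Measure.prod_apply hm]
  have h1 : ∀ y : (ℝ ∙ e)ᗮ, volume (Prod.mk y ⁻¹' slab w ψ d) ≤
      (tsupport ψ).indicator (fun _ => ENNReal.ofReal (2 * d)) y := by
    intro y
    by_cases hy : y ∈ tsupport ψ
    · rw [indicator_of_mem hy]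
      have h2 : Prod.mk y ⁻¹' slab w ψ d ⊆ Icc (w y - d) (w y + d) := by
        intro t ht
        have h3 := abs_le.1 ht.2
        constructor <;> [linarith [h3.1]; linarith [h3.2]]
      refine (measure_mono h2).trans ?_
      rw [Real.volume_Icc]
      apply ENNReal.ofReal_le_ofReal; linarith
    · rw [indicator_of_notMem hy]
      have h2 : Prod.mk y ⁻¹' slab w ψ d = ∅ := by
        ext t
        simp only [mem_preimage, mem_empty_iff_false, iff_false]
        intro ht; exact hy ht.1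
      rw [h2, measure_empty]
  refine (lintegral_mono h1).trans ?_
  rw [lintegral_indicator (isClosed_tsupport ψ).measurableSet, lintegral_const,
    Measure.restrict_apply_univ]

/-- the comparison integrand. -/
def jj (he : ‖e‖ = 1) (p0 : E) (w ψ : (ℝ ∙ e)ᗮ → ℝ) (χ : ℝ → ℝ) (d : ℝ) (x : E) : ℝ :=
  fderiv ℝ (zt he p0 w ψ χ d) x (nn w (pr e he (x - p0)))

lemma continuous_jj (he : ‖e‖ = 1) (hψ : ContDiff ℝ 1 ψ)
    (hw : ∀ y ∈ tsupport ψ, ContDiffAt ℝ 1 w y) (hχ : ContDiff ℝ 1 χ) :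
    Continuous (jj he p0 w ψ χ d) := by
  have hwc : ContinuousOn w (tsupport ψ) := fun y hy => (hw y hy).continuousAt.continuousWithinAt
  have hz := contDiff_zt (p0 := p0) (d := d) he hψ hw hχ
  refine continuous_of_tsupport fun x hx => ?_
  have hx1 : x ∈ tsupport (zt he p0 w ψ χ d) := by
    have h1 : tsupport (jj he p0 w ψ χ d) ⊆ tsupport (fderiv ℝ (zt he p0 w ψ χ d)) := by
      refine closure_mono fun x hx => ?_
      rw [Function.mem_support] at hx ⊢
      intro h0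
      apply hx
      unfold jj
      rw [h0]; rfl
    exact tsupport_fderiv_subset ℝ (h1 hx)
  have hx2 := (tsupport_zt he hwc hx1).1
  have h1 : ContinuousAt (fderiv ℝ (zt he p0 w ψ χ d)) x :=
    (hz.continuous_fderiv (by simp)).continuousAt
  have h2 : ContinuousAt (fun x : E => nn w (pr e he (x - p0))) x := by
    have h3 : ContinuousAt (fun x : E => pr e he (x - p0)) x := by fun_prop
    exact ContinuousAt.comp (g := nn w) (continuousAt_nn (hw _ hx2)) h3
  exact h1.clm_apply h2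

lemma hasCompactSupport_jj (he : ‖e‖ = 1) (hψc : HasCompactSupport ψ)
    (hwc : ContinuousOn w (tsupport ψ)) (hχ : tsupport χ ⊆ Icc (-1) 1) (hd : 0 < d) :
    HasCompactSupport (jj he p0 w ψ χ d) := by
  have h1 := (hasCompactSupport_zt (p0 := p0) he hψc hwc hχ hd).fderiv (𝕜 := ℝ)
  refine h1.mono fun x hx => ?_
  rw [Function.mem_support] at hx ⊢
  intro h0
  apply hx
  unfold jj
  rw [h0]; rfl

lemma integral_jj (he : ‖e‖ = 1) (hψ : ContDiff ℝ 1 ψ) (hψc : HasCompactSupport ψ)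
    (hw : ∀ y ∈ tsupport ψ, ContDiffAt ℝ 1 w y) (hχ : ContDiff ℝ 1 χ)
    (hχs : tsupport χ ⊆ Icc (-1) 1) (hd : 0 < d) :
    ∫ x, jj he p0 w ψ χ d x = d * (∫ s, χ s) * ∫ y, fderiv ℝ ψ y (pr e he (nn w y)) := by
  have hwc : ContinuousOn w (tsupport ψ) := fun y hy => (hw y hy).continuousAt.continuousWithinAt
  have hχc : HasCompactSupport χ := isCompact_Icc.of_isClosed_subset (isClosed_tsupport _) hχs
  have hint : Integrable (jj he p0 w ψ χ d) :=
    (continuous_jj he hψ hw hχ).integrable_of_hasCompactSupport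
      (hasCompactSupport_jj he hψc hwc hχs hd)
  have hmp := mp_Ph0 p0 e he
  have hme := me_Ph0 p0 e he
  rw [← hmp.integral_comp hme]
  have hint2 : Integrable (fun q : (ℝ ∙ e)ᗮ × ℝ => jj he p0 w ψ χ d (Ph0 p0 e q))
      ((volume : Measure (ℝ ∙ e)ᗮ).prod (volume : Measure ℝ)) :=
    (hmp.integrable_comp_emb hme).2 hint
  rw [Measure.volume_eq_prod, integral_prod _ hint2, ← integral_const_mul]
  refine integral_congr_ae (Eventually.of_forall fun y => ?_)
  simp only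
  by_cases hy : y ∈ tsupport ψ
  · have h1 : ∀ t : ℝ, jj he p0 w ψ χ d (Ph0 p0 e (y, t)) =
        ψ y * ‖e - ((gradient w y : (ℝ ∙ e)ᗮ) : E)‖ * (deriv χ (d⁻¹ * (t - w y)) * d⁻¹) +
          χ (d⁻¹ * (t - w y)) * fderiv ℝ ψ y (pr e he (nn w y)) := by
      intro t
      unfold jj
      rw [fderiv_zt_apply he t ((hψ.differentiable (by simp)) y)
        ((hw y hy).differentiableAt (by simp)) (hχ.differentiable (by simp)), pr_Ph0 he]
      simp only
      rw [inner_nn he, real_inner_self_eq_norm_sq, norm_nn he]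
      ring
    simp_rw [h1]
    have hχ'c : Continuous (deriv χ) := hχ.continuous_deriv (by simp)
    have haff : Continuous fun t : ℝ => d⁻¹ * (t - w y) := by fun_prop
    have hI1 : Integrable (fun t : ℝ => χ (d⁻¹ * (t - w y))) := by
      have h2 : Integrable χ := hχ.continuous.integrable_of_hasCompactSupport hχc
      exact ((h2.comp_mul_left' (inv_pos.2 hd).ne').comp_sub_right (w y))
    have hI2 : Integrable (fun t : ℝ => deriv χ (d⁻¹ * (t - w y))) := by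
      have h2 : Integrable (deriv χ) := hχ'c.integrable_of_hasCompactSupport hχc.deriv
      exact ((h2.comp_mul_left' (inv_pos.2 hd).ne').comp_sub_right (w y))
    rw [integral_add ((hI2.mul_const _).const_mul _) (hI1.mul_const _), integral_const_mul,
      integral_mul_const, integral_mul_const]
    have h3 : ∫ t : ℝ, deriv χ (d⁻¹ * (t - w y)) = 0 := by
      rw [integral_sub_right_eq_self (fun t => deriv χ (d⁻¹ * t)) (w y),
        Measure.integral_comp_mul_left]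
      have h4 : ∫ s, deriv χ s = 0 := by
        refine integral_eq_zero_of_hasDerivAt_of_integrable (f := χ)
          (fun x => ((hχ.differentiable (by simp)) x).hasDerivAt)
          (hχ'c.integrable_of_hasCompactSupport hχc.deriv)
          (hχ.continuous.integrable_of_hasCompactSupport hχc)
      rw [h4, smul_zero]
    have h5 : ∫ t : ℝ, χ (d⁻¹ * (t - w y)) = d * ∫ s, χ s := by
      rw [integral_sub_right_eq_self (fun t => χ (d⁻¹ * t)) (w y),
        Measure.integral_comp_mul_left, inv_inv, abs_of_pos hd, smul_eq_mul]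
    rw [h3, h5]
    ring
  · have h1 : ∀ t : ℝ, jj he p0 w ψ χ d (Ph0 p0 e (y, t)) = 0 := by
      intro t
      have h2 : Ph0 p0 e (y, t) ∉ tsupport (zt he p0 w ψ χ d) := by
        intro h3
        have := (tsupport_zt he hwc h3).1
        rw [pr_Ph0 he] at this
        exact hy this
      unfold jj
      rw [fderiv_of_notMem_tsupport ℝ h2]; rfl
    simp_rw [h1]
    have h3 : fderiv ℝ ψ y = 0 := fderiv_of_notMem_tsupport ℝ hy
    rw [h3]
    simp

lemma exists_bound_of_cs {F : Type*} [TopologicalSpace F] {G : Type*} [NormedAddCommGroup G]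
    {f : F → G} (hf : Continuous f) (hc : HasCompactSupport f) : ∃ C : ℝ, 0 ≤ C ∧ ∀ x, ‖f x‖ ≤ C := by
  obtain ⟨C, hC⟩ := hf.bounded_above_of_compact_support hc
  exact ⟨max C 0, le_max_right _ _, fun x => (hC x).trans (le_max_left _ _)⟩

/-- main estimate. -/
theorem GData.main (H : GData φ p0 e r K α R w) {r1 : ℝ} (hr1 : 0 < r1) (h16 : 16 * r1 ≤ r)
    (h16R : 16 * r1 ≤ R) (hψ : ContDiff ℝ 1 ψ) (hψc : HasCompactSupport ψ)
    (hψs : tsupport ψ ⊆ ball 0 r1) (hχ : ContDiff ℝ 1 χ)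
    (hχs : tsupport χ ⊆ Icc (-1) 1) (hχ0 : (0:ℝ) ∉ tsupport χ) :
    ∃ M : ℝ, 0 ≤ M ∧ ∀ d, 0 < d → d ≤ r1 →
      |d⁻¹ * (∫ x, ⟪gradient φ x, gradient (zt H.he p0 w ψ χ d) x⟫) -
        (∫ s, χ s) * ∫ y, fderiv ℝ ψ y (pr e H.he (nn w y))| ≤
      M * (d ^ (2 * α - 1) + d ^ α) := by
  have he := H.he
  have hsub : tsupport ψ ⊆ ball (0 : (ℝ ∙ e)ᗮ) r :=
    hψs.trans (ball_subset_ball (by linarith))
  have hw : ∀ y ∈ tsupport ψ, ContDiffAt ℝ 1 w y := fun y hy => H.contDiffAt_w (hsub hy)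
  have hwc : ContinuousOn w (tsupport ψ) := fun y hy => (hw y hy).continuousAt.continuousWithinAt
  have hχc : HasCompactSupport χ := isCompact_Icc.of_isClosed_subset (isClosed_tsupport _) hχs
  obtain ⟨Cψ, hCψ0, hCψ⟩ := exists_bound_of_cs hψ.continuous hψc
  obtain ⟨Cψ', hCψ'0, hCψ'⟩ := exists_bound_of_cs (hψ.continuous_fderiv (by simp))
    (hψc.fderiv (𝕜 := ℝ))
  obtain ⟨Cχ, hCχ0, hCχ⟩ := exists_bound_of_cs hχ.continuous hχc
  obtain ⟨Cχ', hCχ'0, hCχ'⟩ := exists_bound_of_cs (hχ.continuous_deriv (by simp)) hχc.deriv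
  have hfin : volume (tsupport ψ) < ⊤ := hψc.isCompact.measure_lt_top
  set V := (volume (tsupport ψ)).toReal with hV
  have hV0 : 0 ≤ V := ENNReal.toReal_nonneg
  refine ⟨2 * V * (Cψ * (Cχ' * (4 * K ^ 2)) + Cχ * (Cψ' * (2 * K))), by
    have := H.hK; positivity, fun d hd hdr => ?_⟩
  have hz := contDiff_zt (p0 := p0) (d := d) he hψ hw hχ
  have hzc := hasCompactSupport_zt (p0 := p0) he hψc hwc hχs hd
  set ζ := zt he p0 w ψ χ d with hζ
  -- integrability
  have hgm : Measurable (fun x => gradient φ x) :=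
    (InnerProductSpace.toDual ℝ E).symm.continuous.measurable.comp (measurable_fderiv ℝ φ)
  have hgn : ∀ x, ‖gradient φ x‖ ≤ 1 := by
    intro x
    rw [gradient, LinearIsometryEquiv.norm_map]
    simpa using norm_fderiv_le_of_lipschitz ℝ H.lip (x₀ := x)
  have hgζ : Continuous (fun x => gradient ζ x) :=
    (InnerProductSpace.toDual ℝ E).symm.continuous.comp (hz.continuous_fderiv (by simp))
  have hζn : Integrable (fun x => ‖gradient ζ x‖) := by
    refine hgζ.norm.integrable_of_hasCompactSupport ?_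
    refine (hzc.fderiv (𝕜 := ℝ)).mono fun x hx => ?_
    rw [Function.mem_support] at hx ⊢
    intro h0
    apply hx
    rw [gradient, h0, map_zero, norm_zero]
  have hI : Integrable (fun x => ⟪gradient φ x, gradient ζ x⟫) := by
    refine hζn.mono' (hgm.inner hgζ.measurable).aestronglyMeasurable
      (Eventually.of_forall fun x => ?_)
    refine (norm_inner_le_norm _ _).trans ?_
    have := mul_le_mul_of_nonneg_right (hgn x) (norm_nonneg (gradient ζ x))
    linarith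
  have hJ : Integrable (jj he p0 w ψ χ d) :=
    (continuous_jj he hψ hw hχ).integrable_of_hasCompactSupport
      (hasCompactSupport_jj he hψc hwc hχs hd)
  have hdiff : (∫ x, ⟪gradient φ x, gradient ζ x⟫) - ∫ x, jj he p0 w ψ χ d x =
      ∫ q : (ℝ ∙ e)ᗮ × ℝ, fderiv ℝ ζ (Ph0 p0 e q) (gradient φ (Ph0 p0 e q) - nn w q.1) := by
    rw [← integral_sub hI hJ, ← (mp_Ph0 p0 e he).integral_comp (me_Ph0 p0 e he)]
    refine integral_congr_ae (Eventually.of_forall fun q => ?_)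
    simp only [jj]
    rw [real_inner_comm, inner_grad', pr_Ph0 he, map_sub]
  -- the error bound
  set κ := 2 * K * d ^ α with hκ
  set b := Cψ * (Cχ' * (d⁻¹ * κ ^ 2)) + Cχ * (Cψ' * κ) with hb
  have hκ0 : 0 ≤ κ := by have := H.hK; positivity
  have hb0 : 0 ≤ b := by positivity
  have hdiffae : ∀ᵐ q : (ℝ ∙ e)ᗮ × ℝ, DifferentiableAt ℝ φ (Ph0 p0 e q) :=
    (mp_Ph0 p0 e he).quasiMeasurePreserving.ae H.lip.ae_differentiableAt
  have hunit : ∀ᵐ q : (ℝ ∙ e)ᗮ × ℝ, Ph0 p0 e q ∈ ball p0 R → ‖gradient φ (Ph0 p0 e q)‖ = 1 :=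
    (mp_Ph0 p0 e he).quasiMeasurePreserving.ae H.eik
  have hzero : ∀ q : (ℝ ∙ e)ᗮ × ℝ, q ∉ slab w ψ d →
      fderiv ℝ ζ (Ph0 p0 e q) (gradient φ (Ph0 p0 e q) - nn w q.1) = 0 := by
    intro q hq
    have h2 : Ph0 p0 e q ∉ tsupport ζ := by
      intro h3
      obtain ⟨h4, h5⟩ := tsupport_zt he hwc h3
      rw [pr_Ph0 he] at h4 h5
      rw [inner_Ph0 he] at h5
      apply hq
      refine ⟨h4, ?_⟩
      have h6 := hχs h5
      have h8 : |d⁻¹ * (q.2 - w q.1)| ≤ 1 := abs_le.2 ⟨h6.1, h6.2⟩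
      rw [abs_mul, abs_of_pos (inv_pos.2 hd), inv_mul_le_iff₀ hd, mul_one] at h8
      exact h8
    rw [fderiv_of_notMem_tsupport ℝ h2]; rfl
  have hbound : ∀ᵐ q : (ℝ ∙ e)ᗮ × ℝ, q ∈ slab w ψ d →
      ‖fderiv ℝ ζ (Ph0 p0 e q) (gradient φ (Ph0 p0 e q) - nn w q.1)‖ ≤ b := by
    filter_upwards [hdiffae, hunit] with q h1 h2 hq
    obtain ⟨y, t⟩ := q
    have hy : y ∈ tsupport ψ := hq.1
    have htd : |t - w y| ≤ d := hq.2
    have hyr1 : ‖y‖ < r1 := by simpa using hψs hy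
    have hyr : y ∈ ball (0 : (ℝ ∙ e)ᗮ) r := hsub hy
    have hwy : |w y| ≤ ‖y‖ / 4 := by
      have := H.wl y hyr 0 (by simpa using H.hr)
      rwa [H.w0, sub_zero, sub_zero] at this
    have htt : |t| ≤ d + r1 := by
      have h3 : |t| ≤ |t - w y| + |w y| := by
        have := abs_add_le (t - w y) (w y)
        simpa using this
      have := norm_nonneg y
      linarith
    have h4 : 4 * (‖y‖ + |t|) < r := by linarith
    have h5 : ‖y‖ + |t| < R := by linarith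
    by_cases hts : Ph0 p0 e (y, t) ∈ tsupport ζ
    · have hne : t ≠ w y := by
        intro h6
        obtain ⟨-, h7⟩ := tsupport_zt he hwc hts
        rw [pr_Ph0 he, inner_Ph0 he] at h7
        simp only [h6, sub_self, mul_zero] at h7
        exact hχ0 h7
      have hcl := H.close h4 h5 htd hne h1
      have hball : Ph0 p0 e (y, t) ∈ ball p0 R := by
        rw [mem_ball, dist_eq_norm]
        unfold Ph0
        rw [add_sub_cancel_left]
        refine (norm_add_le _ _).trans_lt ?_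
        rw [norm_smul, he, mul_one, Real.norm_eq_abs]
        exact h5
      have hg1 := h2 hball
      rw [Real.norm_eq_abs]
      exact err_bound he ((hψ.differentiable (by simp)) y) (H.wd y hyr).1 (H.wd y hyr).2
        (hχ.differentiable (by simp)) (by simpa using hCψ y) (hCψ' y)
        (fun s => by simpa using hCχ s) (fun s => by simpa using hCχ' s) hd hg1 hcl
    · rw [fderiv_of_notMem_tsupport ℝ hts]
      simpa using hb0
  have herr : |(∫ x, ⟪gradient φ x, gradient ζ x⟫) - ∫ x, jj he p0 w ψ χ d x| ≤ b * (2 * d * V) := by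
    rw [hdiff, ← setIntegral_eq_integral_of_forall_compl_eq_zero (s := slab w ψ d) hzero]
    have hvs := volume_slab (d := d) hwc
    have hlt : volume (slab w ψ d) < ⊤ :=
      hvs.trans_lt (ENNReal.mul_lt_top ENNReal.ofReal_lt_top hfin)
    have h1 := norm_setIntegral_le_of_norm_le_const_ae' (C := b) hlt hbound
    rw [Real.norm_eq_abs] at h1
    refine h1.trans (mul_le_mul_of_nonneg_left ?_ hb0)
    have h2 : (volume (slab w ψ d)).toReal ≤
        (ENNReal.ofReal (2 * d) * volume (tsupport ψ)).toReal :=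
      ENNReal.toReal_mono (ENNReal.mul_lt_top ENNReal.ofReal_lt_top hfin).ne hvs
    rw [ENNReal.toReal_mul, ENNReal.toReal_ofReal (by positivity)] at h2
    exact h2
  rw [integral_jj he hψ hψc hw hχ hχs hd] at herr
  have h1 : d⁻¹ * (∫ x, ⟪gradient φ x, gradient ζ x⟫) -
      (∫ s, χ s) * ∫ y, fderiv ℝ ψ y (pr e he (nn w y)) =
      d⁻¹ * ((∫ x, ⟪gradient φ x, gradient ζ x⟫) -
        d * (∫ s, χ s) * ∫ y, fderiv ℝ ψ y (pr e he (nn w y))) := by
    field_simp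
  rw [h1, abs_mul, abs_of_pos (inv_pos.2 hd)]
  have h2 : d⁻¹ * (b * (2 * d * V)) = 2 * V * b := by field_simp
  refine (mul_le_mul_of_nonneg_left herr (inv_pos.2 hd).le).trans ?_
  rw [h2]
  have h3 : d⁻¹ * κ ^ 2 = 4 * K ^ 2 * d ^ (2 * α - 1) := by
    rw [hκ, mul_pow, mul_pow, ← Real.rpow_natCast (d ^ α) 2, ← Real.rpow_mul hd.le,
      Real.rpow_sub hd, Real.rpow_one]
    push_cast
    rw [mul_comm α 2]
    ring
  have h4 : b ≤ (Cψ * (Cχ' * (4 * K ^ 2)) + Cχ * (Cψ' * (2 * K))) * (d ^ (2 * α - 1) + d ^ α) := by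
    rw [hb, h3, hκ]
    have a1 : 0 ≤ d ^ (2 * α - 1) := by positivity
    have a2 : 0 ≤ d ^ α := by positivity
    have a3 := H.hK
    have a4 : 0 ≤ Cψ * (Cχ' * (4 * K ^ 2)) * d ^ α := by positivity
    have a5 : 0 ≤ Cχ * (Cψ' * (2 * K)) * d ^ (2 * α - 1) := by positivity
    nlinarith
  calc 2 * V * b ≤ 2 * V * ((Cψ * (Cχ' * (4 * K ^ 2)) + Cχ * (Cψ' * (2 * K))) *
        (d ^ (2 * α - 1) + d ^ α)) := mul_le_mul_of_nonneg_left h4 (by positivity)
    _ = _ := by ring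

/-- `0 ≤ ∫ ⟪∇φ, ∇ζ⟫` for `C¹` nonnegative compactly supported `ζ`. -/
def Sup1 (V : Set E) (φ : E → ℝ) : Prop :=
  ∀ ζ : E → ℝ, ContDiff ℝ 1 ζ → HasCompactSupport ζ → tsupport ζ ⊆ V → (∀ x, 0 ≤ ζ x) →
    0 ≤ ∫ x, ⟪gradient φ x, gradient ζ x⟫

/-- `∫ ⟪∇φ, ∇ζ⟫ ≤ 0` for `C¹` nonnegative compactly supported `ζ`. -/
def Sub1 (V : Set E) (φ : E → ℝ) : Prop :=
  ∀ ζ : E → ℝ, ContDiff ℝ 1 ζ → HasCompactSupport ζ → tsupport ζ ⊆ V → (∀ x, 0 ≤ ζ x) →
    ∫ x, ⟪gradient φ x, gradient ζ x⟫ ≤ 0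

lemma integrable_A (he : ‖e‖ = 1) (hψ : ContDiff ℝ 1 ψ) (hψc : HasCompactSupport ψ)
    (hw : ∀ y ∈ tsupport ψ, ContDiffAt ℝ 1 w y) :
    Integrable fun y => fderiv ℝ ψ y (pr e he (nn w y)) := by
  have hsub : ∀ y, y ∈ tsupport (fun y => fderiv ℝ ψ y (pr e he (nn w y))) → y ∈ tsupport ψ := by
    intro y hy
    have h1 : tsupport (fun y => fderiv ℝ ψ y (pr e he (nn w y))) ⊆ tsupport (fderiv ℝ ψ) := by
      refine closure_mono fun x hx => ?_
      rw [Function.mem_support] at hx ⊢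
      intro h0; apply hx; rw [h0]; rfl
    exact tsupport_fderiv_subset ℝ (h1 hy)
  have hcont : Continuous fun y => fderiv ℝ ψ y (pr e he (nn w y)) := by
    refine continuous_of_tsupport fun y hy => ?_
    have h1 : ContinuousAt (fderiv ℝ ψ) y := (hψ.continuous_fderiv (by simp)).continuousAt
    have h2 : ContinuousAt (fun y => pr e he (nn w y)) y :=
      (pr e he).continuous.continuousAt.comp (continuousAt_nn (hw y (hsub y hy)))
    exact h1.clm_apply h2
  exact hcont.integrable_of_hasCompactSupport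
    (hψc.isCompact.of_isClosed_subset (isClosed_tsupport _) hsub)

lemma tendsto_err {α M : ℝ} (hα : 1 / 2 < α) :
    Tendsto (fun d : ℝ => M * (d ^ (2 * α - 1) + d ^ α)) (𝓝[>] 0) (𝓝 0) := by
  have h1 : Continuous fun d : ℝ => M * (d ^ (2 * α - 1) + d ^ α) :=
    continuous_const.mul ((Real.continuous_rpow_const (by linarith)).add
      (Real.continuous_rpow_const (by linarith)))
  have h2 := h1.tendsto 0
  rw [Real.zero_rpow (by linarith), Real.zero_rpow (by linarith), add_zero, mul_zero] at h2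
  exact h2.mono_left nhdsWithin_le_nhds

/-- the inequality for nonnegative `ψ`. -/
lemma GData.A_eq_zero (H : GData φ p0 e r K α R w) (hα2 : 1 / 2 < α)
    (hsup : Sup1 (ball p0 R ∩ {x | 0 < φ x}) φ) (hsub : Sub1 (ball p0 R ∩ {x | φ x < 0}) φ)
    {r1 : ℝ} (hr1 : 0 < r1) (h16 : 16 * r1 ≤ r) (h16R : 16 * r1 ≤ R) (hψ : ContDiff ℝ 1 ψ)
    (hψc : HasCompactSupport ψ) (hψs : tsupport ψ ⊆ ball 0 r1) (hψ0 : ∀ y, 0 ≤ ψ y) :
    ∫ y, fderiv ℝ ψ y (pr e H.he (nn w y)) = 0 := by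
  have he := H.he
  have hsubs : tsupport ψ ⊆ ball (0 : (ℝ ∙ e)ᗮ) r := hψs.trans (ball_subset_ball (by linarith))
  have hw : ∀ y ∈ tsupport ψ, ContDiffAt ℝ 1 w y := fun y hy => H.contDiffAt_w (hsubs hy)
  have hwc : ContinuousOn w (tsupport ψ) := fun y hy => (hw y hy).continuousAt.continuousWithinAt
  -- geometry of the supports
  have hgeo : ∀ (χ : ℝ → ℝ), tsupport χ ⊆ Icc (-1) 1 → ∀ d, 0 < d → d ≤ r1 →
      ∀ x ∈ tsupport (zt he p0 w ψ χ d), x ∈ ball p0 R ∧ ∃ s ∈ tsupport χ,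
        SignType.sign (φ x) = SignType.sign s := by
    intro χ hχs d hd hdr x hx
    obtain ⟨h1, h2⟩ := tsupport_zt he hwc hx
    set y := pr e he (x - p0) with hy
    set t := ⟪e, x - p0⟫ with ht
    have hyr1 : ‖y‖ < r1 := by simpa using hψs h1
    have hwy : |w y| ≤ ‖y‖ / 4 := by
      have := H.wl y (hsubs h1) 0 (by simpa using H.hr)
      rwa [H.w0, sub_zero, sub_zero] at this
    have h6 := hχs h2
    have htd : |t - w y| ≤ d := by
      have h8 : |d⁻¹ * (t - w y)| ≤ 1 := abs_le.2 ⟨h6.1, h6.2⟩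
      rw [abs_mul, abs_of_pos (inv_pos.2 hd), inv_mul_le_iff₀ hd, mul_one] at h8
      exact h8
    have htt : |t| ≤ d + r1 := by
      have h3 : |t| ≤ |t - w y| + |w y| := by
        have := abs_add_le (t - w y) (w y)
        simpa using this
      have := norm_nonneg y
      linarith
    have hx2 : Ph0 p0 e (y, t) = x := Ph0_pr he p0 x
    constructor
    · rw [mem_ball, dist_eq_norm, ← hx2]
      unfold Ph0
      rw [add_sub_cancel_left]
      refine (norm_add_le _ _).trans_lt ?_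
      rw [norm_smul, he, mul_one, Real.norm_eq_abs]
      have h9 : ‖((y : (ℝ ∙ e)ᗮ) : E)‖ < r1 := hyr1
      simp only
      linarith
    · refine ⟨_, h2, ?_⟩
      rw [← hx2, H.sgn' (by linarith) (by linarith), sign_mul, sign_pos (inv_pos.2 hd), one_mul]
  apply le_antisymm
  · -- subharmonic side
    let f : ContDiffBump (-(1/2) : ℝ) := ⟨1 / 8, 1 / 4, by norm_num, by norm_num⟩
    have hfs : tsupport f = closedBall (-(1/2) : ℝ) (1/4) := f.tsupport_eq
    have hf1 : tsupport f ⊆ Icc (-1) 1 := by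
      rw [hfs, Real.closedBall_eq_Icc]
      exact Icc_subset_Icc (by norm_num) (by norm_num)
    have hf0 : (0:ℝ) ∉ tsupport f := by
      rw [hfs, Real.closedBall_eq_Icc]
      intro h; have := h.2; norm_num at this
    have hfneg : ∀ s ∈ tsupport f, s < 0 := by
      intro s hs
      rw [hfs, Real.closedBall_eq_Icc] at hs
      have := hs.2; norm_num at this; linarith
    obtain ⟨M, hM0, hM⟩ := H.main hr1 h16 h16R hψ hψc hψs (f.contDiff (n := 1)) hf1 hf0
    have hpos : 0 < ∫ s, f s := f.integral_pos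
    have hlim : (∫ s, f s) * (∫ y, fderiv ℝ ψ y (pr e H.he (nn w y))) ≤ 0 := by
      refine ge_of_tendsto (tendsto_err (M := M) hα2) ?_
      filter_upwards [Ioo_mem_nhdsGT hr1] with d hd
      have h1 := (abs_le.1 (hM d hd.1 hd.2.le)).1
      have h2 : ∫ x, ⟪gradient φ x, gradient (zt H.he p0 w ψ f d) x⟫ ≤ 0 := by
        refine hsub _ (contDiff_zt he hψ hw (f.contDiff (n := 1)))
          (hasCompactSupport_zt he hψc hwc hf1 hd.1) ?_ ?_
        · intro x hx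
          obtain ⟨h3, s, hs, h4⟩ := hgeo f hf1 d hd.1 hd.2.le x hx
          refine ⟨h3, ?_⟩
          rw [sign_neg (hfneg s hs)] at h4
          exact sign_eq_neg_one_iff.1 h4
        · intro x
          exact mul_nonneg (hψ0 _) f.nonneg
      have h3 : d⁻¹ * ∫ x, ⟪gradient φ x, gradient (zt H.he p0 w ψ f d) x⟫ ≤ 0 :=
        mul_nonpos_of_nonneg_of_nonpos (inv_pos.2 hd.1).le h2
      linarith
    by_contra hcon
    push Not at hcon
    have := mul_pos hpos hcon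
    linarith
  · let f : ContDiffBump (1/2 : ℝ) := ⟨1 / 8, 1 / 4, by norm_num, by norm_num⟩
    have hfs : tsupport f = closedBall (1/2 : ℝ) (1/4) := f.tsupport_eq
    have hf1 : tsupport f ⊆ Icc (-1) 1 := by
      rw [hfs, Real.closedBall_eq_Icc]
      exact Icc_subset_Icc (by norm_num) (by norm_num)
    have hf0 : (0:ℝ) ∉ tsupport f := by
      rw [hfs, Real.closedBall_eq_Icc]
      intro h; have := h.1; norm_num at this
    have hfpos : ∀ s ∈ tsupport f, 0 < s := by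
      intro s hs
      rw [hfs, Real.closedBall_eq_Icc] at hs
      have := hs.1; norm_num at this; linarith
    obtain ⟨M, hM0, hM⟩ := H.main hr1 h16 h16R hψ hψc hψs (f.contDiff (n := 1)) hf1 hf0
    have hpos : 0 < ∫ s, f s := f.integral_pos
    have hlim : -((∫ s, f s) * (∫ y, fderiv ℝ ψ y (pr e H.he (nn w y)))) ≤ 0 := by
      refine ge_of_tendsto (tendsto_err (M := M) hα2) ?_
      filter_upwards [Ioo_mem_nhdsGT hr1] with d hd
      have h1 := (abs_le.1 (hM d hd.1 hd.2.le)).2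
      have h2 : 0 ≤ ∫ x, ⟪gradient φ x, gradient (zt H.he p0 w ψ f d) x⟫ := by
        refine hsup _ (contDiff_zt he hψ hw (f.contDiff (n := 1)))
          (hasCompactSupport_zt he hψc hwc hf1 hd.1) ?_ ?_
        · intro x hx
          obtain ⟨h3, s, hs, h4⟩ := hgeo f hf1 d hd.1 hd.2.le x hx
          refine ⟨h3, ?_⟩
          rw [sign_pos (hfpos s hs)] at h4
          exact sign_eq_one_iff.1 h4
        · intro x
          exact mul_nonneg (hψ0 _) f.nonneg
      have h3 : 0 ≤ d⁻¹ * ∫ x, ⟪gradient φ x, gradient (zt H.he p0 w ψ f d) x⟫ :=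
        mul_nonneg (inv_pos.2 hd.1).le h2
      linarith
    by_contra hcon
    push Not at hcon
    have := mul_neg_of_pos_of_neg hpos hcon
    linarith

/-- **H2a**: the graph solves the minimal surface equation weakly. -/
theorem GData.weak_mse (H : GData φ p0 e r K α R w) (hα2 : 1 / 2 < α)
    (hsup : Sup1 (ball p0 R ∩ {x | 0 < φ x}) φ) (hsub : Sub1 (ball p0 R ∩ {x | φ x < 0}) φ)
    {r1 : ℝ} (hr1 : 0 < r1) (h16 : 16 * r1 ≤ r) (h16R : 16 * r1 ≤ R) (hψ : ContDiff ℝ 1 ψ)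
    (hψc : HasCompactSupport ψ) (hψs : tsupport ψ ⊆ ball 0 r1) :
    ∫ y, (Real.sqrt (1 + ‖gradient w y‖ ^ 2))⁻¹ * ⟪gradient w y, gradient ψ y⟫ = 0 := by
  have he := H.he
  have key : ∫ y, fderiv ℝ ψ y (pr e he (nn w y)) = 0 := by
    obtain ⟨r2, hr2, hsub2⟩ := exists_lt_subset_ball (isClosed_tsupport ψ) hψs
    set r3 := max r2 (r1 / 2) with hr3
    have hr3p : 0 < r3 := lt_max_of_lt_right (by linarith)
    have hr31 : r3 < r1 := max_lt hr2 (by linarith)
    let f : ContDiffBump (0 : (ℝ ∙ e)ᗮ) := ⟨r3, (r3 + r1) / 2, hr3p, by linarith⟩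
    obtain ⟨M, hM0, hM⟩ := exists_bound_of_cs hψ.continuous hψc
    have hfs : tsupport f ⊆ ball 0 r1 := by
      rw [f.tsupport_eq]
      exact closedBall_subset_ball (by show (r3 + r1) / 2 < r1; linarith)
    have hfc : ContDiff ℝ 1 f := f.contDiff
    have hf2c : ContDiff ℝ 1 fun y => M * f y := contDiff_const.mul hfc
    have hf2s : HasCompactSupport fun y => M * f y := f.hasCompactSupport.mul_left
    have hf2t : tsupport (fun y => M * f y) ⊆ ball 0 r1 :=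
      (tsupport_mul_subset_right).trans hfs
    have hψ1c : ContDiff ℝ 1 fun y => ψ y + M * f y := hψ.add hf2c
    have hψ1s : HasCompactSupport fun y => ψ y + M * f y := hψc.add hf2s
    have hψ1t : tsupport (fun y => ψ y + M * f y) ⊆ ball 0 r1 := by
      refine (tsupport_add (f := ψ) (g := fun y => M * f y)).trans (union_subset hψs hf2t)
    have h1 := H.A_eq_zero hα2 hsup hsub hr1 h16 h16R hψ1c hψ1s hψ1t (by
      intro y
      by_cases hy : y ∈ tsupport ψ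
      · have h2 : f y = 1 := by
          refine f.one_of_mem_closedBall ?_
          exact ball_subset_closedBall (ball_subset_ball (le_max_left _ _) (hsub2 hy))
        have h3 := hM y
        rw [Real.norm_eq_abs] at h3
        rw [h2]
        linarith [(abs_le.1 h3).1]
      · rw [image_eq_zero_of_notMem_tsupport hy, zero_add]
        exact mul_nonneg hM0 f.nonneg)
    have h2 := H.A_eq_zero hα2 hsup hsub hr1 h16 h16R hf2c hf2s hf2t (by
      intro y; exact mul_nonneg hM0 f.nonneg)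
    have hsubs : ∀ {g : (ℝ ∙ e)ᗮ → ℝ}, tsupport g ⊆ ball (0 : (ℝ ∙ e)ᗮ) r1 →
        ∀ y ∈ tsupport g, ContDiffAt ℝ 1 w y := fun hg y hy =>
      H.contDiffAt_w (ball_subset_ball (by linarith) (hg hy))
    have h3 : ∀ y, fderiv ℝ (fun y => ψ y + M * f y) y (pr e he (nn w y)) =
        fderiv ℝ ψ y (pr e he (nn w y)) + fderiv ℝ (fun y => M * f y) y (pr e he (nn w y)) := by
      intro y
      rw [fderiv_fun_add ((hψ.differentiable (by simp)) y) ((hf2c.differentiable (by simp)) y)]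
      rfl
    simp_rw [h3] at h1
    rw [integral_add (integrable_A he hψ hψc (hsubs hψs)) (integrable_A he hf2c hf2s (hsubs hf2t)),
      h2, add_zero] at h1
    exact h1
  have h4 : ∀ y, (Real.sqrt (1 + ‖gradient w y‖ ^ 2))⁻¹ * ⟪gradient w y, gradient ψ y⟫ =
      -fderiv ℝ ψ y (pr e he (nn w y)) := by
    intro y
    have h5 : pr e he (nn w y) = -(aa w y • gradient w y) := by
      unfold nn
      rw [map_smul, map_sub]
      have h6 : pr e he e = 0 := by
        have := pr_of he 0 1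
        simpa using this
      have h7 : pr e he ((gradient w y : (ℝ ∙ e)ᗮ) : E) = gradient w y := by
        have := pr_of he (gradient w y) 0
        simpa using this
      rw [h6, h7, zero_sub, smul_neg]
    rw [h5, map_neg, map_smul, neg_neg, real_inner_comm, inner_grad', smul_eq_mul]
    rfl
  simp_rw [h4]
  rw [integral_neg, key, neg_zero]

end Tub

end Crest.Agent.R246.Mg295
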