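import Mathlib.Analysis.InnerProductSpace.Calculus
import Mathlib.Analysis.InnerProductSpace.Adjoint
import Mathlib.Analysis.Calculus.MeanValue
import Mathlib.Analysis.Calculus.Deriv.MeanValue
import Mathlib.Analysis.Calculus.Deriv.Pow
import Mathlib.Analysis.Calculus.Deriv.Mul
import Mathlib.Topology.ContinuousMap.Compact
import Mathlib.Analysis.Normed.Operator.Compact.Basic

/-!
# One-gradient-step odd min-max theorem (R246, part D)

For an even functional with globally Lipschitz gradient on a Hilbert space the usual deformation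
lemma is replaced by one step of gradient descent.
-/

set_option autoImplicit false
set_option linter.unusedSectionVars false

open Set Filter Topology

namespace Crest.Agent.R246.MinMax480

section Abstract

variable {H : Type*} [NormedAddCommGroup H] [InnerProductSpace ℝ H]

/-- `g` is the gradient of `E`. -/
def IsGrad (E : H → ℝ) (g : H → H) : Prop :=
  ∀ u, HasFDerivAt E (innerSL ℝ (g u)) u

/-- Descent lemma. -/
theorem descent {E : H → ℝ} {g : H → H} (hE : IsGrad E g) {L : ℝ} (hL : 0 < L)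
    (hg : ∀ u v, ‖g u - g v‖ ≤ L * ‖u - v‖) (u : H) :
    E (u - (1 / L) • g u) ≤ E u - ‖g u‖ ^ 2 / (2 * L) := by
  -- auxiliary function
  let φ : ℝ → ℝ := fun t => E (u - t • g u) + t * ‖g u‖ ^ 2 - L * t ^ 2 / 2 * ‖g u‖ ^ 2
  have hd : ∀ t : ℝ, HasDerivAt φ
      (inner ℝ (g (u - t • g u)) (-(g u)) + ‖g u‖ ^ 2 - L * t * ‖g u‖ ^ 2) t := by
    intro t
    have h1 : HasDerivAt (fun t : ℝ => u - t • g u) (-(g u)) t := by
      have := ((hasDerivAt_id t).smul_const (g u)).const_sub u
      simpa using this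
    have h2 : HasDerivAt (fun t : ℝ => E (u - t • g u))
        (inner ℝ (g (u - t • g u)) (-(g u))) t := by
      have := (hE (u - t • g u)).comp_hasDerivAt t h1
      simpa [Function.comp_def] using this
    have h3 : HasDerivAt (fun t : ℝ => t * ‖g u‖ ^ 2) (‖g u‖ ^ 2) t := by
      simpa using (hasDerivAt_id t).mul_const (‖g u‖ ^ 2)
    have h4 : HasDerivAt (fun t : ℝ => L * t ^ 2 / 2 * ‖g u‖ ^ 2) (L * t * ‖g u‖ ^ 2) t := by
      have h5 := (((hasDerivAt_pow 2 t).const_mul L).div_const 2).mul_const (‖g u‖ ^ 2)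
      have h6 : L * t * ‖g u‖ ^ 2 = L * (((2 : ℕ) : ℝ) * t ^ (2 - 1)) / 2 * ‖g u‖ ^ 2 := by
        have h7 : ((2 : ℕ) : ℝ) * t ^ (2 - 1) = 2 * t := by norm_num
        rw [h7]
        ring
      rw [h6]
      exact h5
    exact (h2.add h3).sub h4
  have hanti : AntitoneOn φ (Icc 0 (1 / L)) := by
    apply antitoneOn_of_deriv_nonpos (convex_Icc _ _)
    · exact fun t _ => (hd t).continuousAt.continuousWithinAt
    · exact fun t _ => (hd t).differentiableAt.differentiableWithinAt
    · intro t ht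
      rw [interior_Icc] at ht
      rw [(hd t).deriv]
      have h6 : inner ℝ (g (u - t • g u)) (-(g u)) ≤ -‖g u‖ ^ 2 + L * t * ‖g u‖ ^ 2 := by
        have h7 : inner ℝ (g (u - t • g u)) (-(g u))
            = -‖g u‖ ^ 2 + inner ℝ (g u - g (u - t • g u)) (g u) := by
          rw [inner_sub_left, inner_neg_right, real_inner_self_eq_norm_sq]
          ring
        rw [h7]
        have h8 : inner ℝ (g u - g (u - t • g u)) (g u)
            ≤ ‖g u - g (u - t • g u)‖ * ‖g u‖ := real_inner_le_norm _ _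
        have h9 : ‖g u - g (u - t • g u)‖ ≤ L * (t * ‖g u‖) := by
          refine (hg _ _).trans (le_of_eq ?_)
          rw [sub_sub_cancel, norm_smul, Real.norm_of_nonneg ht.1.le]
        have h10 : ‖g u - g (u - t • g u)‖ * ‖g u‖ ≤ L * (t * ‖g u‖) * ‖g u‖ :=
          mul_le_mul_of_nonneg_right h9 (norm_nonneg _)
        nlinarith
      linarith
  have h := hanti (left_mem_Icc.2 (by positivity)) (right_mem_Icc.2 (by positivity))
    (by positivity : (0 : ℝ) ≤ 1 / L)
  have e0 : φ 0 = E u := by simp [φ]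
  have e1 : φ (1 / L) = E (u - (1 / L) • g u) + ‖g u‖ ^ 2 / (2 * L) := by
    simp only [φ]
    field_simp
    ring
  rw [e0, e1] at h
  linarith

/-- An even functional has an odd gradient. -/
theorem grad_odd {E : H → ℝ} {g : H → H} (hE : IsGrad E g) (hev : ∀ u, E (-u) = E u) (u : H) :
    g (-u) = -(g u) := by
  have h1 : HasFDerivAt E (innerSL ℝ (g (-u))) (-u) := hE (-u)
  have h2 : HasFDerivAt (fun v : H => -v) (-(ContinuousLinearMap.id ℝ H)) u :=
    (hasFDerivAt_id u).neg
  have h3 : HasFDerivAt (fun v : H => E (-v))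
      ((innerSL ℝ (g (-u))).comp (-(ContinuousLinearMap.id ℝ H))) u := h1.comp u h2
  have h4 : HasFDerivAt E ((innerSL ℝ (g (-u))).comp (-(ContinuousLinearMap.id ℝ H))) u := by
    simpa [hev] using h3
  have h5 := h4.unique (hE u)
  have h6 : ∀ v, inner ℝ (g (-u) + g u) v = 0 := by
    intro v
    have := congrArg (fun T : H →L[ℝ] ℝ => T v) h5
    simp at this
    rw [inner_add_left]
    linarith
  have h7 := h6 (g (-u) + g u)
  rw [inner_self_eq_zero] at h7
  exact eq_neg_of_add_eq_zero_left h7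

variable {X : Type*} [TopologicalSpace X]

/-- Odd continuous families over a space with an involution. -/
def Fam (a : X → X) : Set (C(X, H)) := {γ | ∀ x, γ (a x) = -(γ x)}

/-- The min-max level `inf_γ max_x E (γ x)`. -/
noncomputable def level (a : X → X) (E : H → ℝ) : ℝ :=
  sInf {M : ℝ | ∃ γ ∈ (Fam a : Set (C(X, H))), ∀ x, E (γ x) ≤ M}

theorem level_le {a : X → X} {E : H → ℝ} {m : ℝ} (hm : ∀ u, m ≤ E u) [Nonempty X]
    {γ : C(X, H)} (hγ : γ ∈ (Fam a : Set (C(X, H)))) {M : ℝ} (hM : ∀ x, E (γ x) ≤ M) :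
    level (H := H) a E ≤ M := by
  apply csInf_le
  · refine ⟨m, ?_⟩
    rintro M' ⟨γ', -, h'⟩
    obtain ⟨x⟩ := ‹Nonempty X›
    exact (hm _).trans (h' x)
  · exact ⟨γ, hγ, hM⟩

/-- Lower bound of the level: if every odd family has a member with `E ≥ b`. -/
theorem le_level {a : X → X} {E : H → ℝ} {b : ℝ} [CompactSpace X] [Nonempty X]
    (hne : (Fam a : Set (C(X, H))).Nonempty) (hEc : Continuous E)
    (hb : ∀ γ ∈ (Fam a : Set (C(X, H))), ∃ x, b ≤ E (γ x)) :
    b ≤ level (H := H) a E := by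
  apply le_csInf
  · obtain ⟨γ, hγ⟩ := hne
    obtain ⟨M, hM⟩ := (isCompact_range (hEc.comp γ.continuous)).bddAbove
    exact ⟨M, γ, hγ, fun x => hM ⟨x, rfl⟩⟩
  · rintro M ⟨γ, hγ, h⟩
    obtain ⟨x, hx⟩ := hb γ hγ
    exact hx.trans (h x)

/-- The Palais–Smale condition at level `c`. -/
def PS (E : H → ℝ) (g : H → H) (c : ℝ) : Prop :=
  ∀ v : ℕ → H, Tendsto (fun k => E (v k)) atTop (𝓝 c) → Tendsto (fun k => g (v k)) atTop (𝓝 0) →
    ∃ (u : H) (s : ℕ → ℕ), StrictMono s ∧ Tendsto (fun k => v (s k)) atTop (𝓝 u)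

/-- **Odd min-max theorem.** -/
theorem exists_critical [CompactSpace X] [Nonempty X] {a : X → X} {E : H → ℝ} {g : H → H}
    (hE : IsGrad E g) (hev : ∀ u, E (-u) = E u) {L : ℝ} (hL : 0 < L)
    (hg : ∀ u v, ‖g u - g v‖ ≤ L * ‖u - v‖) {m : ℝ} (hm : ∀ u, m ≤ E u)
    (hne : (Fam a : Set (C(X, H))).Nonempty) (hPS : PS E g (level (H := H) a E)) :
    ∃ u : H, g u = 0 ∧ E u = level (H := H) a E := by
  set c := level (H := H) a E with hc
  have hEc : Continuous E := continuous_iff_continuousAt.2 fun u => (hE u).continuousAt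
  have hgc : Continuous g := by
    have : LipschitzWith (Real.toNNReal L) g := by
      apply LipschitzWith.of_dist_le_mul
      intro u v
      rw [dist_eq_norm, dist_eq_norm, Real.coe_toNNReal L hL.le]
      exact hg u v
    exact this.continuous
  by_contra hcon
  push Not at hcon
  -- uniform lower bound for the gradient near level c
  have key : ∃ δ > 0, ∀ u, |E u - c| ≤ δ → δ ≤ ‖g u‖ := by
    by_contra hno
    push Not at hno
    have hv : ∀ k : ℕ, ∃ u, |E u - c| ≤ 1 / ((k : ℝ) + 1) ∧ ‖g u‖ < 1 / ((k : ℝ) + 1) :=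
      fun k => hno _ (by positivity)
    choose v hv1 hv2 using hv
    have t0 : Tendsto (fun k : ℕ => 1 / ((k : ℝ) + 1)) atTop (𝓝 0) :=
      tendsto_one_div_add_atTop_nhds_zero_nat
    have t1 : Tendsto (fun k => E (v k)) atTop (𝓝 c) := by
      rw [tendsto_iff_dist_tendsto_zero]
      refine squeeze_zero (fun _ => dist_nonneg) (fun k => ?_) t0
      rw [Real.dist_eq]
      exact hv1 k
    have t2 : Tendsto (fun k => g (v k)) atTop (𝓝 0) := by
      rw [tendsto_zero_iff_norm_tendsto_zero]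
      exact squeeze_zero (fun _ => norm_nonneg _) (fun k => (hv2 k).le) t0
    obtain ⟨u, s, hs, hu⟩ := hPS v t1 t2
    have e1 : g u = 0 :=
      tendsto_nhds_unique ((hgc.tendsto u).comp hu) (t2.comp hs.tendsto_atTop)
    have e2 : E u = c :=
      tendsto_nhds_unique ((hEc.tendsto u).comp hu) (t1.comp hs.tendsto_atTop)
    exact hcon u e1 e2
  obtain ⟨δ, hδ, hδg⟩ := key
  -- the descent amount
  set q : ℝ := min δ (δ ^ 2 / (2 * L)) / 2 with hq
  have hq0 : 0 < q := by positivity
  have hq1 : q < δ := by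
    have : min δ (δ ^ 2 / (2 * L)) ≤ δ := min_le_left _ _
    rw [hq]; linarith
  have hq2 : 2 * q ≤ δ ^ 2 / (2 * L) := by
    have : min δ (δ ^ 2 / (2 * L)) ≤ δ ^ 2 / (2 * L) := min_le_right _ _
    rw [hq]; linarith
  -- an almost optimal family
  have hset : ({M : ℝ | ∃ γ ∈ (Fam a : Set (C(X, H))), ∀ x, E (γ x) ≤ M}).Nonempty := by
    obtain ⟨γ, hγ⟩ := hne
    obtain ⟨M, hM⟩ := (isCompact_range (hEc.comp γ.continuous)).bddAbove
    exact ⟨M, γ, hγ, fun x => hM ⟨x, rfl⟩⟩
  obtain ⟨M, ⟨γ, hγ, hγM⟩, hM⟩ := exists_lt_of_csInf_lt hset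
    (show sInf {M : ℝ | ∃ γ ∈ (Fam a : Set (C(X, H))), ∀ x, E (γ x) ≤ M} < c + q by
      have : sInf {M : ℝ | ∃ γ ∈ (Fam a : Set (C(X, H))), ∀ x, E (γ x) ≤ M} = c := by
        rw [hc]; rfl
      rw [this]; linarith)
  -- one gradient step
  let η : C(H, H) := ⟨fun u => u - (1 / L) • g u, by fun_prop⟩
  have hη : (η.comp γ) ∈ (Fam a : Set (C(X, H))) := by
    intro x
    show γ (a x) - (1 / L) • g (γ (a x)) = -(γ x - (1 / L) • g (γ x))
    rw [hγ x, grad_odd hE hev]
    simp [sub_eq_add_neg, add_comm]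
  have hηE : ∀ x, E ((η.comp γ) x) ≤ c - q := by
    intro x
    show E (γ x - (1 / L) • g (γ x)) ≤ c - q
    have hd := descent hE hL hg (γ x)
    have hle : E (γ x) ≤ c + q := (hγM x).trans hM.le
    by_cases hcase : c - δ ≤ E (γ x)
    · have habs : |E (γ x) - c| ≤ δ := by
        rw [abs_le]; constructor <;> linarith
      have hgx := hδg _ habs
      have hsq : δ ^ 2 / (2 * L) ≤ ‖g (γ x)‖ ^ 2 / (2 * L) := by
        apply div_le_div_of_nonneg_right _ (by positivity)
        exact pow_le_pow_left₀ hδ.le hgx 2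
      linarith
    · push Not at hcase
      have : 0 ≤ ‖g (γ x)‖ ^ 2 / (2 * L) := by positivity
      linarith
  have := level_le hm hη hηE
  linarith

end Abstract

section PSCrit

variable {H : Type*} [NormedAddCommGroup H] [InnerProductSpace ℝ H] [CompleteSpace H]
  {K : Type*} [NormedAddCommGroup K] [InnerProductSpace ℝ K] [CompleteSpace K]

/-- Palais–Smale criterion: gradient `e • u + i† (N (i u))` with `i` compact, `N` continuous and
`E` coercive. -/
theorem PS_of_compact (i : H →L[ℝ] K) (hi : IsCompactOperator i) {E : H → ℝ} {g : H → H} {e : ℝ}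
    (he : 0 < e) {N : K → K} (hN : Continuous N)
    (hg : ∀ u, g u = e • u + (ContinuousLinearMap.adjoint i) (N (i u)))
    (hco : ∀ C : ℝ, ∃ R : ℝ, ∀ u, E u ≤ C → ‖u‖ ≤ R) (c : ℝ) : PS E g c := by
  intro v hvE hvg
  obtain ⟨R, hR⟩ := hco (c + 1)
  have hev : ∀ᶠ k in atTop, ‖v k‖ ≤ R := by
    filter_upwards [hvE.eventually (eventually_le_nhds (show c < c + 1 by linarith))] with k hk
    exact hR _ hk
  obtain ⟨k0, hk0⟩ := eventually_atTop.1 hev
  obtain ⟨S, hS, hSs⟩ := IsCompactOperator.image_closedBall_subset_compact (f := i.toLinearMap) hi R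
  have hmem : ∀ k, i (v (k + k0)) ∈ S := by
    intro k
    apply hSs
    refine ⟨v (k + k0), ?_, rfl⟩
    rw [mem_closedBall_zero_iff]
    exact hk0 _ (Nat.le_add_left _ _)
  obtain ⟨w, -, s, hs, hw⟩ := hS.tendsto_subseq hmem
  refine ⟨e⁻¹ • (0 - (ContinuousLinearMap.adjoint i) (N w)), fun k => s k + k0,
    fun a b hab => Nat.add_lt_add_right (hs hab) _, ?_⟩
  have h1 : Tendsto (fun k => g (v (s k + k0))) atTop (𝓝 0) := by
    have : Tendsto (fun k => s k + k0) atTop atTop :=
      tendsto_atTop_mono (fun k => Nat.le_add_right (s k) k0) hs.tendsto_atTop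
    exact hvg.comp this
  have h2 : Tendsto (fun k => (ContinuousLinearMap.adjoint i) (N (i (v (s k + k0))))) atTop
      (𝓝 ((ContinuousLinearMap.adjoint i) (N w))) :=
    (((ContinuousLinearMap.adjoint i).continuous.comp hN).tendsto w).comp hw
  have h3 := (h1.sub h2).const_smul e⁻¹
  refine h3.congr fun k => ?_
  rw [hg, add_sub_cancel_right, smul_smul, inv_mul_cancel₀ he.ne', one_smul]

end PSCrit

end Crest.Agent.R246.MinMax480
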