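import Crest.Agent.R246.Mo_873
import Mathlib.Analysis.InnerProductSpace.Trace
import Mathlib.Analysis.Calculus.ContDiff.Deriv

/-!
# Monotonicity formula for stationary functional varifolds
-/

set_option autoImplicit false
set_option linter.unusedSectionVars false
set_option linter.unusedVariables false
noncomputable section
open MeasureTheory Set Filter Topology
open scoped RealInnerProductSpace

namespace Crest.Agent.R246.G873

variable {E : Type*} [NormedAddCommGroup E] [InnerProductSpace ℝ E] [FiniteDimensional ℝ E]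
  [MeasurableSpace E] [BorelSpace E]

lemma trace_tp (v w : E) : LinearMap.trace ℝ E (tp v w : E →ₗ[ℝ] E) = ⟪v, w⟫ := by
  rw [LinearMap.trace_eq_sum_inner _ (stdOrthonormalBasis ℝ E)]
  rw [← (stdOrthonormalBasis ℝ E).sum_inner_mul_inner v w]
  refine Finset.sum_congr rfl fun i _ => ?_
  rw [ContinuousLinearMap.coe_coe, tp_apply, inner_smul_right]

lemma trace_id' : LinearMap.trace ℝ E (ContinuousLinearMap.id ℝ E : E →ₗ[ℝ] E)
    = Module.finrank ℝ E := by
  rw [ContinuousLinearMap.coe_id, LinearMap.trace_id]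

lemma Prof.contDiff {h h1 : ℝ → ℝ} {K : ℝ} (P : Prof h h1 K) : ContDiff ℝ 1 h := by
  rw [contDiff_one_iff_deriv]
  refine ⟨fun s => (P.hd s).differentiableAt, ?_⟩
  have : deriv h = h1 := by ext s; exact (P.hd s).deriv
  rw [this]; exact P.hc

/-- scalar radial function -/
def rad (h : ℝ → ℝ) (p : E) (r : ℝ) (x : E) : ℝ := h (‖x - p‖ ^ 2 / r ^ 2)

lemma rad_contDiff {h h1 : ℝ → ℝ} {K : ℝ} (P : Prof h h1 K) (p : E) (r : ℝ) :
    ContDiff ℝ 1 (rad h p r) := by
  unfold rad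
  apply P.contDiff.comp
  apply ContDiff.div_const
  exact (contDiff_id.sub contDiff_const).norm_sq ℝ

lemma rad_continuous {h : ℝ → ℝ} (hh : Continuous h) (p : E) (r : ℝ) :
    Continuous (rad h p r) := by
  unfold rad
  exact hh.comp (by fun_prop)

lemma rad_eq_zero {h : ℝ → ℝ} {K : ℝ} (hz : ∀ s, K ≤ s → h s = 0) (p : E) {r : ℝ} (hr : 0 < r)
    {x : E} (hx : r * Real.sqrt (max K 0) ≤ ‖x - p‖) : rad h p r x = 0 := by
  apply hz
  rw [le_div_iff₀ (by positivity)]
  have h1 : (r * Real.sqrt (max K 0)) ^ 2 ≤ ‖x - p‖ ^ 2 := by gcongr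
  rw [mul_pow, Real.sq_sqrt (le_max_right _ _)] at h1
  nlinarith [le_max_left K 0, mul_le_mul_of_nonneg_left (le_max_left K 0) (sq_nonneg r)]

lemma rad_compact {h : ℝ → ℝ} {K : ℝ} (hz : ∀ s, K ≤ s → h s = 0) (p : E) {r : ℝ} (hr : 0 < r) :
    HasCompactSupport (rad h p r) := by
  refine HasCompactSupport.intro (isCompact_closedBall p (r * Real.sqrt (max K 0))) ?_
  intro x hx
  rw [Metric.mem_closedBall, not_le, dist_eq_norm] at hx
  exact rad_eq_zero hz p hr hx.le

lemma hasFDerivAt_rad {h h1 : ℝ → ℝ} {K : ℝ} (P : Prof h h1 K) (p : E) (r : ℝ) (x : E) :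
    HasFDerivAt (rad h p r) ((2 * h1 (‖x - p‖ ^ 2 / r ^ 2) / r ^ 2) • innerSL ℝ (x - p)) x := by
  have e1 : HasFDerivAt (fun x : E => ‖x - p‖ ^ 2) (2 • (innerSL ℝ (x - p)).comp
      (ContinuousLinearMap.id ℝ E)) x := ((hasFDerivAt_id x).sub_const p).norm_sq
  have e2 := e1.const_mul ((r ^ 2)⁻¹)
  have e3 : HasFDerivAt (fun x : E => ‖x - p‖ ^ 2 / r ^ 2) ((r ^ 2)⁻¹ • (2 •
      (innerSL ℝ (x - p)).comp (ContinuousLinearMap.id ℝ E))) x := by
    refine e2.congr_of_eventuallyEq (Eventually.of_forall fun y => ?_)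
    simp only []
    rw [div_eq_inv_mul]
  have e4 := (P.hd (‖x - p‖ ^ 2 / r ^ 2)).comp_hasFDerivAt x e3
  refine e4.congr_fderiv ?_
  ext y
  simp
  ring

/-- the vector field `h(|x-p|²/r²)(x-p)` -/
def rfield (h : ℝ → ℝ) (p : E) (r : ℝ) (x : E) : E := rad h p r x • (x - p)

/-- coefficient field `(2 h1/r²) (x-p)⊗(x-p)` -/
def mfield (h1 : ℝ → ℝ) (p : E) (r : ℝ) (x : E) : E →L[ℝ] E :=
  (2 * h1 (‖x - p‖ ^ 2 / r ^ 2) / r ^ 2) • tp (x - p) (x - p)

lemma hasFDerivAt_rfield {h h1 : ℝ → ℝ} {K : ℝ} (P : Prof h h1 K) (p : E) (r : ℝ) (x : E) :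
    HasFDerivAt (rfield h p r)
      (rad h p r x • ContinuousLinearMap.id ℝ E + mfield h1 p r x) x := by
  have e1 := (hasFDerivAt_rad P p r x).smul ((hasFDerivAt_id x).sub_const p)
  refine e1.congr_fderiv ?_
  ext y
  simp [mfield, tp_apply, smul_smul, inner_sub_left]

lemma fderiv_rfield {h h1 : ℝ → ℝ} {K : ℝ} (P : Prof h h1 K) (p : E) (r : ℝ) :
    fderiv ℝ (rfield h p r)
      = fun x => rad h p r x • ContinuousLinearMap.id ℝ E + mfield h1 p r x := by
  ext x : 1
  exact (hasFDerivAt_rfield P p r x).fderiv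

lemma dv_rfield {h h1 : ℝ → ℝ} {K : ℝ} (P : Prof h h1 K) (p : E) (r : ℝ) (x : E) :
    dv (rfield h p r) x = Module.finrank ℝ E * rad h p r x
      + 2 * rad h1 p r x * (‖x - p‖ ^ 2 / r ^ 2) := by
  unfold dv
  rw [fderiv_rfield P]
  simp only [ContinuousLinearMap.toLinearMap_add, ContinuousLinearMap.toLinearMap_smul, map_add, map_smul,
    mfield, trace_tp, trace_id', real_inner_self_eq_norm_sq, smul_eq_mul]
  unfold rad
  ring

lemma rfield_contDiff {h h1 : ℝ → ℝ} {K : ℝ} (P : Prof h h1 K) (p : E) (r : ℝ) :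
    ContDiff ℝ 1 (rfield h p r) :=
  (rad_contDiff P p r).smul (contDiff_id.sub contDiff_const)

lemma rfield_compact {h : ℝ → ℝ} {K : ℝ} (hz : ∀ s, K ≤ s → h s = 0) (p : E) {r : ℝ}
    (hr : 0 < r) : HasCompactSupport (rfield h p r) :=
  (rad_compact hz p hr).smul_right

lemma mfield_continuous {h1 : ℝ → ℝ} (hc : Continuous h1) (p : E) (r : ℝ) :
    Continuous (mfield h1 p r) := by
  unfold mfield
  have hx : Continuous fun x : E => x - p := by fun_prop
  have h2 : Continuous fun x : E => h1 (‖x - p‖ ^ 2 / r ^ 2) := hc.comp (by fun_prop)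
  exact ((h2.const_mul 2).div_const _).smul (continuous_tp hx hx)

lemma mfield_compact {h1 : ℝ → ℝ} {K : ℝ} (hz : ∀ s, K ≤ s → h1 s = 0) (p : E) {r : ℝ}
    (hr : 0 < r) : HasCompactSupport (mfield h1 p r) := by
  refine (rad_compact hz p hr).mono' ?_
  intro x hx
  apply subset_tsupport
  intro h0
  apply hx
  unfold rad at h0
  simp [mfield, h0]

/-- the radial defect -/
def Qd (G : GV E) (h1 : ℝ → ℝ) (p : E) (r : ℝ) : ℝ := -G.S (mfield h1 p r)

lemma Qd_nonneg (G : GV E) {h h1 : ℝ → ℝ} {K : ℝ} (P : Prof h h1 K) (p : E) {r : ℝ}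
    (hr : 0 < r) : 0 ≤ Qd G h1 p r := by
  have h0 := G.S_nonneg (fun x => Real.sqrt (-(2 * h1 (‖x - p‖ ^ 2 / r ^ 2) / r ^ 2)) • (x - p))
    (by
      have hx : Continuous fun x : E => x - p := by fun_prop
      have h2 : Continuous fun x : E => h1 (‖x - p‖ ^ 2 / r ^ 2) := P.hc.comp (by fun_prop)
      exact (Real.continuous_sqrt.comp ((h2.const_mul 2).div_const _).neg).smul hx)
    (by
      refine (rad_compact P.zero1 p hr).mono' ?_
      intro x hx
      apply subset_tsupport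
      intro h0
      apply hx
      unfold rad at h0
      simp [h0])
  have h2 : (fun x : E => tp (Real.sqrt (-(2 * h1 (‖x - p‖ ^ 2 / r ^ 2) / r ^ 2)) • (x - p))
      (Real.sqrt (-(2 * h1 (‖x - p‖ ^ 2 / r ^ 2) / r ^ 2)) • (x - p)))
      = fun x => (-1 : ℝ) • mfield h1 p r x := by
    ext x : 1
    rw [tp_smul_left, tp_smul_right, smul_smul, mfield, smul_smul]
    congr 1
    rw [← sq, Real.sq_sqrt]
    · ring
    · have := P.np (‖x - p‖ ^ 2 / r ^ 2)
      rw [neg_nonneg]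
      apply div_nonpos_of_nonpos_of_nonneg _ (by positivity)
      linarith
  rw [h2, G.S_smul (-1) _ (mfield_continuous P.hc p r) (mfield_compact P.zero1 p hr)] at h0
  unfold Qd
  linarith

/-- first variation along the radial field. -/
lemma first_var {G : GV E} (hG : G.StatOn univ) {h h1 : ℝ → ℝ} {K : ℝ} (P : Prof h h1 K) (p : E)
    {r : ℝ} (hr : 0 < r) :
    ((Module.finrank ℝ E : ℝ) - 1) * (∫ x, rad h p r x ∂G.μ)
      + ∫ x, 2 * rad h1 p r x * (‖x - p‖ ^ 2 / r ^ 2) ∂G.μ = -Qd G h1 p r := by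
  have := G.fin
  have h1' := hG (rfield h p r) (rfield_contDiff P p r) (rfield_compact P.zero p hr) (subset_univ _)
  rw [fderiv_rfield P] at h1'
  have hadd := G.S_add (fun x => rad h p r x • ContinuousLinearMap.id ℝ E) (mfield h1 p r)
    ((rad_continuous P.cont p r).smul continuous_const)
    ((rad_compact P.zero p hr).smul_right) (mfield_continuous P.hc p r)
    (mfield_compact P.zero1 p hr)
  rw [hadd, G.S_one _ (rad_continuous P.cont p r) (rad_compact P.zero p hr)] at h1'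
  simp only [dv_rfield P] at h1'
  have hi1 : Integrable (rad h p r) G.μ :=
    (rad_continuous P.cont p r).integrable_of_hasCompactSupport (rad_compact P.zero p hr)
  have hi2 : Integrable (fun x => 2 * rad h1 p r x * (‖x - p‖ ^ 2 / r ^ 2)) G.μ := by
    apply Continuous.integrable_of_hasCompactSupport
    · have := rad_continuous P.hc p r
      fun_prop
    · exact ((rad_compact P.zero1 p hr).mul_left (f := fun _ => (2 : ℝ))).mul_right
  rw [integral_add (hi1.const_mul _) hi2, integral_const_mul] at h1'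
  unfold Qd
  linarith

/-- derivative of the radial integral. -/
lemma hasDerivAt_J {μ : Measure E} [IsFiniteMeasureOnCompacts μ] {h h1 : ℝ → ℝ} {K : ℝ}
    (P : Prof h h1 K) (p : E) {r : ℝ} (hr : 0 < r) :
    HasDerivAt (fun r => ∫ x, rad h p r x ∂μ)
      (-(1 / r) * ∫ x, 2 * rad h1 p r x * (‖x - p‖ ^ 2 / r ^ 2) ∂μ) r := by
  obtain ⟨M, hM⟩ : ∃ M : ℝ, ∀ s ∈ Icc (0 : ℝ) (max K 0), |h1 s| ≤ M := by
    obtain ⟨M, hM⟩ := (isCompact_Icc (a := (0 : ℝ)) (b := max K 0)).exists_bound_of_continuousOn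
      P.hc.continuousOn
    exact ⟨M, fun s hs => by simpa using hM s hs⟩
  have hM' : ∀ s, 0 ≤ s → |h1 s| ≤ max M 0 := by
    intro s hs
    by_cases hsK : s ≤ max K 0
    · exact (hM s ⟨hs, hsK⟩).trans (le_max_left _ _)
    · push Not at hsK
      rw [P.zero1 s ((le_max_left _ _).trans hsK.le), abs_zero]
      exact le_max_right _ _
  set ρ : ℝ := (3 * r / 2) * Real.sqrt (max K 0)
  set B : ℝ := 2 * max M 0 * (ρ ^ 2 / (r / 2) ^ 3)
  have hkey := hasDerivAt_integral_of_dominated_loc_of_deriv_le (μ := μ)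
    (F := fun r x => rad h p r x)
    (F' := fun r x => h1 (‖x - p‖ ^ 2 / r ^ 2) * (‖x - p‖ ^ 2 * (-(2 : ℝ) * r ^ (-3 : ℤ))))
    (x₀ := r) (s := Ioo (r / 2) (3 * r / 2))
    (bound := (Metric.closedBall p ρ).indicator (fun _ => B))
    (Ioo_mem_nhds (by linarith) (by linarith))
    (Eventually.of_forall fun r' => (rad_continuous P.cont p r').aestronglyMeasurable)
    ((rad_continuous P.cont p r).integrable_of_hasCompactSupport (rad_compact P.zero p hr))
    ?_ ?_ ?_ ?_
  · refine hkey.2.congr_deriv ?_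
    rw [← integral_const_mul]
    refine integral_congr_ae (Eventually.of_forall fun x => ?_)
    simp only [rad]
    have : r ^ (-3 : ℤ) = (r ^ 3)⁻¹ := by
      rw [zpow_neg]; norm_cast
    rw [this]
    field_simp
  · apply Continuous.aestronglyMeasurable
    have h2 : Continuous fun x : E => h1 (‖x - p‖ ^ 2 / r ^ 2) := P.hc.comp (by fun_prop)
    have h3 : Continuous fun x : E => ‖x - p‖ ^ 2 := by fun_prop
    exact h2.mul (h3.mul_const _)
  · refine Eventually.of_forall fun x r' hr' => ?_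
    have hr0 : 0 < r' := by linarith [hr'.1]
    by_cases hx : x ∈ Metric.closedBall p ρ
    · rw [indicator_of_mem hx]
      rw [Metric.mem_closedBall, dist_eq_norm] at hx
      rw [norm_mul, norm_mul, norm_mul, Real.norm_eq_abs, Real.norm_eq_abs, Real.norm_eq_abs,
        Real.norm_eq_abs]
      have e1 : |r' ^ (-3 : ℤ)| = 1 / r' ^ 3 := by
        rw [zpow_neg, abs_of_nonneg (by positivity)]; norm_cast; rw [one_div]
      rw [e1, abs_neg, abs_two, abs_of_nonneg (by positivity : 0 ≤ ‖x - p‖ ^ 2)]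
      have e2 := hM' (‖x - p‖ ^ 2 / r' ^ 2) (by positivity)
      have e3 : 1 / r' ^ 3 ≤ 1 / (r / 2) ^ 3 := by
        apply one_div_le_one_div_of_le (by positivity)
        exact pow_le_pow_left₀ (by positivity) hr'.1.le 3
      have e4 : ‖x - p‖ ^ 2 ≤ ρ ^ 2 := by gcongr
      calc |h1 (‖x - p‖ ^ 2 / r' ^ 2)| * (‖x - p‖ ^ 2 * (2 * (1 / r' ^ 3)))
          ≤ max M 0 * (ρ ^ 2 * (2 * (1 / (r / 2) ^ 3))) := by gcongr
        _ = B := by simp only [B]; ring
    · rw [indicator_of_notMem hx]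
      rw [Metric.mem_closedBall, dist_eq_norm, not_le] at hx
      have : rad h1 p r' x = 0 := by
        apply rad_eq_zero P.zero1 p hr0
        refine le_trans ?_ hx.le
        simp only [ρ]
        gcongr
        exact hr'.2.le
      unfold rad at this
      rw [this]; simp
  · apply IntegrableOn.integrable_indicator _ measurableSet_closedBall
    exact integrableOn_const (measure_closedBall_lt_top).ne
  · refine Eventually.of_forall fun x r' hr' => ?_
    have hr0 : r' ≠ 0 := by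
      have := hr'.1
      have : 0 < r' := by linarith
      exact this.ne'
    have e1 : HasDerivAt (fun r : ℝ => ‖x - p‖ ^ 2 / r ^ 2)
        (‖x - p‖ ^ 2 * (-(2 : ℝ) * r' ^ (-3 : ℤ))) r' := by
      have e2 : HasDerivAt (fun r : ℝ => r ^ (-2 : ℤ)) (((-2 : ℤ) : ℝ) * r' ^ (-2 - 1 : ℤ)) r' :=
        hasDerivAt_zpow (-2) r' (Or.inl hr0)
      have e3 := e2.const_mul (‖x - p‖ ^ 2)
      have e4 : (fun r : ℝ => ‖x - p‖ ^ 2 / r ^ 2) = fun r : ℝ => ‖x - p‖ ^ 2 * r ^ (-2 : ℤ) := by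
        ext r
        rw [zpow_neg]; norm_cast
      rw [e4]
      refine e3.congr_deriv ?_
      norm_num
    exact (P.hd _).comp r' e1

/-- density ratio -/
def DR (μ : Measure E) (h : ℝ → ℝ) (p : E) (r : ℝ) : ℝ :=
  (r ^ d1 E)⁻¹ * ∫ x, rad h p r x ∂μ

lemma d1_cast (hn : 1 ≤ Module.finrank ℝ E) : ((d1 E : ℕ) : ℝ) = (Module.finrank ℝ E : ℝ) - 1 := by
  unfold d1; push_cast [Nat.cast_sub hn]; ring

/-- monotonicity formula, derivative form. -/
theorem hasDerivAt_DR {G : GV E} (hn : 1 ≤ Module.finrank ℝ E) (hG : G.StatOn univ)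
    {h h1 : ℝ → ℝ} {K : ℝ} (P : Prof h h1 K) (p : E) {r : ℝ} (hr : 0 < r) :
    HasDerivAt (DR G.μ h p) ((r ^ (d1 E + 1))⁻¹ * Qd G h1 p r) r := by
  have := G.fin
  have e1 := hasDerivAt_J (μ := G.μ) P p hr
  have e2 : HasDerivAt (fun r : ℝ => (r ^ d1 E)⁻¹) (-(d1 E : ℝ) * r ^ (d1 E - 1) / (r ^ d1 E) ^ 2) r := by
    have := (hasDerivAt_pow (d1 E) r).inv (by positivity)
    refine this.congr_deriv ?_
    ring
  have e3 := e2.mul e1
  have e4 := first_var hG P p hr
  refine e3.congr_deriv ?_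
  have hcast := d1_cast hn
  rw [← hcast] at e4
  set A := ∫ x, rad h p r x ∂G.μ
  set B := ∫ x, 2 * rad h1 p r x * (‖x - p‖ ^ 2 / r ^ 2) ∂G.μ
  have hB : B = -Qd G h1 p r - d1 E * A := by linarith
  rw [hB]
  rcases Nat.eq_zero_or_pos (d1 E) with h0 | h0
  · rw [h0]; simp
  · obtain ⟨k, hk⟩ : ∃ k, d1 E = k + 1 := ⟨d1 E - 1, by omega⟩
    rw [hk]
    simp only [Nat.add_sub_cancel]
    field_simp
    ring

theorem DR_mono {G : GV E} (hn : 1 ≤ Module.finrank ℝ E) (hG : G.StatOn univ)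
    {h h1 : ℝ → ℝ} {K : ℝ} (P : Prof h h1 K) (p : E) : MonotoneOn (DR G.μ h p) (Ioi 0) := by
  apply monotoneOn_of_deriv_nonneg (convex_Ioi 0)
  · intro r hr
    exact (hasDerivAt_DR hn hG P p hr).continuousAt.continuousWithinAt
  · intro r hr
    rw [interior_Ioi] at hr
    exact (hasDerivAt_DR hn hG P p hr).differentiableAt.differentiableWithinAt
  · intro r hr
    rw [interior_Ioi] at hr
    have hr' : (0 : ℝ) < r := hr
    rw [(hasDerivAt_DR hn hG P p hr').deriv]
    have := Qd_nonneg G P p hr'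
    positivity

end Crest.Agent.R246.G873
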