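import Crest.Agent.R246.GL_873
import Mathlib.Geometry.Manifold.SmoothApprox

/-!
# Density at infinity; constancy of the density ratio gives a cone (L4), first moments (L6)
-/

set_option autoImplicit false
set_option linter.unusedSectionVars false
set_option linter.unusedVariables false
noncomputable section
open MeasureTheory Set Filter Topology
open scoped RealInnerProductSpace ContDiff

namespace Crest.Agent.R246.G873

variable {E : Type} [NormedAddCommGroup E] [InnerProductSpace ℝ E] [FiniteDimensional ℝ E]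
  [MeasurableSpace E] [BorelSpace E]

lemma dens_eq_DR (μ : Measure E) (k : ℕ) (p : E) (r : ℝ) : dens μ k p r = DR μ (hk k) p r := rfl

lemma prof_hk' (k : ℕ) (hk2 : 2 ≤ k) :
    Prof (hk k) (fun s => -(max (1 - s / k) 0 ^ (k - 1))) k := prof_hk k hk2

lemma Prof.anti {h h1 : ℝ → ℝ} {K : ℝ} (P : Prof h h1 K) : Antitone h :=
  antitone_of_deriv_nonpos (fun s => (P.hd s).differentiableAt)
    (fun s => by rw [(P.hd s).deriv]; exact P.np s)

lemma DR_homM {μ : Measure E} (hμ : HomM μ) {h h1 : ℝ → ℝ} {K : ℝ} (P : Prof h h1 K) (p : E)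
    {r : ℝ} (hr : 0 < r) : DR μ h p r = ∫ x, h (‖x - r⁻¹ • p‖ ^ 2) ∂μ := by
  have e1 : ∀ x : E, rad h (r⁻¹ • p) 1 x = h (‖x - r⁻¹ • p‖ ^ 2) := by
    intro x; simp [rad]
  have e2 := hμ r hr (rad h (r⁻¹ • p) 1) (rad_continuous P.cont _ _) (rad_compact P.zero _ one_pos)
  have e3 : ∀ x : E, rad h (r⁻¹ • p) 1 (r⁻¹ • x) = rad h p r x := by
    intro x
    rw [e1, ← smul_sub, norm_smul, mul_pow, rad, norm_inv, Real.norm_eq_abs, inv_pow, sq_abs]
    congr 1
    rw [inv_mul_eq_div]
  simp only [e3] at e2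
  unfold DR
  rw [e2]
  simp only [e1]
  have : (r ^ (Module.finrank ℝ E - 1)) ≠ 0 := by positivity
  unfold d1
  field_simp

lemma tendsto_DR_atTop {μ : Measure E} [IsFiniteMeasureOnCompacts μ] (hμ : HomM μ)
    {h h1 : ℝ → ℝ} {K : ℝ} (P : Prof h h1 K) (p : E) :
    Tendsto (DR μ h p) atTop (𝓝 (∫ x, h (‖x‖ ^ 2) ∂μ)) := by
  have h1' : Tendsto (fun r : ℝ => ∫ x, h (‖x - r⁻¹ • p‖ ^ 2) ∂μ) atTop
      (𝓝 (∫ x, h (‖x‖ ^ 2) ∂μ)) := by
    apply tendsto_integral_filter_of_dominated_convergence
      ((Metric.closedBall (0 : E) (Real.sqrt (max K 0) + ‖p‖)).indicator (fun _ => h 0))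
    · exact Eventually.of_forall fun r => by
        apply Continuous.aestronglyMeasurable
        exact P.cont.comp (by fun_prop)
    · filter_upwards [eventually_ge_atTop (1 : ℝ)] with r hr
      refine Eventually.of_forall fun x => ?_
      rw [Real.norm_eq_abs, abs_of_nonneg (P.nonneg _)]
      by_cases hx : x ∈ Metric.closedBall (0 : E) (Real.sqrt (max K 0) + ‖p‖)
      · rw [indicator_of_mem hx]
        exact P.anti (by positivity)
      · rw [indicator_of_notMem hx]
        rw [Metric.mem_closedBall, dist_zero_right, not_le] at hx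
        apply le_of_eq
        apply P.zero
        have h2 : ‖r⁻¹ • p‖ ≤ ‖p‖ := by
          rw [norm_smul, norm_inv, Real.norm_eq_abs, abs_of_pos (by linarith)]
          have : r⁻¹ ≤ 1 := inv_le_one_of_one_le₀ hr
          nlinarith [norm_nonneg p]
        have h3 : Real.sqrt (max K 0) ≤ ‖x - r⁻¹ • p‖ := by
          have := norm_sub_norm_le x (r⁻¹ • p)
          linarith
        have h4 : Real.sqrt (max K 0) ^ 2 ≤ ‖x - r⁻¹ • p‖ ^ 2 := by gcongr
        rw [Real.sq_sqrt (le_max_right _ _)] at h4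
        exact (le_max_left _ _).trans h4
    · apply IntegrableOn.integrable_indicator _ measurableSet_closedBall
      exact integrableOn_const (measure_closedBall_lt_top).ne
    · refine Eventually.of_forall fun x => ?_
      have h5 : Tendsto (fun r : ℝ => ‖x - r⁻¹ • p‖ ^ 2) atTop (𝓝 (‖x - (0 : ℝ) • p‖ ^ 2)) :=
        ((tendsto_const_nhds.sub ((tendsto_inv_atTop_zero).smul_const p)).norm).pow 2
      rw [zero_smul, sub_zero] at h5
      exact (P.cont.tendsto _).comp h5
  refine h1'.congr' ?_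
  filter_upwards [eventually_gt_atTop (0 : ℝ)] with r hr
  rw [DR_homM hμ P p hr]

/-- The density ratio at any centre is at most the density at infinity. -/
theorem DR_le_inf {G : GV E} (hn : 1 ≤ Module.finrank ℝ E) (hG : G.StatOn univ) (hμ : HomM G.μ)
    {h h1 : ℝ → ℝ} {K : ℝ} (P : Prof h h1 K) (p : E) {r : ℝ} (hr : 0 < r) :
    DR G.μ h p r ≤ ∫ x, h (‖x‖ ^ 2) ∂G.μ := by
  have := G.fin
  refine ge_of_tendsto (tendsto_DR_atTop hμ P p) ?_
  filter_upwards [eventually_ge_atTop r] with s hs
  exact DR_mono hn hG P p hr (lt_of_lt_of_le hr hs) hs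

/-! ### vanishing radial defect -/

/-- `S(u x ⊗ v) = 0` for all compactly supported `u`, `v`. -/
def RadNull (G : GV E) : Prop :=
  ∀ (u : E → ℝ) (v : E → E), Continuous u → HasCompactSupport u → Continuous v →
    HasCompactSupport v → G.S (fun x => tp (u x • x) (v x)) = 0

lemma GV.S_mono_x (G : GV E) {u w : E → ℝ} (hu : Continuous u) (hcu : HasCompactSupport u)
    (hw : Continuous w) (hcw : HasCompactSupport w) (huw : ∀ x, u x ^ 2 ≤ w x ^ 2) :
    G.S (fun x => tp (u x • x) (u x • x)) ≤ G.S (fun x => tp (w x • x) (w x • x)) := by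
  set a : E → ℝ := fun x => Real.sqrt (w x ^ 2 - u x ^ 2) with ha
  have hac : Continuous a := by fun_prop
  have hacs : HasCompactSupport a := by
    refine hcw.mono' ?_
    intro x hx
    apply subset_tsupport
    intro h0
    apply hx
    have h1 := huw x
    rw [h0] at h1
    simp only [ha, h0]
    apply Real.sqrt_eq_zero_of_nonpos
    nlinarith [sq_nonneg (u x)]
  have h0 := G.S_nonneg (fun x => a x • x) (hac.smul continuous_id) hacs.smul_right
  have h1 := G.S_add (fun x => tp (u x • x) (u x • x)) (fun x => tp (a x • x) (a x • x))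
    (continuous_tp (hu.smul continuous_id) (hu.smul continuous_id))
    (hasCompactSupport_tp_left hcu.smul_right)
    (continuous_tp (hac.smul continuous_id) (hac.smul continuous_id))
    (hasCompactSupport_tp_left hacs.smul_right)
  have h2 : (fun x : E => tp (u x • x) (u x • x) + tp (a x • x) (a x • x))
      = fun x => tp (w x • x) (w x • x) := by
    ext x : 1
    simp only [tp_smul_left, tp_smul_right, smul_smul]
    rw [← add_smul]
    congr 1
    simp only [ha]
    rw [← sq, ← sq, ← sq, Real.sq_sqrt (by have := huw x; linarith)]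
    ring
  rw [h2] at h1
  linarith

lemma GV.cs_zero (G : GV E) {v w : E → E} (hv : Continuous v) (hcv : HasCompactSupport v)
    (hw : Continuous w) (hcw : HasCompactSupport w) (h0 : G.S (fun x => tp (v x) (v x)) ≤ 0) :
    G.S (fun x => tp (v x) (w x)) = 0 := by
  have hnn := G.S_nonneg w hw hcw
  set c := G.S (fun x => tp (w x) (w x)) with hc
  have key : ∀ s : ℝ, 0 < s → |G.S (fun x => tp (v x) (w x))| ≤ (1 / 2) * (s⁻¹ ^ 2 * c) := by
    intro s hs
    have h1 := G.toPGV.abs_S_tp_le (fun x => s • v x) (fun x => s⁻¹ • w x) (hv.const_smul s)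
      (hw.const_smul s⁻¹) (hcv.smul_left (f := fun _ => s)) (hcw.smul_left (f := fun _ => s⁻¹))
    have e1 : (fun x => tp (s • v x) (s⁻¹ • w x)) = fun x => tp (v x) (w x) := by
      ext x : 1
      rw [tp_smul_left, tp_smul_right, smul_smul, mul_inv_cancel₀ hs.ne', one_smul]
    have e2 : (fun x => tp (s • v x) (s • v x)) = fun x => (s * s) • tp (v x) (v x) := by
      ext x : 1
      rw [tp_smul_left, tp_smul_right, smul_smul]
    have e3 : (fun x => tp (s⁻¹ • w x) (s⁻¹ • w x)) = fun x => (s⁻¹ * s⁻¹) • tp (w x) (w x) := by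
      ext x : 1
      rw [tp_smul_left, tp_smul_right, smul_smul]
    have e4 : G.toPGV.S = G.S := rfl
    rw [e1, e2, e3, e4, G.S_smul _ _ (continuous_tp hv hv) (hasCompactSupport_tp_left hcv),
      G.S_smul _ _ (continuous_tp hw hw) (hasCompactSupport_tp_left hcw)] at h1
    refine h1.trans ?_
    have : s * s * G.S (fun x => tp (v x) (v x)) ≤ 0 :=
      mul_nonpos_of_nonneg_of_nonpos (by positivity) h0
    rw [sq]
    linarith
  have h2 : Tendsto (fun s : ℝ => (1 / 2) * (s⁻¹ ^ 2 * c)) atTop (𝓝 ((1 / 2) * (0 ^ 2 * c))) :=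
    ((tendsto_inv_atTop_zero.pow 2).mul_const c).const_mul _
  have h3 : |G.S (fun x => tp (v x) (w x))| ≤ (1 / 2) * (0 ^ 2 * c) := by
    refine ge_of_tendsto h2 ?_
    filter_upwards [eventually_gt_atTop (0 : ℝ)] with s hs using key s hs
  have h4 : |G.S (fun x => tp (v x) (w x))| ≤ 0 := by simpa using h3
  exact abs_nonpos_iff.1 h4

/-- vanishing of the radial defect of `hk 2` at the origin implies `RadNull`. -/
theorem radNull_of_Qd {G : GV E}
    (hQ : ∀ r : ℝ, 0 < r → Qd G (fun s => -(max (1 - s / 2) 0)) 0 r = 0) : RadNull G := by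
  intro u v hu hcu hv hcv
  have P := prof_hk' 2 le_rfl
  simp only [Nat.cast_ofNat, Nat.add_one_sub_one, pow_one] at P
  apply G.cs_zero (hu.smul continuous_id) hcu.smul_right hv hcv
  obtain ⟨M, hM⟩ := hcu.exists_bound_of_continuous hu
  obtain ⟨ρ, hρ⟩ := hcu.isCompact.isBounded.subset_closedBall (0 : E)
  set r := max ρ 1 with hrdef
  have hr : 0 < r := lt_of_lt_of_le one_pos (le_max_right _ _)
  have hM0 : 0 ≤ M := (norm_nonneg _).trans (hM 0)
  set h1 : ℝ → ℝ := fun s => -(max (1 - s / 2) 0)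
  set w : E → ℝ := fun x => (M * r) * Real.sqrt (-(2 * h1 (‖x‖ ^ 2 / r ^ 2) / r ^ 2)) with hw
  have hw0 : ∀ x : E, 0 ≤ -(2 * h1 (‖x‖ ^ 2 / r ^ 2) / r ^ 2) := by
    intro x
    have := P.np (‖x‖ ^ 2 / r ^ 2)
    rw [neg_nonneg]
    apply div_nonpos_of_nonpos_of_nonneg _ (by positivity)
    linarith
  have hwc : Continuous w := by
    have h2 : Continuous fun x : E => h1 (‖x‖ ^ 2 / r ^ 2) := P.hc.comp (by fun_prop)
    exact (Real.continuous_sqrt.comp ((h2.const_mul 2).div_const _).neg).const_mul _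
  have hwcs : HasCompactSupport w := by
    refine (rad_compact P.zero1 (0 : E) hr).mono' ?_
    intro x hx
    apply subset_tsupport
    intro h0
    apply hx
    unfold rad at h0
    rw [sub_zero] at h0
    have h0' : h1 (‖x‖ ^ 2 / r ^ 2) = 0 := h0
    simp [hw, h0']
  refine (G.S_mono_x hu hcu hwc hwcs ?_).trans ?_
  · intro x
    by_cases hx : u x = 0
    · rw [hx, zero_pow two_ne_zero]; exact sq_nonneg _
    · have hxK := hρ (subset_tsupport u hx)
      rw [Metric.mem_closedBall, dist_zero_right] at hxK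
      have hxr : ‖x‖ ≤ r := hxK.trans (le_max_left _ _)
      have e1 : w x ^ 2 = (M * r) ^ 2 * (-(2 * h1 (‖x‖ ^ 2 / r ^ 2) / r ^ 2)) := by
        simp only [hw]
        rw [mul_pow, Real.sq_sqrt (hw0 x)]
      rw [e1]
      have e2 : ‖x‖ ^ 2 / r ^ 2 ≤ 1 := by
        rw [div_le_one (by positivity)]
        gcongr
      have e3 : (1 : ℝ) / 2 ≤ -h1 (‖x‖ ^ 2 / r ^ 2) := by
        simp only [h1, neg_neg]
        exact le_max_of_le_left (by linarith)
      have e4 : u x ^ 2 ≤ M ^ 2 := by
        have := hM x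
        rw [Real.norm_eq_abs] at this
        rw [← sq_abs (u x)]
        gcongr
      have e5 : (M * r) ^ 2 * (-(2 * h1 (‖x‖ ^ 2 / r ^ 2) / r ^ 2))
          = M ^ 2 * (2 * -h1 (‖x‖ ^ 2 / r ^ 2)) := by
        field_simp
      rw [e5]
      nlinarith [sq_nonneg M]
  · have e6 : (fun x : E => tp (w x • x) (w x • x))
        = fun x => (-(M * r) ^ 2) • mfield h1 0 r x := by
      ext x : 1
      rw [tp_smul_left, tp_smul_right, smul_smul, mfield, sub_zero, smul_smul]
      congr 1
      have : w x * w x = (M * r) ^ 2 * (-(2 * h1 (‖x‖ ^ 2 / r ^ 2) / r ^ 2)) := by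
        rw [← sq]; simp only [hw]
        rw [mul_pow, Real.sq_sqrt (hw0 x)]
      rw [this]; ring
    rw [e6, G.S_smul _ _ (mfield_continuous P.hc 0 r) (mfield_compact P.zero1 0 hr)]
    have := hQ r hr
    unfold Qd at this
    have h3 : G.S (mfield h1 0 r) = 0 := by linarith
    rw [h3, mul_zero]

/-- first variation identity for cones -/
lemma radNull_identity {G : GV E} (hG : G.StatOn univ) (hR : RadNull G) {f : E → ℝ}
    (hf : ContDiff ℝ 1 f) (hc : HasCompactSupport f) :
    ((Module.finrank ℝ E : ℝ) - 1) * (∫ x, f x ∂G.μ) + ∫ x, fderiv ℝ f x x ∂G.μ = 0 := by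
  have := G.fin
  have hfd : ∀ x, HasFDerivAt f (fderiv ℝ f x) x := fun x =>
    (hf.differentiable one_ne_zero x).hasFDerivAt
  have hX : ∀ x, HasFDerivAt (fun x => f x • x)
      (f x • ContinuousLinearMap.id ℝ E + (fderiv ℝ f x).smulRight x) x := by
    intro x
    exact (hfd x).smul (hasFDerivAt_id x)
  have hgr : ∀ x, (fderiv ℝ f x).smulRight x = tp (gradient f x) x := by
    intro x
    ext y
    rw [tp_apply, gradient, InnerProductSpace.toDual_symm_apply]
    simp
  have hgc : Continuous (fun x => gradient f x) := by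
    have h1 : Continuous (fderiv ℝ f) := hf.continuous_fderiv one_ne_zero
    exact ((InnerProductSpace.toDual ℝ E).symm.continuous).comp h1
  have hgcs : HasCompactSupport (fun x => gradient f x) := by
    refine (hc.fderiv ℝ).mono' ?_
    intro x hx
    apply subset_tsupport
    intro h0
    apply hx
    simp [gradient, h0]
  have hfdX : fderiv ℝ (fun x => f x • x)
      = fun x => f x • ContinuousLinearMap.id ℝ E + tp (gradient f x) x := by
    ext x : 1
    rw [(hX x).fderiv, hgr]
  have h1 := hG (fun x => f x • x) (hf.smul contDiff_id) hc.smul_right (subset_univ _)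
  obtain ⟨χ, hχ, hcχ, hχ1, -, -⟩ := exists_cutoff hc.isCompact
  have h2 : (fun x => tp (gradient f x) x) = fun x => tp (gradient f x) (χ x • x) := by
    ext x : 1
    by_cases hx : gradient f x = 0
    · ext y; simp [tp_apply, hx]
    · have : x ∈ tsupport f := by
        by_contra hx'
        apply hx
        have : fderiv ℝ f x = 0 := fderiv_of_notMem_tsupport ℝ hx'
        simp [gradient, this]
      rw [hχ1 x this, one_smul]
  rw [hfdX, G.S_add (fun x => f x • ContinuousLinearMap.id ℝ E) (fun x => tp (gradient f x) x)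
    (hf.continuous.smul continuous_const) hc.smul_right (continuous_tp hgc continuous_id)
    (hasCompactSupport_tp_left hgcs), G.S_one f hf.continuous hc, h2,
    G.S_symm (fun x => gradient f x) (fun x => χ x • x) hgc (hχ.smul continuous_id) hgcs,
    hR χ _ hχ hcχ hgc hgcs, add_zero] at h1
  have h3 : ∀ x, dv (fun x => f x • x) x = Module.finrank ℝ E * f x + fderiv ℝ f x x := by
    intro x
    unfold dv
    rw [hfdX]
    simp only [ContinuousLinearMap.toLinearMap_add, ContinuousLinearMap.toLinearMap_smul, map_add,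
      map_smul, trace_tp, trace_id', smul_eq_mul]
    have : ⟪gradient f x, x⟫ = fderiv ℝ f x x := by
      rw [gradient, InnerProductSpace.toDual_symm_apply]
    rw [this]; ring
  simp only [h3] at h1
  have hi1 : Integrable f G.μ := hf.continuous.integrable_of_hasCompactSupport hc
  have hi2 : Integrable (fun x => fderiv ℝ f x x) G.μ := by
    apply Continuous.integrable_of_hasCompactSupport
    · exact (hf.continuous_fderiv one_ne_zero).clm_apply continuous_id
    · refine (hc.fderiv ℝ).mono' ?_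
      intro x hx
      apply subset_tsupport
      intro h0
      apply hx
      simp [h0]
  rw [integral_add (hi1.const_mul _) hi2, integral_const_mul] at h1
  linarith

/-- homogeneity tested with `C¹` functions. -/
lemma homM_smooth {G : GV E} (hn : 1 ≤ Module.finrank ℝ E) (hG : G.StatOn univ)
    (hR : RadNull G) {f : E → ℝ} (hf : ContDiff ℝ 1 f) (hc : HasCompactSupport f) {t : ℝ}
    (ht : 0 < t) :
    ∫ x, f (t⁻¹ • x) ∂G.μ = t ^ (Module.finrank ℝ E - 1) * ∫ x, f x ∂G.μ := by
  have := G.fin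
  obtain ⟨ρ, hρ⟩ := hc.isCompact.isBounded.subset_closedBall (0 : E)
  obtain ⟨M, hM⟩ := (hc.fderiv ℝ).exists_bound_of_continuous (hf.continuous_fderiv one_ne_zero)
  have hM0 : 0 ≤ M := (norm_nonneg _).trans (hM 0)
  have hfd : ∀ x, HasFDerivAt f (fderiv ℝ f x) x := fun x =>
    (hf.differentiable one_ne_zero x).hasFDerivAt
  have hcomp : ∀ t : ℝ, 0 < t → HasCompactSupport (fun x => f (t⁻¹ • x)) := by
    intro t ht
    have := hasCompactSupport_zoom hc (0 : E) ht.ne'
    simpa using this
  -- derivative of `J`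
  have hJ : ∀ t : ℝ, 0 < t → HasDerivAt (fun t : ℝ => ∫ x, f (t⁻¹ • x) ∂G.μ)
      (t⁻¹ * ((Module.finrank ℝ E : ℝ) - 1) * ∫ x, f (t⁻¹ • x) ∂G.μ) t := by
    intro t ht
    set ρ' := (3 * t / 2) * max ρ 0
    have hkey := hasDerivAt_integral_of_dominated_loc_of_deriv_le (μ := G.μ)
      (F := fun t x => f (t⁻¹ • x))
      (F' := fun t x => fderiv ℝ f (t⁻¹ • x) ((-(t ^ 2)⁻¹) • x))
      (x₀ := t) (s := Ioo (t / 2) (3 * t / 2))
      (bound := (Metric.closedBall (0 : E) ρ').indicator (fun _ => M * (((t / 2) ^ 2)⁻¹ * ρ')))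
      (Ioo_mem_nhds (by linarith) (by linarith))
      (Eventually.of_forall fun t' => by
        apply Continuous.aestronglyMeasurable
        exact hf.continuous.comp (by fun_prop))
      ((hf.continuous.comp (by fun_prop)).integrable_of_hasCompactSupport (hcomp t ht))
      ?_ ?_ ?_ ?_
    · refine hkey.2.congr_deriv ?_
      have h1 := radNull_identity hG hR (f := fun x => f (t⁻¹ • x)) (hf.comp (by fun_prop))
        (hcomp t ht)
      have h2 : ∀ x, fderiv ℝ (fun x => f (t⁻¹ • x)) x x = fderiv ℝ f (t⁻¹ • x) (t⁻¹ • x) := by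
        intro x
        have h3 : HasFDerivAt (fun x : E => t⁻¹ • x) (t⁻¹ • ContinuousLinearMap.id ℝ E) x :=
          (hasFDerivAt_id x).const_smul t⁻¹
        have h4 : HasFDerivAt (fun x => f (t⁻¹ • x)) _ x := (hfd (t⁻¹ • x)).comp x h3
        rw [h4.fderiv]
        simp
      simp only [h2] at h1
      have h5 : ∀ x, fderiv ℝ f (t⁻¹ • x) ((-(t ^ 2)⁻¹) • x)
          = -t⁻¹ * fderiv ℝ f (t⁻¹ • x) (t⁻¹ • x) := by
        intro x
        rw [map_smul, map_smul, smul_eq_mul, smul_eq_mul]
        field_simp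
      simp only [h5]
      rw [integral_const_mul]
      linear_combination (-t⁻¹) * h1
    · apply Continuous.aestronglyMeasurable
      exact ((hf.continuous_fderiv one_ne_zero).comp (by fun_prop)).clm_apply (by fun_prop)
    · refine Eventually.of_forall fun x t' ht' => ?_
      have ht0 : 0 < t' := by linarith [ht'.1]
      by_cases hx : x ∈ Metric.closedBall (0 : E) ρ'
      · rw [indicator_of_mem hx]
        rw [Metric.mem_closedBall, dist_zero_right] at hx
        refine (ContinuousLinearMap.le_opNorm _ _).trans ?_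
        have e1 : ‖(-(t' ^ 2)⁻¹ : ℝ) • x‖ ≤ ((t / 2) ^ 2)⁻¹ * ρ' := by
          rw [norm_smul, norm_neg, norm_inv, Real.norm_eq_abs, abs_of_pos (by positivity)]
          have : (t' ^ 2)⁻¹ ≤ ((t / 2) ^ 2)⁻¹ := by
            apply inv_anti₀ (by positivity)
            exact pow_le_pow_left₀ (by positivity) ht'.1.le 2
          exact mul_le_mul this hx (norm_nonneg _) (by positivity)
        exact mul_le_mul (hM _) e1 (norm_nonneg _) hM0
      · rw [indicator_of_notMem hx]
        rw [Metric.mem_closedBall, dist_zero_right, not_le] at hx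
        have h6 : t'⁻¹ • x ∉ tsupport f := by
          intro h7
          have h8 := hρ h7
          rw [Metric.mem_closedBall, dist_zero_right, norm_smul, norm_inv, Real.norm_eq_abs,
            abs_of_pos ht0, inv_mul_le_iff₀ ht0] at h8
          have h9 : t' * ρ ≤ ρ' := by
            simp only [ρ']
            have := le_max_left ρ 0
            have h10 := le_max_right ρ 0
            calc t' * ρ ≤ t' * max ρ 0 := by gcongr
              _ ≤ (3 * t / 2) * max ρ 0 := by
                  apply mul_le_mul_of_nonneg_right ht'.2.le h10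
          linarith
        have h10 : fderiv ℝ f (t'⁻¹ • x) = 0 := fderiv_of_notMem_tsupport ℝ h6
        rw [h10]; simp
    · apply IntegrableOn.integrable_indicator _ measurableSet_closedBall
      exact integrableOn_const (measure_closedBall_lt_top).ne
    · refine Eventually.of_forall fun x t' ht' => ?_
      have ht0 : t' ≠ 0 := by
        have := ht'.1
        have : 0 < t' := by linarith
        exact this.ne'
      have h1 : HasDerivAt (fun t : ℝ => t⁻¹ • x) ((-(t' ^ 2)⁻¹) • x) t' :=
        (hasDerivAt_inv ht0).smul_const x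
      exact (hfd (t'⁻¹ • x)).comp_hasDerivAt t' h1
  -- constancy of `t^{-(n-1)} J(t)`
  set d := Module.finrank ℝ E - 1 with hd
  have hdc : (d : ℝ) = (Module.finrank ℝ E : ℝ) - 1 := d1_cast hn
  have hconst : ∀ t : ℝ, 0 < t →
      HasDerivAt (fun t : ℝ => (t ^ d)⁻¹ * ∫ x, f (t⁻¹ • x) ∂G.μ) 0 t := by
    intro t ht
    have e2 : HasDerivAt (fun r : ℝ => (r ^ d)⁻¹) (-(d : ℝ) * t ^ (d - 1) / (t ^ d) ^ 2) t := by
      have := (hasDerivAt_pow d t).inv (by positivity)
      refine this.congr_deriv ?_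
      ring
    refine (e2.mul (hJ t ht)).congr_deriv ?_
    rw [← hdc]
    rcases Nat.eq_zero_or_pos d with h0 | h0
    · rw [h0]; simp
    · obtain ⟨k, hk⟩ : ∃ k, d = k + 1 := ⟨d - 1, by omega⟩
      rw [hk]
      simp only [Nat.add_sub_cancel]
      field_simp
      ring
  have hc2 : (t ^ d)⁻¹ * ∫ x, f (t⁻¹ • x) ∂G.μ
      = ((1 : ℝ) ^ d)⁻¹ * ∫ x, f ((1 : ℝ)⁻¹ • x) ∂G.μ := by
    refine (convex_Ioi (0 : ℝ)).is_const_of_fderivWithin_eq_zero (𝕜 := ℝ)
      (f := fun t : ℝ => (t ^ d)⁻¹ * ∫ x, f (t⁻¹ • x) ∂G.μ) ?_ ?_ ht (one_pos (α := ℝ))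
    · intro s hs
      exact (hconst s hs).differentiableAt.differentiableWithinAt
    · intro s hs
      rw [fderivWithin_of_isOpen isOpen_Ioi hs]
      have := (hconst s hs).hasFDerivAt.fderiv
      rw [this]; simp
  simp only [one_pow, inv_one, one_smul, one_mul] at hc2
  rw [← hc2]
  field_simp

/-- vanishing radial defect implies homogeneity. -/
theorem homM_of_radNull {G : GV E} (hn : 1 ≤ Module.finrank ℝ E) (hG : G.StatOn univ)
    (hR : RadNull G) : HomM G.μ := by
  have := G.fin
  intro t ht f hf hc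
  set d := Module.finrank ℝ E - 1 with hd
  have hcomp : ∀ g : E → ℝ, HasCompactSupport g → HasCompactSupport (fun x => g (t⁻¹ • x)) := by
    intro g hg
    have := hasCompactSupport_zoom hg (0 : E) ht.ne'
    simpa using this
  set K1 := tsupport f
  set K2 := tsupport (fun x => f (t⁻¹ • x))
  set C := (G.μ K2).toReal + t ^ d * (G.μ K1).toReal + 1 with hC
  have hCpos : 0 < C := by positivity
  have key : ∀ ε : ℝ, 0 < ε → |(∫ x, f (t⁻¹ • x) ∂G.μ) - t ^ d * ∫ x, f x ∂G.μ| ≤ ε * C := by
    intro ε hε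
    obtain ⟨g, hg, hgf, hsup⟩ := hf.exists_contDiff_approx (1 : ℕ∞) (ε := fun _ => ε)
      continuous_const (fun _ => hε)
    have hg1 : ContDiff ℝ 1 g := hg
    have hsup' : tsupport g ⊆ K1 := closure_mono hsup
    have hgc : HasCompactSupport g := hc.mono hsup
    have h1 := homM_smooth hn hG hR hg1 hgc ht
    have hsd : HasCompactSupport (fun x => f x - g x) := hc.sub hgc
    have hgf' : ∀ x, |f x - g x| ≤ ε := by
      intro x
      have := hgf x
      rw [dist_comm, Real.dist_eq] at this
      exact this.le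
    have hcs3 : HasCompactSupport (fun x => f (t⁻¹ • x) - g (t⁻¹ • x)) :=
      hcomp (fun x => f x - g x) hsd
    have hct3 : Continuous (fun x => f (t⁻¹ • x) - g (t⁻¹ • x)) := by
      have h1 := hg1.continuous
      fun_prop
    have h2 : |∫ x, (f x - g x) ∂G.μ| ≤ ε * (G.μ (tsupport (fun x => f x - g x))).toReal :=
      integral_abs_le_sup G.μ (fun x => f x - g x) (hf.sub hg1.continuous) hsd hgf'
    have h3 : |∫ x, (f (t⁻¹ • x) - g (t⁻¹ • x)) ∂G.μ|
        ≤ ε * (G.μ (tsupport (fun x => f (t⁻¹ • x) - g (t⁻¹ • x)))).toReal :=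
      integral_abs_le_sup G.μ (fun x => f (t⁻¹ • x) - g (t⁻¹ • x)) hct3 hcs3
        (fun x => hgf' (t⁻¹ • x))
    have hK1 : G.μ K1 < ⊤ := hc.isCompact.measure_lt_top
    have hK2 : G.μ K2 < ⊤ := (hcomp _ hc).isCompact.measure_lt_top
    have h4 : (G.μ (tsupport (fun x => f x - g x))).toReal ≤ (G.μ K1).toReal := by
      apply ENNReal.toReal_mono hK1.ne
      apply measure_mono
      apply closure_mono
      intro x hx
      by_contra h0
      apply hx
      rw [Function.mem_support, not_not] at h0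
      have : g x = 0 := by
        by_contra h; exact (hsup h) h0
      simp [h0, this]
    have h5 : (G.μ (tsupport (fun x => f (t⁻¹ • x) - g (t⁻¹ • x)))).toReal
        ≤ (G.μ K2).toReal := by
      apply ENNReal.toReal_mono hK2.ne
      apply measure_mono
      apply closure_mono
      intro x hx
      by_contra h0
      apply hx
      rw [Function.mem_support, not_not] at h0
      have : g (t⁻¹ • x) = 0 := by
        by_contra h; exact (hsup h) h0
      simp [h0, this]
    have i1 : Integrable f G.μ := hf.integrable_of_hasCompactSupport hc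
    have i2 : Integrable g G.μ := hg1.continuous.integrable_of_hasCompactSupport hgc
    have i3 : Integrable (fun x => f (t⁻¹ • x)) G.μ :=
      (hf.comp (by fun_prop)).integrable_of_hasCompactSupport (hcomp _ hc)
    have i4 : Integrable (fun x => g (t⁻¹ • x)) G.μ :=
      (hg1.continuous.comp (by fun_prop)).integrable_of_hasCompactSupport (hcomp _ hgc)
    rw [integral_sub i1 i2] at h2
    rw [integral_sub i3 i4] at h3
    rw [abs_le] at h2 h3
    have h2' : ε * (G.μ (tsupport (fun x => f x - g x))).toReal ≤ ε * (G.μ K1).toReal := by gcongr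
    have h3' : ε * (G.μ (tsupport (fun x => f (t⁻¹ • x) - g (t⁻¹ • x)))).toReal
        ≤ ε * (G.μ K2).toReal := by gcongr
    have htd : 0 < t ^ d := by positivity
    have h6 : |t ^ d * ((∫ x, f x ∂G.μ) - ∫ x, g x ∂G.μ)| ≤ t ^ d * (ε * (G.μ K1).toReal) := by
      rw [abs_mul, abs_of_pos htd]
      gcongr
      rw [abs_le]; constructor <;> linarith
    rw [abs_le] at h6 ⊢
    rw [hC]
    constructor <;> nlinarith
  by_contra hne
  have hpos : 0 < |(∫ x, f (t⁻¹ • x) ∂G.μ) - t ^ d * ∫ x, f x ∂G.μ| :=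
    abs_pos.2 (sub_ne_zero.2 hne)
  have := key (|(∫ x, f (t⁻¹ • x) ∂G.μ) - t ^ d * ∫ x, f x ∂G.μ| / (2 * C)) (by positivity)
  have h7 : |(∫ x, f (t⁻¹ • x) ∂G.μ) - t ^ d * ∫ x, f x ∂G.μ| / (2 * C) * C
      = |(∫ x, f (t⁻¹ • x) ∂G.μ) - t ^ d * ∫ x, f x ∂G.μ| / 2 := by
    field_simp
  rw [h7] at this
  linarith

/-- constant density ratio (any function of `r` constant) gives vanishing defect -/
lemma Qd_zero_of_const {G : GV E} (hn : 1 ≤ Module.finrank ℝ E) (hG : G.StatOn univ)
    {h h1 : ℝ → ℝ} {K : ℝ} (P : Prof h h1 K) (p : E)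
    (hc : ∀ r s : ℝ, 0 < r → 0 < s → DR G.μ h p r = DR G.μ h p s) {r : ℝ} (hr : 0 < r) :
    Qd G h1 p r = 0 := by
  have h2 := hasDerivAt_DR hn hG P p hr
  have h3 : HasDerivAt (DR G.μ h p) 0 r := by
    refine (hasDerivAt_const r (DR G.μ h p r)).congr_of_eventuallyEq ?_
    filter_upwards [Ioi_mem_nhds hr] with s hs
    exact hc s r hs hr
  have h4 := h2.unique h3
  have h5 : (r ^ (d1 E + 1))⁻¹ ≠ 0 := by positivity
  exact (mul_eq_zero.1 h4).resolve_left h5

lemma radNull_of_const {G : GV E} (hn : 1 ≤ Module.finrank ℝ E) (hG : G.StatOn univ)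
    (hc : ∀ r s : ℝ, 0 < r → 0 < s → dens G.μ 2 0 r = dens G.μ 2 0 s) : RadNull G := by
  apply radNull_of_Qd
  intro r hr
  have P := prof_hk' 2 le_rfl
  have := Qd_zero_of_const hn hG P 0 (fun r s hr hs => hc r s hr hs) hr
  simpa using this

theorem stL4 (F : Type) [NormedAddCommGroup F] [InnerProductSpace ℝ F] [FiniteDimensional ℝ F]
    [MeasurableSpace F] [BorelSpace F] : StL4 F := by
  intro hn G hG hc
  exact homM_of_radNull (by omega) hG (radNull_of_const (by omega) hG hc)

lemma radNull_of_homM {G : GV E} (hn : 1 ≤ Module.finrank ℝ E) (hG : G.StatOn univ)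
    (hμ : HomM G.μ) : RadNull G := by
  apply radNull_of_const hn hG
  intro r s hr hs
  have P := prof_hk' 2 le_rfl
  rw [dens_eq_DR, dens_eq_DR, DR_homM hμ P 0 hr, DR_homM hμ P 0 hs]
  simp

end Crest.Agent.R246.G873
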