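import Crest.Agent.R246.UL_873
import Mathlib.Analysis.Calculus.ParametricIntegral
import Mathlib.Analysis.Calculus.MeanValue
import Mathlib.Analysis.InnerProductSpace.Calculus

/-!
# Monotonicity formula for functional varifolds
-/

set_option autoImplicit false
set_option linter.unusedSectionVars false
set_option linter.unusedVariables false
noncomputable section
open MeasureTheory Set Filter Topology
open scoped RealInnerProductSpace

namespace Crest.Agent.R246.G873

/-- admissible profiles -/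
structure Prof (h h1 : ℝ → ℝ) (K : ℝ) : Prop where
  hd : ∀ s, HasDerivAt h (h1 s) s
  hc : Continuous h1
  np : ∀ s, h1 s ≤ 0
  zero : ∀ s, K ≤ s → h s = 0
  zero1 : ∀ s, K ≤ s → h1 s = 0

lemma Prof.cont {h h1 : ℝ → ℝ} {K : ℝ} (P : Prof h h1 K) : Continuous h :=
  continuous_iff_continuousAt.2 fun s => (P.hd s).continuousAt

lemma Prof.nonneg {h h1 : ℝ → ℝ} {K : ℝ} (P : Prof h h1 K) (s : ℝ) : 0 ≤ h s := by
  have hanti : Antitone h := antitone_of_deriv_nonpos (fun s => (P.hd s).differentiableAt)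
    (fun s => by rw [(P.hd s).deriv]; exact P.np s)
  have h1' := hanti (le_max_left s K)
  rwa [P.zero _ (le_max_right s K)] at h1'

lemma hasDerivAt_max_pow (k : ℕ) (hk : 2 ≤ k) (t : ℝ) :
    HasDerivAt (fun t : ℝ => max t 0 ^ k) (k * max t 0 ^ (k - 1)) t := by
  rcases lt_trichotomy t 0 with h | h | h
  · have h1 : (fun t : ℝ => max t 0 ^ k) =ᶠ[𝓝 t] fun _ => 0 := by
      filter_upwards [Iio_mem_nhds h] with s hs
      rw [max_eq_right (le_of_lt hs), zero_pow (by omega)]
    rw [max_eq_right h.le, zero_pow (by omega), mul_zero]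
    exact (hasDerivAt_const t (0 : ℝ)).congr_of_eventuallyEq h1
  · subst h
    rw [max_self, zero_pow (by omega), mul_zero]
    rw [hasDerivAt_iff_isLittleO]
    simp only [max_self, sub_zero, smul_zero]
    rw [zero_pow (by omega : k ≠ 0)]
    simp only [sub_zero]
    have h2 : (fun x : ℝ => max x 0 ^ k) =O[𝓝 0] fun x : ℝ => x ^ 2 := by
      refine Asymptotics.IsBigO.of_bound 1 ?_
      have : ∀ᶠ x : ℝ in 𝓝 0, x < 1 := Iio_mem_nhds one_pos
      filter_upwards [this] with x hx
      rw [one_mul, Real.norm_eq_abs, Real.norm_eq_abs, abs_of_nonneg (by positivity),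
        abs_of_nonneg (by positivity)]
      rcases le_total x 0 with h0 | h0
      · rw [max_eq_right h0, zero_pow (by omega)]; positivity
      · rw [max_eq_left h0]
        exact pow_le_pow_of_le_one h0 hx.le hk
    refine h2.trans_isLittleO ?_
    have : (fun x : ℝ => x ^ 2) =o[𝓝 0] fun x : ℝ => x ^ 1 :=
      Asymptotics.isLittleO_pow_pow (by norm_num)
    simpa using this
  · have h1 : (fun t : ℝ => max t 0 ^ k) =ᶠ[𝓝 t] fun t => t ^ k := by
      filter_upwards [Ioi_mem_nhds h] with s hs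
      rw [max_eq_left (le_of_lt hs)]
    rw [max_eq_left h.le]
    exact (hasDerivAt_pow k t).congr_of_eventuallyEq h1

/-- the profile `(1 - s/k)_+^k`. -/
lemma prof_hk (k : ℕ) (hk : 2 ≤ k) :
    Prof (fun s => max (1 - s / k) 0 ^ k) (fun s => -(max (1 - s / k) 0 ^ (k - 1))) k := by
  have hk0 : (0 : ℝ) < k := by
    have : (2 : ℝ) ≤ k := by exact_mod_cast hk
    linarith
  refine ⟨fun s => ?_, by fun_prop, fun s => ?_, fun s hs => ?_, fun s hs => ?_⟩
  · have h1 := hasDerivAt_max_pow k hk (1 - s / k)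
    have h2 : HasDerivAt (fun s : ℝ => 1 - s / k) (-(1 / k)) s := by
      simpa using ((hasDerivAt_id s).div_const (k : ℝ)).const_sub 1
    have := h1.comp s h2
    have e : -(max (1 - s / (k : ℝ)) 0 ^ (k - 1))
        = (k : ℝ) * max (1 - s / k) 0 ^ (k - 1) * -(1 / k) := by
      field_simp
    rw [e]
    exact this
  · have : 0 ≤ max (1 - s / (k : ℝ)) 0 ^ (k - 1) := pow_nonneg (le_max_right _ _) _
    linarith
  · have : 1 - s / (k : ℝ) ≤ 0 := by
      rw [sub_nonpos, one_le_div hk0]; exact hs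
    show max (1 - s / (k : ℝ)) 0 ^ k = 0
    rw [max_eq_right this, zero_pow (by omega)]
  · have : 1 - s / (k : ℝ) ≤ 0 := by
      rw [sub_nonpos, one_le_div hk0]; exact hs
    show -(max (1 - s / (k : ℝ)) 0 ^ (k - 1)) = 0
    rw [max_eq_right this, zero_pow (by omega), neg_zero]

/-! ### dilations -/

variable {E : Type*} [NormedAddCommGroup E] [InnerProductSpace ℝ E] [FiniteDimensional ℝ E]
  [MeasurableSpace E] [BorelSpace E]

/-- `x ↦ (x - p)/r` as a homeomorphism -/
def zoom (p : E) (r : ℝ) (hr : r ≠ 0) : E ≃ₜ E :=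
  (Homeomorph.subRight p).trans (Homeomorph.smulOfNeZero r⁻¹ (inv_ne_zero hr))

lemma zoom_apply (p : E) (r : ℝ) (hr : r ≠ 0) (x : E) : zoom p r hr x = r⁻¹ • (x - p) := rfl

lemma hasCompactSupport_zoom {F : Type*} [Zero F] {f : E → F} (hf : HasCompactSupport f) (p : E)
    {r : ℝ} (hr : r ≠ 0) : HasCompactSupport (fun x => f (r⁻¹ • (x - p))) :=
  hf.comp_homeomorph (zoom p r hr)

lemma continuous_zoom {F : Type*} [TopologicalSpace F] {f : E → F} (hf : Continuous f) (p : E)
    (r : ℝ) : Continuous (fun x => f (r⁻¹ • (x - p))) := by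
  exact hf.comp (by fun_prop)

/-- the exponent `n - 1` -/
abbrev d1 (E : Type*) [NormedAddCommGroup E] [InnerProductSpace ℝ E] : ℕ :=
  Module.finrank ℝ E - 1

/-- blow-up of a varifold at `p` with scale `r`. -/
def GV.dil (G : GV E) (p : E) (r : ℝ) (hr : 0 < r) : GV E where
  μ := ENNReal.ofReal ((r ^ d1 E)⁻¹) • G.μ.map (zoom p r hr.ne')
  S := fun F => (r ^ d1 E)⁻¹ * G.S (fun x => F (r⁻¹ • (x - p)))
  fin := by
    have := G.fin
    have h := MeasureTheory.Measure.IsFiniteMeasureOnCompacts.map G.μ (zoom p r hr.ne')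
    exact IsFiniteMeasureOnCompacts.smul _ ENNReal.ofReal_ne_top
  S_add := by
    intro F H hF hcF hH hcH
    rw [G.S_add (fun x => F (r⁻¹ • (x - p))) (fun x => H (r⁻¹ • (x - p)))
      (continuous_zoom hF p r) (hasCompactSupport_zoom hcF p hr.ne')
      (continuous_zoom hH p r) (hasCompactSupport_zoom hcH p hr.ne')]
    ring
  S_smul := by
    intro c F hF hcF
    rw [G.S_smul c (fun x => F (r⁻¹ • (x - p))) (continuous_zoom hF p r)
      (hasCompactSupport_zoom hcF p hr.ne')]
    ring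
  S_symm := by
    intro v w hv hw hcv
    rw [G.S_symm (fun x => v (r⁻¹ • (x - p))) (fun x => w (r⁻¹ • (x - p)))
      (continuous_zoom hv p r) (continuous_zoom hw p r) (hasCompactSupport_zoom hcv p hr.ne')]
  S_nonneg := by
    intro v hv hcv
    exact mul_nonneg (by positivity) (G.S_nonneg (fun x => v (r⁻¹ • (x - p)))
      (continuous_zoom hv p r) (hasCompactSupport_zoom hcv p hr.ne'))
  S_le := by
    intro v hv hcv
    rw [integral_smul_measure, (zoom p r hr.ne').measurableEmbedding.integral_map,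
      ENNReal.toReal_ofReal (by positivity), smul_eq_mul]
    exact mul_le_mul_of_nonneg_left (G.S_le (fun x => v (r⁻¹ • (x - p)))
      (continuous_zoom hv p r) (hasCompactSupport_zoom hcv p hr.ne')) (by positivity)
  S_one := by
    intro f hf hc
    rw [integral_smul_measure, (zoom p r hr.ne').measurableEmbedding.integral_map,
      ENNReal.toReal_ofReal (by positivity), smul_eq_mul]
    rw [G.S_one (fun x => f (r⁻¹ • (x - p))) (continuous_zoom hf p r)
      (hasCompactSupport_zoom hc p hr.ne')]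
    rfl

lemma dil_integral (G : GV E) (p : E) {r : ℝ} (hr : 0 < r) (f : E → ℝ) :
    ∫ x, f x ∂(G.dil p r hr).μ = (r ^ d1 E)⁻¹ * ∫ x, f (r⁻¹ • (x - p)) ∂G.μ := by
  show ∫ x, f x ∂(ENNReal.ofReal ((r ^ d1 E)⁻¹) • G.μ.map (zoom p r hr.ne')) = _
  rw [integral_smul_measure, (zoom p r hr.ne').measurableEmbedding.integral_map,
    ENNReal.toReal_ofReal (by positivity), smul_eq_mul]
  rfl

lemma dil_null (G : GV E) (p : E) {r : ℝ} (hr : 0 < r) {s : Set E}
    (h : G.μ ((fun x => r⁻¹ • (x - p)) ⁻¹' s) = 0) : (G.dil p r hr).μ s = 0 := by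
  show (ENNReal.ofReal ((r ^ d1 E)⁻¹) • G.μ.map (zoom p r hr.ne')) s = 0
  rw [Measure.smul_apply, (zoom p r hr.ne').measurableEmbedding.map_apply]
  simp only [smul_eq_mul, mul_eq_zero]
  right
  exact h

lemma fderiv_zoom {F : Type*} [NormedAddCommGroup F] [NormedSpace ℝ F] {X : E → F}
    (hX : Differentiable ℝ X) (p : E) (r : ℝ) (x : E) :
    fderiv ℝ (fun x => X (r⁻¹ • (x - p))) x = r⁻¹ • fderiv ℝ X (r⁻¹ • (x - p)) := by
  have h1 : HasFDerivAt (fun x : E => r⁻¹ • (x - p)) (r⁻¹ • ContinuousLinearMap.id ℝ E) x :=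
    ((hasFDerivAt_id x).sub_const p).const_smul r⁻¹
  have h2 := (hX (r⁻¹ • (x - p))).hasFDerivAt.comp x h1
  have h3 : fderiv ℝ (fun x => X (r⁻¹ • (x - p))) x = _ := h2.fderiv
  rw [h3]
  ext y
  simp

lemma dv_zoom {X : E → E} (hX : Differentiable ℝ X) (p : E) (r : ℝ) (x : E) :
    dv (fun x => X (r⁻¹ • (x - p))) x = r⁻¹ * dv X (r⁻¹ • (x - p)) := by
  unfold dv
  rw [fderiv_zoom hX]
  simp

lemma StatOn.dil {G : GV E} {V : Set E} (hG : G.StatOn V) (p : E) {r : ℝ} (hr : 0 < r) :
    (G.dil p r hr).StatOn {x | p + r • x ∈ V} := by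
  intro X hX hc hsub
  rw [dil_integral]
  have hXd : Differentiable ℝ X := hX.differentiable one_ne_zero
  have h1 := hG (fun x => X (r⁻¹ • (x - p))) (hX.comp (by fun_prop))
    (hasCompactSupport_zoom hc p hr.ne') (by
      intro x hx
      have h2 : tsupport (fun x => X (r⁻¹ • (x - p))) ⊆ (zoom p r hr.ne') ⁻¹' tsupport X := by
        apply closure_minimal
        · intro y hy
          exact subset_tsupport X hy
        · exact (isClosed_tsupport X).preimage (zoom p r hr.ne').continuous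
      have h3 := hsub (h2 hx)
      simp only [mem_ofPred_eq, zoom_apply] at h3
      rw [smul_smul, mul_inv_cancel₀ hr.ne', one_smul] at h3
      simpa using h3)
  have h2 : ∀ x, dv (fun x => X (r⁻¹ • (x - p))) x = r⁻¹ * dv X (r⁻¹ • (x - p)) := dv_zoom hXd p r
  have h3 : fderiv ℝ (fun x => X (r⁻¹ • (x - p)))
      = fun x => r⁻¹ • fderiv ℝ X (r⁻¹ • (x - p)) := by
    ext x : 1; exact fderiv_zoom hXd p r x
  simp only [h2] at h1
  rw [h3, G.S_smul r⁻¹ (fun x => fderiv ℝ X (r⁻¹ • (x - p)))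
    (continuous_zoom (hX.continuous_fderiv one_ne_zero) p r)
    (hasCompactSupport_zoom (hc.fderiv ℝ) p hr.ne'), integral_const_mul] at h1
  have h4 : (r⁻¹ : ℝ) ≠ 0 := inv_ne_zero hr.ne'
  have h5 := mul_left_cancel₀ h4 h1
  rw [h5]
  rfl

end Crest.Agent.R246.G873
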