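import Crest.Agent.R246.Stress_638
import Mathlib.Analysis.Calculus.ParametricIntegral
import Mathlib.MeasureTheory.Function.LocallyIntegrable

/-!
Row 246 (helper638): weighted monotonicity formula for Allen–Cahn solutions in the flat weighted form.
-/

set_option autoImplicit false

open Filter Topology Metric Set MeasureTheory
open scoped ContDiff
open Crest.GeometryTopology.CoordMetric Crest.GeometryTopology.AffineMaximal
open Crest.Agent.R236.Jet Crest.Agent.R246.D2x782 Crest.Agent.R246.Lim538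
open Crest.Agent.R246.Stress638

noncomputable section

namespace Crest.Agent.R246.Mon638

variable {n : ℕ}

local notation "EE" => EuclideanSpace ℝ (Fin n)

/-- admissible radial profile (function of `|x-p|²/s²`) -/
structure Prof (χ : ℝ → ℝ) : Prop where
  cd : ContDiff ℝ 1 χ
  zero : ∀ t, 1 ≤ t → χ t = 0
  anti : ∀ t, 0 ≤ t → deriv χ t ≤ 0

/-- `|x-p|²` -/
def N2 (p x : EuclideanSpace ℝ (Fin n)) : ℝ := ‖x - p‖ ^ 2

/-- radial derivative `⟨∇f x, x-p⟩` -/
def rad (f : EuclideanSpace ℝ (Fin n) → ℝ) (p x : EuclideanSpace ℝ (Fin n)) : ℝ :=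
  ∑ i, pderiv i f x * (x i - p i)

theorem Prof.deriv_zero {χ : ℝ → ℝ} (h : Prof χ) (t : ℝ) (ht : 1 ≤ t) : deriv χ t = 0 := by
  have hc : Continuous (deriv χ) := h.cd.continuous_deriv le_rfl
  have h1 : ∀ t ∈ Ioi (1 : ℝ), deriv χ t = 0 := by
    intro t ht
    have : χ =ᶠ[𝓝 t] fun _ => 0 := by
      filter_upwards [Ioi_mem_nhds ht] with s hs using h.zero s (le_of_lt hs)
    rw [this.deriv_eq]; simp
  have h2 : closure (Ioi (1 : ℝ)) ⊆ {t | deriv χ t = 0} :=
    closure_minimal h1 (isClosed_eq hc continuous_const)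
  rw [closure_Ioi] at h2
  exact h2 ht

theorem Prof.nonneg {χ : ℝ → ℝ} (h : Prof χ) (t : ℝ) (ht : 0 ≤ t) : 0 ≤ χ t := by
  have hd : Differentiable ℝ χ := h.cd.differentiable one_ne_zero
  have ha : AntitoneOn χ (Ici 0) := antitoneOn_of_deriv_nonpos (convex_Ici 0)
    h.cd.continuous.continuousOn hd.differentiableOn (fun x hx => by
      rw [interior_Ici] at hx; exact h.anti x (le_of_lt hx))
  have h1 : χ (max t 1) ≤ χ t := ha ht (mem_Ici.2 (le_max_of_le_left ht)) (le_max_left _ _)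
  rwa [h.zero _ (le_max_right _ _)] at h1

theorem N2_nonneg (p x : EE) : 0 ≤ N2 p x := by unfold N2; positivity

theorem N2_eq (p x : EE) : N2 p x = ∑ i, (x i - p i) * (x i - p i) := by
  rw [N2, ← nsq_eq, nsq]; simp

theorem contDiff_N2 (p : EE) : ContDiff ℝ ∞ (N2 p) := by
  unfold N2
  exact (contDiff_id.sub contDiff_const).norm_sq ℝ

theorem pderiv_N2 (p x : EE) (i : Fin n) : pderiv i (N2 p) x = 2 * (x i - p i) := by
  have e : N2 p = fun x => ∑ i, (x i - p i) * (x i - p i) := by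
    funext x; exact N2_eq p x
  have dk : ∀ k : Fin n, DifferentiableAt ℝ (fun y : EE => y k - p k) x := fun k =>
    (sm_diff (smooth_coord k x)).sub_const _
  rw [e, pderiv_sum (f := fun (k : Fin n) (y : EE) => (y k - p k) * (y k - p k))
    (fun k _ => (dk k).mul (dk k))]
  have h3 : ∀ k : Fin n, pderiv i (fun y : EE => (y k - p k) * (y k - p k)) x =
      if k = i then 2 * (x k - p k) else 0 := by
    intro k
    rw [pderiv_mul (dk k) (dk k), pderiv_sub (sm_diff (smooth_coord k x))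
      (differentiableAt_const _), pderiv_coord, pderiv_const]
    split_ifs <;> ring
  rw [Finset.sum_congr rfl fun k _ => h3 k, Finset.sum_ite_eq' Finset.univ i]
  simp

/-- a compactly supported continuous function of `|x-p|²/s²` -/
theorem cont_radial {g : ℝ → ℝ} (hg : Continuous g) (p : EE) (s : ℝ) :
    Continuous fun x => g (N2 p x / s ^ 2) :=
  hg.comp ((contDiff_N2 p).continuous.div_const _)

theorem tsupport_radial {g : ℝ → ℝ} (hg0 : ∀ t, 1 ≤ t → g t = 0) (p : EE) {s : ℝ} (hs : 0 < s) :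
    tsupport (fun x => g (N2 p x / s ^ 2)) ⊆ closedBall p s := by
  refine closure_minimal ?_ isClosed_closedBall
  intro x hx
  rw [Function.mem_support] at hx
  rw [mem_closedBall_iff_norm]
  by_contra h
  push Not at h
  apply hx
  apply hg0
  rw [le_div_iff₀ (by positivity), one_mul, N2]
  exact pow_le_pow_left₀ hs.le h.le 2

theorem compact_radial {g : ℝ → ℝ} (hg0 : ∀ t, 1 ≤ t → g t = 0) (p : EE) {s : ℝ} (hs : 0 < s) :
    HasCompactSupport (fun x => g (N2 p x / s ^ 2)) :=
  (isCompact_closedBall p s).of_isClosed_subset (isClosed_tsupport _) (tsupport_radial hg0 p hs)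

theorem integrable_radial {U : Set EE} (hU : IsOpen U) {f : EE → ℝ} (hf : ContinuousOn f U)
    {g : ℝ → ℝ} (hg : Continuous g) (hg0 : ∀ t, 1 ≤ t → g t = 0) {p : EE} {s : ℝ} (hs : 0 < s)
    (hb : closedBall p s ⊆ U) : Integrable fun x => g (N2 p x / s ^ 2) * f x := by
  have := integrable_mul_of_tsupport hU hf (cont_radial hg p s) (compact_radial hg0 p hs)
    ((tsupport_radial hg0 p hs).trans hb)
  refine this.congr (ae_of_all _ fun x => ?_)
  simp only [mul_comm]

/-- the radial field -/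
def fld (χ : ℝ → ℝ) (p : EuclideanSpace ℝ (Fin n)) (s : ℝ) (i : Fin n)
    (x : EuclideanSpace ℝ (Fin n)) : ℝ := χ (N2 p x / s ^ 2) * (x i - p i)

theorem cut_fld {χ : ℝ → ℝ} (h : Prof χ) {U : Set EE} {p : EE} {s : ℝ} (hs : 0 < s)
    (hb : closedBall p s ⊆ U) (i : Fin n) : Cut U (fld χ p s i) where
  cd := by
    unfold fld
    refine (h.cd.comp (((contDiff_N2 p).of_le (by simp)).div_const _)).mul ?_
    exact ((EuclideanSpace.proj i : EE →L[ℝ] ℝ).contDiff).sub contDiff_const
  cs := by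
    unfold fld
    exact (compact_radial h.zero p hs).mul_right
  sub := by
    have : tsupport (fld χ p s i) ⊆ tsupport (fun x => χ (N2 p x / s ^ 2)) := by
      unfold fld
      exact tsupport_mul_subset_left
    exact (this.trans (tsupport_radial h.zero p hs)).trans hb

theorem pderiv_fld {χ : ℝ → ℝ} (h : Prof χ) (p : EE) (s : ℝ) (i j : Fin n) (x : EE) :
    pderiv j (fld χ p s i) x = χ (N2 p x / s ^ 2) * (if i = j then 1 else 0)
      + (x i - p i) * (deriv χ (N2 p x / s ^ 2) * (2 * (x j - p j) / s ^ 2)) := by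
  have dN : DifferentiableAt ℝ (fun y : EE => N2 p y / s ^ 2) x := by
    simpa only [div_eq_mul_inv] using
      (((contDiff_N2 p).differentiable (by simp)) x).mul_const ((s ^ 2)⁻¹)
  have hd : HasDerivAt χ (deriv χ (N2 p x / s ^ 2)) (N2 p x / s ^ 2) :=
    ((h.cd.differentiable one_ne_zero) _).hasDerivAt
  have d1 : DifferentiableAt ℝ (fun y : EE => χ (N2 p y / s ^ 2)) x :=
    ((h.cd.differentiable one_ne_zero) _).comp x dN
  have d2 : DifferentiableAt ℝ (fun y : EE => y i - p i) x :=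
    (sm_diff (smooth_coord i x)).sub_const _
  have e : fld χ p s i = fun y => χ (N2 p y / s ^ 2) * (y i - p i) := rfl
  rw [e, pderiv_mul d1 d2, pderiv_comp (f := fun y => N2 p y / s ^ 2) hd dN,
    pderiv_sub (sm_diff (smooth_coord i x)) (differentiableAt_const _), pderiv_coord, pderiv_const]
  have e2 : (fun y : EE => N2 p y / s ^ 2) = fun y => (1 / s ^ 2) * N2 p y := by
    funext y; ring
  rw [e2, pderiv_cmul (((contDiff_N2 p).differentiable (by simp)) x), pderiv_N2]
  ring

/-- mass with profile -/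
def FF (χ : ℝ → ℝ) (h r : EuclideanSpace ℝ (Fin n) → ℝ) (ε : ℝ) (p : EuclideanSpace ℝ (Fin n))
    (s : ℝ) : ℝ := ∫ x, χ (N2 p x / s ^ 2) * qq h r ε x

variable {U : Set (EuclideanSpace ℝ (Fin n))} {h r : EuclideanSpace ℝ (Fin n) → ℝ} {ε : ℝ}

theorem contOn_qq (A : ACSol U h r ε) : ContinuousOn (qq h r ε) U := fun _ hx =>
  (smoothAt_qq (A.smooth_h.contDiffAt (A.isOpen.mem_nhds hx))
    (A.smooth_r.contDiffAt (A.isOpen.mem_nhds hx))).continuousAt.continuousWithinAt

theorem contOn_sg (A : ACSol U h r ε) : ContinuousOn (sg r ε) U := fun _ hx =>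
  (smoothAt_sg (A.smooth_r.contDiffAt (A.isOpen.mem_nhds hx))).continuousAt.continuousWithinAt

theorem contOn_gsq (A : ACSol U h r ε) : ContinuousOn (gsq r) U := fun _ hx =>
  (smoothAt_gsq (A.smooth_r.contDiffAt (A.isOpen.mem_nhds hx))).continuousAt.continuousWithinAt

theorem contOn_rad {f : EE → ℝ} (hU : IsOpen U) (hf : ContDiffOn ℝ ∞ f U) (p : EE) :
    ContinuousOn (rad f p) U := by
  intro x hx
  have hfx := hf.contDiffAt (hU.mem_nhds hx)
  unfold rad
  refine ContinuousAt.continuousWithinAt ?_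
  refine tendsto_finsetSum _ fun i _ => ?_
  exact (sm_pderiv hfx i).continuousAt.mul
    ((smooth_coord i x).continuousAt.sub continuousAt_const)

/-- **radial identity**: with `y = x - p`,
`-2 ∫ χ' (N/s²) q = (n-1) ∫ χ q + ½ ∫ χ σ (h - |∇r|²) - (2/s²) ∫ χ' σ (y·∇r)² + ½ ∫ χ σ (y·∇h)`. -/
theorem radial_identity (A : ACSol U h r ε) {χ : ℝ → ℝ} (hχ : Prof χ) {p : EE} {s : ℝ}
    (hs : 0 < s) (hb : closedBall p s ⊆ U) :
    -2 * ∫ x, (deriv χ (N2 p x / s ^ 2) * (N2 p x / s ^ 2)) * qq h r ε x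
      = ((n : ℝ) - 1) * FF χ h r ε p s
        + 1 / 2 * (∫ x, χ (N2 p x / s ^ 2) * (sg r ε x * (h x - gsq r x)))
        - 2 / s ^ 2 * (∫ x, deriv χ (N2 p x / s ^ 2) * (sg r ε x * rad r p x ^ 2))
        + 1 / 2 * (∫ x, χ (N2 p x / s ^ 2) * (sg r ε x * rad h p x)) := by
  have hst := stress_identity A (X := fld χ p s) (cut_fld hχ hs hb)
  have hU := A.isOpen
  have hχ' : Continuous (deriv χ) := hχ.cd.continuous_deriv le_rfl
  have cq := contOn_qq A
  have cs := contOn_sg A
  have cg := contOn_gsq A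
  have cr := contOn_rad hU A.smooth_r p
  have chh := contOn_rad hU A.smooth_h p
  have ch := A.smooth_h.continuousOn
  have I1 : Integrable fun x => (deriv χ (N2 p x / s ^ 2) * (N2 p x / s ^ 2)) * qq h r ε x :=
    integrable_radial (g := fun t => deriv χ t * t) hU cq (hχ'.mul continuous_id)
      (fun t ht => by rw [hχ.deriv_zero t ht, zero_mul]) hs hb
  have I2 : Integrable fun x => χ (N2 p x / s ^ 2) * qq h r ε x :=
    integrable_radial hU cq hχ.cd.continuous hχ.zero hs hb
  have I3 : Integrable fun x => χ (N2 p x / s ^ 2) * (sg r ε x * (h x - gsq r x)) :=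
    integrable_radial hU (cs.mul (ch.sub cg)) hχ.cd.continuous hχ.zero hs hb
  have I4 : Integrable fun x => deriv χ (N2 p x / s ^ 2) * (sg r ε x * rad r p x ^ 2) :=
    integrable_radial hU (cs.mul (cr.pow 2)) hχ' hχ.deriv_zero hs hb
  have I5 : Integrable fun x => χ (N2 p x / s ^ 2) * (sg r ε x * rad h p x) :=
    integrable_radial hU (cs.mul chh) hχ.cd.continuous hχ.zero hs hb
  have hs2 : s ^ 2 ≠ 0 := by positivity
  -- left-hand side of the stress identity
  have e1 : ∀ x, qq h r ε x * ∑ i, pderiv i (fld χ p s i) x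
        - ∑ i, ∑ j, SS r ε i j x * pderiv j (fld χ p s i) x
      = ((n : ℝ) - 1) * (χ (N2 p x / s ^ 2) * qq h r ε x)
        + 2 * ((deriv χ (N2 p x / s ^ 2) * (N2 p x / s ^ 2)) * qq h r ε x)
        + 1 / 2 * (χ (N2 p x / s ^ 2) * (sg r ε x * (h x - gsq r x)))
        - 2 / s ^ 2 * (deriv χ (N2 p x / s ^ 2) * (sg r ε x * rad r p x ^ 2)) := by
    intro x
    set a := χ (N2 p x / s ^ 2) with ha
    set b := deriv χ (N2 p x / s ^ 2) with hb'
    have f1 : ∑ i, pderiv i (fld χ p s i) x = n * a + 2 * b * (N2 p x / s ^ 2) := by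
      have : ∀ i, pderiv i (fld χ p s i) x = a + (2 * b / s ^ 2) * ((x i - p i) * (x i - p i)) := by
        intro i
        rw [pderiv_fld hχ, if_pos rfl, ← ha, ← hb']
        ring
      rw [Finset.sum_congr rfl fun i _ => this i, Finset.sum_add_distrib, ← Finset.mul_sum, ← N2_eq]
      simp only [Finset.sum_const, Finset.card_univ, Fintype.card_fin, nsmul_eq_mul]
      ring
    have f2 : ∑ i, ∑ j, SS r ε i j x * pderiv j (fld χ p s i) x
        = sg r ε x * (a * gsq r x + (2 * b / s ^ 2) * rad r p x ^ 2) := by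
      have g1 : ∀ i j, SS r ε i j x * pderiv j (fld χ p s i) x =
          sg r ε x * (a * (pderiv i r x * pderiv j r x * (if i = j then 1 else 0)))
          + sg r ε x * ((2 * b / s ^ 2) * ((pderiv i r x * (x i - p i)) *
            (pderiv j r x * (x j - p j)))) := by
        intro i j
        rw [pderiv_fld hχ, ← ha, ← hb', SS]
        ring
      have g2 : ∀ i, ∑ j, SS r ε i j x * pderiv j (fld χ p s i) x =
          sg r ε x * (a * (pderiv i r x * pderiv i r x))
          + sg r ε x * ((2 * b / s ^ 2) * ((pderiv i r x * (x i - p i)) * rad r p x)) := by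
        intro i
        rw [Finset.sum_congr rfl fun j _ => g1 i j, Finset.sum_add_distrib, ← Finset.mul_sum,
          ← Finset.mul_sum, ← Finset.mul_sum, ← Finset.mul_sum, ← Finset.mul_sum]
        congr 2
        simp
      rw [Finset.sum_congr rfl fun i _ => g2 i, Finset.sum_add_distrib, ← Finset.mul_sum,
        ← Finset.mul_sum, ← Finset.mul_sum, ← Finset.mul_sum, ← Finset.sum_mul, mul_add]
      congr 2
      change (2 * b / s ^ 2) * (rad r p x * rad r p x) = _
      ring
    rw [f1, f2, qq_eq]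
    ring
  have e2 : ∀ x, 1 / 2 * sg r ε x * ∑ i, pderiv i h x * fld χ p s i x
      = 1 / 2 * (χ (N2 p x / s ^ 2) * (sg r ε x * rad h p x)) := by
    intro x
    have : ∑ i, pderiv i h x * fld χ p s i x = χ (N2 p x / s ^ 2) * rad h p x := by
      rw [rad, Finset.mul_sum]
      refine Finset.sum_congr rfl fun i _ => ?_
      rw [fld]; ring
    rw [this]; ring
  rw [integral_congr_ae (ae_of_all _ e1), integral_congr_ae (ae_of_all _ e2)] at hst
  have K2 : Integrable fun x => ((n : ℝ) - 1) * (χ (N2 p x / s ^ 2) * qq h r ε x) := I2.const_mul _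
  have K1 : Integrable fun x =>
      2 * ((deriv χ (N2 p x / s ^ 2) * (N2 p x / s ^ 2)) * qq h r ε x) := I1.const_mul _
  have K3 : Integrable fun x =>
      1 / 2 * (χ (N2 p x / s ^ 2) * (sg r ε x * (h x - gsq r x))) := I3.const_mul _
  have K4 : Integrable fun x =>
      2 / s ^ 2 * (deriv χ (N2 p x / s ^ 2) * (sg r ε x * rad r p x ^ 2)) := I4.const_mul _
  have K21 : Integrable fun x => ((n : ℝ) - 1) * (χ (N2 p x / s ^ 2) * qq h r ε x)
      + 2 * ((deriv χ (N2 p x / s ^ 2) * (N2 p x / s ^ 2)) * qq h r ε x) := K2.add K1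
  have K213 : Integrable fun x => ((n : ℝ) - 1) * (χ (N2 p x / s ^ 2) * qq h r ε x)
      + 2 * ((deriv χ (N2 p x / s ^ 2) * (N2 p x / s ^ 2)) * qq h r ε x)
      + 1 / 2 * (χ (N2 p x / s ^ 2) * (sg r ε x * (h x - gsq r x))) := K21.add K3
  rw [integral_sub K213 K4, integral_add K21 K3, integral_add K2 K1, integral_const_mul,
    integral_const_mul, integral_const_mul, integral_const_mul, integral_const_mul] at hst
  rw [FF]
  linarith

/-- bound of the derivative of a profile on `[0,∞)` -/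
theorem Prof.bound {χ : ℝ → ℝ} (h : Prof χ) : ∃ M, 0 ≤ M ∧ ∀ t, 0 ≤ t → |deriv χ t| ≤ M := by
  obtain ⟨M, hM⟩ := (isCompact_Icc (a := (0 : ℝ)) (b := 1)).exists_bound_of_continuousOn
    (h.cd.continuous_deriv le_rfl).continuousOn
  refine ⟨max M 0, le_max_right _ _, fun t ht => ?_⟩
  by_cases h1 : t ≤ 1
  · exact (hM t ⟨ht, h1⟩).trans (le_max_left _ _)
  · rw [h.deriv_zero t (le_of_not_ge h1), abs_zero]; exact le_max_right _ _

/-- derivative of the mass in the radius -/
theorem hasDerivAt_FF (A : ACSol U h r ε) {χ : ℝ → ℝ} (hχ : Prof χ) {p : EE} {s s₀ : ℝ}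
    (hs : 0 < s) (hss : s < s₀) (hb : closedBall p s₀ ⊆ U) :
    HasDerivAt (FF χ h r ε p)
      (-2 / s * ∫ x, (deriv χ (N2 p x / s ^ 2) * (N2 p x / s ^ 2)) * qq h r ε x) s := by
  have hU := A.isOpen
  have cq := contOn_qq A
  have hχ' : Continuous (deriv χ) := hχ.cd.continuous_deriv le_rfl
  obtain ⟨M, hM0, hM⟩ := hχ.bound
  have hb' : ∀ t, t ≤ s₀ → closedBall p t ⊆ U := fun t ht => (closedBall_subset_closedBall ht).trans hb
  set F' : ℝ → EE → ℝ := fun t x =>
    (deriv χ (N2 p x / t ^ 2) * (-2 * N2 p x / t ^ 3)) * qq h r ε x with hF'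
  have hnhds : Ioo (s / 2) s₀ ∈ 𝓝 s := Ioo_mem_nhds (by linarith) hss
  have hmeas : ∀ᶠ t in 𝓝 s, AEStronglyMeasurable (fun x => χ (N2 p x / t ^ 2) * qq h r ε x)
      (volume : Measure EE) := by
    filter_upwards [hnhds] with t ht
    exact (integrable_radial hU cq hχ.cd.continuous hχ.zero (by linarith [ht.1])
      (hb' t ht.2.le)).aestronglyMeasurable
  have hint := integrable_radial hU cq hχ.cd.continuous hχ.zero hs (hb' s hss.le)
  have hF's : (fun x => F' s x) = fun x =>
      (-2 / s) * ((deriv χ (N2 p x / s ^ 2) * (N2 p x / s ^ 2)) * qq h r ε x) := by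
    funext x; simp only [hF']; field_simp
  have hint' : Integrable (fun x => (deriv χ (N2 p x / s ^ 2) * (N2 p x / s ^ 2)) * qq h r ε x) :=
    integrable_radial (g := fun t => deriv χ t * t) hU cq (hχ'.mul continuous_id)
      (fun t ht => by rw [hχ.deriv_zero t ht, zero_mul]) hs (hb' s hss.le)
  have hF'meas : AEStronglyMeasurable (F' s) (volume : Measure EE) := by
    have : AEStronglyMeasurable (fun x => F' s x) (volume : Measure EE) := by
      rw [hF's]; exact (hint'.const_mul _).aestronglyMeasurable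
    exact this
  have hqi : IntegrableOn (qq h r ε) (closedBall p s₀) volume :=
    (cq.mono hb).integrableOn_compact (isCompact_closedBall p s₀)
  set bound : EE → ℝ := (closedBall p s₀).indicator
    (fun x => (M * (8 * s₀ ^ 2 * 2 / s ^ 3)) * |qq h r ε x|) with hbound
  have hbi : Integrable bound volume := by
    rw [hbound, integrable_indicator_iff isClosed_closedBall.measurableSet]
    exact hqi.abs.const_mul _
  have key := hasDerivAt_integral_of_dominated_loc_of_deriv_le
    (μ := (volume : Measure EE)) (F := fun t x => χ (N2 p x / t ^ 2) * qq h r ε x)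
    (x₀ := s) (s := Ioo (s / 2) s₀) (F' := F') (bound := bound) hnhds hmeas hint hF'meas ?_ hbi ?_
  · have h2 := key.2
    have e : ∫ x, F' s x = -2 / s * ∫ x, (deriv χ (N2 p x / s ^ 2) * (N2 p x / s ^ 2)) * qq h r ε x := by
      rw [hF's, integral_const_mul]
    rw [e] at h2
    exact h2
  · refine ae_of_all _ fun x t ht => ?_
    have ht0 : 0 < t := by linarith [ht.1]
    by_cases hx : x ∈ closedBall p s₀
    · rw [hbound, indicator_of_mem hx, Real.norm_eq_abs]
      simp only [hF']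
      rw [abs_mul, abs_mul]
      have hN : N2 p x ≤ s₀ ^ 2 := by
        rw [mem_closedBall_iff_norm] at hx
        unfold N2
        exact pow_le_pow_left₀ (norm_nonneg _) hx 2
      have h1 : |deriv χ (N2 p x / t ^ 2)| ≤ M := hM _ (div_nonneg (N2_nonneg p x) (by positivity))
      have h2 : |-2 * N2 p x / t ^ 3| ≤ 8 * s₀ ^ 2 * 2 / s ^ 3 := by
        rw [abs_div, abs_mul, abs_of_nonneg (N2_nonneg p x), abs_neg, abs_two,
          abs_of_pos (by positivity : (0 : ℝ) < t ^ 3), div_le_div_iff₀ (by positivity) (by positivity)]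
        have h3 : s ^ 3 ≤ 8 * t ^ 3 := by
          have : s ≤ 2 * t := by linarith [ht.1]
          calc s ^ 3 ≤ (2 * t) ^ 3 := pow_le_pow_left₀ hs.le this 3
            _ = 8 * t ^ 3 := by ring
        calc 2 * N2 p x * s ^ 3 ≤ 2 * s₀ ^ 2 * (8 * t ^ 3) := by
              apply mul_le_mul (by linarith) h3 (by positivity) (by positivity)
          _ = 8 * s₀ ^ 2 * 2 * t ^ 3 := by ring
      exact mul_le_mul_of_nonneg_right (mul_le_mul h1 h2 (abs_nonneg _) hM0) (abs_nonneg _)
    · have hx1 : s₀ < ‖x - p‖ := by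
        rw [mem_closedBall_iff_norm] at hx; exact lt_of_not_ge hx
      have h1 : 1 ≤ N2 p x / t ^ 2 := by
        rw [le_div_iff₀ (by positivity), one_mul, N2]
        exact pow_le_pow_left₀ ht0.le (by linarith [ht.2]) 2
      rw [hbound, indicator_of_notMem hx]
      simp only [hF']
      rw [hχ.deriv_zero _ h1]; simp
  · refine ae_of_all _ fun x t ht => ?_
    have ht0 : t ≠ 0 := by
      have : 0 < t := by linarith [ht.1]
      exact this.ne'
    have h1 : HasDerivAt (fun t : ℝ => N2 p x / t ^ 2) (-2 * N2 p x / t ^ 3) t := by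
      have h2 : HasDerivAt (fun t : ℝ => t ^ 2) (2 * t) t := by
        simpa using hasDerivAt_pow 2 t
      have h3 := (hasDerivAt_const t (N2 p x)).fun_div h2 (pow_ne_zero 2 ht0)
      refine h3.congr_deriv ?_
      field_simp
      ring
    have hd : HasDerivAt χ (deriv χ (N2 p x / t ^ 2)) (N2 p x / t ^ 2) :=
      ((hχ.cd.differentiable one_ne_zero) _).hasDerivAt
    exact (hd.comp t h1).mul_const _

/-- the differential inequality in integrated form needs: `-(K ‖x-p‖ h) ≤ (x-p)·∇h`. -/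
theorem deriv_FF_ge (A : ACSol U h r ε) {χ : ℝ → ℝ} (hχ : Prof χ) {p : EE} {s s₀ K : ℝ}
    (hs : 0 < s) (hss : s < s₀) (hb : closedBall p s₀ ⊆ U) (hK0 : 0 ≤ K)
    (hh : ∀ x ∈ ball p s₀, 0 ≤ h x)
    (hK : ∀ x ∈ ball p s₀, -(K * ‖x - p‖ * h x) ≤ rad h p x) :
    ((n : ℝ) - 1) * FF χ h r ε p s - K * s * FF χ h r ε p s
      + 1 / 2 * (∫ x, χ (N2 p x / s ^ 2) * (sg r ε x * (h x - gsq r x)))
      - 2 / s ^ 2 * (∫ x, deriv χ (N2 p x / s ^ 2) * (sg r ε x * rad r p x ^ 2))
      ≤ s * deriv (FF χ h r ε p) s := by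
  have hb' : closedBall p s ⊆ U := (closedBall_subset_closedBall hss.le).trans hb
  rw [(hasDerivAt_FF A hχ hs hss hb).deriv]
  have e : s * (-2 / s * ∫ x, (deriv χ (N2 p x / s ^ 2) * (N2 p x / s ^ 2)) * qq h r ε x)
      = -2 * ∫ x, (deriv χ (N2 p x / s ^ 2) * (N2 p x / s ^ 2)) * qq h r ε x := by
    field_simp
  rw [e, radial_identity A hχ hs hb']
  have hU := A.isOpen
  have I2 : Integrable fun x => χ (N2 p x / s ^ 2) * qq h r ε x :=
    integrable_radial hU (contOn_qq A) hχ.cd.continuous hχ.zero hs hb'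
  have I5 : Integrable fun x => χ (N2 p x / s ^ 2) * (sg r ε x * rad h p x) :=
    integrable_radial hU ((contOn_sg A).mul (contOn_rad hU A.smooth_h p)) hχ.cd.continuous
      hχ.zero hs hb'
  have h1 : -(K * s) * FF χ h r ε p s ≤
      1 / 2 * ∫ x, χ (N2 p x / s ^ 2) * (sg r ε x * rad h p x) := by
    unfold FF
    rw [← integral_const_mul, ← integral_const_mul]
    refine integral_mono (I2.const_mul _) (I5.const_mul _) fun x => ?_
    change -(K * s) * (χ (N2 p x / s ^ 2) * qq h r ε x) ≤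
      1 / 2 * (χ (N2 p x / s ^ 2) * (sg r ε x * rad h p x))
    by_cases hx : ‖x - p‖ < s
    · have hx0 : x ∈ ball p s₀ := by rw [mem_ball_iff_norm]; linarith
      have c0 : 0 ≤ χ (N2 p x / s ^ 2) := hχ.nonneg _ (div_nonneg (N2_nonneg p x) (by positivity))
      have c1 : 0 ≤ sg r ε x := sg_nonneg A.eps_pos r x
      have c2 := hK x hx0
      have c3 := hh x hx0
      have c4 : sg r ε x * h x ≤ 2 * qq h r ε x := by
        rw [qq_eq]; nlinarith [gsq_nonneg r x]
      have c5 : -(K * s * h x) ≤ rad h p x := by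
        refine le_trans ?_ c2
        have : K * ‖x - p‖ * h x ≤ K * s * h x := by
          apply mul_le_mul_of_nonneg_right _ c3
          exact mul_le_mul_of_nonneg_left hx.le hK0
        linarith
      have c6 : -(K * s) * (2 * qq h r ε x) ≤ sg r ε x * rad h p x := by
        have : sg r ε x * -(K * s * h x) ≤ sg r ε x * rad h p x :=
          mul_le_mul_of_nonneg_left c5 c1
        have h7 : K * s * (sg r ε x * h x) ≤ K * s * (2 * qq h r ε x) :=
          mul_le_mul_of_nonneg_left c4 (by positivity)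
        nlinarith
      nlinarith
    · have h1 : 1 ≤ N2 p x / s ^ 2 := by
        rw [le_div_iff₀ (by positivity), one_mul, N2]
        exact pow_le_pow_left₀ hs.le (le_of_not_gt hx) 2
      rw [hχ.zero _ h1]; simp
  linarith

theorem FF_nonneg (A : ACSol U h r ε) {χ : ℝ → ℝ} (hχ : Prof χ) {p : EE} {s s₀ : ℝ}
    (hs : 0 < s) (hss : s ≤ s₀) (hh : ∀ x ∈ ball p s₀, 0 ≤ h x) : 0 ≤ FF χ h r ε p s := by
  refine integral_nonneg fun x => ?_
  change 0 ≤ χ (N2 p x / s ^ 2) * qq h r ε x
  by_cases hx : ‖x - p‖ < s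
  · have hx0 : x ∈ ball p s₀ := by rw [mem_ball_iff_norm]; linarith
    refine mul_nonneg (hχ.nonneg _ (div_nonneg (N2_nonneg p x) (by positivity))) ?_
    rw [qq_eq]
    have c1 : 0 ≤ sg r ε x := sg_nonneg A.eps_pos r x
    have := gsq_nonneg r x
    have := hh x hx0
    positivity
  · have h1 : 1 ≤ N2 p x / s ^ 2 := by
      rw [le_div_iff₀ (by positivity), one_mul, N2]
      exact pow_le_pow_left₀ hs.le (le_of_not_gt hx) 2
    rw [hχ.zero _ h1]; simp

/-- **monotonicity, smooth profile**. -/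
theorem mono_profile (A : ACSol U h r ε) {χ : ℝ → ℝ} (hχ : Prof χ) {p : EE} {s t s₀ K : ℝ}
    (hs : 0 < s) (hst : s ≤ t) (hts : t < s₀) (hb : closedBall p s₀ ⊆ U) (hK0 : 0 ≤ K)
    (hh : ∀ x ∈ ball p s₀, 0 ≤ h x)
    (hK : ∀ x ∈ ball p s₀, -(K * ‖x - p‖ * h x) ≤ rad h p x) (hn : 1 ≤ n) :
    FF χ h r ε p s / s ^ (n - 1) ≤ Real.exp (K * (t - s)) * (FF χ h r ε p t / t ^ (n - 1)) := by
  set G : ℝ → ℝ := fun u => Real.exp (K * u) * (FF χ h r ε p u / u ^ (n - 1)) with hG
  have hd : ∀ u ∈ Ioo (0 : ℝ) s₀, HasDerivAt G (K * Real.exp (K * u) * (FF χ h r ε p u / u ^ (n - 1))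
      + Real.exp (K * u) * ((deriv (FF χ h r ε p) u * u ^ (n - 1)
        - FF χ h r ε p u * ((n - 1 : ℕ) * u ^ (n - 1 - 1))) / (u ^ (n - 1)) ^ 2)) u := by
    intro u hu
    have h1 : HasDerivAt (FF χ h r ε p) (deriv (FF χ h r ε p) u) u :=
      ((hasDerivAt_FF A hχ hu.1 hu.2 hb).differentiableAt).hasDerivAt
    have h2 : HasDerivAt (fun u : ℝ => Real.exp (K * u)) (K * Real.exp (K * u)) u := by
      have := ((hasDerivAt_id u).const_mul K).exp
      simpa [mul_comm] using this
    have h3 := h1.fun_div (hasDerivAt_pow (n - 1) u) (pow_ne_zero _ hu.1.ne')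
    exact h2.fun_mul h3
  have hcont : ContinuousOn G (Ioo 0 s₀) := fun u hu => (hd u hu).continuousAt.continuousWithinAt
  have hmono : MonotoneOn G (Ioo 0 s₀) := by
    refine monotoneOn_of_deriv_nonneg (convex_Ioo 0 s₀) hcont
      (fun u hu => by
        rw [interior_Ioo] at hu
        exact (hd u hu).differentiableAt.differentiableWithinAt) fun u hu => ?_
    rw [interior_Ioo] at hu
    rw [(hd u hu).deriv]
    have hu0 : 0 < u := hu.1
    have h1 := deriv_FF_ge A hχ hu.1 hu.2 hb hK0 hh hK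
    have b' : closedBall p u ⊆ U := (closedBall_subset_closedBall hu.2.le).trans hb
    -- the two extra terms are nonnegative
    have e3 : 0 ≤ ∫ x, χ (N2 p x / u ^ 2) * (sg r ε x * (h x - gsq r x)) := by
      refine integral_nonneg fun x => ?_
      change 0 ≤ χ (N2 p x / u ^ 2) * (sg r ε x * (h x - gsq r x))
      by_cases hx : ‖x - p‖ < u
      · have hxU : x ∈ U := b' (by rw [mem_closedBall_iff_norm]; exact hx.le)
        exact mul_nonneg (hχ.nonneg _ (div_nonneg (N2_nonneg p x) (by positivity)))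
          (mul_nonneg (sg_nonneg A.eps_pos r x) (sub_nonneg.2 (A.modica x hxU)))
      · have h1 : 1 ≤ N2 p x / u ^ 2 := by
          rw [le_div_iff₀ (by positivity), one_mul, N2]
          exact pow_le_pow_left₀ hu0.le (le_of_not_gt hx) 2
        rw [hχ.zero _ h1]; simp
    have e4 : (∫ x, deriv χ (N2 p x / u ^ 2) * (sg r ε x * rad r p x ^ 2)) ≤ 0 := by
      refine integral_nonpos fun x => ?_
      change deriv χ (N2 p x / u ^ 2) * (sg r ε x * rad r p x ^ 2) ≤ 0
      exact mul_nonpos_of_nonpos_of_nonneg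
        (hχ.anti _ (div_nonneg (N2_nonneg p x) (by positivity)))
        (mul_nonneg (sg_nonneg A.eps_pos r x) (sq_nonneg _))
    have h2 : ((n : ℝ) - 1) * FF χ h r ε p u - K * u * FF χ h r ε p u ≤
        u * deriv (FF χ h r ε p) u := by
      have : 2 / u ^ 2 * (∫ x, deriv χ (N2 p x / u ^ 2) * (sg r ε x * rad r p x ^ 2)) ≤ 0 :=
        mul_nonpos_of_nonneg_of_nonpos (by positivity) e4
      linarith
    have hcast : ((n - 1 : ℕ) : ℝ) = (n : ℝ) - 1 := by
      rw [Nat.cast_sub hn]; simp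
    have hpow : (u : ℝ) * (((n - 1 : ℕ) : ℝ) * u ^ (n - 1 - 1)) = ((n - 1 : ℕ) : ℝ) * u ^ (n - 1) := by
      rcases Nat.eq_zero_or_pos (n - 1) with h0 | h0
      · rw [h0]; simp
      · obtain ⟨k, hk⟩ : ∃ k, n - 1 = k + 1 := ⟨n - 1 - 1, by omega⟩
        rw [hk]; simp only [Nat.add_sub_cancel]; ring
    have e5 : K * Real.exp (K * u) * (FF χ h r ε p u / u ^ (n - 1))
      + Real.exp (K * u) * ((deriv (FF χ h r ε p) u * u ^ (n - 1)
        - FF χ h r ε p u * ((n - 1 : ℕ) * u ^ (n - 1 - 1))) / (u ^ (n - 1)) ^ 2)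
      = Real.exp (K * u) / (u * u ^ (n - 1)) *
        (K * u * FF χ h r ε p u + u * deriv (FF χ h r ε p) u
          - ((n : ℝ) - 1) * FF χ h r ε p u) := by
      have hp : u ^ (n - 1) ≠ 0 := pow_ne_zero _ hu0.ne'
      have e6 : FF χ h r ε p u * ((n - 1 : ℕ) * u ^ (n - 1 - 1)) =
          FF χ h r ε p u * (((n : ℝ) - 1) * u ^ (n - 1)) / u := by
        rw [eq_div_iff hu0.ne', ← hcast, ← hpow]; ring
      rw [e6]
      field_simp
      ring
    rw [e5]
    refine mul_nonneg (by positivity) (by linarith)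
  have hsm : s ∈ Ioo (0 : ℝ) s₀ := ⟨hs, lt_of_le_of_lt hst hts⟩
  have htm : t ∈ Ioo (0 : ℝ) s₀ := ⟨lt_of_lt_of_le hs hst, hts⟩
  have h1 := hmono hsm htm hst
  simp only [hG] at h1
  have h2 : Real.exp (K * (t - s)) = Real.exp (K * t) / Real.exp (K * s) := by
    rw [mul_sub, Real.exp_sub]
  rw [h2, div_mul_eq_mul_div, le_div_iff₀ (Real.exp_pos _)]
  linarith

end Crest.Agent.R246.Mon638
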