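import Crest.Agent.R246.NC1_718
import Mathlib.Analysis.InnerProductSpace.Spectrum

/-!
R246, part I (B), equality block (helper718): Simons' identity in ambient form and `∇A = 0`.
-/

set_option autoImplicit false
set_option linter.unusedSectionVars false
set_option linter.unusedVariables false
set_option linter.unusedSimpArgs false

open MeasureTheory Filter Topology Set
open scoped RealInnerProductSpace ContDiff

noncomputable section

namespace Crest.Agent.R246.NC718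

open Crest.Agent.R246.H990 Crest.Agent.R246.SM436 Crest.Agent.R246.HerschSM900

variable {E : Type*} [NormedAddCommGroup E] [InnerProductSpace ℝ E] [FiniteDimensional ℝ E]
variable {F : Type*} [NormedAddCommGroup F] [NormedSpace ℝ F]

/-- principal frame at a point of `M'` -/
structure Frame (m : ℕ) (φ : E → ℝ) (x : E) (e : Fin m → E) (k : Fin m → ℝ)
    (b : OrthonormalBasis (Fin m ⊕ Fin 2) ℝ E) : Prop where
  bl : ∀ i, b (Sum.inl i) = e i
  b0 : b (Sum.inr 0) = x
  b1 : b (Sum.inr 1) = gradient φ x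
  eig : ∀ i, hs φ x (e i) = k i • e i

lemma exists_frame {m : ℕ} {φ : E → ℝ} (hom : ∀ t : ℝ, 0 ≤ t → ∀ x, φ (t • x) = t * φ x)
    (hfin : Module.finrank ℝ E = m + 2) {x : E} (h : Good φ x) (hx : ‖x‖ = 1) (h0 : φ x = 0) :
    ∃ e k b, Frame m φ x e k b := by
  set N := gradient φ x with hN
  have hNx : ⟪N, x⟫ = 0 := by rw [h.euler hom, h0]
  have hN1 : ‖N‖ = 1 := h.norm_gradient
  have hon2 : Orthonormal ℝ ![x, N] := by
    constructor
    · intro i; fin_cases i <;> simp [hx, hN1]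
    · intro i j hij
      fin_cases i <;> fin_cases j <;> simp at hij ⊢ <;> first | exact hNx | (rw [real_inner_comm]; exact hNx)
  set K : Submodule ℝ E := Submodule.span ℝ (Set.range ![x, N]) with hK
  have hKfin : Module.finrank ℝ K = 2 := by
    have := finrank_span_eq_card hon2.linearIndependent
    simpa using this
  have hTfin : Module.finrank ℝ Kᗮ = m := by
    have := K.finrank_add_finrank_orthogonal
    omega
  have hmem : ∀ v : E, v ∈ Kᗮ ↔ ⟪x, v⟫ = 0 ∧ ⟪N, v⟫ = 0 := by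
    intro v
    constructor
    · intro hv
      rw [Submodule.mem_orthogonal] at hv
      exact ⟨hv x (Submodule.subset_span ⟨0, rfl⟩), hv N (Submodule.subset_span ⟨1, rfl⟩)⟩
    · rintro ⟨h1, h2⟩
      rw [Submodule.mem_orthogonal]
      intro u hu
      induction hu using Submodule.span_induction with
      | mem u hu =>
        obtain ⟨i, rfl⟩ := hu
        fin_cases i
        · exact h1
        · exact h2
      | zero => simp
      | add a b _ _ ha hb => rw [inner_add_left, ha, hb, add_zero]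
      | smul c a _ ha => rw [real_inner_smul_left, ha, mul_zero]
  have hsymm : (hs φ x : E →ₗ[ℝ] E).IsSymmetric := fun v w => h.hs_symm v w
  have hinv : ∀ v ∈ Kᗮ, (hs φ x : E →ₗ[ℝ] E) v ∈ Kᗮ := by
    intro v hv
    rw [hmem] at hv ⊢
    constructor
    · change ⟪x, hs φ x v⟫ = 0
      rw [← h.hs_symm, h.hs_self hom, inner_zero_left]
    · change ⟪N, hs φ x v⟫ = 0
      rw [← h.hs_symm, h.hs_gradient, inner_zero_left]
  have hs2 := hsymm.restrict_invariant hinv
  set eb := hs2.eigenvectorBasis hTfin with heb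
  set e : Fin m → E := fun i => (eb i : E) with he
  set k : Fin m → ℝ := hs2.eigenvalues hTfin with hk
  have heig : ∀ i, hs φ x (e i) = k i • e i := by
    intro i
    have h1 := hs2.apply_eigenvectorBasis hTfin i
    exact congrArg (fun v : Kᗮ => (v : E)) h1
  have hmemE : ∀ i, ⟪x, e i⟫ = 0 ∧ ⟪N, e i⟫ = 0 := fun i => (hmem _).1 (eb i).2
  have hone : Orthonormal ℝ e := by
    constructor
    · intro i
      exact eb.orthonormal.1 i
    · intro i j hij
      exact eb.orthonormal.2 hij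
  set v : Fin m ⊕ Fin 2 → E := Sum.elim e ![x, N] with hv
  have honv : Orthonormal ℝ v := by
    constructor
    · rintro (i | i)
      · exact hone.1 i
      · exact hon2.1 i
    · rintro (i | i) (j | j) hij
      · exact hone.2 (fun hh => hij (by rw [hh]))
      · change ⟪e i, ![x, N] j⟫ = 0
        rw [real_inner_comm]
        fin_cases j
        · exact (hmemE i).1
        · exact (hmemE i).2
      · change ⟪![x, N] i, e j⟫ = 0
        fin_cases i
        · exact (hmemE j).1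
        · exact (hmemE j).2
      · exact hon2.2 (fun hh => hij (by rw [hh]))
  have hcard : Fintype.card (Fin m ⊕ Fin 2) = Module.finrank ℝ E := by
    rw [hfin]; simp
  let B := basisOfOrthonormalOfCardEqFinrank honv hcard
  have hB : (B : Fin m ⊕ Fin 2 → E) = v := coe_basisOfOrthonormalOfCardEqFinrank honv hcard
  have hBon : Orthonormal ℝ B := by rw [hB]; exact honv
  refine ⟨e, k, B.toOrthonormalBasis hBon, ?_, ?_, ?_, heig⟩
  · intro i
    rw [Module.Basis.coe_toOrthonormalBasis, hB]; rfl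
  · rw [Module.Basis.coe_toOrthonormalBasis, hB]; rfl
  · rw [Module.Basis.coe_toOrthonormalBasis, hB]; rfl

namespace Frame

variable {m : ℕ} {φ : E → ℝ} {x : E} {e : Fin m → E} {k : Fin m → ℝ}
  {b : OrthonormalBasis (Fin m ⊕ Fin 2) ℝ E} (W : Frame m φ x e k b)
include W

lemma hx : ‖x‖ = 1 := by rw [← W.b0]; exact b.orthonormal.1 _
lemma hN : ‖gradient φ x‖ = 1 := by rw [← W.b1]; exact b.orthonormal.1 _
lemma ee (i j : Fin m) : ⟪e i, e j⟫ = if i = j then 1 else 0 := by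
  rw [← W.bl, ← W.bl, b.inner_eq_ite]
  simp
lemma ex (i : Fin m) : ⟪x, e i⟫ = 0 := by
  rw [← W.bl, ← W.b0, b.inner_eq_ite]; simp
lemma eN (i : Fin m) : ⟪gradient φ x, e i⟫ = 0 := by
  rw [← W.bl, ← W.b1, b.inner_eq_ite]; simp
lemma xN : ⟪gradient φ x, x⟫ = 0 := by
  rw [← W.b0]
  conv_lhs => rw [W.b0, ← W.b1]
  rw [← W.b0, b.inner_eq_ite]; simp

/-- trace in the frame -/
lemma trace_eq (B : E →ₗ[ℝ] E) : LinearMap.trace ℝ E B =
    (∑ i, ⟪e i, B (e i)⟫) + ⟪x, B x⟫ + ⟪gradient φ x, B (gradient φ x)⟫ := by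
  rw [LinearMap.trace_eq_sum_inner _ b, Fintype.sum_sum_type, Fin.sum_univ_two, W.b0, W.b1,
    ← add_assoc]
  simp only [W.bl]

/-- Parseval in the frame -/
lemma parseval (v : E) : ‖v‖ ^ 2 = (∑ i, ⟪e i, v⟫ ^ 2) + ⟪x, v⟫ ^ 2 + ⟪gradient φ x, v⟫ ^ 2 := by
  have h := b.sum_sq_norm_inner_right v
  rw [Fintype.sum_sum_type, Fin.sum_univ_two, W.b0, W.b1, ← add_assoc] at h
  simp only [W.bl, Real.norm_eq_abs, sq_abs] at h
  exact h.symm

/-- expansion in the frame -/
lemma expand (v : E) : v = (∑ i, ⟪e i, v⟫ • e i) + ⟪x, v⟫ • x +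
    ⟪gradient φ x, v⟫ • gradient φ x := by
  have h := b.sum_repr' v
  rw [Fintype.sum_sum_type, Fin.sum_univ_two, W.b0, W.b1, ← add_assoc] at h
  simp only [W.bl] at h
  exact h.symm

lemma hs_trace (h : Good φ x) (hom : ∀ t : ℝ, 0 ≤ t → ∀ x, φ (t • x) = t * φ x) :
    LinearMap.trace ℝ E (hs φ x : E →ₗ[ℝ] E) = ∑ i, k i := by
  rw [W.trace_eq]
  simp only [ContinuousLinearMap.coe_coe, W.eig, h.hs_self hom, h.hs_gradient, inner_zero_right,
    add_zero, real_inner_smul_right, W.ee, if_true, mul_one]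

lemma A2_frame (h : Good φ x) (hom : ∀ t : ℝ, 0 ≤ t → ∀ x, φ (t • x) = t * φ x) :
    A2 φ x = ∑ i, k i ^ 2 := by
  unfold A2
  rw [W.trace_eq]
  simp only [ContinuousLinearMap.coe_coe, ContinuousLinearMap.comp_apply, W.eig,
    h.hs_self hom, h.hs_gradient, inner_zero_right, map_smul,
    add_zero, real_inner_smul_right, W.ee, if_true, mul_one, map_zero, pow_two]

end Frame

/-- the trace as a continuous linear map -/
def trL : (E →L[ℝ] E) →L[ℝ] ℝ :=
  LinearMap.toContinuousLinearMap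
    { toFun := fun B => LinearMap.trace ℝ E (B : E →ₗ[ℝ] E)
      map_add' := fun B C => by simp
      map_smul' := fun c B => by simp }

lemma trL_apply (B : E →L[ℝ] E) : trL B = LinearMap.trace ℝ E (B : E →ₗ[ℝ] E) := rfl

/-- (T2) -/
lemma trace_d4 {φ : E → ℝ} {x v : E} (h : Good φ x) (h0 : φ x = 0)
    (hv : ⟪gradient φ x, v⟫ = 0)
    (hmin : ∀ᶠ y in 𝓝 x, φ y = 0 → LinearMap.trace ℝ E (hs φ y : E →ₗ[ℝ] E) = 0) :
    trL (d4 φ x v v) = - ⟪hs φ x v, v⟫ * A2 φ x := by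
  have h1 : ∀ᶠ y in 𝓝 x, HasFDerivAt (fun y => trL (hs φ y)) ((trL (E := E)).comp (d3 φ y)) y := by
    filter_upwards [good_nhds h] with y hy
    exact (trL (E := E)).hasFDerivAt.comp y (fd_hs hy)
  have h2 : HasFDerivAt (fun y => (trL (E := E)).comp (d3 φ y))
      (((ContinuousLinearMap.compL ℝ E (E →L[ℝ] E) ℝ) trL).comp (d4 φ x)) x :=
    HasFDerivAt.comp (G := E →L[ℝ] ℝ) (F := E →L[ℝ] E →L[ℝ] E) (f := d3 φ) x
      ((ContinuousLinearMap.compL ℝ E (E →L[ℝ] E) ℝ) trL).hasFDerivAt (fd_d3 h)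
  obtain ⟨-, h3⟩ := second_cone h h0 hv h1 h2 hmin
  have h4 : trL (d4 φ x v v) = ⟪hs φ x v, v⟫ • trL (d3 φ x (gradient φ x)) := h3
  rw [h4]
  have h5 : d3 φ x (gradient φ x) = - (hs φ x).comp (hs φ x) := by
    ext w
    rw [d3_symm h, d3_gradient h]
    rfl
  rw [h5, map_neg, smul_eq_mul]
  change ⟪hs φ x v, v⟫ * (- A2 φ x) = _
  ring

/-- second derivative along the cone of `|A|² |y|² = m` -/
lemma A2_second {m : ℕ} {φ : E → ℝ} {x v : E} (h : Good φ x) (hx : ‖x‖ = 1) (h0 : φ x = 0)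
    (hxN : ⟪gradient φ x, x⟫ = 0)
    (hv : ⟪gradient φ x, v⟫ = 0) (hxv : ⟪x, v⟫ = 0)
    (hA : ∀ᶠ y in 𝓝 x, φ y = 0 → A2 φ y * ⟪y, y⟫ = m) :
    trL ((d3 φ x v).comp (d3 φ x v)) + trL ((hs φ x).comp (d4 φ x v v)) -
      ⟪hs φ x v, v⟫ * trL ((hs φ x).comp (d3 φ x (gradient φ x))) + m * ‖v‖ ^ 2 = 0 := by
  have hgl : ∀ᶠ t in 𝓝 (0 : ℝ), Good φ (ln x v t) :=
    curve_eventually (v := v) (good_nhds h) (ln_deriv x v 0).continuousAt (ln_zero x v)
  have hcd : ∀ᶠ t in 𝓝 (0 : ℝ), HasDerivAt (cv φ x v) (cv' φ x v t) t := by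
    filter_upwards [hgl] with t ht
    exact cv_deriv ht
  have hc0 : HasDerivAt (cv φ x v) v 0 := by
    have := hcd.self_of_nhds
    rwa [cv'_zero h0 hv] at this
  have hc1 := cv'_deriv h h0 hv
  have hgc : ∀ᶠ t in 𝓝 (0 : ℝ), Good φ (cv φ x v t) :=
    curve_eventually (v := v) (good_nhds h) hc0.continuousAt (cv_zero h0 v)
  -- the operator along the curve
  have hH1 : ∀ᶠ t in 𝓝 (0 : ℝ), HasDerivAt (fun t => hs φ (cv φ x v t))
      (d3 φ (cv φ x v t) (cv' φ x v t)) t := by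
    filter_upwards [hcd, hgc] with t h1 h2
    exact (fd_hs h2).comp_hasDerivAt t h1
  have hH2 : HasDerivAt (fun t => d3 φ (cv φ x v t) (cv' φ x v t))
      (d4 φ x v v + d3 φ x (-(⟪hs φ x v, v⟫ • gradient φ x))) 0 := by
    have := (along (F := E →L[ℝ] E →L[ℝ] E) (fd_d3 h) hc0 (cv_zero h0 v)).clm_apply hc1
    rwa [cv_zero h0, cv'_zero h0 hv] at this
  have hH10 : HasDerivAt (fun t => hs φ (cv φ x v t)) (d3 φ x v) 0 := by
    have := hH1.self_of_nhds
    rwa [cv_zero h0, cv'_zero h0 hv] at this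
  -- f = trace
  have hf1 : ∀ᶠ t in 𝓝 (0 : ℝ), HasDerivAt
      (fun t => trL ((hs φ (cv φ x v t)).comp (hs φ (cv φ x v t))))
      (trL ((d3 φ (cv φ x v t) (cv' φ x v t)).comp (hs φ (cv φ x v t)) +
        (hs φ (cv φ x v t)).comp (d3 φ (cv φ x v t) (cv' φ x v t)))) t := by
    filter_upwards [hH1] with t h1
    exact (trL (E := E)).hasFDerivAt.comp_hasDerivAt t (h1.clm_comp h1)
  have hf2 : HasDerivAt (fun t => trL ((d3 φ (cv φ x v t) (cv' φ x v t)).comp
      (hs φ (cv φ x v t)) + (hs φ (cv φ x v t)).comp (d3 φ (cv φ x v t) (cv' φ x v t)))) _ 0 :=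
    (trL (E := E)).hasFDerivAt.comp_hasDerivAt 0 ((hH2.clm_comp hH10).add (hH10.clm_comp hH2))
  -- q = norm squared
  have hq1 : ∀ᶠ t in 𝓝 (0 : ℝ), HasDerivAt (fun t => ⟪cv φ x v t, cv φ x v t⟫)
      (⟪cv φ x v t, cv' φ x v t⟫ + ⟪cv' φ x v t, cv φ x v t⟫) t := by
    filter_upwards [hcd] with t h1
    exact h1.inner ℝ h1
  have hq2 := (hc0.inner ℝ hc1).add (hc1.inner ℝ hc0)
  -- product
  have hp1 : ∀ᶠ t in 𝓝 (0 : ℝ), HasDerivAt (fun t =>
      trL ((hs φ (cv φ x v t)).comp (hs φ (cv φ x v t))) * ⟪cv φ x v t, cv φ x v t⟫)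
      (trL ((d3 φ (cv φ x v t) (cv' φ x v t)).comp (hs φ (cv φ x v t)) +
        (hs φ (cv φ x v t)).comp (d3 φ (cv φ x v t) (cv' φ x v t))) *
          ⟪cv φ x v t, cv φ x v t⟫ + trL ((hs φ (cv φ x v t)).comp (hs φ (cv φ x v t))) *
          (⟪cv φ x v t, cv' φ x v t⟫ + ⟪cv' φ x v t, cv φ x v t⟫)) t := by
    filter_upwards [hf1, hq1] with t h1 h2
    exact h1.mul h2
  have hconst : ∀ᶠ t in 𝓝 (0 : ℝ),
      trL ((hs φ (cv φ x v t)).comp (hs φ (cv φ x v t))) * ⟪cv φ x v t, cv φ x v t⟫ = m := by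
    filter_upwards [cv_mem (v := v) h h0,
      curve_eventually (v := v) hA hc0.continuousAt (cv_zero h0 v)] with t h1 h2
    exact h2 h1
  have hd2 : ∀ᶠ t in 𝓝 (0 : ℝ),
      trL ((d3 φ (cv φ x v t) (cv' φ x v t)).comp (hs φ (cv φ x v t)) +
        (hs φ (cv φ x v t)).comp (d3 φ (cv φ x v t) (cv' φ x v t))) *
          ⟪cv φ x v t, cv φ x v t⟫ + trL ((hs φ (cv φ x v t)).comp (hs φ (cv φ x v t))) *
          (⟪cv φ x v t, cv' φ x v t⟫ + ⟪cv' φ x v t, cv φ x v t⟫) = 0 := by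
    filter_upwards [hp1, hconst.eventually_nhds] with t h1 h2
    exact h1.unique ((hasDerivAt_const t (m : ℝ)).congr_of_eventuallyEq h2)
  have hf10 := hf1.self_of_nhds
  have hq10 := hq1.self_of_nhds
  have hlast := zero_deriv ((hf2.mul hq10).add (hf10.mul hq2)) hd2
  have hconst0 := hconst.self_of_nhds
  have hx2 : ⟪x, x⟫ = 1 := by rw [real_inner_self_eq_norm_sq, hx]; norm_num
  have hvx : ⟪v, x⟫ = 0 := by rw [real_inner_comm]; exact hxv
  have hxN' : ⟪x, gradient φ x⟫ = 0 := by rw [real_inner_comm]; exact hxN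
  have hvv : ⟪v, v⟫ = ‖v‖ ^ 2 := real_inner_self_eq_norm_sq v
  have htr : ∀ B C : E →L[ℝ] E, trL (B.comp C) = trL (C.comp B) := by
    intro B C
    exact LinearMap.trace_mul_comm ℝ (B : E →ₗ[ℝ] E) (C : E →ₗ[ℝ] E)
  rw [cv_zero h0, hx2, mul_one] at hconst0
  simp only [Pi.add_apply, cv_zero h0, cv'_zero h0 hv, hx2, hxv, hvx, hxN, hxN', hvv, inner_neg_right,
    inner_neg_left, real_inner_smul_left, real_inner_smul_right, mul_zero, mul_one, neg_zero,
    add_zero, zero_add, map_neg, map_smul, hconst0] at hlast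
  have e1 : ∀ B C : E →L[ℝ] E, trL (B + C) = trL B + trL C := fun B C => map_add _ _ _
  simp only [ContinuousLinearMap.add_comp, ContinuousLinearMap.comp_add,
    ContinuousLinearMap.neg_comp, ContinuousLinearMap.comp_neg, ContinuousLinearMap.smul_comp,
    ContinuousLinearMap.comp_smul, map_add, map_neg, map_smul, smul_eq_mul] at hlast
  rw [htr (d4 φ x v v) (hs φ x), htr (d3 φ x (gradient φ x)) (hs φ x)] at hlast
  linarith

end Crest.Agent.R246.NC718
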