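import Crest.Agent.R246.NC2_718

/-!
R246, part I (B), equality block (helper718): if `|A|² = m` on `M'` then `∇A = 0` and `M'` has
exactly two principal curvatures `λ, -1/λ` at each point (Chern–do Carmo–Kobayashi / Lawson, the
local part).
-/

set_option autoImplicit false
set_option linter.unusedSectionVars false
set_option linter.unusedVariables false
set_option linter.unusedSimpArgs false

open MeasureTheory Filter Topology Set
open scoped RealInnerProductSpace ContDiff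

noncomputable section

namespace Crest.Agent.R246.NC718

open Crest.Agent.R246.H990 Crest.Agent.R246.SM436 Crest.Agent.R246.HerschSM900

variable {E : Type*} [NormedAddCommGroup E] [InnerProductSpace ℝ E] [FiniteDimensional ℝ E]
variable {F : Type*} [NormedAddCommGroup F] [NormedSpace ℝ F]

/-- the hypotheses of the equality case -/
structure EqC (m : ℕ) (φ : E → ℝ) : Prop where
  hom : ∀ t : ℝ, 0 ≤ t → ∀ x, φ (t • x) = t * φ x
  good : ∀ x, x ≠ 0 → φ x = 0 → Good φ x
  min : ∀ x, x ≠ 0 → φ x = 0 → LinearMap.trace ℝ E (hs φ x : E →ₗ[ℝ] E) = 0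
  fin : Module.finrank ℝ E = m + 2
  A : ∀ x, ‖x‖ = 1 → φ x = 0 → A2 φ x = m

namespace EqC

variable {m : ℕ} {φ : E → ℝ} (C : EqC m φ)
include C

lemma A2_cone {y : E} (hy : y ≠ 0) (h0 : φ y = 0) : A2 φ y * ⟪y, y⟫ = m := by
  have hn : 0 < ‖y‖ := norm_pos_iff.2 hy
  set z := ‖y‖⁻¹ • y with hz
  have hz1 : ‖z‖ = 1 := by rw [hz, norm_smul, norm_inv, norm_norm, inv_mul_cancel₀ hn.ne']
  have hzφ : φ z = 0 := by rw [hz, C.hom _ (by positivity), h0, mul_zero]
  have hz0 : z ≠ 0 := by intro hh; rw [hh, norm_zero] at hz1; exact zero_ne_one hz1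
  have hgz := C.good z hz0 hzφ
  have hyz : y = ‖y‖ • z := by rw [hz, smul_smul, mul_inv_cancel₀ hn.ne', one_smul]
  have e1 : hs φ y = ‖y‖⁻¹ • hs φ z := by
    conv_lhs => rw [hyz]
    exact hgz.hs_smul C.hom hn
  have e2 : A2 φ y = (‖y‖⁻¹) ^ 2 * A2 φ z := by
    change trL ((hs φ y).comp (hs φ y)) = _ * trL ((hs φ z).comp (hs φ z))
    rw [e1, ContinuousLinearMap.smul_comp, ContinuousLinearMap.comp_smul, smul_smul, map_smul,
      smul_eq_mul, pow_two]
  rw [e2, C.A z hz1 hzφ, real_inner_self_eq_norm_sq]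
  field_simp

variable {x : E} {e : Fin m → E} {k : Fin m → ℝ} {b : OrthonormalBasis (Fin m ⊕ Fin 2) ℝ E}

lemma gx (hx : ‖x‖ = 1) (h0 : φ x = 0) : Good φ x :=
  C.good x (by rintro rfl; simp at hx) h0

lemma evA (hx : ‖x‖ = 1) : ∀ᶠ y in 𝓝 x, φ y = 0 → A2 φ y * ⟪y, y⟫ = m := by
  have hx0 : x ≠ 0 := by rintro rfl; simp at hx
  filter_upwards [isOpen_ne.mem_nhds hx0] with y hy h0
  exact C.A2_cone hy h0

lemma evM (hx : ‖x‖ = 1) :
    ∀ᶠ y in 𝓝 x, φ y = 0 → LinearMap.trace ℝ E (hs φ y : E →ₗ[ℝ] E) = 0 := by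
  have hx0 : x ≠ 0 := by rintro rfl; simp at hx
  filter_upwards [isOpen_ne.mem_nhds hx0] with y hy h0
  exact C.min y hy h0

lemma sum_k (W : Frame m φ x e k b) (h0 : φ x = 0) : ∑ i, k i = 0 := by
  have h := C.gx W.hx h0
  rw [← W.hs_trace h C.hom]
  exact C.min x (by have := W.hx; rintro rfl; simp at this) h0

lemma sum_k2 (W : Frame m φ x e k b) (h0 : φ x = 0) : ∑ i, k i ^ 2 = m := by
  have h := C.gx W.hx h0
  rw [← W.A2_frame h C.hom]
  exact C.A x W.hx h0

/-- `∑_i D⁴(e_j,e_j,e_i,e_i) = -m k_j - 2 k_j - 2 k_j³` -/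
lemma sum_d4 (W : Frame m φ x e k b) (h0 : φ x = 0) (j : Fin m) :
    ∑ i, ⟪e i, d4 φ x (e j) (e j) (e i)⟫ = - m * k j - 2 * k j - 2 * k j ^ 3 := by
  have h := C.gx W.hx h0
  have h1 := trace_d4 h h0 (W.eN j) (C.evM W.hx)
  rw [trL_apply, W.trace_eq, C.A x W.hx h0] at h1
  simp only [ContinuousLinearMap.coe_coe] at h1
  have h2 : ⟪x, d4 φ x (e j) (e j) x⟫ = 2 * k j := by
    rw [d4_self h C.hom, real_inner_smul_right, real_inner_comm, d3_inner h, d3_self h C.hom,
      inner_neg_right, W.eig, real_inner_smul_right, W.ee, if_pos rfl]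
    ring
  have h3 : ⟪gradient φ x, d4 φ x (e j) (e j) (gradient φ x)⟫ = 2 * k j ^ 3 := by
    rw [d4_gradient h, inner_sub_right, inner_sub_right, inner_neg_right, ← h.hs_symm,
      h.hs_gradient, inner_zero_left, W.eig, map_smul, real_inner_smul_right, real_inner_comm,
      d3_inner h, d3_gradient h, W.eig, map_smul, W.eig, inner_neg_right, real_inner_smul_right,
      real_inner_smul_right, W.ee, if_pos rfl]
    ring
  have h4 : ⟪hs φ x (e j), e j⟫ = k j := by
    rw [W.eig, real_inner_smul_left, W.ee, if_pos rfl, mul_one]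
  rw [h2, h3, h4] at h1
  linarith

lemma Q_swap (h : Good φ x) (a c : E) : ⟪c, d4 φ x a a c⟫ = ⟪a, d4 φ x c c a⟫ := by
  rw [d4_symm' h a a c, d4_symm h a c, ← d4_inner h c a c a, d4_symm' h c a c, real_inner_comm]

/-- `|DH[e_i]|²` -/
lemma tr_d3 (W : Frame m φ x e k b) (h0 : φ x = 0) (i : Fin m) :
    trL ((d3 φ x (e i)).comp (d3 φ x (e i))) =
      (∑ j, ∑ l, ⟪e l, d3 φ x (e i) (e j)⟫ ^ 2) + 2 * k i ^ 2 + 2 * k i ^ 4 := by
  have h := C.gx W.hx h0
  have e1 : ∀ v : E, ⟪v, ((d3 φ x (e i)).comp (d3 φ x (e i))) v⟫ = ‖d3 φ x (e i) v‖ ^ 2 := by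
    intro v
    rw [ContinuousLinearMap.comp_apply, ← d3_inner h, real_inner_self_eq_norm_sq]
  rw [trL_apply, W.trace_eq]
  simp only [ContinuousLinearMap.coe_coe, e1]
  have e2 : ‖d3 φ x (e i) x‖ ^ 2 = k i ^ 2 := by
    rw [d3_self h C.hom, norm_neg, ← real_inner_self_eq_norm_sq, W.eig, real_inner_smul_left,
      real_inner_smul_right, W.ee, if_pos rfl]
    ring
  have e3 : ‖d3 φ x (e i) (gradient φ x)‖ ^ 2 = k i ^ 4 := by
    rw [d3_gradient h, norm_neg, ← real_inner_self_eq_norm_sq, W.eig, map_smul, W.eig,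
      real_inner_smul_left, real_inner_smul_right, real_inner_smul_left, real_inner_smul_right,
      W.ee, if_pos rfl]
    ring
  have e4 : ∀ j, ‖d3 φ x (e i) (e j)‖ ^ 2 = (∑ l, ⟪e l, d3 φ x (e i) (e j)⟫ ^ 2) +
      (if i = j then k i ^ 2 else 0) + (if i = j then k i ^ 4 else 0) := by
    intro j
    rw [W.parseval]
    have f1 : ⟪x, d3 φ x (e i) (e j)⟫ = if i = j then - k i else 0 := by
      rw [← d3_inner h, d3_self h C.hom, inner_neg_left, W.eig, real_inner_smul_left, W.ee]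
      split_ifs <;> ring
    have f2 : ⟪gradient φ x, d3 φ x (e i) (e j)⟫ = if i = j then - k i ^ 2 else 0 := by
      rw [← d3_inner h, d3_gradient h, inner_neg_left, W.eig, map_smul, W.eig,
        real_inner_smul_left, real_inner_smul_left, W.ee]
      split_ifs <;> ring
    rw [f1, f2]
    split_ifs <;> ring
  rw [e2, e3]
  simp only [e4, Finset.sum_add_distrib, Finset.sum_ite_eq, Finset.mem_univ, if_true]
  ring

/-- **Simons**: `∇A = 0` -/
lemma parallel_frame (W : Frame m φ x e k b) (h0 : φ x = 0) (i j l : Fin m) :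
    ⟪e l, d3 φ x (e i) (e j)⟫ = 0 := by
  have h := C.gx W.hx h0
  have h1 : ∀ i, trL ((d3 φ x (e i)).comp (d3 φ x (e i))) +
      (∑ j, k j * ⟪e i, d4 φ x (e j) (e j) (e i)⟫) -
      k i * trL ((hs φ x).comp (d3 φ x (gradient φ x))) + m = 0 := by
    intro i
    have h2 := A2_second (v := e i) h W.hx h0 W.xN (W.eN i) (W.ex i) (C.evA W.hx)
    have h3 : ⟪hs φ x (e i), e i⟫ = k i := by
      rw [W.eig, real_inner_smul_left, W.ee, if_pos rfl, mul_one]
    have h4 : ‖e i‖ ^ 2 = 1 := by rw [← real_inner_self_eq_norm_sq, W.ee, if_pos rfl]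
    have h5 : trL ((hs φ x).comp (d4 φ x (e i) (e i))) =
        ∑ j, k j * ⟪e i, d4 φ x (e j) (e j) (e i)⟫ := by
      rw [trL_apply, W.trace_eq]
      simp only [ContinuousLinearMap.coe_coe, ContinuousLinearMap.comp_apply]
      rw [← h.hs_symm x, ← h.hs_symm (gradient φ x), h.hs_self C.hom, h.hs_gradient,
        inner_zero_left, inner_zero_left, add_zero, add_zero]
      refine Finset.sum_congr rfl fun j _ => ?_
      rw [← h.hs_symm, W.eig, real_inner_smul_left, C.Q_swap h]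
    rw [h3, h4, h5, mul_one] at h2
    exact h2
  have h2 : ∑ i, (trL ((d3 φ x (e i)).comp (d3 φ x (e i))) +
      (∑ j, k j * ⟪e i, d4 φ x (e j) (e j) (e i)⟫) -
      k i * trL ((hs φ x).comp (d3 φ x (gradient φ x))) + m) = 0 :=
    Finset.sum_eq_zero fun i _ => h1 i
  rw [Finset.sum_add_distrib, Finset.sum_sub_distrib, Finset.sum_add_distrib,
    ← Finset.sum_mul, C.sum_k W h0, zero_mul, Finset.sum_comm (f := fun i j =>
      k j * ⟪e i, d4 φ x (e j) (e j) (e i)⟫)] at h2
  simp only [← Finset.mul_sum, C.sum_d4 W h0, C.tr_d3 W h0, Finset.sum_add_distrib,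
    Finset.sum_const, Finset.card_univ, Fintype.card_fin, nsmul_eq_mul] at h2
  have h3 : ∑ j, k j * (- (m : ℝ) * k j - 2 * k j - 2 * k j ^ 3) =
      - (m : ℝ) * (∑ j, k j ^ 2) - 2 * (∑ j, k j ^ 2) - 2 * ∑ j, k j ^ 4 := by
    rw [Finset.mul_sum, Finset.mul_sum, Finset.mul_sum, ← Finset.sum_sub_distrib,
      ← Finset.sum_sub_distrib]
    refine Finset.sum_congr rfl fun j _ => ?_
    ring
  rw [h3, C.sum_k2 W h0] at h2
  have h4 : ∑ i, ∑ j, ∑ l, ⟪e l, d3 φ x (e i) (e j)⟫ ^ 2 = 0 := by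
    linarith
  have h5 := (Finset.sum_eq_zero_iff_of_nonneg (fun i _ => Finset.sum_nonneg fun j _ =>
    Finset.sum_nonneg fun l _ => sq_nonneg _)).1 h4 i (Finset.mem_univ _)
  have h6 := (Finset.sum_eq_zero_iff_of_nonneg (fun j _ =>
    Finset.sum_nonneg fun l _ => sq_nonneg _)).1 h5 j (Finset.mem_univ _)
  have h7 := (Finset.sum_eq_zero_iff_of_nonneg (fun l _ => sq_nonneg _)).1 h6 l
    (Finset.mem_univ _)
  exact pow_eq_zero_iff two_ne_zero |>.1 h7

/-- **`∇A = 0`**: the tangential part of the third derivative vanishes. -/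
theorem parallel (hx : ‖x‖ = 1) (h0 : φ x = 0) {a c d : E} (ha : ⟪x, a⟫ = 0)
    (ha' : ⟪gradient φ x, a⟫ = 0) (hc : ⟪x, c⟫ = 0) (hc' : ⟪gradient φ x, c⟫ = 0)
    (hd : ⟪x, d⟫ = 0) (hd' : ⟪gradient φ x, d⟫ = 0) : ⟪d, d3 φ x a c⟫ = 0 := by
  obtain ⟨e, k, b, W⟩ := exists_frame C.hom C.fin (C.gx hx h0) hx h0
  have ea := W.expand a
  have ec := W.expand c
  have ed := W.expand d
  rw [ha, ha', zero_smul, zero_smul, add_zero, add_zero] at ea
  rw [hc, hc', zero_smul, zero_smul, add_zero, add_zero] at ec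
  rw [hd, hd', zero_smul, zero_smul, add_zero, add_zero] at ed
  rw [ea, ec, ed]
  simp only [map_sum, map_smul, sum_apply, smul_apply,
    inner_sum, sum_inner, real_inner_smul_left, real_inner_smul_right, C.parallel_frame W h0,
    mul_zero, Finset.sum_const_zero]

/-- the third derivative at points of `M'` -/
theorem d3_formula (hx : ‖x‖ = 1) (h0 : φ x = 0) (a c : E) :
    d3 φ x a c + ⟪x, a⟫ • hs φ x c + ⟪x, c⟫ • hs φ x a + ⟪hs φ x a, c⟫ • x +
      ⟪gradient φ x, a⟫ • hs φ x (hs φ x c) + ⟪gradient φ x, c⟫ • hs φ x (hs φ x a) +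
      ⟪hs φ x a, hs φ x c⟫ • gradient φ x = 0 := by
  have h := C.gx hx h0
  set N := gradient φ x with hN
  have hxx : ⟪x, x⟫ = 1 := by rw [real_inner_self_eq_norm_sq, hx]; norm_num
  have hNN : ⟪N, N⟫ = 1 := by rw [real_inner_self_eq_norm_sq, h.norm_gradient]; norm_num
  have hNx : ⟪N, x⟫ = 0 := by rw [h.euler C.hom, h0]
  have hxN : ⟪x, N⟫ = 0 := by rw [real_inner_comm]; exact hNx
  -- tangential parts
  set a' := a - ⟪x, a⟫ • x - ⟪N, a⟫ • N with ha'
  set c' := c - ⟪x, c⟫ • x - ⟪N, c⟫ • N with hc'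
  have Hx : hs φ x x = 0 := h.hs_self C.hom
  have HN : hs φ x N = 0 := h.hs_gradient
  have Ha : hs φ x a' = hs φ x a := by
    rw [ha', map_sub, map_sub, map_smul, map_smul, Hx, HN]; simp
  have Hc : hs φ x c' = hs φ x c := by
    rw [hc', map_sub, map_sub, map_smul, map_smul, Hx, HN]; simp
  have xa : ⟪x, a'⟫ = 0 := by
    rw [ha', inner_sub_right, inner_sub_right, real_inner_smul_right, real_inner_smul_right, hxx,
      hxN]; ring
  have Na : ⟪N, a'⟫ = 0 := by
    rw [ha', inner_sub_right, inner_sub_right, real_inner_smul_right, real_inner_smul_right, hNN,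
      hNx]; ring
  have xc : ⟪x, c'⟫ = 0 := by
    rw [hc', inner_sub_right, inner_sub_right, real_inner_smul_right, real_inner_smul_right, hxx,
      hxN]; ring
  have Nc : ⟪N, c'⟫ = 0 := by
    rw [hc', inner_sub_right, inner_sub_right, real_inner_smul_right, real_inner_smul_right, hNN,
      hNx]; ring
  -- `d3 a' c'`
  have key : d3 φ x a' c' + ⟪hs φ x a', c'⟫ • x + ⟪hs φ x a', hs φ x c'⟫ • N = 0 := by
    set w := d3 φ x a' c' + ⟪hs φ x a', c'⟫ • x + ⟪hs φ x a', hs φ x c'⟫ • N with hw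
    have wx : ⟪x, w⟫ = 0 := by
      rw [hw, inner_add_right, inner_add_right, real_inner_smul_right, real_inner_smul_right, hxx,
        hxN, ← d3_inner h, d3_self h C.hom, inner_neg_left]
      ring
    have wN : ⟪N, w⟫ = 0 := by
      rw [hw, inner_add_right, inner_add_right, real_inner_smul_right, real_inner_smul_right, hNN,
        hNx, ← d3_inner h, d3_gradient h, inner_neg_left, h.hs_symm (hs φ x a')]
      ring
    have ww : ⟪w, w⟫ = 0 := by
      conv_lhs => rw [hw]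
      rw [inner_add_left, inner_add_left, real_inner_smul_left, real_inner_smul_left, wx, wN,
        mul_zero, mul_zero, add_zero, add_zero, real_inner_comm]
      exact C.parallel hx h0 xa Na xc Nc wx wN
    exact inner_self_eq_zero.1 ww
  have ea : a = a' + ⟪x, a⟫ • x + ⟪N, a⟫ • N := by rw [ha']; abel
  have ec : c = c' + ⟪x, c⟫ • x + ⟪N, c⟫ • N := by rw [hc']; abel
  have hac : ⟪hs φ x a', c'⟫ = ⟪hs φ x a, c⟫ := by
    rw [h.hs_symm, Hc, ← h.hs_symm, Ha]
  rw [hac, Ha, Hc] at key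
  have e1 : d3 φ x a c = d3 φ x a' c' - ⟪x, c⟫ • hs φ x a - ⟪N, c⟫ • hs φ x (hs φ x a) -
      ⟪x, a⟫ • hs φ x c - ⟪N, a⟫ • hs φ x (hs φ x c) := by
    have f1 : d3 φ x a c = d3 φ x a' c + ⟪x, a⟫ • d3 φ x c x + ⟪N, a⟫ • d3 φ x c N := by
      conv_lhs => rw [ea]
      rw [map_add, map_add, map_smul, map_smul, add_apply,
        add_apply, smul_apply,
        smul_apply, d3_symm h x c, d3_symm h N c]
    have f2 : d3 φ x a' c = d3 φ x a' c' + ⟪x, c⟫ • d3 φ x a' x + ⟪N, c⟫ • d3 φ x a' N := by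
      conv_lhs => rw [ec]
      rw [map_add, map_add, map_smul, map_smul]
    rw [f1, f2, d3_self h C.hom, d3_self h C.hom, d3_gradient h, d3_gradient h, Ha, smul_neg,
      smul_neg, smul_neg, smul_neg]
    abel
  rw [e1, ← key]
  abel

end EqC

/-! ### curves in `M'` -/

/-- the normalized curve -/
def uc (φ : E → ℝ) (x v : E) : ℝ → E := fun t => ‖cv φ x v t‖⁻¹ • cv φ x v t

lemma uc_zero {φ : E → ℝ} {x : E} (hx : ‖x‖ = 1) (h0 : φ x = 0) (v : E) : uc φ x v 0 = x := by
  simp [uc, cv_zero h0, hx]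

lemma uc_deriv {φ : E → ℝ} {x v : E} (h : Good φ x) (hx : ‖x‖ = 1) (h0 : φ x = 0)
    (hv : ⟪gradient φ x, v⟫ = 0) (hxv : ⟪x, v⟫ = 0) : HasDerivAt (uc φ x v) v 0 := by
  have h1 : HasDerivAt (cv φ x v) v 0 := by
    have := cv_deriv (φ := φ) (x := x) (v := v) (t := 0) (by rw [ln_zero]; exact h)
    rwa [cv'_zero h0 hv] at this
  have h2 := h1.norm_sq
  have h3 := h2.sqrt (by rw [cv_zero h0, hx]; norm_num)
  have h4 : (fun t => √(‖cv φ x v t‖ ^ 2)) = fun t => ‖cv φ x v t‖ := by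
    funext t; exact Real.sqrt_sq (norm_nonneg _)
  rw [h4, cv_zero h0, hxv, mul_zero, zero_div] at h3
  have h5 := h3.inv (by rw [cv_zero h0, hx]; norm_num)
  have h6 := h5.smul h1
  refine HasDerivAt.congr_deriv (f := uc φ x v) h6 ?_
  simp [cv_zero h0, hx]

lemma uc_mem {φ : E → ℝ} {x v : E} (hom : ∀ t : ℝ, 0 ≤ t → ∀ x, φ (t • x) = t * φ x)
    (h : Good φ x) (hx : ‖x‖ = 1) (h0 : φ x = 0) (hv : ⟪gradient φ x, v⟫ = 0) :
    ∀ᶠ t in 𝓝 (0 : ℝ), ‖uc φ x v t‖ = 1 ∧ φ (uc φ x v t) = 0 := by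
  have h1 : HasDerivAt (cv φ x v) v 0 := by
    have := cv_deriv (φ := φ) (x := x) (v := v) (t := 0) (by rw [ln_zero]; exact h)
    rwa [cv'_zero h0 hv] at this
  have hx0 : x ≠ 0 := by rintro rfl; simp at hx
  filter_upwards [cv_mem (v := v) h h0, curve_eventually (v := v) (isOpen_ne.mem_nhds hx0)
    h1.continuousAt (cv_zero h0 v)] with t h2 h3
  have h4 : 0 < ‖cv φ x v t‖ := norm_pos_iff.2 h3
  constructor
  · rw [uc, norm_smul, norm_inv, norm_norm, inv_mul_cancel₀ h4.ne']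
  · rw [uc, hom _ (by positivity), h2, mul_zero]

namespace EqC

variable {m : ℕ} {φ : E → ℝ} (C : EqC m φ)
include C

variable {x : E} {e : Fin m → E} {k : Fin m → ℝ} {b : OrthonormalBasis (Fin m ⊕ Fin 2) ℝ E}

/-- differentiating `d3_formula` along `M'` -/
lemma d4_formula (W : Frame m φ x e k b) (h0 : φ x = 0) (i j : Fin m) (hij : i ≠ j) :
    ⟪d4 φ x (e i) (e j) (e i), e j⟫ = - (k j + k i * k j ^ 2) := by
  have hx := W.hx
  have h := C.gx hx h0
  have hu := uc_deriv h hx h0 (W.eN i) (W.ex i)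
  have hu0 := uc_zero hx h0 (e i)
  set u := uc φ x (e i) with hudef
  have D3 := along (F := E →L[ℝ] E →L[ℝ] E) (fd_d3 h) hu hu0
  have DH := along (fd_hs h) hu hu0
  have DN := along h.hasFDerivAt_gradient hu hu0
  have ca := hasDerivAt_const (0 : ℝ) (e j)
  have cc := hasDerivAt_const (0 : ℝ) (e i)
  have Ha := DH.clm_apply ca
  have Hc := DH.clm_apply cc
  have t1 := (D3.clm_apply ca).clm_apply cc
  have t2 := (hu.inner ℝ ca).smul Hc
  have t3 := (hu.inner ℝ cc).smul Ha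
  have t4 := (Ha.inner ℝ cc).smul hu
  have t5 := (DN.inner ℝ ca).smul (DH.clm_apply Hc)
  have t6 := (DN.inner ℝ cc).smul (DH.clm_apply Ha)
  have t7 := (Ha.inner ℝ Hc).smul DN
  have T := ((((((t1.add t2).add t3).add t4).add t5).add t6).add t7)
  have Z := zero_deriv T (by
    filter_upwards [uc_mem C.hom h hx h0 (W.eN i)] with t ht
    have hh := C.d3_formula ht.1 ht.2 (e j) (e i)
    exact hh)
  have Z2 := congrArg (fun v : E => ⟪v, e j⟫) Z
  simp only [hu0, map_zero, add_zero, inner_zero_right, zero_add, W.ex, W.eN, zero_smul, W.eig,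
    inner_add_left, real_inner_smul_left, real_inner_smul_right, inner_zero_left, W.ee, if_true,
    hij, hij.symm, if_false, mul_zero, mul_one, map_smul, zero_mul] at Z2
  linarith

/-- **the commutation identity** -/
theorem comm (W : Frame m φ x e k b) (h0 : φ x = 0) (i j : Fin m) (hij : k i ≠ k j) :
    k i * k j = -1 := by
  have h := C.gx W.hx h0
  have hne : i ≠ j := fun hh => hij (by rw [hh])
  have h1 := C.d4_formula W h0 i j hne
  have h2 := C.d4_formula W h0 j i hne.symm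
  have h3 : ⟪d4 φ x (e i) (e j) (e i), e j⟫ = ⟪d4 φ x (e j) (e i) (e j), e i⟫ := by
    rw [d4_symm h (e i) (e j), d4_inner h, real_inner_comm]
  rw [h1, h2] at h3
  have h4 : (k i - k j) * (1 + k i * k j) = 0 := by linarith
  rcases mul_eq_zero.1 h4 with h5 | h5
  · exact absurd (sub_eq_zero.1 h5) hij
  · linarith

end EqC

/-- combinatorial step -/
lemma two_values {m : ℕ} (hm : 1 ≤ m) {k : Fin m → ℝ} (h1 : ∑ i, k i = 0)
    (h2 : ∑ i, k i ^ 2 = m) (h3 : ∀ i j, k i ≠ k j → k i * k j = -1) :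
    ∃ (p : ℕ) (lam : ℝ), 1 ≤ p ∧ p < m ∧ 0 < lam ∧ (p : ℝ) * lam ^ 2 = m - p ∧
      (∀ i, k i = lam ∨ k i = - lam⁻¹) ∧
      (Finset.univ.filter fun i => k i = lam).card = p ∧
      (Finset.univ.filter fun i => k i = - lam⁻¹).card = m - p := by
  have hmR : (0 : ℝ) < m := by exact_mod_cast hm
  -- a positive value
  have hpos : ∃ a, 0 < k a := by
    by_contra hcon
    simp only [not_exists, not_lt] at hcon
    have h4 : ∀ i, k i = 0 := by
      have := (Finset.sum_eq_zero_iff_of_nonpos (fun i _ => hcon i)).1 h1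
      exact fun i => this i (Finset.mem_univ _)
    have h5 : ∑ i, k i ^ 2 = 0 := Finset.sum_eq_zero fun i _ => by rw [h4 i]; norm_num
    linarith
  obtain ⟨a, ha⟩ := hpos
  set lam := k a with hlam
  have hval : ∀ i, k i = lam ∨ k i = - lam⁻¹ := by
    intro i
    by_cases hi : k i = lam
    · exact Or.inl hi
    · right
      have := h3 i a hi
      field_simp
      linarith
  have hneq : lam ≠ - lam⁻¹ := by
    have : 0 < lam⁻¹ := inv_pos.2 ha
    intro hh
    linarith
  set P := Finset.univ.filter fun i => k i = lam with hP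
  set Q := Finset.univ.filter fun i => k i = - lam⁻¹ with hQ
  have hPQ : P.card + Q.card = m := by
    have hd : Disjoint P Q := by
      rw [Finset.disjoint_filter]
      intro i _ h4 h5
      exact hneq (h4.symm.trans h5)
    have hun : P ∪ Q = Finset.univ := by
      rw [hP, hQ, ← Finset.filter_or]
      exact Finset.filter_true_of_mem fun i _ => hval i
    rw [← Finset.card_union_of_disjoint hd, hun, Finset.card_univ, Fintype.card_fin]
  have hsum : (P.card : ℝ) * lam + (Q.card : ℝ) * (- lam⁻¹) = 0 := by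
    have hcompl : Q = Finset.univ.filter fun i => ¬ k i = lam := by
      rw [hQ]
      refine Finset.filter_congr fun i _ => ?_
      constructor
      · intro h4 h5
        exact hneq (h5.symm.trans h4)
      · intro h4
        exact (hval i).resolve_left h4
    rw [← h1, ← Finset.sum_filter_add_sum_filter_not Finset.univ (fun i => k i = lam)]
    congr 1
    · rw [Finset.sum_congr rfl (fun i hi => (Finset.mem_filter.1 hi).2), Finset.sum_const,
        nsmul_eq_mul]
    · rw [← hcompl, Finset.sum_congr rfl (fun i hi => (Finset.mem_filter.1 hi).2),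
        Finset.sum_const, nsmul_eq_mul]
  have hp1 : 1 ≤ P.card := Finset.card_pos.2 ⟨a, Finset.mem_filter.2 ⟨Finset.mem_univ _, rfl⟩⟩
  have hPQR : (P.card : ℝ) + Q.card = m := by exact_mod_cast hPQ
  have hkey : (P.card : ℝ) * lam ^ 2 = m - P.card := by
    have h4 : (P.card : ℝ) * lam ^ 2 = Q.card := by
      field_simp at hsum
      linarith
    linarith
  have hlt : P.card < m := by
    have h4 : (0 : ℝ) < P.card * lam ^ 2 := by
      have : (0 : ℝ) < P.card := by exact_mod_cast hp1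
      positivity
    have h5 : (P.card : ℝ) < m := by linarith
    exact_mod_cast h5
  exact ⟨P.card, lam, hp1, hlt, ha, hkey, hval, rfl, by
    change Q.card = m - P.card
    omega⟩

/-- **Equality block of I(B)**: if `|A|² = m` on `M'`, then at every point of `M'` there is an
orthonormal frame of principal directions with curvatures `λ` (`p` times) and `-1/λ` (`m - p`
times), `1 ≤ p < m`, `p λ² = m - p`. -/
theorem EqC.main {m : ℕ} (hm : 1 ≤ m) {φ : E → ℝ} (C : EqC m φ) {x : E} (hx : ‖x‖ = 1)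
    (h0 : φ x = 0) :
    ∃ (p : ℕ) (lam : ℝ) (e : Fin m → E) (k : Fin m → ℝ)
      (b : OrthonormalBasis (Fin m ⊕ Fin 2) ℝ E),
      1 ≤ p ∧ p < m ∧ 0 < lam ∧ (p : ℝ) * lam ^ 2 = m - p ∧ Frame m φ x e k b ∧
      (∀ i, k i = lam ∨ k i = - lam⁻¹) ∧
      (Finset.univ.filter fun i => k i = lam).card = p ∧
      (Finset.univ.filter fun i => k i = - lam⁻¹).card = m - p := by
  obtain ⟨e, k, b, W⟩ := exists_frame C.hom C.fin (C.gx hx h0) hx h0
  obtain ⟨p, lam, h1, h2, h3, h4, h5, h6, h7⟩ := two_values hm (C.sum_k W h0) (C.sum_k2 W h0)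
    (fun i j hij => C.comm W h0 i j hij)
  exact ⟨p, lam, e, k, b, h1, h2, h3, h4, W, h5, h6, h7⟩

/-- `det (1 + t A)` in the equality case. -/
theorem Frame.det_eq {m : ℕ} {φ : E → ℝ} {x : E} {e : Fin m → E} {k : Fin m → ℝ}
    {b : OrthonormalBasis (Fin m ⊕ Fin 2) ℝ E} (W : Frame m φ x e k b) (h : Good φ x)
    (hom : ∀ t : ℝ, 0 ≤ t → ∀ x, φ (t • x) = t * φ x) (t : ℝ) :
    (ContinuousLinearMap.id ℝ E + t • hs φ x).det = ∏ i, (1 + t * k i) := by
  have h1 : LinearMap.toMatrix b.toBasis b.toBasis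
      ((ContinuousLinearMap.id ℝ E + t • hs φ x : E →L[ℝ] E) : E →ₗ[ℝ] E) =
      Matrix.diagonal (Sum.elim (fun i => 1 + t * k i) (fun _ => 1)) := by
    ext i j
    rw [LinearMap.toMatrix_apply, Matrix.diagonal_apply]
    have hb : ∀ v, (b.toBasis.repr v) i = ⟪b i, v⟫ := by
      intro v
      rw [OrthonormalBasis.coe_toBasis_repr_apply, b.repr_apply_apply]
    rw [hb, OrthonormalBasis.coe_toBasis]
    have hval : ((ContinuousLinearMap.id ℝ E + t • hs φ x : E →L[ℝ] E) : E →ₗ[ℝ] E) (b j) =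
        (Sum.elim (fun i => 1 + t * k i) (fun _ => (1 : ℝ)) j : ℝ) • b j := by
      change b j + t • hs φ x (b j) = _
      rcases j with j | j
      · rw [W.bl, W.eig, Sum.elim_inl, add_smul, one_smul, smul_smul]
      · fin_cases j
        · change b (Sum.inr 0) + t • hs φ x (b (Sum.inr 0)) = (1 : ℝ) • b (Sum.inr 0)
          rw [W.b0, h.hs_self hom, smul_zero, add_zero, one_smul]
        · change b (Sum.inr 1) + t • hs φ x (b (Sum.inr 1)) = (1 : ℝ) • b (Sum.inr 1)
          rw [W.b1, h.hs_gradient, smul_zero, add_zero, one_smul]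
    rw [hval, real_inner_smul_right, b.inner_eq_ite]
    by_cases hij : i = j
    · subst hij; simp
    · simp [hij]
  change LinearMap.det _ = _
  rw [← LinearMap.det_toMatrix b.toBasis, h1, Matrix.det_diagonal, Fintype.prod_sum_type]
  simp

end Crest.Agent.R246.NC718
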