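import Crest.Agent.R246.NC3_718

/-!
R246, part I (B), equality block (helper718), final form for `SmoothMin`.
-/

set_option autoImplicit false
set_option linter.unusedSectionVars false
set_option linter.unusedVariables false
set_option linter.unusedSimpArgs false

open MeasureTheory Filter Topology Set
open scoped RealInnerProductSpace ContDiff

noncomputable section

namespace Crest.Agent.R246.NC718

open Crest.Agent.R246.H990 Crest.Agent.R246.SM436 Crest.Agent.R246.HerschSM900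

variable {E : Type*} [NormedAddCommGroup E] [InnerProductSpace ℝ E] [FiniteDimensional ℝ E]
  [MeasurableSpace E] [BorelSpace E]

/-- `SmoothMin` with `|A|² = m` on `M'` -/
lemma EqC.of_smoothMin {m : ℕ} {φ : E → ℝ} (S : SmoothMin φ)
    (hfin : Module.finrank ℝ E = m + 2) (hA : ∀ x, ‖x‖ = 1 → φ x = 0 → A2 φ x = m) : EqC m φ :=
  ⟨S.nc.hom, S.good, S.min, hfin, hA⟩

/-- **Equality block of I(B).**  `SmoothMin φ`, `finrank E = m + 2`, `|A|² = m` on `M'`: at each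
`x ∈ M'` there are `1 ≤ p < m`, `λ > 0`, `p λ² = m - p` and an orthonormal family `e` of
`{x, ν}^⊥` with `D²φ(x) e_i = k_i e_i`, `k_i = λ` for `p` indices, `k_i = -1/λ` for `m - p`
indices, and `det (1 + t D²φ(x)) = (1 + t λ)^p (1 - t / λ)^(m - p)`. -/
theorem eq_block {m : ℕ} (hm : 1 ≤ m) {φ : E → ℝ} (S : SmoothMin φ)
    (hfin : Module.finrank ℝ E = m + 2) (hA : ∀ x, ‖x‖ = 1 → φ x = 0 → A2 φ x = m)
    {x : E} (hx : ‖x‖ = 1) (h0 : φ x = 0) :
    ∃ (p : ℕ) (lam : ℝ) (e : Fin m → E) (k : Fin m → ℝ),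
      1 ≤ p ∧ p < m ∧ 0 < lam ∧ (p : ℝ) * lam ^ 2 = m - p ∧
      Orthonormal ℝ e ∧ (∀ i, ⟪x, e i⟫ = 0) ∧ (∀ i, ⟪gradient φ x, e i⟫ = 0) ∧
      (∀ i, hs φ x (e i) = k i • e i) ∧
      (∀ i, k i = lam ∨ k i = - lam⁻¹) ∧
      (Finset.univ.filter fun i => k i = lam).card = p ∧
      (Finset.univ.filter fun i => k i = - lam⁻¹).card = m - p ∧
      (∃ i, k i = lam) ∧ (∃ i, k i = - lam⁻¹) ∧
      ∀ t : ℝ, (ContinuousLinearMap.id ℝ E + t • hs φ x).det =
        (1 + t * lam) ^ p * (1 - t / lam) ^ (m - p) := by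
  have C := EqC.of_smoothMin S hfin hA
  obtain ⟨p, lam, e, k, b, h1, h2, h3, h4, W, h5, h6, h7⟩ := C.main hm hx h0
  have hneq : lam ≠ - lam⁻¹ := by
    have : 0 < lam⁻¹ := inv_pos.2 h3
    intro hh
    linarith
  refine ⟨p, lam, e, k, h1, h2, h3, h4, ?_, W.ex, W.eN, W.eig, h5, h6, h7, ?_, ?_, fun t => ?_⟩
  · rw [orthonormal_iff_ite]
    exact fun i j => W.ee i j
  · obtain ⟨i, hi⟩ := Finset.card_pos.1 (by rw [h6]; exact h1 :
      0 < (Finset.univ.filter fun i => k i = lam).card)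
    exact ⟨i, (Finset.mem_filter.1 hi).2⟩
  · obtain ⟨i, hi⟩ := Finset.card_pos.1 (by rw [h7]; omega :
      0 < (Finset.univ.filter fun i => k i = - lam⁻¹).card)
    exact ⟨i, (Finset.mem_filter.1 hi).2⟩
  · rw [W.det_eq (C.gx hx h0) C.hom,
      ← Finset.prod_filter_mul_prod_filter_not Finset.univ (fun i => k i = lam)]
    have hcompl : (Finset.univ.filter fun i => ¬ k i = lam) =
        Finset.univ.filter fun i => k i = - lam⁻¹ := by
      refine Finset.filter_congr fun i _ => ?_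
      constructor
      · intro h8
        exact (h5 i).resolve_left h8
      · intro h8 h9
        exact hneq (h9.symm.trans h8)
    rw [hcompl]
    congr 1
    · rw [Finset.prod_congr rfl (fun i hi => by rw [(Finset.mem_filter.1 hi).2]),
        Finset.prod_const, h6]
    · rw [Finset.prod_congr rfl (fun i hi => by rw [(Finset.mem_filter.1 hi).2]),
        Finset.prod_const, h7]
      congr 1
      rw [div_eq_mul_inv]; ring

/-- eigenvalue form: principal curvatures `a ≠ c` of `M'` at `x` satisfy `a c = -1`. -/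
theorem eigen_rel {m : ℕ} {φ : E → ℝ} (S : SmoothMin φ)
    (hfin : Module.finrank ℝ E = m + 2) (hA : ∀ x, ‖x‖ = 1 → φ x = 0 → A2 φ x = m)
    {x : E} (hx : ‖x‖ = 1) (h0 : φ x = 0) {v w : E} {a c : ℝ}
    (hv : v ≠ 0) (hw : w ≠ 0) (hxv : ⟪x, v⟫ = 0) (hNv : ⟪gradient φ x, v⟫ = 0)
    (hxw : ⟪x, w⟫ = 0) (hNw : ⟪gradient φ x, w⟫ = 0)
    (ha : hs φ x v = a • v) (hc : hs φ x w = c • w) : a = c ∨ a * c = -1 := by
  have C := EqC.of_smoothMin S hfin hA
  obtain ⟨e, k, b, W⟩ := exists_frame C.hom C.fin (C.gx hx h0) hx h0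
  have key : ∀ (v : E) (a : ℝ), v ≠ 0 → ⟪x, v⟫ = 0 → ⟪gradient φ x, v⟫ = 0 →
      hs φ x v = a • v → ∃ i, k i = a := by
    intro v a hv h1 h2 h3
    by_contra hcon
    simp only [not_exists] at hcon
    apply hv
    have h4 : ∀ i, ⟪e i, v⟫ = 0 := by
      intro i
      have h5 : ⟪hs φ x (e i), v⟫ = ⟪e i, hs φ x v⟫ := (C.gx hx h0).hs_symm _ _
      rw [W.eig, h3, real_inner_smul_left, real_inner_smul_right] at h5
      have h6 : (k i - a) * ⟪e i, v⟫ = 0 := by rw [sub_mul, h5, sub_self]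
      exact (mul_eq_zero.1 h6).resolve_left (sub_ne_zero.2 (hcon i))
    rw [W.expand v, h1, h2]
    simp [h4]
  obtain ⟨i, hi⟩ := key v a hv hxv hNv ha
  obtain ⟨j, hj⟩ := key w c hw hxw hNw hc
  by_cases hac : a = c
  · exact Or.inl hac
  · right
    rw [← hi, ← hj]
    exact C.comm W h0 i j (by rw [hi, hj]; exact hac)

/-- `hpair` (149's form): nonzero eigenvalues `a ≠ c` of `D²φ(x)` satisfy `a c = -1`. -/
theorem hpair {m : ℕ} {φ : E → ℝ} (S : SmoothMin φ)
    (hfin : Module.finrank ℝ E = m + 2) (hA : ∀ x, ‖x‖ = 1 → φ x = 0 → A2 φ x = m)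
    {x : E} (hx : ‖x‖ = 1) (h0 : φ x = 0) :
    ∀ (v w : E) (a c : ℝ), v ≠ 0 → w ≠ 0 → a ≠ 0 → c ≠ 0 → hs φ x v = a • v →
      hs φ x w = c • w → a = c ∨ a * c = -1 := by
  intro v w a c hv hw ha0 hc0 ha hc
  have hg : Good φ x := S.good x (by rintro rfl; simp at hx) h0
  have key : ∀ (v : E) (a : ℝ), a ≠ 0 → hs φ x v = a • v →
      ⟪x, v⟫ = 0 ∧ ⟪gradient φ x, v⟫ = 0 := by
    intro v a ha0 ha
    constructor
    · have h1 : ⟪hs φ x x, v⟫ = ⟪x, hs φ x v⟫ := hg.hs_symm _ _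
      rw [hg.hs_self S.nc.hom, inner_zero_left, ha, real_inner_smul_right] at h1
      exact (mul_eq_zero.1 h1.symm).resolve_left ha0
    · have h1 : ⟪hs φ x (gradient φ x), v⟫ = ⟪gradient φ x, hs φ x v⟫ := hg.hs_symm _ _
      rw [hg.hs_gradient, inner_zero_left, ha, real_inner_smul_right] at h1
      exact (mul_eq_zero.1 h1.symm).resolve_left ha0
  obtain ⟨h1, h2⟩ := key v a ha0 ha
  obtain ⟨h3, h4⟩ := key w c hc0 hc
  exact eigen_rel S hfin hA hx h0 hv hw h1 h2 h3 h4 ha hc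

end Crest.Agent.R246.NC718
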