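import Mathlib.Analysis.InnerProductSpace.PiL2
import Mathlib.Tactic

/-!
# Noncollapsing, pointwise algebra (`S0380`, block I(B))

Scalar inequality and the linear algebra of the reflection coupling for the function
`f = n / d + lam * rho`, `n = ⟪ν(x), y⟫`, `d = 1 - ⟪x, y⟫`, `rho = ‖x - y‖`.
-/

set_option autoImplicit false

namespace Crest.Agent.R246.NcAlg112

/-- The scalar core of the noncollapsing inequality. -/
lemma scalar_core {m A2 k ε d H K T b : ℝ} (hA : 0 ≤ A2)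
    (hd : 0 < d) (hε : 0 ≤ ε) (hk : 2 * ε ≤ k) (hk0 : 0 < k)
    (hb : b * (1 - 2 * ε * (k * d) + ε ^ 2 * (2 * d - d ^ 2)) = 1)
    (hq : 1 / 2 ≤ 1 - 2 * ε * (k * d) + ε ^ 2 * (2 * d - d ^ 2))
    (hT0 : 0 ≤ T) (hT : T ≤ 2 * d)
    (hH : |H| ≤ (k + 2 * ε) * T) (hK : K ≤ (k + 2 * ε) ^ 2 * T) :
    (m - A2) * (k + 2 * ε) - (4 * m * ε + 16 * ε ^ 2 * (k + 2 * ε) + 18 * ε ^ 2 / ((k + 2 * ε) * d))
      ≤ (1 / d) * ((-(A2 + m) * (k * d) - 2 * (1 / d + b * ε * (k - ε * (1 - d))) * H)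
            - (k - ε) * (-2 * m * d + 2 * (1 / d + b * ε * (k - ε * (1 - d))) * T))
        - (2 / d ^ 2) * (-(H + b * (1 - ε * (k * d)) * H
            - (k - ε) * (b * (1 - ε * (k * d))) * T - (k - ε) * b * T))
        + (1 / d ^ 2) * (2 * k - ε / 2) * (T * (1 + 2 * (b * (1 - ε * (k * d))) + b))
        - (K + 2 * (k - ε) * H + (k - ε) ^ 2 * T) / d ^ 2 / (k + 2 * ε) := by
  set Φ : ℝ := k + 2 * ε with hΦ
  have hΦ0 : 0 < Φ := by rw [hΦ]; linarith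
  have hb0 : 0 < b := by
    by_contra h
    push Not at h
    nlinarith
  have hb2 : b ≤ 2 := by nlinarith
  have hd2 : d ≠ 0 := hd.ne'
  -- x = b e - 1, y = b - 1
  have hx : b * (1 - ε * (k * d)) - 1 = ε * d * (k - 2 * ε + ε * d) * b := by
    linear_combination hb
  have hy : b - 1 = b * (2 * (k - ε) * ε * d + ε ^ 2 * d ^ 2) := by
    linear_combination hb
  have hx0 : 0 ≤ b * (1 - ε * (k * d)) - 1 := by
    rw [hx]
    have : 0 ≤ k - 2 * ε + ε * d := by nlinarith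
    positivity
  have hy0 : 0 ≤ b - 1 := by
    rw [hy]
    have : 0 ≤ k - ε := by linarith
    positivity
  -- the bracket
  have hHl : -(Φ * T) ≤ H := (abs_le.1 hH).1
  have hHu : H ≤ Φ * T := (abs_le.1 hH).2
  set br : ℝ := 2 * H - 4 * (k - ε) * (b * (1 - ε * (k * d))) * T - 2 * (k - ε) * b * T
      + (2 * k - ε / 2) * (1 + 2 * (b * (1 - ε * (k * d))) + b) * T
      - (K + 2 * (k - ε) * H + (k - ε) ^ 2 * T) / Φ with hbr
  have hbr1 : -(9 * ε ^ 2 * T / Φ) ≤ br := by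
    have e1 : br = (3 * ε / 2) * (2 * (b * (1 - ε * (k * d)) - 1) + (b - 1)) * T
        + 6 * ε * (T + H / Φ) + (Φ ^ 2 * T - K) / Φ - 9 * ε ^ 2 * T / Φ := by
      rw [hbr]
      have hk' : k = Φ - 2 * ε := by rw [hΦ]; ring
      field_simp
      rw [hk']
      ring
    have p1 : 0 ≤ (3 * ε / 2) * (2 * (b * (1 - ε * (k * d)) - 1) + (b - 1)) * T := by
      have : 0 ≤ 2 * (b * (1 - ε * (k * d)) - 1) + (b - 1) := by linarith
      positivity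
    have p2 : 0 ≤ 6 * ε * (T + H / Φ) := by
      have : 0 ≤ T + H / Φ := by
        have : -T ≤ H / Φ := by
          rw [le_div_iff₀ hΦ0]; linarith
        linarith
      positivity
    have p3 : 0 ≤ (Φ ^ 2 * T - K) / Φ := by
      apply div_nonneg _ hΦ0.le
      linarith
    linarith
  -- the whole expression
  have key : (1 / d) * ((-(A2 + m) * (k * d) - 2 * (1 / d + b * ε * (k - ε * (1 - d))) * H)
            - (k - ε) * (-2 * m * d + 2 * (1 / d + b * ε * (k - ε * (1 - d))) * T))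
        - (2 / d ^ 2) * (-(H + b * (1 - ε * (k * d)) * H
            - (k - ε) * (b * (1 - ε * (k * d))) * T - (k - ε) * b * T))
        + (1 / d ^ 2) * (2 * k - ε / 2) * (T * (1 + 2 * (b * (1 - ε * (k * d))) + b))
        - (K + 2 * (k - ε) * H + (k - ε) ^ 2 * T) / d ^ 2 / Φ
      = -(A2 + m) * k + 2 * m * (k - ε) - 2 * ε ^ 2 * b * (H + (k - ε) * T) / d + br / d ^ 2 := by
    have hc : 1 / d + b * ε * (k - ε * (1 - d)) = b * (1 - ε * (k * d)) / d + ε ^ 2 * b := by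
      field_simp
      linear_combination (-1 : ℝ) * hb
    rw [hc, hbr]
    field_simp
    ring
  rw [key]
  have t1 : 2 * ε ^ 2 * b * (H + (k - ε) * T) / d ≤ 16 * ε ^ 2 * Φ := by
    rw [div_le_iff₀ hd]
    have : H + (k - ε) * T ≤ 2 * Φ * T := by
      have : (k - ε) * T ≤ Φ * T := by
        apply mul_le_mul_of_nonneg_right _ hT0
        rw [hΦ]; linarith
      linarith
    calc 2 * ε ^ 2 * b * (H + (k - ε) * T) ≤ 2 * ε ^ 2 * b * (2 * Φ * T) := by gcongr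
      _ ≤ 2 * ε ^ 2 * 2 * (2 * Φ * (2 * d)) := by gcongr
      _ = 16 * ε ^ 2 * Φ * d := by ring
  have t2 : -(18 * ε ^ 2 / (Φ * d)) ≤ br / d ^ 2 := by
    have h1 : -(9 * ε ^ 2 * T / Φ) / d ^ 2 ≤ br / d ^ 2 := by gcongr
    have h2 : 9 * ε ^ 2 * T / Φ / d ^ 2 ≤ 18 * ε ^ 2 / (Φ * d) := by
      rw [div_div, div_le_div_iff₀ (by positivity) (by positivity)]
      calc 9 * ε ^ 2 * T * (Φ * d) ≤ 9 * ε ^ 2 * (2 * d) * (Φ * d) := by gcongr
        _ = 18 * ε ^ 2 * (Φ * d ^ 2) := by ring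
    rw [neg_div] at h1
    linarith
  have t3 : (m - A2) * Φ - 4 * m * ε ≤ -(A2 + m) * k + 2 * m * (k - ε) := by
    rw [hΦ]
    nlinarith
  linarith

/-! ### vector part -/

open scoped RealInnerProductSpace

variable {E : Type*} [NormedAddCommGroup E] [InnerProductSpace ℝ E]

/-- projection orthogonal to the two unit vectors `x, ν` -/
def Pf (x ν v : E) : E := v - ⟪x, v⟫ • x - ⟪ν, v⟫ • ν

/-- reflection in the hyperplane orthogonal to `x - y` -/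
noncomputable def Rf (x y v : E) : E := v - (2 / ‖x - y‖ ^ 2 * ⟪x - y, v⟫) • (x - y)

lemma Pf_symm (x ν u v : E) : ⟪Pf x ν u, v⟫ = ⟪u, Pf x ν v⟫ := by
  simp only [Pf, inner_sub_left, inner_sub_right, inner_smul_left, inner_smul_right,
    RCLike.conj_to_real]
  rw [real_inner_comm x u, real_inner_comm ν u]
  ring

lemma Rf_symm (x y u v : E) : ⟪Rf x y u, v⟫ = ⟪u, Rf x y v⟫ := by
  simp only [Rf, inner_sub_left, inner_sub_right, inner_smul_left, inner_smul_right,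
    RCLike.conj_to_real, real_inner_comm x u, real_inner_comm y u]
  ring

/-- The data of a critical pair. -/
structure Pair (X Y ν μ : E) (d n ε : ℝ) : Prop where
  nX : ‖X‖ = 1
  nY : ‖Y‖ = 1
  nν : ‖ν‖ = 1
  nμ : ‖μ‖ = 1
  Xν : ⟪X, ν⟫ = 0
  Yμ : ⟪Y, μ⟫ = 0
  hd : ⟪X, Y⟫ = 1 - d
  hn : ⟪ν, Y⟫ = n
  dpos : 0 < d
  crit : Pf Y μ (ν + (n / d - ε) • X) = 0

variable {X Y ν μ : E} {d n ε : ℝ}

namespace Pair

lemma XX (hp : Pair X Y ν μ d n ε) : ⟪X, X⟫ = 1 := by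
  rw [real_inner_self_eq_norm_sq, hp.nX]; norm_num
lemma YY (hp : Pair X Y ν μ d n ε) : ⟪Y, Y⟫ = 1 := by
  rw [real_inner_self_eq_norm_sq, hp.nY]; norm_num
lemma νν (hp : Pair X Y ν μ d n ε) : ⟪ν, ν⟫ = 1 := by
  rw [real_inner_self_eq_norm_sq, hp.nν]; norm_num
lemma μμ (hp : Pair X Y ν μ d n ε) : ⟪μ, μ⟫ = 1 := by
  rw [real_inner_self_eq_norm_sq, hp.nμ]; norm_num
lemma YX (hp : Pair X Y ν μ d n ε) : ⟪Y, X⟫ = 1 - d := by
  rw [real_inner_comm]; exact hp.hd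
lemma νX (hp : Pair X Y ν μ d n ε) : ⟪ν, X⟫ = 0 := by
  rw [real_inner_comm]; exact hp.Xν
lemma Yν (hp : Pair X Y ν μ d n ε) : ⟪Y, ν⟫ = n := by
  rw [real_inner_comm]; exact hp.hn
lemma μY (hp : Pair X Y ν μ d n ε) : ⟪μ, Y⟫ = 0 := by
  rw [real_inner_comm]; exact hp.Yμ

lemma rho2 (hp : Pair X Y ν μ d n ε) : ‖X - Y‖ ^ 2 = 2 * d := by
  rw [← real_inner_self_eq_norm_sq]
  simp only [inner_sub_left, inner_sub_right, hp.XX, hp.YY, hp.hd, hp.YX]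
  ring

lemma Rf_eq (hp : Pair X Y ν μ d n ε) (v : E) :
    Rf X Y v = v - (1 / d * ⟪X - Y, v⟫) • (X - Y) := by
  have := hp.dpos.ne'
  rw [Rf, hp.rho2]
  congr 3
  field_simp

/-- `W = β μ` -/
noncomputable def W (X Y ν : E) (d n ε : ℝ) : E := ν + (n / d - ε) • X - (n / d - ε * (1 - d)) • Y

lemma W_eq (hp : Pair X Y ν μ d n ε) :
    W X Y ν d n ε = ⟪μ, ν + (n / d - ε) • X⟫ • μ := by
  have h := hp.crit
  have hd := hp.dpos.ne'
  rw [Pf, sub_sub, sub_eq_zero] at h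
  have h2 : ⟪Y, ν + (n / d - ε) • X⟫ = n / d - ε * (1 - d) := by
    simp only [inner_add_right, inner_smul_right, hp.Yν, hp.YX]
    field_simp; ring
  rw [h2] at h
  rw [W, h]
  simp only [inner_add_right, inner_smul_right, hp.μY, hp.μμ]
  abel_nf
  simp

/-- `β² = ‖W‖²` -/
noncomputable def q (d n ε : ℝ) : ℝ := 1 - 2 * ε * n + ε ^ 2 * (2 * d - d ^ 2)

lemma W_sq (hp : Pair X Y ν μ d n ε) : ⟪W X Y ν d n ε, W X Y ν d n ε⟫ = q d n ε := by
  have hd := hp.dpos.ne'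
  simp only [W, q, inner_sub_left, inner_sub_right, inner_add_left, inner_add_right,
    inner_smul_left, inner_smul_right, hp.XX, hp.YY, hp.hd, hp.YX, hp.νν, hp.νX, hp.Xν, hp.hn,
    hp.Yν, RCLike.conj_to_real]
  field_simp
  ring

lemma beta_sq (hp : Pair X Y ν μ d n ε) : ⟪μ, ν + (n / d - ε) • X⟫ ^ 2 = q d n ε := by
  have h := hp.W_sq
  rw [hp.W_eq] at h
  simp only [inner_smul_left, inner_smul_right, hp.μμ, RCLike.conj_to_real] at h
  rw [← h]; ring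

/-- the projection at `Y` in terms of `W` -/
lemma PfY (hp : Pair X Y ν μ d n ε) (hq : q d n ε ≠ 0) (v : E) :
    Pf Y μ v = v - ⟪Y, v⟫ • Y - ((q d n ε)⁻¹ * ⟪W X Y ν d n ε, v⟫) • W X Y ν d n ε := by
  rw [Pf, hp.W_eq, ← hp.beta_sq]
  rw [← hp.beta_sq] at hq
  have hβ : ⟪μ, ν + (n / d - ε) • X⟫ ≠ 0 := by
    intro h; apply hq; rw [h]; norm_num
  congr 1
  rw [inner_smul_left, smul_smul, RCLike.conj_to_real]
  congr 1
  field_simp

lemma Rf_X (hp : Pair X Y ν μ d n ε) : Rf X Y X = Y := by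
  have hd := hp.dpos.ne'
  rw [hp.Rf_eq]
  simp only [inner_sub_left, hp.XX, hp.YX]
  have : (1 / d * (1 - (1 - d))) = 1 := by field_simp; ring
  rw [this, one_smul]; abel

lemma Rf_Y (hp : Pair X Y ν μ d n ε) : Rf X Y Y = X := by
  have hd := hp.dpos.ne'
  rw [hp.Rf_eq]
  simp only [inner_sub_left, hp.YY, hp.hd]
  have : (1 / d * (1 - d - 1)) = -1 := by field_simp; ring
  rw [this, neg_one_smul]; abel

lemma Rf_ν (hp : Pair X Y ν μ d n ε) : Rf X Y ν = ν + (n / d) • (X - Y) := by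
  have hd := hp.dpos.ne'
  rw [hp.Rf_eq]
  simp only [inner_sub_left, hp.Xν, hp.Yν]
  have : (1 / d * (0 - n)) = -(n / d) := by field_simp; ring
  rw [this, neg_smul, sub_neg_eq_add]

lemma inner_Rf_W (hp : Pair X Y ν μ d n ε) (v : E) :
    ⟪W X Y ν d n ε, Rf X Y v⟫ = ⟪ν - ε • (Y - (1 - d) • X), v⟫ := by
  rw [← Rf_symm]
  congr 1
  have hd := hp.dpos.ne'
  rw [hp.Rf_eq]
  have h1 : ⟪X - Y, W X Y ν d n ε⟫ = d * (n / d - ε) + d * (n / d - ε * (1 - d)) - n := by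
    simp only [W, inner_sub_left, inner_sub_right, inner_add_right,
      inner_smul_right, hp.XX, hp.YY, hp.hd, hp.YX, hp.Xν, hp.Yν]
    ring
  rw [h1, W]
  have h2 : 1 / d * (d * (n / d - ε) + d * (n / d - ε * (1 - d)) - n)
      = n / d - ε - ε * (1 - d) := by
    field_simp; ring
  rw [h2]
  module

lemma inner_Y_Rf (hp : Pair X Y ν μ d n ε) (v : E) : ⟪Y, Rf X Y v⟫ = ⟪X, v⟫ := by
  rw [← Rf_symm, hp.Rf_Y]

/-- the coupled velocity `P_Y R v` -/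
lemma PfRf (hp : Pair X Y ν μ d n ε) (hq : q d n ε ≠ 0) (v : E) :
    Pf Y μ (Rf X Y v) = v - (1 / d * ⟪X - Y, v⟫) • (X - Y) - ⟪X, v⟫ • Y
      - ((q d n ε)⁻¹ * ⟪ν - ε • (Y - (1 - d) • X), v⟫) • W X Y ν d n ε := by
  rw [hp.PfY hq, hp.inner_Rf_W, hp.inner_Y_Rf, hp.Rf_eq]

/-- `t = P_X Y` -/
lemma PfXY (hp : Pair X Y ν μ d n ε) : Pf X ν Y = Y - (1 - d) • X - n • ν := by
  rw [Pf, hp.hd, hp.hn]

lemma tt (hp : Pair X Y ν μ d n ε) : ⟪Pf X ν Y, Pf X ν Y⟫ = 2 * d - d ^ 2 - n ^ 2 := by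
  rw [hp.PfXY]
  simp only [inner_sub_left, inner_sub_right,
    inner_smul_left, inner_smul_right, hp.XX, hp.YY, hp.hd, hp.YX, hp.νν, hp.νX, hp.Xν, hp.hn,
    hp.Yν, RCLike.conj_to_real]
  ring

/-- `t' = R P_Y X` -/
lemma t'_eq (hp : Pair X Y ν μ d n ε) (hq : q d n ε ≠ 0) :
    Rf X Y (Pf Y μ X) = (Y - (1 - d) • X)
      - ((q d n ε)⁻¹ * (n - ε * (2 * d - d ^ 2))) • (ν - ε • (Y - (1 - d) • X)) := by
  apply ext_inner_right ℝ
  intro v
  rw [Rf_symm, Pf_symm, hp.PfRf hq]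
  have hd := hp.dpos.ne'
  have h1 : ⟪X, W X Y ν d n ε⟫ = n - ε * (2 * d - d ^ 2) := by
    simp only [W, inner_sub_right, inner_add_right,
      inner_smul_right, hp.XX, hp.hd, hp.Xν]
    field_simp; ring
  simp only [inner_sub_left, inner_sub_right, inner_smul_left, inner_smul_right, h1,
    hp.XX, hp.hd, RCLike.conj_to_real]
  field_simp
  ring

lemma t't' (hp : Pair X Y ν μ d n ε) (hq : q d n ε ≠ 0) :
    ⟪Rf X Y (Pf Y μ X), Rf X Y (Pf Y μ X)⟫ = (q d n ε)⁻¹ * (2 * d - d ^ 2 - n ^ 2) := by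
  rw [hp.t'_eq hq]
  simp only [inner_sub_left, inner_sub_right,
    inner_smul_left, inner_smul_right, hp.XX, hp.YY, hp.hd, hp.YX, hp.νν, hp.νX, hp.Xν, hp.hn,
    hp.Yν, RCLike.conj_to_real]
  field_simp
  rw [q]
  ring

lemma tt' (hp : Pair X Y ν μ d n ε) (hq : q d n ε ≠ 0) :
    ⟪Pf X ν Y, Rf X Y (Pf Y μ X)⟫ =
      (q d n ε)⁻¹ * (1 - ε * n) * (2 * d - d ^ 2 - n ^ 2) := by
  rw [hp.t'_eq hq, hp.PfXY]
  simp only [inner_sub_left, inner_sub_right,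
    inner_smul_left, inner_smul_right, hp.XX, hp.YY, hp.hd, hp.YX, hp.νν, hp.νX, hp.Xν, hp.hn,
    hp.Yν, RCLike.conj_to_real]
  field_simp
  rw [q]
  ring

section sums

variable {ι : Type*} [Fintype ι] (e : OrthonormalBasis ι ℝ E) {h : E →ₗ[ℝ] E}

lemma sum_inner (e : OrthonormalBasis ι ℝ E) (u v : E) : ∑ i, ⟪u, e i⟫ * ⟪v, e i⟫ = ⟪u, v⟫ := by
  rw [← e.sum_inner_mul_inner u v]
  refine Finset.sum_congr rfl fun i _ => ?_
  rw [real_inner_comm v]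

lemma sum_h (e : OrthonormalBasis ι ℝ E) (hs : ∀ u v, ⟪h u, v⟫ = ⟪u, h v⟫) (u v : E) :
    ∑ i, ⟪u, e i⟫ * ⟪h (e i), v⟫ = ⟪u, h v⟫ := by
  rw [← sum_inner e u (h v)]
  refine Finset.sum_congr rfl fun i _ => ?_
  rw [hs (e i) v, real_inner_comm (h v) (e i)]

lemma S1 (hp : Pair X Y ν μ d n ε) (hq : q d n ε ≠ 0)
    (hs : ∀ u v, ⟪h u, v⟫ = ⟪u, h v⟫) (hX : h X = 0) (hν : h ν = 0)
    (htr : ∑ i, ⟪h (e i), e i⟫ = 0) :
    ∑ i, ⟪h (e i), Pf Y μ (Rf X Y (e i))⟫ =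
      -(1 / d + (q d n ε)⁻¹ * ε * (n / d - ε * (1 - d))) * ⟪h Y, Y⟫ := by
  have hd := hp.dpos.ne'
  have h1 : ∀ i, ⟪h (e i), Pf Y μ (Rf X Y (e i))⟫ = ⟪h (e i), e i⟫
      - 1 / d * (⟪X - Y, e i⟫ * ⟪h (e i), X - Y⟫) - ⟪X, e i⟫ * ⟪h (e i), Y⟫
      - (q d n ε)⁻¹ * (⟪ν - ε • (Y - (1 - d) • X), e i⟫ * ⟪h (e i), W X Y ν d n ε⟫) := by
    intro i
    rw [hp.PfRf hq, inner_sub_right, inner_sub_right, inner_sub_right, inner_smul_right,
      inner_smul_right, inner_smul_right]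
    ring
  rw [Finset.sum_congr rfl fun i _ => h1 i]
  rw [Finset.sum_sub_distrib, Finset.sum_sub_distrib, Finset.sum_sub_distrib, ← Finset.mul_sum,
    ← Finset.mul_sum, sum_h e hs, sum_h e hs, sum_h e hs, htr]
  have hXY : ⟪X, h Y⟫ = 0 := by rw [← hs, hX, inner_zero_left]
  have hνY : ⟪ν, h Y⟫ = 0 := by rw [← hs, hν, inner_zero_left]
  have hYY : ⟪Y, h Y⟫ = ⟪h Y, Y⟫ := (hs Y Y).symm
  simp only [W, map_sub, map_add, map_smul, hX, hν, inner_sub_left, inner_sub_right,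
    inner_add_right, inner_smul_left, inner_smul_right, inner_zero_right, hXY, hνY, hYY,
    RCLike.conj_to_real, smul_zero]
  ring

lemma S2 (hp : Pair X Y ν μ d n ε) (hq : q d n ε ≠ 0) {m : ℝ}
    (hm : (Fintype.card ι : ℝ) = m + 2) :
    ∑ i, ⟪Pf X ν (e i), Pf Y μ (Rf X Y (e i))⟫ =
      m - (1 / d + (q d n ε)⁻¹ * ε * (n / d - ε * (1 - d))) * (2 * d - d ^ 2 - n ^ 2) := by
  have hd := hp.dpos.ne'
  have h0 : ∑ i, ⟪Pf X ν (e i), e i⟫ = m := by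
    have : ∀ i, ⟪Pf X ν (e i), e i⟫ = 1 - ⟪X, e i⟫ * ⟪X, e i⟫ - ⟪ν, e i⟫ * ⟪ν, e i⟫ := by
      intro i
      simp only [Pf, inner_sub_left, inner_smul_left, RCLike.conj_to_real]
      rw [real_inner_self_eq_norm_sq, e.norm_eq_one]
      ring
    rw [Finset.sum_congr rfl fun i _ => this i, Finset.sum_sub_distrib, Finset.sum_sub_distrib,
      sum_inner, sum_inner, hp.XX, hp.νν]
    simp [hm]
    ring
  have h1 : ∀ i, ⟪Pf X ν (e i), Pf Y μ (Rf X Y (e i))⟫ = ⟪Pf X ν (e i), e i⟫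
      - 1 / d * (⟪X - Y, e i⟫ * ⟪Pf X ν (X - Y), e i⟫) - ⟪X, e i⟫ * ⟪Pf X ν Y, e i⟫
      - (q d n ε)⁻¹ * (⟪ν - ε • (Y - (1 - d) • X), e i⟫ * ⟪Pf X ν (W X Y ν d n ε), e i⟫) := by
    intro i
    rw [hp.PfRf hq, inner_sub_right, inner_sub_right, inner_sub_right, inner_smul_right,
      inner_smul_right, inner_smul_right]
    rw [Pf_symm X ν (e i) (X - Y), Pf_symm X ν (e i) Y, Pf_symm X ν (e i) (W X Y ν d n ε)]
    rw [real_inner_comm (Pf X ν (X - Y)), real_inner_comm (Pf X ν Y),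
      real_inner_comm (Pf X ν (W X Y ν d n ε))]
    ring
  rw [Finset.sum_congr rfl fun i _ => h1 i]
  rw [Finset.sum_sub_distrib, Finset.sum_sub_distrib, Finset.sum_sub_distrib, ← Finset.mul_sum,
    ← Finset.mul_sum, sum_inner, sum_inner, sum_inner, h0]
  have a1 : Pf X ν (X - Y) = -(Y - (1 - d) • X - n • ν) := by
    rw [Pf, inner_sub_right, inner_sub_right, hp.XX, hp.hd, hp.νX, hp.hn]
    module
  have a2 : Pf X ν (W X Y ν d n ε) = -(n / d - ε * (1 - d)) • (Y - (1 - d) • X - n • ν) := by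
    rw [Pf, W]
    simp only [inner_sub_right, inner_add_right, inner_smul_right, hp.XX, hp.hd, hp.νX, hp.hn,
      hp.νν, hp.Xν]
    module
  rw [a1, a2, hp.PfXY]
  simp only [inner_sub_left, inner_sub_right, inner_neg_right,
    inner_smul_left, inner_smul_right, hp.XX, hp.YY, hp.hd, hp.YX, hp.νν, hp.νX, hp.Xν, hp.hn,
    hp.Yν, RCLike.conj_to_real]
  field_simp
  ring

/-- derivative of `n` along `v` -/
noncomputable def n' (X Y ν μ : E) (h : E →ₗ[ℝ] E) (v : E) : ℝ :=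
  ⟪h v, Y⟫ + ⟪ν, Pf Y μ (Rf X Y v)⟫

/-- derivative of `d` along `v` -/
noncomputable def d' (X Y ν μ : E) (v : E) : ℝ := -⟪Pf X ν v, Y⟫ - ⟪X, Pf Y μ (Rf X Y v)⟫

lemma n'_eq (hp : Pair X Y ν μ d n ε) (hs : ∀ u v, ⟪h u, v⟫ = ⟪u, h v⟫) (v : E) :
    n' X Y ν μ h v = ⟪h Y - (n / d - ε) • Rf X Y (Pf Y μ X), v⟫ := by
  have h1 : Pf Y μ ν = -((n / d - ε) • Pf Y μ X) := by
    have := hp.crit
    have h2 : Pf Y μ (ν + (n / d - ε) • X) = Pf Y μ ν + (n / d - ε) • Pf Y μ X := by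
      simp only [Pf, inner_add_right, inner_smul_right]
      module
    rw [h2] at this
    exact eq_neg_of_add_eq_zero_left this
  rw [n', ← Pf_symm, h1, hs, real_inner_comm, inner_neg_left, inner_smul_left, ← Rf_symm,
    inner_sub_left, inner_smul_left, hs]
  simp only [RCLike.conj_to_real]
  ring

lemma d'_eq (v : E) : d' X Y ν μ v = -⟪Pf X ν Y + Rf X Y (Pf Y μ X), v⟫ := by
  rw [d', inner_add_left, Pf_symm, real_inner_comm, ← Pf_symm Y μ X, ← Rf_symm]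
  ring

/-- **Pointwise noncollapsing inequality** for a critical pair. -/
theorem core (hp : Pair X Y ν μ d n ε) (e : OrthonormalBasis ι ℝ E) {m A2 : ℝ}
    (hm : (Fintype.card ι : ℝ) = m + 2) (hA : 0 ≤ A2)
    (hs : ∀ u v, ⟪h u, v⟫ = ⟪u, h v⟫) (hX : h X = 0) (hν : h ν = 0)
    (htr : ∑ i, ⟪h (e i), e i⟫ = 0) (hε : 0 ≤ ε) (hk : 2 * ε ≤ n / d) (hk0 : 0 < n)
    (hq : 1 / 2 ≤ q d n ε) (hh : ∀ v, ‖h v‖ ≤ (n / d + 2 * ε) * ‖v‖) :
    (m - A2) * (n / d + 2 * ε)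
        - (4 * m * ε + 16 * ε ^ 2 * (n / d + 2 * ε) + 18 * ε ^ 2 / ((n / d + 2 * ε) * d))
      ≤ (1 / d) * ((-(A2 + m) * n + 2 * ∑ i, ⟪h (e i), Pf Y μ (Rf X Y (e i))⟫)
            - (n / d - ε) * (2 * m * (1 - d) - 2 * ∑ i, ⟪Pf X ν (e i), Pf Y μ (Rf X Y (e i))⟫))
        - (2 / d ^ 2) * (∑ i, n' X Y ν μ h (e i) * d' X Y ν μ (e i))
        + (1 / d ^ 2) * (2 * (n / d) - ε / 2) * (∑ i, d' X Y ν μ (e i) ^ 2)
        - (∑ i, ((n' X Y ν μ h (e i) - (n / d - ε) * d' X Y ν μ (e i)) / d) ^ 2)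
            / (n / d + 2 * ε) := by
  have hd := hp.dpos.ne'
  have hq0 : q d n ε ≠ 0 := by linarith
  have hΦ : 0 < n / d + 2 * ε := by
    have := hp.dpos
    positivity
  set t := Pf X ν Y with ht
  set t' := Rf X Y (Pf Y μ X) with ht'
  set T := 2 * d - d ^ 2 - n ^ 2 with hT
  set H := ⟪h Y, Y⟫ with hH
  set K := ⟪h Y, h Y⟫ with hK
  have e1 : t = Y - (1 - d) • X - n • ν := hp.PfXY
  have e2 : h t = h Y := by
    rw [e1]; simp [hX, hν]
  have e3 : ⟪h Y, t⟫ = H := by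
    rw [hs, e2, ← hs]
  have e4 : ⟪h Y, t'⟫ = (q d n ε)⁻¹ * (1 - ε * n) * H := by
    have hYX : ⟪h Y, X⟫ = 0 := by rw [hs, hX, inner_zero_right]
    have hYν : ⟪h Y, ν⟫ = 0 := by rw [hs, hν, inner_zero_right]
    rw [ht', hp.t'_eq hq0]
    simp only [inner_sub_right, inner_smul_right, hYX, hYν]
    rw [← hH]
    field_simp
    rw [q]
    ring
  have e5 : ⟪t, t⟫ = T := hp.tt
  have e6 : ⟪t, t'⟫ = (q d n ε)⁻¹ * (1 - ε * n) * T := hp.tt' hq0
  have e7 : ⟪t', t'⟫ = (q d n ε)⁻¹ * T := hp.t't' hq0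
  have s1 : ∑ i, n' X Y ν μ h (e i) * d' X Y ν μ (e i)
      = -⟪h Y - (n / d - ε) • t', t + t'⟫ := by
    rw [← sum_inner e, ← Finset.sum_neg_distrib]
    refine Finset.sum_congr rfl fun i _ => ?_
    rw [hp.n'_eq hs, d'_eq]
    ring
  have s2 : ∑ i, d' X Y ν μ (e i) ^ 2 = ⟪t + t', t + t'⟫ := by
    rw [← sum_inner e]
    refine Finset.sum_congr rfl fun i _ => ?_
    rw [d'_eq]
    ring
  have s3 : ∑ i, ((n' X Y ν μ h (e i) - (n / d - ε) * d' X Y ν μ (e i)) / d) ^ 2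
      = ⟪h Y + (n / d - ε) • t, h Y + (n / d - ε) • t⟫ / d ^ 2 := by
    rw [← sum_inner e, Finset.sum_div]
    refine Finset.sum_congr rfl fun i _ => ?_
    rw [hp.n'_eq hs, d'_eq, div_pow]
    congr 1
    simp only [inner_add_left, inner_sub_left, inner_smul_left, RCLike.conj_to_real]
    ring
  rw [s1, s2, s3, hp.S1 e hq0 hs hX hν htr, hp.S2 e hq0 hm]
  have c0 : ⟪t', h Y⟫ = (q d n ε)⁻¹ * (1 - ε * n) * H := by rw [real_inner_comm, e4]
  have c1 : ⟪t, h Y⟫ = H := by rw [real_inner_comm, e3]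
  have c2 : ⟪t', t⟫ = (q d n ε)⁻¹ * (1 - ε * n) * T := by rw [real_inner_comm, e6]
  have i1 : ⟪h Y - (n / d - ε) • t', t + t'⟫ = H + (q d n ε)⁻¹ * (1 - ε * n) * H
      - (n / d - ε) * ((q d n ε)⁻¹ * (1 - ε * n)) * T - (n / d - ε) * (q d n ε)⁻¹ * T := by
    simp only [inner_sub_left, inner_add_right, inner_smul_left, RCLike.conj_to_real,
      e3, e4, e7, c2]
    ring
  have i2 : ⟪t + t', t + t'⟫ = T * (1 + 2 * ((q d n ε)⁻¹ * (1 - ε * n)) + (q d n ε)⁻¹) := by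
    simp only [inner_add_left, inner_add_right, e5, e6, e7, c2]
    ring
  have i3 : ⟪h Y + (n / d - ε) • t, h Y + (n / d - ε) • t⟫
      = K + 2 * (n / d - ε) * H + (n / d - ε) ^ 2 * T := by
    simp only [inner_add_left, inner_add_right, inner_smul_left, inner_smul_right,
      RCLike.conj_to_real, e3, e5, c1]
    rw [← hK]
    ring
  rw [i1, i2, i3]
  have hT0 : 0 ≤ T := by rw [← e5]; exact real_inner_self_nonneg
  have hnd : n / d * d = n := by field_simp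
  have hb : (q d n ε)⁻¹ * (1 - 2 * ε * (n / d * d) + ε ^ 2 * (2 * d - d ^ 2)) = 1 := by
    rw [hnd, ← q]; exact inv_mul_cancel₀ hq0
  have hbound := scalar_core (m := m) (A2 := A2) (k := n / d) (ε := ε) (d := d) (H := H) (K := K)
    (T := T) (b := (q d n ε)⁻¹) hA hp.dpos hε hk (by have := hp.dpos; positivity) hb
    (by rw [hnd]; exact hq) hT0 (by rw [hT]; nlinarith [sq_nonneg d, sq_nonneg n])
    (by
      have a1 := abs_real_inner_le_norm (h t) t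
      have a2 := hh t
      have a3 : ⟪h t, t⟫ = H := by rw [e2, e3]
      have a4 : ‖t‖ * ‖t‖ = T := by rw [← e5, real_inner_self_eq_norm_mul_norm]
      rw [a3] at a1
      calc |H| ≤ ‖h t‖ * ‖t‖ := a1
        _ ≤ ((n / d + 2 * ε) * ‖t‖) * ‖t‖ := by gcongr
        _ = (n / d + 2 * ε) * T := by rw [mul_assoc, a4])
    (by
      have a2 := hh t
      have a4 : ‖t‖ * ‖t‖ = T := by rw [← e5, real_inner_self_eq_norm_mul_norm]
      have a5 : K = ‖h t‖ * ‖h t‖ := by rw [e2, ← real_inner_self_eq_norm_mul_norm]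
      rw [a5]
      calc ‖h t‖ * ‖h t‖ ≤ ((n / d + 2 * ε) * ‖t‖) * ((n / d + 2 * ε) * ‖t‖) := by gcongr
        _ = (n / d + 2 * ε) ^ 2 * (‖t‖ * ‖t‖) := by ring
        _ = (n / d + 2 * ε) ^ 2 * T := by rw [a4])
  rw [hnd] at hbound
  refine hbound.trans (le_of_eq ?_)
  ring

end sums

end Pair

end Crest.Agent.R246.NcAlg112
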