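import Crest.Agent.R246.NcFoot_112

/-!
# The reflection-coupled barrier and its jets (block I(B))
-/

set_option autoImplicit false
set_option linter.unusedSectionVars false
noncomputable section
open MeasureTheory Set Filter Topology
open scoped RealInnerProductSpace ContDiff

namespace Crest.Agent.R246.NcBar112

open Crest.Agent.R246.H990 Crest.Agent.R246.SM436 Crest.Agent.R246.NcJet112
  Crest.Agent.R246.NcAlg112 Crest.Agent.R246.NcFoot112

variable {E : Type*} [NormedAddCommGroup E] [InnerProductSpace ℝ E] [FiniteDimensional ℝ E]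
variable {φ : E → ℝ} {b : ℝ}

/-- moving second point -/
def qf (φ : E → ℝ) (X Y x : E) : E := pp φ (Rf X Y x)

/-- numerator -/
def nn (φ : E → ℝ) (X Y x : E) : ℝ := ⟪gradient φ x, qf φ X Y x⟫

/-- denominator -/
def dd (φ : E → ℝ) (X Y x : E) : ℝ := 1 - ⟪pp φ x, qf φ X Y x⟫

/-- the barrier -/
def ff (φ : E → ℝ) (lam : ℝ) (X Y x : E) : ℝ :=
  nn φ X Y x * (dd φ X Y x)⁻¹ + lam * Real.sqrt (2 * dd φ X Y x)

variable {X Y : E} {d n ε : ℝ}

section

variable (hT : Tube φ b) (hX : φ X = 0) (hY : φ Y = 0)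
  (hp : Pair X Y (gradient φ X) (gradient φ Y) d n ε)
include hT hX hY hp

lemma jet_qf (v : E) :
    J2 (fun t : ℝ => qf φ X Y (X + t • v)) Y (Pf Y (gradient φ Y) (Rf X Y v))
      (BB φ Y (Rf X Y v)) := by
  have h1 := jet_pp hT hp.nY hY (Rf X Y v)
  refine J2cast h1 ?_ rfl rfl rfl
  funext t
  rw [qf]
  congr 1
  rw [hp.Rf_eq, hp.Rf_eq v]
  have h2 := hp.Rf_X
  rw [hp.Rf_eq] at h2
  rw [← h2, inner_add_right, inner_smul_right]
  have h3 : ⟪X - (X - (1 / d * ⟪X - Y, X⟫) • (X - Y)), v⟫ = ⟪X - Y, v⟫ := by rw [h2]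
  have h4 : X - (X - (1 / d * ⟪X - Y, X⟫) • (X - Y)) = X - Y := by rw [h2]
  rw [h4]
  module

lemma jet_nn (v : E) :
    J2 (fun t : ℝ => nn φ X Y (X + t • v)) n
      (Pair.n' X Y (gradient φ X) (gradient φ Y) (hs φ X : E →ₗ[ℝ] E) v)
      (⟪fderiv ℝ (hs φ) X v v, Y⟫
        + 2 * ⟪(hs φ X : E →ₗ[ℝ] E) v, Pf Y (gradient φ Y) (Rf X Y v)⟫
        + ⟪gradient φ X, BB φ Y (Rf X Y v)⟫) := by
  have hg := hT.good (hT.mem_TT_of_ZZ (mem_ZZ hp.nX hX))
  have h1 := (jet_gradient hg v).inner (jet_qf hT hX hY hp v)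
  exact J2cast h1 rfl hp.hn.symm rfl rfl

lemma jet_dd (v : E) :
    J2 (fun t : ℝ => dd φ X Y (X + t • v)) d
      (Pair.d' X Y (gradient φ X) (gradient φ Y) v)
      (-(⟪BB φ X v, Y⟫ + 2 * ⟪Pf X (gradient φ X) v, Pf Y (gradient φ Y) (Rf X Y v)⟫
        + ⟪X, BB φ Y (Rf X Y v)⟫)) := by
  have h1 := (J2.const (1 : ℝ)).sub ((jet_pp hT hp.nX hX v).inner (jet_qf hT hX hY hp v))
  refine J2cast h1 rfl ?_ ?_ ?_
  · rw [hp.hd]; ring
  · rw [Pair.d']; ring
  · ring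

/-- abbreviation: second derivative of the numerator along `v` -/
def n2 (φ : E → ℝ) (X Y v : E) : ℝ := ⟪fderiv ℝ (hs φ) X v v, Y⟫
        + 2 * ⟪(hs φ X : E →ₗ[ℝ] E) v, Pf Y (gradient φ Y) (Rf X Y v)⟫
        + ⟪gradient φ X, BB φ Y (Rf X Y v)⟫

/-- abbreviation: second derivative of the denominator along `v` -/
def d2 (φ : E → ℝ) (X Y v : E) : ℝ :=
  -(⟪BB φ X v, Y⟫ + 2 * ⟪Pf X (gradient φ X) v, Pf Y (gradient φ Y) (Rf X Y v)⟫
        + ⟪X, BB φ Y (Rf X Y v)⟫)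

/-- first derivative of the barrier -/
def f1 (φ : E → ℝ) (X Y : E) (d n ε : ℝ) (v : E) : ℝ :=
  (Pair.n' X Y (gradient φ X) (gradient φ Y) (hs φ X : E →ₗ[ℝ] E) v
    - (n / d - ε) * Pair.d' X Y (gradient φ X) (gradient φ Y) v) / d

/-- second derivative of the barrier -/
def f2 (φ : E → ℝ) (X Y : E) (d n ε : ℝ) (v : E) : ℝ :=
  1 / d * (n2 φ X Y v - (n / d - ε) * d2 φ X Y v)
    - 2 / d ^ 2 * (Pair.n' X Y (gradient φ X) (gradient φ Y) (hs φ X : E →ₗ[ℝ] E) v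
        * Pair.d' X Y (gradient φ X) (gradient φ Y) v)
    + 1 / d ^ 2 * (2 * (n / d) - ε / 2) * Pair.d' X Y (gradient φ X) (gradient φ Y) v ^ 2

lemma jet_ff {lam : ℝ} (hε : ε = lam * Real.sqrt (2 * d) / 2) (v : E) :
    J2 (fun t : ℝ => ff φ lam X Y (X + t • v)) (n / d + 2 * ε) (f1 φ X Y d n ε v)
      (f2 φ X Y d n ε v) := by
  have hd := hp.dpos
  have h1 := jet_nn hT hX hY hp v
  have h2 := jet_dd hT hX hY hp v
  have h3 := h1.mul (h2.inv hd.ne')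
  have h4 := ((J2.const (2 : ℝ)).mul h2).sqrt (by positivity)
  have h5 := (J2.const lam).mul h4
  have h6 := h3.add h5
  have hr : 0 < Real.sqrt (2 * d) := Real.sqrt_pos.2 (by positivity)
  have hr2 : Real.sqrt (2 * d) ^ 2 = 2 * d := Real.sq_sqrt (by positivity)
  set r := Real.sqrt (2 * d) with hrdef
  have hd' : d = r ^ 2 / 2 := by rw [hr2]; ring
  refine J2cast h6 rfl ?_ ?_ ?_
  · rw [hε]; field_simp
  · rw [f1, hε, hd']
    field_simp
    ring
  · rw [f2, n2, d2, hε, hd']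
    field_simp
    ring

lemma jet_log {lam : ℝ} (hε : ε = lam * Real.sqrt (2 * d) / 2) (hΦ : 0 < n / d + 2 * ε) (v : E) :
    J2 (fun t : ℝ => Real.log (ff φ lam X Y (X + t • v))) (Real.log (n / d + 2 * ε))
      (f1 φ X Y d n ε v / (n / d + 2 * ε))
      (f2 φ X Y d n ε v / (n / d + 2 * ε) - (f1 φ X Y d n ε v / (n / d + 2 * ε)) ^ 2) :=
  (jet_ff hT hX hY hp hε v).log hΦ.ne'

variable {ι : Type*} [Fintype ι] (e : OrthonormalBasis ι ℝ E)

/-- **the sum of the second derivatives of the barrier** -/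
theorem sum_log_ge {m : ℝ} (hm : (Fintype.card ι : ℝ) = m + 2)
    (hmin : ∀ x, x ≠ 0 → φ x = 0 → LinearMap.trace ℝ E (hs φ x : E →ₗ[ℝ] E) = 0)
    (hε : 0 ≤ ε) (hk : 2 * ε ≤ n / d) (hk0 : 0 < n) (hq : 1 / 2 ≤ Pair.q d n ε)
    (hh : ∀ v, ‖hs φ X v‖ ≤ (n / d + 2 * ε) * ‖v‖) :
    (m - ∑ i, ‖hs φ X (e i)‖ ^ 2)
        - (4 * m * ε + 16 * ε ^ 2 * (n / d + 2 * ε) + 18 * ε ^ 2 / ((n / d + 2 * ε) * d))
          / (n / d + 2 * ε)
      ≤ ∑ i, (f2 φ X Y d n ε (e i) / (n / d + 2 * ε)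
          - (f1 φ X Y d n ε (e i) / (n / d + 2 * ε)) ^ 2) := by
  classical
  have hd := hp.dpos
  have hXZ := mem_ZZ hp.nX hX
  have hYZ := mem_ZZ hp.nY hY
  have hg := hT.good (hT.mem_TT_of_ZZ hXZ)
  have hΦ : 0 < n / d + 2 * ε := by positivity
  set A2 := ∑ i, ‖hs φ X (e i)‖ ^ 2 with hA2
  have hA0 : 0 ≤ A2 := Finset.sum_nonneg fun i _ => by positivity
  have htrX := hmin X hXZ.1 hX
  have htr : ∑ i, ⟪(hs φ X : E →ₗ[ℝ] E) (e i), e i⟫ = 0 := by
    rw [← htrX, LinearMap.trace_eq_sum_inner _ e]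
    refine Finset.sum_congr rfl fun i _ => ?_
    rw [real_inner_comm]
  have hcore := hp.core (h := (hs φ X : E →ₗ[ℝ] E)) e hm hA0 (fun u v => hg.hs_symm u v)
    (hg.hs_self hT.hom) hg.hs_gradient htr hε hk hk0 hq hh
  -- the reflected basis
  have hR : ∃ e' : OrthonormalBasis ι ℝ E, ∀ i, e' i = Rf X Y (e i) := by
    have hRn : ∀ u v : E, ⟪Rf X Y u, Rf X Y v⟫ = ⟪u, v⟫ := by
      intro u v
      rw [Rf_symm, hp.Rf_eq, hp.Rf_eq v]
      congr 1
      have : ⟪X - Y, X - Y⟫ = 2 * d := by rw [real_inner_self_eq_norm_sq, hp.rho2]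
      rw [inner_sub_right, inner_smul_right, this]
      have hd' := hd.ne'
      have h7 : (1 / d * (⟪X - Y, v⟫ - 1 / d * ⟪X - Y, v⟫ * (2 * d))) = -(1 / d * ⟪X - Y, v⟫) := by
        field_simp; ring
      rw [h7]
      module
    have ho : Orthonormal ℝ fun i => Rf X Y (e i) := by
      rw [orthonormal_iff_ite]
      intro i j
      rw [hRn]
      exact (orthonormal_iff_ite.1 e.orthonormal) i j
    have hcard : Fintype.card ι = Module.finrank ℝ E := by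
      rw [Module.finrank_eq_card_basis e.toBasis]
    refine ⟨OrthonormalBasis.mk ho
      (ho.linearIndependent.span_eq_top_of_card_eq_finrank' hcard).ge, fun i => ?_⟩
    simp
  obtain ⟨e', he'⟩ := hR
  have hYm := hmin Y hYZ.1 hY
  have sB1 : ∑ i, BB φ Y (Rf X Y (e i)) = -(m • Y) := by
    have := sum_BB hT e' hp.nY hY hYm hm
    simpa only [he'] using this
  have sB2 : ∑ i, BB φ X (e i) = -(m • X) := sum_BB hT e hp.nX hX htrX hm
  have sC : ∑ i, fderiv ℝ (hs φ) X (e i) (e i) = -(A2 • gradient φ X) :=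
    sum_dhs hT e hp.nX hX hmin
  have sn : ∑ i, n2 φ X Y (e i) = -(A2 + m) * n
      + 2 * ∑ i, ⟪(hs φ X : E →ₗ[ℝ] E) (e i), Pf Y (gradient φ Y) (Rf X Y (e i))⟫ := by
    simp only [n2]
    rw [Finset.sum_add_distrib, Finset.sum_add_distrib, ← sum_inner, ← inner_sum, sC, sB1,
      ← Finset.mul_sum, inner_neg_left, inner_smul_left, inner_neg_right, inner_smul_right, hp.hn]
    simp only [RCLike.conj_to_real]
    ring
  have sd : ∑ i, d2 φ X Y (e i) = 2 * m * (1 - d)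
      - 2 * ∑ i, ⟪Pf X (gradient φ X) (e i), Pf Y (gradient φ Y) (Rf X Y (e i))⟫ := by
    simp only [d2]
    rw [Finset.sum_neg_distrib, Finset.sum_add_distrib, Finset.sum_add_distrib, ← sum_inner,
      ← inner_sum, sB2, sB1, ← Finset.mul_sum, inner_neg_left, inner_smul_left, inner_neg_right,
      inner_smul_right, hp.hd]
    simp only [RCLike.conj_to_real]
    ring
  have sf2 : ∑ i, f2 φ X Y d n ε (e i) = (1 / d) * ((-(A2 + m) * n
        + 2 * ∑ i, ⟪(hs φ X : E →ₗ[ℝ] E) (e i), Pf Y (gradient φ Y) (Rf X Y (e i))⟫)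
            - (n / d - ε) * (2 * m * (1 - d)
              - 2 * ∑ i, ⟪Pf X (gradient φ X) (e i), Pf Y (gradient φ Y) (Rf X Y (e i))⟫))
        - (2 / d ^ 2) * (∑ i, Pair.n' X Y (gradient φ X) (gradient φ Y) (hs φ X : E →ₗ[ℝ] E) (e i)
            * Pair.d' X Y (gradient φ X) (gradient φ Y) (e i))
        + (1 / d ^ 2) * (2 * (n / d) - ε / 2) *
          (∑ i, Pair.d' X Y (gradient φ X) (gradient φ Y) (e i) ^ 2) := by
    rw [← sn, ← sd]
    simp only [f2]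
    rw [Finset.sum_add_distrib, Finset.sum_sub_distrib, ← Finset.mul_sum, ← Finset.mul_sum,
      ← Finset.mul_sum, Finset.sum_sub_distrib, ← Finset.mul_sum]
  have sf1 : ∑ i, ((Pair.n' X Y (gradient φ X) (gradient φ Y) (hs φ X : E →ₗ[ℝ] E) (e i)
      - (n / d - ε) * Pair.d' X Y (gradient φ X) (gradient φ Y) (e i)) / d) ^ 2
      = ∑ i, f1 φ X Y d n ε (e i) ^ 2 := rfl
  rw [← sf2, sf1] at hcore
  rw [Finset.sum_sub_distrib, ← Finset.sum_div]
  have s3 : ∑ i, (f1 φ X Y d n ε (e i) / (n / d + 2 * ε)) ^ 2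
      = (∑ i, f1 φ X Y d n ε (e i) ^ 2) / (n / d + 2 * ε) / (n / d + 2 * ε) := by
    rw [div_div, ← sq, Finset.sum_div]
    refine Finset.sum_congr rfl fun i _ => ?_
    rw [div_pow]
  rw [s3]
  have h9 := div_le_div_of_nonneg_right hcore hΦ.le
  have h10 : ((m - A2) * (n / d + 2 * ε)
        - (4 * m * ε + 16 * ε ^ 2 * (n / d + 2 * ε) + 18 * ε ^ 2 / ((n / d + 2 * ε) * d)))
        / (n / d + 2 * ε) = (m - A2)
        - (4 * m * ε + 16 * ε ^ 2 * (n / d + 2 * ε) + 18 * ε ^ 2 / ((n / d + 2 * ε) * d))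
          / (n / d + 2 * ε) := by
    rw [sub_div, mul_div_assoc, div_self hΦ.ne', mul_one]
  rw [h10, sub_div] at h9
  exact h9

end

/-! ### criticality -/

/-- the two-point function (one sign) -/
def Psi (φ : E → ℝ) (lam : ℝ) (x y : E) : ℝ :=
  ⟪gradient φ x, y⟫ * (1 - ⟪x, y⟫)⁻¹ + lam * Real.sqrt (2 * (1 - ⟪x, y⟫))

lemma one_sub_inner {x y : E} (hx : ‖x‖ = 1) (hy : ‖y‖ = 1) :
    2 * (1 - ⟪x, y⟫) = ‖x - y‖ ^ 2 := by
  rw [norm_sub_sq_real, hx, hy]; ring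

lemma one_sub_inner_pos {x y : E} (hx : ‖x‖ = 1) (hy : ‖y‖ = 1) (hne : x ≠ y) :
    0 < 1 - ⟪x, y⟫ := by
  have h1 := one_sub_inner hx hy
  have h2 : 0 < ‖x - y‖ ^ 2 := by
    have := norm_pos_iff.2 (sub_ne_zero.2 hne)
    positivity
  linarith

section crit

variable (hT : Tube φ b)
include hT

/-- first order condition at a maximising pair -/
lemma crit_of_max {lam : ℝ} (nX : ‖X‖ = 1) (hX : φ X = 0) (nY : ‖Y‖ = 1) (hY : φ Y = 0)
    (hne : X ≠ Y) (hmax : ∀ y, ‖y‖ = 1 → φ y = 0 → y ≠ X → Psi φ lam X y ≤ Psi φ lam X Y) :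
    Pair X Y (gradient φ X) (gradient φ Y) (1 - ⟪X, Y⟫) ⟪gradient φ X, Y⟫
      (lam * Real.sqrt (2 * (1 - ⟪X, Y⟫)) / 2) := by
  have hXT := hT.mem_TT_of_ZZ (mem_ZZ nX hX)
  have hYT := hT.mem_TT_of_ZZ (mem_ZZ nY hY)
  have hgX := hT.good hXT
  have hgY := hT.good hYT
  have hd := one_sub_inner_pos nX nY hne
  refine ⟨nX, nY, hgX.norm_gradient, hgY.norm_gradient, ?_, ?_, by ring, rfl, hd, ?_⟩
  · rw [real_inner_comm, hT.euler hXT, hX]
  · rw [real_inner_comm, hT.euler hYT, hY]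
  set d := 1 - ⟪X, Y⟫ with hdd
  set n := ⟪gradient φ X, Y⟫ with hnn
  apply ext_inner_right ℝ
  intro v
  rw [inner_zero_left, Pf_symm]
  have j1 := (J2.const (gradient φ X)).inner (jet_pp hT nY hY v)
  have j2 := (J2.const (1 : ℝ)).sub ((J2.const X).inner (jet_pp hT nY hY v))
  rw [← hdd] at j2
  rw [← hnn] at j1
  have j3 := j1.mul (j2.inv hd.ne')
  have j4 := ((J2.const (2 : ℝ)).mul j2).sqrt (by positivity)
  have j5 := j3.add ((J2.const lam).mul j4)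
  have hr : 0 < Real.sqrt (2 * d) := Real.sqrt_pos.2 (by positivity)
  have hr2 : Real.sqrt (2 * d) ^ 2 = 2 * d := Real.sq_sqrt (by positivity)
  have hlm : IsLocalMax (fun t : ℝ => ⟪gradient φ X, pp φ (Y + t • v)⟫
      * (1 - ⟪X, pp φ (Y + t • v)⟫)⁻¹ + lam * Real.sqrt (2 * (1 - ⟪X, pp φ (Y + t • v)⟫))) 0 := by
    have e1 : ∀ᶠ t in 𝓝 (0 : ℝ), Y + t • v ∈ TT φ b :=
      (line_tendsto Y v).eventually (hT.isOpen_TT.mem_nhds hYT)
    have e2 : ∀ᶠ t in 𝓝 (0 : ℝ), pp φ (Y + t • v) ≠ X := by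
      have hc : ContinuousAt (fun t : ℝ => pp φ (Y + t • v)) 0 :=
        (jet_pp hT nY hY v).hasDerivAt.continuousAt
      refine hc.eventually_ne ?_
      simp only [zero_smul, add_zero, pp_self hT nY hY]
      exact hne.symm
    filter_upwards [e1, e2] with t ht1 ht2
    have := hmax (pp φ (Y + t • v)) (norm_pp hT ht1) (phi_pp hT ht1) ht2
    simp only [zero_smul, add_zero, pp_self hT nY hY]
    exact this
  have key := (j5.localMax hlm).1
  rw [inner_add_left, inner_smul_left]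
  simp only [RCLike.conj_to_real, inner_zero_left, zero_add, zero_sub, zero_mul, mul_zero] at key ⊢
  set r := Real.sqrt (2 * d) with hrdef
  have hd' : d = r ^ 2 / 2 := by rw [hr2]; ring
  rw [hd'] at key ⊢
  field_simp at key ⊢
  linarith

end crit

end Crest.Agent.R246.NcBar112
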