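import Crest.Agent.R246.NcLoc_112
import Mathlib.Analysis.Calculus.MeanValue
import Mathlib.Analysis.InnerProductSpace.Spectrum

/-!
# The maximum of the perturbed two-point function is attained off the diagonal (block I(B))
-/

set_option autoImplicit false
set_option linter.unusedSectionVars false
set_option maxSynthPendingDepth 3
noncomputable section
open MeasureTheory Set Filter Topology
open scoped RealInnerProductSpace ContDiff

namespace Crest.Agent.R246.NcDiag112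

open Crest.Agent.R246.H990 Crest.Agent.R246.SM436 Crest.Agent.R246.NcJet112
  Crest.Agent.R246.NcAlg112 Crest.Agent.R246.NcFoot112 Crest.Agent.R246.NcBar112
  Crest.Agent.R246.NcLoc112

/-! ### one variable Taylor estimates -/

lemma incr_le {f f' : ℝ → ℝ} {M s : ℝ} (hs : 0 ≤ s)
    (hf : ∀ t ∈ Icc (0 : ℝ) s, HasDerivAt f (f' t) t) (hb : ∀ t ∈ Icc (0 : ℝ) s, |f' t| ≤ M) :
    |f s - f 0| ≤ M * s := by
  have := (convex_Icc (0 : ℝ) s).norm_image_sub_le_of_norm_hasDerivWithin_le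
    (fun t ht => (hf t ht).hasDerivWithinAt) (fun t ht => hb t ht) (left_mem_Icc.2 hs)
    (right_mem_Icc.2 hs)
  simpa [Real.norm_eq_abs, abs_of_nonneg hs] using this

lemma taylor2 {w w1 w2 : ℝ → ℝ} {M s : ℝ} (hs : 0 ≤ s)
    (h1 : ∀ t ∈ Icc (0 : ℝ) s, HasDerivAt w (w1 t) t)
    (h2 : ∀ t ∈ Icc (0 : ℝ) s, HasDerivAt w1 (w2 t) t)
    (hb : ∀ t ∈ Icc (0 : ℝ) s, |w2 t - w2 0| ≤ M) :
    |w s - w 0 - w1 0 * s - w2 0 * s ^ 2 / 2| ≤ M * s ^ 2 := by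
  have hM : 0 ≤ M := (abs_nonneg _).trans (hb 0 (left_mem_Icc.2 hs))
  have g1 : ∀ t ∈ Icc (0 : ℝ) s, |w1 t - w1 0 - w2 0 * t| ≤ M * s := by
    intro t ht
    have := incr_le (f := fun t => w1 t - w2 0 * t) (f' := fun t => w2 t - w2 0) (M := M) ht.1
      (fun r hr => ((h2 r ⟨hr.1, hr.2.trans ht.2⟩).sub
        ((hasDerivAt_id r).const_mul (w2 0))).congr_deriv (by simp))
      (fun r hr => hb r ⟨hr.1, hr.2.trans ht.2⟩)
    simp only [mul_zero, sub_zero] at this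
    have h3 : M * t ≤ M * s := mul_le_mul_of_nonneg_left ht.2 hM
    calc |w1 t - w1 0 - w2 0 * t| = |w1 t - w2 0 * t - w1 0| := by congr 1; ring
      _ ≤ M * t := this
      _ ≤ M * s := h3
  have := incr_le (f := fun t => w t - w1 0 * t - w2 0 * t ^ 2 / 2)
    (f' := fun t => w1 t - w1 0 - w2 0 * t) (M := M * s) hs
    (fun r hr => ((((h1 r hr).sub ((hasDerivAt_id r).const_mul (w1 0))).sub
      (((hasDerivAt_pow 2 r).const_mul (w2 0)).div_const 2))).congr_deriv (by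
        simp; ring)) g1
  simp only [mul_zero, sub_zero, ne_eq, OfNat.ofNat_ne_zero, not_false_eq_true, zero_pow,
    zero_div] at this
  calc |w s - w 0 - w1 0 * s - w2 0 * s ^ 2 / 2| = |w s - w1 0 * s - w2 0 * s ^ 2 / 2 - w 0| := by
        congr 1; ring
    _ ≤ M * s * s := this
    _ = M * s ^ 2 := by ring

lemma scalar_foot {s K ri f c ng : ℝ} (hs0 : 0 < s) (hs1 : s ^ 2 ≤ 1 / 2)
    (hs2 : K ^ 2 * s ^ 2 ≤ 1 / 4) (hK : 0 ≤ K) (hri : 1 - s ^ 2 / 2 ≤ ri) (hri0 : 0 < ri)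
    (hf : |f| ≤ K * s ^ 2) (hc : |c| ≤ K * s) (hn : 1 - K ^ 2 * s ^ 2 / 2 ≤ ng) :
    s / 2 ≤ |ri * (s - f * c)| ∧ 1 - ri * (1 - f * (f - s * c)) ≤ s ^ 2 / 2 + 2 * K ^ 2 * s ^ 4 ∧
      (1 - (1 + K ^ 2) / 2 * s ^ 2) * |f| ≤ ri * |f| * |ng| := by
  have hfag : |f * c| ≤ K ^ 2 * s ^ 3 := by
    rw [abs_mul]
    calc |f| * |c| ≤ (K * s ^ 2) * (K * s) := by gcongr
      _ = K ^ 2 * s ^ 3 := by ring
  have hs4 : K ^ 2 * s ^ 4 ≤ 1 / 8 := by
    have : K ^ 2 * s ^ 4 = (K ^ 2 * s ^ 2) * s ^ 2 := by ring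
    rw [this]
    calc (K ^ 2 * s ^ 2) * s ^ 2 ≤ (1 / 4) * (1 / 2) := by gcongr
      _ = 1 / 8 := by norm_num
  refine ⟨?_, ?_, ?_⟩
  · have h2 : s - K ^ 2 * s ^ 3 ≤ s - f * c := by
      have := (abs_le.1 hfag).2
      linarith
    have h3 : 3 / 4 * s ≤ s - K ^ 2 * s ^ 3 := by
      have h30 : K ^ 2 * s ^ 3 = (K ^ 2 * s ^ 2) * s := by ring
      have h31 : (K ^ 2 * s ^ 2) * s ≤ 1 / 4 * s := mul_le_mul_of_nonneg_right hs2 hs0.le
      linarith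
    have h4 : (3 / 4 : ℝ) ≤ ri := by linarith
    have h5 : (3 / 4 : ℝ) * (3 / 4 * s) ≤ ri * (s - f * c) :=
      mul_le_mul h4 (h3.trans h2) (by positivity) (by positivity)
    have h6 : ri * (s - f * c) ≤ |ri * (s - f * c)| := le_abs_self _
    linarith
  · have h1 : |f * (f - s * c)| ≤ 2 * K ^ 2 * s ^ 4 := by
      rw [abs_mul]
      have h2 : |f - s * c| ≤ K * s ^ 2 + s * (K * s) := by
        refine (abs_sub _ _).trans ?_
        rw [abs_mul, abs_of_pos hs0]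
        gcongr
      calc |f| * |f - s * c| ≤ (K * s ^ 2) * (K * s ^ 2 + s * (K * s)) := by gcongr
        _ = 2 * K ^ 2 * s ^ 4 := by ring
    have h2 : 1 - 2 * K ^ 2 * s ^ 4 ≤ 1 - f * (f - s * c) := by
      have := (abs_le.1 h1).2
      linarith
    have h3 : (1 - s ^ 2 / 2) * (1 - 2 * K ^ 2 * s ^ 4) ≤ ri * (1 - f * (f - s * c)) := by
      apply mul_le_mul hri h2 (by linarith) hri0.le
    have h4 : 0 ≤ s ^ 2 / 2 * (2 * K ^ 2 * s ^ 4) := by positivity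
    have h5 : (1 - s ^ 2 / 2) * (1 - 2 * K ^ 2 * s ^ 4)
        = 1 - s ^ 2 / 2 - 2 * K ^ 2 * s ^ 4 + s ^ 2 / 2 * (2 * K ^ 2 * s ^ 4) := by ring
    linarith
  · have h1 : (1 - K ^ 2 * s ^ 2 / 2) ≤ |ng| := hn.trans (le_abs_self _)
    have h2 : (1 - s ^ 2 / 2) * (1 - K ^ 2 * s ^ 2 / 2) ≤ ri * |ng| := by
      apply mul_le_mul hri h1 (by linarith) hri0.le
    have h3 : 1 - (1 + K ^ 2) / 2 * s ^ 2 ≤ (1 - s ^ 2 / 2) * (1 - K ^ 2 * s ^ 2 / 2) := by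
      have h30 : 0 ≤ s ^ 2 / 2 * (K ^ 2 * s ^ 2 / 2) := by positivity
      have h31 : (1 - s ^ 2 / 2) * (1 - K ^ 2 * s ^ 2 / 2)
        = 1 - (1 + K ^ 2) / 2 * s ^ 2 + s ^ 2 / 2 * (K ^ 2 * s ^ 2 / 2) := by ring
      linarith
    calc (1 - (1 + K ^ 2) / 2 * s ^ 2) * |f| ≤ (ri * |ng|) * |f| := by
          apply mul_le_mul_of_nonneg_right (h3.trans h2) (abs_nonneg _)
      _ = ri * |f| * |ng| := by ring

variable {E : Type*} [NormedAddCommGroup E] [InnerProductSpace ℝ E] [FiniteDimensional ℝ E]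
variable {φ : E → ℝ} {b lam : ℝ}

/-- the compact hypersurface `M'` -/
def ZS (φ : E → ℝ) : Set E := {x | ‖x‖ = 1 ∧ φ x = 0}

/-- uniform local bounds near `M'` -/
structure LocB (φ : E → ℝ) (b r K : ℝ) : Prop where
  r0 : 0 < r
  K0 : 0 ≤ K
  mem : ∀ x ∈ ZS φ, ∀ y, ‖y - x‖ ≤ r → y ∈ TT φ b
  b1 : ∀ x ∈ ZS φ, ∀ y, ‖y - x‖ ≤ r → ‖hs φ y‖ ≤ K
  b2 : ∀ x ∈ ZS φ, ∀ y, ‖y - x‖ ≤ r → ‖fderiv ℝ (hs φ) y‖ ≤ K
  b3 : ∀ x ∈ ZS φ, ∀ y, ‖y - x‖ ≤ r → ‖fderiv ℝ (fderiv ℝ (hs φ)) y‖ ≤ K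

section

variable (hT : Tube φ b)
include hT

lemma isCompact_ZS : IsCompact (ZS φ) := by
  have h1 : ZS φ = Metric.sphere (0 : E) 1 ∩ {x | φ x = 0} := by
    ext x; simp [ZS]
  rw [h1]
  exact (isCompact_sphere (0 : E) 1).inter_right (isClosed_eq hT.lip.continuous continuous_const)

lemma ZS_subset : ZS φ ⊆ TT φ b := fun _ hx => hT.mem_TT_of_ZZ (mem_ZZ hx.1 hx.2)

lemma exists_LocB : ∃ r K, LocB φ b r K := by
  have hc := isCompact_ZS hT
  obtain ⟨r, hr, hsub⟩ := hc.exists_cthickening_subset_open hT.isOpen_TT (ZS_subset hT)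
  have hcc : IsCompact (Metric.cthickening r (ZS φ)) := hc.cthickening
  have hmem : ∀ x ∈ ZS φ, ∀ y, ‖y - x‖ ≤ r → y ∈ Metric.cthickening r (ZS φ) := by
    intro x hx y hy
    exact Metric.mem_cthickening_of_dist_le y x r _ hx (by rwa [dist_eq_norm])
  have c0 : ∀ y ∈ Metric.cthickening r (ZS φ), ContDiffAt ℝ ∞ (hs φ) y :=
    fun y hy => contDiffAt_hs hT (hsub hy)
  have c1 : ContinuousOn (fun y => ‖hs φ y‖) (Metric.cthickening r (ZS φ)) :=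
    fun y hy => (c0 y hy).continuousAt.norm.continuousWithinAt
  have c2 : ContinuousOn (fun y => ‖fderiv ℝ (hs φ) y‖) (Metric.cthickening r (ZS φ)) :=
    fun y hy => ((c0 y hy).fderiv_right (m := ∞) (by simp)).continuousAt.norm.continuousWithinAt
  have c3 : ContinuousOn (fun y => ‖fderiv ℝ (fderiv ℝ (hs φ)) y‖)
      (Metric.cthickening r (ZS φ)) :=
    fun y hy => (((c0 y hy).fderiv_right (m := ∞) (by simp)).fderiv_right (m := ∞)
      (by simp)).continuousAt.norm.continuousWithinAt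
  obtain ⟨K1, hK1⟩ := hcc.bddAbove_image c1
  obtain ⟨K2, hK2⟩ := hcc.bddAbove_image c2
  obtain ⟨K3, hK3⟩ := hcc.bddAbove_image c3
  refine ⟨r, max 0 (max K1 (max K2 K3)), hr, le_max_left _ _,
    fun x hx y hy => hsub (hmem x hx y hy), ?_, ?_, ?_⟩
  · intro x hx y hy
    exact (hK1 (mem_image_of_mem _ (hmem x hx y hy))).trans (by simp)
  · intro x hx y hy
    exact (hK2 (mem_image_of_mem _ (hmem x hx y hy))).trans (by simp)
  · intro x hx y hy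
    exact (hK3 (mem_image_of_mem _ (hmem x hx y hy))).trans (by simp)

variable {r K : ℝ} (hB : LocB φ b r K)
include hB

/-- derivatives along a line -/
lemma line_phi {x : E} (hx : x ∈ ZS φ) (v : E) {t : ℝ} (ht : ‖t • v‖ ≤ r) :
    HasDerivAt (fun t : ℝ => φ (x + t • v)) ⟪gradient φ (x + t • v), v⟫ t := by
  have hy := hT.good (hB.mem x hx (x + t • v) (by simpa using ht))
  exact hy.hasFDerivAt.comp_hasDerivAt t (hasDerivAt_line x v t)

lemma line_grad {x : E} (hx : x ∈ ZS φ) (v w : E) {t : ℝ} (ht : ‖t • v‖ ≤ r) :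
    HasDerivAt (fun t : ℝ => ⟪gradient φ (x + t • v), w⟫) ⟪hs φ (x + t • v) v, w⟫ t := by
  have hy := hT.good (hB.mem x hx (x + t • v) (by simpa using ht))
  have h1 := hy.hasFDerivAt_gradient.comp_hasDerivAt t (hasDerivAt_line x v t)
  refine (h1.inner ℝ (hasDerivAt_const t w)).congr_deriv ?_
  simp

lemma line_hs {x : E} (hx : x ∈ ZS φ) (v w z : E) {t : ℝ} (ht : ‖t • v‖ ≤ r) :
    HasDerivAt (fun t : ℝ => ⟪hs φ (x + t • v) w, z⟫) ⟪fderiv ℝ (hs φ) (x + t • v) v w, z⟫ t := by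
  have hy := hT.good (hB.mem x hx (x + t • v) (by simpa using ht))
  have h1 := (hasFDerivAt_hs hy).comp_hasDerivAt t (hasDerivAt_line x v t)
  refine ((h1.clm_apply (hasDerivAt_const t w)).inner ℝ (hasDerivAt_const t z)).congr_deriv ?_
  simp

lemma line_dhs {x : E} (hx : x ∈ ZS φ) (v w z : E) {t : ℝ} (ht : ‖t • v‖ ≤ r) :
    HasDerivAt (fun t : ℝ => ⟪fderiv ℝ (hs φ) (x + t • v) v w, z⟫)
      ⟪fderiv ℝ (fderiv ℝ (hs φ)) (x + t • v) v v w, z⟫ t := by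
  have hy := hB.mem x hx (x + t • v) (by simpa using ht)
  have h0 : ContDiffAt ℝ ∞ (fderiv ℝ (hs φ)) (x + t • v) :=
    (contDiffAt_hs hT hy).fderiv_right (m := ∞) (by simp)
  have h1 := (h0.differentiableAt (by simp)).hasFDerivAt.comp_hasDerivAt t (hasDerivAt_line x v t)
  refine (((h1.clm_apply (hasDerivAt_const t v)).clm_apply (hasDerivAt_const t w)).inner ℝ
    (hasDerivAt_const t z)).congr_deriv ?_
  simp

lemma norm_smul_le' {v : E} {t s : ℝ} (ht : t ∈ Icc (0 : ℝ) s) (hv : s * ‖v‖ ≤ r) :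
    ‖t • v‖ ≤ r := by
  rw [norm_smul, Real.norm_eq_abs, abs_of_nonneg ht.1]
  exact (mul_le_mul_of_nonneg_right ht.2 (norm_nonneg v)).trans hv

/-- upper bound near the diagonal -/
lemma upper_near {x y : E} (hx : x ∈ ZS φ) (hy : y ∈ ZS φ) (hxy : ‖y - x‖ ≤ r) :
    |⟪gradient φ x, y⟫| ≤ ‖hs φ x‖ * ‖y - x‖ ^ 2 / 2 + K * ‖y - x‖ ^ 3 := by
  set v := y - x with hv
  have hgx := hT.euler (ZS_subset hT hx)
  have hr : (1 : ℝ) * ‖v‖ ≤ r := by rw [one_mul]; exact hxy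
  have h1 : ∀ t ∈ Icc (0 : ℝ) 1, |⟪hs φ (x + t • v) v, v⟫ - ⟪hs φ (x + (0 : ℝ) • v) v, v⟫|
      ≤ K * ‖v‖ ^ 3 := by
    intro t ht
    have h2 := incr_le (f := fun t : ℝ => ⟪hs φ (x + t • v) v, v⟫)
      (f' := fun t : ℝ => ⟪fderiv ℝ (hs φ) (x + t • v) v v, v⟫) (M := K * ‖v‖ ^ 3) ht.1
      (fun τ hτ => line_hs hT hB hx v v v
        (norm_smul_le' hT hB (s := 1) ⟨hτ.1, hτ.2.trans ht.2⟩ hr))
      (fun τ hτ => by
        have h3 := hB.b2 x hx (x + τ • v) (by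
          simpa using norm_smul_le' hT hB (s := 1) ⟨hτ.1, hτ.2.trans ht.2⟩ hr)
        calc |⟪fderiv ℝ (hs φ) (x + τ • v) v v, v⟫|
            ≤ ‖fderiv ℝ (hs φ) (x + τ • v) v v‖ * ‖v‖ := abs_real_inner_le_norm _ _
          _ ≤ (‖fderiv ℝ (hs φ) (x + τ • v)‖ * ‖v‖ * ‖v‖) * ‖v‖ := by
              gcongr
              exact ContinuousLinearMap.le_opNorm₂ _ _ _
          _ ≤ (K * ‖v‖ * ‖v‖) * ‖v‖ := by gcongr
          _ = K * ‖v‖ ^ 3 := by ring)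
    refine h2.trans ?_
    have := hB.K0
    have := ht.2
    have h4 : 0 ≤ K * ‖v‖ ^ 3 := by positivity
    nlinarith
  have h2 := taylor2 (w := fun t : ℝ => φ (x + t • v))
    (w1 := fun t : ℝ => ⟪gradient φ (x + t • v), v⟫)
    (w2 := fun t : ℝ => ⟪hs φ (x + t • v) v, v⟫) zero_le_one
    (fun t ht => line_phi hT hB hx v (norm_smul_le' hT hB ht hr))
    (fun t ht => line_grad hT hB hx v v (norm_smul_le' hT hB ht hr)) h1
  have e1 : x + (1 : ℝ) • v = y := by rw [hv]; module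
  simp only [zero_smul, add_zero] at h2
  rw [e1, hy.2, hx.2] at h2
  have e2 : ⟪gradient φ x, v⟫ = ⟪gradient φ x, y⟫ := by
    rw [hv, inner_sub_right, hgx, hx.2, sub_zero]
  rw [e2] at h2
  have h5 : |⟪hs φ x v, v⟫| ≤ ‖hs φ x‖ * ‖v‖ ^ 2 := by
    calc |⟪hs φ x v, v⟫| ≤ ‖hs φ x v‖ * ‖v‖ := abs_real_inner_le_norm _ _
      _ ≤ (‖hs φ x‖ * ‖v‖) * ‖v‖ := by gcongr; exact (hs φ x).le_opNorm v
      _ = ‖hs φ x‖ * ‖v‖ ^ 2 := by ring
  have h6 := abs_le.1 h2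
  have h7 := abs_le.1 h5
  rw [abs_le]
  constructor <;> nlinarith [h6.1, h6.2, h7.1, h7.2]

/-- symmetric second difference of `φ` -/
lemma sym_diff {x e : E} (hx : x ∈ ZS φ) (he : ‖e‖ = 1) {s : ℝ} (hs0 : 0 ≤ s) (hs : s ≤ r) :
    |φ (x + s • e) + φ (x + s • (-e)) - s ^ 2 * ⟪SM436.hs φ x e, e⟫| ≤ 2 * K * s ^ 4 := by
  have hK := hB.K0
  have hre : s * ‖e‖ ≤ r := by rwa [he, mul_one]
  have hrn : s * ‖-e‖ ≤ r := by rwa [norm_neg, he, mul_one]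
  have third : ∀ v : E, ‖v‖ = 1 → ∀ t ∈ Icc (0 : ℝ) s,
      |⟪fderiv ℝ (SM436.hs φ) (x + t • v) v e, e⟫ - ⟪fderiv ℝ (SM436.hs φ) x v e, e⟫| ≤ K * s := by
    intro v hv t ht
    have hrv : s * ‖v‖ ≤ r := by rwa [hv, mul_one]
    have h2 := incr_le (f := fun t : ℝ => ⟪fderiv ℝ (SM436.hs φ) (x + t • v) v e, e⟫)
      (f' := fun t : ℝ => ⟪fderiv ℝ (fderiv ℝ (SM436.hs φ)) (x + t • v) v v e, e⟫) (M := K) ht.1
      (fun τ hτ => line_dhs hT hB hx v e e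
        (norm_smul_le' hT hB (s := s) ⟨hτ.1, hτ.2.trans ht.2⟩ hrv))
      (fun τ hτ => by
        have h3 := hB.b3 x hx (x + τ • v) (by
          simpa using norm_smul_le' hT hB (s := s) ⟨hτ.1, hτ.2.trans ht.2⟩ hrv)
        calc |⟪fderiv ℝ (fderiv ℝ (SM436.hs φ)) (x + τ • v) v v e, e⟫|
            ≤ ‖fderiv ℝ (fderiv ℝ (SM436.hs φ)) (x + τ • v) v v e‖ * ‖e‖ :=
              abs_real_inner_le_norm _ _
          _ ≤ (‖fderiv ℝ (fderiv ℝ (SM436.hs φ)) (x + τ • v) v v‖ * ‖e‖) * ‖e‖ := by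
              gcongr
              exact ContinuousLinearMap.le_opNorm _ _
          _ ≤ ((‖fderiv ℝ (fderiv ℝ (SM436.hs φ)) (x + τ • v)‖ * ‖v‖ * ‖v‖) * ‖e‖) * ‖e‖ := by
              gcongr
              exact ContinuousLinearMap.le_opNorm₂ _ _ _
          _ ≤ K := by rw [hv, he]; simpa using h3)
    simp only [zero_smul, add_zero] at h2
    refine h2.trans ?_
    exact mul_le_mul_of_nonneg_left ht.2 hK
  have second : ∀ t ∈ Icc (0 : ℝ) s,
      |(⟪SM436.hs φ (x + t • e) e, e⟫ + ⟪SM436.hs φ (x + t • (-e)) e, e⟫)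
        - (⟪SM436.hs φ (x + (0 : ℝ) • e) e, e⟫ + ⟪SM436.hs φ (x + (0 : ℝ) • (-e)) e, e⟫)|
        ≤ 2 * K * s ^ 2 := by
    intro t ht
    have h2 := incr_le
      (f := fun t : ℝ => ⟪SM436.hs φ (x + t • e) e, e⟫ + ⟪SM436.hs φ (x + t • (-e)) e, e⟫)
      (f' := fun t : ℝ => ⟪fderiv ℝ (SM436.hs φ) (x + t • e) e e, e⟫
        + ⟪fderiv ℝ (SM436.hs φ) (x + t • (-e)) (-e) e, e⟫) (M := 2 * K * s) ht.1
      (fun τ hτ => (line_hs hT hB hx e e e
        (norm_smul_le' hT hB (s := s) ⟨hτ.1, hτ.2.trans ht.2⟩ hre)).add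
        (line_hs hT hB hx (-e) e e
        (norm_smul_le' hT hB (s := s) ⟨hτ.1, hτ.2.trans ht.2⟩ hrn)))
      (fun τ hτ => by
        have h3 := third e he τ ⟨hτ.1, hτ.2.trans ht.2⟩
        have h4 := third (-e) (by rwa [norm_neg]) τ ⟨hτ.1, hτ.2.trans ht.2⟩
        have h5 : ⟪fderiv ℝ (SM436.hs φ) x (-e) e, e⟫ = -⟪fderiv ℝ (SM436.hs φ) x e e, e⟫ := by
          rw [map_neg, neg_apply, inner_neg_left]
        rw [h5] at h4
        have h6 := abs_le.1 h3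
        have h7 := abs_le.1 h4
        rw [abs_le]
        constructor <;> linarith [h6.1, h6.2, h7.1, h7.2])
    refine h2.trans ?_
    have h8 : 2 * K * s * t ≤ 2 * K * s * s := by
      have : 0 ≤ 2 * K * s := by positivity
      exact mul_le_mul_of_nonneg_left ht.2 this
    linarith
  have h2 := taylor2 (w := fun t : ℝ => φ (x + t • e) + φ (x + t • (-e)))
    (w1 := fun t : ℝ => ⟪gradient φ (x + t • e), e⟫ + ⟪gradient φ (x + t • (-e)), -e⟫)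
    (w2 := fun t : ℝ => ⟪SM436.hs φ (x + t • e) e, e⟫ + ⟪SM436.hs φ (x + t • (-e)) e, e⟫) hs0
    (fun t ht => (line_phi hT hB hx e (norm_smul_le' hT hB ht hre)).add
      (line_phi hT hB hx (-e) (norm_smul_le' hT hB ht hrn)))
    (fun t ht => by
      have a1 := line_grad hT hB hx e e (norm_smul_le' hT hB ht hre)
      have a2 := line_grad hT hB hx (-e) (-e) (norm_smul_le' hT hB ht hrn)
      refine (a1.add a2).congr_deriv ?_
      rw [map_neg, inner_neg_left, inner_neg_right, neg_neg]) second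
  simp only [zero_smul, add_zero, hx.2, inner_neg_right, add_neg_cancel, zero_mul, sub_zero] at h2
  calc |φ (x + s • e) + φ (x + s • (-e)) - s ^ 2 * ⟪SM436.hs φ x e, e⟫|
      = |φ (x + s • e) + φ (x + s • (-e))
        - (⟪SM436.hs φ x e, e⟫ + ⟪SM436.hs φ x e, e⟫) * s ^ 2 / 2| := by congr 1; ring
    _ ≤ 2 * K * s ^ 2 * s ^ 2 := h2
    _ = 2 * K * s ^ 4 := by ring

/-- estimates for the foot of `x + s a` -/
lemma foot_pt {x a : E} (hx : x ∈ ZS φ) (ha : ‖a‖ = 1) (hax : ⟪a, x⟫ = 0)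
    (haν : ⟪a, gradient φ x⟫ = 0) {s : ℝ} (hs0 : 0 < s) (hs : s ≤ r) (hs1 : s ^ 2 ≤ 1 / 2)
    (hs2 : K ^ 2 * s ^ 2 ≤ 1 / 4) :
    pp φ (x + s • a) ∈ ZS φ ∧ s / 2 ≤ ‖x - pp φ (x + s • a)‖ ∧
      1 - ⟪x, pp φ (x + s • a)⟫ ≤ s ^ 2 / 2 + 2 * K ^ 2 * s ^ 4 ∧
      (1 - (1 + K ^ 2) / 2 * s ^ 2) * |φ (x + s • a)| ≤ |⟪gradient φ x, pp φ (x + s • a)⟫| := by
  have hK := hB.K0
  have hra : s * ‖a‖ ≤ r := by rwa [ha, mul_one]
  have hxT := ZS_subset hT hx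
  have hgx := hT.good hxT
  set z := x + s • a with hz
  have hnz : ‖z - x‖ ≤ r := by
    rw [hz, add_sub_cancel_left, norm_smul, Real.norm_eq_abs, abs_of_pos hs0]; exact hra
  have hzT : z ∈ TT φ b := hB.mem x hx z hnz
  have hgz := hT.good hzT
  set ν := gradient φ x with hν
  set g := gradient φ z with hg
  set f := φ z with hf
  have hνn : ‖ν‖ = 1 := hgx.norm_gradient
  have hgn : ‖g‖ = 1 := hgz.norm_gradient
  have hνx : ⟪ν, x⟫ = 0 := by rw [hν, hT.euler hxT, hx.2]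
  -- variation of the gradient
  have hvar : ∀ w : E, ∀ t ∈ Icc (0 : ℝ) s, |⟪gradient φ (x + t • a), w⟫ - ⟪ν, w⟫| ≤ K * ‖w‖ * s := by
    intro w t ht
    have h2 := incr_le (f := fun t : ℝ => ⟪gradient φ (x + t • a), w⟫)
      (f' := fun t : ℝ => ⟪SM436.hs φ (x + t • a) a, w⟫) (M := K * ‖w‖) ht.1
      (fun τ hτ => line_grad hT hB hx a w
        (norm_smul_le' hT hB (s := s) ⟨hτ.1, hτ.2.trans ht.2⟩ hra))
      (fun τ hτ => by
        have h3 := hB.b1 x hx (x + τ • a) (by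
          simpa using norm_smul_le' hT hB (s := s) ⟨hτ.1, hτ.2.trans ht.2⟩ hra)
        calc |⟪SM436.hs φ (x + τ • a) a, w⟫| ≤ ‖SM436.hs φ (x + τ • a) a‖ * ‖w‖ :=
              abs_real_inner_le_norm _ _
          _ ≤ (‖SM436.hs φ (x + τ • a)‖ * ‖a‖) * ‖w‖ := by
              gcongr
              exact ContinuousLinearMap.le_opNorm _ _
          _ ≤ K * ‖w‖ := by rw [ha, mul_one]; gcongr)
    simp only [zero_smul, add_zero] at h2
    refine h2.trans ?_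
    exact mul_le_mul_of_nonneg_left ht.2 (by positivity)
  have hag : |⟪a, g⟫| ≤ K * s := by
    have := hvar a s ⟨hs0.le, le_rfl⟩
    rw [ha, mul_one, ← hz, ← hg, real_inner_comm a ν, haν, sub_zero, real_inner_comm] at this
    exact this
  have hng : ‖g - ν‖ ≤ K * s := by
    have h1 := hvar (g - ν) s ⟨hs0.le, le_rfl⟩
    rw [← hz, ← hg, ← inner_sub_left, real_inner_self_eq_norm_sq, abs_of_nonneg (by positivity)]
      at h1
    rcases (norm_nonneg (g - ν)).eq_or_lt with h0 | h0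
    · rw [← h0]; positivity
    · by_contra hcon
      push Not at hcon
      nlinarith
  have hνg : 1 - K ^ 2 * s ^ 2 / 2 ≤ ⟪ν, g⟫ := by
    have h1 : ‖g - ν‖ ^ 2 = 2 - 2 * ⟪ν, g⟫ := by
      rw [norm_sub_sq_real, hgn, hνn, real_inner_comm]; ring
    have h2 : ‖g - ν‖ ^ 2 ≤ (K * s) ^ 2 := by gcongr
    nlinarith
  have hfb : |f| ≤ K * s ^ 2 := by
    have h2 := incr_le (f := fun t : ℝ => φ (x + t • a))
      (f' := fun t : ℝ => ⟪gradient φ (x + t • a), a⟫) (M := K * s) hs0.le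
      (fun τ hτ => line_phi hT hB hx a (norm_smul_le' hT hB hτ hra))
      (fun τ hτ => by
        have := hvar a τ hτ
        rw [ha, mul_one, real_inner_comm a ν, haν, sub_zero] at this
        exact this)
    simp only [zero_smul, add_zero, hx.2, sub_zero] at h2
    rw [← hz, ← hf] at h2
    linarith [h2, sq s]
  -- the norm
  have hrr2 : rr φ z ^ 2 = 1 + s ^ 2 - f ^ 2 := by
    rw [hT.rr_sq, hz, norm_add_sq_real, inner_smul_right, real_inner_comm, hax, norm_smul, ha,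
      hx.1, Real.norm_eq_abs, abs_of_pos hs0, ← hz, ← hf]
    ring
  have hrp : 0 < rr φ z := hzT.1
  have hr1 : rr φ z ≤ 1 + s ^ 2 / 2 := by
    by_contra hcon
    push Not at hcon
    nlinarith [sq_nonneg f, sq_nonneg (s ^ 2)]
  have hri : 1 - s ^ 2 / 2 ≤ (rr φ z)⁻¹ := by
    have h1 : (1 - s ^ 2 / 2) * rr φ z ≤ 1 := by
      calc (1 - s ^ 2 / 2) * rr φ z ≤ (1 - s ^ 2 / 2) * (1 + s ^ 2 / 2) := by
            apply mul_le_mul_of_nonneg_left hr1; linarith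
        _ ≤ 1 := by nlinarith [sq_nonneg (s ^ 2)]
    rw [inv_eq_one_div, le_div_iff₀ hrp]
    exact h1
  -- inner products with the foot
  have hpp : pp φ z = (rr φ z)⁻¹ • (z - f • g) := rfl
  have hνz : ⟪ν, z⟫ = 0 := by
    rw [hz, inner_add_right, inner_smul_right, hνx, real_inner_comm, haν]; ring
  have hxz : ⟪x, z⟫ = 1 := by
    rw [hz, inner_add_right, inner_smul_right, real_inner_comm a x, hax,
      real_inner_self_eq_norm_sq, hx.1]; norm_num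
  have haz : ⟪a, z⟫ = s := by
    rw [hz, inner_add_right, inner_smul_right, hax, real_inner_self_eq_norm_sq, ha]; norm_num
  have hgx' : ⟪x, g⟫ = f - s * ⟪a, g⟫ := by
    have h1 : ⟪g, z⟫ = f := hT.euler hzT
    rw [hz, inner_add_right, inner_smul_right, real_inner_comm x g, real_inner_comm a g] at h1
    linarith
  have i1 : ⟪ν, pp φ z⟫ = -((rr φ z)⁻¹ * f * ⟪ν, g⟫) := by
    rw [hpp, inner_smul_right, inner_sub_right, inner_smul_right, hνz]; ring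
  have i2 : ⟪x, pp φ z⟫ = (rr φ z)⁻¹ * (1 - f * (f - s * ⟪a, g⟫)) := by
    rw [hpp, inner_smul_right, inner_sub_right, inner_smul_right, hxz, hgx']
  have i3 : ⟪a, pp φ z⟫ = (rr φ z)⁻¹ * (s - f * ⟪a, g⟫) := by
    rw [hpp, inner_smul_right, inner_sub_right, inner_smul_right, haz]
  obtain ⟨c1, c2, c3⟩ := scalar_foot hs0 hs1 hs2 hK hri (inv_pos.2 hrp) hfb hag hνg
  refine ⟨⟨norm_pp hT hzT, phi_pp hT hzT⟩, ?_, ?_, ?_⟩
  · have h1 : |⟪a, x - pp φ z⟫| ≤ ‖x - pp φ z‖ := by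
      have := abs_real_inner_le_norm a (x - pp φ z)
      rwa [ha, one_mul] at this
    rw [inner_sub_right, hax, zero_sub, abs_neg, i3] at h1
    exact c1.trans h1
  · rw [i2]; exact c2
  · rw [i1, abs_neg, abs_mul, abs_mul, abs_of_pos (inv_pos.2 hrp)]; exact c3

/-- lower bound for the two-point function near the diagonal, no first order error -/
lemma lower_near {x e : E} (hx : x ∈ ZS φ) (he : ‖e‖ = 1) (hex : ⟪e, x⟫ = 0)
    (heν : ⟪e, gradient φ x⟫ = 0) {s : ℝ} (hs0 : 0 < s) (hs : s ≤ r) (hs1 : s ^ 2 ≤ 1 / 2)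
    (hs2 : K ^ 2 * s ^ 2 ≤ 1 / 4) :
    ∃ y ∈ ZS φ, s / 2 ≤ ‖x - y‖ ∧
      |⟪SM436.hs φ x e, e⟫| - (2 * K + (1 + K ^ 2) / 2 * K + 4 * K ^ 3) * s ^ 2
        ≤ |⟪gradient φ x, y⟫| * (1 - ⟪x, y⟫)⁻¹ := by
  have hK := hB.K0
  set κ := |⟪SM436.hs φ x e, e⟫| with hκ
  have hκ0 : 0 ≤ κ := abs_nonneg _
  have hκK : κ ≤ K := by
    calc κ ≤ ‖SM436.hs φ x e‖ * ‖e‖ := abs_real_inner_le_norm _ _
      _ ≤ (‖SM436.hs φ x‖ * ‖e‖) * ‖e‖ := by
          gcongr; exact ContinuousLinearMap.le_opNorm _ _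
      _ = ‖SM436.hs φ x‖ := by rw [he]; ring
      _ ≤ K := hB.b1 x hx x (by simpa using hB.r0.le)
  have key : ∀ a : E, ‖a‖ = 1 → ⟪a, x⟫ = 0 → ⟪a, gradient φ x⟫ = 0 →
      κ * s ^ 2 / 2 - K * s ^ 4 ≤ |φ (x + s • a)| →
      ∃ y ∈ ZS φ, s / 2 ≤ ‖x - y‖ ∧
      κ - (2 * K + (1 + K ^ 2) / 2 * K + 4 * K ^ 3) * s ^ 2
        ≤ |⟪gradient φ x, y⟫| * (1 - ⟪x, y⟫)⁻¹ := by
    intro a ha hax haν hf
    obtain ⟨h1, h2, h3, h4⟩ := foot_pt hT hB hx ha hax haν hs0 hs hs1 hs2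
    refine ⟨_, h1, h2, ?_⟩
    set y := pp φ (x + s • a) with hy
    set N := |⟪gradient φ x, y⟫| with hN
    set D := 1 - ⟪x, y⟫ with hD
    set C := 2 * K + (1 + K ^ 2) / 2 * K + 4 * K ^ 3 with hC
    have hC0 : 0 ≤ C := by positivity
    have hDpos : 0 < D := by
      apply one_sub_inner_pos hx.1 h1.1
      intro h
      rw [← h, sub_self, norm_zero] at h2
      linarith
    rw [← div_eq_mul_inv, le_div_iff₀ hDpos]
    by_cases hneg : κ - C * s ^ 2 ≤ 0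
    · exact (mul_nonpos_of_nonpos_of_nonneg hneg hDpos.le).trans (abs_nonneg _)
    · push Not at hneg
      have hA : 0 ≤ 1 - (1 + K ^ 2) / 2 * s ^ 2 := by nlinarith
      have p1 : (κ - C * s ^ 2) * D ≤ (κ - C * s ^ 2) * (s ^ 2 / 2 + 2 * K ^ 2 * s ^ 4) :=
        mul_le_mul_of_nonneg_left h3 hneg.le
      have p2 : (1 - (1 + K ^ 2) / 2 * s ^ 2) * (κ * s ^ 2 / 2 - K * s ^ 4)
          ≤ (1 - (1 + K ^ 2) / 2 * s ^ 2) * |φ (x + s • a)| :=
        mul_le_mul_of_nonneg_left hf hA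
      have p3 : (κ - C * s ^ 2) * (s ^ 2 / 2 + 2 * K ^ 2 * s ^ 4)
          ≤ (1 - (1 + K ^ 2) / 2 * s ^ 2) * (κ * s ^ 2 / 2 - K * s ^ 4) := by
        have e1 : (1 - (1 + K ^ 2) / 2 * s ^ 2) * (κ * s ^ 2 / 2 - K * s ^ 4)
            - (κ - C * s ^ 2) * (s ^ 2 / 2 + 2 * K ^ 2 * s ^ 4)
            = s ^ 4 * (C / 2 - K - (1 + K ^ 2) / 4 * κ - 2 * K ^ 2 * κ)
              + s ^ 6 * ((1 + K ^ 2) / 2 * K + 2 * C * K ^ 2) := by ring
        have e2 : 0 ≤ C / 2 - K - (1 + K ^ 2) / 4 * κ - 2 * K ^ 2 * κ := by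
          have e3 : (1 + K ^ 2) / 4 * κ ≤ (1 + K ^ 2) / 4 * K := by gcongr
          have e4 : 2 * K ^ 2 * κ ≤ 2 * K ^ 2 * K := by gcongr
          rw [hC]; linarith [e3, e4]
        have e5 : 0 ≤ s ^ 4 * (C / 2 - K - (1 + K ^ 2) / 4 * κ - 2 * K ^ 2 * κ)
              + s ^ 6 * ((1 + K ^ 2) / 2 * K + 2 * C * K ^ 2) := by positivity
        linarith
      linarith
  have hsym := sym_diff hT hB hx he hs0.le hs
  have h5 : κ * s ^ 2 ≤ |φ (x + s • e)| + |φ (x + s • (-e))| + 2 * K * s ^ 4 := by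
    have a1 : |s ^ 2 * ⟪SM436.hs φ x e, e⟫| = κ * s ^ 2 := by
      rw [abs_mul, abs_of_pos (by positivity : (0 : ℝ) < s ^ 2)]; ring
    rw [← a1]
    have a2 : s ^ 2 * ⟪SM436.hs φ x e, e⟫ = (φ (x + s • e) + φ (x + s • (-e)))
        - (φ (x + s • e) + φ (x + s • (-e)) - s ^ 2 * ⟪SM436.hs φ x e, e⟫) := by ring
    rw [a2]
    refine (abs_sub _ _).trans ?_
    gcongr
    exact abs_add_le _ _
  by_cases h6 : κ * s ^ 2 / 2 - K * s ^ 4 ≤ |φ (x + s • e)|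
  · exact key e he hex heν h6
  · push Not at h6
    refine key (-e) (by rwa [norm_neg]) (by rw [inner_neg_left, hex, neg_zero])
      (by rw [inner_neg_left, heν, neg_zero]) ?_
    linarith

end

end Crest.Agent.R246.NcDiag112
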