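import Mathlib.Analysis.InnerProductSpace.Calculus
import Mathlib.Analysis.Calculus.ContDiff.Basic
import Mathlib.Analysis.Calculus.ContDiff.Defs
import Mathlib.Analysis.Calculus.Deriv.Inv
import Mathlib.Analysis.Calculus.Deriv.Mul
import Mathlib.Analysis.Calculus.Deriv.Comp
import Mathlib.Analysis.Calculus.DerivativeTest
import Mathlib.Analysis.Calculus.LocalExtr.Basic
import Mathlib.Analysis.SpecialFunctions.Sqrt
import Mathlib.Analysis.SpecialFunctions.Log.Deriv

/-!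
# Second order jets along lines (block I(B) of `S0380`)

`J2 u a b c` : `u(0) = a`, `u'(0) = b`, `u''(0) = c`.
-/

set_option autoImplicit false
noncomputable section
open Filter Topology
open scoped RealInnerProductSpace

namespace Crest.Agent.R246.NcJet112

variable {E : Type*} [NormedAddCommGroup E] [NormedSpace ℝ E]
variable {F : Type*} [NormedAddCommGroup F] [NormedSpace ℝ F]

/-- `u(0) = a`, `u'(0) = b`, `u''(0) = c`. -/
def J2 (u : ℝ → F) (a b c : F) : Prop :=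
  u 0 = a ∧ ∃ u1 : ℝ → F, (∀ᶠ t in 𝓝 (0 : ℝ), HasDerivAt u (u1 t) t) ∧ u1 0 = b ∧
    HasDerivAt u1 c 0

lemma J2.hasDerivAt {u : ℝ → F} {a b c : F} (h : J2 u a b c) : HasDerivAt u b 0 := by
  obtain ⟨-, u1, h1, h2, -⟩ := h
  rw [← h2]; exact h1.self_of_nhds

lemma J2.unique {u : ℝ → F} {a b c a' b' c' : F} (h : J2 u a b c) (h' : J2 u a' b' c') :
    a = a' ∧ b = b' ∧ c = c' := by
  refine ⟨h.1.symm.trans h'.1, h.hasDerivAt.unique h'.hasDerivAt, ?_⟩
  obtain ⟨-, u1, h1, -, h3⟩ := h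
  obtain ⟨-, v1, k1, -, k3⟩ := h'
  have : u1 =ᶠ[𝓝 0] v1 := by
    filter_upwards [h1, k1] with t ht kt using ht.unique kt
  exact h3.unique (k3.congr_of_eventuallyEq this)

lemma J2.congr {u v : ℝ → F} {a b c : F} (h : J2 u a b c) (hv : v =ᶠ[𝓝 0] u) : J2 v a b c := by
  obtain ⟨h0, u1, h1, h2, h3⟩ := h
  refine ⟨hv.self_of_nhds.trans h0, u1, ?_, h2, h3⟩
  filter_upwards [h1, hv.eventuallyEq_nhds] with t ht hvt
  exact ht.congr_of_eventuallyEq hvt

lemma J2.const (a : F) : J2 (fun _ => a) a 0 0 :=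
  ⟨rfl, fun _ => 0, Eventually.of_forall fun t => hasDerivAt_const t a, rfl,
    hasDerivAt_const _ _⟩

lemma J2.add {u v : ℝ → F} {a b c a' b' c' : F} (h : J2 u a b c) (h' : J2 v a' b' c') :
    J2 (fun t => u t + v t) (a + a') (b + b') (c + c') := by
  obtain ⟨h0, u1, h1, h2, h3⟩ := h
  obtain ⟨k0, v1, k1, k2, k3⟩ := h'
  refine ⟨by simp only [h0, k0], fun t => u1 t + v1 t, ?_, by simp only [h2, k2], h3.add k3⟩
  filter_upwards [h1, k1] with t ht kt using ht.add kt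

lemma J2.neg {u : ℝ → F} {a b c : F} (h : J2 u a b c) :
    J2 (fun t => -u t) (-a) (-b) (-c) := by
  obtain ⟨h0, u1, h1, h2, h3⟩ := h
  refine ⟨by simp only [h0], fun t => -u1 t, ?_, by simp only [h2], h3.neg⟩
  filter_upwards [h1] with t ht using ht.neg

lemma J2.sub {u v : ℝ → F} {a b c a' b' c' : F} (h : J2 u a b c) (h' : J2 v a' b' c') :
    J2 (fun t => u t - v t) (a - a') (b - b') (c - c') := by
  simpa only [sub_eq_add_neg] using h.add h'.neg

lemma J2.smul {s : ℝ → ℝ} {u : ℝ → F} {α β γ : ℝ} {a b c : F} (hs : J2 s α β γ)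
    (h : J2 u a b c) :
    J2 (fun t => s t • u t) (α • a) (β • a + α • b) (γ • a + (2 * β) • b + α • c) := by
  obtain ⟨h0, u1, h1, h2, h3⟩ := h
  obtain ⟨k0, v1, k1, k2, k3⟩ := hs
  refine ⟨by simp only [h0, k0], fun t => v1 t • u t + s t • u1 t, ?_, by
    simp only [h0, h2, k0, k2], ?_⟩
  · filter_upwards [h1, k1] with t ht kt
    have := kt.smul ht
    rw [add_comm] at this
    exact this
  · have hu := h1.self_of_nhds
    have hv := k1.self_of_nhds
    have e1 := k3.smul hu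
    have e2 := hv.smul h3
    have e3 := e1.add e2
    rw [h0, h2, k0, k2] at e3
    exact e3.congr_deriv (by module)

lemma J2.mul {s u : ℝ → ℝ} {α β γ a b c : ℝ} (hs : J2 s α β γ) (h : J2 u a b c) :
    J2 (fun t => s t * u t) (α * a) (β * a + α * b) (γ * a + (2 * β) * b + α * c) := by
  simpa only [smul_eq_mul] using hs.smul h

lemma J2.comp_real {s : ℝ → ℝ} {α β γ : ℝ} (hs : J2 s α β γ) {h h1 : ℝ → ℝ} {h2 : ℝ}
    (hh : ∀ᶠ y in 𝓝 α, HasDerivAt h (h1 y) y) (hh1 : HasDerivAt h1 h2 α) :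
    J2 (fun t => h (s t)) (h α) (h1 α * β) (h2 * β ^ 2 + h1 α * γ) := by
  have hd := hs.hasDerivAt
  obtain ⟨k0, v1, k1, k2, k3⟩ := hs
  have hc : Tendsto s (𝓝 0) (𝓝 α) := by
    have := hd.continuousAt
    rwa [ContinuousAt, k0] at this
  refine ⟨by simp only [k0], fun t => h1 (s t) * v1 t, ?_, by simp only [k0, k2], ?_⟩
  · filter_upwards [k1, hc.eventually hh] with t ht kt
    exact kt.comp t ht
  · have e1 : HasDerivAt h1 h2 (s 0) := by rw [k0]; exact hh1
    have e2 := (e1.comp 0 hd).mul k3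
    simp only [Function.comp_apply, k0, k2] at e2
    exact e2.congr_deriv (by ring)

lemma J2.inv {s : ℝ → ℝ} {α β γ : ℝ} (hs : J2 s α β γ) (hα : α ≠ 0) :
    J2 (fun t => (s t)⁻¹) α⁻¹ (-(β / α ^ 2)) (2 * β ^ 2 / α ^ 3 - γ / α ^ 2) := by
  have h1 : ∀ᶠ y in 𝓝 α, HasDerivAt (fun y : ℝ => y⁻¹) (-(y ^ 2)⁻¹) y := by
    filter_upwards [isOpen_ne.mem_nhds hα] with y hy
    exact hasDerivAt_inv hy
  have h2 : HasDerivAt (fun y : ℝ => -(y ^ 2)⁻¹) (2 / α ^ 3) α := by
    have h3 := ((hasDerivAt_pow 2 α).inv (pow_ne_zero 2 hα)).neg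
    exact h3.congr_deriv (by field_simp; norm_num; ring)
  have := hs.comp_real h1 h2
  convert this using 1
  · field_simp
  · field_simp
    ring

lemma J2.sqrt {s : ℝ → ℝ} {α β γ : ℝ} (hs : J2 s α β γ) (hα : 0 < α) :
    J2 (fun t => Real.sqrt (s t)) (Real.sqrt α) (β / (2 * Real.sqrt α))
      (γ / (2 * Real.sqrt α) - β ^ 2 / (4 * Real.sqrt α ^ 3)) := by
  have h1 : ∀ᶠ y in 𝓝 α, HasDerivAt Real.sqrt (1 / (2 * Real.sqrt y)) y := by
    filter_upwards [isOpen_ne.mem_nhds hα.ne'] with y hy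
    exact Real.hasDerivAt_sqrt hy
  have hr : 0 < Real.sqrt α := Real.sqrt_pos.2 hα
  have hr2 : Real.sqrt α ^ 2 = α := Real.sq_sqrt hα.le
  have h2 : HasDerivAt (fun y : ℝ => 1 / (2 * Real.sqrt y)) (-(1 / (4 * Real.sqrt α ^ 3))) α := by
    have h3 := ((Real.hasDerivAt_sqrt hα.ne').const_mul 2).inv (by positivity)
    have h4 : (fun y : ℝ => 1 / (2 * Real.sqrt y)) = (fun y => 2 * Real.sqrt y)⁻¹ := by
      funext y; simp
    rw [h4]
    exact h3.congr_deriv (by field_simp; norm_num)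
  have := hs.comp_real h1 h2
  convert this using 1
  · field_simp
  · field_simp
    ring

lemma J2.log {s : ℝ → ℝ} {α β γ : ℝ} (hs : J2 s α β γ) (hα : α ≠ 0) :
    J2 (fun t => Real.log (s t)) (Real.log α) (β / α) (γ / α - (β / α) ^ 2) := by
  have h1 : ∀ᶠ y in 𝓝 α, HasDerivAt Real.log (y⁻¹) y := by
    filter_upwards [isOpen_ne.mem_nhds hα] with y hy
    exact Real.hasDerivAt_log hy
  have h2 : HasDerivAt (fun y : ℝ => y⁻¹) (-(α ^ 2)⁻¹) α := hasDerivAt_inv hα
  have := hs.comp_real h1 h2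
  convert this using 1
  · field_simp
  · field_simp
    ring

lemma J2.inner {H : Type*} [NormedAddCommGroup H] [InnerProductSpace ℝ H]
    {u v : ℝ → H} {a b c a' b' c' : H} (h : J2 u a b c) (h' : J2 v a' b' c') :
    J2 (fun t => ⟪u t, v t⟫) ⟪a, a'⟫ (⟪b, a'⟫ + ⟪a, b'⟫)
      (⟪c, a'⟫ + 2 * ⟪b, b'⟫ + ⟪a, c'⟫) := by
  obtain ⟨h0, u1, h1, h2, h3⟩ := h
  obtain ⟨k0, v1, k1, k2, k3⟩ := h'
  refine ⟨by simp only [h0, k0], fun t => ⟪u1 t, v t⟫ + ⟪u t, v1 t⟫, ?_, by
    simp only [h0, h2, k0, k2], ?_⟩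
  · filter_upwards [h1, k1] with t ht kt
    have := ht.inner ℝ kt
    rw [add_comm] at this
    exact this
  · have hu := h1.self_of_nhds
    have hv := k1.self_of_nhds
    have e1 := h3.inner ℝ hv
    have e2 := hu.inner ℝ k3
    have e3 := e1.add e2
    rw [h0, h2, k0, k2] at e3
    exact e3.congr_deriv (by ring)

/-- jets of a `C²` function along lines -/
lemma J2.of_contDiffAt {g : E → F} {x v : E} (hg : ContDiffAt ℝ 2 g x) :
    J2 (fun t : ℝ => g (x + t • v)) (g x) (fderiv ℝ g x v) (fderiv ℝ (fderiv ℝ g) x v v) := by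
  have hl : ∀ t : ℝ, HasDerivAt (fun t : ℝ => x + t • v) v t := by
    intro t
    simpa using ((hasDerivAt_id t).smul_const v).const_add x
  have hl0 : Tendsto (fun t : ℝ => x + t • v) (𝓝 0) (𝓝 x) := by
    have := (hl 0).continuousAt
    rw [ContinuousAt] at this
    simpa using this
  refine ⟨by simp, fun t => fderiv ℝ g (x + t • v) v, ?_, by simp, ?_⟩
  · have h1 : ∀ᶠ y in 𝓝 x, DifferentiableAt ℝ g y := by
      have := hg.eventually (by simp)
      filter_upwards [this] with y hy using hy.differentiableAt (by norm_num)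
    filter_upwards [hl0.eventually h1] with t ht
    exact ht.hasFDerivAt.comp_hasDerivAt t (hl t)
  · have h2 : ContDiffAt ℝ 1 (fderiv ℝ g) x := hg.fderiv_right (m := 1) (by norm_num)
    have h3 : HasFDerivAt (fderiv ℝ g) (fderiv ℝ (fderiv ℝ g) x) (x + (0 : ℝ) • v) := by
      rw [zero_smul, add_zero]
      exact (h2.differentiableAt (by norm_num)).hasFDerivAt
    have h4 := h3.comp_hasDerivAt (0 : ℝ) (hl 0)
    exact h4.clm_apply (hasDerivAt_const (0 : ℝ) v) |>.congr_deriv (by simp)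

/-- first and second order conditions at a local maximum -/
lemma J2.localMax {u : ℝ → ℝ} {a b c : ℝ} (h : J2 u a b c) (hm : IsLocalMax u 0) :
    b = 0 ∧ c ≤ 0 := by
  have hb : b = 0 := hm.hasDerivAt_eq_zero h.hasDerivAt
  refine ⟨hb, ?_⟩
  by_contra hc
  push Not at hc
  have hd := h.hasDerivAt
  obtain ⟨h0, u1, h1, h2, h3⟩ := id h
  have e1 : deriv u =ᶠ[𝓝 0] u1 := by
    filter_upwards [h1] with t ht using ht.deriv
  have e2 : deriv (deriv u) 0 = c := by rw [e1.deriv_eq, h3.deriv]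
  have e3 : deriv u 0 = 0 := by rw [hd.deriv, hb]
  have hmin : IsLocalMin u 0 :=
    isLocalMin_of_deriv_deriv_pos (by rw [e2]; exact hc) e3 hd.continuousAt
  have hconst : u =ᶠ[𝓝 0] fun _ => u 0 := by
    filter_upwards [hm, hmin] with t ht1 ht2
    exact le_antisymm ht1 ht2
  have := h.unique ((J2.const (u 0)).congr hconst)
  linarith [this.2.2]

end Crest.Agent.R246.NcJet112
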