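import Crest.Agent.R246.SM1_436
import Crest.Agent.R246.NcAlg_112
import Crest.Agent.R246.NcJet_112
import Mathlib.Analysis.InnerProductSpace.Trace

/-!
# Jets of the Gauss map and of the normalised foot map at points of `M'` (block I(B))
-/

set_option autoImplicit false
set_option linter.unusedSectionVars false
noncomputable section
open MeasureTheory Set Filter Topology
open scoped RealInnerProductSpace ContDiff

namespace Crest.Agent.R246.NcFoot112

open Crest.Agent.R246.H990 Crest.Agent.R246.SM436 Crest.Agent.R246.NcJet112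
  Crest.Agent.R246.NcAlg112

variable {E : Type*} [NormedAddCommGroup E] [InnerProductSpace ℝ E] [FiniteDimensional ℝ E]
variable {φ : E → ℝ} {b : ℝ}

/-- normalised foot point -/
def pp (φ : E → ℝ) (y : E) : E := (rr φ y)⁻¹ • ft φ y

/-- second derivative of `pp` at points of `M'` -/
def BB (φ : E → ℝ) (X v : E) : E :=
  (3 * ⟪X, v⟫ ^ 2 - ‖v‖ ^ 2 + ⟪gradient φ X, v⟫ ^ 2) • X
    - (2 * ⟪X, v⟫) • (v - ⟪gradient φ X, v⟫ • gradient φ X)
    - (2 * ⟪gradient φ X, v⟫) • hs φ X v - ⟪hs φ X v, v⟫ • gradient φ X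

lemma mem_ZZ {X : E} (h1 : ‖X‖ = 1) (h2 : φ X = 0) : X ∈ ZZ φ :=
  ⟨by intro h; simp [h] at h1, h2⟩

section tube

variable (hT : Tube φ b)
include hT

lemma norm_pp {y : E} (hy : y ∈ TT φ b) : ‖pp φ y‖ = 1 := by
  rw [pp, norm_smul, hT.norm_ft hy, norm_inv, Real.norm_eq_abs, abs_of_pos hy.1,
    inv_mul_cancel₀ hy.1.ne']

lemma phi_pp {y : E} (hy : y ∈ TT φ b) : φ (pp φ y) = 0 := by
  rw [pp, hT.hom _ (inv_nonneg.2 hy.1.le), hT.phi_ft hy, mul_zero]

lemma gradient_pp {y : E} (hy : y ∈ TT φ b) : gradient φ (pp φ y) = gradient φ y := by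
  rw [pp, gradient_smul_of_hom hT.hom _ (inv_pos.2 hy.1), hT.gradient_ft hy]

lemma pp_smul (y : E) {t : ℝ} (ht : 0 < t) : pp φ (t • y) = pp φ y := by
  rw [pp, pp, hT.rr_smul y ht.le, hT.ft_smul y ht, smul_smul, mul_inv]
  congr 1
  field_simp

lemma pp_self {X : E} (h1 : ‖X‖ = 1) (h2 : φ X = 0) : pp φ X = X := by
  have : rr φ X = 1 := by rw [hT.rr_of_ZZ (mem_ZZ h1 h2), h1]
  rw [pp, this, ft, h2]; simp

lemma pp_normal {X : E} (h1 : ‖X‖ = 1) (h2 : φ X = 0) {s : ℝ} (hs : |s| < b) :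
    X + s • gradient φ X ∈ TT φ b ∧ pp φ (X + s • gradient φ X) = X ∧
      gradient φ (X + s • gradient φ X) = gradient φ X := by
  obtain ⟨a1, a2, -, a4, a5⟩ := hT.seg (mem_ZZ h1 h2) (s := s) (by rwa [h1, mul_one])
  refine ⟨a1, ?_, a2⟩
  rw [pp, a4, a5, h1]; simp

lemma contDiffAt_ft {y : E} (hy : y ∈ TT φ b) : ContDiffAt ℝ ∞ (ft φ) y := by
  have h := hT.good hy
  exact contDiffAt_id.sub (h.contDiffAt.smul h.contDiffAt_gradient)

lemma contDiffAt_rr {y : E} (hy : y ∈ TT φ b) : ContDiffAt ℝ ∞ (rr φ) y := by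
  have h := hT.good hy
  have h1 : ContDiffAt ℝ ∞ (fun y : E => ‖y‖ ^ 2 - φ y ^ 2) y :=
    (contDiff_norm_sq ℝ).contDiffAt.sub (h.contDiffAt.pow 2)
  refine h1.sqrt ?_
  rw [← hT.rr_sq]; exact pow_ne_zero _ hy.1.ne'

lemma contDiffAt_pp {y : E} (hy : y ∈ TT φ b) : ContDiffAt ℝ ∞ (pp φ) y :=
  ((contDiffAt_rr hT hy).inv hy.1.ne').smul (contDiffAt_ft hT hy)

lemma contDiffAt_hs {y : E} (hy : y ∈ TT φ b) : ContDiffAt ℝ ∞ (hs φ) y :=
  (hT.good hy).contDiffAt_gradient.fderiv_right (m := ∞) (by simp)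

end tube

/-! ### jets -/

lemma J2cast {F : Type*} [NormedAddCommGroup F] [NormedSpace ℝ F] {u v : ℝ → F}
    {a b c a' b' c' : F} (h : J2 u a b c) (hv : v = u) (ha : a' = a) (hb : b' = b) (hc : c' = c) :
    J2 v a' b' c' := by
  subst hv ha hb hc; exact h

section jets

lemma two_le_infty : (2 : WithTop ℕ∞) ≤ ∞ :=
  (WithTop.coe_le_coe.2 le_top : ((2 : ℕ∞) : WithTop ℕ∞) ≤ ((⊤ : ℕ∞) : WithTop ℕ∞))

/-- jets of the Gauss map -/
lemma jet_gradient {X : E} (h : Good φ X) (v : E) :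
    J2 (fun t : ℝ => gradient φ (X + t • v)) (gradient φ X) (hs φ X v)
      (fderiv ℝ (hs φ) X v v) :=
  J2.of_contDiffAt (h.contDiffAt_gradient.of_le two_le_infty)

lemma line_tendsto (X v : E) : Tendsto (fun t : ℝ => X + t • v) (𝓝 0) (𝓝 X) := by
  have : Continuous (fun t : ℝ => X + t • v) := by fun_prop
  simpa using this.tendsto 0

lemma hasDerivAt_line (X v : E) (t : ℝ) : HasDerivAt (fun t : ℝ => X + t • v) v t := by
  simpa using ((hasDerivAt_id t).smul_const v).const_add X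

lemma jet_line (X v : E) : J2 (fun t : ℝ => X + t • v) X v 0 :=
  ⟨by simp, fun _ => v, Eventually.of_forall fun t => hasDerivAt_line X v t, rfl,
    hasDerivAt_const _ _⟩

/-- jets of `φ` -/
lemma jet_phi {X : E} (h : Good φ X) (v : E) :
    J2 (fun t : ℝ => φ (X + t • v)) (φ X) ⟪gradient φ X, v⟫ ⟪hs φ X v, v⟫ := by
  refine ⟨by simp, fun t => ⟪gradient φ (X + t • v), v⟫, ?_, by simp, ?_⟩
  · have h1 : ∀ᶠ t in 𝓝 (0 : ℝ), Good φ (X + t • v) :=
      (line_tendsto X v).eventually ((isOpen_good φ).mem_nhds h)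
    filter_upwards [h1] with t ht
    exact ht.hasFDerivAt.comp_hasDerivAt t (hasDerivAt_line X v t)
  · have h2 := (jet_gradient h v).hasDerivAt
    have h3 := h2.inner ℝ (hasDerivAt_const (0 : ℝ) v)
    refine h3.congr_deriv ?_
    simp

variable (hT : Tube φ b)
include hT

/-- jets of the foot map at points of `M'` -/
lemma jet_ft {X : E} (h1 : ‖X‖ = 1) (h2 : φ X = 0) (v : E) :
    J2 (fun t : ℝ => ft φ (X + t • v)) X (v - ⟪gradient φ X, v⟫ • gradient φ X)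
      (-(⟪hs φ X v, v⟫ • gradient φ X) - (2 * ⟪gradient φ X, v⟫) • hs φ X v) := by
  have hg := hT.good (hT.mem_TT_of_ZZ (mem_ZZ h1 h2))
  have e1 := (jet_line X v).sub ((jet_phi hg v).smul (jet_gradient hg v))
  rw [h2] at e1
  exact J2cast e1 rfl (by simp) (by module) (by module)

lemma jet_rr {X : E} (h1 : ‖X‖ = 1) (h2 : φ X = 0) (v : E) :
    J2 (fun t : ℝ => rr φ (X + t • v)) 1 ⟪X, v⟫
      (‖v‖ ^ 2 - ⟪gradient φ X, v⟫ ^ 2 - ⟪X, v⟫ ^ 2) := by
  have hg := hT.good (hT.mem_TT_of_ZZ (mem_ZZ h1 h2))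
  have e1 := (jet_line X v).inner (jet_line X v)
  have e2 := (jet_phi hg v).mul (jet_phi hg v)
  have e3 := (e1.sub e2)
  rw [h2] at e3
  have e4 := e3.sqrt (by rw [real_inner_self_eq_norm_sq, h1]; norm_num)
  have e5 : (fun t : ℝ => rr φ (X + t • v))
      = fun t : ℝ => Real.sqrt (⟪X + t • v, X + t • v⟫ - φ (X + t • v) * φ (X + t • v)) := by
    funext t
    rw [rr, real_inner_self_eq_norm_sq]
    congr 1
    ring
  have e6 : Real.sqrt (⟪X, X⟫ - 0 * 0) = 1 := by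
    rw [real_inner_self_eq_norm_sq, h1]; norm_num
  rw [e6] at e4
  refine J2cast e4 e5 rfl ?_ ?_
  · rw [real_inner_comm X v]; ring
  · rw [real_inner_comm X v, inner_zero_left, inner_zero_right, real_inner_self_eq_norm_sq]
    ring

/-- jets of the normalised foot map at points of `M'` -/
lemma jet_pp {X : E} (h1 : ‖X‖ = 1) (h2 : φ X = 0) (v : E) :
    J2 (fun t : ℝ => pp φ (X + t • v)) X (Pf X (gradient φ X) v) (BB φ X v) := by
  have e1 := ((jet_rr hT h1 h2 v).inv one_ne_zero).smul (jet_ft hT h1 h2 v)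
  refine J2cast e1 rfl (by simp) ?_ ?_
  · rw [Pf]; module
  · rw [BB]; module

/-! ### sums over orthonormal bases -/

variable {ι : Type*} [Fintype ι] (e : OrthonormalBasis ι ℝ E)

lemma sum_BB {X : E} (h1 : ‖X‖ = 1) (h2 : φ X = 0)
    (hmin : LinearMap.trace ℝ E (hs φ X : E →ₗ[ℝ] E) = 0) {m : ℝ}
    (hm : (Fintype.card ι : ℝ) = m + 2) :
    ∑ i, BB φ X (e i) = -(m • X) := by
  have hg := hT.good (hT.mem_TT_of_ZZ (mem_ZZ h1 h2))
  set ν := gradient φ X with hν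
  have hνn : ‖ν‖ = 1 := hg.norm_gradient
  have hXν : ⟪X, ν⟫ = 0 := by
    rw [real_inner_comm, hν, hg.euler hT.hom, h2]
  have s1 : ∑ i, (3 * ⟪X, e i⟫ ^ 2 - ‖e i‖ ^ 2 + ⟪ν, e i⟫ ^ 2) = 2 - m := by
    have a1 : ∑ i, ⟪X, e i⟫ ^ 2 = 1 := by
      have := Pair.sum_inner e X X
      rw [real_inner_self_eq_norm_sq, h1] at this
      simpa [sq] using this
    have a2 : ∑ i, ⟪ν, e i⟫ ^ 2 = 1 := by
      have := Pair.sum_inner e ν ν
      rw [real_inner_self_eq_norm_sq, hνn] at this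
      simpa [sq] using this
    have a3 : ∑ i, ‖e i‖ ^ 2 = m + 2 := by
      simp [e.norm_eq_one, hm]
    rw [Finset.sum_add_distrib, Finset.sum_sub_distrib, ← Finset.mul_sum, a1, a2, a3]
    ring
  have s2 : ∑ i, (2 * ⟪X, e i⟫) • (e i - ⟪ν, e i⟫ • ν) = (2 : ℝ) • X := by
    have a1 : ∑ i, ⟪X, e i⟫ • e i = X := by
      have := e.sum_repr' X
      simpa only [real_inner_comm] using this
    have a2 : ∀ i, (2 * ⟪X, e i⟫) • (e i - ⟪ν, e i⟫ • ν)
        = (2 : ℝ) • (⟪X, e i⟫ • e i) - (2 * (⟪X, e i⟫ * ⟪ν, e i⟫)) • ν := by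
      intro i; module
    rw [Finset.sum_congr rfl fun i _ => a2 i, Finset.sum_sub_distrib, ← Finset.smul_sum, a1,
      ← Finset.sum_smul, ← Finset.mul_sum, Pair.sum_inner, hXν]
    simp
  have s3 : ∑ i, (2 * ⟪ν, e i⟫) • hs φ X (e i) = 0 := by
    have a1 : ∑ i, ⟪ν, e i⟫ • e i = ν := by
      have := e.sum_repr' ν
      simpa only [real_inner_comm] using this
    have a2 : ∀ i, (2 * ⟪ν, e i⟫) • hs φ X (e i) = (2 : ℝ) • hs φ X (⟪ν, e i⟫ • e i) := by
      intro i; rw [map_smul]; module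
    rw [Finset.sum_congr rfl fun i _ => a2 i, ← Finset.smul_sum, ← map_sum, a1, hν,
      hg.hs_gradient, smul_zero]
  have s4 : ∑ i, ⟪hs φ X (e i), e i⟫ = 0 := by
    rw [← hmin, LinearMap.trace_eq_sum_inner _ e]
    refine Finset.sum_congr rfl fun i _ => ?_
    rw [real_inner_comm]; rfl
  simp only [BB]
  rw [Finset.sum_sub_distrib, Finset.sum_sub_distrib, Finset.sum_sub_distrib, ← Finset.sum_smul,
    ← Finset.sum_smul, s1, s2, s3, s4]
  module

omit hT in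
/-- symmetry of `D(hs)` in the two differentiation directions -/
lemma dhs_comm {X : E} (h : Good φ X) (u v : E) :
    fderiv ℝ (hs φ) X u v = fderiv ℝ (hs φ) X v u := by
  have h2 : IsSymmSndFDerivAt ℝ (gradient φ) X :=
    h.contDiffAt_gradient.isSymmSndFDerivAt (by
      rw [minSmoothness_of_isRCLikeNormedField]; exact two_le_infty)
  exact h2 u v

omit hT in
lemma hasFDerivAt_hs {X : E} (h : Good φ X) : HasFDerivAt (hs φ) (fderiv ℝ (hs φ) X) X := by
  have h1 : ContDiffAt ℝ ∞ (hs φ) X := h.contDiffAt_gradient.fderiv_right (m := ∞) (by simp)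
  exact (h1.differentiableAt (by simp)).hasFDerivAt

omit hT in
/-- `D(hs)` takes symmetric values -/
lemma dhs_symm {X : E} (h : Good φ X) (u v w : E) :
    ⟪fderiv ℝ (hs φ) X u v, w⟫ = ⟪v, fderiv ℝ (hs φ) X u w⟫ := by
  have h0 := (hasFDerivAt_hs h).comp_hasDerivAt_of_eq (0 : ℝ) (hasDerivAt_line X u 0) (by simp)
  have h1 : HasDerivAt (fun t : ℝ => ⟪hs φ (X + t • u) v, w⟫) ⟪fderiv ℝ (hs φ) X u v, w⟫ 0 := by
    have := (h0.clm_apply (hasDerivAt_const (0 : ℝ) v)).inner ℝ (hasDerivAt_const (0 : ℝ) w)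
    refine this.congr_deriv ?_
    simp
  have h2 : HasDerivAt (fun t : ℝ => ⟪v, hs φ (X + t • u) w⟫) ⟪v, fderiv ℝ (hs φ) X u w⟫ 0 := by
    have := (hasDerivAt_const (0 : ℝ) v).inner ℝ (h0.clm_apply (hasDerivAt_const (0 : ℝ) w))
    refine this.congr_deriv ?_
    simp
  have h3 : (fun t : ℝ => ⟪hs φ (X + t • u) v, w⟫) =ᶠ[𝓝 0]
      fun t : ℝ => ⟪v, hs φ (X + t • u) w⟫ := by
    have h4 : ∀ᶠ t in 𝓝 (0 : ℝ), Good φ (X + t • u) :=
      (line_tendsto X u).eventually ((isOpen_good φ).mem_nhds h)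
    filter_upwards [h4] with t ht
    exact ht.hs_symm v w
  exact h1.unique (h2.congr_of_eventuallyEq h3)

/-- Laplacian of the Gauss map -/
lemma sum_dhs {X : E} (h1 : ‖X‖ = 1) (h2 : φ X = 0)
    (hmin : ∀ x, x ≠ 0 → φ x = 0 → LinearMap.trace ℝ E (hs φ x : E →ₗ[ℝ] E) = 0) :
    ∑ i, fderiv ℝ (hs φ) X (e i) (e i) = -((∑ i, ‖hs φ X (e i)‖ ^ 2) • gradient φ X) := by
  have hXT := hT.mem_TT_of_ZZ (mem_ZZ h1 h2)
  have hg := hT.good hXT
  apply ext_inner_right ℝ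
  intro w
  rw [sum_inner]
  have e1 : ∑ i, ⟪fderiv ℝ (hs φ) X (e i) (e i), w⟫ = ∑ i, ⟪fderiv ℝ (hs φ) X w (e i), e i⟫ := by
    refine Finset.sum_congr rfl fun i _ => ?_
    rw [dhs_symm hg, dhs_comm hg (e i) w, real_inner_comm]
  rw [e1]
  -- derivative of the trace
  have hl := hasDerivAt_line X w 0
  have h0 := (hasFDerivAt_hs hg).comp_hasDerivAt_of_eq (0 : ℝ) hl (by simp)
  have d1 : HasDerivAt (fun t : ℝ => ∑ i, ⟪hs φ (X + t • w) (e i), e i⟫)
      (∑ i, ⟪fderiv ℝ (hs φ) X w (e i), e i⟫) 0 := by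
    have : ∀ i ∈ (Finset.univ : Finset ι), HasDerivAt
        (fun t : ℝ => ⟪hs φ (X + t • w) (e i), e i⟫) ⟪fderiv ℝ (hs φ) X w (e i), e i⟫ 0 := by
      intro i _
      have := (h0.clm_apply (hasDerivAt_const (0 : ℝ) (e i))).inner ℝ
        (hasDerivAt_const (0 : ℝ) (e i))
      refine this.congr_deriv ?_
      simp
    exact HasDerivAt.fun_sum this
  -- the trace formula
  have hft : HasDerivAt (fun t : ℝ => ft φ (X + t • w)) (w - ⟪gradient φ X, w⟫ • gradient φ X) 0 :=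
    (jet_ft hT h1 h2 w).hasDerivAt
  have hftX : ft φ X = X := by rw [ft, h2]; simp
  have h0' := (hasFDerivAt_hs hg).comp_hasDerivAt_of_eq (0 : ℝ) hft (by simp [hftX])
  set S : ℝ → ℝ := fun t => ∑ i, ⟪hs φ (ft φ (X + t • w)) (hs φ (X + t • w) (e i)), e i⟫ with hS
  have dS : DifferentiableAt ℝ S 0 := by
    have : ∀ i ∈ (Finset.univ : Finset ι), DifferentiableAt ℝ
        (fun t : ℝ => ⟪hs φ (ft φ (X + t • w)) (hs φ (X + t • w) (e i)), e i⟫) 0 := by
      intro i _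
      have := (h0'.clm_apply (h0.clm_apply (hasDerivAt_const (0 : ℝ) (e i)))).inner ℝ
        (hasDerivAt_const (0 : ℝ) (e i))
      exact this.differentiableAt
    exact DifferentiableAt.fun_sum this
  have S0 : S 0 = ∑ i, ‖hs φ X (e i)‖ ^ 2 := by
    simp only [hS, zero_smul, add_zero, hftX]
    refine Finset.sum_congr rfl fun i _ => ?_
    rw [hg.hs_symm, real_inner_self_eq_norm_sq]
  have dphi : HasDerivAt (fun t : ℝ => φ (X + t • w)) ⟪gradient φ X, w⟫ 0 :=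
    (jet_phi hg w).hasDerivAt
  have d2 := (dphi.mul dS.hasDerivAt).neg
  have h3 : (fun t : ℝ => ∑ i, ⟪hs φ (X + t • w) (e i), e i⟫) =ᶠ[𝓝 0]
      -((fun t : ℝ => φ (X + t • w)) * S) := by
    have h4 : ∀ᶠ t in 𝓝 (0 : ℝ), X + t • w ∈ TT φ b :=
      (line_tendsto X w).eventually (hT.isOpen_TT.mem_nhds hXT)
    filter_upwards [h4] with t ht
    set y := X + t • w with hy
    have k1 : ∑ i, ⟪hs φ (ft φ y) (e i), e i⟫ = 0 := by
      rw [← hmin (ft φ y) (hT.ft_ne_zero ht) (hT.phi_ft ht), LinearMap.trace_eq_sum_inner _ e]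
      refine Finset.sum_congr rfl fun i _ => ?_
      rw [real_inner_comm]; rfl
    have k2 : ∀ i, ⟪hs φ y (e i), e i⟫ = ⟪hs φ (ft φ y) (e i), e i⟫
        - φ y * ⟪hs φ (ft φ y) (hs φ y (e i)), e i⟫ := by
      intro i
      have k3 : hs φ y (e i) = hs φ (ft φ y) (dft φ y (e i)) := (hT.hs_ft_dft ht (e i)).symm
      conv_lhs => rw [k3]
      rw [hT.dft_apply, map_sub, map_add, map_smul, map_smul, hT.hs_ft_gradient ht, smul_zero,
        add_zero, inner_sub_left, inner_smul_left]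
      rfl
    rw [Finset.sum_congr rfl fun i _ => k2 i, Finset.sum_sub_distrib, k1, ← Finset.mul_sum]
    simp only [Pi.neg_apply, Pi.mul_apply, hS, ← hy]
    ring
  have d3 := d1.unique (d2.congr_of_eventuallyEq h3)
  rw [d3, S0]
  simp only [zero_smul, add_zero, h2, zero_mul, inner_neg_left, inner_smul_left,
    RCLike.conj_to_real]
  ring

end jets

end Crest.Agent.R246.NcFoot112
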