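import Crest.Agent.R246.NcMain_475
import Crest.Agent.R246.NcAlg_112
import Crest.Agent.R246.Skel2_656

/-!
R246, step 4(B): glue between helper112's barriers, `nc_main` and the skeleton (helper475).
-/

set_option autoImplicit false
set_option linter.unusedSectionVars false
open MeasureTheory Set Filter Topology
open scoped RealInnerProductSpace ContDiff

noncomputable section

namespace Crest.Agent.R246.NcGlue475

open Crest.Agent.R246.H990 Crest.Agent.R246.SM436 Crest.Agent.R246.Hersch900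
  Crest.Agent.R246.HerschSM900 Crest.Agent.R246.Visc475 Crest.Agent.R246.NcMain475
  Crest.Agent.R246.NcAlg112

section Gen

variable {E : Type*} [NormedAddCommGroup E] [InnerProductSpace ℝ E] [FiniteDimensional ℝ E]

/-- non-degeneracy: `M'` is in no great hypersphere `ν(x)^⊥`. -/
theorem hne_of {φ : E → ℝ} {b : ℝ} (hT : Tube φ b)
    (hd : ∀ x, |φ x| = Metric.infDist x {y | φ y = 0}) (hg : ∀ x, x ≠ 0 → φ x = 0 → Good φ x)
    {x : E} (hx : ‖x‖ = 1) (hφ : φ x = 0) :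
    ∃ y : E, ‖y‖ = 1 ∧ φ y = 0 ∧ ⟪gradient φ x, y⟫ ≠ 0 := by
  by_contra hcon
  push Not at hcon
  have hx0 : x ≠ 0 := by rintro rfl; simp at hx
  set ν := gradient φ x with hν
  have hν1 : ‖ν‖ = 1 := (hg x hx0 hφ).norm_gradient
  have hν0 : ν ≠ 0 := by rintro h; rw [h] at hν1; simp at hν1
  have h1 : Metric.infDist ν {y | φ y = 0} < 1 := by
    rw [← hd, ← hν1]
    exact hT.lt ν hν0
  obtain ⟨z, hz, hz1⟩ := (Metric.infDist_lt_iff ⟨x, hφ⟩).1 h1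
  have hz' : φ z = 0 := hz
  have hνz : ⟪ν, z⟫ = 0 := by
    by_cases hz0 : z = 0
    · rw [hz0, inner_zero_right]
    · have hzn : 0 < ‖z‖ := norm_pos_iff.2 hz0
      have h2 := hcon (‖z‖⁻¹ • z) (by rw [norm_smul, norm_inv, norm_norm, inv_mul_cancel₀ hzn.ne'])
        (by rw [hT.hom _ (by positivity), hz', mul_zero])
      rw [inner_smul_right] at h2
      rcases mul_eq_zero.1 h2 with h3 | h3
      · exact absurd h3 (inv_ne_zero hzn.ne')
      · exact h3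
  have h3 : ‖ν - z‖ ^ 2 = 1 + ‖z‖ ^ 2 := by
    rw [norm_sub_sq_real, hν1, hνz]; ring
  rw [dist_eq_norm] at hz1
  nlinarith [norm_nonneg (ν - z), sq_nonneg ‖z‖]

variable [MeasurableSpace E] [BorelSpace E]

/-- helper112's output gives `BarSt`. -/
theorem barSt_of {m : ℕ} {φ : E → ℝ} (S : SmoothMin φ)
    (h : ∃ C0 lam0 : ℝ, 0 < lam0 ∧ ∀ lam : ℝ, 0 < lam → lam < lam0 →
      ∃ (w : E → ℝ) (C r0 : ℝ), 0 < r0 ∧ (∀ X, ‖X‖ = 1 → φ X = 0 → |w X| ≤ C) ∧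
        ∀ X, ‖X‖ = 1 → φ X = 0 → ∃ ψ : E → ℝ, ContDiffOn ℝ ∞ ψ (Metric.ball X r0) ∧
          (∀ x ∈ Metric.ball X r0, ‖x‖ = 1 → φ x = 0 → ψ x ≤ w x) ∧ ψ X = w X ∧
          (∀ x ∈ Metric.ball X r0, ‖fderiv ℝ ψ x‖ ≤ C ∧ ‖fderiv ℝ (fderiv ℝ ψ) x‖ ≤ C) ∧
          m - ∑ i, ‖hs φ X (stdOrthonormalBasis ℝ E i)‖ ^ 2 - C0 * lam
            ≤ ∑ i, fderiv ℝ (fderiv ℝ ψ) X (Pf X (gradient φ X) (stdOrthonormalBasis ℝ E i))
                (Pf X (gradient φ X) (stdOrthonormalBasis ℝ E i))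
              + fderiv ℝ ψ X (-((m : ℝ) • X))) :
    BarSt m φ := by
  obtain ⟨C0, lam0, h0, h1⟩ := h
  refine ⟨C0, lam0, h0, fun lam hl hl' => ?_⟩
  obtain ⟨w, C, r0, hr0, hw, hX⟩ := h1 lam hl hl'
  refine ⟨w, C, r0, C, hr0, fun x hx => hw x hx.1 hx.2, fun X hXM => ?_⟩
  obtain ⟨ψ, a1, a2, a3, a4, a5⟩ := hX X hXM.1 hXM.2
  refine ⟨ψ, a1, fun x hx hxb => a2 x hxb hx.1 hx.2, a3, fun x hx => (a4 x hx).1,
    fun x hx => (a4 x hx).2, ?_⟩
  rw [A2_eq_sum (good_of_mem S hXM) (stdOrthonormalBasis ℝ E)]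
  exact a5

end Gen

end Crest.Agent.R246.NcGlue475
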