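import Crest.Agent.R246.NcBar_112

/-!
# Local barriers for the noncollapsing quantity (block I(B))
-/

set_option autoImplicit false
set_option linter.unusedSectionVars false
noncomputable section
open MeasureTheory Set Filter Topology
open scoped RealInnerProductSpace ContDiff

namespace Crest.Agent.R246.NcLoc112

open Crest.Agent.R246.H990 Crest.Agent.R246.SM436 Crest.Agent.R246.NcJet112
  Crest.Agent.R246.NcAlg112 Crest.Agent.R246.NcFoot112 Crest.Agent.R246.NcBar112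

variable {E : Type*} [NormedAddCommGroup E] [InnerProductSpace ℝ E] [FiniteDimensional ℝ E]
variable {φ : E → ℝ} {b lam : ℝ}

/-- reflection as a function of all variables -/
def RF (p : E × E × E) : E := Rf p.2.1 p.2.2 p.1

lemma contDiffAt_RF {p : E × E × E} (hp : p.2.1 ≠ p.2.2) : ContDiffAt ℝ ∞ (RF (E := E)) p := by
  have h1 : ContDiffAt ℝ ∞ (fun p : E × E × E => p.2.1 - p.2.2) p := by fun_prop
  have h2 : ContDiffAt ℝ ∞ (fun p : E × E × E => ‖p.2.1 - p.2.2‖ ^ 2) p := h1.norm_sq ℝ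
  have h3 : ‖p.2.1 - p.2.2‖ ^ 2 ≠ 0 := by
    have := norm_pos_iff.2 (sub_ne_zero.2 hp)
    positivity
  have h4 : ContDiffAt ℝ ∞ (fun p : E × E × E => ⟪p.2.1 - p.2.2, p.1⟫) p :=
    h1.inner ℝ contDiffAt_fst
  have h5 : ContDiffAt ℝ ∞ (fun p : E × E × E => 2 / ‖p.2.1 - p.2.2‖ ^ 2 * ⟪p.2.1 - p.2.2, p.1⟫) p :=
    (contDiffAt_const.div h2 h3).mul h4
  exact contDiffAt_fst.sub (h5.smul h1)

/-- the good triples -/
def Om (φ : E → ℝ) (b lam : ℝ) : Set (E × E × E) :=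
  {p | p.1 ∈ TT φ b ∧ p.2.1 ≠ p.2.2 ∧ RF p ∈ TT φ b ∧ 0 < dd φ p.2.1 p.2.2 p.1 ∧
    0 < ff φ lam p.2.1 p.2.2 p.1}

/-- barrier as a function of all variables -/
def FF (φ : E → ℝ) (lam : ℝ) (p : E × E × E) : ℝ := Real.log (ff φ lam p.2.1 p.2.2 p.1)

variable (hT : Tube φ b)
include hT

lemma contDiffAt_qf {p : E × E × E} (h2 : p.2.1 ≠ p.2.2) (h3 : RF p ∈ TT φ b) :
    ContDiffAt ℝ ∞ (fun p : E × E × E => qf φ p.2.1 p.2.2 p.1) p :=
  (contDiffAt_pp hT h3).comp p (contDiffAt_RF h2)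

lemma contDiffAt_dd {p : E × E × E} (h1 : p.1 ∈ TT φ b) (h2 : p.2.1 ≠ p.2.2)
    (h3 : RF p ∈ TT φ b) :
    ContDiffAt ℝ ∞ (fun p : E × E × E => dd φ p.2.1 p.2.2 p.1) p := by
  have e1 : ContDiffAt ℝ ∞ (fun p : E × E × E => pp φ p.1) p :=
    (contDiffAt_pp hT h1).comp p contDiffAt_fst
  exact contDiffAt_const.sub (e1.inner ℝ (contDiffAt_qf hT h2 h3))

lemma contDiffAt_ff {p : E × E × E} (h1 : p.1 ∈ TT φ b) (h2 : p.2.1 ≠ p.2.2)
    (h3 : RF p ∈ TT φ b) (h4 : 0 < dd φ p.2.1 p.2.2 p.1) :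
    ContDiffAt ℝ ∞ (fun p : E × E × E => ff φ lam p.2.1 p.2.2 p.1) p := by
  have e1 : ContDiffAt ℝ ∞ (fun p : E × E × E => gradient φ p.1) p :=
    (hT.good h1).contDiffAt_gradient.comp p contDiffAt_fst
  have e2 : ContDiffAt ℝ ∞ (fun p : E × E × E => nn φ p.2.1 p.2.2 p.1) p :=
    e1.inner ℝ (contDiffAt_qf hT h2 h3)
  have e3 := contDiffAt_dd hT h1 h2 h3
  have e4 : ContDiffAt ℝ ∞ (fun p : E × E × E => Real.sqrt (2 * dd φ p.2.1 p.2.2 p.1)) p :=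
    (contDiffAt_const.mul e3).sqrt (by positivity)
  exact (e2.mul (e3.inv h4.ne')).add (contDiffAt_const.mul e4)

lemma contDiffAt_FF {p : E × E × E} (hp : p ∈ Om φ b lam) : ContDiffAt ℝ ∞ (FF φ lam) p :=
  (contDiffAt_ff hT hp.1 hp.2.1 hp.2.2.1 hp.2.2.2.1).log hp.2.2.2.2.ne'

lemma isOpen_Om : IsOpen (Om φ b lam) := by
  rw [isOpen_iff_mem_nhds]
  rintro p ⟨h1, h2, h3, h4, h5⟩
  have c1 : ContinuousAt (RF (E := E)) p := (contDiffAt_RF h2).continuousAt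
  have c2 := (contDiffAt_dd hT h1 h2 h3).continuousAt
  have c3 := (contDiffAt_ff (lam := lam) hT h1 h2 h3 h4).continuousAt
  have m1 : ∀ᶠ p' : E × E × E in 𝓝 p, p'.1 ∈ TT φ b :=
    continuousAt_fst.eventually_mem (hT.isOpen_TT.mem_nhds h1)
  have m2 : ∀ᶠ p' : E × E × E in 𝓝 p, p'.2.1 ≠ p'.2.2 := by
    have : IsOpen {p' : E × E × E | p'.2.1 ≠ p'.2.2} :=
      isOpen_ne_fun (by fun_prop) (by fun_prop)
    exact this.mem_nhds h2
  have m3 : ∀ᶠ p' : E × E × E in 𝓝 p, RF p' ∈ TT φ b :=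
    c1.eventually_mem (hT.isOpen_TT.mem_nhds h3)
  have m4 : ∀ᶠ p' : E × E × E in 𝓝 p, 0 < dd φ p'.2.1 p'.2.2 p'.1 :=
    c2.eventually_mem (isOpen_Ioi.mem_nhds h4)
  have m5 : ∀ᶠ p' : E × E × E in 𝓝 p, 0 < ff φ lam p'.2.1 p'.2.2 p'.1 :=
    c3.eventually_mem (isOpen_Ioi.mem_nhds h5)
  filter_upwards [m1, m2, m3, m4, m5] with p' a1 a2 a3 a4 a5
  exact ⟨a1, a2, a3, a4, a5⟩

/-- the barrier is a value of the two-point function -/
lemma ff_eq_Psi {X Y x : E} (hx : x ∈ TT φ b) :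
    ff φ lam X Y x = Psi φ lam (pp φ x) (qf φ X Y x) := by
  rw [ff, Psi, nn, dd, gradient_pp hT hx]

/-- in the good set the barrier is below any majorant of the two-point function -/
lemma ff_le {G : E → ℝ}
    (hG : ∀ x y, ‖x‖ = 1 → φ x = 0 → ‖y‖ = 1 → φ y = 0 → x ≠ y → Psi φ lam x y ≤ G x)
    {p : E × E × E} (hp : p ∈ Om φ b lam) : ff φ lam p.2.1 p.2.2 p.1 ≤ G (pp φ p.1) := by
  obtain ⟨h1, h2, h3, h4, h5⟩ := hp
  rw [ff_eq_Psi hT h1]
  refine hG _ _ (norm_pp hT h1) (phi_pp hT h1) (norm_pp hT h3) (phi_pp hT h3) ?_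
  intro h
  have h6 : dd φ p.2.1 p.2.2 p.1 = 0 := by
    have h7 : qf φ p.2.1 p.2.2 p.1 = pp φ p.1 := h.symm
    rw [dd, h7, real_inner_self_eq_norm_sq, norm_pp hT h1]; norm_num
  linarith

omit hT in
/-- tangential trace of a bilinear form -/
lemma tangential_sum {ι : Type*} [Fintype ι] (e : OrthonormalBasis ι ℝ E) (B : E →L[ℝ] E →L[ℝ] ℝ)
    {X ν : E} (h1 : ‖X‖ = 1) (h2 : ‖ν‖ = 1) (h3 : ⟪X, ν⟫ = 0) :
    ∑ i, B (Pf X ν (e i)) (Pf X ν (e i)) = ∑ i, B (e i) (e i) - B X X - B ν ν := by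
  have sX : ∀ x : E, ∑ i, ⟪x, e i⟫ • e i = x := by
    intro x
    have := e.sum_repr' x
    simpa only [real_inner_comm] using this
  have s1 : ∀ x : E, ∑ i, ⟪x, e i⟫ * B (e i) x = B x x := by
    intro x
    have : ∑ i, ⟪x, e i⟫ * B (e i) x = B (∑ i, ⟪x, e i⟫ • e i) x := by
      rw [map_sum, sum_apply]
      exact Finset.sum_congr rfl fun i _ => by rw [map_smul]; rfl
    rw [this, sX]
  have s2 : ∀ x : E, ∑ i, ⟪x, e i⟫ * B x (e i) = B x x := by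
    intro x
    have : ∑ i, ⟪x, e i⟫ * B x (e i) = B x (∑ i, ⟪x, e i⟫ • e i) := by
      rw [map_sum]
      exact Finset.sum_congr rfl fun i _ => by rw [map_smul]; rfl
    rw [this, sX]
  have h4 : ⟪ν, X⟫ = 0 := by rw [real_inner_comm]; exact h3
  have i1 : ∑ i, ⟪X, e i⟫ * ⟪X, e i⟫ = 1 := by
    rw [Pair.sum_inner, real_inner_self_eq_norm_sq, h1]; norm_num
  have i2 : ∑ i, ⟪ν, e i⟫ * ⟪ν, e i⟫ = 1 := by
    rw [Pair.sum_inner, real_inner_self_eq_norm_sq, h2]; norm_num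
  have i3 : ∑ i, ⟪X, e i⟫ * ⟪ν, e i⟫ = 0 := by rw [Pair.sum_inner, h3]
  have h5 : ∀ i, B (Pf X ν (e i)) (Pf X ν (e i)) = B (e i) (e i)
      - ⟪X, e i⟫ * B (e i) X - ⟪ν, e i⟫ * B (e i) ν - ⟪X, e i⟫ * B X (e i)
      - ⟪ν, e i⟫ * B ν (e i) + (⟪X, e i⟫ * ⟪X, e i⟫) * B X X
      + (⟪X, e i⟫ * ⟪ν, e i⟫) * (B X ν + B ν X) + (⟪ν, e i⟫ * ⟪ν, e i⟫) * B ν ν := by
    intro i
    simp only [Pf, map_sub, map_smul, sub_apply, smul_apply, smul_eq_mul]
    ring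
  rw [Finset.sum_congr rfl fun i _ => h5 i]
  simp only [Finset.sum_add_distrib, Finset.sum_sub_distrib, ← Finset.sum_mul, s1, s2, i1, i2, i3]
  ring

/-- **the differential inequality at a maximising pair.** -/
theorem lop_ge {ι : Type*} [Fintype ι] (e : OrthonormalBasis ι ℝ E) {m : ℝ}
    (hm : (Fintype.card ι : ℝ) = m + 2)
    (hmin : ∀ x, x ≠ 0 → φ x = 0 → LinearMap.trace ℝ E (hs φ x : E →ₗ[ℝ] E) = 0)
    {G : E → ℝ}
    (hG : ∀ x y, ‖x‖ = 1 → φ x = 0 → ‖y‖ = 1 → φ y = 0 → x ≠ y → Psi φ lam x y ≤ G x)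
    {X Y : E} (nX : ‖X‖ = 1) (hX : φ X = 0) (nY : ‖Y‖ = 1) (hY : φ Y = 0) (hne : X ≠ Y)
    (hXY : G X = Psi φ lam X Y) {d n ε : ℝ} (hd : d = 1 - ⟪X, Y⟫) (hn : n = ⟪gradient φ X, Y⟫)
    (hε : ε = lam * Real.sqrt (2 * d) / 2) (hlam : 0 ≤ lam)
    (hk : 2 * ε ≤ n / d) (hk0 : 0 < n) (hq : 1 / 2 ≤ Pair.q d n ε)
    (hh : ∀ v, ‖hs φ X v‖ ≤ (n / d + 2 * ε) * ‖v‖) :
    (X, X, Y) ∈ Om φ b lam ∧ FF φ lam (X, X, Y) = Real.log (G X) ∧
    (m - ∑ i, ‖hs φ X (e i)‖ ^ 2)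
        - (4 * m * ε + 16 * ε ^ 2 * (n / d + 2 * ε) + 18 * ε ^ 2 / ((n / d + 2 * ε) * d))
          / (n / d + 2 * ε)
      ≤ ∑ i, fderiv ℝ (fderiv ℝ (fun x => FF φ lam (x, X, Y))) X (Pf X (gradient φ X) (e i))
            (Pf X (gradient φ X) (e i))
          + fderiv ℝ (fun x => FF φ lam (x, X, Y)) X (-(m • X)) := by
  subst hd hn
  have hmax : ∀ y, ‖y‖ = 1 → φ y = 0 → y ≠ X → Psi φ lam X y ≤ Psi φ lam X Y := by
    intro y h1 h2 h3
    rw [← hXY]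
    exact hG X y nX hX h1 h2 h3.symm
  have hp := crit_of_max hT nX hX nY hY hne hmax
  rw [← hε] at hp
  have hdpos := hp.dpos
  have hε0 : 0 ≤ ε := by rw [hε]; positivity
  set d := 1 - ⟪X, Y⟫ with hdd
  set n := ⟪gradient φ X, Y⟫ with hnn
  have hΦ : 0 < n / d + 2 * ε := by positivity
  have hXZ := mem_ZZ nX hX
  have hXT := hT.mem_TT_of_ZZ hXZ
  have hYT := hT.mem_TT_of_ZZ (mem_ZZ nY hY)
  have hg := hT.good hXT
  have hνn := hg.norm_gradient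
  have hXν : ⟪X, gradient φ X⟫ = 0 := hp.Xν
  have hqX : qf φ X Y X = Y := by rw [qf, hp.Rf_X, pp_self hT nY hY]
  have hddX : dd φ X Y X = d := by rw [dd, hqX, pp_self hT nX hX]
  have hffX : ff φ lam X Y X = n / d + 2 * ε := by
    rw [ff, nn, hqX, hddX, hε, ← hnn]; ring
  have hOm : (X, X, Y) ∈ Om φ b lam :=
    ⟨hXT, hne, by show Rf X Y X ∈ _; rw [hp.Rf_X]; exact hYT, by
      show 0 < dd φ X Y X; rw [hddX]; exact hdpos, by
      show 0 < ff φ lam X Y X; rw [hffX]; exact hΦ⟩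
  have hGX : G X = n / d + 2 * ε := by
    rw [hXY, Psi, ← hnn, ← hdd, hε]; ring
  refine ⟨hOm, by rw [FF, hffX, hGX], ?_⟩
  set F : E → ℝ := fun x => FF φ lam (x, X, Y) with hF
  have hFc : ContDiffAt ℝ ∞ F X := by
    have c1 : ContDiffAt ℝ ∞ (FF φ lam) ((fun x : E => (x, X, Y)) X) := contDiffAt_FF hT hOm
    have c2 : ContDiffAt ℝ ∞ (fun x : E => (x, X, Y)) X := by fun_prop
    exact ContDiffAt.comp (g := FF φ lam) X c1 c2
  have hF2 : ContDiffAt ℝ 2 F X := hFc.of_le two_le_infty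
  have hjet : ∀ v, fderiv ℝ F X v = f1 φ X Y d n ε v / (n / d + 2 * ε) ∧
      fderiv ℝ (fderiv ℝ F) X v v = f2 φ X Y d n ε v / (n / d + 2 * ε)
        - (f1 φ X Y d n ε v / (n / d + 2 * ε)) ^ 2 := by
    intro v
    have h1 := J2.of_contDiffAt (v := v) hF2
    have h2 := jet_log hT hX hY hp hε hΦ v
    exact ⟨(h1.unique h2).2.1, (h1.unique h2).2.2⟩
  -- radial direction
  have hrad : fderiv ℝ F X X = 0 ∧ fderiv ℝ (fderiv ℝ F) X X X = 0 := by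
    have h1 := J2.of_contDiffAt (v := X) hF2
    have h2 : (fun t : ℝ => F (X + t • X)) =ᶠ[𝓝 0] fun _ => F X := by
      filter_upwards [lt_mem_nhds (show (-1 : ℝ) < 0 by norm_num)] with t ht
      have ht' : 0 < 1 + t := by linarith
      have e1 : X + t • X = (1 + t) • X := by module
      have e2 : Rf X Y ((1 + t) • X) = (1 + t) • Rf X Y X := by
        rw [Rf, Rf, inner_smul_right]; module
      rw [e1]
      simp only [hF, FF, ff, nn, dd, qf]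
      rw [e2, pp_smul hT _ ht', pp_smul hT _ ht', gradient_smul_of_hom hT.hom _ ht']
    have h3 := h1.unique ((J2.const (F X)).congr h2)
    exact ⟨h3.2.1, h3.2.2⟩
  -- normal direction
  have hnor : fderiv ℝ (fderiv ℝ F) X (gradient φ X) (gradient φ X) ≤ 0 := by
    have h1 := J2.of_contDiffAt (v := gradient φ X) hF2
    have hlm : IsLocalMax (fun t : ℝ => F (X + t • gradient φ X)) 0 := by
      have m1 : ∀ᶠ t in 𝓝 (0 : ℝ), (X + t • gradient φ X, X, Y) ∈ Om φ b lam := by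
        have hc : Continuous (fun t : ℝ => (X + t • gradient φ X, X, Y)) := by fun_prop
        have := hc.tendsto 0
        simp only [zero_smul, add_zero] at this
        exact this.eventually_mem ((isOpen_Om hT).mem_nhds hOm)
      have m2 : ∀ᶠ t in 𝓝 (0 : ℝ), |t| < b := by
        have : Tendsto (fun t : ℝ => |t|) (𝓝 0) (𝓝 |0|) := continuous_abs.tendsto 0
        rw [abs_zero] at this
        exact this.eventually (gt_mem_nhds hT.hb)
      filter_upwards [m1, m2] with t ht1 ht2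
      have h4 := ff_le hT hG ht1
      simp only at h4
      rw [(pp_normal hT nX hX ht2).2.1] at h4
      simp only [hF, zero_smul, add_zero, FF]
      rw [hffX, ← hGX]
      exact Real.log_le_log ht1.2.2.2.2 h4
    exact (h1.localMax hlm).2
  rw [tangential_sum e _ nX hνn hXν, hrad.2]
  have h5 : fderiv ℝ F X (-(m • X)) = 0 := by
    rw [map_neg, map_smul, hrad.1, smul_zero, neg_zero]
  rw [h5]
  have h6 := sum_log_ge hT hX hY hp e hm hmin hε0 hk hk0 hq hh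
  have h7 : ∑ i, fderiv ℝ (fderiv ℝ F) X (e i) (e i)
      = ∑ i, (f2 φ X Y d n ε (e i) / (n / d + 2 * ε)
          - (f1 φ X Y d n ε (e i) / (n / d + 2 * ε)) ^ 2) :=
    Finset.sum_congr rfl fun i _ => (hjet (e i)).2
  rw [h7]
  linarith

end Crest.Agent.R246.NcLoc112
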