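import Mathlib

/-!
R246, step 4(B): uniform radius and `C²` bounds for a compact family (helper475), and the
second-difference lemma.
-/

set_option autoImplicit false
set_option linter.unusedSectionVars false
open Set Filter Topology
open scoped ContDiff

namespace Crest.Agent.R246.UniC475

section U

variable {P : Type*} [NormedAddCommGroup P] [NormedSpace ℝ P]
variable {E : Type*} [NormedAddCommGroup E] [NormedSpace ℝ E]
variable {W : Type*} [NormedAddCommGroup W] [NormedSpace ℝ W]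
variable {W' : Type*} [NormedAddCommGroup W'] [NormedSpace ℝ W']

/-- partial first derivative -/
theorem fderiv_part {F : P × E → W} {q : P} {x : E} (h : DifferentiableAt ℝ F (q, x)) :
    fderiv ℝ (fun y => F (q, y)) x
      = (fderiv ℝ F (q, x)).comp (ContinuousLinearMap.inr ℝ P E) := by
  have h1 : HasFDerivAt (fun y : E => (q, y)) (ContinuousLinearMap.inr ℝ P E) x :=
    hasFDerivAt_prodMk_right q x
  exact (h.hasFDerivAt.comp x h1).fderiv

theorem norm_inr_comp_le (L : P × E →L[ℝ] W) :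
    ‖L.comp (ContinuousLinearMap.inr ℝ P E)‖ ≤ ‖L‖ := by
  refine ContinuousLinearMap.opNorm_le_bound _ (norm_nonneg _) fun v => ?_
  calc ‖L.comp (ContinuousLinearMap.inr ℝ P E) v‖ = ‖L ((0 : P), v)‖ := by simp
    _ ≤ ‖L‖ * ‖((0 : P), v)‖ := L.le_opNorm _
    _ = ‖L‖ * ‖v‖ := by rw [Prod.norm_def]; simp

theorem fderiv_part_le {F : P × E → W} {q : P} {x : E} (h : DifferentiableAt ℝ F (q, x)) :
    ‖fderiv ℝ (fun y => F (q, y)) x‖ ≤ ‖fderiv ℝ F (q, x)‖ := by
  rw [fderiv_part h]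
  exact norm_inr_comp_le _

theorem differentiableAt_part {F : P × E → W} {q : P} {x : E}
    (h : DifferentiableAt ℝ F (q, x)) : DifferentiableAt ℝ (fun y => F (q, y)) x := by
  have h1 : HasFDerivAt (fun y : E => (q, y)) (ContinuousLinearMap.inr ℝ P E) x :=
    hasFDerivAt_prodMk_right q x
  exact (h.hasFDerivAt.comp x h1).differentiableAt

theorem fderiv_clm_comp_le (Λ : W →L[ℝ] W') {g : E → W} {x : E} (hg : DifferentiableAt ℝ g x)
    (hΛ : ‖Λ‖ ≤ 1) : ‖fderiv ℝ (fun y => Λ (g y)) x‖ ≤ ‖fderiv ℝ g x‖ := by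
  have h1 : HasFDerivAt (fun y => Λ (g y)) (Λ.comp (fderiv ℝ g x)) x :=
    Λ.hasFDerivAt.comp x hg.hasFDerivAt
  rw [h1.fderiv]
  refine (ContinuousLinearMap.opNorm_comp_le _ _).trans ?_
  exact mul_le_of_le_one_left (norm_nonneg _) hΛ

/-- restriction of functionals to the second factor -/
noncomputable def rest : (P × E →L[ℝ] ℝ) →L[ℝ] (E →L[ℝ] ℝ) :=
  (ContinuousLinearMap.compL ℝ E (P × E) ℝ).flip (ContinuousLinearMap.inr ℝ P E)

theorem rest_apply (L : P × E →L[ℝ] ℝ) :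
    rest L = L.comp (ContinuousLinearMap.inr ℝ P E) := rfl

theorem norm_rest_le : ‖(rest : (P × E →L[ℝ] ℝ) →L[ℝ] (E →L[ℝ] ℝ))‖ ≤ 1 := by
  refine ContinuousLinearMap.opNorm_le_bound _ zero_le_one fun L => ?_
  rw [one_mul, rest_apply]
  exact norm_inr_comp_le L

theorem fderiv2_part_le {F : P × E → ℝ} {U : Set (P × E)} (hU : IsOpen U)
    (hF : ContDiffOn ℝ ∞ F U) {q : P} {x : E} (hx : (q, x) ∈ U) :
    ‖fderiv ℝ (fderiv ℝ (fun y => F (q, y))) x‖ ≤ ‖fderiv ℝ (fderiv ℝ F) (q, x)‖ := by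
  have hd : ∀ z ∈ U, DifferentiableAt ℝ F z := fun z hz =>
    (hF.contDiffAt (hU.mem_nhds hz)).differentiableAt (by simp)
  have hF1 : ContDiffOn ℝ ∞ (fderiv ℝ F) U := hF.fderiv_of_isOpen hU (by simp)
  have hd1 : DifferentiableAt ℝ (fderiv ℝ F) (q, x) :=
    (hF1.contDiffAt (hU.mem_nhds hx)).differentiableAt (by simp)
  have hi : HasFDerivAt (fun y : E => (q, y)) (ContinuousLinearMap.inr ℝ P E) x :=
    hasFDerivAt_prodMk_right q x
  have hev : ∀ᶠ y in 𝓝 x, (q, y) ∈ U := hi.continuousAt.eventually (hU.mem_nhds hx)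
  have e1 : fderiv ℝ (fun y => F (q, y)) =ᶠ[𝓝 x] fun y => rest (fderiv ℝ F (q, y)) := by
    filter_upwards [hev] with y hy
    rw [fderiv_part (hd _ hy)]
    rfl
  rw [e1.fderiv_eq]
  exact (fderiv_clm_comp_le (W := P × E →L[ℝ] ℝ) (W' := E →L[ℝ] ℝ) rest
    (differentiableAt_part hd1) norm_rest_le).trans (fderiv_part_le hd1)

theorem fderiv_bdd_on {D : Type*} [NormedAddCommGroup D] [NormedSpace ℝ D] {G : D → W}
    {U : Set D} (hU : IsOpen U)
    (hG : ContDiffOn ℝ ∞ G U) {K : Set D} (hK : IsCompact K) (hKU : K ⊆ U) :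
    ∃ C, ∀ z ∈ K, ‖fderiv ℝ G z‖ ≤ C :=
  hK.exists_bound_of_continuousOn ((hG.fderiv_of_isOpen (m := ∞) hU (by simp)).continuousOn.mono hKU)

/-- **Lemma U**: uniform radius and `C²` bounds. -/
theorem uniform_C2 [FiniteDimensional ℝ E] {F : P × E → ℝ} {U : Set (P × E)} (hU : IsOpen U)
    (hF : ContDiffOn ℝ ∞ F U) {Q : Set P} (hQ : IsCompact Q) {X : P → E} (hX : ContinuousOn X Q)
    (hQU : ∀ q ∈ Q, (q, X q) ∈ U) :
    ∃ r0 : ℝ, 0 < r0 ∧ ∃ C : ℝ, 0 ≤ C ∧ ∀ q ∈ Q,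
      (∀ x ∈ Metric.ball (X q) r0, (q, x) ∈ U) ∧
      ContDiffOn ℝ ∞ (fun x => F (q, x)) (Metric.ball (X q) r0) ∧
      (∀ x ∈ Metric.ball (X q) r0, ‖fderiv ℝ (fun y => F (q, y)) x‖ ≤ C) ∧
      (∀ x ∈ Metric.ball (X q) r0, ‖fderiv ℝ (fderiv ℝ (fun y => F (q, y))) x‖ ≤ C) ∧
      (∀ x ∈ Metric.ball (X q) r0, |F (q, x) - F (q, X q)| ≤ C * ‖x - X q‖) := by
  have : ProperSpace E := FiniteDimensional.proper ℝ E
  -- the compact graph
  set K : Set (P × E) := (fun q => (q, X q)) '' Q with hK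
  have hKc : IsCompact K := hQ.image_of_continuousOn (continuousOn_id.prodMk hX)
  have hKU : K ⊆ U := by
    rintro _ ⟨q, hq, rfl⟩
    exact hQU q hq
  obtain ⟨δ, hδ, hδU⟩ := hKc.exists_thickening_subset_open hU hKU
  set r0 : ℝ := δ / 2 with hr0
  have hr0' : 0 < r0 := by positivity
  -- the compact tube
  set K' : Set (P × E) := (fun z : P × E => (z.1, X z.1 + z.2)) '' (Q ×ˢ Metric.closedBall 0 r0)
    with hK'
  have hK'c : IsCompact K' := by
    refine (hQ.prod (isCompact_closedBall (0:E) r0)).image_of_continuousOn ?_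
    refine continuousOn_fst.prodMk (ContinuousOn.add ?_ continuousOn_snd)
    exact hX.comp continuousOn_fst (fun z hz => hz.1)
  have hmem : ∀ q ∈ Q, ∀ x ∈ Metric.closedBall (X q) r0, (q, x) ∈ K' := by
    intro q hq x hx
    refine ⟨(q, x - X q), ⟨hq, ?_⟩, by simp⟩
    rw [mem_closedBall_zero_iff, ← dist_eq_norm]
    exact hx
  have hK'U : K' ⊆ U := by
    rintro _ ⟨⟨q, v⟩, ⟨hq, hv⟩, rfl⟩
    apply hδU
    rw [Metric.mem_thickening_iff]
    refine ⟨(q, X q), ⟨q, hq, rfl⟩, ?_⟩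
    rw [mem_closedBall_zero_iff] at hv
    rw [Prod.dist_eq]
    simp only [dist_self]
    rw [dist_eq_norm]
    simp only [add_sub_cancel_left]
    rw [max_eq_right (norm_nonneg _)]
    exact lt_of_le_of_lt hv (by rw [hr0]; linarith)
  have hF1 : ContDiffOn ℝ ∞ (fderiv ℝ F) U := hF.fderiv_of_isOpen hU (by simp)
  obtain ⟨C1, hC1⟩ := fderiv_bdd_on hU hF hK'c hK'U
  obtain ⟨C2, hC2⟩ := fderiv_bdd_on (W := P × E →L[ℝ] ℝ) hU hF1 hK'c hK'U
  have hsub : ∀ q ∈ Q, ∀ x ∈ Metric.ball (X q) r0, (q, x) ∈ K' := fun q hq x hx =>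
    hmem q hq x (Metric.ball_subset_closedBall hx)
  have hdF : ∀ z ∈ U, DifferentiableAt ℝ F z := fun z hz =>
    (hF.contDiffAt (hU.mem_nhds hz)).differentiableAt (by simp)
  refine ⟨r0, hr0', max (max C1 C2) 0, le_max_right _ _, fun q hq => ?_⟩
  have hb1 : ∀ x ∈ Metric.ball (X q) r0,
      ‖fderiv ℝ (fun y => F (q, y)) x‖ ≤ max (max C1 C2) 0 := fun x hx =>
    ((fderiv_part_le (hdF _ (hK'U (hsub q hq x hx)))).trans (hC1 _ (hsub q hq x hx))).trans
      ((le_max_left _ _).trans (le_max_left _ _))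
  refine ⟨fun x hx => hK'U (hsub q hq x hx), fun x hx => ?_, hb1, fun x hx => ?_, fun x hx => ?_⟩
  · have h1 : ContDiffAt ℝ ∞ F (q, x) := hF.contDiffAt (hU.mem_nhds (hK'U (hsub q hq x hx)))
    have h2 : ContDiffAt ℝ ∞ (fun y : E => (q, y)) x := contDiffAt_const.prodMk contDiffAt_id
    exact (h1.comp x h2).contDiffWithinAt
  · exact ((fderiv2_part_le hU hF (hK'U (hsub q hq x hx))).trans (hC2 _ (hsub q hq x hx))).trans
      ((le_max_right _ _).trans (le_max_left _ _))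
  · have h1 := (convex_ball (X q) r0).norm_image_sub_le_of_norm_fderiv_le (𝕜 := ℝ)
      (f := fun y => F (q, y))
      (fun z hz => differentiableAt_part (hdF _ (hK'U (hsub q hq z hz)))) hb1
      (Metric.mem_ball_self hr0') hx
    rw [Real.norm_eq_abs] at h1
    exact h1

end U

section Tay

/-- integrate a power bound -/
theorem int_bound {S S' : ℝ → ℝ} {T K : ℝ} (n : ℕ) (hS : ∀ s ∈ Icc 0 T, HasDerivAt S (S' s) s)
    (h0 : S 0 = 0) (hb : ∀ s ∈ Icc 0 T, |S' s| ≤ K * s ^ n) :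
    ∀ s ∈ Icc 0 T, |S s| ≤ K * s ^ (n + 1) / (n + 1) := by
  intro s hs
  have h1 := image_norm_le_of_norm_deriv_right_le_deriv_boundary (f := S) (f' := S') (a := 0)
    (b := T) (B := fun s => K * s ^ (n + 1) / (n + 1)) (B' := fun s => K * s ^ n)
    (fun s hs' => (hS s hs').continuousAt.continuousWithinAt)
    (fun s hs' => (hS s ⟨hs'.1, hs'.2.le⟩).hasDerivWithinAt)
    (by simp [h0])
    (fun s => by
      have h2 : HasDerivAt (fun s : ℝ => K * s ^ (n + 1) / (n + 1))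
          (K * (((n + 1 : ℕ) : ℝ) * s ^ n) / (n + 1)) s := by
        have := ((hasDerivAt_pow (n + 1) s).const_mul K).div_const ((n : ℝ) + 1)
        simpa using this
      have h3 : K * (((n + 1 : ℕ) : ℝ) * s ^ n) / (n + 1) = K * s ^ n := by
        push_cast
        field_simp
      rwa [h3] at h2)
    (fun s hs' => by
      rw [Real.norm_eq_abs]
      exact hb s ⟨hs'.1, hs'.2.le⟩) hs
  rwa [Real.norm_eq_abs] at h1

/-- even Taylor estimate for a chain of derivatives. -/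
theorem even_chain {u u1 u2 u3 u4 : ℝ → ℝ} {T B : ℝ}
    (h0 : ∀ s ∈ Icc (-T) T, HasDerivAt u (u1 s) s)
    (h1 : ∀ s ∈ Icc (-T) T, HasDerivAt u1 (u2 s) s)
    (h2 : ∀ s ∈ Icc (-T) T, HasDerivAt u2 (u3 s) s)
    (h3 : ∀ s ∈ Icc (-T) T, HasDerivAt u3 (u4 s) s)
    (hB : ∀ s ∈ Icc (-T) T, |u4 s| ≤ B) :
    ∀ t ∈ Icc (-T) T, |u t + u (-t) - 2 * u 0 - t ^ 2 * u2 0| ≤ B * t ^ 4 / 12 := by
  have hneg : ∀ {f f' : ℝ → ℝ}, (∀ s ∈ Icc (-T) T, HasDerivAt f (f' s) s) →
      ∀ s ∈ Icc 0 T, HasDerivAt (fun s => f (-s)) (-(f' (-s))) s := by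
    intro f f' hf s hs
    have h4 := (hf (-s) ⟨by linarith [hs.2], by linarith [hs.1, hs.2]⟩).comp s (hasDerivAt_neg s)
    exact h4.congr_deriv (by ring)
  have hpos : ∀ {s : ℝ}, s ∈ Icc 0 T → s ∈ Icc (-T) T := fun hs => ⟨by linarith [hs.1, hs.2], hs.2⟩
  have hneg' : ∀ {s : ℝ}, s ∈ Icc 0 T → -s ∈ Icc (-T) T := fun hs =>
    ⟨by linarith [hs.2], by linarith [hs.1, hs.2]⟩
  have s3 := int_bound (S := fun s => u3 s - u3 (-s)) (S' := fun s => u4 s - -(u4 (-s)))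
    (T := T) (K := 2 * B) 0 (fun s hs => (h3 s (hpos hs)).sub (hneg h3 s hs)) (by simp)
    (fun s hs => by
      have a1 := hB s (hpos hs)
      have a2 := hB (-s) (hneg' hs)
      rw [abs_le] at a1 a2 ⊢
      constructor <;> simp <;> linarith [a1.1, a1.2, a2.1, a2.2])
  have s2 := int_bound (S := fun s => u2 s + u2 (-s) - 2 * u2 0)
    (S' := fun s => u3 s + -(u3 (-s))) (T := T) (K := 2 * B) 1
    (fun s hs => ((h2 s (hpos hs)).add (hneg h2 s hs)).sub_const _) (by simp; ring)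
    (fun s hs => by
      have := s3 s hs
      simpa [sub_eq_add_neg] using this)
  have s1 := int_bound (S := fun s => u1 s - u1 (-s) - 2 * u2 0 * s)
    (S' := fun s => u2 s - -(u2 (-s)) - 2 * u2 0) (T := T) (K := B) 2
    (fun s hs => by
      have := ((h1 s (hpos hs)).sub (hneg h1 s hs)).sub ((hasDerivAt_id s).const_mul (2 * u2 0))
      exact this.congr_deriv (by ring)) (by simp)
    (fun s hs => by
      have := s2 s hs
      have e1 : u2 s - -(u2 (-s)) - 2 * u2 0 = u2 s + u2 (-s) - 2 * u2 0 := by ring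
      rw [e1]
      refine this.trans (le_of_eq ?_)
      norm_num
      ring)
  have s0 := int_bound (S := fun s => u s + u (-s) - 2 * u 0 - s ^ 2 * u2 0)
    (S' := fun s => u1 s + -(u1 (-s)) - 2 * s * u2 0) (T := T) (K := B / 3) 3
    (fun s hs => by
      have := (((h0 s (hpos hs)).add (hneg h0 s hs)).sub_const (2 * u 0)).sub
        ((hasDerivAt_pow 2 s).mul_const (u2 0))
      exact this.congr_deriv (by norm_num)) (by simp; ring)
    (fun s hs => by
      have := s1 s hs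
      have e1 : u1 s + -(u1 (-s)) - 2 * s * u2 0 = u1 s - u1 (-s) - 2 * u2 0 * s := by ring
      rw [e1]
      refine this.trans (le_of_eq ?_)
      norm_num
      ring)
  have main : ∀ t ∈ Icc 0 T, |u t + u (-t) - 2 * u 0 - t ^ 2 * u2 0| ≤ B * t ^ 4 / 12 := by
    intro t ht
    refine (s0 t ht).trans (le_of_eq ?_)
    norm_num
    ring
  intro t ht
  rcases le_total 0 t with h | h
  · exact main t ⟨h, ht.2⟩
  · have := main (-t) ⟨by linarith, by linarith [ht.1]⟩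
    have e1 : u (-t) + u (- -t) - 2 * u 0 - (-t) ^ 2 * u2 0
        = u t + u (-t) - 2 * u 0 - t ^ 2 * u2 0 := by
      rw [neg_neg]; ring
    have e2 : (-t) ^ 4 = t ^ 4 := by ring
    rwa [e1, e2] at this

variable {D : Type*} [NormedAddCommGroup D] [NormedSpace ℝ D]

/-- iterated directional derivatives along a line -/
theorem line_chain {G : D → ℝ} {U : Set D} (hU : IsOpen U) (hG : ContDiffOn ℝ ∞ G U) (z v : D)
    (k : ℕ) {s : ℝ} (hs : z + s • v ∈ U) :
    HasDerivAt (fun s : ℝ => iteratedFDeriv ℝ k G (z + s • v) (fun _ => v))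
      (iteratedFDeriv ℝ (k + 1) G (z + s • v) (fun _ => v)) s := by
  have h1 : ContDiffAt ℝ ∞ G (z + s • v) := hG.contDiffAt (hU.mem_nhds hs)
  have h2 : DifferentiableAt ℝ (iteratedFDeriv ℝ k G) (z + s • v) :=
    h1.differentiableAt_iteratedFDeriv (by exact_mod_cast WithTop.coe_lt_top _)
  have h3 : HasDerivAt (fun s : ℝ => z + s • v) v s := by
    have := ((hasDerivAt_id s).smul_const v).const_add z
    simpa only [id, one_smul] using this
  have h4 : HasDerivAt (fun s : ℝ => iteratedFDeriv ℝ k G (z + s • v))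
      (fderiv ℝ (iteratedFDeriv ℝ k G) (z + s • v) v) s :=
    h2.hasFDerivAt.comp_hasDerivAt s h3
  have h5 := ((ContinuousMultilinearMap.apply ℝ (fun _ : Fin k => D) ℝ
    (fun _ => v)).hasFDerivAt).comp_hasDerivAt s h4
  have h6 : iteratedFDeriv ℝ (k + 1) G (z + s • v) (fun _ => v)
      = fderiv ℝ (iteratedFDeriv ℝ k G) (z + s • v) v (fun _ => v) := by
    rw [iteratedFDeriv_succ_apply_left]
    rfl
  rw [h6]
  exact h5

/-- near a compact set the `k`-th derivatives are bounded on segments. -/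
theorem segment_bound {G : D → ℝ} {U : Set D} (hU : IsOpen U) (hG : ContDiffOn ℝ ∞ G U)
    {K : Set D} (hK : IsCompact K) (hKU : K ⊆ U) (k : ℕ) :
    ∃ r : ℝ, 0 < r ∧ ∃ B : ℝ, 0 ≤ B ∧ ∀ z ∈ K, ∀ v : D, ‖v‖ ≤ 1 → ∀ s : ℝ, |s| ≤ r →
      z + s • v ∈ U ∧ |iteratedFDeriv ℝ k G (z + s • v) (fun _ => v)| ≤ B := by
  have hc : ContinuousOn (fun z => ‖iteratedFDeriv ℝ k G z‖) U := by
    have h1 : ContinuousOn (iteratedFDeriv ℝ k G) U := by
      intro z hz
      have h2 : ContDiffAt ℝ ∞ G z := hG.contDiffAt (hU.mem_nhds hz)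
      exact (h2.differentiableAt_iteratedFDeriv
        (by exact_mod_cast WithTop.coe_lt_top _)).continuousAt.continuousWithinAt
    exact h1.norm
  obtain ⟨B0, hB0⟩ := hK.exists_bound_of_continuousOn (hc.mono hKU)
  set V : Set D := U ∩ (fun z => ‖iteratedFDeriv ℝ k G z‖) ⁻¹' Iio (|B0| + 1) with hV
  have hVo : IsOpen V := hc.isOpen_inter_preimage hU isOpen_Iio
  have hKV : K ⊆ V := by
    intro z hz
    refine ⟨hKU hz, ?_⟩
    have h1 := hB0 z hz
    rw [norm_norm] at h1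
    show ‖iteratedFDeriv ℝ k G z‖ < |B0| + 1
    linarith [le_abs_self B0]
  obtain ⟨δ, hδ, hδV⟩ := hK.exists_thickening_subset_open hVo hKV
  refine ⟨δ / 2, by positivity, |B0| + 1, by positivity, fun z hz v hv s hs => ?_⟩
  have hmem : z + s • v ∈ V := by
    apply hδV
    rw [Metric.mem_thickening_iff]
    refine ⟨z, hz, ?_⟩
    rw [dist_eq_norm, add_sub_cancel_left, norm_smul, Real.norm_eq_abs]
    calc |s| * ‖v‖ ≤ δ / 2 * 1 := mul_le_mul hs hv (norm_nonneg _) (by positivity)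
      _ < δ := by linarith
  refine ⟨hmem.1, ?_⟩
  have h1 : ‖iteratedFDeriv ℝ k G (z + s • v)‖ < |B0| + 1 := hmem.2
  have h2 := (iteratedFDeriv ℝ k G (z + s • v)).le_opNorm (fun _ => v)
  rw [Real.norm_eq_abs] at h2
  refine h2.trans ?_
  have h3 : ∏ _i : Fin k, ‖v‖ ≤ 1 := by
    rw [Finset.prod_const]
    exact pow_le_one₀ (norm_nonneg _) hv
  have h4 : 0 ≤ ∏ _i : Fin k, ‖v‖ := Finset.prod_nonneg fun _ _ => norm_nonneg _
  calc ‖iteratedFDeriv ℝ k G (z + s • v)‖ * ∏ _i : Fin k, ‖v‖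
      ≤ (|B0| + 1) * 1 := mul_le_mul h1.le h3 h4 (by positivity)
    _ = |B0| + 1 := mul_one _

theorem iter0 (G : D → ℝ) (z v : D) : iteratedFDeriv ℝ 0 G z (fun _ => v) = G z := by
  simp

theorem iter1 (G : D → ℝ) (z v : D) : iteratedFDeriv ℝ 1 G z (fun _ => v) = fderiv ℝ G z v := by
  simp

theorem iter2 (G : D → ℝ) (z v : D) :
    iteratedFDeriv ℝ 2 G z (fun _ => v) = fderiv ℝ (fderiv ℝ G) z v v := by
  rw [iteratedFDeriv_two_apply]

/-- **even Taylor estimate**, uniformly near a compact set. -/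
theorem even_taylor {G : D → ℝ} {U : Set D} (hU : IsOpen U) (hG : ContDiffOn ℝ ∞ G U)
    {K : Set D} (hK : IsCompact K) (hKU : K ⊆ U) :
    ∃ r : ℝ, 0 < r ∧ ∃ B : ℝ, 0 ≤ B ∧ ∀ z ∈ K, ∀ v : D, ‖v‖ ≤ 1 → ∀ t : ℝ, |t| ≤ r →
      |G (z + t • v) + G (z - t • v) - 2 * G z - t ^ 2 * fderiv ℝ (fderiv ℝ G) z v v|
        ≤ B * t ^ 4 := by
  obtain ⟨r, hr, B, hB, h⟩ := segment_bound hU hG hK hKU 4
  refine ⟨r, hr, B, hB, fun z hz v hv t ht => ?_⟩
  have hc : ∀ k : ℕ, ∀ s ∈ Icc (-r) r,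
      HasDerivAt (fun s : ℝ => iteratedFDeriv ℝ k G (z + s • v) (fun _ => v))
      (iteratedFDeriv ℝ (k + 1) G (z + s • v) (fun _ => v)) s := fun k s hs =>
    line_chain hU hG z v k (h z hz v hv s (abs_le.2 hs)).1
  have := even_chain (hc 0) (hc 1) (hc 2) (hc 3)
    (fun s hs => (h z hz v hv s (abs_le.2 hs)).2) t (abs_le.1 ht)
  simp only [iter0, zero_smul, add_zero, neg_smul, ← sub_eq_add_neg] at this
  have e2 : iteratedFDeriv ℝ (1 + 1) G z (fun _ => v) = fderiv ℝ (fderiv ℝ G) z v v := iter2 G z v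
  rw [e2] at this
  refine this.trans ?_
  have : 0 ≤ B * t ^ 4 := by positivity
  linarith

/-- first and second order Taylor estimates, uniformly near a compact set. -/
theorem taylor_two {G : D → ℝ} {U : Set D} (hU : IsOpen U) (hG : ContDiffOn ℝ ∞ G U)
    {K : Set D} (hK : IsCompact K) (hKU : K ⊆ U) :
    ∃ r : ℝ, 0 < r ∧ ∃ B : ℝ, 0 ≤ B ∧ ∀ z ∈ K, ∀ v : D, ‖v‖ ≤ 1 → ∀ t : ℝ, 0 ≤ t → t ≤ r →
      |G (z + t • v) - G z - t * fderiv ℝ G z v - t ^ 2 / 2 * fderiv ℝ (fderiv ℝ G) z v v|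
        ≤ B * t ^ 3 := by
  obtain ⟨r, hr, B, hB, h⟩ := segment_bound hU hG hK hKU 3
  refine ⟨r, hr, B, hB, fun z hz v hv t ht0 ht => ?_⟩
  have hin : ∀ {s : ℝ}, s ∈ Icc 0 r → |s| ≤ r := fun hs => by
    rw [abs_of_nonneg hs.1]; exact hs.2
  have hc : ∀ k : ℕ, ∀ s ∈ Icc 0 r,
      HasDerivAt (fun s : ℝ => iteratedFDeriv ℝ k G (z + s • v) (fun _ => v))
      (iteratedFDeriv ℝ (k + 1) G (z + s • v) (fun _ => v)) s := fun k s hs =>
    line_chain hU hG z v k (h z hz v hv s (hin hs)).1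
  set a0 := G z with ha0
  set a1 := fderiv ℝ G z v with ha1
  set a2 := fderiv ℝ (fderiv ℝ G) z v v with ha2
  have s2 := int_bound (T := r) (K := B) 0
    (S := fun s => iteratedFDeriv ℝ 2 G (z + s • v) (fun _ => v) - a2)
    (fun s hs => (hc 2 s hs).sub_const a2) (by simp only [zero_smul, add_zero, iter2]; ring)
    (fun s hs => by
      have := (h z hz v hv s (hin hs)).2
      simpa using this)
  have s1 := int_bound (T := r) (K := B) 1
    (S := fun s => iteratedFDeriv ℝ 1 G (z + s • v) (fun _ => v) - a1 - s * a2)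
    (fun s hs => (((hc 1 s hs).sub_const a1).sub ((hasDerivAt_id s).mul_const a2)))
    (by simp only [zero_smul, add_zero, iter1]; ring)
    (fun s hs => by
      have := s2 s hs
      simpa using this)
  have s0 := int_bound (T := r) (K := B / 2) 2
    (S := fun s => iteratedFDeriv ℝ 0 G (z + s • v) (fun _ => v) - a0 - s * a1 - s ^ 2 / 2 * a2)
    (fun s hs => ((((hc 0 s hs).sub_const a0).sub ((hasDerivAt_id s).mul_const a1)).sub
      (((hasDerivAt_pow 2 s).div_const 2).mul_const a2)))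
    (by simp only [zero_smul, add_zero, iter0]; ring)
    (fun s hs => by
      have := s1 s hs
      have e1 : iteratedFDeriv ℝ (0 + 1) G (z + s • v) (fun _ => v) - 1 * a1
          - ((2 : ℕ) : ℝ) * s ^ (2 - 1) / 2 * a2
          = iteratedFDeriv ℝ 1 G (z + s • v) (fun _ => v) - a1 - s * a2 := by
        have e3 : iteratedFDeriv ℝ (0 + 1) G (z + s • v) (fun _ => v)
          = iteratedFDeriv ℝ 1 G (z + s • v) (fun _ => v) := rfl
        rw [e3]
        push_cast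
        ring
      rw [e1]
      refine this.trans (le_of_eq ?_)
      norm_num
      ring)
  have := s0 t ⟨ht0, ht⟩
  simp only [iter0] at this
  refine this.trans ?_
  have : 0 ≤ B * t ^ 3 := by positivity
  norm_num
  linarith

/-- **Lemma D** (scalar part). -/
theorem second_diff {f g : ℝ → ℝ} {a M B t : ℝ} (hM : 0 ≤ M) (ht : 0 < t)
    (hf : |f t + f (-t) - a * t ^ 2| ≤ B * t ^ 4) (hg : |g t + g (-t) - t ^ 2| ≤ B * t ^ 4)
    (h1 : |f t| ≤ M * g t) (h2 : |f (-t)| ≤ M * g (-t)) :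
    |a| ≤ M + B * (M + 1) * t ^ 2 := by
  have h3 : |f t + f (-t)| ≤ M * (t ^ 2 + B * t ^ 4) := by
    rw [abs_le] at hg
    calc |f t + f (-t)| ≤ |f t| + |f (-t)| := abs_add_le _ _
      _ ≤ M * g t + M * g (-t) := add_le_add h1 h2
      _ = M * (g t + g (-t)) := by ring
      _ ≤ M * (t ^ 2 + B * t ^ 4) := mul_le_mul_of_nonneg_left (by linarith [hg.2]) hM
  have h4 : |a * t ^ 2| ≤ M * (t ^ 2 + B * t ^ 4) + B * t ^ 4 := by
    have h5 : a * t ^ 2 = (f t + f (-t)) - (f t + f (-t) - a * t ^ 2) := by ring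
    rw [h5]
    exact (abs_sub _ _).trans (add_le_add h3 hf)
  rw [abs_mul, abs_of_pos (by positivity : (0:ℝ) < t ^ 2)] at h4
  have ht2 : (0:ℝ) < t ^ 2 := by positivity
  have h6 : |a| * t ^ 2 ≤ (M + B * (M + 1) * t ^ 2) * t ^ 2 := by
    calc |a| * t ^ 2 ≤ M * (t ^ 2 + B * t ^ 4) + B * t ^ 4 := h4
      _ = (M + B * (M + 1) * t ^ 2) * t ^ 2 := by ring
  exact le_of_mul_le_mul_right h6 ht2

end Tay

end Crest.Agent.R246.UniC475
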