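import Crest.Agent.R246.NcMax_112
import Crest.Agent.R246.UniC2_475

/-!
# Local barriers for the noncollapsing quantity: final statement of block I(B), pointwise part
-/

set_option autoImplicit false
set_option linter.unusedSectionVars false
set_option maxSynthPendingDepth 3
noncomputable section
open MeasureTheory Set Filter Topology
open scoped RealInnerProductSpace ContDiff

namespace Crest.Agent.R246.NcMain112

open Crest.Agent.R246.H990 Crest.Agent.R246.SM436 Crest.Agent.R246.NcJet112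
  Crest.Agent.R246.NcAlg112 Crest.Agent.R246.NcFoot112 Crest.Agent.R246.NcBar112
  Crest.Agent.R246.NcLoc112 Crest.Agent.R246.NcDiag112 Crest.Agent.R246.NcMax112

variable {E : Type*} [NormedAddCommGroup E] [InnerProductSpace ℝ E] [FiniteDimensional ℝ E]
variable {φ : E → ℝ} {b lam : ℝ}

/-! ### change of sign -/

lemma gradient_neg' (φ : E → ℝ) : gradient (fun x => -φ x) = fun x => -gradient φ x := by
  funext x
  rw [gradient_eq_comp, gradient_eq_comp]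
  simp only
  rw [fderiv_fun_neg, map_neg]

lemma hs_neg' (φ : E → ℝ) (x : E) : hs (fun x => -φ x) x = -hs φ x := by
  rw [hs, gradient_neg', fderiv_fun_neg, hs]

lemma good_neg {x : E} (h : Good φ x) : Good (fun x => -φ x) x := by
  obtain ⟨U, hU, hx, h1, h2⟩ := h
  refine ⟨U, hU, hx, h1.neg, fun y hy => ?_⟩
  rw [gradient_neg', norm_neg, h2 y hy]

lemma tube_neg (hT : Tube φ b) : Tube (fun x => -φ x) b where
  hb := hT.hb
  hom := fun t ht x => by simp only [hT.hom t ht x]; ring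
  lip := hT.lip.neg
  lt := fun x hx => by simpa using hT.lt x hx
  line := fun y hy h s hs' => by
    have h1 := hT.line y hy (by simpa using h) (-s) (by simpa using hs')
    have h2 := good_neg h1
    rw [gradient_neg']
    simp only
    rwa [smul_neg, ← neg_smul]

lemma ZS_neg : ZS (fun x => -φ x) = ZS φ := by
  ext x; simp [ZS]

lemma Pf_neg (x ν v : E) : Pf x (-ν) v = Pf x ν v := by
  simp [Pf]

lemma Psi_le_PsiA (x y : E) : Psi φ lam x y ≤ PsiA φ lam x y ∨ 1 - ⟪x, y⟫ < 0 := by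
  by_cases h : 1 - ⟪x, y⟫ < 0
  · exact Or.inr h
  · left
    push Not at h
    rw [Psi, PsiA]
    gcongr
    exact le_abs_self _

/-- the envelope -/
def GG (φ : E → ℝ) (lam : ℝ) (x : E) : ℝ := sSup (PsiA φ lam x '' {y | y ∈ ZS φ ∧ y ≠ x})

lemma GG_eq {x Y : E} (hY : Y ∈ ZS φ) (hne : Y ≠ x)
    (hmax : ∀ y ∈ ZS φ, y ≠ x → PsiA φ lam x y ≤ PsiA φ lam x Y) :
    GG φ lam x = PsiA φ lam x Y := by
  have h : IsGreatest (PsiA φ lam x '' {y | y ∈ ZS φ ∧ y ≠ x}) (PsiA φ lam x Y) := by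
    refine ⟨⟨Y, ⟨hY, hne⟩, rfl⟩, ?_⟩
    rintro _ ⟨y, ⟨hy, hyx⟩, rfl⟩
    exact hmax y hy hyx
  exact h.csSup_eq

/-! ### lower bound of the Gauss map pairing -/

lemma exists_c1 (hT : Tube φ b) (hne : ∀ x ∈ ZS φ, ∃ y ∈ ZS φ, ⟪gradient φ x, y⟫ ≠ 0) :
    ∃ c : ℝ, 0 < c ∧ ∀ x ∈ ZS φ, ∃ y ∈ ZS φ, c ≤ |⟪gradient φ x, y⟫| := by
  refine (isCompact_ZS hT).induction_on (p := fun S => ∃ c : ℝ, 0 < c ∧ ∀ x ∈ S, ∃ y ∈ ZS φ,
    c ≤ |⟪gradient φ x, y⟫|) ⟨1, one_pos, by simp⟩ ?_ ?_ ?_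
  · rintro s t hst ⟨c, hc, h⟩
    exact ⟨c, hc, fun x hx => h x (hst hx)⟩
  · rintro s t ⟨c, hc, h⟩ ⟨c', hc', h'⟩
    refine ⟨min c c', lt_min hc hc', fun x hx => ?_⟩
    rcases hx with hx | hx
    · obtain ⟨y, hy, h1⟩ := h x hx
      exact ⟨y, hy, (min_le_left _ _).trans h1⟩
    · obtain ⟨y, hy, h1⟩ := h' x hx
      exact ⟨y, hy, (min_le_right _ _).trans h1⟩
  · intro x hx
    obtain ⟨y, hy, h1⟩ := hne x hx
    have hc : 0 < |⟪gradient φ x, y⟫| := abs_pos.2 h1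
    have hcont : ContinuousAt (fun x => |⟪gradient φ x, y⟫|) x :=
      ((hT.good (ZS_subset hT hx)).contDiffAt_gradient.continuousAt.inner
        continuousAt_const).abs
    have hev : ∀ᶠ x' in 𝓝 x, |⟪gradient φ x, y⟫| / 2 < |⟪gradient φ x', y⟫| :=
      hcont.eventually (lt_mem_nhds (by linarith))
    refine ⟨{x' | |⟪gradient φ x, y⟫| / 2 < |⟪gradient φ x', y⟫|},
      mem_nhdsWithin_of_mem_nhds hev, |⟪gradient φ x, y⟫| / 2, by positivity, fun x' hx' => ?_⟩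
    exact ⟨y, hy, le_of_lt hx'⟩

/-! ### one sign -/

lemma contDiffOn_FF' (hT : Tube φ b) :
    ContDiffOn ℝ ∞ (fun z : (E × E) × E => FF φ lam (z.2, z.1))
      {z : (E × E) × E | (z.2, z.1) ∈ Om φ b lam} := by
  intro z hz
  have c1 : ContDiffAt ℝ ∞ (FF φ lam) ((fun z : (E × E) × E => (z.2, z.1)) z) :=
    contDiffAt_FF hT hz
  have c2 : ContDiffAt ℝ ∞ (fun z : (E × E) × E => (z.2, z.1)) z := by fun_prop
  exact (ContDiffAt.comp (g := FF φ lam) z c1 c2).contDiffWithinAt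

/-- admissible pairs -/
def QQ (φ : E → ℝ) (lam δ c : ℝ) : Set (E × E) :=
  {q | q.1 ∈ ZS φ ∧ q.2 ∈ ZS φ ∧ δ ≤ ‖q.1 - q.2‖ ∧ c ≤ Psi φ lam q.1 q.2}

lemma isCompact_QQ (hT : Tube φ b) {δ c : ℝ} (hδ : 0 < δ) : IsCompact (QQ φ lam δ c) := by
  set K0 : Set (E × E) := (ZS φ ×ˢ ZS φ) ∩ {q | δ ≤ ‖q.1 - q.2‖} with hK0
  have hK0c : IsCompact K0 :=
    ((isCompact_ZS hT).prod (isCompact_ZS hT)).inter_right
      (isClosed_le continuous_const (by fun_prop))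
  have hcont : ContinuousOn (fun q : E × E => Psi φ lam q.1 q.2) K0 := by
    rintro q ⟨⟨h1, h2⟩, h3⟩
    have hne : q.1 ≠ q.2 := by
      intro h0
      simp only [mem_ofPred_eq, h0, sub_self, norm_zero] at h3
      linarith
    have hD := (one_sub_inner_pos h1.1 h2.1 hne).ne'
    have c0 : ContinuousAt (fun q : E × E => gradient φ q.1) q :=
      ((hT.good (ZS_subset hT h1)).contDiffAt_gradient.continuousAt).comp continuousAt_fst
    have c1 : ContinuousAt (fun q : E × E => ⟪gradient φ q.1, q.2⟫) q :=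
      c0.inner continuousAt_snd
    have c2 : Continuous fun q : E × E => 1 - ⟪q.1, q.2⟫ := by fun_prop
    have c3 : Continuous fun q : E × E => lam * Real.sqrt (2 * (1 - ⟪q.1, q.2⟫)) := by fun_prop
    exact ((c1.mul (c2.continuousAt.inv₀ hD)).add c3.continuousAt).continuousWithinAt
  have hcl : IsClosed (K0 ∩ (fun q : E × E => Psi φ lam q.1 q.2) ⁻¹' Ici c) :=
    hcont.preimage_isClosed_of_isClosed hK0c.isClosed isClosed_Ici
  have heq : QQ φ lam δ c = K0 ∩ (fun q : E × E => Psi φ lam q.1 q.2) ⁻¹' Ici c := by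
    ext q
    simp only [QQ, hK0, mem_ofPred_eq, mem_inter_iff, mem_prod, mem_preimage, mem_Ici]
    tauto
  rw [heq]
  exact hK0c.of_isClosed_subset hcl inter_subset_left

lemma QQ_subset (hT : Tube φ b) {δ c : ℝ} (hδ : 0 < δ) (hc : 0 < c) {q : E × E}
    (hq : q ∈ QQ φ lam δ c) : (q.1, q) ∈ Om φ b lam := by
  obtain ⟨h1, h2, h3, h4⟩ := hq
  have hne : q.1 ≠ q.2 := by
    intro h0
    rw [h0, sub_self, norm_zero] at h3
    linarith
  have hD := one_sub_inner_pos h1.1 h2.1 hne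
  have hRF : RF (q.1, q) = q.2 := by
    rw [RF, Rf]
    have h5 : ⟪q.1 - q.2, q.1⟫ = 1 - ⟪q.1, q.2⟫ := by
      rw [inner_sub_left, real_inner_self_eq_norm_sq, h1.1, real_inner_comm]; norm_num
    have h6 := one_sub_inner h1.1 h2.1
    simp only
    rw [h5, ← h6]
    have h7 : 2 / (2 * (1 - ⟪q.1, q.2⟫)) * (1 - ⟪q.1, q.2⟫) = 1 := by field_simp
    rw [h7, one_smul, sub_sub_cancel]
  have hqf : qf φ q.1 q.2 q.1 = q.2 := by
    have : qf φ q.1 q.2 q.1 = pp φ (RF (q.1, q)) := rfl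
    rw [this, hRF, pp_self hT h2.1 h2.2]
  have hdd : dd φ q.1 q.2 q.1 = 1 - ⟪q.1, q.2⟫ := by
    rw [dd, hqf, pp_self hT h1.1 h1.2]
  have hff : ff φ lam q.1 q.2 q.1 = Psi φ lam q.1 q.2 := by
    rw [ff, nn, hqf, hdd, Psi]
  refine ⟨ZS_subset hT h1, hne, ?_, ?_, ?_⟩
  · rw [hRF]; exact ZS_subset hT h2
  · show 0 < dd φ q.1 q.2 q.1
    rw [hdd]; exact hD
  · show 0 < ff φ lam q.1 q.2 q.1
    rw [hff]; linarith

/-- uniform bounds, one sign -/
lemma one_side (hT : Tube φ b) {δ c : ℝ} (hδ : 0 < δ) (hc : 0 < c) :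
    ∃ r0 : ℝ, 0 < r0 ∧ ∃ C : ℝ, 0 ≤ C ∧ ∀ q ∈ QQ φ lam δ c,
      (∀ x ∈ Metric.ball q.1 r0, (x, q) ∈ Om φ b lam) ∧
      ContDiffOn ℝ ∞ (fun x => FF φ lam (x, q)) (Metric.ball q.1 r0) ∧
      (∀ x ∈ Metric.ball q.1 r0, ‖fderiv ℝ (fun y => FF φ lam (y, q)) x‖ ≤ C) ∧
      (∀ x ∈ Metric.ball q.1 r0, ‖fderiv ℝ (fderiv ℝ (fun y => FF φ lam (y, q))) x‖ ≤ C) := by
  have hU : IsOpen {z : (E × E) × E | (z.2, z.1) ∈ Om φ b lam} :=
    (isOpen_Om hT).preimage (by fun_prop)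
  obtain ⟨r0, hr0, C, hC, h⟩ := UniC475.uniform_C2 hU (contDiffOn_FF' hT)
    (isCompact_QQ (lam := lam) (c := c) hT hδ) (X := Prod.fst) continuousOn_fst
    (fun q hq => QQ_subset hT hδ hc hq)
  refine ⟨r0, hr0, C, hC, fun q hq => ?_⟩
  obtain ⟨h1, h2, h3, h4, -⟩ := h q hq
  exact ⟨h1, h2, h3, h4⟩

lemma err_le {m ε Φ d lam c : ℝ} (hm : 0 < m) (hc : 0 < c) (hΦ : c ≤ Φ) (hd : 0 < d)
    (hε0 : 0 ≤ ε) (hε : ε ≤ lam) (hlam : 0 < lam) (hlam1 : lam ≤ 1) (hεd : ε ^ 2 / d = lam ^ 2 / 2) :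
    (4 * m * ε + 16 * ε ^ 2 * Φ + 18 * ε ^ 2 / (Φ * d)) / Φ
      ≤ (4 * m / c + 16 + 9 / c ^ 2) * lam := by
  have hΦ0 : 0 < Φ := hc.trans_le hΦ
  have hl2 : lam ^ 2 ≤ lam := by nlinarith
  have e1 : (4 * m * ε + 16 * ε ^ 2 * Φ + 18 * ε ^ 2 / (Φ * d)) / Φ
      = 4 * m * ε / Φ + 16 * ε ^ 2 + 18 * (ε ^ 2 / d) / Φ ^ 2 := by
    field_simp
  rw [e1, hεd]
  have t1 : 4 * m * ε / Φ ≤ 4 * m / c * lam := by
    calc 4 * m * ε / Φ ≤ 4 * m * lam / c := by gcongr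
      _ = 4 * m / c * lam := by ring
  have t2 : 16 * ε ^ 2 ≤ 16 * lam := by
    have : ε ^ 2 ≤ lam ^ 2 := by gcongr
    linarith
  have t3 : 18 * (lam ^ 2 / 2) / Φ ^ 2 ≤ 9 / c ^ 2 * lam := by
    calc 18 * (lam ^ 2 / 2) / Φ ^ 2 ≤ 18 * (lam / 2) / c ^ 2 := by gcongr
      _ = 9 / c ^ 2 * lam := by ring
  linarith

/-- one sign, one point -/
lemma point {ι : Type*} [Fintype ι] (e : OrthonormalBasis ι ℝ E) {m : ℝ}
    (hm : (Fintype.card ι : ℝ) = m + 2) (hm1 : 0 < m) (hT : Tube φ b)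
    (hmin : ∀ x, x ≠ 0 → φ x = 0 → LinearMap.trace ℝ E (hs φ x : E →ₗ[ℝ] E) = 0)
    {G : E → ℝ} (hG : ∀ x ∈ ZS φ, ∀ y ∈ ZS φ, x ≠ y → Psi φ lam x y ≤ G x) {c r0 : ℝ}
    {X Y : E} (hX : X ∈ ZS φ) (hY : Y ∈ ZS φ) (hne : X ≠ Y) (hXY : G X = Psi φ lam X Y)
    (hc : 0 < c) (hcG : c ≤ G X) (hlam : 0 < lam) (hlam1 : lam ≤ 1 / 8) (hlam2 : lam ≤ c / 8)
    (hh : ∀ v, ‖hs φ X v‖ ≤ G X * ‖v‖)
    (hOm : ∀ x ∈ Metric.ball X r0, (x, X, Y) ∈ Om φ b lam) :
    (∀ x ∈ Metric.ball X r0, x ∈ ZS φ → FF φ lam (x, X, Y) ≤ Real.log (G x)) ∧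
    FF φ lam (X, X, Y) = Real.log (G X) ∧
    m - ∑ i, ‖hs φ X (e i)‖ ^ 2 - (4 * m / c + 16 + 9 / c ^ 2) * lam
      ≤ ∑ i, fderiv ℝ (fderiv ℝ (fun x => FF φ lam (x, X, Y))) X (Pf X (gradient φ X) (e i))
            (Pf X (gradient φ X) (e i))
          + fderiv ℝ (fun x => FF φ lam (x, X, Y)) X (-(m • X)) := by
  have hG' : ∀ x y, ‖x‖ = 1 → φ x = 0 → ‖y‖ = 1 → φ y = 0 → x ≠ y → Psi φ lam x y ≤ G x :=
    fun x y h1 h2 h3 h4 h5 => hG x ⟨h1, h2⟩ y ⟨h3, h4⟩ h5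
  have hd := one_sub_inner_pos hX.1 hY.1 hne
  have hg := hT.good (ZS_subset hT hX)
  set d := 1 - ⟪X, Y⟫ with hdd
  set n := ⟪gradient φ X, Y⟫ with hnn
  set ε := lam * Real.sqrt (2 * d) / 2 with hε
  have hρ : Real.sqrt (2 * d) = ‖X - Y‖ := sqrt_eq hX.1 hY.1
  have hρ2 : ‖X - Y‖ ≤ 2 := by
    refine (norm_sub_le _ _).trans ?_
    rw [hX.1, hY.1]; norm_num
  have hε0 : 0 ≤ ε := by rw [hε]; positivity
  have hεl : ε ≤ lam := by
    rw [hε, hρ]
    nlinarith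
  have hr2 : Real.sqrt (2 * d) ^ 2 = 2 * d := Real.sq_sqrt (by positivity)
  have hεd : ε ^ 2 / d = lam ^ 2 / 2 := by
    rw [hε, div_pow, mul_pow, hr2]
    field_simp
  have hΦ : G X = n / d + 2 * ε := by
    rw [hXY, Psi, ← hdd, ← hnn, hε]; ring
  have hnd : 2 * ε ≤ n / d := by linarith
  have hn0 : 0 < n := by
    have h1 : 0 < n / d := by linarith
    have h2 : 0 < n / d * d := by positivity
    rwa [div_mul_cancel₀ _ hd.ne'] at h2
  have hn1 : n ≤ 1 := by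
    have := real_inner_le_norm (gradient φ X) Y
    rwa [hg.norm_gradient, hY.1, one_mul] at this
  have hd2 : d ≤ 2 := by
    have := abs_real_inner_le_norm X Y
    rw [hX.1, hY.1, one_mul] at this
    have := (abs_le.1 this).1
    rw [hdd]; linarith
  have hq : 1 / 2 ≤ Pair.q d n ε := by
    rw [Pair.q]
    have h1 : 0 ≤ ε ^ 2 * (2 * d - d ^ 2) := by
      have : 0 ≤ 2 * d - d ^ 2 := by nlinarith
      positivity
    have h2 : ε * n ≤ 1 / 8 * 1 := by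
      apply mul_le_mul (hεl.trans hlam1) hn1 hn0.le (by norm_num)
    linarith
  have hmain := lop_ge hT e hm hmin hG' hX.1 hX.2 hY.1 hY.2 hne hXY hdd hnn hε hlam.le hnd hn0 hq
    (fun v => by rw [← hΦ]; exact hh v)
  obtain ⟨-, h2, h3⟩ := hmain
  refine ⟨?_, h2, ?_⟩
  · intro x hx hxZ
    have h4 := ff_le hT hG' (hOm x hx)
    simp only at h4
    rw [pp_self hT hxZ.1 hxZ.2] at h4
    exact Real.log_le_log (hOm x hx).2.2.2.2 h4
  · refine le_trans ?_ h3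
    have h5 := err_le (Φ := n / d + 2 * ε) hm1 hc (by rw [← hΦ]; exact hcG) hd hε0 hεl hlam
      (by linarith) hεd
    linarith

/-- **Local barriers for the noncollapsing quantity.** -/
theorem nc_barriers {ι : Type*} [Fintype ι] (e : OrthonormalBasis ι ℝ E) {m : ℝ}
    (hm : (Fintype.card ι : ℝ) = m + 2) (hm1 : 1 ≤ m) (hT : Tube φ b)
    (hmin : ∀ x, x ≠ 0 → φ x = 0 → LinearMap.trace ℝ E (hs φ x : E →ₗ[ℝ] E) = 0)
    (hne : ∀ x, ‖x‖ = 1 → φ x = 0 → ∃ y, ‖y‖ = 1 ∧ φ y = 0 ∧ ⟪gradient φ x, y⟫ ≠ 0) :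
    ∃ C0 lam0 : ℝ, 0 < lam0 ∧ ∀ lam, 0 < lam → lam < lam0 → ∃ (w : E → ℝ) (C r0 : ℝ), 0 < r0 ∧
      (∀ X, ‖X‖ = 1 → φ X = 0 → |w X| ≤ C) ∧
      ∀ X, ‖X‖ = 1 → φ X = 0 → ∃ psi : E → ℝ,
        ContDiffOn ℝ ∞ psi (Metric.ball X r0) ∧
        (∀ x ∈ Metric.ball X r0, ‖x‖ = 1 → φ x = 0 → psi x ≤ w x) ∧
        psi X = w X ∧
        (∀ x ∈ Metric.ball X r0, ‖fderiv ℝ psi x‖ ≤ C ∧ ‖fderiv ℝ (fderiv ℝ psi) x‖ ≤ C) ∧
        m - ∑ i, ‖hs φ X (e i)‖ ^ 2 - C0 * lam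
          ≤ ∑ i, fderiv ℝ (fderiv ℝ psi) X (Pf X (gradient φ X) (e i))
                (Pf X (gradient φ X) (e i))
              + fderiv ℝ psi X (-(m • X)) := by
  have hm0 : 0 < m := by linarith
  obtain ⟨c1, hc1, hc1'⟩ := exists_c1 hT (fun x hx => by
    obtain ⟨y, h1, h2, h3⟩ := hne x hx.1 hx.2
    exact ⟨y, ⟨h1, h2⟩, h3⟩)
  set c := c1 / 2 with hc
  have hc0 : 0 < c := by positivity
  refine ⟨4 * m / c + 16 + 9 / c ^ 2, min (1 / 8) (c / 8), by positivity, fun lam hlam hlam' => ?_⟩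
  have hlam1 : lam ≤ 1 / 8 := (hlam'.le).trans (min_le_left _ _)
  have hlam2 : lam ≤ c / 8 := (hlam'.le).trans (min_le_right _ _)
  obtain ⟨δ, hδ, hmax⟩ := exists_max e hm hm0 hT hlam
  have hTn := tube_neg hT
  obtain ⟨r1, hr1, C1, hC1, hA⟩ := one_side (lam := lam) hT hδ hc0
  obtain ⟨r2, hr2, C2, hC2, hB⟩ := one_side (lam := lam) hTn hδ hc0
  -- lower and upper bounds for the envelope
  have hlow : ∀ X ∈ ZS φ, ∀ Y ∈ ZS φ, Y ≠ X →
      (∀ y ∈ ZS φ, y ≠ X → PsiA φ lam X y ≤ PsiA φ lam X Y) → c ≤ PsiA φ lam X Y := by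
    intro X hX Y hY hYX hm'
    obtain ⟨y, hy, hy1⟩ := hc1' X hX
    have hyX : y ≠ X := by
      intro h0
      rw [h0, hT.euler (ZS_subset hT hX), hX.2, abs_zero] at hy1
      linarith
    refine le_trans ?_ (hm' y hy hyX)
    rw [PsiA]
    have hD := one_sub_inner_pos hX.1 hy.1 hyX.symm
    have hD2 : 1 - ⟪X, y⟫ ≤ 2 := by
      have := abs_real_inner_le_norm X y
      rw [hX.1, hy.1, one_mul] at this
      have := (abs_le.1 this).1
      linarith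
    have h1 : c1 * 2⁻¹ ≤ |⟪gradient φ X, y⟫| * (1 - ⟪X, y⟫)⁻¹ := by gcongr
    have h2 : 0 ≤ lam * Real.sqrt (2 * (1 - ⟪X, y⟫)) := by positivity
    rw [hc]; linarith
  refine ⟨fun x => Real.log (GG φ lam x), max (max C1 C2) (max |Real.log c|
    |Real.log (2 / δ ^ 2 + 2)|), min r1 r2, lt_min hr1 hr2, ?_, ?_⟩
  · intro X nX hX
    obtain ⟨Y, hY, hδY, hYm, -⟩ := hmax X ⟨nX, hX⟩
    have hYX : Y ≠ X := by
      intro h0
      rw [h0, sub_self, norm_zero] at hδY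
      linarith
    have hGe := GG_eq (φ := φ) (lam := lam) hY hYX hYm
    have hl := hlow X ⟨nX, hX⟩ Y hY hYX hYm
    have hu : PsiA φ lam X Y ≤ 2 / δ ^ 2 + 2 := by
      have hD := one_sub_inner nX hY.1
      have hD1 : δ ^ 2 / 2 ≤ 1 - ⟪X, Y⟫ := by
        have : δ ^ 2 ≤ ‖X - Y‖ ^ 2 := by gcongr
        linarith
      have hn1 : |⟪gradient φ X, Y⟫| ≤ 1 := by
        have := abs_real_inner_le_norm (gradient φ X) Y
        rwa [(hT.good (ZS_subset hT ⟨nX, hX⟩)).norm_gradient, hY.1, one_mul] at this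
      rw [PsiA, sqrt_eq nX hY.1]
      have hDp := one_sub_inner_pos nX hY.1 hYX.symm
      have h1 : |⟪gradient φ X, Y⟫| * (1 - ⟪X, Y⟫)⁻¹ ≤ 1 * (δ ^ 2 / 2)⁻¹ := by gcongr
      have h2 : lam * ‖X - Y‖ ≤ 1 * 2 := by
        have h3 : ‖X - Y‖ ≤ 2 := by
          refine (norm_sub_le _ _).trans ?_
          rw [nX, hY.1]; norm_num
        gcongr
        linarith
      have h4 : (1 : ℝ) * (δ ^ 2 / 2)⁻¹ = 2 / δ ^ 2 := by field_simp
      linarith
    simp only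
    rw [hGe]
    have hΨ : 0 < PsiA φ lam X Y := hc0.trans_le hl
    have l1 : Real.log c ≤ Real.log (PsiA φ lam X Y) := Real.log_le_log hc0 hl
    have l2 : Real.log (PsiA φ lam X Y) ≤ Real.log (2 / δ ^ 2 + 2) := Real.log_le_log hΨ hu
    refine le_trans ?_ (le_max_right _ _)
    rw [abs_le]
    constructor
    · have := neg_abs_le (Real.log c)
      have h5 : |Real.log c| ≤ max |Real.log c| |Real.log (2 / δ ^ 2 + 2)| := le_max_left _ _
      linarith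
    · have := le_abs_self (Real.log (2 / δ ^ 2 + 2))
      have h5 : |Real.log (2 / δ ^ 2 + 2)| ≤ max |Real.log c| |Real.log (2 / δ ^ 2 + 2)| :=
        le_max_right _ _
      linarith
  · intro X nX hX0
    have hX : X ∈ ZS φ := ⟨nX, hX0⟩
    obtain ⟨Y, hY, hδY, hYm, hhY⟩ := hmax X hX
    have hYX : Y ≠ X := by
      intro h0
      rw [h0, sub_self, norm_zero] at hδY
      linarith
    have hGe := GG_eq (φ := φ) (lam := lam) hY hYX hYm
    have hl := hlow X hX Y hY hYX hYm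
    have hD := one_sub_inner_pos hX.1 hY.1 hYX.symm
    -- the envelope dominates both one-sided functions
    have hdom : ∀ x ∈ ZS φ, ∀ y ∈ ZS φ, x ≠ y → PsiA φ lam x y ≤ GG φ lam x := by
      intro x hx y hy hxy
      obtain ⟨Y', hY', hδY', hYm', -⟩ := hmax x hx
      have hYX' : Y' ≠ x := by
        intro h0
        rw [h0, sub_self, norm_zero] at hδY'
        linarith
      rw [GG_eq hY' hYX' hYm']
      exact hYm' y hy hxy.symm
    have hballs1 : Metric.ball X (min r1 r2) ⊆ Metric.ball X r1 :=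
      Metric.ball_subset_ball (min_le_left _ _)
    have hballs2 : Metric.ball X (min r1 r2) ⊆ Metric.ball X r2 :=
      Metric.ball_subset_ball (min_le_right _ _)
    have hCa : C1 ≤ max (max C1 C2) (max |Real.log c| |Real.log (2 / δ ^ 2 + 2)|) :=
      (le_max_left _ _).trans (le_max_left _ _)
    have hCb : C2 ≤ max (max C1 C2) (max |Real.log c| |Real.log (2 / δ ^ 2 + 2)|) :=
      (le_max_right _ _).trans (le_max_left _ _)
    rcases le_or_gt 0 ⟪gradient φ X, Y⟫ with hs' | hs'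
    · -- positive sign
      have hPe : Psi φ lam X Y = PsiA φ lam X Y := by rw [Psi, PsiA, abs_of_nonneg hs']
      have hqm : (X, Y) ∈ QQ φ lam δ c := ⟨hX, hY, hδY, by rw [hPe]; exact hl⟩
      obtain ⟨a1, a2, a3, a4⟩ := hA (X, Y) hqm
      have hGd : ∀ x ∈ ZS φ, ∀ y ∈ ZS φ, x ≠ y → Psi φ lam x y ≤ GG φ lam x := by
        intro x hx y hy hxy
        refine le_trans ?_ (hdom x hx y hy hxy)
        have := one_sub_inner_pos hx.1 hy.1 hxy
        rw [Psi, PsiA]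
        gcongr
        exact le_abs_self _
      obtain ⟨p1, p2, p3⟩ := point e hm hm0 hT hmin hGd hX hY hYX.symm (by rw [hGe, hPe]) hc0
        (by rw [hGe]; exact hl) hlam hlam1 hlam2 (fun v => by rw [hGe]; exact hhY v) a1
      refine ⟨fun x => FF φ lam (x, X, Y), a2.mono hballs1, fun x hx h1 h2 =>
        p1 x (hballs1 hx) ⟨h1, h2⟩, p2, fun x hx => ⟨(a3 x (hballs1 hx)).trans hCa,
        (a4 x (hballs1 hx)).trans hCa⟩, p3⟩
    · -- negative sign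
      have hminn : ∀ x, x ≠ 0 → (fun x => -φ x) x = 0 →
          LinearMap.trace ℝ E (hs (fun x => -φ x) x : E →ₗ[ℝ] E) = 0 := by
        intro x hx h0
        rw [hs_neg']
        have := hmin x hx (by simpa using h0)
        simp [this]
      have hPe : Psi (fun x => -φ x) lam X Y = PsiA φ lam X Y := by
        rw [Psi, PsiA, abs_of_neg hs', gradient_neg']
        simp only [inner_neg_left]
      have hX' : X ∈ ZS (fun x => -φ x) := by rw [ZS_neg]; exact hX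
      have hY' : Y ∈ ZS (fun x => -φ x) := by rw [ZS_neg]; exact hY
      have hqm : (X, Y) ∈ QQ (fun x => -φ x) lam δ c := ⟨hX', hY', hδY, by
        show c ≤ Psi (fun x => -φ x) lam X Y
        rw [hPe]; exact hl⟩
      obtain ⟨a1, a2, a3, a4⟩ := hB (X, Y) hqm
      have hGd : ∀ x ∈ ZS (fun x => -φ x), ∀ y ∈ ZS (fun x => -φ x), x ≠ y →
          Psi (fun x => -φ x) lam x y ≤ GG φ lam x := by
        intro x hx y hy hxy
        rw [ZS_neg] at hx hy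
        refine le_trans ?_ (hdom x hx y hy hxy)
        have := one_sub_inner_pos hx.1 hy.1 hxy
        rw [Psi, PsiA, gradient_neg']
        simp only [inner_neg_left]
        gcongr
        exact neg_le_abs _
      have hnorm : ∀ v, ‖hs (fun x => -φ x) X v‖ = ‖hs φ X v‖ := by
        intro v
        rw [hs_neg', neg_apply, norm_neg]
      obtain ⟨p1, p2, p3⟩ := point e hm hm0 hTn hminn hGd hX' hY' hYX.symm (by rw [hGe, hPe]) hc0
        (by rw [hGe]; exact hl) hlam hlam1 hlam2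
        (fun v => by rw [hGe, hnorm]; exact hhY v) a1
      refine ⟨fun x => FF (fun x => -φ x) lam (x, X, Y), a2.mono hballs2, fun x hx h1 h2 =>
        p1 x (hballs2 hx) ?_, p2, fun x hx => ⟨(a3 x (hballs2 hx)).trans hCb,
        (a4 x (hballs2 hx)).trans hCb⟩, ?_⟩
      · rw [ZS_neg]; exact ⟨h1, h2⟩
      · simp only [hnorm] at p3
        refine p3.trans (le_of_eq ?_)
        rw [gradient_neg']
        simp only [Pf_neg]

end Crest.Agent.R246.NcMain112
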