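import Crest.Agent.R246.Glob_475
import Crest.Agent.R246.HerschSM_900

/-!
R246, step 4(B): assembly of the noncollapsing inequality (helper475).
-/

set_option autoImplicit false
set_option linter.unusedSectionVars false
open MeasureTheory Set Filter Topology
open scoped RealInnerProductSpace ContDiff

noncomputable section

namespace Crest.Agent.R246.NcMain475

open Crest.Agent.R246.H990 Crest.Agent.R246.SM436 Crest.Agent.R246.Hersch900
  Crest.Agent.R246.HerschSM900 Crest.Agent.R246.Visc475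

variable {E : Type*} [NormedAddCommGroup E] [InnerProductSpace ℝ E] [FiniteDimensional ℝ E]

theorem two_le_infty : (2 : WithTop ℕ∞) ≤ ∞ :=
  (WithTop.coe_le_coe.2 le_top : ((2 : ℕ∞) : WithTop ℕ∞) ≤ ((⊤ : ℕ∞) : WithTop ℕ∞))

/-- tangential projection with normals `x`, `ν` -/
def Pj (x ν v : E) : E := v - ⟪x, v⟫ • x - ⟪ν, v⟫ • ν

/-- `∑ B(P eᵢ, P eᵢ) = ∑ B(eᵢ,eᵢ) - B(x,x) - B(ν,ν)`. -/
theorem sum_proj {ι : Type*} [Fintype ι] (e : OrthonormalBasis ι ℝ E) (B : E →L[ℝ] E →L[ℝ] ℝ)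
    (hB : ∀ u v, B u v = B v u) {x ν : E} (hx : ‖x‖ = 1) (hν : ‖ν‖ = 1) (hxν : ⟪x, ν⟫ = 0) :
    ∑ i, B (Pj x ν (e i)) (Pj x ν (e i)) = ∑ i, B (e i) (e i) - B x x - B ν ν := by
  have hsum : ∀ u v : E, ∑ i, ⟪u, e i⟫ * ⟪v, e i⟫ = ⟪u, v⟫ := by
    intro u v
    rw [← e.sum_inner_mul_inner u v]
    refine Finset.sum_congr rfl fun i _ => ?_
    rw [real_inner_comm v (e i)]
  have hBs : ∀ u : E, ∑ i, ⟪u, e i⟫ * B u (e i) = B u u := by
    intro u
    have h1 : ∑ i, ⟪u, e i⟫ • e i = u := by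
      have := e.sum_repr' u
      simpa only [real_inner_comm u] using this
    calc ∑ i, ⟪u, e i⟫ * B u (e i) = B u (∑ i, ⟪u, e i⟫ • e i) := by
          rw [map_sum]
          simp
      _ = B u u := by rw [h1]
  have hxx : ∑ i, ⟪x, e i⟫ * ⟪x, e i⟫ = 1 := by
    rw [hsum, real_inner_self_eq_norm_sq, hx]; norm_num
  have hνν : ∑ i, ⟪ν, e i⟫ * ⟪ν, e i⟫ = 1 := by
    rw [hsum, real_inner_self_eq_norm_sq, hν]; norm_num
  have hxn : ∑ i, ⟪x, e i⟫ * ⟪ν, e i⟫ = 0 := by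
    rw [hsum, hxν]
  have key : ∀ i, B (Pj x ν (e i)) (Pj x ν (e i)) = B (e i) (e i)
      - 2 * (⟪x, e i⟫ * B x (e i)) - 2 * (⟪ν, e i⟫ * B ν (e i))
      + (⟪x, e i⟫ * ⟪x, e i⟫) * B x x + (⟪ν, e i⟫ * ⟪ν, e i⟫) * B ν ν
      + 2 * ((⟪x, e i⟫ * ⟪ν, e i⟫) * B x ν) := by
    intro i
    unfold Pj
    simp only [map_sub, map_smul, sub_apply, smul_apply, smul_eq_mul]
    rw [hB (e i) x, hB (e i) ν, hB ν x]
    ring
  simp only [key, Finset.sum_add_distrib, Finset.sum_sub_distrib, ← Finset.mul_sum,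
    ← Finset.sum_mul, hBs, hxx, hνν, hxn]
  ring

/-- the coefficient fields -/
def Vf (φ : E → ℝ) (i : Fin (Module.finrank ℝ E)) (x : E) : E :=
  Pj x (gradient φ x) (stdOrthonormalBasis ℝ E i)

def bf (m : ℕ) (x : E) : E := -((m : ℝ) • x)

/-- `M' = {x | ‖x‖ = 1, φ x = 0}` -/
def Mp (φ : E → ℝ) : Set E := {x | ‖x‖ = 1 ∧ φ x = 0}

variable [MeasurableSpace E] [BorelSpace E]

theorem good_of_mem {φ : E → ℝ} (S : SmoothMin φ) {x : E} (hx : x ∈ Mp φ) : Good φ x :=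
  S.good x (by rintro rfl; simp [Mp] at hx) hx.2

theorem isCompact_Mp {φ : E → ℝ} (S : SmoothMin φ) : IsCompact (Mp φ) := by
  have : Mp φ = Metric.sphere (0 : E) 1 ∩ {y | φ y = 0} := by
    ext x; simp [Mp]
  rw [this]
  exact (isCompact_sphere (0 : E) 1).inter_right
    (isClosed_eq S.nc.lip.continuous continuous_const)

theorem inner_grad_self {φ : E → ℝ} (S : SmoothMin φ) {x : E} (hx : x ∈ Mp φ) :
    ⟪x, gradient φ x⟫ = 0 := by
  rw [real_inner_comm]
  rw [Good.euler S.nc.hom (good_of_mem S hx), hx.2]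

theorem continuousOn_grad {φ : E → ℝ} (S : SmoothMin φ) : ContinuousOn (gradient φ) (Mp φ) :=
  fun _ hx => (good_of_mem S hx).contDiffAt_gradient.continuousAt.continuousWithinAt

theorem continuousOn_Vf {φ : E → ℝ} (S : SmoothMin φ) (i : Fin (Module.finrank ℝ E)) :
    ContinuousOn (Vf φ i) (Mp φ) := by
  have h := continuousOn_grad S
  unfold Vf Pj
  exact (continuousOn_const.sub ((continuousOn_id.inner continuousOn_const).smul
    continuousOn_id)).sub ((h.inner continuousOn_const).smul h)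

theorem continuousOn_bf (m : ℕ) (s : Set E) : ContinuousOn (bf m : E → E) s :=
  (continuous_const.smul continuous_id).neg.continuousOn

/-- `L f = tr D²f - D²f(x,x) - D²f(ν,ν) - m Df(x)` on `M'`. -/
theorem Lop_eq {φ : E → ℝ} (S : SmoothMin φ) (m : ℕ) {f : E → ℝ} {x : E} (hx : x ∈ Mp φ)
    (hf : ContDiffAt ℝ 2 f x) :
    Lop (Vf φ) (bf m) f x
      = ∑ i, fderiv ℝ (fderiv ℝ f) x (stdOrthonormalBasis ℝ E i) (stdOrthonormalBasis ℝ E i)
        - fderiv ℝ (fderiv ℝ f) x x x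
        - fderiv ℝ (fderiv ℝ f) x (gradient φ x) (gradient φ x) - m * fderiv ℝ f x x := by
  unfold Lop Vf bf
  have hsym : ∀ u v, fderiv ℝ (fderiv ℝ f) x u v = fderiv ℝ (fderiv ℝ f) x v u := by
    have h : IsSymmSndFDerivAt ℝ f x := hf.isSymmSndFDerivAt (by
      rw [minSmoothness_of_isRCLikeNormedField])
    exact fun u v => h u v
  rw [sum_proj (stdOrthonormalBasis ℝ E) _ hsym hx.1 (good_of_mem S hx).norm_gradient
    (inner_grad_self S hx)]
  simp only [map_neg, map_smul, smul_eq_mul]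
  ring

/-- `∫ L f dμ = 0`. -/
theorem integral_Lop {φ : E → ℝ} (S : SmoothMin φ) {m : ℕ} {μ : Measure E}
    (hμ : AreaMeas m φ μ) {f : E → ℝ} (hf : ContDiff ℝ ∞ f) :
    ∫ x, Lop (Vf φ) (bf m) f x ∂μ = 0 := by
  have hfin := hμ.fin
  set e := stdOrthonormalBasis ℝ E with he
  have hf1 : ContDiff ℝ ∞ (fderiv ℝ f) := hf.fderiv_right (m := ∞) (by simp)
  have hd1 : Differentiable ℝ (fderiv ℝ f) := hf1.differentiable (by simp)
  have hc2 : Continuous (fderiv ℝ (fderiv ℝ f)) := hf1.continuous_fderiv (by simp)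
  have hc1 : Continuous (fderiv ℝ f) := hf1.continuous
  have hg : ∀ x, Good φ x → ContinuousAt (gradient φ) x := fun x hx =>
    hx.contDiffAt_gradient.continuousAt
  -- the test functions
  have hh : ∀ i, SmS (fun x => fderiv ℝ f x (e i)) := fun i x _ =>
    (hf1.clm_apply contDiff_const).contDiffAt
  have hhd : ∀ i x v, fderiv ℝ (fun x => fderiv ℝ f x (e i)) x v
      = fderiv ℝ (fderiv ℝ f) x v (e i) := by
    intro i x v
    have h1 := (hd1 x).hasFDerivAt.clm_apply (hasFDerivAt_const (e i) x)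
    rw [h1.fderiv]
    simp
  -- integrability
  have hI1 : ∀ i, Integrable (fun x => fderiv ℝ (fun x => fderiv ℝ f x (e i)) x (e i)
      - ⟪x, e i⟫ * fderiv ℝ (fun x => fderiv ℝ f x (e i)) x x
      - ⟪gradient φ x, e i⟫ * fderiv ℝ (fun x => fderiv ℝ f x (e i)) x (gradient φ x)) μ := by
    intro i
    refine integrable_of_cont S hμ.supp ?_
    intro x hx
    simp only [hhd]
    have h2 : ContinuousAt (fderiv ℝ (fderiv ℝ f)) x := hc2.continuousAt
    have h3 := hg x hx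
    refine ((((h2.clm_apply continuousAt_const).clm_apply continuousAt_const)).sub
      ((continuousAt_id.inner continuousAt_const).mul
        ((h2.clm_apply continuousAt_id).clm_apply continuousAt_const))).sub
      ((h3.inner continuousAt_const).mul ((h2.clm_apply h3).clm_apply continuousAt_const))
  have hI2 : ∀ i, Integrable (fun x => ⟪x, e i⟫ * fderiv ℝ f x (e i)) μ := by
    intro i
    refine integrable_of_cont S hμ.supp ?_
    intro x hx
    exact (continuousAt_id.inner continuousAt_const).mul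
      (hc1.continuousAt.clm_apply continuousAt_const)
  have hsum : ∀ u v : E, ∀ x, ∑ i, ⟪u, e i⟫ * fderiv ℝ (fderiv ℝ f) x v (e i)
      = fderiv ℝ (fderiv ℝ f) x v u := by
    intro u v x
    have h1 : ∑ i, ⟪u, e i⟫ • e i = u := by
      have := e.sum_repr' u
      simpa only [real_inner_comm u] using this
    conv_rhs => rw [← h1, map_sum]
    simp
  have hsum1 : ∀ u : E, ∀ x, ∑ i, ⟪u, e i⟫ * fderiv ℝ f x (e i) = fderiv ℝ f x u := by
    intro u x
    have h1 : ∑ i, ⟪u, e i⟫ • e i = u := by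
      have := e.sum_repr' u
      simpa only [real_inner_comm u] using this
    conv_rhs => rw [← h1, map_sum]
    simp
  have h1 : ∫ x, Lop (Vf φ) (bf m) f x ∂μ
      = ∫ x, (∑ i, (fderiv ℝ (fun x => fderiv ℝ f x (e i)) x (e i)
      - ⟪x, e i⟫ * fderiv ℝ (fun x => fderiv ℝ f x (e i)) x x
      - ⟪gradient φ x, e i⟫ * fderiv ℝ (fun x => fderiv ℝ f x (e i)) x (gradient φ x))
      - m * ∑ i, ⟪x, e i⟫ * fderiv ℝ f x (e i)) ∂μ := by
    apply integral_congr_ae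
    filter_upwards [hμ.supp] with x hx
    have hxM : x ∈ Mp φ := hx
    rw [Lop_eq S m hxM (hf.contDiffAt.of_le two_le_infty)]
    simp only [hhd, Finset.sum_sub_distrib, hsum, hsum1]
    rfl
  rw [h1, integral_sub (integrable_finsetSum _ fun i _ => hI1 i)
    ((integrable_finsetSum _ fun i _ => hI2 i).const_mul _),
    integral_finsetSum _ (fun i _ => hI1 i), integral_const_mul,
    integral_finsetSum _ (fun i _ => hI2 i), Finset.mul_sum, ← Finset.sum_sub_distrib]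
  apply Finset.sum_eq_zero
  intro i _
  rw [hμ.fv _ (hh i) (e i), sub_self]

/-- the pointwise input (P1-P3 of helper112): for small `lam` a bounded function `w` on `M'` with
local `C^∞` lower barriers of uniform radius and `C²` size, and
`L ψ (X) ≥ m - |A|²(X) - C₁ lam`. -/
def BarSt (m : ℕ) (φ : E → ℝ) : Prop :=
  ∃ C1 lam0 : ℝ, 0 < lam0 ∧ ∀ lam : ℝ, 0 < lam → lam < lam0 →
    ∃ (w : E → ℝ) (K r0 C : ℝ), 0 < r0 ∧ (∀ x ∈ Mp φ, |w x| ≤ K) ∧
      ∀ X ∈ Mp φ, ∃ ψ : E → ℝ, ContDiffOn ℝ ∞ ψ (Metric.ball X r0) ∧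
        (∀ x ∈ Mp φ, x ∈ Metric.ball X r0 → ψ x ≤ w x) ∧ ψ X = w X ∧
        (∀ x ∈ Metric.ball X r0, ‖fderiv ℝ ψ x‖ ≤ C) ∧
        (∀ x ∈ Metric.ball X r0, ‖fderiv ℝ (fderiv ℝ ψ) x‖ ≤ C) ∧
        m - A2 φ X - C1 * lam ≤ Lop (Vf φ) (bf m) ψ X

/-- **the noncollapsing inequality** `m |M'| ≤ ∫ |A|²`. -/
theorem nc_main {φ : E → ℝ} (S : SmoothMin φ) {m : ℕ} {μ : Measure E}
    (hμ : AreaMeas m φ μ) (hbar : BarSt m φ) :
    m * μ.real univ ≤ ∫ x, A2 φ x ∂μ := by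
  have hfin := hμ.fin
  obtain ⟨C1, lam0, hlam0, hb⟩ := hbar
  have hZ := isCompact_Mp S
  have hμZ : μ (Mp φ)ᶜ = 0 := by
    have := hμ.supp
    rw [ae_iff] at this
    exact this
  have hA : Integrable (A2 φ) μ := integrable_of_cont S hμ.supp fun x hx => continuousAt_A2 hx
  have hAc : ContinuousOn (A2 φ) (Mp φ) := fun x hx =>
    (continuousAt_A2 (good_of_mem S hx)).continuousWithinAt
  have key : ∀ lam : ℝ, 0 < lam → lam < lam0 →
      m * μ.real univ ≤ ∫ x, A2 φ x ∂μ + C1 * lam * μ.real univ := by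
    intro lam h0 h1
    obtain ⟨w, K, r0, C, hr0, hwK, hψ⟩ := hb lam h0 h1
    obtain ⟨C', hC'⟩ := globalize (r := ∞) two_le_infty le_rfl hZ
      (V := Vf φ) (b := bf m) (continuousOn_Vf S) (continuousOn_bf m _) hwK hr0 C
    have hglob : ∀ X ∈ Mp φ, ∃ ψ, IsBar ∞ (Mp φ) w X ψ ∧
        (∀ x ∈ Mp φ, ∀ y ∈ Mp φ, |ψ x - ψ y| ≤ C' * dist x y) ∧
        (∀ x ∈ Mp φ, -C' ≤ Lop (Vf φ) (bf m) ψ x) ∧
        m - A2 φ X - C1 * lam ≤ Lop (Vf φ) (bf m) ψ X := by
      intro X hX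
      obtain ⟨ψ, h1, h2, h3, h4, h5, h6⟩ := hψ X hX
      obtain ⟨ψ', g1, g2, g3, g4⟩ := hC' X hX ψ h1 h2 h3 h4 h5
      exact ⟨ψ', g1, g2, g3, by rw [g4]; exact h6⟩
    have hmain := barrier_integral (r := ∞) two_le_infty hZ μ hμZ
      (V := Vf φ) (b := bf m) (continuousOn_Vf S) (continuousOn_bf m _)
      (fun f hf => integral_Lop S hμ hf) (w := w) (g := fun x => m - A2 φ x - C1 * lam)
      ((continuousOn_const.sub hAc).sub continuousOn_const)
      ⟨C', fun X hX => by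
        obtain ⟨ψ, h1, h2, h3, -⟩ := hglob X hX
        exact ⟨ψ, h1, h2, h3⟩⟩
      (fun X hX e he => by
        obtain ⟨ψ, h1, -, -, h4⟩ := hglob X hX
        exact ⟨ψ, h1, by linarith⟩)
    have e1 : ∫ x, ((m : ℝ) - A2 φ x - C1 * lam) ∂μ
        = ∫ x, ((m : ℝ) - A2 φ x) ∂μ - ∫ _x, C1 * lam ∂μ :=
      integral_sub ((integrable_const _).sub hA) (integrable_const _)
    have e2 : ∫ x, ((m : ℝ) - A2 φ x) ∂μ = ∫ _x, (m : ℝ) ∂μ - ∫ x, A2 φ x ∂μ :=
      integral_sub (integrable_const _) hA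
    rw [e1, e2, integral_const, integral_const, smul_eq_mul, smul_eq_mul] at hmain
    linarith
  -- let `lam → 0`
  have hlim : Tendsto (fun lam : ℝ => ∫ x, A2 φ x ∂μ + C1 * lam * μ.real univ) (𝓝[>] 0)
      (𝓝 (∫ x, A2 φ x ∂μ + C1 * 0 * μ.real univ)) := by
    have : Continuous (fun lam : ℝ => ∫ x, A2 φ x ∂μ + C1 * lam * μ.real univ) := by fun_prop
    exact this.continuousWithinAt
  rw [mul_zero, zero_mul, add_zero] at hlim
  refine ge_of_tendsto hlim ?_
  have : Ioo (0:ℝ) lam0 ∈ 𝓝[>] (0:ℝ) := Ioo_mem_nhdsGT hlam0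
  filter_upwards [this] with lam hlam
  exact key lam hlam.1 hlam.2

end Crest.Agent.R246.NcMain475
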