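import Crest.Agent.R246.NcDiag_112

/-!
# Off-diagonal maximisers of the perturbed two-point function (block I(B))
-/

set_option autoImplicit false
set_option linter.unusedSectionVars false
set_option maxSynthPendingDepth 3
noncomputable section
open MeasureTheory Set Filter Topology
open scoped RealInnerProductSpace ContDiff

namespace Crest.Agent.R246.NcMax112

open Crest.Agent.R246.H990 Crest.Agent.R246.SM436 Crest.Agent.R246.NcJet112
  Crest.Agent.R246.NcAlg112 Crest.Agent.R246.NcFoot112 Crest.Agent.R246.NcBar112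
  Crest.Agent.R246.NcLoc112 Crest.Agent.R246.NcDiag112

variable {E : Type*} [NormedAddCommGroup E] [InnerProductSpace ℝ E] [FiniteDimensional ℝ E]
variable {φ : E → ℝ} {b lam : ℝ}

/-- the two-sided perturbed two-point function -/
def PsiA (φ : E → ℝ) (lam : ℝ) (x y : E) : ℝ :=
  |⟪gradient φ x, y⟫| * (1 - ⟪x, y⟫)⁻¹ + lam * Real.sqrt (2 * (1 - ⟪x, y⟫))

lemma sqrt_eq {x y : E} (hx : ‖x‖ = 1) (hy : ‖y‖ = 1) :
    Real.sqrt (2 * (1 - ⟪x, y⟫)) = ‖x - y‖ := by
  rw [one_sub_inner hx hy, Real.sqrt_sq (norm_nonneg _)]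

/-- a tangential direction realising the norm of the second fundamental form -/
lemma exists_dir {ι : Type*} [Fintype ι] (e : OrthonormalBasis ι ℝ E) {m : ℝ}
    (hm : (Fintype.card ι : ℝ) = m + 2) (hm1 : 0 < m) (hT : Tube φ b) {x : E} (hx : x ∈ ZS φ) :
    ∃ a : E, ‖a‖ = 1 ∧ ⟪a, x⟫ = 0 ∧ ⟪a, gradient φ x⟫ = 0 ∧
      ∀ v, ‖hs φ x v‖ ≤ |⟪hs φ x a, a⟫| * ‖v‖ := by
  classical
  have hg := hT.good (ZS_subset hT hx)
  have hνn := hg.norm_gradient
  have hxν : ⟪x, gradient φ x⟫ = 0 := by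
    rw [real_inner_comm, hT.euler (ZS_subset hT hx), hx.2]
  set ν := gradient φ x with hν
  have hsym : ((hs φ x : E →L[ℝ] E) : E →ₗ[ℝ] E).IsSymmetric := fun u v => hg.hs_symm u v
  set β := hsym.eigenvectorBasis rfl with hβ
  set l := hsym.eigenvalues rfl with hl
  have hap : ∀ i, hs φ x (β i) = (l i) • β i := by
    intro i
    have := hsym.apply_eigenvectorBasis rfl i
    exact this
  have hcard : 0 < Module.finrank ℝ E := by
    rw [Module.finrank_eq_card_basis e.toBasis]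
    have : (0 : ℝ) < Fintype.card ι := by rw [hm]; linarith
    exact_mod_cast this
  obtain ⟨i0, -, hi0⟩ := Finset.exists_max_image (Finset.univ : Finset (Fin (Module.finrank ℝ E)))
    (fun i => |l i|) ⟨⟨0, hcard⟩, Finset.mem_univ _⟩
  have hbound : ∀ v, ‖hs φ x v‖ ≤ |l i0| * ‖v‖ := by
    intro v
    have h1 : ‖hs φ x v‖ ^ 2 ≤ (|l i0| * ‖v‖) ^ 2 := by
      rw [← β.sum_sq_norm_inner_right (hs φ x v), mul_pow, ← β.sum_sq_norm_inner_right v,
        Finset.mul_sum]
      refine Finset.sum_le_sum fun i hi => ?_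
      have h2 : ⟪β i, hs φ x v⟫ = l i * ⟪β i, v⟫ := by
        rw [← hg.hs_symm, hap, inner_smul_left]; simp
      rw [h2, norm_mul, mul_pow, Real.norm_eq_abs]
      exact mul_le_mul_of_nonneg_right
        (pow_le_pow_left₀ (abs_nonneg _) (hi0 i (Finset.mem_univ i)) 2) (by positivity)
    exact (pow_le_pow_iff_left₀ (norm_nonneg _) (by positivity) two_ne_zero).1 h1
  by_cases h0 : l i0 = 0
  · -- the second fundamental form vanishes at `x`
    have hz : ∀ v, hs φ x v = 0 := by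
      intro v
      have := hbound v
      rw [h0, abs_zero, zero_mul] at this
      exact norm_le_zero_iff.1 this
    have hex : ∃ i, Pf x ν (e i) ≠ 0 := by
      by_contra hcon
      push Not at hcon
      have h3 : ∑ i, ⟪Pf x ν (e i), e i⟫ = m := by
        have : ∀ i, ⟪Pf x ν (e i), e i⟫ = 1 - ⟪x, e i⟫ * ⟪x, e i⟫ - ⟪ν, e i⟫ * ⟪ν, e i⟫ := by
          intro i
          simp only [Pf, inner_sub_left, inner_smul_left, RCLike.conj_to_real]
          rw [real_inner_self_eq_norm_sq, e.norm_eq_one]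
          ring
        rw [Finset.sum_congr rfl fun i _ => this i, Finset.sum_sub_distrib, Finset.sum_sub_distrib,
          Pair.sum_inner, Pair.sum_inner, real_inner_self_eq_norm_sq, real_inner_self_eq_norm_sq,
          hx.1, hνn]
        simp [hm]
        ring
      have h4 : ∑ i, ⟪Pf x ν (e i), e i⟫ = 0 := by
        refine Finset.sum_eq_zero fun i _ => ?_
        rw [hcon i, inner_zero_left]
      linarith
    obtain ⟨i, hi⟩ := hex
    set u := Pf x ν (e i) with hu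
    have hun : 0 < ‖u‖ := norm_pos_iff.2 hi
    have hux : ⟪u, x⟫ = 0 := by
      rw [hu, Pf_symm, Pf, hx.1 |> fun h => (by rw [real_inner_self_eq_norm_sq, h]; norm_num :
        ⟪x, x⟫ = 1), real_inner_comm x ν, hxν]
      simp
    have huν : ⟪u, ν⟫ = 0 := by
      rw [hu, Pf_symm, Pf, (by rw [real_inner_self_eq_norm_sq, hνn]; norm_num : ⟪ν, ν⟫ = 1), hxν]
      simp
    refine ⟨‖u‖⁻¹ • u, ?_, ?_, ?_, ?_⟩
    · rw [norm_smul, norm_inv, norm_norm, inv_mul_cancel₀ hun.ne']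
    · rw [inner_smul_left, hux]; simp
    · rw [inner_smul_left, huν]; simp
    · intro v
      rw [hz v, norm_zero]; positivity
  · refine ⟨β i0, β.norm_eq_one i0, ?_, ?_, ?_⟩
    · have h1 : ⟪hs φ x (β i0), x⟫ = 0 := by
        rw [hg.hs_symm, hg.hs_self hT.hom, inner_zero_right]
      rw [hap, inner_smul_left] at h1
      simpa [h0] using h1
    · have h1 : ⟪hs φ x (β i0), ν⟫ = 0 := by
        rw [hg.hs_symm, hν, hg.hs_gradient, inner_zero_right]
      rw [hap, inner_smul_left] at h1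
      simpa [h0] using h1
    · intro v
      have h1 : ⟪hs φ x (β i0), β i0⟫ = l i0 := by
        rw [hap, inner_smul_left, real_inner_self_eq_norm_sq, β.norm_eq_one]; simp
      rw [h1]
      exact hbound v

/-- **near the diagonal the two-point function is dominated by an off-diagonal value** -/
lemma exists_delta {ι : Type*} [Fintype ι] (e : OrthonormalBasis ι ℝ E) {m : ℝ}
    (hm : (Fintype.card ι : ℝ) = m + 2) (hm1 : 0 < m) (hT : Tube φ b) (hlam : 0 < lam) :
    ∃ δ : ℝ, 0 < δ ∧ ∀ x ∈ ZS φ, ∃ y' ∈ ZS φ, δ ≤ ‖x - y'‖ ∧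
      (∀ y ∈ ZS φ, y ≠ x → ‖x - y‖ < δ → PsiA φ lam x y ≤ PsiA φ lam x y') ∧
      ∀ v, ‖hs φ x v‖ ≤ PsiA φ lam x y' * ‖v‖ := by
  obtain ⟨r, K, hB⟩ := exists_LocB hT
  have hK := hB.K0
  have hr := hB.r0
  set C := 2 * K + (1 + K ^ 2) / 2 * K + 4 * K ^ 3 with hC
  have hC0 : 0 ≤ C := by positivity
  -- choice of `s`
  obtain ⟨s, hs0, hs, hs1, hs2, hs3⟩ : ∃ s : ℝ, 0 < s ∧ s ≤ r ∧ s ^ 2 ≤ 1 / 2 ∧
      K ^ 2 * s ^ 2 ≤ 1 / 4 ∧ C * s ≤ lam / 4 := by
    set s := min (min r (1 / 2)) (min (1 / (2 * (K + 1))) (lam / (4 * (C + 1)))) with hsdef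
    have h1 : 0 < s := by positivity
    have h2 : s ≤ r := (min_le_left _ _).trans (min_le_left _ _)
    have h3 : s ≤ 1 / 2 := (min_le_left _ _).trans (min_le_right _ _)
    have h4 : s ≤ 1 / (2 * (K + 1)) := (min_le_right _ _).trans (min_le_left _ _)
    have h5 : s ≤ lam / (4 * (C + 1)) := (min_le_right _ _).trans (min_le_right _ _)
    refine ⟨s, h1, h2, by nlinarith, ?_, ?_⟩
    · rw [le_div_iff₀ (by positivity)] at h4
      have h6 : K * s ≤ 1 / 2 := by nlinarith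
      have h7 : 0 ≤ K * s := by positivity
      have : K ^ 2 * s ^ 2 = (K * s) ^ 2 := by ring
      rw [this]
      nlinarith
    · rw [le_div_iff₀ (by positivity)] at h5
      nlinarith
  refine ⟨min (s / 2) (min r (lam * s / 4 / (2 * K + lam))), by positivity, fun x hx => ?_⟩
  set δ := min (s / 2) (min r (lam * s / 4 / (2 * K + lam))) with hδ
  have hδ1 : δ ≤ s / 2 := min_le_left _ _
  have hδ2 : δ ≤ r := (min_le_right _ _).trans (min_le_left _ _)
  have hδ3 : δ * (2 * K + lam) ≤ lam * s / 4 := by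
    have : δ ≤ lam * s / 4 / (2 * K + lam) := (min_le_right _ _).trans (min_le_right _ _)
    rwa [le_div_iff₀ (by positivity)] at this
  obtain ⟨a, ha, hax, haν, hab⟩ := exists_dir e hm hm1 hT hx
  obtain ⟨y', hy', hy1, hy2⟩ := lower_near hT hB hx ha hax haν hs0 hs hs1 hs2
  rw [← hC] at hy2
  set κ := |⟪SM436.hs φ x a, a⟫| with hκ
  have hκ0 : 0 ≤ κ := abs_nonneg _
  have hP : κ + lam * s / 4 ≤ PsiA φ lam x y' := by
    rw [PsiA, sqrt_eq hx.1 hy'.1]
    have h1 : lam * (s / 2) ≤ lam * ‖x - y'‖ := by gcongr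
    have h2 : C * s ^ 2 ≤ lam / 4 * s := by nlinarith
    linarith
  refine ⟨y', hy', hδ1.trans hy1, ?_, ?_⟩
  · intro y hy hne hyδ
    refine le_trans ?_ hP
    have hρ : 0 < ‖x - y‖ := norm_pos_iff.2 (sub_ne_zero.2 hne.symm)
    have hup := upper_near hT hB hx hy (by rw [norm_sub_rev]; exact hyδ.le.trans hδ2)
    rw [norm_sub_rev y x] at hup
    have hop : ‖SM436.hs φ x‖ ≤ κ := ContinuousLinearMap.opNorm_le_bound _ hκ0 hab
    rw [PsiA, sqrt_eq hx.1 hy.1]
    have hD : 1 - ⟪x, y⟫ = ‖x - y‖ ^ 2 / 2 := by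
      have := one_sub_inner hx.1 hy.1
      linarith
    rw [hD]
    set ρ := ‖x - y‖ with hρdef
    have h1 : |⟪gradient φ x, y⟫| * (ρ ^ 2 / 2)⁻¹ ≤ κ + 2 * K * ρ := by
      rw [← div_eq_mul_inv, div_le_iff₀ (by positivity)]
      refine hup.trans ?_
      have : ‖SM436.hs φ x‖ * ρ ^ 2 / 2 ≤ κ * ρ ^ 2 / 2 := by gcongr
      nlinarith
    have h2 : (2 * K + lam) * ρ ≤ (2 * K + lam) * δ := by gcongr
    linarith
  · intro v
    refine (hab v).trans ?_
    gcongr
    have : 0 ≤ lam * s / 4 := by positivity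
    linarith

/-- the set of admissible second points -/
lemma exists_max {ι : Type*} [Fintype ι] (e : OrthonormalBasis ι ℝ E) {m : ℝ}
    (hm : (Fintype.card ι : ℝ) = m + 2) (hm1 : 0 < m) (hT : Tube φ b) (hlam : 0 < lam) :
    ∃ δ : ℝ, 0 < δ ∧ ∀ x ∈ ZS φ, ∃ Y ∈ ZS φ, δ ≤ ‖x - Y‖ ∧
      (∀ y ∈ ZS φ, y ≠ x → PsiA φ lam x y ≤ PsiA φ lam x Y) ∧
      ∀ v, ‖hs φ x v‖ ≤ PsiA φ lam x Y * ‖v‖ := by
  obtain ⟨δ, hδ, h⟩ := exists_delta e hm hm1 hT hlam
  refine ⟨δ, hδ, fun x hx => ?_⟩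
  obtain ⟨y', hy', h1, h2, h3⟩ := h x hx
  set S : Set E := ZS φ ∩ {y | δ ≤ ‖x - y‖} with hS
  have hSc : IsCompact S :=
    (isCompact_ZS hT).inter_right (isClosed_le continuous_const (by fun_prop))
  have hcont : ContinuousOn (PsiA φ lam x) S := by
    intro y hy
    have hne : x ≠ y := by
      intro h0
      have := hy.2
      simp only [mem_ofPred_eq, h0, sub_self, norm_zero] at this
      linarith
    have hD := (one_sub_inner_pos hx.1 hy.1.1 hne).ne'
    have c1 : Continuous fun y : E => |⟪gradient φ x, y⟫| := by fun_prop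
    have c2 : Continuous fun y : E => 1 - ⟪x, y⟫ := by fun_prop
    have c3 : Continuous fun y : E => lam * Real.sqrt (2 * (1 - ⟪x, y⟫)) := by fun_prop
    exact ((c1.continuousAt.mul (c2.continuousAt.inv₀ hD)).add c3.continuousAt).continuousWithinAt
  obtain ⟨Y, hY, hYm⟩ := hSc.exists_isMaxOn ⟨y', hy', h1⟩ hcont
  have hle : PsiA φ lam x y' ≤ PsiA φ lam x Y := hYm ⟨hy', h1⟩
  refine ⟨Y, hY.1, hY.2, ?_, ?_⟩
  · intro y hy hne
    by_cases hc : δ ≤ ‖x - y‖
    · exact hYm ⟨hy, hc⟩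
    · push Not at hc
      exact (h2 y hy hne hc).trans hle
  · intro v
    exact (h3 v).trans (mul_le_mul_of_nonneg_right hle (norm_nonneg v))

end Crest.Agent.R246.NcMax112
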