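import Crest.Agent.R246.Fam2_348
import Mathlib.Analysis.Calculus.Gradient.Basic
import Mathlib.Topology.ContinuousMap.Algebra
import Mathlib.Topology.ContinuousMap.Bounded.ArzelaAscoli
import Mathlib.Topology.MetricSpace.Equicontinuity

/-!
# The semi-implicit map `Ψ` for Allen-Cahn on the sphere, abstract resolvent interface

`ext f` : `0`-homogeneous extension of `f : C(S,ℝ)`.
`Res ε lam G` : interface of the resolvent `G = (lam - ε² Δ_S)⁻¹`.
-/

set_option autoImplicit false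
set_option linter.unusedSectionVars false
set_option linter.unusedSimpArgs false
noncomputable section
open MeasureTheory Set Filter Topology Metric
open scoped RealInnerProductSpace ContDiff

namespace Crest.Agent.R246.Psi348

open Fam348

variable {E : Type*} [NormedAddCommGroup E] [InnerProductSpace ℝ E]

/-- normalisation -/
def nz (x : E) (hx : x ≠ 0) : sphere (0 : E) 1 :=
  ⟨‖x‖⁻¹ • x, by
    have : ‖x‖ ≠ 0 := norm_ne_zero_iff.2 hx
    simp [norm_smul, this]⟩

/-- `0`-homogeneous extension. -/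
def ext (f : C(sphere (0 : E) 1, ℝ)) (x : E) : ℝ := by
  classical exact if hx : x ≠ 0 then f (nz x hx) else 0

lemma ext_of_ne (f : C(sphere (0 : E) 1, ℝ)) {x : E} (hx : x ≠ 0) : ext f x = f (nz x hx) := by
  unfold ext; rw [dif_pos hx]

lemma ext_zero (f : C(sphere (0 : E) 1, ℝ)) : ext f 0 = 0 := by
  unfold ext; rw [dif_neg (by simp)]

lemma ne_zero_of_norm_one {x : E} (hx : ‖x‖ = 1) : x ≠ 0 := by
  intro h; rw [h, norm_zero] at hx; exact zero_ne_one hx

lemma coe_ne_zero (y : sphere (0 : E) 1) : (y : E) ≠ 0 := ne_zero_of_norm_one (by simp)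

lemma ext_coe (f : C(sphere (0 : E) 1, ℝ)) (y : sphere (0 : E) 1) : ext f y = f y := by
  rw [ext_of_ne f (coe_ne_zero y)]
  congr 1
  apply Subtype.ext
  simp [nz]

lemma ext_smul (f : C(sphere (0 : E) 1, ℝ)) {t : ℝ} (ht : 0 < t) (x : E) :
    ext f (t • x) = ext f x := by
  by_cases hx : x = 0
  · rw [hx, smul_zero]
  · have htx : t • x ≠ 0 := smul_ne_zero ht.ne' hx
    rw [ext_of_ne f htx, ext_of_ne f hx]
    congr 1
    apply Subtype.ext
    simp only [nz, norm_smul, Real.norm_eq_abs, abs_of_pos ht, smul_smul]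
    congr 1
    field_simp

lemma ext_abs_le (f : C(sphere (0 : E) 1, ℝ)) {M : ℝ} (hM : 0 ≤ M) (h : ∀ y, |f y| ≤ M) (x : E) :
    |ext f x| ≤ M := by
  by_cases hx : x = 0
  · rw [hx, ext_zero, abs_zero]; exact hM
  · rw [ext_of_ne f hx]; exact h _

lemma ext_add (f g : C(sphere (0 : E) 1, ℝ)) : ext (f + g) = ext f + ext g := by
  funext x
  by_cases hx : x = 0
  · simp [hx, ext_zero]
  · simp [ext_of_ne _ hx]

lemma ext_sub (f g : C(sphere (0 : E) 1, ℝ)) : ext (f - g) = ext f - ext g := by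
  funext x
  by_cases hx : x = 0
  · simp [hx, ext_zero]
  · simp [ext_of_ne _ hx]

lemma ext_smulc (c : ℝ) (f : C(sphere (0 : E) 1, ℝ)) : ext (c • f) = c • ext f := by
  funext x
  by_cases hx : x = 0
  · simp [hx, ext_zero]
  · simp [ext_of_ne _ hx]

lemma ext_mul (f g : C(sphere (0 : E) 1, ℝ)) : ext (f * g) = ext f * ext g := by
  funext x
  by_cases hx : x = 0
  · simp [hx, ext_zero]
  · simp [ext_of_ne _ hx]

/-- The truncated nonlinearity `ψ(u) = lam u + 2 u (1 - u²) = (lam+2) u - 2 u³`. -/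
def psiF (lam : ℝ) (u : C(sphere (0 : E) 1, ℝ)) : C(sphere (0 : E) 1, ℝ) :=
  (lam + 2) • u - (2:ℝ) • (u * (u * u))

@[simp] lemma psiF_apply (lam : ℝ) (u : C(sphere (0 : E) 1, ℝ)) (y : sphere (0 : E) 1) :
    psiF lam u y = (lam + 2) * u y - 2 * (u y * (u y * u y)) := by
  simp [psiF]

lemma psiF_neg (lam : ℝ) (u : C(sphere (0 : E) 1, ℝ)) : psiF lam (-u) = - psiF lam u := by
  ext y
  simp only [psiF_apply, ContinuousMap.neg_apply]
  ring

lemma psiF_abs_le {lam : ℝ} (hlam : 4 ≤ lam) {u : C(sphere (0 : E) 1, ℝ)}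
    (hu : ∀ y, |u y| ≤ 1) (y : sphere (0 : E) 1) : |psiF lam u y| ≤ lam := by
  rw [psiF_apply]
  obtain ⟨h1, h2⟩ := abs_le.1 (hu y)
  set s := u y
  have hs2 : s * s ≤ 1 := by nlinarith
  rw [abs_le]
  constructor
  · -- lam + (lam+2) s - 2 s^3 = (1+s)(lam + 2 s - 2 s^2 ) 
    have : lam + ((lam + 2) * s - 2 * (s * (s * s))) = (1 + s) * (lam + 2 * s - 2 * (s * s)) := by
      ring
    have h3 : 0 ≤ (1 + s) * (lam + 2 * s - 2 * (s * s)) := by
      apply mul_nonneg <;> nlinarith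
    linarith
  · have : lam - ((lam + 2) * s - 2 * (s * (s * s))) = (1 - s) * (lam - 2 * s - 2 * (s * s)) := by
      ring
    have h3 : 0 ≤ (1 - s) * (lam - 2 * s - 2 * (s * s)) := by
      apply mul_nonneg <;> nlinarith
    linarith

variable [FiniteDimensional ℝ E] [MeasurableSpace E] [BorelSpace E]

/-- surface measure -/
abbrev sg (E : Type*) [NormedAddCommGroup E] [InnerProductSpace ℝ E] [FiniteDimensional ℝ E]
    [MeasurableSpace E] [BorelSpace E] : Measure (sphere (0 : E) 1) :=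
  (volume : Measure E).toSphere

/-- Interface of the resolvent `G = (lam - ε² Δ_S)⁻¹` on `C(S)`. -/
structure Res (ε lam : ℝ) (G : C(sphere (0 : E) 1, ℝ) →L[ℝ] C(sphere (0 : E) 1, ℝ)) : Prop where
  pos : ∀ f : C(sphere (0 : E) 1, ℝ), (∀ y, 0 ≤ f y) → ∀ y, 0 ≤ G f y
  one : ∀ y, G 1 y = lam⁻¹
  c1 : ∀ f, ContDiffOn ℝ 1 (ext (G f)) {0}ᶜ
  grad : ∃ C : ℝ, 0 ≤ C ∧ ∀ f, ∀ y : sphere (0 : E) 1, ‖fderiv ℝ (ext (G f)) y‖ ≤ C * ‖f‖
  weak : ∀ (f : C(sphere (0 : E) 1, ℝ)) (h : C(sphere (0 : E) 1, ℝ)),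
    ContDiffOn ℝ 1 (ext h) {0}ᶜ →
    ∫ y : sphere (0 : E) 1, (ε ^ 2 * ⟪gradient (ext (G f)) (y : E), gradient (ext h) (y : E)⟫ +
      lam * G f y * h y) ∂(sg E) = ∫ y : sphere (0 : E) 1, f y * h y ∂(sg E)

variable {ε lam : ℝ} {G : C(sphere (0 : E) 1, ℝ) →L[ℝ] C(sphere (0 : E) 1, ℝ)}

lemma Res.mono (hG : Res ε lam G) {f g : C(sphere (0 : E) 1, ℝ)} (h : ∀ y, f y ≤ g y)
    (y : sphere (0 : E) 1) : G f y ≤ G g y := by
  have h1 := hG.pos (g - f) (fun y => by simpa using h y) y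
  rw [map_sub, ContinuousMap.sub_apply] at h1
  linarith

lemma Res.abs_le (hG : Res ε lam G) (hlam : 0 < lam) {f : C(sphere (0 : E) 1, ℝ)}
    (h : ∀ y, |f y| ≤ lam) (y : sphere (0 : E) 1) : |G f y| ≤ 1 := by
  have e1 : ∀ y, G (lam • (1 : C(sphere (0 : E) 1, ℝ))) y = 1 := by
    intro y
    rw [map_smul, ContinuousMap.smul_apply, hG.one, smul_eq_mul, mul_inv_cancel₀ hlam.ne']
  rw [_root_.abs_le]
  constructor
  · have := hG.mono (f := -(lam • (1 : C(sphere (0 : E) 1, ℝ)))) (g := f)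
      (fun y => by simpa using (_root_.abs_le.1 (h y)).1) y
    rw [map_neg, ContinuousMap.neg_apply, e1] at this
    exact this
  · have := hG.mono (f := f) (g := lam • (1 : C(sphere (0 : E) 1, ℝ)))
      (fun y => by simpa using (_root_.abs_le.1 (h y)).2) y
    rw [e1] at this
    exact this

/-- The semi-implicit map. -/
def Psi (lam : ℝ) (G : C(sphere (0 : E) 1, ℝ) →L[ℝ] C(sphere (0 : E) 1, ℝ))
    (u : C(sphere (0 : E) 1, ℝ)) : C(sphere (0 : E) 1, ℝ) := G (psiF lam u)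

lemma Psi_neg (u : C(sphere (0 : E) 1, ℝ)) : Psi lam G (-u) = - Psi lam G u := by
  unfold Psi; rw [psiF_neg, map_neg]

lemma Psi_abs_le (hG : Res ε lam G) (hlam : 4 ≤ lam) {u : C(sphere (0 : E) 1, ℝ)}
    (hu : ∀ y, |u y| ≤ 1) (y : sphere (0 : E) 1) : |Psi lam G u y| ≤ 1 :=
  hG.abs_le (by linarith) (psiF_abs_le hlam hu) y

lemma continuous_psiF (lam : ℝ) :
    Continuous (psiF lam : C(sphere (0 : E) 1, ℝ) → C(sphere (0 : E) 1, ℝ)) := by
  have h : Continuous fun u : C(sphere (0 : E) 1, ℝ) => u := continuous_id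
  exact (h.const_smul (lam + 2)).sub ((h.mul (h.mul h)).const_smul (2:ℝ))

lemma continuous_Psi : Continuous fun u : C(sphere (0 : E) 1, ℝ) => Psi lam G u :=
  G.continuous.comp (continuous_psiF lam)

/-- `C¹` on the sphere. -/
def C1 (u : C(sphere (0 : E) 1, ℝ)) : Prop := ContDiffOn ℝ 1 (ext u) {0}ᶜ

lemma isOpen_compl : IsOpen ({0}ᶜ : Set E) := isOpen_compl_singleton

lemma C1.differentiableAt {u : C(sphere (0 : E) 1, ℝ)} (hu : C1 u) (y : sphere (0 : E) 1) :
    DifferentiableAt ℝ (ext u) (y : E) :=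
  (hu.contDiffAt (isOpen_compl.mem_nhds (coe_ne_zero y))).differentiableAt one_ne_zero

lemma C1.sub {u v : C(sphere (0 : E) 1, ℝ)} (hu : C1 u) (hv : C1 v) : C1 (u - v) := by
  unfold C1
  rw [ext_sub]
  exact ContDiffOn.sub hu hv

lemma C1.neg {u : C(sphere (0 : E) 1, ℝ)} (hu : C1 u) : C1 (-u) := by
  have : ext (-u) = fun x => - ext u x := by
    have := ext_smulc (-1) u
    rw [neg_one_smul] at this
    rw [this]; funext x; simp
  unfold C1
  rw [this]
  exact ContDiffOn.neg hu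

lemma C1.continuous_fderiv {u : C(sphere (0 : E) 1, ℝ)} (hu : C1 u) :
    Continuous fun y : sphere (0 : E) 1 => fderiv ℝ (ext u) (y : E) := by
  have h : ContinuousOn (fderiv ℝ (ext u)) {0}ᶜ :=
    ContDiffOn.continuousOn_fderiv_of_isOpen hu isOpen_compl le_rfl
  exact h.comp_continuous continuous_subtype_val fun y => coe_ne_zero y

lemma C1.continuous_gradient {u : C(sphere (0 : E) 1, ℝ)} (hu : C1 u) :
    Continuous fun y : sphere (0 : E) 1 => gradient (ext u) (y : E) := by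
  unfold gradient
  exact (InnerProductSpace.toDual ℝ E).symm.continuous.comp hu.continuous_fderiv

lemma norm_gradient (f : E → ℝ) (x : E) : ‖gradient f x‖ = ‖fderiv ℝ f x‖ := by
  unfold gradient
  exact LinearIsometryEquiv.norm_map _ _

/-- Energy on `C(S)`. -/
def En (ε : ℝ) (u : C(sphere (0 : E) 1, ℝ)) : ℝ := AcE ε (ext u)

lemma En_eq (ε : ℝ) (u : C(sphere (0 : E) 1, ℝ)) :
    En ε u = ∫ y : sphere (0 : E) 1, (ε / 2 * ‖gradient (ext u) (y : E)‖ ^ 2 +
      (1 - u y ^ 2) ^ 2 / (2 * ε)) ∂(sg E) := by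
  unfold En AcE
  congr 1
  funext y
  rw [norm_gradient, ext_coe]

lemma integrable_cont {f : sphere (0 : E) 1 → ℝ} (hf : Continuous f) : Integrable f (sg E) := by
  have := hf.continuousOn (s := univ)
  have h2 := this.integrableOn_compact (μ := (volume : Measure E).toSphere) isCompact_univ
  rwa [integrableOn_univ] at h2

/-- **Energy decrease.** -/
theorem energy_decrease (hG : Res ε lam G) (hε : 0 < ε) (hlam : 4 ≤ lam)
    {u : C(sphere (0 : E) 1, ℝ)} (hu1 : C1 u) (hu : ∀ y, |u y| ≤ 1) :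
    En ε (Psi lam G u) + 2 / ε * ∫ y : sphere (0 : E) 1, (u y - Psi lam G u y) ^ 2 ∂(sg E) ≤ En ε u := by
  set v := Psi lam G u with hv
  have hv1 : C1 v := hG.c1 _
  have hvb : ∀ y, |v y| ≤ 1 := Psi_abs_le hG hlam hu
  have hweak := hG.weak (psiF lam u) (u - v) (hu1.sub hv1)
  change ∫ y : sphere (0 : E) 1, (ε ^ 2 * ⟪gradient (ext v) (y : E),
    gradient (ext (u - v)) (y : E)⟫ + lam * v y * (u - v) y) ∂(sg E) = _ at hweak
  have hgr : ∀ y : sphere (0 : E) 1, gradient (ext (u - v)) (y : E) =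
      gradient (ext u) (y : E) - gradient (ext v) (y : E) := by
    intro y
    unfold gradient
    rw [ext_sub, fderiv_sub (hu1.differentiableAt y) (hv1.differentiableAt y), map_sub]
  have cu := hu1.continuous_gradient
  have cv := hv1.continuous_gradient
  have hI1 : Integrable (fun y : sphere (0 : E) 1 => ε ^ 2 * ⟪gradient (ext v) (y : E),
      gradient (ext (u - v)) (y : E)⟫ + lam * v y * (u - v) y) (sg E) := by
    apply integrable_cont
    exact (continuous_const.mul (cv.inner (hu1.sub hv1).continuous_gradient)).add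
      ((continuous_const.mul v.continuous).mul (u - v).continuous)
  have hI2 : Integrable (fun y : sphere (0 : E) 1 => psiF lam u y * (u - v) y) (sg E) := by
    apply integrable_cont
    exact (psiF lam u).continuous.mul (u - v).continuous
  have hIu : Integrable (fun y : sphere (0 : E) 1 => ε / 2 * ‖gradient (ext u) (y : E)‖ ^ 2 +
      (1 - u y ^ 2) ^ 2 / (2 * ε)) (sg E) := by
    apply integrable_cont
    exact (continuous_const.mul (cu.norm.pow 2)).add
      (((continuous_const.sub (u.continuous.pow 2)).pow 2).div_const _)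
  have hIv : Integrable (fun y : sphere (0 : E) 1 => ε / 2 * ‖gradient (ext v) (y : E)‖ ^ 2 +
      (1 - v y ^ 2) ^ 2 / (2 * ε)) (sg E) := by
    apply integrable_cont
    exact (continuous_const.mul (cv.norm.pow 2)).add
      (((continuous_const.sub (v.continuous.pow 2)).pow 2).div_const _)
  have hId : Integrable (fun y : sphere (0 : E) 1 => (u y - v y) ^ 2) (sg E) := by
    apply integrable_cont
    exact (u.continuous.sub v.continuous).pow 2
  rw [En_eq, En_eq]
  -- pointwise inequality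
  have hpt : ∀ y : sphere (0 : E) 1,
      (ε / 2 * ‖gradient (ext v) (y : E)‖ ^ 2 + (1 - v y ^ 2) ^ 2 / (2 * ε)) +
        2 / ε * (u y - v y) ^ 2 +
        (1 / ε) * ((ε ^ 2 * ⟪gradient (ext v) (y : E), gradient (ext (u - v)) (y : E)⟫ +
          lam * v y * (u - v) y) - psiF lam u y * (u - v) y) ≤
      ε / 2 * ‖gradient (ext u) (y : E)‖ ^ 2 + (1 - u y ^ 2) ^ 2 / (2 * ε) := by
    intro y
    rw [hgr y, psiF_apply, ContinuousMap.sub_apply]
    obtain ⟨hu1', hu2'⟩ := _root_.abs_le.1 (hu y)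
    obtain ⟨hv1', hv2'⟩ := _root_.abs_le.1 (hvb y)
    set a := gradient (ext u) (y : E)
    set b := gradient (ext v) (y : E)
    set s := u y
    set t := v y
    have e1 : ‖a‖ ^ 2 = ‖b‖ ^ 2 + 2 * ⟪b, a - b⟫ + ‖a - b‖ ^ 2 := by
      have := norm_add_sq_real b (a - b)
      rw [add_sub_cancel] at this
      exact this
    have e2 : 0 ≤ ‖a - b‖ ^ 2 := sq_nonneg _
    -- potential inequality
    have key : (1 - t ^ 2) ^ 2 / 2 + 2 * (s - t) ^ 2 + (lam * t * (s - t) -
        ((lam + 2) * s - 2 * (s * (s * s))) * (s - t)) ≤ (1 - s ^ 2) ^ 2 / 2 := by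
      have h3 : (1 - s ^ 2) ^ 2 / 2 - ((1 - t ^ 2) ^ 2 / 2 + 2 * (s - t) ^ 2 + (lam * t * (s - t) -
        ((lam + 2) * s - 2 * (s * (s * s))) * (s - t))) =
        (s - t) ^ 2 * (lam - 4 + (2 - (3 * s ^ 2 + 2 * s * t + t ^ 2 - 2) / 2)) := by ring
      have h4 : 0 ≤ (lam - 4 + (2 - (3 * s ^ 2 + 2 * s * t + t ^ 2 - 2) / 2)) := by
        nlinarith
      have h5 := mul_nonneg (sq_nonneg (s - t)) h4
      linarith
    have e3 : (1 - t ^ 2) ^ 2 / (2 * ε) = (1 / ε) * ((1 - t ^ 2) ^ 2 / 2) := by field_simp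
    have e4 : (1 - s ^ 2) ^ 2 / (2 * ε) = (1 / ε) * ((1 - s ^ 2) ^ 2 / 2) := by field_simp
    have e5 : 2 / ε * (s - t) ^ 2 = (1 / ε) * (2 * (s - t) ^ 2) := by field_simp
    have e6 : (1 / ε) * (ε ^ 2 * ⟪b, a - b⟫ + lam * t * (s - t) -
        ((lam + 2) * s - 2 * (s * (s * s))) * (s - t)) = ε * ⟪b, a - b⟫ +
        (1 / ε) * (lam * t * (s - t) - ((lam + 2) * s - 2 * (s * (s * s))) * (s - t)) := by
      field_simp
      ring
    rw [e3, e4, e5, e6, e1]
    have h6 := mul_le_mul_of_nonneg_left key (one_div_pos.2 hε).le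
    have h7 : 0 ≤ ε / 2 * ‖a - b‖ ^ 2 := by positivity
    nlinarith [h6, h7]
  have h12 : Integrable (fun y : sphere (0 : E) 1 => (ε / 2 * ‖gradient (ext v) (y : E)‖ ^ 2 +
      (1 - v y ^ 2) ^ 2 / (2 * ε)) + 2 / ε * (u y - v y) ^ 2) (sg E) :=
    hIv.add (hId.const_mul (2 / ε))
  have h30 : Integrable (fun y : sphere (0 : E) 1 => (ε ^ 2 * ⟪gradient (ext v) (y : E),
      gradient (ext (u - v)) (y : E)⟫ + lam * v y * (u - v) y) - psiF lam u y * (u - v) y) (sg E) :=
    hI1.sub hI2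
  have h3 : Integrable (fun y : sphere (0 : E) 1 => (1 / ε) * ((ε ^ 2 * ⟪gradient (ext v) (y : E),
      gradient (ext (u - v)) (y : E)⟫ + lam * v y * (u - v) y) - psiF lam u y * (u - v) y)) (sg E) :=
    h30.const_mul (1 / ε)
  have hint : ∫ y : sphere (0 : E) 1, ((ε / 2 * ‖gradient (ext v) (y : E)‖ ^ 2 +
      (1 - v y ^ 2) ^ 2 / (2 * ε)) + 2 / ε * (u y - v y) ^ 2 +
        (1 / ε) * ((ε ^ 2 * ⟪gradient (ext v) (y : E), gradient (ext (u - v)) (y : E)⟫ +
          lam * v y * (u - v) y) - psiF lam u y * (u - v) y)) ∂(sg E) ≤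
      ∫ y : sphere (0 : E) 1, (ε / 2 * ‖gradient (ext u) (y : E)‖ ^ 2 +
        (1 - u y ^ 2) ^ 2 / (2 * ε)) ∂(sg E) := by
    refine integral_mono ?_ hIu hpt
    exact h12.add h3
  rw [integral_add h12 h3, integral_add hIv (hId.const_mul (2 / ε)), integral_const_mul,
    integral_const_mul, integral_sub hI1 hI2, hweak, sub_self, mul_zero, add_zero] at hint
  exact hint

end Crest.Agent.R246.Psi348
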