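import Crest.Agent.R246.Psi1_348
import Mathlib.Topology.UniformSpace.Ascoli
import Mathlib.Topology.MetricSpace.Equicontinuity
import Mathlib.Analysis.Calculus.MeanValue
import Mathlib.Topology.Sequences

/-!
# Existence of the min-max fixed point of `Ψ`
-/

set_option autoImplicit false
set_option linter.unusedSectionVars false
set_option linter.unusedSimpArgs false
noncomputable section
open MeasureTheory Set Filter Topology Metric
open scoped RealInnerProductSpace ContDiff

namespace Crest.Agent.R246.Psi348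

open Fam348

variable {E : Type*} [NormedAddCommGroup E] [InnerProductSpace ℝ E]
variable [FiniteDimensional ℝ E] [MeasurableSpace E] [BorelSpace E]
variable {ε lam : ℝ} {G : C(sphere (0 : E) 1, ℝ) →L[ℝ] C(sphere (0 : E) 1, ℝ)}

/-- the density of the energy of `G f`. -/
lemma continuous_EnG (hG : Res ε lam G) :
    Continuous fun f : C(sphere (0 : E) 1, ℝ) => En ε (G f) := by
  obtain ⟨C, hC0, hC⟩ := hG.grad
  rw [continuous_iff_continuousAt]
  intro f0
  have hder : ∀ f : C(sphere (0 : E) 1, ℝ), ∀ y : sphere (0 : E) 1,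
      ‖fderiv ℝ (ext (G f)) (y : E) - fderiv ℝ (ext (G f0)) (y : E)‖ ≤ C * ‖f - f0‖ := by
    intro f y
    have h1 := hC (f - f0) y
    rw [map_sub, ext_sub, fderiv_sub ((C1.differentiableAt (hG.c1 f) y))
      ((C1.differentiableAt (hG.c1 f0) y))] at h1
    exact h1
  have hGn : ∀ f : C(sphere (0 : E) 1, ℝ), ∀ y, |G f y| ≤ ‖G‖ * ‖f‖ := by
    intro f y
    have h1 := ContinuousMap.norm_coe_le_norm (G f) y
    exact h1.trans (G.le_opNorm f)
  unfold En AcE
  refine continuousAt_of_dominated
    (bound := fun _ => |ε / 2| * (C * (‖f0‖ + 1)) ^ 2 + (1 + (‖G‖ * (‖f0‖ + 1)) ^ 2) ^ 2 / |2 * ε|)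
    ?_ ?_ (integrable_const _) ?_
  · refine Filter.Eventually.of_forall fun f => ?_
    have c1 : Continuous fun y : sphere (0 : E) 1 => ε / 2 * ‖fderiv ℝ (ext (G f)) (y : E)‖ ^ 2 +
        (1 - (ext (G f)) (y : E) ^ 2) ^ 2 / (2 * ε) := by
      have h2 := (C1.continuous_fderiv (hG.c1 f))
      have h3 : (fun y : sphere (0 : E) 1 => (ext (G f)) (y : E)) = fun y => G f y := by
        funext y; exact ext_coe _ y
      have h4 : Continuous fun y : sphere (0 : E) 1 => (ext (G f)) (y : E) := by
        rw [h3]; exact (G f).continuous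
      exact (continuous_const.mul (h2.norm.pow 2)).add
        (((continuous_const.sub (h4.pow 2)).pow 2).div_const _)
    exact c1.aestronglyMeasurable
  · have h5 : ∀ᶠ f in 𝓝 f0, ‖f‖ < ‖f0‖ + 1 :=
      (continuous_norm.tendsto f0).eventually_lt_const (by linarith)
    filter_upwards [h5] with f hf
    refine Filter.Eventually.of_forall fun y => ?_
    have h6 : ‖fderiv ℝ (ext (G f)) (y : E)‖ ≤ C * (‖f0‖ + 1) :=
      (hC f y).trans (mul_le_mul_of_nonneg_left hf.le hC0)
    have h7 : |ext (G f) (y : E)| ≤ ‖G‖ * (‖f0‖ + 1) := by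
      rw [ext_coe]
      exact (hGn f y).trans (mul_le_mul_of_nonneg_left hf.le (ContinuousLinearMap.opNorm_nonneg G))
    have h8 : ext (G f) (y : E) ^ 2 ≤ (‖G‖ * (‖f0‖ + 1)) ^ 2 := by
      rw [← sq_abs]
      exact pow_le_pow_left₀ (abs_nonneg _) h7 2
    have h9 : |1 - ext (G f) (y : E) ^ 2| ≤ 1 + (‖G‖ * (‖f0‖ + 1)) ^ 2 := by
      rw [abs_le]; constructor <;> nlinarith [sq_nonneg (ext (G f) (y : E))]
    rw [Real.norm_eq_abs]
    refine (abs_add_le _ _).trans (add_le_add ?_ ?_)
    · rw [abs_mul, abs_of_nonneg (sq_nonneg ‖fderiv ℝ (ext (G f)) (y : E)‖)]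
      exact mul_le_mul_of_nonneg_left (pow_le_pow_left₀ (norm_nonneg _) h6 2) (abs_nonneg _)
    · rw [abs_div, abs_pow]
      exact div_le_div_of_nonneg_right (pow_le_pow_left₀ (abs_nonneg _) h9 2) (abs_nonneg _)
  · refine Filter.Eventually.of_forall fun y => ?_
    have h10 : ContinuousAt (fun f : C(sphere (0 : E) 1, ℝ) => fderiv ℝ (ext (G f)) (y : E)) f0 := by
      rw [ContinuousAt, tendsto_iff_norm_sub_tendsto_zero]
      have h11 : Tendsto (fun f : C(sphere (0 : E) 1, ℝ) => C * ‖f - f0‖) (𝓝 f0) (𝓝 0) := by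
        have hc : Continuous fun f : C(sphere (0 : E) 1, ℝ) => C * ‖f - f0‖ :=
          continuous_const.mul (continuous_id.sub continuous_const).norm
        have := hc.tendsto f0
        simpa using this
      exact squeeze_zero (fun f => norm_nonneg _) (fun f => hder f y) h11
    have h12 : ContinuousAt (fun f : C(sphere (0 : E) 1, ℝ) => ext (G f) (y : E)) f0 := by
      have : (fun f : C(sphere (0 : E) 1, ℝ) => ext (G f) (y : E)) = fun f => G f y := by
        funext f; exact ext_coe _ y
      rw [this]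
      exact ((continuous_eval_const y).comp G.continuous).continuousAt
    exact (continuousAt_const.mul (h10.norm.pow 2)).add
      (((continuousAt_const.sub (h12.pow 2)).pow 2).div_const _)

/-- Arzelà-Ascoli for uniformly Lipschitz bounded functions. -/
lemma isCompact_lip {X : Type*} [MetricSpace X] [CompactSpace X] (M K : ℝ) :
    IsCompact {f : C(X, ℝ) | (∀ x, |f x| ≤ M) ∧ ∀ x y, |f x - f y| ≤ K * dist x y} := by
  apply ArzelaAscoli.isCompact_of_equicontinuous
  · have himg : ContinuousMap.toFun '' {f : C(X, ℝ) | (∀ x, |f x| ≤ M) ∧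
        ∀ x y, |f x - f y| ≤ K * dist x y} =
        {g : X → ℝ | (∀ x, g x ∈ Icc (-M) M) ∧ ∀ x y, |g x - g y| ≤ K * dist x y} := by
      ext g
      constructor
      · rintro ⟨f, ⟨h1, h2⟩, rfl⟩
        exact ⟨fun x => abs_le.1 (h1 x), h2⟩
      · rintro ⟨h1, h2⟩
        have hc : Continuous g := by
          refine (LipschitzWith.of_dist_le_mul (K := (max K 0).toNNReal) fun x y => ?_).continuous
          rw [Real.dist_eq, Real.coe_toNNReal _ (le_max_right _ _)]
          exact (h2 x y).trans (mul_le_mul_of_nonneg_right (le_max_left _ _) dist_nonneg)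
        exact ⟨⟨g, hc⟩, ⟨fun x => abs_le.2 (h1 x), h2⟩, rfl⟩
    rw [himg]
    have hcomp : IsCompact {g : X → ℝ | ∀ x, g x ∈ Icc (-M) M} :=
      isCompact_pi_infinite fun _ => isCompact_Icc
    have hcl : IsClosed {g : X → ℝ | ∀ x y, |g x - g y| ≤ K * dist x y} := by
      simp only [ofPred_forall]
      refine isClosed_iInter fun x => isClosed_iInter fun y => ?_
      exact isClosed_le ((continuous_apply x).sub (continuous_apply y)).abs continuous_const
    exact hcomp.inter_right hcl
  · refine Metric.equicontinuous_of_continuity_modulus (fun t => K * t) ?_ _ ?_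
    · have : Continuous fun t : ℝ => K * t := continuous_const.mul continuous_id
      simpa using this.tendsto 0
    · intro x y f
      rw [Real.dist_eq]
      exact f.2.2 x y

/-- gradient of a `0`-homogeneous function -/
lemma norm_fderiv_ext {u : C(sphere (0 : E) 1, ℝ)} (hu : C1 u) {x : E} (hx : x ≠ 0) :
    ‖fderiv ℝ (ext u) x‖ = ‖x‖⁻¹ * ‖fderiv ℝ (ext u) (nz x hx : E)‖ := by
  have hn : 0 < ‖x‖⁻¹ := inv_pos.2 (norm_pos_iff.2 hx)
  have h1 : (fun z : E => ext u (‖x‖⁻¹ • z)) = ext u := by
    funext z; exact ext_smul u hn z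
  have h2 : HasFDerivAt (fun z : E => ext u (‖x‖⁻¹ • z))
      ((fderiv ℝ (ext u) (nz x hx : E)).comp (‖x‖⁻¹ • ContinuousLinearMap.id ℝ E)) x := by
    have h3 : HasFDerivAt (fun z : E => ‖x‖⁻¹ • z) (‖x‖⁻¹ • ContinuousLinearMap.id ℝ E) x :=
      (hasFDerivAt_id x).const_smul _
    exact HasFDerivAt.comp x (g := ext u) (hu.differentiableAt (nz x hx)).hasFDerivAt h3
  rw [h1] at h2
  rw [h2.fderiv, ContinuousLinearMap.comp_smul, ContinuousLinearMap.comp_id, norm_smul,
    Real.norm_eq_abs, abs_of_pos hn]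

/-- Lipschitz bound on the sphere from the gradient bound. -/
lemma lip_of_grad {u : C(sphere (0 : E) 1, ℝ)} (hu : C1 u) {D M : ℝ} (hD : 0 ≤ D) (hM : 0 ≤ M)
    (hgrad : ∀ y : sphere (0 : E) 1, ‖fderiv ℝ (ext u) (y : E)‖ ≤ D)
    (hsup : ∀ y : sphere (0 : E) 1, |u y| ≤ M) (x y : sphere (0 : E) 1) :
    |u x - u y| ≤ (2 * D + 2 * M) * dist x y := by
  by_cases hxy : dist x y ≤ 1
  · have hxy' : ‖(x : E) - y‖ ≤ 1 := by rwa [← dist_eq_norm]
    have hseg : ∀ z ∈ segment ℝ (x : E) (y : E), 1 / 2 ≤ ‖z‖ := by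
      rintro z ⟨a, b, ha, hb, hab, rfl⟩
      have e1 : a • (x : E) + b • (y : E) = (x : E) - b • ((x : E) - y) := by
        have : a = 1 - b := by linarith
        rw [this, sub_smul, one_smul, smul_sub]; abel
      have e2 : a • (x : E) + b • (y : E) = (y : E) + a • ((x : E) - y) := by
        have : b = 1 - a := by linarith
        rw [this, sub_smul, one_smul, smul_sub]; abel
      have hx1 : ‖(x : E)‖ = 1 := by simp
      have hy1 : ‖(y : E)‖ = 1 := by simp
      rcases le_total b (1 / 2) with h | h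
      · rw [e1]
        have h2 := norm_sub_norm_le (x : E) (b • ((x : E) - y))
        have h3 : ‖b • ((x : E) - y)‖ ≤ 1 / 2 := by
          rw [norm_smul, Real.norm_eq_abs, abs_of_nonneg hb]
          nlinarith [norm_nonneg ((x : E) - y)]
        linarith
      · rw [e2]
        have h2 := norm_sub_norm_le (y : E) (-(a • ((x : E) - y)))
        rw [sub_neg_eq_add, norm_neg] at h2
        have h3 : ‖a • ((x : E) - y)‖ ≤ 1 / 2 := by
          rw [norm_smul, Real.norm_eq_abs, abs_of_nonneg ha]
          nlinarith [norm_nonneg ((x : E) - y)]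
        linarith
    have hne : ∀ z ∈ segment ℝ (x : E) (y : E), z ≠ 0 := by
      intro z hz h0
      have := hseg z hz
      rw [h0, norm_zero] at this
      norm_num at this
    have h4 := (convex_segment (𝕜 := ℝ) (x : E) (y : E)).norm_image_sub_le_of_norm_fderiv_le
      (𝕜 := ℝ) (f := ext u) (C := 2 * D)
      (fun z hz => (hu.contDiffAt (isOpen_compl.mem_nhds (hne z hz))).differentiableAt one_ne_zero)
      (fun z hz => by
        rw [norm_fderiv_ext hu (hne z hz)]
        have h5 := hseg z hz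
        have h6 : ‖z‖⁻¹ ≤ 2 := by
          rw [inv_le_comm₀ (by linarith) (by norm_num)]; linarith
        exact mul_le_mul h6 (hgrad _) (norm_nonneg _) (by norm_num))
      (right_mem_segment ℝ (x : E) (y : E)) (left_mem_segment ℝ (x : E) (y : E))
    rw [ext_coe, ext_coe, Real.norm_eq_abs, ← dist_eq_norm] at h4
    have h7 : dist (x : E) (y : E) = dist x y := rfl
    rw [h7] at h4
    have h8 : 0 ≤ 2 * M * dist x y := by positivity
    linarith
  · rw [not_le] at hxy
    have h1 := hsup x
    have h2 := hsup y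
    have h3 : |u x - u y| ≤ 2 * M := by
      have := abs_sub (u x) (u y)
      linarith
    have h4 : 2 * M ≤ 2 * M * dist x y := by nlinarith
    have h5 : 0 ≤ 2 * D * dist x y := by positivity
    linarith

/-- The images `G f` with `|f| ≤ lam` lie in a compact set. -/
lemma exists_compact (hG : Res ε lam G) (hlam : 0 < lam) :
    ∃ K : Set C(sphere (0 : E) 1, ℝ), IsCompact K ∧
      ∀ f : C(sphere (0 : E) 1, ℝ), (∀ y, |f y| ≤ lam) → G f ∈ K := by
  obtain ⟨C, hC0, hC⟩ := hG.grad
  refine ⟨_, isCompact_lip 1 (2 * (C * lam) + 2 * 1), fun f hf => ?_⟩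
  have hfn : ‖f‖ ≤ lam := (ContinuousMap.norm_le f hlam.le).2 hf
  refine ⟨hG.abs_le hlam hf, ?_⟩
  exact lip_of_grad (hG.c1 f) (by positivity) (by norm_num)
    (fun y => (hC f y).trans (mul_le_mul_of_nonneg_left hfn hC0)) (hG.abs_le hlam hf)

end Crest.Agent.R246.Psi348
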