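import Crest.Agent.R246.Psi2_348

/-!
# Min-max fixed point of `Ψ` for an arbitrary odd family
-/

set_option autoImplicit false
set_option linter.unusedSectionVars false
set_option linter.unusedSimpArgs false
noncomputable section
open MeasureTheory Set Filter Topology Metric
open scoped RealInnerProductSpace ContDiff

namespace Crest.Agent.R246.Psi348

open Fam348

variable {E : Type*} [NormedAddCommGroup E] [InnerProductSpace ℝ E]
variable [FiniteDimensional ℝ E] [MeasurableSpace E] [BorelSpace E]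
variable {ε lam : ℝ} {G : C(sphere (0 : E) 1, ℝ) →L[ℝ] C(sphere (0 : E) 1, ℝ)}

lemma continuous_EnPsi (hG : Res ε lam G) :
    Continuous fun u : C(sphere (0 : E) 1, ℝ) => En ε (Psi lam G u) :=
  (continuous_EnG hG).comp (continuous_psiF lam)

/-- restriction of an admissible function -/
def restr (w : E → ℝ) (hw : Adm w) : C(sphere (0 : E) 1, ℝ) :=
  ⟨fun y => w y, by
    have := hw.smooth.continuousOn
    exact this.comp_continuous continuous_subtype_val fun y => coe_ne_zero y⟩

lemma ext_restr {w : E → ℝ} (hw : Adm w) {x : E} (hx : x ≠ 0) : ext (restr w hw) x = w x := by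
  rw [ext_of_ne _ hx]
  show w (‖x‖⁻¹ • x) = w x
  exact hw.hom _ (inv_pos.2 (norm_pos_iff.2 hx)) x

lemma C1_restr {w : E → ℝ} (hw : Adm w) : C1 (restr w hw) := by
  unfold C1
  refine (hw.smooth.of_le (by exact_mod_cast le_top)).congr fun x hx => ?_
  exact ext_restr hw hx

lemma En_restr {w : E → ℝ} (hw : Adm w) : En ε (restr w hw) = AcE ε w := by
  unfold En AcE
  congr 1
  funext y
  have h1 : ext (restr w hw) =ᶠ[𝓝 (y : E)] w := by
    filter_upwards [isOpen_compl.mem_nhds (coe_ne_zero y)] with x hx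
    exact ext_restr hw hx
  rw [h1.fderiv_eq, h1.eq_of_nhds]

/-- If two continuous functions have `∫ (f-g)² = 0` they are equal. -/
lemma eq_of_integral_sq (f g : C(sphere (0 : E) 1, ℝ))
    (h : ∫ y : sphere (0 : E) 1, (f y - g y) ^ 2 ∂(sg E) = 0) : f = g := by
  have hcont : Continuous fun y : sphere (0 : E) 1 => (f y - g y) ^ 2 :=
    (f.continuous.sub g.continuous).pow 2
  have h1 := (integral_eq_zero_iff_of_nonneg (μ := sg E)
    (fun y => sq_nonneg (f y - g y)) (integrable_cont hcont)).1 h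
  have h2 : (fun y : sphere (0 : E) 1 => (f y - g y) ^ 2) = fun _ => 0 :=
    Measure.eq_of_ae_eq h1 hcont continuous_const
  ext y
  have h3 : (f y - g y) ^ 2 = 0 := congrFun h2 y
  have := pow_eq_zero_iff (two_ne_zero) |>.1 h3
  linarith

/-- **Min-max fixed point** for an arbitrary (compact) parameter space with involution. -/
theorem exists_fixed (hG : Res ε lam G) (hε : 0 < ε) (hlam : 4 ≤ lam)
    {P : Type*} [TopologicalSpace P] [CompactSpace P] [Nonempty P] (ν : P → P)
    (U : C(P, C(sphere (0 : E) 1, ℝ))) (hodd : ∀ p, U (ν p) = - U p)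
    (hU : ∀ p y, |U p y| ≤ 1) {A B : ℝ}
    (happ : ∀ p, ∀ δ > 0, ∃ w : E → ℝ, Adm w ∧ (∀ y : sphere (0 : E) 1, |w y - U p y| ≤ δ) ∧
      AcE ε w ≤ A + δ)
    (hB : ∀ V : C(P, C(sphere (0 : E) 1, ℝ)), (∀ p, V (ν p) = - V p) →
      (∀ p y, |V p y| ≤ 1) → (∀ p, C1 (V p)) → (∀ p, En ε (V p) ≤ A) →
      ∃ p, B ≤ En ε (V p)) :
    ∃ u : C(sphere (0 : E) 1, ℝ), (∀ y, |u y| ≤ 1) ∧ Psi lam G u = u ∧
      B ≤ En ε u ∧ En ε u ≤ A := by
  have hEP := continuous_EnPsi hG
  -- the iterated family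
  let V : ℕ → C(P, C(sphere (0 : E) 1, ℝ)) := fun j =>
    Nat.rec U (fun _ W => ⟨fun p => Psi lam G (W p), continuous_Psi.comp W.continuous⟩) j
  have V0 : V 0 = U := rfl
  have Vs : ∀ j p, V (j + 1) p = Psi lam G (V j p) := fun j p => rfl
  have Vodd : ∀ j p, V j (ν p) = - V j p := by
    intro j
    induction j with
    | zero => exact hodd
    | succ j ih => intro p; rw [Vs, Vs, ih, Psi_neg]
  have Vbd : ∀ j p y, |V j p y| ≤ 1 := by
    intro j
    induction j with
    | zero => exact hU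
    | succ j ih => intro p y; rw [Vs]; exact Psi_abs_le hG hlam (ih p) y
  have VC1 : ∀ j p, C1 (V (j + 1) p) := fun j p => by rw [Vs]; exact hG.c1 _
  -- energies
  have ec : ∀ j, Continuous fun p => En ε (V (j + 1) p) := fun j => hEP.comp (V j).continuous
  have hmax : ∀ j, ∃ q, ∀ p, En ε (V (j + 1) p) ≤ En ε (V (j + 1) q) := by
    intro j
    obtain ⟨q, -, hq⟩ := isCompact_univ.exists_isMaxOn univ_nonempty (ec j).continuousOn
    exact ⟨q, fun p => hq (mem_univ p)⟩
  choose q hq using hmax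
  set a : ℕ → ℝ := fun j => En ε (V (j + 1) (q j)) with ha
  have hdec : ∀ j p, En ε (V (j + 2) p) + 2 / ε *
      ∫ y : sphere (0 : E) 1, (V (j + 1) p y - V (j + 2) p y) ^ 2 ∂(sg E) ≤ En ε (V (j + 1) p) := by
    intro j p
    exact energy_decrease hG hε hlam (VC1 j p) (Vbd (j + 1) p)
  have hnn : ∀ j p, 0 ≤ 2 / ε *
      ∫ y : sphere (0 : E) 1, (V (j + 1) p y - V (j + 2) p y) ^ 2 ∂(sg E) := by
    intro j p
    have : 0 ≤ ∫ y : sphere (0 : E) 1, (V (j + 1) p y - V (j + 2) p y) ^ 2 ∂(sg E) :=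
      integral_nonneg fun y => sq_nonneg _
    positivity
  have V1A : ∀ p0, En ε (V 1 p0) ≤ A := by
    intro p0
    rw [show V 1 p0 = Psi lam G (U p0) from rfl]
    have hap : ∀ n : ℕ, ∃ w : E → ℝ, ∃ hw : Adm w, (∀ y : sphere (0 : E) 1,
        |w y - U p0 y| ≤ 1 / ((n : ℝ) + 1)) ∧ AcE ε w ≤ A + 1 / ((n : ℝ) + 1) := by
      intro n
      obtain ⟨w, hw, h1, h2⟩ := happ p0 (1 / ((n : ℝ) + 1)) (by positivity)
      exact ⟨w, hw, h1, h2⟩
    choose w hw hw1 hw2 using hap
    have hlim : Tendsto (fun n => restr (w n) (hw n)) atTop (𝓝 (U p0)) := by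
      rw [tendsto_iff_dist_tendsto_zero]
      refine squeeze_zero (fun n => dist_nonneg) (fun n => ?_)
        (tendsto_one_div_add_atTop_nhds_zero_nat (𝕜 := ℝ))
      rw [ContinuousMap.dist_le (by positivity)]
      intro y
      rw [Real.dist_eq]
      exact hw1 n y
    have hle : ∀ n, En ε (Psi lam G (restr (w n) (hw n))) ≤ A + 1 / ((n : ℝ) + 1) := by
      intro n
      have h1 := energy_decrease hG hε hlam (C1_restr (hw n)) (fun y => (hw n).bd y)
      have h2 : 0 ≤ 2 / ε * ∫ y : sphere (0 : E) 1,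
          (restr (w n) (hw n) y - Psi lam G (restr (w n) (hw n)) y) ^ 2 ∂(sg E) := by
        have : 0 ≤ ∫ y : sphere (0 : E) 1,
          (restr (w n) (hw n) y - Psi lam G (restr (w n) (hw n)) y) ^ 2 ∂(sg E) :=
          integral_nonneg fun y => sq_nonneg _
        positivity
      rw [En_restr] at h1
      have := hw2 n
      linarith
    have hl1 := (hEP.tendsto (U p0)).comp hlim
    have hl2 : Tendsto (fun n : ℕ => A + 1 / ((n : ℝ) + 1)) atTop (𝓝 (A + 0)) :=
      tendsto_const_nhds.add (tendsto_one_div_add_atTop_nhds_zero_nat (𝕜 := ℝ))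
    rw [add_zero] at hl2
    exact le_of_tendsto_of_tendsto' hl1 hl2 hle
  have VA : ∀ j p, En ε (V (j + 1) p) ≤ A := by
    intro j
    induction j with
    | zero => exact V1A
    | succ j ih =>
      intro p
      have h1 := hdec j p
      have h2 := hnn j p
      have h3 := ih p
      show En ε (V (j + 2) p) ≤ A
      linarith
  have aB : ∀ j, B ≤ a j := by
    intro j
    obtain ⟨p, hp⟩ := hB (V (j + 1)) (Vodd (j + 1)) (Vbd (j + 1)) (VC1 j) (VA j)
    exact hp.trans (hq j p)
  have amono : Antitone a := by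
    refine antitone_nat_of_succ_le fun j => ?_
    have h1 := hdec j (q (j + 1))
    have h2 := hnn j (q (j + 1))
    have h3 := hq j (q (j + 1))
    show En ε (V (j + 2) (q (j + 1))) ≤ En ε (V (j + 1) (q j))
    linarith
  -- limit of `a`
  have abdd : BddBelow (range a) := ⟨B, by rintro _ ⟨j, rfl⟩; exact aB j⟩
  have alim := tendsto_atTop_ciInf amono abdd
  set L := ⨅ j, a j with hL
  have LB : B ≤ L := le_ciInf aB
  have LA : L ≤ A := (ciInf_le abdd 0).trans (VA 0 (q 0))
  -- the sequence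
  obtain ⟨K, hK, hKG⟩ := exists_compact hG (by linarith : 0 < lam)
  have hmem : ∀ j, V (j + 1) (q (j + 1)) ∈ K := by
    intro j
    rw [Vs]
    exact hKG _ (psiF_abs_le hlam (Vbd j _))
  obtain ⟨w, hwK, φ, hφ, hw⟩ := hK.tendsto_subseq hmem
  have hwbd : ∀ y, |w y| ≤ 1 := by
    intro y
    have h1 : Tendsto (fun k => |V (φ k + 1) (q (φ k + 1)) y|) atTop (𝓝 |w y|) :=
      (((continuous_eval_const y).tendsto w).comp hw).abs
    exact le_of_tendsto' h1 fun k => Vbd (φ k + 1) (q (φ k + 1)) y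
  have a1lim : Tendsto (fun k => a (φ k + 1)) atTop (𝓝 L) :=
    (((tendsto_add_atTop_iff_nat 1).2 alim)).comp hφ.tendsto_atTop
  have a0lim : Tendsto (fun k => a (φ k)) atTop (𝓝 L) := alim.comp hφ.tendsto_atTop
  -- energy of the limit
  have hE : En ε (Psi lam G w) = L := by
    have h1 := (hEP.tendsto w).comp hw
    exact tendsto_nhds_unique h1 a1lim
  -- fixed point
  have hint : ∫ y : sphere (0 : E) 1, (w y - Psi lam G w y) ^ 2 ∂(sg E) = 0 := by
    have hcI : Continuous fun f : C(sphere (0 : E) 1, ℝ) =>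
        ∫ y : sphere (0 : E) 1, f y ∂(sg E) := by
      refine (LipschitzWith.of_dist_le_mul (K := ((sg E).real univ).toNNReal)
        fun f g => ?_).continuous
      rw [Real.coe_toNNReal _ measureReal_nonneg, Real.dist_eq,
        ← integral_sub (integrable_cont f.continuous) (integrable_cont g.continuous), mul_comm]
      have hb : ∀ᵐ y ∂(sg E), ‖f y - g y‖ ≤ dist f g := by
        refine Filter.Eventually.of_forall fun y => ?_
        rw [← dist_eq_norm]
        exact ContinuousMap.dist_apply_le_dist y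
      exact norm_integral_le_of_norm_le_const (μ := sg E) hb
    have hc2 : Continuous fun u : C(sphere (0 : E) 1, ℝ) =>
        ∫ y : sphere (0 : E) 1, (u y - Psi lam G u y) ^ 2 ∂(sg E) := by
      have h4 : Continuous fun u : C(sphere (0 : E) 1, ℝ) => (u - Psi lam G u) * (u - Psi lam G u) := by
        have h5 : Continuous fun u : C(sphere (0 : E) 1, ℝ) => u - Psi lam G u :=
          continuous_id.sub continuous_Psi
        exact h5.mul h5
      refine (hcI.comp h4).congr fun u => ?_
      simp only [Function.comp]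
      congr 1
      funext y
      simp only [ContinuousMap.mul_apply, ContinuousMap.sub_apply]
      ring
    have h6 := (hc2.tendsto w).comp hw
    have h7 : Tendsto (fun k => ε / 2 * (a (φ k) - a (φ k + 1))) atTop (𝓝 (ε / 2 * (L - L))) :=
      (a0lim.sub a1lim).const_mul _
    rw [sub_self, mul_zero] at h7
    refine le_antisymm ?_ (integral_nonneg fun y => sq_nonneg _)
    refine le_of_tendsto_of_tendsto' h6 h7 fun k => ?_
    simp only [Function.comp]
    have h8 := hdec (φ k) (q (φ k + 1))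
    have h9 := hq (φ k) (q (φ k + 1))
    have h10 : 2 / ε * ∫ y : sphere (0 : E) 1, (V (φ k + 1) (q (φ k + 1)) y -
        V (φ k + 2) (q (φ k + 1)) y) ^ 2 ∂(sg E) ≤ a (φ k) - a (φ k + 1) := by
      show _ ≤ En ε (V (φ k + 1) (q (φ k))) - En ε (V (φ k + 2) (q (φ k + 1)))
      linarith
    rw [div_mul_eq_mul_div, div_le_iff₀ hε] at h10
    have h11 : ∫ y : sphere (0 : E) 1, (V (φ k + 1) (q (φ k + 1)) y -
        Psi lam G (V (φ k + 1) (q (φ k + 1))) y) ^ 2 ∂(sg E) =
        ∫ y : sphere (0 : E) 1, (V (φ k + 1) (q (φ k + 1)) y -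
        V (φ k + 2) (q (φ k + 1)) y) ^ 2 ∂(sg E) := rfl
    rw [h11]
    linarith
  have hfix : w = Psi lam G w := eq_of_integral_sq _ _ hint
  refine ⟨w, hwbd, hfix.symm, ?_, ?_⟩
  · rw [hfix, hE]; exact LB
  · rw [hfix, hE]; exact LA

end Crest.Agent.R246.Psi348
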