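import Crest.Agent.R246.Lim2_538
import Crest.Agent.R246.VbVar_872
import Crest.Agent.R097.IBP

/-!
# Row 246, block E3 (helper872): the ε-level VAR inequality for Lipschitz test functions (refined)
-/

set_option autoImplicit false
set_option linter.unusedSectionVars false
noncomputable section
open MeasureTheory Set Filter Topology
open scoped RealInnerProductSpace ENNReal NNReal ContDiff
open Crest.GeometryTopology.CoordMetric Crest.GeometryTopology.AffineMaximal
open Crest.Agent.R236.Jet Crest.Agent.R246.D2x782 Crest.Agent.R246.Lim538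
open Crest.Agent.R246.G873 (gi)

namespace Crest.Agent.R246.Vb872

variable {n : ℕ}

local notation "EE" => EuclideanSpace ℝ (Fin n)

variable {U : Set (EuclideanSpace ℝ (Fin n))} {h r : EuclideanSpace ℝ (Fin n) → ℝ} {ε : ℝ}
  {ζ η : EuclideanSpace ℝ (Fin n) → ℝ}

/-- Lipschitz cut-off with compact support in `U` -/
structure LCut (U : Set (EuclideanSpace ℝ (Fin n))) (ζ : EuclideanSpace ℝ (Fin n) → ℝ) : Prop where
  lip : ∃ C : ℝ≥0, LipschitzWith C ζ
  cs : HasCompactSupport ζ
  sub : tsupport ζ ⊆ U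

lemma pderiv_zero_of_notMem {x : EE} (hx : x ∉ tsupport ζ) (i : Fin n) : pderiv i ζ x = 0 := by
  have h0 : ζ =ᶠ[𝓝 x] fun _ => 0 := by
    rw [notMem_tsupport_iff_eventuallyEq] at hx
    exact hx
  unfold pderiv
  rw [h0.fderiv_eq]; simp

lemma dot_zero_of_notMem (f : EE → ℝ) {x : EE} (hx : x ∉ tsupport ζ) : dot f ζ x = 0 := by
  unfold dot
  exact Finset.sum_eq_zero fun i _ => by rw [pderiv_zero_of_notMem hx, mul_zero]

lemma measurable_pderiv (i : Fin n) (f : EE → ℝ) : Measurable fun x => pderiv i f x := by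
  unfold pderiv
  exact measurable_fderiv_apply_const ℝ f _

lemma abs_pderiv_le {C : ℝ≥0} (hζ : LipschitzWith C ζ) (i : Fin n) (x : EE) :
    |pderiv i ζ x| ≤ C := by
  unfold pderiv
  have h1 := ContinuousLinearMap.le_opNorm (fderiv ℝ ζ x) (EuclideanSpace.single i (1 : ℝ))
  have h2 := norm_fderiv_le_of_lipschitz ℝ hζ (x₀ := x)
  have h3 : ‖(EuclideanSpace.single i (1 : ℝ) : EE)‖ = 1 := by simp
  rw [h3, mul_one] at h1
  exact h1.trans h2

lemma gi_eq_dot (f g : EE → ℝ) (x : EE) : gi f g x = dot f g x := by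
  unfold gi
  have hp : ∀ (f : EE → ℝ) (i : Fin n), (gradient f x) i = pderiv i f x := by
    intro f i
    unfold pderiv
    have h1 : fderiv ℝ f x (EuclideanSpace.single i 1) =
        inner ℝ (gradient f x) (EuclideanSpace.single i (1 : ℝ)) := by
      unfold gradient
      rw [InnerProductSpace.toDual_symm_apply]
    rw [h1, EuclideanSpace.inner_single_right]
    simp
  rw [PiLp.inner_apply]
  unfold dot
  refine Finset.sum_congr rfl fun i _ => ?_
  rw [hp f i, hp g i]
  simp [mul_comm]

/-- a measurable function bounded on the support of a cut-off gives an integrable product -/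
lemma integrable_mul_pderiv {F : EE → ℝ} (_hU : IsOpen U) (hF : ContinuousOn F U) (hζ : LCut U ζ)
    (i : Fin n) : Integrable fun x => F x * pderiv i ζ x := by
  obtain ⟨C, hC⟩ := hζ.lip
  obtain ⟨M, hM⟩ := (hζ.cs.isCompact).exists_bound_of_continuousOn (hF.mono hζ.sub)
  have hm : AEStronglyMeasurable (fun x => F x * pderiv i ζ x)
      (volume.restrict (tsupport ζ)) :=
    ((hF.mono hζ.sub).aestronglyMeasurable (isClosed_tsupport ζ).measurableSet).mul
      (measurable_pderiv i ζ).aestronglyMeasurable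
  have h1 : IntegrableOn (fun x => F x * pderiv i ζ x) (tsupport ζ) := by
    refine Integrable.mono' (g := fun _ => M * C)
      (by
        have : IsFiniteMeasure (volume.restrict (tsupport ζ)) :=
          ⟨by rw [Measure.restrict_apply_univ]; exact hζ.cs.isCompact.measure_lt_top⟩
        exact integrable_const _) hm ?_
    filter_upwards [ae_restrict_mem (isClosed_tsupport ζ).measurableSet] with x hx
    rw [norm_mul]
    exact mul_le_mul (hM x hx) (abs_pderiv_le hC i x) (norm_nonneg _)
      ((norm_nonneg _).trans (hM x hx))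
  refine (integrableOn_iff_integrable_of_support_subset fun x hx => ?_).1 h1
  by_contra hx'
  apply hx
  rw [pderiv_zero_of_notMem hx', mul_zero]

lemma LCut.cont (hζ : LCut U ζ) : Continuous ζ := by
  obtain ⟨C, hC⟩ := hζ.lip
  exact hC.continuous

lemma LCut.zero_out (hζ : LCut U ζ) {x : EE} (hx : x ∉ U) : ζ x = 0 :=
  image_eq_zero_of_notMem_tsupport fun h' => hx (hζ.sub h')

/-- global extension near a compact set (as in `R097/HarmWeyl`) -/
lemma exists_ext1 {U : Set EE} (hU : IsOpen U) {v : EE → ℝ} (hv : ContDiffOn ℝ 1 v U) {S : Set EE}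
    (hS : IsCompact S) (hSU : S ⊆ U) :
    ∃ g : EE → ℝ, ContDiff ℝ 1 g ∧ ∀ x ∈ S, g =ᶠ[𝓝 x] v := by
  obtain ⟨χ, hχ, hχc, hχU, -, hχ1⟩ := Crest.Agent.R097.exists_cutoff hS hU hSU
  refine ⟨fun y => χ y * v y, ?_, ?_⟩
  · rw [contDiff_iff_contDiffAt]
    intro y
    by_cases hy : y ∈ U
    · exact (hχ.of_le (by exact_mod_cast le_top)).contDiffAt.mul (hv.contDiffAt (hU.mem_nhds hy))
    · have hy2 : y ∉ tsupport χ := fun hcon => hy (hχU hcon)
      have h0 : (fun y => χ y * v y) =ᶠ[𝓝 y] fun _ => (0:ℝ) := by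
        filter_upwards [(isClosed_tsupport χ).isOpen_compl.mem_nhds hy2] with z hz
        rw [image_eq_zero_of_notMem_tsupport hz, zero_mul]
      exact contDiffAt_const.congr_of_eventuallyEq h0
  · intro x hx
    filter_upwards [hχ1 x hx] with y hy
    rw [hy, one_mul]

/-- integration by parts against a Lipschitz cut-off -/
theorem ibp_lip (hU : IsOpen U) {F : EE → ℝ} (hF : ContDiffOn ℝ 1 F U) (hζ : LCut U ζ)
    (i : Fin n) : ∫ x, F x * pderiv i ζ x = - ∫ x, pderiv i F x * ζ x := by
  obtain ⟨C, hC⟩ := hζ.lip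
  obtain ⟨G, hG, hGv⟩ := exists_ext1 hU hF hζ.cs.isCompact hζ.sub
  have h1 := Crest.Agent.R097.ibp1 hG hC hζ.cs (EuclideanSpace.single i (1 : ℝ))
  have e1 : ∀ x, F x * pderiv i ζ x = G x * fderiv ℝ ζ x (EuclideanSpace.single i (1 : ℝ)) := by
    intro x
    by_cases hx : x ∈ tsupport ζ
    · rw [(hGv x hx).eq_of_nhds]; rfl
    · have := pderiv_zero_of_notMem hx i
      rw [this, mul_zero]
      unfold pderiv at this
      rw [this, mul_zero]
  have e2 : ∀ x, pderiv i F x * ζ x = fderiv ℝ G x (EuclideanSpace.single i (1 : ℝ)) * ζ x := by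
    intro x
    by_cases hx : x ∈ tsupport ζ
    · unfold pderiv
      rw [(hGv x hx).fderiv_eq]
    · rw [image_eq_zero_of_notMem_tsupport hx]; simp
  simp_rw [e1, e2]
  exact h1

lemma integrable_mul_lcut {F : EE → ℝ} (hU : IsOpen U) (hF : ContinuousOn F U) (hζ : LCut U ζ) :
    Integrable fun x => F x * ζ x :=
  integrable_mul_of_tsupport hU hF hζ.cont hζ.cs hζ.sub

lemma integrable_mul_dot_lip {F f : EE → ℝ} (hU : IsOpen U) (hF : ContinuousOn F U)
    (hf : ContDiffOn ℝ ∞ f U) (hζ : LCut U ζ) : Integrable fun x => F x * dot f ζ x := by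
  have : (fun x => F x * dot f ζ x) = fun x => ∑ i, (F x * pderiv i f x) * pderiv i ζ x := by
    funext x; unfold dot; rw [Finset.mul_sum]; exact Finset.sum_congr rfl fun _ _ => by ring
  rw [this]
  refine integrable_finsetSum _ fun i _ => ?_
  exact integrable_mul_pderiv hU (hF.mul (contDiffOn_pderiv hU hf i).continuousOn) hζ i

/-- the divergence theorem for `ζ A(r) ∇r`, `ζ` Lipschitz -/
theorem div_id_lip (hU : IsOpen U) (hr : ContDiffOn ℝ ∞ r U) (hζ : LCut U ζ) {A A' : ℝ → ℝ}
    (hA : ∀ s, HasDerivAt A (A' s) s) (hA' : Continuous A') :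
    ∫ x, A (r x) * dot r ζ x = - ∫ x, (A' (r x) * gsq r x + A (r x) * lapl r x) * ζ x := by
  have hAd : ContDiff ℝ 1 A := by
    rw [contDiff_one_iff_deriv]
    refine ⟨fun s => (hA s).differentiableAt, ?_⟩
    have : deriv A = A' := funext fun s => (hA s).deriv
    rw [this]; exact hA'
  have hF : ∀ i : Fin n, ContDiffOn ℝ 1 (fun x => A (r x) * pderiv i r x) U := fun i =>
    (hAd.comp_contDiffOn (hr.of_le (by norm_num))).mul
      ((contDiffOn_pderiv hU hr i).of_le (by norm_num))
  have e1 : (fun x => A (r x) * dot r ζ x) =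
      fun x => ∑ i, (A (r x) * pderiv i r x) * pderiv i ζ x := by
    funext x; unfold dot; rw [Finset.mul_sum]; exact Finset.sum_congr rfl fun _ _ => by ring
  have hpd : ∀ (i : Fin n), ∀ x ∈ U, pderiv i (fun x => A (r x) * pderiv i r x) x =
      A' (r x) * pderiv i r x * pderiv i r x + A (r x) * hessianMat r x i i := by
    intro i x hx
    have hrx := hr.contDiffAt (hU.mem_nhds hx)
    have d1 : DifferentiableAt ℝ r x := sm_diff hrx
    have d2 : DifferentiableAt ℝ (fun y => pderiv i r y) x := sm_diff (sm_pderiv hrx i)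
    have d3 : HasFDerivAt (fun y => A (r y)) (A' (r x) • fderiv ℝ r x) x :=
      (hA (r x)).comp_hasFDerivAt x d1.hasFDerivAt
    have := pderiv_mul (i := i) d3.differentiableAt d2
    rw [this]
    unfold hessianMat
    have e : pderiv i (fun y => A (r y)) x = A' (r x) * pderiv i r x := by
      unfold pderiv
      rw [d3.fderiv]; simp
    rw [e]
    try ring
  have hint : ∀ i : Fin n, Integrable fun x => (A (r x) * pderiv i r x) * pderiv i ζ x := fun i =>
    integrable_mul_pderiv hU (hF i).continuousOn hζ i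
  have hint2 : ∀ i : Fin n, Integrable fun x =>
      pderiv i (fun x => A (r x) * pderiv i r x) x * ζ x := fun i => by
    refine integrable_mul_lcut hU ?_ hζ
    unfold pderiv
    have hFi := hF i
    unfold pderiv at hFi
    exact (hFi.continuousOn_fderiv_of_isOpen hU le_rfl).clm_apply continuousOn_const
  rw [e1, integral_finsetSum _ fun i _ => hint i]
  rw [Finset.sum_congr rfl fun i _ => ibp_lip hU (hF i) hζ i, Finset.sum_neg_distrib,
    ← integral_finsetSum _ fun i _ => hint2 i]
  congr 1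
  apply integral_congr_ae
  refine Eventually.of_forall fun x => ?_
  by_cases hx : x ∈ U
  · simp only
    rw [← Finset.sum_mul]
    congr 1
    rw [Finset.sum_congr rfl fun i _ => hpd i x hx, Finset.sum_add_distrib, gsq, lapl,
      Finset.mul_sum, Finset.mul_sum]
    congr 1
    exact Finset.sum_congr rfl fun _ _ => by ring
  · simp only [hζ.zero_out hx, mul_zero, Finset.sum_const_zero]

/-- the energy defect density `(1/ε)(h-g)(1-|t|)³(3+|t|)/6` -/
def dd (h r : EuclideanSpace ℝ (Fin n) → ℝ) (ε : ℝ) (x : EuclideanSpace ℝ (Fin n)) : ℝ :=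
  1 / ε * (h x - gsq r x) *
    ((1 - |Real.tanh (r x / ε)|) ^ 3 * (3 + |Real.tanh (r x / ε)|) / 6)

lemma dd_nonneg (H : ACSol U h r ε) {x : EE} (hx : x ∈ U) : 0 ≤ dd h r ε x := by
  unfold dd
  have h1 := H.eps_pos
  have h2 := H.modica x hx
  have h3 := (abs_tanh_lt (r x / ε)).le
  have h4 := abs_nonneg (Real.tanh (r x / ε))
  have h5 : 0 ≤ 1 - |Real.tanh (r x / ε)| := by linarith
  have h6 : 0 ≤ h x - gsq r x := by linarith
  positivity

lemma cont_dd (H : ACSol U h r ε) : ContinuousOn (dd h r ε) U := by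
  unfold dd
  have h1 := H.cont_tanh.abs
  exact (continuousOn_const.mul (H.cont_h.sub H.cont_gsq)).mul
    ((((continuousOn_const.sub h1).pow 3).mul (continuousOn_const.add h1)).div_const 6)

/-- exact pointwise identity -/
lemma pointwise_id (H : ACSol U h r ε) {x : EE} (hx : x ∈ U) :
    |lapl r x| + 3 / 2 * (1 / ε * (1 - Real.tanh (r x / ε) ^ 2) ^ 2 * gsq r x
      + T0 (r x / ε) * lapl r x) = 3 / 2 * (qq h r ε x - dd h r ε x) := by
  have hε := H.eps_pos
  rw [H.abs_lapl hx, H.pde x hx]
  unfold qq dd T0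
  generalize Real.tanh (r x / ε) = t
  generalize h x = a
  generalize gsq r x = g
  have h2 : t ^ 2 = |t| ^ 2 := (sq_abs t).symm
  have h4 : t ^ 4 = |t| ^ 4 := by
    rw [show t ^ 4 = (t ^ 2) ^ 2 by ring, h2]; ring
  field_simp
  ring_nf
  rw [h2, h4]
  ring

/-- **The refined ε-level VAR inequality with Lipschitz test functions.** -/
theorem VAR_lip (H : ACSol U h r ε) (hζ : LCut U ζ) (hη : LCut U η) (hle : ∀ x, |ζ x| ≤ η x) :
    (∫ x, dot r ζ x) - 3 / 2 * ∫ x, T0 (r x / ε) * dot r η x ≤
      3 / 2 * ∫ x, (qq h r ε x - dd h r ε x) * η x := by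
  have d1 := div_id_lip H.isOpen H.smooth_r hζ (A := fun _ => 1) (A' := fun _ => 0)
    (fun s => hasDerivAt_const s 1) continuous_const
  simp only [one_mul, zero_mul, zero_add] at d1
  have d2 := div_id_lip H.isOpen H.smooth_r hη ACSol.hasDerivAt_T0_div (ACSol.continuous_sech ε)
  rw [d1, d2]
  have i1 : Integrable fun x => lapl r x * ζ x := integrable_mul_lcut H.isOpen H.cont_lapl hζ
  have i2 : Integrable fun x => (1 / ε * (1 - Real.tanh (r x / ε) ^ 2) ^ 2 * gsq r x +
      T0 (r x / ε) * lapl r x) * η x :=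
    integrable_mul_lcut H.isOpen ((H.cont_sech.mul H.cont_gsq).add (H.cont_T0.mul H.cont_lapl)) hη
  have i3 : Integrable fun x => (qq h r ε x - dd h r ε x) * η x :=
    integrable_mul_lcut H.isOpen (H.cont_qq.sub (cont_dd H)) hη
  have i1' : Integrable fun x => -(lapl r x * ζ x) := i1.neg
  have key : ∫ x, (-(lapl r x * ζ x) + 3 / 2 * ((1 / ε * (1 - Real.tanh (r x / ε) ^ 2) ^ 2 * gsq r x +
      T0 (r x / ε) * lapl r x) * η x)) ≤ ∫ x, 3 / 2 * ((qq h r ε x - dd h r ε x) * η x) := by
    refine integral_mono (i1'.add (i2.const_mul _)) (i3.const_mul _) fun x => ?_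
    by_cases hx : x ∈ U
    · have h0 : 0 ≤ η x := (abs_nonneg _).trans (hle x)
      have h1 := pointwise_id H hx
      have h2 : -(lapl r x * ζ x) ≤ |lapl r x| * η x := by
        calc -(lapl r x * ζ x) ≤ |lapl r x * ζ x| := neg_le_abs _
          _ = |lapl r x| * |ζ x| := abs_mul _ _
          _ ≤ |lapl r x| * η x := mul_le_mul_of_nonneg_left (hle x) (abs_nonneg _)
      have h3 : (|lapl r x| + 3 / 2 * (1 / ε * (1 - Real.tanh (r x / ε) ^ 2) ^ 2 * gsq r x
        + T0 (r x / ε) * lapl r x)) * η x = 3 / 2 * (qq h r ε x - dd h r ε x) * η x := by rw [h1]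
      simp only
      linarith [h2, h3]
    · simp only [hζ.zero_out hx, hη.zero_out hx, mul_zero, neg_zero, add_zero, le_refl]
  rw [integral_add i1' (i2.const_mul _), integral_neg, integral_const_mul, integral_const_mul] at key
  linarith

end Crest.Agent.R246.Vb872
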