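import Crest.Agent.R246.VbVar_872
import Mathlib.Analysis.SpecialFunctions.Trigonometric.InverseDeriv
import Mathlib.Analysis.Calculus.BumpFunction.InnerProduct

/-!
# Row 246, block E3 (helper872): from the spherical VAR inequality (for `r`) to `VAR φ μ {0}ᶜ`
-/

set_option autoImplicit false
set_option linter.unusedSectionVars false
noncomputable section
open MeasureTheory Set Filter Topology
open scoped RealInnerProductSpace ENNReal NNReal ContDiff
open Crest.Agent.R246.G873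

namespace Crest.Agent.R246.Vb872

variable {E : Type*} [NormedAddCommGroup E] [InnerProductSpace ℝ E] [FiniteDimensional ℝ E]
  [MeasurableSpace E] [BorelSpace E]

/-! ### cut-off on the line -/

/-- smooth cut-off -/
def om : ContDiffBump (0 : ℝ) := ⟨1, 2, one_pos, one_lt_two⟩

lemma om_one {t : ℝ} (h : |t| ≤ 1) : om t = 1 :=
  om.one_of_mem_closedBall (by rw [mem_closedBall_zero_iff, Real.norm_eq_abs]; exact h)

lemma om_zero {t : ℝ} (h : 2 ≤ |t|) : om t = 0 :=
  om.zero_of_le_dist (by rw [Real.dist_eq, sub_zero]; exact h)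

lemma om_nonneg (t : ℝ) : 0 ≤ om t := om.nonneg

lemma om_le_one (t : ℝ) : om t ≤ 1 := om.le_one

lemma om_neg (t : ℝ) : om (-t) = om t := om.neg t

lemma om_lip : ∃ L : ℝ≥0, LipschitzWith L (om : ℝ → ℝ) :=
  ContDiff.lipschitzWith_of_hasCompactSupport om.hasCompactSupport (om.contDiff (n := 1)) (by simp)

lemma om_diff (t : ℝ) : DifferentiableAt ℝ (om : ℝ → ℝ) t :=
  (om.contDiff (n := 1)).differentiable (by simp) t

lemma om_deriv_bd : ∃ B : ℝ, 0 ≤ B ∧ ∀ t, |deriv (om : ℝ → ℝ) t * t| ≤ B := by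
  obtain ⟨L, hL⟩ := om_lip
  refine ⟨L * 2, by positivity, fun t => ?_⟩
  by_cases ht : |t| ≤ 2
  · rw [abs_mul]
    have := norm_deriv_le_of_lipschitz (x₀ := t) hL
    rw [Real.norm_eq_abs] at this
    exact mul_le_mul this ht (abs_nonneg _) L.2
  · push Not at ht
    have h0 : (om : ℝ → ℝ) =ᶠ[𝓝 t] fun _ => 0 := by
      filter_upwards [continuous_abs.continuousAt.eventually (lt_mem_nhds ht)] with u hu
      exact om_zero hu.le
    rw [h0.deriv_eq]; simp

/-! ### bounded Lipschitz functions on a set -/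

/-- bounded and Lipschitz on `S` -/
def LB (S : Set E) (g : E → ℝ) : Prop :=
  ∃ C : ℝ, 0 ≤ C ∧ (∀ x ∈ S, |g x| ≤ C) ∧ ∀ x ∈ S, ∀ y ∈ S, |g x - g y| ≤ C * ‖x - y‖

lemma LB.mul {S : Set E} {f g : E → ℝ} (hf : LB S f) (hg : LB S g) :
    LB S (fun x => f x * g x) := by
  obtain ⟨A, hA0, hA, hA'⟩ := hf
  obtain ⟨B, hB0, hB, hB'⟩ := hg
  refine ⟨2 * A * B, by positivity, fun x hx => ?_, fun x hx y hy => ?_⟩
  · rw [abs_mul]
    have := mul_le_mul (hA x hx) (hB x hx) (abs_nonneg _) hA0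
    nlinarith [mul_nonneg hA0 hB0]
  · have e : f x * g x - f y * g y = (f x - f y) * g x + f y * (g x - g y) := by ring
    rw [e]
    calc |(f x - f y) * g x + f y * (g x - g y)|
        ≤ |(f x - f y) * g x| + |f y * (g x - g y)| := abs_add_le _ _
      _ = |f x - f y| * |g x| + |f y| * |g x - g y| := by rw [abs_mul, abs_mul]
      _ ≤ (A * ‖x - y‖) * B + A * (B * ‖x - y‖) := by
          gcongr
          · exact hA' x hx y hy
          · exact hB x hx
          · exact hA y hy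
          · exact hB' x hx y hy
      _ = 2 * A * B * ‖x - y‖ := by ring

lemma LB.comp {S : Set E} {g : E → ℝ} (hg : LB S g) {F : ℝ → ℝ} {L : ℝ≥0}
    (hF : LipschitzWith L F) : LB S (fun x => F (g x)) := by
  obtain ⟨B, hB0, hB, hB'⟩ := hg
  refine ⟨|F 0| + L * B, by positivity, fun x hx => ?_, fun x hx y hy => ?_⟩
  · have h1 := hF.dist_le_mul (g x) 0
    rw [Real.dist_eq, Real.dist_eq, sub_zero] at h1
    have h2 : |F (g x)| ≤ |F 0| + |F (g x) - F 0| := by
      have := abs_add_le (F 0) (F (g x) - F 0)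
      rwa [add_sub_cancel] at this
    have h3 : (L : ℝ) * |g x| ≤ L * B := mul_le_mul_of_nonneg_left (hB x hx) L.2
    linarith
  · have h1 := hF.dist_le_mul (g x) (g y)
    rw [Real.dist_eq, Real.dist_eq] at h1
    have h2 : (L : ℝ) * |g x - g y| ≤ L * (B * ‖x - y‖) :=
      mul_le_mul_of_nonneg_left (hB' x hx y hy) L.2
    have h3 : 0 ≤ |F 0| * ‖x - y‖ := by positivity
    calc |F (g x) - F (g y)| ≤ L * (B * ‖x - y‖) := h1.trans h2
      _ ≤ (|F 0| + L * B) * ‖x - y‖ := by nlinarith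

lemma LB.of_lip {S : Set E} {g : E → ℝ} (hg : Lip g) {R : ℝ} (hS : ∀ x ∈ S, ‖x‖ ≤ R) :
    LB S g := by
  obtain ⟨L, hL⟩ := hg
  by_cases hR : 0 ≤ R
  · refine ⟨|g 0| + L * R + L, by positivity, fun x hx => ?_, fun x hx y hy => ?_⟩
    · have h1 := hL.dist_le_mul x 0
      rw [Real.dist_eq, dist_eq_norm, sub_zero] at h1
      have h2 : |g x| ≤ |g 0| + |g x - g 0| := by
        have := abs_add_le (g 0) (g x - g 0)
        rwa [add_sub_cancel] at this
      have h3 : (L : ℝ) * ‖x‖ ≤ L * R := mul_le_mul_of_nonneg_left (hS x hx) L.2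
      have h4 : (0 : ℝ) ≤ L := L.2
      linarith
    · have h1 := hL.dist_le_mul x y
      rw [Real.dist_eq, dist_eq_norm] at h1
      have h3 : 0 ≤ (|g 0| + L * R) * ‖x - y‖ := by positivity
      nlinarith
  · refine ⟨0, le_rfl, fun x hx => ?_, fun x hx => ?_⟩
    · exact absurd ((norm_nonneg x).trans (hS x hx)) hR
    · exact absurd ((norm_nonneg x).trans (hS x hx)) hR

lemma Lip.bdd {f : E → ℝ} (hf : Lip f) (hc : HasCompactSupport f) :
    ∃ M : ℝ, 0 ≤ M ∧ ∀ x, |f x| ≤ M := by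
  obtain ⟨L, hL⟩ := hf
  obtain ⟨M, hM⟩ := hc.exists_bound_of_continuous hL.continuous
  exact ⟨M, (norm_nonneg _).trans (hM 0), hM⟩

lemma Lip.mul_LB {f g : E → ℝ} {S : Set E} (hf : Lip f) (hc : HasCompactSupport f)
    (hS : ∀ x, x ∉ S → f x = 0) (hg : LB S g) : Lip fun x => f x * g x := by
  obtain ⟨M, hM0, hM⟩ := Lip.bdd hf hc
  obtain ⟨L, hL⟩ := hf
  obtain ⟨C, hC0, hC, hC'⟩ := hg
  have hLd : ∀ x y, |f x - f y| ≤ L * ‖x - y‖ := fun x y => by
    have := hL.dist_le_mul x y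
    rwa [Real.dist_eq, dist_eq_norm] at this
  refine ⟨Real.toNNReal (L * C + M * C), LipschitzWith.of_dist_le_mul fun x y => ?_⟩
  rw [Real.coe_toNNReal _ (by positivity), Real.dist_eq, dist_eq_norm]
  have hn := norm_nonneg (x - y)
  have hMC : 0 ≤ M * C * ‖x - y‖ := by positivity
  by_cases hx : x ∈ S
  · by_cases hy : y ∈ S
    · have e : f x * g x - f y * g y = (f x - f y) * g x + f y * (g x - g y) := by ring
      rw [e]
      calc |(f x - f y) * g x + f y * (g x - g y)|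
          ≤ |(f x - f y) * g x| + |f y * (g x - g y)| := abs_add_le _ _
        _ = |f x - f y| * |g x| + |f y| * |g x - g y| := by rw [abs_mul, abs_mul]
        _ ≤ (L * ‖x - y‖) * C + M * (C * ‖x - y‖) := by
            gcongr
            · exact hLd x y
            · exact hC x hx
            · exact hM y
            · exact hC' x hx y hy
        _ = (L * C + M * C) * ‖x - y‖ := by ring
    · rw [hS y hy, zero_mul, sub_zero, abs_mul]
      have h1 := hLd x y
      rw [hS y hy, sub_zero] at h1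
      calc |f x| * |g x| ≤ (L * ‖x - y‖) * C := by
            gcongr
            exact hC x hx
        _ ≤ (L * C + M * C) * ‖x - y‖ := by nlinarith
  · rw [hS x hx, zero_mul, zero_sub, abs_neg, abs_mul]
    by_cases hy : y ∈ S
    · have h1 := hLd x y
      rw [hS x hx, zero_sub, abs_neg] at h1
      calc |f y| * |g y| ≤ (L * ‖x - y‖) * C := by
            gcongr
            exact hC y hy
        _ ≤ (L * C + M * C) * ‖x - y‖ := by nlinarith
    · rw [hS y hy, abs_zero, zero_mul]; positivity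

lemma Lip.mul' {f g : E → ℝ} (hf : Lip f) (hc : HasCompactSupport f) (hg : Lip g) :
    Lip fun x => f x * g x := by
  obtain ⟨R, hR⟩ := hc.isCompact.isBounded.exists_norm_le
  exact Lip.mul_LB hf hc (S := tsupport f) (fun x hx => image_eq_zero_of_notMem_tsupport hx)
    (LB.of_lip hg hR)

/-! ### the angle identity -/

lemma hasFDerivAt_norm' {x : E} (hx : x ≠ 0) :
    HasFDerivAt (fun y : E => ‖y‖) (‖x‖⁻¹ • innerSL ℝ x) x := by
  have hx' : 0 < ‖x‖ := norm_pos_iff.2 hx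
  have h1 := (hasStrictFDerivAt_norm_sq x).hasFDerivAt.sqrt (by positivity)
  have e : (fun y : E => √(‖y‖ ^ 2)) = fun y => ‖y‖ := by
    funext y; exact Real.sqrt_sq (norm_nonneg y)
  rw [e] at h1
  convert h1 using 1
  ext v
  rw [Real.sqrt_sq (norm_nonneg x)]
  simp only [_root_.smul_apply, smul_eq_mul, innerSL_apply_apply, nsmul_eq_mul, Nat.cast_ofNat]
  field_simp

lemma near_id {φ r f : E → ℝ} {x : E} (hx : x ≠ 0) (hφ : DifferentiableAt ℝ φ x)
    (hg : ‖fderiv ℝ φ x‖ = 1) (he : fderiv ℝ φ x x = φ x) (hlt : |φ x| < ‖x‖)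
    (hr : r =ᶠ[𝓝 x] fun y => Real.arcsin (φ y * ‖y‖⁻¹)) (hf : DifferentiableAt ℝ f x) :
    gi r (fun y => f y * √(‖y‖ ^ 2 - φ y ^ 2)) x =
      gi φ f x - φ x / ‖x‖ ^ 2 * (fderiv ℝ f x x + f x) := by
  have hx' : 0 < ‖x‖ := norm_pos_iff.2 hx
  have hD2 : 0 < ‖x‖ ^ 2 - φ x ^ 2 := by
    have := abs_lt.1 hlt
    nlinarith
  set D : ℝ := √(‖x‖ ^ 2 - φ x ^ 2) with hDdef
  have hD : 0 < D := Real.sqrt_pos.2 hD2
  have hDD : D ^ 2 = ‖x‖ ^ 2 - φ x ^ 2 := Real.sq_sqrt hD2.le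
  set G : E := gradient φ x with hG
  have hLv : ∀ v, fderiv ℝ φ x v = ⟪G, v⟫ := fun v => by
    rw [hG]; unfold gradient; rw [InnerProductSpace.toDual_symm_apply]
  have hGG : fderiv ℝ φ x G = 1 := by
    rw [hLv, real_inner_self_eq_norm_sq, hG, norm_gradient', hg, one_pow]
  -- derivative of g = f D
  have hDder : HasFDerivAt (fun y : E => √(‖y‖ ^ 2 - φ y ^ 2))
      ((1 / (2 * D)) • ((2 : ℕ) • innerSL ℝ x - (2 * φ x) • fderiv ℝ φ x)) x := by
    have h1 := (hasStrictFDerivAt_norm_sq x).hasFDerivAt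
    have h2 : HasFDerivAt (fun y => φ y ^ 2) ((2 * φ x) • fderiv ℝ φ x) x := by
      have h3 := (hasDerivAt_pow 2 (φ x)).comp_hasFDerivAt x hφ.hasFDerivAt
      have h4 : ((2 : ℕ) : ℝ) * φ x ^ (2 - 1) = 2 * φ x := by norm_num
      rw [h4] at h3
      exact h3
    exact (h1.sub h2).sqrt hD2.ne'
  set g : E → ℝ := fun y => f y * √(‖y‖ ^ 2 - φ y ^ 2) with hgdef
  have hgder : HasFDerivAt g _ x := hf.hasFDerivAt.mul hDder
  have hgv : ∀ v, fderiv ℝ g x v = f x * ((⟪x, v⟫ - φ x * fderiv ℝ φ x v) / D)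
      + D * fderiv ℝ f x v := by
    intro v
    rw [hgder.fderiv, ← hDdef]
    simp only [_root_.add_apply, _root_.smul_apply, _root_.sub_apply, smul_eq_mul,
      innerSL_apply_apply, nsmul_eq_mul, Nat.cast_ofNat]
    field_simp
  -- derivative of r
  have hinv : HasFDerivAt (fun y : E => ‖y‖⁻¹) ((-(‖x‖ ^ 2)⁻¹) • (‖x‖⁻¹ • innerSL ℝ x)) x :=
    (hasDerivAt_inv hx'.ne').comp_hasFDerivAt x (hasFDerivAt_norm' hx)
  have hq := hφ.hasFDerivAt.mul hinv
  have ht : |φ x * ‖x‖⁻¹| < 1 := by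
    rw [abs_mul, abs_of_pos (inv_pos.2 hx'), ← div_eq_mul_inv, div_lt_one hx']; exact hlt
  have ht' := abs_lt.1 ht
  have harc := (Real.hasDerivAt_arcsin (x := φ x * ‖x‖⁻¹) (by linarith [ht'.1])
    (by linarith [ht'.2])).comp_hasFDerivAt x hq
  have hsq : √(1 - (φ x * ‖x‖⁻¹) ^ 2) = D / ‖x‖ := by
    rw [Real.sqrt_eq_iff_mul_self_eq (by nlinarith [ht'.1, ht'.2]) (by positivity)]
    have : D / ‖x‖ * (D / ‖x‖) = D ^ 2 / ‖x‖ ^ 2 := by ring
    rw [this, hDD]
    field_simp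
  have hrv : ∀ v, fderiv ℝ r x v = (‖x‖ / D) *
      (φ x * (-(‖x‖ ^ 2)⁻¹ * (‖x‖⁻¹ * ⟪x, v⟫)) + ‖x‖⁻¹ * fderiv ℝ φ x v) := by
    intro v
    have h1 : HasFDerivAt r _ x := harc.congr_of_eventuallyEq hr
    rw [h1.fderiv, hsq]
    simp only [_root_.add_apply, _root_.smul_apply, smul_eq_mul, innerSL_apply_apply]
    field_simp
  have hgr : ∀ v, fderiv ℝ g x v = ⟪gradient g x, v⟫ := fun v => by
    unfold gradient; rw [InnerProductSpace.toDual_symm_apply]
  have e1 : gi r g x = fderiv ℝ r x (gradient g x) := by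
    unfold gi
    rw [real_inner_comm]
    have : ∀ v, fderiv ℝ r x v = ⟪gradient r x, v⟫ := fun v => by
      unfold gradient; rw [InnerProductSpace.toDual_symm_apply]
    rw [this, real_inner_comm]
  have e2 : fderiv ℝ φ x (gradient g x) = fderiv ℝ g x G := by
    rw [hLv, hgr, real_inner_comm]
  have e3 : ⟪x, gradient g x⟫ = fderiv ℝ g x x := by rw [hgr, real_inner_comm]
  have e5 : ⟪x, G⟫ = φ x := by rw [real_inner_comm, ← hLv, he]
  rw [e1, hrv, e2, e3, hgv, hgv, hGG, he, e5, real_inner_self_eq_norm_sq, gi_eq]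
  have e4 : ‖x‖ ^ 2 - φ x * φ x = D ^ 2 := by rw [hDD]; ring
  rw [e4]
  field_simp
  ring

/-! ### sign rules -/

lemma gradient_congr {f g : E → ℝ} {x : E} (h : f =ᶠ[𝓝 x] g) : gradient f x = gradient g x := by
  unfold gradient; rw [h.fderiv_eq]

lemma gi_congr_left {f g u : E → ℝ} {x : E} (h : f =ᶠ[𝓝 x] g) : gi f u x = gi g u x := by
  unfold gi; rw [gradient_congr h]

lemma gi_congr_right {f g u : E → ℝ} {x : E} (h : f =ᶠ[𝓝 x] g) : gi u f x = gi u g x := by
  unfold gi; rw [gradient_congr h]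

lemma gi_abs {u f : E → ℝ} {x : E} (hc : ContinuousAt u x) :
    gi (fun y => |u y|) f x = (SignType.sign (u x) : ℝ) * gi u f x := by
  rcases lt_trichotomy (u x) 0 with hneg | hz | hpos
  · have e : (fun y => |u y|) =ᶠ[𝓝 x] fun y => -u y := by
      filter_upwards [hc.eventually (gt_mem_nhds hneg)] with y hy
      exact abs_of_neg hy
    have e2 : gradient (fun y => |u y|) x = - gradient u x := by
      unfold gradient
      rw [e.fderiv_eq, fderiv_fun_neg, map_neg]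
    unfold gi
    rw [e2, sign_neg hneg, inner_neg_left]
    simp
  · have e2 : gradient (fun y => |u y|) x = 0 := by
      have hm : IsLocalMin (fun y => |u y|) x :=
        Eventually.of_forall fun y => by simp only [hz, abs_zero]; exact abs_nonneg _
      unfold gradient
      rw [hm.fderiv_eq_zero]; simp
    unfold gi
    rw [e2, hz]
    simp
  · have e : (fun y => |u y|) =ᶠ[𝓝 x] u := by
      filter_upwards [hc.eventually (lt_mem_nhds hpos)] with y hy
      exact abs_of_pos hy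
    rw [gi_congr_left e, sign_pos hpos]
    simp

/-! ### splitting -/

/-- `f ω(φ/s)` -/
def cut (s : ℝ) (φ f : E → ℝ) (y : E) : ℝ := f y * om (φ y / s)

/-- far part -/
def far (s : ℝ) (φ f : E → ℝ) (y : E) : ℝ := f y * (1 - om (max (φ y) 0 / s))

variable {φ ζ η : E → ℝ} {s : ℝ} {x : E}

lemma hasFDerivAt_cut (hφ : DifferentiableAt ℝ φ x) (hζ : DifferentiableAt ℝ ζ x) :
    HasFDerivAt (cut s φ ζ) (ζ x • (deriv (om : ℝ → ℝ) (φ x / s) • (s⁻¹ • fderiv ℝ φ x))
      + om (φ x / s) • fderiv ℝ ζ x) x := by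
  have h1 : HasFDerivAt (fun y => φ y / s) (s⁻¹ • fderiv ℝ φ x) x := by
    simp only [div_eq_mul_inv]
    exact hφ.hasFDerivAt.mul_const s⁻¹
  have h2 := (om_diff (φ x / s)).hasDerivAt.comp_hasFDerivAt x h1
  exact hζ.hasFDerivAt.mul h2

lemma split_id (hs : 0 < s) (hc : Continuous φ) (hφ : DifferentiableAt ℝ φ x)
    (hζ : DifferentiableAt ℝ ζ x) (hη : DifferentiableAt ℝ η x) :
    gi φ ζ x - gi (fun y => |φ y|) η x = gi φ (cut s φ ζ) x - gi (fun y => |φ y|) (cut s φ η) x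
      - gi φ (far s φ (fun y => η y - ζ y)) x
      + gi φ (far s (fun y => -φ y) (fun y => η y + ζ y)) x := by
  have hcζ := (hasFDerivAt_cut (s := s) hφ hζ).differentiableAt
  have hcη := (hasFDerivAt_cut (s := s) hφ hη).differentiableAt
  have hz : ∀ {u : E → ℝ}, gi φ (fun _ => (0:ℝ)) x = 0 := by
    intro u; rw [gi_eq]; simp
  rw [gi_abs hc.continuousAt, gi_abs hc.continuousAt]
  rcases lt_trichotomy (φ x) 0 with hneg | h0 | hpos
  · have e1 : far s φ (fun y => η y - ζ y) =ᶠ[𝓝 x] fun _ => 0 := by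
      filter_upwards [hc.continuousAt.eventually (gt_mem_nhds hneg)] with y hy
      unfold far
      rw [max_eq_right hy.le, zero_div, om_one (by simp)]; ring
    have e2 : far s (fun y => -φ y) (fun y => η y + ζ y) =ᶠ[𝓝 x]
        fun y => (η y + ζ y) - (cut s φ η y + cut s φ ζ y) := by
      filter_upwards [hc.continuousAt.eventually (gt_mem_nhds hneg)] with y hy
      unfold far cut
      have hy' : φ y < 0 := hy
      rw [max_eq_left (by linarith), neg_div, om_neg]; ring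
    rw [gi_congr_right e1, gi_congr_right e2, sign_neg hneg]
    simp only [gi_eq]
    have h3 : fderiv ℝ (fun y => (η y + ζ y) - (cut s φ η y + cut s φ ζ y)) x =
        (fderiv ℝ η x + fderiv ℝ ζ x) - (fderiv ℝ (cut s φ η) x + fderiv ℝ (cut s φ ζ) x) :=
      ((hη.hasFDerivAt.add hζ.hasFDerivAt).sub (hcη.hasFDerivAt.add hcζ.hasFDerivAt)).fderiv
    rw [h3]
    simp only [_root_.add_apply, _root_.sub_apply, SignType.coe_neg_one, fderiv_fun_const,
      Pi.zero_apply, _root_.zero_apply]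
    ring
  · have hball : ∀ᶠ y in 𝓝 x, |φ y| < s := by
      have : |φ x| < s := by rw [h0]; simpa using hs
      exact (continuous_abs.comp hc).continuousAt.eventually (gt_mem_nhds this)
    have e1 : far s φ (fun y => η y - ζ y) =ᶠ[𝓝 x] fun _ => 0 := by
      filter_upwards [hball] with y hy
      unfold far
      rw [om_one, sub_self, mul_zero]
      rw [abs_div, abs_of_pos hs, div_le_one hs, abs_of_nonneg (le_max_right _ _)]
      exact max_le ((le_abs_self _).trans hy.le) hs.le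
    have e2 : far s (fun y => -φ y) (fun y => η y + ζ y) =ᶠ[𝓝 x] fun _ => 0 := by
      filter_upwards [hball] with y hy
      unfold far
      rw [om_one, sub_self, mul_zero]
      rw [abs_div, abs_of_pos hs, div_le_one hs, abs_of_nonneg (le_max_right _ _)]
      exact max_le ((neg_le_abs _).trans hy.le) hs.le
    have e3 : cut s φ ζ =ᶠ[𝓝 x] ζ := by
      filter_upwards [hball] with y hy
      unfold cut
      rw [om_one, mul_one]
      rw [abs_div, abs_of_pos hs, div_le_one hs]; exact hy.le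
    rw [gi_congr_right e1, gi_congr_right e2, gi_congr_right e3, h0]
    simp [gi_eq]
  · have e1 : far s (fun y => -φ y) (fun y => η y + ζ y) =ᶠ[𝓝 x] fun _ => 0 := by
      filter_upwards [hc.continuousAt.eventually (lt_mem_nhds hpos)] with y hy
      unfold far
      have hy' : 0 < φ y := hy
      rw [max_eq_right (by linarith), zero_div, om_one (by simp)]; ring
    have e2 : far s φ (fun y => η y - ζ y) =ᶠ[𝓝 x]
        fun y => (η y - ζ y) - (cut s φ η y - cut s φ ζ y) := by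
      filter_upwards [hc.continuousAt.eventually (lt_mem_nhds hpos)] with y hy
      unfold far cut
      have hy' : 0 < φ y := hy
      rw [max_eq_left hy'.le]; ring
    rw [gi_congr_right e1, gi_congr_right e2, sign_pos hpos]
    simp only [gi_eq]
    have h3 : fderiv ℝ (fun y => (η y - ζ y) - (cut s φ η y - cut s φ ζ y)) x =
        (fderiv ℝ η x - fderiv ℝ ζ x) - (fderiv ℝ (cut s φ η) x - fderiv ℝ (cut s φ ζ) x) :=
      ((hη.hasFDerivAt.sub hζ.hasFDerivAt).sub (hcη.hasFDerivAt.sub hcζ.hasFDerivAt)).fderiv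
    rw [h3]
    simp only [_root_.sub_apply, SignType.coe_one, fderiv_fun_const,
      Pi.zero_apply, _root_.zero_apply]
    ring

/-! ### near part -/

/-- near part -/
def nr (s : ℝ) (φ f : E → ℝ) (y : E) : ℝ := cut s φ f y * √(‖y‖ ^ 2 - φ y ^ 2)

/-- the radial error term -/
def er (s : ℝ) (φ ζ : E → ℝ) (x : E) : ℝ :=
  φ x / ‖x‖ ^ 2 * (fderiv ℝ (cut s φ ζ) x x + cut s φ ζ x)

lemma cut_zero_nhds {δ : ℝ} (hs : 0 < s) (h2 : 2 * s < δ) (hc : Continuous φ)
    (hζ : ∀ y ∈ tsupport ζ, δ ≤ ‖y‖) (hx : ‖x‖ ≤ |φ x|) : cut s φ ζ =ᶠ[𝓝 x] fun _ => 0 := by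
  by_cases hxs : x ∈ tsupport ζ
  · have h1 : 2 * s < |φ x| := h2.trans_le ((hζ x hxs).trans hx)
    filter_upwards [(continuous_abs.comp hc).continuousAt.eventually (lt_mem_nhds h1)] with y hy
    unfold cut
    rw [om_zero, mul_zero]
    rw [abs_div, abs_of_pos hs, le_div_iff₀ hs]; exact hy.le
  · rw [notMem_tsupport_iff_eventuallyEq] at hxs
    filter_upwards [hxs] with y hy
    unfold cut; rw [hy]; simp

lemma near_cut {r : E → ℝ} {δ : ℝ} (hs : 0 < s) (h2 : 2 * s < δ) (hc : Continuous φ)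
    (hζs : ∀ y ∈ tsupport ζ, δ ≤ ‖y‖) (hx : x ≠ 0) (hφ : DifferentiableAt ℝ φ x)
    (hg : ‖fderiv ℝ φ x‖ = 1) (he : fderiv ℝ φ x x = φ x)
    (hr : r =ᶠ[𝓝 x] fun y => Real.arcsin (φ y * ‖y‖⁻¹)) (hζ : DifferentiableAt ℝ ζ x) :
    gi r (nr s φ ζ) x = gi φ (cut s φ ζ) x - er s φ ζ x := by
  by_cases hlt : |φ x| < ‖x‖
  · exact near_id hx hφ hg he hlt hr (hasFDerivAt_cut hφ hζ).differentiableAt
  · push Not at hlt
    have h0 := cut_zero_nhds hs h2 hc hζs hlt
    have h1 : nr s φ ζ =ᶠ[𝓝 x] fun _ => 0 := by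
      filter_upwards [h0] with y hy
      unfold nr; rw [hy, zero_mul]
    have h3 := h0.fderiv_eq (𝕜 := ℝ)
    rw [gi_congr_right h1, gi_congr_right h0]
    unfold er
    rw [h3, h0.eq_of_nhds]
    simp [gi_eq]

lemma near_abs {r : E → ℝ} {δ : ℝ} (hs : 0 < s) (h2 : 2 * s < δ) (hc : Continuous φ)
    (hζs : ∀ y ∈ tsupport ζ, δ ≤ ‖y‖) (hx : x ≠ 0) (hφ : DifferentiableAt ℝ φ x)
    (hg : ‖fderiv ℝ φ x‖ = 1) (he : fderiv ℝ φ x x = φ x)
    (hr : r =ᶠ[𝓝 x] fun y => Real.arcsin (φ y * ‖y‖⁻¹)) (hζ : DifferentiableAt ℝ ζ x) :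
    gi (fun y => |r y|) (nr s φ ζ) x =
      gi (fun y => |φ y|) (cut s φ ζ) x - (SignType.sign (φ x) : ℝ) * er s φ ζ x := by
  have hx' : 0 < ‖x‖⁻¹ := inv_pos.2 (norm_pos_iff.2 hx)
  have hrc : ContinuousAt r x := by
    refine ContinuousAt.congr ?_ hr.symm
    exact Real.continuous_arcsin.continuousAt.comp
      (hc.continuousAt.mul (continuousAt_id.norm.inv₀ (norm_ne_zero_iff.2 hx)))
  have hsg : SignType.sign (r x) = SignType.sign (φ x) := by
    rw [hr.eq_of_nhds]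
    rcases lt_trichotomy (φ x) 0 with h | h | h
    · rw [sign_neg h, sign_neg (Real.arcsin_lt_zero.2 (mul_neg_of_neg_of_pos h hx'))]
    · rw [h]; simp
    · rw [sign_pos h, sign_pos (Real.arcsin_pos.2 (mul_pos h hx'))]
  rw [gi_abs hrc, gi_abs hc.continuousAt, hsg, near_cut hs h2 hc hζs hx hφ hg he hr hζ]
  ring

lemma er_bound {L M B δ R : ℝ} (hs : 0 < s) (hL : ‖fderiv ℝ ζ x‖ ≤ L) (hM : |ζ x| ≤ M)
    (hB : ∀ t, |deriv (om : ℝ → ℝ) t * t| ≤ B) (hB0 : 0 ≤ B) (hδ : 0 < δ) (hc : Continuous φ)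
    (h1 : δ ≤ ‖x‖) (h2 : ‖x‖ ≤ R)
    (hφ : DifferentiableAt ℝ φ x) (he : fderiv ℝ φ x x = φ x) (hζ : DifferentiableAt ℝ ζ x) :
    |er s φ ζ x| ≤ s * (2 / δ ^ 2 * (L * R + M * B + M)) := by
  have hx' : 0 < ‖x‖ := hδ.trans_le h1
  have hM0 : 0 ≤ M := (abs_nonneg _).trans hM
  have hL0 : 0 ≤ L := (norm_nonneg _).trans hL
  have hR0 : 0 ≤ R := hx'.le.trans h2
  by_cases hφs : |φ x| ≤ 2 * s
  · unfold er
    have hd := hasFDerivAt_cut (s := s) hφ hζ
    have e1 : fderiv ℝ (cut s φ ζ) x x =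
        ζ x * (deriv (om : ℝ → ℝ) (φ x / s) * (φ x / s)) + om (φ x / s) * fderiv ℝ ζ x x := by
      rw [hd.fderiv]
      simp only [_root_.add_apply, _root_.smul_apply, smul_eq_mul, he]
      ring
    have e2 : |fderiv ℝ ζ x x| ≤ L * R := by
      have := (fderiv ℝ ζ x).le_opNorm x
      rw [Real.norm_eq_abs] at this
      exact this.trans (mul_le_mul hL h2 (norm_nonneg _) hL0)
    have e3 : |fderiv ℝ (cut s φ ζ) x x + cut s φ ζ x| ≤ L * R + M * B + M := by
      rw [e1]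
      unfold cut
      have a1 : |ζ x * (deriv (om : ℝ → ℝ) (φ x / s) * (φ x / s))| ≤ M * B := by
        rw [abs_mul]; exact mul_le_mul hM (hB _) (abs_nonneg _) hM0
      have a2 : |om (φ x / s) * fderiv ℝ ζ x x| ≤ L * R := by
        rw [abs_mul, abs_of_nonneg (om_nonneg _)]
        have := om_le_one (φ x / s)
        have h0 := om_nonneg (φ x / s)
        nlinarith [abs_nonneg (fderiv ℝ ζ x x)]
      have a3 : |ζ x * om (φ x / s)| ≤ M := by
        rw [abs_mul, abs_of_nonneg (om_nonneg _)]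
        have := om_le_one (φ x / s)
        have h0 := om_nonneg (φ x / s)
        nlinarith [abs_nonneg (ζ x)]
      calc _ ≤ |ζ x * (deriv (om : ℝ → ℝ) (φ x / s) * (φ x / s)) + om (φ x / s) * fderiv ℝ ζ x x|
              + |ζ x * om (φ x / s)| := abs_add_le _ _
        _ ≤ (|ζ x * (deriv (om : ℝ → ℝ) (φ x / s) * (φ x / s))| + |om (φ x / s) * fderiv ℝ ζ x x|)
              + |ζ x * om (φ x / s)| := by gcongr; exact abs_add_le _ _
        _ ≤ L * R + M * B + M := by linarith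
    rw [abs_mul, abs_div, abs_of_pos (by positivity : 0 < ‖x‖ ^ 2)]
    have e4 : |φ x| / ‖x‖ ^ 2 ≤ 2 * s / δ ^ 2 := by
      gcongr
    calc |φ x| / ‖x‖ ^ 2 * |fderiv ℝ (cut s φ ζ) x x + cut s φ ζ x|
        ≤ (2 * s / δ ^ 2) * (L * R + M * B + M) :=
          mul_le_mul e4 e3 (abs_nonneg _) (by positivity)
      _ = _ := by ring
  · push Not at hφs
    have h0 : cut s φ ζ =ᶠ[𝓝 x] fun _ => 0 := by
      filter_upwards [(continuous_abs.comp hc).continuousAt.eventually (lt_mem_nhds hφs)] with y hy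
      unfold cut
      rw [om_zero, mul_zero]
      rw [abs_div, abs_of_pos hs, le_div_iff₀ hs]; exact hy.le
    unfold er
    rw [h0.fderiv_eq, h0.eq_of_nhds]
    have : 0 ≤ s * (2 / δ ^ 2 * (L * R + M * B + M)) := by positivity
    simpa using this

lemma er_zero (hx : x ∉ tsupport ζ) : er s φ ζ x = 0 := by
  rw [notMem_tsupport_iff_eventuallyEq] at hx
  have h0 : cut s φ ζ =ᶠ[𝓝 x] fun _ => 0 := by
    filter_upwards [hx] with y hy
    unfold cut; rw [hy]; simp
  unfold er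
  rw [h0.fderiv_eq, h0.eq_of_nhds]; simp

/-! ### Lipschitz properties -/

lemma lip_om_div (hφ : LipschitzWith 1 φ) (s : ℝ) : Lip fun y => om (φ y / s) := by
  obtain ⟨L, hL⟩ := om_lip
  refine ⟨L * (Real.toNNReal |s⁻¹|), LipschitzWith.of_dist_le_mul fun x y => ?_⟩
  have h1 := hL.dist_le_mul (φ x / s) (φ y / s)
  have h2 := hφ.dist_le_mul x y
  rw [NNReal.coe_one, one_mul, Real.dist_eq] at h2
  refine h1.trans ?_
  rw [Real.dist_eq, NNReal.coe_mul, Real.coe_toNNReal _ (abs_nonneg _), mul_assoc]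
  refine mul_le_mul_of_nonneg_left ?_ L.2
  have : φ x / s - φ y / s = s⁻¹ * (φ x - φ y) := by ring
  rw [this, abs_mul]
  exact mul_le_mul_of_nonneg_left h2 (abs_nonneg _)

lemma lip_cut (hφ : LipschitzWith 1 φ) (hζ : Lip ζ) (hc : HasCompactSupport ζ) :
    Lip (cut s φ ζ) := Lip.mul' hζ hc (lip_om_div hφ s)

lemma hcs_cut (hc : HasCompactSupport ζ) : HasCompactSupport (cut s φ ζ) := hc.mul_right

lemma lip_max (hφ : LipschitzWith 1 φ) : LipschitzWith 1 fun y => max (φ y) 0 := by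
  refine LipschitzWith.of_dist_le_mul fun x y => ?_
  rw [NNReal.coe_one, one_mul, Real.dist_eq]
  have h2 := hφ.dist_le_mul x y
  rw [NNReal.coe_one, one_mul, Real.dist_eq] at h2
  exact (abs_max_sub_max_le_abs _ _ _).trans h2

lemma lip_far (hφ : LipschitzWith 1 φ) (hζ : Lip ζ) (hc : HasCompactSupport ζ) :
    Lip (far s φ ζ) := by
  refine Lip.mul' hζ hc ?_
  obtain ⟨L, hL⟩ := lip_om_div (lip_max hφ) s
  refine ⟨L, LipschitzWith.of_dist_le_mul fun x y => ?_⟩
  have h1 := hL.dist_le_mul x y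
  rw [Real.dist_eq] at h1 ⊢
  have e : (1 - om (max (φ x) 0 / s)) - (1 - om (max (φ y) 0 / s)) =
      -(om (max (φ x) 0 / s) - om (max (φ y) 0 / s)) := by ring
  rw [e, abs_neg]; exact h1

lemma hcs_far (hc : HasCompactSupport ζ) : HasCompactSupport (far s φ ζ) := hc.mul_right

lemma far_nonneg (h : ∀ y, 0 ≤ ζ y) (y : E) : 0 ≤ far s φ ζ y :=
  mul_nonneg (h y) (by have := om_le_one (max (φ y) 0 / s); linarith)

lemma tsupport_far (hs : 0 < s) (hc : Continuous φ) : tsupport (far s φ ζ) ⊆ {y | 0 < φ y} := by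
  have h1 : tsupport (far s φ ζ) ⊆ {y | s ≤ φ y} := by
    apply closure_minimal
    · intro y hy
      by_contra hcon
      have hcon' : φ y < s := lt_of_not_ge hcon
      apply hy
      unfold far
      rw [om_one, sub_self, mul_zero]
      rw [abs_div, abs_of_pos hs, div_le_one hs, abs_of_nonneg (le_max_right _ _)]
      exact max_le hcon'.le hs.le
    · exact isClosed_le continuous_const hc
  exact fun y hy => hs.trans_le (h1 hy)

lemma LB_sqrt {δ R : ℝ} (hδ : 0 < δ) (hφ : LipschitzWith 1 φ) :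
    LB {y : E | δ ≤ ‖y‖ ∧ ‖y‖ ≤ R ∧ |φ y| ≤ δ / 2} (fun y => √(‖y‖ ^ 2 - φ y ^ 2)) := by
  by_cases hδR : δ ≤ R
  swap
  · refine ⟨0, le_rfl, fun x hx => ?_, fun x hx => ?_⟩
    · exact absurd (hx.1.trans hx.2.1) hδR
    · exact absurd (hx.1.trans hx.2.1) hδR
  have hR0 : 0 < R := hδ.trans_le hδR
  have key : ∀ y : E, δ ≤ ‖y‖ → |φ y| ≤ δ / 2 → δ / 2 ≤ √(‖y‖ ^ 2 - φ y ^ 2) ∧
      √(‖y‖ ^ 2 - φ y ^ 2) ^ 2 = ‖y‖ ^ 2 - φ y ^ 2 := by
    intro y h1 h2
    have h3 := abs_le.1 h2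
    have h4 : (δ / 2) ^ 2 ≤ ‖y‖ ^ 2 - φ y ^ 2 := by nlinarith
    refine ⟨Real.le_sqrt_of_sq_le h4, Real.sq_sqrt (le_trans (by positivity) h4)⟩
  refine ⟨R + 4 * R / δ, by positivity, fun x hx => ?_, fun x hx y hy => ?_⟩
  · obtain ⟨h1, h2⟩ := key x hx.1 hx.2.2
    rw [abs_of_nonneg (Real.sqrt_nonneg _)]
    have h3 : √(‖x‖ ^ 2 - φ x ^ 2) ≤ ‖x‖ := by
      rw [Real.sqrt_le_left (norm_nonneg _)]
      nlinarith [sq_nonneg (φ x)]
    have : 0 ≤ 4 * R / δ := by positivity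
    linarith [hx.2.1]
  · obtain ⟨a1, a2⟩ := key x hx.1 hx.2.2
    obtain ⟨b1, b2⟩ := key y hy.1 hy.2.2
    set X := √(‖x‖ ^ 2 - φ x ^ 2)
    set Y := √(‖y‖ ^ 2 - φ y ^ 2)
    have h1 : |‖x‖ - ‖y‖| ≤ ‖x - y‖ := abs_norm_sub_norm_le x y
    have h2 : |φ x - φ y| ≤ ‖x - y‖ := by
      have := hφ.dist_le_mul x y
      rwa [NNReal.coe_one, one_mul, Real.dist_eq, dist_eq_norm] at this
    have e1 : (X - Y) * (X + Y) = (‖x‖ - ‖y‖) * (‖x‖ + ‖y‖) - (φ x - φ y) * (φ x + φ y) := by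
      nlinarith
    have hx3 := abs_le.1 hx.2.2
    have hy3 := abs_le.1 hy.2.2
    have e2 : |X - Y| * (X + Y) ≤ 4 * R * ‖x - y‖ := by
      have hXY : 0 ≤ X + Y := by linarith
      calc |X - Y| * (X + Y) = |(X - Y) * (X + Y)| := by rw [abs_mul, abs_of_nonneg hXY]
        _ = |(‖x‖ - ‖y‖) * (‖x‖ + ‖y‖) - (φ x - φ y) * (φ x + φ y)| := by rw [e1]
        _ ≤ |(‖x‖ - ‖y‖) * (‖x‖ + ‖y‖)| + |(φ x - φ y) * (φ x + φ y)| := abs_sub _ _
        _ = |‖x‖ - ‖y‖| * |‖x‖ + ‖y‖| + |φ x - φ y| * |φ x + φ y| := by rw [abs_mul, abs_mul]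
        _ ≤ ‖x - y‖ * (2 * R) + ‖x - y‖ * (2 * R) := by
            gcongr
            · rw [abs_of_nonneg (by positivity)]
              linarith [hx.2.1, hy.2.1]
            · rw [abs_le]; constructor <;> linarith
        _ = 4 * R * ‖x - y‖ := by ring
    have e3 : |X - Y| * δ ≤ 4 * R * ‖x - y‖ :=
      le_trans (mul_le_mul_of_nonneg_left (by linarith) (abs_nonneg _)) e2
    have e4 : |X - Y| ≤ 4 * R / δ * ‖x - y‖ := by
      rw [div_mul_eq_mul_div, le_div_iff₀ hδ]; exact e3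
    have : 0 ≤ R * ‖x - y‖ := by positivity
    calc |X - Y| ≤ 4 * R / δ * ‖x - y‖ := e4
      _ ≤ (R + 4 * R / δ) * ‖x - y‖ := by nlinarith

lemma lip_nr {δ R : ℝ} (hδ : 0 < δ) (hs : 0 < s) (h2 : 2 * s ≤ δ / 2) (hφ : LipschitzWith 1 φ)
    (hζ : Lip ζ) (hc : HasCompactSupport ζ) (hb : ∀ y ∈ tsupport ζ, δ ≤ ‖y‖ ∧ ‖y‖ ≤ R) :
    Lip (nr s φ ζ) := by
  refine Lip.mul_LB (lip_cut hφ hζ hc) (hcs_cut hc)
    (S := {y : E | δ ≤ ‖y‖ ∧ ‖y‖ ≤ R ∧ |φ y| ≤ δ / 2}) (fun y hy => ?_) (LB_sqrt hδ hφ)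
  by_contra hne
  apply hy
  have h1 : ζ y ≠ 0 := fun h0 => hne (by unfold cut; rw [h0, zero_mul])
  have h3 : om (φ y / s) ≠ 0 := fun h0 => hne (by unfold cut; rw [h0, mul_zero])
  have h4 : y ∈ tsupport ζ := subset_tsupport ζ h1
  refine ⟨(hb y h4).1, (hb y h4).2, ?_⟩
  by_contra hcon
  push Not at hcon
  apply h3
  apply om_zero
  rw [abs_div, abs_of_pos hs, le_div_iff₀ hs]
  linarith

lemma hcs_nr (hc : HasCompactSupport ζ) : HasCompactSupport (nr s φ ζ) := (hcs_cut hc).mul_right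

lemma abs_nr_le (hle : ∀ y, |ζ y| ≤ η y) (y : E) : |nr s φ ζ y| ≤ nr s φ η y := by
  unfold nr cut
  rw [abs_mul, abs_mul, abs_of_nonneg (om_nonneg _), abs_of_nonneg (Real.sqrt_nonneg _)]
  exact mul_le_mul_of_nonneg_right (mul_le_mul_of_nonneg_right (hle y) (om_nonneg _))
    (Real.sqrt_nonneg _)

lemma nr_nonneg (h : ∀ y, 0 ≤ η y) (y : E) : 0 ≤ nr s φ η y :=
  mul_nonneg (mul_nonneg (h y) (om_nonneg _)) (Real.sqrt_nonneg _)

lemma nr_le (h : ∀ y, 0 ≤ η y) (y : E) : ‖y‖⁻¹ * nr s φ η y ≤ η y := by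
  by_cases hy : y = 0
  · subst hy; simpa using h 0
  · have hy' : 0 < ‖y‖ := norm_pos_iff.2 hy
    unfold nr cut
    have h3 : √(‖y‖ ^ 2 - φ y ^ 2) ≤ ‖y‖ := by
      rw [Real.sqrt_le_left (norm_nonneg _)]
      nlinarith [sq_nonneg (φ y)]
    rw [inv_mul_le_iff₀ hy']
    have h4 := om_le_one (φ y / s)
    have h5 := om_nonneg (φ y / s)
    have h6 : η y * om (φ y / s) ≤ η y := by nlinarith [h y]
    calc η y * om (φ y / s) * √(‖y‖ ^ 2 - φ y ^ 2) ≤ η y * ‖y‖ :=
          mul_le_mul h6 h3 (Real.sqrt_nonneg _) (h y)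
      _ = ‖y‖ * η y := by ring

/-! ### the theorem -/

lemma euler_of_hom (hom : ∀ t : ℝ, 0 ≤ t → ∀ x, φ (t • x) = t * φ x)
    (hφ : DifferentiableAt ℝ φ x) : fderiv ℝ φ x x = φ x := by
  have h1 : HasDerivAt (fun t : ℝ => t • x) x 1 := by
    simpa using (hasDerivAt_id (1 : ℝ)).smul_const x
  have h0 : HasFDerivAt φ (fderiv ℝ φ x) ((1 : ℝ) • x) := by
    rw [one_smul]; exact hφ.hasFDerivAt
  have h2 : HasDerivAt (fun t : ℝ => φ (t • x)) (fderiv ℝ φ x x) 1 :=
    h0.comp_hasDerivAt (1 : ℝ) h1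
  have h3 : HasDerivAt (fun t : ℝ => t * φ x) (φ x) 1 := by
    simpa using (hasDerivAt_id (1 : ℝ)).mul_const (φ x)
  have h4 : (fun t : ℝ => φ (t • x)) =ᶠ[𝓝 1] fun t => t * φ x := by
    filter_upwards [lt_mem_nhds (zero_lt_one (α := ℝ))] with t ht
    exact hom t ht.le x
  exact h2.unique (h3.congr_of_eventuallyEq h4)

lemma lip_abs (hφ : LipschitzWith 1 φ) : LipschitzWith 1 fun y => |φ y| := by
  refine LipschitzWith.of_dist_le_mul fun x y => ?_
  rw [NNReal.coe_one, one_mul, Real.dist_eq]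
  have h1 := abs_abs_sub_abs_le_abs_sub (φ x) (φ y)
  have h2 := hφ.dist_le_mul x y
  rw [NNReal.coe_one, one_mul, Real.dist_eq] at h2
  exact h1.trans h2

/-- measurability of the error term -/
lemma measurable_er (hc : Continuous φ) (hζ : Continuous (cut s φ ζ)) :
    Measurable (er s φ ζ) := by
  unfold er
  have h1 : Measurable fun x : E => fderiv ℝ (cut s φ ζ) x x :=
    (isBoundedBilinearMap_apply (𝕜 := ℝ) (E := E) (F := ℝ)).continuous.measurable.comp
      ((measurable_fderiv ℝ (cut s φ ζ)).prodMk measurable_id)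
  exact (hc.measurable.div (measurable_norm.pow_const 2)).mul (h1.add hζ.measurable)

lemma er_int {L M B δ R : ℝ} (hs : 0 < s) (hφ : LipschitzWith 1 φ)
    (hom : ∀ t : ℝ, 0 ≤ t → ∀ x, φ (t • x) = t * φ x) {L' : ℝ≥0} (hL' : LipschitzWith L' ζ)
    (hL : (L' : ℝ) ≤ L) (hc : HasCompactSupport ζ) (hM : ∀ x, |ζ x| ≤ M)
    (hB : ∀ t, |deriv (om : ℝ → ℝ) t * t| ≤ B) (hB0 : 0 ≤ B) (hδ : 0 < δ)
    (hb : ∀ y ∈ tsupport ζ, δ ≤ ‖y‖ ∧ ‖y‖ ≤ R) :
    Integrable (er s φ ζ) ∧ ∫ x, |er s φ ζ x| ≤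
      s * ((2 / δ ^ 2 * (L * R + M * B + M)) * volume.real (Metric.closedBall (0 : E) R)) := by
  have hae : ∀ᵐ x ∂(volume : Measure E), |er s φ ζ x| ≤
      (Metric.closedBall (0 : E) R).indicator
        (fun _ => s * (2 / δ ^ 2 * (L * R + M * B + M))) x := by
    filter_upwards [hφ.ae_differentiableAt, hL'.ae_differentiableAt] with x hφx hζx
    by_cases hx : x ∈ tsupport ζ
    · obtain ⟨h1, h2⟩ := hb x hx
      rw [indicator_of_mem (by rw [mem_closedBall_zero_iff]; exact h2)]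
      exact er_bound hs ((norm_fderiv_le_of_lipschitz ℝ hL').trans hL) (hM x) hB hB0 hδ
        hφ.continuous h1 h2 hφx (euler_of_hom hom hφx) hζx
    · rw [er_zero hx, abs_zero]
      by_cases hx2 : x ∈ Metric.closedBall (0 : E) R
      · rw [indicator_of_mem hx2]
        have hR0 : 0 ≤ R := (norm_nonneg x).trans (mem_closedBall_zero_iff.1 hx2)
        have hM0 : 0 ≤ M := (abs_nonneg _).trans (hM 0)
        have hL0 : 0 ≤ L := L'.2.trans hL
        positivity
      · rw [indicator_of_notMem hx2]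
  have hind : Integrable ((Metric.closedBall (0 : E) R).indicator
        (fun _ => s * (2 / δ ^ 2 * (L * R + M * B + M)))) :=
    (integrable_indicator_iff Metric.isClosed_closedBall.measurableSet).2
      (integrableOn_const (measure_closedBall_lt_top).ne)
  have hlip := lip_cut (s := s) hφ ⟨L', hL'⟩ hc
  have hcc : Continuous (cut s φ ζ) := by
    obtain ⟨K, hK⟩ := hlip; exact hK.continuous
  have hi : Integrable (er s φ ζ) :=
    hind.mono' (measurable_er hφ.continuous hcc).aestronglyMeasurable hae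
  refine ⟨hi, (integral_mono_ae hi.abs hind hae).trans ?_⟩
  rw [integral_indicator Metric.isClosed_closedBall.measurableSet, setIntegral_const]
  rw [smul_eq_mul]
  linarith

/-- **VAR for `φ` from VAR for `r = arcsin (φ/‖x‖)`.** -/
theorem VAR_of_VARr {φ r : E → ℝ} {μ : Measure E} [IsFiniteMeasureOnCompacts μ] (hD : ClassD φ)
    (hom : ∀ t : ℝ, 0 ≤ t → ∀ x, φ (t • x) = t * φ x)
    (hr : ∀ x, x ≠ 0 → r x = Real.arcsin (φ x * ‖x‖⁻¹))
    (hV : ∀ Z H : E → ℝ, Lip Z → Lip H → HasCompactSupport Z → HasCompactSupport H →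
      (∀ x, |Z x| ≤ H x) → tsupport H ⊆ {0}ᶜ → tsupport Z ⊆ {0}ᶜ →
      (∫ x, gi r Z x) - (∫ x, gi (fun y => |r y|) H x) ≤ 2 * ∫ x, ‖x‖⁻¹ * H x ∂μ) :
    VAR φ μ {0}ᶜ := by
  intro ζ η hζ hη hζc hηc hle hsub
  have hφ := hD.lip
  have hη0 : ∀ y, 0 ≤ η y := fun y => (abs_nonneg _).trans (hle y)
  have hζη : tsupport ζ ⊆ tsupport η := by
    apply closure_mono
    intro y hy h0
    have := hle y
    rw [h0] at this
    exact hy (abs_eq_zero.1 (le_antisymm this (abs_nonneg _)))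
  -- bounds of the support
  obtain ⟨R, hR⟩ := hηc.isCompact.isBounded.exists_norm_le
  obtain ⟨δ, hδ, hδη⟩ : ∃ δ : ℝ, 0 < δ ∧ ∀ y ∈ tsupport η, δ ≤ ‖y‖ := by
    by_cases hne : (tsupport η).Nonempty
    · obtain ⟨x0, hx0, hmin⟩ := hηc.isCompact.exists_isMinOn hne continuous_norm.continuousOn
      exact ⟨‖x0‖, norm_pos_iff.2 (hsub hx0), fun y hy => hmin hy⟩
    · rw [not_nonempty_iff_eq_empty] at hne
      exact ⟨1, one_pos, fun y hy => by rw [hne] at hy; exact absurd hy (notMem_empty _)⟩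
  have hbη : ∀ y ∈ tsupport η, δ ≤ ‖y‖ ∧ ‖y‖ ≤ R := fun y hy => ⟨hδη y hy, hR y hy⟩
  have hbζ : ∀ y ∈ tsupport ζ, δ ≤ ‖y‖ ∧ ‖y‖ ≤ R := fun y hy => hbη y (hζη hy)
  obtain ⟨L1, hL1⟩ := hζ
  obtain ⟨L2, hL2⟩ := hη
  obtain ⟨M1, hM1, hM1'⟩ := Lip.bdd ⟨L1, hL1⟩ hζc
  obtain ⟨M2, hM2, hM2'⟩ := Lip.bdd ⟨L2, hL2⟩ hηc
  obtain ⟨B, hB0, hB⟩ := om_deriv_bd
  set K1 : ℝ := (2 / δ ^ 2 * (L1 * R + M1 * B + M1)) * volume.real (Metric.closedBall (0 : E) R)
  set K2 : ℝ := (2 / δ ^ 2 * (L2 * R + M2 * B + M2)) * volume.real (Metric.closedBall (0 : E) R)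
  have hne : ∀ᵐ x ∂(volume : Measure E), x ≠ 0 := by
    by_cases hsing : ∀ᵐ x ∂(volume : Measure E), x ≠ 0
    · exact hsing
    · -- dimension zero: `‖∇ φ‖ = 1` a.e. is impossible unless volume = 0
      exfalso
      apply hsing
      rcases subsingleton_or_nontrivial E with hE | hE
      · filter_upwards [hD.grad] with x hx
        exfalso
        have : fderiv ℝ φ x = 0 := Subsingleton.elim _ _
        rw [this, norm_zero] at hx
        exact zero_ne_one hx
      · exact compl_mem_ae_iff.2 (measure_singleton 0)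
  -- the inequality for small `s`
  have main : ∀ s : ℝ, 0 < s → 2 * s < δ / 2 →
      (∫ x, gi φ ζ x) - (∫ x, gi (fun y => |φ y|) η x) ≤ 2 * ∫ x, η x ∂μ + s * (K1 + K2) := by
    intro s hs hs2
    have hs3 : 2 * s < δ := by linarith
    obtain ⟨hi1, hi1'⟩ := er_int (φ := φ) hs hφ hom hL1 le_rfl hζc hM1' hB hB0 hδ hbζ
    obtain ⟨hi2, hi2'⟩ := er_int (φ := φ) hs hφ hom hL2 le_rfl hηc hM2' hB hB0 hδ hbη
    -- Lipschitz facts
    obtain ⟨l1, hl1⟩ := lip_cut (s := s) hφ ⟨L1, hL1⟩ hζc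
    obtain ⟨l2, hl2⟩ := lip_cut (s := s) hφ ⟨L2, hL2⟩ hηc
    have hP : Lip fun y => η y - ζ y := ⟨_, hL2.sub hL1⟩
    have hQ : Lip fun y => η y + ζ y := ⟨_, hL2.add hL1⟩
    have hPc : HasCompactSupport fun y => η y - ζ y := hηc.sub hζc
    have hQc : HasCompactSupport fun y => η y + ζ y := hηc.add hζc
    have hP0 : ∀ y, 0 ≤ η y - ζ y := fun y => by have := (abs_le.1 (hle y)).2; linarith
    have hQ0 : ∀ y, 0 ≤ η y + ζ y := fun y => by have := (abs_le.1 (hle y)).1; linarith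
    have hφn : LipschitzWith 1 fun y => -φ y := hφ.neg
    obtain ⟨l3, hl3⟩ := lip_far (s := s) hφ hP hPc
    obtain ⟨l4, hl4⟩ := lip_far (s := s) hφn hQ hQc
    -- integrability
    have I1 := integrable_gi hφ hl1 (hcs_cut hζc)
    have I2 := integrable_gi (lip_abs hφ) hl2 (hcs_cut hηc)
    have I3 := integrable_gi hφ hl3 (hcs_far hPc)
    have I4 := integrable_gi hφ hl4 (hcs_far hQc)
    have J1 := integrable_gi hφ hL1 hζc
    have J2 := integrable_gi (lip_abs hφ) hL2 hηc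
    -- splitting
    have e1 : (∫ x, gi φ ζ x) - (∫ x, gi (fun y => |φ y|) η x) =
        (∫ x, gi φ (cut s φ ζ) x) - (∫ x, gi (fun y => |φ y|) (cut s φ η) x)
          - (∫ x, gi φ (far s φ (fun y => η y - ζ y)) x)
          + ∫ x, gi φ (far s (fun y => -φ y) (fun y => η y + ζ y)) x := by
      have I12 : Integrable fun x => gi φ (cut s φ ζ) x - gi (fun y => |φ y|) (cut s φ η) x :=
        I1.sub I2
      have I123 : Integrable fun x => gi φ (cut s φ ζ) x - gi (fun y => |φ y|) (cut s φ η) x -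
        gi φ (far s φ (fun y => η y - ζ y)) x := I12.sub I3
      rw [← integral_sub J1 J2, ← integral_sub I1 I2, ← integral_sub I12 I3,
        ← integral_add I123 I4]
      apply integral_congr_ae
      filter_upwards [hφ.ae_differentiableAt, hL1.ae_differentiableAt, hL2.ae_differentiableAt]
        with x h1 h2 h3
      exact split_id hs hφ.continuous h1 h2 h3
    have e2 : 0 ≤ ∫ x, gi φ (far s φ (fun y => η y - ζ y)) x :=
      hD.sup _ ⟨l3, hl3⟩ (hcs_far hPc) (far_nonneg hP0) (tsupport_far hs hφ.continuous)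
    have e3 : ∫ x, gi φ (far s (fun y => -φ y) (fun y => η y + ζ y)) x ≤ 0 :=
      hD.sub _ ⟨l4, hl4⟩ (hcs_far hQc) (far_nonneg hQ0) (fun y hy => by
        have := tsupport_far hs hφn.continuous hy
        have h5 : 0 < -φ y := this
        have h6 : φ y < 0 := by linarith
        exact h6)
    -- near part
    have hrE : ∀ x : E, x ≠ 0 → r =ᶠ[𝓝 x] fun y => Real.arcsin (φ y * ‖y‖⁻¹) := fun x hx => by
      filter_upwards [isOpen_compl_singleton.mem_nhds hx] with y hy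
      exact hr y hy
    have N1 : ∀ᵐ x ∂(volume : Measure E), gi r (nr s φ ζ) x = gi φ (cut s φ ζ) x - er s φ ζ x := by
      filter_upwards [hφ.ae_differentiableAt, hL1.ae_differentiableAt, hD.grad, hne]
        with x h1 h2 h3 h4
      exact near_cut hs hs3 hφ.continuous (fun y hy => (hbζ y hy).1) h4 h1 h3
        (euler_of_hom hom h1) (hrE x h4) h2
    have N2 : ∀ᵐ x ∂(volume : Measure E), gi (fun y => |r y|) (nr s φ η) x =
        gi (fun y => |φ y|) (cut s φ η) x - (SignType.sign (φ x) : ℝ) * er s φ η x := by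
      filter_upwards [hφ.ae_differentiableAt, hL2.ae_differentiableAt, hD.grad, hne]
        with x h1 h2 h3 h4
      exact near_abs hs hs3 hφ.continuous (fun y hy => (hbη y hy).1) h4 h1 h3
        (euler_of_hom hom h1) (hrE x h4) h2
    have hsgn : ∀ x, |(SignType.sign (φ x) : ℝ)| ≤ 1 := by
      intro x
      rcases lt_trichotomy (φ x) 0 with h | h | h
      · rw [sign_neg h]; simp
      · rw [h]; simp
      · rw [sign_pos h]; simp
    have hsm : Measurable fun x => (SignType.sign (φ x) : ℝ) := by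
      have h1 : Measurable fun t : ℝ => ((SignType.sign t : SignType) : ℝ) := by
        have : (fun t : ℝ => ((SignType.sign t : SignType) : ℝ)) =
            fun t => (Ioi (0:ℝ)).indicator (fun _ => (1:ℝ)) t
              - (Iio (0:ℝ)).indicator (fun _ => (1:ℝ)) t := by
          funext t
          rcases lt_trichotomy t 0 with h | h | h
          · rw [sign_neg h, indicator_of_notMem (by simp; exact h.le),
              indicator_of_mem (show t ∈ Iio (0:ℝ) from h)]; simp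
          · rw [h]; simp
          · rw [sign_pos h, indicator_of_mem (show t ∈ Ioi (0:ℝ) from h),
              indicator_of_notMem (by simp; exact h.le)]; simp
        rw [this]
        exact (measurable_const.indicator measurableSet_Ioi).sub
          (measurable_const.indicator measurableSet_Iio)
      exact h1.comp hφ.continuous.measurable
    have hi3 : Integrable fun x => (SignType.sign (φ x) : ℝ) * er s φ η x := by
      refine hi2.abs.mono' (hsm.aestronglyMeasurable.mul hi2.aestronglyMeasurable) ?_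
      refine Eventually.of_forall fun x => ?_
      rw [norm_mul, Real.norm_eq_abs, Real.norm_eq_abs]
      have := hsgn x
      nlinarith [abs_nonneg (er s φ η x)]
    have e4 : ∫ x, gi r (nr s φ ζ) x = (∫ x, gi φ (cut s φ ζ) x) - ∫ x, er s φ ζ x := by
      rw [integral_congr_ae N1, integral_sub I1 hi1]
    have e5 : ∫ x, gi (fun y => |r y|) (nr s φ η) x =
        (∫ x, gi (fun y => |φ y|) (cut s φ η) x) -
          ∫ x, (SignType.sign (φ x) : ℝ) * er s φ η x := by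
      rw [integral_congr_ae N2, integral_sub I2 hi3]
    have hsub1 : tsupport (nr s φ ζ) ⊆ {0}ᶜ := fun y hy => by
      have h1 : y ∈ tsupport ζ := by
        refine closure_mono ?_ hy
        intro z hz h0
        apply hz
        show cut s φ ζ z * _ = 0
        unfold cut; rw [h0]; simp
      exact hsub (hζη h1)
    have hsub2 : tsupport (nr s φ η) ⊆ {0}ᶜ := fun y hy => by
      have h1 : y ∈ tsupport η := by
        refine closure_mono ?_ hy
        intro z hz h0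
        apply hz
        show cut s φ η z * _ = 0
        unfold cut; rw [h0]; simp
      exact hsub h1
    have e6 := hV (nr s φ ζ) (nr s φ η) (lip_nr hδ hs hs2.le hφ ⟨L1, hL1⟩ hζc hbζ)
      (lip_nr hδ hs hs2.le hφ ⟨L2, hL2⟩ hηc hbη) (hcs_nr hζc) (hcs_nr hηc) (abs_nr_le hle)
      hsub2 hsub1
    have e7 : ∫ x, ‖x‖⁻¹ * nr s φ η x ∂μ ≤ ∫ x, η x ∂μ := by
      refine integral_mono_of_nonneg (Eventually.of_forall fun x =>
        mul_nonneg (inv_nonneg.2 (norm_nonneg _)) (nr_nonneg hη0 x))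
        (hL2.continuous.integrable_of_hasCompactSupport hηc)
        (Eventually.of_forall fun x => nr_le hη0 x)
    have e8 : ∫ x, er s φ ζ x ≤ s * K1 := by
      refine le_trans ?_ hi1'
      exact integral_mono hi1 hi1.abs fun x => le_abs_self _
    have e9 : -(s * K2) ≤ ∫ x, (SignType.sign (φ x) : ℝ) * er s φ η x := by
      have h1 : -∫ x, |er s φ η x| ≤ ∫ x, (SignType.sign (φ x) : ℝ) * er s φ η x := by
        rw [← integral_neg]
        refine integral_mono hi2.abs.neg hi3 fun x => ?_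
        have := hsgn x
        have h2 : |(SignType.sign (φ x) : ℝ) * er s φ η x| ≤ |er s φ η x| := by
          rw [abs_mul]; nlinarith [abs_nonneg (er s φ η x)]
        exact (abs_le.1 h2).1
      linarith
    rw [e1]
    rw [e4, e5] at e6
    linarith
  -- `s → 0`
  refine le_of_forall_pos_le_add fun τ hτ => ?_
  have hK1 : 0 ≤ |K1 + K2| := abs_nonneg _
  set s : ℝ := min (δ / 8) (τ / (|K1 + K2| + 1)) with hs
  have hs0 : 0 < s := lt_min (by positivity) (by positivity)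
  have hs1 : s ≤ δ / 8 := min_le_left _ _
  have hs2 : s ≤ τ / (|K1 + K2| + 1) := min_le_right _ _
  have h1 := main s hs0 (by linarith)
  have h2 : s * (K1 + K2) ≤ τ := by
    calc s * (K1 + K2) ≤ s * |K1 + K2| := mul_le_mul_of_nonneg_left (le_abs_self _) hs0.le
      _ ≤ s * (|K1 + K2| + 1) := by nlinarith
      _ ≤ (τ / (|K1 + K2| + 1)) * (|K1 + K2| + 1) := by gcongr
      _ = τ := by field_simp
  linarith

end Crest.Agent.R246.Vb872
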