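import Crest.Agent.R246.Eqp_538
import Crest.Agent.R246.Eqp_657
import Crest.Agent.R246.VarP_872
import Crest.Agent.R246.VarL_872
import Crest.Agent.R246.HomLim_782
import Crest.Agent.R246.E2g_858

/-!
Row 246, block E3 (helper538): the refined limit inequality and equipartition for minimisers (Q).
-/

set_option autoImplicit false

open Filter Topology Metric Set MeasureTheory
open scoped ContDiff RealInnerProductSpace NNReal
open Crest.GeometryTopology.CoordMetric Crest.GeometryTopology.AffineMaximal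
open Crest.Agent.R236.Jet Crest.Agent.R246.D2x782 Crest.Agent.R246.G873
open Crest.Agent.R246.Stress638
open Crest.Agent.R246.H990 (NullCone VB cV cV_pos)
open Crest.Agent.R246.Vb872 (dd dd_nonneg cont_dd)

noncomputable section

namespace Crest.Agent.R246.Lim538

variable {n : ℕ}

local notation "EE" => EuclideanSpace ℝ (Fin n)

/-- the reduced density `(3/4) |x| (q - dd)` -/
def wr (R : EuclideanSpace ℝ (Fin n) → ℝ) (ε : ℝ) (x : EuclideanSpace ℝ (Fin n)) : ℝ :=
  3 / 4 * ‖x‖ * (qq hw R ε x - dd hw R ε x)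

/-- the Gaussian integral of `|x| dd` -/
def Dd (R : EuclideanSpace ℝ (Fin n) → ℝ) (ε : ℝ) : ℝ :=
  ∫ x, Real.exp (-‖x‖ ^ 2) * (‖x‖ * dd hw R ε x)

theorem dd_le_qq {U : Set EE} {h r : EE → ℝ} {ε : ℝ} (H : ACSol U h r ε) {x : EE} (hx : x ∈ U) :
    dd h r ε x ≤ qq h r ε x := by
  have h1 := Vb872.pointwise_id H hx
  have h2 := abs_T0_le (r x / ε)
  have h3 : -(2 / 3 * |lapl r x|) ≤ T0 (r x / ε) * lapl r x := by
    have h4 : |T0 (r x / ε) * lapl r x| ≤ 2 / 3 * |lapl r x| := by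
      rw [abs_mul]; gcongr
    exact (abs_le.1 h4).1
  have h5 : 0 ≤ 1 / ε * (1 - Real.tanh (r x / ε) ^ 2) ^ 2 * gsq r x := by
    have := H.eps_pos
    have := gsq_nonneg r x
    positivity
  nlinarith

namespace Sol

variable {R : EuclideanSpace ℝ (Fin n) → ℝ} {ε : ℝ}

theorem wr_nonneg (H : Sol R ε) (x : EE) : 0 ≤ wr R ε x := by
  by_cases hx : x = 0
  · subst hx; simp [wr]
  · unfold wr
    have := dd_le_qq H.acsol (x := x) hx
    have h2 : 0 ≤ qq hw R ε x - dd hw R ε x := by linarith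
    positivity

theorem ndd_nonneg (H : Sol R ε) (x : EE) : 0 ≤ ‖x‖ * dd hw R ε x := by
  by_cases hx : x = 0
  · subst hx; simp
  · have := dd_nonneg H.acsol (x := x) hx
    positivity

theorem wr_eq (R : EE → ℝ) (ε : ℝ) (x : EE) :
    wr R ε x = wq R ε x - 3 / 4 * (‖x‖ * dd hw R ε x) := by
  unfold wr wq; ring

theorem wr_le (H : Sol R ε) (x : EE) : wr R ε x ≤ wq R ε x := by
  rw [wr_eq]; linarith [H.ndd_nonneg x]

theorem ndd_le (H : Sol R ε) (x : EE) : ‖x‖ * dd hw R ε x ≤ 4 / 3 * wq R ε x := by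
  have h1 := H.wr_nonneg x
  rw [wr_eq] at h1; linarith

theorem continuousOn_wr (H : Sol R ε) : ContinuousOn (wr R ε) ({0}ᶜ : Set EE) := by
  unfold wr
  exact (continuousOn_const.mul continuous_norm.continuousOn).mul
    (H.acsol.cont_qq.sub (cont_dd H.acsol))

theorem measurable_wr (H : Sol R ε) : Measurable (wr R ε) :=
  measurable_of_continuousOn_compl H.continuousOn_wr

theorem measurable_ndd (H : Sol R ε) : Measurable fun x : EE => ‖x‖ * dd hw R ε x :=
  measurable_of_continuousOn_compl (continuous_norm.continuousOn.mul (cont_dd H.acsol))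

theorem dd_smul (H : Sol R ε) {x : EE} (hx : x ≠ 0) {t : ℝ} (ht : 0 < t) :
    dd hw R ε (t • x) = (t ^ 2)⁻¹ * dd hw R ε x := by
  unfold dd
  rw [H.gsq_smul hx ht, hw_smul, H.sm.hom t x ht]
  ring

theorem wr_smul (H : Sol R ε) {x : EE} {t : ℝ} (ht : 0 < t) :
    wr R ε (t • x) = t⁻¹ * wr R ε x := by
  by_cases hx : x = 0
  · subst hx; simp [wr]
  · unfold wr
    rw [H.qq_smul hx ht, H.dd_smul hx ht, norm_smul, Real.norm_eq_abs, abs_of_pos ht]
    field_simp

theorem integrable_exp_wq (hn : 2 ≤ n) (H : Sol R ε) :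
    Integrable fun x : EE => Real.exp (-‖x‖ ^ 2) * wq R ε x := by
  have hfin : 2 ≤ Module.finrank ℝ EE := by simpa using hn
  have h1 := (Crest.Agent.R246.Vb872.integrable_gauss_radial hfin (b := 1) one_pos).const_mul
    (3 / (4 * ε))
  refine h1.mono' ?_ (Eventually.of_forall fun x => ?_)
  · exact ((Real.measurable_exp.comp (measurable_norm.pow_const 2).neg).mul
      H.measurable_wq).aestronglyMeasurable
  · have h2 := H.wq_nonneg x
    have h3 := H.wq_le x
    have h4 := H.pos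
    have h5 : 0 < Real.exp (-‖x‖ ^ 2) := Real.exp_pos _
    have h6 : 0 ≤ ‖x‖⁻¹ := by positivity
    have h7 : 0 ≤ ‖x‖ := norm_nonneg x
    rw [Real.norm_eq_abs, abs_of_nonneg (mul_nonneg h5.le h2)]
    calc Real.exp (-‖x‖ ^ 2) * wq R ε x ≤ Real.exp (-‖x‖ ^ 2) * (3 / (4 * ε) * ‖x‖⁻¹) := by
          gcongr
      _ ≤ Real.exp (-‖x‖ ^ 2) * (3 / (4 * ε) * (2 * ‖x‖⁻¹ + 1 + ‖x‖)) := by
          gcongr; linarith
      _ = 3 / (4 * ε) * (Real.exp (-1 * ‖x‖ ^ 2) * (2 * ‖x‖⁻¹ + 1 + ‖x‖)) := by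
          rw [neg_one_mul]; ring

theorem integrable_exp_ndd (hn : 2 ≤ n) (H : Sol R ε) :
    Integrable fun x : EE => Real.exp (-‖x‖ ^ 2) * (‖x‖ * dd hw R ε x) := by
  refine ((H.integrable_exp_wq hn).const_mul (4 / 3)).mono'
    ((Real.measurable_exp.comp (measurable_norm.pow_const 2).neg).mul
      H.measurable_ndd).aestronglyMeasurable (Eventually.of_forall fun x => ?_)
  have h1 := H.ndd_nonneg x
  have h2 := H.ndd_le x
  have h5 : 0 < Real.exp (-‖x‖ ^ 2) := Real.exp_pos _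
  rw [Real.norm_eq_abs, abs_of_nonneg (mul_nonneg h5.le h1)]
  calc Real.exp (-‖x‖ ^ 2) * (‖x‖ * dd hw R ε x) ≤ Real.exp (-‖x‖ ^ 2) * (4 / 3 * wq R ε x) := by
        gcongr
    _ = _ := by ring

theorem integral_exp_wq (hn : 2 ≤ n) (H : Sol R ε) :
    ∫ x : EE, Real.exp (-‖x‖ ^ 2) * wq R ε x = cV EE * (3 / 4 * sen R ε) := by
  have h1 := Vb872.mass_lintegral hn H.pos H.sm
  have h2 : 0 ≤ cV EE * (3 / 4 * sen R ε) := by
    have := cV_pos EE; have := H.sen_nonneg; positivity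
  rw [integral_eq_lintegral_of_nonneg_ae
    (Eventually.of_forall fun x => mul_nonneg (Real.exp_pos _).le (H.wq_nonneg x))
    (H.integrable_exp_wq hn).aestronglyMeasurable]
  have h3 : ∫⁻ x : EE, ENNReal.ofReal (Real.exp (-‖x‖ ^ 2) * wq R ε x) =
      ENNReal.ofReal (cV EE * (3 / 4 * sen R ε)) := by
    unfold sen
    rw [← h1]
    refine lintegral_congr fun x => ?_
    rw [ENNReal.ofReal_mul (Real.exp_pos _).le, den_eq_wq]
  rw [h3, ENNReal.toReal_ofReal h2]

theorem hw_wq (hn : 2 ≤ n) (H : Sol R ε) : HL782.HW (wq R ε) where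
  nonneg := H.wq_nonneg
  meas := H.measurable_wq
  hom := fun _ _ ht => H.wq_smul ht
  int := H.integrable_exp_wq hn

theorem Dd_nonneg (H : Sol R ε) : 0 ≤ Dd R ε :=
  integral_nonneg fun x => mul_nonneg (Real.exp_pos _).le (H.ndd_nonneg x)

theorem integral_exp_wr (hn : 2 ≤ n) (H : Sol R ε) :
    ∫ x : EE, Real.exp (-‖x‖ ^ 2) * wr R ε x = cV EE * (3 / 4 * sen R ε) - 3 / 4 * Dd R ε := by
  rw [← H.integral_exp_wq hn]
  unfold Dd
  rw [← integral_const_mul, ← integral_sub (H.integrable_exp_wq hn)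
    ((H.integrable_exp_ndd hn).const_mul _)]
  refine integral_congr_ae (Eventually.of_forall fun x => ?_)
  simp only [wr_eq]; ring

theorem hw_wr (hn : 2 ≤ n) (H : Sol R ε) : HL782.HW (wr R ε) where
  nonneg := H.wr_nonneg
  meas := H.measurable_wr
  hom := fun _ _ ht => H.wr_smul ht
  int := by
    have h1 := (H.integrable_exp_wq hn).sub ((H.integrable_exp_ndd hn).const_mul (3 / 4))
    refine h1.congr (Eventually.of_forall fun x => ?_)
    simp only [Pi.sub_apply, wr_eq]; ring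

theorem Dd_le (hn : 2 ≤ n) (H : Sol R ε) : Dd R ε ≤ cV EE * sen R ε := by
  have h1 : 0 ≤ ∫ x : EE, Real.exp (-‖x‖ ^ 2) * wr R ε x :=
    integral_nonneg fun x => mul_nonneg (Real.exp_pos _).le (H.wr_nonneg x)
  rw [H.integral_exp_wr hn] at h1
  linarith

end Sol

section seq

variable {ι : Type*} {F : Filter ι} {R : ι → EuclideanSpace ℝ (Fin n) → ℝ} {ε : ι → ℝ}
  {r : EuclideanSpace ℝ (Fin n) → ℝ}

/-- **refined VAR at the level of `r`** -/
theorem varr_limit [F.NeBot] (hn : 3 ≤ n) (H : ∀ k, Sol (R k) (ε k)) (h0 : Tendsto ε F (𝓝 0))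
    {C : ℝ} (hE : ∀ᶠ k in F, sen (R k) (ε k) ≤ C) (hconv : TendstoUniformlyOn R r F {0}ᶜ)
    {Z K : EE → ℝ} (hZ : Lip Z) (hK : Lip K) (hZc : HasCompactSupport Z)
    (hKc : HasCompactSupport K) (hle : ∀ x, |Z x| ≤ K x) (hKs : tsupport K ⊆ {0}ᶜ)
    (hZs : tsupport Z ⊆ {0}ᶜ) {L : ℝ}
    (hL : Tendsto (fun k => ∫ x, (qq hw (R k) (ε k) x - dd hw (R k) (ε k) x) * K x) F (𝓝 L)) :
    (∫ x, gi r Z x) - (∫ x, gi (fun y => |r y|) K x) ≤ 3 / 2 * L := by
  have S := E2x858.acseq_base hn (Eventually.of_forall fun k => (H k).pos) h0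
    (Eventually.of_forall fun k => (H k).sm) (Eventually.of_forall fun k => (H k).ac) hE hconv
  have h1 := S.tendsto_test hZ hZc hZs
  have h2 := (S.tendsto_T0 hK hKc hKs).const_mul (3 / 2)
  have h3 := le_of_tendsto_of_tendsto' (h1.sub h2) (hL.const_mul (3 / 2)) (fun k => by
    have := Vb872.VAR_lip (H k).acsol (⟨hZ, hZc, hZs⟩ : Vb872.LCut {0}ᶜ Z) ⟨hK, hKc, hKs⟩ hle
    simp only [← Vb872.gi_eq_dot] at this
    exact this)
  have h4 : 3 / 2 * (2 / 3 * ∫ x, ⟪gradient (fun y => |r y|) x, gradient K x⟫) =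
      ∫ x, gi (fun y => |r y|) K x := by
    unfold gi; ring
  rw [h4] at h3
  exact h3

/-- continuous, compactly supported quotient by the norm -/
theorem div_norm_test {K : EE → ℝ} (hK : Continuous K) (hKc : HasCompactSupport K)
    (hKs : tsupport K ⊆ {0}ᶜ) :
    Continuous (fun x : EE => ‖x‖⁻¹ * K x) ∧ HasCompactSupport fun x : EE => ‖x‖⁻¹ * K x := by
  refine ⟨continuous_mul_of_tsupport isOpen_compl_singleton ?_ hK hKs, hKc.mul_left⟩
  intro x hx
  exact (continuous_norm.continuousAt.inv₀ (norm_ne_zero_iff.2 hx)).continuousWithinAt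

/-- the refined density gives a measure with VAR -/
theorem var_of_wr [F.NeBot] (hn : 3 ≤ n) (H : ∀ k, Sol (R k) (ε k)) (h0 : Tendsto ε F (𝓝 0))
    {C : ℝ} (hE : ∀ᶠ k in F, sen (R k) (ε k) ≤ C) (hconv : TendstoUniformlyOn R r F {0}ᶜ)
    {φ : EE → ℝ} (hD : ClassD φ) (hom : ∀ t : ℝ, 0 ≤ t → ∀ x, φ (t • x) = t * φ x)
    (hr : ∀ x, x ≠ 0 → r x = Real.arcsin (φ x * ‖x‖⁻¹))
    {μ : Measure EE} [IsFiniteMeasureOnCompacts μ]
    (loc : ∀ f : EE → ℝ, Continuous f → HasCompactSupport f →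
      Tendsto (fun k => ∫ x, f x * wr (R k) (ε k) x) F (𝓝 (∫ x, f x ∂μ))) :
    VAR φ μ {0}ᶜ := by
  refine Vb872.VAR_of_VARr hD hom hr fun Z K hZ hK hZc hKc hle hKs hZs => ?_
  obtain ⟨c1, c2⟩ := div_norm_test hK.choose_spec.continuous hKc hKs
  have h1 := (loc _ c1 c2).const_mul (4 / 3)
  have h2 := varr_limit hn H h0 hE hconv hZ hK hZc hKc hle hKs hZs (h1.congr fun k => by
    rw [← integral_const_mul]
    refine integral_congr_ae (Eventually.of_forall fun x => ?_)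
    simp only [wr]
    by_cases hx : x = 0
    · have : K x = 0 := by
        apply image_eq_zero_of_notMem_tsupport
        intro h; exact hKs h hx
      rw [this]; ring
    · have : ‖x‖ ≠ 0 := norm_ne_zero_iff.2 hx
      field_simp)
  linarith

/-- the plain version -/
theorem var_of_wq [F.NeBot] (hn : 3 ≤ n) (H : ∀ k, Sol (R k) (ε k)) (h0 : Tendsto ε F (𝓝 0))
    {C : ℝ} (hE : ∀ᶠ k in F, sen (R k) (ε k) ≤ C) (hconv : TendstoUniformlyOn R r F {0}ᶜ)
    {φ : EE → ℝ} (hD : ClassD φ) (hom : ∀ t : ℝ, 0 ≤ t → ∀ x, φ (t • x) = t * φ x)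
    (hr : ∀ x, x ≠ 0 → r x = Real.arcsin (φ x * ‖x‖⁻¹))
    {μ : Measure EE} [IsFiniteMeasureOnCompacts μ] (loc : MLim F R ε μ) :
    VAR φ μ {0}ᶜ := by
  set 𝒰 : Ultrafilter ι := Ultrafilter.of F with h𝒰
  have hle𝒰 : (𝒰 : Filter ι) ≤ F := Ultrafilter.of_le F
  refine Vb872.VAR_of_VARr hD hom hr fun Z K hZ hK hZc hKc hle hKs hZs => ?_
  obtain ⟨c1, c2⟩ := div_norm_test hK.choose_spec.continuous hKc hKs
  have hK0 : ∀ x, 0 ≤ K x := fun x => (abs_nonneg _).trans (hle x)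
  have h1 := (loc _ c1 c2).mono_left hle𝒰
  -- the refined integrals are bounded
  have hb : ∀ k, 0 ≤ ∫ x, (qq hw (R k) (ε k) x - dd hw (R k) (ε k) x) * K x ∧
      ∫ x, (qq hw (R k) (ε k) x - dd hw (R k) (ε k) x) * K x ≤
        4 / 3 * ∫ x, wq (R k) (ε k) x * (‖x‖⁻¹ * K x) := by
    intro k
    have hnn : ∀ x, 0 ≤ (qq hw (R k) (ε k) x - dd hw (R k) (ε k) x) * K x := by
      intro x
      by_cases hx : x = 0
      · have : K x = 0 := by
          apply image_eq_zero_of_notMem_tsupport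
          intro h; exact hKs h hx
        rw [this]; simp
      · exact mul_nonneg (by linarith [dd_le_qq (H k).acsol (x := x) hx]) (hK0 x)
    refine ⟨integral_nonneg hnn, ?_⟩
    rw [← integral_const_mul]
    refine integral_mono_of_nonneg (Eventually.of_forall hnn)
      (((H k).integrable_wq_mul (by omega) c1 c2).const_mul _) (Eventually.of_forall fun x => ?_)
    simp only
    by_cases hx : x = 0
    · have : K x = 0 := by
        apply image_eq_zero_of_notMem_tsupport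
        intro h; exact hKs h hx
      rw [this]; simp
    · have h5 : ‖x‖ ≠ 0 := norm_ne_zero_iff.2 hx
      have h6 := dd_nonneg (H k).acsol (x := x) hx
      have h7 : 4 / 3 * (wq (R k) (ε k) x * (‖x‖⁻¹ * K x)) = qq hw (R k) (ε k) x * K x := by
        unfold wq; field_simp
      rw [h7]
      have := hK0 x
      nlinarith
  have hb1 : ∃ C : ℝ, ∀ᶠ k in (𝒰 : Filter ι),
      |∫ x, (qq hw (R k) (ε k) x - dd hw (R k) (ε k) x) * K x| ≤ C := by
    refine ⟨4 / 3 * (∫ x, ‖x‖⁻¹ * K x ∂μ) + 4 / 3, ?_⟩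
    filter_upwards [h1.eventually (gt_mem_nhds (lt_add_one _))] with k hk
    rw [abs_of_nonneg (hb k).1]
    refine (hb k).2.trans ?_
    linarith
  have hul := tendsto_ul 𝒰 hb1
  have h2 := varr_limit (F := (𝒰 : Filter ι)) hn H (h0.mono_left hle𝒰) (hE.filter_mono hle𝒰)
    (fun u hu => (hconv u hu).filter_mono hle𝒰) hZ hK hZc hKc hle hKs hZs hul
  have h3 := le_of_tendsto_of_tendsto' hul (h1.const_mul (4 / 3)) fun k => (hb k).2
  linarith

end seq

/-! ### equipartition -/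

/-- along every ultrafilter the energy defect vanishes -/
theorem defect_ultra {m : ℕ} (hm : 1 ≤ m) {U : Filter ℕ} {ε : ℕ → ℝ} {R : ℕ → Skel656.E m → ℝ}
    {r φ : Skel656.E m → ℝ} {μ : Measure (Skel656.E m)} {a : ℝ}
    (hL : Skel2.ACLim m U ε R r φ μ a) (hM : Skel2.LimM φ μ (a * cV (Skel656.E m)))
    (hN : NullCone φ) (hmin : ∀ A, VB φ A → a ≤ A) (𝒰 : Ultrafilter ℕ)
    (hle : (𝒰 : Filter ℕ) ≤ U) : Tendsto (fun k => Dd (R k) (ε k)) (𝒰 : Filter ℕ) (𝓝 0) := by
  have hfinμ := hL.fin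
  have hn : 2 ≤ m + 2 := by omega
  have hn3 : 3 ≤ m + 2 := by omega
  have H : ∀ k, Sol (R k) (ε k) := fun k => ACsol_sol hm (hL.sol k)
  have hcV := cV_pos (Skel656.E m)
  have h0 := hL.eps.mono_left hle
  have hconv : TendstoUniformlyOn R r (𝒰 : Filter ℕ) {0}ᶜ :=
    fun u hu => (hL.conv u hu).filter_mono hle
  have hen : Tendsto (fun k => 3 / 4 * sen (R k) (ε k)) (𝒰 : Filter ℕ) (𝓝 a) :=
    (hL.en.mono_left hle).congr fun k => by rw [sen_eq (hL.sol k)]
  have hC : ∀ᶠ k in (𝒰 : Filter ℕ), sen (R k) (ε k) ≤ 4 / 3 * (a + 1) := by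
    filter_upwards [hen.eventually (gt_mem_nhds (lt_add_one a))] with k hk
    linarith
  have hMμ : MLim (𝒰 : Filter ℕ) R ε μ := fun f hf hc => (mlim_of hL f hf hc).mono_left hle
  -- the defect
  have hDb : ∃ C : ℝ, ∀ᶠ k in (𝒰 : Filter ℕ), |Dd (R k) (ε k)| ≤ C := by
    refine ⟨cV (Skel656.E m) * (4 / 3 * (a + 1)), ?_⟩
    filter_upwards [hC] with k hk
    rw [abs_of_nonneg (H k).Dd_nonneg]
    exact ((H k).Dd_le hn).trans (by gcongr)
  have hD := tendsto_ul 𝒰 hDb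
  set D := ul 𝒰 (fun k => Dd (R k) (ε k)) with hDdef
  have hD0 : 0 ≤ D := ge_of_tendsto' hD fun k => (H k).Dd_nonneg
  -- bounded masses: modify the sequence off a large set
  obtain ⟨k0, hk0⟩ := hC.exists
  set w : ℕ → Skel656.E m → ℝ := fun k =>
    if sen (R k) (ε k) ≤ 4 / 3 * (a + 1) then wr (R k) (ε k) else wr (R k0) (ε k0) with hw'
  have hwev : ∀ᶠ k in (𝒰 : Filter ℕ), w k = wr (R k) (ε k) := by
    filter_upwards [hC] with k hk
    simp only [hw', if_pos hk]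
  have hHW : ∀ k, HL782.HW (w k) := by
    intro k
    simp only [hw']
    split_ifs
    · exact (H k).hw_wr hn
    · exact (H k0).hw_wr hn
  have hwC : ∀ k, ∫ x, Real.exp (-‖x‖ ^ 2) * w k x ≤
      cV (Skel656.E m) * (3 / 4 * (4 / 3 * (a + 1))) := by
    intro k
    simp only [hw']
    split_ifs with hk
    · rw [(H k).integral_exp_wr hn]
      have h1 := (H k).Dd_nonneg
      have h2 : cV (Skel656.E m) * (3 / 4 * sen (R k) (ε k)) ≤
        cV (Skel656.E m) * (3 / 4 * (4 / 3 * (a + 1))) := by gcongr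
      linarith
    · rw [(H k0).integral_exp_wr hn]
      have h1 := (H k0).Dd_nonneg
      have h2 : cV (Skel656.E m) * (3 / 4 * sen (R k0) (ε k0)) ≤
        cV (Skel656.E m) * (3 / 4 * (4 / 3 * (a + 1))) := by gcongr
      linarith
  obtain ⟨ν, hνfin, hνloc⟩ := HL782.exists_lim 𝒰 hHW hwC
  have hνloc' : ∀ f : Skel656.E m → ℝ, Continuous f → HasCompactSupport f →
      Tendsto (fun k => ∫ x, f x * wr (R k) (ε k) x) (𝒰 : Filter ℕ) (𝓝 (∫ x, f x ∂ν)) := by
    intro f hf hc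
    refine (hνloc f hf hc).congr' ?_
    filter_upwards [hwev] with k hk
    rw [hk]
  -- VAR
  have hr : ∀ x, x ≠ 0 → r x = Real.arcsin (φ x * ‖x‖⁻¹) := by
    intro x hx
    have h1 : ‖x‖ ≠ 0 := norm_ne_zero_iff.2 hx
    have h2 := abs_le.1 (hL.rpi x hx)
    rw [hL.phi x, mul_comm ‖x‖, mul_assoc, mul_inv_cancel₀ h1, mul_one,
      Real.arcsin_sin (by linarith) h2.2]
  have hvar : VAR φ ν {0}ᶜ :=
    var_of_wr hn3 H h0 hC hconv hM.cD hM.hom hr hνloc'
  -- concentration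
  have hφc : Continuous φ := hM.cD.lip.continuous
  have hconc : ν {x | φ x ≠ 0} = 0 := by
    refine measure_zero_of_open (isOpen_ne_fun hφc continuous_const)
      fun K hK hKW f hf hf0 hfK => ?_
    have hc : HasCompactSupport f := HasCompactSupport.intro hK hfK
    have h1 : ∫ x, f x ∂μ = 0 := by
      have h2 : f =ᵐ[μ] fun _ => 0 := by
        have h3 : ∀ᵐ x ∂μ, φ x = 0 := by
          rw [ae_iff]; exact hM.conc
        filter_upwards [h3] with x hx
        apply hfK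
        intro hxK
        exact hKW hxK hx
      rw [integral_congr_ae h2, integral_zero]
    have h2 : ∫ x, f x ∂ν ≤ ∫ x, f x ∂μ := by
      refine le_of_tendsto_of_tendsto' (hνloc' f hf hc) (hMμ f hf hc) fun k => ?_
      refine integral_mono (((H k).hw_wr hn).integrable_mul hf hc)
        ((H k).integrable_wq_mul hn hf hc) fun x => ?_
      have := (H k).wr_le x
      have := hf0 x
      simp only
      nlinarith
    exact le_antisymm (h2.trans h1.le) (integral_nonneg hf0)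
  -- mass
  have hA : Tendsto (fun k => ∫ x, Real.exp (-‖x‖ ^ 2) * w k x) (𝒰 : Filter ℕ)
      (𝓝 (cV (Skel656.E m) * a - 3 / 4 * D)) := by
    have h1 := (hen.const_mul (cV (Skel656.E m))).sub (hD.const_mul (3 / 4))
    refine h1.congr' ?_
    filter_upwards [hwev] with k hk
    rw [hk, (H k).integral_exp_wr hn]
  have hmass := HL782.mass hHW hνloc hA
  have hA0 : 0 ≤ cV (Skel656.E m) * a - 3 / 4 * D :=
    ge_of_tendsto' hA fun k => (hHW k).integral_nonneg'
  have hVB := Vb872.VB_of_VAR (E := Skel656.E m) (by simp [Skel656.E]) hN hvar hconc hA0 hmass.le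
  have h9 := hmin _ hVB
  rw [le_div_iff₀ hcV] at h9
  have hD00 : D = 0 := by
    apply le_antisymm _ hD0
    linarith
  rw [hD00] at hD
  exact hD

theorem defect_tendsto {m : ℕ} (hm : 1 ≤ m) {U : Filter ℕ} {ε : ℕ → ℝ} {R : ℕ → Skel656.E m → ℝ}
    {r φ : Skel656.E m → ℝ} {μ : Measure (Skel656.E m)} {a : ℝ}
    (hL : Skel2.ACLim m U ε R r φ μ a) (hM : Skel2.LimM φ μ (a * cV (Skel656.E m)))
    (hN : NullCone φ) (hmin : ∀ A, VB φ A → a ≤ A) :
    Tendsto (fun k => Dd (R k) (ε k)) U (𝓝 0) :=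
  (tendsto_iff_ultrafilter _ _ _).2 fun 𝒰 h𝒰 => defect_ultra hm hL hM hN hmin 𝒰 h𝒰

/-- **(Q)** -/
theorem stQ {m : ℕ} (hm : 1 ≤ m) : StQ m := by
  intro U ε R r φ μ a hL hM hN hmin
  have hU := hL.neBot
  have hn3 : 3 ≤ m + 2 := by omega
  have hdef := defect_tendsto hm hL hM hN hmin
  have hC : ∀ᶠ k in U, sen (R k) (ε k) ≤ 4 / 3 * (a + 1) := by
    filter_upwards [hL.en.eventually (gt_mem_nhds (lt_add_one a))] with k hk
    rw [sen_eq (hL.sol k)] at hk
    linarith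
  obtain ⟨k0, hk0⟩ := hC.exists
  set R' : ℕ → Skel656.E m → ℝ := fun k =>
    if sen (R k) (ε k) ≤ 4 / 3 * (a + 1) then R k else R k0 with hR'
  set ε' : ℕ → ℝ := fun k =>
    if sen (R k) (ε k) ≤ 4 / 3 * (a + 1) then ε k else ε k0 with hε'
  have hev : ∀ᶠ k in U, R' k = R k ∧ ε' k = ε k := by
    filter_upwards [hC] with k hk
    simp only [hR', hε', if_pos hk, and_self]
  have hsol : ∀ k, Skel656.ACsol m (ε' k) (R' k) := by
    intro k
    simp only [hR', hε']
    split_ifs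
    · exact hL.sol k
    · exact hL.sol k0
  have hsen : ∀ k, sen (R' k) (ε' k) ≤ 4 / 3 * (a + 1) := by
    intro k
    simp only [hR', hε']
    split_ifs with hk
    · exact hk
    · exact hk0
  have hdef' : Tendsto (fun k => Dd (R' k) (ε' k)) U (𝓝 0) := by
    refine hdef.congr' ?_
    filter_upwards [hev] with k hk
    rw [hk.1, hk.2]
  have h1 := Eqp657.disc_tendsto hn3 (C := 3 / 2 * (4 / 3 * (a + 1))) (fun k => (hsol k).sm)
    (fun k => (hsol k).pos) (fun k => (hsol k).eq)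
    (fun k => (integral_abs_slap_le hn3 (hsol k).pos (hsol k).sm (hsol k).eq).trans
      (mul_le_mul_of_nonneg_left (hsen k) (by norm_num))) hdef'
  refine h1.congr' ?_
  filter_upwards [hev] with k hk
  rw [hk.1, hk.2]
  rfl

/-- **StEqp** -/
theorem stEqp {m : ℕ} (hm : 1 ≤ m) : Skel2.StEqp m := stEqp_of hm (stQ hm)

end Crest.Agent.R246.Lim538
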