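import Crest.Agent.R097.HarmWeyl

/-!
# Row 246 (Solomon-Yau), helper656: elliptic regularity, part 1: the gain of one derivative
`Gp t g x = ∫_0^t ∫ g(y) pot_s(x,y) dy ds` (a truncated Newtonian potential without Newtonian kernel).
* `contDiff_Gp_one`: bounded integrable `g` gives `Gp t g ∈ C¹`.
* `contDiff_Gp`: `g ∈ C^n_c` gives `Gp t g ∈ C^{n+1}`.
-/

set_option autoImplicit false
open MeasureTheory Metric Set Laplacian InnerProductSpace Topology Filter
open scoped RealInnerProductSpace NNReal ENNReal ContDiff Gradient Convolution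
open Crest.Agent.R097 (E)
open Crest.Agent.R097.Hm

namespace Crest.Agent.R246.Reg656
noncomputable section
variable {d : ℕ}

/-- the derivative of `x ↦ pot 1 s x y` -/
def DK (s : ℝ) (x y : E d) : E d →L[ℝ] ℝ :=
  ((s ^ (d + 1))⁻¹ * eta 1 (‖y - x‖ ^ 2 / s ^ 2)) • innerSL ℝ (x - y)

lemma hasFDerivAt_pot_left {s : ℝ} (hs : 0 < s) (x y : E d) :
    HasFDerivAt (fun x => pot 1 s x y) (DK s x y) x := by
  have h1 : HasFDerivAt (fun x : E d => ‖y - x‖ ^ 2) (2 • (innerSL ℝ (y - x)).comp
      (-(ContinuousLinearMap.id ℝ (E d)))) x :=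
    ((hasFDerivAt_id x).const_sub y).norm_sq
  have h2 : HasFDerivAt (fun x : E d => ‖y - x‖ ^ 2 / s ^ 2) ((s ^ 2)⁻¹ • (2 • (innerSL ℝ (y - x)).comp
      (-(ContinuousLinearMap.id ℝ (E d))))) x := by
    have := h1.const_mul (s ^ 2)⁻¹
    refine this.congr_of_eventuallyEq (Eventually.of_forall fun z => ?_)
    simp only [div_eq_inv_mul]
  have h3 := (hasDerivAt_phi0 1 (‖y - x‖ ^ 2 / s ^ 2)).comp_hasFDerivAt x h2
  have h4 := h3.const_mul (s * (s ^ d)⁻¹)
  refine h4.congr_fderiv ?_
  ext v
  have hs' : s ≠ 0 := hs.ne'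
  simp only [DK, smul_apply, ContinuousLinearMap.comp_apply,
    neg_apply, ContinuousLinearMap.id_apply, innerSL_apply_apply, smul_eq_mul,
    nsmul_eq_mul, inner_neg_right, inner_sub_left]
  field_simp
  ring

lemma norm_DK_le {s : ℝ} (hs : 0 < s) (x y : E d) :
    ‖DK s x y‖ ≤ (closedBall x s).indicator (fun _ => (s ^ d)⁻¹) y := by
  by_cases hy : ‖y - x‖ < s
  · rw [indicator_of_mem (by rw [mem_closedBall, dist_eq_norm]; exact hy.le)]
    unfold DK
    rw [norm_smul, innerSL_apply_norm, norm_mul, Real.norm_eq_abs, Real.norm_eq_abs,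
      abs_of_nonneg (by positivity : (0:ℝ) ≤ (s ^ (d + 1))⁻¹), abs_of_nonneg (eta_nonneg _ _),
      norm_sub_rev x y]
    have h1 := eta_le_one 1 (‖y - x‖ ^ 2 / s ^ 2)
    have h0 := eta_nonneg 1 (‖y - x‖ ^ 2 / s ^ 2)
    have h2 : (s ^ (d + 1))⁻¹ * eta 1 (‖y - x‖ ^ 2 / s ^ 2) * ‖y - x‖ ≤ (s ^ (d + 1))⁻¹ * 1 * s := by
      gcongr
    refine h2.trans (le_of_eq ?_)
    field_simp
    ring
  · push Not at hy
    have h0 : DK s x y = 0 := by
      unfold DK
      rw [eta_zero 1 (one_le_ratio hs hy)]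
      simp
    rw [h0, norm_zero]
    exact indicator_nonneg (fun _ _ => by positivity) _

lemma norm_DK_le' {s : ℝ} (hs : 0 < s) (x y : E d) : ‖DK s x y‖ ≤ (s ^ d)⁻¹ :=
  (norm_DK_le hs x y).trans (indicator_le_self' (fun _ _ => by positivity) y)

lemma measurable_DK (x : E d) : Measurable (fun p : ℝ × E d => DK p.1 x p.2) := by
  unfold DK
  have h1 : Measurable fun p : ℝ × E d => ((p.1 ^ (d + 1))⁻¹ * eta 1 (‖p.2 - x‖ ^ 2 / p.1 ^ 2)) :=
    (by fun_prop : Measurable fun p : ℝ × E d => (p.1 ^ (d + 1))⁻¹).mul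
      ((continuous_eta 1).measurable.comp (by fun_prop))
  have h2 : Continuous fun p : ℝ × E d => innerSL ℝ (x - p.2) := by fun_prop
  exact h1.smul h2.measurable

lemma continuous_DK_left (s : ℝ) (y : E d) : Continuous (fun x : E d => DK s x y) := by
  unfold DK
  have h1 : Continuous fun x : E d => eta 1 (‖y - x‖ ^ 2 / s ^ 2) :=
    (continuous_eta 1).comp (by fun_prop)
  have h2 : Continuous fun x : E d => innerSL ℝ (x - y) := by fun_prop
  exact (continuous_const.mul h1).smul h2

lemma measurable_pot (x : E d) : Measurable (fun p : ℝ × E d => pot 1 p.1 x p.2) := by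
  unfold pot
  exact (by fun_prop : Measurable fun p : ℝ × E d => p.1 * (p.1 ^ d)⁻¹).mul
    ((contDiff_phi0 1).continuous.measurable.comp (by fun_prop))

lemma abs_pot_le {s : ℝ} (hs : 0 < s) (x y : E d) :
    |pot 1 s x y| ≤ (closedBall x s).indicator (fun _ => s * (s ^ d)⁻¹) y := by
  rw [abs_of_nonpos (pot_nonpos 1 hs.le x y)]
  refine (neg_pot_le 1 hs x y).trans (indicator_le_indicator ?_)
  have : 0 ≤ s * (s ^ d)⁻¹ := by positivity
  linarith

lemma abs_pot_le' {s : ℝ} (hs : 0 < s) (x y : E d) : |pot 1 s x y| ≤ s * (s ^ d)⁻¹ :=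
  (abs_pot_le hs x y).trans (indicator_le_self' (fun _ _ => by positivity) y)

/-- potential at scale `s` -/
def Ps (s : ℝ) (g : E d → ℝ) (x : E d) : ℝ := ∫ y, g y * pot 1 s x y

/-- its derivative -/
def DPs (s : ℝ) (g : E d → ℝ) (x : E d) : E d →L[ℝ] ℝ := ∫ y, g y • DK s x y

lemma integrable_mul_pot {g : E d → ℝ} {s : ℝ} (hs : 0 < s) {x : E d} (hg : IntegrableOn g (closedBall x s)) :
    Integrable (fun y => g y * pot 1 s x y) := by
  refine integrable_mul_of_supp isClosed_closedBall.measurableSet hg (contDiff_pot 1 s x).continuous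
    (C := s * (s ^ d)⁻¹) (fun y => abs_pot_le' hs x y) (fun y hy => ?_)
  apply pot_zero 1 hs
  rw [mem_closedBall, dist_eq_norm, not_le] at hy
  exact hy.le

lemma aesm_DK {g : E d → ℝ} (hg : AEStronglyMeasurable g) (s : ℝ) (x : E d) :
    AEStronglyMeasurable (fun y => g y • DK s x y) := by
  have h1 : Measurable fun y : E d => DK s x y :=
    (measurable_DK x).comp (measurable_const.prodMk measurable_id)
  exact hg.smul h1.aestronglyMeasurable

lemma hasFDerivAt_Ps {g : E d → ℝ} (hg : Integrable g) {s : ℝ} (hs : 0 < s) (x : E d) :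
    HasFDerivAt (Ps s g) (DPs s g x) x := by
  unfold DPs
  refine hasFDerivAt_integral_of_dominated_of_fderiv_le (s := univ) (bound := fun y => |g y| * (s ^ d)⁻¹)
    (F := fun x y => g y * pot 1 s x y) (F' := fun x y => g y • DK s x y)
    univ_mem ?_ ?_ ?_ ?_ ?_ ?_
  · exact Eventually.of_forall fun z => (integrable_mul_pot hs hg.integrableOn).aestronglyMeasurable
  · exact integrable_mul_pot hs hg.integrableOn
  · exact aesm_DK hg.aestronglyMeasurable s x
  · refine Eventually.of_forall fun y z _ => ?_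
    rw [norm_smul, Real.norm_eq_abs]
    exact mul_le_mul_of_nonneg_left (norm_DK_le' hs z y) (abs_nonneg _)
  · exact hg.abs.mul_const _
  · refine Eventually.of_forall fun y z _ => ?_
    have := (hasFDerivAt_pot_left hs z y).const_mul (g y)
    exact this

lemma continuous_DPs {g : E d → ℝ} (hg : Integrable g) {s : ℝ} (hs : 0 < s) :
    Continuous (DPs s g) := by
  refine continuous_of_dominated (bound := fun y => |g y| * (s ^ d)⁻¹)
    (fun x => aesm_DK hg.aestronglyMeasurable s x) (fun x => ?_) (hg.abs.mul_const _) ?_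
  · refine Eventually.of_forall fun y => ?_
    rw [norm_smul, Real.norm_eq_abs]
    exact mul_le_mul_of_nonneg_left (norm_DK_le' hs x y) (abs_nonneg _)
  · exact Eventually.of_forall fun y => (continuous_DK_left s y).const_smul (g y)

lemma norm_DPs_le {g : E d → ℝ} {M : ℝ} (hM : ∀ y, |g y| ≤ M) {s : ℝ} (hs : 0 < s) (x : E d) :
    ‖DPs s g x‖ ≤ M * omg d := by
  have hM0 : 0 ≤ M := (abs_nonneg _).trans (hM x)
  have h1 : ‖DPs s g x‖ ≤ ∫ y, (closedBall x s).indicator (fun _ => M * (s ^ d)⁻¹) y := by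
    refine norm_integral_le_of_norm_le ?_ (Eventually.of_forall fun y => ?_)
    · exact (integrableOn_const measure_closedBall_lt_top.ne).integrable_indicator
        isClosed_closedBall.measurableSet
    · rw [norm_smul, Real.norm_eq_abs]
      have h2 := norm_DK_le hs x y
      by_cases hy : y ∈ closedBall x s
      · rw [indicator_of_mem hy] at h2 ⊢
        exact mul_le_mul (hM y) h2 (norm_nonneg _) hM0
      · rw [indicator_of_notMem hy] at h2 ⊢
        have : ‖DK s x y‖ = 0 := le_antisymm h2 (norm_nonneg _)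
        rw [this, mul_zero]
  refine h1.trans (le_of_eq ?_)
  rw [integral_indicator isClosed_closedBall.measurableSet, setIntegral_const, measureReal_def,
    volume_closedBall_real x hs, smul_eq_mul]
  field_simp

lemma abs_Ps_le {g : E d → ℝ} {M : ℝ} (hM : ∀ y, |g y| ≤ M) {s : ℝ} (hs : 0 < s) (x : E d) :
    |Ps s g x| ≤ M * s * omg d := by
  have hM0 : 0 ≤ M := (abs_nonneg _).trans (hM x)
  have h1 : ‖Ps s g x‖ ≤ ∫ y, (closedBall x s).indicator (fun _ => M * (s * (s ^ d)⁻¹)) y := by
    refine norm_integral_le_of_norm_le ?_ (Eventually.of_forall fun y => ?_)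
    · exact (integrableOn_const measure_closedBall_lt_top.ne).integrable_indicator
        isClosed_closedBall.measurableSet
    · rw [norm_mul, Real.norm_eq_abs, Real.norm_eq_abs]
      have h2 := abs_pot_le hs x y
      by_cases hy : y ∈ closedBall x s
      · rw [indicator_of_mem hy] at h2 ⊢
        exact mul_le_mul (hM y) h2 (abs_nonneg _) hM0
      · rw [indicator_of_notMem hy] at h2 ⊢
        have : |pot 1 s x y| = 0 := le_antisymm h2 (abs_nonneg _)
        rw [this, mul_zero]
  rw [← Real.norm_eq_abs]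
  refine h1.trans (le_of_eq ?_)
  rw [integral_indicator isClosed_closedBall.measurableSet, setIntegral_const, measureReal_def,
    volume_closedBall_real x hs, smul_eq_mul]
  field_simp

/-- the truncated potential -/
def Gp (t : ℝ) (g : E d → ℝ) (x : E d) : ℝ := ∫ s in Ioc 0 t, Ps s g x

/-- its derivative -/
def DGp (t : ℝ) (g : E d → ℝ) (x : E d) : E d →L[ℝ] ℝ := ∫ s in Ioc 0 t, DPs s g x

lemma aesm_Ps {g : E d → ℝ} (hg : AEStronglyMeasurable g) (x : E d) (μ : Measure ℝ) [SFinite μ] :
    AEStronglyMeasurable (fun s => Ps s g x) μ := by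
  unfold Ps
  have h1 : AEStronglyMeasurable (fun p : ℝ × E d => g p.2 * pot 1 p.1 x p.2) (μ.prod volume) :=
    hg.comp_snd.mul (measurable_pot x).aestronglyMeasurable
  exact h1.integral_prod_right'

lemma aesm_DPs {g : E d → ℝ} (hg : AEStronglyMeasurable g) (x : E d) (μ : Measure ℝ) [SFinite μ] :
    AEStronglyMeasurable (fun s => DPs s g x) μ := by
  unfold DPs
  have h1 : AEStronglyMeasurable (fun p : ℝ × E d => g p.2 • DK p.1 x p.2) (μ.prod volume) :=
    hg.comp_snd.smul (measurable_DK x).aestronglyMeasurable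
  exact h1.integral_prod_right'

lemma integrableOn_Ps {g : E d → ℝ} (hg : AEStronglyMeasurable g) {M : ℝ} (hM : ∀ y, |g y| ≤ M)
    (t : ℝ) (x : E d) : IntegrableOn (fun s => Ps s g x) (Ioc 0 t) := by
  have hM0 : 0 ≤ M := (abs_nonneg _).trans (hM x)
  refine Measure.integrableOn_of_bounded (M := M * t * omg d) (by simp) (aesm_Ps hg x _) ?_
  rw [ae_restrict_iff' measurableSet_Ioc]
  refine Eventually.of_forall fun s hs => ?_
  rw [Real.norm_eq_abs]
  refine (abs_Ps_le hM hs.1 x).trans ?_
  have := hs.2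
  have := (omg_pos (d := d)).le
  gcongr

lemma hasFDerivAt_Gp {g : E d → ℝ} (hg : Integrable g) {M : ℝ} (hM : ∀ y, |g y| ≤ M)
    (t : ℝ) (x : E d) : HasFDerivAt (Gp t g) (DGp t g x) x := by
  unfold DGp
  refine hasFDerivAt_integral_of_dominated_of_fderiv_le (s := univ) (bound := fun _ => M * omg d)
    (F := fun x s => Ps s g x) (F' := fun x s => DPs s g x)
    univ_mem ?_ ?_ ?_ ?_ ?_ ?_
  · exact Eventually.of_forall fun z => aesm_Ps hg.aestronglyMeasurable z _
  · exact integrableOn_Ps hg.aestronglyMeasurable hM t x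
  · exact aesm_DPs hg.aestronglyMeasurable x _
  · rw [ae_restrict_iff' measurableSet_Ioc]
    exact Eventually.of_forall fun s hs z _ => norm_DPs_le hM hs.1 z
  · exact integrableOn_const (by simp)
  · rw [ae_restrict_iff' measurableSet_Ioc]
    exact Eventually.of_forall fun s hs z _ => hasFDerivAt_Ps hg hs.1 z

lemma continuous_DGp {g : E d → ℝ} (hg : Integrable g) {M : ℝ} (hM : ∀ y, |g y| ≤ M)
    (t : ℝ) : Continuous (DGp t g) := by
  refine continuous_of_dominated (bound := fun _ => M * omg d)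
    (fun x => aesm_DPs hg.aestronglyMeasurable x _) (fun x => ?_) (integrableOn_const (by simp)) ?_
  · rw [ae_restrict_iff' measurableSet_Ioc]
    exact Eventually.of_forall fun s hs => norm_DPs_le hM hs.1 x
  · rw [ae_restrict_iff' measurableSet_Ioc]
    exact Eventually.of_forall fun s hs => continuous_DPs hg hs.1

lemma norm_DGp_le {g : E d → ℝ} {M : ℝ} (hM : ∀ y, |g y| ≤ M) {t : ℝ} (ht : 0 ≤ t) (x : E d) :
    ‖DGp t g x‖ ≤ t * (M * omg d) := by
  unfold DGp
  have h := norm_setIntegral_le_of_norm_le_const (μ := volume) (s := Ioc 0 t) (C := M * omg d)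
    (f := fun s => DPs s g x) (by simp) (fun s hs => norm_DPs_le hM hs.1 x)
  refine h.trans (le_of_eq ?_)
  simp [measureReal_def, ENNReal.toReal_ofReal ht, mul_comm]

lemma abs_Gp_le {g : E d → ℝ} {M : ℝ} (hM : ∀ y, |g y| ≤ M) {t : ℝ} (ht : 0 ≤ t) (x : E d) :
    |Gp t g x| ≤ t * (M * t * omg d) := by
  have hM0 : 0 ≤ M := (abs_nonneg _).trans (hM x)
  unfold Gp
  rw [← Real.norm_eq_abs]
  have h := norm_setIntegral_le_of_norm_le_const (μ := volume) (s := Ioc 0 t) (C := M * t * omg d)
    (f := fun s => Ps s g x) (by simp) (fun s hs => by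
      rw [Real.norm_eq_abs]
      refine (abs_Ps_le hM hs.1 x).trans ?_
      have := hs.2
      have := (omg_pos (d := d)).le
      gcongr)
  refine h.trans (le_of_eq ?_)
  simp [measureReal_def, ENNReal.toReal_ofReal ht, mul_comm]

/-- bounded integrable data: `C¹` potential -/
theorem contDiff_Gp_one {g : E d → ℝ} (hg : Integrable g) {M : ℝ} (hM : ∀ y, |g y| ≤ M)
    (t : ℝ) : ContDiff ℝ 1 (Gp t g) := by
  rw [contDiff_one_iff_fderiv]
  refine ⟨fun x => (hasFDerivAt_Gp hg hM t x).differentiableAt, ?_⟩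
  have : fderiv ℝ (Gp t g) = DGp t g := by
    funext x; exact (hasFDerivAt_Gp hg hM t x).fderiv
  rw [this]
  exact continuous_DGp hg hM t

/-! ### induction: `g ∈ C^n_c` gives `Gp t g ∈ C^{n+1}` -/

lemma exists_bound_of_cs {g : E d → ℝ} (hg : Continuous g) (hc : HasCompactSupport g) :
    ∃ M : ℝ, ∀ y, |g y| ≤ M := by
  obtain ⟨M, hM⟩ := hg.bounded_above_of_compact_support hc
  exact ⟨M, hM⟩

lemma Ps_eq_conv (s : ℝ) (g : E d → ℝ) (x : E d) :
    Ps s g x = (g ⋆[ContinuousLinearMap.mul ℝ ℝ, volume] (pot 1 s (0 : E d))) x := by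
  rw [convolution_def]
  unfold Ps
  congr 1
  funext y
  simp only [ContinuousLinearMap.mul_apply']
  congr 1
  unfold pot
  rw [sub_zero, norm_sub_rev]

lemma DPs_apply {g : E d → ℝ} (hg : ContDiff ℝ 1 g) (hc : HasCompactSupport g) {s : ℝ} (hs : 0 < s)
    (x v : E d) : DPs s g x v = Ps s (fun y => fderiv ℝ g y v) x := by
  have h1 := hasFDerivAt_Ps (hg.continuous.integrable_of_hasCompactSupport hc) hs x
  have h2 := hc.hasFDerivAt_convolution_left (μ := (volume : Measure (E d)))
    (ContinuousLinearMap.mul ℝ ℝ) hg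
    ((contDiff_pot 1 s (0 : E d)).continuous.locallyIntegrable) x
  have h3 : Ps s g = g ⋆[ContinuousLinearMap.mul ℝ ℝ, volume] (pot 1 s (0 : E d)) := by
    funext z; exact Ps_eq_conv s g z
  rw [h3] at h1
  rw [h1.unique h2]
  rw [Ps_eq_conv]
  have h4 := (hc.fderiv ℝ).convolutionExists_left
    (ContinuousLinearMap.precompL (E d) (ContinuousLinearMap.mul ℝ ℝ) :)
    (hg.continuous_fderiv one_ne_zero)
    (contDiff_pot 1 s (0 : E d)).continuous.locallyIntegrable x (μ := (volume : Measure (E d)))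
  simp_rw [convolution_def, ContinuousLinearMap.integral_apply h4]
  rfl

lemma fderiv_Gp {g : E d → ℝ} (hg : ContDiff ℝ 1 g) (hc : HasCompactSupport g) (t : ℝ) (x v : E d) :
    fderiv ℝ (Gp t g) x v = Gp t (fun y => fderiv ℝ g y v) x := by
  obtain ⟨M, hM⟩ := exists_bound_of_cs hg.continuous hc
  have hi := hg.continuous.integrable_of_hasCompactSupport hc (μ := (volume : Measure (E d)))
  rw [(hasFDerivAt_Gp hi hM t x).fderiv]
  unfold DGp Gp
  have hI : Integrable (fun s => DPs s g x) (volume.restrict (Ioc 0 t)) := by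
    refine Measure.integrableOn_of_bounded (M := M * omg d) (by simp)
      (aesm_DPs hi.aestronglyMeasurable x _) ?_
    rw [ae_restrict_iff' measurableSet_Ioc]
    exact Eventually.of_forall fun s hs => norm_DPs_le hM hs.1 x
  rw [ContinuousLinearMap.integral_apply hI]
  exact setIntegral_congr_fun measurableSet_Ioc fun s hs => DPs_apply hg hc hs.1 x v

/-- gain of one derivative -/
theorem contDiff_Gp (n : ℕ) : ∀ {g : E d → ℝ}, ContDiff ℝ n g → HasCompactSupport g → ∀ t : ℝ,
    ContDiff ℝ (n + 1) (Gp t g) := by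
  induction n with
  | zero =>
    intro g hg hc t
    obtain ⟨M, hM⟩ := exists_bound_of_cs hg.continuous hc
    have := contDiff_Gp_one (hg.continuous.integrable_of_hasCompactSupport hc) hM t
    simpa using this
  | succ n ih =>
    intro g hg hc t
    have hg1 : ContDiff ℝ 1 g := hg.of_le (by norm_cast; omega)
    obtain ⟨M, hM⟩ := exists_bound_of_cs hg.continuous hc
    have hi := hg.continuous.integrable_of_hasCompactSupport hc (μ := (volume : Measure (E d)))
    rw [contDiff_succ_iff_fderiv]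
    refine ⟨fun x => (hasFDerivAt_Gp hi hM t x).differentiableAt, by simp, ?_⟩
    rw [contDiff_clm_apply_iff]
    intro v
    have h1 : (fun x => fderiv ℝ (Gp t g) x v) = Gp t (fun y => fderiv ℝ g y v) := by
      funext x; exact fderiv_Gp hg1 hc t x v
    rw [h1]
    have h2 : ContDiff ℝ n (fun y => fderiv ℝ g y v) :=
      (hg.fderiv_right (m := n) (by norm_cast)).clm_apply contDiff_const
    have h3 := ih h2 (hc.fderiv_apply ℝ v) t
    exact_mod_cast h3

end
end Crest.Agent.R246.Reg656
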