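import Crest.Agent.R246.Reg1_656

/-!
# Row 246 (Solomon-Yau), helper656: elliptic regularity, part 2: bounded weak solutions of
`Δ u = F(x,u)` with smooth `F` are smooth.
-/

set_option autoImplicit false
open MeasureTheory Metric Set Laplacian InnerProductSpace Topology Filter
open scoped RealInnerProductSpace NNReal ENNReal ContDiff Gradient Convolution
open Crest.Agent.R097 (E)
open Crest.Agent.R097.Hm

namespace Crest.Agent.R246.Reg656
noncomputable section
variable {d : ℕ}

/-- `Δ u = g` on `U` in the sense of distributions -/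
def WeakLap (U : Set (E d)) (u g : E d → ℝ) : Prop :=
  ∀ φ : E d → ℝ, ContDiff ℝ ∞ φ → HasCompactSupport φ → tsupport φ ⊆ U →
    ∫ x, u x * (Δ φ) x = ∫ x, g x * φ x

lemma Ps_congr {s : ℝ} (hs : 0 < s) {g g' : E d → ℝ} {x : E d}
    (h : ∀ᵐ y, y ∈ ball x s → g y = g' y) : Ps s g x = Ps s g' x := by
  unfold Ps
  apply integral_congr_ae
  filter_upwards [h] with y hy
  by_cases hyx : y ∈ ball x s
  · rw [hy hyx]
  · rw [mem_ball, dist_eq_norm, not_lt] at hyx
    rw [pot_zero 1 hs hyx]; simp

lemma Gp_congr {t : ℝ} {g g' : E d → ℝ} {x : E d}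
    (h : ∀ᵐ y, y ∈ ball x t → g y = g' y) : Gp t g x = Gp t g' x := by
  unfold Gp
  refine setIntegral_congr_fun measurableSet_Ioc fun s hs => Ps_congr hs.1 ?_
  filter_upwards [h] with y hy hys
  exact hy (ball_subset_ball hs.2 hys)

/-- the representation of a weak solution by means and the truncated potential -/
theorem tendsto_repr {u g : E d → ℝ} {x : E d} {R t : ℝ} (ht : 0 < t) (htR : t < R)
    (hu : IntegrableOn u (ball x R)) (hg : AEStronglyMeasurable g) {M : ℝ} (hM : ∀ y, |g y| ≤ M)
    (hw : ∀ s, 0 < s → s < R → ∫ y, u y * (Δ (pot 1 s x)) y = ∫ y, g y * pot 1 s x y) :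
    Tendsto (fun s => MM 1 s u x) (𝓝[>] 0) (𝓝 (MM 1 t u x + Gp t g x)) := by
  have hder : ∀ r, 0 < r → r < R → HasDerivAt (fun r => MM 1 r u x) (-Ps r g x) r := by
    intro r hr hrR
    have h1 := hasDerivAt_MM 1 hr hrR hu
    have h2 := hw r hr hrR
    simp_rw [lap_pot 1 hr] at h2
    rw [h2] at h1
    exact h1
  have hI := integrableOn_Ps hg hM t x
  have hint : IntervalIntegrable (fun s => Ps s g x) volume 0 t :=
    (intervalIntegrable_iff_integrableOn_Ioc_of_le ht.le).2 hI
  have key : ∀ s, 0 < s → s < t → MM 1 s u x = MM 1 t u x + ∫ r in s..t, Ps r g x := by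
    intro s hs hst
    have h1 : IntervalIntegrable (fun s => -Ps s g x) volume s t :=
      (hint.mono_set (by
        rw [uIcc_of_le hst.le, uIcc_of_le ht.le]
        exact Icc_subset_Icc_left hs.le)).neg
    have h2 := intervalIntegral.integral_eq_sub_of_hasDerivAt (f := fun r => MM 1 r u x)
      (f' := fun s => -Ps s g x) (a := s) (b := t) (fun r hr => by
        rw [uIcc_of_le hst.le] at hr
        exact hder r (hs.trans_le hr.1) (hr.2.trans_lt htR)) h1
    rw [intervalIntegral.integral_neg] at h2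
    linarith
  have hcont : Tendsto (fun s => ∫ r in s..t, Ps r g x) (𝓝[>] 0) (𝓝 (∫ r in (0:ℝ)..t, Ps r g x)) := by
    have h1 := intervalIntegral.continuousOn_primitive_interval_left (μ := volume)
      (f := fun r => Ps r g x) (a := 0) (b := t) (by
        rw [uIcc_of_le ht.le]
        exact (integrableOn_Icc_iff_integrableOn_Ioc).2 hI)
    have h2 := h1 0 (by rw [uIcc_of_le ht.le]; exact ⟨le_rfl, ht.le⟩)
    rw [uIcc_of_le ht.le] at h2
    refine (h2.mono_left ?_)
    rw [nhdsWithin_le_iff]
    filter_upwards [Ioo_mem_nhdsGT ht] with s hs using ⟨hs.1.le, hs.2.le⟩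
  have h0 : (∫ r in (0:ℝ)..t, Ps r g x) = Gp t g x := by
    rw [intervalIntegral.integral_of_le ht.le]
    rfl
  rw [h0] at hcont
  have h3 := hcont.const_add (MM 1 t u x)
  refine h3.congr' ?_
  filter_upwards [Ioo_mem_nhdsGT ht] with s hs
  exact (key s hs.1 hs.2).symm

/-- the precise representative -/
def prec (u : E d → ℝ) (x : E d) : ℝ := limUnder (𝓝[>] (0:ℝ)) (fun s => (kap d 1)⁻¹ * MM 1 s u x)

lemma prec_eq {u : E d → ℝ} {x : E d} {a : ℝ}
    (h : Tendsto (fun s => MM 1 s u x) (𝓝[>] 0) (𝓝 a)) : prec u x = (kap d 1)⁻¹ * a :=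
  (h.const_mul _).limUnder_eq

lemma prec_of_continuousAt {u : E d → ℝ} {x : E d} {R : ℝ} (hR : 0 < R)
    (hu : IntegrableOn u (ball x R)) (hc : ContinuousAt u x) : prec u x = u x := by
  rw [prec_eq (tendsto_MM 1 hR hu hc)]
  have := (kap_pos (d := d) 1).ne'
  field_simp

/-- almost everywhere equality with the precise representative -/
lemma ae_prec {U : Set (E d)} (hU : IsOpen U) {u : E d → ℝ} (hu : LocallyIntegrableOn u U) :
    ∀ᵐ x ∂(volume.restrict U), u x = prec u x := by
  rw [ae_restrict_iff' hU.measurableSet, ae_iff]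
  apply measure_null_of_locally_null
  intro x0 hx0
  have hx0' : x0 ∈ U := by
    by_contra hcon
    exact hx0 (fun h => absurd h hcon)
  obtain ⟨R', hR', hRU'⟩ := Metric.isOpen_iff.mp hU x0 hx0'
  obtain ⟨R, hR, hRU⟩ : ∃ R, 0 < R ∧ closedBall x0 R ⊆ U :=
    ⟨R' / 2, by linarith, (closedBall_subset_ball (half_lt_self hR')).trans hRU'⟩
  refine ⟨ball x0 (R / 2) ∩ {x | ¬(x ∈ U → u x = prec u x)}, ?_, ?_⟩
  · exact inter_mem (mem_nhdsWithin_of_mem_nhds (ball_mem_nhds x0 (by linarith)))
      self_mem_nhdsWithin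
  · have hI : Integrable ((closedBall x0 R).indicator u) :=
      (hu.integrableOn_compact_subset hRU (isCompact_closedBall _ _)).integrable_indicator
        isClosed_closedBall.measurableSet
    have h1 := ae_tendsto_MM 1 hI.locallyIntegrable
    rw [ae_iff] at h1
    refine measure_mono_null ?_ h1
    rintro x ⟨hx, hx2⟩
    simp only [mem_ofPred_eq] at hx2 ⊢
    intro hcon
    apply hx2
    intro _
    have hxR : x ∈ closedBall x0 R := by
      rw [mem_ball] at hx
      rw [mem_closedBall]
      linarith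
    rw [indicator_of_mem hxR] at hcon
    have h2 : Tendsto (fun t => MM 1 t u x) (𝓝[>] 0) (𝓝 (kap d 1 * u x)) := by
      refine hcon.congr' ?_
      filter_upwards [Ioo_mem_nhdsGT (show 0 < R / 2 by linarith)] with t ht
      have hsub : closedBall x t ⊆ closedBall x0 R := by
        intro y hy
        rw [mem_ball] at hx
        rw [mem_closedBall] at hy ⊢
        have := dist_triangle y x x0
        have := ht.2
        linarith
      apply MM_congr 1 ht.1
      refine Filter.Eventually.of_forall fun y hy => ?_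
      rw [indicator_of_mem (hsub (ball_subset_closedBall hy))]
    rw [prec_eq h2]
    have := (kap_pos (d := d) 1).ne'
    field_simp

/-- local boundedness on compact sets -/
def LocBdd (U : Set (E d)) (g : E d → ℝ) : Prop :=
  ∀ K ⊆ U, IsCompact K → ∃ M, ∀ y ∈ K, |g y| ≤ M

/-- local representation of the precise representative of a weak solution -/
theorem prec_repr {U : Set (E d)} {u g : E d → ℝ}
    (hu : LocallyIntegrableOn u U) (hw : WeakLap U u g) {x0 : E d} {R : ℝ} (hR : 0 < R)
    (hRU : closedBall x0 (3 * R) ⊆ U)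
    {g' : E d → ℝ} (hg' : AEStronglyMeasurable g') {M : ℝ} (hM : ∀ y, |g' y| ≤ M)
    (hgg : ∀ᵐ y, y ∈ closedBall x0 (3 * R) → g y = g' y) {x : E d} (hx : x ∈ ball x0 R) :
    prec u x = (kap d 1)⁻¹ * (MM 1 R u x + Gp R g' x) := by
  apply prec_eq
  have hsub : closedBall x (2 * R) ⊆ closedBall x0 (3 * R) := by
    intro y hy
    rw [mem_ball] at hx
    rw [mem_closedBall] at hy ⊢
    have := dist_triangle y x x0
    linarith
  have hI : IntegrableOn u (ball x (2 * R)) :=
    (hu.integrableOn_compact_subset (hsub.trans hRU) (isCompact_closedBall _ _)).mono_set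
      ball_subset_closedBall
  refine tendsto_repr hR (by linarith) hI hg' hM (fun s hs hsR => ?_)
  have hs2 : tsupport (pot 1 s x) ⊆ closedBall x (2 * R) :=
    (tsupport_pot_subset 1 hs x).trans (closedBall_subset_closedBall hsR.le)
  rw [hw _ (contDiff_pot 1 s x) (hasCompactSupport_pot 1 hs x) (hs2.trans (hsub.trans hRU))]
  apply integral_congr_ae
  filter_upwards [hgg] with y hy
  by_cases hyx : y ∈ closedBall x (2 * R)
  · rw [hy (hsub hyx)]
  · rw [image_eq_zero_of_notMem_tsupport (fun h => hyx (hs2 h))]; simp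

lemma exists_radius {U : Set (E d)} (hU : IsOpen U) {x0 : E d} (hx0 : x0 ∈ U) :
    ∃ R, 0 < R ∧ closedBall x0 (3 * R) ⊆ U := by
  obtain ⟨R', hR', hRU'⟩ := Metric.isOpen_iff.mp hU x0 hx0
  exact ⟨R' / 6, by linarith, (closedBall_subset_ball (by linarith)).trans hRU'⟩

lemma contDiffAt_MM {U : Set (E d)} {u : E d → ℝ} (hu : LocallyIntegrableOn u U)
    {x0 : E d} {R : ℝ} (hR : 0 < R) (hRU : closedBall x0 (3 * R) ⊆ U) :
    ContDiffOn ℝ ∞ (fun x => MM 1 R u x) (ball x0 R) := by
  have hI : IntegrableOn u (ball x0 (3 * R)) :=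
    (hu.integrableOn_compact_subset hRU (isCompact_closedBall _ _)).mono_set
      ball_subset_closedBall
  exact (contDiffOn_MM 1 hR hI).mono (ball_subset_ball (by linarith))

/-- weak solutions with locally bounded right-hand side have a `C¹` representative -/
theorem contDiffOn_one_prec {U : Set (E d)} (hU : IsOpen U) {u g : E d → ℝ}
    (hu : LocallyIntegrableOn u U) (hg : AEStronglyMeasurable g (volume.restrict U))
    (hgb : LocBdd U g) (hw : WeakLap U u g) : ContDiffOn ℝ 1 (prec u) U := by
  intro x0 hx0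
  apply ContDiffAt.contDiffWithinAt
  obtain ⟨R, hR, hRU⟩ := exists_radius hU hx0
  obtain ⟨M, hM⟩ := hgb _ hRU (isCompact_closedBall _ _)
  set g' : E d → ℝ := (closedBall x0 (3 * R)).indicator g with hg'
  have hgm : AEStronglyMeasurable g' := by
    rw [hg']
    exact (aestronglyMeasurable_indicator_iff isClosed_closedBall.measurableSet).2
      (hg.mono_measure (Measure.restrict_mono hRU le_rfl))
  have hM' : ∀ y, |g' y| ≤ |M| := by
    intro y
    by_cases hy : y ∈ closedBall x0 (3 * R)
    · rw [hg', indicator_of_mem hy]; exact (hM y hy).trans (le_abs_self M)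
    · rw [hg', indicator_of_notMem hy]; simp
  have hgi : Integrable g' := by
    rw [hg', integrable_indicator_iff isClosed_closedBall.measurableSet]
    have hgr : AEStronglyMeasurable g (volume.restrict (closedBall x0 (3 * R))) :=
      hg.mono_measure (Measure.restrict_mono hRU le_rfl)
    refine ⟨hgr, HasFiniteIntegral.restrict_of_bounded (C := |M|) measure_closedBall_lt_top ?_⟩
    rw [ae_restrict_iff' isClosed_closedBall.measurableSet]
    exact Eventually.of_forall fun y hy => (hM y hy).trans (le_abs_self M)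
  have h1 : ∀ x ∈ ball x0 R, prec u x = (kap d 1)⁻¹ * (MM 1 R u x + Gp R g' x) := fun x hx =>
    prec_repr hu hw hR hRU hgm hM'
      (Eventually.of_forall fun y hy => by rw [hg', indicator_of_mem hy]) hx
  have h2 : ContDiffOn ℝ 1 (fun x => (kap d 1)⁻¹ * (MM 1 R u x + Gp R g' x)) (ball x0 R) :=
    contDiffOn_const.mul (((contDiffAt_MM hu hR hRU).of_le (by exact_mod_cast le_top)).add
      (contDiff_Gp_one hgi hM' R).contDiffOn)
  exact (h2.congr h1).contDiffAt (ball_mem_nhds x0 hR)

/-- gain of one derivative for continuous weak solutions -/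
theorem contDiffOn_succ_of_weak {U : Set (E d)} (hU : IsOpen U) {u g : E d → ℝ}
    (hu : ContinuousOn u U) (n : ℕ) (hg : ContDiffOn ℝ n g U) (hw : WeakLap U u g) :
    ContDiffOn ℝ (n + 1) u U := by
  have hul : LocallyIntegrableOn u U := hu.locallyIntegrableOn hU.measurableSet
  intro x0 hx0
  apply ContDiffAt.contDiffWithinAt
  obtain ⟨R, hR, hRU⟩ := exists_radius hU hx0
  obtain ⟨g', hg', hgc, hgg⟩ := exists_ext (m := n) hU (by exact_mod_cast hg)
    (isCompact_closedBall x0 (3 * R)) hRU
  obtain ⟨M, hM⟩ := exists_bound_of_cs hg'.continuous hgc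
  have h1 : ∀ x ∈ ball x0 R, u x = (kap d 1)⁻¹ * (MM 1 R u x + Gp R g' x) := fun x hx => by
    have hxU : x ∈ U := hRU (ball_subset_closedBall (ball_subset_ball (by linarith) hx))
    obtain ⟨ρ, hρ, hρU⟩ := exists_radius hU hxU
    rw [← prec_repr hul hw hR hRU hg'.continuous.aestronglyMeasurable hM
      (Eventually.of_forall fun y hy => (hgg y hy).eq_of_nhds.symm) hx]
    refine (prec_of_continuousAt (R := 3 * ρ) (by linarith) ?_
      (hu.continuousAt (hU.mem_nhds hxU))).symm
    exact (hul.integrableOn_compact_subset hρU (isCompact_closedBall _ _)).mono_set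
      ball_subset_closedBall
  have h2 : ContDiffOn ℝ (n + 1) (fun x => (kap d 1)⁻¹ * (MM 1 R u x + Gp R g' x)) (ball x0 R) :=
    contDiffOn_const.mul (((contDiffAt_MM hul hR hRU).of_le (by exact_mod_cast le_top)).add
      (contDiff_Gp n (by exact_mod_cast hg') hgc R).contDiffOn)
  exact (h2.congr h1).contDiffAt (ball_mem_nhds x0 hR)

lemma WeakLap.congr {U : Set (E d)} (hU : IsOpen U) {u u' g g' : E d → ℝ} (hw : WeakLap U u g)
    (h1 : ∀ᵐ x ∂(volume.restrict U), u x = u' x) (h2 : ∀ᵐ x ∂(volume.restrict U), g x = g' x) :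
    WeakLap U u' g' := by
  intro φ hφ hc hs
  have h3 := (ae_restrict_iff' hU.measurableSet).mp h1
  have h4 := (ae_restrict_iff' hU.measurableSet).mp h2
  have e1 : ∫ x, u' x * (Δ φ) x = ∫ x, u x * (Δ φ) x := by
    apply integral_congr_ae
    filter_upwards [h3] with x hx
    by_cases hx2 : x ∈ U
    · rw [hx hx2]
    · rw [tsupport_lap_subset φ x (fun hcon => hx2 (hs hcon))]; simp
  have e2 : ∫ x, g' x * φ x = ∫ x, g x * φ x := by
    apply integral_congr_ae
    filter_upwards [h4] with x hx
    by_cases hx2 : x ∈ U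
    · rw [hx hx2]
    · rw [image_eq_zero_of_notMem_tsupport (fun hcon => hx2 (hs hcon))]; simp
  rw [e1, e2, hw φ hφ hc hs]

/-- a `C²` weak solution is a classical solution -/
theorem lap_eq_of_weak {U : Set (E d)} (hU : IsOpen U) {u g : E d → ℝ}
    (hu : ContDiffOn ℝ 2 u U) (hg : ContinuousOn g U) (hw : WeakLap U u g) :
    ∀ x ∈ U, (Δ u) x = g x := by
  have hlc := continuousOn_lap hU hu
  have hdc : ContinuousOn (fun x => (Δ u) x - g x) U := hlc.sub hg
  have h1 := IsOpen.ae_eq_zero_of_integral_contDiff_smul_eq_zero (μ := (volume : Measure (E d))) hU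
    (hdc.locallyIntegrableOn hU.measurableSet) (fun φ hφ hφc hφU => by
      have h2 := green_on hU hu hφ hφc hφU
      rw [hw φ hφ hφc hφU] at h2
      have hi1 : Integrable fun x => (Δ u) x * φ x := by
        have := (hlc.locallyIntegrableOn hU.measurableSet
          (μ := (volume : Measure (E d)))).integrableOn_compact_subset hφU hφc.isCompact
        have h3 := this.mul_continuousOn hφ.continuous.continuousOn hφc.isCompact
        rw [← integrableOn_univ]
        refine h3.of_forall_sdiff_eq_zero MeasurableSet.univ ?_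
        intro x hx
        rw [image_eq_zero_of_notMem_tsupport hx.2, mul_zero]
      have hi2 : Integrable fun x => g x * φ x := by
        have := (hg.locallyIntegrableOn hU.measurableSet
          (μ := (volume : Measure (E d)))).integrableOn_compact_subset hφU hφc.isCompact
        have h3 := this.mul_continuousOn hφ.continuous.continuousOn hφc.isCompact
        rw [← integrableOn_univ]
        refine h3.of_forall_sdiff_eq_zero MeasurableSet.univ ?_
        intro x hx
        rw [image_eq_zero_of_notMem_tsupport hx.2, mul_zero]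
      have h4 : ∫ x, φ x • ((Δ u) x - g x) = (∫ x, (Δ u) x * φ x) - ∫ x, g x * φ x := by
        rw [← integral_sub hi1 hi2]
        congr 1
        funext x
        simp only [smul_eq_mul]
        ring
      rw [h4, h2, sub_self])
  intro x0 hx0
  by_contra hne
  have hne' : (Δ u) x0 - g x0 ≠ 0 := sub_ne_zero.2 hne
  have hne2 : ∀ᶠ x in 𝓝 x0, (Δ u) x - g x ≠ 0 ∧ x ∈ U := by
    have := (hdc.continuousAt (hU.mem_nhds hx0)).eventually_ne hne'
    exact this.and (hU.mem_nhds hx0)
  obtain ⟨ε, hε, hε2⟩ := Metric.eventually_nhds_iff_ball.mp hne2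
  have h5 : volume (ball x0 ε) = 0 := by
    rw [ae_iff] at h1
    refine measure_mono_null (fun x hx => ?_) h1
    have := hε2 x hx
    simp only [mem_ofPred_eq]
    intro hcon
    exact this.1 (hcon this.2)
  exact (measure_ball_pos volume x0 hε).ne' h5

/-- smoothness of continuous weak solutions of `Δ u = F(x,u)` -/
theorem smooth_of_weak_cont {U : Set (E d)} (hU : IsOpen U) {u : E d → ℝ} (hu : ContinuousOn u U)
    {F : E d → ℝ → ℝ} (hF : ContDiffOn ℝ ∞ (fun p : E d × ℝ => F p.1 p.2) (U ×ˢ univ))
    (hw : WeakLap U u (fun x => F x (u x))) :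
    ContDiffOn ℝ ∞ u U ∧ ∀ x ∈ U, (Δ u) x = F x (u x) := by
  have key : ∀ n : ℕ, ContDiffOn ℝ n u U := by
    intro n
    induction n with
    | zero => simpa using hu
    | succ n ih =>
      have hg : ContDiffOn ℝ n (fun x => F x (u x)) U :=
        (hF.of_le (by exact_mod_cast le_top)).comp (contDiffOn_id.prodMk ih)
          (fun x hx => ⟨hx, mem_univ _⟩)
      have := contDiffOn_succ_of_weak hU hu n hg hw
      exact_mod_cast this
  have hinf : ContDiffOn ℝ ∞ u U := contDiffOn_infty.2 key
  refine ⟨hinf, lap_eq_of_weak hU (key 2) ?_ hw⟩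
  exact hF.continuousOn.comp (continuousOn_id.prodMk hu) (fun x hx => ⟨hx, mem_univ _⟩)

/-- **Regularity**: locally bounded weak solutions of `Δ u = F(x,u)` agree a.e. with a smooth
classical solution. -/
theorem smooth_of_weak {U : Set (E d)} (hU : IsOpen U) {u : E d → ℝ}
    (hu : AEStronglyMeasurable u (volume.restrict U)) (hb : LocBdd U u)
    {F : E d → ℝ → ℝ} (hF : ContDiffOn ℝ ∞ (fun p : E d × ℝ => F p.1 p.2) (U ×ˢ univ))
    (hw : WeakLap U u (fun x => F x (u x))) :
    ∃ w : E d → ℝ, ContDiffOn ℝ ∞ w U ∧ (∀ᵐ x ∂(volume.restrict U), u x = w x) ∧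
      ∀ x ∈ U, (Δ w) x = F x (w x) := by
  have hul : LocallyIntegrableOn u U := by
    rw [locallyIntegrableOn_iff hU.isLocallyClosed]
    intro K hKU hK
    obtain ⟨M, hM⟩ := hb K hKU hK
    have hur : AEStronglyMeasurable u (volume.restrict K) :=
      hu.mono_measure (Measure.restrict_mono hKU le_rfl)
    refine ⟨hur, HasFiniteIntegral.restrict_of_bounded (C := M) hK.measure_lt_top ?_⟩
    rw [ae_restrict_iff' hK.measurableSet]
    exact Eventually.of_forall fun y hy => hM y hy
  have hgm : AEStronglyMeasurable (fun x => F x (u x)) (volume.restrict U) := by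
    classical
    have hmF : Measurable ((U ×ˢ (univ : Set ℝ)).piecewise (fun p : E d × ℝ => F p.1 p.2)
        (fun _ => 0)) :=
      hF.continuousOn.measurable_piecewise continuousOn_const
        (hU.measurableSet.prod MeasurableSet.univ)
    have h1 : AEMeasurable (fun x => (U ×ˢ (univ : Set ℝ)).piecewise (fun p : E d × ℝ => F p.1 p.2)
        (fun _ => 0) (x, u x)) (volume.restrict U) :=
      hmF.comp_aemeasurable (aemeasurable_id.prodMk hu.aemeasurable)
    refine h1.aestronglyMeasurable.congr ?_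
    rw [EventuallyEq, ae_restrict_iff' hU.measurableSet]
    refine Eventually.of_forall fun x hx => ?_
    exact piecewise_eq_of_mem _ _ _ (show (x, u x) ∈ U ×ˢ (univ : Set ℝ) from ⟨hx, mem_univ _⟩)
  have hgb : LocBdd U (fun x => F x (u x)) := by
    intro K hKU hK
    obtain ⟨M, hM⟩ := hb K hKU hK
    have hc : IsCompact (K ×ˢ Icc (-M) M) := hK.prod isCompact_Icc
    obtain ⟨C, hC⟩ := hc.exists_bound_of_continuousOn
      (hF.continuousOn.mono (prod_mono hKU (subset_univ _)))
    exact ⟨C, fun y hy => hC (y, u y) ⟨hy, abs_le.1 (hM y hy)⟩⟩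
  have hc1 := contDiffOn_one_prec hU hul hgm hgb hw
  have hae := ae_prec hU hul
  have hw2 : WeakLap U (prec u) (fun x => F x (prec u x)) :=
    hw.congr hU hae (hae.mono fun x hx => by rw [← hx])
  obtain ⟨h1, h2⟩ := smooth_of_weak_cont hU hc1.continuousOn hF hw2
  exact ⟨prec u, h1, hae, h2⟩

end
end Crest.Agent.R246.Reg656
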