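import Crest.Agent.R246.Zon3_797
import Crest.Agent.R246.Psi1_348
import Crest.Agent.R246.Brg_657

/-! # Row 246: the resolvent `(4 - ε²Δ)⁻¹` satisfies the interface `Psi348.Res` (helper797) -/

set_option autoImplicit false
set_option maxHeartbeats 400000
open MeasureTheory Metric Topology Filter
open scoped ContDiff

namespace Crest.Agent.R246.Zon797

variable {m : ℕ}

/-! ### the resolvent equation -/

theorem GN2_eq {a : Pr (m + 2)} {f f' f'' : C(SS (m + 2), ℝ)} (lam : ℝ) (h : HasRot a f f')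
    (h' : HasRot a f' f'') (n : ℕ) : GN2 m lam a n f = GN m lam n f'' := by
  have e1 : GN1 m lam a n f = GN m lam n f' := by simp only [GN, GN1, Kop_hasRot h]
  have e2 : GN1 m lam a n f' = GN m lam n f'' := by simp only [GN, GN1, Kop_hasRot h']
  have r1 := hasRot_GN1 lam a n f
  have r2 := hasRot_GN lam a n f'
  rw [e1] at r1
  rw [e2] at r2
  exact r1.unique r2

/-- `(λ - Δ) G f = f` for twice differentiable `f` -/
theorem G_eq {lam : ℝ} (hl : 0 < lam) {f : C(SS (m + 2), ℝ)} {f' f'' : Pr (m + 2) → C(SS (m + 2), ℝ)}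
    (h : ∀ a, HasRot a f (f' a)) (h' : ∀ a, HasRot a (f' a) (f'' a)) :
    lam • G m hl f - ∑ a : Pr (m + 2), G m hl (f'' a) = f := by
  have t1 : Tendsto (fun n => lam • GN m lam n f - ∑ a : Pr (m + 2), GN2 m lam a n f) atTop
      (𝓝 (lam • G m hl f - ∑ a : Pr (m + 2), G m hl (f'' a))) := by
    refine ((tendsto_GN_apply hl f).const_smul lam).sub (tendsto_finsetSum _ fun a _ => ?_)
    exact (tendsto_GN_apply hl (f'' a)).congr fun n => (GN2_eq lam (h a) (h' a) n).symm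
  have t2 : Tendsto (fun n => (mu m lam)⁻¹ • Kop (DN m lam n) f) atTop
      (𝓝 ((mu m lam)⁻¹ • ((lam * Sinf m lam) • f))) := (tendsto_DN hl f).const_smul _
  have h2 := tendsto_nhds_unique t1 (t2.congr fun n => (GN_eq lam n f).symm)
  rw [h2, smul_smul]
  have hm := (mu_pos (m := m) hl).ne'
  rw [show (mu m lam)⁻¹ * (lam * Sinf m lam) = 1 from inv_mul_cancel₀ hm, one_smul]

/-! ### the scaled resolvent -/

theorem lam_pos {ε : ℝ} (hε : 0 < ε) : 0 < 4 / ε ^ 2 := by positivity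

/-- `(4 - ε² Δ)⁻¹` -/
noncomputable def G4 (m : ℕ) {ε : ℝ} (hε : 0 < ε) : C(SS (m + 2), ℝ) →L[ℝ] C(SS (m + 2), ℝ) :=
  (ε ^ 2)⁻¹ • G m (lam_pos hε)

theorem G4_apply {ε : ℝ} (hε : 0 < ε) (f : C(SS (m + 2), ℝ)) :
    G4 m hε f = (ε ^ 2)⁻¹ • G m (lam_pos hε) f := rfl

/-- rotation derivatives of `G4 f` -/
noncomputable def G41 (m : ℕ) {ε : ℝ} (hε : 0 < ε) (f : C(SS (m + 2), ℝ)) (a : Pr (m + 2)) :
    C(SS (m + 2), ℝ) := (ε ^ 2)⁻¹ • G1 m (lam_pos hε) a f

theorem hasRot_G4 {ε : ℝ} (hε : 0 < ε) (f : C(SS (m + 2), ℝ)) (a : Pr (m + 2)) :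
    HasRot a (G4 m hε f) (G41 m hε f a) := (hasRot_G (lam_pos hε) a f).smul _

theorem G41_eq {ε : ℝ} (hε : 0 < ε) {a : Pr (m + 2)} {f f' : C(SS (m + 2), ℝ)}
    (h : HasRot a f f') : G41 m hε f a = G4 m hε f' := by
  rw [G41, G1_eq (lam_pos hε) h, G4_apply]

theorem hasRot_G4' {ε : ℝ} (hε : 0 < ε) {a : Pr (m + 2)} {f f' : C(SS (m + 2), ℝ)}
    (h : HasRot a f f') : HasRot a (G4 m hε f) (G4 m hε f') := by
  rw [← G41_eq hε h]; exact hasRot_G4 hε f a

/-- quantitative positivity -/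
theorem G4_pos {ε : ℝ} (hε : 0 < ε) : ∃ c : ℝ, 0 < c ∧ ∀ f : C(SS (m + 2), ℝ), (∀ y, 0 ≤ f y) →
    ∀ x, c * ∫ y, f y ∂(sig (m + 2)) ≤ G4 m hε f x := by
  refine ⟨(ε ^ 2)⁻¹ * (mu m (4 / ε ^ 2))⁻¹, ?_, fun f hf x => ?_⟩
  · have := mu_pos (m := m) (lam_pos hε)
    positivity
  · rw [G4_apply, ContinuousMap.smul_apply, smul_eq_mul, mul_assoc]
    exact mul_le_mul_of_nonneg_left (G_pos (lam_pos hε) hf x) (by positivity)

/-! ### the bridge to homogeneous extensions -/

open Brg657 in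
theorem ext_eq (u : C(SS (m + 2), ℝ)) : Psi348.ext u = Brg657.ext u := by
  funext x
  by_cases hx : x = 0
  · subst hx
    rw [Psi348.ext_zero]
    simp [Brg657.ext]
  · rw [Psi348.ext_of_ne u hx, Brg657.ext_of_ne u hx]
    rfl

theorem inner_Aa (a : Pr (m + 2)) (x v : EE (m + 2)) :
    inner ℝ (Brg657.Aa a x) v = x a.1.1 * v a.1.2 - x a.1.2 * v a.1.1 := by
  unfold Brg657.Aa
  rw [inner_sub_left, inner_smul_left, inner_smul_left, EuclideanSpace.inner_single_left,
    EuclideanSpace.inner_single_left]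
  simp

/-- the gradient of the extension at points of the sphere -/
theorem gradient_ext {u : C(SS (m + 2), ℝ)} {u' : Pr (m + 2) → C(SS (m + 2), ℝ)}
    (h : ∀ a, HasRot a u (u' a)) (y : SS (m + 2)) :
    gradient (Brg657.ext u) (y : EE (m + 2)) = ∑ a : Pr (m + 2), u' a y • Brg657.Aa a y := by
  have h1 := Brg657.fderiv_ext h (Brg657.coe_ne y)
  unfold gradient
  rw [h1]
  apply (InnerProductSpace.toDual ℝ (EE (m + 2))).injective
  rw [LinearIsometryEquiv.apply_symm_apply]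
  ext v
  rw [Brg657.Dext_apply, InnerProductSpace.toDual_apply_apply, sum_inner, nrm, one_pow, inv_one,
    one_mul]
  refine Finset.sum_congr rfl fun a _ => ?_
  rw [inner_smul_left, inner_Aa, Brg657.ext_coe]
  simp

theorem inner_gradient_Aa {u : C(SS (m + 2), ℝ)} {u' : Pr (m + 2) → C(SS (m + 2), ℝ)}
    (h : ∀ a, HasRot a u (u' a)) (y : SS (m + 2)) (a : Pr (m + 2)) :
    inner ℝ (Brg657.Aa a (y : EE (m + 2))) (gradient (Brg657.ext u) (y : EE (m + 2))) = u' a y := by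
  have hd : DifferentiableAt ℝ (Brg657.ext u) (y : EE (m + 2)) :=
    (Brg657.hasFDerivAt_ext h (Brg657.coe_ne y)).differentiableAt
  have h1 := Brg657.hasRot_eq (f := Brg657.ext u) (u := u) a (fun x => (Brg657.ext_coe u x).symm)
    hd (h a)
  rw [h1, real_inner_comm, inner_gradient_left]

theorem inner_gradient {u v : C(SS (m + 2), ℝ)} {u' v' : Pr (m + 2) → C(SS (m + 2), ℝ)}
    (h : ∀ a, HasRot a u (u' a)) (h' : ∀ a, HasRot a v (v' a)) (y : SS (m + 2)) :
    inner ℝ (gradient (Brg657.ext u) (y : EE (m + 2))) (gradient (Brg657.ext v) (y : EE (m + 2)))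
      = ∑ a : Pr (m + 2), u' a y * v' a y := by
  rw [gradient_ext h, sum_inner]
  refine Finset.sum_congr rfl fun a _ => ?_
  rw [inner_smul_left, inner_gradient_Aa h']
  simp

/-- rotation derivatives of a function with `C¹` extension -/
theorem exists_rot {h : C(SS (m + 2), ℝ)} (hh : ContDiffOn ℝ 1 (Brg657.ext h) {0}ᶜ) :
    ∃ h' : Pr (m + 2) → C(SS (m + 2), ℝ), ∀ a, HasRot a h (h' a) := by
  have hop : IsOpen ({0}ᶜ : Set (EE (m + 2))) := isOpen_compl_singleton
  have hc : ContinuousOn (fderiv ℝ (Brg657.ext h)) {0}ᶜ :=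
    hh.continuousOn_fderiv_of_isOpen hop le_rfl
  have hd : ∀ x : SS (m + 2), DifferentiableAt ℝ (Brg657.ext h) x := fun x =>
    (hh.contDiffAt (hop.mem_nhds (Brg657.coe_ne x))).differentiableAt one_ne_zero
  have hA : ∀ a : Pr (m + 2), Continuous (Brg657.Aa a : EE (m + 2) → EE (m + 2)) := fun a => by
    unfold Brg657.Aa; fun_prop
  refine ⟨fun a => ⟨fun x => fderiv ℝ (Brg657.ext h) x (Brg657.Aa a x), ?_⟩, fun a => ?_⟩
  · have h1 : Continuous fun x : SS (m + 2) => fderiv ℝ (Brg657.ext h) (x : EE (m + 2)) :=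
      hc.comp_continuous continuous_subtype_val fun x => Brg657.coe_ne x
    exact h1.clm_apply ((hA a).comp continuous_subtype_val)
  · exact Brg657.hasRot_of_fderiv a (fun x => (Brg657.ext_coe h x).symm) hd (fun x => rfl)

/-- **the interface** -/
theorem res_G4 {ε : ℝ} (hε : 0 < ε) : Psi348.Res ε 4 (G4 m hε) where
  pos := fun f hf y => by
    rw [G4_apply, ContinuousMap.smul_apply, smul_eq_mul]
    exact mul_nonneg (by positivity) (G_nonneg (lam_pos hε) hf y)
  one := fun y => by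
    have h1 : (1 : C(SS (m + 2), ℝ)) = ContinuousMap.const _ 1 := rfl
    rw [G4_apply, ContinuousMap.smul_apply, smul_eq_mul, h1, G_const, ContinuousMap.const_apply]
    field_simp
  c1 := fun f => by
    rw [ext_eq]
    have := Brg657.contDiffOn_ext_succ (k := 0) (u := G4 m hε f) (hasRot_G4 hε f)
      (fun a => by exact_mod_cast contDiffOn_zero.2 (Brg657.continuousOn_ext _))
    exact_mod_cast this
  grad := by
    refine ⟨∑ a : Pr (m + 2), (ε ^ 2)⁻¹ * ‖G1 m (lam_pos hε) a‖, by positivity, fun f y => ?_⟩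
    rw [ext_eq, ← Psi348.norm_gradient, gradient_ext (hasRot_G4 hε f), Finset.sum_mul]
    refine (norm_sum_le _ _).trans (Finset.sum_le_sum fun a _ => ?_)
    rw [norm_smul]
    have h1 : ‖G41 m hε f a y‖ ≤ (ε ^ 2)⁻¹ * ‖G1 m (lam_pos hε) a‖ * ‖f‖ := by
      refine ((G41 m hε f a).norm_coe_le_norm y).trans ?_
      rw [G41, norm_smul, Real.norm_eq_abs, abs_of_pos (by positivity), mul_assoc]
      exact mul_le_mul_of_nonneg_left ((G1 m (lam_pos hε) a).le_opNorm f) (by positivity)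
    have h2 : ‖Brg657.Aa a (y : EE (m + 2))‖ ≤ 1 := by
      have e1 : ‖Brg657.Aa a (y : EE (m + 2))‖ ^ 2
          = (y : EE (m + 2)) a.1.1 ^ 2 + (y : EE (m + 2)) a.1.2 ^ 2 := by
        rw [← real_inner_self_eq_norm_sq, inner_Aa]
        have hne := a.ne
        unfold Brg657.Aa
        simp [hne, hne.symm]
        ring
      have e2 : (y : EE (m + 2)) a.1.1 ^ 2 + (y : EE (m + 2)) a.1.2 ^ 2 ≤ 1 := by
        have h3 : ‖(y : EE (m + 2))‖ ^ 2 = 1 := by rw [nrm]; norm_num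
        rw [EuclideanSpace.real_norm_sq_eq, sum_split a.ne] at h3
        have h4 : 0 ≤ ∑ k ∈ (Finset.univ.erase a.1.1).erase a.1.2, (y : EE (m + 2)) k ^ 2 :=
          Finset.sum_nonneg fun k _ => sq_nonneg _
        linarith
      have h5 : 0 ≤ ‖Brg657.Aa a (y : EE (m + 2))‖ := norm_nonneg _
      nlinarith
    calc ‖G41 m hε f a y‖ * ‖Brg657.Aa a (y : EE (m + 2))‖
        ≤ ((ε ^ 2)⁻¹ * ‖G1 m (lam_pos hε) a‖ * ‖f‖) * 1 :=
          mul_le_mul h1 h2 (norm_nonneg _) (by positivity)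
      _ = _ := by ring
  weak := fun f h hh => by
    rw [ext_eq] at hh
    obtain ⟨h', hh'⟩ := exists_rot hh
    have hw := weak_G (lam_pos hε) f h h' hh'
    have e1 : ∀ y : SS (m + 2), ε ^ 2 * inner ℝ (gradient (Psi348.ext (G4 m hε f)) (y : EE (m + 2)))
        (gradient (Psi348.ext h) (y : EE (m + 2))) + 4 * G4 m hε f y * h y
        = ∑ a : Pr (m + 2), G1 m (lam_pos hε) a f y * h' a y
          + (4 / ε ^ 2) * (G m (lam_pos hε) f y * h y) := by
      intro y
      rw [ext_eq, ext_eq, inner_gradient (hasRot_G4 hε f) hh', Finset.mul_sum, G4_apply,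
        ContinuousMap.smul_apply, smul_eq_mul]
      have e2 : ∀ a : Pr (m + 2), ε ^ 2 * (G41 m hε f a y * h' a y)
          = G1 m (lam_pos hε) a f y * h' a y := fun a => by
        rw [G41, ContinuousMap.smul_apply, smul_eq_mul]
        field_simp
      rw [Finset.sum_congr rfl fun a _ => e2 a]
      congr 1
      field_simp
    rw [← hw]
    calc ∫ y : SS (m + 2), (ε ^ 2 * inner ℝ (gradient (Psi348.ext (G4 m hε f)) (y : EE (m + 2)))
        (gradient (Psi348.ext h) (y : EE (m + 2))) + 4 * G4 m hε f y * h y) ∂(sig (m + 2))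
        = ∫ y : SS (m + 2), (∑ a : Pr (m + 2), G1 m (lam_pos hε) a f y * h' a y
          + (4 / ε ^ 2) * (G m (lam_pos hε) f y * h y)) ∂(sig (m + 2)) :=
          integral_congr_ae (Eventually.of_forall e1)
      _ = _ := by
          rw [integral_add (integrable_cont (by fun_prop)) (integrable_cont (by fun_prop)),
            integral_finsetSum _ (fun a _ => integrable_cont (by fun_prop)), integral_const_mul]

/-! ### fixed points are smooth solutions -/

theorem rotSm_psiF (k : ℕ) (u : C(SS (m + 2), ℝ)) (hu : Brg657.RotSm k u) :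
    Brg657.RotSm k (Psi348.psiF 4 u) := by
  have h1 : Psi348.psiF 4 u = (4 + 2 : ℝ) • u + (-2 : ℝ) • (u * (u * u)) := by
    ext x; simp only [Psi348.psiF_apply, ContinuousMap.add_apply, ContinuousMap.smul_apply,
      ContinuousMap.mul_apply, smul_eq_mul]; ring
  rw [h1]
  exact (hu.smul _).add ((hu.mul (hu.mul hu)).smul _)

/-- **fixed points of `Ψ` are smooth** -/
theorem fixed_smooth {ε : ℝ} (hε : 0 < ε) {u : C(SS (m + 2), ℝ)}
    (hu : Psi348.Psi 4 (G4 m hε) u = u) : (∀ k, Brg657.RotSm k u)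
      ∧ ContDiffOn ℝ ∞ (Brg657.ext u) {0}ᶜ := by
  refine Brg657.contDiffOn_of_fixed (G := fun f => G4 m hε f) (F := Psi348.psiF 4)
    (fun f a => ⟨_, hasRot_G4 hε f a⟩) (fun f f' a h => hasRot_G4' hε h) rotSm_psiF ?_
  exact hu.symm

theorem fixed_smooth' {ε : ℝ} (hε : 0 < ε) {u : C(SS (m + 2), ℝ)}
    (hu : Psi348.Psi 4 (G4 m hε) u = u) : ContDiffOn ℝ ∞ (Psi348.ext u) {0}ᶜ := by
  rw [ext_eq]; exact (fixed_smooth hε hu).2

/-- **fixed points solve the Allen-Cahn equation** (rotation form) -/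
theorem fixed_pde {ε : ℝ} (hε : 0 < ε) {u : C(SS (m + 2), ℝ)}
    (hu : Psi348.Psi 4 (G4 m hε) u = u) :
    ∃ u' u'' : Pr (m + 2) → C(SS (m + 2), ℝ), (∀ a, HasRot a u (u' a)) ∧
      (∀ a, HasRot a (u' a) (u'' a)) ∧
      ∀ x, ∑ a : Pr (m + 2), u'' a x = -(2 / ε ^ 2) * u x * (1 - u x ^ 2) := by
  set f := Psi348.psiF 4 u with hf
  have hfs : Brg657.RotSm 2 f := rotSm_psiF 2 u ((fixed_smooth hε hu).1 2)
  choose f' hf' using hfs
  have hf1 : ∀ a, HasRot a f (f' a) := fun a => (hf' a).1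
  choose f'' hf'' using fun a => (hf' a).2 a
  have hf2 : ∀ a, HasRot a (f' a) (f'' a) := fun a => (hf'' a).1
  have hGu : G4 m hε f = u := hu
  refine ⟨fun a => G4 m hε (f' a), fun a => G4 m hε (f'' a), fun a => ?_, fun a => ?_, fun x => ?_⟩
  · have := hasRot_G4' hε (hf1 a)
    rwa [hGu] at this
  · exact hasRot_G4' hε (hf2 a)
  · have h1 := G_eq (lam_pos hε) hf1 hf2
    have h2 := congrArg (fun w : C(SS (m + 2), ℝ) => w x) h1
    simp only [ContinuousMap.sub_apply, ContinuousMap.smul_apply, ContinuousMap.sum_apply,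
      smul_eq_mul] at h2
    have h3 : u x = (ε ^ 2)⁻¹ * G m (lam_pos hε) f x := by
      conv_lhs => rw [← hGu]
      rfl
    have h4 : ∀ a : Pr (m + 2), G4 m hε (f'' a) x = (ε ^ 2)⁻¹ * G m (lam_pos hε) (f'' a) x :=
      fun a => rfl
    simp only [h4]
    rw [← Finset.mul_sum]
    have h5 : f x = (4 + 2) * u x - 2 * (u x * (u x * u x)) := Psi348.psiF_apply 4 u x
    have h6 : G m (lam_pos hε) f x = ε ^ 2 * u x := by rw [h3]; field_simp
    rw [h6, h5] at h2
    have h7 : ∑ a : Pr (m + 2), G m (lam_pos hε) (f'' a) x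
        = 4 / ε ^ 2 * (ε ^ 2 * u x) - ((4 + 2) * u x - 2 * (u x * (u x * u x))) := by linarith
    rw [h7]
    field_simp
    ring

end Crest.Agent.R246.Zon797
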