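import Crest.Agent.R246.StMM_348
import Crest.Agent.R246.Res_797
import Crest.Agent.R246.Brg2_657

/-!
# Row 246, blocks C and D0: `StMM` unconditionally (helper348; resolvent by helper797, bridge by
helper657)
-/

set_option autoImplicit false
noncomputable section
open MeasureTheory Set Filter Topology Metric
open scoped RealInnerProductSpace ContDiff

namespace Crest.Agent.R246.StMM348

open Fam348 Psi348 Low348

/-- the resolvent data of `S^{m+1}` -/
theorem resData (m : ℕ) : ResData m := by
  intro ε hε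
  refine ⟨Zon797.G4 m hε, Zon797.res_G4 hε, Zon797.G4_pos hε, fun u _ hu => ?_⟩
  have h1 := (Zon797.fixed_smooth hε hu).2
  have h2 := Brg657.smHom0_ext h1
  obtain ⟨u', u'', hr1, hr2, hp⟩ := Zon797.fixed_pde hε hu
  rw [Zon797.ext_eq]
  refine ⟨h2, Brg657.acU_ext hε h2 hr1 hr2 fun x => ?_⟩
  rw [hp x]
  have hε' := hε.ne'
  field_simp

/-- **the min-max solutions** (`StMM` of `Skel_656`/`Skel2_656`), `m ≥ 1` -/
theorem stMM {m : ℕ} (hm : 1 ≤ m) : Skel656.StMM C378.kapm m := stMM_of hm (resData m)

end Crest.Agent.R246.StMM348
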