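import Crest.Agent.R246.StFam_348
import Crest.Agent.R246.Low_348
import Crest.Agent.R246.Artanh_657

/-!
# `StMM` (existence of smooth Allen-Cahn solutions at the min-max level) from the resolvent
-/

set_option autoImplicit false
set_option linter.unusedSectionVars false
set_option linter.unusedSimpArgs false
noncomputable section
open MeasureTheory Set Filter Topology Metric
open scoped RealInnerProductSpace ContDiff

namespace Crest.Agent.R246.StMM348

open Fam348 Psi348 Low348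
open Crest.Agent.R246.D2x782 (SmHom0 ACeq)
open Crest.Agent.R246.Artanh657 (ACu Ru)
open Crest.GeometryTopology.SphereImmersion

/-- What is needed from the resolvent `(4 - ε² Δ_S)⁻¹` on `S^{m+1}` (helper797, helper657). -/
def ResData (m : ℕ) : Prop :=
  ∀ ε : ℝ, 0 < ε → ∃ G : C(sphere (0 : Skel656.E m) 1, ℝ) →L[ℝ] C(sphere (0 : Skel656.E m) 1, ℝ),
    Res ε 4 G ∧
    (∃ c : ℝ, 0 < c ∧ ∀ f : C(sphere (0 : Skel656.E m) 1, ℝ), (∀ y, 0 ≤ f y) → ∀ y,
      c * ∫ z : sphere (0 : Skel656.E m) 1, f z ∂(sg (Skel656.E m)) ≤ G f y) ∧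
    (∀ u : C(sphere (0 : Skel656.E m) 1, ℝ), (∀ y, |u y| ≤ 1) → Psi 4 G u = u →
      SmHom0 (ext u) ∧ ACu ε (ext u))

/-- **StMM** from the resolvent, `m ≥ 1`. -/
theorem stMM_of {m : ℕ} (hm : 1 ≤ m) (hG : ResData m) : Skel656.StMM C378.kapm m := by
  intro ε A hε hfam hpos
  obtain ⟨V, i1, i2, i3, U, hV, hodd, hU, happ⟩ := hfam
  obtain ⟨m', rfl⟩ : ∃ m', m = m' + 1 := ⟨m - 1, by omega⟩
  obtain ⟨G, hR, ⟨c, hc, hGpos⟩, hreg⟩ := hG ε hε
  set B := 4 / 3 * C378.kapm (m' + 1) * unitSphereArea (m' + 1) *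
    (1 - Real.sqrt (2 * ε * A / unitSphereArea (m' + 1 + 1))) with hB
  have hB0 : 0 < B := by
    have h1 := C378.one_lt_kapm (m' + 1)
    have h2 := ThetaK688.unitSphereArea_pos (m' + 1)
    have h3 : 0 < C378.kapm (m' + 1) := by linarith
    exact mul_pos (by positivity) hpos
  have : Nontrivial V := by
    apply Module.nontrivial_of_finrank_pos (R := ℝ)
    rw [hV]; omega
  have : Nonempty (sphere (0 : V) 1) := (NormedSpace.sphere_nonempty.2 zero_le_one).to_subtype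
  obtain ⟨u, hu1, hfix, huB, huA⟩ := exists_fixed (E := Skel656.E (m' + 1)) hR hε le_rfl
    (P := sphere (0 : V) 1) (fun p => -p) U hodd hU (A := A) (B := B) happ
    (fun W h1 h2 h3 h4 => lower_bound hε (by rw [hV]) W h1 h2 h3 h4)
  have hlt : ∀ y, |u y| < 1 :=
    abs_lt_one_of_fixed hR le_rfl hc hGpos hu1 hfix (hB0.trans_le huB)
  obtain ⟨hsm, hac⟩ := hreg u hu1 hfix
  have hlt' : ∀ x : Skel656.E (m' + 1), |ext u x| < 1 := by
    intro x
    by_cases hx : x = 0
    · rw [hx, ext_zero, abs_zero]; exact one_pos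
    · rw [ext_of_ne u hx]; exact hlt _
  have hEn : Skel656.En ε (Ru ε (ext u)) = Psi348.En ε u := by
    unfold Skel656.En Psi348.En
    congr 1
    funext x
    exact Artanh657.tanh_Ru hε (hlt' x)
  refine ⟨Ru ε (ext u), ⟨hε, Artanh657.smHom0_artanh hsm fun x _ => hlt' x,
    Artanh657.acEq_artanh hε hsm (fun x _ => hlt' x) hac⟩, ?_, ?_⟩
  · rw [hEn]; exact huA
  · rw [hEn]; exact huB

/-- `V ≥ κ_m |S^m|` from `StFam` and `StMM`. -/
theorem stC_of (hG : ∀ m, 1 ≤ m → ResData m) : Skel656.StC C378.kapm := by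
  refine ⟨C378.kapm_one, fun m _ => C378.one_lt_kapm m, ?_⟩
  intro m hm φ hφ A hV
  have hS := ThetaK688.unitSphereArea_pos (m + 1)
  have hlim : Tendsto (fun ε : ℝ => Real.sqrt (2 * ε * (4 / 3 * A) / unitSphereArea (m + 1)))
      (𝓝[>] 0) (𝓝 0) := by
    have h1 : Continuous fun ε : ℝ =>
        Real.sqrt (2 * ε * (4 / 3 * A) / unitSphereArea (m + 1)) := by fun_prop
    have h2 := h1.tendsto 0
    simp only [mul_zero, zero_mul, zero_div, Real.sqrt_zero] at h2
    exact h2.mono_left nhdsWithin_le_nhds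
  have hlim2 : Tendsto (fun ε : ℝ => 4 / 3 * C378.kapm m * unitSphereArea m *
      (1 - Real.sqrt (2 * ε * (4 / 3 * A) / unitSphereArea (m + 1))))
      (𝓝[>] 0) (𝓝 (4 / 3 * C378.kapm m * unitSphereArea m * (1 - 0))) :=
    (tendsto_const_nhds.sub hlim).const_mul _
  have hle : ∀ᶠ ε : ℝ in 𝓝[>] 0, 4 / 3 * C378.kapm m * unitSphereArea m *
      (1 - Real.sqrt (2 * ε * (4 / 3 * A) / unitSphereArea (m + 1))) ≤ 4 / 3 * A := by
    have h1 := hlim.eventually (gt_mem_nhds (one_pos : (0:ℝ) < 1))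
    filter_upwards [h1, self_mem_nhdsWithin] with ε h2 h3
    obtain ⟨R, hR, hR1, hR2⟩ := stMM_of hm (hG m hm) ε (4 / 3 * A) h3
      (StFam348.stFam hm φ hφ A hV ε h3) (by linarith)
    linarith
  have := le_of_tendsto hlim2 hle
  rw [sub_zero, mul_one] at this
  linarith

end Crest.Agent.R246.StMM348
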