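import Crest.Agent.R246.Res_797
import Crest.Agent.R246.Brg3_657
import Crest.Agent.R246.StMM_348

/-!
# R246, block D0: `ResData` and the unconditional min-max theorem `StMM` (helper657)
-/

set_option autoImplicit false

noncomputable section
open MeasureTheory Set Filter Topology Metric
open scoped ContDiff
open Crest.Agent.R246.D2x782 (SmHom0)
open Crest.Agent.R246.Artanh657 (ACu)

namespace Crest.Agent.R246.ResData657

/-- the resolvent data of `StMM_348` -/
theorem resData (m : ℕ) : StMM348.ResData m := by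
  intro ε hε
  refine ⟨Zon797.G4 m hε, Zon797.res_G4 hε, Zon797.G4_pos hε, fun u _ hfix => ?_⟩
  have hs : SmHom0 (Brg657.ext u) := by
    have h1 := Zon797.fixed_smooth' hε hfix
    rw [Brg657.ext_eq] at h1
    exact Brg657.smHom0_ext h1
  obtain ⟨u', u'', h1, h2, h3⟩ := Zon797.fixed_pde hε hfix
  rw [Brg657.ext_eq]
  refine ⟨hs, Brg657.acU_ext hε hs h1 h2 fun x => ?_⟩
  rw [h3 x]
  have := hε.ne'
  field_simp

/-- **StMM** unconditionally -/
theorem stMM {m : ℕ} (hm : 1 ≤ m) : Skel656.StMM C378.kapm m := StMM348.stMM_of hm (resData m)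

end Crest.Agent.R246.ResData657
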