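import Crest.Agent.R246.Res_797
import Crest.Agent.R246.Brg2_657
import Crest.Agent.R246.StMM_348

/-! # Row 246: `ResData`, `StMM`, `StC` unconditionally (helper797) -/

set_option autoImplicit false
set_option maxHeartbeats 400000
open MeasureTheory Metric Topology Filter
open scoped ContDiff

namespace Crest.Agent.R246.Zon797

variable {m : ℕ}

theorem resData (m : ℕ) : StMM348.ResData m := by
  intro ε hε
  refine ⟨G4 m hε, res_G4 hε, G4_pos hε, fun u _ hu => ?_⟩
  obtain ⟨u', u'', h1, h2, h3⟩ := fixed_pde hε hu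
  have hs : D2x782.SmHom0 (Brg657.ext u) := Brg657.smHom0_of_rotSm (fixed_smooth hε hu).1
  rw [ext_eq]
  refine ⟨hs, Brg657.acU_ext hε hs h1 h2 fun x => ?_⟩
  rw [h3 x]
  field_simp

theorem stMM (m : ℕ) (hm : 1 ≤ m) : Skel656.StMM C378.kapm m := StMM348.stMM_of hm (resData m)

theorem stC : Skel656.StC C378.kapm := StMM348.stC_of fun m _ => resData m

end Crest.Agent.R246.Zon797
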