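import Crest.Agent.R246.SM9_436

/-!
# `V(φ) ≤ μ(M')` for smooth minimal hypercones in `ClassD` (helper436)
-/

set_option autoImplicit false
set_option linter.unusedSectionVars false
set_option linter.unusedSimpArgs false
noncomputable section
open MeasureTheory Set Filter Topology Module
open scoped RealInnerProductSpace ContDiff

namespace Crest.Agent.R246.SM436

open Crest.Agent.R246.H990
open Crest.Agent.R246.G873 (gi Lip ClassD)
open Crest.Agent.R246.Vb872 (ka Fk wt Zk lip_ka lip_Fk hcs_Fk ka_nonneg ka_le_one ka_one tendsto_ka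
  norm_fderiv_ka_le' fderiv_ka_zero integrable_gauss_radial wt_le wt_pos wt_deriv gi_eq
  integrable_gi norm_gradient' Fk_nonneg Fk_zero_small lip_Zk)

variable {E : Type*} [NormedAddCommGroup E] [InnerProductSpace ℝ E] [FiniteDimensional ℝ E]
  [MeasurableSpace E] [BorelSpace E]

/-- `t / √(1 - t²)` -/
def tn (t : ℝ) : ℝ := t / Real.sqrt (1 - t ^ 2)

lemma tn_lip {c : ℝ} (hc0 : 0 ≤ c) (hc : c < 1) : ∃ K, LipschitzOnWith K tn (Icc (-c) c) := by
  have h1 : ContDiffOn ℝ 1 tn (Icc (-c) c) := by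
    intro t ht
    have h2 : 0 < 1 - t ^ 2 := by nlinarith [ht.1, ht.2]
    have h3 : ContDiffAt ℝ 1 (fun t : ℝ => Real.sqrt (1 - t ^ 2)) t :=
      (contDiffAt_const.sub (contDiffAt_id.pow 2)).sqrt h2.ne'
    exact (contDiffAt_id.div h3 (Real.sqrt_pos.2 h2).ne').contDiffWithinAt
  exact h1.exists_lipschitzOnWith one_ne_zero (convex_Icc _ _) isCompact_Icc

namespace Tube

variable {φ : E → ℝ} {b : ℝ} (hT : Tube φ b)
include hT

lemma ta_lip (h : NullCone φ) : ∃ K, LipschitzOnWith K (ta φ) (Metric.sphere (0 : E) 1) := by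
  obtain ⟨c, hc0, hc1, hc⟩ := h.bd
  obtain ⟨K, hK⟩ := tn_lip hc0 hc1
  refine ⟨K, ?_⟩
  have h1 : ∀ x ∈ Metric.sphere (0 : E) 1, ta φ x = tn (φ x) := by
    intro x hx
    rw [mem_sphere_zero_iff_norm] at hx
    rw [ta, tn, rr, hx, one_pow]
  have h2 : ∀ x ∈ Metric.sphere (0 : E) 1, φ x ∈ Icc (-c) c := by
    intro x hx
    rw [mem_sphere_zero_iff_norm] at hx
    have := hc x
    rw [hx, mul_one] at this
    exact abs_le.1 this
  apply LipschitzOnWith.of_dist_le_mul
  intro x hx y hy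
  rw [h1 x hx, h1 y hy]
  refine (hK.dist_le_mul _ (h2 x hx) _ (h2 y hy)).trans ?_
  have h3 := h.lip.dist_le_mul x y
  rw [NNReal.coe_one, one_mul] at h3
  gcongr

/-- functions of `ta` are tests -/
lemma test_comp (h : NullCone φ) {G : ℝ → ℝ} {L : NNReal} (hG : LipschitzWith L G)
    (h0 : ∀ s, 0 ≤ G s) (h1 : ∀ s, G s ≤ 1) : Test (fun x => G (ta φ x)) where
  hom := fun t ht x => by rw [hT.ta_smul x ht]
  nonneg := fun x => h0 _
  le_one := fun x => h1 _
  lip := by
    obtain ⟨K, hK⟩ := hT.ta_lip h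
    refine ⟨L * K, ?_⟩
    apply LipschitzOnWith.of_dist_le_mul
    intro x hx y hy
    refine (hG.dist_le_mul _ _).trans ?_
    have := hK.dist_le_mul x hx y hy
    push_cast
    rw [mul_assoc]
    gcongr

/-- derivative of `ta` along the normal -/
lemma hasFDerivAt_ta {x : E} (hx : x ∈ TT φ b) :
    DifferentiableAt ℝ (ta φ) x ∧ fderiv ℝ (ta φ) x (gradient φ x) = (rr φ x)⁻¹ := by
  have hG := hT.good hx
  have hr := hx.1
  have d1 := hG.hasFDerivAt
  have d2 := hT.hasFDerivAt_rr hx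
  have d4 : HasFDerivAt (fun y : E => (rr φ y)⁻¹)
      ((-((rr φ x) ^ 2)⁻¹) • ((rr φ x)⁻¹ • innerSL ℝ (ft φ x))) x :=
    (hasDerivAt_inv hr.ne').comp_hasFDerivAt x d2
  have d3 := d1.mul d4
  have e3 : ta φ = φ * fun y => (rr φ y)⁻¹ := by
    funext y; rw [ta, div_eq_mul_inv]; rfl
  rw [← e3] at d3
  refine ⟨d3.differentiableAt, ?_⟩
  rw [d3.fderiv]
  have h8 := hG.norm_gradient
  have h9 : ⟪ft φ x, gradient φ x⟫ = 0 := by
    rw [real_inner_comm]; exact hT.inner_gradient_ft hx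
  simp only [smul_apply, add_apply, innerSL_apply_apply, smul_eq_mul, real_inner_self_eq_norm_sq,
    h8, h9]
  ring

end Tube

/-! ### the profiles -/

/-- upper profile -/
def G1 (c s : ℝ) : ℝ := cl (2 / c * s - 1)
/-- lower profile -/
def G2 (c s : ℝ) : ℝ := cl (-(2 / c * s) - 1)
/-- middle profile -/
def G3 (c s : ℝ) : ℝ := 1 - G1 c s - G2 c s

lemma cl_zero' {t : ℝ} (h : t ≤ 0) : cl t = 0 := by
  rw [cl, max_eq_left]; exact (min_le_right _ _).trans h

lemma cl_one' {t : ℝ} (h : 1 ≤ t) : cl t = 1 := by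
  rw [cl, min_eq_left h]; simp

lemma cl_dist (s t : ℝ) : |cl s - cl t| ≤ |s - t| := by
  have := cl_lip.dist_le_mul s t
  rwa [NNReal.coe_one, one_mul, Real.dist_eq, Real.dist_eq] at this

lemma G1_lip {c : ℝ} (hc : 0 < c) : LipschitzWith (Real.toNNReal (2 / c)) (G1 c) := by
  apply LipschitzWith.of_dist_le_mul
  intro x y
  rw [Real.coe_toNNReal _ (by positivity), Real.dist_eq, Real.dist_eq]
  refine (cl_dist _ _).trans ?_
  rw [show 2 / c * x - 1 - (2 / c * y - 1) = 2 / c * (x - y) by ring, abs_mul,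
    abs_of_pos (by positivity)]

lemma G2_lip {c : ℝ} (hc : 0 < c) : LipschitzWith (Real.toNNReal (2 / c)) (G2 c) := by
  apply LipschitzWith.of_dist_le_mul
  intro x y
  rw [Real.coe_toNNReal _ (by positivity), Real.dist_eq, Real.dist_eq]
  refine (cl_dist _ _).trans ?_
  rw [show -(2 / c * x) - 1 - (-(2 / c * y) - 1) = -(2 / c * (x - y)) by ring, abs_neg, abs_mul,
    abs_of_pos (by positivity)]

lemma G3_lip {c : ℝ} (hc : 0 < c) :
    LipschitzWith (Real.toNNReal (2 / c) + Real.toNNReal (2 / c)) (G3 c) := by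
  apply LipschitzWith.of_dist_le_mul
  intro x y
  have h1 := (G1_lip hc).dist_le_mul x y
  have h2 := (G2_lip hc).dist_le_mul x y
  rw [Real.dist_eq] at h1 h2 ⊢
  rw [show G3 c x - G3 c y = -((G1 c x - G1 c y) + (G2 c x - G2 c y)) by simp only [G3]; ring,
    abs_neg]
  refine (abs_add_le _ _).trans ?_
  push_cast
  rw [add_mul]
  exact add_le_add h1 h2

lemma G1_zero {c s : ℝ} (hc : 0 < c) (h : s ≤ c / 2) : G1 c s = 0 := by
  apply cl_zero'
  have : 2 / c * s ≤ 2 / c * (c / 2) := by gcongr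
  rw [show 2 / c * (c / 2) = 1 by field_simp] at this
  linarith

lemma G1_one {c s : ℝ} (hc : 0 < c) (h : c ≤ s) : G1 c s = 1 := by
  apply cl_one'
  have : 2 / c * c ≤ 2 / c * s := by gcongr
  rw [show 2 / c * c = 2 by field_simp] at this
  linarith

lemma G2_zero {c s : ℝ} (hc : 0 < c) (h : -(c / 2) ≤ s) : G2 c s = 0 := by
  apply cl_zero'
  have : 2 / c * -(c / 2) ≤ 2 / c * s := by gcongr
  rw [show 2 / c * -(c / 2) = -1 by field_simp] at this
  linarith

lemma G2_one {c s : ℝ} (hc : 0 < c) (h : s ≤ -c) : G2 c s = 1 := by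
  apply cl_one'
  have : 2 / c * s ≤ 2 / c * -c := by gcongr
  rw [show 2 / c * -c = -2 by field_simp] at this
  linarith

lemma G1_mem (c s : ℝ) : 0 ≤ G1 c s ∧ G1 c s ≤ 1 := ⟨cl_nonneg _, cl_le_one _⟩
lemma G2_mem (c s : ℝ) : 0 ≤ G2 c s ∧ G2 c s ≤ 1 := ⟨cl_nonneg _, cl_le_one _⟩

lemma G3_mem {c : ℝ} (hc : 0 < c) (s : ℝ) : 0 ≤ G3 c s ∧ G3 c s ≤ 1 := by
  have h1 := G1_mem c s
  have h2 := G2_mem c s
  rcases le_total s 0 with h | h
  · have : G1 c s = 0 := G1_zero hc (by linarith)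
    simp only [G3]
    constructor <;> linarith
  · have : G2 c s = 0 := G2_zero hc (by linarith)
    simp only [G3]
    constructor <;> linarith

lemma G3_zero {c s : ℝ} (hc : 0 < c) (h : c ≤ |s|) : G3 c s = 0 := by
  rcases le_total s 0 with h0 | h0
  · rw [abs_of_nonpos h0] at h
    rw [G3, G1_zero hc (by linarith), G2_one hc (by linarith)]; ring
  · rw [abs_of_nonneg h0] at h
    rw [G3, G2_zero hc (by linarith), G1_one hc (by linarith)]; ring

/-- profile of the derivative of `G1` -/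
def chi2 (s : ℝ) : ℝ := if 1 / 2 < s ∧ s < 1 then 2 else 0

lemma integral_chi2 : ∫ s, chi2 s = 1 := by
  have h1 : chi2 = (Ioo (1 / 2 : ℝ) 1).indicator (fun _ => (2 : ℝ)) := by
    funext s
    simp only [chi2, indicator, mem_Ioo]
  rw [h1, integral_indicator measurableSet_Ioo, setIntegral_const]
  simp
  norm_num

/-- indicator of `[-1,1]` -/
def chiI (s : ℝ) : ℝ := if |s| ≤ 1 then 1 else 0

namespace Tube

variable {φ : E → ℝ} {b : ℝ} (hT : Tube φ b)
include hT

lemma test_G1 (h : NullCone φ) {c : ℝ} (hc : 0 < c) : Test (fun x => G1 c (ta φ x)) :=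
  hT.test_comp h (G1_lip hc) (fun s => (G1_mem c s).1) (fun s => (G1_mem c s).2)

lemma test_G2 (h : NullCone φ) {c : ℝ} (hc : 0 < c) : Test (fun x => G2 c (ta φ x)) :=
  hT.test_comp h (G2_lip hc) (fun s => (G2_mem c s).1) (fun s => (G2_mem c s).2)

lemma test_G3 (h : NullCone φ) {c : ℝ} (hc : 0 < c) : Test (fun x => G3 c (ta φ x)) :=
  hT.test_comp h (G3_lip hc) (fun s => (G3_mem hc s).1) (fun s => (G3_mem hc s).2)

lemma mem_TT_of_ta {x : E} (hx : x ≠ 0) (h : |ta φ x| < b) : x ∈ TT φ b := by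
  have hr := hT.rr_pos hx
  refine ⟨hr, ?_⟩
  rw [ta, abs_div, abs_of_pos hr, div_lt_iff₀ hr] at h
  exact h

/-- flux of the upper profile -/
lemma flux_G1 [Nontrivial E] {c : ℝ} (hc : 0 < c) (hcb : c ≤ b) :
    flux φ (fun x => G1 c (ta φ x)) = c⁻¹ * ∫ y in TT φ b, (Real.exp (-rr φ y ^ 2) / rr φ y) *
        (chi2 (ta φ y / c) * 1) := by
  rw [flux, ← integral_indicator hT.measurableSet_TT, ← integral_const_mul]
  refine integral_congr_ae ?_
  have h0 : ∀ᵐ x ∂(volume : Measure E), x ≠ 0 := compl_mem_ae_iff.2 (measure_singleton 0)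
  filter_upwards [h0] with x hx
  have hr : 0 < rr φ x := hT.rr_pos hx
  have h1 := hT.rr_sq x
  rw [← h1]
  rcases le_or_gt (ta φ x) (c / 2) with h2 | h2
  · have h3 : G1 c (ta φ x) = 0 := G1_zero hc h2
    have h4 : IsLocalMin (fun x => G1 c (ta φ x)) x := Eventually.of_forall fun y => by
      simp only [h3]; exact (G1_mem _ _).1
    rw [h4.fderiv_eq_zero]
    have h5 : chi2 (ta φ x / c) = 0 := by
      rw [chi2, if_neg]
      rintro ⟨h6, -⟩
      rw [lt_div_iff₀ hc] at h6
      linarith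
    simp only [indicator]
    split_ifs <;> simp [h5]
  rcases lt_or_ge (ta φ x) c with h3 | h3
  · have hxT : x ∈ TT φ b := hT.mem_TT_of_ta hx (by rw [abs_of_pos (by linarith)]; linarith)
    obtain ⟨d1, d2⟩ := hT.hasFDerivAt_ta hxT
    have he : (fun x => G1 c (ta φ x)) =ᶠ[𝓝 x] fun x => 2 / c * ta φ x - 1 := by
      have e1 : ∀ᶠ y in 𝓝 x, c / 2 < ta φ y := d1.continuousAt.eventually (lt_mem_nhds h2)
      have e2 : ∀ᶠ y in 𝓝 x, ta φ y < c := d1.continuousAt.eventually (gt_mem_nhds h3)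
      filter_upwards [e1, e2] with y h4 h5
      apply cl_eq_of_mem
      · have : 2 / c * (c / 2) ≤ 2 / c * ta φ y := by gcongr
        rw [show 2 / c * (c / 2) = 1 by field_simp] at this
        linarith
      · have : 2 / c * ta φ y ≤ 2 / c * c := by gcongr
        rw [show 2 / c * c = 2 by field_simp] at this
        linarith
    have h60 : 1 / 2 < ta φ x / c := by rw [lt_div_iff₀ hc]; linarith
    have h6 : chi2 (ta φ x / c) = 2 := by
      rw [chi2, if_pos ⟨h60, (div_lt_one hc).2 h3⟩]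
    have h7 : fderiv ℝ (fun x => 2 / c * ta φ x - 1) x = (2 / c) • fderiv ℝ (ta φ) x := by
      rw [fderiv_sub_const, fderiv_const_mul d1]
    rw [he.fderiv_eq, h7, smul_apply, d2, indicator_of_mem hxT, h6]
    simp only [smul_eq_mul]
    field_simp
  · have h4 : G1 c (ta φ x) = 1 := G1_one hc h3
    have h5 : IsLocalMax (fun x => G1 c (ta φ x)) x := Eventually.of_forall fun y => by
      simp only [h4]; exact (G1_mem _ _).2
    rw [h5.fderiv_eq_zero]
    have h6 : chi2 (ta φ x / c) = 0 := by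
      rw [chi2, if_neg]
      rintro ⟨-, h7⟩
      rw [div_lt_one hc] at h7
      linarith
    simp only [indicator]
    split_ifs <;> simp [h6]

/-- the flux of the upper profile converges -/
lemma tendsto_flux_G1 (hn : 2 ≤ finrank ℝ E) :
    Tendsto (fun c : ℝ => flux φ (fun x => G1 c (ta φ x))) (𝓝[>] 0)
      (𝓝 (cV E * (mu φ b univ).toReal)) := by
  have hNt : Nontrivial E := by
    apply Module.nontrivial_of_finrank_pos (R := ℝ)
    omega
  have hb := hT.hb
  have hgm : Measurable (fun ρ : ℝ => Real.exp (-ρ ^ 2) / ρ) := by fun_prop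
  have hχm : Measurable chi2 := by
    apply Measurable.ite _ measurable_const measurable_const
    exact measurableSet_Ioo
  have hlim := hT.tube_limit (F := fun _ => 1) measurable_const continuousOn_const
    (fun _ _ _ _ => rfl) hgm hχm (M := 2) (fun s => by
      simp only [chi2]; split_ifs <;> simp) (fun s hs => by
      rw [chi2, if_neg]
      rintro ⟨h1, h2⟩
      rw [abs_of_pos (by linarith)] at hs
      linarith)
  rw [kap_cV hT hn, integral_chi2, one_mul] at hlim
  have h1 : ∫ _, (1 : ℝ) ∂(mu φ b) = (mu φ b univ).toReal := by simp [Measure.real]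
  rw [h1] at hlim
  refine hlim.congr' ?_
  filter_upwards [Ioc_mem_nhdsGT hb] with c hc
  rw [hT.flux_G1 hc.1 hc.2]

/-! ### the middle part -/

lemma continuousOn_tr_hs : ContinuousOn (fun x => tr (hs φ x)) (TT φ b) := fun _ hx =>
  (continuous_tr.continuousAt.comp (hT.continuousAt_hs hx)).continuousWithinAt

/-- bound on the Laplacian in a smaller tube -/
lemma tr_hs_bound : ∃ C : ℝ, 0 ≤ C ∧ ∀ x ∈ TT φ b, |ta φ x| ≤ b / 2 →
    |tr (hs φ x)| ≤ C * (rr φ x)⁻¹ := by
  have hb := hT.hb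
  obtain ⟨C, hC0, hC⟩ := hT.exists_bound hT.continuousOn_tr_hs (b' := b / 2) (by linarith)
  refine ⟨C, hC0, fun x hx hxb => ?_⟩
  have h1 := hT.recon_pp hx
  have h2 := (hC (pp φ x) (hT.mem_Lk_pp hx) (ta φ x) hxb).2
  have h3 : pp φ x + ta φ x • gradient φ (pp φ x) ∈ TT φ b :=
    (hT.seg_one (hT.mem_Lk_pp hx) (by linarith : |ta φ x| < b)).1
  have h4 : hs φ x = (rr φ x)⁻¹ • hs φ (pp φ x + ta φ x • gradient φ (pp φ x)) := by
    conv_lhs => rw [← h1]
    exact (hT.good h3).hs_smul hT.hom hx.1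
  rw [h4, tr_smul, abs_mul, abs_of_pos (inv_pos.2 hx.1), mul_comm]
  exact mul_le_mul_of_nonneg_right h2 (inv_pos.2 hx.1).le

lemma wt_eq (x : E) : wt φ x = Real.exp (-rr φ x ^ 2) := by
  rw [hT.rr_sq]; rfl

/-- the flux of a test supported in a thin tube. -/
lemma flux_mid (hn : 2 ≤ finrank ℝ E) (h : NullCone φ) : ∃ C : ℝ, 0 ≤ C ∧ ∀ c : ℝ, 0 < c →
    c ≤ b / 2 → ∀ ξ : E → ℝ, Test ξ → (∀ x, c < |ta φ x| → ξ x = 0) →
    flux φ ξ ≤ C * ∫ y in TT φ b, (Real.exp (-rr φ y ^ 2) / rr φ y) * (chiI (ta φ y / c) * 1) := by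
  have hNt : Nontrivial E := by
    apply Module.nontrivial_of_finrank_pos (R := ℝ)
    omega
  have hb := hT.hb
  obtain ⟨C, hC0, hC⟩ := hT.tr_hs_bound
  refine ⟨C, hC0, fun c hc hcb ξ hξ h0 => ?_⟩
  have hne : ∀ᵐ x ∂(volume : Measure E), x ≠ 0 := compl_mem_ae_iff.2 (measure_singleton 0)
  -- integrability of the majorant
  set H : E → ℝ := fun y => (Real.exp (-rr φ y ^ 2) / rr φ y) * (chiI (ta φ y / c) * 1) with hH
  have hχm : Measurable chiI := by
    apply Measurable.ite _ measurable_const measurable_const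
    exact measurableSet_le (by fun_prop) measurable_const
  have hHm : Measurable H := by
    have h1 : Measurable fun y => Real.exp (-rr φ y ^ 2) / rr φ y :=
      ((hT.measurable_rr.pow_const 2).neg.exp).div hT.measurable_rr
    exact h1.mul ((hχm.comp (hT.measurable_ta.div_const c)).mul measurable_const)
  have hHi : Integrable ((TT φ b).indicator H) := by
    obtain ⟨β, hβ, hwb⟩ := wt_le h
    have hG := integrable_gauss_radial (E := E) hn hβ
    refine (hG.const_mul (1 + b)).mono' (hHm.indicator hT.measurableSet_TT).aestronglyMeasurable ?_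
    filter_upwards [hne] with x hx
    have hx' : 0 < ‖x‖ := norm_pos_iff.2 hx
    have hxi : 0 < ‖x‖⁻¹ := inv_pos.2 hx'
    have he := Real.exp_pos (-β * ‖x‖ ^ 2)
    rw [Real.norm_eq_abs]
    by_cases hxT : x ∈ TT φ b
    · rw [indicator_of_mem hxT]
      have hr := hxT.1
      have h1 : ‖x‖ ≤ (1 + b) * rr φ x := by
        have h2 := hT.rr_sq x
        have h3 := hxT.2
        have h4 : ‖x‖ ^ 2 ≤ ((1 + b) * rr φ x) ^ 2 := by
          have h5 : φ x ^ 2 ≤ (b * rr φ x) ^ 2 := by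
            rw [← sq_abs (φ x)]
            exact pow_le_pow_left₀ (abs_nonneg _) h3.le 2
          nlinarith [mul_pos hb (mul_pos hr hr)]
        exact le_of_sq_le_sq h4 (by positivity)
      have h6 : (rr φ x)⁻¹ ≤ (1 + b) * ‖x‖⁻¹ := by
        rw [inv_le_iff_one_le_mul₀ hr, mul_assoc, ← div_eq_inv_mul, mul_div_assoc']
        rw [le_div_iff₀ hx', one_mul]
        exact h1
      have h7 : |chiI (ta φ x / c)| ≤ 1 := by
        simp only [chiI]; split_ifs <;> simp
      have h8 : Real.exp (-rr φ x ^ 2) ≤ Real.exp (-β * ‖x‖ ^ 2) := by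
        rw [← hT.wt_eq]; exact hwb x
      simp only [hH]
      rw [mul_one, abs_mul, div_eq_mul_inv, abs_mul, abs_of_pos (Real.exp_pos _),
        abs_of_pos (inv_pos.2 hr)]
      calc Real.exp (-rr φ x ^ 2) * (rr φ x)⁻¹ * |chiI (ta φ x / c)|
          ≤ Real.exp (-β * ‖x‖ ^ 2) * ((1 + b) * ‖x‖⁻¹) * 1 := by gcongr
        _ ≤ (1 + b) * (Real.exp (-β * ‖x‖ ^ 2) * (2 * ‖x‖⁻¹ + 1 + ‖x‖)) := by
            have h9 : ‖x‖⁻¹ ≤ 2 * ‖x‖⁻¹ + 1 + ‖x‖ := by linarith
            have h10 : Real.exp (-β * ‖x‖ ^ 2) * ‖x‖⁻¹ ≤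
              Real.exp (-β * ‖x‖ ^ 2) * (2 * ‖x‖⁻¹ + 1 + ‖x‖) := by gcongr
            have h11 : (0 : ℝ) < 1 + b := by linarith
            calc Real.exp (-β * ‖x‖ ^ 2) * ((1 + b) * ‖x‖⁻¹) * 1
                = (1 + b) * (Real.exp (-β * ‖x‖ ^ 2) * ‖x‖⁻¹) := by ring
              _ ≤ _ := by gcongr
    · rw [indicator_of_notMem hxT, abs_zero]
      have : (0 : ℝ) < 1 + b := by linarith
      positivity
  rw [← integral_indicator hT.measurableSet_TT, ← integral_const_mul]
  refine le_of_tendsto' (tendsto_flux hn h hξ) fun k => ?_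
  obtain ⟨L, hL⟩ := lip_FT h hξ k
  have hsub : tsupport (FT φ ξ k) ⊆
      {x : E | |φ x| ≤ c * rr φ x ∧ 1 ≤ ((k : ℝ) + 1) * ‖x‖} := by
    refine closure_minimal (fun x hx => ?_) ?_
    · have hk : 1 ≤ ((k : ℝ) + 1) * ‖x‖ := by
        by_contra hcon
        exact hx (by simp only [FT]; rw [Fk_zero_small φ (not_le.1 hcon).le, zero_mul])
      have hx0 : x ≠ 0 := by
        rintro rfl
        rw [norm_zero, mul_zero] at hk
        linarith
      refine ⟨?_, hk⟩
      by_contra hcon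
      apply hx
      simp only [FT]
      rw [h0 x, mul_zero]
      rw [ta, abs_div, abs_of_pos (hT.rr_pos hx0), lt_div_iff₀ (hT.rr_pos hx0)]
      exact not_le.1 hcon
    · exact (isClosed_le h.lip.continuous.abs (continuous_const.mul hT.continuous_rr)).inter
        (isClosed_le continuous_const (continuous_const.mul continuous_norm))
  have hsT : ∀ x ∈ tsupport (FT φ ξ k), x ∈ TT φ b ∧ |ta φ x| ≤ c := by
    intro x hx
    obtain ⟨h1, h2⟩ := hsub hx
    have hx0 : x ≠ 0 := by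
      rintro rfl
      rw [norm_zero, mul_zero] at h2
      linarith
    have hr := hT.rr_pos hx0
    have h3 : |ta φ x| ≤ c := by
      rw [ta, abs_div, abs_of_pos hr, div_le_iff₀ hr]; exact h1
    exact ⟨hT.mem_TT_of_ta hx0 (by linarith), h3⟩
  rw [integral_gi_smooth hT.isOpen_TT (fun x hx => (hT.good hx).contDiffAt) hL (hcs_FT φ ξ k)
    (fun x hx => (hsT x hx).1), ← integral_neg]
  refine (le_abs_self _).trans ?_
  rw [← Real.norm_eq_abs]
  refine norm_integral_le_of_norm_le (hHi.const_mul C) (Eventually.of_forall fun x => ?_)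
  rw [norm_neg, Real.norm_eq_abs]
  by_cases hx : x ∈ tsupport (FT φ ξ k)
  · obtain ⟨hxT, hxc⟩ := hsT x hx
    have hr := hxT.1
    rw [indicator_of_mem hxT, abs_mul]
    have h1 : chiI (ta φ x / c) = 1 := by
      rw [chiI, if_pos]
      rw [abs_div, abs_of_pos hc, div_le_one hc]; exact hxc
    have h2 := hC x hxT (by linarith)
    have h3 : |FT φ ξ k x| ≤ Real.exp (-rr φ x ^ 2) := by
      rw [← hT.wt_eq, FT, abs_of_nonneg (mul_nonneg (Fk_nonneg φ k x) (hξ.nonneg x)),
        show Fk φ k x = ka k x * wt φ x from rfl]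
      have h4 := ka_nonneg k x
      have h5 := ka_le_one k x
      have h6 := (wt_pos φ x).le
      calc ka k x * wt φ x * ξ x ≤ 1 * wt φ x * 1 :=
            mul_le_mul (mul_le_mul_of_nonneg_right h5 h6) (hξ.le_one x) (hξ.nonneg x)
              (by positivity)
        _ = wt φ x := by ring
    show _ ≤ C * ((Real.exp (-rr φ x ^ 2) / rr φ x) * (chiI (ta φ x / c) * 1))
    rw [h1, mul_one, mul_one, div_eq_mul_inv]
    calc |FT φ ξ k x| * |tr (hs φ x)|
        ≤ Real.exp (-rr φ x ^ 2) * (C * (rr φ x)⁻¹) :=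
          mul_le_mul h3 h2 (abs_nonneg _) (Real.exp_pos _).le
      _ = C * (Real.exp (-rr φ x ^ 2) * (rr φ x)⁻¹) := by ring
  · have h1 : FT φ ξ k x = 0 := by
      by_contra h2; exact hx (subset_tsupport _ h2)
    rw [h1, zero_mul, abs_zero]
    refine mul_nonneg hC0 (indicator_nonneg (fun y hy => ?_) x)
    show 0 ≤ (Real.exp (-rr φ y ^ 2) / rr φ y) * (chiI (ta φ y / c) * 1)
    have h2 : 0 ≤ chiI (ta φ y / c) := by
      simp only [chiI]; split_ifs <;> simp
    have := hy.1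
    positivity

lemma integral_chiI_finite (hn : 2 ≤ finrank ℝ E) :
    Tendsto (fun c : ℝ => ∫ y in TT φ b, (Real.exp (-rr φ y ^ 2) / rr φ y) *
      (chiI (ta φ y / c) * 1)) (𝓝[>] 0) (𝓝 0) := by
  have hNt : Nontrivial E := by
    apply Module.nontrivial_of_finrank_pos (R := ℝ)
    omega
  have hgm : Measurable (fun ρ : ℝ => Real.exp (-ρ ^ 2) / ρ) := by fun_prop
  have hχm : Measurable chiI := by
    apply Measurable.ite _ measurable_const measurable_const
    exact measurableSet_le (by fun_prop) measurable_const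
  have hlim := hT.tube_limit (F := fun _ => 1) measurable_const continuousOn_const
    (fun _ _ _ _ => rfl) hgm hχm (M := 1) (fun s => by
      simp only [chiI]; split_ifs <;> simp) (fun s hs => by
      rw [chiI, if_neg (not_le.2 hs)])
  have hid : Tendsto (fun c : ℝ => c) (𝓝[>] 0) (𝓝 0) :=
    (continuous_id.tendsto 0).mono_left nhdsWithin_le_nhds
  have h2 := hid.mul hlim
  rw [zero_mul] at h2
  refine h2.congr' ?_
  filter_upwards [self_mem_nhdsWithin] with c hc
  have hc' : (c : ℝ) ≠ 0 := ne_of_gt hc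
  rw [← mul_assoc, mul_inv_cancel₀ hc', one_mul]

/-- **`V(φ) ≤ μ(M')`**. -/
theorem VB_mu (hn : 2 ≤ finrank ℝ E) (h : NullCone φ) (hD : ClassD φ) :
    VB φ ((mu φ b univ).toReal) := by
  intro ζ hζ
  have hb := hT.hb
  obtain ⟨C, hC0, hC⟩ := hT.flux_mid hn h
  have hlim : Tendsto (fun c : ℝ => flux φ (fun x => G1 c (ta φ x)) + C *
      ∫ y in TT φ b, (Real.exp (-rr φ y ^ 2) / rr φ y) * (chiI (ta φ y / c) * 1)) (𝓝[>] 0)
      (𝓝 (cV E * (mu φ b univ).toReal + C * 0)) :=
    (hT.tendsto_flux_G1 hn).add ((hT.integral_chiI_finite hn).const_mul C)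
  rw [mul_zero, add_zero, mul_comm] at hlim
  refine ge_of_tendsto hlim ?_
  have hb2 : 0 < b / 2 := by positivity
  filter_upwards [Ioc_mem_nhdsGT hb2] with c hc
  have hc0 : 0 < c := hc.1
  have t1 := hT.test_G1 h hc0
  have t2 := hT.test_G2 h hc0
  have t3 := hT.test_G3 h hc0
  have u1 := tmul hζ t1
  have u2 := tmul hζ t2
  have u3 := tmul hζ t3
  -- decomposition of ζ
  have e1 : flux φ ζ = flux φ (fun x => ζ x * G1 c (ta φ x)) + (flux φ (fun x => ζ x * G2 c (ta φ x))
      + flux φ (fun x => ζ x * G3 c (ta φ x))) := by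
    have u23 : Test (fun x => ζ x * G2 c (ta φ x) + ζ x * G3 c (ta φ x)) := by
      have h1 := tmul hζ (tsub t1)
      have h2 : (fun x => ζ x * (1 - G1 c (ta φ x)))
          = fun x => ζ x * G2 c (ta φ x) + ζ x * G3 c (ta φ x) := by
        funext x; simp only [G3]; ring
      rwa [h2] at h1
    rw [← flux_add hn h u2 u3, ← flux_add hn h u1 u23]
    congr 1
    funext x
    simp only [G3]; ring
  have e2 : flux φ (fun x => G1 c (ta φ x)) = flux φ (fun x => ζ x * G1 c (ta φ x))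
      + flux φ (fun x => (1 - ζ x) * G1 c (ta φ x)) := by
    rw [← flux_add hn h u1 (tmul (tsub hζ) t1)]
    congr 1
    funext x
    ring
  -- a constant for the supports
  have ha : 0 < (c / 2) / Real.sqrt (1 + (c / 2) ^ 2) := by
    have : 0 < Real.sqrt (1 + (c / 2) ^ 2) := Real.sqrt_pos.2 (by positivity)
    positivity
  have s1 : ∀ x, φ x < (c / 2) / Real.sqrt (1 + (c / 2) ^ 2) * ‖x‖ → G1 c (ta φ x) = 0 := by
    intro x hx
    apply G1_zero hc0
    by_cases hx0 : x = 0
    · subst hx0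
      rw [ta, hT.rr_zero, div_zero]
      positivity
    · rcases le_or_gt (φ x) 0 with h1 | h1
      · exact (div_nonpos_of_nonpos_of_nonneg h1 (hT.rr_pos hx0).le).trans (by positivity)
      · exact ((hT.lt_iff_ta (by positivity) hx0 h1).1 hx).le
  have s2 : ∀ x, -((c / 2) / Real.sqrt (1 + (c / 2) ^ 2) * ‖x‖) < φ x → G2 c (ta φ x) = 0 := by
    intro x hx
    apply G2_zero hc0
    by_cases hx0 : x = 0
    · subst hx0
      rw [ta, hT.rr_zero, div_zero]
      linarith
    · have hr := hT.rr_pos hx0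
      rcases le_or_gt 0 (φ x) with h1 | h1
      · exact (by linarith : -(c / 2) ≤ 0).trans (div_nonneg h1 hr.le)
      · -- φ x < 0
        have hn' : 0 < ‖x‖ := norm_pos_iff.2 hx0
        have hs : 0 < Real.sqrt (1 + (c / 2) ^ 2) := Real.sqrt_pos.2 (by positivity)
        have hss : Real.sqrt (1 + (c / 2) ^ 2) ^ 2 = 1 + (c / 2) ^ 2 := Real.sq_sqrt (by positivity)
        have h2 := hT.rr_sq x
        have h3 : -φ x < c / 2 / Real.sqrt (1 + (c / 2) ^ 2) * ‖x‖ := by linarith
        rw [div_mul_eq_mul_div, lt_div_iff₀ hs] at h3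
        have h4 : (-φ x * Real.sqrt (1 + (c / 2) ^ 2)) ^ 2 < (c / 2 * ‖x‖) ^ 2 :=
          pow_lt_pow_left₀ h3 (by nlinarith) (by norm_num)
        have h5 : (-φ x) ^ 2 < (c / 2 * rr φ x) ^ 2 := by
          rw [mul_pow, hss] at h4
          nlinarith
        have h6 : -φ x < c / 2 * rr φ x := lt_of_pow_lt_pow_left₀ 2 (by positivity) h5
        rw [ta, le_div_iff₀ hr]
        linarith
  have f1 : 0 ≤ flux φ (fun x => (1 - ζ x) * G1 c (ta φ x)) :=
    flux_nonneg hn h hD (tmul (tsub hζ) t1) ha fun x hx => by rw [s1 x hx, mul_zero]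
  have f2 : flux φ (fun x => ζ x * G2 c (ta φ x)) ≤ 0 :=
    flux_nonpos hn h hD u2 ha fun x hx => by rw [s2 x hx, mul_zero]
  have f3 := hC c hc0 hc.2 _ u3 (fun x hx => by rw [G3_zero hc0 hx.le, mul_zero])
  linarith

/-- the link is nonempty -/
lemma Lk_nonempty [Nontrivial E] (h : NullCone φ)
    (hsd : ∀ x, |φ x| = Metric.infDist x {y | φ y = 0}) : (Lk φ).Nonempty := by
  by_contra hcon
  rw [not_nonempty_iff_eq_empty] at hcon
  have hz : {y : E | φ y = 0} = {0} := by
    ext y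
    simp only [mem_setOf_eq, mem_singleton_iff]
    constructor
    · intro hy
      by_contra hy0
      have hn : 0 < ‖y‖ := norm_pos_iff.2 hy0
      have : ‖y‖⁻¹ • y ∈ Lk φ := by
        constructor
        · rw [norm_smul, norm_inv, norm_norm, inv_mul_cancel₀ hn.ne']
        · rw [h.hom _ (by positivity), hy, mul_zero]
      rw [hcon] at this
      exact this
    · rintro rfl; exact hT.phi_zero
  obtain ⟨x, hx⟩ := exists_ne (0 : E)
  have h1 := hsd x
  rw [hz, Metric.infDist_singleton, dist_zero_right] at h1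
  have h2 := hT.lt x hx
  linarith

lemma mu_ne_zero (hne : (Lk φ).Nonempty) : mu φ b ≠ 0 := by
  obtain ⟨p, hp⟩ := hne
  intro h0
  have := hT.mu_pos hp isOpen_univ (mem_univ p)
  rw [h0] at this
  simp at this

end Tube

end Crest.Agent.R246.SM436
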