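import Crest.Agent.R246.SM0_436
import Mathlib.LinearAlgebra.Transvection.Basic

/-!
# Tube coordinates around a smooth hypercone (helper436)

`Tube φ b`: normal segments of (relative) length `b` around `{φ = 0}`.  Foot map `ft φ y = y - φ y ∇φ y`,
`rr φ y = ‖ft φ y‖`, `ta φ y = φ y / rr φ y`, the affine maps `kk φ α β` in the variable `ta`, and
their Jacobians.
-/

set_option autoImplicit false
set_option linter.unusedSectionVars false
set_option linter.unusedSimpArgs false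
noncomputable section
open MeasureTheory Set Filter Topology
open scoped RealInnerProductSpace ContDiff

namespace Crest.Agent.R246.SM436

open Crest.Agent.R246.H990

variable {E : Type*} [NormedAddCommGroup E] [InnerProductSpace ℝ E] [FiniteDimensional ℝ E]

/-- foot of the normal. -/
def ft (φ : E → ℝ) (y : E) : E := y - φ y • gradient φ y

/-- distance of the foot to the origin. -/
def rr (φ : E → ℝ) (y : E) : ℝ := Real.sqrt (‖y‖ ^ 2 - φ y ^ 2)

/-- the tangent of the angular distance. -/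
def ta (φ : E → ℝ) (y : E) : ℝ := φ y / rr φ y

/-- the homogeneous tube. -/
def TT (φ : E → ℝ) (b : ℝ) : Set E := {y | 0 < rr φ y ∧ |φ y| < b * rr φ y}

/-- affine stretching of the tube. -/
def kk (φ : E → ℝ) (α β : ℝ) (y : E) : E := ft φ y + (α * φ y + β * rr φ y) • gradient φ y

/-- the set `Z` minus the origin -/
def ZZ (φ : E → ℝ) : Set E := {x | x ≠ 0 ∧ φ x = 0}

/-- admissible tube radius. -/
structure Tube (φ : E → ℝ) (b : ℝ) : Prop where
  hb : 0 < b
  hom : ∀ t : ℝ, 0 ≤ t → ∀ x, φ (t • x) = t * φ x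
  lip : LipschitzWith 1 φ
  lt : ∀ x, x ≠ 0 → |φ x| < ‖x‖
  line : ∀ y, y ≠ 0 → |φ y| < b * ‖y‖ → ∀ s : ℝ, |s| ≤ 2 * b * ‖y‖ → Good φ (y + s • gradient φ y)

lemma exists_Tube {φ : E → ℝ} (hom : ∀ t : ℝ, 0 ≤ t → ∀ x, φ (t • x) = t * φ x)
    (hl : LipschitzWith 1 φ) (hlt : ∀ x, x ≠ 0 → |φ x| < ‖x‖)
    (hg : ∀ x, x ≠ 0 → φ x = 0 → Good φ x) : ∃ b, Tube φ b := by
  obtain ⟨δ, hδ, hgood⟩ := exists_tube hom hl.continuous hg
  have hb : 0 < min (1 / 8) (δ / 8) := by positivity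
  refine ⟨min (1 / 8) (δ / 8), hb, hom, hl, hlt, ?_⟩
  set b := min (1 / 8) (δ / 8) with hbdef
  have hb1 : b ≤ 1 / 8 := min_le_left _ _
  have hb2 : b ≤ δ / 8 := min_le_right _ _
  intro y hy hy2 s hs
  have hn : 0 < ‖y‖ := norm_pos_iff.2 hy
  have hgy : Good φ y := hgood y hy (hy2.trans_le (by nlinarith))
  have hn1 := hgy.norm_gradient
  have h1 : ‖y‖ - |s| ≤ ‖y + s • gradient φ y‖ := by
    have := norm_sub_norm_le y (-(s • gradient φ y))
    rw [norm_neg, norm_smul, hn1, mul_one, Real.norm_eq_abs, sub_neg_eq_add] at this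
    exact this
  have h2 : 3 / 4 * ‖y‖ ≤ ‖y + s • gradient φ y‖ := by nlinarith
  apply hgood
  · intro h0
    rw [h0, norm_zero] at h2
    linarith
  · have h3 := lip_abs hl (y + s • gradient φ y) y
    rw [add_sub_cancel_left, norm_smul, hn1, mul_one, Real.norm_eq_abs] at h3
    have h4 : |φ (y + s • gradient φ y)| ≤ |φ y| + |s| := by
      have := abs_sub_abs_le_abs_sub (φ (y + s • gradient φ y)) (φ y)
      linarith
    have h5 : |φ (y + s • gradient φ y)| < 3 * b * ‖y‖ := by nlinarith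
    nlinarith

namespace Tube

variable {φ : E → ℝ} {b : ℝ} (hT : Tube φ b)
include hT

lemma rr_pos {y : E} (hy : y ≠ 0) : 0 < rr φ y := by
  apply Real.sqrt_pos.2
  have := hT.lt y hy
  have h1 := sq_abs (φ y)
  have h2 := abs_nonneg (φ y)
  nlinarith

lemma phi_zero : φ 0 = 0 := by
  have := hT.hom 0 le_rfl 0
  simpa using this

lemma rr_zero : rr φ (0 : E) = 0 := by simp [rr, hT.phi_zero]

lemma rr_pos_iff {y : E} : 0 < rr φ y ↔ y ≠ 0 := by
  refine ⟨fun h h0 => ?_, hT.rr_pos⟩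
  rw [h0, hT.rr_zero] at h
  exact lt_irrefl _ h

lemma rr_sq (y : E) : rr φ y ^ 2 = ‖y‖ ^ 2 - φ y ^ 2 := by
  apply Real.sq_sqrt
  rcases eq_or_ne y 0 with rfl | hy
  · simp [hT.phi_zero]
  · have := hT.lt y hy
    have h1 := sq_abs (φ y)
    have h2 := abs_nonneg (φ y)
    nlinarith

lemma rr_le (y : E) : rr φ y ≤ ‖y‖ := by
  apply Real.sqrt_le_iff.2
  refine ⟨norm_nonneg _, ?_⟩
  nlinarith [sq_nonneg (φ y)]

lemma ne_zero {y : E} (hy : y ∈ TT φ b) : y ≠ 0 := hT.rr_pos_iff.1 hy.1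

lemma abs_lt {y : E} (hy : y ∈ TT φ b) : |φ y| < b * ‖y‖ :=
  hy.2.trans_le (mul_le_mul_of_nonneg_left (hT.rr_le y) hT.hb.le)

lemma good {y : E} (hy : y ∈ TT φ b) : Good φ y := by
  have := hT.line y (hT.ne_zero hy) (hT.abs_lt hy) 0 (by
    have := hT.hb; have := norm_nonneg y; simp; positivity)
  simpa using this

lemma normal {y : E} (hy : y ∈ TT φ b) {s : ℝ} (hs : |s| ≤ 2 * b * ‖y‖) :
    gradient φ (y + s • gradient φ y) = gradient φ y ∧ φ (y + s • gradient φ y) = φ y + s := by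
  have hb := hT.hb
  have hn := norm_nonneg y
  exact normal_line (by positivity) (fun s hs => hT.line y (hT.ne_zero hy) (hT.abs_lt hy) s hs) s hs

lemma euler {y : E} (hy : y ∈ TT φ b) : ⟪gradient φ y, y⟫ = φ y := (hT.good hy).euler hT.hom

lemma inner_gradient_ft {y : E} (hy : y ∈ TT φ b) : ⟪gradient φ y, ft φ y⟫ = 0 := by
  rw [ft, inner_sub_right, hT.euler hy, inner_smul_right, real_inner_self_eq_norm_sq,
    (hT.good hy).norm_gradient]
  ring

lemma norm_ft {y : E} (hy : y ∈ TT φ b) : ‖ft φ y‖ = rr φ y := by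
  have h1 : ‖ft φ y‖ ^ 2 = rr φ y ^ 2 := by
    rw [hT.rr_sq, ft, norm_sub_sq_real, inner_smul_right, real_inner_comm, hT.euler hy,
      norm_smul, (hT.good hy).norm_gradient, Real.norm_eq_abs, mul_one, sq_abs]
    ring
  exact (pow_left_inj₀ (norm_nonneg _) hy.1.le (by norm_num)).1 h1

lemma gradient_ft {y : E} (hy : y ∈ TT φ b) : gradient φ (ft φ y) = gradient φ y := by
  have h1 := (hT.normal hy (s := -φ y) (by
    rw [abs_neg]
    have := hT.abs_lt hy
    have := hT.hb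
    have := norm_nonneg y
    nlinarith)).1
  rwa [neg_smul, ← sub_eq_add_neg] at h1

lemma phi_ft {y : E} (hy : y ∈ TT φ b) : φ (ft φ y) = 0 := by
  have h1 := (hT.normal hy (s := -φ y) (by
    rw [abs_neg]
    have := hT.abs_lt hy
    have := hT.hb
    have := norm_nonneg y
    nlinarith)).2
  rwa [neg_smul, ← sub_eq_add_neg, add_neg_cancel] at h1

lemma ft_ne_zero {y : E} (hy : y ∈ TT φ b) : ft φ y ≠ 0 := by
  rw [← norm_pos_iff, hT.norm_ft hy]; exact hy.1

lemma ft_mem_ZZ {y : E} (hy : y ∈ TT φ b) : ft φ y ∈ ZZ φ := ⟨hT.ft_ne_zero hy, hT.phi_ft hy⟩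

lemma rr_of_ZZ {x : E} (hx : x ∈ ZZ φ) : rr φ x = ‖x‖ := by
  simp [rr, hx.2]

lemma mem_TT_of_ZZ {x : E} (hx : x ∈ ZZ φ) : x ∈ TT φ b := by
  refine ⟨hT.rr_pos hx.1, ?_⟩
  rw [hx.2, abs_zero]
  exact mul_pos hT.hb (hT.rr_pos hx.1)

lemma ft_mem_TT {y : E} (hy : y ∈ TT φ b) : ft φ y ∈ TT φ b := hT.mem_TT_of_ZZ (hT.ft_mem_ZZ hy)

/-- normal segment based at a point of `Z`. -/
lemma seg {x : E} (hx : x ∈ ZZ φ) {s : ℝ} (hs : |s| < b * ‖x‖) :
    x + s • gradient φ x ∈ TT φ b ∧ gradient φ (x + s • gradient φ x) = gradient φ x ∧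
      φ (x + s • gradient φ x) = s ∧ ft φ (x + s • gradient φ x) = x ∧
      rr φ (x + s • gradient φ x) = ‖x‖ := by
  have hxT := hT.mem_TT_of_ZZ hx
  have hb := hT.hb
  have hn := norm_nonneg x
  obtain ⟨h1, h2⟩ := hT.normal hxT (s := s) (by nlinarith)
  rw [hx.2, zero_add] at h2
  have h3 : ‖x + s • gradient φ x‖ ^ 2 = ‖x‖ ^ 2 + s ^ 2 := by
    rw [norm_add_sq_real, inner_smul_right, real_inner_comm, hT.euler hxT, hx.2, norm_smul,
      (hT.good hxT).norm_gradient, Real.norm_eq_abs, mul_one, sq_abs]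
    ring
  have h4 : rr φ (x + s • gradient φ x) = ‖x‖ := by
    rw [rr, h2, h3, add_sub_cancel_right, Real.sqrt_sq hn]
  refine ⟨⟨?_, ?_⟩, h1, h2, ?_, h4⟩
  · rw [h4]; exact norm_pos_iff.2 hx.1
  · rw [h4, h2]; exact hs
  · rw [ft, h1, h2, add_sub_cancel_right]

lemma recon {y : E} (hy : y ∈ TT φ b) : ft φ y + φ y • gradient φ (ft φ y) = y := by
  rw [hT.gradient_ft hy, ft, sub_add_cancel]

lemma ta_mul_rr {y : E} (hy : y ∈ TT φ b) : ta φ y * rr φ y = φ y := by
  rw [ta, div_mul_cancel₀ _ hy.1.ne']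

lemma abs_ta_lt {y : E} (hy : y ∈ TT φ b) : |ta φ y| < b := by
  rw [ta, abs_div, abs_of_pos hy.1, div_lt_iff₀ hy.1]; exact hy.2

/-! #### homogeneity -/

lemma rr_smul (y : E) {t : ℝ} (ht : 0 ≤ t) : rr φ (t • y) = t * rr φ y := by
  rw [rr, rr, norm_smul, Real.norm_eq_abs, abs_of_nonneg ht, hT.hom t ht,
    show (t * ‖y‖) ^ 2 - (t * φ y) ^ 2 = t ^ 2 * (‖y‖ ^ 2 - φ y ^ 2) by ring,
    Real.sqrt_mul (by positivity), Real.sqrt_sq ht]

lemma ft_smul (y : E) {t : ℝ} (ht : 0 < t) : ft φ (t • y) = t • ft φ y := by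
  rw [ft, ft, hT.hom t ht.le, gradient_smul_of_hom hT.hom y ht, smul_sub, smul_smul]

lemma ta_smul (y : E) {t : ℝ} (ht : 0 < t) : ta φ (t • y) = ta φ y := by
  rw [ta, ta, hT.rr_smul y ht.le, hT.hom t ht.le, mul_div_mul_left _ _ ht.ne']

lemma mem_TT_smul {y : E} {t : ℝ} (ht : 0 < t) : t • y ∈ TT φ b ↔ y ∈ TT φ b := by
  simp only [TT, mem_ofPred_eq, hT.rr_smul y ht.le, hT.hom t ht.le, abs_mul, abs_of_pos ht]
  constructor
  · rintro ⟨h1, h2⟩
    refine ⟨pos_of_mul_pos_right h1 ht.le, ?_⟩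
    by_contra h
    push Not at h
    have := mul_le_mul_of_nonneg_left h ht.le
    linarith
  · rintro ⟨h1, h2⟩
    refine ⟨mul_pos ht h1, ?_⟩
    have := mul_lt_mul_of_pos_left h2 ht
    linarith

lemma continuous_rr : Continuous (rr φ) := by
  have := hT.lip.continuous
  unfold rr; fun_prop

lemma isOpen_TT : IsOpen (TT φ b) := by
  have h1 := hT.continuous_rr
  have h2 := hT.lip.continuous
  exact (isOpen_lt continuous_const h1).inter (isOpen_lt h2.abs (continuous_const.mul h1))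

/-! #### derivatives -/

/-- derivative of the foot map -/
lemma hasFDerivAt_ft {y : E} (hy : y ∈ TT φ b) :
    HasFDerivAt (ft φ) (ContinuousLinearMap.id ℝ E - (φ y • hs φ y +
      (innerSL ℝ (gradient φ y)).smulRight (gradient φ y))) y := by
  have h := hT.good hy
  exact (hasFDerivAt_id y).sub (h.hasFDerivAt.smul h.hasFDerivAt_gradient)

/-- derivative of the foot map, as a linear map -/
def _root_.Crest.Agent.R246.SM436.dft (φ : E → ℝ) (y : E) : E →L[ℝ] E :=
  ContinuousLinearMap.id ℝ E - (φ y • hs φ y +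
      (innerSL ℝ (gradient φ y)).smulRight (gradient φ y))

lemma dft_apply (y v : E) :
    dft φ y v = v - (φ y • hs φ y v + ⟪gradient φ y, v⟫ • gradient φ y) := by
  simp [dft]

/-- `A_y = A_x ∘ DP`. -/
lemma hs_eq_comp {y : E} (hy : y ∈ TT φ b) : hs φ y = (hs φ (ft φ y)).comp (dft φ y) := by
  have h1 : HasFDerivAt (gradient φ ∘ ft φ) ((hs φ (ft φ y)).comp (dft φ y)) y :=
    ((hT.good (hT.ft_mem_TT hy)).hasFDerivAt_gradient).comp y (hT.hasFDerivAt_ft hy)
  have h2 : (gradient φ ∘ ft φ) =ᶠ[𝓝 y] gradient φ := by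
    filter_upwards [hT.isOpen_TT.mem_nhds hy] with z hz
    exact hT.gradient_ft hz
  exact (hT.good hy).hasFDerivAt_gradient.unique (h1.congr_of_eventuallyEq h2.symm)

/-- `Q = DP + ν ⊗ ν`. -/
def _root_.Crest.Agent.R246.SM436.qq (φ : E → ℝ) (y : E) : E →L[ℝ] E :=
  dft φ y + (innerSL ℝ (gradient φ y)).smulRight (gradient φ y)

omit hT in
lemma _root_.Crest.Agent.R246.SM436.det_comp' (f g : E →L[ℝ] E) : (f.comp g).det = f.det * g.det :=
  LinearMap.det_comp (f : E →ₗ[ℝ] E) (g : E →ₗ[ℝ] E)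

omit hT in
lemma _root_.Crest.Agent.R246.SM436.det_id' : (ContinuousLinearMap.id ℝ E).det = 1 :=
  LinearMap.det_id

lemma qq_apply (y v : E) : qq φ y v = v - φ y • hs φ y v := by
  simp [qq, dft]
  module

lemma hs_ft_gradient {y : E} (hy : y ∈ TT φ b) : hs φ (ft φ y) (gradient φ y) = 0 := by
  have := (hT.good (hT.ft_mem_TT hy)).hs_gradient
  rwa [hT.gradient_ft hy] at this

lemma hs_ft_dft {y : E} (hy : y ∈ TT φ b) (v : E) : hs φ (ft φ y) (dft φ y v) = hs φ y v := by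
  rw [hT.hs_eq_comp hy]; rfl

/-- `(1 + φ A_x) Q = 1`. -/
lemma one_add_comp_qq {y : E} (hy : y ∈ TT φ b) :
    (ContinuousLinearMap.id ℝ E + φ y • hs φ (ft φ y)).comp (qq φ y)
      = ContinuousLinearMap.id ℝ E := by
  ext v
  have h1 : qq φ y v = dft φ y v + ⟪gradient φ y, v⟫ • gradient φ y := by simp [qq]
  have h2 : hs φ (ft φ y) (qq φ y v) = hs φ y v := by
    rw [h1, map_add, hT.hs_ft_dft hy, map_smul, hT.hs_ft_gradient hy, smul_zero, add_zero]
  simp only [ContinuousLinearMap.comp_apply, add_apply, ContinuousLinearMap.id_apply,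
    smul_apply, h2]
  rw [hT.qq_apply y v]
  abel

/-- the Jacobian factor `det (1 + φ A_x)`. -/
def _root_.Crest.Agent.R246.SM436.jj (φ : E → ℝ) (y : E) : ℝ :=
  (ContinuousLinearMap.id ℝ E + φ y • hs φ (ft φ y)).det

lemma jj_mul_det {y : E} (hy : y ∈ TT φ b) : jj φ y * (qq φ y).det = 1 := by
  have h := congrArg ContinuousLinearMap.det (hT.one_add_comp_qq hy)
  rwa [det_comp', det_id'] at h

lemma jj_ne_zero {y : E} (hy : y ∈ TT φ b) : jj φ y ≠ 0 := by
  intro h
  have := hT.jj_mul_det hy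
  rw [h, zero_mul] at this
  exact zero_ne_one this

/-- derivative of `rr` -/
lemma hasFDerivAt_rr {y : E} (hy : y ∈ TT φ b) :
    HasFDerivAt (rr φ) ((rr φ y)⁻¹ • innerSL ℝ (ft φ y)) y := by
  have h := hT.good hy
  have h1 : HasFDerivAt (fun y : E => ‖y‖ ^ 2 - φ y ^ 2)
      ((2 : ℝ) • innerSL ℝ y - (2 * φ y) • innerSL ℝ (gradient φ y)) y := by
    have ha : HasFDerivAt (fun y : E => ‖y‖ ^ 2) ((2 : ℝ) • innerSL ℝ y) y := by
      have := (hasStrictFDerivAt_norm_sq y).hasFDerivAt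
      convert this using 1
      ext v; simp
    have hb' : HasFDerivAt (fun y : E => φ y ^ 2) ((2 * φ y) • innerSL ℝ (gradient φ y)) y := by
      have := h.hasFDerivAt.pow 2
      simpa using this
    exact ha.sub hb'
  have hne : ‖y‖ ^ 2 - φ y ^ 2 ≠ 0 := by
    rw [← hT.rr_sq]; exact pow_ne_zero _ hy.1.ne'
  have h2 := h1.sqrt hne
  have h3 : (1 / (2 * Real.sqrt (‖y‖ ^ 2 - φ y ^ 2))) •
      ((2 : ℝ) • innerSL ℝ y - (2 * φ y) • innerSL ℝ (gradient φ y))
      = (rr φ y)⁻¹ • innerSL ℝ (ft φ y) := by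
    have hr : Real.sqrt (‖y‖ ^ 2 - φ y ^ 2) = rr φ y := rfl
    rw [hr]
    ext v
    have hr0 := hy.1.ne'
    simp only [smul_apply, sub_apply, innerSL_apply_apply, smul_eq_mul, ft, inner_sub_left,
      inner_smul_left, starRingEnd_apply, star_trivial]
    field_simp
  rw [h3] at h2
  exact h2

lemma inner_gradient_dft {y : E} (hy : y ∈ TT φ b) (v : E) : ⟪gradient φ y, dft φ y v⟫ = 0 := by
  have h := hT.good hy
  rw [hT.dft_apply, inner_sub_right, inner_add_right, inner_smul_right, inner_smul_right,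
    ← h.hs_symm, h.hs_gradient, inner_zero_left, real_inner_self_eq_norm_sq, h.norm_gradient]
  ring

lemma inner_ft_dft {y : E} (hy : y ∈ TT φ b) (v : E) : ⟪ft φ y, dft φ y v⟫ = ⟪ft φ y, v⟫ := by
  have h := hT.good hy
  rw [hT.dft_apply, inner_sub_right, inner_add_right, inner_smul_right, inner_smul_right,
    ← h.hs_symm, real_inner_comm (gradient φ y) (ft φ y), hT.inner_gradient_ft hy]
  have h2 : hs φ y (ft φ y) = 0 := by
    rw [ft, map_sub, map_smul, h.hs_gradient, h.hs_self hT.hom]; simp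
  rw [h2, inner_zero_left]; ring

/-- derivative of the stretching map -/
lemma hasFDerivAt_kk (α β : ℝ) {y : E} (hy : y ∈ TT φ b) :
    HasFDerivAt (kk φ α β)
      (dft φ y + ((α * φ y + β * rr φ y) • hs φ y +
        (α • innerSL ℝ (gradient φ y) + β • ((rr φ y)⁻¹ • innerSL ℝ (ft φ y))).smulRight
          (gradient φ y))) y := by
  have h := hT.good hy
  have h1 : HasFDerivAt (fun y => α * φ y + β * rr φ y)
      (α • innerSL ℝ (gradient φ y) + β • ((rr φ y)⁻¹ • innerSL ℝ (ft φ y))) y :=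
    (h.hasFDerivAt.const_mul α).add ((hT.hasFDerivAt_rr hy).const_mul β)
  exact (hT.hasFDerivAt_ft hy).add (h1.smul h.hasFDerivAt_gradient)

/-- derivative of the stretching map, as a linear map -/
def _root_.Crest.Agent.R246.SM436.dkk (φ : E → ℝ) (α β : ℝ) (y : E) : E →L[ℝ] E :=
  dft φ y + ((α * φ y + β * rr φ y) • hs φ y +
        (α • innerSL ℝ (gradient φ y) + β • ((rr φ y)⁻¹ • innerSL ℝ (ft φ y))).smulRight
          (gradient φ y))

/-- Jacobian of the stretching map. -/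
lemma det_dkk (α β : ℝ) {y : E} (hy : y ∈ TT φ b) :
    (dkk φ α β y).det * jj φ y
      = α * (ContinuousLinearMap.id ℝ E + (α * φ y + β * rr φ y) • hs φ (ft φ y)).det := by
  have h := hT.good hy
  set s' := α * φ y + β * rr φ y with hs'
  set f : E →L[ℝ] ℝ := (α - 1) • innerSL ℝ (gradient φ y) +
    β • ((rr φ y)⁻¹ • innerSL ℝ (ft φ y)) with hf
  set C : E →L[ℝ] E := ContinuousLinearMap.id ℝ E + f.smulRight (gradient φ y) with hC
  have h1 : dkk φ α β y
      = ((ContinuousLinearMap.id ℝ E + s' • hs φ (ft φ y)).comp C).comp (qq φ y) := by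
    ext v
    have e1 : qq φ y v = dft φ y v + ⟪gradient φ y, v⟫ • gradient φ y := by simp [qq]
    have e2 : f (qq φ y v) = (α - 1) * ⟪gradient φ y, v⟫ + β * ((rr φ y)⁻¹ * ⟪ft φ y, v⟫) := by
      rw [e1]
      simp only [hf, add_apply, smul_apply, innerSL_apply_apply, smul_eq_mul, inner_add_right,
        inner_smul_right, hT.inner_gradient_dft hy, hT.inner_ft_dft hy,
        real_inner_self_eq_norm_sq, h.norm_gradient]
      rw [real_inner_comm (gradient φ y) (ft φ y), hT.inner_gradient_ft hy]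
      ring
    have e3 : C (qq φ y v) = dft φ y v +
        (α * ⟪gradient φ y, v⟫ + β * ((rr φ y)⁻¹ * ⟪ft φ y, v⟫)) • gradient φ y := by
      simp only [hC, add_apply, ContinuousLinearMap.id_apply, ContinuousLinearMap.smulRight_apply]
      rw [e2, e1]
      module
    simp only [ContinuousLinearMap.comp_apply, e3, add_apply, ContinuousLinearMap.id_apply,
      smul_apply, map_add, map_smul, hT.hs_ft_dft hy, hT.hs_ft_gradient hy, smul_zero, add_zero]
    simp only [dkk, add_apply, smul_apply, ContinuousLinearMap.smulRight_apply,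
      innerSL_apply_apply, smul_eq_mul]
    rw [← hs']
    abel
  have h2 : C.det = α := by
    have e : (C : E →ₗ[ℝ] E) = LinearMap.transvection (f : E →ₗ[ℝ] ℝ) (gradient φ y) := by
      ext v
      simp [hC, LinearMap.transvection]
    rw [ContinuousLinearMap.det, e, LinearMap.transvection.det]
    simp only [hf, ContinuousLinearMap.coe_coe, add_apply, smul_apply, innerSL_apply_apply,
      real_inner_self_eq_norm_sq, h.norm_gradient, smul_eq_mul]
    rw [real_inner_comm (gradient φ y) (ft φ y), hT.inner_gradient_ft hy]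
    ring
  have h3 : (dkk φ α β y).det = (ContinuousLinearMap.id ℝ E + s' • hs φ (ft φ y)).det * C.det *
      (qq φ y).det := by
    rw [h1, det_comp', det_comp']
  have h4 := hT.jj_mul_det hy
  rw [h3, h2]
  linear_combination (α * (ContinuousLinearMap.id ℝ E + s' • hs φ (ft φ y)).det) * h4

/-! #### the stretching map inside the tube -/

/-- `kk` moves along normals. -/
lemma kk_eq {y : E} (hy : y ∈ TT φ b) (α β : ℝ) :
    kk φ α β y = ft φ y + ((α * ta φ y + β) * ‖ft φ y‖) • gradient φ (ft φ y) := by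
  rw [kk, hT.gradient_ft hy, hT.norm_ft hy]
  congr 2
  have := hT.ta_mul_rr hy
  linear_combination (-α) * this

lemma kk_props {y : E} (hy : y ∈ TT φ b) {α β : ℝ} (h : |α * ta φ y + β| < b) :
    kk φ α β y ∈ TT φ b ∧ ft φ (kk φ α β y) = ft φ y ∧ rr φ (kk φ α β y) = rr φ y ∧
      ta φ (kk φ α β y) = α * ta φ y + β ∧ φ (kk φ α β y) = α * φ y + β * rr φ y := by
  have hn : 0 < ‖ft φ y‖ := norm_pos_iff.2 (hT.ft_ne_zero hy)
  rw [hT.kk_eq hy]
  obtain ⟨h1, h2, h3, h4, h5⟩ := hT.seg (hT.ft_mem_ZZ hy)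
    (s := (α * ta φ y + β) * ‖ft φ y‖) (by
      rw [abs_mul, abs_of_pos hn]
      exact mul_lt_mul_of_pos_right h hn)
  refine ⟨h1, h4, ?_, ?_, ?_⟩
  · rw [h5, hT.norm_ft hy]
  · rw [ta, h3, h5, mul_div_assoc, div_self hn.ne', mul_one]
  · rw [h3, hT.norm_ft hy]
    have := hT.ta_mul_rr hy
    linear_combination α * this

lemma kk_comp {y : E} (hy : y ∈ TT φ b) {α β α' β' : ℝ} (h : |α * ta φ y + β| < b) :
    kk φ α' β' (kk φ α β y) = kk φ (α' * α) (α' * β + β') y := by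
  obtain ⟨h1, h2, h3, h4, h5⟩ := hT.kk_props hy h
  rw [hT.kk_eq h1 α' β', hT.kk_eq hy (α' * α), h2, h4]
  ring_nf

lemma kk_one_zero {y : E} (hy : y ∈ TT φ b) : kk φ 1 0 y = y := by
  rw [kk, one_mul, zero_mul, add_zero, ft, sub_add_cancel]

end Tube

end Crest.Agent.R246.SM436
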