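import Crest.Agent.R246.SM2_436

/-!
# Tube limits (helper436)
-/

set_option autoImplicit false
set_option linter.unusedSectionVars false
set_option linter.unusedSimpArgs false
noncomputable section
open MeasureTheory Set Filter Topology Module
open scoped RealInnerProductSpace ContDiff

namespace Crest.Agent.R246.SM436

open Crest.Agent.R246.H990

variable {E : Type*} [NormedAddCommGroup E] [InnerProductSpace ℝ E] [FiniteDimensional ℝ E]
  [MeasurableSpace E] [BorelSpace E]

/-- Lebesgue measure on `(-b,b)` -/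
abbrev ell (b : ℝ) : Measure ℝ := volume.restrict (Ioo (-b) b)

lemma sigmaFinite_kap {n : ℕ} (hn : 0 < n) : SigmaFinite (kap n) := (kapSpan hn).sigmaFinite

lemma jt_zero (φ : E → ℝ) (p : E) : jt φ p 0 = 1 := by
  rw [jt, zero_smul, add_zero, det_id']

namespace Tube

variable {φ : E → ℝ} {b : ℝ} (hT : Tube φ b)
include hT

lemma ne_zero_of_Lk {p : E} (hp : p ∈ Lk φ) : p ≠ 0 := by
  rintro rfl
  have := hp.1
  simp at this

lemma ZZ_of_Lk {p : E} (hp : p ∈ Lk φ) : p ∈ ZZ φ := ⟨hT.ne_zero_of_Lk hp, hp.2⟩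

lemma TT_of_Lk {p : E} (hp : p ∈ Lk φ) : p ∈ TT φ b := hT.mem_TT_of_ZZ (hT.ZZ_of_Lk hp)

lemma seg_one {p : E} (hp : p ∈ Lk φ) {τ : ℝ} (hτ : |τ| < b) :
    p + τ • gradient φ p ∈ TT φ b ∧ pp φ (p + τ • gradient φ p) = p ∧
      rr φ (p + τ • gradient φ p) = 1 ∧ ta φ (p + τ • gradient φ p) = τ := by
  have := hT.seg' hp.1 hp.2 one_pos hτ
  simpa only [one_smul] using this

lemma jt_ne_zero {p : E} (hp : p ∈ Lk φ) {τ : ℝ} (hτ : |τ| < b) : jt φ p τ ≠ 0 := by
  obtain ⟨h1, h2, h3, h4⟩ := hT.seg_one hp hτ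
  have := hT.jj_ne_zero h1
  rwa [hT.jj_eq_jt h1, h2, h4] at this

omit hT [MeasurableSpace E] [BorelSpace E] in
lemma _root_.Crest.Agent.R246.SM436.continuous_jt (φ : E → ℝ) (p : E) :
    Continuous (jt φ p) := by
  unfold jt
  exact ContinuousLinearMap.continuous_det.comp (by fun_prop)

lemma jt_pos {p : E} (hp : p ∈ Lk φ) {τ : ℝ} (hτ : |τ| < b) : 0 < jt φ p τ := by
  by_contra hneg
  push Not at hneg
  have hc := continuous_jt φ p
  have h0 : jt φ p 0 = 1 := jt_zero φ p
  have hpc : IsPreconnected (uIcc 0 τ) := isPreconnected_uIcc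
  have := hpc.intermediate_value (right_mem_uIcc (a := (0 : ℝ)) (b := τ))
    (left_mem_uIcc (a := (0 : ℝ)) (b := τ)) hc.continuousOn
  obtain ⟨s, hs, hs0⟩ := this (show (0 : ℝ) ∈ Icc (jt φ p τ) (jt φ p 0) from ⟨hneg, by rw [h0]; exact zero_le_one⟩)
  have hsb : |s| < b := by
    have h1 : |s| ≤ |τ| := by
      rcases le_total 0 τ with h | h
      · rw [uIcc_of_le h] at hs
        rw [abs_of_nonneg hs.1, abs_of_nonneg h]; exact hs.2
      · rw [uIcc_of_ge h] at hs
        rw [abs_of_nonpos hs.2, abs_of_nonpos h]; linarith [hs.1]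
    linarith
  exact hT.jt_ne_zero hp hsb hs0

lemma continuousAt_hs {y : E} (hy : y ∈ TT φ b) : ContinuousAt (hs φ) y := by
  have h2 : ContDiffAt ℝ ∞ (hs φ) y :=
    (hT.good hy).contDiffAt_gradient.fderiv_right (m := ∞) (by simp)
  exact h2.continuousAt

lemma continuousAt_gradient {y : E} (hy : y ∈ TT φ b) : ContinuousAt (gradient φ) y :=
  (hT.good hy).contDiffAt_gradient.continuousAt

lemma continuousOn_jt : ContinuousOn (fun q : E × ℝ => jt φ q.1 q.2) (Lk φ ×ˢ univ) := by
  rintro ⟨p, τ⟩ ⟨hp, -⟩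
  have h1 : ContinuousAt (hs φ) p := hT.continuousAt_hs (hT.TT_of_Lk hp)
  have h2 : ContinuousAt (fun q : E × ℝ => ContinuousLinearMap.id ℝ E + q.2 • hs φ q.1) (p, τ) := by
    refine continuousAt_const.add (continuousAt_snd.smul ?_)
    exact ContinuousAt.comp (g := hs φ) (f := Prod.fst) h1 continuousAt_fst
  exact (ContinuousLinearMap.continuous_det.continuousAt.comp h2).continuousWithinAt

lemma continuousOn_seg : ContinuousOn (fun q : E × ℝ => q.1 + q.2 • gradient φ q.1)
    (Lk φ ×ˢ univ) := by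
  rintro ⟨p, τ⟩ ⟨hp, -⟩
  have h1 : ContinuousAt (gradient φ) p := hT.continuousAt_gradient (hT.TT_of_Lk hp)
  have h2 : ContinuousAt (fun q : E × ℝ => q.1 + q.2 • gradient φ q.1) (p, τ) := by
    refine continuousAt_fst.add (continuousAt_snd.smul ?_)
    exact ContinuousAt.comp (g := gradient φ) (f := Prod.fst) h1 continuousAt_fst
  exact h2.continuousWithinAt

/-- product structure, radial variable first -/
theorem map_lam' [Nontrivial E] :
    (kap (finrank ℝ E)).prod ((mu φ b).prod (ell b))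
      = (lam φ b).map (fun y => (rr φ y, (pp φ y, ta φ y))) := by
  have := hT.isFiniteMeasure_mu
  have := sigmaFinite_kap (n := finrank ℝ E) finrank_pos
  have hmeas : Measurable (fun y => (pp φ y, (rr φ y, ta φ y))) :=
    hT.measurable_pp.prodMk (hT.measurable_rr.prodMk hT.measurable_ta)
  -- rearrangement
  set R : E × (ℝ × ℝ) → ℝ × (E × ℝ) := fun q => (q.2.1, (q.1, q.2.2)) with hR
  have hRm : Measurable R := by fun_prop
  have h1 : Measure.map R ((mu φ b).prod ((kap (finrank ℝ E)).prod (ell b)))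
      = (kap (finrank ℝ E)).prod ((mu φ b).prod (ell b)) := by
    have e1 := (measurePreserving_prodAssoc (mu φ b) (kap (finrank ℝ E)) (ell b)).symm
    have e2 := (Measure.measurePreserving_swap (μ := mu φ b) (ν := kap (finrank ℝ E))).prod
      (MeasurePreserving.id (ell b))
    have e3 := measurePreserving_prodAssoc (kap (finrank ℝ E)) (mu φ b) (ell b)
    have e4 := e3.comp (e2.comp e1)
    have e5 : (MeasurableEquiv.prodAssoc ∘ (Prod.map Prod.swap id ∘
      (MeasurableEquiv.prodAssoc (α := E) (β := ℝ) (γ := ℝ)).symm)) = R := by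
      funext q; rfl
    rw [e5] at e4
    exact e4.map_eq
  rw [← h1, hT.map_lam, Measure.map_map hRm hmeas]
  rfl

lemma ae_lam_mem : ∀ᵐ y ∂(lam φ b), y ∈ TT φ b := by
  rw [ae_iff]
  change lam φ b (TT φ b)ᶜ = 0
  rw [lam, withDensity_apply _ hT.measurableSet_TT.compl,
    Measure.restrict_restrict hT.measurableSet_TT.compl, compl_inter_self,
    Measure.restrict_empty, lintegral_zero_measure]

/-- integral over the tube as an integral against `lam` -/
lemma integral_TT_eq (G : E → ℝ) :
    ∫ y in TT φ b, G y = ∫ y, |jj φ y| * G y ∂(lam φ b) := by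
  have hjm := hT.measurable_jj
  rw [lam, integral_withDensity_eq_integral_toReal_smul (by fun_prop)
    (Eventually.of_forall fun _ => ENNReal.ofReal_lt_top)]
  refine setIntegral_congr_fun hT.measurableSet_TT fun y hy => ?_
  simp only [smul_eq_mul]
  rw [ENNReal.toReal_ofReal (by positivity), ← mul_assoc,
    inv_mul_cancel₀ (abs_ne_zero.2 (hT.jj_ne_zero hy)), one_mul]

/-- product formula for homogeneous integrands -/
theorem integral_tube_hom [Nontrivial E] {F : E → ℝ} (hFm : Measurable F)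
    (hF0 : ∀ t : ℝ, 0 < t → ∀ y ∈ TT φ b, F (t • y) = F y) {g : ℝ → ℝ} (hg : Measurable g) :
    ∫ y in TT φ b, g (rr φ y) * F y
      = (∫ ρ, g ρ ∂(kap (finrank ℝ E))) *
        ∫ q, |jt φ q.1 q.2| * F (q.1 + q.2 • gradient φ q.1) ∂((mu φ b).prod (ell b)) := by
  have := hT.isFiniteMeasure_mu
  have := sigmaFinite_kap (n := finrank ℝ E) finrank_pos
  have hgm := measurable_gradient φ
  have hjt := measurable_jt φ
  have hmeas : Measurable (fun y => (rr φ y, (pp φ y, ta φ y))) :=
    hT.measurable_rr.prodMk (hT.measurable_pp.prodMk hT.measurable_ta)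
  set H : ℝ × (E × ℝ) → ℝ := fun q => g q.1 *
    (|jt φ q.2.1 q.2.2| * F (q.2.1 + q.2.2 • gradient φ q.2.1)) with hH
  have hHm : Measurable H := by
    have e1 : Measurable fun q : ℝ × (E × ℝ) => jt φ q.2.1 q.2.2 := hjt.comp measurable_snd
    have e2 : Measurable fun q : ℝ × (E × ℝ) => q.2.1 + q.2.2 • gradient φ q.2.1 :=
      (measurable_snd.fst.add (measurable_snd.snd.smul (hgm.comp measurable_snd.fst)))
    exact (hg.comp measurable_fst).mul ((continuous_abs.measurable.comp e1).mul (hFm.comp e2))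
  rw [hT.integral_TT_eq]
  have h2 : ∫ y, |jj φ y| * (g (rr φ y) * F y) ∂(lam φ b)
      = ∫ y, H (rr φ y, (pp φ y, ta φ y)) ∂(lam φ b) := by
    refine integral_congr_ae ?_
    filter_upwards [hT.ae_lam_mem] with y hy
    simp only [hH]
    have e : F (pp φ y + ta φ y • gradient φ (pp φ y)) = F y := by
      have h3 := hT.recon_pp hy
      have h4 : pp φ y + ta φ y • gradient φ (pp φ y) = (rr φ y)⁻¹ • y := by
        have h5 := congrArg (fun z => (rr φ y)⁻¹ • z) h3
        simp only [smul_smul (rr φ y)⁻¹ (rr φ y), inv_mul_cancel₀ hy.1.ne', one_smul] at h5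
        exact h5
      rw [h4]
      exact hF0 _ (inv_pos.2 hy.1) y hy
    rw [e, hT.jj_eq_jt hy]; ring
  rw [h2, ← integral_map hmeas.aemeasurable hHm.aestronglyMeasurable, ← hT.map_lam', hH]
  exact integral_prod_mul g (fun q : E × ℝ => |jt φ q.1 q.2| * F (q.1 + q.2 • gradient φ q.1))

/-- bounds on a compact part of the tube -/
lemma exists_bound {F : E → ℝ} (hF : ContinuousOn F (TT φ b)) {b' : ℝ} (hb' : b' < b) :
    ∃ C : ℝ, 0 ≤ C ∧ ∀ p ∈ Lk φ, ∀ τ : ℝ, |τ| ≤ b' →
      |jt φ p τ| ≤ C ∧ |F (p + τ • gradient φ p)| ≤ C := by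
  have hK : IsCompact (Lk φ ×ˢ Icc (-b') b') := hT.isCompact_Lk.prod isCompact_Icc
  have hsub : Lk φ ×ˢ Icc (-b') b' ⊆ Lk φ ×ˢ (univ : Set ℝ) := prod_mono le_rfl (subset_univ _)
  have h1 : ContinuousOn (fun q : E × ℝ => |jt φ q.1 q.2|) (Lk φ ×ˢ Icc (-b') b') :=
    (hT.continuousOn_jt.mono hsub).abs
  have h2 : ContinuousOn (fun q : E × ℝ => |F (q.1 + q.2 • gradient φ q.1)|)
      (Lk φ ×ˢ Icc (-b') b') := by
    refine (hF.comp (hT.continuousOn_seg.mono hsub) ?_).abs
    rintro ⟨p, τ⟩ ⟨hp, hτ⟩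
    exact (hT.seg_one hp (lt_of_le_of_lt (abs_le.2 hτ) hb')).1
  obtain ⟨C1, hC1⟩ := hK.bddAbove_image h1
  obtain ⟨C2, hC2⟩ := hK.bddAbove_image h2
  refine ⟨max 0 (max C1 C2), le_max_left _ _, fun p hp τ hτ => ⟨?_, ?_⟩⟩
  · exact (hC1 (mem_image_of_mem _ (show (p, τ) ∈ Lk φ ×ˢ Icc (-b') b' from
      ⟨hp, abs_le.1 hτ⟩))).trans ((le_max_left _ _).trans (le_max_right _ _))
  · exact (hC2 (mem_image_of_mem _ (show (p, τ) ∈ Lk φ ×ˢ Icc (-b') b' from
      ⟨hp, abs_le.1 hτ⟩))).trans ((le_max_right _ _).trans (le_max_right _ _))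

/-- **Tube limit.** -/
theorem tube_limit [Nontrivial E] {F : E → ℝ} (hFm : Measurable F) (hF : ContinuousOn F (TT φ b))
    (hF0 : ∀ t : ℝ, 0 < t → ∀ y ∈ TT φ b, F (t • y) = F y) {g : ℝ → ℝ} (hg : Measurable g)
    {χ : ℝ → ℝ} (hχm : Measurable χ) {M : ℝ} (hχM : ∀ s, |χ s| ≤ M)
    (hχ0 : ∀ s, 1 < |s| → χ s = 0) :
    Tendsto (fun a : ℝ => a⁻¹ * ∫ y in TT φ b, g (rr φ y) * (χ (ta φ y / a) * F y)) (𝓝[>] 0)
      (𝓝 ((∫ ρ, g ρ ∂(kap (finrank ℝ E))) * ((∫ s, χ s) * ∫ p, F p ∂(mu φ b)))) := by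
  have hfin := hT.isFiniteMeasure_mu
  have hgm := measurable_gradient φ
  have hjt := measurable_jt φ
  have hb := hT.hb
  set b' := b / 2 with hb'
  have hb'0 : 0 < b' := by positivity
  obtain ⟨C, hC0, hC⟩ := hT.exists_bound hF (b' := b') (by linarith)
  have hM0 : 0 ≤ M := (abs_nonneg _).trans (hχM 0)
  -- rewriting of the integral
  have key : ∀ a : ℝ, 0 < a → a < b' →
      a⁻¹ * ∫ y in TT φ b, g (rr φ y) * (χ (ta φ y / a) * F y)
      = (∫ ρ, g ρ ∂(kap (finrank ℝ E))) * ∫ p, (∫ s, χ s *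
          (|jt φ p (a * s)| * F (p + (a * s) • gradient φ p))) ∂(mu φ b) := by
    intro a ha hab
    have hFm' : Measurable fun y => χ (ta φ y / a) * F y :=
      (hχm.comp (hT.measurable_ta.div_const a)).mul hFm
    rw [hT.integral_tube_hom hFm' (fun t ht y hy => by rw [hT.ta_smul y ht, hF0 t ht y hy]) hg,
      ← mul_assoc, mul_comm a⁻¹, mul_assoc]
    congr 1
    -- Fubini
    have hint : Integrable (fun q : E × ℝ => |jt φ q.1 q.2| *
        (χ (ta φ (q.1 + q.2 • gradient φ q.1) / a) * F (q.1 + q.2 • gradient φ q.1)))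
        ((mu φ b).prod (ell b)) := by
      have hmeas : Measurable (fun q : E × ℝ => |jt φ q.1 q.2| *
        (χ (ta φ (q.1 + q.2 • gradient φ q.1) / a) * F (q.1 + q.2 • gradient φ q.1))) := by
        have e2 : Measurable fun q : E × ℝ => q.1 + q.2 • gradient φ q.1 :=
          (measurable_fst.add (measurable_snd.smul (hgm.comp measurable_fst)))
        exact (continuous_abs.measurable.comp hjt).mul (hFm'.comp e2)
      refine (integrable_const (C * (M * C))).mono' hmeas.aestronglyMeasurable ?_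
      have hae : ∀ᵐ q ∂((mu φ b).prod (ell b)), q.1 ∈ Lk φ ∧ q.2 ∈ Ioo (-b) b := by
        have h1 : ∀ᵐ q ∂((mu φ b).prod (ell b)), q.1 ∈ Lk φ :=
          Measure.quasiMeasurePreserving_fst.ae hT.ae_mem_Lk
        have h2 : ∀ᵐ q ∂((mu φ b).prod (ell b)), q.2 ∈ Ioo (-b) b :=
          Measure.quasiMeasurePreserving_snd.ae (ae_restrict_mem measurableSet_Ioo)
        filter_upwards [h1, h2] with q h1 h2 using ⟨h1, h2⟩
      filter_upwards [hae] with q hq
      have hq2 : |q.2| < b := _root_.abs_lt.2 hq.2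
      obtain ⟨g1, g2, g3, g4⟩ := hT.seg_one hq.1 hq2
      rw [g4, Real.norm_eq_abs, abs_mul, abs_mul, abs_abs]
      by_cases hs : |q.2 / a| ≤ 1
      · have h3 : |q.2| ≤ b' := by
          rw [abs_div, abs_of_pos ha, div_le_one ha] at hs
          linarith
        obtain ⟨c1, c2⟩ := hC q.1 hq.1 q.2 h3
        exact mul_le_mul c1 (mul_le_mul (hχM _) c2 (abs_nonneg _) hM0) (by positivity) hC0
      · rw [hχ0 _ (not_le.1 hs)]
        simp only [abs_zero, zero_mul, mul_zero]
        positivity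
    rw [integral_prod _ hint, ← integral_const_mul]
    refine integral_congr_ae ?_
    filter_upwards [hT.ae_mem_Lk] with p hp
    -- change of variables in `τ`
    have h1 : ∫ τ in Ioo (-b) b, |jt φ p τ| *
        (χ (ta φ (p + τ • gradient φ p) / a) * F (p + τ • gradient φ p))
        = ∫ τ, |jt φ p τ| * (χ (τ / a) * F (p + τ • gradient φ p)) := by
      rw [← integral_indicator measurableSet_Ioo]
      refine integral_congr_ae (Eventually.of_forall fun τ => ?_)
      simp only [indicator]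
      split_ifs with h
      · rw [(hT.seg_one hp (_root_.abs_lt.2 h)).2.2.2]
      · rw [hχ0, zero_mul, mul_zero]
        rw [abs_div, abs_of_pos ha, lt_div_iff₀ ha, one_mul]
        by_contra h4
        push Not at h4
        exact h (_root_.abs_lt.1 (by linarith))
    change a⁻¹ * ∫ τ in Ioo (-b) b, |jt φ p τ| *
        (χ (ta φ (p + τ • gradient φ p) / a) * F (p + τ • gradient φ p)) = _
    rw [h1]
    have h2 := Measure.integral_comp_mul_left
      (fun τ => |jt φ p τ| * (χ (τ / a) * F (p + τ • gradient φ p))) a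
    rw [abs_of_pos (inv_pos.2 ha), smul_eq_mul] at h2
    rw [← h2]
    refine integral_congr_ae (Eventually.of_forall fun s => ?_)
    simp only
    rw [mul_div_cancel_left₀ s ha.ne']; ring
  -- the limit
  have hlim : Tendsto (fun a : ℝ => ∫ p, (∫ s, χ s *
          (|jt φ p (a * s)| * F (p + (a * s) • gradient φ p))) ∂(mu φ b)) (𝓝[>] 0)
      (𝓝 (∫ p, (∫ s, χ s * F p) ∂(mu φ b))) := by
    have hsmall : ∀ᶠ a : ℝ in 𝓝[>] 0, 0 < a ∧ a < b' := by
      filter_upwards [self_mem_nhdsWithin, nhdsWithin_le_nhds (gt_mem_nhds hb'0)] with a h1 h2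
      exact ⟨h1, h2⟩
    have hbnd : ∀ a : ℝ, 0 < a → a < b' → ∀ p ∈ Lk φ, ∀ s : ℝ,
        ‖χ s * (|jt φ p (a * s)| * F (p + (a * s) • gradient φ p))‖
          ≤ (Icc (-1 : ℝ) 1).indicator (fun _ => M * (C * C)) s := by
      intro a ha hab p hp s
      by_cases hs : |s| ≤ 1
      · rw [indicator_of_mem (show s ∈ Icc (-1 : ℝ) 1 from abs_le.1 hs)]
        have h3 : |a * s| ≤ b' := by
          rw [abs_mul, abs_of_pos ha]
          nlinarith [abs_nonneg s]
        obtain ⟨c1, c2⟩ := hC p hp _ h3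
        rw [Real.norm_eq_abs, abs_mul, abs_mul, abs_abs]
        exact mul_le_mul (hχM s) (mul_le_mul c1 c2 (abs_nonneg _) hC0) (by positivity) hM0
      · rw [hχ0 s (not_le.1 hs), zero_mul, norm_zero]
        apply indicator_nonneg
        intro _ _; positivity
    have hbint : Integrable ((Icc (-1 : ℝ) 1).indicator (fun _ => M * (C * C))) := by
      rw [integrable_indicator_iff measurableSet_Icc]
      exact integrableOn_const (by simp)
    refine tendsto_integral_filter_of_dominated_convergence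
      (fun _ => ∫ s, (Icc (-1 : ℝ) 1).indicator (fun _ => M * (C * C)) s) ?_ ?_ ?_ ?_
    · filter_upwards with a
      have hm : Measurable (fun q : E × ℝ => χ q.2 *
          (|jt φ q.1 (a * q.2)| * F (q.1 + (a * q.2) • gradient φ q.1))) := by
        have e1 : Measurable fun q : E × ℝ => (q.1, a * q.2) := by fun_prop
        have e2 : Measurable fun q : E × ℝ => q.1 + (a * q.2) • gradient φ q.1 :=
          (measurable_fst.add ((measurable_snd.const_mul a).smul (hgm.comp measurable_fst)))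
        exact (hχm.comp measurable_snd).mul
          ((continuous_abs.measurable.comp (hjt.comp e1)).mul (hFm.comp e2))
      exact (hm.stronglyMeasurable.integral_prod_right (ν := volume)).aestronglyMeasurable
    · filter_upwards [hsmall] with a ha
      filter_upwards [hT.ae_mem_Lk] with p hp
      exact norm_integral_le_of_norm_le hbint
        (Eventually.of_forall fun s => hbnd a ha.1 ha.2 p hp s)
    · exact integrable_const _
    · filter_upwards [hT.ae_mem_Lk] with p hp
      refine tendsto_integral_filter_of_dominated_convergence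
        ((Icc (-1 : ℝ) 1).indicator (fun _ => M * (C * C))) ?_ ?_ hbint ?_
      · filter_upwards with a
        have hm : Measurable (fun s : ℝ => χ s *
          (|jt φ p (a * s)| * F (p + (a * s) • gradient φ p))) := by
          have e1 : Measurable fun s : ℝ => jt φ p (a * s) :=
            ((continuous_jt φ p).comp (continuous_const.mul continuous_id)).measurable
          have e2 : Measurable fun s : ℝ => p + (a * s) • gradient φ p := by fun_prop
          exact hχm.mul ((continuous_abs.measurable.comp e1).mul (hFm.comp e2))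
        exact hm.aestronglyMeasurable
      · filter_upwards [hsmall] with a ha
        exact Eventually.of_forall fun s => hbnd a ha.1 ha.2 p hp s
      · refine Eventually.of_forall fun s => ?_
        have e0 : Tendsto (fun a : ℝ => a * s) (𝓝[>] 0) (𝓝 0) := by
          have : Tendsto (fun a : ℝ => a * s) (𝓝 0) (𝓝 (0 * s)) :=
            (continuous_id.mul continuous_const).tendsto 0
          rw [zero_mul] at this
          exact this.mono_left nhdsWithin_le_nhds
        have e1 : Tendsto (fun a : ℝ => |jt φ p (a * s)|) (𝓝[>] 0) (𝓝 1) := by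
          have := ((continuous_jt φ p).abs.tendsto 0).comp e0
          rw [jt_zero, abs_one] at this
          exact this
        have e2 : Tendsto (fun a : ℝ => F (p + (a * s) • gradient φ p)) (𝓝[>] 0) (𝓝 (F p)) := by
          have h5 : ContinuousAt F p :=
            (hF p (hT.TT_of_Lk hp)).continuousAt (hT.isOpen_TT.mem_nhds (hT.TT_of_Lk hp))
          have h6 : Tendsto (fun a : ℝ => p + (a * s) • gradient φ p) (𝓝[>] 0) (𝓝 p) := by
            have := tendsto_const_nhds (x := p).add (e0.smul_const (gradient φ p))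
            rw [zero_smul, add_zero] at this
            exact this
          exact h5.tendsto.comp h6
        have := (tendsto_const_nhds (x := χ s)).mul (e1.mul e2)
        rwa [one_mul] at this
  have hfinal : (∫ p, (∫ s, χ s * F p) ∂(mu φ b)) = (∫ s, χ s) * ∫ p, F p ∂(mu φ b) := by
    simp_rw [integral_mul_const]
    rw [integral_const_mul]
  rw [hfinal] at hlim
  refine (hlim.const_mul (∫ ρ, g ρ ∂(kap (finrank ℝ E)))).congr' ?_
  filter_upwards [self_mem_nhdsWithin, nhdsWithin_le_nhds (gt_mem_nhds hb'0)] with a h1 h2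
  exact (key a h1 h2).symm

end Tube

end Crest.Agent.R246.SM436
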