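import Crest.Agent.R246.SM3_436
import Mathlib.Analysis.InnerProductSpace.Trace
import Mathlib.Analysis.Calculus.LineDeriv.IntegrationByParts
import Mathlib.Analysis.Calculus.BumpFunction.FiniteDimension
import Mathlib.Analysis.Calculus.BumpFunction.Normed

/-!
# First variation formula for smooth minimal hypercones (helper436)
-/

set_option autoImplicit false
set_option linter.unusedSectionVars false
set_option linter.unusedSimpArgs false
noncomputable section
open MeasureTheory Set Filter Topology Module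
open scoped RealInnerProductSpace ContDiff

namespace Crest.Agent.R246.SM436

open Crest.Agent.R246.H990

variable {E : Type*} [NormedAddCommGroup E] [InnerProductSpace ℝ E] [FiniteDimensional ℝ E]
  [MeasurableSpace E] [BorelSpace E]

/-- trace of a continuous linear map -/
def tr (L : E →L[ℝ] E) : ℝ := LinearMap.trace ℝ E (L : E →ₗ[ℝ] E)

/-- divergence -/
def dv (W : E → E) (x : E) : ℝ := tr (fderiv ℝ W x)

lemma tr_add (L M : E →L[ℝ] E) : tr (L + M) = tr L + tr M := by
  simp [tr]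

lemma tr_sub (L M : E →L[ℝ] E) : tr (L - M) = tr L - tr M := by
  simp [tr]

lemma tr_smul (c : ℝ) (L : E →L[ℝ] E) : tr (c • L) = c * tr L := by
  simp [tr]

lemma tr_smulRight (f : E →L[ℝ] ℝ) (x : E) : tr (f.smulRight x) = f x := by
  have h : ((f.smulRight x : E →L[ℝ] E) : E →ₗ[ℝ] E) = (f : E →ₗ[ℝ] ℝ).smulRight x := by
    ext; rfl
  rw [tr, h, LinearMap.trace_smulRight]
  rfl

lemma tr_id : tr (ContinuousLinearMap.id ℝ E) = finrank ℝ E := by
  rw [tr]; simp

lemma tr_eq_sum {ι : Type*} [Fintype ι] (L : E →L[ℝ] E) (e : OrthonormalBasis ι ℝ E) :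
    tr L = ∑ i, ⟪e i, L (e i)⟫ := by
  rw [tr, LinearMap.trace_eq_sum_inner _ e]
  rfl

lemma continuous_tr : Continuous (tr : (E →L[ℝ] E) → ℝ) := by
  have h : (tr : (E →L[ℝ] E) → ℝ) = fun L => ∑ i, ⟪(stdOrthonormalBasis ℝ E) i,
      L ((stdOrthonormalBasis ℝ E) i)⟫ := by
    funext L; exact tr_eq_sum L _
  rw [h]
  fun_prop

section IBP

lemma integral_fderiv_zero' {f : E → ℝ} (hf : ContDiff ℝ 1 f) (hc : HasCompactSupport f) (v : E) :
    ∫ x, fderiv ℝ f x v = 0 := by
  have h1 : Continuous fun x => fderiv ℝ f x v :=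
    (hf.continuous_fderiv (by simp)).clm_apply continuous_const
  have h2 : HasCompactSupport fun x => fderiv ℝ f x v := hc.fderiv_apply (𝕜 := ℝ) v
  have h := integral_mul_fderiv_eq_neg_fderiv_mul_of_integrable (μ := (volume : Measure E))
    (f := fun _ : E => (1 : ℝ)) (g := f) (v := v) (by simp)
    (by simpa using h1.integrable_of_hasCompactSupport h2)
    (by simpa using hf.continuous.integrable_of_hasCompactSupport hc)
    (fun x _ => differentiableAt_const _) (fun x _ => hf.differentiable (by simp) x)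
  simpa using h

/-- divergence theorem for compactly supported fields -/
lemma integral_dv_zero {W : E → E} (hW : ContDiff ℝ 1 W) (hc : HasCompactSupport W) :
    ∫ x, dv W x = 0 := by
  set e := stdOrthonormalBasis ℝ E with he
  have hWc : Continuous fun x => fderiv ℝ W x := hW.continuous_fderiv (by simp)
  have h1 : ∀ i x, fderiv ℝ (fun x => ⟪e i, W x⟫) x (e i) = ⟪e i, fderiv ℝ W x (e i)⟫ := by
    intro i x
    have hd : DifferentiableAt ℝ W x := hW.differentiable (by simp) x
    have : HasFDerivAt (fun x => ⟪e i, W x⟫) ((innerSL ℝ (e i)).comp (fderiv ℝ W x)) x :=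
      (innerSL ℝ (e i)).hasFDerivAt.comp x hd.hasFDerivAt
    rw [this.fderiv]
    simp
  have h2 : ∀ i, ∫ x, ⟪e i, fderiv ℝ W x (e i)⟫ = 0 := by
    intro i
    have h3 : ContDiff ℝ 1 (fun x => ⟪e i, W x⟫) := contDiff_const.inner ℝ hW
    have h4 : HasCompactSupport (fun x => ⟪e i, W x⟫) := by
      refine hc.mono' ?_
      intro x hx
      apply subset_tsupport
      intro h0
      apply hx
      simp [h0]
    have := integral_fderiv_zero' h3 h4 (e i)
    simpa only [h1] using this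
  have h5 : ∀ i, Integrable (fun x => ⟪e i, fderiv ℝ W x (e i)⟫) := by
    intro i
    have h6 : Continuous fun x => ⟪e i, fderiv ℝ W x (e i)⟫ := by fun_prop
    refine h6.integrable_of_hasCompactSupport ?_
    have h7 : HasCompactSupport (fderiv ℝ W) := hc.fderiv (𝕜 := ℝ)
    refine h7.mono' ?_
    intro x hx
    apply subset_tsupport
    intro h0
    apply hx
    simp [h0]
  calc ∫ x, dv W x = ∫ x, ∑ i, ⟪e i, fderiv ℝ W x (e i)⟫ := by
        refine integral_congr_ae (Eventually.of_forall fun x => ?_)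
        simp only [dv, tr_eq_sum _ e]
    _ = ∑ i, ∫ x, ⟪e i, fderiv ℝ W x (e i)⟫ := integral_finsetSum _ fun i _ => h5 i
    _ = 0 := by simp [h2]

end IBP

/-- orthogonal projection onto the tangent space of the link -/
def PT (φ : E → ℝ) (p : E) : E →L[ℝ] E :=
  ContinuousLinearMap.id ℝ E - (innerSL ℝ (gradient φ p)).smulRight (gradient φ p)
    - (innerSL ℝ p).smulRight p

lemma PT_apply (φ : E → ℝ) (p v : E) :
    PT φ p v = v - ⟪gradient φ p, v⟫ • gradient φ p - ⟪p, v⟫ • p := by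
  simp only [PT, sub_apply, ContinuousLinearMap.id_apply, ContinuousLinearMap.smulRight_apply,
    innerSL_apply_apply]

namespace Tube

variable {φ : E → ℝ} {b : ℝ} (hT : Tube φ b)
include hT

/-! ### smoothness of the tube coordinates -/

lemma contDiffAt_rr {y : E} (hy : y ∈ TT φ b) : ContDiffAt ℝ ∞ (rr φ) y := by
  have hne : ‖y‖ ^ 2 - φ y ^ 2 ≠ 0 := by
    rw [← hT.rr_sq]; exact pow_ne_zero _ hy.1.ne'
  exact (((contDiff_norm_sq ℝ).contDiffAt).sub ((hT.good hy).contDiffAt.pow 2)).sqrt hne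

lemma contDiffAt_ft {y : E} (hy : y ∈ TT φ b) : ContDiffAt ℝ ∞ (ft φ) y :=
  contDiffAt_id.sub ((hT.good hy).contDiffAt.smul (hT.good hy).contDiffAt_gradient)

lemma contDiffAt_pp {y : E} (hy : y ∈ TT φ b) : ContDiffAt ℝ ∞ (pp φ) y :=
  ((hT.contDiffAt_rr hy).inv hy.1.ne').smul (hT.contDiffAt_ft hy)

lemma contDiffAt_ta {y : E} (hy : y ∈ TT φ b) : ContDiffAt ℝ ∞ (ta φ) y :=
  (hT.good hy).contDiffAt.div (hT.contDiffAt_rr hy) hy.1.ne'

lemma mem_Lk_pp {y : E} (hy : y ∈ TT φ b) : pp φ y ∈ Lk φ := ⟨hT.norm_pp hy, hT.phi_pp hy⟩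

/-! ### facts at the link -/

lemma rr_Lk {p : E} (hp : p ∈ Lk φ) : rr φ p = 1 := by
  rw [hT.rr_of_ZZ (hT.ZZ_of_Lk hp), hp.1]

lemma ft_Lk {p : E} (hp : p ∈ Lk φ) : ft φ p = p := by
  rw [ft, hp.2, zero_smul, sub_zero]

lemma pp_Lk {p : E} (hp : p ∈ Lk φ) : pp φ p = p := by
  rw [pp, hT.rr_Lk hp, hT.ft_Lk hp, inv_one, one_smul]

lemma inner_gradient_Lk {p : E} (hp : p ∈ Lk φ) : ⟪gradient φ p, p⟫ = 0 := by
  rw [hT.euler (hT.TT_of_Lk hp), hp.2]

lemma norm_gradient_Lk {p : E} (hp : p ∈ Lk φ) : ‖gradient φ p‖ = 1 :=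
  (hT.good (hT.TT_of_Lk hp)).norm_gradient

lemma hs_gradient_Lk {p : E} (hp : p ∈ Lk φ) : hs φ p (gradient φ p) = 0 :=
  (hT.good (hT.TT_of_Lk hp)).hs_gradient

lemma hs_self_Lk {p : E} (hp : p ∈ Lk φ) : hs φ p p = 0 :=
  (hT.good (hT.TT_of_Lk hp)).hs_self hT.hom

lemma PT_self {p : E} (hp : p ∈ Lk φ) : PT φ p p = 0 := by
  rw [PT_apply, hT.inner_gradient_Lk hp, real_inner_self_eq_norm_sq, hp.1]
  simp

lemma PT_gradient {p : E} (hp : p ∈ Lk φ) : PT φ p (gradient φ p) = 0 := by
  rw [PT_apply, real_inner_self_eq_norm_sq, hT.norm_gradient_Lk hp,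
    real_inner_comm (gradient φ p) p, hT.inner_gradient_Lk hp]
  simp

lemma hasFDerivAt_rr_Lk {p : E} (hp : p ∈ Lk φ) : HasFDerivAt (rr φ) (innerSL ℝ p) p := by
  have := hT.hasFDerivAt_rr (hT.TT_of_Lk hp)
  rwa [hT.rr_Lk hp, hT.ft_Lk hp, inv_one, one_smul] at this

lemma hasFDerivAt_pp_Lk {p : E} (hp : p ∈ Lk φ) : HasFDerivAt (pp φ) (PT φ p) p := by
  have h1 := hT.hasFDerivAt_rr_Lk hp
  have h2 := hT.hasFDerivAt_ft (hT.TT_of_Lk hp)
  have hr := hT.rr_Lk hp
  have h3 : HasFDerivAt (fun y => (rr φ y)⁻¹) (-innerSL ℝ p) p := by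
    have := (hasDerivAt_inv (x := rr φ p) (by rw [hr]; norm_num)).comp_hasFDerivAt p h1
    rw [hr] at this
    have e : (-((1 : ℝ) ^ 2)⁻¹) • innerSL ℝ p = -innerSL ℝ p := by norm_num
    rw [e] at this
    exact this
  have h4 := h3.smul h2
  have h5 : (rr φ p)⁻¹ • (ContinuousLinearMap.id ℝ E - (φ p • hs φ p +
      (innerSL ℝ (gradient φ p)).smulRight (gradient φ p))) +
      (-innerSL ℝ p).smulRight (ft φ p) = PT φ p := by
    rw [hr, hp.2, hT.ft_Lk hp]
    ext v
    simp [PT, sub_eq_add_neg]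
  rw [h5] at h4
  exact h4

end Tube

/-- homogeneous extension, constant along normals -/
def Xt (φ : E → ℝ) (X : E → E) (y : E) : E := rr φ y • X (pp φ y)

/-- projected field -/
def Yt (φ : E → ℝ) (X : E → E) (y : E) : E :=
  Xt φ X y - ⟪gradient φ y, Xt φ X y⟫ • gradient φ y - ⟪pp φ y, Xt φ X y⟫ • pp φ y

namespace Tube

variable {φ : E → ℝ} {b : ℝ} (hT : Tube φ b)
include hT

lemma inner_gradient_pp {y : E} (hy : y ∈ TT φ b) : ⟪gradient φ y, pp φ y⟫ = 0 := by
  rw [pp, inner_smul_right, hT.inner_gradient_ft hy, mul_zero]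

lemma inner_gradient_Yt (X : E → E) {y : E} (hy : y ∈ TT φ b) : ⟪gradient φ y, Yt φ X y⟫ = 0 := by
  rw [Yt, inner_sub_right, inner_sub_right, inner_smul_right, inner_smul_right,
    hT.inner_gradient_pp hy, real_inner_self_eq_norm_sq, (hT.good hy).norm_gradient]
  ring

lemma inner_pp_Yt (X : E → E) {y : E} (hy : y ∈ TT φ b) : ⟪pp φ y, Yt φ X y⟫ = 0 := by
  rw [Yt, inner_sub_right, inner_sub_right, inner_smul_right, inner_smul_right,
    real_inner_comm (gradient φ y) (pp φ y), hT.inner_gradient_pp hy,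
    real_inner_self_eq_norm_sq, hT.norm_pp hy]
  ring

lemma inner_ft_Yt (X : E → E) {y : E} (hy : y ∈ TT φ b) : ⟪ft φ y, Yt φ X y⟫ = 0 := by
  have h := hT.inner_pp_Yt X hy
  rw [pp, inner_smul_left] at h
  simp only [starRingEnd_apply, star_trivial, mul_eq_zero, inv_eq_zero] at h
  exact h.resolve_left hy.1.ne'

lemma contDiffAt_Xt {X : E → E} (hX : ∀ p ∈ Lk φ, ContDiffAt ℝ 1 X p) {y : E} (hy : y ∈ TT φ b) :
    ContDiffAt ℝ 1 (Xt φ X) y :=
  ((hT.contDiffAt_rr hy).of_le (by simp)).smul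
    ((hX _ (hT.mem_Lk_pp hy)).comp y ((hT.contDiffAt_pp hy).of_le (by simp)))

lemma contDiffAt_Yt {X : E → E} (hX : ∀ p ∈ Lk φ, ContDiffAt ℝ 1 X p) {y : E} (hy : y ∈ TT φ b) :
    ContDiffAt ℝ 1 (Yt φ X) y := by
  have h1 := hT.contDiffAt_Xt hX hy
  have h2 : ContDiffAt ℝ 1 (gradient φ) y := (hT.good hy).contDiffAt_gradient.of_le (by simp)
  have h3 : ContDiffAt ℝ 1 (pp φ) y := (hT.contDiffAt_pp hy).of_le (by simp)
  exact (h1.sub ((h2.inner ℝ h1).smul h2)).sub ((h3.inner ℝ h1).smul h3)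

lemma Yt_smul (X : E → E) (y : E) {t : ℝ} (ht : 0 < t) : Yt φ X (t • y) = t • Yt φ X y := by
  have h1 : Xt φ X (t • y) = t • Xt φ X y := by
    rw [Xt, Xt, hT.rr_smul y ht.le, hT.pp_smul y ht, smul_smul]
  rw [Yt, Yt, h1, gradient_smul_of_hom hT.hom y ht, hT.pp_smul y ht, inner_smul_right,
    inner_smul_right]
  module

/-- divergence of `Yt` on the link. -/
lemma dv_Yt {X : E → E} (hX : ∀ p ∈ Lk φ, ContDiffAt ℝ 1 X p) {p : E} (hp : p ∈ Lk φ)
    (hmin : LinearMap.trace ℝ E (hs φ p : E →ₗ[ℝ] E) = 0) :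
    dv (Yt φ X) p = tr ((fderiv ℝ X p).comp (PT φ p)) - (finrank ℝ E - 2) * ⟪p, X p⟫ := by
  set ν := gradient φ p with hν
  have hpT := hT.TT_of_Lk hp
  have hXd : HasFDerivAt X (fderiv ℝ X p) p := ((hX p hp).differentiableAt (by simp)).hasFDerivAt
  have hpp := hT.pp_Lk hp
  have hppd := hT.hasFDerivAt_pp_Lk hp
  have hrr := hT.rr_Lk hp
  have hrrd := hT.hasFDerivAt_rr_Lk hp
  have hXc : HasFDerivAt (fun y => X (pp φ y)) ((fderiv ℝ X p).comp (PT φ p)) p := by
    have : HasFDerivAt X (fderiv ℝ X p) (pp φ p) := by rw [hpp]; exact hXd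
    exact this.comp p hppd
  set L : E →L[ℝ] E := (fderiv ℝ X p).comp (PT φ p) with hL
  set D : E →L[ℝ] E := L + (innerSL ℝ p).smulRight (X p) with hD
  have hXt : HasFDerivAt (Xt φ X) D p := by
    have := hrrd.smul hXc
    rw [hrr, one_smul, hpp] at this
    exact this
  have hXtp : Xt φ X p = X p := by rw [Xt, hrr, hpp, one_smul]
  have hνd : HasFDerivAt (gradient φ) (hs φ p) p := (hT.good hpT).hasFDerivAt_gradient
  have hin1 : HasFDerivAt (fun y => ⟪gradient φ y, Xt φ X y⟫)
      ((innerSL ℝ ν).comp D + (innerSL ℝ (X p)).comp (hs φ p)) p := by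
    have := hνd.inner ℝ hXt
    have e : (fderivInnerCLM ℝ (gradient φ p, Xt φ X p)).comp ((hs φ p).prod D)
        = (innerSL ℝ ν).comp D + (innerSL ℝ (X p)).comp (hs φ p) := by
      ext v
      simp only [add_apply, ContinuousLinearMap.comp_apply, innerSL_apply_apply,
        ContinuousLinearMap.prod_apply, fderivInnerCLM_apply, hXtp]
      rw [real_inner_comm (X p) (hs φ p v)]
    rw [e] at this
    exact this
  have hin2 : HasFDerivAt (fun y => ⟪pp φ y, Xt φ X y⟫)
      ((innerSL ℝ p).comp D + (innerSL ℝ (X p)).comp (PT φ p)) p := by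
    have := hppd.inner ℝ hXt
    have e : (fderivInnerCLM ℝ (pp φ p, Xt φ X p)).comp ((PT φ p).prod D)
        = (innerSL ℝ p).comp D + (innerSL ℝ (X p)).comp (PT φ p) := by
      ext v
      simp only [add_apply, ContinuousLinearMap.comp_apply, innerSL_apply_apply,
        ContinuousLinearMap.prod_apply, fderivInnerCLM_apply, hXtp, hpp]
      rw [real_inner_comm (X p) (PT φ p v)]
    rw [e] at this
    exact this
  have hY : HasFDerivAt (Yt φ X)
      (D - (⟪ν, X p⟫ • hs φ p +
        ((innerSL ℝ ν).comp D + (innerSL ℝ (X p)).comp (hs φ p)).smulRight ν)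
        - (⟪p, X p⟫ • PT φ p +
        ((innerSL ℝ p).comp D + (innerSL ℝ (X p)).comp (PT φ p)).smulRight p)) p := by
    have h1 := hin1.smul hνd
    have h2 := hin2.smul hppd
    have h3 := (hXt.sub h1).sub h2
    rw [hXtp, hpp] at h3
    exact h3
  have hDν : D ν = 0 := by
    rw [hD, hL]
    simp only [add_apply, ContinuousLinearMap.comp_apply, ContinuousLinearMap.smulRight_apply,
      innerSL_apply_apply]
    rw [hν, hT.PT_gradient hp, map_zero, real_inner_comm (gradient φ p) p,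
      hT.inner_gradient_Lk hp, zero_smul, add_zero]
  have hDp : D p = X p := by
    rw [hD, hL]
    simp only [add_apply, ContinuousLinearMap.comp_apply, ContinuousLinearMap.smulRight_apply,
      innerSL_apply_apply]
    rw [hT.PT_self hp, map_zero, real_inner_self_eq_norm_sq, hp.1]
    simp
  have htrP : tr (PT φ p) = finrank ℝ E - 2 := by
    rw [PT, tr_sub, tr_sub, tr_smulRight, tr_smulRight, tr_id, innerSL_apply_apply,
      innerSL_apply_apply, real_inner_self_eq_norm_sq, real_inner_self_eq_norm_sq, hp.1,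
      hT.norm_gradient_Lk hp]
    ring
  have htrA : tr (hs φ p) = 0 := hmin
  have htrD : tr D = tr L + ⟪p, X p⟫ := by
    rw [hD, tr_add, tr_smulRight, innerSL_apply_apply]
  rw [dv, hY.fderiv, tr_sub, tr_sub, htrD, tr_add, tr_add, tr_smul, tr_smul, tr_smulRight,
    tr_smulRight, htrP, htrA]
  simp only [add_apply, ContinuousLinearMap.comp_apply, innerSL_apply_apply, hDν, hDp]
  rw [hν, hT.hs_gradient_Lk hp, hT.PT_self hp]
  simp only [inner_zero_right]
  ring

/-- the vector field identity in the tube. -/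
lemma integral_cut_dv {X : E → E} (hX : ∀ p ∈ Lk φ, ContDiffAt ℝ 1 X p) {χ g : ℝ → ℝ}
    (hχ : ContDiff ℝ 1 χ) (hg : ContDiff ℝ 1 g) {b' c C : ℝ} (hb' : b' < b) (hc : 0 < c)
    (hχ0 : ∀ s, b' < |s| → χ s = 0) (hg0 : ∀ s, s < c → g s = 0) (hg1 : ∀ s, C < s → g s = 0) :
    ∫ y in TT φ b, g (rr φ y) * (χ (ta φ y) * dv (Yt φ X) y) = 0 := by
  set W : E → E := (TT φ b).indicator fun y => (g (rr φ y) * χ (ta φ y)) • Yt φ X y with hW
  -- the closed set carrying `W`
  set K : Set E := {y | |φ y| ≤ b' * rr φ y ∧ c ≤ rr φ y ∧ rr φ y ≤ C} with hK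
  have hφc := hT.lip.continuous
  have hrc := hT.continuous_rr
  have hKclosed : IsClosed K :=
    (isClosed_le hφc.abs (continuous_const.mul hrc)).inter
      ((isClosed_le continuous_const hrc).inter (isClosed_le hrc continuous_const))
  have hKT : K ⊆ TT φ b := by
    rintro y ⟨h1, h2, h3⟩
    have h4 : 0 < rr φ y := hc.trans_le h2
    exact ⟨h4, lt_of_le_of_lt h1 (mul_lt_mul_of_pos_right hb' h4)⟩
  have hK0 : ∀ y ∉ K, W y = 0 := by
    intro y hy
    by_cases hyT : y ∈ TT φ b
    · rw [hW, indicator_of_mem hyT]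
      have : g (rr φ y) * χ (ta φ y) = 0 := by
        by_contra hne
        apply hy
        have h1 : g (rr φ y) ≠ 0 := left_ne_zero_of_mul hne
        have h2 : χ (ta φ y) ≠ 0 := right_ne_zero_of_mul hne
        refine ⟨?_, ?_, ?_⟩
        · by_contra h
          push Not at h
          apply h2
          apply hχ0
          rw [ta, abs_div, abs_of_pos hyT.1, lt_div_iff₀ hyT.1]; exact h
        · by_contra h
          push Not at h
          exact h1 (hg0 _ h)
        · by_contra h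
          push Not at h
          exact h1 (hg1 _ h)
      rw [this, zero_smul]
    · rw [hW, indicator_of_notMem hyT]
  have hKc : IsCompact K := by
    refine Metric.isCompact_of_isClosed_isBounded hKclosed ?_
    refine (Metric.isBounded_closedBall (x := (0 : E)) (r := (1 + |b'|) * |C|)).subset ?_
    rintro y ⟨h1, h2, h3⟩
    rw [mem_closedBall_zero_iff]
    have h4 := hT.rr_sq y
    have h6 : 0 < rr φ y := hc.trans_le h2
    have h7 : C ≤ |C| := le_abs_self C
    have h9 : b' ≤ |b'| := le_abs_self b'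
    have h8 : ‖y‖ ≤ rr φ y + |φ y| := by
      apply abs_le_of_sq_le_sq' _ (by positivity) |>.2
      have := sq_abs (φ y)
      nlinarith [abs_nonneg (φ y)]
    have h10 : |φ y| ≤ |b'| * rr φ y := h1.trans (mul_le_mul_of_nonneg_right h9 h6.le)
    have h11 : ‖y‖ ≤ (1 + |b'|) * rr φ y := by linarith
    exact h11.trans (by gcongr; linarith)
  have hWcs : HasCompactSupport W := HasCompactSupport.intro hKc hK0
  have hWd : ∀ y ∈ TT φ b, ContDiffAt ℝ 1 (fun y => (g (rr φ y) * χ (ta φ y)) • Yt φ X y) y := by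
    intro y hy
    have h1 : ContDiffAt ℝ 1 (fun y => g (rr φ y)) y :=
      hg.contDiffAt.comp y ((hT.contDiffAt_rr hy).of_le (by simp))
    have h2 : ContDiffAt ℝ 1 (fun y => χ (ta φ y)) y :=
      hχ.contDiffAt.comp y ((hT.contDiffAt_ta hy).of_le (by simp))
    exact (h1.mul h2).smul (hT.contDiffAt_Yt hX hy)
  have hWeq : ∀ y ∈ TT φ b, W =ᶠ[𝓝 y] fun y => (g (rr φ y) * χ (ta φ y)) • Yt φ X y := by
    intro y hy
    filter_upwards [hT.isOpen_TT.mem_nhds hy] with z hz
    rw [hW, indicator_of_mem hz]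
  have hWC : ContDiff ℝ 1 W := by
    rw [contDiff_iff_contDiffAt]
    intro y
    by_cases hyK : y ∈ K
    · exact (hWd y (hKT hyK)).congr_of_eventuallyEq (hWeq y (hKT hyK))
    · have : W =ᶠ[𝓝 y] fun _ => 0 := by
        filter_upwards [hKclosed.isOpen_compl.mem_nhds hyK] with z hz
        exact hK0 z hz
      exact contDiffAt_const.congr_of_eventuallyEq this
  have h0 := integral_dv_zero hWC hWcs
  rw [← h0]
  have hdv : ∀ y, dv W y = (TT φ b).indicator
      (fun y => g (rr φ y) * (χ (ta φ y) * dv (Yt φ X) y)) y := by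
    intro y
    by_cases hy : y ∈ TT φ b
    · rw [indicator_of_mem hy]
      have hYd : HasFDerivAt (Yt φ X) (fderiv ℝ (Yt φ X) y) y :=
        ((hT.contDiffAt_Yt hX hy).differentiableAt (by simp)).hasFDerivAt
      have hrd := hT.hasFDerivAt_rr hy
      have hφd := (hT.good hy).hasFDerivAt
      set Y := Yt φ X y with hY
      -- derivative of the scalar factor
      have hs1 : HasFDerivAt (fun y => g (rr φ y))
          (deriv g (rr φ y) • ((rr φ y)⁻¹ • innerSL ℝ (ft φ y))) y :=
        ((hg.differentiable (by simp) _).hasDerivAt).comp_hasFDerivAt y hrd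
      have hta : HasFDerivAt (ta φ) (fderiv ℝ (ta φ) y) y :=
        ((hT.contDiffAt_ta hy).differentiableAt (by simp)).hasFDerivAt
      have htaY : fderiv ℝ (ta φ) y Y = 0 := by
        have h1 : HasFDerivAt (fun z => ta φ z * rr φ z)
            (ta φ y • ((rr φ y)⁻¹ • innerSL ℝ (ft φ y)) + rr φ y • fderiv ℝ (ta φ) y) y :=
          hta.mul hrd
        have h2 : (fun z => ta φ z * rr φ z) =ᶠ[𝓝 y] φ := by
          filter_upwards [hT.isOpen_TT.mem_nhds hy] with z hz
          exact hT.ta_mul_rr hz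
        have h3 := (h1.congr_of_eventuallyEq h2.symm).unique hφd
        have h4 := congrArg (fun L : E →L[ℝ] ℝ => L Y) h3
        simp only [add_apply, smul_apply, innerSL_apply_apply, smul_eq_mul] at h4
        rw [hY, hT.inner_ft_Yt X hy, hT.inner_gradient_Yt X hy, mul_zero, mul_zero, zero_add] at h4
        exact (mul_eq_zero.1 h4).resolve_left hy.1.ne'
      have hs2 : HasFDerivAt (fun y => χ (ta φ y)) (deriv χ (ta φ y) • fderiv ℝ (ta φ) y) y :=
        ((hχ.differentiable (by simp) _).hasDerivAt).comp_hasFDerivAt y hta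
      have hs3 := hs1.mul hs2
      have hprod := hs3.smul hYd
      have : fderiv ℝ W y = fderiv ℝ (fun y => (g (rr φ y) * χ (ta φ y)) • Yt φ X y) y :=
        (hWeq y hy).fderiv_eq
      rw [dv, this]
      have e := hprod.fderiv
      have e' : fderiv ℝ (fun y => (g (rr φ y) * χ (ta φ y)) • Yt φ X y) y = _ := e
      rw [e', tr_add, tr_smul, tr_smulRight]
      simp only [add_apply, smul_apply, innerSL_apply_apply, smul_eq_mul, Pi.mul_apply]
      rw [← hY, htaY, hY, hT.inner_ft_Yt X hy]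
      rw [dv]; ring
    · rw [indicator_of_notMem hy]
      have : W =ᶠ[𝓝 y] fun _ => 0 := by
        filter_upwards [hKclosed.isOpen_compl.mem_nhds (fun h => hy (hKT h))] with z hz
        exact hK0 z hz
      rw [dv, this.fderiv_eq]
      simp [tr]
  calc ∫ y in TT φ b, g (rr φ y) * (χ (ta φ y) * dv (Yt φ X) y)
      = ∫ y, (TT φ b).indicator (fun y => g (rr φ y) * (χ (ta φ y) * dv (Yt φ X) y)) y :=
        (integral_indicator hT.measurableSet_TT).symm
    _ = ∫ y, dv W y := by
        refine integral_congr_ae (Eventually.of_forall fun y => ?_)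
        exact (hdv y).symm

/-- **First variation formula.** -/
theorem first_variation [Nontrivial E] {X : E → E} (hX : ∀ p ∈ Lk φ, ContDiffAt ℝ 1 X p)
    (hmin : ∀ p ∈ Lk φ, LinearMap.trace ℝ E (hs φ p : E →ₗ[ℝ] E) = 0) :
    ∫ p, (tr ((fderiv ℝ X p).comp (PT φ p)) - (finrank ℝ E - 2) * ⟪p, X p⟫) ∂(mu φ b) = 0 := by
  have hb := hT.hb
  -- cutoffs
  set χ0 : ContDiffBump (0 : ℝ) := ⟨1 / 2, 1, by norm_num, by norm_num⟩ with hχ0
  set g0 : ContDiffBump (2 : ℝ) := ⟨1 / 2, 1, by norm_num, by norm_num⟩ with hg0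
  have hχz : ∀ s : ℝ, 1 < |s| → χ0 s = 0 := by
    intro s hs
    apply χ0.zero_of_le_dist
    rw [Real.dist_eq, sub_zero]; exact hs.le
  have hgz : ∀ s : ℝ, s < 1 → g0 s = 0 := by
    intro s hs
    apply g0.zero_of_le_dist
    rw [Real.dist_eq, abs_of_nonpos (by linarith)]
    change (1 : ℝ) ≤ _
    linarith
  have hgz' : ∀ s : ℝ, 3 < s → g0 s = 0 := by
    intro s hs
    apply g0.zero_of_le_dist
    rw [Real.dist_eq, abs_of_nonneg (by linarith)]
    change (1 : ℝ) ≤ _
    linarith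
  set F : E → ℝ := dv (Yt φ X) with hF
  have hFm : Measurable F := continuous_tr.measurable.comp (measurable_fderiv ℝ _)
  have hFc : ContinuousOn F (TT φ b) := by
    have h1 : ContDiffOn ℝ 1 (Yt φ X) (TT φ b) :=
      fun y hy => (hT.contDiffAt_Yt hX hy).contDiffWithinAt
    exact continuous_tr.comp_continuousOn (h1.continuousOn_fderiv_of_isOpen hT.isOpen_TT le_rfl)
  have hFh : ∀ t : ℝ, 0 < t → ∀ y ∈ TT φ b, F (t • y) = F y := by
    intro t ht y hy
    have hYd : HasFDerivAt (Yt φ X) (fderiv ℝ (Yt φ X) y) y :=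
      ((hT.contDiffAt_Yt hX hy).differentiableAt (by simp)).hasFDerivAt
    have h1 : HasFDerivAt (fun z : E => t⁻¹ • z) (t⁻¹ • ContinuousLinearMap.id ℝ E) (t • y) :=
      (hasFDerivAt_id (t • y)).const_smul t⁻¹
    have hy' : t⁻¹ • t • y = y := by rw [smul_smul, inv_mul_cancel₀ ht.ne', one_smul]
    have h2 : HasFDerivAt (Yt φ X) (fderiv ℝ (Yt φ X) y) (t⁻¹ • t • y) := by rw [hy']; exact hYd
    have h3 := (h2.comp (t • y) h1).const_smul t
    have h4 : (t • (Yt φ X ∘ fun z : E => t⁻¹ • z)) = Yt φ X := by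
      funext z
      simp only [Pi.smul_apply, Function.comp]
      rw [hT.Yt_smul X z (inv_pos.2 ht), smul_smul, mul_inv_cancel₀ ht.ne', one_smul]
    rw [h4] at h3
    have h5 : t • (fderiv ℝ (Yt φ X) y).comp (t⁻¹ • ContinuousLinearMap.id ℝ E)
        = fderiv ℝ (Yt φ X) y := by
      ext v
      simp only [smul_apply, ContinuousLinearMap.comp_apply, ContinuousLinearMap.id_apply,
        map_smul, smul_smul, mul_inv_cancel₀ ht.ne', one_smul]
    rw [h5] at h3
    simp only [hF, dv, h3.fderiv]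
  have hlim := hT.tube_limit hFm hFc hFh (g := g0) (g0.continuous.measurable)
    (χ := χ0) χ0.continuous.measurable (M := 1)
    (fun s => by rw [abs_of_nonneg χ0.nonneg]; exact χ0.le_one) hχz
  -- the approximants vanish
  have hzero : ∀ᶠ a : ℝ in 𝓝[>] 0,
      a⁻¹ * ∫ y in TT φ b, g0 (rr φ y) * (χ0 (ta φ y / a) * F y) = 0 := by
    filter_upwards [self_mem_nhdsWithin, nhdsWithin_le_nhds (gt_mem_nhds hb)] with a ha hab
    have ha' : (0 : ℝ) < a := ha
    have hcd : ContDiff ℝ 1 (fun s : ℝ => χ0 (s / a)) :=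
      (χ0.contDiff (n := 1)).comp (contDiff_id.div_const a)
    have := hT.integral_cut_dv hX (χ := fun s => χ0 (s / a)) (g := g0) hcd
      (g0.contDiff (n := 1)) (b' := a) (c := 1) (C := 3) hab one_pos
      (fun s hs => hχz _ (by rw [abs_div, abs_of_pos ha', lt_div_iff₀ ha', one_mul]; exact hs))
      hgz hgz'
    rw [this, mul_zero]
  have heq := tendsto_nhds_unique hlim (tendsto_const_nhds.congr' (hzero.mono fun a h => h.symm))
  have hχpos : 0 < ∫ s, χ0 s := χ0.integral_pos
  have hgpos : 0 < ∫ ρ, g0 ρ ∂(kap (finrank ℝ E)) := by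
    have := sigmaFinite_kap (n := finrank ℝ E) finrank_pos
    have hint : Integrable g0 (kap (finrank ℝ E)) := by
      have h1 : Integrable ((Iio (4 : ℝ)).indicator (fun _ => (1 : ℝ))) (kap (finrank ℝ E)) := by
        rw [integrable_indicator_iff measurableSet_Iio]
        refine integrableOn_const ?_
        rw [kap_Iio finrank_pos]; exact ENNReal.ofReal_ne_top
      refine h1.mono' g0.continuous.aestronglyMeasurable (Eventually.of_forall fun s => ?_)
      rw [Real.norm_eq_abs, abs_of_nonneg g0.nonneg]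
      by_cases hs : s < 4
      · rw [indicator_of_mem (show s ∈ Iio (4 : ℝ) from hs)]; exact g0.le_one
      · rw [hgz' s (by linarith [not_lt.1 hs])]
        exact indicator_nonneg (fun _ _ => zero_le_one) _
    rw [integral_pos_iff_support_of_nonneg (fun s => g0.nonneg) hint]
    have hsub : Ioo (3 / 2 : ℝ) (5 / 2) ⊆ Function.support g0 := by
      intro s hs
      rw [Function.mem_support]
      rw [g0.one_of_mem_closedBall]
      · exact one_ne_zero
      · rw [Metric.mem_closedBall, Real.dist_eq]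
        change |s - 2| ≤ 1 / 2
        rw [abs_le]; constructor <;> linarith [hs.1, hs.2]
    refine lt_of_lt_of_le ?_ (measure_mono hsub)
    rw [kap, withDensity_apply _ measurableSet_Ioo, Measure.restrict_restrict measurableSet_Ioo]
    have h3 : Ioo (3 / 2 : ℝ) (5 / 2) ∩ Ioi 0 = Ioo (3 / 2 : ℝ) (5 / 2) := by
      ext x; simp only [mem_inter_iff, mem_Ioo, mem_Ioi]
      constructor
      · exact fun h => h.1
      · exact fun h => ⟨h, by linarith [h.1]⟩
    rw [h3]
    rw [setLIntegral_pos_iff (by fun_prop)]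
    have h4 : Ioo (3 / 2 : ℝ) (5 / 2) ⊆
        Function.support (fun ρ : ℝ => ENNReal.ofReal (ρ ^ (finrank ℝ E - 1))) ∩
          Ioo (3 / 2 : ℝ) (5 / 2) := by
      intro s hs
      refine ⟨?_, hs⟩
      rw [Function.mem_support, ENNReal.ofReal_ne_zero_iff]
      have : 0 < s := by linarith [hs.1]
      positivity
    refine lt_of_lt_of_le ?_ (measure_mono h4)
    rw [Real.volume_Ioo]
    norm_num
  have hmain : ∫ p, F p ∂(mu φ b) = 0 := by
    rcases mul_eq_zero.1 heq with h | h
    · exact absurd h hgpos.ne'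
    · rcases mul_eq_zero.1 h with h | h
      · exact absurd h hχpos.ne'
      · exact h
  rw [← hmain]
  refine integral_congr_ae ?_
  filter_upwards [hT.ae_mem_Lk] with p hp
  exact (hT.dv_Yt hX hp (hmin p hp)).symm

end Tube

end Crest.Agent.R246.SM436
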