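import Crest.Agent.R246.SM5_436
import Crest.Agent.R246.Num_688

/-!
# `V(φ) ≥ μ(M')` for smooth minimal hypercones (helper436)
-/

set_option autoImplicit false
set_option linter.unusedSectionVars false
set_option linter.unusedSimpArgs false
noncomputable section
open MeasureTheory Set Filter Topology Module
open scoped RealInnerProductSpace ContDiff

namespace Crest.Agent.R246.SM436

open Crest.Agent.R246.H990

variable {E : Type*} [NormedAddCommGroup E] [InnerProductSpace ℝ E] [FiniteDimensional ℝ E]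
  [MeasurableSpace E] [BorelSpace E]

/-- clamp to `[0,1]` -/
def cl (t : ℝ) : ℝ := max 0 (min 1 t)

lemma cl_nonneg (t : ℝ) : 0 ≤ cl t := le_max_left _ _

lemma cl_le_one (t : ℝ) : cl t ≤ 1 := max_le zero_le_one (min_le_left _ _)

lemma cl_lip : LipschitzWith 1 cl := by
  have h1 : LipschitzWith 1 (fun t : ℝ => min 1 t) := by
    simpa using (LipschitzWith.const (1 : ℝ)).min (LipschitzWith.id)
  have h2 := (LipschitzWith.const (0 : ℝ)).max h1
  have h3 : cl = fun x => max 0 (min 1 x) := rfl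
  rw [h3]
  simpa using h2

lemma cl_eq_of_mem {t : ℝ} (h0 : 0 ≤ t) (h1 : t ≤ 1) : cl t = t := by
  rw [cl, min_eq_right h1, max_eq_right h0]

/-- the test function -/
def tz (φ : E → ℝ) (a : ℝ) (x : E) : ℝ := cl (φ x / (a * ‖x‖))

namespace Tube

variable {φ : E → ℝ} {b : ℝ} (hT : Tube φ b)
include hT

lemma tz_test {a : ℝ} (ha : 0 < a) : Test (tz φ a) where
  hom := by
    intro t ht x
    simp only [tz]
    rw [hT.hom t ht.le, norm_smul, Real.norm_eq_abs, abs_of_pos ht]
    congr 1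
    rw [show a * (t * ‖x‖) = t * (a * ‖x‖) by ring, mul_div_mul_left _ _ ht.ne']
  nonneg := fun x => cl_nonneg _
  le_one := fun x => cl_le_one _
  lip := by
    refine ⟨Real.toNNReal a⁻¹, ?_⟩
    apply LipschitzOnWith.of_dist_le_mul
    intro x hx y hy
    rw [mem_sphere_zero_iff_norm] at hx hy
    rw [Real.coe_toNNReal _ (by positivity)]
    simp only [tz, hx, hy, mul_one]
    have h1 := cl_lip.dist_le_mul (φ x / a) (φ y / a)
    rw [NNReal.coe_one, one_mul] at h1
    refine h1.trans ?_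
    rw [Real.dist_eq, ← sub_div, abs_div, abs_of_pos ha, div_eq_inv_mul]
    have h2 := lip_abs hT.lip x y
    rw [dist_eq_norm]
    gcongr

/-- derivative of the test function along `∇φ`. -/
lemma fderiv_tz {a : ℝ} (ha : 0 < a) {x : E} (hx : x ∈ TT φ b) (h0 : 0 < φ x)
    (h1 : φ x < a * ‖x‖) :
    fderiv ℝ (tz φ a) x (gradient φ x) = a⁻¹ * (rr φ x ^ 2 / ‖x‖ ^ 3) := by
  have hx0 := hT.ne_zero hx
  have hn : 0 < ‖x‖ := norm_pos_iff.2 hx0
  have hG := hT.good hx
  have he : tz φ a =ᶠ[𝓝 x] fun y => φ y / (a * ‖y‖) := by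
    have c1 : ContinuousAt φ x := hT.lip.continuous.continuousAt
    have e1 : ∀ᶠ y in 𝓝 x, 0 < φ y := c1.eventually (lt_mem_nhds h0)
    have e2 : ∀ᶠ y in 𝓝 x, φ y < a * ‖y‖ := by
      have hc : ContinuousAt (fun y => a * ‖y‖ - φ y) x := by fun_prop
      have := hc.eventually (lt_mem_nhds (sub_pos.2 h1))
      filter_upwards [this] with y hy
      linarith
    filter_upwards [e1, e2] with y h3 h4
    have h5 : 0 < a * ‖y‖ := h3.trans h4
    exact cl_eq_of_mem (by positivity) ((div_le_one h5).2 h4.le)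
  rw [he.fderiv_eq]
  have d1 := hG.hasFDerivAt
  have d2 : HasFDerivAt (fun y : E => ‖y‖) (‖x‖⁻¹ • innerSL ℝ x) x := by
    have h3 : HasFDerivAt (fun y : E => ‖y‖ ^ 2) (2 • innerSL ℝ x) x :=
      (hasStrictFDerivAt_norm_sq x).hasFDerivAt
    have h4 := h3.sqrt (by positivity)
    have h5 : (fun y : E => Real.sqrt (‖y‖ ^ 2)) = fun y => ‖y‖ := by
      funext y; exact Real.sqrt_sq (norm_nonneg y)
    rw [h5, Real.sqrt_sq hn.le] at h4
    convert h4 using 1
    ext v
    simp only [smul_apply, innerSL_apply_apply, smul_eq_mul, nsmul_eq_mul, Nat.cast_ofNat]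
    field_simp
  have d4 : HasFDerivAt (fun y : E => (a * ‖y‖)⁻¹)
      ((-((a * ‖x‖) ^ 2)⁻¹) • (a • (‖x‖⁻¹ • innerSL ℝ x))) x :=
    (hasDerivAt_inv (by positivity : a * ‖x‖ ≠ 0)).comp_hasFDerivAt x (d2.const_mul a)
  have d3 := d1.mul d4
  have e3 : (fun y => φ y / (a * ‖y‖)) = fun y => φ y * (a * ‖y‖)⁻¹ := by
    funext y; rw [div_eq_mul_inv]
  rw [e3]
  change fderiv ℝ (φ * fun y : E => (a * ‖y‖)⁻¹) x (gradient φ x) = _
  rw [d3.fderiv]
  have h6 := hT.rr_sq x
  have h7 := hT.euler hx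
  have h8 := hG.norm_gradient
  have h9 : ⟪x, gradient φ x⟫ = φ x := by rw [real_inner_comm]; exact h7
  simp only [smul_apply, add_apply, innerSL_apply_apply, smul_eq_mul, real_inner_self_eq_norm_sq,
    h8, h9]
  rw [h6]
  field_simp
  ring

lemma fderiv_tz_of_nonpos {a : ℝ} (ha : 0 < a) {x : E} (h0 : φ x ≤ 0) :
    fderiv ℝ (tz φ a) x = 0 := by
  have h1 : tz φ a x = 0 := by
    simp only [tz, cl]
    have : φ x / (a * ‖x‖) ≤ 0 := div_nonpos_of_nonpos_of_nonneg h0 (by positivity)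
    rw [max_eq_left]
    exact (min_le_right _ _).trans this
  have h2 : IsLocalMin (tz φ a) x := Eventually.of_forall fun y => by
    rw [h1]; exact cl_nonneg _
  exact h2.fderiv_eq_zero

lemma fderiv_tz_of_le {a : ℝ} (ha : 0 < a) {x : E} (hx : x ≠ 0) (h0 : a * ‖x‖ ≤ φ x) :
    fderiv ℝ (tz φ a) x = 0 := by
  have hn : 0 < ‖x‖ := norm_pos_iff.2 hx
  have h1 : tz φ a x = 1 := by
    simp only [tz, cl]
    have : 1 ≤ φ x / (a * ‖x‖) := (one_le_div (by positivity)).2 h0
    rw [min_eq_left this]; simp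
  have h2 : IsLocalMax (tz φ a) x := Eventually.of_forall fun y => by
    rw [h1]; exact cl_le_one _
  exact h2.fderiv_eq_zero

end Tube

/-- the profile of `flux`. -/
def chi01 (s : ℝ) : ℝ := if 0 < s ∧ s < 1 then 1 else 0

lemma integral_chi01 : ∫ s, chi01 s = 1 := by
  have h1 : chi01 = (Ioo (0 : ℝ) 1).indicator (fun _ => (1 : ℝ)) := by
    funext s
    simp only [chi01, indicator, mem_Ioo]
  rw [h1, integral_indicator measurableSet_Ioo]
  simp

namespace Tube

variable {φ : E → ℝ} {b : ℝ} (hT : Tube φ b)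
include hT

/-- the angle condition in terms of `ta`. -/
lemma lt_iff_ta {c : ℝ} (hc : 0 < c) {x : E} (hx : x ≠ 0) (h0 : 0 < φ x) :
    φ x < (c / Real.sqrt (1 + c ^ 2)) * ‖x‖ ↔ ta φ x < c := by
  have hr : 0 < rr φ x := hT.rr_pos hx
  have hn : 0 < ‖x‖ := norm_pos_iff.2 hx
  have hs : 0 < Real.sqrt (1 + c ^ 2) := Real.sqrt_pos.2 (by positivity)
  have hss : Real.sqrt (1 + c ^ 2) ^ 2 = 1 + c ^ 2 := Real.sq_sqrt (by positivity)
  have h1 := hT.rr_sq x
  rw [ta, div_lt_iff₀ hr, div_mul_eq_mul_div, lt_div_iff₀ hs]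
  constructor
  · intro h
    have h2 : (φ x * Real.sqrt (1 + c ^ 2)) ^ 2 < (c * ‖x‖) ^ 2 := by
      apply pow_lt_pow_left₀ h (by positivity) (by norm_num)
    have h3 : φ x ^ 2 < (c * rr φ x) ^ 2 := by
      rw [mul_pow, hss] at h2
      nlinarith
    exact lt_of_pow_lt_pow_left₀ 2 (by positivity) h3
  · intro h
    have h2 : φ x ^ 2 < (c * rr φ x) ^ 2 := pow_lt_pow_left₀ h h0.le (by norm_num)
    have h3 : (φ x * Real.sqrt (1 + c ^ 2)) ^ 2 < (c * ‖x‖) ^ 2 := by
      rw [mul_pow, hss]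
      nlinarith
    exact lt_of_pow_lt_pow_left₀ 2 (by positivity) h3

/-- the flux of the test function. -/
lemma flux_tz [Nontrivial E] {c : ℝ} (hc : 0 < c) (hcb : c ≤ b) :
    flux φ (tz φ (c / Real.sqrt (1 + c ^ 2)))
      = (c / Real.sqrt (1 + c ^ 2))⁻¹ * ∫ y in TT φ b, (Real.exp (-rr φ y ^ 2) / rr φ y) *
        (chi01 (ta φ y / c) * (rr φ y ^ 3 / ‖y‖ ^ 3)) := by
  have hs : 0 < Real.sqrt (1 + c ^ 2) := Real.sqrt_pos.2 (by positivity)
  have ha : 0 < c / Real.sqrt (1 + c ^ 2) := by positivity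
  rw [flux, ← integral_indicator hT.measurableSet_TT, ← integral_const_mul]
  refine integral_congr_ae ?_
  have h0 : ∀ᵐ x ∂(volume : Measure E), x ≠ 0 := by
    rw [ae_iff]
    simp
  filter_upwards [h0] with x hx
  have hr : 0 < rr φ x := hT.rr_pos hx
  have hn : 0 < ‖x‖ := norm_pos_iff.2 hx
  have h1 := hT.rr_sq x
  rw [← h1]
  rcases le_or_gt (φ x) 0 with h2 | h2
  · rw [hT.fderiv_tz_of_nonpos ha h2]
    have h3 : chi01 (ta φ x / c) = 0 := by
      rw [chi01, if_neg]
      rintro ⟨h4, -⟩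
      have : ta φ x ≤ 0 := div_nonpos_of_nonpos_of_nonneg h2 hr.le
      have : ta φ x / c ≤ 0 := div_nonpos_of_nonpos_of_nonneg this hc.le
      linarith
    simp only [indicator]
    split_ifs <;> simp [h3]
  · rcases lt_or_ge (φ x) (c / Real.sqrt (1 + c ^ 2) * ‖x‖) with h3 | h3
    · have h4 : ta φ x < c := (hT.lt_iff_ta hc hx h2).1 h3
      have h5 : 0 < ta φ x := div_pos h2 hr
      have hxT : x ∈ TT φ b := by
        refine ⟨hr, ?_⟩
        rw [abs_of_pos h2]
        have : φ x < c * rr φ x := by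
          rw [ta, div_lt_iff₀ hr] at h4; exact h4
        nlinarith
      rw [hT.fderiv_tz ha hxT h2 h3, indicator_of_mem hxT]
      have h6 : chi01 (ta φ x / c) = 1 := by
        rw [chi01, if_pos ⟨by positivity, (div_lt_one hc).2 h4⟩]
      rw [h6]
      field_simp
    · rw [hT.fderiv_tz_of_le ha hx h3]
      have h4 : chi01 (ta φ x / c) = 0 := by
        rw [chi01, if_neg]
        rintro ⟨-, h5⟩
        have h6 : ta φ x < c := (div_lt_one hc).1 h5
        have := (hT.lt_iff_ta hc hx h2).2 h6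
        linarith
      simp only [indicator]
      split_ifs <;> simp [h4]

/-- the radial constant. -/
lemma kap_cV [Nontrivial E] (hn : 2 ≤ finrank ℝ E) :
    ∫ ρ, Real.exp (-ρ ^ 2) / ρ ∂(kap (finrank ℝ E)) = cV E := by
  have hm : Measurable (fun ρ : ℝ => ENNReal.ofReal (ρ ^ (finrank ℝ E - 1))) := by fun_prop
  rw [kap, integral_withDensity_eq_integral_toReal_smul hm
    (Eventually.of_forall fun _ => ENNReal.ofReal_lt_top), cV]
  refine setIntegral_congr_fun measurableSet_Ioi fun ρ hρ => ?_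
  have hρ' : 0 < ρ := hρ
  simp only [smul_eq_mul]
  rw [ENNReal.toReal_ofReal (by positivity)]
  have : finrank ℝ E - 1 = (finrank ℝ E - 2) + 1 := by omega
  rw [this, pow_succ]
  field_simp

/-- **`V(φ) ≥ μ(M')`**. -/
theorem mu_le_of_VB (hn : 2 ≤ finrank ℝ E) {A : ℝ} (hV : VB φ A) :
    (mu φ b univ).toReal ≤ A := by
  have hNt : Nontrivial E := by
    apply Module.nontrivial_of_finrank_pos (R := ℝ)
    omega
  have hb := hT.hb
  have hcV : 0 < cV E := by
    obtain ⟨m, hm⟩ : ∃ m, finrank ℝ E = m + 2 := ⟨finrank ℝ E - 2, by omega⟩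
    exact Crest.Agent.R246.ThetaK688.cV_pos hm
  set F : E → ℝ := fun y => rr φ y ^ 3 / ‖y‖ ^ 3 with hF
  have hFm : Measurable F := (hT.measurable_rr.pow_const 3).div (measurable_norm.pow_const 3)
  have hFc : ContinuousOn F (TT φ b) := by
    intro y hy
    have hn' : ‖y‖ ≠ 0 := norm_ne_zero_iff.2 (hT.ne_zero hy)
    have h1 : ContinuousAt (fun y => rr φ y ^ 3) y := (hT.continuous_rr.continuousAt).pow 3
    exact (h1.div (by fun_prop) (by positivity)).continuousWithinAt
  have hF0 : ∀ t : ℝ, 0 < t → ∀ y ∈ TT φ b, F (t • y) = F y := by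
    intro t ht y hy
    simp only [hF]
    rw [hT.rr_smul y ht.le, norm_smul, Real.norm_eq_abs, abs_of_pos ht, mul_pow, mul_pow,
      mul_div_mul_left _ _ (by positivity)]
  have hgm : Measurable (fun ρ : ℝ => Real.exp (-ρ ^ 2) / ρ) := by fun_prop
  have hχm : Measurable chi01 := by
    apply Measurable.ite _ measurable_const measurable_const
    exact measurableSet_Ioo
  have hlim := hT.tube_limit hFm hFc hF0 hgm hχm (M := 1) (fun s => by
    simp only [chi01]; split_ifs <;> simp) (fun s hs => by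
    rw [chi01, if_neg]
    rintro ⟨h1, h2⟩
    rw [abs_of_pos h1] at hs
    linarith)
  have hF1 : ∫ p, F p ∂(mu φ b) = (mu φ b univ).toReal := by
    have : ∫ p, F p ∂(mu φ b) = ∫ p, (1 : ℝ) ∂(mu φ b) := by
      refine integral_congr_ae ?_
      filter_upwards [hT.ae_mem_Lk] with p hp
      simp only [hF]
      rw [hT.rr_Lk hp, hp.1]
      norm_num
    rw [this]
    simp [Measure.real]
  rw [kap_cV hT hn, integral_chi01, one_mul, hF1] at hlim
  have hsq : Tendsto (fun c : ℝ => Real.sqrt (1 + c ^ 2)) (𝓝[>] 0) (𝓝 1) := by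
    have hc : Continuous fun c : ℝ => Real.sqrt (1 + c ^ 2) := by fun_prop
    have := hc.tendsto 0
    simp only [ne_eq, OfNat.ofNat_ne_zero, not_false_eq_true, zero_pow, add_zero,
      Real.sqrt_one] at this
    exact this.mono_left nhdsWithin_le_nhds
  have hlim2 := hsq.mul hlim
  rw [one_mul] at hlim2
  have hle : cV E * (mu φ b univ).toReal ≤ A * cV E := by
    refine le_of_tendsto hlim2 ?_
    filter_upwards [Ioc_mem_nhdsGT hb] with c hc
    have hs : 0 < Real.sqrt (1 + c ^ 2) := Real.sqrt_pos.2 (by positivity)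
    have hc0 : 0 < c := hc.1
    have h1 := hV _ (hT.tz_test (a := c / Real.sqrt (1 + c ^ 2)) (by positivity))
    rw [hT.flux_tz hc.1 hc.2] at h1
    refine le_trans (le_of_eq ?_) h1
    rw [← mul_assoc, inv_div, div_eq_mul_inv]
  rw [mul_comm] at hle
  exact le_of_mul_le_mul_right hle hcV

end Tube

/-- **The area measure of a smooth minimal null hypercone, with `μ(M') ≤ V`.** -/
theorem SmoothMin.exists_area {φ : E → ℝ} (S : SmoothMin φ) {m : ℕ} (hm : 1 ≤ m)
    (hE : finrank ℝ E = m + 2) :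
    ∃ b, Tube φ b ∧ HerschSM900.AreaMeas m φ (mu φ b) ∧
      ∀ A, VB φ A → (mu φ b univ).toReal ≤ A := by
  obtain ⟨b, hT⟩ := S.exists_Tube
  exact ⟨b, hT, areaMeas S hT hm hE, fun A hA => hT.mu_le_of_VB (by omega) hA⟩

end Crest.Agent.R246.SM436
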