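import Crest.Agent.R246.SM7_436
import Crest.Agent.R246.VbVar_872
import Mathlib.Geometry.Manifold.PartitionOfUnity

/-!
# Divergence theorem for Lipschitz tests, flux limits (helper436)
-/

set_option autoImplicit false
set_option linter.unusedSectionVars false
set_option linter.unusedSimpArgs false
noncomputable section
open MeasureTheory Set Filter Topology Module
open scoped RealInnerProductSpace ContDiff Manifold

namespace Crest.Agent.R246.SM436

open Crest.Agent.R246.H990
open Crest.Agent.R246.G873 (gi Lip ClassD)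
open Crest.Agent.R246.Vb872 (ka Fk wt lip_ka lip_Fk hcs_Fk ka_nonneg ka_le_one ka_one tendsto_ka
  norm_fderiv_ka_le' fderiv_ka_zero integrable_gauss_radial wt_le wt_pos wt_deriv gi_eq
  integrable_gi norm_gradient' Fk_nonneg Fk_zero_small)

variable {E : Type*} [NormedAddCommGroup E] [InnerProductSpace ℝ E] [FiniteDimensional ℝ E]
  [MeasurableSpace E] [BorelSpace E]

/-! ### smooth cutoffs -/

lemma exists_bump {K U : Set E} (hK : IsCompact K) (hU : IsOpen U) (hKU : K ⊆ U) :
    ∃ χ : E → ℝ, ContDiff ℝ ∞ χ ∧ HasCompactSupport χ ∧ tsupport χ ⊆ U ∧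
      ∀ x ∈ K, ∀ᶠ y in 𝓝 x, χ y = 1 := by
  obtain ⟨L, hL, hKL, hLU⟩ := exists_compact_between hK hU hKU
  obtain ⟨f, h1, h0, -⟩ := exists_contMDiffMap_one_nhds_of_subset_interior (𝓘(ℝ, E)) (n := ⊤)
    hK.isClosed hKL
  have hsub : tsupport (f : E → ℝ) ⊆ L := by
    refine closure_minimal (fun x hx => ?_) hL.isClosed
    by_contra hxL
    exact hx (h0 x hxL)
  refine ⟨f, ?_, ?_, hsub.trans hLU, fun x hx => ?_⟩
  · exact contMDiff_iff_contDiff.1 f.contMDiff
  · exact hL.of_isClosed_subset (isClosed_tsupport _) hsub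
  · exact h1.filter_mono (nhds_le_nhdsSet hx)

/-- divergence theorem, Lipschitz test against smooth compactly supported field -/
lemma integral_fderiv_field {ξ : E → ℝ} {C : NNReal} (hξ : LipschitzWith C ξ) {W : E → E}
    (hW : ContDiff ℝ 1 W) (hc : HasCompactSupport W) :
    ∫ x, fderiv ℝ ξ x (W x) = -∫ x, ξ x * dv W x := by
  set e := stdOrthonormalBasis ℝ E with he
  have hg : ∀ i, ContDiff ℝ 1 (fun x => ⟪e i, W x⟫) := fun i => contDiff_const.inner ℝ hW
  have hgc : ∀ i, HasCompactSupport (fun x => ⟪e i, W x⟫) := by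
    intro i
    refine hc.mono' ?_
    intro x hx
    apply subset_tsupport
    intro h0
    apply hx
    simp [h0]
  have hgl : ∀ i, ∃ D, LipschitzWith D (fun x => ⟪e i, W x⟫) := fun i =>
    (hg i).lipschitzWith_of_hasCompactSupport (hgc i) (by simp)
  choose D hD using hgl
  have h1 : ∀ i x, fderiv ℝ (fun x => ⟪e i, W x⟫) x (e i) = ⟪e i, fderiv ℝ W x (e i)⟫ := by
    intro i x
    have hd : DifferentiableAt ℝ W x := hW.differentiable (by simp) x
    have : HasFDerivAt (fun x => ⟪e i, W x⟫) ((innerSL ℝ (e i)).comp (fderiv ℝ W x)) x :=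
      (innerSL ℝ (e i)).hasFDerivAt.comp x hd.hasFDerivAt
    rw [this.fderiv]
    simp
  have hdiff := hξ.ae_differentiableAt (μ := (volume : Measure E))
  have key : ∀ i, ∫ x, fderiv ℝ ξ x (e i) * ⟪e i, W x⟫
      = -∫ x, ξ x * ⟪e i, fderiv ℝ W x (e i)⟫ := by
    intro i
    have h2 := LipschitzWith.integral_lineDeriv_mul_eq (μ := (volume : Measure E)) hξ (hD i) (hgc i) (e i)
    have h3 : ∫ x, lineDeriv ℝ ξ x (e i) * ⟪e i, W x⟫ = ∫ x, fderiv ℝ ξ x (e i) * ⟪e i, W x⟫ := by
      refine integral_congr_ae ?_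
      filter_upwards [hdiff] with x hx
      rw [hx.lineDeriv_eq_fderiv]
    have h4 : ∫ x, lineDeriv ℝ (fun x => ⟪e i, W x⟫) x (-e i) * ξ x
        = -∫ x, ξ x * ⟪e i, fderiv ℝ W x (e i)⟫ := by
      rw [← integral_neg]
      refine integral_congr_ae (Eventually.of_forall fun x => ?_)
      simp only
      rw [((hg i).differentiable (by simp) x).lineDeriv_eq_fderiv, map_neg, h1]
      ring
    rw [← h3, h2, h4]
  -- integrability
  have hWc : Continuous fun x => fderiv ℝ W x := hW.continuous_fderiv (by simp)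
  have i2 : ∀ i, Integrable (fun x => ξ x * ⟪e i, fderiv ℝ W x (e i)⟫) := by
    intro i
    have hcont : Continuous fun x => ξ x * ⟪e i, fderiv ℝ W x (e i)⟫ :=
      hξ.continuous.mul (by fun_prop)
    refine hcont.integrable_of_hasCompactSupport ?_
    have h7 : HasCompactSupport (fderiv ℝ W) := hc.fderiv (𝕜 := ℝ)
    refine h7.mono' ?_
    intro x hx
    apply subset_tsupport
    intro h0
    apply hx
    simp [h0]
  have i1 : ∀ i, Integrable (fun x => fderiv ℝ ξ x (e i) * ⟪e i, W x⟫) := by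
    intro i
    have hI : Integrable (fun x => ⟪e i, W x⟫) :=
      (hg i).continuous.integrable_of_hasCompactSupport (hgc i)
    refine hI.bdd_mul (c := (C : ℝ) * ‖e i‖)
      (by exact ((measurable_fderiv_apply_const ℝ ξ (e i))).aestronglyMeasurable) ?_
    refine Eventually.of_forall fun x => ?_
    refine (ContinuousLinearMap.le_opNorm _ _).trans ?_
    have := norm_fderiv_le_of_lipschitz ℝ hξ (x₀ := x)
    gcongr
  calc ∫ x, fderiv ℝ ξ x (W x) = ∫ x, ∑ i, fderiv ℝ ξ x (e i) * ⟪e i, W x⟫ := by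
        refine integral_congr_ae (Eventually.of_forall fun x => ?_)
        simp only
        conv_lhs => rw [← e.sum_repr' (W x), map_sum]
        refine Finset.sum_congr rfl fun i _ => ?_
        rw [map_smul, smul_eq_mul, mul_comm]
    _ = ∑ i, ∫ x, fderiv ℝ ξ x (e i) * ⟪e i, W x⟫ := integral_finsetSum _ fun i _ => i1 i
    _ = ∑ i, -∫ x, ξ x * ⟪e i, fderiv ℝ W x (e i)⟫ := Finset.sum_congr rfl fun i _ => key i
    _ = -∫ x, ∑ i, ξ x * ⟪e i, fderiv ℝ W x (e i)⟫ := by
        rw [Finset.sum_neg_distrib, integral_finsetSum _ fun i _ => i2 i]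
    _ = -∫ x, ξ x * dv W x := by
        congr 1
        refine integral_congr_ae (Eventually.of_forall fun x => ?_)
        simp only [dv, tr_eq_sum _ e, Finset.mul_sum]

/-- divergence theorem in the smooth region -/
lemma integral_gi_smooth {φ ξ : E → ℝ} {U : Set E} (hU : IsOpen U)
    (hφ : ∀ x ∈ U, ContDiffAt ℝ ∞ φ x) {C : NNReal} (hξ : LipschitzWith C ξ)
    (hc : HasCompactSupport ξ) (hs' : tsupport ξ ⊆ U) :
    ∫ x, gi φ ξ x = -∫ x, ξ x * tr (hs φ x) := by
  obtain ⟨χ, hχ, hχc, hχU, hχ1⟩ := exists_bump hc.isCompact hU hs'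
  set W : E → E := fun x => χ x • gradient φ x with hW
  have hWd : ContDiff ℝ ∞ W := by
    rw [contDiff_iff_contDiffAt]
    intro x
    by_cases hx : x ∈ tsupport χ
    · exact hχ.contDiffAt.smul (contDiffAt_gradient (hφ x (hχU hx)))
    · have h0 : W =ᶠ[𝓝 x] fun _ => 0 := by
        have h1 : χ =ᶠ[𝓝 x] fun _ => 0 := by
          rw [notMem_tsupport_iff_eventuallyEq] at hx
          exact hx
        filter_upwards [h1] with y hy
        simp only [hW]
        rw [hy, zero_smul]
      exact contDiffAt_const.congr_of_eventuallyEq h0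
  have hWc : HasCompactSupport W := hχc.smul_right
  have h1 := integral_fderiv_field hξ (hWd.of_le (by simp)) hWc
  have h2 : ∫ x, fderiv ℝ ξ x (W x) = ∫ x, gi φ ξ x := by
    refine integral_congr_ae (Eventually.of_forall fun x => ?_)
    simp only
    rw [gi_eq]
    by_cases hx : x ∈ tsupport ξ
    · simp only [hW]
      rw [(hχ1 x hx).self_of_nhds, one_smul]
    · have h0 : ξ =ᶠ[𝓝 x] fun _ => 0 := by
        rw [notMem_tsupport_iff_eventuallyEq] at hx
        exact hx
      rw [h0.fderiv_eq]; simp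
  have h3 : ∫ x, ξ x * dv W x = ∫ x, ξ x * tr (hs φ x) := by
    refine integral_congr_ae (Eventually.of_forall fun x => ?_)
    simp only
    by_cases hx : x ∈ tsupport ξ
    · have h4 : W =ᶠ[𝓝 x] gradient φ := by
        filter_upwards [hχ1 x hx] with y hy
        simp only [hW]
        rw [hy, one_smul]
      rw [dv, h4.fderiv_eq]
      rfl
    · have : ξ x = 0 := by
        by_contra h; exact hx (subset_tsupport _ h)
      rw [this]; ring
  rw [← h2, h1, h3]

end Crest.Agent.R246.SM436
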