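import Crest.Agent.R246.SM8_436

/-!
# Approximate fluxes (helper436)
-/

set_option autoImplicit false
set_option linter.unusedSectionVars false
set_option linter.unusedSimpArgs false
noncomputable section
open MeasureTheory Set Filter Topology Module
open scoped RealInnerProductSpace ContDiff

namespace Crest.Agent.R246.SM436

open Crest.Agent.R246.H990
open Crest.Agent.R246.G873 (gi Lip ClassD)
open Crest.Agent.R246.Vb872 (ka Fk wt Zk lip_ka lip_Fk hcs_Fk ka_nonneg ka_le_one ka_one tendsto_ka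
  norm_fderiv_ka_le' fderiv_ka_zero integrable_gauss_radial wt_le wt_pos wt_deriv gi_eq
  integrable_gi norm_gradient' Fk_nonneg Fk_zero_small lip_Zk)

variable {E : Type*} [NormedAddCommGroup E] [InnerProductSpace ℝ E] [FiniteDimensional ℝ E]
  [MeasurableSpace E] [BorelSpace E]

/-! ### test functions -/

lemma tmul {ξ η : E → ℝ} (hξ : Test ξ) (hη : Test η) : Test (fun x => ξ x * η x) where
  hom := fun t ht x => by rw [hξ.hom t ht, hη.hom t ht]
  nonneg := fun x => mul_nonneg (hξ.nonneg x) (hη.nonneg x)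
  le_one := fun x => mul_le_one₀ (hξ.le_one x) (hη.nonneg x) (hη.le_one x)
  lip := by
    obtain ⟨K, hK⟩ := hξ.lip
    obtain ⟨L, hL⟩ := hη.lip
    refine ⟨K + L, ?_⟩
    apply LipschitzOnWith.of_dist_le_mul
    intro x hx y hy
    have h1 := hK.dist_le_mul x hx y hy
    have h2 := hL.dist_le_mul x hx y hy
    rw [Real.dist_eq] at h1 h2 ⊢
    have e : ξ x * η x - ξ y * η y = ξ x * (η x - η y) + (ξ x - ξ y) * η y := by ring
    rw [e]
    refine (abs_add_le _ _).trans ?_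
    rw [abs_mul, abs_mul, abs_of_nonneg (hξ.nonneg x), abs_of_nonneg (hη.nonneg y)]
    have h3 := hξ.le_one x
    have h4 := hη.le_one y
    have h5 := hξ.nonneg x
    have h6 := hη.nonneg y
    have h7 := abs_nonneg (η x - η y)
    have h8 := abs_nonneg (ξ x - ξ y)
    push_cast
    nlinarith

lemma tsub {ξ : E → ℝ} (hξ : Test ξ) : Test (fun x => 1 - ξ x) where
  hom := fun t ht x => by rw [hξ.hom t ht]
  nonneg := fun x => by have := hξ.le_one x; linarith
  le_one := fun x => by have := hξ.nonneg x; linarith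
  lip := by
    obtain ⟨K, hK⟩ := hξ.lip
    refine ⟨K, ?_⟩
    apply LipschitzOnWith.of_dist_le_mul
    intro x hx y hy
    have h1 := hK.dist_le_mul x hx y hy
    rw [Real.dist_eq] at h1 ⊢
    have e : 1 - ξ x - (1 - ξ y) = -(ξ x - ξ y) := by ring
    rwa [e, abs_neg]

lemma test_one : Test (fun _ : E => (1 : ℝ)) where
  hom := fun _ _ _ => rfl
  nonneg := fun _ => zero_le_one
  le_one := fun _ => le_rfl
  lip := ⟨0, (LipschitzWith.const 1).lipschitzOnWith⟩

/-! ### cut-off fluxes -/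

/-- cut-off test -/
def FT (φ ξ : E → ℝ) (k : ℕ) (x : E) : ℝ := Fk φ k x * ξ x

lemma lip_FT {φ : E → ℝ} (h : NullCone φ) {ξ : E → ℝ} (hξ : Test ξ) (k : ℕ) : Lip (FT φ ξ k) := by
  obtain ⟨L, hL⟩ := lip_Zk h hξ k
  have hF := lip_Fk h k
  refine ⟨L + Real.toNNReal ((k : ℝ) + 2 + (2 * ((k : ℝ) + 3))) + L + (Classical.choose
    (⟨_, hF⟩ : Lip (Fk φ k))), ?_⟩
  set M := Classical.choose (⟨_, hF⟩ : Lip (Fk φ k)) with hM
  have hM' : LipschitzWith M (Fk φ k) := Classical.choose_spec (⟨_, hF⟩ : Lip (Fk φ k))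
  apply LipschitzWith.of_dist_le_mul
  intro x y
  have h1 := hL.dist_le_mul x y
  have h2 := hM'.dist_le_mul x y
  rw [Real.dist_eq] at h1 h2 ⊢
  have e : FT φ ξ k x - FT φ ξ k y
      = 1 / 2 * ((Zk φ ξ k x - Zk φ ξ k y) + (Fk φ k x - Fk φ k y)) := by
    simp only [FT, Zk]; ring
  rw [e, abs_mul, abs_of_pos (by norm_num : (0 : ℝ) < 1 / 2)]
  have h3 := abs_add_le (Zk φ ξ k x - Zk φ ξ k y) (Fk φ k x - Fk φ k y)
  have h4 : (0 : ℝ) ≤ dist x y := dist_nonneg
  have h5 : (0 : ℝ) ≤ L * dist x y := by positivity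
  have h6 : (0 : ℝ) ≤ M * dist x y := by positivity
  have h7 : (0 : ℝ) ≤ (Real.toNNReal ((k : ℝ) + 2 + (2 * ((k : ℝ) + 3))) : ℝ) * dist x y := by
    positivity
  push_cast
  nlinarith

lemma hcs_FT (φ ξ : E → ℝ) (k : ℕ) : HasCompactSupport (FT φ ξ k) := (hcs_Fk φ k).mul_right

lemma gi_FT_ae [Nontrivial E] {φ ξ : E → ℝ} (h : NullCone φ) (hξ : Test ξ) (k : ℕ) :
    ∀ᵐ x ∂(volume : Measure E),
      |gi φ (FT φ ξ k) x - ka k x * (wt φ x * fderiv ℝ ξ x (gradient φ x))|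
        ≤ wt φ x * ‖fderiv ℝ (ka (E := E) k) x‖ := by
  have hne : ∀ᵐ x ∂(volume : Measure E), x ≠ 0 := compl_mem_ae_iff.2 (measure_singleton 0)
  filter_upwards [hne, ae_gd h.lip, (lip_ka (E := E) k).ae_differentiableAt,
    hξ.ae_differentiableAt, h.grad] with x hx0 hφ hκ hξx hg
  have hφ' : DifferentiableAt ℝ φ x := hφ
  obtain ⟨hw, hw0⟩ := wt_deriv h hφ' hg
  have hξd := hξx hx0
  have hF : HasFDerivAt (Fk φ k) (ka k x • fderiv ℝ (wt φ) x + wt φ x • fderiv ℝ (ka k) x) x :=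
    hκ.hasFDerivAt.mul hw.hasFDerivAt
  have hFv : fderiv ℝ (Fk φ k) x (gradient φ x) =
      wt φ x * fderiv ℝ (ka (E := E) k) x (gradient φ x) := by
    rw [hF.fderiv, _root_.add_apply, _root_.smul_apply, _root_.smul_apply, hw0]
    simp
  have hZ : HasFDerivAt (FT φ ξ k) (Fk φ k x • fderiv ℝ ξ x
      + ξ x • fderiv ℝ (Fk φ k) x) x := hF.differentiableAt.hasFDerivAt.mul hξd.hasFDerivAt
  have hZv : gi φ (FT φ ξ k) x = Fk φ k x * fderiv ℝ ξ x (gradient φ x)
      + ξ x * (wt φ x * fderiv ℝ (ka (E := E) k) x (gradient φ x)) := by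
    rw [gi_eq, hZ.fderiv, _root_.add_apply, _root_.smul_apply, _root_.smul_apply, hFv]
    simp
  have hb : |fderiv ℝ (ka (E := E) k) x (gradient φ x)| ≤ ‖fderiv ℝ (ka (E := E) k) x‖ := by
    have := ContinuousLinearMap.le_opNorm (fderiv ℝ (ka (E := E) k) x) (gradient φ x)
    rwa [norm_gradient', hg, mul_one] at this
  have hwp := wt_pos φ x
  have e : gi φ (FT φ ξ k) x - ka k x * (wt φ x * fderiv ℝ ξ x (gradient φ x))
      = ξ x * (wt φ x * fderiv ℝ (ka (E := E) k) x (gradient φ x)) := by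
    rw [hZv, show Fk φ k x = ka k x * wt φ x from rfl]; ring
  rw [e, abs_mul, abs_mul, abs_of_pos hwp, abs_of_nonneg (hξ.nonneg x)]
  have h1 : wt φ x * |fderiv ℝ (ka (E := E) k) x (gradient φ x)|
      ≤ wt φ x * ‖fderiv ℝ (ka (E := E) k) x‖ := mul_le_mul_of_nonneg_left hb hwp.le
  have h2 : 0 ≤ wt φ x * |fderiv ℝ (ka (E := E) k) x (gradient φ x)| := by positivity
  have := hξ.le_one x
  have := hξ.nonneg x
  nlinarith

lemma wt_fderiv_bound [Nontrivial E] {φ ξ : E → ℝ} (h : NullCone φ) (hξ : Test ξ) {b : ℝ}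
    (hwb : ∀ x, wt φ x ≤ Real.exp (-b * ‖x‖ ^ 2)) :
    ∃ K : ℝ, 0 ≤ K ∧ ∀ x : E, x ≠ 0 → |wt φ x * fderiv ℝ ξ x (gradient φ x)| ≤
      K * (Real.exp (-b * ‖x‖ ^ 2) * (2 * ‖x‖⁻¹ + 1 + ‖x‖)) := by
  obtain ⟨K, hK0, hK⟩ := hξ.fderiv_le
  refine ⟨K, hK0, fun x hx => ?_⟩
  have hx' : 0 < ‖x‖ := norm_pos_iff.2 hx
  have h1 : |fderiv ℝ ξ x (gradient φ x)| ≤ K / ‖x‖ := by
    have h4 := ContinuousLinearMap.le_opNorm (fderiv ℝ ξ x) (gradient φ x)
    rw [Real.norm_eq_abs] at h4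
    refine h4.trans ?_
    calc ‖fderiv ℝ ξ x‖ * ‖gradient φ x‖ ≤ (K / ‖x‖) * 1 :=
          mul_le_mul (hK x hx) (gradient_norm_le h.lip _) (norm_nonneg _) (by positivity)
      _ = K / ‖x‖ := mul_one _
  rw [abs_mul, abs_of_pos (wt_pos φ x)]
  have h2 : K / ‖x‖ ≤ K * (2 * ‖x‖⁻¹ + 1 + ‖x‖) := by
    rw [div_eq_mul_inv]
    have : 0 < ‖x‖⁻¹ := inv_pos.2 hx'
    gcongr
    linarith
  calc wt φ x * |fderiv ℝ ξ x (gradient φ x)| ≤ Real.exp (-b * ‖x‖ ^ 2) * (K / ‖x‖) :=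
        mul_le_mul (hwb x) h1 (abs_nonneg _) (Real.exp_pos _).le
    _ ≤ Real.exp (-b * ‖x‖ ^ 2) * (K * (2 * ‖x‖⁻¹ + 1 + ‖x‖)) := by gcongr
    _ = K * (Real.exp (-b * ‖x‖ ^ 2) * (2 * ‖x‖⁻¹ + 1 + ‖x‖)) := by ring

lemma measurable_wt {φ : E → ℝ} (h : NullCone φ) : Measurable (wt φ) := by
  have := h.lip.continuous
  unfold wt
  fun_prop

lemma integrable_flux (hn : 2 ≤ finrank ℝ E) {φ ξ : E → ℝ} (h : NullCone φ) (hξ : Test ξ) :
    Integrable (fun x => wt φ x * fderiv ℝ ξ x (gradient φ x)) := by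
  have hnt : Nontrivial E := by
    apply Module.nontrivial_of_finrank_pos (R := ℝ); omega
  obtain ⟨b, hb, hwb⟩ := wt_le h
  obtain ⟨K, hK0, hK⟩ := wt_fderiv_bound h hξ hwb
  have hG := integrable_gauss_radial (E := E) hn hb
  have hne : ∀ᵐ x ∂(volume : Measure E), x ≠ 0 := compl_mem_ae_iff.2 (measure_singleton 0)
  refine (hG.const_mul K).mono' ((measurable_wt h).mul (measurable_fD φ ξ)).aestronglyMeasurable ?_
  filter_upwards [hne] with x hx
  exact hK x hx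

lemma flux_eq (φ ξ : E → ℝ) : flux φ ξ = ∫ x, wt φ x * fderiv ℝ ξ x (gradient φ x) := rfl

/-- cut-off fluxes converge -/
theorem tendsto_flux (hn : 2 ≤ finrank ℝ E) {φ ξ : E → ℝ} (h : NullCone φ) (hξ : Test ξ) :
    Tendsto (fun k : ℕ => ∫ x, gi φ (FT φ ξ k) x) atTop (𝓝 (flux φ ξ)) := by
  have hnt : Nontrivial E := by
    apply Module.nontrivial_of_finrank_pos (R := ℝ); omega
  obtain ⟨b, hb, hwb⟩ := wt_le h
  obtain ⟨K, hK0, hK⟩ := wt_fderiv_bound h hξ hwb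
  have hG := integrable_gauss_radial (E := E) hn hb
  have hne : ∀ᵐ x ∂(volume : Measure E), x ≠ 0 := compl_mem_ae_iff.2 (measure_singleton 0)
  rw [flux_eq]
  refine tendsto_integral_of_dominated_convergence
    (fun x => (K + 1) * (Real.exp (-b * ‖x‖ ^ 2) * (2 * ‖x‖⁻¹ + 1 + ‖x‖))) (fun k => ?_)
    (hG.const_mul (K + 1)) (fun k => ?_) ?_
  · have : gi φ (FT φ ξ k) = fun x => fderiv ℝ (FT φ ξ k) x (gradient φ x) :=
      funext fun x => gi_eq _ _ x
    rw [this]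
    exact (measurable_fD φ _).aestronglyMeasurable
  · filter_upwards [gi_FT_ae h hξ k, hne] with x h1 hx
    have h2 := hK x hx
    have h3 : wt φ x * ‖fderiv ℝ (ka (E := E) k) x‖ ≤
        Real.exp (-b * ‖x‖ ^ 2) * (2 * ‖x‖⁻¹ + 1 + ‖x‖) :=
      mul_le_mul (hwb x) (norm_fderiv_ka_le' k hx) (norm_nonneg _) (Real.exp_pos _).le
    have h4 : |ka k x * (wt φ x * fderiv ℝ ξ x (gradient φ x))| ≤
        |wt φ x * fderiv ℝ ξ x (gradient φ x)| := by
      rw [abs_mul, abs_of_nonneg (ka_nonneg k x)]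
      exact mul_le_of_le_one_left (abs_nonneg _) (ka_le_one k x)
    rw [Real.norm_eq_abs]
    have h5 := abs_sub_abs_le_abs_sub (gi φ (FT φ ξ k) x)
      (ka k x * (wt φ x * fderiv ℝ ξ x (gradient φ x)))
    linarith
  · have hall : ∀ᵐ x ∂(volume : Measure E), ∀ k : ℕ,
      |gi φ (FT φ ξ k) x - ka k x * (wt φ x * fderiv ℝ ξ x (gradient φ x))|
        ≤ wt φ x * ‖fderiv ℝ (ka (E := E) k) x‖ := ae_all_iff.2 fun k => gi_FT_ae h hξ k
    filter_upwards [hall, hne] with x h1 hx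
    apply tendsto_const_nhds.congr'
    filter_upwards [tendsto_ka hx] with k hk
    have h2 := h1 k
    rw [fderiv_ka_zero hk.1 hk.2, norm_zero, mul_zero, ka_one hk.1.le hk.2.le, one_mul] at h2
    have h3 := abs_nonpos_iff.1 h2
    linarith

lemma flux_add (hn : 2 ≤ finrank ℝ E) {φ ξ η : E → ℝ} (h : NullCone φ) (hξ : Test ξ)
    (hη : Test η) : flux φ (fun x => ξ x + η x) = flux φ ξ + flux φ η := by
  have hnt : Nontrivial E := by
    apply Module.nontrivial_of_finrank_pos (R := ℝ); omega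
  have hne : ∀ᵐ x ∂(volume : Measure E), x ≠ 0 := compl_mem_ae_iff.2 (measure_singleton 0)
  rw [flux_eq, flux_eq, flux_eq, ← integral_add (integrable_flux hn h hξ) (integrable_flux hn h hη)]
  refine integral_congr_ae ?_
  filter_upwards [hξ.ae_differentiableAt, hη.ae_differentiableAt, hne] with x h1 h2 hx
  rw [fderiv_fun_add (h1 hx) (h2 hx), _root_.add_apply]
  ring

/-! ### signs -/

lemma flux_nonneg (hn : 2 ≤ finrank ℝ E) {φ ξ : E → ℝ} (h : NullCone φ) (hD : ClassD φ)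
    (hξ : Test ξ) {a : ℝ} (ha : 0 < a) (h0 : ∀ x, φ x < a * ‖x‖ → ξ x = 0) : 0 ≤ flux φ ξ := by
  refine ge_of_tendsto' (tendsto_flux hn h hξ) fun k => hD.sup _ (lip_FT h hξ k) (hcs_FT φ ξ k)
    (fun x => mul_nonneg (Fk_nonneg φ k x) (hξ.nonneg x)) ?_
  have hsub : tsupport (FT φ ξ k) ⊆ {x : E | a * ‖x‖ ≤ φ x ∧ 1 ≤ ((k : ℝ) + 1) * ‖x‖} := by
    refine closure_minimal (fun x hx => ?_) ?_
    · constructor
      · by_contra hcon
        exact hx (by simp only [FT]; rw [h0 x (not_le.1 hcon), mul_zero])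
      · by_contra hcon
        exact hx (by simp only [FT]; rw [Fk_zero_small φ (not_le.1 hcon).le, zero_mul])
    · exact (isClosed_le (continuous_const.mul continuous_norm) h.lip.continuous).inter
        (isClosed_le continuous_const (continuous_const.mul continuous_norm))
  intro x hx
  obtain ⟨h1, h2⟩ := hsub hx
  have : 0 < ‖x‖ := by
    by_contra hcon
    have : ‖x‖ = 0 := le_antisymm (not_lt.1 hcon) (norm_nonneg _)
    rw [this, mul_zero] at h2
    linarith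
  exact (by positivity : 0 < a * ‖x‖).trans_le h1

lemma flux_nonpos (hn : 2 ≤ finrank ℝ E) {φ ξ : E → ℝ} (h : NullCone φ) (hD : ClassD φ)
    (hξ : Test ξ) {a : ℝ} (ha : 0 < a) (h0 : ∀ x, -(a * ‖x‖) < φ x → ξ x = 0) :
    flux φ ξ ≤ 0 := by
  refine le_of_tendsto' (tendsto_flux hn h hξ) fun k => hD.sub _ (lip_FT h hξ k) (hcs_FT φ ξ k)
    (fun x => mul_nonneg (Fk_nonneg φ k x) (hξ.nonneg x)) ?_
  have hsub : tsupport (FT φ ξ k) ⊆ {x : E | φ x ≤ -(a * ‖x‖) ∧ 1 ≤ ((k : ℝ) + 1) * ‖x‖} := by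
    refine closure_minimal (fun x hx => ?_) ?_
    · constructor
      · by_contra hcon
        exact hx (by simp only [FT]; rw [h0 x (not_le.1 hcon), mul_zero])
      · by_contra hcon
        exact hx (by simp only [FT]; rw [Fk_zero_small φ (not_le.1 hcon).le, zero_mul])
    · exact (isClosed_le h.lip.continuous (continuous_const.mul continuous_norm).neg).inter
        (isClosed_le continuous_const (continuous_const.mul continuous_norm))
  intro x hx
  obtain ⟨h1, h2⟩ := hsub hx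
  have : 0 < ‖x‖ := by
    by_contra hcon
    have : ‖x‖ = 0 := le_antisymm (not_lt.1 hcon) (norm_nonneg _)
    rw [this, mul_zero] at h2
    linarith
  have : 0 < a * ‖x‖ := by positivity
  show φ x < 0
  linarith

end Crest.Agent.R246.SM436
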