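import Crest.Agent.R246.SM3_436
import Crest.Agent.R246.Slice_990

/-!
# Sphere form of the tube limit (helper651)
-/

set_option autoImplicit false
set_option linter.unusedSectionVars false
set_option linter.unusedSimpArgs false
noncomputable section
open MeasureTheory Set Filter Topology Module Metric
open scoped RealInnerProductSpace ContDiff

namespace Crest.Agent.R246.SMS651

open Crest.Agent.R246.H990 Crest.Agent.R246.SM436

variable {E : Type*} [NormedAddCommGroup E] [InnerProductSpace ℝ E] [FiniteDimensional ℝ E]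
  [MeasurableSpace E] [BorelSpace E]

/-- normalisation -/
def nm (y : E) : E := ‖y‖⁻¹ • y

/-- part of the sphere in the tube -/
def ST (φ : E → ℝ) (b : ℝ) : Set (sphere (0 : E) 1) := {q | (q : E) ∈ TT φ b}

/-- density of the sphere in tube coordinates -/
def sden (φ : E → ℝ) (q : E × ℝ) : ℝ :=
  |jt φ q.1 q.2| * ((Real.sqrt (1 + q.2 ^ 2))⁻¹) ^ (finrank ℝ E)

/-- point of the sphere with tube coordinates `q` -/
def sg (φ : E → ℝ) (q : E × ℝ) : E := nm (q.1 + q.2 • gradient φ q.1)

lemma measurable_nm : Measurable (nm : E → E) := measurable_norm.inv.smul measurable_id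

lemma nm_smul {y : E} {t : ℝ} (ht : 0 < t) : nm (t • y) = nm y := by
  rw [nm, nm, norm_smul, Real.norm_eq_abs, abs_of_pos ht, smul_smul, mul_inv]
  congr 1
  field_simp

lemma nm_of_norm_one {y : E} (h : ‖y‖ = 1) : nm y = y := by rw [nm, h, inv_one, one_smul]

lemma norm_nm {y : E} (hy : y ≠ 0) : ‖nm y‖ = 1 := by
  rw [nm, norm_smul, norm_inv, norm_norm, inv_mul_cancel₀ (norm_ne_zero_iff.2 hy)]

lemma measurable_sg (φ : E → ℝ) : Measurable (sg φ) :=
  measurable_nm.comp (measurable_fst.add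
    (measurable_snd.smul ((measurable_gradient φ).comp measurable_fst)))

lemma measurable_sden (φ : E → ℝ) : Measurable (sden φ) := by
  have h1 := measurable_jt φ
  have h2 : Measurable fun q : E × ℝ => ((Real.sqrt (1 + q.2 ^ 2))⁻¹) ^ (finrank ℝ E) := by
    fun_prop
  exact (continuous_abs.measurable.comp h1).mul h2

lemma sden_nonneg (φ : E → ℝ) (q : E × ℝ) : 0 ≤ sden φ q := by
  unfold sden; positivity

lemma kap_eq_radial (n : ℕ) : kap n = radial (n - 1) := rfl

section tube

variable {φ : E → ℝ} {b : ℝ} (hT : Tube φ b)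
include hT

lemma norm_seg {p : E} (hp : p ∈ Lk φ) (τ : ℝ) :
    ‖p + τ • gradient φ p‖ = Real.sqrt (1 + τ ^ 2) := by
  have h1 := hT.TT_of_Lk hp
  have h3 : ‖p + τ • gradient φ p‖ ^ 2 = 1 + τ ^ 2 := by
    rw [norm_add_sq_real, inner_smul_right, real_inner_comm, hT.euler h1, hp.2, norm_smul,
      (hT.good h1).norm_gradient, Real.norm_eq_abs, mul_one, sq_abs, hp.1]
    ring
  rw [← h3, Real.sqrt_sq (norm_nonneg _)]

lemma seg_ne_zero {p : E} (hp : p ∈ Lk φ) (τ : ℝ) : p + τ • gradient φ p ≠ 0 := by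
  rw [← norm_ne_zero_iff, norm_seg hT hp]
  exact (Real.sqrt_pos.2 (by positivity)).ne'

/-- tube coordinates of `sg` -/
lemma sg_props {p : E} (hp : p ∈ Lk φ) {τ : ℝ} (hτ : |τ| < b) :
    sg φ (p, τ) ∈ TT φ b ∧ ‖sg φ (p, τ)‖ = 1 ∧ pp φ (sg φ (p, τ)) = p ∧ ta φ (sg φ (p, τ)) = τ := by
  obtain ⟨h1, h2, h3, h4⟩ := hT.seg_one hp hτ
  have h0 := seg_ne_zero hT hp τ
  have hn : 0 < ‖p + τ • gradient φ p‖⁻¹ := inv_pos.2 (norm_pos_iff.2 h0)
  refine ⟨(hT.mem_TT_smul hn).2 h1, norm_nm h0, ?_, ?_⟩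
  · rw [sg, nm, hT.pp_smul _ hn]; exact h2
  · rw [sg, nm, hT.ta_smul _ hn]; exact h4

lemma measurableSet_ST : MeasurableSet (ST φ b) :=
  measurable_subtype_coe hT.measurableSet_TT

lemma ae_prod : ∀ᵐ q ∂((mu φ b).prod (ell b)), q.1 ∈ Lk φ ∧ q.2 ∈ Ioo (-b) b := by
  have := hT.isFiniteMeasure_mu
  have h1 : ∀ᵐ q ∂((mu φ b).prod (ell b)), q.1 ∈ Lk φ :=
    Measure.quasiMeasurePreserving_fst.ae hT.ae_mem_Lk
  have h2 : ∀ᵐ q ∂((mu φ b).prod (ell b)), q.2 ∈ Ioo (-b) b :=
    Measure.quasiMeasurePreserving_snd.ae (ae_restrict_mem measurableSet_Ioo)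
  filter_upwards [h1, h2] with q h1 h2 using ⟨h1, h2⟩

/-- product formula for the tube part of the sphere, `lintegral` form -/
theorem lintegral_sphere [Nontrivial E] {G : E → ENNReal} (hG : Measurable G) :
    ∫⁻ q in ST φ b, G q ∂(sig E)
      = ∫⁻ q, ENNReal.ofReal (sden φ q) * G (sg φ q) ∂((mu φ b).prod (ell b)) := by
  have hn : 0 < finrank ℝ E := finrank_pos
  have := hT.isFiniteMeasure_mu
  have := sigmaFinite_kap hn
  set n := finrank ℝ E with hndef
  set N : ENNReal := ENNReal.ofReal (1 / n) with hN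
  have hN0 : N ≠ 0 := by
    rw [hN]; simp only [ne_eq, ENNReal.ofReal_eq_zero, not_le]; positivity
  have hNt : N ≠ ⊤ := ENNReal.ofReal_ne_top
  have hrm := hT.measurable_rr
  set G0 : E → ENNReal := fun y => (Iio (1 : ℝ)).indicator (fun _ => (1 : ENNReal)) (rr φ y) *
    (ENNReal.ofReal ((rr φ y * ‖y‖⁻¹) ^ n) * G (nm y)) with hG0
  have hG0m : Measurable G0 := by
    refine Measurable.mul ?_ (Measurable.mul ?_ (hG.comp measurable_nm))
    · exact (measurable_const.indicator measurableSet_Iio).comp hrm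
    · exact ((hrm.mul measurable_norm.inv).pow_const n).ennreal_ofReal
  -- polar side
  have hpolar : ∫⁻ y in TT φ b, G0 y = N * ∫⁻ q in ST φ b, G q ∂(sig E) := by
    have hmp := measurePreserving_polar (E := E)
    rw [← lintegral_indicator hT.measurableSet_TT]
    have hm1 : Measurable ((TT φ b).indicator G0) := hG0m.indicator hT.measurableSet_TT
    have hm2 : Measurable (fun a : sphere (0 : E) 1 × ℝ =>
        (TT φ b).indicator G0 (a.2 • (a.1 : E))) := hm1.comp hmp.measurable
    rw [← hmp.lintegral_comp hm1, lintegral_prod _ hm2.aemeasurable,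
      ← lintegral_indicator (measurableSet_ST hT), ← lintegral_const_mul' _ _ hNt]
    refine lintegral_congr fun q => ?_
    simp only
    have hq1 : ‖(q : E)‖ = 1 := by simp
    by_cases hq : q ∈ ST φ b
    · have hq' : (q : E) ∈ TT φ b := hq
      have hr0 : 0 < rr φ (q : E) := hq'.1
      rw [indicator_of_mem hq]
      have h1 : ∫⁻ t, (TT φ b).indicator G0 (t • (q : E)) ∂(radial (finrank ℝ E - 1))
          = ∫⁻ t, (ENNReal.ofReal (rr φ (q : E) ^ n) * G q) *
            (Iio ((rr φ (q : E))⁻¹)).indicator (fun _ => (1 : ENNReal)) t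
            ∂(radial (finrank ℝ E - 1)) := by
        refine lintegral_congr_ae ?_
        filter_upwards [radial_ae_pos (finrank ℝ E - 1)] with t ht
        rw [indicator_of_mem ((hT.mem_TT_smul ht).2 hq')]
        simp only [hG0]
        rw [hT.rr_smul _ ht.le, nm_smul ht, nm_of_norm_one hq1, norm_smul, hq1, Real.norm_eq_abs,
          abs_of_pos ht, mul_one, mul_comm t, mul_assoc, mul_inv_cancel₀ ht.ne', mul_one]
        by_cases h : t < (rr φ (q : E))⁻¹
        · have h' : rr φ (q : E) * t < 1 := by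
            rw [lt_inv_comm₀ ht hr0, ← one_div, lt_div_iff₀ ht] at h
            exact h
          rw [indicator_of_mem (show rr φ (q : E) * t ∈ Iio (1 : ℝ) from h'),
            indicator_of_mem (show t ∈ Iio ((rr φ (q : E))⁻¹) from h), one_mul, mul_one]
        · have h' : ¬ rr φ (q : E) * t < 1 := by
            intro h2
            apply h
            rw [lt_inv_comm₀ ht hr0, ← one_div, lt_div_iff₀ ht]
            exact h2
          rw [indicator_of_notMem (show rr φ (q : E) * t ∉ Iio (1 : ℝ) from h'),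
            indicator_of_notMem (show t ∉ Iio ((rr φ (q : E))⁻¹) from h), zero_mul, mul_zero]
      rw [h1, lintegral_const_mul _ (measurable_const.indicator measurableSet_Iio),
        lintegral_indicator measurableSet_Iio, setLIntegral_one, ← kap_eq_radial, kap_Iio hn,
        max_eq_left (inv_pos.2 hr0).le, mul_comm (ENNReal.ofReal (rr φ (q : E) ^ n)) (G q),
        mul_assoc, ← ENNReal.ofReal_mul (by positivity), mul_comm]
      congr 2
      rw [inv_pow]
      have : rr φ (q : E) ^ n ≠ 0 := (pow_pos hr0 n).ne'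
      field_simp
    · rw [indicator_of_notMem hq, mul_zero]
      have hq' : (q : E) ∉ TT φ b := hq
      rw [lintegral_congr_ae (g := fun _ => 0), lintegral_zero]
      filter_upwards [radial_ae_pos (finrank ℝ E - 1)] with t ht
      rw [indicator_of_notMem]
      intro h
      exact hq' ((hT.mem_TT_smul ht).1 h)
  -- tube side
  have htube : ∫⁻ y in TT φ b, G0 y
      = N * ∫⁻ q, ENNReal.ofReal (sden φ q) * G (sg φ q) ∂((mu φ b).prod (ell b)) := by
    have hjm := hT.measurable_jj
    have hmeas : Measurable (fun y => (rr φ y, (pp φ y, ta φ y))) :=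
      hT.measurable_rr.prodMk (hT.measurable_pp.prodMk hT.measurable_ta)
    have h1 : ∫⁻ y in TT φ b, G0 y
        = ∫⁻ y, ENNReal.ofReal |jj φ y| * G0 y ∂(lam φ b) := by
      rw [lam, lintegral_withDensity_eq_lintegral_mul _ (by fun_prop) (by fun_prop)]
      refine setLIntegral_congr_fun hT.measurableSet_TT fun y hy => ?_
      simp only [Pi.mul_apply]
      rw [← mul_assoc, ← ENNReal.ofReal_mul (by positivity),
        inv_mul_cancel₀ (abs_ne_zero.2 (hT.jj_ne_zero hy)), ENNReal.ofReal_one, one_mul]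
    set H : ℝ × (E × ℝ) → ENNReal := fun q => (Iio (1 : ℝ)).indicator (fun _ => (1 : ENNReal)) q.1 *
      (ENNReal.ofReal (sden φ q.2) * G (sg φ q.2)) with hH
    have hHm2 : Measurable fun q : E × ℝ => ENNReal.ofReal (sden φ q) * G (sg φ q) :=
      (measurable_sden φ).ennreal_ofReal.mul (hG.comp (measurable_sg φ))
    have hHm1 : Measurable ((Iio (1 : ℝ)).indicator (fun _ => (1 : ENNReal))) :=
      measurable_const.indicator measurableSet_Iio
    have hHm : Measurable H := (hHm1.comp measurable_fst).mul (hHm2.comp measurable_snd)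
    have h2 : ∫⁻ y, ENNReal.ofReal |jj φ y| * G0 y ∂(lam φ b)
        = ∫⁻ y, H (rr φ y, (pp φ y, ta φ y)) ∂(lam φ b) := by
      refine lintegral_congr_ae ?_
      filter_upwards [hT.ae_lam_mem] with y hy
      have hp : pp φ y ∈ Lk φ := ⟨hT.norm_pp hy, hT.phi_pp hy⟩
      have e1 : rr φ y • (pp φ y + ta φ y • gradient φ (pp φ y)) = y := hT.recon_pp hy
      have e2 : sg φ (pp φ y, ta φ y) = nm y := by
        conv_rhs => rw [← e1]
        rw [nm_smul hy.1]; rfl
      have e3 : rr φ y * ‖y‖⁻¹ = (Real.sqrt (1 + ta φ y ^ 2))⁻¹ := by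
        have e4 : ‖y‖ = rr φ y * Real.sqrt (1 + ta φ y ^ 2) := by
          conv_lhs => rw [← e1]
          rw [norm_smul, norm_seg hT hp, Real.norm_eq_abs, abs_of_pos hy.1]
        rw [e4, mul_inv, ← mul_assoc, mul_inv_cancel₀ hy.1.ne', one_mul]
      simp only [hH, hG0, sden]
      rw [e2, e3, hT.jj_eq_jt hy, ENNReal.ofReal_mul (abs_nonneg _)]
      ring
    rw [h1, h2, ← lintegral_map hHm hmeas, ← hT.map_lam', lintegral_prod _ hHm.aemeasurable]
    have h3 : ∀ ρ : ℝ, ∫⁻ q, H (ρ, q) ∂((mu φ b).prod (ell b))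
        = (Iio (1 : ℝ)).indicator (fun _ => (1 : ENNReal)) ρ *
          ∫⁻ q, ENNReal.ofReal (sden φ q) * G (sg φ q) ∂((mu φ b).prod (ell b)) := by
      intro ρ
      rw [← lintegral_const_mul _ hHm2]
    simp_rw [h3]
    rw [lintegral_mul_const _ hHm1, lintegral_indicator measurableSet_Iio, setLIntegral_one,
      kap_Iio hn, max_eq_left zero_le_one, one_pow]
  have h := hpolar.symm.trans htube
  exact (ENNReal.mul_right_inj hN0 hNt).1 h

/-- equality of measures -/
theorem map_sphere [Nontrivial E] :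
    ((sig E).restrict (ST φ b)).map (Subtype.val : sphere (0 : E) 1 → E)
      = (((mu φ b).prod (ell b)).withDensity fun q => ENNReal.ofReal (sden φ q)).map (sg φ) := by
  ext B hB
  have hB1 : Measurable (B.indicator (fun _ => (1 : ENNReal))) := measurable_const.indicator hB
  rw [Measure.map_apply measurable_subtype_coe hB, Measure.map_apply (measurable_sg φ) hB,
    withDensity_apply _ (measurable_sg φ hB)]
  have h1 := lintegral_sphere hT hB1
  have h2 : ∫⁻ q in ST φ b, B.indicator (fun _ => (1 : ENNReal)) (q : E) ∂(sig E)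
      = (sig E).restrict (ST φ b) (Subtype.val ⁻¹' B) := by
    have : (fun q : sphere (0 : E) 1 => B.indicator (fun _ => (1 : ENNReal)) (q : E))
        = (Subtype.val ⁻¹' B).indicator (fun _ => (1 : ENNReal)) := by
      funext q; rfl
    rw [this, lintegral_indicator (measurable_subtype_coe hB), setLIntegral_one]
  rw [← h2, h1, ← lintegral_indicator (measurable_sg φ hB)]
  refine lintegral_congr fun q => ?_
  by_cases h : sg φ q ∈ B
  · rw [indicator_of_mem h, indicator_of_mem (show q ∈ sg φ ⁻¹' B from h), mul_one]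
  · rw [indicator_of_notMem h, indicator_of_notMem (show q ∉ sg φ ⁻¹' B from h), mul_zero]

/-- product formula for the tube part of the sphere -/
theorem integral_sphere [Nontrivial E] {F : E → ℝ} (hF : Measurable F) :
    ∫ q in ST φ b, F q ∂(sig E)
      = ∫ q, sden φ q * F (sg φ q) ∂((mu φ b).prod (ell b)) := by
  have h1 : ∫ q in ST φ b, F q ∂(sig E)
      = ∫ y, F y ∂(((sig E).restrict (ST φ b)).map (Subtype.val : sphere (0 : E) 1 → E)) :=
    (integral_map measurable_subtype_coe.aemeasurable hF.aestronglyMeasurable).symm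
  rw [h1, map_sphere hT, integral_map (measurable_sg φ).aemeasurable hF.aestronglyMeasurable,
    integral_withDensity_eq_integral_toReal_smul (measurable_sden φ).ennreal_ofReal
      (Eventually.of_forall fun _ => ENNReal.ofReal_lt_top)]
  refine integral_congr_ae (Eventually.of_forall fun q => ?_)
  simp only [smul_eq_mul]
  rw [ENNReal.toReal_ofReal (sden_nonneg φ q)]

/-- bound of the Jacobian -/
lemma exists_jt_bound : ∃ C : ℝ, 0 ≤ C ∧ ∀ p ∈ Lk φ, ∀ τ : ℝ, |τ| < b → |jt φ p τ| ≤ C := by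
  have hK : IsCompact (Lk φ ×ˢ Icc (-b) b) := hT.isCompact_Lk.prod isCompact_Icc
  have hsub : Lk φ ×ˢ Icc (-b) b ⊆ Lk φ ×ˢ (univ : Set ℝ) := prod_mono le_rfl (subset_univ _)
  have h1 : ContinuousOn (fun q : E × ℝ => |jt φ q.1 q.2|) (Lk φ ×ˢ Icc (-b) b) :=
    (hT.continuousOn_jt.mono hsub).abs
  obtain ⟨C, hC⟩ := hK.bddAbove_image h1
  refine ⟨max 0 C, le_max_left _ _, fun p hp τ hτ => ?_⟩
  exact (hC (mem_image_of_mem _ (show (p, τ) ∈ Lk φ ×ˢ Icc (-b) b from
      ⟨hp, abs_le.1 hτ.le⟩))).trans (le_max_right _ _)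

lemma sden_le {C : ℝ} (hC0 : 0 ≤ C) (hC : ∀ p ∈ Lk φ, ∀ τ : ℝ, |τ| < b → |jt φ p τ| ≤ C) {p : E}
    (hp : p ∈ Lk φ) {τ : ℝ} (hτ : |τ| < b) : sden φ (p, τ) ≤ C := by
  have h1 : 1 ≤ Real.sqrt (1 + τ ^ 2) := by
    rw [Real.one_le_sqrt]; nlinarith [sq_nonneg τ]
  have h2 : ((Real.sqrt (1 + τ ^ 2))⁻¹) ^ (finrank ℝ E) ≤ 1 :=
    pow_le_one₀ (by positivity) (inv_le_one_of_one_le₀ h1)
  calc sden φ (p, τ) ≤ C * 1 := mul_le_mul (hC p hp τ hτ) h2 (by positivity) hC0
    _ = C := mul_one C

/-- **Sphere limit.** -/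
theorem sphere_limit [Nontrivial E] {F : E → ℝ} (hFm : Measurable F) {M : ℝ}
    (hFM : ∀ y, ‖y‖ = 1 → y ∈ TT φ b → |F y| ≤ M)
    (hFc : ∀ p ∈ Lk φ, ContinuousWithinAt F (sphere (0 : E) 1) p)
    {w : ℝ → ℝ} (hw : Continuous w) {C : ℝ} (hwC : ∀ u, |w u| ≤ C / (1 + u ^ 2))
    {θ : ℝ → ℝ} (hθm : Measurable θ) (hθ0 : θ 0 = 0) (hθd : HasDerivAt θ 1 0) {c0 : ℝ}
    (hc0 : 0 < c0) (hθc : ∀ τ, |τ| < b → c0 * |τ| ≤ |θ τ|) :
    Tendsto (fun ε : ℝ => ∫ q in ST φ b, (1 / ε) * w (θ (ta φ (q : E)) / ε) * F q ∂(sig E))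
      (𝓝[>] 0) (𝓝 ((∫ u, w u) * ∫ p, F p ∂(mu φ b))) := by
  have hfin := hT.isFiniteMeasure_mu
  have hgm := measurable_gradient φ
  have hjt := measurable_jt φ
  have hb := hT.hb
  obtain ⟨D, hD0, hD⟩ := exists_jt_bound hT
  have hC0 : 0 ≤ C := by
    have := (abs_nonneg _).trans (hwC 0)
    simpa using this
  have hM0 : Nonempty (Lk φ) → 0 ≤ M := fun ⟨p, hp⟩ =>
    (abs_nonneg _).trans (hFM p hp.1 (hT.TT_of_Lk hp))
  have hwm := hw.measurable
  -- bound on `w`
  have hwC' : ∀ u, |w u| ≤ C := fun u => (hwC u).trans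
    (div_le_self hC0 (by nlinarith [sq_nonneg u]))
  -- the integrand after the change of variables
  set W : ℝ → E → ℝ → ℝ := fun ε p s => (Ioo (-b) b).indicator (fun _ => (1 : ℝ)) (ε * s) *
    (w (θ (ε * s) / ε) * (sden φ (p, ε * s) * F (sg φ (p, ε * s)))) with hW
  have hsgm := measurable_sg φ
  have hsdm := measurable_sden φ
  have key : ∀ ε : ℝ, 0 < ε →
      ∫ q in ST φ b, (1 / ε) * w (θ (ta φ (q : E)) / ε) * F q ∂(sig E)
      = ∫ p, (∫ s, W ε p s) ∂(mu φ b) := by
    intro ε hε
    have hFm' : Measurable fun y => (1 / ε) * w (θ (ta φ y) / ε) * F y :=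
      ((hwm.comp ((hθm.comp hT.measurable_ta).div_const ε)).const_mul _).mul hFm
    rw [integral_sphere hT hFm']
    have hint : Integrable (fun q : E × ℝ => sden φ q *
        ((1 / ε) * w (θ (ta φ (sg φ q)) / ε) * F (sg φ q))) ((mu φ b).prod (ell b)) := by
      have hmeas : Measurable (fun q : E × ℝ => sden φ q *
        ((1 / ε) * w (θ (ta φ (sg φ q)) / ε) * F (sg φ q))) :=
        hsdm.mul (hFm'.comp hsgm)
      refine (integrable_const (D * ((1 / ε) * C * M))).mono' hmeas.aestronglyMeasurable ?_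
      filter_upwards [ae_prod hT] with q hq
      have hq2 : |q.2| < b := _root_.abs_lt.2 hq.2
      obtain ⟨g1, g2, g3, g4⟩ := sg_props hT hq.1 hq2
      have hM := hM0 ⟨q.1, hq.1⟩
      rw [Real.norm_eq_abs, abs_mul, abs_mul, abs_mul, abs_of_nonneg (sden_nonneg φ q),
        abs_of_pos (show (0 : ℝ) < 1 / ε by positivity)]
      exact mul_le_mul (sden_le hT hD0 hD hq.1 hq2) (mul_le_mul
        (mul_le_mul_of_nonneg_left (hwC' _) (by positivity)) (hFM _ g2 g1) (abs_nonneg _)
        (by positivity)) (by positivity) hD0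
    rw [integral_prod _ hint]
    refine integral_congr_ae ?_
    filter_upwards [hT.ae_mem_Lk] with p hp
    have h1 : ∫ τ in Ioo (-b) b, sden φ (p, τ) *
        ((1 / ε) * w (θ (ta φ (sg φ (p, τ))) / ε) * F (sg φ (p, τ)))
        = ∫ τ, (1 / ε) * ((Ioo (-b) b).indicator (fun _ => (1 : ℝ)) τ *
          (w (θ τ / ε) * (sden φ (p, τ) * F (sg φ (p, τ))))) := by
      rw [← integral_indicator measurableSet_Ioo]
      refine integral_congr_ae (Eventually.of_forall fun τ => ?_)
      simp only [indicator]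
      split_ifs with h
      · rw [(sg_props hT hp (_root_.abs_lt.2 h)).2.2.2]; ring
      · ring
    change ∫ τ in Ioo (-b) b, sden φ (p, τ) *
        ((1 / ε) * w (θ (ta φ (sg φ (p, τ))) / ε) * F (sg φ (p, τ))) = _
    rw [h1, integral_const_mul]
    have h2 := Measure.integral_comp_mul_left (fun τ => (Ioo (-b) b).indicator
      (fun _ => (1 : ℝ)) τ * (w (θ τ / ε) * (sden φ (p, τ) * F (sg φ (p, τ))))) ε
    rw [abs_of_pos (inv_pos.2 hε), smul_eq_mul] at h2
    rw [one_div, ← h2]
  -- the limit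
  have hbnd : ∀ ε : ℝ, 0 < ε → ∀ p ∈ Lk φ, ∀ s : ℝ,
      ‖W ε p s‖ ≤ (C * (D * M)) * (1 + (c0 * s) ^ 2)⁻¹ := by
    intro ε hε p hp s
    have hM := hM0 ⟨p, hp⟩
    simp only [hW]
    by_cases h : ε * s ∈ Ioo (-b) b
    · have h' : |ε * s| < b := _root_.abs_lt.2 h
      rw [indicator_of_mem h, one_mul, Real.norm_eq_abs, abs_mul, abs_mul,
        abs_of_nonneg (sden_nonneg φ _)]
      obtain ⟨g1, g2, g3, g4⟩ := sg_props hT hp h'
      have h3 : |w (θ (ε * s) / ε)| ≤ C * (1 + (c0 * s) ^ 2)⁻¹ := by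
        refine (hwC _).trans ?_
        rw [div_eq_mul_inv]
        refine mul_le_mul_of_nonneg_left ?_ hC0
        apply inv_anti₀ (by positivity)
        have h4 := hθc _ h'
        have h5 : c0 * |s| ≤ |θ (ε * s) / ε| := by
          rw [abs_div, abs_of_pos hε, le_div_iff₀ hε]
          rw [abs_mul, abs_of_pos hε] at h4
          linarith
        have h6 : (c0 * |s|) ^ 2 ≤ |θ (ε * s) / ε| ^ 2 :=
          pow_le_pow_left₀ (by positivity) h5 2
        rw [sq_abs, mul_pow, sq_abs, ← mul_pow] at h6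
        linarith
      calc |w (θ (ε * s) / ε)| * (sden φ (p, ε * s) * |F (sg φ (p, ε * s))|)
          ≤ (C * (1 + (c0 * s) ^ 2)⁻¹) * (D * M) :=
            mul_le_mul h3 (mul_le_mul (sden_le hT hD0 hD hp h') (hFM _ g2 g1) (abs_nonneg _) hD0)
              (mul_nonneg (sden_nonneg φ _) (abs_nonneg _)) (by positivity)
        _ = _ := by ring
    · rw [indicator_of_notMem h, zero_mul, norm_zero]
      positivity
  have hbint : Integrable fun s : ℝ => (C * (D * M)) * (1 + (c0 * s) ^ 2)⁻¹ :=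
    (integrable_inv_one_add_sq.comp_mul_left' hc0.ne').const_mul _
  have hlim : Tendsto (fun ε : ℝ => ∫ p, (∫ s, W ε p s) ∂(mu φ b)) (𝓝[>] 0)
      (𝓝 (∫ p, (∫ s, w s * F p) ∂(mu φ b))) := by
    have hmW : ∀ ε : ℝ, Measurable (fun q : E × ℝ => W ε q.1 q.2) := by
      intro ε
      have e1 : Measurable fun q : E × ℝ => (q.1, ε * q.2) := by fun_prop
      have e2 : Measurable fun q : E × ℝ => (Ioo (-b) b).indicator (fun _ => (1 : ℝ)) (ε * q.2) :=
        (measurable_const.indicator measurableSet_Ioo).comp (measurable_snd.const_mul ε)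
      exact e2.mul ((hwm.comp ((hθm.comp (measurable_snd.const_mul ε)).div_const ε)).mul
        ((hsdm.comp e1).mul (hFm.comp (hsgm.comp e1))))
    refine tendsto_integral_filter_of_dominated_convergence
      (fun _ => ∫ s : ℝ, (C * (D * M)) * (1 + (c0 * s) ^ 2)⁻¹) ?_ ?_ ?_ ?_
    · filter_upwards with ε
      exact ((hmW ε).stronglyMeasurable.integral_prod_right (ν := volume)).aestronglyMeasurable
    · filter_upwards [self_mem_nhdsWithin] with ε hε
      filter_upwards [hT.ae_mem_Lk] with p hp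
      exact norm_integral_le_of_norm_le hbint
        (Eventually.of_forall fun s => hbnd ε hε p hp s)
    · exact integrable_const _
    · filter_upwards [hT.ae_mem_Lk] with p hp
      refine tendsto_integral_filter_of_dominated_convergence
        (fun s => (C * (D * M)) * (1 + (c0 * s) ^ 2)⁻¹) ?_ ?_ hbint ?_
      · filter_upwards with ε
        exact ((hmW ε).comp measurable_prodMk_left).aestronglyMeasurable
      · filter_upwards [self_mem_nhdsWithin] with ε hε
        exact Eventually.of_forall fun s => hbnd ε hε p hp s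
      · refine Eventually.of_forall fun s => ?_
        have e0 : Tendsto (fun ε : ℝ => ε * s) (𝓝[>] 0) (𝓝 0) := by
          have : Tendsto (fun ε : ℝ => ε * s) (𝓝 0) (𝓝 (0 * s)) :=
            (continuous_id.mul continuous_const).tendsto 0
          rw [zero_mul] at this
          exact this.mono_left nhdsWithin_le_nhds
        have e1 : Tendsto (fun ε : ℝ => sden φ (p, ε * s)) (𝓝[>] 0) (𝓝 1) := by
          have hc : Continuous fun τ : ℝ => sden φ (p, τ) := by
            unfold sden
            refine (continuous_jt φ p).abs.mul ((Continuous.inv₀ (by fun_prop) ?_).pow _)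
            intro τ
            exact (Real.sqrt_pos.2 (by positivity)).ne'
          have := (hc.tendsto 0).comp e0
          have h1 : sden φ (p, 0) = 1 := by
            simp [sden, jt_zero]
          rwa [h1] at this
        have e2 : Tendsto (fun ε : ℝ => F (sg φ (p, ε * s))) (𝓝[>] 0) (𝓝 (F p)) := by
          have h6 : Tendsto (fun ε : ℝ => sg φ (p, ε * s)) (𝓝[>] 0) (𝓝 p) := by
            have h7 : Tendsto (fun ε : ℝ => p + (ε * s) • gradient φ p) (𝓝[>] 0) (𝓝 p) := by
              have := tendsto_const_nhds (x := p).add (e0.smul_const (gradient φ p))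
              rw [zero_smul, add_zero] at this
              exact this
            have h8 : Tendsto (fun ε : ℝ => ‖p + (ε * s) • gradient φ p‖⁻¹) (𝓝[>] 0) (𝓝 1) := by
              have := h7.norm.inv₀ (by rw [hp.1]; exact one_ne_zero)
              rwa [hp.1, inv_one] at this
            have := h8.smul h7
            rwa [one_smul] at this
          have h9 : Tendsto (fun ε : ℝ => sg φ (p, ε * s)) (𝓝[>] 0)
              (𝓝[sphere (0 : E) 1] p) := by
            refine tendsto_nhdsWithin_iff.2 ⟨h6, Eventually.of_forall fun ε => ?_⟩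
            rw [mem_sphere_zero_iff_norm]
            exact norm_nm (seg_ne_zero hT hp _)
          exact (hFc p hp).tendsto.comp h9
        have e3 : Tendsto (fun ε : ℝ => (Ioo (-b) b).indicator (fun _ => (1 : ℝ)) (ε * s))
            (𝓝[>] 0) (𝓝 1) := by
          refine tendsto_const_nhds.congr' ?_
          have : ∀ᶠ ε : ℝ in 𝓝[>] 0, ε * s ∈ Ioo (-b) b :=
            e0.eventually (Ioo_mem_nhds (by linarith) hb)
          filter_upwards [this] with ε h
          rw [indicator_of_mem h]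
        have e4 : Tendsto (fun ε : ℝ => θ (ε * s) / ε) (𝓝[>] 0) (𝓝 s) := by
          have h1 : HasDerivAt (fun ε : ℝ => θ (ε * s)) (1 * s) 0 := by
            have h2 : HasDerivAt (fun ε : ℝ => ε * s) (1 * s) 0 := (hasDerivAt_id (0 : ℝ)).mul_const s
            have h3 : HasDerivAt θ 1 ((fun ε : ℝ => ε * s) 0) := by simpa using hθd
            have h4 := HasDerivAt.comp (0 : ℝ) h3 h2
            simpa [Function.comp_def] using h4
          have h2 := h1.tendsto_slope_zero_right
          rw [one_mul] at h2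
          refine h2.congr fun ε => ?_
          rw [zero_add, zero_mul, hθ0, sub_zero, smul_eq_mul, div_eq_inv_mul]
        have e5 : Tendsto (fun ε : ℝ => w (θ (ε * s) / ε)) (𝓝[>] 0) (𝓝 (w s)) :=
          (hw.tendsto s).comp e4
        have := e3.mul (e5.mul (e1.mul e2))
        rwa [one_mul, one_mul] at this
  have hfinal : (∫ p, (∫ s, w s * F p) ∂(mu φ b)) = (∫ s, w s) * ∫ p, F p ∂(mu φ b) := by
    simp_rw [integral_mul_const]
    rw [integral_const_mul]
  rw [hfinal] at hlim
  refine hlim.congr' ?_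
  filter_upwards [self_mem_nhdsWithin] with ε h1
  exact (key ε h1).symm

end tube

end Crest.Agent.R246.SMS651
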