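import Mathlib.MeasureTheory.Measure.Haar.InnerProductSpace
import Mathlib.MeasureTheory.Measure.Lebesgue.Integral
import Mathlib.MeasureTheory.Integral.IntegralEqImproper
import Mathlib.Analysis.InnerProductSpace.PiL2

/-!
R246, helper105.  Orthogonal slicing of a finite dimensional inner product space.
-/

set_option autoImplicit false

namespace Crest.Agent.R246.Flat105

open MeasureTheory Filter Topology Metric Set
open scoped NNReal RealInnerProductSpace

variable {E : Type*} [NormedAddCommGroup E] [InnerProductSpace ℝ E] [FiniteDimensional ℝ E]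
  [MeasurableSpace E] [BorelSpace E]

/-- prepend a coordinate -/
def mkc {d : ℕ} : ℝ × EuclideanSpace ℝ (Fin d) ≃ᵐ EuclideanSpace ℝ (Fin (d + 1)) :=
  ((MeasurableEquiv.refl ℝ).prodCongr (MeasurableEquiv.toLp 2 (Fin d → ℝ)).symm).trans
    ((MeasurableEquiv.piFinSuccAbove (fun _ : Fin (d + 1) => ℝ) 0).symm.trans
      (MeasurableEquiv.toLp 2 (Fin (d + 1) → ℝ)))

theorem mkc_apply {d : ℕ} (t : ℝ) (y : EuclideanSpace ℝ (Fin d)) :
    mkc (t, y) = WithLp.toLp 2 (Fin.cons t (fun i => y i) : Fin (d + 1) → ℝ) := by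
  ext i
  refine Fin.cases ?_ (fun i => ?_) i
  · simp [mkc, MeasurableEquiv.piFinSuccAbove, Fin.insertNthEquiv, MeasurableEquiv.prodCongr]
  · simp [mkc, MeasurableEquiv.piFinSuccAbove, Fin.insertNthEquiv, MeasurableEquiv.prodCongr]

theorem measurePreserving_mkc {d : ℕ} : MeasurePreserving (mkc (d := d)) volume volume := by
  have h1 : MeasurePreserving ((MeasurableEquiv.refl ℝ).prodCongr
      (MeasurableEquiv.toLp 2 (Fin d → ℝ)).symm)
      (volume : Measure (ℝ × EuclideanSpace ℝ (Fin d))) volume :=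
    (MeasurePreserving.id volume).prod (PiLp.volume_preserving_ofLp (Fin d))
  have h3 : MeasurePreserving (MeasurableEquiv.piFinSuccAbove (fun _ : Fin (d + 1) => ℝ) 0).symm
      (volume : Measure (ℝ × (Fin d → ℝ))) volume :=
    (volume_preserving_piFinSuccAbove (fun _ : Fin (d + 1) => ℝ) 0).symm
  have h4 : MeasurePreserving (MeasurableEquiv.toLp 2 (Fin (d + 1) → ℝ)) volume volume :=
    PiLp.volume_preserving_toLp (Fin (d + 1))
  exact (h4.comp h3).comp h1

/-- **Slicing** (helper852's `StSlice`). -/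
theorem slice {d : ℕ} (hd : Module.finrank ℝ E = d + 1) {a : E} (ha : ‖a‖ = 1) :
    ∃ ι : EuclideanSpace ℝ (Fin d) →ₗᵢ[ℝ] E, (∀ y, ⟪a, ι y⟫ = 0) ∧
      MeasurePreserving (fun p : ℝ × EuclideanSpace ℝ (Fin d) => p.1 • a + ι p.2)
        (volume.prod volume) volume := by
  have hv : Orthonormal ℝ (({0} : Set (Fin (d + 1))).domRestrict fun _ => a) := by
    rw [orthonormal_iff_ite]
    rintro ⟨i, hi⟩ ⟨j, hj⟩
    rw [mem_singleton_iff] at hi hj
    subst hi; subst hj
    simp [Set.domRestrict, ha]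
  obtain ⟨b, hb⟩ := hv.exists_orthonormalBasis_extension_of_card_eq (by simpa using hd)
  have hb0 : b 0 = a := hb 0 (mem_singleton _)
  let c : EuclideanSpace ℝ (Fin d) →ₗ[ℝ] EuclideanSpace ℝ (Fin (d + 1)) :=
    { toFun := fun y => WithLp.toLp 2 (Fin.cons 0 (fun i => y i) : Fin (d + 1) → ℝ)
      map_add' := fun y z => by
        ext i
        refine Fin.cases ?_ (fun i => ?_) i <;> simp
      map_smul' := fun t y => by
        ext i
        refine Fin.cases ?_ (fun i => ?_) i <;> simp }
  have hc : ∀ y, ‖c y‖ = ‖y‖ := by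
    intro y
    rw [EuclideanSpace.norm_eq, EuclideanSpace.norm_eq, Fin.sum_univ_succ]
    simp [c]
  let ι : EuclideanSpace ℝ (Fin d) →ₗᵢ[ℝ] E :=
    b.repr.symm.toLinearIsometry.comp ⟨c, hc⟩
  have hι : ∀ y, ι y = b.repr.symm (c y) := fun y => rfl
  refine ⟨ι, fun y => ?_, ?_⟩
  · rw [← hb0, hι, ← b.repr_apply_apply]
    simp [c]
  · have h1 : (fun p : ℝ × EuclideanSpace ℝ (Fin d) => p.1 • a + ι p.2) =
        b.repr.symm ∘ mkc := by
      funext p
      obtain ⟨t, y⟩ := p
      apply b.repr.injective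
      simp only [Function.comp, LinearIsometryEquiv.apply_symm_apply, map_add, map_smul, hι,
        mkc_apply]
      rw [← hb0, b.repr_self]
      ext i
      refine Fin.cases ?_ (fun i => ?_) i
      · simp [c]
      · simp [c]
    rw [h1]
    exact (b.repr.symm.measurePreserving).comp measurePreserving_mkc

end Crest.Agent.R246.Flat105
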