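import Crest.Agent.R246.E2g_858
import Crest.Agent.R246.Q_538
import Crest.Agent.R246.HomLim_782
import Crest.Agent.R246.D3LimF_67
import Crest.Agent.R246.VarP_872

/-!
Row 246, assembly of `Skel2.StE` (helper858) from: 782 (Arzelà–Ascoli, limit measure), 538
(concentration, (VAR) in the limit), 67 (Riccati limit), 858 (strong convergence, eikonal
equation), 872 (total mass, (VAR) for `φ`).
-/

set_option autoImplicit false

open Filter Topology Metric Set MeasureTheory
open scoped ContDiff RealInnerProductSpace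
open Crest.Agent.R246.D2x782 Crest.Agent.R246.G873
open Crest.Agent.R246.H990 (NullCone VB cV)
open Crest.Agent.R246.Skel656

noncomputable section

namespace Crest.Agent.R246.StE858

variable {m : ℕ}

theorem hom_phi {r : E m → ℝ} (hr : E2x782.Geo r) (t : ℝ) (ht : 0 ≤ t) (x : E m) :
    ‖t • x‖ * Real.sin (r (t • x)) = t * (‖x‖ * Real.sin (r x)) := by
  rcases ht.eq_or_lt with rfl | ht
  · simp
  · rw [norm_smul, Real.norm_eq_abs, abs_of_pos ht, hr.hom t x ht, mul_assoc]

theorem hw_of (hm : 1 ≤ m) {ε : ℝ} {R : E m → ℝ} (h : ACsol m ε R) :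
    HL782.HW (Skel2.eDen ε R) ∧
      ∫ x, Real.exp (-‖x‖ ^ 2) * Skel2.eDen ε R x = 3 / 4 * En ε R * cV (E m) := by
  have hS := Lim538.ACsol_sol hm h
  have e : Skel2.eDen ε R = Lim538.wq R ε := funext fun x => Lim538.eDen_eq ε R x
  rw [e, Lim538.sen_eq h]
  refine ⟨hS.hw_wq (by omega), ?_⟩
  rw [hS.integral_exp_wq (by omega), mul_comm]

theorem aclim_arcsin {U : Filter ℕ} {ε : ℕ → ℝ} {R : ℕ → E m → ℝ} {r φ : E m → ℝ}
    {μ : Measure (E m)} {a : ℝ} (h : Skel2.ACLim m U ε R r φ μ a) (x : E m) (hx : x ≠ 0) :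
    r x = Real.arcsin (φ x * ‖x‖⁻¹) := by
  have hx' : ‖x‖ ≠ 0 := norm_ne_zero_iff.2 hx
  have h1 := abs_le.1 (h.rpi x hx)
  rw [h.phi, mul_comm ‖x‖, mul_assoc, mul_inv_cancel₀ hx', mul_one,
    Real.arcsin_sin (by linarith [h1.1]) h1.2]

/-- **Skel2.StE** -/
theorem stE (hm : 2 ≤ m) : Skel2.StE m := by
  intro ε R C hsol hε hE
  have hn3 : 3 ≤ m + 2 := by omega
  have hn4 : 4 ≤ m + 2 := by omega
  obtain ⟨s, hs, r, hgeo, hconv, -⟩ := E2x782.ac_subseq hn3 (fun k => (hsol k).pos)
    (fun k => (hsol k).sm) (fun k => (hsol k).eq)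
  set 𝒰 : Ultrafilter ℕ := (hyperfilter ℕ).map s with h𝒰
  have hUs : (𝒰 : Filter ℕ) = map s (hyperfilter ℕ) := rfl
  have hle : (𝒰 : Filter ℕ) ≤ atTop := by
    rw [hUs]
    exact (map_mono Nat.hyperfilter_le_atTop).trans hs.tendsto_atTop
  have hεU : Tendsto ε (𝒰 : Filter ℕ) (𝓝 0) := hε.mono_left hle
  have hconvU : TendstoUniformlyOn R r (𝒰 : Filter ℕ) {0}ᶜ := by
    intro u hu
    have h1 := (hconv u hu).filter_mono Nat.hyperfilter_le_atTop
    rw [hUs, eventually_map]
    exact h1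
  have hEn0 : ∀ k, 0 ≤ En (ε k) (R k) := fun k => by
    rw [Vb872.En_eq (hsol k)]
    exact integral_nonneg fun z => Vb872.eden_nonneg (hsol k).pos _ _
  have hEnb : ∃ D : ℝ, ∀ᶠ k in (𝒰 : Filter ℕ), |3 / 4 * En (ε k) (R k)| ≤ D := by
    refine ⟨3 / 4 * C, Eventually.of_forall fun k => ?_⟩
    rw [abs_of_nonneg (by linarith [hEn0 k])]
    linarith [hE k]
  set a : ℝ := ul 𝒰 (fun k => 3 / 4 * En (ε k) (R k)) with ha
  have hen : Tendsto (fun k => 3 / 4 * En (ε k) (R k)) (𝒰 : Filter ℕ) (𝓝 a) := tendsto_ul 𝒰 hEnb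
  have hm1 : 1 ≤ m := by omega
  have hHW : ∀ k, HL782.HW (Skel2.eDen (ε k) (R k)) := fun k => (hw_of hm1 (hsol k)).1
  have hcV : 0 < cV (E m) := ThetaK688.cV_pos (m := m) (by simp [E])
  obtain ⟨μ, hfin, hloc⟩ := HL782.exists_lim 𝒰 hHW (C := 3 / 4 * C * cV (E m)) fun k => by
    rw [(hw_of hm1 (hsol k)).2]
    have := hE k
    gcongr
  set φ : E m → ℝ := fun x => ‖x‖ * Real.sin (r x) with hφ
  have hlipφ : LipschitzWith 1 φ := hgeo.lipschitz_phi
  -- the limit along the subsequence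
  have h67 : D3Lim67.ACSeq (fun k => ε (s k)) (fun k => R (s k)) r (3 / 2 * C) :=
    { pos := fun k => (hsol (s k)).pos
      lim := hε.comp hs.tendsto_atTop
      sm := fun k => (hsol (s k)).sm
      eq := fun k => (hsol (s k)).eq
      mass := fun k => by
        have h1 := integral_abs_slap_le hn3 (hsol (s k)).pos (hsol (s k)).sm (hsol (s k)).eq
        have h2 := hE (s k)
        rw [Vb872.En_eq (hsol (s k))] at h2
        refine h1.trans ?_
        have h3 : ∫ z : Crest.Agent.R202.SphDiv.Sph (m + 2), eden (ε (s k)) (R (s k)) z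
            ∂(Crest.Agent.R202.SphDiv.sig (m + 2)) ≤ C := h2
        linarith
      geo := hgeo
      conv := hconv }
  have hrpi : ∀ x, x ≠ 0 → |r x| ≤ Real.pi / 2 := fun x hx =>
    D3Lim67.abs_le_pi_div_two hn4 h67 hx
  have hL : Skel2.ACLim m 𝒰 ε R r φ μ a :=
    { neBot := 𝒰.neBot
      le := hle
      sol := hsol
      eps := hεU
      geo := hgeo
      rpi := hrpi
      conv := hconvU
      phi := fun x => rfl
      en := hen
      fin := hfin
      loc := hloc }
  have hseq := E2x858.acseq_base (F := (𝒰 : Filter ℕ)) (C := C) hn3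
    (Eventually.of_forall fun k => (hsol k).pos) hεU (Eventually.of_forall fun k => (hsol k).sm)
    (Eventually.of_forall fun k => (hsol k).eq) (Eventually.of_forall fun k => by
      have h2 := hE k
      rw [Vb872.En_eq (hsol k)] at h2
      exact h2) hconvU
  have hcD : ClassD φ :=
    { lip := hlipφ
      grad := E2x858.base_grad hn3 (fun t ht x => hgeo.hom t x ht) hseq
      sup := fun ζ h1 h2 h3 h4 => D3Lim67.supp hn4 h67 ζ h1 h2 h3 h4
      sub := fun ζ h1 h2 h3 h4 => D3Lim67.subm hn4 h67 ζ h1 h2 h3 h4 }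
  have hhom : ∀ t : ℝ, 0 ≤ t → ∀ x, φ (t • x) = t * φ x := fun t ht x => hom_phi hgeo t ht x
  refine ⟨𝒰, r, φ, μ, a, hL, ?_⟩
  exact
    { hom := hhom
      cD := hcD
      conc := by
        refine (Lim538.mlim_of hL).conc (fun k => Lim538.ACsol_sol hm1 (hsol k)) hεU
          hlipφ.continuous hhom ?_
        rw [Metric.tendstoUniformlyOn_iff]
        intro δ hδ
        filter_upwards [Metric.tendstoUniformlyOn_iff.1 hconvU δ hδ] with k hk x hx
        have hx1 : ‖x‖ = 1 := mem_sphere_zero_iff_norm.1 hx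
        have hx0 : x ∈ ({0}ᶜ : Set (E m)) := by
          intro h0
          rw [mem_singleton_iff] at h0
          rw [h0, norm_zero] at hx1
          exact zero_ne_one hx1
        have h1 := hk x hx0
        rw [Real.dist_eq] at h1 ⊢
        simp only [hφ, hx1, one_mul]
        exact (Real.abs_sin_sub_sin_le _ _).trans_lt h1
      homμ := HL782.homμ (by omega) hHW hloc
      var := Lim538.var_of_wq hn3 (fun k => Lim538.ACsol_sol hm1 (hsol k)) hεU (C := C)
        (Eventually.of_forall fun k => by rw [← Lim538.sen_eq (hsol k)]; exact hE k) hconvU hcD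
        hhom (aclim_arcsin hL) (Lim538.mlim_of hL)
      mass := by
        refine HL782.mass hHW hloc ?_
        have h1 := hen.mul_const (cV (E m))
        refine h1.congr fun k => ?_
        rw [(hw_of hm1 (hsol k)).2] }

end Crest.Agent.R246.StE858
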