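import Crest.Agent.R246.H2c6_622
import Crest.Agent.R246.Reg_549

/-!
R246, block H2c (helper622): `Reg549.StH2c`.
-/

namespace Crest.Agent.R246.H2x622

open MeasureTheory

theorem stH2c (F : Type) [NormedAddCommGroup F] [InnerProductSpace ℝ F] [FiniteDimensional ℝ F]
    [MeasurableSpace F] [BorelSpace F] : Reg549.StH2c F :=
  fun r K α w h1 h2 h3 h4 h5 h6 h7 h8 => smooth_of_weak_mse r K α w h1 h2 h3 h4 h5 h6 h7 h8

end Crest.Agent.R246.H2x622
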