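import Crest.Agent.R246.IF8_101
import Crest.Agent.R246.IN11_200
import Crest.Agent.R246.IdxH_149

/-!
# `StIdx m` (helper101): near_HN (helper200) + exists_dir (helper149) + family assembly
-/

set_option autoImplicit false
noncomputable section
open MeasureTheory Set Filter Topology Metric
open scoped RealInnerProductSpace ContDiff

namespace Crest.Agent.R246.IF101

open Crest.Agent.R246.Skel656 (E)
open Crest.Agent.R246.Skel2 (StIdx)

theorem nearE (m : ℕ) : NearE m := by
  intro φ b S _ hT _ G hG
  exact IN200.near_HN S hT (fun p hp => hG p hp.1 hp.2)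

theorem coerL {m : ℕ} (hm : 1 ≤ m) : CoerL m := by
  intro φ b S _ hT _ h hh h0 hlt
  exact IdxG149.exists_dir hT (fun x hx h0 => S.good x hx h0) (fun x hx h0 => S.min x hx h0) hm
    (by rw [finrank_euclideanSpace_fin]) (fun p hp => hh p hp.1) h0 hlt

theorem stIdx {m : ℕ} (hm : 1 ≤ m) : StIdx m := stIdx_of hm (nearE m) (coerL hm)

end Crest.Agent.R246.IF101
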