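import Crest.Agent.R246.Skel2_656
import Crest.Agent.R246.IF7_101
import Crest.Agent.R246.IN11_200
import Crest.Agent.R246.IdxH_149

/-!
# R246: `StIdx` from 200's near lemma, 149's direction lemma and 101's assembly (helper656, glue)
-/

set_option autoImplicit false
open scoped ContDiff Topology RealInnerProductSpace
open MeasureTheory Filter Metric Set
open Crest.Agent.R246.H990 (NullCone VB cV)
open Crest.Agent.R246.G873
open Crest.Agent.R246.SM436 (Good SmoothMin hs Tube mu Lk)
open Crest.Agent.R246.Hersch900 (SmS T)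
open Crest.Agent.R246.HerschSM900 (A2 AreaMeas)
open Crest.Agent.R246.Skel656 Crest.Agent.R246.Skel2

noncomputable section

namespace Crest.Agent.R246.StIdx656

theorem stIdx {m : ℕ} (hm : 1 ≤ m) : StIdx m := by
  intro φ b S hD hT hA hV h hh hh0 hlt
  have hfE : Module.finrank ℝ (E m) = m + 2 := by simp [E]
  have hfin := hA.fin
  obtain ⟨⟨α, β, a, c, hc, hQ⟩, hsp⟩ := IdxG149.exists_dir hT S.good S.min hm hfE
    (fun p hp => hh p hp.1) hh0 hlt
  -- positivity of the area
  have hV0 : 0 < (mu φ b).real univ := by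
    by_contra hcon
    have h0 : (mu φ b).real univ = 0 := le_antisymm (not_lt.1 hcon) measureReal_nonneg
    have h1 : mu φ b = 0 := by
      have h2 : mu φ b univ = 0 := by
        rcases (ENNReal.toReal_eq_zero_iff _).1 h0 with h3 | h3
        · exact h3
        · exact absurd h3 (measure_ne_top _ _)
      exact Measure.measure_univ_eq_zero.1 h2
    rw [h1] at hlt
    simp at hlt
  set G : E m → ℝ := fun x => α * h x + β + ⟪a, gradient φ x⟫ with hG
  have hGs : ∀ p ∈ Lk φ, ContDiffAt ℝ ∞ G p := by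
    intro p hp
    have hp0 : p ≠ 0 := by
      rintro rfl
      simpa using hp.1
    have h1 := (S.good p hp0 hp.2).contDiffAt_gradient
    exact (((contDiffAt_const.mul (hh p hp.1)).add contDiffAt_const).add
      (contDiffAt_const.inner ℝ h1))
  obtain ⟨gt, t0, d0, C, om, hgt, ht0, hd0, hC, hom, hC1, hen⟩ := IN200.near_HN S hT hGs
  refine IF101.hasFam_of_near hm S hV hV0 (fun w hw => ?_) hgt ht0 hd0 hC hc hom hC1 ?_
  · obtain ⟨p, h1, h2, h3, h4⟩ := hsp w hw
    exact ⟨p, ⟨h1, h2, h3⟩, h4⟩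
  · intro ε hε hε1 s z θ hs hz hθ
    refine (hen ε hε hε1 s z θ hs hz hθ).trans ?_
    have h1 := hQ s θ z
    unfold IdxG149.QQ at h1
    have h2 : 4 / 3 * ((mu φ b).real univ + 1 / 2 *
        (∫ x, T (gradient φ) (fun x => s * G x + θ - ⟪z, x⟫) x ∂(mu φ b)
        - ∫ x, A2 φ x * (s * G x + θ - ⟪z, x⟫) ^ 2 ∂(mu φ b)
        - m * ∫ x, (s * G x + θ - ⟪z, x⟫) ^ 2 ∂(mu φ b))) ≤
        4 / 3 * ((mu φ b).real univ - c / 2 * (s ^ 2 + θ ^ 2 + ‖z‖ ^ 2)) := by
      have h3 := h1
      simp only [hG]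
      linarith
    linarith

end Crest.Agent.R246.StIdx656
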