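import Crest.Agent.R246.Skel_656
import Crest.Agent.R246.J4_816
import Crest.Agent.R246.JE_364

/-!
Row 246, part J: the final statement `StJ`.
-/

set_option autoImplicit false

open scoped ContDiff Manifold Topology
open Bundle Crest.GeometryTopology.CoordMetric Crest.GeometryTopology.ChartCurvature
  Crest.GeometryTopology.SphereImmersion
open MeasureTheory Filter Metric Set

noncomputable section

namespace Crest.Agent.R246.JE364

universe u

/-- **J-final.** -/
theorem stJ (m : ℕ) (hm : 2 ≤ m) : Crest.Agent.R246.Skel656.StJ.{u} m := by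
  intro M _ _ _ _ _ _ _ _ _ _ F hF hS hiso hmin hntg hfin
  obtain ⟨h1, h2, h3, h4⟩ := Crest.Agent.R246.J816.data_of m M F hF hS hiso hmin hntg
  haveI : IsFiniteMeasure (Measure.euclideanHausdorffMeasure m : Measure M) :=
    ⟨lt_top_iff_ne_top.2 hfin⟩
  exact stJE hm M F (Measure.euclideanHausdorffMeasure m) h1 h2 h4 h3

end Crest.Agent.R246.JE364
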