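import Crest.Agent.R246.NcGlue_475
import Crest.Agent.R246.NcMain_112

/-!
R246, block NC: `Skel2.StNC` (helper475; pointwise part helper112).
-/

set_option autoImplicit false
open MeasureTheory Set Filter Topology
open scoped RealInnerProductSpace ContDiff
open Crest.Agent.R246.SM436 (Good SmoothMin hs Tube mu)
open Crest.Agent.R246.HerschSM900 (A2 AreaMeas)

noncomputable section

namespace Crest.Agent.R246.StNC475

/-- **NC** -/
theorem stNC {m : ℕ} (hm : 1 ≤ m) : Skel2.StNC m := by
  intro φ b hS hD hT hA
  refine NcMain475.nc_main hS hA (NcGlue475.barSt_of hS ?_)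
  refine NcMain112.nc_barriers (stdOrthonormalBasis ℝ (Skel656.E m)) (m := (m : ℝ)) ?_
    (by exact_mod_cast hm) hT hS.min ?_
  · simp [Skel656.E]
  · intro x hx h0
    exact NcGlue475.hne_of hT (Skel2.signedDist hD) hS.good hx h0

end Crest.Agent.R246.StNC475
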