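import Crest.Agent.R246.SM10_436
import Crest.Agent.R246.Skel2_656

/-!
# `StSM` (helper436)
-/

set_option autoImplicit false
noncomputable section
open MeasureTheory Set Filter Topology Module

namespace Crest.Agent.R246.SM436

open Crest.Agent.R246.Skel656 (E)
open Crest.Agent.R246.Skel2

/-- **SM**: the area measure of a smooth minimal null hypercone, `V(φ) = μ(M')`. -/
theorem stSM {m : ℕ} (hm : 1 ≤ m) : StSM m := by
  intro φ b S hD hT
  have hE : finrank ℝ (E m) = m + 2 := by simp [E]
  have hNt : Nontrivial (E m) := by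
    apply Module.nontrivial_of_finrank_pos (R := ℝ); omega
  refine ⟨hT.mu_ne_zero (hT.Lk_nonempty S.nc (signedDist hD)), areaMeas S hT hm hE,
    hT.VB_mu (by omega) S.nc hD, fun A hA => hT.mu_le_of_VB (by omega) hA⟩

end Crest.Agent.R246.SM436
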