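import Mathlib
import Crest.Prelude.Def_SphereImmersion

/-!
# R246, part K: the numbers `Θ_m = min_k cliffordVolume m k / |S^m|`

`theta a b = |Clifford_{a,b}| / |S^{a+b}|` is decreasing in `b` (and in `a`); `Theta 2 = π/2`.
-/

set_option autoImplicit false

open Crest.GeometryTopology.SphereImmersion Filter Topology

namespace Crest.Agent.R246.Theta622

noncomputable section

/-! ### the elementary inequality -/

/-- `H(w) = -log(1-4w)+2log(1-w)-2w/(1-w) ≥ 0` on `[0,1/4)`. -/
theorem H_nonneg {w : ℝ} (h0 : 0 ≤ w) (h1 : w < 1 / 4) :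
    0 ≤ -Real.log (1 - 4 * w) + 2 * Real.log (1 - w) - 2 * w / (1 - w) := by
  set H : ℝ → ℝ := fun w => -Real.log (1 - 4 * w) + 2 * Real.log (1 - w) - 2 * w / (1 - w) with hH
  have hder : ∀ x ∈ Set.Ico (0:ℝ) (1/4), HasDerivAt H
      (-((-4) / (1 - 4 * x)) + 2 * ((-1) / (1 - x)) -
        (2 * (1 - x) - 2 * x * (-1)) / (1 - x) ^ 2) x := by
    intro x hx
    have hx1 : x < 1 / 4 := hx.2
    have a1 : HasDerivAt (fun w : ℝ => 1 - 4 * w) (-4) x := by
      simpa using ((hasDerivAt_id x).const_mul (4:ℝ)).const_sub 1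
    have a2 : HasDerivAt (fun w : ℝ => 1 - w) (-1) x := by
      simpa using (hasDerivAt_id x).const_sub 1
    have a3 : HasDerivAt (fun w : ℝ => 2 * w) 2 x := by
      simpa using (hasDerivAt_id x).const_mul (2:ℝ)
    have b1 := a1.log (by intro h; linarith)
    have b2 := (a2.log (by intro h; linarith)).const_mul 2
    have b3 := a3.div a2 (by intro h; linarith)
    exact (b1.neg.add b2).sub b3
  have hcont : ContinuousOn H (Set.Ico (0:ℝ) (1/4)) := fun x hx =>
    (hder x hx).continuousAt.continuousWithinAt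
  have hmono : MonotoneOn H (Set.Ico (0:ℝ) (1/4)) := by
    apply monotoneOn_of_deriv_nonneg (convex_Ico _ _) hcont
    · intro x hx
      rw [interior_Ico] at hx
      exact (hder x ⟨hx.1.le, hx.2⟩).differentiableAt.differentiableWithinAt
    · intro x hx
      rw [interior_Ico] at hx
      rw [(hder x ⟨hx.1.le, hx.2⟩).deriv]
      have hx0 : 0 < x := hx.1
      have hx1 : x < 1/4 := hx.2
      have e1 : 0 < 1 - 4 * x := by linarith
      have e2 : 0 < 1 - x := by linarith
      have : -((-4) / (1 - 4 * x)) + 2 * ((-1) / (1 - x)) -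
        (2 * (1 - x) - 2 * x * (-1)) / (1 - x) ^ 2 =
          (10 * x - 4 * x ^ 2) / ((1 - 4 * x) * (1 - x) ^ 2) := by
        field_simp
        ring
      rw [this]
      apply div_nonneg
      · nlinarith
      · positivity
  have h := hmono ⟨le_rfl, by norm_num⟩ ⟨h0, h1⟩ h0
  have hz : H 0 = 0 := by simp [hH]
  rw [hz] at h
  exact h

/-- `F(s) ≥ 0` on `[0,1/2)`. -/
theorem F_nonneg {s : ℝ} (h0 : 0 ≤ s) (h1 : s < 1 / 2) :
    0 ≤ (Real.log (1 - 2 * s) - Real.log (1 + 2 * s)) / 2 -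
        (Real.log (1 - s) - Real.log (1 + s)) +
        s * (-(Real.log (1 - 2 * s) + Real.log (1 + 2 * s)) +
          2 * (Real.log (1 - s) + Real.log (1 + s))) := by
  set F : ℝ → ℝ := fun s => (Real.log (1 - 2 * s) - Real.log (1 + 2 * s)) / 2 -
        (Real.log (1 - s) - Real.log (1 + s)) +
        s * (-(Real.log (1 - 2 * s) + Real.log (1 + 2 * s)) +
          2 * (Real.log (1 - s) + Real.log (1 + s))) with hF
  have hder : ∀ x ∈ Set.Ico (0:ℝ) (1/2), HasDerivAt F
      (((-2) / (1 - 2 * x) - 2 / (1 + 2 * x)) / 2 - ((-1) / (1 - x) - 1 / (1 + x)) +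
        (1 * (-(Real.log (1 - 2 * x) + Real.log (1 + 2 * x)) +
          2 * (Real.log (1 - x) + Real.log (1 + x))) +
         x * (-((-2) / (1 - 2 * x) + 2 / (1 + 2 * x)) + 2 * ((-1) / (1 - x) + 1 / (1 + x))))) x := by
    intro x hx
    have hx0 : 0 ≤ x := hx.1
    have hx1 : x < 1 / 2 := hx.2
    have a1 : HasDerivAt (fun w : ℝ => 1 - 2 * w) (-2) x := by
      simpa using ((hasDerivAt_id x).const_mul (2:ℝ)).const_sub 1
    have a2 : HasDerivAt (fun w : ℝ => 1 + 2 * w) 2 x := by
      simpa using ((hasDerivAt_id x).const_mul (2:ℝ)).const_add 1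
    have a3 : HasDerivAt (fun w : ℝ => 1 - w) (-1) x := by
      simpa using (hasDerivAt_id x).const_sub 1
    have a4 : HasDerivAt (fun w : ℝ => 1 + w) 1 x := by
      simpa using (hasDerivAt_id x).const_add 1
    have b1 := a1.log (by intro h; linarith)
    have b2 := a2.log (by intro h; linarith)
    have b3 := a3.log (by intro h; linarith)
    have b4 := a4.log (by intro h; linarith)
    exact (((b1.sub b2).div_const 2).sub (b3.sub b4)).add
      ((hasDerivAt_id x).mul ((b1.add b2).neg.add ((b3.add b4).const_mul 2)))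
  have hcont : ContinuousOn F (Set.Ico (0:ℝ) (1/2)) := fun x hx =>
    (hder x hx).continuousAt.continuousWithinAt
  have hmono : MonotoneOn F (Set.Ico (0:ℝ) (1/2)) := by
    apply monotoneOn_of_deriv_nonneg (convex_Ico _ _) hcont
    · intro x hx
      rw [interior_Ico] at hx
      exact (hder x ⟨hx.1.le, hx.2⟩).differentiableAt.differentiableWithinAt
    · intro x hx
      rw [interior_Ico] at hx
      rw [(hder x ⟨hx.1.le, hx.2⟩).deriv]
      have hx0 : 0 < x := hx.1
      have hx1 : x < 1/2 := hx.2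
      have e1 : 0 < 1 - 2 * x := by linarith
      have e2 : 0 < 1 + 2 * x := by linarith
      have e3 : 0 < 1 - x := by linarith
      have e4 : 0 < 1 + x := by linarith
      have hw := H_nonneg (w := x ^ 2) (by positivity) (by nlinarith)
      have l1 : Real.log (1 - 4 * x ^ 2) = Real.log (1 - 2 * x) + Real.log (1 + 2 * x) := by
        rw [← Real.log_mul e1.ne' e2.ne']; congr 1; ring
      have l2 : Real.log (1 - x ^ 2) = Real.log (1 - x) + Real.log (1 + x) := by
        rw [← Real.log_mul e3.ne' e4.ne']; congr 1; ring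
      rw [l1, l2] at hw
      have e5 : 0 < 1 - x ^ 2 := by nlinarith
      have key : ((-2) / (1 - 2 * x) - 2 / (1 + 2 * x)) / 2 - ((-1) / (1 - x) - 1 / (1 + x)) +
         x * (-((-2) / (1 - 2 * x) + 2 / (1 + 2 * x)) + 2 * ((-1) / (1 - x) + 1 / (1 + x)))
          = - (2 * x ^ 2 / (1 - x ^ 2)) := by
        have : (1 - x ^ 2) = (1 - x) * (1 + x) := by ring
        rw [this]
        field_simp
        ring
      nlinarith [key, hw]
  have h := hmono ⟨le_rfl, by norm_num⟩ ⟨h0, h1⟩ h0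
  have hz : F 0 = 0 := by simp [hF]
  rw [hz] at h
  exact h

/-- The function `P(x)`, in logarithmic form. -/
def p (x : ℝ) : ℝ :=
  (x - 1/2) * Real.log (2 * x - 1) + (x + 1/2) * Real.log (2 * x + 1) - 2 * x * Real.log (2 * x)

/-- the key step inequality -/
theorem p_step {x : ℝ} (hx : 1 / 2 < x) :
    2 * Real.log (2 * x + 1) - Real.log (2 * x) - Real.log (2 * x + 2) ≤ p x - p (x + 1) := by
  have hy : 2 < 2 * x + 1 := by linarith
  set y := 2 * x + 1 with hyd
  have hy0 : 0 < y := by linarith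
  have hs0 : (0:ℝ) ≤ 1 / y := by positivity
  have hs1 : 1 / y < 1 / 2 := by
    rw [div_lt_div_iff₀ hy0 (by norm_num)]; linarith
  have h := F_nonneg hs0 hs1
  have e1 : Real.log (1 - 2 * (1 / y)) = Real.log (2 * x - 1) - Real.log y := by
    rw [← Real.log_div (by intro h; linarith) hy0.ne']; congr 1; field_simp; rw [hyd]; ring
  have e2 : Real.log (1 + 2 * (1 / y)) = Real.log (2 * x + 3) - Real.log y := by
    rw [← Real.log_div (by intro h; linarith) hy0.ne']; congr 1; field_simp; rw [hyd]; ring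
  have e3 : Real.log (1 - 1 / y) = Real.log (2 * x) - Real.log y := by
    rw [← Real.log_div (by intro h; linarith) hy0.ne']; congr 1; field_simp; rw [hyd]; ring
  have e4 : Real.log (1 + 1 / y) = Real.log (2 * x + 2) - Real.log y := by
    rw [← Real.log_div (by intro h; linarith) hy0.ne']; congr 1; field_simp; rw [hyd]; ring
  rw [e1, e2, e3, e4] at h
  have h2 := mul_nonneg hy0.le h
  have hyy : y * (1 / y) = 1 := by field_simp
  have hxy : x = (y - 1) / 2 := by rw [hyd]; ring
  unfold p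
  have r1 : 2 * (x + 1) - 1 = y := by rw [hyd]; ring
  have r2 : 2 * (x + 1) + 1 = 2 * x + 3 := by ring
  have r3 : 2 * (x + 1) = 2 * x + 2 := by ring
  rw [r1, r2, r3]
  have h3 : y * ((Real.log (2 * x - 1) - Real.log y - (Real.log (2 * x + 3) - Real.log y)) / 2 -
        (Real.log (2 * x) - Real.log y - (Real.log (2 * x + 2) - Real.log y)) +
        1 / y * (-(Real.log (2 * x - 1) - Real.log y + (Real.log (2 * x + 3) - Real.log y)) +
          2 * (Real.log (2 * x) - Real.log y + (Real.log (2 * x + 2) - Real.log y)))) =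
      y * ((Real.log (2 * x - 1) - Real.log (2 * x + 3)) / 2 -
        (Real.log (2 * x) - Real.log (2 * x + 2))) +
        (-(Real.log (2 * x - 1) + Real.log (2 * x + 3)) +
          2 * (Real.log (2 * x) + Real.log (2 * x + 2)) - 2 * Real.log y) := by
    have : y * (1 / y * (-(Real.log (2 * x - 1) - Real.log y + (Real.log (2 * x + 3) - Real.log y)) +
          2 * (Real.log (2 * x) - Real.log y + (Real.log (2 * x + 2) - Real.log y)))) =
          (y * (1 / y)) * (-(Real.log (2 * x - 1) - Real.log y + (Real.log (2 * x + 3) - Real.log y)) +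
          2 * (Real.log (2 * x) - Real.log y + (Real.log (2 * x + 2) - Real.log y))) := by ring
    rw [mul_add, this, hyy]
    ring
  rw [h3] at h2
  have hyx : y = 2 * x + 1 := hyd
  generalize Real.log (2 * x - 1) = A at *
  generalize Real.log (2 * x) = B at *
  generalize Real.log (2 * x + 2) = C at *
  generalize Real.log (2 * x + 3) = D at *
  generalize Real.log y = L at *
  nlinarith [h2]

theorem p_nonneg {x : ℝ} (hx : 1 / 2 < x) : 0 ≤ p x := by
  have h1 : 0 < 2 * x - 1 := by linarith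
  have h2 : 0 < 2 * x := by linarith
  have h3 : 0 < 2 * x + 1 := by linarith
  have a1 : -(1 / (2 * x - 1)) ≤ Real.log (2 * x - 1) - Real.log (2 * x) := by
    have h := Real.one_sub_inv_le_log_of_pos (div_pos h1 h2)
    rw [Real.log_div h1.ne' h2.ne'] at h
    have : 1 - ((2 * x - 1) / (2 * x))⁻¹ = -(1 / (2 * x - 1)) := by
      field_simp
      ring
    rw [this] at h
    exact h
  have a2 : 1 / (2 * x + 1) ≤ Real.log (2 * x + 1) - Real.log (2 * x) := by
    have h := Real.one_sub_inv_le_log_of_pos (div_pos h3 h2)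
    rw [Real.log_div h3.ne' h2.ne'] at h
    have : 1 - ((2 * x + 1) / (2 * x))⁻¹ = 1 / (2 * x + 1) := by
      field_simp
      ring
    rw [this] at h
    exact h
  have b1 := mul_le_mul_of_nonneg_left a1 (by linarith : (0:ℝ) ≤ x - 1/2)
  have b2 := mul_le_mul_of_nonneg_left a2 (by linarith : (0:ℝ) ≤ x + 1/2)
  have c1 : (x - 1/2) * -(1 / (2 * x - 1)) = -(1/2) := by
    have h1' : 2 * x - 1 ≠ 0 := h1.ne'
    rw [show x - 1/2 = (2 * x - 1) * (1/2) by ring]
    field_simp
  have c2 : (x + 1/2) * (1 / (2 * x + 1)) = 1/2 := by field_simp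
  rw [c1] at b1
  rw [c2] at b2
  unfold p
  linarith

/-- `q x = log (Γ(x+1/2)² / (x Γ(x)²)) + p x`. -/
def q (x : ℝ) : ℝ :=
  p x + 2 * Real.log (Real.Gamma (x + 1/2)) - Real.log x - 2 * Real.log (Real.Gamma x)

theorem q_step {x : ℝ} (hx : 1 / 2 < x) : q (x + 1) ≤ q x := by
  have hx0 : 0 < x := by linarith
  have h := p_step hx
  have g1 : Real.log (Real.Gamma (x + 1 + 1/2)) =
      Real.log (x + 1/2) + Real.log (Real.Gamma (x + 1/2)) := by
    rw [show x + 1 + 1/2 = (x + 1/2) + 1 by ring, Real.Gamma_add_one (by linarith),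
      Real.log_mul (by linarith) (Real.Gamma_pos_of_pos (by linarith)).ne']
  have g2 : Real.log (Real.Gamma (x + 1)) = Real.log x + Real.log (Real.Gamma x) := by
    rw [Real.Gamma_add_one hx0.ne', Real.log_mul hx0.ne' (Real.Gamma_pos_of_pos hx0).ne']
  have l1 : Real.log (2 * x + 1) = Real.log 2 + Real.log (x + 1/2) := by
    rw [← Real.log_mul (by norm_num) (by linarith)]; congr 1; ring
  have l2 : Real.log (2 * x) = Real.log 2 + Real.log x := by
    rw [← Real.log_mul (by norm_num) (by linarith)]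
  have l3 : Real.log (2 * x + 2) = Real.log 2 + Real.log (x + 1) := by
    rw [← Real.log_mul (by norm_num) (by linarith)]; congr 1; ring
  rw [l1, l2, l3] at h
  unfold q
  rw [g1, g2]
  linarith

theorem q_lower {x : ℝ} (hx : 1 / 2 < x) : Real.log x - Real.log (x + 1/2) ≤ q x := by
  have hx0 : 0 < x := by linarith
  have hp := p_nonneg hx
  -- log convexity of Gamma at `x+1/2 < x+1 < x+3/2`
  have hc := Real.convexOn_log_Gamma.2 (show x + 1/2 ∈ Set.Ioi (0:ℝ) by
      simp only [Set.mem_Ioi]; linarith) (show x + 3/2 ∈ Set.Ioi (0:ℝ) by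
      simp only [Set.mem_Ioi]; linarith) (show (0:ℝ) ≤ 1/2 by norm_num)
      (show (0:ℝ) ≤ 1/2 by norm_num) (by norm_num)
  simp only [Function.comp, smul_eq_mul] at hc
  have e : 1/2 * (x + 1/2) + 1/2 * (x + 3/2) = x + 1 := by ring
  rw [e] at hc
  have g1 : Real.log (Real.Gamma (x + 3/2)) =
      Real.log (x + 1/2) + Real.log (Real.Gamma (x + 1/2)) := by
    rw [show x + 3/2 = (x + 1/2) + 1 by ring, Real.Gamma_add_one (by linarith),
      Real.log_mul (by linarith) (Real.Gamma_pos_of_pos (by linarith)).ne']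
  have g2 : Real.log (Real.Gamma (x + 1)) = Real.log x + Real.log (Real.Gamma x) := by
    rw [Real.Gamma_add_one hx0.ne', Real.log_mul hx0.ne' (Real.Gamma_pos_of_pos hx0).ne']
  rw [g1, g2] at hc
  unfold q
  linarith

theorem q_nonneg {x : ℝ} (hx : 1 / 2 < x) : 0 ≤ q x := by
  have h1 : ∀ n : ℕ, q (x + n) ≤ q x := by
    intro n
    induction n with
    | zero => simp
    | succ n ih =>
      have : x + ((n + 1 : ℕ) : ℝ) = (x + n) + 1 := by push_cast; ring
      rw [this]
      exact (q_step (by positivity |> fun (h : (0:ℝ) ≤ (n:ℝ)) => by linarith)).trans ih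
  have h2 : ∀ n : ℕ, Real.log ((x + n) / (x + n + 1/2)) ≤ q x := by
    intro n
    have hn : (0:ℝ) ≤ n := Nat.cast_nonneg n
    have := q_lower (x := x + n) (by linarith)
    rw [Real.log_div (by linarith) (by linarith)]
    exact this.trans (h1 n)
  have h3 : Tendsto (fun n : ℕ => Real.log ((x + n) / (x + n + 1/2))) atTop (𝓝 0) := by
    have : Tendsto (fun n : ℕ => (x + n) / (x + n + 1/2)) atTop (𝓝 1) := by
      have h4 : Tendsto (fun n : ℕ => (1:ℝ)/2 / (x + n + 1/2)) atTop (𝓝 0) := by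
        apply Tendsto.div_atTop tendsto_const_nhds
        have := tendsto_natCast_atTop_atTop (R := ℝ)
        have h5 := tendsto_atTop_add_const_left atTop x this
        exact tendsto_atTop_add_const_right atTop (1/2) h5
      have h6 : (fun n : ℕ => (x + n) / (x + n + 1/2)) = fun n : ℕ => 1 - (1:ℝ)/2 / (x + n + 1/2) := by
        funext n
        have hn : (0:ℝ) ≤ n := Nat.cast_nonneg n
        have : x + n + 1/2 ≠ 0 := by linarith
        field_simp
        ring
      rw [h6]
      simpa using h4.const_sub 1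
    have := this.log one_ne_zero
    simpa using this
  exact le_of_tendsto' h3 h2

/-! ### the function `f j = |S^j| j^(j/2)` -/

theorem area_pos (j : ℕ) : 0 < unitSphereArea j := by
  unfold unitSphereArea
  have : 0 < Real.Gamma (((j : ℝ) + 1) / 2) := Real.Gamma_pos_of_pos (by positivity)
  positivity

/-- `log (|S^j| j^(j/2))`. -/
def lf (j : ℕ) : ℝ := Real.log (unitSphereArea j * (j : ℝ) ^ ((j : ℝ) / 2))

theorem lf_eq {j : ℕ} (hj : 1 ≤ j) : lf j =
    Real.log 2 + ((j : ℝ) + 1) / 2 * Real.log Real.pi + (j : ℝ) / 2 * Real.log j -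
      Real.log (Real.Gamma (((j : ℝ) + 1) / 2)) := by
  have hj0 : (0:ℝ) < j := by exact_mod_cast hj
  have hG : 0 < Real.Gamma (((j : ℝ) + 1) / 2) := Real.Gamma_pos_of_pos (by positivity)
  unfold lf unitSphereArea
  rw [Real.log_mul (by positivity) (by positivity), Real.log_div (by positivity) hG.ne',
    Real.log_mul (by positivity) (by positivity), Real.log_rpow Real.pi_pos, Real.log_rpow hj0]
  ring

theorem lf_convex {b : ℕ} (hb : 1 ≤ b) : 2 * lf (b + 1) ≤ lf b + lf (b + 2) := by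
  have hb0 : (1:ℝ) ≤ b := by exact_mod_cast hb
  rw [lf_eq hb, lf_eq (by omega), lf_eq (by omega)]
  have hx : (1:ℝ)/2 < ((b:ℝ) + 1) / 2 := by linarith
  have h := q_nonneg hx
  unfold q p at h
  have g2 : Real.log (Real.Gamma (((b:ℝ) + 1) / 2 + 1)) =
      Real.log (((b:ℝ) + 1) / 2) + Real.log (Real.Gamma (((b:ℝ) + 1) / 2)) := by
    rw [Real.Gamma_add_one (by linarith), Real.log_mul (by linarith)
      (Real.Gamma_pos_of_pos (by linarith)).ne']
  have e1 : (((b + 2 : ℕ) : ℝ) + 1) / 2 = ((b:ℝ) + 1) / 2 + 1 := by push_cast; ring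
  have e2 : (((b + 1 : ℕ) : ℝ) + 1) / 2 = ((b:ℝ) + 1) / 2 + 1 / 2 := by push_cast; ring
  have e3 : 2 * (((b:ℝ) + 1) / 2) - 1 = b := by ring
  have e4 : 2 * (((b:ℝ) + 1) / 2) + 1 = ((b + 2 : ℕ) : ℝ) := by push_cast; ring
  have e5 : 2 * (((b:ℝ) + 1) / 2) = ((b + 1 : ℕ) : ℝ) := by push_cast; ring
  rw [e1, e2, g2]
  rw [e3, e4, e5] at h
  have e6 : ((b + 1 : ℕ) : ℝ) = (b:ℝ) + 1 := by push_cast; ring
  have e7 : ((b + 2 : ℕ) : ℝ) = (b:ℝ) + 2 := by push_cast; ring
  rw [e6, e7] at h ⊢
  generalize Real.log (Real.Gamma (((b:ℝ) + 1) / 2 + 1 / 2)) = A at *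
  generalize Real.log (Real.Gamma (((b:ℝ) + 1) / 2)) = B at *
  generalize Real.log (((b:ℝ) + 1) / 2) = C at *
  generalize Real.log (b:ℝ) = L0 at *
  generalize Real.log ((b:ℝ) + 1) = L1 at *
  generalize Real.log ((b:ℝ) + 2) = L2 at *
  nlinarith [h]

theorem lf_incr {a b : ℕ} (hb : 1 ≤ b) : lf (b + 1) - lf b ≤ lf (a + b + 1) - lf (a + b) := by
  induction a with
  | zero => simp
  | succ a ih =>
    have h := lf_convex (b := a + b) (by omega)
    have e1 : a + 1 + b + 1 = a + b + 2 := by ring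
    have e2 : a + 1 + b = a + b + 1 := by ring
    rw [e1, e2]
    linarith

theorem clifford_pos {a b : ℕ} (ha : 1 ≤ a) (hb : 1 ≤ b) : 0 < cliffordVolume (a + b) a := by
  unfold cliffordVolume
  have ha0 : (0:ℝ) < a := by exact_mod_cast ha
  have hb0 : (0:ℝ) < b := by exact_mod_cast hb
  have e : ((a + b : ℕ) : ℝ) - a = b := by push_cast; ring
  rw [e]
  have := area_pos a
  have := area_pos (a + b - a)
  positivity

/-- `log (|Clifford_{a,b}| / |S^{a+b}|) = lf a + lf b - lf (a+b)`. -/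
theorem log_theta {a b : ℕ} (ha : 1 ≤ a) (hb : 1 ≤ b) :
    Real.log (cliffordVolume (a + b) a / unitSphereArea (a + b)) = lf a + lf b - lf (a + b) := by
  have ha0 : (0:ℝ) < a := by exact_mod_cast ha
  have hb0 : (0:ℝ) < b := by exact_mod_cast hb
  have hA := area_pos a
  have hB := area_pos b
  have hAB := area_pos (a + b)
  have e : ((a + b : ℕ) : ℝ) - a = b := by push_cast; ring
  have e0 : ((a + b : ℕ) : ℝ) = (a:ℝ) + b := by push_cast; ring
  rw [Real.log_div (clifford_pos ha hb).ne' hAB.ne']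
  unfold cliffordVolume lf
  rw [e, Nat.add_sub_cancel_left, e0]
  rw [Real.log_mul (by positivity) (by positivity), Real.log_mul (by positivity) (by positivity),
    Real.log_mul (by positivity) (by positivity), Real.log_mul (by positivity) (by positivity),
    Real.log_mul (by positivity) (by positivity), Real.log_mul (by positivity) (by positivity),
    Real.log_rpow (by positivity), Real.log_rpow (by positivity), Real.log_rpow (by positivity),
    Real.log_rpow (by positivity), Real.log_rpow (by positivity),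
    Real.log_div ha0.ne' (by positivity), Real.log_div hb0.ne' (by positivity)]
  ring

/-- **K1.** `|Clifford_{a,b+1}| / |S^{a+b+1}| ≤ |Clifford_{a,b}| / |S^{a+b}|`. -/
theorem ratio_step {a b : ℕ} (ha : 1 ≤ a) (hb : 1 ≤ b) :
    cliffordVolume (a + b + 1) a / unitSphereArea (a + b + 1) ≤
      cliffordVolume (a + b) a / unitSphereArea (a + b) := by
  have h1 : 0 < cliffordVolume (a + b + 1) a / unitSphereArea (a + b + 1) :=
    div_pos (clifford_pos (b := b + 1) ha (by omega)) (area_pos _)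
  have h2 : 0 < cliffordVolume (a + b) a / unitSphereArea (a + b) :=
    div_pos (clifford_pos ha hb) (area_pos _)
  rw [← Real.log_le_log_iff h1 h2]
  have e1 := log_theta (a := a) (b := b + 1) ha (by omega)
  have e2 := log_theta (a := a) (b := b) ha hb
  rw [← add_assoc] at e1
  rw [e1, e2]
  have := lf_incr (a := a) (b := b) hb
  linarith

/-! ### `Wm m = min_k cliffordVolume m k`, `Theta m = Wm m / |S^m|` -/

/-- `Wm m` : the least volume of a minimal Clifford product of dimension `m` (for `m ≥ 2`). -/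
def Wm (m : ℕ) : ℝ := sInf (cliffordVolume m '' Set.Icc 1 (m - 1))

/-- `Theta m = Wm m / |S^m|`. -/
def Theta (m : ℕ) : ℝ := Wm m / unitSphereArea m

theorem Wm_le {m k : ℕ} (h1 : 1 ≤ k) (h2 : k < m) : Wm m ≤ cliffordVolume m k := by
  apply csInf_le
  · exact ((Set.finite_Icc 1 (m - 1)).image _).bddBelow
  · exact ⟨k, ⟨h1, by omega⟩, rfl⟩

theorem exists_eq_Wm {m : ℕ} (hm : 2 ≤ m) : ∃ k, 1 ≤ k ∧ k < m ∧ Wm m = cliffordVolume m k := by
  have hne : (cliffordVolume m '' Set.Icc 1 (m - 1)).Nonempty :=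
    ⟨_, ⟨1, ⟨le_rfl, by omega⟩, rfl⟩⟩
  have := hne.csInf_mem ((Set.finite_Icc 1 (m - 1)).image _)
  obtain ⟨k, hk, hk2⟩ := this
  exact ⟨k, hk.1, by have := hk.2; omega, hk2.symm⟩

theorem Wm_pos {m : ℕ} (hm : 2 ≤ m) : 0 < Wm m := by
  obtain ⟨k, h1, h2, h⟩ := exists_eq_Wm hm
  rw [h]
  obtain ⟨b, rfl⟩ : ∃ b, m = k + b := ⟨m - k, by omega⟩
  exact clifford_pos h1 (by omega)

theorem Theta_pos {m : ℕ} (hm : 2 ≤ m) : 0 < Theta m := div_pos (Wm_pos hm) (area_pos m)

theorem Wm_eq_Theta (m : ℕ) : Wm m = Theta m * unitSphereArea m := by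
  unfold Theta
  rw [div_mul_cancel₀ _ (area_pos m).ne']

/-- **K2.** `Theta (m+1) ≤ Theta m` for `m ≥ 2`. -/
theorem Theta_succ_le {m : ℕ} (hm : 2 ≤ m) : Theta (m + 1) ≤ Theta m := by
  obtain ⟨k, h1, h2, h⟩ := exists_eq_Wm hm
  obtain ⟨b, rfl⟩ : ∃ b, m = k + b := ⟨m - k, by omega⟩
  unfold Theta
  rw [h]
  refine le_trans ?_ (ratio_step h1 (by omega))
  apply div_le_div_of_nonneg_right _ (area_pos _).le
  exact Wm_le h1 (by omega)

theorem area_one : unitSphereArea 1 = 2 * Real.pi := by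
  unfold unitSphereArea
  norm_num

theorem area_two : unitSphereArea 2 = 4 * Real.pi := by
  unfold unitSphereArea
  have h : Real.Gamma (((2:ℕ):ℝ) + 1 : ℝ) = Real.Gamma (((2:ℕ):ℝ) + 1 : ℝ) := rfl
  have e : (((2:ℕ):ℝ) + 1) / 2 = 1/2 + 1 := by norm_num
  rw [e, Real.Gamma_add_one (by norm_num), Real.Gamma_one_half_eq, Real.rpow_add Real.pi_pos,
    Real.rpow_one, Real.sqrt_eq_rpow]
  have : (0:ℝ) < Real.pi ^ ((1:ℝ)/2) := by positivity
  field_simp
  ring

theorem clifford_two : cliffordVolume 2 1 = 2 * Real.pi ^ 2 := by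
  unfold cliffordVolume
  have e1 : (((1:ℕ):ℝ) / ((2:ℕ):ℝ)) = 1/2 := by norm_num
  have e2 : ((((2:ℕ):ℝ) - ((1:ℕ):ℝ)) / ((2:ℕ):ℝ)) = 1/2 := by norm_num
  have e3 : ((1:ℕ):ℝ)/2 = 1/2 := by norm_num
  have e4 : (((2:ℕ):ℝ) - ((1:ℕ):ℝ)) / 2 = 1/2 := by norm_num
  rw [e1, e2, e3, e4]
  have h : ((1:ℝ)/2) ^ ((1:ℝ)/2) * ((1:ℝ)/2) ^ ((1:ℝ)/2) = 1/2 := by
    rw [← Real.rpow_add (by norm_num)]; norm_num
  have h2 : 2 - 1 = 1 := rfl
  rw [h2, area_one]
  calc 2 * Real.pi * ((1:ℝ)/2) ^ ((1:ℝ)/2) * (2 * Real.pi * ((1:ℝ)/2) ^ ((1:ℝ)/2))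
      = (2 * Real.pi) ^ 2 * (((1:ℝ)/2) ^ ((1:ℝ)/2) * ((1:ℝ)/2) ^ ((1:ℝ)/2)) := by ring
    _ = _ := by rw [h]; ring

theorem Wm_two : Wm 2 = 2 * Real.pi ^ 2 := by
  obtain ⟨k, h1, h2, h⟩ := exists_eq_Wm (le_refl 2)
  have : k = 1 := by omega
  rw [h, this, clifford_two]

theorem Theta_two : Theta 2 = Real.pi / 2 := by
  unfold Theta
  rw [Wm_two, area_two]
  field_simp
  ring

theorem Theta_le {m : ℕ} (hm : 2 ≤ m) : Theta m ≤ Real.pi / 2 := by
  induction m, hm using Nat.le_induction with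
  | base => exact Theta_two.le
  | succ m hm ih => exact (Theta_succ_le hm).trans ih

theorem Theta_lt_two {m : ℕ} (hm : 2 ≤ m) : Theta m < 2 := by
  have := Theta_le hm
  have := Real.pi_lt_d2
  linarith

end

end Crest.Agent.R246.Theta622
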