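import Crest.Agent.R246.SM7_436
import Crest.Agent.R246.JE4_364
import Crest.Agent.R246.G0_873

/-!
# Row 246: `VB φ (μ(M'))` for a smooth minimal cone of class D (helper196)
-/

set_option autoImplicit false
set_option linter.unusedSectionVars false
set_option linter.unusedSimpArgs false
noncomputable section
open MeasureTheory Set Filter Topology Module
open scoped RealInnerProductSpace ContDiff

namespace Crest.Agent.R246.VbMu196

open Crest.Agent.R246.H990 Crest.Agent.R246.SM436

variable {E : Type*} [NormedAddCommGroup E] [InnerProductSpace ℝ E] [FiniteDimensional ℝ E]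
  [MeasurableSpace E] [BorelSpace E]

variable {φ : E → ℝ} {b : ℝ}

/-- the zero set is null. -/
lemma ae_ne_zero [Nontrivial E] (hT : Tube φ b) : ∀ᵐ x : E, φ x ≠ 0 := by
  have hφm : Measurable φ := hT.lip.continuous.measurable
  have hms : MeasurableSet {x : E | φ x = 0} := hφm (measurableSet_singleton 0)
  have h1 : volume ({x : E | φ x = 0} ∩ TT φ b) = 0 := by
    have hG : Measurable ({x : E | φ x = 0}.indicator (fun _ => (1 : ENNReal))) :=
      measurable_const.indicator hms
    have h2 := hT.lintegral_tube hG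
    have h3 : ∫⁻ y in TT φ b, {x : E | φ x = 0}.indicator (fun _ => (1 : ENNReal)) y
        = volume ({x : E | φ x = 0} ∩ TT φ b) := by
      rw [lintegral_indicator_const hms, one_mul, Measure.restrict_apply hms]
    rw [← h3, h2]
    refine (lintegral_congr_ae (g := fun _ => 0) ?_).trans (lintegral_zero)
    filter_upwards [hT.ae_mem_Lk] with p hp
    refine (setLIntegral_congr_fun (g := fun _ => 0) measurableSet_Ioi fun ρ hρ => ?_).trans
      (by simp)
    have hρ' : 0 < ρ := hρ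
    have h4 : ∫⁻ τ : ℝ in Ioo (-b) b, ENNReal.ofReal |jt φ p τ| *
        {x : E | φ x = 0}.indicator (fun _ => (1 : ENNReal)) (ρ • (p + τ • gradient φ p)) = 0 := by
      rw [lintegral_eq_zero_iff' ?_]
      · have h5 : ∀ᵐ τ : ℝ ∂(volume.restrict (Ioo (-b) b)), τ ≠ 0 ∧ τ ∈ Ioo (-b) b := by
          have h6 : ∀ᵐ τ : ℝ ∂(volume.restrict (Ioo (-b) b)), τ ≠ 0 :=
            ae_restrict_of_ae (by simp [ae_iff])
          filter_upwards [h6, ae_restrict_mem measurableSet_Ioo] with τ h7 h8 using ⟨h7, h8⟩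
        filter_upwards [h5] with τ hτ
        have h6 : |τ| < b := _root_.abs_lt.2 hτ.2
        obtain ⟨g1, g2, g3, g4⟩ := hT.seg' hp.1 hp.2 hρ' h6
        rw [indicator_of_notMem, mul_zero]
        · rfl
        · intro h7
          have h8 : φ (ρ • (p + τ • gradient φ p)) = 0 := h7
          have h9 : ta φ (ρ • (p + τ • gradient φ p)) = 0 := by
            rw [ta, h8, zero_div]
          rw [hT.ta_smul _ hρ', (hT.seg_one hp h6).2.2.2] at h9
          exact hτ.1 h9
      · have hjt := measurable_jt φ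
        have e1 : Measurable fun τ : ℝ => jt φ p τ := hjt.comp (measurable_const.prodMk measurable_id)
        have e2 : Measurable fun τ : ℝ => ρ • (p + τ • gradient φ p) := by fun_prop
        exact ((ENNReal.measurable_ofReal.comp (continuous_abs.measurable.comp e1)).mul
          (hG.comp e2)).aemeasurable
    show ENNReal.ofReal (ρ ^ (finrank ℝ E - 1)) * _ = 0
    rw [h4, mul_zero]
  have h2 : volume ({0} : Set E) = 0 := measure_singleton 0
  rw [ae_iff]
  refine measure_mono_null (t := ({x : E | φ x = 0} ∩ TT φ b) ∪ {0}) ?_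
    (measure_union_null h1 h2)
  intro x hx
  have hx0 : φ x = 0 := not_not.1 hx
  by_cases h : x = 0
  · right; exact h
  · left; exact ⟨hx0, hT.mem_TT_of_ZZ ⟨h, hx0⟩⟩

/-- radial profile -/
def gi1 (ρ : ℝ) : ℝ := (Iio (1 : ℝ)).indicator (fun _ => (1 : ℝ)) ρ

lemma gi1_int {n : ℕ} (hn : 0 < n) : ∫ ρ, gi1 ρ ∂(kap n) = (n : ℝ)⁻¹ := by
  have h : gi1 = (Iio (1 : ℝ)).indicator (fun _ => (1 : ℝ)) := rfl
  rw [h, integral_indicator_const _ measurableSet_Iio, Measure.real, kap_Iio hn, max_eq_left zero_le_one,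
    one_pow, ENNReal.toReal_ofReal (by positivity)]
  simp

/-- the radius `a(δ) = δ / √(1-δ²)` -/
def ad (δ : ℝ) : ℝ := δ / Real.sqrt (1 - δ ^ 2)

lemma tendsto_ad_div : Tendsto (fun δ : ℝ => (Real.sqrt (1 - δ ^ 2))⁻¹) (𝓝[>] 0) (𝓝 1) := by
  have h1 : ContinuousAt (fun δ : ℝ => (Real.sqrt (1 - δ ^ 2))⁻¹) 0 := by
    refine ContinuousAt.inv₀ (by fun_prop) (by simp)
  have h2 := h1.tendsto
  simp only [ne_eq, OfNat.ofNat_ne_zero, not_false_eq_true, zero_pow, sub_zero, Real.sqrt_one,
    inv_one] at h2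
  exact h2.mono_left nhdsWithin_le_nhds

lemma tendsto_ad : Tendsto ad (𝓝[>] 0) (𝓝[>] 0) := by
  refine tendsto_nhdsWithin_iff.2 ⟨?_, ?_⟩
  · have h1 : Tendsto (fun δ : ℝ => δ) (𝓝[>] 0) (𝓝 0) := tendsto_id.mono_left nhdsWithin_le_nhds
    have h2 := h1.mul tendsto_ad_div
    rw [zero_mul] at h2
    exact h2
  · have h1 : ∀ᶠ δ : ℝ in 𝓝[>] 0, δ ∈ Ioo (0 : ℝ) 1 := Ioo_mem_nhdsGT one_pos
    filter_upwards [h1] with δ hδ
    have : 0 < 1 - δ ^ 2 := by nlinarith [hδ.1, hδ.2]
    exact div_pos hδ.1 (Real.sqrt_pos.2 this)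

/-- the angle condition. -/
lemma lt_iff_ad (hT : Tube φ b) {δ : ℝ} (h0 : 0 < δ) (h1 : δ < 1) {x : E} (hx : x ≠ 0) :
    |φ x| < δ * ‖x‖ ↔ |ta φ x| < ad δ := by
  have hr : 0 < rr φ x := hT.rr_pos hx
  have hn : 0 < ‖x‖ := norm_pos_iff.2 hx
  have h2 : 0 < 1 - δ ^ 2 := by nlinarith
  have hs : 0 < Real.sqrt (1 - δ ^ 2) := Real.sqrt_pos.2 h2
  have hss : Real.sqrt (1 - δ ^ 2) ^ 2 = 1 - δ ^ 2 := Real.sq_sqrt h2.le
  have h3 := hT.rr_sq x
  rw [ta, ad, abs_div, abs_of_pos hr, div_lt_div_iff₀ hr hs]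
  have h4 : |φ x| ^ 2 = φ x ^ 2 := sq_abs _
  constructor
  · intro h
    have h5 : |φ x| ^ 2 < (δ * ‖x‖) ^ 2 := pow_lt_pow_left₀ h (abs_nonneg _) (by norm_num)
    have h6 : (|φ x| * Real.sqrt (1 - δ ^ 2)) ^ 2 < (δ * rr φ x) ^ 2 := by
      rw [mul_pow, hss, mul_pow, h3]
      rw [mul_pow] at h5
      nlinarith
    exact lt_of_pow_lt_pow_left₀ 2 (by positivity) h6
  · intro h
    have h5 : (|φ x| * Real.sqrt (1 - δ ^ 2)) ^ 2 < (δ * rr φ x) ^ 2 :=
      pow_lt_pow_left₀ h (by positivity) (by norm_num)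
    have h6 : |φ x| ^ 2 < (δ * ‖x‖) ^ 2 := by
      rw [mul_pow, hss, mul_pow, h3] at h5
      rw [mul_pow]
      nlinarith
    exact lt_of_pow_lt_pow_left₀ 2 (by positivity) h6

/-- **Tube bound.** -/
theorem tube_bound [Nontrivial E] (hT : Tube φ b) (ζ : E → ℝ) (hζ : Test ζ) (ε : ℝ) (hε : 0 < ε) :
    ∀ᶠ δ in 𝓝[>] (0 : ℝ),
      (finrank ℝ E : ℝ) * ∫ x in {x : E | ‖x‖ < 1 ∧ 0 < |φ x| ∧ |φ x| < δ * ‖x‖},
        (if 0 < φ x then 1 - ζ x else ζ x) ≤ δ * ((mu φ b).real univ + ε) := by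
  have hn : 0 < finrank ℝ E := finrank_pos
  have hn' : (0 : ℝ) < (finrank ℝ E : ℝ) := by exact_mod_cast hn
  have hfin := hT.isFiniteMeasure_mu
  have hφm : Measurable φ := hT.lip.continuous.measurable
  have hζm : Measurable ζ := JE364.Test.measurable hζ
  have hζc := JE364.Test.continuousOn hζ
  have hζc' : ContinuousOn ζ (TT φ b) := hζc.mono fun y hy => by
    simpa using hT.ne_zero hy
  have hgm : Measurable gi1 := measurable_const.indicator measurableSet_Iio
  have hχm : Measurable chi01 := Measurable.ite measurableSet_Ioo measurable_const measurable_const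
  have hχb : ∀ s, |chi01 s| ≤ 1 := fun s => by simp only [chi01]; split_ifs <;> simp
  have hχ0 : ∀ s, 1 < |s| → chi01 s = 0 := fun s hs => by
    rw [chi01, if_neg]
    rintro ⟨h1, h2⟩
    rw [abs_of_pos h1] at hs
    linarith
  have lim1 := hT.tube_limit (F := fun y => 1 - ζ y) (measurable_const.sub hζm)
    (continuousOn_const.sub hζc') (fun t ht y _ => by simp only [hζ.hom t ht]) hgm hχm hχb hχ0
  have lim2 := hT.tube_limit (F := ζ) hζm hζc' (fun t ht y _ => hζ.hom t ht y) hgm
    (hχm.comp measurable_neg) (fun s => hχb (-s)) (fun s hs => hχ0 (-s) (by rwa [abs_neg]))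
  have hc2 : ∫ s, (chi01 ∘ fun s : ℝ => -s) s = 1 := by
    have := integral_neg_eq_self (fun s => chi01 s) (volume : Measure ℝ)
    simp only [Function.comp]
    rw [this, integral_chi01]
  rw [integral_chi01, one_mul, gi1_int hn] at lim1
  rw [hc2, one_mul, gi1_int hn] at lim2
  have hint : Integrable ζ (mu φ b) := by
    refine Integrable.mono' (integrable_const 1) hζm.aestronglyMeasurable
      (Eventually.of_forall fun x => ?_)
    rw [Real.norm_eq_abs, abs_of_nonneg (hζ.nonneg x)]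
    exact hζ.le_one x
  have hsum := (lim1.add lim2).const_mul (finrank ℝ E : ℝ)
  have hval : (finrank ℝ E : ℝ) * ((finrank ℝ E : ℝ)⁻¹ * ∫ p, (1 - ζ p) ∂(mu φ b) +
      (finrank ℝ E : ℝ)⁻¹ * ∫ p, ζ p ∂(mu φ b)) = (mu φ b).real univ := by
    rw [integral_sub (integrable_const 1) hint, integral_const, smul_eq_mul, mul_one]
    field_simp
    ring
  rw [hval] at hsum
  have hsum2 := hsum.comp tendsto_ad
  have hprod := tendsto_ad_div.mul hsum2
  rw [one_mul] at hprod
  have hev := hprod.eventually (gt_mem_nhds (show (mu φ b).real univ <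
    (mu φ b).real univ + ε by linarith))
  have hb := hT.hb
  have hadb : ∀ᶠ δ : ℝ in 𝓝[>] 0, ad δ ∈ Ioo (0 : ℝ) (min b 1) :=
    tendsto_ad.eventually (Ioo_mem_nhdsGT (lt_min hb one_pos))
  filter_upwards [hev, hadb, Ioo_mem_nhdsGT (show (0 : ℝ) < 1 from one_pos)] with δ h1 h2 h3
  set a := ad δ with ha
  have ha0 : 0 < a := h2.1
  have hab : a < b := lt_of_lt_of_le h2.2 (min_le_left _ _)
  have ha1 : a < 1 := lt_of_lt_of_le h2.2 (min_le_right _ _)
  set S : Set E := {x : E | ‖x‖ < 1 ∧ 0 < |φ x| ∧ |φ x| < δ * ‖x‖} with hS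
  have hSm : MeasurableSet S := by
    have hab' : Measurable fun x => |φ x| := hT.lip.continuous.abs.measurable
    exact (measurableSet_lt measurable_norm measurable_const).inter
      ((measurableSet_lt measurable_const hab').inter
        (measurableSet_lt hab' (measurable_const.mul measurable_norm)))
  -- the comparison function
  set f1 : E → ℝ := fun y => gi1 (rr φ y) * (chi01 (ta φ y / a) * (1 - ζ y)) with hf1
  set f2 : E → ℝ := fun y => gi1 (rr φ y) * (chi01 (-(ta φ y / a)) * ζ y) with hf2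
  have hgi0 : ∀ ρ, 0 ≤ gi1 ρ := fun ρ => indicator_nonneg (fun _ _ => zero_le_one) _
  have hgi1 : ∀ ρ, gi1 ρ ≤ 1 := fun ρ => by
    unfold gi1; by_cases h : ρ ∈ Iio (1 : ℝ)
    · rw [indicator_of_mem h]
    · rw [indicator_of_notMem h]; exact zero_le_one
  have hch0 : ∀ s, 0 ≤ chi01 s := fun s => by simp only [chi01]; split_ifs <;> simp
  have hch1 : ∀ s, chi01 s ≤ 1 := fun s => by simp only [chi01]; split_ifs <;> simp
  have hf10 : ∀ y, 0 ≤ f1 y := fun y =>
    mul_nonneg (hgi0 _) (mul_nonneg (hch0 _) (sub_nonneg.2 (hζ.le_one y)))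
  have hf20 : ∀ y, 0 ≤ f2 y := fun y => mul_nonneg (hgi0 _) (mul_nonneg (hch0 _) (hζ.nonneg y))
  have hf1m : Measurable f1 := (hgm.comp hT.measurable_rr).mul
    ((hχm.comp (hT.measurable_ta.div_const a)).mul (measurable_const.sub hζm))
  have hf2m : Measurable f2 := (hgm.comp hT.measurable_rr).mul
    ((hχm.comp (hT.measurable_ta.div_const a).neg).mul hζm)
  -- bounded support
  have hsupp : ∀ y ∈ TT φ b, |ta φ y / a| < 1 → rr φ y < 1 → ‖y‖ < 2 := by
    intro y hy h4 h5
    have h6 : |ta φ y| < a := by rwa [abs_div, abs_of_pos ha0, div_lt_one ha0] at h4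
    have h7 := hT.rr_sq y
    have h8 := hT.ta_mul_rr hy
    have h9 : φ y ^ 2 = ta φ y ^ 2 * rr φ y ^ 2 := by rw [← h8]; ring
    have h10 : ta φ y ^ 2 < 1 := by
      rw [← sq_abs]
      nlinarith [abs_nonneg (ta φ y)]
    have h11 : rr φ y ^ 2 < 1 := by
      have := hy.1
      nlinarith
    have h12 : ‖y‖ ^ 2 < 4 := by
      have h13 : ta φ y ^ 2 * rr φ y ^ 2 ≤ 1 := by
        nlinarith [sq_nonneg (ta φ y), sq_nonneg (rr φ y)]
      nlinarith
    nlinarith [norm_nonneg y]
  have hint12 : ∀ f : E → ℝ, Measurable f → (∀ y, 0 ≤ f y) →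
      (∀ y, f y ≤ gi1 (rr φ y) * (chi01 (ta φ y / a) + chi01 (-(ta φ y / a)))) →
      IntegrableOn f (TT φ b) := by
    intro f hfm hf0 hfb
    have hball : IntegrableOn (fun _ : E => (2 : ℝ)) (Metric.ball 0 2) :=
      integrableOn_const (measure_ball_lt_top).ne
    have h4 : Integrable ((Metric.ball (0 : E) 2).indicator fun _ : E => (2 : ℝ)) :=
      (integrable_indicator_iff measurableSet_ball).2 hball
    refine Integrable.mono' h4.integrableOn hfm.aestronglyMeasurable ?_
    filter_upwards [ae_restrict_mem hT.measurableSet_TT] with y hy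
    rw [Real.norm_eq_abs, abs_of_nonneg (hf0 y)]
    by_cases h5 : y ∈ Metric.ball (0 : E) 2
    · rw [indicator_of_mem h5]
      refine (hfb y).trans ?_
      calc gi1 (rr φ y) * (chi01 (ta φ y / a) + chi01 (-(ta φ y / a))) ≤ 1 * (1 + 1) := by
            gcongr
            · exact add_nonneg (hch0 _) (hch0 _)
            · exact hgi1 _
            · exact hch1 _
            · exact hch1 _
        _ = 2 := by norm_num
    · rw [indicator_of_notMem h5]
      refine (hfb y).trans ?_
      by_contra hcon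
      push Not at hcon
      apply h5
      rw [mem_ball_zero_iff]
      have h6 : 0 < gi1 (rr φ y) := by
        by_contra h7
        have : gi1 (rr φ y) = 0 := le_antisymm (not_lt.1 h7) (hgi0 _)
        rw [this, zero_mul] at hcon
        exact lt_irrefl _ hcon
      have h7 : rr φ y < 1 := by
        by_contra h8
        rw [gi1, indicator_of_notMem (by simpa using not_lt.1 h8)] at h6
        exact lt_irrefl _ h6
      refine hsupp y hy ?_ h7
      by_contra h8
      rw [not_lt] at h8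
      have h9 : chi01 (ta φ y / a) = 0 := by
        rw [chi01, if_neg]
        rintro ⟨h10, h11⟩
        rw [abs_of_pos h10] at h8
        linarith
      have h10 : chi01 (-(ta φ y / a)) = 0 := by
        rw [chi01, if_neg]
        rintro ⟨h11, h12⟩
        rw [← abs_neg, abs_of_pos h11] at h8
        linarith
      rw [h9, h10, add_zero, mul_zero] at hcon
      exact lt_irrefl _ hcon
  have i1 : IntegrableOn f1 (TT φ b) := hint12 f1 hf1m hf10 fun y => by
    simp only [hf1]
    refine mul_le_mul_of_nonneg_left ?_ (hgi0 _)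
    have : chi01 (ta φ y / a) * (1 - ζ y) ≤ chi01 (ta φ y / a) * 1 :=
      mul_le_mul_of_nonneg_left (by linarith [hζ.nonneg y]) (hch0 _)
    linarith [hch0 (-(ta φ y / a))]
  have i2 : IntegrableOn f2 (TT φ b) := hint12 f2 hf2m hf20 fun y => by
    simp only [hf2]
    refine mul_le_mul_of_nonneg_left ?_ (hgi0 _)
    have : chi01 (-(ta φ y / a)) * ζ y ≤ chi01 (-(ta φ y / a)) * 1 :=
      mul_le_mul_of_nonneg_left (hζ.le_one y) (hch0 _)
    linarith [hch0 (ta φ y / a)]
  -- comparison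
  have hST : S ⊆ TT φ b := by
    rintro x ⟨hx1, hx2, hx3⟩
    have hx0 : x ≠ 0 := by
      rintro rfl
      rw [hT.phi_zero, abs_zero] at hx2
      exact lt_irrefl _ hx2
    have h4 : |ta φ x| < a := (lt_iff_ad hT h3.1 h3.2 hx0).1 hx3
    have hr := hT.rr_pos hx0
    refine ⟨hr, ?_⟩
    rw [ta, abs_div, abs_of_pos hr, div_lt_iff₀ hr] at h4
    nlinarith
  have hcomp : ∫ x in S, (if 0 < φ x then 1 - ζ x else ζ x) ≤
      (∫ y in TT φ b, f1 y) + ∫ y in TT φ b, f2 y := by
    rw [← integral_add i1 i2]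
    have h5 : ∫ x in S, (if 0 < φ x then 1 - ζ x else ζ x) = ∫ x in S, (f1 x + f2 x) := by
      refine setIntegral_congr_fun hSm fun x hx => ?_
      obtain ⟨hx1, hx2, hx3⟩ := hx
      have hx0 : x ≠ 0 := by
        rintro rfl
        rw [hT.phi_zero, abs_zero] at hx2
        exact lt_irrefl _ hx2
      have h4 : |ta φ x| < a := (lt_iff_ad hT h3.1 h3.2 hx0).1 hx3
      have hr := hT.rr_pos hx0
      have hr1 : rr φ x < 1 := lt_of_le_of_lt (hT.rr_le x) hx1
      have hg : gi1 (rr φ x) = 1 := by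
        rw [gi1, indicator_of_mem]
        exact hr1
      simp only [hf1, hf2]
      rw [hg, one_mul, one_mul]
      rcases lt_or_ge 0 (φ x) with h6 | h6
      · rw [if_pos h6]
        have h7 : 0 < ta φ x := div_pos h6 hr
        rw [abs_of_pos h7] at h4
        have e1 : chi01 (ta φ x / a) = 1 := by
          rw [chi01, if_pos ⟨by positivity, (div_lt_one ha0).2 h4⟩]
        have e2 : chi01 (-(ta φ x / a)) = 0 := by
          rw [chi01, if_neg]
          rintro ⟨h8, -⟩
          have : 0 < ta φ x / a := by positivity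
          linarith
        rw [e1, e2, one_mul, zero_mul, add_zero]
      · rw [if_neg (not_lt.2 h6)]
        have h6' : φ x < 0 := by
          rcases h6.lt_or_eq with h | h
          · exact h
          · rw [h, abs_zero] at hx2; exact (lt_irrefl _ hx2).elim
        have h7 : ta φ x < 0 := div_neg_of_neg_of_pos h6' hr
        rw [abs_of_neg h7] at h4
        have e0 : ta φ x / a < 0 := div_neg_of_neg_of_pos h7 ha0
        have e1 : chi01 (ta φ x / a) = 0 := by
          rw [chi01, if_neg]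
          rintro ⟨h8, -⟩
          linarith
        have e2 : chi01 (-(ta φ x / a)) = 1 := by
          have hh : 0 < -(ta φ x / a) ∧ -(ta φ x / a) < 1 := by
            refine ⟨by linarith, ?_⟩
            rw [← neg_div, div_lt_one ha0]
            exact h4
          rw [chi01, if_pos hh]
        rw [e1, e2, one_mul, zero_mul, zero_add]
    rw [h5]
    refine setIntegral_mono_set (i1.add i2) ?_ hST.eventuallyLE
    exact Eventually.of_forall fun x => add_nonneg (hf10 x) (hf20 x)
  have h6 : (Real.sqrt (1 - δ ^ 2))⁻¹ * ((finrank ℝ E : ℝ) * (a⁻¹ * (∫ y in TT φ b, f1 y) +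
      a⁻¹ * ∫ y in TT φ b, f2 y)) < (mu φ b).real univ + ε := h1
  have h7 : a = δ * (Real.sqrt (1 - δ ^ 2))⁻¹ := rfl
  have h8 : δ⁻¹ = (Real.sqrt (1 - δ ^ 2))⁻¹ * a⁻¹ := by
    rw [h7]
    have := h3.1.ne'
    have h9 : Real.sqrt (1 - δ ^ 2) ≠ 0 := by
      have : 0 < 1 - δ ^ 2 := by nlinarith [h3.1, h3.2]
      exact (Real.sqrt_pos.2 this).ne'
    field_simp
  have h9 : δ⁻¹ * ((finrank ℝ E : ℝ) * ((∫ y in TT φ b, f1 y) + ∫ y in TT φ b, f2 y)) <
      (mu φ b).real univ + ε := by
    rw [h8]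
    refine lt_of_eq_of_lt ?_ h6
    ring
  rw [inv_mul_lt_iff₀ h3.1] at h9
  exact (mul_le_mul_of_nonneg_left hcomp hn'.le).trans h9.le

open Crest.Agent.R246.G873 in
/-- **`V(φ) ≤ μ(M')`.** -/
theorem vb_mu (hn : 2 ≤ finrank ℝ E) (hN : NullCone φ) (hD : ClassD φ) (hT : Tube φ b) :
    VB φ ((mu φ b).real univ) := by
  have hNt : Nontrivial E := by
    apply Module.nontrivial_of_finrank_pos (R := ℝ)
    omega
  refine JE364.VB_of_tube hn hN ?_ ?_ (ae_ne_zero hT) (fun ζ hζ ε hε => tube_bound hT ζ hζ ε hε)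
  · intro ψ h1 h2 h3 h4
    exact hD.sup ψ h1 h2 h4 h3
  · intro ψ h1 h2 h3 h4
    have h5 := hD.sub ψ h1 h2 h4 (h3.trans fun x hx => by
      have : 0 < -φ x := hx
      show φ x < 0
      linarith)
    have h6 : ∀ x, ⟪gradient (fun x => -φ x) x, gradient ψ x⟫ = -gi φ ψ x := by
      intro x
      have : gradient (fun x => -φ x) x = -gradient φ x := by
        rw [gradient, gradient]
        have h7 : fderiv ℝ (fun x => -φ x) x = -fderiv ℝ φ x := fderiv_neg
        rw [h7, map_neg]
      rw [this, inner_neg_left]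
      rfl
    simp only [h6]
    rw [integral_neg]
    linarith

end Crest.Agent.R246.VbMu196
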