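import Mathlib.MeasureTheory.Constructions.HaarToSphere
import Mathlib.MeasureTheory.Measure.Haar.InnerProductSpace
import Mathlib.Analysis.Calculus.ParametricIntegral
import Mathlib.Analysis.Calculus.UniformLimitsDeriv
import Mathlib.Analysis.SpecialFunctions.Trigonometric.Deriv
import Mathlib.Topology.ContinuousMap.Compact
import Mathlib.Topology.ContinuousMap.Algebra

/-! # Row 246: calculus on the sphere by coordinate rotations (helper797)

The sphere `SS d ⊂ EuclideanSpace ℝ (Fin d)` with the measure `volume.toSphere`, the coordinate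
rotations `rotS a θ` (`a : Pr d`), rotation derivatives `HasRot a u v` of continuous functions and
integration by parts. -/

set_option autoImplicit false
set_option maxHeartbeats 400000
open MeasureTheory Metric Topology Filter
open scoped Pointwise

namespace Crest.Agent.R246.Zon797

abbrev EE (d : ℕ) := EuclideanSpace ℝ (Fin d)
abbrev SS (d : ℕ) := Metric.sphere (0 : EuclideanSpace ℝ (Fin d)) 1
noncomputable abbrev sig (d : ℕ) : Measure (SS d) := (volume : Measure (EE d)).toSphere

variable {d : ℕ}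

/-- index set of coordinate planes -/
abbrev Pr (d : ℕ) := {p : Fin d × Fin d // p.1 < p.2}

/-- rotation in a coordinate plane -/
noncomputable def rotV (i j : Fin d) (θ : ℝ) (x : EE d) : EE d :=
  WithLp.toLp 2 (fun k => if k = i then Real.cos θ * x i - Real.sin θ * x j
    else if k = j then Real.sin θ * x i + Real.cos θ * x j else x k)

theorem rotV_i {i j : Fin d} (θ : ℝ) (x : EE d) :
    rotV i j θ x i = Real.cos θ * x i - Real.sin θ * x j := by simp [rotV]

theorem rotV_j {i j : Fin d} (h : i ≠ j) (θ : ℝ) (x : EE d) :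
    rotV i j θ x j = Real.sin θ * x i + Real.cos θ * x j := by simp [rotV, Ne.symm h]

theorem rotV_ne {i j k : Fin d} (h1 : k ≠ i) (h2 : k ≠ j) (θ : ℝ) (x : EE d) :
    rotV i j θ x k = x k := by simp [rotV, h1, h2]

theorem rotV_zero {i j : Fin d} (x : EE d) : rotV i j 0 x = x := by
  ext k
  by_cases h1 : k = i
  · subst h1; simp [rotV]
  · by_cases h2 : k = j
    · subst h2; simp [rotV, h1]
    · simp [rotV, h1, h2]

theorem rotV_add {i j : Fin d} (h : i ≠ j) (a c : ℝ) (x : EE d) :
    rotV i j (a + c) x = rotV i j a (rotV i j c x) := by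
  ext k
  by_cases h1 : k = i
  · subst h1
    rw [rotV_i, rotV_i, rotV_i, rotV_j h, Real.cos_add, Real.sin_add]
    ring
  · by_cases h2 : k = j
    · subst h2
      rw [rotV_j h, rotV_j h, rotV_i, rotV_j h, Real.cos_add, Real.sin_add]
      ring
    · rw [rotV_ne h1 h2, rotV_ne h1 h2, rotV_ne h1 h2]

/-- splitting a sum over `Fin d` at two indices -/
theorem sum_split {i j : Fin d} (h : i ≠ j) (f : Fin d → ℝ) :
    ∑ k, f k = f i + f j + ∑ k ∈ (Finset.univ.erase i).erase j, f k := by
  rw [← Finset.add_sum_erase _ f (Finset.mem_univ i),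
    ← Finset.add_sum_erase (Finset.univ.erase i) f (a := j) (by simp [Ne.symm h]), add_assoc]

theorem inner_rotV {i j : Fin d} (h : i ≠ j) (θ : ℝ) (x y : EE d) :
    inner ℝ (rotV i j θ x) (rotV i j θ y) = inner ℝ x y := by
  simp only [PiLp.inner_apply, RCLike.inner_apply, conj_trivial]
  rw [sum_split h, sum_split h (fun k => y k * x k)]
  have h3 : ∑ k ∈ (Finset.univ.erase i).erase j, rotV i j θ y k * rotV i j θ x k
      = ∑ k ∈ (Finset.univ.erase i).erase j, y k * x k := by
    refine Finset.sum_congr rfl fun k hk => ?_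
    rw [Finset.mem_erase, Finset.mem_erase] at hk
    rw [rotV_ne hk.2.1 hk.1, rotV_ne hk.2.1 hk.1]
  rw [h3, rotV_i, rotV_i, rotV_j h, rotV_j h]
  have := Real.sin_sq_add_cos_sq θ
  linear_combination (y i * x i + y j * x j) * this

theorem norm_rotV {i j : Fin d} (h : i ≠ j) (θ : ℝ) (x : EE d) : ‖rotV i j θ x‖ = ‖x‖ := by
  have h1 := inner_rotV h θ x x
  rw [real_inner_self_eq_norm_sq, real_inner_self_eq_norm_sq] at h1
  exact (sq_eq_sq₀ (norm_nonneg _) (norm_nonneg _)).1 h1

theorem Pr.ne (a : Pr d) : a.1.1 ≠ a.1.2 := ne_of_lt a.2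

/-- coordinate rotation as a linear isometry equivalence -/
noncomputable def rotE (a : Pr d) (θ : ℝ) : EE d ≃ₗᵢ[ℝ] EE d where
  toFun := rotV a.1.1 a.1.2 θ
  invFun := rotV a.1.1 a.1.2 (-θ)
  map_add' x y := by
    ext i
    simp only [rotV, PiLp.add_apply]
    split_ifs <;> ring
  map_smul' c x := by
    ext i
    simp only [rotV, PiLp.smul_apply, smul_eq_mul, RingHom.id_apply]
    split_ifs <;> ring
  left_inv x := by rw [← rotV_add a.ne, neg_add_cancel, rotV_zero]
  right_inv x := by rw [← rotV_add a.ne, add_neg_cancel, rotV_zero]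
  norm_map' x := norm_rotV a.ne θ x

@[simp] theorem rotE_apply (a : Pr d) (θ : ℝ) (x : EE d) :
    rotE a θ x = rotV a.1.1 a.1.2 θ x := rfl

/-- action of a linear isometry equivalence on the sphere -/
noncomputable def isoS (g : EE d ≃ₗᵢ[ℝ] EE d) (s : SS d) : SS d := ⟨g s, by simp⟩

@[simp] theorem isoS_coe (g : EE d ≃ₗᵢ[ℝ] EE d) (s : SS d) : ((isoS g s : SS d) : EE d) = g s := rfl

theorem continuous_isoS (g : EE d ≃ₗᵢ[ℝ] EE d) : Continuous (isoS g) :=
  Continuous.subtype_mk (g.continuous.comp continuous_subtype_val) _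

theorem mp_isoS (g : EE d ≃ₗᵢ[ℝ] EE d) : MeasurePreserving (isoS g) (sig d) (sig d) := by
  refine ⟨(continuous_isoS g).measurable, ?_⟩
  ext s hs
  rw [Measure.map_apply (continuous_isoS g).measurable hs,
    Measure.toSphere_apply' _ ((continuous_isoS g).measurable hs), Measure.toSphere_apply' _ hs]
  congr 1
  have h1 : (Set.Ioo (0 : ℝ) 1 • ((↑) '' (isoS g ⁻¹' s) : Set (EE d)))
      = g ⁻¹' (Set.Ioo (0 : ℝ) 1 • ((↑) '' s : Set (EE d))) := by
    ext x
    simp only [Set.mem_smul, Set.mem_image, Set.mem_preimage]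
    constructor
    · rintro ⟨r, hr, _, ⟨y, hy, rfl⟩, rfl⟩
      exact ⟨r, hr, _, ⟨isoS g y, hy, rfl⟩, by simp [isoS]⟩
    · rintro ⟨r, hr, _, ⟨y, hy, rfl⟩, hx⟩
      refine ⟨r, hr, _, ⟨isoS g.symm y, ?_, rfl⟩, ?_⟩
      · have : isoS g (isoS g.symm y) = y := by
          ext1; simp [isoS]
        rwa [this]
      · apply g.injective
        simp only [isoS, map_smul, LinearIsometryEquiv.apply_symm_apply]
        exact hx
  rw [h1]
  exact (g.measurePreserving).measure_preimage_equiv (f := g.toHomeomorph.toMeasurableEquiv) _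

/-- `isoS` as a measurable equivalence -/
theorem isoS_symm_isoS (g : EE d ≃ₗᵢ[ℝ] EE d) (x : SS d) : isoS g.symm (isoS g x) = x := by
  ext1; simp

theorem integral_isoS (g : EE d ≃ₗᵢ[ℝ] EE d) (f : SS d → ℝ) :
    ∫ y, f (isoS g y) ∂(sig d) = ∫ y, f y ∂(sig d) := by
  have hemb : MeasurableEmbedding (isoS g) := by
    refine (Topology.IsClosedEmbedding.of_continuous_injective_isClosedMap (continuous_isoS g) ?_
      (continuous_isoS g).isClosedMap).measurableEmbedding
    intro x y hxy
    rw [← isoS_symm_isoS g x, hxy, isoS_symm_isoS]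
  exact (mp_isoS g).integral_comp hemb f

/-- rotations of the sphere -/
noncomputable def rotS (a : Pr d) (θ : ℝ) (x : SS d) : SS d := isoS (rotE a θ) x

@[simp] theorem rotS_coe (a : Pr d) (θ : ℝ) (x : SS d) :
    ((rotS a θ x : SS d) : EE d) = rotV a.1.1 a.1.2 θ x := rfl

theorem rotS_zero (a : Pr d) (x : SS d) : rotS a 0 x = x := by
  ext1; simp [rotV_zero]

theorem rotS_add (a : Pr d) (θ τ : ℝ) (x : SS d) :
    rotS a (θ + τ) x = rotS a θ (rotS a τ x) := by
  ext1; simp [rotV_add a.ne]

theorem integral_rotS (a : Pr d) (θ : ℝ) (f : SS d → ℝ) :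
    ∫ y, f (rotS a θ y) ∂(sig d) = ∫ y, f y ∂(sig d) := integral_isoS _ f

theorem continuous_rotS (a : Pr d) : Continuous (fun p : ℝ × SS d => rotS a p.1 p.2) := by
  refine Continuous.subtype_mk ?_ _
  refine (PiLp.continuous_toLp 2 _).comp ?_
  refine continuous_pi fun k => ?_
  have h1 : ∀ l : Fin d, Continuous (fun p : ℝ × SS d => (p.2 : EE d) l) := fun l => by fun_prop
  by_cases hk : k = a.1.1
  · simp only [hk, if_true]
    exact ((Real.continuous_cos.comp continuous_fst).mul (h1 _)).sub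
      ((Real.continuous_sin.comp continuous_fst).mul (h1 _))
  · by_cases hk2 : k = a.1.2
    · simp only [hk2, if_true]
      simp only [Ne.symm a.ne, if_false]
      exact ((Real.continuous_sin.comp continuous_fst).mul (h1 _)).add
        ((Real.continuous_cos.comp continuous_fst).mul (h1 _))
    · simp only [hk, hk2, if_false]
      exact h1 k

/-- rotation derivative of a continuous function on the sphere -/
def HasRot (a : Pr d) (u v : C(SS d, ℝ)) : Prop :=
  ∀ x : SS d, HasDerivAt (fun θ : ℝ => u (rotS a θ x)) (v x) 0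

theorem HasRot.at {a : Pr d} {u v : C(SS d, ℝ)} (h : HasRot a u v) (x : SS d) (θ : ℝ) :
    HasDerivAt (fun τ : ℝ => u (rotS a τ x)) (v (rotS a θ x)) θ := by
  have h1 := h (rotS a θ x)
  have h2 : HasDerivAt (fun τ : ℝ => τ - θ) 1 θ := (hasDerivAt_id θ).sub_const θ
  have h3 : HasDerivAt (fun σ : ℝ => u (rotS a σ (rotS a θ x))) (v (rotS a θ x)) (θ - θ) := by
    rw [sub_self]; exact h1
  have h4 := HasDerivAt.comp (h := fun τ : ℝ => τ - θ) θ h3 h2
  rw [mul_one] at h4
  refine h4.congr_of_eventuallyEq (Eventually.of_forall fun τ => ?_)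
  show u (rotS a τ x) = u (rotS a (τ - θ) (rotS a θ x))
  rw [← rotS_add, sub_add_cancel]

theorem HasRot.unique {a : Pr d} {u v w : C(SS d, ℝ)} (h : HasRot a u v) (h' : HasRot a u w) :
    v = w := by
  ext x; exact (h x).unique (h' x)

theorem HasRot.const (a : Pr d) (c : ℝ) : HasRot a (ContinuousMap.const _ c) 0 := fun x => by
  simpa using hasDerivAt_const (0 : ℝ) c

theorem HasRot.zero (a : Pr d) : HasRot a (0 : C(SS d, ℝ)) 0 := fun x => by
  simpa using hasDerivAt_const (0 : ℝ) (0 : ℝ)

theorem HasRot.add {a : Pr d} {u v u' v' : C(SS d, ℝ)} (h : HasRot a u u') (h' : HasRot a v v') :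
    HasRot a (u + v) (u' + v') := fun x => (h x).add (h' x)

theorem HasRot.sub {a : Pr d} {u v u' v' : C(SS d, ℝ)} (h : HasRot a u u') (h' : HasRot a v v') :
    HasRot a (u - v) (u' - v') := fun x => (h x).sub (h' x)

theorem HasRot.neg {a : Pr d} {u u' : C(SS d, ℝ)} (h : HasRot a u u') :
    HasRot a (-u) (-u') := fun x => (h x).neg

theorem HasRot.smul {a : Pr d} {u u' : C(SS d, ℝ)} (c : ℝ) (h : HasRot a u u') :
    HasRot a (c • u) (c • u') := fun x => (h x).const_mul c

theorem HasRot.mul {a : Pr d} {u v u' v' : C(SS d, ℝ)} (h : HasRot a u u') (h' : HasRot a v v') :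
    HasRot a (u * v) (u' * v + u * v') := fun x => by
  have := (h x).mul (h' x)
  simp only [rotS_zero] at this
  exact this

theorem HasRot.pow {a : Pr d} {u u' : C(SS d, ℝ)} (h : HasRot a u u') (n : ℕ) :
    HasRot a (u ^ (n + 1)) ((n + 1 : ℝ) • (u ^ n * u')) := by
  induction n with
  | zero => simpa using h
  | succ n ih =>
    have h1 := ih.mul h
    rw [← pow_succ] at h1
    convert h1 using 1
    ext x
    simp only [ContinuousMap.smul_apply, ContinuousMap.mul_apply, ContinuousMap.pow_apply,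
      ContinuousMap.add_apply, smul_eq_mul]
    push_cast
    ring

theorem HasRot.sum {ι : Type*} {a : Pr d} {s : Finset ι} {u u' : ι → C(SS d, ℝ)}
    (h : ∀ i ∈ s, HasRot a (u i) (u' i)) : HasRot a (∑ i ∈ s, u i) (∑ i ∈ s, u' i) := by
  classical
  induction s using Finset.induction_on with
  | empty => simpa using HasRot.zero a
  | insert i s hi ih =>
    rw [Finset.sum_insert hi, Finset.sum_insert hi]
    exact (h i (Finset.mem_insert_self _ _)).add
      (ih fun j hj => h j (Finset.mem_insert_of_mem hj))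

/-- limits of rotation derivatives -/
theorem HasRot.tendsto {a : Pr d} {ι : Type*} {l : Filter ι} [NeBot l] {u u' : ι → C(SS d, ℝ)}
    {v v' : C(SS d, ℝ)} (hu : Tendsto u l (𝓝 v)) (hu' : Tendsto u' l (𝓝 v'))
    (h : ∀ i, HasRot a (u i) (u' i)) : HasRot a v v' := by
  intro x
  have h1 : TendstoUniformly (fun i (θ : ℝ) => u' i (rotS a θ x)) (fun θ => v' (rotS a θ x)) l := by
    have := ContinuousMap.tendsto_iff_tendstoUniformly.1 hu'
    exact this.comp (fun θ : ℝ => rotS a θ x)
  have h2 := hasDerivAt_of_tendstoUniformly h1 (f := fun i (θ : ℝ) => u i (rotS a θ x))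
    (g := fun θ => v (rotS a θ x)) (Eventually.of_forall fun i θ => (h i).at x θ) (fun θ => by
      have := (ContinuousMap.tendsto_iff_tendstoUniformly.1 hu).tendsto_at (rotS a θ x)
      exact this) 0
  simpa [rotS_zero] using h2

theorem integrable_cm (u : C(SS d, ℝ)) : Integrable (fun x => u x) (sig d) := by
  have : IsFiniteMeasure (sig d) := inferInstance
  exact u.continuous.integrable_of_hasCompactSupport (HasCompactSupport.of_compactSpace _)

/-- integral of a rotation derivative vanishes -/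
theorem HasRot.integral_eq_zero {a : Pr d} {u v : C(SS d, ℝ)} (h : HasRot a u v) :
    ∫ x, v x ∂(sig d) = 0 := by
  have c1 : ∀ (w : C(SS d, ℝ)) (θ : ℝ), Continuous (fun x => w (rotS a θ x)) := fun w θ =>
    w.continuous.comp (continuous_isoS (rotE a θ))
  have i1 : Integrable (fun x => u (rotS a 0 x)) (sig d) := by
    simp only [rotS_zero]; exact integrable_cm u
  have m1 : ∀ᶠ θ in 𝓝 (0 : ℝ), AEStronglyMeasurable (fun x => u (rotS a θ x)) (sig d) :=
    Eventually.of_forall fun θ => (c1 u θ).aestronglyMeasurable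
  have m2 : AEStronglyMeasurable (fun x => v (rotS a 0 x)) (sig d) :=
    (c1 v 0).aestronglyMeasurable
  have b1 : ∀ᵐ x ∂(sig d), ∀ θ ∈ (Set.univ : Set ℝ), ‖v (rotS a θ x)‖ ≤ ‖v‖ :=
    Eventually.of_forall fun x θ _ => v.norm_coe_le_norm _
  have b2 : Integrable (fun _ : SS d => ‖v‖) (sig d) := integrable_const _
  have b3 : ∀ᵐ x ∂(sig d), ∀ θ ∈ (Set.univ : Set ℝ),
      HasDerivAt (fun τ => u (rotS a τ x)) (v (rotS a θ x)) θ :=
    Eventually.of_forall fun x θ _ => h.at x θ
  have key := hasDerivAt_integral_of_dominated_loc_of_deriv_le (μ := sig d) (𝕜 := ℝ)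
    (F := fun θ x => u (rotS a θ x)) (F' := fun θ x => v (rotS a θ x)) (x₀ := (0 : ℝ))
    (s := Set.univ) (bound := fun _ => ‖v‖) univ_mem m1 i1 m2 b1 b2 b3
  have h2 := key.2
  have h3 : (fun θ : ℝ => ∫ x, u (rotS a θ x) ∂(sig d)) = fun _ => ∫ x, u x ∂(sig d) := by
    funext θ; exact integral_rotS a θ _
  rw [h3] at h2
  have h4 := h2.unique (hasDerivAt_const (0 : ℝ) _)
  simpa [rotS_zero] using h4

/-- integration by parts -/
theorem HasRot.ibp {a : Pr d} {u v u' v' : C(SS d, ℝ)} (h : HasRot a u u') (h' : HasRot a v v') :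
    ∫ x, u' x * v x ∂(sig d) = - ∫ x, u x * v' x ∂(sig d) := by
  have h1 := (h.mul h').integral_eq_zero
  have h2 : ∫ x, (u' * v + u * v') x ∂(sig d)
      = ∫ x, u' x * v x ∂(sig d) + ∫ x, u x * v' x ∂(sig d) := by
    have e1 : Integrable (fun x => u' x * v x) (sig d) := integrable_cm (u' * v)
    have e2 : Integrable (fun x => u x * v' x) (sig d) := integrable_cm (u * v')
    rw [← integral_add e1 e2]
    rfl
  linarith

end Crest.Agent.R246.Zon797
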