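import Crest.Agent.R246.Zon0_797
import Mathlib.Analysis.InnerProductSpace.Projection.Reflection
import Mathlib.Analysis.Normed.Operator.Mul

/-! # Row 246: integral operators with continuous kernels on the sphere, zonal powers (helper797) -/

set_option autoImplicit false
set_option maxHeartbeats 400000
open MeasureTheory Metric Topology Filter

namespace Crest.Agent.R246.Zon797

variable {d : ℕ}

/-! ## integral operators -/

/-- section of a kernel -/
def sec (κ : C(SS d × SS d, ℝ)) (y : SS d) : C(SS d, ℝ) :=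
  ⟨fun x => κ (x, y), by fun_prop⟩

@[simp] theorem sec_apply (κ : C(SS d × SS d, ℝ)) (x y : SS d) : sec κ y x = κ (x, y) := rfl

theorem integrable_kf (κ : C(SS d × SS d, ℝ)) (f : C(SS d, ℝ)) (x : SS d) :
    Integrable (fun y => κ (x, y) * f y) (sig d) := by
  have h : Continuous (fun y => κ (x, y) * f y) := by fun_prop
  exact h.integrable_of_hasCompactSupport (HasCompactSupport.of_compactSpace _)

theorem continuous_kf (κ : C(SS d × SS d, ℝ)) (f : C(SS d, ℝ)) :
    Continuous (fun x => ∫ y, κ (x, y) * f y ∂(sig d)) := by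
  refine continuous_of_dominated (bound := fun _ => ‖κ‖ * ‖f‖) ?_ ?_ (integrable_const _) ?_
  · intro x
    exact (integrable_kf κ f x).aestronglyMeasurable
  · intro x
    refine Eventually.of_forall fun y => ?_
    rw [norm_mul]
    exact mul_le_mul (κ.norm_coe_le_norm _) (f.norm_coe_le_norm _) (norm_nonneg _) (norm_nonneg _)
  · refine Eventually.of_forall fun y => ?_
    fun_prop

/-- integral operator -/
noncomputable def Kop (κ : C(SS d × SS d, ℝ)) (f : C(SS d, ℝ)) : C(SS d, ℝ) :=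
  ⟨fun x => ∫ y, κ (x, y) * f y ∂(sig d), continuous_kf κ f⟩

theorem Kop_apply (κ : C(SS d × SS d, ℝ)) (f : C(SS d, ℝ)) (x : SS d) :
    Kop κ f x = ∫ y, κ (x, y) * f y ∂(sig d) := rfl

theorem Kop_add_right (κ : C(SS d × SS d, ℝ)) (f g : C(SS d, ℝ)) :
    Kop κ (f + g) = Kop κ f + Kop κ g := by
  ext x
  rw [ContinuousMap.add_apply, Kop_apply, Kop_apply, Kop_apply,
    ← integral_add (integrable_kf κ f x) (integrable_kf κ g x)]
  refine integral_congr_ae (Eventually.of_forall fun y => ?_)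
  simp only [ContinuousMap.add_apply]; ring

theorem Kop_smul_right (κ : C(SS d × SS d, ℝ)) (c : ℝ) (f : C(SS d, ℝ)) :
    Kop κ (c • f) = c • Kop κ f := by
  ext x
  rw [ContinuousMap.smul_apply, Kop_apply, Kop_apply, smul_eq_mul, ← integral_const_mul]
  refine integral_congr_ae (Eventually.of_forall fun y => ?_)
  simp only [ContinuousMap.smul_apply, smul_eq_mul]; ring

theorem Kop_add_left (κ ρ : C(SS d × SS d, ℝ)) (f : C(SS d, ℝ)) :
    Kop (κ + ρ) f = Kop κ f + Kop ρ f := by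
  ext x
  rw [ContinuousMap.add_apply, Kop_apply, Kop_apply, Kop_apply,
    ← integral_add (integrable_kf κ f x) (integrable_kf ρ f x)]
  refine integral_congr_ae (Eventually.of_forall fun y => ?_)
  simp only [ContinuousMap.add_apply]; ring

theorem Kop_smul_left (c : ℝ) (κ : C(SS d × SS d, ℝ)) (f : C(SS d, ℝ)) :
    Kop (c • κ) f = c • Kop κ f := by
  ext x
  rw [ContinuousMap.smul_apply, Kop_apply, Kop_apply, smul_eq_mul, ← integral_const_mul]
  refine integral_congr_ae (Eventually.of_forall fun y => ?_)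
  simp only [ContinuousMap.smul_apply, smul_eq_mul]; ring

theorem Kop_zero_left (f : C(SS d, ℝ)) : Kop (0 : C(SS d × SS d, ℝ)) f = 0 := by
  ext x; simp [Kop_apply]

theorem Kop_sum_left {ι : Type*} (s : Finset ι) (κ : ι → C(SS d × SS d, ℝ)) (f : C(SS d, ℝ)) :
    Kop (∑ i ∈ s, κ i) f = ∑ i ∈ s, Kop (κ i) f := by
  classical
  induction s using Finset.induction_on with
  | empty => simp [Kop_zero_left]
  | insert i s hi ih => rw [Finset.sum_insert hi, Finset.sum_insert hi, Kop_add_left, ih]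

/-- Schur bound -/
theorem norm_Kop_le {κ : C(SS d × SS d, ℝ)} {M : ℝ} (hM : 0 ≤ M)
    (h : ∀ x, ∫ y, |κ (x, y)| ∂(sig d) ≤ M) (f : C(SS d, ℝ)) : ‖Kop κ f‖ ≤ M * ‖f‖ := by
  rw [ContinuousMap.norm_le _ (mul_nonneg hM (norm_nonneg _))]
  intro x
  rw [Kop_apply]
  have hc : Continuous (fun y => |κ (x, y)|) := by fun_prop
  have hi : Integrable (fun y => |κ (x, y)|) (sig d) :=
    hc.integrable_of_hasCompactSupport (HasCompactSupport.of_compactSpace _)
  calc ‖∫ y, κ (x, y) * f y ∂(sig d)‖ ≤ ∫ y, ‖κ (x, y) * f y‖ ∂(sig d) :=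
        norm_integral_le_integral_norm _
    _ ≤ ∫ y, |κ (x, y)| * ‖f‖ ∂(sig d) := by
        refine integral_mono (integrable_kf κ f x).norm (hi.mul_const _) fun y => ?_
        show ‖κ (x, y) * f y‖ ≤ |κ (x, y)| * ‖f‖
        rw [norm_mul, Real.norm_eq_abs]
        exact mul_le_mul_of_nonneg_left (f.norm_coe_le_norm _) (abs_nonneg _)
    _ = (∫ y, |κ (x, y)| ∂(sig d)) * ‖f‖ := integral_mul_const _ _
    _ ≤ M * ‖f‖ := mul_le_mul_of_nonneg_right (h x) (norm_nonneg _)

/-- `Kop κ` as a bounded operator -/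
noncomputable def KL (κ : C(SS d × SS d, ℝ)) : C(SS d, ℝ) →L[ℝ] C(SS d, ℝ) :=
  LinearMap.mkContinuous
    { toFun := Kop κ
      map_add' := Kop_add_right κ
      map_smul' := fun c f => Kop_smul_right κ c f }
    (‖κ‖ * (sig d).real Set.univ) (fun f => by
      refine norm_Kop_le (mul_nonneg (norm_nonneg _) measureReal_nonneg) (fun x => ?_) f
      calc ∫ y, |κ (x, y)| ∂(sig d) ≤ ∫ _, ‖κ‖ ∂(sig d) := by
            have hc : Continuous (fun y => |κ (x, y)|) := by fun_prop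
            refine integral_mono (hc.integrable_of_hasCompactSupport
              (HasCompactSupport.of_compactSpace _)) (integrable_const _) fun y => ?_
            exact κ.norm_coe_le_norm _
        _ = ‖κ‖ * (sig d).real Set.univ := by
            rw [integral_const, smul_eq_mul, mul_comm])

@[simp] theorem KL_apply (κ : C(SS d × SS d, ℝ)) (f : C(SS d, ℝ)) : KL κ f = Kop κ f := rfl

theorem norm_KL_le {κ : C(SS d × SS d, ℝ)} {M : ℝ} (hM : 0 ≤ M)
    (h : ∀ x, ∫ y, |κ (x, y)| ∂(sig d) ≤ M) : ‖KL κ‖ ≤ M :=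
  ContinuousLinearMap.opNorm_le_bound _ hM fun f => norm_Kop_le hM h f

/-- differentiation under the integral sign -/
theorem HasRot.Kop {a : Pr d} {κ κ' : C(SS d × SS d, ℝ)} (h : ∀ y, HasRot a (sec κ y) (sec κ' y))
    (f : C(SS d, ℝ)) : HasRot a (Kop κ f) (Kop κ' f) := by
  intro x
  have i1 : Integrable (fun y => κ (rotS a 0 x, y) * f y) (sig d) := integrable_kf κ f _
  have m1 : ∀ᶠ θ in 𝓝 (0 : ℝ), AEStronglyMeasurable (fun y => κ (rotS a θ x, y) * f y) (sig d) :=
    Eventually.of_forall fun θ => (integrable_kf κ f _).aestronglyMeasurable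
  have m2 : AEStronglyMeasurable (fun y => κ' (rotS a 0 x, y) * f y) (sig d) :=
    (integrable_kf κ' f _).aestronglyMeasurable
  have b1 : ∀ᵐ y ∂(sig d), ∀ θ ∈ (Set.univ : Set ℝ), ‖κ' (rotS a θ x, y) * f y‖ ≤ ‖κ'‖ * ‖f‖ :=
    Eventually.of_forall fun y θ _ => by
      rw [norm_mul]
      exact mul_le_mul (κ'.norm_coe_le_norm _) (f.norm_coe_le_norm _) (norm_nonneg _)
        (norm_nonneg _)
  have b3 : ∀ᵐ y ∂(sig d), ∀ θ ∈ (Set.univ : Set ℝ),
      HasDerivAt (fun τ => κ (rotS a τ x, y) * f y) (κ' (rotS a θ x, y) * f y) θ :=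
    Eventually.of_forall fun y θ _ => ((h y).at x θ).mul_const (f y)
  have key := hasDerivAt_integral_of_dominated_loc_of_deriv_le (μ := sig d) (𝕜 := ℝ)
    (F := fun θ y => κ (rotS a θ x, y) * f y) (F' := fun θ y => κ' (rotS a θ x, y) * f y)
    (x₀ := (0 : ℝ)) (s := Set.univ) (bound := fun _ => ‖κ'‖ * ‖f‖) univ_mem m1 i1 m2 b1
    (integrable_const _) b3
  have h2 := key.2
  simp only [rotS_zero] at h2
  exact h2

/-- Fubini symmetry: pairing with `φ` -/
theorem Kop_pairing (κ : C(SS d × SS d, ℝ)) (f φ : C(SS d, ℝ)) :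
    ∫ x, Kop κ f x * φ x ∂(sig d) = ∫ y, f y * ∫ x, κ (x, y) * φ x ∂(sig d) ∂(sig d) := by
  have hF : Integrable (Function.uncurry fun x y => κ (x, y) * f y * φ x)
      ((sig d).prod (sig d)) := by
    have hc : Continuous (Function.uncurry fun (x y : SS d) => κ (x, y) * f y * φ x) := by
      unfold Function.uncurry; fun_prop
    exact hc.integrable_of_hasCompactSupport (HasCompactSupport.of_compactSpace _)
  have h1 : ∀ x, Kop κ f x * φ x = ∫ y, κ (x, y) * f y * φ x ∂(sig d) := fun x => by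
    rw [Kop_apply, integral_mul_const]
  simp_rw [h1]
  rw [integral_integral_swap hF]
  refine integral_congr_ae (Eventually.of_forall fun y => ?_)
  show ∫ x, κ (x, y) * f y * φ x ∂(sig d) = f y * ∫ x, κ (x, y) * φ x ∂(sig d)
  rw [← integral_const_mul]
  refine integral_congr_ae (Eventually.of_forall fun x => ?_)
  ring

/-- composition with an isometry -/
noncomputable def cmp (g : EE d ≃ₗᵢ[ℝ] EE d) (f : C(SS d, ℝ)) : C(SS d, ℝ) :=
  ⟨fun x => f (isoS g x), f.continuous.comp (continuous_isoS g)⟩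

@[simp] theorem cmp_apply (g : EE d ≃ₗᵢ[ℝ] EE d) (f : C(SS d, ℝ)) (x : SS d) :
    cmp g f x = f (isoS g x) := rfl

theorem Kop_cmp {κ : C(SS d × SS d, ℝ)} {g : EE d ≃ₗᵢ[ℝ] EE d}
    (h : ∀ x y, κ (isoS g x, isoS g y) = κ (x, y)) (f : C(SS d, ℝ)) :
    Kop κ (cmp g f) = cmp g (Kop κ f) := by
  ext x
  rw [cmp_apply, Kop_apply, Kop_apply]
  rw [← integral_isoS g (fun y => κ (isoS g x, y) * f y)]
  refine integral_congr_ae (Eventually.of_forall fun y => ?_)
  simp only [cmp_apply, h]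

/-! ## the zonal variable -/

/-- `t = (1 + ⟪x,y⟫)/2` -/
noncomputable def tt (x y : SS d) : ℝ := (1 + inner ℝ (x : EE d) (y : EE d)) / 2

theorem nrm (x : SS d) : ‖(x : EE d)‖ = 1 := by
  have := x.2; rwa [mem_sphere_zero_iff_norm] at this

theorem inner_le_one (x y : SS d) : inner ℝ (x : EE d) (y : EE d) ≤ 1 := by
  have := real_inner_le_norm (x : EE d) (y : EE d)
  rwa [nrm, nrm, mul_one] at this

theorem neg_one_le_inner (x y : SS d) : -1 ≤ inner ℝ (x : EE d) (y : EE d) := by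
  have := abs_real_inner_le_norm (x : EE d) (y : EE d)
  rw [nrm, nrm, mul_one] at this
  exact (abs_le.1 this).1

theorem tt_nonneg (x y : SS d) : 0 ≤ tt x y := by
  have := neg_one_le_inner x y; unfold tt; linarith

theorem tt_le_one (x y : SS d) : tt x y ≤ 1 := by
  have := inner_le_one x y; unfold tt; linarith

theorem tt_symm (x y : SS d) : tt x y = tt y x := by unfold tt; rw [real_inner_comm]

theorem tt_isoS (g : EE d ≃ₗᵢ[ℝ] EE d) (x y : SS d) : tt (isoS g x) (isoS g y) = tt x y := by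
  unfold tt; simp

theorem continuous_tt : Continuous (fun p : SS d × SS d => tt p.1 p.2) := by
  unfold tt; fun_prop

theorem one_sub_tt (x y : SS d) : 1 - tt x y = ‖(x : EE d) - y‖ ^ 2 / 4 := by
  rw [@norm_sub_sq_real, nrm, nrm]; unfold tt; ring

/-- kernels `t^k` -/
noncomputable def tK (d : ℕ) : C(SS d × SS d, ℝ) := ⟨fun p => tt p.1 p.2, continuous_tt⟩

@[simp] theorem tK_apply (x y : SS d) : tK d (x, y) = tt x y := rfl

/-- `w_a = x_i y_j - x_j y_i` -/
noncomputable def wK (a : Pr d) : C(SS d × SS d, ℝ) :=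
  ⟨fun p => (p.1 : EE d) a.1.1 * (p.2 : EE d) a.1.2 - (p.1 : EE d) a.1.2 * (p.2 : EE d) a.1.1,
    by fun_prop⟩

theorem wK_apply (a : Pr d) (x y : SS d) : wK a (x, y)
    = (x : EE d) a.1.1 * (y : EE d) a.1.2 - (x : EE d) a.1.2 * (y : EE d) a.1.1 := rfl

/-- `q_a = x_i y_i + x_j y_j` -/
noncomputable def qK (a : Pr d) : C(SS d × SS d, ℝ) :=
  ⟨fun p => (p.1 : EE d) a.1.1 * (p.2 : EE d) a.1.1 + (p.1 : EE d) a.1.2 * (p.2 : EE d) a.1.2,
    by fun_prop⟩

theorem qK_apply (a : Pr d) (x y : SS d) : qK a (x, y)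
    = (x : EE d) a.1.1 * (y : EE d) a.1.1 + (x : EE d) a.1.2 * (y : EE d) a.1.2 := rfl

theorem inner_rotV_left (a : Pr d) (θ : ℝ) (x y : EE d) :
    inner ℝ (rotV a.1.1 a.1.2 θ x) y = inner ℝ x y
      + (Real.cos θ - 1) * (x a.1.1 * y a.1.1 + x a.1.2 * y a.1.2)
      + Real.sin θ * (x a.1.1 * y a.1.2 - x a.1.2 * y a.1.1) := by
  simp only [PiLp.inner_apply, RCLike.inner_apply, conj_trivial]
  rw [sum_split a.ne, sum_split a.ne (fun k => y k * x k)]
  have h3 : ∑ k ∈ (Finset.univ.erase a.1.1).erase a.1.2, y k * rotV a.1.1 a.1.2 θ x k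
      = ∑ k ∈ (Finset.univ.erase a.1.1).erase a.1.2, y k * x k := by
    refine Finset.sum_congr rfl fun k hk => ?_
    rw [Finset.mem_erase, Finset.mem_erase] at hk
    rw [rotV_ne hk.2.1 hk.1]
  rw [h3, rotV_i, rotV_j a.ne]
  ring

theorem hasRot_tK (a : Pr d) (y : SS d) : HasRot a (sec (tK d) y) (sec ((1 / 2 : ℝ) • wK a) y) := by
  intro x
  have h1 : (fun θ : ℝ => sec (tK d) y (rotS a θ x)) = fun θ : ℝ =>
      (1 + (inner ℝ (x : EE d) (y : EE d)
      + (Real.cos θ - 1) * ((x : EE d) a.1.1 * (y : EE d) a.1.1 + (x : EE d) a.1.2 * (y : EE d) a.1.2)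
      + Real.sin θ * ((x : EE d) a.1.1 * (y : EE d) a.1.2 - (x : EE d) a.1.2 * (y : EE d) a.1.1))) / 2 := by
    funext θ
    rw [sec_apply, tK_apply, tt, rotS_coe, inner_rotV_left]
  rw [h1]
  have hc : HasDerivAt (fun θ : ℝ => Real.cos θ - 1) (-Real.sin 0) 0 :=
    (Real.hasDerivAt_cos 0).sub_const 1
  have hs : HasDerivAt (fun θ : ℝ => Real.sin θ) (Real.cos 0) 0 := Real.hasDerivAt_sin 0
  rw [Real.sin_zero, neg_zero] at hc
  rw [Real.cos_zero] at hs
  have := (((hc.mul_const ((x : EE d) a.1.1 * (y : EE d) a.1.1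
    + (x : EE d) a.1.2 * (y : EE d) a.1.2)).const_add (inner ℝ (x : EE d) (y : EE d))).add
    (hs.mul_const ((x : EE d) a.1.1 * (y : EE d) a.1.2 - (x : EE d) a.1.2 * (y : EE d) a.1.1))
    |>.const_add 1).div_const 2
  refine this.congr_deriv ?_
  rw [sec_apply, ContinuousMap.smul_apply, wK_apply, smul_eq_mul]
  ring

theorem hasRot_wK (a : Pr d) (y : SS d) : HasRot a (sec (wK a) y) (sec (-(qK a)) y) := by
  intro x
  have h1 : (fun θ : ℝ => sec (wK a) y (rotS a θ x)) = fun θ : ℝ =>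
      (Real.cos θ * (x : EE d) a.1.1 - Real.sin θ * (x : EE d) a.1.2) * (y : EE d) a.1.2
      - (Real.sin θ * (x : EE d) a.1.1 + Real.cos θ * (x : EE d) a.1.2) * (y : EE d) a.1.1 := by
    funext θ
    rw [sec_apply, wK_apply, rotS_coe, rotV_i, rotV_j a.ne]
  rw [h1]
  have hc : HasDerivAt (fun θ : ℝ => Real.cos θ) (-Real.sin 0) 0 := Real.hasDerivAt_cos 0
  have hs : HasDerivAt (fun θ : ℝ => Real.sin θ) (Real.cos 0) 0 := Real.hasDerivAt_sin 0
  rw [Real.sin_zero, neg_zero] at hc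
  rw [Real.cos_zero] at hs
  have := (((hc.mul_const ((x : EE d) a.1.1)).sub (hs.mul_const ((x : EE d) a.1.2))).mul_const
    ((y : EE d) a.1.2)).sub
    (((hs.mul_const ((x : EE d) a.1.1)).add (hc.mul_const ((x : EE d) a.1.2))).mul_const
    ((y : EE d) a.1.1))
  refine this.congr_deriv ?_
  rw [sec_apply, ContinuousMap.neg_apply, qK_apply]
  ring

/-! ## sums over coordinate planes -/

theorem sum_Pr (F : Fin d → Fin d → ℝ) :
    ∑ a : Pr d, F a.1.1 a.1.2 = ∑ i, ∑ j, if i < j then F i j else 0 := by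
  rw [← Finset.sum_product', Finset.univ_product_univ, ← Finset.sum_filter]
  exact (Finset.sum_subtype (Finset.univ.filter fun p : Fin d × Fin d => p.1 < p.2)
    (fun p => by simp) (fun p => F p.1 p.2)).symm

theorem two_sum_Pr (F : Fin d → Fin d → ℝ) (hs : ∀ i j, F i j = F j i) :
    2 * ∑ a : Pr d, F a.1.1 a.1.2 = ∑ i, ∑ j, F i j - ∑ i, F i i := by
  have h1 := sum_Pr F
  have h2 : ∑ a : Pr d, F a.1.1 a.1.2 = ∑ i, ∑ j, if j < i then F i j else 0 := by
    rw [h1, Finset.sum_comm]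
    refine Finset.sum_congr rfl fun i _ => Finset.sum_congr rfl fun j _ => ?_
    rw [hs j i]
  have h3 : ∑ i, F i i = ∑ i : Fin d, ∑ j, if i = j then F i j else 0 := by
    refine Finset.sum_congr rfl fun i _ => ?_
    rw [Finset.sum_ite_eq]; simp
  rw [two_mul]
  nth_rw 1 [h1]
  rw [h2, h3, ← Finset.sum_add_distrib, ← Finset.sum_sub_distrib]
  refine Finset.sum_congr rfl fun i _ => ?_
  rw [← Finset.sum_add_distrib, ← Finset.sum_sub_distrib]
  refine Finset.sum_congr rfl fun j _ => ?_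
  rcases lt_trichotomy i j with h | h | h
  · simp [h, h.ne, not_lt.2 h.le]
  · simp [h]
  · simp [h, h.ne', not_lt.2 h.le]

theorem sum_mul_coord (x y : EE d) : ∑ i, x i * y i = inner ℝ x y := by
  simp only [PiLp.inner_apply, RCLike.inner_apply, conj_trivial]
  exact Finset.sum_congr rfl fun i _ => mul_comm _ _

theorem sum_wK_sq (x y : SS d) : ∑ a : Pr d, (wK a (x, y)) ^ 2 = 4 * tt x y * (1 - tt x y) := by
  have h := two_sum_Pr (fun i j => ((x : EE d) i * (y : EE d) j - (x : EE d) j * (y : EE d) i) ^ 2)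
    (fun i j => by ring)
  have hx : ∑ i, (x : EE d) i * (x : EE d) i = 1 := by
    rw [sum_mul_coord, real_inner_self_eq_norm_sq, nrm]; norm_num
  have hy : ∑ i, (y : EE d) i * (y : EE d) i = 1 := by
    rw [sum_mul_coord, real_inner_self_eq_norm_sq, nrm]; norm_num
  have hxy : ∑ i, (x : EE d) i * (y : EE d) i = inner ℝ (x : EE d) (y : EE d) := sum_mul_coord _ _
  have h2 : ∑ i, ∑ j, ((x : EE d) i * (y : EE d) j - (x : EE d) j * (y : EE d) i) ^ 2
      = 2 * ((∑ i, (x : EE d) i * (x : EE d) i) * (∑ i, (y : EE d) i * (y : EE d) i))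
        - 2 * ((∑ i, (x : EE d) i * (y : EE d) i) * (∑ i, (x : EE d) i * (y : EE d) i)) := by
    have e1 : (∑ i, (x : EE d) i * (x : EE d) i) * (∑ i, (y : EE d) i * (y : EE d) i)
        = ∑ i, ∑ j, (x : EE d) i * (x : EE d) i * ((y : EE d) j * (y : EE d) j) :=
      Finset.sum_mul_sum _ _ _ _
    have e2 : (∑ i, (x : EE d) i * (x : EE d) i) * (∑ i, (y : EE d) i * (y : EE d) i)
        = ∑ i, ∑ j, (x : EE d) j * (x : EE d) j * ((y : EE d) i * (y : EE d) i) := by
      rw [Finset.sum_mul_sum, Finset.sum_comm]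
    have e3 : (∑ i, (x : EE d) i * (y : EE d) i) * (∑ i, (x : EE d) i * (y : EE d) i)
        = ∑ i, ∑ j, (x : EE d) i * (y : EE d) i * ((x : EE d) j * (y : EE d) j) :=
      Finset.sum_mul_sum _ _ _ _
    have e4 : 2 * ((∑ i, (x : EE d) i * (x : EE d) i) * (∑ i, (y : EE d) i * (y : EE d) i))
        = ∑ i, ∑ j, ((x : EE d) i * (x : EE d) i * ((y : EE d) j * (y : EE d) j)
          + (x : EE d) j * (x : EE d) j * ((y : EE d) i * (y : EE d) i)) := by
      rw [two_mul]
      nth_rw 1 [e1]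
      rw [e2, ← Finset.sum_add_distrib]
      exact Finset.sum_congr rfl fun i _ => (Finset.sum_add_distrib).symm
    rw [e4, e3, Finset.mul_sum, ← Finset.sum_sub_distrib]
    refine Finset.sum_congr rfl fun i _ => ?_
    rw [Finset.mul_sum, ← Finset.sum_sub_distrib]
    exact Finset.sum_congr rfl fun j _ => by ring
  have h3 : ∑ i : Fin d, ((x : EE d) i * (y : EE d) i - (x : EE d) i * (y : EE d) i) ^ 2 = 0 := by
    simp
  rw [h2, h3, hx, hy, hxy] at h
  have h4 : ∑ a : Pr d, (wK a (x, y)) ^ 2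
      = ∑ a : Pr d, ((x : EE d) a.1.1 * (y : EE d) a.1.2 - (x : EE d) a.1.2 * (y : EE d) a.1.1) ^ 2 :=
    rfl
  rw [h4]
  unfold tt
  linarith

theorem sum_qK (x y : SS d) : ∑ a : Pr d, qK a (x, y) = (d - 1 : ℝ) * (2 * tt x y - 1) := by
  have h := two_sum_Pr (fun i j => (x : EE d) i * (y : EE d) i + (x : EE d) j * (y : EE d) j)
    (fun i j => by ring)
  have hxy : ∑ i, (x : EE d) i * (y : EE d) i = inner ℝ (x : EE d) (y : EE d) := sum_mul_coord _ _
  have h2 : ∑ i : Fin d, ∑ j : Fin d, ((x : EE d) i * (y : EE d) i + (x : EE d) j * (y : EE d) j)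
      = 2 * (d * inner ℝ (x : EE d) (y : EE d)) := by
    simp only [Finset.sum_add_distrib, Finset.sum_const, Finset.card_univ, Fintype.card_fin,
      nsmul_eq_mul, ← Finset.mul_sum, hxy]
    ring
  have h3 : ∑ i : Fin d, ((x : EE d) i * (y : EE d) i + (x : EE d) i * (y : EE d) i)
      = 2 * inner ℝ (x : EE d) (y : EE d) := by
    rw [Finset.sum_add_distrib, hxy]; ring
  rw [h2, h3] at h
  have h4 : ∑ a : Pr d, qK a (x, y)
      = ∑ a : Pr d, ((x : EE d) a.1.1 * (y : EE d) a.1.1 + (x : EE d) a.1.2 * (y : EE d) a.1.2) :=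
    rfl
  rw [h4]
  unfold tt
  linarith

end Crest.Agent.R246.Zon797
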