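import Crest.Agent.R246.Zon1_797
import Mathlib.Analysis.PSeries
import Mathlib.Analysis.MeanInequalities
import Mathlib.MeasureTheory.Integral.MeanInequalities

/-! # Row 246: zonal power series, the masses `τ k` and coefficients `c k` (helper797) -/

set_option autoImplicit false
set_option maxHeartbeats 400000
open MeasureTheory Metric Topology Filter

namespace Crest.Agent.R246.Zon797

variable {m : ℕ}

/-- north pole -/
noncomputable def north (m : ℕ) : SS (m + 2) := ⟨EuclideanSpace.single 0 1, by simp⟩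

theorem exists_iso (x x' : SS (m + 2)) : ∃ g : EE (m + 2) ≃ₗᵢ[ℝ] EE (m + 2), isoS g x = x' := by
  refine ⟨Submodule.reflection (Submodule.span ℝ {(x : EE (m + 2)) - x'})ᗮ, ?_⟩
  ext1
  rw [isoS_coe]
  exact Submodule.reflection_sub (by rw [nrm, nrm])

/-- zonal integrals do not depend on the pole -/
theorem zonal_integral (q : ℝ → ℝ) (x x' : SS (m + 2)) :
    ∫ y, q (tt x y) ∂(sig (m + 2)) = ∫ y, q (tt x' y) ∂(sig (m + 2)) := by
  obtain ⟨g, hg⟩ := exists_iso x x'
  rw [← integral_isoS g (fun y => q (tt x' y))]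
  refine integral_congr_ae (Eventually.of_forall fun y => ?_)
  simp only [← hg, tt_isoS]

/-- masses of the zonal powers -/
noncomputable def tau (m k : ℕ) : ℝ := ∫ y, (tt (north m) y) ^ k ∂(sig (m + 2))

theorem integral_tt_pow (x : SS (m + 2)) (k : ℕ) :
    ∫ y, (tt x y) ^ k ∂(sig (m + 2)) = tau m k := zonal_integral (fun t => t ^ k) x (north m)

theorem integral_tt_pow' (y : SS (m + 2)) (k : ℕ) :
    ∫ x, (tt x y) ^ k ∂(sig (m + 2)) = tau m k := by
  simp_rw [fun x => tt_symm x y]; exact integral_tt_pow y k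

theorem continuous_tt_right (x : SS (m + 2)) : Continuous (fun y => tt x y) :=
  continuous_tt.comp (continuous_const.prodMk continuous_id)

theorem integrable_cont {f : SS (m + 2) → ℝ} (hf : Continuous f) : Integrable f (sig (m + 2)) :=
  hf.integrable_of_hasCompactSupport (HasCompactSupport.of_compactSpace _)

theorem sig_univ_pos : 0 < (sig (m + 2)).real Set.univ := by
  have h : (sig (m + 2)) ≠ 0 := Measure.toSphere_ne_zero _
  have h2 : (sig (m + 2)) Set.univ ≠ 0 := by rwa [ne_eq, Measure.measure_univ_eq_zero]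
  exact ENNReal.toReal_pos h2 (measure_ne_top _ _)

theorem tau_zero : tau m 0 = (sig (m + 2)).real Set.univ := by
  unfold tau; simp

theorem tau_nonneg (k : ℕ) : 0 ≤ tau m k :=
  integral_nonneg fun _ => pow_nonneg (tt_nonneg _ _) _

/-! ### the second derivative kernels -/

/-- first derivative kernel of `t^k` -/
noncomputable def k1 (m k : ℕ) (a : Pr (m + 2)) : C(SS (m + 2) × SS (m + 2), ℝ) :=
  ((k : ℝ) / 2) • ((tK (m + 2)) ^ (k - 1) * wK a)

/-- second derivative kernel of `t^k` -/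
noncomputable def k2 (m k : ℕ) (a : Pr (m + 2)) : C(SS (m + 2) × SS (m + 2), ℝ) :=
  ((k : ℝ) * (k - 1) / 4) • ((tK (m + 2)) ^ (k - 2) * (wK a) ^ 2)
    - ((k : ℝ) / 2) • ((tK (m + 2)) ^ (k - 1) * qK a)

theorem sec_pow (κ : C(SS (m + 2) × SS (m + 2), ℝ)) (n : ℕ) (y : SS (m + 2)) :
    sec (κ ^ n) y = (sec κ y) ^ n := by ext x; simp

theorem sec_mul (κ ρ : C(SS (m + 2) × SS (m + 2), ℝ)) (y : SS (m + 2)) :
    sec (κ * ρ) y = sec κ y * sec ρ y := by ext x; simp

theorem sec_smul (c : ℝ) (κ : C(SS (m + 2) × SS (m + 2), ℝ)) (y : SS (m + 2)) :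
    sec (c • κ) y = c • sec κ y := by ext x; simp

theorem hasRot_k0 (k : ℕ) (a : Pr (m + 2)) (y : SS (m + 2)) :
    HasRot a (sec ((tK (m + 2)) ^ k) y) (sec (k1 m k a) y) := by
  rcases k with _ | k
  · have h1 : sec ((tK (m + 2)) ^ 0) y = ContinuousMap.const _ 1 := by ext x; simp
    have h2 : sec (k1 m 0 a) y = 0 := by ext x; simp [k1]
    rw [h1, h2]; exact HasRot.const a 1
  · have h := (hasRot_tK a y).pow k
    rw [← sec_pow] at h
    convert h using 1
    ext x
    simp only [k1, sec_apply, ContinuousMap.smul_apply, ContinuousMap.mul_apply,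
      ContinuousMap.pow_apply, smul_eq_mul, Nat.add_sub_cancel]
    push_cast
    ring

theorem hasRot_k1 (k : ℕ) (a : Pr (m + 2)) (y : SS (m + 2)) :
    HasRot a (sec (k1 m k a) y) (sec (k2 m k a) y) := by
  rcases k with _ | _ | k
  · have h1 : sec (k1 m 0 a) y = 0 := by ext x; simp [k1]
    have h2 : sec (k2 m 0 a) y = 0 := by ext x; simp [k2]
    rw [h1, h2]; exact HasRot.zero a
  · have h := (hasRot_wK a y).smul (1 / 2 : ℝ)
    convert h using 1
    · ext x; simp [k1]
    · ext x; simp [k2]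
  · have h := (((hasRot_tK a y).pow k).mul (hasRot_wK a y)).smul (((k + 2 : ℕ) : ℝ) / 2)
    convert h using 1
    · ext x
      simp only [k1, sec_apply, ContinuousMap.smul_apply, ContinuousMap.mul_apply,
        ContinuousMap.pow_apply, smul_eq_mul]
      rw [show k + 1 + 1 - 1 = k + 1 from rfl]
    · ext x
      simp only [k2, sec_apply, ContinuousMap.smul_apply, ContinuousMap.mul_apply,
        ContinuousMap.pow_apply, smul_eq_mul, ContinuousMap.sub_apply, ContinuousMap.add_apply,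
        ContinuousMap.neg_apply]
      have e1 : k + 2 - 2 = k := rfl
      have e2 : k + 2 - 1 = k + 1 := rfl
      rw [show k + 1 + 1 - 2 = k from rfl, show k + 1 + 1 - 1 = k + 1 from rfl]
      push_cast
      ring

/-- the Laplacian of `t^(k+1)` -/
theorem sum_k2_succ (k : ℕ) (x y : SS (m + 2)) :
    ∑ a : Pr (m + 2), k2 m (k + 1) a (x, y)
      = ((k : ℝ) + 1) * (k + (m + 1) / 2) * (tt x y) ^ k
        - ((k : ℝ) + 1) * (k + 1 + m) * (tt x y) ^ (k + 1) := by
  have h1 := sum_wK_sq x y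
  have h2 := sum_qK x y
  have h3 : ∑ a : Pr (m + 2), k2 m (k + 1) a (x, y)
      = (((k + 1 : ℕ) : ℝ) * (((k + 1 : ℕ) : ℝ) - 1) / 4) * ((tt x y) ^ (k + 1 - 2)
          * ∑ a : Pr (m + 2), (wK a (x, y)) ^ 2)
        - (((k + 1 : ℕ) : ℝ) / 2) * ((tt x y) ^ (k + 1 - 1) * ∑ a : Pr (m + 2), qK a (x, y)) := by
    rw [Finset.mul_sum, Finset.mul_sum, Finset.mul_sum, Finset.mul_sum, ← Finset.sum_sub_distrib]
    refine Finset.sum_congr rfl fun a _ => ?_
    simp [k2]
  rw [h3, h1, h2]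
  rcases k with _ | k
  · simp only [Nat.zero_add]
    push_cast
    simp
    ring
  · rw [show k + 1 + 1 - 2 = k from rfl, show k + 1 + 1 - 1 = k + 1 from rfl]
    push_cast
    ring

/-- ratio of the masses -/
theorem tau_succ (k : ℕ) :
    (k + 1 + m : ℝ) * tau m (k + 1) = (k + (m + 1) / 2 : ℝ) * tau m k := by
  have y := north m
  have h1 : ∀ a : Pr (m + 2), ∫ x, k2 m (k + 1) a (x, y) ∂(sig (m + 2)) = 0 := fun a =>
    (hasRot_k1 (k + 1) a y).integral_eq_zero
  have h2 : ∫ x, ∑ a : Pr (m + 2), k2 m (k + 1) a (x, y) ∂(sig (m + 2)) = 0 := by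
    rw [integral_finsetSum _ (fun a _ => integrable_cont (by fun_prop))]
    exact Finset.sum_eq_zero fun a _ => h1 a
  simp_rw [sum_k2_succ] at h2
  have c1 : Continuous fun x : SS (m + 2) => tt x y :=
    continuous_tt.comp (continuous_id.prodMk continuous_const)
  rw [integral_sub (integrable_cont (by fun_prop)) (integrable_cont (by fun_prop)),
    integral_const_mul, integral_const_mul, integral_tt_pow', integral_tt_pow'] at h2
  have hk : (0 : ℝ) < k + 1 := by positivity
  have h4 : ((k : ℝ) + 1) * ((k + (m + 1) / 2 : ℝ) * tau m k)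
      = ((k : ℝ) + 1) * ((k + 1 + m : ℝ) * tau m (k + 1)) := by linarith
  exact (mul_left_cancel₀ hk.ne' h4).symm

theorem tau_pos (k : ℕ) : 0 < tau m k := by
  induction k with
  | zero => rw [tau_zero]; exact sig_univ_pos
  | succ k ih =>
    have h := tau_succ (m := m) k
    have h1 : (0 : ℝ) < k + 1 + m := by positivity
    have h2 : (0 : ℝ) < k + (m + 1) / 2 := by positivity
    have h3 : 0 < (k + 1 + m : ℝ) * tau m (k + 1) := by rw [h]; exact mul_pos h2 ih
    exact pos_of_mul_pos_right h3 h1.le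

/-! ### coefficients -/

/-- coefficients of the resolvent kernel -/
noncomputable def cf (m : ℕ) (lam : ℝ) : ℕ → ℝ
  | 0 => 1
  | k + 1 => cf m lam k * (lam + k * m + (k : ℝ) ^ 2) / ((k + 1) * (k + (m + 1) / 2))

theorem cf_pos {lam : ℝ} (hl : 0 < lam) (k : ℕ) : 0 < cf m lam k := by
  induction k with
  | zero => simp [cf]
  | succ k ih => simp only [cf]; positivity

theorem cf_succ {lam : ℝ} (k : ℕ) :
    cf m lam (k + 1) * ((k + 1) * (k + (m + 1) / 2)) = cf m lam k * (lam + k * m + (k : ℝ) ^ 2) := by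
  simp only [cf]
  have : ((k : ℝ) + 1) * (k + (m + 1) / 2) ≠ 0 := by positivity
  field_simp

/-- mass of the term of order `k` -/
noncomputable def bb (m : ℕ) (lam : ℝ) (k : ℕ) : ℝ := cf m lam k * tau m k

theorem bb_pos {lam : ℝ} (hl : 0 < lam) (k : ℕ) : 0 < bb m lam k := mul_pos (cf_pos hl k) (tau_pos k)

theorem bb_succ {lam : ℝ} (k : ℕ) :
    bb m lam (k + 1) * ((k + 1) * (k + 1 + m)) = bb m lam k * (lam + k * m + (k : ℝ) ^ 2) := by
  have h1 := cf_succ (m := m) (lam := lam) k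
  have h2 := tau_succ (m := m) k
  unfold bb
  have h3 : (k + (m + 1) / 2 : ℝ) ≠ 0 := by positivity
  apply mul_left_cancel₀ h3
  calc (k + (m + 1) / 2 : ℝ) * (cf m lam (k + 1) * tau m (k + 1) * ((k + 1) * (k + 1 + m)))
      = (cf m lam (k + 1) * ((k + 1) * (k + (m + 1) / 2))) * ((k + 1 + m) * tau m (k + 1)) := by ring
    _ = (cf m lam k * (lam + k * m + (k : ℝ) ^ 2)) * ((k + (m + 1) / 2) * tau m k) := by rw [h1, h2]
    _ = _ := by ring

/-- partial sums of the masses -/
noncomputable def Sb (m : ℕ) (lam : ℝ) (n : ℕ) : ℝ := ∑ k ∈ Finset.range (n + 1), bb m lam k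

/-- the telescoping identity for the masses -/
theorem Sb_eq (lam : ℝ) (n : ℕ) :
    lam * Sb m lam n = bb m lam n * (lam + n * m + (n : ℝ) ^ 2) := by
  induction n with
  | zero => simp [Sb]; ring
  | succ n ih =>
    unfold Sb at ih ⊢
    rw [Finset.sum_range_succ, mul_add, ih, ← bb_succ]
    push_cast; ring

theorem Sb_succ {lam : ℝ} (hl : 0 < lam) (n : ℕ) :
    Sb m lam (n + 1) ≤ Sb m lam n * (1 + lam / ((n : ℝ) + 1) ^ 2) := by
  have h1 := Sb_eq (m := m) lam n
  have h2 := bb_succ (m := m) (lam := lam) n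
  have h3 : Sb m lam (n + 1) = Sb m lam n + bb m lam (n + 1) := by
    unfold Sb; rw [Finset.sum_range_succ]
  have h4 : bb m lam (n + 1) * ((n + 1) * (n + 1 + m)) = lam * Sb m lam n := by rw [h2, ← h1]
  have hb := bb_pos (m := m) hl (n + 1)
  have h5 : bb m lam (n + 1) * ((n : ℝ) + 1) ^ 2 ≤ lam * Sb m lam n := by
    rw [← h4]
    refine mul_le_mul_of_nonneg_left ?_ hb.le
    have : (0 : ℝ) ≤ (n + 1) * m := by positivity
    nlinarith
  have h6 : bb m lam (n + 1) ≤ lam * Sb m lam n / ((n : ℝ) + 1) ^ 2 := by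
    rw [le_div_iff₀ (by positivity)]; exact h5
  rw [h3]
  calc Sb m lam n + bb m lam (n + 1) ≤ Sb m lam n + lam * Sb m lam n / ((n : ℝ) + 1) ^ 2 := by
        linarith
    _ = _ := by ring

theorem summable_bb {lam : ℝ} (hl : 0 < lam) : Summable (bb m lam) := by
  -- bound of the partial sums
  have hs : Summable (fun n : ℕ => lam / ((n : ℝ) + 1) ^ 2) := by
    have h1 : Summable (fun n : ℕ => 1 / ((n : ℝ)) ^ 2) :=
      Real.summable_one_div_nat_pow.2 (by norm_num)
    have h2 := ((summable_nat_add_iff 1).2 h1).mul_left lam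
    refine h2.congr fun n => ?_
    push_cast; ring
  have hS : ∀ n, Sb m lam n ≤ bb m lam 0 * Real.exp (∑ k ∈ Finset.range n, lam / ((k : ℝ) + 1) ^ 2) := by
    intro n
    induction n with
    | zero => simp [Sb]
    | succ n ih =>
      rw [Finset.sum_range_succ, Real.exp_add, ← mul_assoc]
      refine (Sb_succ hl n).trans ?_
      have hpos : 0 ≤ Sb m lam n := Finset.sum_nonneg fun k _ => (bb_pos hl k).le
      have h3 : 1 + lam / ((n : ℝ) + 1) ^ 2 ≤ Real.exp (lam / ((n : ℝ) + 1) ^ 2) := by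
        have := Real.add_one_le_exp (lam / ((n : ℝ) + 1) ^ 2); linarith
      exact mul_le_mul ih h3 (by positivity) (hpos.trans ih)
  refine summable_of_sum_range_le (c := bb m lam 0 * Real.exp (∑' k : ℕ, lam / ((k : ℝ) + 1) ^ 2))
    (fun k => (bb_pos hl k).le) fun n => ?_
  have h1 : ∑ k ∈ Finset.range n, bb m lam k ≤ Sb m lam n := by
    unfold Sb; rw [Finset.sum_range_succ]; linarith [(bb_pos (m := m) hl n)]
  refine h1.trans ((hS n).trans ?_)
  refine mul_le_mul_of_nonneg_left ?_ (bb_pos hl 0).le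
  exact Real.exp_le_exp.2 (hs.sum_le_tsum _ (fun k _ => by positivity))

/-- total mass -/
noncomputable def Sinf (m : ℕ) (lam : ℝ) : ℝ := ∑' k, bb m lam k

theorem Sinf_pos {lam : ℝ} (hl : 0 < lam) : 0 < Sinf m lam :=
  (summable_bb hl).tsum_pos (fun k => (bb_pos hl k).le) 0 (bb_pos hl 0)

theorem Sb_le {lam : ℝ} (hl : 0 < lam) (n : ℕ) : Sb m lam n ≤ Sinf m lam :=
  (summable_bb hl).sum_le_tsum _ (fun k _ => (bb_pos hl k).le)

theorem Sb_pos {lam : ℝ} (hl : 0 < lam) (n : ℕ) : 0 < Sb m lam n :=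
  Finset.sum_pos (fun k _ => bb_pos hl k) ⟨0, by simp⟩

theorem tendsto_Sb {lam : ℝ} (hl : 0 < lam) : Tendsto (Sb m lam) atTop (𝓝 (Sinf m lam)) := by
  have := (summable_bb (m := m) hl).hasSum.tendsto_sum_nat
  exact (tendsto_add_atTop_iff_nat 1).2 this

theorem bb_le {lam : ℝ} (hl : 0 < lam) (n : ℕ) (hn : 1 ≤ n) :
    bb m lam n ≤ lam * Sinf m lam / (n : ℝ) ^ 2 := by
  have h1 := Sb_eq (m := m) lam n
  have hb := bb_pos (m := m) hl n
  have hn' : (0 : ℝ) < n := by exact_mod_cast hn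
  rw [le_div_iff₀ (by positivity)]
  calc bb m lam n * (n : ℝ) ^ 2 ≤ bb m lam n * (lam + n * m + (n : ℝ) ^ 2) := by
        refine mul_le_mul_of_nonneg_left ?_ hb.le
        have : (0 : ℝ) ≤ n * m := by positivity
        linarith
    _ = lam * Sb m lam n := h1.symm
    _ ≤ lam * Sinf m lam := mul_le_mul_of_nonneg_left (Sb_le hl n) hl.le

/-! ### Schur norms of the kernels -/

theorem schur0 (k : ℕ) (x : SS (m + 2)) :
    ∫ y, |((tK (m + 2)) ^ k) (x, y)| ∂(sig (m + 2)) ≤ tau m k := by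
  rw [← integral_tt_pow x k]
  refine le_of_eq (integral_congr_ae (Eventually.of_forall fun y => ?_))
  simp only [ContinuousMap.pow_apply, tK_apply]
  exact abs_of_nonneg (pow_nonneg (tt_nonneg _ _) _)

theorem abs_wK_le (a : Pr (m + 2)) (x y : SS (m + 2)) :
    |wK a (x, y)| ≤ 2 * Real.sqrt (tt x y * (1 - tt x y)) := by
  have h1 : (wK a (x, y)) ^ 2 ≤ 4 * tt x y * (1 - tt x y) := by
    rw [← sum_wK_sq x y]
    exact Finset.single_le_sum (f := fun a => (wK a (x, y)) ^ 2) (fun i _ => sq_nonneg _)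
      (Finset.mem_univ a)
  have h2 : (0 : ℝ) ≤ tt x y * (1 - tt x y) :=
    mul_nonneg (tt_nonneg _ _) (by linarith [tt_le_one x y])
  refine abs_le_of_sq_le_sq ?_ (by positivity)
  rw [mul_pow, Real.sq_sqrt h2]
  linarith

/-- Cauchy-Schwarz for continuous functions on the sphere -/
theorem cs {f g : SS (m + 2) → ℝ} (hf : Continuous f) (hg : Continuous g) (hf0 : ∀ x, 0 ≤ f x)
    (hg0 : ∀ x, 0 ≤ g x) :
    ∫ y, Real.sqrt (f y) * Real.sqrt (g y) ∂(sig (m + 2))
      ≤ Real.sqrt (∫ y, f y ∂(sig (m + 2))) * Real.sqrt (∫ y, g y ∂(sig (m + 2))) := by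
  have hfi := integrable_cont hf
  have hgi := integrable_cont hg
  set A := ∫ y, f y ∂(sig (m + 2)) with hA
  set B := ∫ y, g y ∂(sig (m + 2)) with hB
  have hA0 : 0 ≤ A := integral_nonneg hf0
  have hB0 : 0 ≤ B := integral_nonneg hg0
  -- for all s > 0: √(fg) ≤ (s f + g/s)/2
  have key : ∀ s : ℝ, 0 < s → ∫ y, Real.sqrt (f y) * Real.sqrt (g y) ∂(sig (m + 2))
      ≤ (s * A + B / s) / 2 := by
    intro s hs
    have hci : Continuous fun y => Real.sqrt (f y) * Real.sqrt (g y) := by fun_prop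
    calc ∫ y, Real.sqrt (f y) * Real.sqrt (g y) ∂(sig (m + 2))
        ≤ ∫ y, (s * f y + g y / s) / 2 ∂(sig (m + 2)) := by
          refine integral_mono (integrable_cont hci)
            (((hfi.const_mul s).add (hgi.div_const s)).div_const 2) fun y => ?_
          show Real.sqrt (f y) * Real.sqrt (g y) ≤ (s * f y + g y / s) / 2
          have h1 := Real.sq_sqrt (hf0 y)
          have h2 := Real.sq_sqrt (hg0 y)
          have hs2 : Real.sqrt s ^ 2 = s := Real.sq_sqrt hs.le
          have hs0 : 0 < Real.sqrt s := Real.sqrt_pos.2 hs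
          have h3 : 0 ≤ (Real.sqrt s * Real.sqrt (f y) - Real.sqrt (g y) / Real.sqrt s) ^ 2 :=
            sq_nonneg _
          have h4 : (Real.sqrt s * Real.sqrt (f y) - Real.sqrt (g y) / Real.sqrt s) ^ 2
              = s * f y + g y / s - 2 * (Real.sqrt (f y) * Real.sqrt (g y)) := by
            rw [sub_sq, mul_pow, div_pow, hs2, h1, h2]
            have : 2 * (Real.sqrt s * Real.sqrt (f y)) * (Real.sqrt (g y) / Real.sqrt s)
                = 2 * (Real.sqrt (f y) * Real.sqrt (g y)) := by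
              field_simp
            rw [this]; ring
          linarith
      _ = (s * A + B / s) / 2 := by
          rw [integral_div, integral_add (hfi.const_mul s) (hgi.div_const s), integral_const_mul,
            integral_div]
  have hI0 : 0 ≤ ∫ y, Real.sqrt (f y) * Real.sqrt (g y) ∂(sig (m + 2)) :=
    integral_nonneg fun y => mul_nonneg (Real.sqrt_nonneg _) (Real.sqrt_nonneg _)
  set I := ∫ y, Real.sqrt (f y) * Real.sqrt (g y) ∂(sig (m + 2)) with hI
  rcases hA0.eq_or_lt with hA1 | hA1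
  · -- A = 0
    rw [← hA1, Real.sqrt_zero, zero_mul]
    have h1 : ∀ s : ℝ, 0 < s → I ≤ B / s / 2 := fun s hs => by
      have := key s hs; rw [← hA1, mul_zero, zero_add] at this; exact this
    have h2 : Tendsto (fun s : ℝ => B / s / 2) atTop (𝓝 0) := by
      have := (tendsto_const_nhds (x := B)).div_atTop tendsto_id (l := (atTop : Filter ℝ))
      simpa using this.div_const 2
    exact ge_of_tendsto h2 (eventually_atTop.2 ⟨1, fun s hs => h1 s (by linarith)⟩)
  · rcases hB0.eq_or_lt with hB1 | hB1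
    · rw [← hB1, Real.sqrt_zero, mul_zero]
      have h1 : ∀ s : ℝ, 0 < s → I ≤ s * A / 2 := fun s hs => by
        have := key s hs; rw [← hB1, zero_div, add_zero] at this; exact this
      have h2 : Tendsto (fun s : ℝ => s * A / 2) (𝓝[>] 0) (𝓝 0) := by
        have : Tendsto (fun s : ℝ => s * A / 2) (𝓝 0) (𝓝 (0 * A / 2)) := by
          exact ((continuous_id.mul continuous_const).div_const 2).tendsto 0
        rw [zero_mul, zero_div] at this
        exact this.mono_left nhdsWithin_le_nhds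
      exact ge_of_tendsto h2 (eventually_nhdsWithin_of_forall fun s hs => h1 s hs)
    · have h1 := key (Real.sqrt (B / A)) (Real.sqrt_pos.2 (div_pos hB1 hA1))
      have hsA : 0 < Real.sqrt A := Real.sqrt_pos.2 hA1
      have hsB : 0 < Real.sqrt B := Real.sqrt_pos.2 hB1
      have e1 : Real.sqrt (B / A) * A = Real.sqrt A * Real.sqrt B := by
        rw [Real.sqrt_div hB1.le]
        have := Real.mul_self_sqrt hA1.le
        field_simp
        nlinarith
      have e2 : B / Real.sqrt (B / A) = Real.sqrt A * Real.sqrt B := by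
        rw [Real.sqrt_div hB1.le]
        have := Real.mul_self_sqrt hB1.le
        field_simp
        nlinarith
      rw [e1, e2] at h1
      linarith

/-- integrated first derivative kernels: `C √k τ_k` -/
theorem schur1 (k : ℕ) (a : Pr (m + 2)) (x : SS (m + 2)) :
    ∫ y, |(k1 m (k + 1) a) (x, y)| ∂(sig (m + 2))
      ≤ (k + 1 : ℝ) * (Real.sqrt (tau m k) * Real.sqrt (tau m (k + 1) - tau m (k + 2))) := by
  have c0 := continuous_tt_right x
  have h1 : ∀ y, |(k1 m (k + 1) a) (x, y)| ≤ (k + 1 : ℝ) * (Real.sqrt ((tt x y) ^ k)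
      * Real.sqrt ((tt x y) ^ (k + 1) * (1 - tt x y))) := by
    intro y
    have h2 : (k1 m (k + 1) a) (x, y) = ((k + 1 : ℝ) / 2) * ((tt x y) ^ k * wK a (x, y)) := by
      simp [k1]
    have ht := tt_nonneg x y
    have ht1 := tt_le_one x y
    rw [h2, abs_mul, abs_mul, abs_of_nonneg (pow_nonneg ht _), abs_of_nonneg (by positivity)]
    have h3 := abs_wK_le a x y
    have h4 : Real.sqrt ((tt x y) ^ k) * Real.sqrt ((tt x y) ^ (k + 1) * (1 - tt x y))
        = (tt x y) ^ k * Real.sqrt (tt x y * (1 - tt x y)) := by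
      rw [← Real.sqrt_mul (pow_nonneg ht _)]
      have : tt x y ^ k * (tt x y ^ (k + 1) * (1 - tt x y))
          = (tt x y ^ k) ^ 2 * (tt x y * (1 - tt x y)) := by ring
      rw [this, Real.sqrt_mul (sq_nonneg _), Real.sqrt_sq (pow_nonneg ht _)]
    rw [h4]
    have h5 : (0 : ℝ) ≤ (k + 1) / 2 * (tt x y) ^ k := by positivity
    nlinarith [mul_le_mul_of_nonneg_left h3 h5]
  have c1 : Continuous fun y => Real.sqrt ((tt x y) ^ k)
      * Real.sqrt ((tt x y) ^ (k + 1) * (1 - tt x y)) := by fun_prop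
  calc ∫ y, |(k1 m (k + 1) a) (x, y)| ∂(sig (m + 2))
      ≤ ∫ y, (k + 1 : ℝ) * (Real.sqrt ((tt x y) ^ k)
        * Real.sqrt ((tt x y) ^ (k + 1) * (1 - tt x y))) ∂(sig (m + 2)) :=
        integral_mono (integrable_cont (by fun_prop)) ((integrable_cont c1).const_mul _) h1
    _ = (k + 1 : ℝ) * ∫ y, (Real.sqrt ((tt x y) ^ k)
        * Real.sqrt ((tt x y) ^ (k + 1) * (1 - tt x y))) ∂(sig (m + 2)) := integral_const_mul _ _
    _ ≤ (k + 1 : ℝ) * (Real.sqrt (∫ y, (tt x y) ^ k ∂(sig (m + 2)))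
        * Real.sqrt (∫ y, (tt x y) ^ (k + 1) * (1 - tt x y) ∂(sig (m + 2)))) := by
        refine mul_le_mul_of_nonneg_left ?_ (by positivity)
        exact cs (by fun_prop) (by fun_prop) (fun y => pow_nonneg (tt_nonneg _ _) _)
          (fun y => mul_nonneg (pow_nonneg (tt_nonneg _ _) _) (by linarith [tt_le_one x y]))
    _ = _ := by
        have e1 : ∫ y, (tt x y) ^ (k + 1) * (1 - tt x y) ∂(sig (m + 2))
            = tau m (k + 1) - tau m (k + 2) := by
          rw [← integral_tt_pow x (k + 1), ← integral_tt_pow x (k + 2),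
            ← integral_sub (integrable_cont (by fun_prop)) (integrable_cont (by fun_prop))]
          refine integral_congr_ae (Eventually.of_forall fun y => ?_)
          show (tt x y) ^ (k + 1) * (1 - tt x y) = (tt x y) ^ (k + 1) - (tt x y) ^ (k + 2)
          ring
        rw [e1, integral_tt_pow]

/-- numeric bound of the first derivative masses -/
theorem schur1_num (k : ℕ) :
    (k + 1 : ℝ) * (Real.sqrt (tau m k) * Real.sqrt (tau m (k + 1) - tau m (k + 2)))
      ≤ (m + 1 : ℝ) * Real.sqrt (k + 1) * tau m (k + 1) := by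
  have t0 := tau_pos (m := m) k
  have t1 := tau_pos (m := m) (k + 1)
  have e0 := tau_succ (m := m) k
  have e1 := tau_succ (m := m) (k + 1)
  push_cast at e1
  have hm : (0 : ℝ) ≤ m := Nat.cast_nonneg m
  have hk : (0 : ℝ) ≤ k := Nat.cast_nonneg k
  -- τ_k ≤ 2 τ_{k+1}
  have b0 : tau m k ≤ 2 * tau m (k + 1) := by
    have h1 : (k + (m + 1) / 2 : ℝ) * tau m k ≤ (k + (m + 1) / 2 : ℝ) * (2 * tau m (k + 1)) := by
      rw [← e0]
      have : (0 : ℝ) ≤ k * tau m (k + 1) := by positivity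
      nlinarith
    exact le_of_mul_le_mul_left h1 (by positivity)
  -- τ_{k+1} - τ_{k+2} ≤ ((m+1)/2)/(k+1) τ_{k+1}
  have b1 : (k + 1 : ℝ) * (tau m (k + 1) - tau m (k + 2)) ≤ (m + 1) / 2 * tau m (k + 1) := by
    have t2 := tau_pos (m := m) (k + 2)
    have h1 : (k + 2 + m : ℝ) * (tau m (k + 1) - tau m (k + 2)) = (m + 1) / 2 * tau m (k + 1) := by
      have : (k + 1 + 1 + m : ℝ) * tau m (k + 2) = (k + 1 + (m + 1) / 2) * tau m (k + 1) := e1
      linarith
    have h2 : 0 ≤ tau m (k + 1) - tau m (k + 2) := by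
      have : 0 ≤ (k + 2 + m : ℝ) * (tau m (k + 1) - tau m (k + 2)) := by rw [h1]; positivity
      exact nonneg_of_mul_nonneg_right this (by positivity)
    rw [← h1]
    nlinarith
  have b2 : 0 ≤ tau m (k + 1) - tau m (k + 2) := by
    have h1 : (k + 2 + m : ℝ) * (tau m (k + 1) - tau m (k + 2)) = (m + 1) / 2 * tau m (k + 1) := by
      have : (k + 1 + 1 + m : ℝ) * tau m (k + 2) = (k + 1 + (m + 1) / 2) * tau m (k + 1) := e1
      linarith
    have : 0 ≤ (k + 2 + m : ℝ) * (tau m (k + 1) - tau m (k + 2)) := by rw [h1]; positivity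
    exact nonneg_of_mul_nonneg_right this (by positivity)
  rw [← Real.sqrt_mul t0.le]
  have hkk : (0 : ℝ) ≤ k + 1 := by positivity
  have s1 : Real.sqrt (tau m k * (tau m (k + 1) - tau m (k + 2)))
      ≤ (m + 1) * tau m (k + 1) / Real.sqrt (k + 1) := by
    rw [Real.sqrt_le_left (by positivity), div_pow, Real.sq_sqrt hkk, le_div_iff₀ (by positivity)]
    calc tau m k * (tau m (k + 1) - tau m (k + 2)) * (k + 1)
        = tau m k * ((k + 1) * (tau m (k + 1) - tau m (k + 2))) := by ring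
      _ ≤ (2 * tau m (k + 1)) * ((m + 1) / 2 * tau m (k + 1)) :=
          mul_le_mul b0 b1 (mul_nonneg hkk b2) (by positivity)
      _ = (m + 1) * tau m (k + 1) ^ 2 := by ring
      _ ≤ ((m + 1) * tau m (k + 1)) ^ 2 := by
          rw [mul_pow]
          refine mul_le_mul_of_nonneg_right ?_ (sq_nonneg _)
          nlinarith
  calc (k + 1 : ℝ) * Real.sqrt (tau m k * (tau m (k + 1) - tau m (k + 2)))
      ≤ (k + 1) * ((m + 1) * tau m (k + 1) / Real.sqrt (k + 1)) :=
        mul_le_mul_of_nonneg_left s1 hkk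
    _ = (m + 1 : ℝ) * Real.sqrt (k + 1) * tau m (k + 1) := by
        have h1 : Real.sqrt (k + 1 : ℝ) ≠ 0 := (Real.sqrt_pos.2 (by positivity)).ne'
        have h2 := Real.mul_self_sqrt hkk
        field_simp
        rw [Real.sq_sqrt hkk]

/-- total first-derivative mass of order `k` -/
noncomputable def mass1 (m : ℕ) (lam : ℝ) (k : ℕ) : ℝ :=
  (m + 1 : ℝ) * (Real.sqrt k * bb m lam k)

theorem mass1_nonneg {lam : ℝ} (hl : 0 < lam) (k : ℕ) : 0 ≤ mass1 m lam k := by
  have := (bb_pos (m := m) hl k).le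
  unfold mass1; positivity

theorem schur1' {lam : ℝ} (hl : 0 < lam) (k : ℕ) (a : Pr (m + 2)) (x : SS (m + 2)) :
    ∫ y, |(cf m lam k • k1 m k a) (x, y)| ∂(sig (m + 2)) ≤ mass1 m lam k := by
  have hc := cf_pos (m := m) hl k
  have h0 : ∫ y, |(cf m lam k • k1 m k a) (x, y)| ∂(sig (m + 2))
      = cf m lam k * ∫ y, |(k1 m k a) (x, y)| ∂(sig (m + 2)) := by
    rw [← integral_const_mul]
    refine integral_congr_ae (Eventually.of_forall fun y => ?_)
    simp only [ContinuousMap.smul_apply, smul_eq_mul, abs_mul, abs_of_pos hc]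
  rw [h0]
  rcases k with _ | k
  · have : ∀ y, |(k1 m 0 a) (x, y)| = 0 := fun y => by simp [k1]
    simp only [this, integral_zero, mul_zero]
    exact mass1_nonneg hl 0
  · have h1 := (schur1 k a x).trans (schur1_num k)
    calc cf m lam (k + 1) * ∫ y, |(k1 m (k + 1) a) (x, y)| ∂(sig (m + 2))
        ≤ cf m lam (k + 1) * ((m + 1 : ℝ) * Real.sqrt (k + 1) * tau m (k + 1)) :=
          mul_le_mul_of_nonneg_left h1 hc.le
      _ = mass1 m lam (k + 1) := by unfold mass1 bb; push_cast; ring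

theorem summable_mass1 {lam : ℝ} (hl : 0 < lam) : Summable (mass1 m lam) := by
  have h1 : Summable (fun n : ℕ => 1 / (n : ℝ) ^ (3 / 2 : ℝ)) :=
    Real.summable_one_div_nat_rpow.2 (by norm_num)
  have h2 := h1.mul_left ((m + 1 : ℝ) * (lam * Sinf m lam))
  refine Summable.of_nonneg_of_le (fun k => mass1_nonneg hl k) (fun k => ?_) h2
  rcases k with _ | k
  · have h3 : (0 : ℝ) ≤ (m + 1 : ℝ) * (lam * Sinf m lam) := by
      have := (Sinf_pos (m := m) hl).le
      positivity
    have h4 : (0 : ℝ) ≤ 1 / (((0 : ℕ) : ℝ)) ^ (3 / 2 : ℝ) := by positivity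
    have h5 : mass1 m lam 0 = 0 := by simp [mass1]
    rw [h5]
    exact mul_nonneg h3 h4
  · have hk : (0 : ℝ) < ((k + 1 : ℕ) : ℝ) := by positivity
    have h3 := bb_le (m := m) hl (k + 1) (by omega)
    have h4 : Real.sqrt ((k + 1 : ℕ) : ℝ) * bb m lam (k + 1)
        ≤ lam * Sinf m lam * (1 / ((k + 1 : ℕ) : ℝ) ^ (3 / 2 : ℝ)) := by
      calc Real.sqrt ((k + 1 : ℕ) : ℝ) * bb m lam (k + 1)
          ≤ Real.sqrt ((k + 1 : ℕ) : ℝ) * (lam * Sinf m lam / (((k + 1 : ℕ) : ℝ)) ^ 2) :=
            mul_le_mul_of_nonneg_left h3 (Real.sqrt_nonneg _)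
        _ = lam * Sinf m lam * (1 / ((k + 1 : ℕ) : ℝ) ^ (3 / 2 : ℝ)) := by
            have e1 : (((k + 1 : ℕ) : ℝ)) ^ (2 : ℕ)
                = (((k + 1 : ℕ) : ℝ)) ^ (3 / 2 : ℝ) * Real.sqrt ((k + 1 : ℕ) : ℝ) := by
              rw [Real.sqrt_eq_rpow, ← Real.rpow_add hk, ← Real.rpow_natCast]
              norm_num
            rw [e1]
            have : Real.sqrt ((k + 1 : ℕ) : ℝ) ≠ 0 := (Real.sqrt_pos.2 hk).ne'
            have h5 : (((k + 1 : ℕ) : ℝ)) ^ (3 / 2 : ℝ) ≠ 0 := (Real.rpow_pos_of_pos hk _).ne'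
            field_simp
    unfold mass1
    calc (m + 1 : ℝ) * (Real.sqrt ((k + 1 : ℕ) : ℝ) * bb m lam (k + 1))
        ≤ (m + 1 : ℝ) * (lam * Sinf m lam * (1 / ((k + 1 : ℕ) : ℝ) ^ (3 / 2 : ℝ))) :=
          mul_le_mul_of_nonneg_left h4 (by positivity)
      _ = _ := by ring

end Crest.Agent.R246.Zon797
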