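import Crest.Agent.R246.Zon2_797
import Mathlib.Analysis.Normed.Operator.Compact.Basic

/-! # Row 246: the resolvent `G = (λ - Δ)⁻¹` on the sphere (helper797) -/

set_option autoImplicit false
set_option maxHeartbeats 400000
open MeasureTheory Metric Topology Filter

namespace Crest.Agent.R246.Zon797

variable {m : ℕ}

/-- modulus of continuity in the form needed for approximate identities -/
theorem exists_modulus (f : C(SS (m + 2), ℝ)) {ε : ℝ} (hε : 0 < ε) :
    ∃ C : ℝ, 0 ≤ C ∧ ∀ x y, |f y - f x| ≤ ε + C * (1 - tt x y) := by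
  have hu : UniformContinuous f := CompactSpace.uniformContinuous_of_continuous f.continuous
  obtain ⟨δ, hδ, h⟩ := Metric.uniformContinuous_iff.1 hu ε hε
  refine ⟨2 * ‖f‖ * (4 / δ ^ 2), by positivity, fun x y => ?_⟩
  have ht : 0 ≤ 1 - tt x y := by linarith [tt_le_one x y]
  by_cases hd : dist x y < δ
  · have h1 := h hd
    rw [Real.dist_eq, abs_sub_comm] at h1
    have : 0 ≤ 2 * ‖f‖ * (4 / δ ^ 2) * (1 - tt x y) := by positivity
    linarith
  · push Not at hd
    have h1 : |f y - f x| ≤ 2 * ‖f‖ := by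
      have a1 := f.norm_coe_le_norm y
      have a2 := f.norm_coe_le_norm x
      rw [Real.norm_eq_abs] at a1 a2
      calc |f y - f x| ≤ |f y| + |f x| := abs_sub _ _
        _ ≤ 2 * ‖f‖ := by linarith
    have h2 : δ ^ 2 / 4 ≤ 1 - tt x y := by
      rw [one_sub_tt]
      have h3 : dist x y = ‖(x : EE (m + 2)) - y‖ := by rw [Subtype.dist_eq, dist_eq_norm]
      rw [h3] at hd
      have : δ ^ 2 ≤ ‖(x : EE (m + 2)) - y‖ ^ 2 := pow_le_pow_left₀ hδ.le hd 2
      linarith
    have h4 : 1 ≤ 4 / δ ^ 2 * (1 - tt x y) := by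
      have : 4 / δ ^ 2 * (δ ^ 2 / 4) ≤ 4 / δ ^ 2 * (1 - tt x y) :=
        mul_le_mul_of_nonneg_left h2 (by positivity)
      have h5 : 4 / δ ^ 2 * (δ ^ 2 / 4) = 1 := by field_simp
      linarith
    have h6 : 2 * ‖f‖ * 1 ≤ 2 * ‖f‖ * (4 / δ ^ 2 * (1 - tt x y)) :=
      mul_le_mul_of_nonneg_left h4 (by positivity)
    nlinarith

/-- the positive approximate identity `D_n` -/
noncomputable def DN (m : ℕ) (lam : ℝ) (n : ℕ) : C(SS (m + 2) × SS (m + 2), ℝ) :=
  (cf m lam n * (lam + n * m + (n : ℝ) ^ 2)) • (tK (m + 2)) ^ n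

theorem DN_apply (lam : ℝ) (n : ℕ) (x y : SS (m + 2)) :
    DN m lam n (x, y) = cf m lam n * (lam + n * m + (n : ℝ) ^ 2) * (tt x y) ^ n := by
  simp [DN]

theorem integral_DN (lam : ℝ) (n : ℕ) (x : SS (m + 2)) :
    ∫ y, DN m lam n (x, y) ∂(sig (m + 2)) = lam * Sb m lam n := by
  simp_rw [DN_apply]
  rw [integral_const_mul, integral_tt_pow, Sb_eq]
  unfold bb; ring

theorem integral_DN' (lam : ℝ) (n : ℕ) (x : SS (m + 2)) :
    ∫ y, DN m lam n (x, y) * (1 - tt x y) ∂(sig (m + 2))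
      = lam * Sb m lam n * ((m + 1) / 2 / (n + 1 + m)) := by
  have c0 := continuous_tt_right x
  have h1 : ∀ y, DN m lam n (x, y) * (1 - tt x y) = cf m lam n * (lam + n * m + (n : ℝ) ^ 2)
      * ((tt x y) ^ n - (tt x y) ^ (n + 1)) := fun y => by rw [DN_apply]; ring
  simp_rw [h1]
  rw [integral_const_mul, integral_sub (integrable_cont (by fun_prop))
    (integrable_cont (by fun_prop)), integral_tt_pow, integral_tt_pow, Sb_eq]
  have h2 := tau_succ (m := m) n
  have h3 : (n + 1 + m : ℝ) ≠ 0 := by positivity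
  have h4 : tau m n - tau m (n + 1) = tau m n * ((m + 1) / 2 / (n + 1 + m)) := by
    field_simp
    linarith
  rw [h4]; unfold bb; ring

theorem tendsto_DN {lam : ℝ} (hl : 0 < lam) (f : C(SS (m + 2), ℝ)) :
    Tendsto (fun n => Kop (DN m lam n) f) atTop (𝓝 ((lam * Sinf m lam) • f)) := by
  have hS : Tendsto (fun n => (lam * Sb m lam n) • f) atTop (𝓝 ((lam * Sinf m lam) • f)) :=
    (((tendsto_Sb hl).const_mul lam).smul_const f)
  have key : Tendsto (fun n => Kop (DN m lam n) f - (lam * Sb m lam n) • f) atTop (𝓝 0) := by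
    rw [Metric.tendsto_atTop]
    intro ε hε
    have hSi := Sinf_pos (m := m) hl
    have hM : 0 < lam * Sinf m lam := mul_pos hl hSi
    obtain ⟨C, hC, hmod⟩ := exists_modulus f (ε := ε / (4 * (lam * Sinf m lam))) (by positivity)
    -- choose n large
    have ht : Tendsto (fun n : ℕ => C * (lam * Sinf m lam * ((m + 1) / 2 / ((n : ℝ) + 1 + m))))
        atTop (𝓝 0) := by
      have h1 : Tendsto (fun n : ℕ => (n : ℝ) + 1 + m) atTop atTop :=
        tendsto_atTop_add_const_right _ _ (tendsto_atTop_add_const_right _ _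
          tendsto_natCast_atTop_atTop)
      have h2 := ((tendsto_const_nhds (x := ((m : ℝ) + 1) / 2)).div_atTop h1).const_mul
        (lam * Sinf m lam) |>.const_mul C
      simpa using h2
    obtain ⟨N, hN⟩ := (Metric.tendsto_atTop.1 ht) (ε / 4) (by positivity)
    refine ⟨N, fun n hn => ?_⟩
    have h1 := hN n hn
    rw [Real.dist_eq, sub_zero] at h1
    rw [dist_zero_right]
    refine lt_of_le_of_lt ((ContinuousMap.norm_le _ (by positivity : (0 : ℝ) ≤ ε / 2)).2
      fun x => ?_) (by linarith : ε / 2 < ε)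
    have hcn := cf_pos (m := m) hl n
    have e1 : (Kop (DN m lam n) f - (lam * Sb m lam n) • f) x
        = ∫ y, DN m lam n (x, y) * (f y - f x) ∂(sig (m + 2)) := by
      rw [ContinuousMap.sub_apply, ContinuousMap.smul_apply, Kop_apply, smul_eq_mul,
        ← integral_DN lam n x, ← integral_mul_const, ← integral_sub (integrable_kf _ f x)
        (integrable_cont (by fun_prop))]
      refine integral_congr_ae (Eventually.of_forall fun y => ?_)
      show DN m lam n (x, y) * f y - DN m lam n (x, y) * f x = DN m lam n (x, y) * (f y - f x)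
      ring
    have c0 := continuous_tt_right x
    rw [e1]
    calc ‖∫ y, DN m lam n (x, y) * (f y - f x) ∂(sig (m + 2))‖
        ≤ ∫ y, ‖DN m lam n (x, y) * (f y - f x)‖ ∂(sig (m + 2)) := norm_integral_le_integral_norm _
      _ ≤ ∫ y, (ε / (4 * (lam * Sinf m lam)) * DN m lam n (x, y)
            + C * (DN m lam n (x, y) * (1 - tt x y))) ∂(sig (m + 2)) := by
          refine integral_mono (integrable_cont (by fun_prop)) (integrable_cont (by fun_prop))
            fun y => ?_
          show ‖DN m lam n (x, y) * (f y - f x)‖ ≤ ε / (4 * (lam * Sinf m lam)) * DN m lam n (x, y)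
            + C * (DN m lam n (x, y) * (1 - tt x y))
          have hD : 0 ≤ DN m lam n (x, y) := by
            rw [DN_apply]
            have := tt_nonneg x y
            positivity
          rw [norm_mul, Real.norm_eq_abs, Real.norm_eq_abs, abs_of_nonneg hD]
          have := mul_le_mul_of_nonneg_left (hmod x y) hD
          linarith
      _ = ε / (4 * (lam * Sinf m lam)) * (lam * Sb m lam n)
            + C * (lam * Sb m lam n * ((m + 1) / 2 / (n + 1 + m))) := by
          rw [integral_add (integrable_cont (by fun_prop)) (integrable_cont (by fun_prop)),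
            integral_const_mul, integral_const_mul, integral_DN, integral_DN']
      _ ≤ ε / (4 * (lam * Sinf m lam)) * (lam * Sinf m lam)
            + C * (lam * Sinf m lam * ((m + 1) / 2 / (n + 1 + m))) := by
          have hb := Sb_le (m := m) hl n
          have hb2 : lam * Sb m lam n ≤ lam * Sinf m lam := mul_le_mul_of_nonneg_left hb hl.le
          refine add_le_add (mul_le_mul_of_nonneg_left hb2 (by positivity)) ?_
          exact mul_le_mul_of_nonneg_left (mul_le_mul_of_nonneg_right hb2 (by positivity)) hC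
      _ ≤ ε / 4 + ε / 4 := by
          refine add_le_add (le_of_eq ?_) ((le_abs_self _).trans h1.le)
          field_simp
      _ = ε / 2 := by ring
  have := key.add hS
  rw [zero_add] at this
  refine this.congr fun n => ?_
  rw [sub_add_cancel]

/-! ### the operators -/

/-- normalising constant -/
noncomputable def mu (m : ℕ) (lam : ℝ) : ℝ := lam * Sinf m lam

theorem mu_pos {lam : ℝ} (hl : 0 < lam) : 0 < mu m lam := mul_pos hl (Sinf_pos hl)

/-- series of operators in a Banach space -/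
theorem op_series {E : Type*} [NormedAddCommGroup E] [NormedSpace ℝ E] [CompleteSpace E]
    (T : ℕ → E →L[ℝ] E) {b : ℕ → ℝ} (hb : Summable b) (h : ∀ k, ‖T k‖ ≤ b k) :
    ∃ A : E →L[ℝ] E, (∀ f, Tendsto (fun n => ∑ k ∈ Finset.range (n + 1), T k f) atTop (𝓝 (A f)))
      ∧ ((∀ k, IsCompactOperator (T k)) → IsCompactOperator A) := by
  have hs : Summable T := Summable.of_norm_bounded hb h
  have ht : Tendsto (fun n => ∑ k ∈ Finset.range (n + 1), T k) atTop (𝓝 (∑' k, T k)) :=
    (tendsto_add_atTop_iff_nat 1).2 hs.hasSum.tendsto_sum_nat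
  refine ⟨∑' k, T k, fun f => ?_, fun hc => ?_⟩
  · have h1 := (ContinuousLinearMap.apply ℝ E f).continuous.continuousAt.tendsto.comp ht
    refine h1.congr fun n => ?_
    simp
  · refine isCompactOperator_of_tendsto ht (Eventually.of_forall fun n => ?_)
    have : ∀ s : Finset ℕ, IsCompactOperator (∑ k ∈ s, T k : E →L[ℝ] E) := by
      intro s
      classical
      induction s using Finset.induction_on with
      | empty => simpa using isCompactOperator_zero
      | insert i s hi ih => rw [Finset.sum_insert hi]; exact (hc i).add ih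
    exact this _

theorem norm_op0 {lam : ℝ} (hl : 0 < lam) (k : ℕ) :
    ‖KL (((mu m lam)⁻¹ * cf m lam k) • (tK (m + 2)) ^ k)‖ ≤ (mu m lam)⁻¹ * bb m lam k := by
  have hm := mu_pos (m := m) hl
  have hc := cf_pos (m := m) hl k
  refine norm_KL_le (by have := (bb_pos (m := m) hl k).le; positivity) fun x => ?_
  have h1 : ∀ y, |(((mu m lam)⁻¹ * cf m lam k) • (tK (m + 2)) ^ k) (x, y)|
      = ((mu m lam)⁻¹ * cf m lam k) * |((tK (m + 2)) ^ k) (x, y)| := fun y => by
    rw [ContinuousMap.smul_apply, smul_eq_mul, abs_mul, abs_of_pos (by positivity)]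
  simp_rw [h1]
  rw [integral_const_mul]
  unfold bb
  rw [← mul_assoc]
  exact mul_le_mul_of_nonneg_left (schur0 k x) (by positivity)

theorem norm_op1 {lam : ℝ} (hl : 0 < lam) (a : Pr (m + 2)) (k : ℕ) :
    ‖KL ((mu m lam)⁻¹ • (cf m lam k • k1 m k a))‖ ≤ (mu m lam)⁻¹ * mass1 m lam k := by
  have hm := mu_pos (m := m) hl
  refine norm_KL_le (by have := mass1_nonneg (m := m) hl k; positivity) fun x => ?_
  have h1 : ∀ y, |((mu m lam)⁻¹ • (cf m lam k • k1 m k a)) (x, y)|
      = (mu m lam)⁻¹ * |(cf m lam k • k1 m k a) (x, y)| := fun y => by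
    rw [ContinuousMap.smul_apply, smul_eq_mul, abs_mul, abs_of_pos (by positivity)]
  simp_rw [h1]
  rw [integral_const_mul]
  exact mul_le_mul_of_nonneg_left (schur1' hl k a x) (by positivity)

theorem exists_G {lam : ℝ} (hl : 0 < lam) :
    ∃ A : C(SS (m + 2), ℝ) →L[ℝ] C(SS (m + 2), ℝ), (∀ f, Tendsto (fun n =>
      ∑ k ∈ Finset.range (n + 1), KL (((mu m lam)⁻¹ * cf m lam k) • (tK (m + 2)) ^ k) f)
      atTop (𝓝 (A f)))
      ∧ ((∀ k, IsCompactOperator (KL (((mu m lam)⁻¹ * cf m lam k) • (tK (m + 2)) ^ k)))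
        → IsCompactOperator A) := op_series
  (fun k => KL (((mu m lam)⁻¹ * cf m lam k) • (tK (m + 2)) ^ k))
  ((summable_bb (m := m) hl).mul_left (mu m lam)⁻¹) (norm_op0 hl)

theorem exists_G1 {lam : ℝ} (hl : 0 < lam) (a : Pr (m + 2)) :
    ∃ A : C(SS (m + 2), ℝ) →L[ℝ] C(SS (m + 2), ℝ), (∀ f, Tendsto (fun n =>
      ∑ k ∈ Finset.range (n + 1), KL ((mu m lam)⁻¹ • (cf m lam k • k1 m k a)) f)
      atTop (𝓝 (A f)))
      ∧ ((∀ k, IsCompactOperator (KL ((mu m lam)⁻¹ • (cf m lam k • k1 m k a))))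
        → IsCompactOperator A) := op_series
  (fun k => KL ((mu m lam)⁻¹ • (cf m lam k • k1 m k a)))
  ((summable_mass1 (m := m) hl).mul_left (mu m lam)⁻¹) (norm_op1 hl a)

/-- the resolvent `(λ - Δ)⁻¹` -/
noncomputable def G (m : ℕ) {lam : ℝ} (hl : 0 < lam) : C(SS (m + 2), ℝ) →L[ℝ] C(SS (m + 2), ℝ) :=
  Classical.choose (exists_G (m := m) hl)

/-- rotation derivatives of the resolvent -/
noncomputable def G1 (m : ℕ) {lam : ℝ} (hl : 0 < lam) (a : Pr (m + 2)) :
    C(SS (m + 2), ℝ) →L[ℝ] C(SS (m + 2), ℝ) :=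
  Classical.choose (exists_G1 (m := m) hl a)

/-- partial sums -/
noncomputable def GN (m : ℕ) (lam : ℝ) (n : ℕ) (f : C(SS (m + 2), ℝ)) : C(SS (m + 2), ℝ) :=
  (mu m lam)⁻¹ • ∑ k ∈ Finset.range (n + 1), cf m lam k • Kop ((tK (m + 2)) ^ k) f

noncomputable def GN1 (m : ℕ) (lam : ℝ) (a : Pr (m + 2)) (n : ℕ) (f : C(SS (m + 2), ℝ)) :
    C(SS (m + 2), ℝ) :=
  (mu m lam)⁻¹ • ∑ k ∈ Finset.range (n + 1), cf m lam k • Kop (k1 m k a) f

noncomputable def GN2 (m : ℕ) (lam : ℝ) (a : Pr (m + 2)) (n : ℕ) (f : C(SS (m + 2), ℝ)) :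
    C(SS (m + 2), ℝ) :=
  (mu m lam)⁻¹ • ∑ k ∈ Finset.range (n + 1), cf m lam k • Kop (k2 m k a) f

theorem tendsto_GN_apply {lam : ℝ} (hl : 0 < lam) (f : C(SS (m + 2), ℝ)) :
    Tendsto (fun n => GN m lam n f) atTop (𝓝 (G m hl f)) := by
  have h := (Classical.choose_spec (exists_G (m := m) hl)).1 f
  refine h.congr fun n => ?_
  rw [GN, Finset.smul_sum]
  refine Finset.sum_congr rfl fun k _ => ?_
  rw [KL_apply, Kop_smul_left, smul_smul]

theorem tendsto_GN1_apply {lam : ℝ} (hl : 0 < lam) (a : Pr (m + 2)) (f : C(SS (m + 2), ℝ)) :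
    Tendsto (fun n => GN1 m lam a n f) atTop (𝓝 (G1 m hl a f)) := by
  have h := (Classical.choose_spec (exists_G1 (m := m) hl a)).1 f
  refine h.congr fun n => ?_
  rw [GN1, Finset.smul_sum]
  refine Finset.sum_congr rfl fun k _ => ?_
  rw [KL_apply, Kop_smul_left, Kop_smul_left]

theorem hasRot_GN (lam : ℝ) (a : Pr (m + 2)) (n : ℕ) (f : C(SS (m + 2), ℝ)) :
    HasRot a (GN m lam n f) (GN1 m lam a n f) :=
  (HasRot.sum fun k _ => (HasRot.Kop (hasRot_k0 k a) f).smul _).smul _

theorem hasRot_GN1 (lam : ℝ) (a : Pr (m + 2)) (n : ℕ) (f : C(SS (m + 2), ℝ)) :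
    HasRot a (GN1 m lam a n f) (GN2 m lam a n f) :=
  (HasRot.sum fun k _ => (HasRot.Kop (hasRot_k1 k a) f).smul _).smul _

/-- (R2) -/
theorem hasRot_G {lam : ℝ} (hl : 0 < lam) (a : Pr (m + 2)) (f : C(SS (m + 2), ℝ)) :
    HasRot a (G m hl f) (G1 m hl a f) :=
  HasRot.tendsto (tendsto_GN_apply hl f) (tendsto_GN1_apply hl a f)
    (fun n => hasRot_GN lam a n f)

/-- pointwise telescoping -/
theorem telescope (lam : ℝ) (n : ℕ) (x y : SS (m + 2)) :
    ∑ k ∈ Finset.range (n + 1), cf m lam k * (lam * (tt x y) ^ k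
      - ∑ a : Pr (m + 2), k2 m k a (x, y)) = DN m lam n (x, y) := by
  induction n with
  | zero =>
    have h0 : ∀ a : Pr (m + 2), k2 m 0 a (x, y) = 0 := fun a => by simp [k2]
    simp [h0, DN_apply, cf]
  | succ n ih =>
    rw [Finset.sum_range_succ, ih, sum_k2_succ, DN_apply, DN_apply]
    have h := cf_succ (m := m) (lam := lam) n
    push_cast
    linear_combination (-(tt x y) ^ n) * h

theorem GN_eq (lam : ℝ) (n : ℕ) (f : C(SS (m + 2), ℝ)) :
    lam • GN m lam n f - ∑ a : Pr (m + 2), GN2 m lam a n f = (mu m lam)⁻¹ • Kop (DN m lam n) f := by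
  have h1 : DN m lam n = ∑ k ∈ Finset.range (n + 1), cf m lam k • (lam • (tK (m + 2)) ^ k
      + (-1 : ℝ) • ∑ a : Pr (m + 2), k2 m k a) := by
    ext ⟨x, y⟩
    rw [← telescope]
    simp only [ContinuousMap.sum_apply, ContinuousMap.smul_apply, ContinuousMap.add_apply,
      ContinuousMap.pow_apply, tK_apply, smul_eq_mul]
    exact Finset.sum_congr rfl fun k _ => by ring
  have h2 : Kop (DN m lam n) f = ∑ k ∈ Finset.range (n + 1), cf m lam k •
      (lam • Kop ((tK (m + 2)) ^ k) f - ∑ a : Pr (m + 2), Kop (k2 m k a) f) := by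
    rw [h1, Kop_sum_left]
    refine Finset.sum_congr rfl fun k _ => ?_
    rw [Kop_smul_left, Kop_add_left, Kop_smul_left, Kop_smul_left, Kop_sum_left, neg_one_smul,
      ← sub_eq_add_neg]
  rw [h2, GN]
  simp only [GN2]
  rw [← Finset.smul_sum, smul_comm lam, ← smul_sub, Finset.sum_comm, Finset.smul_sum,
    ← Finset.sum_sub_distrib]
  congr 1
  refine Finset.sum_congr rfl fun k _ => ?_
  rw [smul_sub, smul_comm lam, Finset.smul_sum]

/-- the tested functional is continuous -/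
theorem tendsto_pair {ι : Type*} {l : Filter ι} {F : ι → C(SS (m + 2), ℝ)} {f : C(SS (m + 2), ℝ)}
    (h : Tendsto F l (𝓝 f)) (φ : C(SS (m + 2), ℝ)) :
    Tendsto (fun i => ∫ x, F i x * φ x ∂(sig (m + 2))) l (𝓝 (∫ x, f x * φ x ∂(sig (m + 2)))) := by
  have h1 : Tendsto (fun i => ‖F i - f‖ * (‖φ‖ * (sig (m + 2)).real Set.univ)) l (𝓝 0) := by
    have := (tendsto_iff_norm_sub_tendsto_zero.1 h).mul_const (‖φ‖ * (sig (m + 2)).real Set.univ)
    simpa using this
  rw [tendsto_iff_norm_sub_tendsto_zero]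
  refine squeeze_zero (fun i => norm_nonneg _) (fun i => ?_) h1
  rw [← integral_sub (integrable_cont (by fun_prop)) (integrable_cont (by fun_prop))]
  calc ‖∫ x, (F i x * φ x - f x * φ x) ∂(sig (m + 2))‖
      ≤ ∫ x, ‖F i x * φ x - f x * φ x‖ ∂(sig (m + 2)) := norm_integral_le_integral_norm _
    _ ≤ ∫ _, ‖F i - f‖ * ‖φ‖ ∂(sig (m + 2)) := by
        refine integral_mono (integrable_cont (by fun_prop)) (integrable_const _) fun x => ?_
        show ‖F i x * φ x - f x * φ x‖ ≤ ‖F i - f‖ * ‖φ‖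
        rw [← sub_mul, norm_mul]
        exact mul_le_mul ((F i - f).norm_coe_le_norm x) (φ.norm_coe_le_norm x) (norm_nonneg _)
          (norm_nonneg _)
    _ = ‖F i - f‖ * (‖φ‖ * (sig (m + 2)).real Set.univ) := by
        rw [integral_const, smul_eq_mul]; ring

/-- (R3) weak form of `(λ - Δ) G f = f` -/
theorem weak_G {lam : ℝ} (hl : 0 < lam) (f φ : C(SS (m + 2), ℝ))
    (φ' : Pr (m + 2) → C(SS (m + 2), ℝ)) (hφ : ∀ a, HasRot a φ (φ' a)) :
    ∑ a : Pr (m + 2), ∫ x, G1 m hl a f x * φ' a x ∂(sig (m + 2))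
      + lam * ∫ x, G m hl f x * φ x ∂(sig (m + 2)) = ∫ x, f x * φ x ∂(sig (m + 2)) := by
  have h1 : ∀ n, ∑ a : Pr (m + 2), ∫ x, GN1 m lam a n f x * φ' a x ∂(sig (m + 2))
      + lam * ∫ x, GN m lam n f x * φ x ∂(sig (m + 2))
      = (mu m lam)⁻¹ * ∫ x, Kop (DN m lam n) f x * φ x ∂(sig (m + 2)) := by
    intro n
    have e1 : ∀ a : Pr (m + 2), ∫ x, GN1 m lam a n f x * φ' a x ∂(sig (m + 2))
        = - ∫ x, GN2 m lam a n f x * φ x ∂(sig (m + 2)) := fun a => by
      rw [(hasRot_GN1 lam a n f).ibp (hφ a), neg_neg]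
    simp_rw [e1]
    have e2 := GN_eq lam n f
    have e3 : ∫ x, (lam • GN m lam n f - ∑ a : Pr (m + 2), GN2 m lam a n f) x * φ x ∂(sig (m + 2))
        = lam * ∫ x, GN m lam n f x * φ x ∂(sig (m + 2))
          - ∑ a : Pr (m + 2), ∫ x, GN2 m lam a n f x * φ x ∂(sig (m + 2)) := by
      rw [← integral_const_mul, ← integral_finsetSum _ (fun a _ => integrable_cont (by fun_prop)),
        ← integral_sub (integrable_cont (by fun_prop)) (integrable_cont (by fun_prop))]
      refine integral_congr_ae (Eventually.of_forall fun x => ?_)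
      simp only [ContinuousMap.sub_apply, ContinuousMap.smul_apply, ContinuousMap.sum_apply,
        smul_eq_mul, sub_mul, Finset.sum_mul]
      ring
    rw [Finset.sum_neg_distrib, add_comm, ← sub_eq_add_neg, ← e3, e2, ← integral_const_mul]
    refine integral_congr_ae (Eventually.of_forall fun x => ?_)
    simp only [ContinuousMap.smul_apply, smul_eq_mul]
    ring
  have t1 : Tendsto (fun n => ∑ a : Pr (m + 2), ∫ x, GN1 m lam a n f x * φ' a x ∂(sig (m + 2))
      + lam * ∫ x, GN m lam n f x * φ x ∂(sig (m + 2))) atTop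
      (𝓝 (∑ a : Pr (m + 2), ∫ x, G1 m hl a f x * φ' a x ∂(sig (m + 2))
      + lam * ∫ x, G m hl f x * φ x ∂(sig (m + 2)))) :=
    (tendsto_finsetSum _ fun a _ => tendsto_pair (tendsto_GN1_apply hl a f) (φ' a)).add
      ((tendsto_pair (tendsto_GN_apply hl f) φ).const_mul lam)
  have t2 : Tendsto (fun n => (mu m lam)⁻¹ * ∫ x, Kop (DN m lam n) f x * φ x ∂(sig (m + 2))) atTop
      (𝓝 ((mu m lam)⁻¹ * ∫ x, ((lam * Sinf m lam) • f) x * φ x ∂(sig (m + 2)))) :=
    (tendsto_pair (tendsto_DN hl f) φ).const_mul _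
  have h2 := tendsto_nhds_unique t1 (t2.congr fun n => (h1 n).symm)
  rw [h2, ← integral_const_mul]
  refine integral_congr_ae (Eventually.of_forall fun x => ?_)
  have hm := (mu_pos (m := m) hl).ne'
  show (mu m lam)⁻¹ * ((lam * Sinf m lam) * f x * φ x) = f x * φ x
  rw [show lam * Sinf m lam = mu m lam from rfl]
  field_simp

/-! ### positivity, constants, rotations -/

theorem Kop_tK_const (k : ℕ) (c : ℝ) :
    Kop ((tK (m + 2)) ^ k) (ContinuousMap.const _ c) = ContinuousMap.const _ (c * tau m k) := by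
  ext x
  rw [Kop_apply]
  simp only [ContinuousMap.pow_apply, tK_apply, ContinuousMap.const_apply]
  rw [integral_mul_const, integral_tt_pow, mul_comm]

theorem tendsto_eval {ι : Type*} {l : Filter ι} {F : ι → C(SS (m + 2), ℝ)} {f : C(SS (m + 2), ℝ)}
    (h : Tendsto F l (𝓝 f)) (x : SS (m + 2)) : Tendsto (fun i => F i x) l (𝓝 (f x)) :=
  (ContinuousMap.tendsto_iff_tendstoUniformly.1 h).tendsto_at x

/-- (R1) constants -/
theorem G_const {lam : ℝ} (hl : 0 < lam) (c : ℝ) :
    G m hl (ContinuousMap.const _ c) = ContinuousMap.const _ (c / lam) := by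
  have h1 : ∀ n, GN m lam n (ContinuousMap.const _ c)
      = ContinuousMap.const _ ((mu m lam)⁻¹ * (c * Sb m lam n)) := by
    intro n
    ext x
    simp only [GN, Kop_tK_const, ContinuousMap.smul_apply, ContinuousMap.sum_apply,
      ContinuousMap.const_apply, smul_eq_mul, Sb, bb, Finset.mul_sum]
    exact Finset.sum_congr rfl fun k _ => by ring
  ext x
  have h2 := tendsto_eval (tendsto_GN_apply hl (ContinuousMap.const _ c)) x
  simp_rw [h1] at h2
  have h3 : Tendsto (fun n => (mu m lam)⁻¹ * (c * Sb m lam n)) atTop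
      (𝓝 ((mu m lam)⁻¹ * (c * Sinf m lam))) := ((tendsto_Sb hl).const_mul c).const_mul _
  have h4 := tendsto_nhds_unique h2 h3
  rw [h4, ContinuousMap.const_apply]
  unfold mu
  have := (Sinf_pos (m := m) hl).ne'
  field_simp

/-- (R1) quantitative positivity -/
theorem G_pos {lam : ℝ} (hl : 0 < lam) {f : C(SS (m + 2), ℝ)} (hf : ∀ x, 0 ≤ f x)
    (x : SS (m + 2)) : (mu m lam)⁻¹ * ∫ y, f y ∂(sig (m + 2)) ≤ G m hl f x := by
  have h2 := tendsto_eval (tendsto_GN_apply hl f) x
  refine ge_of_tendsto h2 (Eventually.of_forall fun n => ?_)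
  have hm := mu_pos (m := m) hl
  simp only [GN, ContinuousMap.smul_apply, ContinuousMap.sum_apply, smul_eq_mul]
  refine mul_le_mul_of_nonneg_left ?_ (by positivity)
  have h3 : ∀ k, 0 ≤ cf m lam k * Kop ((tK (m + 2)) ^ k) f x := fun k => by
    refine mul_nonneg (cf_pos hl k).le (integral_nonneg fun y => ?_)
    exact mul_nonneg (pow_nonneg (tt_nonneg _ _) _) (hf y)
  have h4 : ∫ y, f y ∂(sig (m + 2)) = cf m lam 0 * Kop ((tK (m + 2)) ^ 0) f x := by
    simp [cf, Kop_apply]
  rw [h4]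
  exact Finset.single_le_sum (f := fun k => cf m lam k * Kop ((tK (m + 2)) ^ k) f x)
    (fun k _ => h3 k) (by simp)

theorem G_nonneg {lam : ℝ} (hl : 0 < lam) {f : C(SS (m + 2), ℝ)} (hf : ∀ x, 0 ≤ f x)
    (x : SS (m + 2)) : 0 ≤ G m hl f x := by
  refine le_trans ?_ (G_pos hl hf x)
  have hm := mu_pos (m := m) hl
  exact mul_nonneg (by positivity) (integral_nonneg hf)

theorem G_mono {lam : ℝ} (hl : 0 < lam) {f g : C(SS (m + 2), ℝ)} (h : ∀ x, f x ≤ g x)
    (x : SS (m + 2)) : G m hl f x ≤ G m hl g x := by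
  have h1 := G_nonneg hl (f := g - f) (fun x => by
    rw [ContinuousMap.sub_apply]; linarith [h x]) x
  rw [map_sub, ContinuousMap.sub_apply] at h1
  linarith

/-- the zonal operators commute with rotation derivatives -/
theorem Kop_hasRot {a : Pr (m + 2)} {f f' : C(SS (m + 2), ℝ)} (h : HasRot a f f') (k : ℕ) :
    Kop (k1 m k a) f = Kop ((tK (m + 2)) ^ k) f' := by
  ext x
  rw [Kop_apply, Kop_apply]
  have h1 : ∀ y, (k1 m k a) (x, y) = - sec (k1 m k a) x y := fun y => by
    simp only [k1, sec_apply, ContinuousMap.smul_apply, ContinuousMap.mul_apply,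
      ContinuousMap.pow_apply, tK_apply, smul_eq_mul, wK_apply, tt_symm y x]
    ring
  have h2 : ∀ y, ((tK (m + 2)) ^ k) (x, y) = sec ((tK (m + 2)) ^ k) x y := fun y => by
    simp only [sec_apply, ContinuousMap.pow_apply, tK_apply, tt_symm y x]
  simp_rw [h1, h2, neg_mul]
  rw [integral_neg, (hasRot_k0 k a x).ibp h, neg_neg]

/-- (R4) `X_a (G f) = G (X_a f)` -/
theorem G1_eq {lam : ℝ} (hl : 0 < lam) {a : Pr (m + 2)} {f f' : C(SS (m + 2), ℝ)}
    (h : HasRot a f f') : G1 m hl a f = G m hl f' := by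
  refine tendsto_nhds_unique (tendsto_GN1_apply hl a f) ((tendsto_GN_apply hl f').congr fun n => ?_)
  simp only [GN, GN1, Kop_hasRot h]

end Crest.Agent.R246.Zon797
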